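import Crest.Agent.R281.OpB1_849

/-!
# R281 (S0424), DIV 7, lemma OPEN, part O2 (helper849), file 2: the inner products and the weak form

* `IsS L f` : smooth sections of `L`; `dbS f` : its `∂̄`;
* `ipQ K h q p`, `ipS K h f g` : the densities of the `L²` inner products;
* `adj_Q` : `∫ ⟨q, ∂̄f⟩ = - ∫ ⟨div q♯, f⟩`;
* `WHar P K h q` : `∫ ⟨q, ∂̄f⟩ = 0` for all smooth sections `f`; `WHar.dv` : `div q♯ = 0`;
* `har_hol'` : (O2.b) in the weak form.
-/

set_option autoImplicit false
set_option linter.unusedSectionVars false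

open Set Filter Topology Complex Matrix
open scoped ContDiff Matrix ComplexConjugate Manifold ComplexOrder

namespace Crest.Agent.R281.OpB_849

open Crest.Agent.R273 Crest.Agent.R275 Crest.Agent.R275.Geo Crest.Agent.R275.Core144
open Crest.Agent.R275.OmT75 (dl dl_mul)
open Crest.Agent.R275.SerG398 (dens)
open Crest.Agent.R273.Defs_333 Crest.Agent.R273.HM_333 Crest.Agent.R273.Kah_333
open Crest.Agent.R273.Vol_333
open Crest.Agent.R273.Fock_243 Crest.Agent.R273.Calc_243 Crest.Agent.R273.Bkn_243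
open Crest.Agent.R273.LamN127 Crest.Agent.R273.DVec_733 Crest.Agent.R273.DMet_733
open Crest.Agent.R273.DMetB_733 Crest.Agent.R273.StV_37
open Crest.Agent.R273.BKNa_37 Crest.Agent.R273.BKNb_37 Crest.Agent.R273.BKNc_37
open Crest.Agent.R273.BKNd_37 Crest.Agent.R273.BKNe_37

noncomputable section

variable {n : ℕ} {M : Type} [TopologicalSpace M] {A : Atl n M} (K : Kah A) {L : LB A}

/-- smooth sections of `L` -/
structure IsS (L : LB A) (f : A.ι → M → ℂ) : Prop where
  sm : ∀ i, A.SmAt i (f i)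
  tr : ∀ i j, ∀ x ∈ (A.e i).source ∩ (A.e j).source, f i x = L.g i j x * f j x

/-- `∂̄ f` -/
def dbS (f : A.ι → M → ℂ) : A.ι → M → Fin n → ℂ := fun i x k => A.db i k (f i) x

/-- sections as polyvectors of degree zero -/
def E0 (f : A.ι → M → ℂ) : A.ι → M → FI n → ℂ := fun i x => f i x • vac n

theorem vac_apply_empty : vac n ∅ = 1 := by simp [vac]

theorem vac_apply_ne {S : FI n} (hS : S ≠ ∅) : vac n S = 0 := by simp [vac, hS]

theorem Gam_vac' (m : Matrix (Fin n) (Fin n) ℂ) : Gam m *ᵥ vac n = vac n := by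
  unfold vac
  funext S
  rw [Matrix.mulVec_single_one]
  show Gam m S ∅ = _
  rw [Gam_vac]
  by_cases h : S = ∅
  · subst h; simp
  · simp [h]

theorem IsS.isV {f : A.ι → M → ℂ} (hf : IsS L f) : IsV L (E0 f) where
  sm i T := by
    by_cases hT : T = ∅
    · subst hT
      show A.SmAt i (fun x => f i x * vac n ∅)
      simp only [vac_apply_empty, mul_one]
      exact hf.sm i
    · show A.SmAt i (fun x => f i x * vac n T)
      simp only [vac_apply_ne hT, mul_zero]
      exact contDiffOn_const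
  tr i j x hx := by
    show f i x • vac n = L.g i j x • (Gam (Jm A j i x) *ᵥ (f j x • vac n))
    rw [Matrix.mulVec_smul, Gam_vac', hf.tr i j x hx, mul_smul]

theorem dbV_E0 (f : A.ι → M → ℂ) (i : A.ι) (k : Fin n) (x : M) :
    dbV (E0 f) i k x = dbS f i x k • vac n := by
  funext T
  by_cases hT : T = ∅
  · subst hT
    show A.db i k (fun y => f i y * vac n ∅) x = A.db i k (f i) x * vac n ∅
    simp only [vac_apply_empty, mul_one]
  · show A.db i k (fun y => f i y * vac n T) x = A.db i k (f i) x * vac n T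
    simp only [vac_apply_ne hT, mul_zero]
    rw [db_eq_dS]
    unfold dS
    simp

theorem IsS.dbS {f : A.ι → M → ℂ} (hf : IsS L f) : IsQ L (dbS f) where
  sm i k := (hf.sm i).db k
  tr i j x hx := by
    funext k
    have h1 := congrFun (dbV_law hf.isV hx k) ∅
    rw [dbV_E0, Matrix.mulVec_smul, Gam_vac', Pi.smul_apply, vac_apply_empty, smul_eq_mul,
      mul_one, Finset.sum_apply] at h1
    rw [h1, Pi.smul_apply, smul_eq_mul]
    show _ = L.g i j x * ∑ c, Jb A i j x k c * OpB_849.dbS f j x c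
    rw [Finset.mul_sum]
    refine Finset.sum_congr rfl fun c _ => ?_
    rw [dbV_E0]
    show conj (Jm A i j x c k) * (L.g i j x * (OpB_849.dbS f j x c * vac n ∅)) = _
    rw [vac_apply_empty]
    show _ = L.g i j x * (conj (Jm A i j x c k) * OpB_849.dbS f j x c)
    ring

/-- the divergence of a vector field with values in `L` is a section of `L` -/
theorem IsX.dv {X : A.ι → M → Fin n → ℂ} (hX : IsX L X) (h : HM L) : IsS L (dvX K h X) := by
  have h1 := delV_isV (HKL K h) hX.isV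
  refine ⟨fun i => ?_, fun i j x hx => ?_⟩
  · refine (h1.sm i ∅).congr fun z hz => ?_
    show dvX K h X i ((A.e i).symm z) = delV (HKL K h) (E1 X) i ((A.e i).symm z) ∅
    rw [delV_E1 K h X ((A.e i).map_target hz), Pi.smul_apply, vac_apply_empty, smul_eq_mul,
      mul_one]
  · have h2 := congrFun (h1.tr i j x hx) ∅
    rw [delV_E1 K h X hx.1, delV_E1 K h X hx.2, Matrix.mulVec_smul, Gam_vac', Pi.smul_apply,
      Pi.smul_apply, Pi.smul_apply, vac_apply_empty] at h2
    simpa using h2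

/-! ### the inner products -/

/-- density of the `L²` inner product of (0,1)-forms with values in `L` -/
def ipQ (h : HM L) (q p : A.ι → M → Fin n → ℂ) (i : A.ι) (x : M) : ℂ :=
  (K.g i x).det * h.w i x * (star (p i x) ⬝ᵥ shp K q i x)

/-- density of the `L²` inner product of sections of `L` -/
def ipS (h : HM L) (f g : A.ι → M → ℂ) (i : A.ι) (x : M) : ℂ :=
  (K.g i x).det * h.w i x * (f i x * conj (g i x))

theorem star_e1 (X : Fin n → ℂ) : star (e1 X) = e1 (star X) := by
  funext S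
  show conj (e1 X S) = e1 (star X) S
  by_cases hS : S.card = 1
  · obtain ⟨a, rfl⟩ := Finset.card_eq_one.1 hS
    rw [e1_apply, e1_apply]
    rfl
  · rw [e1_off _ hS, e1_off _ hS, map_zero]

theorem e1_dot (X Y : Fin n → ℂ) : e1 X ⬝ᵥ e1 Y = X ⬝ᵥ Y := by
  conv_lhs => rw [e1_eq X]
  rw [sum_dotProduct]
  show _ = ∑ a, X a * Y a
  refine Finset.sum_congr rfl fun a _ => ?_
  rw [smul_dotProduct, single_dotProduct, one_mul, e1_apply]
  rfl

theorem herm_i {i : A.ι} {x : M} (hx : x ∈ (A.e i).source) :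
    (((K.g i x)ᵀ)⁻¹)ᴴ = ((K.g i x)ᵀ)⁻¹ := (Ki_posDef K i hx).isHermitian

theorem ipQ_eq_inG (h : HM L) (q p : A.ι → M → Fin n → ℂ) {i : A.ι} {x : M}
    (hx : x ∈ (A.e i).source) :
    inG K (HKL K h) (E1 (shp K q)) (E1 (shp K p)) i x = ipQ K h q p i x := by
  unfold inG ipQ
  rw [HKL_w K h i hx]
  congr 1
  show star (e1 (shp K p i x)) ⬝ᵥ (Gam ((K.g i x)ᵀ) *ᵥ e1 (shp K q i x)) = _
  rw [Gam_e1, star_e1, e1_dot]
  show star (((K.g i x)ᵀ)⁻¹ *ᵥ p i x) ⬝ᵥ flt K (shp K q) i x = _
  rw [flt_shp K q hx, Matrix.star_mulVec, herm_i K hx, ← Matrix.dotProduct_mulVec]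
  rfl

theorem ipS_eq_inG (h : HM L) (f g : A.ι → M → ℂ) {i : A.ι} {x : M}
    (hx : x ∈ (A.e i).source) :
    inG K (HKL K h) (E0 f) (E0 g) i x = ipS K h f g i x := by
  unfold inG ipS
  rw [HKL_w K h i hx]
  congr 1
  show star (g i x • vac n) ⬝ᵥ (Gam ((K.g i x)ᵀ) *ᵥ (f i x • vac n)) = _
  rw [Matrix.mulVec_smul, Gam_vac']
  have h1 : star (g i x • vac n) ⬝ᵥ (f i x • vac n) =
      conj (g i x) * f i x * (star (vac n) ⬝ᵥ vac n) := by
    rw [star_smul, smul_dotProduct, dotProduct_smul]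
    simp only [smul_eq_mul]
    show star (g i x) * (f i x * _) = star (g i x) * f i x * _
    ring
  have h2 : star (vac n) ⬝ᵥ vac n = 1 := by
    unfold vac
    rw [dotProduct_single]
    simp
  rw [h1, h2]
  ring

theorem isD_congr {f g : A.ι → M → ℂ} (hf : IsD A f)
    (h : ∀ i, ∀ x ∈ (A.e i).source, g i x = f i x) : IsD A g where
  sm i := (hf.sm i).congr fun _ hz => h i _ ((A.e i).map_target hz)
  tr i j x hx := by rw [h i x hx.1, h j x hx.2, hf.tr i j x hx]

theorem ipQ_isD (h : HM L) {q p : A.ι → M → Fin n → ℂ} (hq : IsQ L q) (hp : IsQ L p) :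
    IsD A (ipQ K h q p) :=
  isD_congr (inG_isD (HKL K h) (hq.shp K).isV (hp.shp K).isV) fun _ _ hx =>
    (ipQ_eq_inG K h q p hx).symm

theorem ipS_isD (h : HM L) {f g : A.ι → M → ℂ} (hf : IsS L f) (hg : IsS L g) :
    IsD A (ipS K h f g) :=
  isD_congr (inG_isD (K := K) (HKL K h) hf.isV hg.isV) fun _ _ hx => (ipS_eq_inG K h f g hx).symm

theorem ipQ_nonneg (h : HM L) (q : A.ι → M → Fin n → ℂ) {i : A.ι} {x : M}
    (hx : x ∈ (A.e i).source) : 0 ≤ ipQ K h q q i x := by
  rw [← ipQ_eq_inG K h q q hx]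
  exact inG_nonneg K (HKL K h) _ i hx

theorem ipS_nonneg (h : HM L) (f : A.ι → M → ℂ) {i : A.ι} {x : M}
    (hx : x ∈ (A.e i).source) : 0 ≤ ipS K h f f i x := by
  rw [← ipS_eq_inG K h f f hx]
  exact inG_nonneg K (HKL K h) _ i hx

theorem ipS_eq_zero (h : HM L) {f : A.ι → M → ℂ} {i : A.ι} {x : M}
    (hx : x ∈ (A.e i).source) (h0 : ipS K h f f i x = 0) : f i x = 0 := by
  rw [← ipS_eq_inG K h f f hx] at h0
  have h1 := inG_eq_zero hx h0
  have h2 := congrFun h1 ∅
  simpa [E0, vac_apply_empty] using h2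

theorem ipQ_eq_zero (h : HM L) {q : A.ι → M → Fin n → ℂ} {i : A.ι} {x : M}
    (hx : x ∈ (A.e i).source) (h0 : ipQ K h q q i x = 0) : q i x = 0 := by
  rw [← ipQ_eq_inG K h q q hx] at h0
  have h1 : e1 (shp K q i x) = 0 := inG_eq_zero hx h0
  rw [← e1_zero] at h1
  rw [← flt_shp K q hx]
  unfold flt
  rw [e1_inj h1, Matrix.mulVec_zero]

/-! ### integration by parts -/

theorem detg_sm (i : A.ι) : A.SmAt i (fun x => (K.g i x).det) := smAt_det (K.sm i)

theorem W_sm (h : HM L) (i : A.ι) : A.SmAt i (fun x => (K.g i x).det * (h.w i x : ℂ)) :=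
  ContDiffOn.mul (detg_sm K i) (Complex.ofRealCLM.contDiff.comp_contDiffOn (h.sm i))

/-- the vector density `det g · w · X · conj f` -/
def YX (h : HM L) (X : A.ι → M → Fin n → ℂ) (f : A.ι → M → ℂ) (i : A.ι) (x : M) (l : Fin n) : ℂ :=
  (K.g i x).det * h.w i x * X i x l * conj (f i x)

theorem YX_V10 (h : HM L) {X : A.ι → M → Fin n → ℂ} (hX : IsX L X) {f : A.ι → M → ℂ}
    (hf : IsS L f) : V10 A (YX K h X f) where
  sm i l := ContDiffOn.mul (ContDiffOn.mul (W_sm K h i) (hX.sm i l)) (StV_37.smAt_conj (hf.sm i))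
  tr i j x hx b := by
    have h1 : ∑ a, A.J i j x b a * X i x a = L.g i j x * X j x b := by
      have e1 : Jm A i j x *ᵥ X i x = L.g i j x • X j x := by
        rw [hX.tr i j x hx, Matrix.mulVec_smul, Matrix.mulVec_mulVec, J_J ⟨hx.2, hx.1⟩,
          Matrix.one_mulVec]
      exact congrFun e1 b
    have h2 := w_law (HKL K h) hx
    rw [HKL_w K h i hx.1, HKL_w K h j hx.2] at h2
    have h3 : ∑ a, A.J i j x b a * YX K h X f i x a =
        (K.g i x).det * h.w i x * conj (f i x) * ∑ a, A.J i j x b a * X i x a := by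
      rw [Finset.mul_sum]
      refine Finset.sum_congr rfl fun a _ => ?_
      unfold YX
      ring
    rw [h3, h1, hf.tr i j x hx, map_mul]
    unfold YX
    linear_combination (conj (f j x) * X j x b) * h2

theorem div_YX (h : HM L) {X : A.ι → M → Fin n → ℂ} (hX : IsX L X) {f : A.ι → M → ℂ}
    (hf : IsS L f) {i : A.ι} {x : M} (hx : x ∈ (A.e i).source) :
    ∑ l, dl A i l (fun y => YX K h X f i y l) x =
      ipS K h (dvX K h X) f i x + (K.g i x).det * h.w i x * (star (dbS f i x) ⬝ᵥ X i x) := by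
  have hz := (A.e i).map_source hx
  have hW : ((K.g i x).det * (h.w i x : ℂ)) ≠ 0 := by
    rw [← HKL_w K h i hx]
    exact BKNd_37.w_ne (HKL K h) i hx
  have h1 : ∀ l, dl A i l (fun y => YX K h X f i y l) x =
      dl A i l (fun y => (K.g i y).det * h.w i y * X i y l) x * conj (f i x) +
        (K.g i x).det * h.w i x * X i x l * conj (A.db i l (f i) x) := by
    intro l
    have e0 : A.SmAt i (fun y => (K.g i y).det * (h.w i y : ℂ) * X i y l) :=
      ContDiffOn.mul (W_sm K h i) (hX.sm i l)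
    have e1 : DifferentiableAt ℝ (fun z => (fun y => (K.g i y).det * (h.w i y : ℂ) * X i y l)
        ((A.e i).symm z)) (A.e i x) := (sm_rd e0 hz).diff
    have e2 : DifferentiableAt ℝ (fun z => (fun y => conj (f i y)) ((A.e i).symm z)) (A.e i x) :=
      (sm_rd (StV_37.smAt_conj (hf.sm i)) hz).diff
    have e3 := dl_mul (a := l) (f := fun y => (K.g i y).det * (h.w i y : ℂ) * X i y l)
      (g := fun y => conj (f i y)) e1 e2 hx
    have e4 : dl A i l (fun y => conj (f i y)) x = conj (A.db i l (f i) x) := by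
      have e5 := db_conj i l (fun y => conj (f i y)) x
      simp only [Complex.conj_conj] at e5
      rw [← Complex.conj_conj (dl A i l (fun y => conj (f i y)) x), ← e5]
    rw [← e4]
    exact e3
  rw [Finset.sum_congr rfl fun l _ => h1 l, Finset.sum_add_distrib, ← Finset.sum_mul]
  congr 1
  · unfold ipS dvX
    rw [← mul_assoc, ← mul_assoc, mul_inv_cancel₀ hW, one_mul]
  · show _ = (K.g i x).det * h.w i x * ∑ l, conj (A.db i l (f i) x) * X i x l
    rw [Finset.mul_sum]
    exact Finset.sum_congr rfl fun l _ => by ring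

section compact

variable [T2Space M] [CompactSpace M] (P : Part A)

theorem totc_add {f g : A.ι → M → ℂ} (hf : ∀ i, A.SmAt i (f i)) (hg : ∀ i, A.SmAt i (g i)) :
    totc P (fun i x => f i x + g i x) = totc P f + totc P g := tot_add P _ hf hg

theorem totc_congr {f g : A.ι → M → ℂ} (h : ∀ i, ∀ x ∈ (A.e i).source, f i x = g i x) :
    totc P f = totc P g := tot_congr P _ fun i _ => h i

/-- `∫ ⟨q, ∂̄f⟩ = - ∫ ⟨div q♯, f⟩` -/
theorem adj_Q (h : HM L) {q : A.ι → M → Fin n → ℂ} (hq : IsQ L q) {f : A.ι → M → ℂ}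
    (hf : IsS L f) :
    totc P (ipQ K h q (dbS f)) = - totc P (ipS K h (dvX K h (shp K q)) f) := by
  have h1 := stokes10c P (YX_V10 K h (hq.shp K) hf)
  rw [totc_congr P fun i x hx => div_YX K h (hq.shp K) hf hx] at h1
  have h2 : totc P (fun i x => ipS K h (dvX K h (shp K q)) f i x +
      (K.g i x).det * h.w i x * (star (dbS f i x) ⬝ᵥ shp K q i x)) =
      totc P (ipS K h (dvX K h (shp K q)) f) + totc P (ipQ K h q (dbS f)) :=
    totc_add P (ipS_isD K h ((hq.shp K).dv K h) hf).sm (ipQ_isD K h hq hf.dbS).sm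
  rw [h2] at h1
  rw [eq_neg_iff_add_eq_zero, add_comm]
  exact h1

/-- weakly coclosed: orthogonal to `∂̄f` for all smooth sections `f` -/
def WHar (h : HM L) (q : A.ι → M → Fin n → ℂ) : Prop :=
  ∀ f, IsS L f → totc P (ipQ K h q (dbS f)) = 0

theorem WHar.dv {h : HM L} {q : A.ι → M → Fin n → ℂ} (hq : IsQ L q) (hw : WHar K P h q) :
    ∀ i, ∀ x ∈ (A.e i).source, dvX K h (shp K q) i x = 0 := by
  intro i x hx
  have hf := (hq.shp K).dv K h
  have h1 := hw _ hf
  rw [adj_Q K P h hq hf, neg_eq_zero] at h1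
  exact ipS_eq_zero K h hx (totc_eq_zero P (ipS_isD K h hf hf)
    (fun i x hx => ipS_nonneg K h _ hx) h1 i hx)

theorem wHar_of_dv {h : HM L} {q : A.ι → M → Fin n → ℂ} (hq : IsQ L q)
    (hv : ∀ i, ∀ x ∈ (A.e i).source, dvX K h (shp K q) i x = 0) : WHar K P h q := by
  intro f hf
  rw [adj_Q K P h hq hf, neg_eq_zero]
  rw [totc_congr P (g := fun _ _ => 0) fun i x hx => by unfold ipS; rw [hv i x hx]; simp]
  exact totc_zero P

/-- **(O2.b), weak form** -/
theorem har_hol' (hR : ∀ i, ∀ x ∈ (A.e i).source, cur (volK K) i x = 0) {h : HM L}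
    (hs : h.Semipos) {q : A.ι → M → Fin n → ℂ} (hq : IsQ L q) (hd : DbQ q)
    (hw : WHar K P h q) : HolX (shp K q) ∧ NulX h (shp K q) :=
  har_hol K P hR hs hq hd (hw.dv K P hq)

end compact

end

end Crest.Agent.R281.OpB_849
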