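import Crest.Agent.R281.OpB6_849

/-!
# R281 (S0424), DIV 7, lemma OPEN, part O2 (helper849), file 7: holomorphic sections

* `H0S L` : the kernel of `∇` on the degree 0 part of `Sec (BN L)`; finite dimensional;
* `isHS_of_ker`, `ofS_mem` : `H0S L` = holomorphic sections of `L` (`IsHS L univ`);
* `exists_GG` : if `L` is globally generated there is `GG L N`;
* `open_final'` : step (b) + (d) for `Q : H0S L → Sec (BN L)`.
-/

set_option autoImplicit false
set_option linter.unusedSectionVars false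

open Set Filter Topology Complex Matrix
open scoped ContDiff Matrix ComplexConjugate Manifold ComplexOrder

namespace Crest.Agent.R281.OpB_849

open Crest.Agent.R273 Crest.Agent.R275 Crest.Agent.R275.Geo Crest.Agent.R275.Core144
open Crest.Agent.R275.GC293
open Crest.Agent.R275.OmT75 (dl)
open Crest.Agent.R273.Defs_333 Crest.Agent.R273.HM_333 Crest.Agent.R273.Kah_333
open Crest.Agent.R273.Vol_333
open Crest.Agent.R273.Fock_243 Crest.Agent.R273.Calc_243 Crest.Agent.R273.Bkn_243
open Crest.Agent.R273.LamN127 Crest.Agent.R273.DVec_733 Crest.Agent.R273.DMet_733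
open Crest.Agent.R273.DMetB_733 Crest.Agent.R273.StV_37
open Crest.Agent.R273.BKNa_37 Crest.Agent.R273.BKNb_37 Crest.Agent.R273.BKNc_37
open Crest.Agent.R273.BKNd_37 Crest.Agent.R273.BKNe_37

noncomputable section

variable {n : ℕ} {M : Type} [TopologicalSpace M] {A : Atl n M} {L : LB A}

/-- holomorphic sections inside `Sec (BN L)` -/
def H0S (L : LB A) : Submodule ℂ (Sec (BN L)) where
  carrier := {u | Geo.pqL (BN L) 0 u = u ∧ nabL (BN L) u = 0}
  add_mem' := by
    rintro u v ⟨h1, h2⟩ ⟨h3, h4⟩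
    exact ⟨by rw [map_add, h1, h3], by rw [map_add, h2, h4, add_zero]⟩
  zero_mem' := ⟨map_zero _, map_zero _⟩
  smul_mem' := by
    rintro c u ⟨h1, h2⟩
    exact ⟨by rw [map_smul, h1], by rw [map_smul, h2, smul_zero]⟩

theorem mem_H0S {u : Sec (BN L)} :
    u ∈ H0S L ↔ Geo.pqL (BN L) 0 u = u ∧ nabL (BN L) u = 0 := Iff.rfl

/-- elements of the kernel are holomorphic sections -/
theorem isHS_of_ker {u : Sec (BN L)} (hu : nabL (BN L) u = 0) : IsHS L univ (sOf u) where
  hol i := by
    refine holAt_of_db ((sOf_isS u).sm i) fun x hx k => ?_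
    have h1 := congrFun (qOf_nab u hx) k
    rw [hu] at h1
    exact h1.symm
  off i x hx := by
    show oB (u.1 i x) ∅ = 0
    rw [u.2.2.1 i x hx]
    rfl
  tr i j x hx _ := (sOf_isS u).tr i j x hx

theorem isS_of_isHS {s : A.ι → M → ℂ} (hs : IsHS L univ s) : IsS L s where
  sm i := by
    have h1 : ContDiffOn ℝ ∞ (fun z => s i ((A.e i).symm z)) (A.e i).target := by
      have := (hs.hol i).contDiffOn isOpen_univ
      simpa using this
    exact h1
  tr i j x hx := hs.tr i j x hx (mem_univ x)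

/-- holomorphic sections are in the kernel -/
theorem ofS_mem {s : A.ι → M → ℂ} (hs : IsHS L univ s) : ofS s (isS_of_isHS hs) ∈ H0S L := by
  refine ⟨pqL_ofS _, ?_⟩
  rw [nab_ofS]
  refine sec_ext' fun i x hx => ?_
  rw [ofQ_val _ hx, oB_iB]
  have h1 : dbS s i x = 0 := by
    funext k
    exact (hs.hol i).db_zero isOpen_univ hx (mem_univ x) k
  rw [h1, e1_zero]
  rfl

/-- equality in `H0S` from equality of the sections -/
theorem H0S_ext {u v : Sec (BN L)} (hu : u ∈ H0S L) (hv : v ∈ H0S L)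
    (h : ∀ i, ∀ x ∈ (A.e i).source, sOf u i x = sOf v i x) : u = v := by
  rw [← hu.1, ← hv.1, ← ofS_sOf, ← ofS_sOf]
  refine sec_ext' fun i x hx => ?_
  rw [ofS_val _ hx, ofS_val _ hx, h i x hx]

section compact

variable [T2Space M] [CompactSpace M] [Finite A.ι] (P : Part A)

/-- elements of `H0S L` are in the range of every Hodge operator -/
theorem H_eq (T : HodgeH_803.HodgeOp P (BN L)) {u : Sec (BN L)} (hu : u ∈ H0S L) : T.H u = u := by
  have h1 := T.htpy u
  have h2 : T.K u = 0 := by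
    rw [← hu.1]
    exact T.Kpq0 u
  rw [h2, hu.2, map_zero, map_zero, add_zero, sub_eq_zero] at h1
  exact h1.symm

include P in
theorem H0S_fin : FiniteDimensional ℂ (H0S L) := by
  obtain ⟨T⟩ := HodgeH_803.exists_hodgeOp P (BN L) (nab_nab_BN L)
  have := T.smH.1
  have hle : H0S L ≤ LinearMap.range T.H := fun u hu => ⟨u, H_eq P T hu⟩
  exact Submodule.finiteDimensional_of_le hle

include P in
/-- a finite generating family -/
theorem exists_GG (hg : ∀ i, ∀ x ∈ (A.e i).source, ∃ s, IsHS L univ s ∧ s i x ≠ 0) :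
    ∃ (N : ℕ) (G : GG L N), ∀ a, ∃ u ∈ H0S L, G.s a = sOf u := by
  have hfd : FiniteDimensional ℂ (H0S L) := H0S_fin (L := L) P
  have hfree : Module.Free ℂ (H0S L) := Module.Free.of_divisionRing ℂ (H0S L)
  let b := Module.finBasis ℂ (H0S L)
  refine ⟨_, ⟨fun a => sOf (b a).1, fun a => isHS_of_ker (b a).2.2, fun i x hx => ?_⟩,
    fun a => ⟨(b a).1, (b a).2, rfl⟩⟩
  by_contra hcon
  push Not at hcon
  obtain ⟨s, hs, hne⟩ := hg i x hx
  apply hne
  -- the evaluation functional
  let ev : H0S L →ₗ[ℂ] ℂ :=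
    { toFun := fun u => sOf u.1 i x
      map_add' := fun _ _ => rfl
      map_smul' := fun _ _ => rfl }
  have h1 : ev = 0 := b.ext fun a => by
    rw [LinearMap.zero_apply]
    exact hcon a
  have h2 := LinearMap.congr_fun h1 ⟨ofS s (isS_of_isHS hs), ofS_mem hs⟩
  have h3 : sOf (ofS s (isS_of_isHS hs)) i x = 0 := h2
  rwa [sOf_ofS _ hx] at h3

include P in
/-- **steps (b) and (d) of lemma OPEN**, for a map `Q` on all holomorphic sections -/
theorem open_final' [SimplyConnectedSpace M] (hA : GoodA A) {K : Kah A}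
    (hR : ∀ i, ∀ x ∈ (A.e i).source, cur (volK K) i x = 0) {N : ℕ} (G : GG L N)
    {Q : H0S L → Sec (BN L)} (hQ : ∀ u, Q u ∈ HarS K (HKL K (fsL G)))
    {V : Set M} (hV : IsOpen V) (hne : V.Nonempty)
    (hc : ∀ u v i, ∀ x ∈ (A.e i).source, x ∈ V →
      sOf u.1 i x • shp K (qOf (Q v)) i x = sOf v.1 i x • shp K (qOf (Q u)) i x) (u : H0S L) :
    Geo.pqL (BN L) 1 (Q u) = 0 := by
  have h1 := eq_zero_of_ricci (s := fun u : H0S L => sOf u.1) (X := fun u => shp K (qOf (Q u)))
    hA P K hR (fun u => isHS_of_ker u.2.2) (fun i x hx => by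
      obtain ⟨a, ha⟩ := G.ne i x hx
      refine ⟨⟨_, ofS_mem (G.hs a)⟩, ?_⟩
      rwa [sOf_ofS _ hx])
    (fun u => (qOf_isQ (Q u)).shp K) (fun u => (har_qOf hR (hQ u)).1) hV hne hc u
  rw [← ofQ_qOf]
  refine sec_ext' fun i x hx => ?_
  rw [ofQ_val _ hx, oB_iB, q_eq_zero K hx (h1 i x hx), e1_zero]
  rfl

/-- verticality against all holomorphic sections -/
theorem har_vert' {K : Kah A} (hR : ∀ i, ∀ x ∈ (A.e i).source, cur (volK K) i x = 0) {N : ℕ}
    (G : GG L N) {w : Sec (BN L)} (hw : w ∈ HarS K (HKL K (fsL G))) (u v : Fin N)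
    {i : A.ι} {x : M} (hx : x ∈ (A.e i).source) (ha : G.s u i x ≠ 0) :
    ∑ l, shp K (qOf w) i x l * dl A i l (fun y => G.s v i y / G.s u i y) x = 0 := by
  have hz := (A.e i).map_source hx
  have hd : ∀ a, DifferentiableAt ℂ (fun z => G.s a i ((A.e i).symm z)) (A.e i x) := fun a =>
    (G.F_hol i a).differentiableAt ((A.e i).open_target.mem_nhds hz)
  have ha' : (fun z => G.s u i ((A.e i).symm z)) (A.e i x) ≠ 0 := by
    show G.s u i ((A.e i).symm (A.e i x)) ≠ 0
    rwa [(A.e i).left_inv hx]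
  have h1 : ∀ l, dl A i l (fun y => G.s v i y / G.s u i y) x =
      (dl A i l (G.s v i) x * G.s u i x - G.s v i x * dl A i l (G.s u i) x) / G.s u i x ^ 2 := by
    intro l
    have e3 : DifferentiableAt ℂ
        (fun z => G.s v i ((A.e i).symm z) / G.s u i ((A.e i).symm z)) (A.e i x) :=
      (hd v).mul ((hd u).inv ha')
    have e4 := OmT75.dl_mul (i := i) (a := l) (f := fun y => G.s v i y / G.s u i y)
      (g := G.s u i) (e3.restrictScalars ℝ) ((hd u).restrictScalars ℝ) hx
    have e5 : dl A i l (fun y => G.s v i y / G.s u i y * G.s u i y) x = dl A i l (G.s v i) x := by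
      rw [dl_eq_dS, dl_eq_dS]
      refine dS_congr ?_
      filter_upwards [(hd u).continuousAt.eventually_ne ha'] with z hz'
      exact div_mul_cancel₀ _ hz'
    rw [e5] at e4
    rw [e4]
    field_simp
    ring
  have h2 := har_vert hR G hw hx u v
  have h3 : ∑ l, shp K (qOf w) i x l * dl A i l (fun y => G.s v i y / G.s u i y) x =
      (G.s u i x * dX (shp K (qOf w)) (G.s v) i x -
        G.s v i x * dX (shp K (qOf w)) (G.s u) i x) / G.s u i x ^ 2 := by
    unfold dX
    rw [Finset.mul_sum, Finset.mul_sum, ← Finset.sum_sub_distrib, Finset.sum_div]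
    refine Finset.sum_congr rfl fun l _ => ?_
    rw [h1]
    ring
  rw [h3, h2, sub_self, zero_div]

end compact

end

end Crest.Agent.R281.OpB_849
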