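import Crest.Agent.R273.T8A_774
import Crest.Agent.R273.HodgeH_803
import Crest.Agent.R275.SupE_912
import Crest.Agent.R275.CnD_812

/-!
# R281 (S0424), OPEN-INST (M4) of #8087 (helper920), part 1: Sobolev bounds of all derivatives

`S0 P B` the scale of Sobolev norms of `KRL2_803` on the smooth sections of `B`.

* `sec` : the section `u` read in the chart `i`;
* `D_le` : `card (RI n) < 2 N`, `K` a compact part of the target of the chart `i`:
  `‖D^m u_i‖ ≤ C ‖u‖_{m+N}` on `K`;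
* `c0_le`, `c1_le` : the cases `m = 0`, `m = 1` (vector valued).
-/

set_option autoImplicit false
set_option linter.unusedSectionVars false
set_option linter.unusedVariables false

open Set Filter Topology Complex
open scoped ContDiff Matrix ComplexConjugate

namespace Crest.Agent.R281.OpC_920

open Crest.Agent.R275 Crest.Agent.R275.Geo Crest.Agent.R275.Tor812 Crest.Agent.R275.TorS666
  Crest.Agent.R275.C1d194 Crest.Agent.R275.C2812
open Crest.Agent.R273.KRL2_803 Crest.Agent.R273.Psl_774 Crest.Agent.R273.L2K_774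
open Crest.Agent.R273.T8_774 (nS_le_nrm0 nrm0_le_nS)

noncomputable section

variable {n : ℕ} {M : Type} [TopologicalSpace M] {A : Atl n M}

theorem smAt_vec {B : FBun A} (u : Sec B) (i : A.ι) :
    ContDiffOn ℝ ∞ (fun z => u.1 i ((A.e i).symm z)) (A.e i).target :=
  contDiffOn_pi.2 fun k => u.2.1 i k

section

variable [Finite A.ι] (P : Part A) {B : FBun A}

/-- **Sobolev bounds of all the derivatives** on compact parts of the charts -/
theorem D_le [T2Space M] (m : ℕ) {N : ℕ} (hN : Fintype.card (RI n) < 2 * N) {i : A.ι}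
    {K : Set (Cn n)} (hK : IsCompact K) (hKs : K ⊆ (A.e i).target) :
    ∃ C, 0 ≤ C ∧ ∀ u : Sec B, ∀ z ∈ K, ∀ k,
      ‖iteratedFDeriv ℝ m (fun z => u.1 i ((A.e i).symm z) k) z‖ ≤ C * (S0 P B).nrm (m + N) u := by
  classical
  set K' : Set M := (A.e i).symm '' K with hK'
  have hK'c : IsCompact K' := hK.image_of_continuousOn ((A.e i).continuousOn_symm.mono hKs)
  have hK's : K' ⊆ (A.e i).source := by
    rintro _ ⟨z, hz, rfl⟩
    exact (A.e i).map_target (hKs hz)
  obtain ⟨φ, h1, -, h2, h3, h4⟩ := QN2b734.exists_bump A hK'c (A.e i).open_source hK's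
  have hφ : A.Sm φ := QN2b734.sm_iff.2 h1
  have ha : IsAmp A i (fun x => ((φ x : ℝ) : ℂ) • (1 : Matrix B.κ B.κ ℂ)) :=
    isAmp_bump_const (hφ i) h3 h4 1
  obtain ⟨D, hD, hDb⟩ := CnD812.norm_D_le_nrm (d := RI n) hN m
  choose C hC0 hC using fun k : B.κ => nrm_loc_le P B ha (m + N) k
  obtain ⟨C', hC'0, hC'⟩ := nS_le_nrm0 P (B := B) (m + N)
  refine ⟨Sup912.cr n ^ m * (D * ((∑ k, C k) * C')), by
    have := Sup912.cr_nonneg n
    have h5 : 0 ≤ ∑ k, C k := Finset.sum_nonneg fun k _ => hC0 k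
    positivity, fun u z hz k => ?_⟩
  set F := loc A i (fun x => ((φ x : ℝ) : ℂ) • (1 : Matrix B.κ B.κ ℂ)) (u.1 i) with hF
  have hev : (fun z => u.1 i ((A.e i).symm z) k) =ᶠ[𝓝 z] fun z => F k (rc z) := by
    have hcont : ContinuousAt (A.e i).symm z := (A.e i).continuousAt_symm (hKs hz)
    filter_upwards [(A.e i).open_target.mem_nhds (hKs hz),
      hcont.eventually (eventually_nhdsSet_iff_forall.1 h2 _ ⟨z, hz, rfl⟩)] with y hy hy1
    have hys : (A.e i).symm y ∈ (A.e i).source := (A.e i).map_target hy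
    have h5 := loc_rc ha (u.2.1 i) k hys
    rw [(A.e i).right_inv hy, hy1, ofReal_one, one_smul, Matrix.one_mulVec] at h5
    exact h5.symm
  rw [(hev.iteratedFDeriv ℝ m).eq_of_nhds]
  refine (Sup912.norm_iteratedFDeriv_comp_rc_le (F k) m z).trans ?_
  rw [mul_assoc]
  refine mul_le_mul_of_nonneg_left ((hDb (F k) _).trans ?_) (pow_nonneg (Sup912.cr_nonneg n) m)
  rw [mul_assoc]
  refine mul_le_mul_of_nonneg_left ((hC k u).trans ?_) hD
  rw [mul_assoc]
  exact mul_le_mul (Finset.single_le_sum (f := C) (fun k _ => hC0 k) (Finset.mem_univ k)) (hC' u)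
    (nS_nonneg _ _ _ _) (Finset.sum_nonneg fun k _ => hC0 k)

/-- **(M4), values** -/
theorem c0_le [T2Space M] {t : ℕ} (ht : Fintype.card (RI n) < 2 * t) {i : A.ι}
    {K : Set (Cn n)} (hK : IsCompact K) (hKs : K ⊆ (A.e i).target) :
    ∃ C, 0 ≤ C ∧ ∀ u : Sec B, ∀ z ∈ K,
      ‖u.1 i ((A.e i).symm z)‖ ≤ C * (S0 P B).nrm t u := by
  obtain ⟨C, hC0, hC⟩ := D_le P (B := B) 0 ht hK hKs
  refine ⟨C, hC0, fun u z hz => ?_⟩
  refine (pi_norm_le_iff_of_nonneg (mul_nonneg hC0 (apply_nonneg _ _))).2 fun k => ?_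
  have h := hC u z hz k
  rwa [norm_iteratedFDeriv_zero, zero_add] at h

/-- **(M4), first derivatives** -/
theorem c1_le [T2Space M] {t : ℕ} (ht : Fintype.card (RI n) < 2 * (t - 1)) {i : A.ι}
    {K : Set (Cn n)} (hK : IsCompact K) (hKs : K ⊆ (A.e i).target) :
    ∃ C, 0 ≤ C ∧ ∀ u : Sec B, ∀ z ∈ K,
      ‖fderiv ℝ (fun z => u.1 i ((A.e i).symm z)) z‖ ≤ C * (S0 P B).nrm t u := by
  obtain ⟨C, hC0, hC⟩ := D_le P (B := B) 1 ht hK hKs
  have h1t : 1 + (t - 1) = t := by omega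
  refine ⟨C, hC0, fun u z hz => ?_⟩
  have hd : ∀ k, DifferentiableAt ℝ (fun z => u.1 i ((A.e i).symm z) k) z := fun k =>
    ((u.2.1 i k).contDiffAt ((A.e i).open_target.mem_nhds (hKs hz))).differentiableAt (by simp)
  rw [fderiv_pi hd]
  refine ContinuousLinearMap.opNorm_le_bound _ (mul_nonneg hC0 (apply_nonneg _ _)) fun v => ?_
  refine (pi_norm_le_iff_of_nonneg (mul_nonneg (mul_nonneg hC0 (apply_nonneg _ _))
    (norm_nonneg _))).2 fun k => ?_
  have h := hC u z hz k
  rw [norm_iteratedFDeriv_one, h1t] at h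
  rw [ContinuousLinearMap.pi_apply]
  exact (ContinuousLinearMap.le_opNorm _ v).trans (mul_le_mul_of_nonneg_right h (norm_nonneg _))

end

end

end Crest.Agent.R281.OpC_920
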