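import Crest.Agent.R281.OpC1_920
import Crest.Agent.R281.Op3b_569
import Mathlib.Analysis.Calculus.UniformLimitsDeriv

/-!
# R281 (S0424), OPEN-INST (M4) of #8087 (helper920), part 2: limits in `C¹`

* `C1F B v` : `v` is a compatible family of class `C¹` (a `C¹` section of `B`);
* `C1T l u v` : `u → v` along `l`, uniformly with the first derivatives on compact parts of the
  targets of the charts;
* `exists_lim` : a sequence of smooth sections which is Cauchy for `(S0 P B).nrm t`,
  `card (RI n) < 2 (t - 1)`, converges in this sense to a `C1F`; `lim_le` : the bounds of the limit;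
* `C1T_of_nrm` : convergence in `nrm t` implies `C1T`;
* `C1T.cc` : continuous convergence (569).
-/

set_option autoImplicit false
set_option linter.unusedSectionVars false
set_option linter.unusedVariables false

open Set Filter Topology Complex
open scoped ContDiff Matrix ComplexConjugate

namespace Crest.Agent.R281.OpC_920

open Crest.Agent.R275 Crest.Agent.R275.Geo Crest.Agent.R275.Tor812 Crest.Agent.R275.TorS666
  Crest.Agent.R275.C1d194 Crest.Agent.R275.C2812
open Crest.Agent.R273.KRL2_803 Crest.Agent.R273.Psl_774 Crest.Agent.R273.L2K_774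
open Crest.Agent.R273.HodgeH_803.HodgeOp (Cau)
open Crest.Agent.R281.Op3_569 (CC)

noncomputable section

variable {n : ℕ} {M : Type} [TopologicalSpace M] {A : Atl n M} {B : FBun A}

/-- `C¹` sections of `B` -/
structure C1F (B : FBun A) (v : A.ι → M → B.κ → ℂ) : Prop where
  c1 : ∀ i, ContDiffOn ℝ 1 (fun z => v i ((A.e i).symm z)) (A.e i).target
  off : ∀ i, ∀ x ∉ (A.e i).source, v i x = 0
  tr : ∀ i j, ∀ x ∈ (A.e i).source ∩ (A.e j).source, v i x = (B.τ i j x) *ᵥ (v j x)

theorem C1F.of_sec (u : Sec B) : C1F B u.1 :=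
  ⟨fun i => (smAt_vec u i).of_le (by exact_mod_cast le_top), u.2.2.1, u.2.2.2⟩

theorem C1F.add {v w : A.ι → M → B.κ → ℂ} (hv : C1F B v) (hw : C1F B w) :
    C1F B (fun i x => v i x + w i x) where
  c1 i := (hv.c1 i).add (hw.c1 i)
  off i x hx := by rw [hv.off i x hx, hw.off i x hx, add_zero]
  tr i j x hx := by rw [hv.tr i j x hx, hw.tr i j x hx, Matrix.mulVec_add]

theorem C1F.smul {v : A.ι → M → B.κ → ℂ} (hv : C1F B v) (c : ℂ) :
    C1F B (fun i x => c • v i x) where
  c1 i := (hv.c1 i).const_smul c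
  off i x hx := by rw [hv.off i x hx, smul_zero]
  tr i j x hx := by rw [hv.tr i j x hx, Matrix.mulVec_smul]

/-- a `C¹` section which is smooth in the charts is a section -/
theorem C1F.mem_sec {v : A.ι → M → B.κ → ℂ} (hv : C1F B v)
    (hs : ∀ i, ContDiffOn ℝ ∞ (fun z => v i ((A.e i).symm z)) (A.e i).target) : v ∈ Sec B :=
  ⟨fun i k => (contDiffOn_pi.1 (hs i)) k, hv.off, hv.tr⟩

/-- convergence in `C¹` on compact parts of the charts -/
structure C1T {σ : Type*} (l : Filter σ) (u : σ → A.ι → M → B.κ → ℂ) (v : A.ι → M → B.κ → ℂ) :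
    Prop where
  c0 : ∀ i, ∀ K : Set (Cn n), IsCompact K → K ⊆ (A.e i).target →
    TendstoUniformlyOn (fun p z => u p i ((A.e i).symm z)) (fun z => v i ((A.e i).symm z)) l K
  c1 : ∀ i, ∀ K : Set (Cn n), IsCompact K → K ⊆ (A.e i).target →
    TendstoUniformlyOn (fun p => fderiv ℝ (fun z => u p i ((A.e i).symm z)))
      (fderiv ℝ (fun z => v i ((A.e i).symm z))) l K

theorem C1T.comp {σ ρ : Type*} {l : Filter σ} {l' : Filter ρ} {u : σ → A.ι → M → B.κ → ℂ}
    {v : A.ι → M → B.κ → ℂ} (h : C1T l u v) {φ : ρ → σ} (hφ : Tendsto φ l' l) :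
    C1T l' (fun p => u (φ p)) v :=
  ⟨fun i K hK hKs s hs => hφ.eventually (h.c0 i K hK hKs s hs),
    fun i K hK hKs s hs => hφ.eventually (h.c1 i K hK hKs s hs)⟩

/-- continuous convergence of the values -/
theorem C1T.cc_vec {σ : Type*} {l : Filter σ} {u : σ → A.ι → M → B.κ → ℂ}
    {v : A.ι → M → B.κ → ℂ} (h : C1T l u v)
    (hv : ∀ i, ContinuousOn (fun z => v i ((A.e i).symm z)) (A.e i).target) (i : A.ι) {x : M}
    (hx : x ∈ (A.e i).source) : CC l (fun p => u p i) (v i) x := by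
  have hxt := (A.e i).map_source hx
  obtain ⟨r, hr, hrs⟩ := Metric.nhds_basis_closedBall.mem_iff.1 ((A.e i).open_target.mem_nhds hxt)
  have hU := h.c0 i _ (isCompact_closedBall (A.e i x) r) hrs
  have hcx : ContinuousAt (A.e i) x := (A.e i).continuousAt hx
  have hcv : ContinuousAt (fun z => v i ((A.e i).symm z)) (A.e i x) :=
    (hv i).continuousAt ((A.e i).open_target.mem_nhds hxt)
  unfold CC
  rw [Metric.tendsto_nhds]
  intro ε hε
  have h1 := (Metric.tendstoUniformlyOn_iff.1 hU) (ε / 2) (half_pos hε)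
  have h2 : ∀ᶠ y in 𝓝 x, A.e i y ∈ Metric.closedBall (A.e i x) r ∧ y ∈ (A.e i).source ∧
      dist (v i ((A.e i).symm (A.e i y))) (v i ((A.e i).symm (A.e i x))) < ε / 2 := by
    refine (hcx.eventually (Metric.closedBall_mem_nhds _ hr)).and
      ((show ∀ᶠ y in 𝓝 x, y ∈ (A.e i).source from (A.e i).open_source.mem_nhds hx).and ?_)
    exact (hcv.tendsto.comp hcx.tendsto).eventually (Metric.ball_mem_nhds _ (half_pos hε))
  filter_upwards [h1.prod_mk h2] with p hp
  obtain ⟨hp1, hp2, hp3, hp4⟩ := hp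
  have h3 := hp1 _ hp2
  simp only [(A.e i).left_inv hp3, (A.e i).left_inv hx] at h3 hp4
  rw [dist_comm] at h3
  calc dist (u p.1 i p.2) (v i x) ≤ dist (u p.1 i p.2) (v i p.2) + dist (v i p.2) (v i x) :=
        dist_triangle _ _ _
    _ < ε := by linarith

/-- continuous convergence of the components -/
theorem C1T.cc {σ : Type*} {l : Filter σ} {u : σ → A.ι → M → B.κ → ℂ}
    {v : A.ι → M → B.κ → ℂ} (h : C1T l u v)
    (hv : ∀ i, ContinuousOn (fun z => v i ((A.e i).symm z)) (A.e i).target) (i : A.ι) (k : B.κ)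
    {x : M} (hx : x ∈ (A.e i).source) : CC l (fun p x => u p i x k) (fun x => v i x k) x :=
  ((continuous_apply k).tendsto (v i x)).comp (h.cc_vec hv i hx)

/-! ### local limits -/

section loc

variable {E F : Type*} [NormedAddCommGroup E] [NormedSpace ℝ E] [ProperSpace E]
  [NormedAddCommGroup F] [NormedSpace ℝ F] [CompleteSpace F]

/-- a sequence of `C¹` functions which is Cauchy in `C¹` on the compact subsets of an open set
converges -/
theorem exists_lim_loc {U : Set E} (hU : IsOpen U) {f : ℕ → E → F}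
    (hf : ∀ m, ContDiffOn ℝ 1 (f m) U)
    (h0 : ∀ K, IsCompact K → K ⊆ U → UniformCauchySeqOn f atTop K)
    (h1 : ∀ K, IsCompact K → K ⊆ U → UniformCauchySeqOn (fun m => fderiv ℝ (f m)) atTop K)
    {g : E → F} (hg : ∀ z ∈ U, Tendsto (fun m => f m z) atTop (𝓝 (g z))) :
    ContDiffOn ℝ 1 g U ∧ (∀ K, IsCompact K → K ⊆ U → TendstoUniformlyOn f g atTop K) ∧
      ∀ K, IsCompact K → K ⊆ U →
        TendstoUniformlyOn (fun m => fderiv ℝ (f m)) (fderiv ℝ g) atTop K := by
  have hcau : ∀ z ∈ U, ∃ L, Tendsto (fun m => fderiv ℝ (f m) z) atTop (𝓝 L) := fun z hz =>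
    cauchySeq_tendsto_of_complete
      ((h1 {z} isCompact_singleton (singleton_subset_iff.2 hz)).cauchySeq rfl)
  classical
  choose! g' hg' using hcau
  have hT0 : ∀ K, IsCompact K → K ⊆ U → TendstoUniformlyOn f g atTop K := fun K hK hKU =>
    (h0 K hK hKU).tendstoUniformlyOn_of_tendsto fun z hz => hg z (hKU hz)
  have hT1 : ∀ K, IsCompact K → K ⊆ U →
      TendstoUniformlyOn (fun m => fderiv ℝ (f m)) g' atTop K := fun K hK hKU =>
    (h1 K hK hKU).tendstoUniformlyOn_of_tendsto fun z hz => hg' z (hKU hz)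
  have hL1 : TendstoLocallyUniformlyOn (fun m => fderiv ℝ (f m)) g' atTop U :=
    (tendstoLocallyUniformlyOn_iff_forall_isCompact hU).2 fun K hKU hK => hT1 K hK hKU
  have hd : ∀ m, ∀ z ∈ U, HasFDerivAt (f m) (fderiv ℝ (f m) z) z := fun m z hz =>
    (((hf m).contDiffAt (hU.mem_nhds hz)).differentiableAt one_ne_zero).hasFDerivAt
  have hgd : ∀ z ∈ U, HasFDerivAt g (g' z) z := fun z hz =>
    hasFDerivAt_of_tendstoLocallyUniformlyOn hU hL1 hd hg hz
  have hcont : ContinuousOn g' U := hL1.continuousOn (Frequently.of_forall fun m => by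
    exact ((hf m).continuousOn_fderiv_of_isOpen hU le_rfl))
  have hg'e : ∀ z ∈ U, fderiv ℝ g z = g' z := fun z hz => (hgd z hz).fderiv
  refine ⟨?_, hT0, fun K hK hKU => ?_⟩
  · have := (contDiffOn_succ_iff_fderiv_of_isOpen (𝕜 := ℝ) (n := 0) (f := g) hU).2
      ⟨fun z hz => (hgd z hz).differentiableAt.differentiableWithinAt, by simp,
        contDiffOn_zero.2 (hcont.congr hg'e)⟩
    simpa using this
  · exact (hT1 K hK hKU).congr_right fun z hz => (hg'e z (hKU hz)).symm

end loc

/-! ### limits of Cauchy sequences of sections -/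

section

variable [Finite A.ι] (P : Part A)

theorem fderiv_sub_sec (u w : Sec B) (i : A.ι) {z : Cn n} (hz : z ∈ (A.e i).target) :
    fderiv ℝ (fun z => (u - w).1 i ((A.e i).symm z)) z =
      fderiv ℝ (fun z => u.1 i ((A.e i).symm z)) z - fderiv ℝ (fun z => w.1 i ((A.e i).symm z)) z := by
  have h : ∀ u : Sec B, DifferentiableAt ℝ (fun z => u.1 i ((A.e i).symm z)) z := fun u =>
    ((smAt_vec u i).contDiffAt ((A.e i).open_target.mem_nhds hz)).differentiableAt (by simp)
  exact fderiv_fun_sub (h u) (h w)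

/-- convergence in the norm implies convergence in `C¹` -/
theorem C1T_of_nrm [T2Space M] {t : ℕ} (ht : Fintype.card (RI n) < 2 * (t - 1)) {σ : Type*}
    {l : Filter σ} {u : σ → Sec B} {v : Sec B}
    (h : Tendsto (fun p => (S0 P B).nrm t (u p - v)) l (𝓝 0)) :
    C1T l (fun p => (u p).1) v.1 := by
  constructor
  · intro i K hK hKs
    obtain ⟨C, hC0, hC⟩ := c0_le P (B := B) (t := t) (by omega) hK hKs
    rw [Metric.tendstoUniformlyOn_iff]
    intro ε hε
    have h1 := h.const_mul C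
    rw [mul_zero] at h1
    filter_upwards [(tendsto_order.1 h1).2 ε hε] with p hp z hz
    rw [dist_comm, dist_eq_norm]
    exact lt_of_le_of_lt (hC (u p - v) z hz) hp
  · intro i K hK hKs
    obtain ⟨C, hC0, hC⟩ := c1_le P (B := B) ht hK hKs
    rw [Metric.tendstoUniformlyOn_iff]
    intro ε hε
    have h1 := h.const_mul C
    rw [mul_zero] at h1
    filter_upwards [(tendsto_order.1 h1).2 ε hε] with p hp z hz
    rw [dist_comm, dist_eq_norm]
    have h2 := hC (u p - v) z hz
    rw [fderiv_sub_sec _ _ _ (hKs hz)] at h2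
    exact lt_of_le_of_lt h2 hp

/-- **(M4): Cauchy sequences of smooth sections converge in `C¹`** -/
theorem exists_lim [T2Space M] {t : ℕ} (ht : Fintype.card (RI n) < 2 * (t - 1))
    {u : ℕ → Sec B} (hu : Cau P B t u) :
    ∃ v : A.ι → M → B.κ → ℂ, C1F B v ∧ C1T atTop (fun m => (u m).1) v ∧
      ∀ i x, Tendsto (fun m => (u m).1 i x) atTop (𝓝 (v i x)) := by
  have hc0 : ∀ i, ∀ K, IsCompact K → K ⊆ (A.e i).target →
      UniformCauchySeqOn (fun m z => (u m).1 i ((A.e i).symm z)) atTop K := by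
    intro i K hK hKs
    obtain ⟨C, hC0, hC⟩ := c0_le P (B := B) (t := t) (by omega) hK hKs
    rw [Metric.uniformCauchySeqOn_iff]
    intro ε hε
    obtain ⟨N, hN⟩ := hu (ε / (C + 1)) (by positivity)
    refine ⟨N, fun m hm k hk z hz => ?_⟩
    rw [dist_eq_norm]
    refine lt_of_le_of_lt (hC (u m - u k) z hz) ?_
    have h1 := hN m hm k hk
    calc C * (S0 P B).nrm t (u m - u k) ≤ C * (ε / (C + 1)) := mul_le_mul_of_nonneg_left h1.le hC0
      _ < ε := by
        rw [mul_div_assoc', div_lt_iff₀ (by positivity)]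
        nlinarith
  have hc1 : ∀ i, ∀ K, IsCompact K → K ⊆ (A.e i).target →
      UniformCauchySeqOn (fun m => fderiv ℝ (fun z => (u m).1 i ((A.e i).symm z))) atTop K := by
    intro i K hK hKs
    obtain ⟨C, hC0, hC⟩ := c1_le P (B := B) ht hK hKs
    rw [Metric.uniformCauchySeqOn_iff]
    intro ε hε
    obtain ⟨N, hN⟩ := hu (ε / (C + 1)) (by positivity)
    refine ⟨N, fun m hm k hk z hz => ?_⟩
    rw [dist_eq_norm]
    have h2 := hC (u m - u k) z hz
    rw [fderiv_sub_sec _ _ _ (hKs hz)] at h2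
    refine lt_of_le_of_lt h2 ?_
    have h1 := hN m hm k hk
    calc C * (S0 P B).nrm t (u m - u k) ≤ C * (ε / (C + 1)) := mul_le_mul_of_nonneg_left h1.le hC0
      _ < ε := by
        rw [mul_div_assoc', div_lt_iff₀ (by positivity)]
        nlinarith
  have hpt : ∀ i x, ∃ y, Tendsto (fun m => (u m).1 i x) atTop (𝓝 y) := by
    intro i x
    by_cases hx : x ∈ (A.e i).source
    · have h1 := (hc0 i {A.e i x} isCompact_singleton
        (singleton_subset_iff.2 ((A.e i).map_source hx))).cauchySeq rfl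
      simp only [(A.e i).left_inv hx] at h1
      exact cauchySeq_tendsto_of_complete h1
    · exact ⟨0, tendsto_const_nhds.congr fun m => ((u m).2.2.1 i x hx).symm⟩
  choose v hv using hpt
  have hloc : ∀ i, _ := fun i => exists_lim_loc (A.e i).open_target
    (f := fun m z => (u m).1 i ((A.e i).symm z)) (g := fun z => v i ((A.e i).symm z))
    (fun m => (smAt_vec (u m) i).of_le (by exact_mod_cast le_top)) (hc0 i) (hc1 i)
    (fun z _ => hv i _)
  refine ⟨v, ⟨fun i => (hloc i).1, fun i x hx => ?_, fun i j x hx => ?_⟩,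
    ⟨fun i => (hloc i).2.1, fun i => (hloc i).2.2⟩, hv⟩
  · exact tendsto_nhds_unique (hv i x)
      (tendsto_const_nhds.congr fun m => ((u m).2.2.1 i x hx).symm)
  · have h1 : Tendsto (fun m => (B.τ i j x) *ᵥ ((u m).1 j x)) atTop
        (𝓝 ((B.τ i j x) *ᵥ (v j x))) :=
      ((Continuous.matrix_mulVec continuous_const continuous_id).tendsto (v j x)).comp (hv j x)
    exact tendsto_nhds_unique (hv i x) (h1.congr fun m => ((u m).2.2.2 i j x hx).symm)

/-- **the bounds pass to the limit**: the constant depends on `K` only -/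
theorem lim_le [T2Space M] {t : ℕ} (ht : Fintype.card (RI n) < 2 * (t - 1)) {i : A.ι}
    {K : Set (Cn n)} (hK : IsCompact K) (hKs : K ⊆ (A.e i).target) :
    ∃ C, 0 ≤ C ∧ ∀ (u : ℕ → Sec B) (v : A.ι → M → B.κ → ℂ), C1T atTop (fun m => (u m).1) v →
      ∀ R : ℝ, (∃ᶠ m in atTop, (S0 P B).nrm t (u m) ≤ R) → ∀ z ∈ K,
        ‖v i ((A.e i).symm z)‖ ≤ C * R ∧
        ‖fderiv ℝ (fun z => v i ((A.e i).symm z)) z‖ ≤ C * R := by
  obtain ⟨C, hC0, hC⟩ := c0_le P (B := B) (t := t) (by omega) hK hKs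
  obtain ⟨D, hD0, hD⟩ := c1_le P (B := B) ht hK hKs
  refine ⟨max C D, le_max_of_le_left hC0, fun u v huv R hR z hz => ?_⟩
  have h0 := ((huv.c0 i K hK hKs).tendsto_at hz).norm
  have h1 := ((huv.c1 i K hK hKs).tendsto_at hz).norm
  have key : ∀ m, (S0 P B).nrm t (u m) ≤ R →
      ‖(u m).1 i ((A.e i).symm z)‖ ≤ max C D * R ∧
      ‖fderiv ℝ (fun z => (u m).1 i ((A.e i).symm z)) z‖ ≤ max C D * R := by
    intro m hm
    have h2 : 0 ≤ (S0 P B).nrm t (u m) := apply_nonneg _ _
    exact ⟨(hC (u m) z hz).trans (mul_le_mul (le_max_left _ _) hm h2 (le_max_of_le_left hC0)),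
      (hD (u m) z hz).trans (mul_le_mul (le_max_right _ _) hm h2 (le_max_of_le_left hC0))⟩
  exact ⟨le_of_tendsto_of_frequently h0 (hR.mono fun m hm => (key m hm).1),
    le_of_tendsto_of_frequently h1 (hR.mono fun m hm => (key m hm).2)⟩

end

end

end Crest.Agent.R281.OpC_920
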