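import Crest.Agent.R281.OpC2_920
import Crest.Agent.R273.SerA_945

/-!
# R281 (S0424), OPEN-INST (M4) of #8087 (helper920), part 3: families of limits, line bundles

* `exists_lim_fam` : small corrections `w p : ℕ → Sec B` (Cauchy, `nrm t ≤ R p`, `R → 0` along `l`)
  of a smooth section `u0` have `C¹` limits `v p` and `u0 + v p → u0` in `C¹`;
* `C1F.comp0` : the degree zero component of a `C¹` section of `BN N` is a `C¹` section of `N`.
-/

set_option autoImplicit false
set_option linter.unusedSectionVars false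
set_option linter.unusedVariables false

open Set Filter Topology Complex
open scoped ContDiff Matrix ComplexConjugate

namespace Crest.Agent.R281.OpC_920

open Crest.Agent.R275 Crest.Agent.R275.Geo Crest.Agent.R275.Core144
open Crest.Agent.R273.KRL2_803 Crest.Agent.R273.LamN127
open Crest.Agent.R273.HodgeH_803.HodgeOp (Cau)
open Crest.Agent.R281.Op3_569 (CC)

noncomputable section

variable {n : ℕ} {M : Type} [TopologicalSpace M] {A : Atl n M} {B : FBun A}

/-- families bounded by `R → 0` in `C¹` on compact parts converge to zero after adding `u0` -/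
theorem C1T_add_small {σ : Type*} {l : Filter σ} {u0 : A.ι → M → B.κ → ℂ} (hu0 : C1F B u0)
    {v : σ → A.ι → M → B.κ → ℂ} (hv : ∀ p, C1F B (v p)) {R : σ → ℝ} (hR : Tendsto R l (𝓝 0))
    (hb : ∀ i, ∀ K : Set (Cn n), IsCompact K → K ⊆ (A.e i).target → ∃ C, 0 ≤ C ∧ ∀ p, ∀ z ∈ K,
      ‖v p i ((A.e i).symm z)‖ ≤ C * R p ∧
      ‖fderiv ℝ (fun z => v p i ((A.e i).symm z)) z‖ ≤ C * R p) :
    C1T l (fun p i x => u0 i x + v p i x) u0 := by
  constructor
  · intro i K hK hKs
    obtain ⟨C, hC0, hC⟩ := hb i K hK hKs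
    rw [Metric.tendstoUniformlyOn_iff]
    intro ε hε
    have h1 := hR.const_mul C
    rw [mul_zero] at h1
    filter_upwards [(tendsto_order.1 h1).2 ε hε] with p hp z hz
    rw [dist_self_add_right]
    exact lt_of_le_of_lt (hC p z hz).1 hp
  · intro i K hK hKs
    obtain ⟨C, hC0, hC⟩ := hb i K hK hKs
    rw [Metric.tendstoUniformlyOn_iff]
    intro ε hε
    have h1 := hR.const_mul C
    rw [mul_zero] at h1
    filter_upwards [(tendsto_order.1 h1).2 ε hε] with p hp z hz
    have hd : ∀ {w : A.ι → M → B.κ → ℂ}, C1F B w →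
        DifferentiableAt ℝ (fun z => w i ((A.e i).symm z)) z := fun hw =>
      ((hw.c1 i).contDiffAt ((A.e i).open_target.mem_nhds (hKs hz))).differentiableAt one_ne_zero
    have e : fderiv ℝ (fun z => u0 i ((A.e i).symm z) + v p i ((A.e i).symm z)) z =
        fderiv ℝ (fun z => u0 i ((A.e i).symm z)) z +
        fderiv ℝ (fun z => v p i ((A.e i).symm z)) z := fderiv_fun_add (hd hu0) (hd (hv p))
    show dist _ (fderiv ℝ (fun z => u0 i ((A.e i).symm z) + v p i ((A.e i).symm z)) z) < ε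
    rw [e, dist_self_add_right]
    exact lt_of_le_of_lt (hC p z hz).2 hp

/-- **(M4) for alternative (A) of LEMMA A'** -/
theorem exists_lim_fam [Finite A.ι] (P : Part A) [T2Space M] {t : ℕ}
    (ht : Fintype.card (RI n) < 2 * (t - 1)) {σ : Type*} {l : Filter σ} {u0 : Sec B}
    {w : σ → ℕ → Sec B} (hw : ∀ p, Cau P B t (w p)) {R : σ → ℝ} (hR : Tendsto R l (𝓝 0))
    (hb : ∀ p m, (S0 P B).nrm t (w p m) ≤ R p) :
    ∃ v : σ → A.ι → M → B.κ → ℂ, (∀ p, C1F B (v p)) ∧
      (∀ p, C1T atTop (fun m => (w p m).1) (v p)) ∧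
      (∀ p i x, Tendsto (fun m => (w p m).1 i x) atTop (𝓝 (v p i x))) ∧
      C1T l (fun p i x => u0.1 i x + v p i x) u0.1 := by
  choose v h1 h2 h3 using fun p => exists_lim P ht (hw p)
  refine ⟨v, h1, h2, h3, C1T_add_small (C1F.of_sec u0) h1 hR fun i K hK hKs => ?_⟩
  obtain ⟨C, hC0, hC⟩ := lim_le P (B := B) ht hK hKs
  exact ⟨C, hC0, fun p z hz => hC (w p) (v p) (h2 p) (R p)
    (Frequently.of_forall fun m => hb p m) z hz⟩

/-- sums of the approximations -/
theorem C1T.const_add {σ : Type*} {l : Filter σ} {u : σ → A.ι → M → B.κ → ℂ}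
    {v u0 : A.ι → M → B.κ → ℂ} (h : C1T l u v) (hu : ∀ p, C1F B (u p)) (hv : C1F B v)
    (hu0 : C1F B u0) : C1T l (fun p i x => u0 i x + u p i x) (fun i x => u0 i x + v i x) := by
  constructor
  · intro i K hK hKs
    rw [Metric.tendstoUniformlyOn_iff]
    intro ε hε
    filter_upwards [(Metric.tendstoUniformlyOn_iff.1 (h.c0 i K hK hKs)) ε hε] with p hp z hz
    rw [dist_add_left]
    exact hp z hz
  · intro i K hK hKs
    rw [Metric.tendstoUniformlyOn_iff]
    intro ε hε
    filter_upwards [(Metric.tendstoUniformlyOn_iff.1 (h.c1 i K hK hKs)) ε hε] with p hp z hz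
    have hd : ∀ {w : A.ι → M → B.κ → ℂ}, C1F B w →
        DifferentiableAt ℝ (fun z => w i ((A.e i).symm z)) z := fun hw =>
      ((hw.c1 i).contDiffAt ((A.e i).open_target.mem_nhds (hKs hz))).differentiableAt one_ne_zero
    have e : ∀ {w : A.ι → M → B.κ → ℂ}, C1F B w →
        fderiv ℝ (fun z => u0 i ((A.e i).symm z) + w i ((A.e i).symm z)) z =
        fderiv ℝ (fun z => u0 i ((A.e i).symm z)) z +
        fderiv ℝ (fun z => w i ((A.e i).symm z)) z := fun hw => fderiv_fun_add (hd hu0) (hd hw)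
    show dist (fderiv ℝ (fun z => u0 i ((A.e i).symm z) + v i ((A.e i).symm z)) z)
      (fderiv ℝ (fun z => u0 i ((A.e i).symm z) + u p i ((A.e i).symm z)) z) < ε
    rw [e hv, e (hu p), dist_add_left]
    exact hp z hz

/-! ### line bundles -/

/-- `C¹` sections of a line bundle -/
structure IsS1 (N : LB A) (f : A.ι → M → ℂ) : Prop where
  c1 : ∀ i, ContDiffOn ℝ 1 (fun z => f i ((A.e i).symm z)) (A.e i).target
  tr : ∀ i j, ∀ x ∈ (A.e i).source ∩ (A.e j).source, f i x = N.g i j x * f j x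

/-- the degree zero component -/
theorem C1F.comp0 {N : LB A} {v : A.ι → M → (BN N).κ → ℂ} (hv : C1F (BN N) v) :
    IsS1 N (fun i x => v i x ((∅ : Finset (Fin n)), ())) where
  c1 i := (contDiffOn_pi.1 (hv.c1 i)) ((∅ : Finset (Fin n)), ())
  tr i j x hx := by
    have h1 := congrFun (hv.tr i j x hx) ((∅ : Finset (Fin n)), ())
    rw [h1]
    show ∑ l : Finset (Fin n) × Unit, (Crest.Agent.R273.Fock_243.Gam (Jb A i j x)) ∅ l.1 * N.g i j x * v j x l = _
    rw [Finset.sum_eq_single ((∅ : Finset (Fin n)), ())]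
    · rw [Crest.Agent.R273.Fock_243.Gam_vac, if_pos rfl, one_mul]
      rfl
    · rintro ⟨S, a⟩ _ hS
      have hS' : S ≠ ∅ := fun h => hS (by rw [h])
      rw [Crest.Agent.R273.Fock_243.Gam_of_ne _ (by
        rw [Finset.card_empty]
        exact fun h => hS' (Finset.card_eq_zero.1 h.symm)), zero_mul, zero_mul]
    · simp

/-- the values of `u p` converge continuously (form used by 569's `thmC`) -/
theorem C1T.cc0 {N : LB A} {σ : Type*} {l : Filter σ} {u : σ → A.ι → M → (BN N).κ → ℂ}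
    {v : A.ι → M → (BN N).κ → ℂ} (h : C1T l u v) (hv : C1F (BN N) v) (k : (BN N).κ) :
    ∀ i, ∀ x ∈ (A.e i).source, CC l (fun p x => u p i x k) (fun x => v i x k) x :=
  fun i _ hx => h.cc (fun i => (hv.c1 i).continuousOn) i k hx

end

end Crest.Agent.R281.OpC_920
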