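import Crest.Agent.R281.OpC3_920

/-!
# R281 (S0424), OPEN-INST (M4) of #8087 (helper920), part 4: closedness of the Sobolev norms

* `nrm_tendsto_zero` (torus) : Cauchy for `nrm s` and Fourier coefficients `→ 0` ⟹ `nrm s → 0`;
* `tendsto_of_nrm0` : `Cau P B t u`, `(S0 P B).nrm 0 (u m) → 0` ⟹ `(S0 P B).nrm t (u m) → 0`;
* `nrm0_of_c0` : uniform convergence to `0` on compact parts of the charts ⟹ `nrm 0 → 0`;
* `tendsto_of_C1T` : `Cau P B t u`, `u m → v` in `C¹` (`C⁰` is enough), `v` a SMOOTH section ⟹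
  `(S0 P B).nrm t (u m - v) → 0`;
* `hreg_of` : the hypothesis `hreg` of 450's `open_abs` from the regularity of `C¹` solutions.
-/

set_option autoImplicit false
set_option linter.unusedSectionVars false
set_option linter.unusedVariables false

open Set Filter Topology Complex
open scoped ContDiff Matrix ComplexConjugate

namespace Crest.Agent.R281.OpC_920

open Crest.Agent.R275 Crest.Agent.R275.Geo Crest.Agent.R275.Tor812 Crest.Agent.R275.TorS666
  Crest.Agent.R275.C1d194 Crest.Agent.R275.C2812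
open Crest.Agent.R273.KRL2_803 Crest.Agent.R273.Psl_774 Crest.Agent.R273.L2K_774
open Crest.Agent.R273.T8_774 (nS_le_nrm0 nrm0_le_nS)
open Crest.Agent.R273.HodgeH_803.HodgeOp (Cau)

noncomputable section

/-! ### the torus -/

section torus

variable {d : Type} [Fintype d]

theorem norm_desc_le {f : SPer d} {E : ℝ} (hE : 0 ≤ E) (h : ∀ x, ‖f x‖ ≤ E) : ‖desc f‖ ≤ E := by
  refine (ContinuousMap.norm_le _ hE).2 fun y => ?_
  obtain ⟨x, rfl⟩ := isOpenQuotientMap_pr.surjective y
  rw [desc_pr]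
  exact h x

/-- a Cauchy sequence for `nrm s` whose Fourier coefficients tend to zero tends to zero -/
theorem nrm_tendsto_zero {s : ℕ} {f : ℕ → SPer d}
    (hc : ∀ ε > 0, ∃ N, ∀ m ≥ N, ∀ l ≥ N, nrm s (f m - f l) < ε)
    (h0 : ∀ k, Tendsto (fun m => fc (f m) k) atTop (𝓝 0)) :
    Tendsto (fun m => nrm s (f m)) atTop (𝓝 0) := by
  have hcs : CauchySeq fun m => emb s (f m) := by
    rw [Metric.cauchySeq_iff]
    intro ε hε
    obtain ⟨N, hN⟩ := hc ε hε
    refine ⟨N, fun m hm l hl => ?_⟩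
    rw [dist_eq_norm, ← map_sub]
    exact hN m hm l hl
  obtain ⟨L, hL⟩ := cauchySeq_tendsto_of_complete hcs
  have hL0 : L = 0 := by
    ext k
    have h1 : Tendsto (fun m => (emb s (f m)) k) atTop (𝓝 (L k)) :=
      ((lp.evalCLM ℂ (fun _ : d → ℤ => ℂ) 2 k).continuous.tendsto L).comp hL
    have h2 : Tendsto (fun m => (emb s (f m)) k) atTop (𝓝 0) := by
      have h3 := (h0 k).const_mul (((br k ^ s : ℝ)) : ℂ)
      rw [mul_zero] at h3
      refine h3.congr fun m => ?_
      rw [emb_apply]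
    exact tendsto_nhds_unique h1 h2
  have h4 := hL.norm
  rw [hL0, norm_zero] at h4
  exact h4

end torus

/-! ### sections -/

variable {n : ℕ} {M : Type} [TopologicalSpace M] {A : Atl n M} {B : FBun A}

theorem cont_of_smAt {W : Type*} [NormedAddCommGroup W] [NormedSpace ℝ W] {i : A.ι}
    {f : M → W} (h : A.SmAt i f) : ContinuousOn f (A.e i).source := by
  have h1 : ContinuousOn (fun x => f ((A.e i).symm (A.e i x))) (A.e i).source :=
    h.continuousOn.comp (A.e i).continuousOn fun x hx => (A.e i).map_source hx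
  exact h1.congr fun x hx => by
    show f x = f ((A.e i).symm (A.e i x))
    rw [(A.e i).left_inv hx]

section

variable [Finite A.ι] (P : Part A)

/-- from the coefficients of all the localisations -/
theorem nS_tendsto_zero {t : ℕ} {u : ℕ → Sec B} (hu : Cau P B t u)
    (h0 : ∀ i k κ, Tendsto (fun m => fc (loc A i (P.psi B.κ i) ((u m).1 i) k) κ) atTop (𝓝 0)) :
    Tendsto (fun m => nS P B t (u m)) atTop (𝓝 0) := by
  have := Fintype.ofFinite A.ι
  obtain ⟨C, hC0, hC⟩ := nS_le_nrm0 P (B := B) t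
  have hterm : ∀ i k, Tendsto (fun m => nrm t (loc A i (P.psi B.κ i) ((u m).1 i) k)) atTop (𝓝 0) := by
    intro i k
    refine nrm_tendsto_zero (fun ε hε => ?_) (h0 i k)
    obtain ⟨N, hN⟩ := hu (ε / (C + 1)) (by positivity)
    refine ⟨N, fun m hm l hl => ?_⟩
    have e : loc A i (P.psi B.κ i) ((u m).1 i) k - loc A i (P.psi B.κ i) ((u l).1 i) k =
        loc A i (P.psi B.κ i) ((u m - u l).1 i) k :=
      (congrFun (congrFun (LocF_subS P B (P.amp_psi B.κ) (u m) (u l)) i) k).symm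
    rw [e]
    have h1 : nrm t (loc A i (P.psi B.κ i) ((u m - u l).1 i) k) ≤ nS P B t (u m - u l) :=
      nrm_le_nF t (LocF B (P.psi B.κ) (u m - u l).1) i k
    have h2 := hN m hm l hl
    calc _ ≤ nS P B t (u m - u l) := h1
      _ ≤ C * (S0 P B).nrm t (u m - u l) := hC _
      _ ≤ C * (ε / (C + 1)) := mul_le_mul_of_nonneg_left h2.le hC0
      _ < ε := by
        rw [mul_div_assoc', div_lt_iff₀ (by positivity)]
        nlinarith
  simp only [nS_eq]
  have h5 := tendsto_finsetSum (f := fun i m => ∑ k, nrm t (loc A i (P.psi B.κ i) ((u m).1 i) k))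
    (a := fun _ => 0) Finset.univ fun i _ => by
      have := tendsto_finsetSum (f := fun k m => nrm t (loc A i (P.psi B.κ i) ((u m).1 i) k))
        (a := fun _ => 0) Finset.univ fun k _ => hterm i k
      simpa using this
  simpa using h5

/-- `L²` convergence and Cauchy in `H^t` -/
theorem tendsto_of_nrm0 {t : ℕ} {u : ℕ → Sec B} (hu : Cau P B t u)
    (h0 : Tendsto (fun m => (S0 P B).nrm 0 (u m)) atTop (𝓝 0)) :
    Tendsto (fun m => (S0 P B).nrm t (u m)) atTop (𝓝 0) := by
  obtain ⟨C, hC0, hC⟩ := nS_le_nrm0 P (B := B) 0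
  have h1 : Tendsto (fun m => nS P B t (u m)) atTop (𝓝 0) := by
    refine nS_tendsto_zero P hu fun i k κ => ?_
    have h2 := h0.const_mul C
    rw [mul_zero] at h2
    refine squeeze_zero_norm (fun m => ?_) h2
    have h3 := norm_fc_sq_le 0 (loc A i (P.psi B.κ i) ((u m).1 i) k) κ
    rw [pow_zero, one_mul] at h3
    have h4 : ‖fc (loc A i (P.psi B.κ i) ((u m).1 i) k) κ‖ ≤
        nrm 0 (loc A i (P.psi B.κ i) ((u m).1 i) k) :=
      (pow_le_pow_iff_left₀ (norm_nonneg _) (nrm_nonneg _ _) two_ne_zero).1 h3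
    exact (h4.trans (nrm_le_nF 0 (LocF B (P.psi B.κ) (u m).1) i k)).trans (hC _)
  exact squeeze_zero (fun m => apply_nonneg _ _) (fun m => nrm0_le_nS P t _) h1

/-- uniform convergence to zero on compact parts of the charts -/
theorem nrm_of_c0 {t : ℕ} {u : ℕ → Sec B} (hu : Cau P B t u)
    (h0 : ∀ i, ∀ K : Set (Cn n), IsCompact K → K ⊆ (A.e i).target → ∀ ε > 0, ∀ᶠ m in atTop,
      ∀ z ∈ K, ‖(u m).1 i ((A.e i).symm z)‖ ≤ ε) :
    Tendsto (fun m => (S0 P B).nrm t (u m)) atTop (𝓝 0) := by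
  refine squeeze_zero (fun m => apply_nonneg _ _) (fun m => nrm0_le_nS P t _)
    (nS_tendsto_zero P hu fun i k κ => ?_)
  obtain ⟨D, hD⟩ := (P.χ_cpt i).exists_bound_of_continuousOn
    ((cont_of_smAt (P.ψ_sm i i)).mono (P.χ_sub i))
  set D' := max D 0 with hD'
  have hD'0 : 0 ≤ D' := le_max_right _ _
  set K : Set (Cn n) := A.e i '' tsupport (P.χ i) with hK
  have hKc : IsCompact K := (P.χ_cpt i).image_of_continuousOn
    ((A.e i).continuousOn.mono (P.χ_sub i))
  have hKs : K ⊆ (A.e i).target := by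
    rintro _ ⟨x, hx, rfl⟩
    exact (A.e i).map_source (P.χ_sub i hx)
  rw [Metric.tendsto_nhds]
  intro ε hε
  filter_upwards [h0 i K hKc hKs (ε / 2 / (D' + 1)) (by positivity)] with m hm
  rw [dist_zero_right]
  have hE0 : 0 ≤ D' * (ε / 2 / (D' + 1)) := by positivity
  refine lt_of_le_of_lt (norm_fc_le _ κ) (lt_of_le_of_lt (norm_desc_le hE0 fun x => ?_)
    (?_ : D' * (ε / 2 / (D' + 1)) < ε))
  · have h1 := Sup912.norm_iteratedFDeriv_loc_le ((P.amp_psi B.κ).amp i) ((u m).2.1 i) k (m := 0)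
      hE0 (fun y hy => ?_) x
    · rwa [norm_iteratedFDeriv_zero, pow_zero, one_mul] at h1
    · have hy' : y ∈ tsupport (P.χ i) := (P.amp_psi B.κ).sub i hy
      have hys := P.χ_sub i hy'
      rw [norm_iteratedFDeriv_zero]
      have h2 := hm (A.e i y) ⟨y, hy', rfl⟩
      rw [(A.e i).left_inv hys] at h2
      rw [(A.e i).left_inv hys]
      have h3 : (P.psi B.κ i y *ᵥ (u m).1 i y) k = (P.ψ i y : ℂ) * (u m).1 i y k := by
        show (((P.ψ i y : ℂ) • (1 : Matrix B.κ B.κ ℂ)) *ᵥ (u m).1 i y) k = _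
        rw [Matrix.smul_mulVec, Matrix.one_mulVec]
        rfl
      rw [h3, norm_mul, Complex.norm_real]
      exact mul_le_mul ((hD y hy').trans (le_max_left _ _)) ((norm_le_pi_norm _ k).trans h2)
        (norm_nonneg _) hD'0
  · rw [mul_div_assoc', div_lt_iff₀ (by positivity)]
    nlinarith

/-- **closedness**: a Cauchy sequence for `nrm t` which converges in `C⁰` to a smooth section
converges for `nrm t` -/
theorem tendsto_of_C1T {t : ℕ} {u : ℕ → Sec B} (hu : Cau P B t u) {v : Sec B}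
    (h : C1T atTop (fun m => (u m).1) v.1) :
    Tendsto (fun m => (S0 P B).nrm t (u m - v)) atTop (𝓝 0) := by
  refine nrm_of_c0 P (u := fun m => u m - v) (fun ε hε => ?_) fun i K hK hKs ε hε => ?_
  · obtain ⟨N, hN⟩ := hu ε hε
    refine ⟨N, fun m hm l hl => ?_⟩
    rw [sub_sub_sub_cancel_right]
    exact hN m hm l hl
  · filter_upwards [(Metric.tendstoUniformlyOn_iff.1 (h.c0 i K hK hKs)) ε hε] with m hm z hz
    have h1 := hm z hz
    rw [dist_comm, dist_eq_norm] at h1
    exact h1.le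

/-- **`hreg` of 450's `open_abs`** from the regularity `H3` of `C¹` solutions -/
theorem hreg_of [T2Space M] {t s : ℕ} (ht : Fintype.card (RI n) < 2 * (t - 1))
    (hs : Fintype.card (RI n) < 2 * s) (D : Sec B →ₗ[ℂ] Sec B) (V : Submodule ℂ (Sec B))
    (H3 : ∀ (v : A.ι → M → B.κ → ℂ) (u : ℕ → Sec B), (∀ m, u m ∈ V) → C1F B v →
      C1T atTop (fun m => (u m).1) v → (∀ i x, Tendsto (fun m => (u m).1 i x) atTop (𝓝 (v i x))) →
      (∀ i, ∀ x ∈ (A.e i).source, Tendsto (fun m => (D (u m)).1 i x) atTop (𝓝 0)) →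
      ∃ w : Sec B, w ∈ V ∧ w.1 = v)
    {u : ℕ → Sec B} (huV : ∀ m, u m ∈ V) (hu : Cau P B t u)
    (hD : Tendsto (fun m => (S0 P B).nrm s (D (u m))) atTop (𝓝 0)) :
    ∃ w ∈ V, Tendsto (fun m => (S0 P B).nrm t (u m - w)) atTop (𝓝 0) := by
  obtain ⟨v, h1, h2, h3⟩ := exists_lim P ht hu
  obtain ⟨w, hwV, hw⟩ := H3 v u huV h1 h2 h3 fun i x hx => by
    obtain ⟨C, hC0, hC⟩ := c0_le P (B := B) hs (i := i) (K := {A.e i x}) isCompact_singleton
      (singleton_subset_iff.2 ((A.e i).map_source hx))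
    have h4 := hD.const_mul C
    rw [mul_zero] at h4
    refine squeeze_zero_norm (fun m => ?_) h4
    have h5 := hC (D (u m)) _ rfl
    rwa [(A.e i).left_inv hx] at h5
  subst hw
  exact ⟨w, hwV, tendsto_of_C1T P hu h2⟩

end

end

end Crest.Agent.R281.OpC_920
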