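import Crest.Agent.R281.OpI3_450
import Crest.Agent.R273.HodgeH_803

/-!
# OPEN-INST (row 281, LEMMA OPEN'), part 4: LEMMA A on the Sobolev scale of `Sec B`

* `open_graded` : abstract graded form
* `SecQ B q` : smooth sections of degree `q`; `HolB B` : degree zero, `∇ u = 0`
* `open_sec` : moving operators `D p : Sec B → Sec B` of degree one with `D D = 0`, close to `∇`
-/

set_option autoImplicit false
set_option linter.unusedSectionVars false
set_option maxSynthPendingDepth 3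

open Set Filter Topology Complex
open scoped ContDiff Matrix ComplexConjugate

namespace Crest.Agent.R281.OpI_450

noncomputable section

/-- restriction of a linear map between submodules has finite rank if the map has -/
theorem fd_restrict {V W : Type*} [AddCommGroup V] [Module ℂ V] [AddCommGroup W] [Module ℂ W]
    {T : V →ₗ[ℂ] W} {p : Submodule ℂ V} {q : Submodule ℂ W} (h : ∀ v ∈ p, T v ∈ q)
    [FiniteDimensional ℂ (LinearMap.range T)] :
    FiniteDimensional ℂ (LinearMap.range (T.restrict h)) := by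
  have h1 : ∀ y : LinearMap.range (T.restrict h), ((y : q) : W) ∈ LinearMap.range T := by
    rintro ⟨y, x, rfl⟩
    exact ⟨x, rfl⟩
  let g : LinearMap.range (T.restrict h) →ₗ[ℂ] LinearMap.range T :=
    { toFun := fun y => ⟨((y : q) : W), h1 y⟩
      map_add' := fun _ _ => rfl
      map_smul' := fun _ _ => rfl }
  refine FiniteDimensional.of_injective g fun x y hxy => ?_
  have h2 := congrArg Subtype.val hxy
  exact Subtype.ext (Subtype.ext h2)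

section graded

variable {V : Type*} [AddCommGroup V] [Module ℂ V]

/-- **LEMMA A**, graded form: `G q` = elements of degree `q` -/
theorem open_graded {G : ℕ → Submodule ℂ V} {d K H : V →ₗ[ℂ] V} {nr : ℕ → Seminorm ℂ V}
    (hdG : ∀ q, ∀ u ∈ G q, d u ∈ G (q + 1)) (hKG : ∀ q, ∀ u ∈ G (q + 1), K u ∈ G q)
    (hHG : ∀ q, ∀ u ∈ G q, H u ∈ G q) (hK0 : ∀ u ∈ G 0, K u = 0)
    (htpy : ∀ u, u = d (K u) + K (d u) + H u)
    (bd : ∀ s, ∃ C, ∀ v, nr s (d v) ≤ C * nr (s + 1) v)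
    (bK : ∀ s, ∃ C, ∀ v, nr (s + 1) (K v) ≤ C * nr s v)
    (bH : ∀ s, ∃ C, ∀ v, nr s (H v) ≤ C * nr s v) (hfd : FiniteDimensional ℂ (LinearMap.range H))
    (hz : ∀ s v, nr s v = 0 → v = 0)
    (k : ℕ) {Pm : Type*} {l : Filter Pm}
    [l.IsCountablyGenerated] (D : Pm → V →ₗ[ℂ] V) {ε : Pm → ℝ}
    (hdeg : ∀ p, ∀ u ∈ G 0, D p u ∈ G 1) (hε : Tendsto ε l (𝓝 0))
    (hD : ∀ᶠ p in l, ∀ u, nr (k + 1) (D p u - d u) ≤ ε p * nr (k + 2) u)
    (hD' : ∀ᶠ p in l, ∀ u, nr k (D p u - d u) ≤ ε p * nr (k + 1) u)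
    (hDD : ∀ᶠ p in l, ∀ u, D p (D p u) = 0)
    (hreg : ∀ᶠ p in l, ∀ v : ℕ → V, (∀ m, v m ∈ G 0) →
      (∀ δ > 0, ∃ N, ∀ m ≥ N, ∀ j ≥ N, nr (k + 2) (v m - v j) < δ) →
      Tendsto (fun m => nr (k + 1) (D p (v m))) atTop (𝓝 0) →
      ∃ w ∈ G 0, Tendsto (fun m => nr (k + 2) (v m - w)) atTop (𝓝 0))
    (hno : ∀ (p : ℕ → Pm) (e : ℕ → ℝ) (u : ℕ → (G 0 ⊓ LinearMap.ker d : Submodule ℂ V) →ₗ[ℂ] V)
      (Qj : ℕ → (G 0 ⊓ LinearMap.ker d : Submodule ℂ V) →ₗ[ℂ] V)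
      (Q : (G 0 ⊓ LinearMap.ker d : Submodule ℂ V) →ₗ[ℂ] V),
      Tendsto p atTop l → (∀ j, 0 < e j) → Tendsto e atTop (𝓝 0) →
      (∀ j v, u j v ∈ G 0) → (∀ j v, Qj j v ∈ G 1) → (∀ v, Q v ∈ G 1) →
      (∀ v, Tendsto (fun j => nr (k + 2) (u j v - v)) atTop (𝓝 0)) →
      (∀ j v, D (p j) (u j v) = (e j : ℂ) • Qj j v) →
      (∀ v, Tendsto (fun j => nr (k + 1) (Qj j v - Q v)) atTop (𝓝 0)) →
      (∀ v, Q v ∈ LinearMap.range H) → Q = 0) :
    FiniteDimensional ℂ (G 0 ⊓ LinearMap.ker d : Submodule ℂ V) ∧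
    ∃ S : Pm → (G 0 ⊓ LinearMap.ker d : Submodule ℂ V) →ₗ[ℂ] V,
      (∀ᶠ p in l, ∀ v, S p v ∈ G 0 ∧ D p (S p v) = 0) ∧
      ∀ v, Tendsto (fun p => nr (k + 2) (S p v - v)) l (𝓝 0) := by
  classical
  let p0 : Seminorm ℂ (G 0) := (nr (k + 2)).comp (G 0).subtype
  let p1 : Seminorm ℂ (G 1) := (nr (k + 1)).comp (G 1).subtype
  let p2 : Seminorm ℂ (G 2) := (nr k).comp (G 2).subtype
  let d0 : G 0 →ₗ[ℂ] G 1 := d.restrict (hdG 0)
  let d1 : G 1 →ₗ[ℂ] G 2 := d.restrict (hdG 1)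
  let T0 : G 1 →ₗ[ℂ] G 0 := K.restrict (hKG 0)
  let T1 : G 2 →ₗ[ℂ] G 1 := K.restrict (hKG 1)
  let H0 : G 0 →ₗ[ℂ] G 0 := H.restrict (hHG 0)
  let H1 : G 1 →ₗ[ℂ] G 1 := H.restrict (hHG 1)
  have hf0 : FiniteDimensional ℂ (LinearMap.range H0) := fd_restrict _
  have hf1 : FiniteDimensional ℂ (LinearMap.range H1) := fd_restrict _
  have hker : ∀ v : G 0, v ∈ LinearMap.ker d0 ↔ (v : V) ∈ (G 0 ⊓ LinearMap.ker d : Submodule ℂ V) := by
    intro v
    rw [LinearMap.mem_ker]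
    constructor
    · intro h
      exact ⟨v.2, congrArg Subtype.val h⟩
    · intro h
      exact Subtype.ext h.2
  let E : LinearMap.ker d0 ≃ₗ[ℂ] (G 0 ⊓ LinearMap.ker d : Submodule ℂ V) :=
    { toFun := fun v => ⟨((v : G 0) : V), (hker v).1 v.2⟩
      invFun := fun v => ⟨⟨(v : V), v.2.1⟩, (hker _).2 v.2⟩
      map_add' := fun _ _ => rfl
      map_smul' := fun _ _ => rfl
      left_inv := fun _ => rfl
      right_inv := fun _ => rfl }
  have hmain := open_abs (p0 := p0) (p1 := p1) (p2 := p2) (d0 := d0) (d1 := d1) (T0 := T0)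
    (T1 := T1) (H0 := H0) (H := H1)
    (fun v hv => Subtype.ext (hz _ _ hv)) (fun v hv => Subtype.ext (hz _ _ hv))
    (by
      obtain ⟨C, hC⟩ := bd (k + 1)
      exact ⟨C, fun v => hC v⟩)
    (by
      obtain ⟨C, hC⟩ := bd k
      exact ⟨C, fun v => hC v⟩)
    (by
      obtain ⟨C, hC⟩ := bK (k + 1)
      exact ⟨C, fun v => hC v⟩)
    (by
      obtain ⟨C, hC⟩ := bK k
      exact ⟨C, fun v => hC v⟩)
    (by
      obtain ⟨C, hC⟩ := bH (k + 2)
      exact ⟨C, fun v => hC v⟩)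
    (by
      obtain ⟨C, hC⟩ := bH (k + 1)
      exact ⟨C, fun v => hC v⟩)
    (fun u => by
      apply Subtype.ext
      have h := htpy (u : V)
      rw [hK0 _ u.2, map_zero, zero_add] at h
      exact h)
    (fun q => Subtype.ext (htpy (q : V)))
    (l := l) (fun p => (D p).restrict (hdeg p)) ε hε
    (by
      filter_upwards [hD] with p hp v
      exact hp v)
    (by
      filter_upwards [hD', hDD] with p hp hpp v
      show nr k (d (D p (v : V))) ≤ ε p * nr (k + 1) (D p (v : V))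
      have h1 := hp (D p (v : V))
      rw [hpp, zero_sub, map_neg_eq_map] at h1
      exact h1)
    (by
      filter_upwards [hreg] with p hp v hv hv2
      obtain ⟨w, hw, h⟩ := hp (fun m => (v m : V)) (fun m => (v m).2) hv hv2
      exact ⟨⟨w, hw⟩, h⟩)
    (by
      intro p e u Qj Q hp he he0 hu hDu hQ hQr
      have h := hno p e (fun j => (G 0).subtype ∘ₗ (u j) ∘ₗ E.symm.toLinearMap)
        (fun j => (G 1).subtype ∘ₗ (Qj j) ∘ₗ E.symm.toLinearMap)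
        ((G 1).subtype ∘ₗ Q ∘ₗ E.symm.toLinearMap) hp he he0
        (fun j v => (u j (E.symm v)).2) (fun j v => (Qj j (E.symm v)).2)
        (fun v => (Q (E.symm v)).2) (fun v => hu (E.symm v))
        (fun j v => congrArg Subtype.val (hDu j (E.symm v)))
        (fun v => hQ (E.symm v)) (fun v => by
          obtain ⟨x, hx⟩ := hQr (E.symm v)
          exact ⟨(x : V), congrArg Subtype.val hx⟩)
      refine LinearMap.ext fun x => Subtype.ext ?_
      exact LinearMap.congr_fun h (E x))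
  obtain ⟨hfdk, S, hS1, hS2⟩ := hmain
  refine ⟨E.finiteDimensional, fun p => (G 0).subtype ∘ₗ (S p) ∘ₗ E.symm.toLinearMap, ?_,
    fun v => hS2 (E.symm v)⟩
  filter_upwards [hS1] with p hp v
  exact ⟨(S p (E.symm v)).2, congrArg Subtype.val (hp (E.symm v))⟩

end graded

open Crest.Agent.R275 Crest.Agent.R275.Geo Crest.Agent.R275.Tor812 Crest.Agent.R275.TorS666
  Crest.Agent.R275.C1d194 Crest.Agent.R275.C2812 Crest.Agent.R275.Ret666
  Crest.Agent.R275.Fred685 Crest.Agent.R275.FHom556 Crest.Agent.R275.RetC666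
open Crest.Agent.R273.KRL2_803 Crest.Agent.R273.HodgeH_803

variable {n : ℕ} {M : Type} [TopologicalSpace M] {A : Atl n M}

section

variable (B : FBun A)

/-- smooth sections of degree `q` -/
def SecQ (q : ℕ) : Submodule ℂ (Sec B) := LinearMap.eqLocus (pqL B q) LinearMap.id

variable {B}

theorem mem_SecQ {q : ℕ} {u : Sec B} : u ∈ SecQ B q ↔ pqL B q u = u := Iff.rfl

variable (B) in
/-- degree zero, `∇ u = 0` -/
def HolB : Submodule ℂ (Sec B) := SecQ B 0 ⊓ LinearMap.ker (nabL B)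

theorem mem_HolB {u : Sec B} : u ∈ HolB B ↔ pqL B 0 u = u ∧ nabL B u = 0 := Iff.rfl

theorem nab_mem {q : ℕ} {u : Sec B} (hu : u ∈ SecQ B q) : nabL B u ∈ SecQ B (q + 1) := by
  have h := (LinearMap.congr_fun (nabL_pqL (B := B) q) u).symm
  rw [mem_SecQ]
  refine h.trans ?_
  show nabL B (pqL B q u) = _
  rw [mem_SecQ.1 hu]

end

section

variable [Finite A.ι] {P : Part A} {B : FBun A}

theorem K_mem (T : HodgeOp P B) {q : ℕ} {u : Sec B} (hu : u ∈ SecQ B (q + 1)) :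
    T.K u ∈ SecQ B q := by
  rw [mem_SecQ, ← T.Kpq, mem_SecQ.1 hu]

theorem H_mem (T : HodgeOp P B) {q : ℕ} {u : Sec B} (hu : u ∈ SecQ B q) :
    T.H u ∈ SecQ B q := by
  rw [mem_SecQ, ← T.Hpq, mem_SecQ.1 hu]

theorem K_zero (T : HodgeOp P B) {u : Sec B} (hu : u ∈ SecQ B 0) : T.K u = 0 := by
  have h := T.Kpq0 u
  rwa [mem_SecQ.1 hu] at h

/-- **LEMMA A on the Sobolev scale.** -/
theorem open_sec (T : HodgeOp P B) (k : ℕ) {Pm : Type*} {l : Filter Pm}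
    [l.IsCountablyGenerated] (D : Pm → Sec B →ₗ[ℂ] Sec B) {ε : Pm → ℝ}
    (hdeg : ∀ p, ∀ u ∈ SecQ B 0, D p u ∈ SecQ B 1) (hε : Tendsto ε l (𝓝 0))
    (hD : ∀ᶠ p in l, ∀ u, (S0 P B).nrm (k + 1) (D p u - nabL B u) ≤
      ε p * (S0 P B).nrm (k + 2) u)
    (hD' : ∀ᶠ p in l, ∀ u, (S0 P B).nrm k (D p u - nabL B u) ≤ ε p * (S0 P B).nrm (k + 1) u)
    (hDD : ∀ᶠ p in l, ∀ u, D p (D p u) = 0)
    (hreg : ∀ᶠ p in l, ∀ v : ℕ → Sec B, (∀ m, v m ∈ SecQ B 0) →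
      (∀ δ > 0, ∃ N, ∀ m ≥ N, ∀ j ≥ N, (S0 P B).nrm (k + 2) (v m - v j) < δ) →
      Tendsto (fun m => (S0 P B).nrm (k + 1) (D p (v m))) atTop (𝓝 0) →
      ∃ w ∈ SecQ B 0, Tendsto (fun m => (S0 P B).nrm (k + 2) (v m - w)) atTop (𝓝 0))
    (hno : ∀ (p : ℕ → Pm) (e : ℕ → ℝ) (u : ℕ → HolB B →ₗ[ℂ] Sec B)
      (Qj : ℕ → HolB B →ₗ[ℂ] Sec B) (Q : HolB B →ₗ[ℂ] Sec B),
      Tendsto p atTop l → (∀ j, 0 < e j) → Tendsto e atTop (𝓝 0) →
      (∀ j v, u j v ∈ SecQ B 0) → (∀ j v, Qj j v ∈ SecQ B 1) → (∀ v, Q v ∈ SecQ B 1) →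
      (∀ v, Tendsto (fun j => (S0 P B).nrm (k + 2) (u j v - v)) atTop (𝓝 0)) →
      (∀ j v, D (p j) (u j v) = (e j : ℂ) • Qj j v) →
      (∀ v, Tendsto (fun j => (S0 P B).nrm (k + 1) (Qj j v - Q v)) atTop (𝓝 0)) →
      (∀ v, Q v ∈ LinearMap.range T.H) → Q = 0) :
    FiniteDimensional ℂ (HolB B) ∧
    ∃ S : Pm → HolB B →ₗ[ℂ] Sec B,
      (∀ᶠ p in l, ∀ v, S p v ∈ SecQ B 0 ∧ D p (S p v) = 0) ∧
      ∀ v, Tendsto (fun p => (S0 P B).nrm (k + 2) (S p v - v)) l (𝓝 0) :=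
  open_graded (G := SecQ B) (d := nabL B) (K := T.K) (H := T.H) (nr := (S0 P B).nrm)
    (fun q u hu => nab_mem hu) (fun q u hu => K_mem T hu) (fun q u hu => H_mem T hu)
    (fun u hu => K_zero T hu)
    (fun u => by
      rw [← T.htpy u]
      abel)
    (fun s => by
      obtain ⟨C, -, hC⟩ := nab0_le P B s
      exact ⟨C, hC⟩)
    (fun s => by
      obtain ⟨C, -, hC⟩ := T.K_le s
      exact ⟨C, hC⟩)
    (fun s => by
      obtain ⟨C, hC0, hC⟩ := T.H_le s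
      exact ⟨C, fun v => (hC v).trans (mul_le_mul_of_nonneg_left
        ((S0 P B).nrm_mono (Nat.zero_le _) _) hC0)⟩)
    T.smH.1
    (fun s u hu => (S0 P B).eq_zero u (le_antisymm (((S0 P B).nrm_mono (Nat.zero_le s) u).trans
      hu.le) (apply_nonneg _ _)))
    k D hdeg hε hD hD' hDD hreg hno

end

end

end Crest.Agent.R281.OpI_450
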