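import Crest.Agent.R281.OpM2_693

/-!
# R281 (S0424), OPEN', (M2) part 3 (helper693): `D (D u) = 0`, degrees

* `Bel.D_D : b.D (b.D u) = 0`, `Bel.D_pqL : D (pqL q u) = pqL (q+1) (D u)`, `Bel.D_apply`.
-/

set_option autoImplicit false
set_option linter.unusedSectionVars false
set_option linter.unusedSimpArgs false
set_option linter.unusedVariables false

open Set Filter Topology Complex
open scoped ContDiff Matrix ComplexConjugate Kronecker

namespace Crest.Agent.R281.OpM_693

open Crest.Agent.R275 Crest.Agent.R275.Geo Crest.Agent.R275.Tor812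
  Crest.Agent.R275.Core144 Crest.Agent.R273.Mol_106 Crest.Agent.R273.LamN127

noncomputable section

variable {n : ℕ} {M : Type} [TopologicalSpace M] {A : Atl n M}

/-! ### Clifford algebra -/

section cl

variable (B : FBun A)

theorem cl_anti (f g : Fin n → ℂ) :
    (∑ k, f k • B.e k) * (∑ l, g l • B.e l) + (∑ l, g l • B.e l) * (∑ k, f k • B.e k) = 0 := by
  have e1 : (∑ k, f k • B.e k) * (∑ l, g l • B.e l) =
      ∑ k, ∑ l, (f k * g l) • (B.e k * B.e l) := by
    rw [Matrix.sum_mul]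
    refine Finset.sum_congr rfl fun k _ => ?_
    rw [Matrix.mul_sum]
    refine Finset.sum_congr rfl fun l _ => ?_
    rw [Matrix.smul_mul, Matrix.mul_smul, smul_smul]
  have e2 : (∑ l, g l • B.e l) * (∑ k, f k • B.e k) =
      ∑ k, ∑ l, (f k * g l) • (B.e l * B.e k) := by
    rw [Matrix.mul_sum]
    refine Finset.sum_congr rfl fun k _ => ?_
    rw [Matrix.sum_mul]
    refine Finset.sum_congr rfl fun l _ => ?_
    rw [Matrix.smul_mul, Matrix.mul_smul, smul_smul, mul_comm]
  rw [e1, e2, ← Finset.sum_add_distrib]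
  refine Finset.sum_eq_zero fun k _ => ?_
  rw [← Finset.sum_add_distrib]
  refine Finset.sum_eq_zero fun l _ => ?_
  rw [← smul_add, B.ee, smul_zero]

theorem cl_sq (f : Fin n → ℂ) : (∑ k, f k • B.e k) * (∑ l, f l • B.e l) = 0 := by
  have h := cl_anti B f f
  have h2 : (2 : ℂ) • ((∑ k, f k • B.e k) * (∑ l, f l • B.e l)) = 0 := by
    rw [two_smul]; exact h
  exact (smul_eq_zero.1 h2).resolve_left two_ne_zero

theorem cl_sym (s : Fin n → Fin n → ℂ) (hs : ∀ k l, s k l = s l k) :
    ∑ k, ∑ l, s k l • (B.e k * B.e l) = 0 := by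
  have h := FHom556.antisymm_sumM B (fun a c => s a c • (1 : Matrix B.κ B.κ ℂ))
    (fun a c => by rw [hs])
  simpa only [Matrix.mul_smul, Matrix.mul_one] using h

end cl

theorem pqL_ap (B : FBun A) (q : ℕ) (u : Sec B) (i : A.ι) (x : M) (k : B.κ) :
    (pqL B q u).1 i x k = if B.deg k = q then u.1 i x k else 0 := pq_apply q u.1 i x k

namespace Bel

variable {N : LB A} (b : Bel N)

/-- coefficients of `E_k` in the real coordinates -/
def xi (i : A.ι) (k : Fin n) (p : RI n) (x : M) : ℂ :=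
  (if p.2 = 0 then (1 / 2 : ℂ) else I / 2) * (if k = p.1 then 1 else 0) +
    (if p.2 = 0 then (1 / 2 : ℂ) else -(I / 2)) * b.mu i x k p.1

theorem xi_sm (i : A.ι) (k : Fin n) (p : RI n) : A.SmAt i (b.xi i k p) :=
  contDiffOn_const.add (contDiffOn_const.mul (b.mu_sm i k p.1))

theorem Ek_eq (i : A.ι) (k : Fin n) (f : M → ℂ) (x : M) :
    Ek b.mu i k f x = ∑ p, b.xi i k p x * pdM A i p f x := by
  have h : A.db i k f x = (1 / 2 : ℂ) • (pdM A i (k, 0) f x + I • pdM A i (k, 1) f x) := by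
    unfold Atl.db dbj pdM
    rw [cc_ev0, cc_ev1]
  unfold Ek
  rw [h, Fintype.sum_prod_type]
  simp only [Fin.sum_univ_two, xi, dz, if_true, one_ne_zero, if_false, smul_eq_mul]
  have e1 : ∀ l : Fin n, ((1 / 2 : ℂ) * (if k = l then 1 else 0) + 1 / 2 * b.mu i x k l) *
      pdM A i (l, 0) f x + (I / 2 * (if k = l then 1 else 0) + -(I / 2) * b.mu i x k l) *
      pdM A i (l, 1) f x =
      (if k = l then (1 / 2 : ℂ) * (pdM A i (l, 0) f x + I * pdM A i (l, 1) f x) else 0) +
      b.mu i x k l * (1 / 2 * (pdM A i (l, 0) f x - I * pdM A i (l, 1) f x)) := by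
    intro l
    split_ifs <;> ring
  rw [Finset.sum_congr rfl fun l _ => e1 l, Finset.sum_add_distrib, Finset.sum_ite_eq,
    if_pos (Finset.mem_univ k)]

theorem op_a (i : A.ι) (p : RI n) (x : M) :
    b.op.a i p x = ∑ k, b.xi i k p x • (BN N).e k := by
  show (if p.2 = 0 then (1 / 2 : ℂ) else I / 2) • (BN N).e p.1 + b.ra i p x = _
  simp only [ra, xi, add_smul, Finset.sum_add_distrib, Finset.smul_sum, smul_smul]
  congr 1
  rw [Finset.sum_eq_single p.1]
  · rw [if_pos rfl, mul_one]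
  · intro k _ hk
    rw [if_neg hk, mul_zero, zero_smul]
  · intro h
    exact absurd (Finset.mem_univ _) h

theorem op_b {i : A.ι} {x : M} (hx : x ∈ (A.e i).source) : b.op.b i x = b.rb i x := by
  show (BN N).α i x + b.rb i x = _
  rw [BN_α N i x hx, zero_add]

theorem pdMM_op_a {i : A.ι} {x : M} (hx : x ∈ (A.e i).source) (p q : RI n) :
    pdMM A i p (b.op.a i q) x = ∑ l, pdM A i p (b.xi i l q) x • (BN N).e l := by
  ext k m
  rw [Matrix.sum_apply]
  show pdM A i p (fun y => b.op.a i q y k m) x = _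
  have h1 : (fun y => b.op.a i q y k m) = fun y => ∑ l, b.xi i l q y * (BN N).e l k m := by
    funext y
    rw [op_a, Matrix.sum_apply]
    rfl
  rw [h1, pdM_sum Finset.univ (fun l _ => ((b.xi_sm i l q).diffAt hx).mul_const _)]
  refine Finset.sum_congr rfl fun l _ => ?_
  rw [pdM_mul ((b.xi_sm i l q).diffAt hx) (differentiableAt_const _) hx, pdM_const, mul_zero,
    add_zero]
  rfl

theorem pdMM_op_b {i : A.ι} {x : M} (hx : x ∈ (A.e i).source) (p : RI n) :
    pdMM A i p (b.op.b i) x = ∑ l, pdM A i p (fun y => b.c i y l) x • (BN N).e l := by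
  ext k m
  rw [Matrix.sum_apply]
  show pdM A i p (fun y => b.op.b i y k m) x = _
  have h1 : (fun y => b.op.b i y k m) =ᶠ[𝓝 x] fun y => ∑ l, b.c i y l * (BN N).e l k m := by
    filter_upwards [(A.e i).open_source.mem_nhds hx] with y hy
    rw [b.op_b hy]
    unfold rb
    rw [Matrix.sum_apply]
    rfl
  rw [pdM_congr hx h1, pdM_sum Finset.univ (fun l _ => ((b.c_sm i l).diffAt hx).mul_const _)]
  refine Finset.sum_congr rfl fun l _ => ?_
  rw [pdM_mul ((b.c_sm i l).diffAt hx) (differentiableAt_const _) hx, pdM_const, mul_zero,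
    add_zero]
  rfl

/-- `∑_p (∑_k xi^k_p e_k) (∑_l (∂_p f_l) e_l) = ∑ (E_k f_l) e_k e_l` -/
theorem sum_cl {i : A.ι} {x : M} (f : Fin n → M → ℂ) :
    ∑ p, (∑ k, b.xi i k p x • (BN N).e k) * (∑ l, pdM A i p (f l) x • (BN N).e l) =
      ∑ k, ∑ l, Ek b.mu i k (f l) x • ((BN N).e k * (BN N).e l) := by
  have e1 : ∀ p, (∑ k, b.xi i k p x • (BN N).e k) * (∑ l, pdM A i p (f l) x • (BN N).e l) =
      ∑ k, ∑ l, (b.xi i k p x * pdM A i p (f l) x) • ((BN N).e k * (BN N).e l) := by
    intro p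
    rw [Matrix.sum_mul]
    refine Finset.sum_congr rfl fun k _ => ?_
    rw [Matrix.mul_sum]
    refine Finset.sum_congr rfl fun l _ => ?_
    rw [Matrix.smul_mul, Matrix.mul_smul, smul_smul]
  rw [Finset.sum_congr rfl fun p _ => e1 p, Finset.sum_comm]
  refine Finset.sum_congr rfl fun k _ => ?_
  rw [Finset.sum_comm]
  refine Finset.sum_congr rfl fun l _ => ?_
  rw [b.Ek_eq, Finset.sum_smul]

/-- `E_k xi^l_q` is symmetric -/
theorem Ek_xi {i : A.ι} {x : M} (hx : x ∈ (A.e i).source) (q : RI n) (k l : Fin n) :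
    Ek b.mu i k (b.xi i l q) x = Ek b.mu i l (b.xi i k q) x := by
  have key : ∀ k l : Fin n, Ek b.mu i k (b.xi i l q) x =
      (if q.2 = 0 then (1 / 2 : ℂ) else -(I / 2)) * Ek b.mu i k (fun y => b.mu i y l q.1) x := by
    intro k l
    rw [b.Ek_eq, b.Ek_eq, Finset.mul_sum]
    refine Finset.sum_congr rfl fun p _ => ?_
    have hm := (b.mu_sm i l q.1).diffAt hx
    have h1 : pdM A i p (b.xi i l q) x =
        (if q.2 = 0 then (1 / 2 : ℂ) else -(I / 2)) * pdM A i p (fun y => b.mu i y l q.1) x := by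
      have h2 : b.xi i l q = fun y =>
          ((if q.2 = 0 then (1 / 2 : ℂ) else I / 2) * (if l = q.1 then 1 else 0)) +
            (if q.2 = 0 then (1 / 2 : ℂ) else -(I / 2)) * b.mu i y l q.1 := rfl
      rw [h2, pdM_add (differentiableAt_const _) (hm.const_mul _), pdM_const, zero_add,
        pdM_mul (differentiableAt_const _) hm hx, pdM_const, zero_mul, zero_add]
    rw [h1]
    ring
  rw [key, key, b.int_mu i x hx]

/-- **`D ∘ D = 0`** -/
theorem D_D (u : Sec (BN N)) : b.D (b.D u) = 0 := by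
  refine FOp.sq_zero b.op (fun i x hx p q => ?_) (fun i x hx q => ?_) (fun i x hx => ?_) u
  · rw [b.op_a, b.op_a]
    exact cl_anti (BN N) _ _
  · rw [Finset.sum_congr rfl fun p _ => by rw [b.op_a, b.pdMM_op_a hx p q], b.sum_cl,
      cl_sym (BN N) _ fun k l => b.Ek_xi hx q k l, zero_add, b.op_a, b.op_b hx]
    exact cl_anti (BN N) _ _
  · rw [Finset.sum_congr rfl fun p _ => by rw [b.op_a, b.pdMM_op_b hx p],
      b.sum_cl (fun l y => b.c i y l), cl_sym (BN N) _ fun k l => b.int_c i x hx k l, zero_add,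
      b.op_b hx]
    exact cl_sq (BN N) _

/-- formula for `D` -/
theorem D_apply (u : Sec (BN N)) {i : A.ι} {x : M} (hx : x ∈ (A.e i).source) :
    (b.D u).1 i x = ∑ k, (BN N).e k *ᵥ
      (A.db i k (u.1 i) x + (∑ l, b.mu i x k l • dz A i l (u.1 i) x) + b.c i x k • u.1 i x) := by
  have h1 : (b.D u).1 i x = (nabL (BN N) u).1 i x + (b.R.T u).1 i x := rfl
  have h2 : (nabL (BN N) u).1 i x = (∑ a, (BN N).e a *ᵥ A.db i a (u.1 i) x) +
      (BN N).α i x *ᵥ u.1 i x := if_pos hx
  rw [h1, h2, b.R_apply u hx, BN_α N i x hx, Matrix.zero_mulVec, add_zero,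
    ← Finset.sum_add_distrib]
  refine Finset.sum_congr rfl fun k _ => ?_
  rw [← Matrix.mulVec_add, w, add_assoc]

/-- degrees -/
theorem R_pqL (q : ℕ) (u : Sec (BN N)) :
    b.R.T (pqL (BN N) q u) = pqL (BN N) (q + 1) (b.R.T u) := by
  apply Subtype.ext
  funext i x
  by_cases hx : x ∈ (A.e i).source
  · have hu : ∀ l, A.SmAt i (fun y => u.1 i y l) := u.2.1 i
    have e1 : (b.R.T (pqL (BN N) q u)).1 i x =
        (∑ p, b.ra i p x *ᵥ pdM A i p ((pqL (BN N) q u).1 i) x) +
          b.rb i x *ᵥ (pqL (BN N) q u).1 i x := b.R.hT _ i x hx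
    have e2 : (b.R.T u).1 i x =
        (∑ p, b.ra i p x *ᵥ pdM A i p (u.1 i) x) + b.rb i x *ᵥ u.1 i x := b.R.hT _ i x hx
    have e3 : ∀ p k, pdM A i p ((pqL (BN N) q u).1 i) x k =
        if (BN N).deg k = q then pdM A i p (u.1 i) x k else 0 := by
      intro p k
      rw [pdM_pi ((pqL (BN N) q u).2.1 i) hx, pdM_pi hu hx]
      have h1 : (fun y => (pqL (BN N) q u).1 i y k) =
          fun y => if (BN N).deg k = q then u.1 i y k else 0 := by
        funext y
        exact pqL_ap (BN N) q u i y k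
      rw [h1]
      split_ifs with h
      · rfl
      · exact pdM_const _ _ _ _
    have e4 : ∀ (m : Matrix (BN N).κ (BN N).κ ℂ)
        (hm : ∀ k l, m k l ≠ 0 → (BN N).deg k = (BN N).deg l + 1) (v : (BN N).κ → ℂ)
        (k : (BN N).κ), (m *ᵥ fun l => if (BN N).deg l = q then v l else 0) k =
          if (BN N).deg k = q + 1 then (m *ᵥ v) k else 0 := by
      intro m hm v k
      simp only [Matrix.mulVec, dotProduct]
      split_ifs with h
      · refine Finset.sum_congr rfl fun l _ => ?_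
        by_cases h0 : m k l = 0
        · rw [h0, zero_mul, zero_mul]
        · rw [if_pos]
          have := hm k l h0
          omega
      · refine Finset.sum_eq_zero fun l _ => ?_
        by_cases h0 : m k l = 0
        · rw [h0, zero_mul]
        · rw [if_neg, mul_zero]
          intro h1
          exact h (by rw [hm k l h0, h1])
    have e5 : ∀ (f : Fin n → ℂ) (k l : (BN N).κ), (∑ a, f a • (BN N).e a) k l ≠ 0 →
        (BN N).deg k = (BN N).deg l + 1 := by
      intro f k l h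
      rw [Matrix.sum_apply] at h
      obtain ⟨a, -, ha⟩ := Finset.exists_ne_zero_of_sum_ne_zero h
      exact (BN N).e_deg a k l fun h0 => ha (by rw [Matrix.smul_apply, h0, smul_zero])
    have e6 : ∀ p k l, b.ra i p x k l ≠ 0 → (BN N).deg k = (BN N).deg l + 1 := by
      intro p k l h
      refine e5 (fun a => b.mu i x a p.1) k l fun h0 => h ?_
      unfold ra
      rw [Matrix.smul_apply, h0, smul_zero]
    have e7 : ∀ k l, b.rb i x k l ≠ 0 → (BN N).deg k = (BN N).deg l + 1 := fun k l h =>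
      e5 (fun a => b.c i x a) k l h
    rw [e1]
    funext k
    have e8 : (pqL (BN N) (q + 1) (b.R.T u)).1 i x k =
        if (BN N).deg k = q + 1 then (b.R.T u).1 i x k else 0 := pqL_ap (BN N) _ _ i x k
    rw [e8, e2, Pi.add_apply, Finset.sum_apply, Pi.add_apply, Finset.sum_apply]
    have e9 : ∀ p, (b.ra i p x *ᵥ pdM A i p ((pqL (BN N) q u).1 i) x) k =
        if (BN N).deg k = q + 1 then (b.ra i p x *ᵥ pdM A i p (u.1 i) x) k else 0 := by
      intro p
      rw [← e4 _ (e6 p)]
      congr 2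
      funext l
      exact e3 p l
    have e10 : (b.rb i x *ᵥ (pqL (BN N) q u).1 i x) k =
        if (BN N).deg k = q + 1 then (b.rb i x *ᵥ u.1 i x) k else 0 := by
      rw [← e4 _ e7]
      congr 2
      funext l
      exact pqL_ap (BN N) q u i x l
    rw [e10, Finset.sum_congr rfl fun p _ => e9 p]
    split_ifs
    · rfl
    · simp
  · rw [(b.R.T (pqL (BN N) q u)).2.2.1 i x hx, (pqL (BN N) (q + 1) (b.R.T u)).2.2.1 i x hx]

theorem D_pqL (q : ℕ) (u : Sec (BN N)) :
    b.D (pqL (BN N) q u) = pqL (BN N) (q + 1) (b.D u) := by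
  have h := LinearMap.congr_fun (nabL_pqL (B := BN N) q) u
  rw [D_eq, D_eq, map_add, R_pqL]
  congr 1

end Bel

end

end Crest.Agent.R281.OpM_693
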