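import Crest.Agent.R281.OpC4_920
import Crest.Agent.R281.OpB6_849
import Crest.Agent.R281.OpM3_693
import Crest.Agent.R281.OpI4_450

/-!
# R281 (S0424), OPEN-INST (helper920), part 5: the kernel of a Beltrami operator

`D` an operator on `Sec (BN N)` given on the chart sources by
`(D u) i x = ∑ k, e_k *ᵥ (∂̄_k u_i + ∑ l, mu i x k l • ∂_l u_i + c i x k • u_i)` (693's `Bel.D`).

* `evD` : the same expression for a `C¹` family `v`; `C1T` implies pointwise convergence of `evD`;
* `evD_i1`, `evD_zero_iff` : in degree zero the components of `evD v` are `E_k f + c_k f`, `f` the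
  scalar component; `D_i1`, `D_zero_iff` the same for `Bel.D`;
* `H3_bel` : (H3) of 450's `open_mov` from (M5) = regularity of the `C¹` solutions of
  `E_k f + c_k f = 0`.
-/

set_option autoImplicit false
set_option linter.unusedSectionVars false
set_option linter.unusedVariables false

open Set Filter Topology Complex
open scoped ContDiff Matrix ComplexConjugate Kronecker

namespace Crest.Agent.R281.OpC_920

open Crest.Agent.R275 Crest.Agent.R275.Geo Crest.Agent.R275.Core144
open Crest.Agent.R273.KRL2_803 Crest.Agent.R273.LamN127 Crest.Agent.R273.Mol_106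
open Crest.Agent.R273.Fock_243
open Crest.Agent.R273.HodgeH_803.HodgeOp (Cau)
open Crest.Agent.R281.OpM_693 (dz Ek Bel)
open Crest.Agent.R281.OpI_450 (SecQ)

noncomputable section

variable {n : ℕ} {M : Type} [TopologicalSpace M] {A : Atl n M}

variable {N : LB A} (mu : A.ι → M → Matrix (Fin n) (Fin n) ℂ) (c : A.ι → M → Fin n → ℂ)

/-- the expression of the Beltrami operator -/
def evD (v : A.ι → M → (BN N).κ → ℂ) (i : A.ι) (x : M) : (BN N).κ → ℂ :=
  ∑ k, (BN N).e k *ᵥ (A.db i k (v i) x + ∑ l, mu i x k l • dz A i l (v i) x + c i x k • v i x)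

theorem tendsto_pdM {σ : Type*} {l : Filter σ} {B : FBun A} {u : σ → A.ι → M → B.κ → ℂ}
    {v : A.ι → M → B.κ → ℂ} (h : C1T l u v) {i : A.ι} {x : M} (hx : x ∈ (A.e i).source)
    (p : RI n) : Tendsto (fun m => pdM A i p (u m i) x) l (𝓝 (pdM A i p (v i) x)) := by
  have h1 := (h.c1 i {A.e i x} isCompact_singleton
    (singleton_subset_iff.2 ((A.e i).map_source hx))).tendsto_at rfl
  exact ((ContinuousLinearMap.apply ℝ (B.κ → ℂ) (cc (Tor812.ev p))).continuous.tendsto _).comp h1

theorem tendsto_evD {σ : Type*} {l : Filter σ} {u : σ → A.ι → M → (BN N).κ → ℂ}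
    {v : A.ι → M → (BN N).κ → ℂ} (h : C1T l u v)
    (hp : ∀ i x, Tendsto (fun m => u m i x) l (𝓝 (v i x))) {i : A.ι} {x : M}
    (hx : x ∈ (A.e i).source) :
    Tendsto (fun m => evD mu c (u m) i x) l (𝓝 (evD mu c v i x)) := by
  unfold evD
  refine tendsto_finsetSum _ fun k _ => ?_
  refine ((Continuous.matrix_mulVec continuous_const continuous_id).tendsto _).comp ?_
  refine Tendsto.add (Tendsto.add ?_ (tendsto_finsetSum _ fun l _ => ?_))
    ((hp i x).const_smul _)
  · simp only [db_eq_pdM]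
    exact ((tendsto_pdM h hx (k, 0)).add ((tendsto_pdM h hx (k, 1)).const_smul I)).const_smul _
  · unfold dz
    exact (((tendsto_pdM h hx (l, 0)).sub ((tendsto_pdM h hx (l, 1)).const_smul I)).const_smul
      _).const_smul _

/-! ### components -/

theorem pdM_comp {B : FBun A} {v : A.ι → M → B.κ → ℂ} (hv : C1F B v) {i : A.ι} {x : M}
    (hx : x ∈ (A.e i).source) (p : RI n) (k : B.κ) :
    pdM A i p (v i) x k = pdM A i p (fun x => v i x k) x := by
  unfold pdM
  have hd : ∀ k, DifferentiableAt ℝ (fun z => v i ((A.e i).symm z) k) (A.e i x) := fun k =>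
    (((contDiffOn_pi.1 (hv.c1 i)) k).contDiffAt
      ((A.e i).open_target.mem_nhds ((A.e i).map_source hx))).differentiableAt one_ne_zero
  rw [fderiv_pi hd]
  rfl

/-- the index of the scalar component -/
def i0 (N : LB A) : (BN N).κ := ((∅ : Finset (Fin n)), ())

/-- the indices of degree one -/
def i1 (N : LB A) (k : Fin n) : (BN N).κ := (({k} : Finset (Fin n)), ())

theorem eq_i0 {q : (BN N).κ} (h : (BN N).deg q = 0) : q = i0 N := by
  have key : ∀ q : Finset (Fin n) × Unit, Finset.card q.1 = 0 → q = (∅, ()) := fun q h =>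
    Prod.ext (Finset.card_eq_zero.1 h) rfl
  exact key q h

theorem deg_i0 : (BN N).deg (i0 N) = 0 := Finset.card_empty (α := Fin n)

theorem eW_i1 (k' k : Fin n) : (eW (ep k') ({k} : FI n) ∅ : ℂ) = if k' = k then 1 else 0 := by
  have h2 := congrFun (Crest.Agent.R281.OpB_849.e1_ep k') ({k} : FI n)
  unfold Crest.Agent.R281.OpB_849.e1 Crest.Agent.R281.OpB_849.vac at h2
  rw [Matrix.mulVec_single_one] at h2
  have h3 : eW (ep k') ({k} : FI n) ∅ = (Pi.single ({k'} : FI n) (1 : ℂ) : FI n → ℂ) {k} := h2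
  rw [h3, Pi.single_apply]
  by_cases hk : k' = k
  · subst hk; simp
  · rw [if_neg hk, if_neg]
    intro h
    exact hk (Finset.singleton_injective h).symm

theorem e_i1 (k' k : Fin n) : (BN N).e k' (i1 N k) (i0 N) = if k' = k then 1 else 0 := by
  have h : (BN N).e k' (i1 N k) (i0 N) =
      eW (ep k') ({k} : FI n) ∅ * (1 : Matrix Unit Unit ℂ) () () := rfl
  rw [h, eW_i1, Matrix.one_apply_eq, mul_one]

/-- the components of `e_k' w` for `w` of degree zero -/
theorem e_mulVec {w : (BN N).κ → ℂ} (hw : ∀ q, (BN N).deg q ≠ 0 → w q = 0)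
    (k' k : Fin n) : ((BN N).e k' *ᵥ w) (i1 N k) = if k' = k then w (i0 N) else 0 := by
  show ∑ p, (BN N).e k' (i1 N k) p * w p = _
  rw [Finset.sum_eq_single (i0 N)]
  · rw [e_i1]
    split_ifs
    · rw [one_mul]
    · rw [zero_mul]
  · intro p _ hp
    rw [hw p fun h => hp (eq_i0 h), mul_zero]
  · intro h
    exact absurd (Finset.mem_univ _) h

/-- one summand of `evD` -/
def wk (v : A.ι → M → (BN N).κ → ℂ) (i : A.ι) (k : Fin n) (x : M) : (BN N).κ → ℂ :=
  A.db i k (v i) x + ∑ l, mu i x k l • dz A i l (v i) x + c i x k • v i x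

theorem wk_apply (v : A.ι → M → (BN N).κ → ℂ) (i : A.ι) (x : M) (k : Fin n) (q : (BN N).κ) :
    wk mu c v i k x q = (1 / 2 : ℂ) * (pdM A i (k, 0) (v i) x q +
      I * pdM A i (k, 1) (v i) x q) + (∑ l, mu i x k l * ((1 / 2 : ℂ) *
      (pdM A i (l, 0) (v i) x q - I * pdM A i (l, 1) (v i) x q))) + c i x k * v i x q := by
  simp only [wk, db_eq_pdM, dz, Pi.add_apply, Finset.sum_apply, Pi.smul_apply, Pi.sub_apply,
    smul_eq_mul]

theorem wk_off {v : A.ι → M → (BN N).κ → ℂ} (hv : C1F (BN N) v)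
    (h0 : ∀ i x q, (BN N).deg q ≠ 0 → v i x q = 0) {i : A.ι} {x : M}
    (hx : x ∈ (A.e i).source) (k : Fin n) {q : (BN N).κ} (hq : (BN N).deg q ≠ 0) :
    wk mu c v i k x q = 0 := by
  have hz : ∀ p : RI n, pdM A i p (v i) x q = 0 := by
    intro p
    have e : (fun x => v i x q) = fun _ => (0 : ℂ) := funext fun x => h0 i x q hq
    rw [pdM_comp hv hx p q, e]
    exact pdM_const i p (0 : ℂ) x
  rw [wk_apply, h0 i x q hq]
  simp only [hz]
  simp

theorem wk_i0 {v : A.ι → M → (BN N).κ → ℂ} (hv : C1F (BN N) v) {i : A.ι} {x : M}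
    (hx : x ∈ (A.e i).source) (k : Fin n) : wk mu c v i k x (i0 N) =
      Ek mu i k (fun x => v i x (i0 N)) x + c i x k * v i x (i0 N) := by
  have e1 : ∀ a, A.db i a (fun x => v i x (i0 N)) x = (1 / 2 : ℂ) *
      (pdM A i (a, 0) (v i) x (i0 N) + I * pdM A i (a, 1) (v i) x (i0 N)) := by
    intro a
    rw [pdM_comp hv hx, pdM_comp hv hx]
    unfold Atl.db dbj pdM
    rw [cc_ev0, cc_ev1]
    rfl
  have e2 : ∀ a, dz A i a (fun x => v i x (i0 N)) x = (1 / 2 : ℂ) *
      (pdM A i (a, 0) (v i) x (i0 N) - I * pdM A i (a, 1) (v i) x (i0 N)) := by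
    intro a
    rw [pdM_comp hv hx, pdM_comp hv hx]
    rfl
  rw [wk_apply]
  unfold Ek
  rw [e1]
  simp only [e2]

theorem evD_eq (v : A.ι → M → (BN N).κ → ℂ) (i : A.ι) (x : M) :
    evD mu c v i x = ∑ k, (BN N).e k *ᵥ wk mu c v i k x := rfl

/-- **degree zero**: the degree one components of `evD v` are `E_k f + c_k f` -/
theorem evD_i1 {v : A.ι → M → (BN N).κ → ℂ} (hv : C1F (BN N) v)
    (h0 : ∀ i x q, (BN N).deg q ≠ 0 → v i x q = 0) {i : A.ι} {x : M}
    (hx : x ∈ (A.e i).source) (k : Fin n) : evD mu c v i x (i1 N k) =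
      Ek mu i k (fun x => v i x (i0 N)) x + c i x k * v i x (i0 N) := by
  rw [evD_eq, Finset.sum_apply, Finset.sum_eq_single k]
  · rw [e_mulVec (fun q hq => wk_off mu c hv h0 hx k hq), if_pos rfl, wk_i0 mu c hv hx]
  · intro k' _ hk'
    rw [e_mulVec (fun q hq => wk_off mu c hv h0 hx k' hq), if_neg hk']
  · intro h
    exact absurd (Finset.mem_univ _) h

/-- **degree zero**: `evD v = 0` means `E_k f + c_k f = 0` for the scalar component -/
theorem evD_zero_iff {v : A.ι → M → (BN N).κ → ℂ} (hv : C1F (BN N) v)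
    (h0 : ∀ i x q, (BN N).deg q ≠ 0 → v i x q = 0) {i : A.ι} {x : M}
    (hx : x ∈ (A.e i).source) : evD mu c v i x = 0 ↔ ∀ k,
      Ek mu i k (fun x => v i x (i0 N)) x + c i x k * v i x (i0 N) = 0 := by
  constructor
  · intro h k
    rw [← evD_i1 mu c hv h0 hx k, h]
    rfl
  · intro h
    rw [evD_eq]
    refine Finset.sum_eq_zero fun k _ => ?_
    have h1 : wk mu c v i k x = 0 := by
      funext q
      by_cases hq : (BN N).deg q = 0
      · rw [eq_i0 hq, wk_i0 mu c hv hx, h k]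
        rfl
      · exact wk_off mu c hv h0 hx k hq
    rw [h1, Matrix.mulVec_zero]

/-! ### (H3) and `hreg` -/

/-- a smooth scalar component in degree zero gives a smooth section -/
theorem mem_of_comp {v : A.ι → M → (BN N).κ → ℂ} (hv : C1F (BN N) v)
    (h0 : ∀ i x q, (BN N).deg q ≠ 0 → v i x q = 0)
    (hs : ∀ i, ContDiffOn ℝ ∞ (fun z => v i ((A.e i).symm z) (i0 N)) (A.e i).target) :
    ∃ w : Sec (BN N), pqL (BN N) 0 w = w ∧ w.1 = v := by
  have hmem : v ∈ Sec (BN N) := hv.mem_sec fun i => by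
    refine contDiffOn_pi.2 fun q => ?_
    by_cases hq : (BN N).deg q = 0
    · rw [eq_i0 hq]
      exact hs i
    · have e : (fun z => v i ((A.e i).symm z) q) = fun _ => (0 : ℂ) :=
        funext fun z => h0 i _ q hq
      rw [e]
      exact contDiffOn_const
  refine ⟨⟨v, hmem⟩, Subtype.ext ?_, rfl⟩
  rw [pqL_coe]
  funext i x q
  rw [pq_apply]
  split_ifs with h
  · rfl
  · exact (h0 i x q h).symm

/-- components of the degree zero sections -/
theorem deg0_comp {u : Sec (BN N)} (hu : pqL (BN N) 0 u = u) (i : A.ι) (x : M)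
    (q : (BN N).κ) (hq : (BN N).deg q ≠ 0) : u.1 i x q = 0 := by
  have h1 := congrFun (congrFun (congrFun (congrArg Subtype.val hu) i) x) q
  rw [pqL_coe, pq_apply, if_neg hq] at h1
  exact h1.symm

/-- **(H3) of 450's `open_mov`** for a Beltrami operator, from (M5) = regularity of the `C¹`
solutions of `E_k f + c_k f = 0` -/
theorem H3_bel (b : Bel N)
    (M5 : ∀ f : A.ι → M → ℂ, (∀ i, ContDiffOn ℝ 1 (fun z => f i ((A.e i).symm z)) (A.e i).target) →
      (∀ i j, ∀ x ∈ (A.e i).source ∩ (A.e j).source, f i x = N.g i j x * f j x) →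
      (∀ i, ∀ x ∈ (A.e i).source, ∀ k, Ek b.mu i k (f i) x + b.c i x k * f i x = 0) →
      ∀ i, ContDiffOn ℝ ∞ (fun z => f i ((A.e i).symm z)) (A.e i).target)
    (v : A.ι → M → (BN N).κ → ℂ) (u : ℕ → Sec (BN N)) (hu : ∀ m, u m ∈ SecQ (BN N) 0)
    (h1 : C1F (BN N) v) (h2 : C1T atTop (fun m => (u m).1) v)
    (h3 : ∀ j x, Tendsto (fun m => (u m).1 j x) atTop (𝓝 (v j x)))
    (h4 : ∀ j, ∀ x ∈ (A.e j).source, Tendsto (fun m => (b.D (u m)).1 j x) atTop (𝓝 0)) :
    ∃ w : Sec (BN N), w ∈ SecQ (BN N) 0 ∧ w.1 = v := by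
  have h0 : ∀ i x q, (BN N).deg q ≠ 0 → v i x q = 0 := by
    intro i x q hq
    have h5 : Tendsto (fun m => (u m).1 i x q) atTop (𝓝 (v i x q)) :=
      ((continuous_apply (A := fun _ : (BN N).κ => ℂ) q).tendsto (v i x)).comp (h3 i x)
    refine tendsto_nhds_unique h5 (tendsto_const_nhds.congr fun m => ?_)
    exact (deg0_comp (hu m) i x q hq).symm
  have hD0 : ∀ i, ∀ x ∈ (A.e i).source, evD b.mu b.c v i x = 0 := by
    intro i x hx
    have h5 := tendsto_evD b.mu b.c h2 h3 hx
    refine tendsto_nhds_unique h5 ((h4 i x hx).congr fun m => ?_)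
    exact b.D_apply (u m) hx
  exact mem_of_comp h1 h0 (M5 (fun i x => v i x (i0 N))
    (fun i => (contDiffOn_pi.1 (h1.c1 i)) (i0 N)) h1.comp0.tr
    fun i x hx k => (evD_zero_iff b.mu b.c h1 h0 hx).1 (hD0 i x hx) k)

/-- the degree zero sections killed by a Beltrami operator -/
theorem D_zero_iff (b : Bel N) {u : Sec (BN N)} (hu : u ∈ SecQ (BN N) 0) :
    b.D u = 0 ↔ ∀ i, ∀ x ∈ (A.e i).source, ∀ k,
      Ek b.mu i k (fun x => u.1 i x (i0 N)) x + b.c i x k * u.1 i x (i0 N) = 0 := by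
  constructor
  · intro h i x hx k
    refine (evD_zero_iff b.mu b.c (C1F.of_sec u) (deg0_comp hu) hx).1 ?_ k
    have h1 := b.D_apply u hx
    rw [h] at h1
    exact h1.symm
  · intro h
    refine Subtype.ext (funext fun i => funext fun x => ?_)
    by_cases hx : x ∈ (A.e i).source
    · exact (b.D_apply u hx).trans
        ((evD_zero_iff b.mu b.c (C1F.of_sec u) (deg0_comp hu) hx).2 (h i x hx))
    · exact (b.D u).2.2.1 i x hx

/-- the degree one components of `D u`, `u` of degree zero -/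
theorem D_i1 (b : Bel N) {u : Sec (BN N)} (hu : u ∈ SecQ (BN N) 0) {i : A.ι} {x : M}
    (hx : x ∈ (A.e i).source) (k : Fin n) : (b.D u).1 i x (i1 N k) =
      Ek b.mu i k (fun x => u.1 i x (i0 N)) x + b.c i x k * u.1 i x (i0 N) :=
  (congrFun (b.D_apply u hx) (i1 N k)).trans
    (evD_i1 b.mu b.c (C1F.of_sec u) (deg0_comp hu) hx k)

end

end Crest.Agent.R281.OpC_920
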