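import Crest.Agent.R281.OpD4_569
import Crest.Agent.R281.HkR7_835

/-!
# Row 281, OPEN' (M5) (helper569): solutions of `E_k f + c_k f = 0` are smooth

* `sol_smooth` : `f` differentiable on the target of the chart `i`, `E_k f + c_k f = 0` ⟹ `C^∞`
  (`J` integrable: `JC (ofAtl A) J A'`, `F11 J L'`).
-/

set_option autoImplicit false
set_option linter.unusedSectionVars false
set_option linter.unusedSimpArgs false
set_option maxSynthPendingDepth 3

open Set Filter Topology Complex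
open scoped ContDiff Matrix ComplexConjugate

namespace Crest.Agent.R281.OpD_569

open Crest.Agent.R275 Crest.Agent.R275.Geo Crest.Agent.R275.EDR890 Crest.Agent.R275.Core144
open Crest.Agent.R281.HkR_835 Crest.Agent.R281.Ti_846 Crest.Agent.R281.PL_713

noncomputable section

variable {n : ℕ} {M : Type} [TopologicalSpace M] {A : Atl n M}

/-- a function which is `J`-holomorphic near `z` is smooth at `z` -/
theorem jhol_smooth {A' : Atl n M} {J : A.ι → Cn n → Cn n →L[ℝ] Cn n}
    (hJ : JC (ofAtl A) J A') {i : A.ι} {z : Cn n} (hz : z ∈ (A.e i).target) {g : Cn n → ℂ}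
    (hg : ∀ᶠ y in 𝓝 z, DifferentiableAt ℝ g y)
    (heq : ∀ᶠ y in 𝓝 z, ∀ v, fderiv ℝ g y (J i y v) = I * fderiv ℝ g y v) :
    ContDiffAt ℝ ∞ g z := by
  set x := (A.e i).symm z with hx0
  have hx : x ∈ (A.e i).source := (A.e i).map_target hz
  obtain ⟨a, ha⟩ := A'.cover x
  set ψ := mt (ofAtl A') (ofAtl A) a i with hψ
  set φ := mt (ofAtl A) (ofAtl A') i a with hφ
  have hmov : z ∈ mov (ofAtl A') (ofAtl A) a i := ⟨hz, ha⟩
  have hop : IsOpen (mov (ofAtl A') (ofAtl A) a i) := Cmp.isOpen_mov (ofAtl A') (ofAtl A) a i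
  have hop' : IsOpen (mov (ofAtl A) (ofAtl A') i a) := Cmp.isOpen_mov (ofAtl A) (ofAtl A') i a
  have hψs : ContDiffAt ℝ ∞ ψ z := (hJ.cmp.s' i a).contDiffAt (hop.mem_nhds hmov)
  have hw : ψ z ∈ mov (ofAtl A) (ofAtl A') i a :=
    Cmp.mt_mem (C := ofAtl A') (C' := ofAtl A) hmov
  have hφs : ContDiffAt ℝ ∞ φ (ψ z) := (hJ.cmp.s i a).contDiffAt (hop'.mem_nhds hw)
  have hφψ : φ (ψ z) = z := Cmp.mt_mt (C := ofAtl A') (C' := ofAtl A) hmov
  -- `G = g ∘ φ` is holomorphic near `ψ z`
  have hφt : Tendsto φ (𝓝 (ψ z)) (𝓝 z) := by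
    have := hφs.continuousAt.tendsto
    rwa [hφψ] at this
  have hG : ∀ᶠ w in 𝓝 (ψ z), DifferentiableAt ℂ (fun w => g (φ w)) w := by
    filter_upwards [hφt.eventually hg, hφt.eventually heq, hop'.mem_nhds hw] with w h1 h2 h3
    have h4 : HasFDerivAt (fun w => g (φ w)) ((fderiv ℝ g (φ w)).comp (fderiv ℝ φ w)) w :=
      HasFDerivAt.comp (g := g) (f := φ) w h1.hasFDerivAt (hJ.cmp.diff h3).hasFDerivAt
    refine diffC_of h4.differentiableAt fun v => ?_
    rw [h4.fderiv]
    simp only [ContinuousLinearMap.comp_apply]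
    rw [hJ.lin i a w h3 v]
    exact h2 _
  obtain ⟨U, hU, hUo, hzU⟩ := eventually_nhds_iff.1 hG
  have hGs : ContDiffAt ℝ ∞ (fun w => g (φ w)) (ψ z) := by
    have h1 : DifferentiableOn ℂ (fun w => g (φ w)) U := fun w hw =>
      (hU w hw).differentiableWithinAt
    have h2 := Crest.Agent.R266.SCV.contDiffOn_omega_of_differentiableOn hUo h1
    exact ((h2.contDiffAt (hUo.mem_nhds hzU)).restrict_scalars ℝ).of_le le_top
  have h5 : ContDiffAt ℝ ∞ (fun y => g (φ (ψ y))) z := hGs.comp z hψs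
  refine h5.congr_of_eventuallyEq ?_
  filter_upwards [hop.mem_nhds hmov] with y hy
  rw [hφ, hψ, Cmp.mt_mt (C := ofAtl A') (C' := ofAtl A) hy]

variable {L L' : PL (ofAtl A)} (P : Pot L) {A' : Atl n M} {J : A.ι → Cn n → Cn n →L[ℝ] Cn n}

/-- **(M5)** -/
theorem sol_smooth (hJ : JC (ofAtl A) J A') (hN : Near A J) (hF : F11 J L') {i : A.ι}
    {f : Cn n → ℂ} (hf : ∀ z ∈ (A.e i).target, DifferentiableAt ℝ f z)
    (heq : ∀ z ∈ (A.e i).target, ∀ k, Ed (fun y => mu (J i y)) k f z +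
      Ek (J i z) (tht P L' i z) k * f z = 0) : ContDiffOn ℝ ∞ f (A.e i).target := by
  intro z hz
  refine ContDiffAt.contDiffWithinAt ?_
  obtain ⟨U, hU, hzU, hUt, e, he, hene, hee⟩ := exists_frame hJ hF (i := i) (z := z) hz
  have hUn := hU.mem_nhds hzU
  have hsm : ∀ y ∈ U, ContDiffAt ℝ ∞ e y := fun y hy => he.contDiffAt (hU.mem_nhds hy)
  set E : Cn n → ℂ := fun y => e y * exp (P.h i y) with hE
  have hEs : ∀ y ∈ U, ContDiffAt ℝ ∞ E y := fun y hy => (hsm y hy).mul (P.at_ (hUt hy)).cexp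
  have hE0 : ∀ y ∈ U, E y ≠ 0 := fun y hy => mul_ne_zero (hene y hy) (exp_ne_zero _)
  have hEe : ∀ y ∈ U, ∀ v, fderiv ℝ E y v + tht P L' i y v * E y +
      I * (fderiv ℝ E y (J i y v) + tht P L' i y (J i y v) * E y) = 0 := by
    intro y hy v
    have hyt : y ∈ (A.e i).target := hUt hy
    have hd : HasFDerivAt E _ y :=
      ((hsm y hy).differentiableAt (by simp)).hasFDerivAt.mul (P.diffAt hyt).hasFDerivAt.cexp
    rw [hd.fderiv, tht_apply, tht_apply]
    simp only [add_apply, smul_apply, smul_eq_mul, hE]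
    have h1 := hee y hy v
    linear_combination (exp (P.h i y)) * h1
  set g : Cn n → ℂ := fun y => f y * (E y)⁻¹ with hg
  have hgd : ∀ y ∈ U, DifferentiableAt ℝ g y := fun y hy =>
    (hf y (hUt hy)).mul (((hEs y hy).differentiableAt (by simp)).inv (hE0 y hy))
  have hge : ∀ y ∈ U, ∀ v, fderiv ℝ g y (J i y v) = I * fderiv ℝ g y v := by
    intro y hy v
    have hyt : y ∈ (A.e i).target := hUt hy
    have hJy : ∀ v, J i y (J i y v) = -v := fun v => hJ.sq hyt v
    have hfE : f =ᶠ[𝓝 y] fun w => g w * E w := by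
      filter_upwards [hU.mem_nhds hy] with w hw
      simp only [hg]
      rw [mul_assoc, inv_mul_cancel₀ (hE0 w hw), mul_one]
    have hd : HasFDerivAt (fun w => g w * E w) _ y :=
      (hgd y hy).hasFDerivAt.mul ((hEs y hy).differentiableAt (by simp)).hasFDerivAt
    have h1 : ∀ w, fderiv ℝ f y w = g y * fderiv ℝ E y w + E y * fderiv ℝ g y w := by
      intro w
      rw [hfE.fderiv_eq, hd.fderiv]
      simp only [add_apply, smul_apply, smul_eq_mul]
    have h2 : fderiv ℝ f y v + tht P L' i y v * f y +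
        I * (fderiv ℝ f y (J i y v) + tht P L' i y (J i y v) * f y) = 0 := by
      rw [sol_eq hJy (hN.un i y hyt)]
      exact Finset.sum_eq_zero fun k _ => by rw [heq y hyt k, mul_zero]
    have h3 : f y = g y * E y := hfE.self_of_nhds
    rw [h1, h1, h3] at h2
    have h4 := hEe y hy v
    have h5 : E y * (fderiv ℝ g y v + I * fderiv ℝ g y (J i y v)) = 0 := by
      linear_combination h2 - g y * h4
    have h6 := (mul_eq_zero.1 h5).resolve_left (hE0 y hy)
    linear_combination (-I) * h6 + (fderiv ℝ g y (J i y v)) * I_mul_I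
  have hgs : ContDiffAt ℝ ∞ g z := jhol_smooth hJ hz
    (eventually_of_mem hUn fun y hy => hgd y hy) (eventually_of_mem hUn fun y hy => hge y hy)
  refine (hgs.mul (hEs z hzU)).congr_of_eventuallyEq ?_
  filter_upwards [hUn] with w hw
  show f w = f w * (E w)⁻¹ * E w
  rw [mul_assoc, inv_mul_cancel₀ (hE0 w hw), mul_one]

@[simp] theorem bel_mu (hJ : JC (ofAtl A) J A') (hN : Near A J) (hg : L'.g = L.g)
    (hF : F11 J L') : (bel P hJ hN hg hF).mu = muA A J := rfl

@[simp] theorem bel_c (hJ : JC (ofAtl A) J A') (hN : Near A J) (hg : L'.g = L.g)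
    (hF : F11 J L') : (bel P hJ hN hg hF).c = cA P L' J := rfl

/-- **(M5)** in terms of the Beltrami data read in the chart (`muA`, `cA` = the data of `bel`) -/
theorem sol_smooth_bel (hJ : JC (ofAtl A) J A') (hN : Near A J) (hF : F11 J L')
    {i : A.ι} {f : Cn n → ℂ} (hf : ∀ z ∈ (A.e i).target, DifferentiableAt ℝ f z)
    (heq : ∀ z ∈ (A.e i).target, ∀ k, wd (true, k) f z +
      ∑ l, muA A J i ((A.e i).symm z) k l • wd (false, l) f z +
      cA P L' J i ((A.e i).symm z) k * f z = 0) : ContDiffOn ℝ ∞ f (A.e i).target := by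
  refine sol_smooth P hJ hN hF hf fun z hz k => ?_
  have h := heq z hz k
  have e0 : A.e i ((A.e i).symm z) = z := (A.e i).right_inv hz
  have e1 : muA A J i ((A.e i).symm z) = mu (J i z) := by
    unfold muA
    rw [e0]
  have e2 : cA P L' J i ((A.e i).symm z) k = Ek (J i z) (tht P L' i z) k := by
    unfold cA
    rw [e0]
  rw [e2, e1] at h
  exact h

end

end Crest.Agent.R281.OpD_569
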