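import Crest.Agent.R281.OpC5_920
import Crest.Agent.R281.OpD5_569

/-!
# R281 (S0424), OPEN-INST (helper920), part 6: (H3) for 569's `bel`

* `H3_of_bel` : the hypothesis `H3` of 450's `open_mov` for `D := (bel P hJ hN hg hF).D`, without
  hypotheses.
-/

set_option autoImplicit false
set_option linter.unusedSectionVars false
set_option linter.unusedVariables false
set_option maxSynthPendingDepth 3

open Set Filter Topology Complex
open scoped ContDiff Matrix ComplexConjugate Kronecker

namespace Crest.Agent.R281.OpC_920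

open Crest.Agent.R275 Crest.Agent.R275.Geo Crest.Agent.R275.Core144
open Crest.Agent.R273.KRL2_803 Crest.Agent.R273.LamN127 Crest.Agent.R273.Mol_106
open Crest.Agent.R281.OpM_693 (Bel)
open Crest.Agent.R281.OpI_450 (SecQ)
open Crest.Agent.R281.PL_713 Crest.Agent.R281.HkR_835 Crest.Agent.R281.OpD_569

noncomputable section

variable {n : ℕ} {M : Type} [TopologicalSpace M] {A : Atl n M}
variable {L L' : PL (ofAtl A)} (P : Pot L) {A' : Atl n M} {J : A.ι → Cn n → Cn n →L[ℝ] Cn n}

/-- **(H3) for the Beltrami operator of an integrable structure** -/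
theorem H3_of_bel (hJ : JC (ofAtl A) J A') (hN : Near A J) (hg : L'.g = L.g) (hF : F11 J L')
    (v : A.ι → M → (BN P.lb).κ → ℂ) (u : ℕ → Geo.Sec (BN P.lb))
    (hu : ∀ m, u m ∈ SecQ (BN P.lb) 0)
    (h1 : C1F (BN P.lb) v) (h2 : C1T atTop (fun m => (u m).1) v)
    (h3 : ∀ j x, Tendsto (fun m => (u m).1 j x) atTop (𝓝 (v j x)))
    (h4 : ∀ j, ∀ x ∈ (A.e j).source,
      Tendsto (fun m => ((bel P hJ hN hg hF).D (u m)).1 j x) atTop (𝓝 0)) :
    ∃ w : Geo.Sec (BN P.lb), w ∈ SecQ (BN P.lb) 0 ∧ w.1 = v := by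
  refine H3_bel (bel P hJ hN hg hF) (fun f hf _ heq i => ?_) v u hu h1 h2 h3 h4
  refine sol_smooth_bel P hJ hN hF (fun z hz =>
    ((hf i).contDiffAt ((A.e i).open_target.mem_nhds hz)).differentiableAt one_ne_zero)
    fun z hz k => ?_
  have h5 := heq i _ ((A.e i).map_target hz) k
  rw [EkM_eq _ i k (f i) ((A.e i).map_target hz), (A.e i).right_inv hz] at h5
  exact h5

end

end Crest.Agent.R281.OpC_920
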