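import Crest.Agent.R275.EDRWd_890

/-!
# Row 281, OPEN' (M3) DICT-J (helper569), part 1: pointwise algebra

`J : Cn n →L[ℝ] Cn n`, `J² = -1`, near `i`.

* `Am J`, `Bm J` : `J v = A v + B v̄`;  `Sm J = 1 + i Ā`; `mu J = (i B S⁻¹)ᵀ`
* `wv J v k = v̄_k + i conj (J v)_k`
* `vec_mu`  : `v_a + i (J v)_a = ∑ k, mu J k a * wv J v k`
* `Ek J P k = P_k̄ + ∑ l, mu J k l P_l`;  `ext_mu` : `P v + i P (J v) = ∑ k, wv J v k • Ek J P k`
* `Ek_zero` : `P ∘ J = i P  ⟹  Ek J P k = 0`;  `indep`
-/

set_option autoImplicit false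
set_option linter.unusedSectionVars false
set_option linter.unusedSimpArgs false

open Set Filter Topology Complex
open scoped ContDiff Matrix ComplexConjugate

namespace Crest.Agent.R281.OpD_569

open Crest.Agent.R275 Crest.Agent.R275.Geo Crest.Agent.R275.EDR890

noncomputable section

variable {n : ℕ}

/-- the matrix of the complex linear part -/
def Am (J : Cn n →L[ℝ] Cn n) : Matrix (Fin n) (Fin n) ℂ := Matrix.of fun a b => wdL (false, b) J a

/-- the matrix of the antilinear part -/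
def Bm (J : Cn n →L[ℝ] Cn n) : Matrix (Fin n) (Fin n) ℂ := Matrix.of fun a b => wdL (true, b) J a

/-- `1 + i Ā` -/
def Sm (J : Cn n →L[ℝ] Cn n) : Matrix (Fin n) (Fin n) ℂ := 1 + I • (Am J).map conj

/-- the Beltrami matrix -/
def mu (J : Cn n →L[ℝ] Cn n) : Matrix (Fin n) (Fin n) ℂ := (I • (Bm J * (Sm J)⁻¹))ᵀ

/-- the `(0,1)`-components of `v + i J v` -/
def wv (J : Cn n →L[ℝ] Cn n) (v : Cn n) : Fin n → ℂ := fun k => conj (v k) + I * conj (J v k)

/-- a vector of `Cn n` as a function -/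
def fn (v : Cn n) : Fin n → ℂ := fun k => v k

def cfn (v : Cn n) : Fin n → ℂ := fun k => conj (v k)

theorem J_eq (J : Cn n →L[ℝ] Cn n) (v : Cn n) :
    fn (J v) = Am J *ᵥ fn v + Bm J *ᵥ cfn v := by
  funext a
  show (J v) a = _
  rw [apply_eq_sum J v, Fintype.sum_prod_type, Fintype.sum_bool]
  simp only [PiLp.add_apply, Pi.add_apply, Matrix.mulVec, dotProduct, Am, Bm, Matrix.of_apply, fn,
    cfn]
  have h : ∀ (f : Fin n → Cn n), (∑ b, f b) a = ∑ b, f b a := by
    intro f
    rw [WithLp.ofLp_sum]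
    simp
  rw [h, h, add_comm]
  congr 1
  · refine Finset.sum_congr rfl fun b _ => ?_
    simp [mul_comm]
  · refine Finset.sum_congr rfl fun b _ => ?_
    simp [mul_comm]

theorem cJ_eq (J : Cn n →L[ℝ] Cn n) (v : Cn n) :
    cfn (J v) = (Am J).map conj *ᵥ cfn v + (Bm J).map conj *ᵥ fn v := by
  funext a
  have h := congrArg conj (congrFun (J_eq J v) a)
  show conj ((J v) a) = _
  have h' : conj (fn (J v) a) = conj ((J v) a) := rfl
  rw [← h', h]
  simp only [Pi.add_apply, Matrix.mulVec, dotProduct, map_add, map_sum, map_mul, Matrix.map_apply,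
    fn, cfn, Complex.conj_conj]

/-- two complex matrices with `X v + Y v̄ = 0` for all `v` vanish -/
theorem mat_zero {X Y : Matrix (Fin n) (Fin n) ℂ}
    (h : ∀ v : Cn n, X *ᵥ fn v + Y *ᵥ cfn v = 0) : X = 0 ∧ Y = 0 := by
  classical
  have e1 : ∀ b, fn (EuclideanSpace.single b (1 : ℂ) : Cn n) = Pi.single b 1 := by
    intro b; funext a; simp [fn, PiLp.single_apply, Pi.single_apply]
  have e2 : ∀ b, cfn (EuclideanSpace.single b (1 : ℂ) : Cn n) = Pi.single b 1 := by
    intro b; funext a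
    by_cases hab : a = b <;> simp [cfn, PiLp.single_apply, Pi.single_apply, hab]
  have e3 : ∀ b, fn (EuclideanSpace.single b I : Cn n) = I • Pi.single b 1 := by
    intro b; funext a
    by_cases hab : a = b <;> simp [fn, PiLp.single_apply, Pi.single_apply, hab]
  have e4 : ∀ b, cfn (EuclideanSpace.single b I : Cn n) = (-I) • Pi.single b 1 := by
    intro b; funext a
    by_cases hab : a = b <;> simp [cfn, PiLp.single_apply, Pi.single_apply, hab]
  have hc : ∀ b, X.col b = 0 ∧ Y.col b = 0 := by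
    intro b
    have h1 := h (EuclideanSpace.single b 1)
    have h2 := h (EuclideanSpace.single b I)
    rw [e1, e2, Matrix.mulVec_single_one, Matrix.mulVec_single_one] at h1
    rw [e3, e4, Matrix.mulVec_smul, Matrix.mulVec_smul, Matrix.mulVec_single_one,
      Matrix.mulVec_single_one] at h2
    have h3 : X.col b - Y.col b = 0 := by
      have : I • (X.col b - Y.col b) = 0 := by
        rw [← h2]
        module
      exact (smul_eq_zero.1 this).resolve_left I_ne_zero
    have h4 : X.col b = Y.col b := sub_eq_zero.1 h3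
    rw [h4] at h1 ⊢
    have h5 : (2 : ℂ) • Y.col b = 0 := by rw [two_smul]; exact h1
    have h6 := (smul_eq_zero.1 h5).resolve_left two_ne_zero
    exact ⟨h6, h6⟩
  constructor
  · ext a b
    exact congrFun (hc b).1 a
  · ext a b
    exact congrFun (hc b).2 a

section alg

variable {J : Cn n →L[ℝ] Cn n} (hJ : ∀ v, J (J v) = -v)
include hJ

theorem J_rel : Am J * Am J + Bm J * (Bm J).map conj = -1 ∧
    Am J * Bm J + Bm J * (Am J).map conj = 0 := by
  have h : ∀ v : Cn n, (Am J * Am J + Bm J * (Bm J).map conj + 1) *ᵥ fn v +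
      (Am J * Bm J + Bm J * (Am J).map conj) *ᵥ cfn v = 0 := by
    intro v
    have h1 := J_eq J (J v)
    rw [hJ v, J_eq J v, cJ_eq J v] at h1
    have h2 : fn (-v) = -fn v := by funext a; simp [fn]
    rw [h2] at h1
    simp only [Matrix.mulVec_add, Matrix.mulVec_mulVec] at h1
    simp only [Matrix.add_mulVec, Matrix.one_mulVec]
    rw [← sub_eq_zero] at h1
    rw [← neg_eq_zero]
    rw [← h1]
    abel
  obtain ⟨h1, h2⟩ := mat_zero h
  exact ⟨eq_neg_of_add_eq_zero_left h1, h2⟩

/-- `(1 - i A) B = B S` -/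
theorem TB : (1 - I • Am J) * Bm J = Bm J * Sm J := by
  have h := (J_rel hJ).2
  unfold Sm
  rw [Matrix.sub_mul, Matrix.mul_add, Matrix.one_mul, Matrix.mul_one, Matrix.smul_mul,
    Matrix.mul_smul, sub_eq_add_neg, add_right_inj, ← smul_neg]
  rw [eq_neg_of_add_eq_zero_right h]

theorem Sm_conj : (Sm J).map conj = 1 - I • Am J := by
  ext a b
  by_cases hab : a = b
  · subst hab
    simp [Sm, sub_eq_add_neg]
  · simp [Sm, hab]

theorem T_unit (hS : IsUnit (Sm J).det) : IsUnit (1 - I • Am J).det := by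
  rw [← Sm_conj hJ]
  have : ((Sm J).map conj).det = conj (Sm J).det := (RingHom.map_det (starRingEnd ℂ) (Sm J)).symm
  rw [this]
  exact hS.map (starRingEnd ℂ)

/-- **the Beltrami relation** -/
theorem vec_mu (hS : IsUnit (Sm J).det) (v : Cn n) (a : Fin n) :
    v a + I * J v a = ∑ k, mu J k a * wv J v k := by
  have hT := T_unit hJ hS
  have hw : wv J v = Sm J *ᵥ cfn v + I • ((Bm J).map conj *ᵥ fn v) := by
    funext k
    have h := congrFun (cJ_eq J v) k
    have h1 : conj ((J v) k) = cfn (J v) k := rfl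
    unfold wv
    rw [h1, h]
    simp only [Sm, Matrix.add_mulVec, Matrix.one_mulVec, Matrix.smul_mulVec, Pi.add_apply,
      Pi.smul_apply, smul_eq_mul]
    have h2 : conj (v k) = cfn v k := rfl
    rw [h2]
    ring
  have key : (1 - I • Am J) *ᵥ (fn v + I • fn (J v)) = I • (Bm J *ᵥ wv J v) := by
    rw [hw, J_eq J v]
    have r1 := (J_rel hJ).1
    have e1 : (1 - I • Am J) *ᵥ (fn v + I • (Am J *ᵥ fn v + Bm J *ᵥ cfn v)) =
        (1 + Am J * Am J) *ᵥ fn v + I • (((1 - I • Am J) * Bm J) *ᵥ cfn v) := by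
      simp only [Matrix.sub_mulVec, Matrix.add_mulVec, Matrix.mulVec_add, Matrix.mulVec_smul,
        Matrix.smul_mulVec, Matrix.one_mulVec, ← Matrix.mulVec_mulVec, smul_add, smul_sub, smul_smul,
        Complex.I_mul_I]
      module
    rw [e1, TB hJ]
    have e2 : (1 + Am J * Am J) = -(Bm J * (Bm J).map conj) := by
      have : Am J * Am J = -1 - Bm J * (Bm J).map conj := eq_sub_of_add_eq r1
      rw [this]
      abel
    rw [e2]
    simp only [Matrix.neg_mulVec, Matrix.mulVec_add, Matrix.mulVec_smul, ← Matrix.mulVec_mulVec,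
      smul_add, smul_smul, Complex.I_mul_I]
    module
  have key2 : fn v + I • fn (J v) = (I • (Bm J * (Sm J)⁻¹)) *ᵥ wv J v := by
    have h1 : (1 - I • Am J)⁻¹ *ᵥ ((1 - I • Am J) *ᵥ (fn v + I • fn (J v))) =
        fn v + I • fn (J v) := by
      rw [Matrix.mulVec_mulVec, Matrix.nonsing_inv_mul _ hT, Matrix.one_mulVec]
    rw [← h1, key]
    have h2 : (1 - I • Am J)⁻¹ * Bm J = Bm J * (Sm J)⁻¹ := by
      have h3 : (1 - I • Am J)⁻¹ * ((1 - I • Am J) * Bm J) * (Sm J)⁻¹ =
          (1 - I • Am J)⁻¹ * (Bm J * Sm J) * (Sm J)⁻¹ := by rw [TB hJ]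
      rw [← Matrix.mul_assoc, Matrix.nonsing_inv_mul _ hT, Matrix.one_mul, Matrix.mul_assoc,
        Matrix.mul_assoc (Bm J), Matrix.mul_nonsing_inv _ hS, Matrix.mul_one] at h3
      exact h3.symm
    rw [Matrix.mulVec_smul, Matrix.mulVec_mulVec, h2, Matrix.smul_mulVec]
  have h3 := congrFun key2 a
  have h4 : (fn v + I • fn (J v)) a = v a + I * J v a := rfl
  rw [h4] at h3
  rw [h3]
  show ∑ k, (I • (Bm J * (Sm J)⁻¹)) a k * wv J v k = _
  rfl

end alg

/-! ### extension of real linear maps -/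

section ext

variable {W : Type*} [NormedAddCommGroup W] [NormedSpace ℂ W]

/-- the value of the complex linear extension of `P` on `E_k = ∂̄_k + ∑ mu_kl ∂_l` -/
def Ek (J : Cn n →L[ℝ] Cn n) (P : Cn n →L[ℝ] W) (k : Fin n) : W :=
  wdL (true, k) P + ∑ l, mu J k l • wdL (false, l) P

theorem P_eq (P : Cn n →L[ℝ] W) (v : Cn n) :
    P v = (∑ k, conj (v k) • wdL (true, k) P) + ∑ l, v l • wdL (false, l) P := by
  rw [apply_eq_sum P v, Fintype.sum_prod_type, Fintype.sum_bool]
  rfl

theorem ext_mu {J : Cn n →L[ℝ] Cn n} (hJ : ∀ v, J (J v) = -v) (hS : IsUnit (Sm J).det)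
    (P : Cn n →L[ℝ] W) (v : Cn n) :
    P v + I • P (J v) = ∑ k, wv J v k • Ek J P k := by
  rw [P_eq P v, P_eq P (J v)]
  have h1 : (∑ k, conj (v k) • wdL (true, k) P) + ∑ l, v l • wdL (false, l) P +
      I • ((∑ k, conj ((J v) k) • wdL (true, k) P) + ∑ l, (J v) l • wdL (false, l) P) =
      (∑ k, wv J v k • wdL (true, k) P) + ∑ l, (v l + I * J v l) • wdL (false, l) P := by
    simp only [wv, add_smul, mul_smul, Finset.sum_add_distrib, Finset.smul_sum, smul_add]
    abel
  rw [h1]
  simp only [Ek, smul_add, Finset.sum_add_distrib]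
  congr 1
  simp only [Finset.smul_sum, smul_smul]
  rw [Finset.sum_comm]
  refine Finset.sum_congr rfl fun l _ => ?_
  rw [vec_mu hJ hS v l, ← Finset.sum_smul]
  congr 1
  exact Finset.sum_congr rfl fun k _ => by ring

/-- `w (e_b) + i w (i e_b) = 2 S e_b` -/
theorem wv_pol (J : Cn n →L[ℝ] Cn n) (b k : Fin n) :
    wv J (EuclideanSpace.single b 1) k + I * wv J (I • EuclideanSpace.single b 1) k =
      2 * Sm J k b := by
  classical
  have hI : (EuclideanSpace.single b I : Cn n) = I • EuclideanSpace.single b (1 : ℂ) := by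
    ext c
    simp [PiLp.single_apply]
  have h1 : (2 : ℂ) * wdL (false, b) J k =
      J (EuclideanSpace.single b 1) k - I * J (I • EuclideanSpace.single b 1) k := by
    unfold wdL
    rw [hI]
    simp only [cI_false, PiLp.smul_apply, PiLp.add_apply, smul_eq_mul]
    ring
  have h2 := congrArg conj h1
  simp only [map_mul, map_sub, Complex.conj_I] at h2
  unfold wv
  have h3 : Sm J k b = (if k = b then 1 else 0) + I * conj (wdL (false, b) J k) := by
    simp [Sm, Am, Matrix.one_apply]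
  rw [h3]
  have h4 : conj (2 : ℂ) = 2 := Complex.conj_ofNat 2
  rw [h4] at h2
  have h5 : conj ((EuclideanSpace.single b (1 : ℂ) : Cn n) k) = if k = b then 1 else 0 := by
    by_cases hk : k = b <;> simp [hk]
  have h6 : conj ((I • EuclideanSpace.single b (1 : ℂ) : Cn n) k) =
      -I * (if k = b then 1 else 0) := by
    by_cases hk : k = b <;> simp [hk]
  rw [h5, h6]
  have hII : I * I = -1 := Complex.I_mul_I
  linear_combination (-I) * h2 - (if k = b then (1 : ℂ) else 0) * hII

/-- **`P ∘ J = i P` implies `P (E_k) = 0`** -/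
theorem Ek_zero {J : Cn n →L[ℝ] Cn n} (hJ : ∀ v, J (J v) = -v) (hS : IsUnit (Sm J).det)
    {P : Cn n →L[ℝ] W} (hP : ∀ v, P v + I • P (J v) = 0) (k : Fin n) : Ek J P k = 0 := by
  have h1 : ∀ b, ∑ k, Sm J k b • Ek J P k = 0 := by
    intro b
    have a1 := ext_mu hJ hS P (EuclideanSpace.single b 1)
    have a2 := ext_mu hJ hS P (I • EuclideanSpace.single b 1)
    rw [hP] at a1 a2
    have a3 : ∑ k, (2 * Sm J k b) • Ek J P k = 0 := by
      simp_rw [← wv_pol J b, add_smul, Finset.sum_add_distrib, mul_smul, ← Finset.smul_sum]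
      rw [← a1, ← a2]
      simp
    simp_rw [mul_smul, ← Finset.smul_sum] at a3
    exact (smul_eq_zero.1 a3).resolve_left two_ne_zero
  have h2 : ∀ l, Ek J P l = ∑ b, (Sm J)⁻¹ b l • ∑ k, Sm J k b • Ek J P k := by
    intro l
    simp_rw [Finset.smul_sum, smul_smul]
    rw [Finset.sum_comm]
    simp_rw [← Finset.sum_smul]
    have h3 : ∀ k, ∑ b, (Sm J)⁻¹ b l * Sm J k b = (1 : Matrix (Fin n) (Fin n) ℂ) k l := by
      intro k
      rw [← Matrix.mul_nonsing_inv _ hS, Matrix.mul_apply]
      exact Finset.sum_congr rfl fun b _ => mul_comm _ _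
    simp_rw [h3]
    rw [Finset.sum_eq_single l]
    · simp
    · intro b _ hb
      simp [hb]
    · simp
  rw [h2 k]
  exact Finset.sum_eq_zero fun b _ => by rw [h1 b, smul_zero]

/-- the `(1,0)`-components of an injective `P` with `P ∘ J = i P` are linearly independent -/
theorem indep {J : Cn n →L[ℝ] Cn n} (hJ : ∀ v, J (J v) = -v) (hS : IsUnit (Sm J).det)
    {P : Cn n →L[ℝ] Cn n} (hP : ∀ v, P v + I • P (J v) = 0) (hi : Function.Injective P)
    {c : Fin n → ℂ} (hc : ∑ l, c l • wdL (false, l) P = 0) : c = 0 := by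
  classical
  have hsurj : Function.Surjective P := by
    have : Function.Injective (P : Cn n →ₗ[ℝ] Cn n) := hi
    exact LinearMap.surjective_of_injective this
  have hspan : (⊤ : Submodule ℂ (Cn n)) ≤ Submodule.span ℂ (Set.range fun l => wdL (false, l) P) := by
    intro y _
    obtain ⟨v, rfl⟩ := hsurj y
    have hk : ∀ k, wdL (true, k) P = -∑ l, mu J k l • wdL (false, l) P := fun k =>
      eq_neg_of_add_eq_zero_left (Ek_zero hJ hS hP k)
    rw [P_eq P v]
    refine Submodule.add_mem _ (Submodule.sum_mem _ fun k _ => Submodule.smul_mem _ _ ?_)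
      (Submodule.sum_mem _ fun l _ => Submodule.smul_mem _ _ (Submodule.subset_span ⟨l, rfl⟩))
    rw [hk]
    exact Submodule.neg_mem _ (Submodule.sum_mem _ fun l _ =>
      Submodule.smul_mem _ _ (Submodule.subset_span ⟨l, rfl⟩))
  have hli : LinearIndependent ℂ fun l => wdL (false, l) P := by
    refine linearIndependent_of_top_le_span_of_card_eq_finrank hspan ?_
    simp
  exact funext fun l => Fintype.linearIndependent_iff.1 hli c hc l

end ext

end

end Crest.Agent.R281.OpD_569
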