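import Crest.Agent.R281.OpD1_569

/-!
# Row 281, OPEN' (M3) DICT-J (helper569), part 2: the operators `E_k` and their commutators

`m : Cn n → Fin n → Fin n → ℂ` a field of Beltrami coefficients,
`Ed m k f z = ∂f/∂z̄_k + ∑ l, m z k l ∂f/∂z_l`.

* `comm`    : `[E_k, E_l] f = ∑ j, (E_k m_lj - E_l m_kj) ∂_j f`
* `integ`   : if `ψ` is a local chart with `Dψ ∘ J = i Dψ` then `E_k m_lj = E_l m_kj`, `m = mu J`
* `integ_c` : if `e ≠ 0` solves `E_k e + c_k e = 0` then `E_k c_l = E_l c_k`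
* `Ed_eq`   : `Ed (mu J) k f z = Ek (J z) (fderiv ℝ f z) k`
* `sol_iff` : `df(v) + θ(v) f + i (df(Jv) + θ(Jv) f) = ∑ k, w_k (E_k f + c_k f)`
-/

set_option autoImplicit false
set_option linter.unusedSectionVars false
set_option linter.unusedSimpArgs false

open Set Filter Topology Complex
open scoped ContDiff Matrix ComplexConjugate

namespace Crest.Agent.R281.OpD_569

open Crest.Agent.R275 Crest.Agent.R275.Geo Crest.Agent.R275.EDR890

noncomputable section

variable {n : ℕ} {W : Type*} [NormedAddCommGroup W] [NormedSpace ℂ W]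

/-- `E_k f = ∂̄_k f + ∑ m_kl ∂_l f` -/
def Ed (m : Cn n → Fin n → Fin n → ℂ) (k : Fin n) (f : Cn n → W) (z : Cn n) : W :=
  wd (true, k) f z + ∑ l, m z k l • wd (false, l) f z

theorem Ed_congr {m : Cn n → Fin n → Fin n → ℂ} {k : Fin n} {f g : Cn n → W} {z : Cn n}
    (h : f =ᶠ[𝓝 z] g) : Ed m k f z = Ed m k g z := by
  unfold Ed
  rw [wd_congr h]
  simp_rw [wd_congr h]

theorem Ed_congr' {m : Cn n → Fin n → Fin n → ℂ} {k : Fin n} {f g : Cn n → W} {z : Cn n}
    (h : f =ᶠ[𝓝 z] g) : Ed m k f =ᶠ[𝓝 z] Ed m k g :=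
  h.eventuallyEq_nhds.mono fun _ hy => Ed_congr hy

theorem Ed_mul {m : Cn n → Fin n → Fin n → ℂ} {k : Fin n} {f g : Cn n → ℂ} {z : Cn n}
    (hf : DifferentiableAt ℝ f z) (hg : DifferentiableAt ℝ g z) :
    Ed m k (fun y => f y * g y) z = Ed m k f z * g z + f z * Ed m k g z := by
  unfold Ed
  rw [wd_mul hf hg]
  simp_rw [wd_mul hf hg]
  simp only [smul_eq_mul, mul_add, Finset.sum_add_distrib, add_mul, Finset.sum_mul, Finset.mul_sum]
  have h1 : ∀ l, m z k l * (wd (false, l) f z * g z) = m z k l * wd (false, l) f z * g z :=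
    fun l => by ring
  have h2 : ∀ l, m z k l * (f z * wd (false, l) g z) = f z * (m z k l * wd (false, l) g z) :=
    fun l => by ring
  simp_rw [h1, h2]
  ring

theorem Ed_const {m : Cn n → Fin n → Fin n → ℂ} {k : Fin n} (c : W) (z : Cn n) :
    Ed m k (fun _ : Cn n => c) z = 0 := by
  unfold Ed
  simp [wd_const]

theorem Ed_neg {m : Cn n → Fin n → Fin n → ℂ} {k : Fin n} {f : Cn n → ℂ} {z : Cn n}
    (hf : DifferentiableAt ℝ f z) : Ed m k (fun y => -f y) z = -Ed m k f z := by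
  have h := Ed_mul (m := m) (k := k) (f := fun _ => (-1 : ℂ)) (differentiableAt_const _) hf
  rw [Ed_const] at h
  simpa using h

theorem Ed_smooth {m : Cn n → Fin n → Fin n → ℂ} {k : Fin n} {f : Cn n → W} {z : Cn n}
    (hm : ∀ l, ContDiffAt ℝ ∞ (fun y => m y k l) z) (hf : ContDiffAt ℝ ∞ f z) :
    ContDiffAt ℝ ∞ (Ed m k f) z := by
  unfold Ed
  refine (contDiffAt_wd hf _).add (ContDiffAt.sum fun l _ => ?_)
  exact (hm l).smul (contDiffAt_wd hf _)

/-- the commutator -/
theorem comm {m : Cn n → Fin n → Fin n → ℂ} {z : Cn n}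
    (hm : ∀ k l, ContDiffAt ℝ ∞ (fun y => m y k l) z) {f : Cn n → W} (hf : ContDiffAt ℝ ∞ f z)
    (k l : Fin n) :
    Ed m k (Ed m l f) z - Ed m l (Ed m k f) z =
      ∑ j, (Ed m k (fun y => m y l j) z - Ed m l (fun y => m y k j) z) • wd (false, j) f z := by
  have hd : ∀ s, DifferentiableAt ℝ (wd s f) z := fun s =>
    (contDiffAt_wd hf s).differentiableAt (by simp)
  have hmd : ∀ a b, DifferentiableAt ℝ (fun y => m y a b) z := fun a b =>
    (hm a b).differentiableAt (by simp)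
  have e1 : ∀ (s : WI n) (b : Fin n), wd s (Ed m b f) z =
      wd s (wd (true, b) f) z + ∑ j, (wd s (fun y => m y b j) z • wd (false, j) f z +
        m z b j • wd s (wd (false, j) f) z) := by
    intro s b
    unfold Ed
    have h1 : ∀ j, DifferentiableAt ℝ (fun y => m y b j • wd (false, j) f y) z := fun j =>
      (hmd b j).smul (hd _)
    rw [wd_add (hd _) (DifferentiableAt.fun_sum fun j _ => h1 j), wd_sum _ fun j _ => h1 j]
    congr 1
    refine Finset.sum_congr rfl fun j _ => ?_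
    rw [wd_smul (hmd b j) (hd _)]
  have e2 : ∀ a b : Fin n, Ed m a (Ed m b f) z =
      (wd (true, a) (wd (true, b) f) z + ∑ j, m z b j • wd (true, a) (wd (false, j) f) z +
        ∑ i, m z a i • wd (false, i) (wd (true, b) f) z +
        ∑ i, ∑ j, (m z a i * m z b j) • wd (false, i) (wd (false, j) f) z) +
        ∑ j, Ed m a (fun y => m y b j) z • wd (false, j) f z := by
    intro a b
    have h1 : Ed m a (Ed m b f) z = wd (true, a) (Ed m b f) z +
      ∑ i, m z a i • wd (false, i) (Ed m b f) z := rfl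
    rw [h1, e1]
    simp_rw [e1]
    have h2 : ∀ j, Ed m a (fun y => m y b j) z = wd (true, a) (fun y => m y b j) z +
      ∑ i, m z a i • wd (false, i) (fun y => m y b j) z := fun j => rfl
    simp_rw [h2]
    simp only [Finset.sum_add_distrib, smul_add, add_smul, Finset.smul_sum, smul_smul,
      Finset.sum_smul, smul_eq_mul]
    have h3 : ∑ i, ∑ j, (m z a i * wd (false, i) (fun y => m y b j) z) • wd (false, j) f z =
        ∑ j, ∑ i, (m z a i * wd (false, i) (fun y => m y b j) z) • wd (false, j) f z :=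
      Finset.sum_comm
    rw [h3]
    abel
  rw [e2 k l, e2 l k]
  have s1 : wd (true, k) (wd (true, l) f) z = wd (true, l) (wd (true, k) f) z := wd_comm hf _ _
  have s2 : ∀ a b : Fin n, wd (false, a) (wd (true, b) f) z = wd (true, b) (wd (false, a) f) z :=
    fun a b => wd_comm hf _ _
  have s3 : ∑ i, ∑ j, (m z k i * m z l j) • wd (false, i) (wd (false, j) f) z =
      ∑ i, ∑ j, (m z l i * m z k j) • wd (false, i) (wd (false, j) f) z := by
    rw [Finset.sum_comm]
    refine Finset.sum_congr rfl fun j _ => Finset.sum_congr rfl fun i _ => ?_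
    rw [wd_comm hf, mul_comm]
  rw [s1, s3]
  simp_rw [s2, sub_smul, Finset.sum_sub_distrib]
  abel

/-- **integrability from a chart** -/
theorem integ {J : Cn n → Cn n →L[ℝ] Cn n} {z : Cn n}
    (hJ : ∀ᶠ y in 𝓝 z, ∀ v, J y (J y v) = -v) (hS : ∀ᶠ y in 𝓝 z, IsUnit (Sm (J y)).det)
    (hm : ∀ k l, ContDiffAt ℝ ∞ (fun y => mu (J y) k l) z)
    {ψ : Cn n → Cn n} (hψ : ContDiffAt ℝ ∞ ψ z)
    (hJψ : ∀ᶠ y in 𝓝 z, ∀ v, fderiv ℝ ψ y (J y v) = I • fderiv ℝ ψ y v)
    (hi : Function.Injective (fderiv ℝ ψ z)) (k l j : Fin n) :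
    Ed (fun y => mu (J y)) k (fun y => mu (J y) l j) z =
      Ed (fun y => mu (J y)) l (fun y => mu (J y) k j) z := by
  set m : Cn n → Fin n → Fin n → ℂ := fun y => mu (J y) with hmdef
  have hE : ∀ b, Ed m b ψ =ᶠ[𝓝 z] fun _ => (0 : Cn n) := by
    intro b
    filter_upwards [hJ, hS, hJψ] with y h1 h2 h3
    have h4 : ∀ v, fderiv ℝ ψ y v + I • fderiv ℝ ψ y (J y v) = 0 := by
      intro v
      rw [h3 v, smul_smul, Complex.I_mul_I]
      module
    exact Ek_zero h1 h2 h4 b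
  have h1 := comm (m := m) (z := z) hm hψ k l
  have h2 : ∀ a b, Ed m a (Ed m b ψ) z = 0 := fun a b => by
    rw [Ed_congr (hE b), Ed_const]
  rw [h2, h2, sub_zero] at h1
  have h3 := indep (J := J z) (hJ.self_of_nhds) hS.self_of_nhds (P := fderiv ℝ ψ z) (fun v => by
    rw [hJψ.self_of_nhds v, smul_smul, Complex.I_mul_I]
    module) hi h1.symm
  exact sub_eq_zero.1 (congrFun h3 j)

/-- **integrability of the connection from a frame** -/
theorem integ_c {m : Cn n → Fin n → Fin n → ℂ} {z : Cn n}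
    (hm : ∀ k l, ContDiffAt ℝ ∞ (fun y => m y k l) z)
    (hint : ∀ k l j, Ed m k (fun y => m y l j) z = Ed m l (fun y => m y k j) z)
    {c : Cn n → Fin n → ℂ} (hc : ∀ k, ContDiffAt ℝ ∞ (fun y => c y k) z)
    {e : Cn n → ℂ} (he : ContDiffAt ℝ ∞ e z) (he0 : e z ≠ 0)
    (hE : ∀ᶠ y in 𝓝 z, ∀ k, Ed m k e y + c y k * e y = 0) (k l : Fin n) :
    Ed m k (fun y => c y l) z = Ed m l (fun y => c y k) z := by
  have h1 := comm (m := m) (z := z) hm he k l
  have h0 : ∑ j, (Ed m k (fun y => m y l j) z - Ed m l (fun y => m y k j) z) •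
      wd (false, j) e z = 0 :=
    Finset.sum_eq_zero fun j _ => by rw [hint k l j, sub_self, zero_smul]
  rw [h0] at h1
  have h2 : ∀ b, Ed m b e =ᶠ[𝓝 z] fun y => -(c y b * e y) := fun b =>
    hE.mono fun y hy => eq_neg_of_add_eq_zero_left (hy b)
  have hed : DifferentiableAt ℝ e z := he.differentiableAt (by simp)
  have hcd : ∀ b, DifferentiableAt ℝ (fun y => c y b) z := fun b =>
    (hc b).differentiableAt (by simp)
  have h3 : ∀ a b, Ed m a (Ed m b e) z = -(Ed m a (fun y => c y b) z * e z - c z b * (c z a * e z)) := by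
    intro a b
    have hce : DifferentiableAt ℝ (fun y => c y b * e y) z := (hcd b).mul hed
    rw [Ed_congr (h2 b), Ed_neg hce, Ed_mul (hcd b) hed, (h2 a).self_of_nhds]
    ring
  rw [h3, h3] at h1
  have h4 : (Ed m k (fun y => c y l) z - Ed m l (fun y => c y k) z) * e z = 0 := by
    linear_combination -h1
  exact sub_eq_zero.1 ((mul_eq_zero.1 h4).resolve_right he0)

theorem Ed_eq (J : Cn n → Cn n →L[ℝ] Cn n) (k : Fin n) (f : Cn n → W) (z : Cn n) :
    Ed (fun y => mu (J y)) k f z = Ek (J z) (fderiv ℝ f z) k := rfl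

theorem Ek_add (J : Cn n →L[ℝ] Cn n) (P Q : Cn n →L[ℝ] W) (k : Fin n) :
    Ek J (P + Q) k = Ek J P k + Ek J Q k := by
  unfold Ek
  simp only [wdL_add, smul_add, Finset.sum_add_distrib]
  abel

theorem Ek_smul (J : Cn n →L[ℝ] Cn n) (c : ℂ) (P : Cn n →L[ℝ] W) (k : Fin n) :
    Ek J (c • P) k = c • Ek J P k := by
  unfold Ek
  simp only [wdL_smul, smul_add, Finset.smul_sum]
  congr 1
  exact Finset.sum_congr rfl fun l _ => smul_comm _ _ _

/-- **the equation `∇u + i ∇u ∘ J` in terms of `E_k u + c_k u`** -/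
theorem sol_eq {J : Cn n → Cn n →L[ℝ] Cn n} {z : Cn n} (hJ : ∀ v, J z (J z v) = -v)
    (hS : IsUnit (Sm (J z)).det) (θ : Cn n →L[ℝ] ℂ) (f : Cn n → ℂ) (v : Cn n) :
    fderiv ℝ f z v + θ v * f z + I * (fderiv ℝ f z (J z v) + θ (J z v) * f z) =
      ∑ k, wv (J z) v k * (Ed (fun y => mu (J y)) k f z + Ek (J z) θ k * f z) := by
  have h := ext_mu hJ hS (fderiv ℝ f z + f z • θ) v
  simp only [_root_.add_apply, _root_.smul_apply, smul_eq_mul] at h
  have h1 : fderiv ℝ f z v + θ v * f z + I * (fderiv ℝ f z (J z v) + θ (J z v) * f z) =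
      fderiv ℝ f z v + f z * θ v + I * (fderiv ℝ f z (J z v) + f z * θ (J z v)) := by ring
  rw [h1, h]
  refine Finset.sum_congr rfl fun k _ => ?_
  rw [Ek_add, Ek_smul, Ed_eq, smul_eq_mul, mul_comm (f z)]

end

end Crest.Agent.R281.OpD_569
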