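import Crest.Agent.R281.OpD2_569

/-!
# Row 281, OPEN' (M3) DICT-J (helper569), part 3: change of charts, smoothness

* `wv_inj`   : the coefficients of `∑ k, wv J v k • X k` are determined
* `Ek_push`, `mu_push`, `det_push` : complex linear `T` with `T ∘ J₁ = J₂ ∘ T`
* `contDiffAt_mu`, `contDiffAt_Ek`, `continuousAt_Sm` : joint smoothness in any parameter
* `mu_I`, `Sm_I`, `Ek_I` : `J = i`
-/

set_option autoImplicit false
set_option linter.unusedSectionVars false
set_option linter.unusedSimpArgs false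

open Set Filter Topology Complex
open scoped ContDiff Matrix ComplexConjugate

namespace Crest.Agent.R281.OpD_569

open Crest.Agent.R275 Crest.Agent.R275.Geo Crest.Agent.R275.EDR890

noncomputable section

variable {n : ℕ} {W : Type*} [NormedAddCommGroup W] [NormedSpace ℂ W]

/-- the coefficients are determined -/
theorem wv_inj {J : Cn n →L[ℝ] Cn n} (hS : IsUnit (Sm J).det) {X : Fin n → W}
    (h : ∀ v, ∑ k, wv J v k • X k = 0) : X = 0 := by
  have h1 : ∀ b, ∑ k, Sm J k b • X k = 0 := by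
    intro b
    have a1 := h (EuclideanSpace.single b 1)
    have a2 := h (I • EuclideanSpace.single b 1)
    have a3 : ∑ k, (2 * Sm J k b) • X k = 0 := by
      simp_rw [← wv_pol J b, add_smul, Finset.sum_add_distrib, mul_smul, ← Finset.smul_sum]
      rw [a1, a2]
      simp
    simp_rw [mul_smul, ← Finset.smul_sum] at a3
    exact (smul_eq_zero.1 a3).resolve_left two_ne_zero
  have h2 : ∀ l, X l = ∑ b, (Sm J)⁻¹ b l • ∑ k, Sm J k b • X k := by
    intro l
    simp_rw [Finset.smul_sum, smul_smul]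
    rw [Finset.sum_comm]
    simp_rw [← Finset.sum_smul]
    have h3 : ∀ k, ∑ b, (Sm J)⁻¹ b l * Sm J k b = (1 : Matrix (Fin n) (Fin n) ℂ) k l := by
      intro k
      rw [← Matrix.mul_nonsing_inv _ hS, Matrix.mul_apply]
      exact Finset.sum_congr rfl fun b _ => mul_comm _ _
    simp_rw [h3]
    rw [Finset.sum_eq_single l]
    · simp
    · intro b _ hb
      simp [hb]
    · simp
  funext k
  rw [h2 k]
  exact Finset.sum_eq_zero fun b _ => by rw [h1 b, smul_zero]

/-- the components of a complex linear map -/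
theorem clin_apply (T : Cn n →L[ℂ] Cn n) (v : Cn n) (b : Fin n) :
    T v b = ∑ k, v k * T (EuclideanSpace.single k 1) b := by
  have h2 : T v = ∑ a, v a • T (EuclideanSpace.single a 1) := by
    conv_lhs => rw [← (EuclideanSpace.basisFun (Fin n) ℂ).sum_repr v]
    simp
  rw [h2, WithLp.ofLp_sum]
  simp

theorem wv_push {J1 J2 : Cn n →L[ℝ] Cn n} {T : Cn n →L[ℂ] Cn n}
    (hT : ∀ v, T (J1 v) = J2 (T v)) (v : Cn n) (b : Fin n) :
    wv J2 (T v) b = ∑ k, conj (T (EuclideanSpace.single k 1) b) * wv J1 v k := by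
  unfold wv
  rw [← hT v, clin_apply T v b, clin_apply T (J1 v) b]
  simp only [map_sum, map_mul, Finset.mul_sum, ← Finset.sum_add_distrib]
  exact Finset.sum_congr rfl fun k _ => by ring

/-- **the frames `E_k` under a complex linear change of coordinates** -/
theorem Ek_push {J1 J2 : Cn n →L[ℝ] Cn n} (h1 : ∀ v, J1 (J1 v) = -v) (s1 : IsUnit (Sm J1).det)
    (h2 : ∀ v, J2 (J2 v) = -v) (s2 : IsUnit (Sm J2).det) {T : Cn n →L[ℂ] Cn n}
    (hT : ∀ v, T (J1 v) = J2 (T v)) (P : Cn n →L[ℝ] W) (k : Fin n) :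
    Ek J1 (P.comp (T.restrictScalars ℝ)) k =
      ∑ b, conj (T (EuclideanSpace.single k 1) b) • Ek J2 P b := by
  have h : (fun k => Ek J1 (P.comp (T.restrictScalars ℝ)) k -
      ∑ b, conj (T (EuclideanSpace.single k 1) b) • Ek J2 P b) = 0 := by
    refine wv_inj s1 fun v => ?_
    simp only [smul_sub, Finset.sum_sub_distrib]
    rw [← ext_mu h1 s1]
    simp only [ContinuousLinearMap.comp_apply, ContinuousLinearMap.coe_restrictScalars']
    rw [hT v, ext_mu h2 s2, sub_eq_zero]
    simp_rw [Finset.smul_sum]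
    rw [Finset.sum_comm]
    refine Finset.sum_congr rfl fun b _ => ?_
    rw [wv_push hT v b, Finset.sum_smul]
    refine Finset.sum_congr rfl fun k _ => ?_
    rw [smul_smul, mul_comm]
  exact sub_eq_zero.1 (congrFun h k)

/-- the `(0,1)` components of a complex linear map vanish -/
theorem wdL_clin_true (b : Fin n) (G : Cn n →L[ℂ] W) :
    wdL (true, b) (G.restrictScalars ℝ) = 0 := by
  have hI : (EuclideanSpace.single b I : Cn n) = I • EuclideanSpace.single b (1 : ℂ) := by
    ext c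
    simp [PiLp.single_apply]
  unfold wdL
  simp only [ContinuousLinearMap.coe_restrictScalars', cI_true]
  rw [hI, map_smul, smul_smul, Complex.I_mul_I, neg_smul, one_smul, add_neg_cancel, smul_zero]

theorem wdL_clin_false (b : Fin n) (G : Cn n →L[ℂ] W) :
    wdL (false, b) (G.restrictScalars ℝ) = G (EuclideanSpace.single b 1) := by
  have hI : (EuclideanSpace.single b I : Cn n) = I • EuclideanSpace.single b (1 : ℂ) := by
    ext c
    simp [PiLp.single_apply]
  unfold wdL
  simp only [ContinuousLinearMap.coe_restrictScalars', cI_false]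
  rw [hI, map_smul, smul_smul]
  have : -I * I = 1 := by rw [neg_mul, Complex.I_mul_I, neg_neg]
  rw [this, one_smul, ← two_smul ℂ, smul_smul]
  norm_num

theorem Ek_clin (J : Cn n →L[ℝ] Cn n) (G : Cn n →L[ℂ] W) (k : Fin n) :
    Ek J (G.restrictScalars ℝ) k = ∑ l, mu J k l • G (EuclideanSpace.single l 1) := by
  unfold Ek
  rw [wdL_clin_true, zero_add]
  simp_rw [wdL_clin_false]

/-- the law of the Beltrami coefficients -/
theorem mu_push {J1 J2 : Cn n →L[ℝ] Cn n} (h1 : ∀ v, J1 (J1 v) = -v) (s1 : IsUnit (Sm J1).det)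
    (h2 : ∀ v, J2 (J2 v) = -v) (s2 : IsUnit (Sm J2).det) {T : Cn n →L[ℂ] Cn n}
    (hT : ∀ v, T (J1 v) = J2 (T v)) (k m : Fin n) :
    ∑ l, mu J1 k l * T (EuclideanSpace.single l 1) m =
      ∑ b, conj (T (EuclideanSpace.single k 1) b) * mu J2 b m := by
  have h := Ek_push h1 s1 h2 s2 hT
    ((EuclideanSpace.proj m : Cn n →L[ℂ] ℂ).restrictScalars ℝ) k
  have e1 : ((EuclideanSpace.proj m : Cn n →L[ℂ] ℂ).restrictScalars ℝ).comp
      (T.restrictScalars ℝ) = (((EuclideanSpace.proj m : Cn n →L[ℂ] ℂ).comp T).restrictScalars ℝ) :=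
    rfl
  rw [e1, Ek_clin] at h
  simp_rw [Ek_clin] at h
  refine Eq.trans ?_ (h.trans ?_)
  · exact Finset.sum_congr rfl fun l _ => rfl
  refine Finset.sum_congr rfl fun b _ => ?_
  rw [smul_eq_mul, Finset.sum_eq_single m]
  · have : (EuclideanSpace.proj m : Cn n →L[ℂ] ℂ) (EuclideanSpace.single m 1) = 1 := by
      show (EuclideanSpace.single m (1 : ℂ) : Cn n) m = 1
      simp
    rw [this, smul_eq_mul, mul_one]
  · intro c _ hc
    have : (EuclideanSpace.proj m : Cn n →L[ℂ] ℂ) (EuclideanSpace.single c 1) = 0 := by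
      show (EuclideanSpace.single c (1 : ℂ) : Cn n) m = 0
      simp [hc.symm]
    rw [this, smul_zero]
  · simp

/-- the matrix of a complex linear map -/
def Tm (T : Cn n →L[ℂ] Cn n) : Matrix (Fin n) (Fin n) ℂ :=
  Matrix.of fun a b => T (EuclideanSpace.single b 1) a

theorem Am_push {J1 J2 : Cn n →L[ℝ] Cn n} {T : Cn n →L[ℂ] Cn n}
    (hT : ∀ v, T (J1 v) = J2 (T v)) : Tm T * Am J1 = Am J2 * Tm T := by
  have h : (T.restrictScalars ℝ).comp J1 = J2.comp (T.restrictScalars ℝ) := by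
    ext v : 1
    exact hT v
  ext a b
  have h1 : wdL (false, b) ((T.restrictScalars ℝ).comp J1) a =
      wdL (false, b) (J2.comp (T.restrictScalars ℝ)) a := by rw [h]
  rw [wdL_comp_left, wdL_comp_clin, clin_apply T (wdL (false, b) J1) a, WithLp.ofLp_sum] at h1
  simp only [Matrix.mul_apply, Tm, Am, Matrix.of_apply]
  calc ∑ j, T (EuclideanSpace.single j 1) a * wdL (false, b) J1 j
      = ∑ k, wdL (false, b) J1 k * T (EuclideanSpace.single k 1) a :=
        Finset.sum_congr rfl fun j _ => mul_comm _ _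
    _ = _ := h1
    _ = ∑ j, wdL (false, j) J2 a * T (EuclideanSpace.single b 1) j := by
        simp only [Finset.sum_apply, PiLp.smul_apply, cj_false, smul_eq_mul]
        exact Finset.sum_congr rfl fun j _ => mul_comm _ _

/-- the determinant of `S` is invariant -/
theorem det_push {J1 J2 : Cn n →L[ℝ] Cn n} {T : Cn n →L[ℂ] Cn n}
    (hT : ∀ v, T (J1 v) = J2 (T v)) (hi : IsUnit (Tm T).det) : (Sm J1).det = (Sm J2).det := by
  have h1 : (Tm T).map conj * Sm J1 = Sm J2 * (Tm T).map conj := by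
    unfold Sm
    rw [Matrix.mul_add, Matrix.add_mul, Matrix.mul_one, Matrix.one_mul, Matrix.mul_smul,
      Matrix.smul_mul, ← Matrix.map_mul, ← Matrix.map_mul, Am_push hT]
  have h2 := congrArg Matrix.det h1
  rw [Matrix.det_mul, Matrix.det_mul, mul_comm] at h2
  have h3 : ((Tm T).map conj).det ≠ 0 := by
    have : ((Tm T).map conj).det = conj (Tm T).det :=
      (RingHom.map_det (starRingEnd ℂ) (Tm T)).symm
    rw [this]
    exact (hi.map (starRingEnd ℂ)).ne_zero
  exact mul_right_cancel₀ h3 h2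

theorem Tm_unit {T T' : Cn n →L[ℂ] Cn n} (h : ∀ v, T' (T v) = v) : IsUnit (Tm T).det := by
  have h1 : Tm T' * Tm T = 1 := by
    ext a b
    rw [Matrix.mul_apply]
    have := clin_apply T' (T (EuclideanSpace.single b 1)) a
    rw [h] at this
    simp only [Tm, Matrix.of_apply]
    calc ∑ j, T' (EuclideanSpace.single j 1) a * T (EuclideanSpace.single b 1) j
        = ∑ k, T (EuclideanSpace.single b 1) k * T' (EuclideanSpace.single k 1) a :=
          Finset.sum_congr rfl fun j _ => mul_comm _ _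
      _ = (EuclideanSpace.single b (1 : ℂ) : Cn n) a := this.symm
      _ = _ := by by_cases hab : a = b <;> simp [hab, Matrix.one_apply]
  have h2 := congrArg Matrix.det h1
  rw [Matrix.det_mul, Matrix.det_one] at h2
  exact IsUnit.of_mul_eq_one _ (by rw [mul_comm]; exact h2)

/-! ### smoothness -/

section smooth

variable {E : Type*} [NormedAddCommGroup E] [NormedSpace ℝ E]

theorem contDiffAt_det {m : E → Matrix (Fin n) (Fin n) ℂ} {p : E}
    (h : ∀ a b, ContDiffAt ℝ ∞ (fun q => m q a b) p) : ContDiffAt ℝ ∞ (fun q => (m q).det) p := by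
  simp only [Matrix.det_apply]
  refine ContDiffAt.sum fun σ _ => ?_
  have h1 : ContDiffAt ℝ ∞ (fun q => ∏ i, m q (σ i) i) p := by
    exact contDiffAt_prod fun i _ => h _ _
  have h2 : (fun q => Equiv.Perm.sign σ • ∏ i, m q (σ i) i) =
      fun q => ((Equiv.Perm.sign σ : ℤ) : ℂ) * ∏ i, m q (σ i) i := by
    funext q
    rw [Units.smul_def, zsmul_eq_mul]
  rw [h2]
  exact contDiffAt_const.mul h1

theorem contDiffAt_inv' {m : E → Matrix (Fin n) (Fin n) ℂ} {p : E}
    (h : ∀ a b, ContDiffAt ℝ ∞ (fun q => m q a b) p) (hd : IsUnit (m p).det) (a b : Fin n) :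
    ContDiffAt ℝ ∞ (fun q => (m q)⁻¹ a b) p := by
  have h1 : (fun q => (m q)⁻¹ a b) = fun q => ((m q).det)⁻¹ * (m q).adjugate a b := by
    funext q
    rw [Matrix.inv_def, Ring.inverse_eq_inv', Matrix.smul_apply, smul_eq_mul]
  rw [h1]
  refine ((contDiffAt_det h).inv hd.ne_zero).mul ?_
  simp only [Matrix.adjugate_apply]
  refine contDiffAt_det fun c d => ?_
  by_cases hc : c = b
  · subst hc
    simp only [Matrix.updateRow_self]
    exact contDiffAt_const
  · simp only [Matrix.updateRow_ne hc]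
    exact h c d

theorem contDiffAt_wdL {V : Type*} [NormedAddCommGroup V] [NormedSpace ℂ V]
    {J : E → Cn n →L[ℝ] V} {p : E} (hJ : ContDiffAt ℝ ∞ J p)
    (s : WI n) : ContDiffAt ℝ ∞ (fun q => wdL s (J q)) p := by
  have h : ContDiffAt ℝ ∞ (fun G : Cn n →L[ℝ] V => wdL s G) (J p) :=
    (wdLc (W := V) s).contDiff.contDiffAt
  exact h.comp p hJ

theorem contDiffAt_ent {J : E → Cn n →L[ℝ] Cn n} {p : E} (hJ : ContDiffAt ℝ ∞ J p)
    (s : WI n) (a : Fin n) : ContDiffAt ℝ ∞ (fun q => wdL s (J q) a) p := by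
  have h : ContDiffAt ℝ ∞ (fun v : Cn n => v a) (wdL s (J p)) :=
    ((EuclideanSpace.proj a : Cn n →L[ℂ] ℂ).restrictScalars ℝ).contDiff.contDiffAt
  exact h.comp p (contDiffAt_wdL hJ s)

theorem contDiffAt_Sm {J : E → Cn n →L[ℝ] Cn n} {p : E} (hJ : ContDiffAt ℝ ∞ J p)
    (a b : Fin n) : ContDiffAt ℝ ∞ (fun q => Sm (J q) a b) p := by
  have h : (fun q => Sm (J q) a b) = fun q => (1 : Matrix (Fin n) (Fin n) ℂ) a b +
      I * conj (wdL (false, b) (J q) a) := by
    funext q
    simp [Sm, Am]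
  rw [h]
  refine contDiffAt_const.add (contDiffAt_const.mul ?_)
  exact (conjCLE.contDiff.contDiffAt).comp p (contDiffAt_ent hJ _ _)

theorem contDiffAt_mu {J : E → Cn n →L[ℝ] Cn n} {p : E} (hJ : ContDiffAt ℝ ∞ J p)
    (hS : IsUnit (Sm (J p)).det) (k l : Fin n) : ContDiffAt ℝ ∞ (fun q => mu (J q) k l) p := by
  have h : (fun q => mu (J q) k l) = fun q => I * ∑ c, wdL (true, c) (J q) l * (Sm (J q))⁻¹ c k := by
    funext q
    simp [mu, Bm, Matrix.mul_apply]
  rw [h]
  refine contDiffAt_const.mul (ContDiffAt.sum fun c _ => ?_)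
  exact (contDiffAt_ent hJ _ _).mul (contDiffAt_inv' (contDiffAt_Sm hJ) hS _ _)

theorem contDiffAt_Ek {J : E → Cn n →L[ℝ] Cn n} {θ : E → Cn n →L[ℝ] W} {p : E}
    (hJ : ContDiffAt ℝ ∞ J p) (hS : IsUnit (Sm (J p)).det) (hθ : ContDiffAt ℝ ∞ θ p) (k : Fin n) :
    ContDiffAt ℝ ∞ (fun q => Ek (J q) (θ q) k) p := by
  unfold Ek
  exact (contDiffAt_wdL hθ _).add (ContDiffAt.sum fun l _ =>
    (contDiffAt_mu hJ hS k l).smul (contDiffAt_wdL hθ _))

end smooth

theorem continuous_Sm_det : Continuous fun J : Cn n →L[ℝ] Cn n => (Sm J).det := by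
  have h : ∀ a b, Continuous fun J : Cn n →L[ℝ] Cn n => Sm J a b := by
    intro a b
    rw [continuous_iff_continuousAt]
    intro J
    exact (contDiffAt_Sm (J := fun J : Cn n →L[ℝ] Cn n => J) contDiffAt_id a b).continuousAt
  have : Continuous fun J : Cn n →L[ℝ] Cn n => (Sm J) := continuous_matrix h
  exact this.matrix_det

/-! ### `J = i` -/

/-- multiplication by `i` -/
def iL' : Cn n →L[ℝ] Cn n := (I • ContinuousLinearMap.id ℂ (Cn n)).restrictScalars ℝ

@[simp] theorem iL'_apply (v : Cn n) : iL' v = I • v := rfl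

theorem mu_of {J : Cn n →L[ℝ] Cn n} (hJ : ∀ v, J v = I • v) : mu J = 0 := by
  have h0 : J = iL' := by ext v : 1; rw [hJ, iL'_apply]
  have h1 : Bm J = 0 := by
    ext a b
    show wdL (true, b) J a = 0
    rw [h0]
    unfold iL'
    rw [wdL_clin_true]
    rfl
  unfold mu
  rw [h1]
  simp

theorem Sm_of {J : Cn n →L[ℝ] Cn n} (hJ : ∀ v, J v = I • v) :
    Sm J = (2 : ℂ) • (1 : Matrix (Fin n) (Fin n) ℂ) := by
  have h0 : J = iL' := by ext v : 1; rw [hJ, iL'_apply]
  ext a b
  have h1 : wdL (false, b) J a = I * (1 : Matrix (Fin n) (Fin n) ℂ) a b := by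
    rw [h0]
    unfold iL'
    rw [wdL_clin_false]
    by_cases hab : a = b <;> simp [hab, Matrix.one_apply]
  have h2 : Sm J a b = (1 : Matrix (Fin n) (Fin n) ℂ) a b + I * conj (wdL (false, b) J a) := by
    simp [Sm, Am]
  rw [h2, h1]
  by_cases hab : a = b
  · subst hab
    simp
    norm_num
  · simp [hab]

theorem Sm_of_unit {J : Cn n →L[ℝ] Cn n} (hJ : ∀ v, J v = I • v) : IsUnit (Sm J).det := by
  rw [Sm_of hJ]
  rw [isUnit_iff_ne_zero]
  simp [Matrix.det_smul]

theorem Ek_of {J : Cn n →L[ℝ] Cn n} (hJ : ∀ v, J v = I • v) (P : Cn n →L[ℝ] W) (k : Fin n) :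
    Ek J P k = wdL (true, k) P := by
  unfold Ek
  rw [mu_of hJ]
  simp

theorem wv_of {J : Cn n →L[ℝ] Cn n} (hJ : ∀ v, J v = I • v) (v : Cn n) (k : Fin n) :
    wv J v k = 2 * conj (v k) := by
  unfold wv
  rw [hJ]
  simp only [PiLp.smul_apply, smul_eq_mul, map_mul, conj_I]
  linear_combination (-conj (v k)) * Complex.I_mul_I

end

end Crest.Agent.R281.OpD_569
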