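import Crest.Agent.R281.OpM1_693
import Crest.Agent.R273.MolF_106

/-!
# R281 (S0424), OPEN', (M2) part 2 (helper693): Beltrami data and the moving Dolbeault operator

`N : LB A`, `B = BN N` (all `N`-valued `(0,q)`-forms of the fixed structure).

* `dz A i a f x` : `∂f/∂z_a` in the chart `i`; `Ek mu i k f x = ∂̄_k f + ∑ mu_kl ∂_l f`;
* `Bel N` : Beltrami matrix `mu`, connection coefficients `c`, transformation laws, integrability;
* `Bel.R`, `Bel.op : FOp (BN N) (BN N)`, `op = nab + R`;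
* `Bel.D = op.T`, `D_apply`, `D_D : D (D u) = 0`, `D_pqL`.
-/

set_option autoImplicit false
set_option linter.unusedSectionVars false
set_option linter.unusedSimpArgs false
set_option linter.unusedVariables false

open Set Filter Topology Complex
open scoped ContDiff Matrix ComplexConjugate Kronecker

namespace Crest.Agent.R281.OpM_693

open Crest.Agent.R275 Crest.Agent.R275.Geo Crest.Agent.R275.Tor812 Crest.Agent.R275.Lam2130
  Crest.Agent.R275.Core144 Crest.Agent.R273.Mol_106 Crest.Agent.R273.LamN127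
  Crest.Agent.R273.Fock_243 Crest.Agent.R273.Calc_243

noncomputable section

variable {n : ℕ} {M : Type} [TopologicalSpace M] {A : Atl n M}

/-! ### `∂/∂z_a` -/

section dz

variable {W : Type*} [NormedAddCommGroup W] [NormedSpace ℂ W]

/-- `∂ / ∂z_a` in the chart `i` -/
def dz (A : Atl n M) (i : A.ι) (a : Fin n) (f : M → W) (x : M) : W :=
  (1 / 2 : ℂ) • (pdM A i (a, 0) f x - I • pdM A i (a, 1) f x)

theorem dz_congr {i : A.ι} {f g : M → W} {x : M} (hx : x ∈ (A.e i).source) (h : f =ᶠ[𝓝 x] g)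
    (a : Fin n) : dz A i a f x = dz A i a g x := by
  unfold dz
  rw [pdM_congr hx h, pdM_congr hx h]

theorem dzL_apply_vec (G : Cn n →L[ℝ] W) (v : Cn n) :
    (1 / 2 : ℂ) • (G v - I • G (I • v)) = ∑ b, v b • ((1 / 2 : ℂ) •
      (G (EuclideanSpace.single b 1) - I • G (EuclideanSpace.single b I))) := by
  have h1 : G v = ∑ b, ((v b).re • G (EuclideanSpace.single b (1 : ℂ))
      + (v b).im • G (EuclideanSpace.single b I)) := by
    conv_lhs => rw [vec_eq_sum v]
    simp [map_sum]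
  have h2 : G (I • v) = ∑ b, ((-(v b).im) • G (EuclideanSpace.single b (1 : ℂ))
      + (v b).re • G (EuclideanSpace.single b I)) := by
    conv_lhs => rw [vec_eq_sum (I • v)]
    simp [map_sum]
  rw [h1, h2, Finset.smul_sum, ← Finset.sum_sub_distrib, Finset.smul_sum]
  refine Finset.sum_congr rfl fun b _ => ?_
  set P := G (EuclideanSpace.single b (1 : ℂ))
  set Q := G (EuclideanSpace.single b I)
  have hr : ∀ (r : ℝ) (w : W), r • w = (r : ℂ) • w := fun r w => rfl
  have hc : v b = ((v b).re : ℂ) + ((v b).im : ℂ) * I := (Complex.re_add_im _).symm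
  have hII := Complex.I_mul_I
  conv_rhs => rw [hc]
  simp only [hr, ofReal_neg, smul_add, smul_sub, smul_smul]
  match_scalars
  · ring
  · linear_combination ((1 / 2 : ℂ) * ((v b).im : ℂ)) * hII

theorem dz_eq (i : A.ι) (a : Fin n) (f : M → W) (x : M) : dz A i a f x =
    (1 / 2 : ℂ) • (fderiv ℝ (fun z => f ((A.e i).symm z)) (A.e i x) (EuclideanSpace.single a 1) -
      I • fderiv ℝ (fun z => f ((A.e i).symm z)) (A.e i x) (EuclideanSpace.single a I)) := by
  unfold dz pdM
  rw [cc_ev0, cc_ev1]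

/-- change of charts for `∂` -/
theorem dz_change {i j : A.ι} {x : M} (hx : x ∈ (A.e i).source ∩ (A.e j).source) {f : M → W}
    (hf : DifferentiableAt ℝ (fun z => f ((A.e j).symm z)) (A.e j x)) (a : Fin n) :
    dz A i a f x = ∑ b, A.J i j x b a • dz A j b f x := by
  have hev : (fun z => f ((A.e i).symm z)) =ᶠ[𝓝 (A.e i x)]
      fun z => (fun w => f ((A.e j).symm w)) (A.e j ((A.e i).symm z)) := by
    filter_upwards [(isOpen_ov i j).mem_nhds (mem_ov hx)] with z hz
    show f ((A.e i).symm z) = f ((A.e j).symm (A.e j ((A.e i).symm z)))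
    rw [(A.e j).left_inv hz.2]
  have hxx : A.e j ((A.e i).symm (A.e i x)) = A.e j x := by rw [(A.e i).left_inv hx.1]
  set φ : Cn n → Cn n := fun z => A.e j ((A.e i).symm z) with hφ
  have hφd := Atl.diff_trans hx
  have hφr : HasFDerivAt φ ((fderiv ℂ φ (A.e i x)).restrictScalars ℝ) (A.e i x) :=
    hφd.hasFDerivAt.restrictScalars ℝ
  have hf' : DifferentiableAt ℝ (fun w => f ((A.e j).symm w)) (φ (A.e i x)) := by
    rw [hφ]
    simp only [hxx]
    exact hf
  have h' : fderiv ℝ (fun z => f ((A.e i).symm z)) (A.e i x) =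
      (fderiv ℝ (fun w => f ((A.e j).symm w)) (φ (A.e i x))).comp
        ((fderiv ℂ φ (A.e i x)).restrictScalars ℝ) := by
    rw [hev.fderiv_eq]
    exact (hf'.hasFDerivAt.comp _ hφr).fderiv
  have hI : (EuclideanSpace.single a I : Cn n) = I • EuclideanSpace.single a (1 : ℂ) := by
    ext c
    simp [PiLp.single_apply]
  rw [dz_eq, h']
  simp only [ContinuousLinearMap.comp_apply, ContinuousLinearMap.coe_restrictScalars']
  rw [hI, map_smul, dzL_apply_vec]
  refine Finset.sum_congr rfl fun b _ => ?_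
  rw [dz_eq]
  have : φ (A.e i x) = A.e j x := hxx
  rw [this]
  rfl

/-- `∂` of an antiholomorphic function vanishes -/
theorem dz_anti {i : A.ι} {f : M → ℂ} {x : M}
    (hf : DifferentiableAt ℂ (fun z => conj (f ((A.e i).symm z))) (A.e i x)) (a : Fin n) :
    dz A i a f x = 0 := by
  set G : Cn n → ℂ := fun z => conj (f ((A.e i).symm z)) with hG
  have h1 : (fun z => f ((A.e i).symm z)) = fun z => conjCLE (G z) := by
    funext z
    simp [hG]
  have h2 : HasFDerivAt (fun z => conjCLE (G z))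
      ((conjCLE : ℂ →L[ℝ] ℂ).comp ((fderiv ℂ G (A.e i x)).restrictScalars ℝ)) (A.e i x) :=
    (conjCLE : ℂ →L[ℝ] ℂ).hasFDerivAt.comp _ (hf.hasFDerivAt.restrictScalars ℝ)
  have hI : (EuclideanSpace.single a I : Cn n) = I • EuclideanSpace.single a (1 : ℂ) := by
    ext c
    simp [PiLp.single_apply]
  rw [dz_eq, h1, h2.fderiv, hI]
  simp only [ContinuousLinearMap.comp_apply, ContinuousLinearMap.coe_restrictScalars', map_smul,
    ContinuousLinearEquiv.coe_coe, conjCLE_apply, smul_eq_mul, map_mul, conj_I]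
  linear_combination ((1 / 2 : ℂ) * conj ((fderiv ℂ G (A.e i x)) (EuclideanSpace.single a 1))) *
    Complex.I_mul_I

theorem dz_mul {i : A.ι} {f g : M → ℂ} {x : M}
    (hf : DifferentiableAt ℝ (fun z => f ((A.e i).symm z)) (A.e i x))
    (hg : DifferentiableAt ℝ (fun z => g ((A.e i).symm z)) (A.e i x))
    (hx : x ∈ (A.e i).source) (a : Fin n) :
    dz A i a (fun y => f y * g y) x = dz A i a f x * g x + f x * dz A i a g x := by
  unfold dz
  rw [pdM_mul hf hg hx, pdM_mul hf hg hx]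
  simp only [smul_eq_mul]
  ring

end dz

/-! ### local versions of the componentwise rules -/

section loc

variable {κ κ' : Type} [Fintype κ] [Fintype κ'] {i : A.ι} {x : M}

theorem pdM_pi' {f : M → κ → ℂ}
    (hf : ∀ k, DifferentiableAt ℝ (fun z => f ((A.e i).symm z) k) (A.e i x)) (p : RI n) (k : κ) :
    pdM A i p f x k = pdM A i p (fun y => f y k) x := by
  have hd : DifferentiableAt ℝ (fun z => f ((A.e i).symm z)) (A.e i x) :=
    differentiableAt_pi.2 hf
  have h : fderiv ℝ (fun z => f ((A.e i).symm z) k) (A.e i x) =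
      (ContinuousLinearMap.proj k : (κ → ℂ) →L[ℝ] ℂ).comp
        (fderiv ℝ (fun z => f ((A.e i).symm z)) (A.e i x)) :=
    ((ContinuousLinearMap.proj k : (κ → ℂ) →L[ℝ] ℂ).hasFDerivAt.comp _ hd.hasFDerivAt).fderiv
  show fderiv ℝ (fun z => f ((A.e i).symm z)) (A.e i x) (cc (ev p)) k =
    fderiv ℝ (fun z => f ((A.e i).symm z) k) (A.e i x) (cc (ev p))
  rw [h]
  rfl

theorem pdM_mulVec' {m : M → Matrix κ κ' ℂ} {v : M → κ' → ℂ}
    (hm : ∀ k l, DifferentiableAt ℝ (fun z => m ((A.e i).symm z) k l) (A.e i x))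
    (hv : ∀ l, DifferentiableAt ℝ (fun z => v ((A.e i).symm z) l) (A.e i x))
    (hx : x ∈ (A.e i).source) (p : RI n) :
    pdM A i p (fun y => m y *ᵥ v y) x =
      Matrix.of (fun k l => pdM A i p (fun y => m y k l) x) *ᵥ v x + m x *ᵥ pdM A i p v x := by
  funext k
  have h0 : ∀ k, DifferentiableAt ℝ (fun z => (m ((A.e i).symm z) *ᵥ v ((A.e i).symm z)) k)
      (A.e i x) := fun k => by
    have : (fun z => (m ((A.e i).symm z) *ᵥ v ((A.e i).symm z)) k) =
        fun z => ∑ l, m ((A.e i).symm z) k l * v ((A.e i).symm z) l := rfl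
    rw [this]
    exact DifferentiableAt.fun_sum fun l _ => (hm k l).mul (hv l)
  rw [pdM_pi' h0]
  have h1 : pdM A i p (fun y => (m y *ᵥ v y) k) x = ∑ l, pdM A i p (fun y => m y k l * v y l) x :=
    pdM_sum Finset.univ (fun l _ => (hm k l).mul (hv l)) p
  rw [h1]
  simp only [Pi.add_apply, Matrix.mulVec, dotProduct, Matrix.of_apply]
  rw [← Finset.sum_add_distrib]
  refine Finset.sum_congr rfl fun l _ => ?_
  rw [pdM_mul (hm k l) (hv l) hx, pdM_pi' hv]

theorem dz_mulVec {m : M → Matrix κ κ' ℂ} {v : M → κ' → ℂ}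
    (hm : ∀ k l, DifferentiableAt ℝ (fun z => m ((A.e i).symm z) k l) (A.e i x))
    (hv : ∀ l, DifferentiableAt ℝ (fun z => v ((A.e i).symm z) l) (A.e i x))
    (hx : x ∈ (A.e i).source) (a : Fin n) :
    dz A i a (fun y => m y *ᵥ v y) x =
      Matrix.of (fun k l => dz A i a (fun y => m y k l) x) *ᵥ v x + m x *ᵥ dz A i a v x := by
  unfold dz
  rw [pdM_mulVec' hm hv hx, pdM_mulVec' hm hv hx]
  have e : (Matrix.of fun k l => (1 / 2 : ℂ) • (pdM A i (a, 0) (fun y => m y k l) x -
      I • pdM A i (a, 1) (fun y => m y k l) x)) =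
      (1 / 2 : ℂ) • (Matrix.of (fun k l => pdM A i (a, 0) (fun y => m y k l) x) -
        I • Matrix.of (fun k l => pdM A i (a, 1) (fun y => m y k l) x)) := by
    ext k l
    rfl
  rw [e]
  simp only [Matrix.smul_mulVec, Matrix.sub_mulVec, Matrix.mulVec_smul, Matrix.mulVec_sub,
    smul_sub, smul_add]
  abel

end loc

/-! ### the transition matrices of `BN N` -/

section tau

variable (N : LB A)

theorem BN_τ (i j : A.ι) (x : M) (k l : Finset (Fin n) × Unit) :
    (BN N).τ i j x k l = Gam (Jb A i j x) k.1 l.1 * N.g i j x := rfl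

theorem BN_e (a : Fin n) : (BN N).e a = eW (ep a) ⊗ₖ (1 : Matrix Unit Unit ℂ) := rfl

theorem diffAt_Gam_conj {i j : A.ι} {x : M} (hx : x ∈ (A.e i).source ∩ (A.e j).source)
    (S T : Finset (Fin n)) :
    DifferentiableAt ℂ (fun z => conj (Gam (Jb A i j ((A.e i).symm z)) S T)) (A.e i x) := by
  have h1 : ∀ y, conj (Gam (Jb A i j y) S T) = Gam ((Lam2130.Jm A i j y)ᵀ) S T := by
    intro y
    have h2 := congrFun (congrFun (Gam_map (starRingEnd ℂ) (Jb A i j y)) S) T
    rw [Matrix.map_apply] at h2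
    rw [h2]
    congr 1
    ext a b
    simp [Jb_apply, Matrix.map_apply]
  have h3 : DifferentiableOn ℂ (fun z => Gam ((Lam2130.Jm A i j ((A.e i).symm z))ᵀ) S T) (A.ov i j) :=
    diffOn_Gam (fun a b => holAt_J i j b a) S T
  have h4 : (fun z => conj (Gam (Jb A i j ((A.e i).symm z)) S T)) =
      fun z => Gam ((Lam2130.Jm A i j ((A.e i).symm z))ᵀ) S T := funext fun z => h1 _
  rw [h4]
  exact h3.differentiableAt ((isOpen_ov i j).mem_nhds (mem_ov hx))

theorem diffAt_Gam {i j : A.ι} {x : M} (hx : x ∈ (A.e i).source ∩ (A.e j).source)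
    (S T : Finset (Fin n)) :
    DifferentiableAt ℝ (fun z => Gam (Jb A i j ((A.e i).symm z)) S T) (A.e i x) :=
  ((contDiffOn_Gam (fun a b => Jb_smooth i j a b) S T).contDiffAt
    ((isOpen_ov i j).mem_nhds (mem_ov hx))).differentiableAt (by simp)

theorem diffAt_g {i j : A.ι} {x : M} (hx : x ∈ (A.e i).source ∩ (A.e j).source) :
    DifferentiableAt ℝ (fun z => N.g i j ((A.e i).symm z)) (A.e i x) :=
  (((N.hol i j).contDiffOn (A.e j).open_source).contDiffAt
    ((isOpen_ov i j).mem_nhds (mem_ov hx))).differentiableAt (by simp)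

/-- `∂_a τ = (∂_a g / g) τ` -/
theorem dz_τ {i j : A.ι} {x : M} (hx : x ∈ (A.e i).source ∩ (A.e j).source) (a : Fin n) :
    (Matrix.of fun k l => dz A i a (fun y => (BN N).τ i j y k l) x) =
      (dz A i a (N.g i j) x * (N.g i j x)⁻¹) • (BN N).τ i j x := by
  ext k l
  show dz A i a (fun y => Gam (Jb A i j y) k.1 l.1 * N.g i j y) x = _
  rw [dz_mul (diffAt_Gam hx _ _) (diffAt_g N hx) hx.1,
    dz_anti (diffAt_Gam_conj hx k.1 l.1), zero_mul, zero_add]
  show _ = (dz A i a (N.g i j) x * (N.g i j x)⁻¹) * (Gam (Jb A i j x) k.1 l.1 * N.g i j x)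
  have := N.ne_zero i j x
  field_simp

end tau

/-! ### Beltrami data -/

/-- `E_k = ∂̄_k + ∑ mu_kl ∂_l` -/
def Ek (mu : A.ι → M → Matrix (Fin n) (Fin n) ℂ) (i : A.ι) (k : Fin n) (f : M → ℂ) (x : M) : ℂ :=
  A.db i k f x + ∑ l, mu i x k l * dz A i l f x

/-- a deformation of the complex structure and of the holomorphic bundle `N`, in Beltrami form -/
structure Bel (N : LB A) where
  mu : A.ι → M → Matrix (Fin n) (Fin n) ℂ
  c : A.ι → M → Fin n → ℂ
  mu_sm : ∀ i k l, A.SmAt i (fun x => mu i x k l)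
  c_sm : ∀ i k, A.SmAt i (fun x => c i x k)
  mu_tr : ∀ i j, ∀ x ∈ (A.e i).source ∩ (A.e j).source, ∀ k b,
    ∑ l, mu i x k l * A.J i j x b l = ∑ a, conj (A.J i j x a k) * mu j x a b
  c_tr : ∀ i j, ∀ x ∈ (A.e i).source ∩ (A.e j).source, ∀ k,
    c i x k * N.g i j x + ∑ l, mu i x k l * dz A i l (N.g i j) x =
      (∑ a, conj (A.J i j x a k) * c j x a) * N.g i j x
  int_mu : ∀ i, ∀ x ∈ (A.e i).source, ∀ k l m,
    Ek mu i k (fun y => mu i y l m) x = Ek mu i l (fun y => mu i y k m) x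
  int_c : ∀ i, ∀ x ∈ (A.e i).source, ∀ k l,
    Ek mu i k (fun y => c i y l) x = Ek mu i l (fun y => c i y k) x

namespace Bel

variable {N : LB A} (b : Bel N)

/-- `∑_l mu_kl ∂_l u + c_k u` -/
def w (i : A.ι) (k : Fin n) (u : M → (BN N).κ → ℂ) (x : M) : (BN N).κ → ℂ :=
  (∑ l, b.mu i x k l • dz A i l u x) + b.c i x k • u x

open Classical in
/-- the difference `D - ∇` on families -/
def rf (u : A.ι → M → (BN N).κ → ℂ) : A.ι → M → (BN N).κ → ℂ := fun i x =>
  if x ∈ (A.e i).source then ∑ k, (BN N).e k *ᵥ b.w i k (u i) x else 0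

theorem rf_apply {u : A.ι → M → (BN N).κ → ℂ} {i : A.ι} {x : M} (hx : x ∈ (A.e i).source) :
    b.rf u i x = ∑ k, (BN N).e k *ᵥ b.w i k (u i) x := if_pos hx

theorem rf_off {u : A.ι → M → (BN N).κ → ℂ} {i : A.ι} {x : M} (hx : x ∉ (A.e i).source) :
    b.rf u i x = 0 := if_neg hx

/-- coefficients of the first order part of `D - ∇` -/
def ra (i : A.ι) (p : RI n) (x : M) : Matrix (BN N).κ (BN N).κ ℂ :=
  (if p.2 = 0 then (1 / 2 : ℂ) else -(I / 2)) • ∑ k, b.mu i x k p.1 • (BN N).e k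

/-- zero order part of `D - ∇` -/
def rb (i : A.ι) (x : M) : Matrix (BN N).κ (BN N).κ ℂ := ∑ k, b.c i x k • (BN N).e k

theorem ra_sm (i : A.ι) (p : RI n) (k l : (BN N).κ) : A.SmAt i (fun x => b.ra i p x k l) := by
  have h : (fun z => b.ra i p ((A.e i).symm z) k l) = fun z =>
      (if p.2 = 0 then (1 / 2 : ℂ) else -(I / 2)) *
        ∑ a, b.mu i ((A.e i).symm z) a p.1 * (BN N).e a k l := by
    funext z
    simp only [ra, Matrix.smul_apply, Matrix.sum_apply, smul_eq_mul]
  show ContDiffOn ℝ ∞ (fun z => b.ra i p ((A.e i).symm z) k l) _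
  rw [h]
  exact contDiffOn_const.mul (ContDiffOn.sum fun a _ => (b.mu_sm i a p.1).mul contDiffOn_const)

theorem rb_sm (i : A.ι) (k l : (BN N).κ) : A.SmAt i (fun x => b.rb i x k l) := by
  have h : (fun z => b.rb i ((A.e i).symm z) k l) = fun z =>
      ∑ a, b.c i ((A.e i).symm z) a * (BN N).e a k l := by
    funext z
    simp only [rb, Matrix.smul_apply, Matrix.sum_apply, smul_eq_mul]
  show ContDiffOn ℝ ∞ (fun z => b.rb i ((A.e i).symm z) k l) _
  rw [h]
  exact ContDiffOn.sum fun a _ => (b.c_sm i a).mul contDiffOn_const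

theorem sum_e_w (i : A.ι) (u : M → (BN N).κ → ℂ) (x : M) :
    ∑ k, (BN N).e k *ᵥ b.w i k u x =
      (∑ p, b.ra i p x *ᵥ pdM A i p u x) + b.rb i x *ᵥ u x := by
  simp only [w, ra, rb, dz, Fintype.sum_prod_type, Fin.sum_univ_two, if_true, one_ne_zero,
    if_false, Matrix.mulVec_add, Matrix.mulVec_sum, Matrix.mulVec_smul, Matrix.mulVec_sub,
    Matrix.smul_mulVec, Matrix.sum_mulVec, Finset.sum_add_distrib, Finset.smul_sum]
  congr 1
  rw [Finset.sum_comm]
  rw [← Finset.sum_add_distrib]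
  refine Finset.sum_congr rfl fun l _ => ?_
  rw [← Finset.sum_add_distrib]
  refine Finset.sum_congr rfl fun k _ => ?_
  module

theorem rf_smAt {u : A.ι → M → (BN N).κ → ℂ} (hu : u ∈ Sec (BN N)) (i : A.ι) (k : (BN N).κ) :
    A.SmAt i (fun x => b.rf u i x k) := by
  have h1 : A.SmAt i (fun x => ((∑ p, b.ra i p x *ᵥ pdM A i p (u i) x) + b.rb i x *ᵥ u i x) k) := by
    refine ContDiffOn.add ?_ (smAt_mulVec (b.rb_sm i) (hu.1 i) k)
    have h2 : (fun z => (∑ p, b.ra i p ((A.e i).symm z) *ᵥ pdM A i p (u i) ((A.e i).symm z)) k) =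
        fun z => ∑ p, (b.ra i p ((A.e i).symm z) *ᵥ pdM A i p (u i) ((A.e i).symm z)) k := by
      funext z
      rw [Finset.sum_apply]
    rw [h2]
    exact ContDiffOn.sum fun p _ => smAt_mulVec (b.ra_sm i p) (smAt_pdM (hu.1 i) p) k
  refine h1.congr fun z hz => ?_
  show b.rf u i ((A.e i).symm z) k = _
  rw [b.rf_apply ((A.e i).map_target hz), b.sum_e_w]

theorem rf_tr {u : A.ι → M → (BN N).κ → ℂ} (hu : u ∈ Sec (BN N)) {i j : A.ι} {x : M}
    (hx : x ∈ (A.e i).source ∩ (A.e j).source) :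
    b.rf u i x = (BN N).τ i j x *ᵥ b.rf u j x := by
  rw [b.rf_apply hx.1, b.rf_apply hx.2]
  have hg := N.ne_zero i j x
  -- derivatives of `u i`
  have hev : u i =ᶠ[𝓝 x] fun y => (BN N).τ i j y *ᵥ u j y := by
    filter_upwards [((A.e i).open_source.inter (A.e j).open_source).mem_nhds hx] with y hy
    exact hu.2.2 i j y hy
  have hτ : ∀ k l, DifferentiableAt ℝ (fun z => (BN N).τ i j ((A.e i).symm z) k l) (A.e i x) :=
    fun k l => diffAt_of_ov (f := fun y => (BN N).τ i j y k l) ((BN N).τ_smooth i j k l) hx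
  have huj : A.SmAt j (u j) := Sec.smAt' (BN N) hu j
  have hujd := huj.diffAt hx.2
  have huj' : ∀ l, DifferentiableAt ℝ (fun z => u j ((A.e i).symm z) l) (A.e i x) := by
    intro l
    have h1 : DifferentiableAt ℝ (fun z => u j ((A.e j).symm z) l) (A.e j x) :=
      (hu.1 j l).diffAt hx.2
    have h2 : (fun z => u j ((A.e i).symm z) l) =ᶠ[𝓝 (A.e i x)]
        fun z => (fun w => u j ((A.e j).symm w) l) (A.e j ((A.e i).symm z)) := by
      filter_upwards [(isOpen_ov i j).mem_nhds (mem_ov hx)] with z hz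
      show _ = u j ((A.e j).symm (A.e j ((A.e i).symm z))) l
      rw [(A.e j).left_inv hz.2]
    refine (DifferentiableAt.comp (g := fun w => u j ((A.e j).symm w) l)
      (f := fun z => A.e j ((A.e i).symm z)) (A.e i x) ?_
      ((Atl.diff_trans hx).restrictScalars ℝ)).congr_of_eventuallyEq h2
    rw [(A.e i).left_inv hx.1]
    exact h1
  have hdz : ∀ l, dz A i l (u i) x =
      (dz A i l (N.g i j) x * (N.g i j x)⁻¹) • ((BN N).τ i j x *ᵥ u j x) +
        (BN N).τ i j x *ᵥ ∑ c, A.J i j x c l • dz A j c (u j) x := by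
    intro l
    rw [dz_congr hx.1 hev, dz_mulVec hτ huj' hx.1, dz_τ N hx, Matrix.smul_mulVec,
      dz_change hx hujd]
  have hw : ∀ k, b.w i k (u i) x =
      (BN N).τ i j x *ᵥ ∑ a, conj (A.J i j x a k) • b.w j a (u j) x := by
    intro k
    have hc := b.c_tr i j x hx k
    have hc' : (∑ l, b.mu i x k l * (dz A i l (N.g i j) x * (N.g i j x)⁻¹)) + b.c i x k =
        ∑ a, conj (A.J i j x a k) * b.c j x a := by
      have h1 : (∑ l, b.mu i x k l * (dz A i l (N.g i j) x * (N.g i j x)⁻¹)) =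
          (∑ l, b.mu i x k l * dz A i l (N.g i j) x) * (N.g i j x)⁻¹ := by
        rw [Finset.sum_mul]
        exact Finset.sum_congr rfl fun l _ => by ring
      rw [h1]
      field_simp
      linear_combination hc
    have hm := b.mu_tr i j x hx k
    have e1 : ∑ l, b.mu i x k l • dz A i l (u i) x =
        (∑ l, b.mu i x k l * (dz A i l (N.g i j) x * (N.g i j x)⁻¹)) • ((BN N).τ i j x *ᵥ u j x) +
        (BN N).τ i j x *ᵥ ∑ c, (∑ a, conj (A.J i j x a k) * b.mu j x a c) •
          dz A j c (u j) x := by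
      simp only [hdz, smul_add, Finset.sum_add_distrib, smul_smul, ← Finset.sum_smul]
      congr 1
      simp only [← hm]
      simp only [Finset.sum_smul, Matrix.mulVec_sum, Matrix.mulVec_smul, Finset.smul_sum,
        smul_smul]
      rw [Finset.sum_comm]
    have e2 : b.c i x k • u i x = b.c i x k • ((BN N).τ i j x *ᵥ u j x) := by
      rw [hu.2.2 i j x hx]
    have e3 : ∑ a, conj (A.J i j x a k) • b.w j a (u j) x =
        (∑ c, (∑ a, conj (A.J i j x a k) * b.mu j x a c) • dz A j c (u j) x) +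
          (∑ a, conj (A.J i j x a k) * b.c j x a) • u j x := by
      simp only [w, smul_add, Finset.sum_add_distrib, Finset.smul_sum, smul_smul, Finset.sum_smul]
      congr 1
      exact Finset.sum_comm
    show (∑ l, b.mu i x k l • dz A i l (u i) x) + b.c i x k • u i x = _
    rw [e1, e2, e3, ← hc', Matrix.mulVec_add, Matrix.mulVec_smul, add_smul]
    abel
  have hs : ∀ a, ∑ k, conj (A.J i j x a k) • ((BN N).e k * (BN N).τ i j x) =
      (BN N).τ i j x * (BN N).e a := fun a => (BN N).τ_symb i j x hx a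
  simp only [hw, Matrix.mulVec_sum, Matrix.mulVec_mulVec, Matrix.mulVec_smul]
  rw [Finset.sum_comm]
  refine Finset.sum_congr rfl fun a _ => ?_
  rw [← hs a, Matrix.sum_mulVec]
  exact Finset.sum_congr rfl fun k _ => by rw [Matrix.smul_mulVec]

theorem rf_mem {u : A.ι → M → (BN N).κ → ℂ} (hu : u ∈ Sec (BN N)) : b.rf u ∈ Sec (BN N) :=
  ⟨b.rf_smAt hu, fun i x hx => b.rf_off hx, fun i j x hx => b.rf_tr hu hx⟩

/-- **`D - ∇`** as a first order operator -/
def R : FOp (BN N) (BN N) where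
  a := b.ra
  b := b.rb
  a_sm := b.ra_sm
  b_sm := b.rb_sm
  T :=
    { toFun := fun u => ⟨b.rf u.1, b.rf_mem u.2⟩
      map_add' := fun u v => Subtype.ext (by
        funext i x
        by_cases hx : x ∈ (A.e i).source
        · show b.rf (u.1 + v.1) i x = b.rf u.1 i x + b.rf v.1 i x
          have h : ∀ p, pdM A i p (u.1 i + v.1 i) x = pdM A i p (u.1 i) x + pdM A i p (v.1 i) x :=
            fun p => pdM_addW ((Sec.smAt' (BN N) u.2 i).diffAt hx)
              ((Sec.smAt' (BN N) v.2 i).diffAt hx) p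
          rw [b.rf_apply hx, b.rf_apply hx, b.rf_apply hx, b.sum_e_w, b.sum_e_w, b.sum_e_w]
          simp only [Pi.add_apply, h, Matrix.mulVec_add, Finset.sum_add_distrib]
          abel
        · show b.rf (u.1 + v.1) i x = b.rf u.1 i x + b.rf v.1 i x
          rw [b.rf_off hx, b.rf_off hx, b.rf_off hx, add_zero])
      map_smul' := fun c u => Subtype.ext (by
        funext i x
        by_cases hx : x ∈ (A.e i).source
        · show b.rf (c • u.1) i x = c • b.rf u.1 i x
          have h : ∀ p, pdM A i p (c • u.1 i) x = c • pdM A i p (u.1 i) x := fun p => by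
            unfold pdM
            have h0 : fderiv ℝ (fun z => (c • u.1 i) ((A.e i).symm z)) (A.e i x) =
                c • fderiv ℝ (fun z => u.1 i ((A.e i).symm z)) (A.e i x) :=
              fderiv_const_smul ((Sec.smAt' (BN N) u.2 i).diffAt hx) c
            rw [h0]
            rfl
          rw [b.rf_apply hx, b.rf_apply hx, b.sum_e_w, b.sum_e_w]
          simp only [Pi.smul_apply, h, Matrix.mulVec_smul, Finset.smul_sum, smul_add]
        · show b.rf (c • u.1) i x = c • b.rf u.1 i x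
          rw [b.rf_off hx, b.rf_off hx, smul_zero]) }
  hT u i x hx := by
    show b.rf u.1 i x = _
    rw [b.rf_apply hx, b.sum_e_w]

theorem R_apply (u : Sec (BN N)) {i : A.ι} {x : M} (hx : x ∈ (A.e i).source) :
    (b.R.T u).1 i x = ∑ k, (BN N).e k *ᵥ b.w i k (u.1 i) x := b.rf_apply hx

/-- the moving operator -/
def op : FOp (BN N) (BN N) := (Crest.Agent.R273.Mol_106.FOp.nab (BN N)).add b.R

/-- **the moving Dolbeault operator** -/
def D : Sec (BN N) →ₗ[ℂ] Sec (BN N) := b.op.T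

theorem D_eq (u : Sec (BN N)) : b.D u = nabL (BN N) u + b.R.T u := rfl

theorem D_sub (u : Sec (BN N)) : b.D u - nabL (BN N) u = b.R.T u := by
  rw [D_eq, add_sub_cancel_left]

end Bel

end

end Crest.Agent.R281.OpM_693
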