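import Crest.Agent.R281.OpD3_569
import Crest.Agent.R281.OpM2_693
import Crest.Agent.R281.PL4_713

/-!
# Row 281, OPEN' (M3) DICT-J (helper569), part 4: Beltrami data of a nearby structure

`L L' : PL (ofAtl A)` (713) with the same transition functions, `P : Pot L` (holomorphic frames of
`P.lb`), `J` an integrable structure (`JC (ofAtl A) J A'`), `F11 J L'`, `det (Sm (J i z)) ≠ 0`.

* `tht P L' i z` : the connection form of `L'` in the frames of `P.lb`
* `bel`          : the structure `Bel P.lb` of 693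
-/

set_option autoImplicit false
set_option linter.unusedSectionVars false
set_option linter.unusedSimpArgs false
set_option maxSynthPendingDepth 3

open Set Filter Topology Complex
open scoped ContDiff Matrix ComplexConjugate

namespace Crest.Agent.R281.OpD_569

open Crest.Agent.R275 Crest.Agent.R275.Geo Crest.Agent.R275.EDR890 Crest.Agent.R275.Core144
open Crest.Agent.R281.HkR_835 Crest.Agent.R281.Ti_846 Crest.Agent.R281.PL_713
open Crest.Agent.R281.OpM_693 (Bel dz)
open Crest.Agent.R273.Mol_106 (pdM)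

noncomputable section

variable {n : ℕ} {M : Type} [TopologicalSpace M] {A : Atl n M}

/-! ### dictionary of derivatives -/

theorem dz_eq {W : Type*} [NormedAddCommGroup W] [NormedSpace ℂ W] (i : A.ι) (a : Fin n)
    (f : M → W) (x : M) :
    dz A i a f x = wd (false, a) (fun z => f ((A.e i).symm z)) (A.e i x) := by
  unfold dz pdM wd wdL
  rw [cc_ev0, cc_ev1]
  simp only [cI_false, neg_smul, sub_eq_add_neg]

theorem db_eq {W : Type*} [NormedAddCommGroup W] [NormedSpace ℂ W] (i : A.ι) (a : Fin n)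
    (f : M → W) (x : M) :
    A.db i a f x = wd (true, a) (fun z => f ((A.e i).symm z)) (A.e i x) := rfl

theorem EkM_eq (mu : A.ι → M → Matrix (Fin n) (Fin n) ℂ) (i : A.ι) (k : Fin n) (f : M → ℂ)
    {x : M} (hx : x ∈ (A.e i).source) : OpM_693.Ek mu i k f x =
      Ed (fun z => mu i ((A.e i).symm z)) k (fun z => f ((A.e i).symm z)) (A.e i x) := by
  unfold OpM_693.Ek Ed
  rw [db_eq]
  simp_rw [dz_eq, (A.e i).left_inv hx]
  rfl

/-! ### the data -/

/-- the Beltrami coefficients in the charts -/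
def muA (A : Atl n M) (J : A.ι → Cn n → Cn n →L[ℝ] Cn n) :
    A.ι → M → Matrix (Fin n) (Fin n) ℂ := fun i x => mu (J i (A.e i x))

variable {L L' : PL (ofAtl A)} (P : Pot L)

/-- the connection form of `L'` in the holomorphic frames of `P.lb` -/
def tht (L' : PL (ofAtl A)) (i : A.ι) (z : Cn n) : Cn n →L[ℝ] ℂ :=
  I • (ofRealCLM.comp (L'.th i z)) - fderiv ℝ (P.h i) z

theorem tht_apply (L' : PL (ofAtl A)) (i : A.ι) (z v : Cn n) :
    tht P L' i z v = I * (L'.th i z v : ℂ) - fderiv ℝ (P.h i) z v := rfl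

/-- the `E_k`-components of the connection form -/
def cA (L' : PL (ofAtl A)) (J : A.ι → Cn n → Cn n →L[ℝ] Cn n) :
    A.ι → M → Fin n → ℂ := fun i x k => Ek (J i (A.e i x)) (tht P L' i (A.e i x)) k

theorem tht_sm (L' : PL (ofAtl A)) {i : A.ι} {z : Cn n} (hz : z ∈ (A.e i).target) :
    ContDiffAt ℝ ∞ (tht P L' i) z := by
  have h1 : ContDiffAt ℝ ∞ (L'.th i) z :=
    (L'.th_sm i).contDiffAt ((A.e i).open_target.mem_nhds hz)
  have h2 : ContDiffAt ℝ ∞ (fderiv ℝ (P.h i)) z := (P.at_ hz).fderiv_right (by simp)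
  have h3 : ContDiffAt ℝ ∞ (fun y => ofRealCLM.comp (L'.th i y)) z :=
    contDiffAt_const.clm_comp h1
  exact (h3.const_smul I).sub h2

/-- the transition map as a complex linear map -/
def Tc (A : Atl n M) (i j : A.ι) (x : M) : Cn n →L[ℂ] Cn n :=
  fderiv ℂ ((ofAtl A).t i j) (A.e i x)

theorem Tc_J (i j : A.ι) (x : M) (a b : Fin n) :
    Tc A i j x (EuclideanSpace.single a 1) b = A.J i j x b a := rfl

theorem Tc_real {i j : A.ι} {x : M} (hx : x ∈ (A.e i).source ∩ (A.e j).source) (v : Cn n) :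
    fderiv ℝ ((ofAtl A).t i j) (A.e i x) v = Tc A i j x v := by
  rw [(ofAtl_t_diff A (Pot.mem_ov' hx)).fderiv_restrictScalars ℝ]
  rfl

theorem t_x {i j : A.ι} {x : M} (hx : x ∈ (A.e i).source) : (ofAtl A).t i j (A.e i x) = A.e j x := by
  show A.e j ((A.e i).symm (A.e i x)) = _
  rw [(A.e i).left_inv hx]

theorem Tc_inv {i j : A.ι} {x : M} (hx : x ∈ (A.e i).source ∩ (A.e j).source) (v : Cn n) :
    Tc A j i x (Tc A i j x v) = v := by
  have h1 := RCh.dt_dt (C := ofAtl A) (Pot.mem_ov' hx) v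
  rw [Tc_real hx, t_x hx.1, Tc_real ⟨hx.2, hx.1⟩] at h1
  exact h1

section

variable {A' : Atl n M} {J : A.ι → Cn n → Cn n →L[ℝ] Cn n}

theorem J_law (hJ : JC (ofAtl A) J A') {i j : A.ι} {x : M}
    (hx : x ∈ (A.e i).source ∩ (A.e j).source) (v : Cn n) :
    Tc A i j x (J i (A.e i x) v) = J j (A.e j x) (Tc A i j x v) := by
  have h := hJ.J_tr (Pot.mem_ov' hx) v
  rwa [t_x hx.1, Tc_real hx, Tc_real hx] at h

/-- invariance of the determinant -/
theorem det_law (hJ : JC (ofAtl A) J A') {i j : A.ι} {x : M}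
    (hx : x ∈ (A.e i).source ∩ (A.e j).source) :
    (Sm (J i (A.e i x))).det = (Sm (J j (A.e j x))).det :=
  det_push (J_law hJ hx) (Tm_unit (Tc_inv hx))

/-- the good structures -/
structure Near (A : Atl n M) (J : A.ι → Cn n → Cn n →L[ℝ] Cn n) : Prop where
  sm : ∀ i, ContDiffOn ℝ ∞ (J i) (A.e i).target
  un : ∀ i, ∀ z ∈ (A.e i).target, IsUnit (Sm (J i z)).det

variable (hJ : JC (ofAtl A) J A') (hN : Near A J)
include hJ hN

theorem at_src {i : A.ι} {x : M} (hx : x ∈ (A.e i).source) :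
    (∀ v, J i (A.e i x) (J i (A.e i x) v) = -v) ∧ IsUnit (Sm (J i (A.e i x))).det :=
  ⟨fun v => hJ.sq ((A.e i).map_source hx) v, hN.un i _ ((A.e i).map_source hx)⟩

theorem J_at {i : A.ι} {z : Cn n} (hz : z ∈ (A.e i).target) : ContDiffAt ℝ ∞ (J i) z :=
  (hN.sm i).contDiffAt ((A.e i).open_target.mem_nhds hz)

theorem mu_sm' {i : A.ι} {z : Cn n} (hz : z ∈ (A.e i).target) (k l : Fin n) :
    ContDiffAt ℝ ∞ (fun y => mu (J i y) k l) z :=
  contDiffAt_mu (J_at hJ hN hz) (hN.un i z hz) k l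

theorem c_sm' (L' : PL (ofAtl A)) {i : A.ι} {z : Cn n} (hz : z ∈ (A.e i).target) (k : Fin n) :
    ContDiffAt ℝ ∞ (fun y => Ek (J i y) (tht P L' i y) k) z :=
  contDiffAt_Ek (J_at hJ hN hz) (hN.un i z hz) (tht_sm P L' hz) k

theorem muA_sm (i : A.ι) (k l : Fin n) : A.SmAt i (fun x => muA A J i x k l) := by
  intro z hz
  have h1 : ContDiffAt ℝ ∞ (fun y => mu (J i y) k l) z := mu_sm' hJ hN hz k l
  refine (h1.contDiffWithinAt (s := (A.e i).target)).congr (fun y hy => ?_) ?_
  · show mu (J i (A.e i ((A.e i).symm y))) k l = _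
    rw [(A.e i).right_inv hy]
  · show mu (J i (A.e i ((A.e i).symm z))) k l = _
    rw [(A.e i).right_inv hz]

theorem cA_sm (L' : PL (ofAtl A)) (i : A.ι) (k : Fin n) : A.SmAt i (fun x => cA P L' J i x k) := by
  intro z hz
  have h1 : ContDiffAt ℝ ∞ (fun y => Ek (J i y) (tht P L' i y) k) z := c_sm' P hJ hN L' hz k
  refine (h1.contDiffWithinAt (s := (A.e i).target)).congr (fun y hy => ?_) ?_
  · show Ek (J i (A.e i ((A.e i).symm y))) (tht P L' i (A.e i ((A.e i).symm y))) k = _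
    rw [(A.e i).right_inv hy]
  · show Ek (J i (A.e i ((A.e i).symm z))) (tht P L' i (A.e i ((A.e i).symm z))) k = _
    rw [(A.e i).right_inv hz]

theorem muA_tr (i j : A.ι) (x : M) (hx : x ∈ (A.e i).source ∩ (A.e j).source) (k b : Fin n) :
    ∑ l, muA A J i x k l * A.J i j x b l = ∑ a, conj (A.J i j x a k) * muA A J j x a b := by
  obtain ⟨a1, a2⟩ := at_src hJ hN hx.1
  obtain ⟨b1, b2⟩ := at_src hJ hN hx.2
  exact mu_push a1 a2 b1 b2 (J_law hJ hx) k b

/-- the law of the connection forms -/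
theorem tht_law (hg : L'.g = L.g) {i j : A.ι} {x : M}
    (hx : x ∈ (A.e i).source ∩ (A.e j).source) (v : Cn n) :
    P.gz i j (A.e i x) * tht P L' i (A.e i x) v + fderiv ℝ (P.gz i j) (A.e i x) v =
      P.gz i j (A.e i x) * tht P L' j (A.e j x) (Tc A i j x v) := by
  set z := A.e i x with hz0
  have hz : z ∈ (ofAtl A).ov i j := Pot.mem_ov' hx
  have ht := (RCh.t_mem hz).1
  have h1 : HasFDerivAt (fun y => exp (P.h i y)) _ z := (P.diffAt hz.1).hasFDerivAt.cexp
  have h2 : HasFDerivAt (fun y => P.h j ((ofAtl A).t i j y)) _ z :=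
    HasFDerivAt.comp (g := P.h j) (f := (ofAtl A).t i j) z (P.diffAt ht).hasFDerivAt
      (RCh.t_diff hz).hasFDerivAt
  have h3 : HasFDerivAt (fun y => exp (-P.h j ((ofAtl A).t i j y))) _ z := h2.neg.cexp
  have h4 : HasFDerivAt (P.gz i j) _ z := (h1.mul (L.g_diff hz).hasFDerivAt).mul h3
  have e : ∀ w, fderiv ℝ (P.gz i j) z w = P.gz i j z * (fderiv ℝ (P.h i) z w +
      I * ((L'.th j ((ofAtl A).t i j z) (fderiv ℝ ((ofAtl A).t i j) z w) - L'.th i z w : ℝ) : ℂ) -
      fderiv ℝ (P.h j) ((ofAtl A).t i j z) (fderiv ℝ ((ofAtl A).t i j) z w)) := by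
    intro w
    have hlaw := L'.law i j z hz w
    rw [hg] at hlaw
    rw [h4.fderiv]
    simp only [add_apply, smul_apply, neg_apply, smul_eq_mul, ContinuousLinearMap.comp_apply,
      hlaw, Pot.gz, Pi.mul_apply, Pi.neg_apply]
    ring
  rw [e v, tht_apply, tht_apply]
  have e1 : fderiv ℝ ((ofAtl A).t i j) z v = Tc A i j x v := Tc_real hx v
  have e2 : (ofAtl A).t i j z = A.e j x := t_x hx.1
  rw [e1, e2]
  push_cast
  ring

theorem lb_read {i j : A.ι} {x : M} (hx : x ∈ (A.e i).source ∩ (A.e j).source) :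
    (fun z => P.lb.g i j ((A.e i).symm z)) =ᶠ[𝓝 (A.e i x)] P.gz i j := by
  have h : (ofAtl A).ov i j ∈ 𝓝 (A.e i x) := (RCh.isOpen_ov i j).mem_nhds (Pot.mem_ov' hx)
  filter_upwards [h] with y hy
  have hy' : (A.e i).symm y ∈ (A.e i).source ∩ (A.e j).source := ⟨(A.e i).map_target hy.1, hy.2⟩
  have := P.lb_g hy'
  rw [this, (A.e i).right_inv hy.1]
  rfl

theorem cA_tr (hg : L'.g = L.g) (i j : A.ι) (x : M) (hx : x ∈ (A.e i).source ∩ (A.e j).source)
    (k : Fin n) :
    cA P L' J i x k * P.lb.g i j x + ∑ l, muA A J i x k l * dz A i l (P.lb.g i j) x =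
      (∑ a, conj (A.J i j x a k) * cA P L' J j x a) * P.lb.g i j x := by
  obtain ⟨a1, a2⟩ := at_src hJ hN hx.1
  obtain ⟨b1, b2⟩ := at_src hJ hN hx.2
  have hgx : P.lb.g i j x = P.gz i j (A.e i x) := by
    have h := P.lb_g hx
    rw [h, Pot.gz, t_x hx.1]
  have hz : A.e i x ∈ (ofAtl A).ov i j := Pot.mem_ov' hx
  have h0 : (P.gz i j (A.e i x)) • tht P L' i (A.e i x) +
      (fderiv ℂ (P.gz i j) (A.e i x)).restrictScalars ℝ =
      (P.gz i j (A.e i x)) • ((tht P L' j (A.e j x)).comp ((Tc A i j x).restrictScalars ℝ)) := by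
    ext v
    have h1 := tht_law P hJ hN hg hx v
    rw [(P.gz_diff hz).fderiv_restrictScalars ℝ] at h1
    exact h1
  have h1 := congrArg (fun G => Ek (J i (A.e i x)) G k) h0
  simp only [] at h1
  rw [Ek_add, Ek_smul, Ek_smul, Ek_clin, Ek_push a1 a2 b1 b2 (J_law hJ hx)] at h1
  have h2 : ∀ l, dz A i l (P.lb.g i j) x =
      fderiv ℂ (P.gz i j) (A.e i x) (EuclideanSpace.single l 1) := by
    intro l
    rw [dz_eq, wd_congr (lb_read P hJ hN hx), wd, (P.gz_diff hz).fderiv_restrictScalars ℝ,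
      wdL_clin_false]
  simp_rw [h2]
  rw [hgx]
  simp only [smul_eq_mul] at h1
  unfold cA muA
  rw [mul_comm, h1, mul_comm]
  rfl

theorem int_muA (i : A.ι) (x : M) (hx : x ∈ (A.e i).source) (k l m : Fin n) :
    OpM_693.Ek (muA A J) i k (fun y => muA A J i y l m) x =
      OpM_693.Ek (muA A J) i l (fun y => muA A J i y k m) x := by
  have hz : A.e i x ∈ (A.e i).target := (A.e i).map_source hx
  have hnb := (A.e i).open_target.mem_nhds hz
  rw [EkM_eq _ _ _ _ hx, EkM_eq _ _ _ _ hx]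
  have e0 : ∀ a b, (fun z => muA A J i ((A.e i).symm z) a b) =ᶠ[𝓝 (A.e i x)]
      fun z => mu (J i z) a b := by
    intro a b
    filter_upwards [hnb] with y hy
    show mu (J i (A.e i ((A.e i).symm y))) a b = _
    rw [(A.e i).right_inv hy]
  have e1 : ∀ (a : Fin n) (f : Cn n → ℂ),
      Ed (fun z => muA A J i ((A.e i).symm z)) a f (A.e i x) =
      Ed (fun z => mu (J i z)) a f (A.e i x) := by
    intro a f
    unfold Ed
    congr 1
    refine Finset.sum_congr rfl fun b _ => ?_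
    have h : muA A J i ((A.e i).symm (A.e i x)) a b = mu (J i (A.e i x)) a b :=
      (e0 a b).self_of_nhds
    exact congrArg (fun t : ℂ => t • wd (false, b) f (A.e i x)) h
  refine (e1 _ _).trans ((Ed_congr (e0 l m)).trans (Eq.trans ?_
    ((e1 _ _).trans (Ed_congr (e0 k m))).symm))
  obtain ⟨a, ha⟩ := A'.cover x
  have hmov : A.e i x ∈ mov (ofAtl A') (ofAtl A) a i := by
    refine ⟨hz, ?_⟩
    show (A.e i).symm (A.e i x) ∈ (A'.e a).source
    rw [(A.e i).left_inv hx]
    exact ha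
  have hop : IsOpen (mov (ofAtl A') (ofAtl A) a i) := Cmp.isOpen_mov (ofAtl A') (ofAtl A) a i
  refine integ (ψ := mt (ofAtl A') (ofAtl A) a i) ?_ ?_ (fun a b => mu_sm' hJ hN hz a b) ?_ ?_ ?_ k l m
  · filter_upwards [hnb] with y hy v
    exact hJ.sq hy v
  · filter_upwards [hnb] with y hy
    exact hN.un i y hy
  · exact (hJ.cmp.s' i a).contDiffAt (hop.mem_nhds hmov)
  · filter_upwards [hop.mem_nhds hmov] with y hy v
    exact hJ.lin' hy v
  · exact fun u v h => hJ.cmp.symm.inj hmov h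

theorem int_cA (hF : F11 J L') (i : A.ι) (x : M) (hx : x ∈ (A.e i).source) (k l : Fin n) :
    OpM_693.Ek (muA A J) i k (fun y => cA P L' J i y l) x =
      OpM_693.Ek (muA A J) i l (fun y => cA P L' J i y k) x := by
  have hz : A.e i x ∈ (A.e i).target := (A.e i).map_source hx
  have hnb := (A.e i).open_target.mem_nhds hz
  have e0 : ∀ a b, (fun z => muA A J i ((A.e i).symm z) a b) =ᶠ[𝓝 (A.e i x)]
      fun z => mu (J i z) a b := by
    intro a b
    filter_upwards [hnb] with y hy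
    show mu (J i (A.e i ((A.e i).symm y))) a b = _
    rw [(A.e i).right_inv hy]
  have e1 : ∀ (a : Fin n) (f : Cn n → ℂ),
      Ed (fun z => muA A J i ((A.e i).symm z)) a f (A.e i x) =
      Ed (fun z => mu (J i z)) a f (A.e i x) := by
    intro a f
    unfold Ed
    congr 1
    refine Finset.sum_congr rfl fun b _ => ?_
    have h : muA A J i ((A.e i).symm (A.e i x)) a b = mu (J i (A.e i x)) a b :=
      (e0 a b).self_of_nhds
    exact congrArg (fun t : ℂ => t • wd (false, b) f (A.e i x)) h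
  have e2 : ∀ b, (fun z => cA P L' J i ((A.e i).symm z) b) =ᶠ[𝓝 (A.e i x)]
      fun z => Ek (J i z) (tht P L' i z) b := by
    intro b
    filter_upwards [hnb] with y hy
    show Ek (J i (A.e i ((A.e i).symm y))) (tht P L' i (A.e i ((A.e i).symm y))) b = _
    rw [(A.e i).right_inv hy]
  have hint : ∀ a b c, Ed (fun z => mu (J i z)) a (fun y => mu (J i y) b c) (A.e i x) =
      Ed (fun z => mu (J i z)) b (fun y => mu (J i y) a c) (A.e i x) := by
    intro a b c
    have h := int_muA hJ hN i x hx a b c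
    rw [EkM_eq _ _ _ _ hx, EkM_eq _ _ _ _ hx] at h
    exact ((e1 _ _).trans (Ed_congr (e0 b c))).symm.trans
      (h.trans ((e1 _ _).trans (Ed_congr (e0 a c))))
  rw [EkM_eq _ _ _ _ hx, EkM_eq _ _ _ _ hx]
  refine (e1 _ _).trans ((Ed_congr (e2 l)).trans (Eq.trans ?_
    ((e1 _ _).trans (Ed_congr (e2 k))).symm))
  obtain ⟨U, hU, hzU, hUt, e, he, hene, heq⟩ := exists_frame hJ hF (i := i) (z := A.e i x) hz
  have hUn := hU.mem_nhds hzU
  have hsm : ∀ y ∈ U, ContDiffAt ℝ ∞ e y := fun y hy => he.contDiffAt (hU.mem_nhds hy)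
  refine integ_c (m := fun z => mu (J i z)) (e := fun y => e y * exp (P.h i y))
    (fun a b => mu_sm' hJ hN hz a b) hint (fun b => c_sm' P hJ hN L' hz b)
    ((hsm _ hzU).mul (P.at_ hz).cexp) (mul_ne_zero (hene _ hzU) (exp_ne_zero _)) ?_ k l
  filter_upwards [hUn] with y hy b
  have hyt : y ∈ (A.e i).target := hUt hy
  have hJy : ∀ v, J i y (J i y v) = -v := fun v => hJ.sq hyt v
  have hSy := hN.un i y hyt
  have hd : HasFDerivAt (fun y => e y * exp (P.h i y)) _ y :=
    ((hsm y hy).differentiableAt (by simp)).hasFDerivAt.mul (P.diffAt hyt).hasFDerivAt.cexp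
  have h0 : ∀ v, ∑ c, wv (J i y) v c * (Ed (fun y => mu (J i y)) c (fun y => e y * exp (P.h i y)) y +
      Ek (J i y) (tht P L' i y) c * (e y * exp (P.h i y))) = 0 := by
    intro v
    rw [← sol_eq hJy hSy]
    rw [hd.fderiv, tht_apply, tht_apply]
    simp only [add_apply, smul_apply, smul_eq_mul]
    have h1 := heq y hy v
    linear_combination (exp (P.h i y)) * h1
  have h1 := wv_inj hSy (X := fun c => Ed (fun y => mu (J i y)) c (fun y => e y * exp (P.h i y)) y +
      Ek (J i y) (tht P L' i y) c * (e y * exp (P.h i y))) (fun v => by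
      simpa only [smul_eq_mul] using h0 v)
  exact congrFun h1 b

/-- **the Beltrami data of a nearby structure** -/
def bel (hg : L'.g = L.g) (hF : F11 J L') : Bel P.lb where
  mu := muA A J
  c := cA P L' J
  mu_sm := muA_sm hJ hN
  c_sm := cA_sm P hJ hN L'
  mu_tr := muA_tr hJ hN
  c_tr := cA_tr P hJ hN hg
  int_mu := int_muA hJ hN
  int_c := int_cA P hJ hN hF

end

end

end Crest.Agent.R281.OpD_569
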