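import Crest.Agent.R281.OpD5_569
import Crest.Agent.R281.OpM3_693
import Crest.Agent.R281.Op3b_569

/-!
# Row 281, OPEN' (helper569), part 6: families of structures near `X_1`

* `MFam A P Q q1` : a family `(J q, L' q)`, jointly smooth near `q1`, integrable, `F11`,
  equal to `(i, L)` at `q1`;
* `ev_near`       : on a compact manifold `Near A (J q)` for `q` near `q1`;
* `MFam.W`, `mu_joint`, `c_joint`, `mu_q1`, `c_q1` : the inputs of 450's `open_mov`;
* `MFam.bl`       : the Beltrami data, `ra`, `rb` jointly smooth.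
-/

set_option autoImplicit false
set_option linter.unusedSectionVars false
set_option linter.unusedSimpArgs false
set_option maxSynthPendingDepth 3

open Set Filter Topology Complex
open scoped ContDiff Matrix ComplexConjugate

namespace Crest.Agent.R281.OpD_569

open Crest.Agent.R275 Crest.Agent.R275.Geo Crest.Agent.R275.EDR890 Crest.Agent.R275.Core144
open Crest.Agent.R281.HkR_835 Crest.Agent.R281.Ti_846 Crest.Agent.R281.PL_713
open Crest.Agent.R281.OpM_693 (Bel)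
open Crest.Agent.R273.LamN127 (BN)

noncomputable section

variable {n : ℕ} {M : Type} [TopologicalSpace M] {A : Atl n M}

/-- a family of integrable structures with connections near the given holomorphic atlas -/
structure MFam (A : Atl n M) (L : PL (ofAtl A)) (Q : Type*) [NormedAddCommGroup Q]
    [NormedSpace ℝ Q] (q1 : Q) where
  O : Set Q
  op : IsOpen O
  mem : q1 ∈ O
  J : Q → A.ι → Cn n → Cn n →L[ℝ] Cn n
  L' : Q → PL (ofAtl A)
  Js : ∀ i, ContDiffOn ℝ ∞ (fun y : Q × Cn n => J y.1 i y.2) (O ×ˢ (A.e i).target)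
  Ls : ∀ i, ContDiffOn ℝ ∞ (fun y : Q × Cn n => (L' y.1).th i y.2) (O ×ˢ (A.e i).target)
  J1 : ∀ i, ∀ z ∈ (A.e i).target, ∀ v, J q1 i z v = I • v
  L1 : ∀ i, ∀ z ∈ (A.e i).target, (L' q1).th i z = L.th i z
  g : ∀ q ∈ O, (L' q).g = L.g
  jc : ∀ q ∈ O, ∃ A' : Atl n M, JC (ofAtl A) (J q) A'
  f11 : ∀ q ∈ O, F11 (J q) (L' q)

variable {L : PL (ofAtl A)} {Q : Type*} [NormedAddCommGroup Q] [NormedSpace ℝ Q] {q1 : Q}

namespace MFam

variable (F : MFam A L Q q1)

theorem open_dom (i : A.ι) : IsOpen (F.O ×ˢ (A.e i).target) := F.op.prod (A.e i).open_target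

theorem slice_J {q : Q} (hq : q ∈ F.O) (i : A.ι) : ContDiffOn ℝ ∞ (F.J q i) (A.e i).target := by
  have h1 : ContDiffOn ℝ ∞ (fun z : Cn n => ((q, z) : Q × Cn n)) (A.e i).target :=
    contDiffOn_const.prodMk contDiffOn_id
  exact (F.Js i).comp h1 fun z hz => ⟨hq, hz⟩

/-- the domain of regularity in the chart `i` -/
def W (i : A.ι) : Set (Q × Cn n) :=
  (F.O ×ˢ (A.e i).target) ∩ (fun y : Q × Cn n => (Sm (F.J y.1 i y.2)).det) ⁻¹' {0}ᶜ

theorem open_W (i : A.ι) : IsOpen (F.W i) := by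
  have h1 : ContinuousOn (fun y : Q × Cn n => (Sm (F.J y.1 i y.2)).det)
      (F.O ×ˢ (A.e i).target) :=
    continuous_Sm_det.comp_continuousOn (F.Js i).continuousOn
  exact h1.isOpen_inter_preimage (F.open_dom i) isOpen_compl_singleton

theorem mem_W1 {i : A.ι} {z : Cn n} (hz : z ∈ (A.e i).target) : (q1, z) ∈ F.W i := by
  refine ⟨⟨F.mem, hz⟩, ?_⟩
  have h := Sm_of_unit (J := F.J q1 i z) (F.J1 i z hz)
  exact h.ne_zero

theorem near_W {q : Q} (hN : Near A (F.J q)) (hq : q ∈ F.O) {i : A.ι} {z : Cn n}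
    (hz : z ∈ (A.e i).target) : (q, z) ∈ F.W i :=
  ⟨⟨hq, hz⟩, (hN.un i z hz).ne_zero⟩

/-- **on a compact manifold all structures near `q1` are good** -/
theorem ev_near [CompactSpace M] : ∀ᶠ q in 𝓝 q1, q ∈ F.O ∧ Near A (F.J q) := by
  have h1 : ∀ x : M, ∀ᶠ p : Q × M in 𝓝 q1 ×ˢ 𝓝 x,
      ∃ i, p.2 ∈ (A.e i).source ∧ (p.1, A.e i p.2) ∈ F.W i := by
    intro x
    obtain ⟨i, hi⟩ := A.cover x
    have h2 : Tendsto (fun p : Q × M => (p.1, A.e i p.2)) (𝓝 q1 ×ˢ 𝓝 x)
        (𝓝 (q1, A.e i x)) := by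
      rw [nhds_prod_eq]
      exact tendsto_fst.prodMk (((A.e i).continuousAt hi).tendsto.comp tendsto_snd)
    have h3 := h2.eventually ((F.open_W i).mem_nhds (F.mem_W1 ((A.e i).map_source hi)))
    have h4 : ∀ᶠ p : Q × M in 𝓝 q1 ×ˢ 𝓝 x, p.2 ∈ (A.e i).source :=
      tendsto_snd.eventually ((A.e i).open_source.mem_nhds hi)
    filter_upwards [h3, h4] with p hp hp'
    exact ⟨i, hp', hp⟩
  have h2 := Op3_569.ev_forall (l := 𝓝 q1) (P := fun q x => ∃ i, x ∈ (A.e i).source ∧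
    (q, A.e i x) ∈ F.W i) isCompact_univ (fun x _ => h1 x)
  filter_upwards [h2, F.op.mem_nhds F.mem] with q h3 hq
  refine ⟨hq, fun i => F.slice_J hq i, fun i z hz => ?_⟩
  obtain ⟨A', hJ⟩ := F.jc q hq
  set x := (A.e i).symm z with hx
  have hxs : x ∈ (A.e i).source := (A.e i).map_target hz
  obtain ⟨j, hj, hj'⟩ := h3 x (mem_univ x)
  have h4 := det_law hJ (i := i) (j := j) (x := x) ⟨hxs, hj⟩
  have h5 : A.e i x = z := (A.e i).right_inv hz
  rw [h5] at h4
  rw [h4, isUnit_iff_ne_zero]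
  exact hj'.2

theorem joint_at {i : A.ι} {y : Q × Cn n} (hy : y ∈ F.W i) :
    ContDiffAt ℝ ∞ (fun y : Q × Cn n => F.J y.1 i y.2) y :=
  (F.Js i).contDiffAt ((F.open_dom i).mem_nhds hy.1)

theorem mu_joint (i : A.ι) (k l : Fin n) :
    ContDiffOn ℝ ∞ (fun y : Q × Cn n => mu (F.J y.1 i y.2) k l) (F.W i) := fun _ hy =>
  (contDiffAt_mu (J := fun y : Q × Cn n => F.J y.1 i y.2) (F.joint_at hy)
    (isUnit_iff_ne_zero.2 hy.2) k l).contDiffWithinAt

theorem muA_joint (i : A.ι) (k l : Fin n) :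
    ContDiffOn ℝ ∞ (fun y : Q × Cn n => muA A (F.J y.1) i ((A.e i).symm y.2) k l) (F.W i) := by
  refine (F.mu_joint i k l).congr fun y hy => ?_
  show mu (F.J y.1 i (A.e i ((A.e i).symm y.2))) k l = _
  rw [(A.e i).right_inv hy.1.2]

variable (P : Pot L)

theorem tht_joint (i : A.ι) : ContDiffOn ℝ ∞
    (fun y : Q × Cn n => tht P (F.L' y.1) i y.2) (F.O ×ˢ (A.e i).target) := by
  have h1 : ContDiffOn ℝ ∞ (fun y : Q × Cn n => ofRealCLM.comp ((F.L' y.1).th i y.2))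
      (F.O ×ˢ (A.e i).target) := contDiffOn_const.clm_comp (F.Ls i)
  have h2 : ContDiffOn ℝ ∞ (fun z : Cn n => fderiv ℝ (P.h i) z) (A.e i).target :=
    (P.sm i).fderiv_of_isOpen (A.e i).open_target (m := ∞) (by simp)
  have h3 : ContDiffOn ℝ ∞ (fun y : Q × Cn n => fderiv ℝ (P.h i) y.2)
      (F.O ×ˢ (A.e i).target) := h2.comp contDiffOn_snd fun y hy => hy.2
  exact (h1.const_smul I).sub h3

theorem c_joint (i : A.ι) (k : Fin n) :
    ContDiffOn ℝ ∞ (fun y : Q × Cn n => Ek (F.J y.1 i y.2) (tht P (F.L' y.1) i y.2) k)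
      (F.W i) := fun _ hy =>
  (contDiffAt_Ek (J := fun y : Q × Cn n => F.J y.1 i y.2)
    (θ := fun y : Q × Cn n => tht P (F.L' y.1) i y.2) (F.joint_at hy)
    (isUnit_iff_ne_zero.2 hy.2)
    ((F.tht_joint P i).contDiffAt ((F.open_dom i).mem_nhds hy.1)) k).contDiffWithinAt

theorem cA_joint (i : A.ι) (k : Fin n) :
    ContDiffOn ℝ ∞ (fun y : Q × Cn n => cA P (F.L' y.1) (F.J y.1) i ((A.e i).symm y.2) k)
      (F.W i) := by
  refine (F.c_joint P i k).congr fun y hy => ?_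
  show Ek (F.J y.1 i (A.e i ((A.e i).symm y.2)))
    (tht P (F.L' y.1) i (A.e i ((A.e i).symm y.2))) k = _
  rw [(A.e i).right_inv hy.1.2]

theorem muA_q1 {i : A.ι} {x : M} (hx : x ∈ (A.e i).source) : muA A (F.J q1) i x = 0 :=
  mu_of (F.J1 i _ ((A.e i).map_source hx))

theorem cA_q1 {i : A.ι} {x : M} (hx : x ∈ (A.e i).source) (k : Fin n) :
    cA P (F.L' q1) (F.J q1) i x k = 0 := by
  have hz := (A.e i).map_source hx
  have hI : (EuclideanSpace.single k I : Cn n) = I • EuclideanSpace.single k (1 : ℂ) := by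
    ext c
    simp [PiLp.single_apply]
  unfold cA
  rw [Ek_of (F.J1 i _ hz)]
  unfold wdL
  simp only [cI_true]
  rw [hI, tht_apply, tht_apply, F.L1 i _ hz]
  have h := P.eq i _ hz (EuclideanSpace.single k (1 : ℂ))
  rw [smul_eq_mul, smul_eq_mul]
  linear_combination (-1 / 2 : ℂ) * h

/-! ### the Beltrami data of the family -/

variable {F} in
/-- the parameters with good structures -/
def Good (F : MFam A L Q q1) : Type _ := {q : Q // q ∈ F.O ∧ Near A (F.J q)}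

/-- the atlas of the parameter -/
def at' (q : F.Good) : Atl n M := (F.jc q.1 q.2.1).choose

theorem at_spec (q : F.Good) : JC (ofAtl A) (F.J q.1) (F.at' q) := (F.jc q.1 q.2.1).choose_spec

/-- **the Beltrami data** -/
def bl (q : F.Good) : Bel P.lb :=
  bel P (F.at_spec q) q.2.2 (F.g q.1 q.2.1) (F.f11 q.1 q.2.1)

/-- the coefficients of `D q - ∇`, as functions on the whole parameter space -/
def ca (q : Q) (i : A.ι) (p : RI n) (x : M) : Matrix (BN P.lb).κ (BN P.lb).κ ℂ :=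
  (if p.2 = 0 then (1 / 2 : ℂ) else -(I / 2)) • ∑ k, muA A (F.J q) i x k p.1 • (BN P.lb).e k

def cb (q : Q) (i : A.ι) (x : M) : Matrix (BN P.lb).κ (BN P.lb).κ ℂ :=
  ∑ k, cA P (F.L' q) (F.J q) i x k • (BN P.lb).e k

theorem ra_eq (q : F.Good) (i : A.ι) (p : RI n) (x : M) :
    (F.bl P q).R.a i p x = F.ca P q.1 i p x := rfl

theorem rb_eq (q : F.Good) (i : A.ι) (x : M) : (F.bl P q).R.b i x = F.cb P q.1 i x := rfl

theorem ca_joint (i : A.ι) (p : RI n) (k l : (BN P.lb).κ) :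
    ContDiffOn ℝ ∞ (fun y : Q × Cn n => F.ca P y.1 i p ((A.e i).symm y.2) k l) (F.W i) := by
  have h : (fun y : Q × Cn n => F.ca P y.1 i p ((A.e i).symm y.2) k l) = fun y =>
      (if p.2 = 0 then (1 / 2 : ℂ) else -(I / 2)) *
        ∑ a, muA A (F.J y.1) i ((A.e i).symm y.2) a p.1 * (BN P.lb).e a k l := by
    funext z
    simp only [ca, Matrix.smul_apply, Matrix.sum_apply, smul_eq_mul]
  rw [h]
  exact contDiffOn_const.mul (ContDiffOn.sum fun a _ => (F.muA_joint i a p.1).mul contDiffOn_const)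

theorem cb_joint (i : A.ι) (k l : (BN P.lb).κ) :
    ContDiffOn ℝ ∞ (fun y : Q × Cn n => F.cb P y.1 i ((A.e i).symm y.2) k l) (F.W i) := by
  have h : (fun y : Q × Cn n => F.cb P y.1 i ((A.e i).symm y.2) k l) = fun y =>
      ∑ a, cA P (F.L' y.1) (F.J y.1) i ((A.e i).symm y.2) a * (BN P.lb).e a k l := by
    funext z
    simp only [cb, Matrix.smul_apply, Matrix.sum_apply, smul_eq_mul]
  rw [h]
  exact ContDiffOn.sum fun a _ => (F.cA_joint P i a).mul contDiffOn_const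

theorem ca_q1 {i : A.ι} {x : M} (hx : x ∈ (A.e i).source) (p : RI n) : F.ca P q1 i p x = 0 := by
  unfold ca
  rw [F.muA_q1 hx]
  have h : ∑ k, (0 : Matrix (Fin n) (Fin n) ℂ) k p.1 • (BN P.lb).e k = 0 :=
    Finset.sum_eq_zero fun k _ => zero_smul _ _
  rw [h, smul_zero]

theorem cb_q1 {i : A.ι} {x : M} (hx : x ∈ (A.e i).source) : F.cb P q1 i x = 0 := by
  unfold cb
  refine Finset.sum_eq_zero fun k _ => ?_
  rw [F.cA_q1 P hx, zero_smul]

end MFam

end

end Crest.Agent.R281.OpD_569
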