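import Crest.Agent.R281.OpN2_396
import Crest.Agent.R281.OpN3_396

/-!
# R281, OPEN-INST (M1)+(M1') (helper396), part 4: families of first order operators

`eventually_nrm_le` : a family of first order operators whose coefficients are smooth in
(parameter, chart coordinate) and vanish at the centre satisfies, for every `s` and `ε > 0`,
`‖T_q u‖_s ≤ ε ‖u‖_{s+1}` for `q` near the centre.
-/

set_option autoImplicit false
set_option linter.unusedSectionVars false
set_option linter.unusedVariables false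

open Set Filter Topology
open scoped ContDiff Matrix

namespace Crest.Agent.R281.OpN396

open Crest.Agent.R275 Crest.Agent.R275.Geo Crest.Agent.R275.Tor812
  Crest.Agent.R273.L2K_774 Crest.Agent.R273.Mol_106
open Crest.Agent.R273.KRL2_803 (S0)

noncomputable section

variable {n : ℕ} {M : Type} [TopologicalSpace M] {A : Atl n M}

variable {Q : Type*} [NormedAddCommGroup Q] [NormedSpace ℝ Q] {I : Type*}

/-- the derivatives of a matrix valued family of coefficients become small on the supports of the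
cut offs -/
theorem eventually_coeff [Finite A.ι] (P : Part A) {κ₁ κ₂ : Type} [Finite κ₁] [Finite κ₂]
    (a : Q → A.ι → M → Matrix κ₁ κ₂ ℂ) {q1 : Q} (W : A.ι → Set (Q × Cn n))
    (hW : ∀ j, IsOpen (W j)) (hqW : ∀ j, ∀ z ∈ (A.e j).target, (q1, z) ∈ W j)
    (ha : ∀ j k l, ContDiffOn ℝ ∞ (fun y : Q × Cn n => a y.1 j ((A.e j).symm y.2) k l) (W j))
    (h0 : ∀ j, ∀ x ∈ (A.e j).source, a q1 j x = 0) (s : ℕ) {ε : ℝ} (hε : 0 < ε) :
    ∀ᶠ q in 𝓝 q1, ∀ j k l, ∀ m ≤ s, ∀ z ∈ A.e j '' tsupport (P.χ j),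
      ‖iteratedFDeriv ℝ m (fun w => a q j ((A.e j).symm w) k l) z‖ ≤ ε := by
  rw [eventually_all]
  intro j
  rw [eventually_all]
  intro k
  rw [eventually_all]
  intro l
  refine eventually_small_le (f := fun q w => a q j ((A.e j).symm w) k l) (hW j) (ha j k l)
    (A.e j).open_target (hqW j) (fun z hz => ?_) (isCompact_img P j) (img_sub P j) s hε
  show a q1 j ((A.e j).symm z) k l = 0
  rw [h0 j _ ((A.e j).map_target hz)]
  rfl

/-- the coefficients of an operator may be replaced on the charts -/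
theorem iteratedFDeriv_congr_chart {j : A.ι} {f g : M → ℂ}
    (h : ∀ x ∈ (A.e j).source, f x = g x) (m : ℕ) {z : Cn n} (hz : z ∈ (A.e j).target) :
    iteratedFDeriv ℝ m (fun w => f ((A.e j).symm w)) z =
      iteratedFDeriv ℝ m (fun w => g ((A.e j).symm w)) z := by
  have h1 : (fun w => f ((A.e j).symm w)) =ᶠ[𝓝 z] fun w => g ((A.e j).symm w) := by
    filter_upwards [(A.e j).open_target.mem_nhds hz] with w hw
    exact h _ ((A.e j).map_target hw)
  exact (h1.iteratedFDeriv (𝕜 := ℝ) m).eq_of_nhds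

/-- **families of first order operators with coefficients vanishing at the centre** -/
theorem eventually_nrm_le [Finite A.ι] (P : Part A) (B B' : FBun A)
    (F : I → FOp B B') (π : I → Q) {q1 : Q} {L : Filter I} (hπ : Tendsto π L (𝓝 q1))
    (a : Q → A.ι → RI n → M → Matrix B'.κ B.κ ℂ) (b : Q → A.ι → M → Matrix B'.κ B.κ ℂ)
    (haF : ∀ i j p, ∀ x ∈ (A.e j).source, (F i).a j p x = a (π i) j p x)
    (hbF : ∀ i j, ∀ x ∈ (A.e j).source, (F i).b j x = b (π i) j x)
    (W : A.ι → Set (Q × Cn n))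
    (hW : ∀ j, IsOpen (W j)) (hqW : ∀ j, ∀ z ∈ (A.e j).target, (q1, z) ∈ W j)
    (ha : ∀ j p k l,
      ContDiffOn ℝ ∞ (fun y : Q × Cn n => a y.1 j p ((A.e j).symm y.2) k l) (W j))
    (hb : ∀ j k l, ContDiffOn ℝ ∞ (fun y : Q × Cn n => b y.1 j ((A.e j).symm y.2) k l) (W j))
    (ha0 : ∀ j p, ∀ x ∈ (A.e j).source, a q1 j p x = 0)
    (hb0 : ∀ j, ∀ x ∈ (A.e j).source, b q1 j x = 0) (s : ℕ) {ε : ℝ} (hε : 0 < ε) :
    ∀ᶠ i in L, ∀ u : Sec B,
      (S0 P B').nrm s ((F i).T u) ≤ ε * (S0 P B).nrm (s + 1) u := by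
  obtain ⟨C, hC0, hC⟩ := nrm_le P B B' s
  have hε' : 0 < ε / (C + 1) := by positivity
  have h1 : ∀ᶠ q in 𝓝 q1, ∀ p, ∀ j k l, ∀ m ≤ s + 1, ∀ z ∈ A.e j '' tsupport (P.χ j),
      ‖iteratedFDeriv ℝ m (fun w => a q j p ((A.e j).symm w) k l) z‖ ≤ ε / (C + 1) := by
    rw [eventually_all]
    intro p
    exact eventually_coeff P (fun q j x => a q j p x) W hW hqW (fun j k l => ha j p k l)
      (fun j x hx => ha0 j p x hx) (s + 1) hε'
  have h2 := eventually_coeff P b W hW hqW hb hb0 (s + 1) hε'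
  filter_upwards [hπ.eventually h1, hπ.eventually h2] with i hi1 hi2 u
  refine (hC (F i) (ε / (C + 1)) hε'.le (fun j p k l m hm z hz => ?_)
    (fun j k l m hm z hz => ?_) u).trans ?_
  · rw [iteratedFDeriv_congr_chart (f := fun x => (F i).a j p x k l)
      (g := fun x => a (π i) j p x k l) (fun x hx => by rw [haF i j p x hx]) m (img_sub P j hz)]
    exact hi1 p j k l m hm z hz
  · rw [iteratedFDeriv_congr_chart (f := fun x => (F i).b j x k l)
      (g := fun x => b (π i) j x k l) (fun x hx => by rw [hbF i j x hx]) m (img_sub P j hz)]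
    exact hi2 j k l m hm z hz
  · refine mul_le_mul_of_nonneg_right ?_ (apply_nonneg ((S0 P B).nrm (s + 1)) u)
    rw [← mul_div_assoc, div_le_iff₀ (by positivity)]
    nlinarith

end

end Crest.Agent.R281.OpN396
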