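import Crest.Agent.R281.OpI4_450
import Crest.Agent.R281.OpN4_396
import Crest.Agent.R281.OpC4_920

/-!
# OPEN-INST (row 281, LEMMA OPEN'), part 5: (M7) assembly for families of first order operators

`open_mov`: `D i = nabL B + R i`, `R i` first order operators with coefficients jointly smooth in
(parameter, chart coordinate), vanishing at the centre `q1`; `D i` of degree one, `D i ∘ D i = 0`.
Convergences are `C1T` (uniform `C¹` convergence on compact subsets of the charts).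
-/

set_option autoImplicit false
set_option linter.unusedSectionVars false
set_option maxSynthPendingDepth 3

open Set Filter Topology Complex
open scoped ContDiff Matrix ComplexConjugate

namespace Crest.Agent.R281.OpI_450

open Crest.Agent.R275 Crest.Agent.R275.Geo Crest.Agent.R275.Tor812 Crest.Agent.R275.TorS666
  Crest.Agent.R275.C1d194 Crest.Agent.R275.C2812 Crest.Agent.R275.Ret666
  Crest.Agent.R275.Fred685 Crest.Agent.R275.FHom556 Crest.Agent.R275.RetC666
open Crest.Agent.R273.KRL2_803 Crest.Agent.R273.HodgeH_803 Crest.Agent.R273.Mol_106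
open Crest.Agent.R281.OpC_920

noncomputable section

/-- `∀ η > 0`, eventually `f ≤ η g`, gives one function `ε → 0` -/
theorem exists_eps {I U : Type*} {L : Filter I} {f : I → U → ℝ} {g : U → ℝ} (hg : ∀ u, 0 ≤ g u)
    (h : ∀ η > 0, ∀ᶠ i in L, ∀ u, f i u ≤ η * g u) :
    ∃ ε : I → ℝ, (∀ i, 0 ≤ ε i) ∧ Tendsto ε L (𝓝 0) ∧ ∀ᶠ i in L, ∀ u, f i u ≤ ε i * g u := by
  set E : I → Set ℝ := fun i => {η | 0 ≤ η ∧ ∀ u, f i u ≤ η * g u} with hE
  have hbdd : ∀ i, BddBelow (E i) := fun i => ⟨0, fun η hη => hη.1⟩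
  refine ⟨fun i => sInf (E i), fun i => Real.sInf_nonneg fun η hη => hη.1, ?_, ?_⟩
  · rw [Metric.tendsto_nhds]
    intro δ hδ
    filter_upwards [h (δ / 2) (half_pos hδ)] with i hi
    rw [Real.dist_eq, sub_zero, abs_of_nonneg (Real.sInf_nonneg fun η hη => hη.1)]
    exact (csInf_le (hbdd i) ⟨(half_pos hδ).le, hi⟩).trans_lt (half_lt_self hδ)
  · filter_upwards [h 1 one_pos] with i hi u
    have hne : (E i).Nonempty := ⟨1, zero_le_one, hi⟩
    refine le_of_forall_pos_le_add fun δ hδ => ?_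
    rcases eq_or_lt_of_le (hg u) with h0 | h0
    · obtain ⟨η, hη⟩ := hne
      have := hη.2 u
      rw [← h0, mul_zero] at this
      rw [← h0, mul_zero, zero_add]
      exact this.trans hδ.le
    · obtain ⟨η, hη, hlt⟩ := exists_lt_of_csInf_lt hne
        (show sInf (E i) < sInf (E i) + δ / g u from lt_add_of_pos_right _ (div_pos hδ h0))
      refine (hη.2 u).trans ((mul_le_mul_of_nonneg_right hlt.le h0.le).trans (le_of_eq ?_))
      rw [add_mul, div_mul_cancel₀ _ h0.ne']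

variable {n : ℕ} {M : Type} [TopologicalSpace M] {A : Atl n M}

variable [Finite A.ι] {P : Part A} {B : FBun A}

/-- **OPEN-INST**: LEMMA A for families of first order operators. -/
theorem open_mov [T2Space M] (T : HodgeOp P B) {Q : Type*} [NormedAddCommGroup Q]
    [NormedSpace ℝ Q] {q1 : Q} {I : Type*} {L : Filter I} [L.IsCountablyGenerated] (π : I → Q)
    (hπ : Tendsto π L (𝓝 q1)) (D : I → Sec B →ₗ[ℂ] Sec B) (R : I → FOp B B)
    (hR : ∀ i u, D i u - nabL B u = (R i).T u)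
    (hdeg : ∀ i, ∀ u ∈ SecQ B 0, D i u ∈ SecQ B 1) (hDD : ∀ i u, D i (D i u) = 0)
    -- the coefficients of `R i` are `a (π i)`, `b (π i)`, jointly smooth, zero at `q1`
    (a : Q → A.ι → RI n → M → Matrix B.κ B.κ ℂ) (b : Q → A.ι → M → Matrix B.κ B.κ ℂ)
    (haF : ∀ i j p, ∀ x ∈ (A.e j).source, (R i).a j p x = a (π i) j p x)
    (hbF : ∀ i j, ∀ x ∈ (A.e j).source, (R i).b j x = b (π i) j x)
    (W : A.ι → Set (Q × Cn n))
    (hW : ∀ j, IsOpen (W j)) (hqW : ∀ j, ∀ z ∈ (A.e j).target, (q1, z) ∈ W j)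
    (ha : ∀ j p k l,
      ContDiffOn ℝ ∞ (fun y : Q × Cn n => a y.1 j p ((A.e j).symm y.2) k l) (W j))
    (hb : ∀ j k l, ContDiffOn ℝ ∞ (fun y : Q × Cn n => b y.1 j ((A.e j).symm y.2) k l) (W j))
    (ha0 : ∀ j p, ∀ x ∈ (A.e j).source, a q1 j p x = 0)
    (hb0 : ∀ j, ∀ x ∈ (A.e j).source, b q1 j x = 0)
    -- regularity of `C¹` solutions
    (H3 : ∀ᶠ i in L, ∀ (v : A.ι → M → B.κ → ℂ) (u : ℕ → Sec B), (∀ m, u m ∈ SecQ B 0) →
      C1F B v → C1T atTop (fun m => (u m).1) v →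
      (∀ j x, Tendsto (fun m => (u m).1 j x) atTop (𝓝 (v j x))) →
      (∀ j, ∀ x ∈ (A.e j).source, Tendsto (fun m => (D i (u m)).1 j x) atTop (𝓝 0)) →
      ∃ w : Sec B, w ∈ SecQ B 0 ∧ w.1 = v)
    -- no bad sequence
    (hno : ∀ (p : ℕ → I) (e : ℕ → ℝ) (u : ℕ → HolB B →ₗ[ℂ] Sec B)
      (Qj : ℕ → HolB B →ₗ[ℂ] Sec B) (Q : HolB B →ₗ[ℂ] Sec B),
      Tendsto p atTop L → (∀ j, 0 < e j) → Tendsto e atTop (𝓝 0) →
      (∀ j v, u j v ∈ SecQ B 0) → (∀ j v, Qj j v ∈ SecQ B 1) → (∀ v, Q v ∈ SecQ B 1) →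
      (∀ v : HolB B, C1T atTop (fun j => (u j v).1) (v : Sec B).1) →
      (∀ j v, D (p j) (u j v) = (e j : ℂ) • Qj j v) →
      (∀ v, C1T atTop (fun j => (Qj j v).1) (Q v).1) →
      (∀ v, Q v ∈ LinearMap.range T.H) → Q = 0) :
    FiniteDimensional ℂ (HolB B) ∧
    ∃ S : I → HolB B →ₗ[ℂ] Sec B,
      (∀ᶠ i in L, ∀ v, S i v ∈ SecQ B 0 ∧ D i (S i v) = 0) ∧
      ∀ v : HolB B, C1T L (fun i => (S i v).1) (v : Sec B).1 := by
  -- the order
  set k := Fintype.card (RI n) + 1 with hk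
  have hbound : ∀ s : ℕ, ∀ η > 0, ∀ᶠ i in L, ∀ u : Sec B,
      (S0 P B).nrm s (D i u - nabL B u) ≤ η * (S0 P B).nrm (s + 1) u := by
    intro s η hη
    filter_upwards [Crest.Agent.R281.OpN396.eventually_nrm_le P B B R π hπ a b haF hbF W hW hqW
      ha hb ha0 hb0 s hη] with i hi u
    rw [hR]
    exact hi u
  obtain ⟨ε1, h10, h1t, h1⟩ := exists_eps (L := L)
    (f := fun i (u : Sec B) => (S0 P B).nrm (k + 1) (D i u - nabL B u))
    (g := fun u => (S0 P B).nrm (k + 2) u) (fun u => apply_nonneg _ _) (hbound (k + 1))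
  obtain ⟨ε2, h20, h2t, h2⟩ := exists_eps (L := L)
    (f := fun i (u : Sec B) => (S0 P B).nrm k (D i u - nabL B u))
    (g := fun u => (S0 P B).nrm (k + 1) u) (fun u => apply_nonneg _ _) (hbound k)
  have ht2 : Fintype.card (RI n) < 2 * ((k + 2) - 1) := by omega
  have ht1 : Fintype.card (RI n) < 2 * ((k + 1) - 1) := by omega
  obtain ⟨hfd, S, hS1, hS2⟩ := open_sec T k D (ε := fun i => ε1 i + ε2 i) hdeg
    (by simpa using h1t.add h2t)
    (by
      filter_upwards [h1] with i hi u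
      exact (hi u).trans (mul_le_mul_of_nonneg_right (le_add_of_nonneg_right (h20 i))
        (apply_nonneg _ _)))
    (by
      filter_upwards [h2] with i hi u
      exact (hi u).trans (mul_le_mul_of_nonneg_right (le_add_of_nonneg_left (h10 i))
        (apply_nonneg _ _)))
    (Eventually.of_forall hDD)
    (by
      filter_upwards [H3] with i hi v hv hv1 hv2
      exact hreg_of P ht2 (by omega) (D i) (SecQ B 0) hi hv hv1 hv2)
    (by
      intro p e u Qj Q hp he he0 hu0 hQ0 hQ1 hu hDu hQ hQr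
      exact hno p e u Qj Q hp he he0 hu0 hQ0 hQ1 (fun v => C1T_of_nrm P ht2 (hu v)) hDu
        (fun v => C1T_of_nrm P ht1 (hQ v)) hQr)
  exact ⟨hfd, S, hS1, fun v => C1T_of_nrm P ht2 (hS2 v)⟩

end

end Crest.Agent.R281.OpI_450
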