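import Crest.Agent.R281.OpD6_569
import Crest.Agent.R281.OpC5_920
import Crest.Agent.R281.OpC6_920
import Crest.Agent.R281.OpT3_330
import Crest.Agent.R281.OpB7_849
import Crest.Agent.R281.OpI5_450

/-!
# Row 281, OPEN' (helper569), part 7: no bad sequence

* `MFam.movD`, `sol_of` : `D u = e v` (Beltrami operator, `u` of degree 0) is `Sol (movD q) (2 e) ..`
* `MTor.comp`   : tori along a filter;
* `hno_bel`     : the hypothesis `hno` of 450's `open_mov` (330's `tube_cross`, 849's `open_final'`)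
* `open_bel`    : **OPEN'** for a family `MFam`, from the moving tori.
-/

set_option autoImplicit false
set_option linter.unusedSectionVars false
set_option linter.unusedSimpArgs false
set_option maxSynthPendingDepth 3

open Set Filter Topology Complex
open scoped ContDiff Matrix ComplexConjugate

namespace Crest.Agent.R281.OpD_569

open Crest.Agent.R275 Crest.Agent.R275.Geo Crest.Agent.R275.EDR890 Crest.Agent.R275.Core144
open Crest.Agent.R275.FHom556
open Crest.Agent.R281.HkR_835 Crest.Agent.R281.Ti_846 Crest.Agent.R281.PL_713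
open Crest.Agent.R281.OpM_693 (Bel)
open Crest.Agent.R273.LamN127 (BN)
open Crest.Agent.R273 Crest.Agent.R273.Defs_333 Crest.Agent.R273.HM_333 Crest.Agent.R273.Kah_333
open Crest.Agent.R273.Vol_333
open Crest.Agent.R273.KRL2_803 Crest.Agent.R273.HodgeH_803 Crest.Agent.R273.Mol_106
open Crest.Agent.R281.OpC_920 Crest.Agent.R281.OpB_849 Crest.Agent.R281.OpI_450
open Crest.Agent.R281.Op3_569 Crest.Agent.R281.OpT_330

noncomputable section

variable {n : ℕ} {M : Type} [TopologicalSpace M] {A : Atl n M}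
variable {L : PL (ofAtl A)} {Q : Type*} [NormedAddCommGroup Q] [NormedSpace ℝ Q] {q1 : Q}

/-! ### the form `∑ q_k w_k` -/

/-- `v ↦ wv J v k` -/
def wvL (J : Cn n →L[ℝ] Cn n) (k : Fin n) : Cn n →L[ℝ] ℂ :=
  (conjCLE : ℂ →L[ℝ] ℂ).comp ((EuclideanSpace.proj k : Cn n →L[ℂ] ℂ).restrictScalars ℝ) +
    I • ((conjCLE : ℂ →L[ℝ] ℂ).comp
      (((EuclideanSpace.proj k : Cn n →L[ℂ] ℂ).restrictScalars ℝ).comp J))

theorem wvL_apply (J : Cn n →L[ℝ] Cn n) (k : Fin n) (v : Cn n) : wvL J k v = wv J v k := rfl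

/-- the form with components `q` on the frames `E_k`, divided by two -/
def qL (J : Cn n →L[ℝ] Cn n) (q : Fin n → ℂ) : Cn n →L[ℝ] ℂ := (1 / 2 : ℂ) • ∑ k, q k • wvL J k

theorem qL_apply (J : Cn n →L[ℝ] Cn n) (q : Fin n → ℂ) (v : Cn n) :
    qL J q v = (1 / 2 : ℂ) * ∑ k, wv J v k * q k := by
  simp only [qL, _root_.smul_apply, FunLike.coe_sum, Finset.sum_apply, smul_eq_mul, wvL_apply]
  congr 1
  exact Finset.sum_congr rfl fun k _ => mul_comm _ _

theorem continuous_wvL (k : Fin n) : Continuous fun J : Cn n →L[ℝ] Cn n => wvL J k := by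
  unfold wvL
  refine continuous_const.add (Continuous.const_smul ?_ I)
  exact continuous_const.clm_comp (continuous_const.clm_comp continuous_id)

theorem continuous_qL : Continuous fun y : (Cn n →L[ℝ] Cn n) × (Fin n → ℂ) => qL y.1 y.2 := by
  have h : Continuous fun y : (Cn n →L[ℝ] Cn n) × (Fin n → ℂ) => ∑ k, y.2 k • wvL y.1 k := by
    refine continuous_finsetSum _ fun k _ => ?_
    exact ((continuous_apply k).comp continuous_snd).smul ((continuous_wvL k).comp continuous_fst)
  exact h.const_smul (1 / 2 : ℂ)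

theorem qL_I (q : Fin n → ℂ) : qL iL' q = OpT_330.cj q := by
  ext v
  rw [qL_apply]
  have h : OpT_330.cj q v = ∑ k, q k * conj (v k) := rfl
  rw [h, Finset.mul_sum]
  refine Finset.sum_congr rfl fun k _ => ?_
  rw [wv_of (J := iL') (fun v => iL'_apply v)]
  ring

namespace MFam

variable (F : MFam A L Q q1) (P : Pot L)

/-- the moving structure in 569's form -/
def movD (q : Q) : MovD A where
  I i x := F.J q i (A.e i x)
  a i x := tht P (F.L' q) i (A.e i x)

variable {F P} in
/-- **the equation `D u = e v`** -/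
theorem sol_of {q : F.Good} {u v : Sec (BN P.lb)} {e : ℝ} (hu : u ∈ SecQ (BN P.lb) 0)
    (h : (F.bl P q).D u = (e : ℂ) • v) :
    Sol (F.movD P q.1) (2 * e) (sOf u)
      (fun i x => qL (F.J q.1 i (A.e i x)) (qOf v i x)) where
  c1 i x hx := by
    have h1 := ((sOf_isS u).sm i).contDiffAt
      ((A.e i).open_target.mem_nhds ((A.e i).map_source hx))
    exact h1.of_le (by exact_mod_cast le_top)
  eq i x hx w := by
    set z := A.e i x with hz
    have hzt : z ∈ (A.e i).target := (A.e i).map_source hx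
    have hJ := F.at_spec q
    have hJz : ∀ v, F.J q.1 i z (F.J q.1 i z v) = -v := fun v => hJ.sq hzt v
    have hSz := q.2.2.un i z hzt
    have h1 := sol_eq (J := F.J q.1 i) (z := z) hJz hSz (tht P (F.L' q.1) i z)
      (fun y => sOf u i ((A.e i).symm y)) w
    have e0 : (A.e i).symm z = x := (A.e i).left_inv hx
    simp only [e0] at h1
    have h2 : ∀ k, Ed (fun y => mu (F.J q.1 i y)) k (fun y => sOf u i ((A.e i).symm y)) z +
        Ek (F.J q.1 i z) (tht P (F.L' q.1) i z) k * sOf u i x = e * qOf v i x k := by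
      intro k
      have h3 := D_i1 (F.bl P q) hu hx k
      rw [h] at h3
      have h4 : (((e : ℂ) • v : Sec (BN P.lb))).1 i x (i1 P.lb k) = e * qOf v i x k := rfl
      rw [h4] at h3
      rw [h3]
      have h5 : (F.bl P q).c i x k = Ek (F.J q.1 i z) (tht P (F.L' q.1) i z) k := rfl
      rw [h5]
      have h6 : u.1 i x (i0 P.lb) = sOf u i x := rfl
      rw [h6]
      congr 1
      rw [EkM_eq _ _ _ _ hx]
      unfold Ed
      congr 1
      refine Finset.sum_congr rfl fun l _ => ?_
      have h7 : (F.bl P q).mu i ((A.e i).symm (A.e i x)) k l = mu (F.J q.1 i z) k l := by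
        show mu (F.J q.1 i (A.e i ((A.e i).symm (A.e i x)))) k l = _
        rw [(A.e i).left_inv hx]
      exact congrArg (fun t : ℂ => t • wd (false, l) (fun y => sOf u i ((A.e i).symm y)) z) h7.symm
    show fderiv ℝ (fun y => sOf u i ((A.e i).symm y)) z w + tht P (F.L' q.1) i z w * sOf u i x +
      I * (fderiv ℝ (fun y => sOf u i ((A.e i).symm y)) z (F.J q.1 i z w) +
        tht P (F.L' q.1) i z (F.J q.1 i z w) * sOf u i x) = _
    rw [h1, qL_apply]
    simp_rw [h2]
    push_cast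
    rw [Finset.mul_sum, Finset.mul_sum]
    refine Finset.sum_congr rfl fun k _ => ?_
    ring

/-- continuous convergence of `J` -/
theorem J_cc {α : Type*} {l : Filter α} {p : α → Q} (hp : Tendsto p l (𝓝 q1)) {i : A.ι} {x : M}
    (hx : x ∈ (A.e i).source) :
    Tendsto (fun y : α × M => F.J (p y.1) i (A.e i y.2)) (l ×ˢ 𝓝 x) (𝓝 iL') := by
  have hz : A.e i x ∈ (A.e i).target := (A.e i).map_source hx
  have h1 : ContinuousAt (fun y : Q × Cn n => F.J y.1 i y.2) (q1, A.e i x) :=
    (F.Js i).continuousOn.continuousAt ((F.open_dom i).mem_nhds ⟨F.mem, hz⟩)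
  have h2 : Tendsto (fun y : α × M => (p y.1, A.e i y.2)) (l ×ˢ 𝓝 x) (𝓝 (q1, A.e i x)) := by
    rw [nhds_prod_eq]
    exact (hp.comp tendsto_fst).prodMk (((A.e i).continuousAt hx).tendsto.comp tendsto_snd)
  have h3 := h1.tendsto.comp h2
  have h4 : F.J q1 i (A.e i x) = iL' := by
    ext v : 1
    rw [F.J1 i _ hz, iL'_apply]
  simp only [h4] at h3
  exact h3

end MFam

theorem CC.along {α β X Y : Type*} [TopologicalSpace X] [TopologicalSpace Y] {l : Filter α}
    {l' : Filter β} {f : α → X → Y} {f0 : X → Y} {x : X} (h : CC l f f0 x) {p : β → α}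
    (hp : Tendsto p l' l) : CC l' (fun b => f (p b)) f0 x := by
  have h1 : Tendsto (fun b : β × X => (p b.1, b.2)) (l' ×ˢ 𝓝 x) (l ×ˢ 𝓝 x) :=
    (hp.comp tendsto_fst).prodMk tendsto_snd
  exact Filter.Tendsto.comp h h1

/-- tori along a filter -/
def MTor.comp {m : ℕ} {α β : Type*} {d : Type} [Fintype d] {l : Filter α} {D : α → MovD A} {x : M}
    (t : MTor d m l D x) {l' : Filter β} {p : β → α} (hp : Tendsto p l' l) :
    MTor d m l' (fun b => D (p b)) x where
  T := t.T
  F b := t.F (p b)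
  J b := t.J (p b)
  F0 := t.F0
  J0 := t.J0
  tor := hp.eventually t.tor
  cF y := CC.along (t.cF y) hp
  cDF y i hy := CC.along (t.cDF y i hy) hp
  cJ y := CC.along (t.cJ y) hp
  h := t.h
  mem := t.mem

/-! ### verticality against all sections from a basis -/

/-- evaluation of sections -/
def evH (L : LB A) (i : A.ι) (x : M) : H0S L →ₗ[ℂ] ℂ where
  toFun u := sOf u.1 i x
  map_add' _ _ := rfl
  map_smul' _ _ := rfl

/-- derivative of sections along `X` -/
def dvH (L : LB A) (X : A.ι → M → Fin n → ℂ) (i : A.ι) (x : M) (hx : x ∈ (A.e i).source) :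
    H0S L →ₗ[ℂ] ℂ where
  toFun u := dX X (sOf u.1) i x
  map_add' u v := by
    have hd : ∀ w : H0S L, DifferentiableAt ℂ (fun z => sOf w.1 i ((A.e i).symm z)) (A.e i x) := by
      intro w
      have h1 := (isHS_of_ker w.2.2).hol i
      unfold HolAt at h1
      have h2 : DifferentiableOn ℂ (fun z => sOf w.1 i ((A.e i).symm z)) (A.e i).target := by
        simpa using h1
      exact h2.differentiableAt ((A.e i).open_target.mem_nhds ((A.e i).map_source hx))
    unfold dX
    rw [← Finset.sum_add_distrib]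
    refine Finset.sum_congr rfl fun l _ => ?_
    rw [dl_hol ((isHS_of_ker (u + v).2.2).hol i) hx, dl_hol ((isHS_of_ker u.2.2).hol i) hx,
      dl_hol ((isHS_of_ker v.2.2).hol i) hx]
    have h3 : (fun z => sOf (u + v).1 i ((A.e i).symm z)) =
        (fun z => sOf u.1 i ((A.e i).symm z)) + fun z => sOf v.1 i ((A.e i).symm z) := rfl
    rw [h3, fderiv_add (hd u) (hd v), _root_.add_apply]
    ring
  map_smul' c u := by
    have hd : DifferentiableAt ℂ (fun z => sOf u.1 i ((A.e i).symm z)) (A.e i x) := by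
      have h1 := (isHS_of_ker u.2.2).hol i
      unfold HolAt at h1
      have h2 : DifferentiableOn ℂ (fun z => sOf u.1 i ((A.e i).symm z)) (A.e i).target := by
        simpa using h1
      exact h2.differentiableAt ((A.e i).open_target.mem_nhds ((A.e i).map_source hx))
    simp only [RingHom.id_apply, smul_eq_mul]
    unfold dX
    rw [Finset.mul_sum]
    refine Finset.sum_congr rfl fun l _ => ?_
    rw [dl_hol ((isHS_of_ker (c • u).2.2).hol i) hx, dl_hol ((isHS_of_ker u.2.2).hol i) hx]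
    have h3 : (fun z => sOf (c • u).1 i ((A.e i).symm z)) =
        c • fun z => sOf u.1 i ((A.e i).symm z) := rfl
    rw [h3, fderiv_const_smul hd, _root_.smul_apply, smul_eq_mul]
    ring

theorem vert_span {L : LB A} {c : ℕ} (b : Module.Basis (Fin c) ℂ (H0S L))
    {X : A.ι → M → Fin n → ℂ} {i : A.ι} {x : M} (hx : x ∈ (A.e i).source)
    (h : ∀ a a', sOf (b a).1 i x * dX X (sOf (b a').1) i x =
      sOf (b a').1 i x * dX X (sOf (b a).1) i x) (u v : H0S L) :
    sOf u.1 i x * dX X (sOf v.1) i x = sOf v.1 i x * dX X (sOf u.1) i x := by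
  have h1 : ∀ a v, evH L i x (b a) * dvH L X i x hx v = evH L i x v * dvH L X i x hx (b a) := by
    intro a v
    have e1 : evH L i x (b a) • dvH L X i x hx = dvH L X i x hx (b a) • evH L i x := by
      refine b.ext fun a' => ?_
      have h2 : sOf (b a).1 i x * dX X (sOf (b a').1) i x =
        dX X (sOf (b a).1) i x * sOf (b a').1 i x := by rw [h a a', mul_comm]
      exact h2
    have e2 := LinearMap.congr_fun e1 v
    simp only [LinearMap.smul_apply, smul_eq_mul] at e2
    rw [e2, mul_comm]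
  have e1 : dvH L X i x hx v • evH L i x = evH L i x v • dvH L X i x hx := by
    refine b.ext fun a => ?_
    have h2 := h1 a v
    simp only [LinearMap.smul_apply, smul_eq_mul]
    rw [← h2, mul_comm]
  have e2 := LinearMap.congr_fun e1 u
  simp only [LinearMap.smul_apply, smul_eq_mul] at e2
  have e3 : dX X (sOf v.1) i x * sOf u.1 i x = sOf v.1 i x * dX X (sOf u.1) i x := e2
  rw [← e3, mul_comm]

/-! ### no bad sequence -/

section main

variable [T2Space M] [CompactSpace M] [SimplyConnectedSpace M] [Finite A.ι]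

/-- **the hypothesis `hno` of 450's `open_mov`** -/
theorem hno_bel (hA : GC293.GoodA A) (Pt : Part A) {K : Kah A}
    (hR : ∀ i, ∀ x ∈ (A.e i).source, cur (volK K) i x = 0) (F : MFam A L Q q1) (P : Pot L)
    {c : ℕ} (G : GG P.lb c) (bs : Module.Basis (Fin c) ℂ (H0S P.lb))
    (hbs : ∀ a, G.s a = sOf (bs a).1) {m : ℕ} {d : Type} [Fintype d] {V : Set M} (hV : IsOpen V)
    (hne : V.Nonempty)
    (hT : ∀ x ∈ V, ∃ t : MTor d m (𝓝 q1) (F.movD P) x,
      Fib (fun v : HolB (BN P.lb) => sOf v.1) t.F0 ∧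
        Ver (fun v : HolB (BN P.lb) => sOf v.1) t.T t.F0)
    (p : ℕ → F.Good) (e : ℕ → ℝ) (u : ℕ → HolB (BN P.lb) →ₗ[ℂ] Sec (BN P.lb))
    (Qj : ℕ → HolB (BN P.lb) →ₗ[ℂ] Sec (BN P.lb)) (Qs : HolB (BN P.lb) →ₗ[ℂ] Sec (BN P.lb))
    (hp : Tendsto (fun j => (p j).1) atTop (𝓝 q1)) (he : ∀ j, 0 < e j)
    (hu0 : ∀ j v, u j v ∈ SecQ (BN P.lb) 0) (hQ1 : ∀ v, Qs v ∈ SecQ (BN P.lb) 1)
    (hu : ∀ v : HolB (BN P.lb), C1T atTop (fun j => (u j v).1) (v : Sec (BN P.lb)).1)
    (hD : ∀ j v, (F.bl P (p j)).D (u j v) = (e j : ℂ) • Qj j v)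
    (hQ : ∀ v, C1T atTop (fun j => (Qj j v).1) (Qs v).1)
    (hH : ∀ v, Qs v ∈ HarS K (HKL K (fsL G))) : Qs = 0 := by
  have hcont : ∀ w : Sec (BN P.lb), ∀ i, ContinuousOn (fun z => w.1 i ((A.e i).symm z))
      (A.e i).target := fun w i => ((C1F.of_sec w).c1 i).continuousOn
  -- the data of `tube_cross`
  have key := tube_cross (l := (atTop : Filter ℕ)) (D := fun j => F.movD P (p j).1)
    (ε := fun j => 2 * e j) (Eventually.of_forall fun j => by have := he j; positivity)
    (s := fun v : HolB (BN P.lb) => sOf v.1) (fun v => isHS_of_ker v.2.2)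
    (fun i x hx => by
      obtain ⟨a, ha⟩ := G.ne i x hx
      refine ⟨⟨_, ofS_mem (G.hs a)⟩, ?_⟩
      rwa [sOf_ofS _ hx]) K
    (q := fun v => qOf (Qs v)) (fun v => (qOf_isQ (Qs v)).shp K)
    (fun v => (har_qOf hR (hH v)).1)
    (fun v i x hx a b => vert_span bs hx (fun a a' => by
      rw [← hbs, ← hbs]
      exact har_vert hR G (hH v) hx a a') ⟨a.1, a.2⟩ ⟨b.1, b.2⟩)
    (U := fun j v => sOf (u j v))
    (Q := fun j v i x => qL (F.J (p j).1 i (A.e i x)) (qOf (Qj j v) i x))
    (fun v => Eventually.of_forall fun j => MFam.sol_of (hu0 j v) (hD j v))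
    (fun v w => Eventually.of_forall fun j =>
      cmt_of_tr (L := P.lb) (sOf_isS (u j v)).tr (sOf_isS (u j w)).tr)
    (fun v i x hx => (hu v).cc (hcont v.1) i (i0 P.lb) hx)
    (fun v i x hx => by
      have h1 := F.J_cc hp hx
      have h2 : Tendsto (fun y : ℕ × M => qOf (Qj y.1 v) i y.2) (atTop ×ˢ 𝓝 x)
          (𝓝 (qOf (Qs v) i x)) := by
        rw [tendsto_pi_nhds]
        intro k
        exact (hQ v).cc (hcont (Qs v)) i (i1 P.lb k) hx
      have h3 := (continuous_qL.tendsto (iL', qOf (Qs v) i x)).comp (h1.prodMk_nhds h2)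
      show Tendsto _ _ (𝓝 (OpT_330.cj (qOf (Qs v) i x)))
      rw [← qL_I]
      exact h3)
    (V := V) (fun x hx => by
      obtain ⟨t, h1, h2⟩ := hT x hx
      exact ⟨MTor.comp t hp, h1, h2⟩)
  refine LinearMap.ext fun v => ?_
  have h1 := open_final' Pt hA hR G (Q := fun v : H0S P.lb => Qs ⟨v.1, v.2⟩)
    (fun v => hH _) hV hne (fun u v i x hx hxV => key ⟨u.1, u.2⟩ ⟨v.1, v.2⟩ i x hx hxV) ⟨v.1, v.2⟩
  have h2 : Geo.pqL (BN P.lb) 1 (Qs v) = Qs v := hQ1 v
  rw [LinearMap.zero_apply, ← h2]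
  exact h1

end main

end

end Crest.Agent.R281.OpD_569
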