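import Crest.Agent.R281.OpD7_569

/-!
# Row 281, OPEN' (helper569), part 8: lemma OPEN for a family `MFam`

* `exists_basis_GG` : generating sections which are a basis of the space of holomorphic sections;
* `open_bel` : **OPEN'** for `MFam`, from the moving tori;
* `open_inj` : maps converging pointwise to an injective one are eventually injective.
-/

set_option autoImplicit false
set_option linter.unusedSectionVars false
set_option linter.unusedSimpArgs false
set_option maxSynthPendingDepth 3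

open Set Filter Topology Complex
open scoped ContDiff Matrix ComplexConjugate

namespace Crest.Agent.R281.OpD_569

open Crest.Agent.R275 Crest.Agent.R275.Geo Crest.Agent.R275.EDR890 Crest.Agent.R275.Core144
open Crest.Agent.R275.FHom556
open Crest.Agent.R281.HkR_835 Crest.Agent.R281.Ti_846 Crest.Agent.R281.PL_713
open Crest.Agent.R281.OpM_693 (Bel)
open Crest.Agent.R273.LamN127 (BN)
open Crest.Agent.R273 Crest.Agent.R273.Defs_333 Crest.Agent.R273.HM_333 Crest.Agent.R273.Kah_333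
open Crest.Agent.R273.Vol_333
open Crest.Agent.R273.KRL2_803 Crest.Agent.R273.HodgeH_803 Crest.Agent.R273.Mol_106
open Crest.Agent.R281.OpC_920 Crest.Agent.R281.OpB_849 Crest.Agent.R281.OpI_450
open Crest.Agent.R281.Op3_569 Crest.Agent.R281.OpT_330

noncomputable section

/-! ### eventually injective -/

/-- a finite dimensional space of functions is separated by finitely many points -/
theorem exists_sep {E Y : Type*} [AddCommGroup E] [Module ℂ E] [FiniteDimensional ℂ E]
    (S0 : E →ₗ[ℂ] Y → ℂ) (h0 : Function.Injective S0) :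
    ∃ Z : Finset Y, ∀ v, (∀ y ∈ Z, S0 v y = 0) → v = 0 := by
  classical
  -- the kernels of the restrictions
  have hwf : WellFounded ((· < ·) : Submodule ℂ E → Submodule ℂ E → Prop) :=
    (inferInstance : WellFoundedLT (Submodule ℂ E)).wf
  let Kr : Finset Y → Submodule ℂ E := fun Z => ⨅ y ∈ Z, LinearMap.ker ((LinearMap.proj y).comp S0)
  have hK : ∀ Z v, v ∈ Kr Z ↔ ∀ y ∈ Z, S0 v y = 0 := by
    intro Z v
    simp [Kr, Submodule.mem_iInf]
  obtain ⟨Z, hZ⟩ : ∃ Z, ∀ Z', ¬ Kr Z' < Kr Z := by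
    obtain ⟨m, ⟨Z, rfl⟩, hm⟩ := hwf.has_min (Set.range Kr) ⟨_, ∅, rfl⟩
    exact ⟨Z, fun Z' => hm _ ⟨Z', rfl⟩⟩
  refine ⟨Z, fun v hv => ?_⟩
  by_contra hne
  have h1 : S0 v ≠ 0 := fun h => hne (h0 (by rw [h, map_zero]))
  obtain ⟨y, hy⟩ := Function.ne_iff.1 h1
  refine hZ (insert y Z) (lt_of_le_of_ne ?_ ?_)
  · intro w hw
    rw [hK] at hw ⊢
    exact fun z hz => hw z (Finset.mem_insert_of_mem hz)
  · intro h
    have h2 : v ∈ Kr (insert y Z) := by rw [h, hK]; exact hv
    rw [hK] at h2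
    exact hy (h2 y (Finset.mem_insert_self y Z))

/-- **maps converging pointwise to an injective one are eventually injective** -/
theorem open_inj {I E Y : Type*} [AddCommGroup E] [Module ℂ E] [FiniteDimensional ℂ E]
    {l : Filter I} (S : I → E →ₗ[ℂ] Y → ℂ) (S0 : E →ₗ[ℂ] Y → ℂ) (h0 : Function.Injective S0)
    (hS : ∀ v y, Tendsto (fun i => S i v y) l (𝓝 (S0 v y))) :
    ∀ᶠ i in l, Function.Injective (S i) := by
  obtain ⟨Z, hZ⟩ := exists_sep S0 h0
  let b := Module.finBasis ℂ E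
  set e := b.equivFun with he
  let T : (E →ₗ[ℂ] Y → ℂ) → ((Fin (Module.finrank ℂ E) → ℂ) →L[ℂ] (Z → ℂ)) := fun f =>
    LinearMap.toContinuousLinearMap
      (((LinearMap.funLeft ℂ ℂ (Subtype.val : Z → Y)).comp f).comp e.symm.toLinearMap)
  have hT : ∀ f w z, T f w z = f (e.symm w) z := fun f w z => rfl
  have hinj : Function.Injective (T S0) := by
    rw [injective_iff_map_eq_zero]
    intro w hw
    have h1 : e.symm w = 0 := hZ _ fun y hy => congrFun hw ⟨y, hy⟩
    simpa using h1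
  have hlim : Tendsto (fun i => T (S i)) l (𝓝 (T S0)) := by
    have h1 : ∀ f, T f = ∑ a, (ContinuousLinearMap.proj a :
        (Fin (Module.finrank ℂ E) → ℂ) →L[ℂ] ℂ).smulRight (fun z : Z => f (b a) z) := by
      intro f
      ext1 w
      funext z
      rw [hT]
      have h2 : e.symm w = ∑ a, w a • b a := by rw [he, Module.Basis.equivFun_symm_apply]
      rw [h2, map_sum]
      simp only [Finset.sum_apply, map_smul, Pi.smul_apply, FunLike.coe_sum,
        ContinuousLinearMap.smulRight_apply, ContinuousLinearMap.proj_apply]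
    simp_rw [h1]
    refine tendsto_finsetSum _ fun a _ => ?_
    have h2 : Tendsto (fun i => fun z : Z => S i (b a) z) l (𝓝 fun z : Z => S0 (b a) z) :=
      tendsto_pi_nhds.2 fun z => hS _ _
    have h3 : Continuous fun c : Z → ℂ => (ContinuousLinearMap.proj a :
        (Fin (Module.finrank ℂ E) → ℂ) →L[ℂ] ℂ).smulRight c :=
      (ContinuousLinearMap.smulRightL ℂ (Fin (Module.finrank ℂ E) → ℂ) (Z → ℂ)
        (ContinuousLinearMap.proj a)).continuous
    exact (h3.tendsto _).comp h2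
  have hop := (ContinuousLinearMap.isOpen_injective
    (𝕜 := ℂ) (E := Fin (Module.finrank ℂ E) → ℂ) (F := Z → ℂ)).mem_nhds hinj
  filter_upwards [hlim hop] with i hi v w hvw
  have h1 : T (S i) (e v) = T (S i) (e w) := by
    funext z
    rw [hT, hT, LinearEquiv.symm_apply_apply, LinearEquiv.symm_apply_apply, hvw]
  exact e.injective (hi h1)

variable {n : ℕ} {M : Type} [TopologicalSpace M] {A : Atl n M}

/-! ### generating sections -/

section gg

variable [T2Space M] [CompactSpace M] [Finite A.ι]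

theorem exists_basis_GG {L : LB A} (Pt : Part A)
    (hg : ∀ i, ∀ x ∈ (A.e i).source, ∃ s, IsHS L univ s ∧ s i x ≠ 0) :
    ∃ (N : ℕ) (G : GG L N) (b : Module.Basis (Fin N) ℂ (H0S L)), ∀ a, G.s a = sOf (b a).1 := by
  have hfd : FiniteDimensional ℂ (H0S L) := H0S_fin (L := L) Pt
  have hfree : Module.Free ℂ (H0S L) := Module.Free.of_divisionRing ℂ (H0S L)
  let b := Module.finBasis ℂ (H0S L)
  refine ⟨_, ⟨fun a => sOf (b a).1, fun a => isHS_of_ker (b a).2.2, fun i x hx => ?_⟩,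
    b, fun a => rfl⟩
  by_contra hcon
  push Not at hcon
  obtain ⟨s, hs, hne⟩ := hg i x hx
  apply hne
  have h1 : evH L i x = 0 := b.ext fun a => by
    rw [LinearMap.zero_apply]
    exact hcon a
  have h2 := LinearMap.congr_fun h1 ⟨ofS s (isS_of_isHS hs), ofS_mem hs⟩
  have h3 : sOf (ofS s (isS_of_isHS hs)) i x = 0 := h2
  rwa [sOf_ofS _ hx] at h3

end gg

variable {L : PL (ofAtl A)} {Q : Type*} [NormedAddCommGroup Q] [NormedSpace ℝ Q] {q1 : Q}

section main

variable [T2Space M] [CompactSpace M] [SimplyConnectedSpace M] [Finite A.ι]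

/-- **OPEN'** : holomorphic sections of the central fibre extend to the nearby fibres -/
theorem open_bel (hA : GC293.GoodA A) (Pt : Part A) {K : Kah A}
    (hR : ∀ i, ∀ x ∈ (A.e i).source, cur (volK K) i x = 0) (F : MFam A L Q q1) (P : Pot L)
    (hg : ∀ i, ∀ x ∈ (A.e i).source, ∃ s, IsHS P.lb univ s ∧ s i x ≠ 0)
    {m : ℕ} {d : Type} [Fintype d] {V : Set M} (hV : IsOpen V) (hne : V.Nonempty)
    (hT : ∀ x ∈ V, ∃ t : MTor d m (𝓝 q1) (F.movD P) x,
      Fib (fun v : HolB (BN P.lb) => sOf v.1) t.F0 ∧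
        Ver (fun v : HolB (BN P.lb) => sOf v.1) t.T t.F0) :
    FiniteDimensional ℂ (HolB (BN P.lb)) ∧
    ∃ S : F.Good → HolB (BN P.lb) →ₗ[ℂ] Sec (BN P.lb),
      (∀ᶠ q in comap Subtype.val (𝓝 q1), ∀ v,
        S q v ∈ SecQ (BN P.lb) 0 ∧ (F.bl P q).D (S q v) = 0) ∧
      ∀ v : HolB (BN P.lb), C1T (comap Subtype.val (𝓝 q1)) (fun q => (S q v).1)
        (v : Sec (BN P.lb)).1 := by
  obtain ⟨N, G, bs, hbs⟩ := exists_basis_GG (L := P.lb) Pt hg
  obtain ⟨T, hT2⟩ := exists_harOp (P := Pt) (K := K) (N := P.lb)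
    (h := HKL K (fsL G)) (HKL_semipos K hR (fsL_semipos G))
  refine open_mov (P := Pt) (B := BN P.lb) T (q1 := q1) (L := comap Subtype.val (𝓝 q1))
    (Subtype.val : F.Good → Q) tendsto_comap (fun q => (F.bl P q).D) (fun q => (F.bl P q).R)
    (fun q u => (F.bl P q).D_sub u) (fun q u hu => ?_) (fun q u => (F.bl P q).D_D u)
    (F.ca P) (F.cb P) (fun q j p x hx => F.ra_eq P q j p x) (fun q j x hx => F.rb_eq P q j x)
    F.W F.open_W (fun j z hz => F.mem_W1 hz) (fun j p k l => F.ca_joint P j p k l)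
    (fun j k l => F.cb_joint P j k l) (fun j p x hx => F.ca_q1 P hx p)
    (fun j x hx => F.cb_q1 P hx) ?_ ?_
  · show Geo.pqL (BN P.lb) 1 ((F.bl P q).D u) = (F.bl P q).D u
    have h1 : Geo.pqL (BN P.lb) 0 u = u := hu
    have h2 := (F.bl P q).D_pqL 0 u
    rw [h1] at h2
    exact h2.symm
  · exact Eventually.of_forall fun q v u hu h1 h2 h3 h4 =>
      H3_of_bel P (F.at_spec q) q.2.2 (F.g q.1 q.2.1) (F.f11 q.1 q.2.1) v u hu h1 h2 h3 h4
  · intro p e u Qj Qs hp he _ hu0 _ hQ1 hu hD hQ hH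
    refine hno_bel hA Pt hR F P G bs hbs hV hne hT p e u Qj Qs (tendsto_comap.comp hp) he hu0 hQ1
      hu hD hQ fun v => ?_
    obtain ⟨y, hy⟩ := hH v
    rw [← hy]
    exact hT2 y

/-- evaluation of smooth sections -/
def evS (B : FBun A) : Sec B →ₗ[ℂ] (A.ι × M × B.κ → ℂ) where
  toFun u y := u.1 y.1 y.2.1 y.2.2
  map_add' _ _ := rfl
  map_smul' _ _ := rfl

theorem evS_inj (B : FBun A) : Function.Injective (evS B) := by
  intro u v h
  apply Subtype.ext
  funext i x k
  exact congrFun h (i, x, k)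

/-- **OPEN', the count** : independent holomorphic sections of the central fibre give independent
sections in the kernel of the operators of the nearby fibres -/
theorem open_count (hA : GC293.GoodA A) (Pt : Part A) {K : Kah A}
    (hR : ∀ i, ∀ x ∈ (A.e i).source, cur (volK K) i x = 0) (F : MFam A L Q q1) (P : Pot L)
    (hg : ∀ i, ∀ x ∈ (A.e i).source, ∃ s, IsHS P.lb univ s ∧ s i x ≠ 0)
    {m : ℕ} {d : Type} [Fintype d] {V : Set M} (hV : IsOpen V) (hne : V.Nonempty)
    (hT : ∀ x ∈ V, ∃ t : MTor d m (𝓝 q1) (F.movD P) x,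
      Fib (fun v : HolB (BN P.lb) => sOf v.1) t.F0 ∧
        Ver (fun v : HolB (BN P.lb) => sOf v.1) t.T t.F0)
    {N : ℕ} (f : Fin N → Sec (BN P.lb)) (hf : LinearIndependent ℂ f)
    (hf0 : ∀ k, f k ∈ HolB (BN P.lb)) :
    ∀ᶠ q in 𝓝 q1, ∃ hq : q ∈ F.O ∧ Near A (F.J q), ∃ g : Fin N → Sec (BN P.lb),
      LinearIndependent ℂ g ∧ ∀ k, g k ∈ SecQ (BN P.lb) 0 ∧ (F.bl P ⟨q, hq⟩).D (g k) = 0 := by
  obtain ⟨hfd, S, hS, hlim⟩ := open_bel hA Pt hR F P hg hV hne hT
  have hinj : ∀ᶠ q in comap (Subtype.val : F.Good → Q) (𝓝 q1),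
      Function.Injective ((evS (BN P.lb)).comp (S q)) := by
    refine open_inj (fun q => (evS (BN P.lb)).comp (S q))
      ((evS (BN P.lb)).comp (HolB (BN P.lb)).subtype)
      ((evS_inj _).comp Subtype.val_injective) fun v y => ?_
    obtain ⟨i, x, k⟩ := y
    show Tendsto (fun q => (S q v).1 i x k) _ (𝓝 (v.1.1 i x k))
    by_cases hx : x ∈ (A.e i).source
    · have hcont : ∀ w : Sec (BN P.lb), ∀ i, ContinuousOn (fun z => w.1 i ((A.e i).symm z))
          (A.e i).target := fun w i => ((C1F.of_sec w).c1 i).continuousOn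
      have h1 : CC _ (fun q x => (S q v).1 i x k) (fun x => v.1.1 i x k) x :=
        (hlim v).cc (hcont v.1) i k hx
      exact Filter.Tendsto.comp h1 (tendsto_id.prodMk tendsto_const_nhds)
    · have h0 : ∀ w : Sec (BN P.lb), w.1 i x k = 0 := fun w =>
        congrFun (w.2.2.1 i x hx) k
      rw [h0]
      simp only [h0]
      exact tendsto_const_nhds
  have h1 := hinj.and hS
  have h1' := Filter.eventually_comap.1 h1
  filter_upwards [h1', F.ev_near] with q h2 hq
  obtain ⟨h3, h4⟩ := h2 ⟨q, hq⟩ rfl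
  refine ⟨hq, fun k => S ⟨q, hq⟩ ⟨f k, hf0 k⟩, ?_, fun k => h4 _⟩
  have h5 : LinearIndependent ℂ fun k => (⟨f k, hf0 k⟩ : HolB (BN P.lb)) := by
    apply LinearIndependent.of_comp (HolB (BN P.lb)).subtype
    exact hf
  have h6 : Function.Injective (S ⟨q, hq⟩) := Function.Injective.of_comp (f := evS (BN P.lb)) h3
  exact h5.map' _ (LinearMap.ker_eq_bot.2 h6)

end main

end

end Crest.Agent.R281.OpD_569
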