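import Crest.Agent.R281.OpT3_330
import Crest.Agent.R273.Levi_145

/-!
# Row 281, OPEN-FIB (helper330), file 1: zero periods imply that the sections are constant on a torus

`lvT h T F i x v` : the Levi form of the weight of `h : HM L` along the torus.

* `mean_fun`  : the mean of the Levi form of a function vanishes;
* `mean_hm`   : the mean of `lvT h` does not depend on `h`;
* `lvT_fs`    : if the mean vanishes, the Fubini-Study form vanishes along the torus;
* `fib_of_mean` : the sections `s_a` define a constant map on the torus.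
-/

set_option autoImplicit false
set_option linter.unusedSectionVars false

open Set Filter Topology Complex Matrix MeasureTheory Module
open scoped ContDiff Matrix ComplexConjugate ComplexOrder

namespace Crest.Agent.R281.OpT_330

open Crest.Agent.R273 Crest.Agent.R275 Crest.Agent.R275.Geo Crest.Agent.R275.Core144
open Crest.Agent.R273.Defs_333 Crest.Agent.R273.HM_333 Crest.Agent.R273.Kah_333
open Crest.Agent.R273.Vol_333
open Crest.Agent.R281.Op3_569
open Crest.Agent.R281.OpB_849
open Crest.Agent.R275.Tor812 (box)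

noncomputable section

variable {m N : ℕ} {M : Type} [TopologicalSpace M] {A : Atl N M} {L : LB A} {d : Type} [Fintype d]
  {T : (d → ℝ) ≃L[ℝ] Cn m} {F : (d → ℝ) → M}

/-! ### Levi forms -/

theorem one_one_le : (1 : WithTop ℕ∞) + 1 ≤ ∞ := by
  have h : ((2 : ℕ∞) : WithTop ℕ∞) ≤ ((⊤ : ℕ∞) : WithTop ℕ∞) := WithTop.coe_le_coe.2 le_top
  have h2 : (1 : WithTop ℕ∞) + 1 = ((2 : ℕ∞) : WithTop ℕ∞) := by norm_num
  rw [h2]; exact h

theorem two_le_inf : (2 : WithTop ℕ∞) ≤ ∞ := by
  have := one_one_le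
  rwa [one_add_one_eq_two] at this

theorem lev_eq_lev {k : ℕ} (u : Cn k → ℝ) (z v : Cn k) : lev u z v = 4 * Levi_145.lev u z v := by
  unfold lev Levi_145.lev
  rw [iteratedFDeriv_two_apply, iteratedFDeriv_two_apply]
  simp only [Matrix.cons_val_zero, Matrix.cons_val_one]
  ring

theorem lev_comp' {k : ℕ} {u : Cn N → ℝ} {f : Cn k → Cn N} {z : Cn k} (hf : AnalyticAt ℂ f z)
    (hu : ContDiffAt ℝ 2 u (f z)) (v : Cn k) :
    lev (fun w => u (f w)) z v = lev u (f z) (fderiv ℂ f z v) := by
  rw [lev_eq_lev, lev_eq_lev, Levi_145.lev_comp hf hu]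

/-- analyticity of the reading -/
theorem HTor.rd_an (hF : HTor A T F) {i : A.ι} {z : Cn m}
    (hz : F (T.symm z) ∈ (A.e i).source) : AnalyticAt ℂ (rd A T F i) z := by
  set U : Set (Cn m) := {w | F (T.symm w) ∈ (A.e i).source} with hU
  have hUo : IsOpen U := (A.e i).open_source.preimage (hF.cont.comp T.symm.continuous)
  have h1 : DifferentiableOn ℂ (rd A T F i) U := fun w hw => (hF.hol i w hw).differentiableWithinAt
  exact R266.SCV.analyticOnNhd_of_differentiableOn hUo h1 z hz

/-- a smooth function along the torus -/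
theorem HTor.fun_smooth (hF : HTor A T F) {f : M → ℝ} (hf : A.Sm f) :
    ContDiff ℝ ∞ fun z => f (F (T.symm z)) := by
  rw [contDiff_iff_contDiffAt]
  intro z
  obtain ⟨i, hi⟩ := A.cover (F (T.symm z))
  have h1 : ContDiffAt ℝ ∞ (rd A T F i) z := ((hF.rd_an hi).contDiffAt).restrict_scalars ℝ
  have h2 : ContDiffAt ℝ ∞ (fun y => f ((A.e i).symm y)) (rd A T F i z) :=
    sm_contDiffAt hf i ((A.e i).map_source hi)
  have h3 : ContDiffAt ℝ ∞ (fun w => f ((A.e i).symm (rd A T F i w))) z :=
    ContDiffAt.comp (g := fun y => f ((A.e i).symm y)) z h2 h1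
  refine h3.congr_of_eventuallyEq ?_
  filter_upwards [hF.nhds hi] with w hw
  unfold rd
  rw [(A.e i).left_inv hw]

/-- the mean of a second derivative vanishes -/
theorem mean_second {g : Cn m → ℝ} (hg : ContDiff ℝ ∞ g) (hp : Per fun x => g (T x)) (v : d → ℝ) :
    ∫ x in box (0 : d → ℝ), fderiv ℝ (fderiv ℝ g) (T x) (T v) (T v) = 0 := by
  have hfd : ContDiff ℝ 1 (fderiv ℝ g) := hg.fderiv_right one_one_le
  set G : (d → ℝ) → ℂ := fun x => ((fderiv ℝ g (T x) (T v) : ℝ) : ℂ) with hG
  have hGc : ContDiff ℝ 1 G := by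
    have h1 : ContDiff ℝ 1 fun x : d → ℝ => fderiv ℝ g (T x) (T v) :=
      (hfd.comp T.contDiff).clm_apply contDiff_const
    exact Complex.ofRealCLM.contDiff.comp h1
  have hper : ∀ (k : d → ℤ) (x : d → ℝ), fderiv ℝ g (T (x + fun i => (k i : ℝ))) =
      fderiv ℝ g (T x) := by
    intro k x
    have h1 : (fun w => g (w + T fun j => (k j : ℝ))) = g := by
      funext w
      have h2 := hp k (T.symm w)
      simp only [map_add, ContinuousLinearEquiv.apply_symm_apply] at h2
      exact h2
    have h2 : fderiv ℝ (fun w => g (w + T fun j => (k j : ℝ))) (T x) =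
        fderiv ℝ g (T x + T fun j => (k j : ℝ)) := fderiv_comp_add_right _
    rw [map_add, ← h2, h1]
  have hGp : Per G := by
    intro k x
    simp only [hG]
    rw [hper k x]
  have hD : ∀ x, Dv G v x = ((fderiv ℝ (fderiv ℝ g) (T x) (T v) (T v) : ℝ) : ℂ) := by
    intro x
    have h1 : HasFDerivAt (fderiv ℝ g) (fderiv ℝ (fderiv ℝ g) (T x)) (T x) :=
      (hfd.differentiable (by norm_num) _).hasFDerivAt
    have h2 : HasFDerivAt (fun x : d → ℝ => fderiv ℝ g (T x))
        ((fderiv ℝ (fderiv ℝ g) (T x)).comp (T : (d → ℝ) →L[ℝ] Cn m)) x :=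
      h1.comp x T.hasFDerivAt
    have h3 : HasFDerivAt (fun x : d → ℝ => fderiv ℝ g (T x) (T v))
        (((fderiv ℝ (fderiv ℝ g) (T x)).comp (T : (d → ℝ) →L[ℝ] Cn m)).flip (T v)) x := by
      have h4 := h2.clm_apply (hasFDerivAt_const (T v) x)
      simpa using h4
    have h4 : HasFDerivAt G (Complex.ofRealCLM.comp
        (((fderiv ℝ (fderiv ℝ g) (T x)).comp (T : (d → ℝ) →L[ℝ] Cn m)).flip (T v))) x :=
      Complex.ofRealCLM.hasFDerivAt.comp x h3
    unfold Dv
    rw [h4.fderiv]
    rfl
  have h1 := int_Dv hGc hGp v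
  simp only [hD] at h1
  have h2 : ∫ x in box (0 : d → ℝ), ((fderiv ℝ (fderiv ℝ g) (T x) (T v) (T v) : ℝ) : ℂ) =
      ((∫ x in box (0 : d → ℝ), fderiv ℝ (fderiv ℝ g) (T x) (T v) (T v) : ℝ) : ℂ) :=
    integral_ofReal
  rw [h2] at h1
  exact_mod_cast h1

/-- **the mean of the Levi form of a function on the torus vanishes** -/
theorem mean_lev {g : Cn m → ℝ} (hg : ContDiff ℝ ∞ g) (hp : Per fun x => g (T x)) (v : d → ℝ) :
    ∫ x in box (0 : d → ℝ), lev g (T x) (T v) = 0 := by
  have h1 := mean_second hg hp v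
  have h2 := mean_second hg hp (T.symm (Complex.I • T v))
  rw [ContinuousLinearEquiv.apply_symm_apply] at h2
  have hfd2 : Continuous (fderiv ℝ (fderiv ℝ g)) :=
    (hg.fderiv_right (m := 1) one_one_le).continuous_fderiv (by norm_num)
  have hc : ∀ w : Cn m, Continuous fun x : d → ℝ => fderiv ℝ (fderiv ℝ g) (T x) w w := fun w =>
    ((hfd2.comp T.continuous).clm_apply continuous_const).clm_apply continuous_const
  have h3 : ∀ x : d → ℝ, lev g (T x) (T v) = fderiv ℝ (fderiv ℝ g) (T x) (T v) (T v) +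
      fderiv ℝ (fderiv ℝ g) (T x) (Complex.I • T v) (Complex.I • T v) := by
    intro x
    unfold lev
    rw [iteratedFDeriv_two_apply, iteratedFDeriv_two_apply]
    simp only [Matrix.cons_val_zero, Matrix.cons_val_one]
  simp only [h3]
  rw [integral_add (integrable_box (hc _)) (integrable_box (hc _)), h1, h2, add_zero]

/-! ### metrics of a line bundle along a torus -/

/-- the Levi form of the weight along the torus -/
def lvT (h : HM L) (T : (d → ℝ) ≃L[ℝ] Cn m) (F : (d → ℝ) → M) (i : A.ι) (x v : d → ℝ) : ℝ :=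
  lev (h.wt i) (rd A T F i (T x)) (fderiv ℂ (rd A T F i) (T x) (T v))

theorem rd_T (i : A.ι) (x : d → ℝ) : rd A T F i (T x) = A.e i (F x) := by
  unfold rd
  rw [ContinuousLinearEquiv.symm_apply_apply]

theorem src_T {i : A.ι} {x : d → ℝ} (hx : F x ∈ (A.e i).source) :
    F (T.symm (T x)) ∈ (A.e i).source := by
  rwa [ContinuousLinearEquiv.symm_apply_apply]

theorem lvT_eq (h : HM L) {i : A.ι} {x : d → ℝ} (hx : F x ∈ (A.e i).source) (v : d → ℝ) :
    ((lvT h T F i x v : ℝ) : ℂ) = 4 * (WithLp.ofLp (fderiv ℂ (rd A T F i) (T x) (T v)) ⬝ᵥ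
      cur h i (F x) *ᵥ star (WithLp.ofLp (fderiv ℂ (rd A T F i) (T x) (T v)))) := by
  have hz : A.e i (F x) ∈ (A.e i).target := (A.e i).map_source hx
  unfold lvT
  rw [rd_T, Hess_333.lev_eq (wt_contDiffAt h i hz)]
  congr 1
  unfold Hess_333.hq cur dotProduct mulVec dotProduct
  refine Finset.sum_congr rfl fun a _ => ?_
  rw [Finset.mul_sum]
  refine Finset.sum_congr rfl fun b _ => ?_
  simp only [Pi.star_apply, RCLike.star_def]
  ring

/-- independence of the chart -/
theorem lvT_indep (hF : HTor A T F) (h : HM L) {i j : A.ι} {x : d → ℝ}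
    (hi : F x ∈ (A.e i).source) (hj : F x ∈ (A.e j).source) (v : d → ℝ) :
    lvT h T F i x v = lvT h T F j x v := by
  have h1 : ((lvT h T F i x v : ℝ) : ℂ) = ((lvT h T F j x v : ℝ) : ℂ) := by
    rw [lvT_eq h hi, lvT_eq h hj, cur_tr h ⟨hi, hj⟩, hF.rd_change (src_T hi) (src_T hj),
      ContinuousLinearEquiv.symm_apply_apply]
    congr 1
    set W := WithLp.ofLp (fderiv ℂ (rd A T F i) (T x) (T v))
    set J := Jm A i j (F x)
    have h2 : (J.map conj) *ᵥ star W = star (J *ᵥ W) := by
      rw [Matrix.star_mulVec, ← Matrix.mulVec_transpose]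
      congr 1
    rw [← Matrix.mulVec_mulVec, ← Matrix.mulVec_mulVec, h2, Matrix.dotProduct_mulVec,
      Matrix.vecMul_transpose]
  exact_mod_cast h1

/-- the Levi form along the torus, in the chosen chart -/
def lvC (h : HM L) (T : (d → ℝ) ≃L[ℝ] Cn m) (F : (d → ℝ) → M) (x v : d → ℝ) : ℝ :=
  lvT h T F (chA A (F x)) x v

theorem lvC_eq (hF : HTor A T F) (h : HM L) {i : A.ι} {x : d → ℝ}
    (hi : F x ∈ (A.e i).source) (v : d → ℝ) : lvC h T F x v = lvT h T F i x v :=
  lvT_indep hF h (chA_mem _) hi v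

theorem cont_lev_aux {X : Type*} [TopologicalSpace X] {u : Cn N → ℝ} {z W : X → Cn N} (x0 : X)
    (h2 : ContinuousAt (fun x => fderiv ℝ (fderiv ℝ u) (z x)) x0) (hW : ContinuousAt W x0) :
    ContinuousAt (fun x => lev u (z x) (W x)) x0 := by
  have hI : ContinuousAt (fun x => Complex.I • W x) x0 := hW.const_smul Complex.I
  have h3 : (fun x => lev u (z x) (W x)) = fun x =>
      fderiv ℝ (fderiv ℝ u) (z x) (W x) (W x) +
        fderiv ℝ (fderiv ℝ u) (z x) (Complex.I • W x) (Complex.I • W x) := by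
    funext x
    unfold lev
    rw [iteratedFDeriv_two_apply, iteratedFDeriv_two_apply]
    simp only [Matrix.cons_val_zero, Matrix.cons_val_one]
  rw [h3]
  have a1 : ContinuousAt (fun x => fderiv ℝ (fderiv ℝ u) (z x) (W x)) x0 := h2.clm_apply hW
  have a2 : ContinuousAt (fun x => fderiv ℝ (fderiv ℝ u) (z x) (W x) (W x)) x0 := a1.clm_apply hW
  have b1 : ContinuousAt (fun x => fderiv ℝ (fderiv ℝ u) (z x) (Complex.I • W x)) x0 :=
    h2.clm_apply hI
  have b2 : ContinuousAt (fun x => fderiv ℝ (fderiv ℝ u) (z x) (Complex.I • W x)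
      (Complex.I • W x)) x0 := b1.clm_apply hI
  exact a2.add b2

theorem lvC_cont (hF : HTor A T F) (h : HM L) (v : d → ℝ) : Continuous fun x => lvC h T F x v := by
  rw [continuous_iff_continuousAt]
  intro x0
  obtain ⟨i, hi⟩ := A.cover (F x0)
  have hz : A.e i (F x0) ∈ (A.e i).target := (A.e i).map_source hi
  have hnb : ∀ᶠ x in 𝓝 x0, F x ∈ (A.e i).source :=
    hF.cont.continuousAt.eventually_mem ((A.e i).open_source.mem_nhds hi)
  have h1 : ContinuousAt (fun x => lvT h T F i x v) x0 := by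
    have hw : ContDiffAt ℝ ∞ (h.wt i) (rd A T F i (T x0)) := by
      rw [rd_T]
      exact wt_contDiffAt h i hz
    have hw2 : ContinuousAt (fderiv ℝ (fderiv ℝ (h.wt i))) (rd A T F i (T x0)) := by
      have e1 : ContDiffAt ℝ 1 (fderiv ℝ (h.wt i)) (rd A T F i (T x0)) :=
        hw.fderiv_right one_one_le
      exact (e1.fderiv_right (m := 0) (by norm_num)).continuousAt
    have hr : ContinuousAt (fun x => rd A T F i (T x)) x0 :=
      ContinuousAt.comp (g := rd A T F i) (f := fun x => T x) (hF.rd_diff (src_T hi)).continuousAt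
        T.continuous.continuousAt
    have hfr : ContinuousAt (fun x => fderiv ℂ (rd A T F i) (T x) (T v)) x0 := by
      have e1 : ContinuousAt (fderiv ℂ (rd A T F i)) (T x0) := (hF.fd_diff (src_T hi)).continuousAt
      have e2 : ContinuousAt (fun x => fderiv ℂ (rd A T F i) (T x)) x0 :=
        ContinuousAt.comp (g := fderiv ℂ (rd A T F i)) (f := fun x => T x) e1
          T.continuous.continuousAt
      exact e2.clm_apply continuousAt_const
    have h2 : ContinuousAt (fun x => fderiv ℝ (fderiv ℝ (h.wt i)) (rd A T F i (T x))) x0 :=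
      ContinuousAt.comp (g := fderiv ℝ (fderiv ℝ (h.wt i))) (f := fun x => rd A T F i (T x)) hw2 hr
    exact cont_lev_aux _ h2 hfr
  refine h1.congr ?_
  filter_upwards [hnb] with x hx
  exact (lvC_eq hF h hx v).symm

/-! ### two metrics -/

theorem exists_diff (h h' : HM L) : ∃ f : M → ℝ, A.Sm f ∧
    ∀ i, ∀ z ∈ (A.e i).target, h'.wt i z = h.wt i z + f ((A.e i).symm z) := by
  set f : M → ℝ := fun x => Real.log (h.w (chA A x) x) - Real.log (h'.w (chA A x) x) with hf
  have key : ∀ i, ∀ x ∈ (A.e i).source, f x = Real.log (h.w i x) - Real.log (h'.w i x) := by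
    intro i x hx
    have hc := chA_mem (A := A) x
    have hg : 0 < ‖L.g i (chA A x) x‖ ^ 2 := by
      have := L.ne_zero i (chA A x) x
      positivity
    rw [hf]
    simp only []
    rw [h.tr i _ x ⟨hx, hc⟩, h'.tr i _ x ⟨hx, hc⟩, Real.log_mul hg.ne' (h.pos i x hx).ne',
      Real.log_mul hg.ne' (h'.pos i x hx).ne']
    ring
  have key2 : ∀ i, ∀ z ∈ (A.e i).target, h'.wt i z = h.wt i z + f ((A.e i).symm z) := by
    intro i z hz
    rw [key i _ ((A.e i).map_target hz)]
    unfold HM.wt
    ring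
  refine ⟨f, fun i => ?_, key2⟩
  have h1 : ContDiffOn ℝ ∞ (fun z => h'.wt i z - h.wt i z) (A.e i).target := fun z hz =>
    ((wt_contDiffAt h' i hz).sub (wt_contDiffAt h i hz)).contDiffWithinAt
  refine h1.congr fun z hz => ?_
  show f ((A.e i).symm z) = h'.wt i z - h.wt i z
  rw [key2 i z hz]
  ring

theorem lev_add' {u w : Cn N → ℝ} {z : Cn N} (hu : ContDiffAt ℝ ∞ u z) (hw : ContDiffAt ℝ ∞ w z)
    (v : Cn N) : lev (fun y => u y + w y) z v = lev u z v + lev w z v := by
  have h1 : ((lev (fun y => u y + w y) z v : ℝ) : ℂ) = ((lev u z v + lev w z v : ℝ) : ℂ) := by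
    rw [ofReal_add, Hess_333.lev_eq (hu.add hw), Hess_333.lev_eq hu, Hess_333.lev_eq hw]
    unfold Hess_333.hq
    rw [HessB_333.hess_add hu hw, ← mul_add, ← Finset.sum_add_distrib]
    congr 1
    refine Finset.sum_congr rfl fun a _ => ?_
    rw [← Finset.sum_add_distrib]
    refine Finset.sum_congr rfl fun b _ => ?_
    rw [Matrix.add_apply]
    ring
  exact_mod_cast h1

theorem lev_congr' {k : ℕ} {u w : Cn k → ℝ} {z : Cn k} (h : u =ᶠ[𝓝 z] w) (v : Cn k) :
    lev u z v = lev w z v := by
  unfold lev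
  rw [(h.iteratedFDeriv ℝ 2).eq_of_nhds]

/-- two metrics differ by the Levi form of a function -/
theorem lvC_diff (hF : HTor A T F) (h h' : HM L) : ∃ g : Cn m → ℝ, ContDiff ℝ ∞ g ∧
    (Per fun x => g (T x)) ∧ ∀ x v, lvC h' T F x v = lvC h T F x v + lev g (T x) (T v) := by
  obtain ⟨f, hf, hff⟩ := exists_diff h h'
  refine ⟨fun z => f (F (T.symm z)), hF.fun_smooth hf, fun k x => ?_, fun x v => ?_⟩
  · simp only [ContinuousLinearEquiv.symm_apply_apply]
    rw [hF.per k x]
  · set i := chA A (F x) with hi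
    have hx : F x ∈ (A.e i).source := chA_mem _
    have hz : A.e i (F x) ∈ (A.e i).target := (A.e i).map_source hx
    have h1 : h'.wt i =ᶠ[𝓝 (rd A T F i (T x))] fun z => h.wt i z + f ((A.e i).symm z) := by
      rw [rd_T]
      filter_upwards [(A.e i).open_target.mem_nhds hz] with z hz'
      exact hff i z hz'
    have hfc : ContDiffAt ℝ ∞ (fun z => f ((A.e i).symm z)) (rd A T F i (T x)) := by
      rw [rd_T]; exact sm_contDiffAt hf i hz
    have hwc : ContDiffAt ℝ ∞ (h.wt i) (rd A T F i (T x)) := by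
      rw [rd_T]; exact wt_contDiffAt h i hz
    have h2 : lev (fun z => f (F (T.symm z))) (T x) (T v) =
        lev (fun z => f ((A.e i).symm z)) (rd A T F i (T x)) (fderiv ℂ (rd A T F i) (T x) (T v)) := by
      have h3 := lev_comp' (u := fun z => f ((A.e i).symm z)) (f := rd A T F i) (z := T x)
        (hF.rd_an (src_T hx)) (hfc.of_le two_le_inf) (T v)
      rw [← h3]
      have h4 : (fun z => f (F (T.symm z))) =ᶠ[𝓝 (T x)]
          fun w => f ((A.e i).symm (rd A T F i w)) := by
        filter_upwards [hF.nhds (src_T hx)] with w hw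
        unfold rd
        rw [(A.e i).left_inv hw]
      exact lev_congr' h4 _
    unfold lvC lvT
    rw [← hi, lev_congr' h1, lev_add' hwc hfc, h2]

theorem cont_lev {g : Cn m → ℝ} (hg : ContDiff ℝ ∞ g) (v : d → ℝ) :
    Continuous fun x : d → ℝ => lev g (T x) (T v) := by
  rw [continuous_iff_continuousAt]
  intro x0
  have hfd2 : Continuous (fderiv ℝ (fderiv ℝ g)) :=
    (hg.fderiv_right (m := 1) one_one_le).continuous_fderiv (by norm_num)
  exact cont_lev_aux x0 (hfd2.comp T.continuous).continuousAt continuousAt_const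

/-- **the mean of the curvature along the torus does not depend on the metric** -/
theorem mean_hm (hF : HTor A T F) (h h' : HM L) {v : d → ℝ}
    (h0 : ∫ x in box (0 : d → ℝ), lvC h T F x v = 0) :
    ∫ x in box (0 : d → ℝ), lvC h' T F x v = 0 := by
  obtain ⟨g, hg, hgp, hd⟩ := lvC_diff hF h h'
  simp only [hd]
  rw [integral_add (integrable_box (lvC_cont hF h v)) (integrable_box (cont_lev hg v)), h0,
    mean_lev hg hgp, add_zero]

/-! ### nonnegative functions with zero mean -/

theorem zero_of_mean {φ : (d → ℝ) → ℝ} (hc : Continuous φ) (hp : Per φ) (h0 : ∀ x, 0 ≤ φ x)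
    (hm : ∫ x in box (0 : d → ℝ), φ x = 0) (x0 : d → ℝ) : φ x0 = 0 := by
  by_contra hne
  have hpos : 0 < φ x0 := lt_of_le_of_ne (h0 x0) (Ne.symm hne)
  set a : d → ℝ := fun i => x0 i - 1 / 2 with ha
  have hC : Continuous fun x => ((φ x : ℝ) : ℂ) := Complex.continuous_ofReal.comp hc
  have hP : Per fun x => ((φ x : ℝ) : ℂ) := fun k x => by simp only []; rw [hp k x]
  have h1 := fcc_eq hC hP 0 a
  have h2 := fcc_eq hC hP 0 0
  rw [h1] at h2
  have hch : ∀ x : d → ℝ, Crest.Agent.R275.Tor812.ch (-(0 : d → ℤ)) x = 1 := fun x => by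
    simp [Crest.Agent.R275.Tor812.ch]
  simp only [hch, one_mul] at h2
  have e1 : ∀ b : d → ℝ, ∫ x in box b, ((φ x : ℝ) : ℂ) = ((∫ x in box b, φ x : ℝ) : ℂ) :=
    fun b => integral_ofReal
  rw [e1, e1, hm] at h2
  have h3 : ∫ x in box a, φ x = 0 := by exact_mod_cast h2
  have hint : IntegrableOn φ (box a) volume := by
    have hK : IsCompact (Icc a (fun i => a i + 1)) := isCompact_Icc
    refine (hc.continuousOn.integrableOn_compact hK).mono_set ?_
    intro x hx
    exact ⟨fun i => (hx i).1.le, fun i => (hx i).2⟩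
  have h4 : 0 < ∫ x in box a, φ x := by
    rw [setIntegral_pos_iff_support_of_nonneg_ae (Eventually.of_forall h0) hint]
    have ho : IsOpen (Function.support φ ∩ Set.pi univ fun i => Ioo (a i) (a i + 1)) :=
      (hc.isOpen_support).inter (isOpen_set_pi finite_univ fun i _ => isOpen_Ioo)
    have hne2 : (Function.support φ ∩ Set.pi univ fun i => Ioo (a i) (a i + 1)).Nonempty :=
      ⟨x0, hne, fun i _ => by
        constructor
        · simp [ha]
        · simp only [ha]; linarith⟩
    refine lt_of_lt_of_le (ho.measure_pos volume hne2) (measure_mono ?_)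
    intro x hx
    exact ⟨hx.1, fun i => ⟨(hx.2 i (mem_univ i)).1, (hx.2 i (mem_univ i)).2.le⟩⟩
  exact h4.ne' h3

theorem Per.lvC (hF : HTor A T F) (h : HM L) (v : d → ℝ) : Per fun x => lvC h T F x v := by
  intro k x
  unfold OpT_330.lvC lvT
  simp only []
  rw [hF.per k x, hF.fd_per, rd_T, rd_T, hF.per k x]

/-- the Fubini-Study form vanishes along a torus with zero mean curvature -/
theorem fs_zero {c : ℕ} (G : GG L c) (hF : HTor A T F) {v : d → ℝ}
    (h0 : ∫ x in box (0 : d → ℝ), lvC (fsL G) T F x v = 0) (x : d → ℝ) :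
    lvC (fsL G) T F x v = 0 := by
  refine zero_of_mean (lvC_cont hF (fsL G) v) (Per.lvC hF (fsL G) v) (fun x => ?_) h0 x
  unfold lvC lvT
  refine fsL_semipos G _ _ ?_ _
  rw [rd_T]
  exact (A.e _).map_source (chA_mem _)

/-- the sections are infinitesimally proportional along the torus -/
theorem fs_null {c : ℕ} (G : GG L c) (hF : HTor A T F) {v : d → ℝ}
    (h0 : ∫ x in box (0 : d → ℝ), lvC (fsL G) T F x v = 0) {i : A.ι} {x : d → ℝ}
    (hx : F x ∈ (A.e i).source) (a b : Fin c) :
    G.F i (rd A T F i (T x)) a * fderiv ℂ (fun z => G.F i z b) (rd A T F i (T x))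
        (fderiv ℂ (rd A T F i) (T x) (T v)) =
      G.F i (rd A T F i (T x)) b * fderiv ℂ (fun z => G.F i z a) (rd A T F i (T x))
        (fderiv ℂ (rd A T F i) (T x) (T v)) := by
  have h1 := fs_zero G hF h0 x
  rw [lvC_eq hF _ hx] at h1
  unfold lvT at h1
  have hz : rd A T F i (T x) ∈ (A.e i).target := by rw [rd_T]; exact (A.e i).map_source hx
  set z := rd A T F i (T x)
  set W := fderiv ℂ (rd A T F i) (T x) (T v)
  rw [lev_fsL G hz] at h1
  have hp := FS_333.sq_pos (G.F_ne (i := i) hz)
  have h2 := (lag (G.F i z) (fun k => fderiv ℂ (fun z => G.F i z k) z W) hp).2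
  refine h2 ?_ a b
  rcases mul_eq_zero.1 h1 with h | h
  · norm_num at h
  · rcases div_eq_zero_iff.1 h with h | h
    · exact h
    · exact absurd h (by positivity)

/-- **the sections define a constant map on the torus** -/
theorem fib_of_mean {c : ℕ} (G : GG L c) (hF : HTor A T F)
    (h0 : ∀ v : d → ℝ, ∫ x in box (0 : d → ℝ), lvC (fsL G) T F x v = 0) : Fib G.s F := by
  -- a section which does not vanish at `F 0`
  set i0 := chA A (F 0) with hi0
  have hx0 : F 0 ∈ (A.e i0).source := chA_mem _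
  obtain ⟨a0, ha0⟩ := G.ne i0 (F 0) hx0
  set r : Fin c → ℂ := fun b => G.s b i0 (F 0) / G.s a0 i0 (F 0) with hr
  set S : Set (d → ℝ) := {x | ∀ b i, F x ∈ (A.e i).source → G.s b i (F x) = r b * G.s a0 i (F x)}
    with hS
  have hch : ∀ {b : Fin c} {i j : A.ι} {x : d → ℝ}, F x ∈ (A.e i).source → F x ∈ (A.e j).source →
      G.s b i (F x) = r b * G.s a0 i (F x) → G.s b j (F x) = r b * G.s a0 j (F x) := by
    intro b i j x hi hj h
    rw [(G.hs b).tr j i _ ⟨hj, hi⟩ (mem_univ _), (G.hs a0).tr j i _ ⟨hj, hi⟩ (mem_univ _), h]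
    ring
  have h0S : (0 : d → ℝ) ∈ S := by
    intro b i hi
    refine hch hx0 hi ?_
    rw [hr]
    simp only []
    rw [div_mul_cancel₀ _ ha0]
  have hsm : ∀ (b : Fin c) (i : A.ι) {x : d → ℝ}, F x ∈ (A.e i).source →
      ContinuousAt (fun y => G.s b i (F y)) x := by
    intro b i x hx
    have h1 := hF.comp ((G.hs b).hol i) (src_T hx)
    have h2 : ContinuousAt (fun y => G.s b i (F (T.symm (T y)))) x :=
      ContinuousAt.comp (g := fun w => G.s b i (F (T.symm w))) (f := fun y => T y)
        h1.continuousAt T.continuous.continuousAt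
    simpa only [ContinuousLinearEquiv.symm_apply_apply] using h2
  have hnb : ∀ {i : A.ι} {x : d → ℝ}, F x ∈ (A.e i).source → ∀ᶠ y in 𝓝 x, F y ∈ (A.e i).source :=
    fun {i x} hx => hF.cont.continuousAt.eventually_mem ((A.e i).open_source.mem_nhds hx)
  have hcl : IsClosed S := by
    rw [← isOpen_compl_iff, isOpen_iff_mem_nhds]
    intro x hx
    have hx' : ¬ ∀ b i, F x ∈ (A.e i).source → G.s b i (F x) = r b * G.s a0 i (F x) := hx
    push Not at hx'
    obtain ⟨b, i, hi, hne⟩ := hx'
    have h1 : ContinuousAt (fun y => G.s b i (F y) - r b * G.s a0 i (F y)) x :=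
      (hsm b i hi).sub ((hsm a0 i hi).const_mul _)
    filter_upwards [h1.eventually_ne (sub_ne_zero.2 hne), hnb hi] with y hy hyi hyS
    exact hy (sub_eq_zero.2 (hyS b i hyi))
  have hop : IsOpen S := by
    rw [isOpen_iff_mem_nhds]
    intro x hx
    set i := chA A (F x) with hi
    have hxi : F x ∈ (A.e i).source := chA_mem _
    have hne : G.s a0 i (F x) ≠ 0 := by
      intro h
      obtain ⟨b, hb⟩ := G.ne i (F x) hxi
      rw [hx b i hxi, h, mul_zero] at hb
      exact hb rfl
    have hev : ∀ᶠ w in 𝓝 (T x), F (T.symm w) ∈ (A.e i).source ∧ G.s a0 i (F (T.symm w)) ≠ 0 := by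
      refine (hF.nhds (src_T hxi)).and ?_
      have h1 := (hF.comp ((G.hs a0).hol i) (src_T hxi)).continuousAt
      refine h1.eventually_ne ?_
      rwa [ContinuousLinearEquiv.symm_apply_apply]
    obtain ⟨ε, hε, hball⟩ := Metric.eventually_nhds_iff_ball.1 hev
    have hmem : ∀ᶠ y in 𝓝 x, T y ∈ Metric.ball (T x) ε :=
      T.continuous.continuousAt.eventually_mem (Metric.ball_mem_nhds _ hε)
    filter_upwards [hmem] with y hy
    have hyi : F y ∈ (A.e i).source := by
      have := (hball _ hy).1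
      rwa [ContinuousLinearEquiv.symm_apply_apply] at this
    intro b j hj
    refine hch hyi hj ?_
    -- the ratio is constant on the ball
    set R : Cn m → ℂ := fun w => G.F i (rd A T F i w) b * (G.F i (rd A T F i w) a0)⁻¹ with hR
    have hGF : ∀ w, F (T.symm w) ∈ (A.e i).source → ∀ k,
        G.F i (rd A T F i w) k = G.s k i (F (T.symm w)) := by
      intro w hw k
      unfold GG.F rd
      rw [(A.e i).left_inv hw]
    have hder : ∀ w ∈ Metric.ball (T x) ε, HasFDerivAt R (0 : Cn m →L[ℂ] ℂ) w := by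
      intro w hw
      obtain ⟨hw1, hw2⟩ := hball w hw
      have hz : rd A T F i w ∈ (A.e i).target := (A.e i).map_source hw1
      have hd : ∀ k, HasFDerivAt (fun z => G.F i z k) (fderiv ℂ (fun z => G.F i z k)
          (rd A T F i w)) (rd A T F i w) := fun k =>
        ((G.F_hol i k).differentiableAt ((A.e i).open_target.mem_nhds hz)).hasFDerivAt
      have hc : ∀ k, HasFDerivAt (fun w => G.F i (rd A T F i w) k)
          ((fderiv ℂ (fun z => G.F i z k) (rd A T F i w)).comp (fderiv ℂ (rd A T F i) w)) w :=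
        fun k => (hd k).comp w (hF.rd_diff hw1).hasFDerivAt
      have hne' : G.F i (rd A T F i w) a0 ≠ 0 := by rw [hGF w hw1]; exact hw2
      have h1 : HasFDerivAt (fun w => (G.F i (rd A T F i w) a0)⁻¹)
          ((-((G.F i (rd A T F i w) a0) ^ 2)⁻¹) •
            ((fderiv ℂ (fun z => G.F i z a0) (rd A T F i w)).comp (fderiv ℂ (rd A T F i) w))) w :=
        (hasDerivAt_inv hne').comp_hasFDerivAt w (hc a0)
      have h2 := (hc b).mul h1
      have h3 : (G.F i (rd A T F i w) b • ((-((G.F i (rd A T F i w) a0) ^ 2)⁻¹) •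
            ((fderiv ℂ (fun z => G.F i z a0) (rd A T F i w)).comp (fderiv ℂ (rd A T F i) w))) +
          (G.F i (rd A T F i w) a0)⁻¹ •
            ((fderiv ℂ (fun z => G.F i z b) (rd A T F i w)).comp (fderiv ℂ (rd A T F i) w))) =
          (0 : Cn m →L[ℂ] ℂ) := by
        ext t
        have h3 := fs_null G hF (h0 (T.symm t)) (x := T.symm w) (i := i) hw1 a0 b
        simp only [ContinuousLinearEquiv.apply_symm_apply] at h3
        simp only [_root_.zero_apply, _root_.add_apply, _root_.smul_apply, smul_eq_mul,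
          ContinuousLinearMap.comp_apply]
        field_simp
        linear_combination h3
      rw [← h3]
      exact h2
    have hconst : R (T y) = R (T x) := by
      refine (convex_ball (T x) ε).is_const_of_fderivWithin_eq_zero (𝕜 := ℂ)
        (fun w hw => (hder w hw).differentiableAt.differentiableWithinAt) (fun w hw => ?_) hy
        (Metric.mem_ball_self hε)
      rw [fderivWithin_of_isOpen Metric.isOpen_ball hw]
      exact (hder w hw).fderiv
    have hy2 := hball _ hy
    have e1 : R (T y) = G.s b i (F y) * (G.s a0 i (F y))⁻¹ := by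
      rw [hR]
      simp only []
      rw [hGF _ (src_T hyi), hGF _ (src_T hyi), ContinuousLinearEquiv.symm_apply_apply]
    have e2 : R (T x) = G.s b i (F x) * (G.s a0 i (F x))⁻¹ := by
      rw [hR]
      simp only []
      rw [hGF _ (src_T hxi), hGF _ (src_T hxi), ContinuousLinearEquiv.symm_apply_apply]
    rw [e1, e2, hx b i hxi] at hconst
    have hyne : G.s a0 i (F y) ≠ 0 := by
      have := hy2.2
      rwa [ContinuousLinearEquiv.symm_apply_apply] at this
    field_simp at hconst
    rw [hconst, mul_comm]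
  have huniv : S = univ := IsClopen.eq_univ ⟨hcl, hop⟩ ⟨0, h0S⟩
  have hall : ∀ x, x ∈ S := fun x => by rw [huniv]; exact mem_univ x
  intro a b i j x y hxi hyj
  rw [hall x a i hxi, hall y b j hyj, hall x b i hxi, hall y a j hyj]
  ring

/-- **(F1)**: zero mean curvature of ONE metric ⟹ the sections are constant on the torus -/
theorem fib_of_hm {c : ℕ} (G : GG L c) (hF : HTor A T F) (h : HM L)
    (h0 : ∀ v : d → ℝ, ∫ x in box (0 : d → ℝ), lvC h T F x v = 0) : Fib G.s F :=
  fib_of_mean G hF fun v => mean_hm hF h (fsL G) (h0 v)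

end

end Crest.Agent.R281.OpT_330
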