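import Crest.Agent.R281.OpF1_330
import Crest.Agent.R281.Rk2_599

/-!
# Row 281, OPEN-FIB (helper330), file 2: maximal rank implies that vertical vectors are tangent

`LTub A r m D Φ` : `Φ : D × ℂ^m → M` holomorphic with injective derivative.

* `LTub.htor`  : the tori;
* `ver_of_rk`  : if the sections `t_0 .. t_r` are proportional on all tori near `y0` and have rank `r`
                 at one point of the torus of `y0`, then `Ver t` on this torus (`N = r + m`).
-/

set_option autoImplicit false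
set_option linter.unusedSectionVars false

open Set Filter Topology Complex Matrix MeasureTheory Module
open scoped ContDiff Matrix ComplexConjugate ComplexOrder

namespace Crest.Agent.R281.OpT_330

open Crest.Agent.R273 Crest.Agent.R275 Crest.Agent.R275.Geo Crest.Agent.R275.Core144
open Crest.Agent.R273.Defs_333 Crest.Agent.R273.HM_333 Crest.Agent.R273.Kah_333
open Crest.Agent.R273.Vol_333
open Crest.Agent.R281.Op3_569
open Crest.Agent.R281.OpB_849

noncomputable section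

variable {r m N : ℕ} {M : Type} [TopologicalSpace M] {A : Atl N M} {L : LB A} {d : Type} [Fintype d]
  {D : Set (Cn r)} {Φ : Cn r × Cn m → M}

/-- a tube of complex tori -/
structure LTub (A : Atl N M) (D : Set (Cn r)) (Φ : Cn r × Cn m → M) : Prop where
  op : IsOpen D
  cont : ContinuousOn Φ (D ×ˢ univ)
  hol : ∀ p ∈ D ×ˢ (univ : Set (Cn m)), ∀ i, Φ p ∈ (A.e i).source →
    DifferentiableAt ℂ (fun q => A.e i (Φ q)) p
  inj : ∀ p ∈ D ×ˢ (univ : Set (Cn m)), ∀ i, Φ p ∈ (A.e i).source →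
    Function.Injective (fderiv ℂ (fun q => A.e i (Φ q)) p)

theorem LTub.mem {y : Cn r} (hy : y ∈ D) (x : Cn m) : (y, x) ∈ D ×ˢ (univ : Set (Cn m)) :=
  ⟨hy, mem_univ x⟩

theorem LTub.isOpen (h : LTub A D Φ) : IsOpen (D ×ˢ (univ : Set (Cn m))) := h.op.prod isOpen_univ

theorem LTub.nhds (h : LTub A D Φ) {p : Cn r × Cn m} (hp : p ∈ D ×ˢ (univ : Set (Cn m))) {i : A.ι}
    (hi : Φ p ∈ (A.e i).source) : ∀ᶠ q in 𝓝 p, Φ q ∈ (A.e i).source :=
  (h.cont.continuousAt (h.isOpen.mem_nhds hp)).eventually_mem ((A.e i).open_source.mem_nhds hi)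

/-- the tori of a tube -/
theorem LTub.htor (h : LTub A D Φ) {y : Cn r} (hy : y ∈ D) (T : (d → ℝ) ≃L[ℝ] Cn m)
    (hper : ∀ (k : d → ℤ) (x : Cn m), Φ (y, x + T fun j => (k j : ℝ)) = Φ (y, x)) :
    HTor A T (fun t => Φ (y, T t)) where
  cont := by
    rw [continuous_iff_continuousAt]
    intro t
    have h1 : ContinuousAt Φ (y, T t) := h.cont.continuousAt (h.isOpen.mem_nhds (LTub.mem hy _))
    exact ContinuousAt.comp (g := Φ) (f := fun t => (y, T t)) h1
      (continuousAt_const.prodMk T.continuous.continuousAt)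
  per k x := by
    show Φ (y, T (x + fun i => (k i : ℝ))) = Φ (y, T x)
    rw [map_add]
    exact hper k (T x)
  hol i z hz := by
    simp only [ContinuousLinearEquiv.apply_symm_apply] at hz ⊢
    exact DifferentiableAt.comp (g := fun q => A.e i (Φ q)) (f := fun w => (y, w)) z
      (h.hol _ (LTub.mem hy z) i hz) ((differentiableAt_const y).prodMk differentiableAt_id)
  inj i z hz := by
    simp only [ContinuousLinearEquiv.apply_symm_apply] at hz ⊢
    have h1 : HasFDerivAt (fun w : Cn m => (y, w)) (ContinuousLinearMap.inr ℂ (Cn r) (Cn m)) z :=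
      hasFDerivAt_prodMk_right y z
    have h2 := (h.hol _ (LTub.mem hy z) i hz).hasFDerivAt.comp z h1
    have h3 : HasFDerivAt (fun w => A.e i (Φ (y, w)))
        ((fderiv ℂ (fun q => A.e i (Φ q)) (y, z)).comp (ContinuousLinearMap.inr ℂ (Cn r) (Cn m))) z :=
      h2
    rw [h3.fderiv]
    intro u v huv
    have h4 := h.inj _ (LTub.mem hy z) i hz huv
    simpa using h4

/-- the derivative of a section along a vector field -/
theorem dX_eq {s : A.ι → M → ℂ} (hs : IsHS L univ s) (X : A.ι → M → Fin N → ℂ) {i : A.ι} {x : M}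
    (hx : x ∈ (A.e i).source) : dX X s i x =
      fderiv ℂ (fun z => s i ((A.e i).symm z)) (A.e i x) (WithLp.toLp 2 (X i x)) := by
  have e1 : (WithLp.toLp 2 (X i x) : Cn N) =
      ∑ c, X i x c • (EuclideanSpace.single c (1 : ℂ) : Cn N) := by
    ext d
    simp [Finset.sum_apply, Pi.single_apply]
  rw [e1, map_sum]
  unfold dX
  refine Finset.sum_congr rfl fun l _ => ?_
  rw [map_smul, smul_eq_mul, dl_hol (hs.hol i) hx]

/-- `Fib` on the torus of `y`, without periods -/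
def FibT {σ : Type*} (A : Atl N M) (s : σ → A.ι → M → ℂ) (Φ : Cn r × Cn m → M) (y : Cn r) : Prop :=
  ∀ a b i j x x', Φ (y, x) ∈ (A.e i).source → Φ (y, x') ∈ (A.e j).source →
    s a i (Φ (y, x)) * s b j (Φ (y, x')) = s b i (Φ (y, x)) * s a j (Φ (y, x'))

theorem fibT_iff {σ : Type*} {s : σ → A.ι → M → ℂ} {y : Cn r} (T : (d → ℝ) ≃L[ℝ] Cn m) :
    FibT A s Φ y ↔ Fib s (fun t => Φ (y, T t)) := by
  constructor
  · intro h a b i j x x' hx hx'
    exact h a b i j (T x) (T x') hx hx'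
  · intro h a b i j x x' hx hx'
    have h1 := h a b i j (T.symm x) (T.symm x')
    simp only [ContinuousLinearEquiv.apply_symm_apply] at h1
    exact h1 hx hx'

/-- the value of a section along the tube is holomorphic -/
theorem LTub.sec (h : LTub A D Φ) {s : A.ι → M → ℂ} (hs : IsHS L univ s) {p : Cn r × Cn m}
    (hp : p ∈ D ×ˢ (univ : Set (Cn m))) {i : A.ι} (hi : Φ p ∈ (A.e i).source) :
    HasFDerivAt (fun q => s i (Φ q)) ((fderiv ℂ (fun z => s i ((A.e i).symm z)) (A.e i (Φ p))).comp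
      (fderiv ℂ (fun q => A.e i (Φ q)) p)) p := by
  have h1 : HasFDerivAt (fun z => s i ((A.e i).symm z))
      (fderiv ℂ (fun z => s i ((A.e i).symm z)) (A.e i (Φ p))) (A.e i (Φ p)) :=
    (holAt_diff (hs.hol i) hi).hasFDerivAt
  have h2 : HasFDerivAt (fun q => s i ((A.e i).symm (A.e i (Φ q)))) _ p :=
    HasFDerivAt.comp (g := fun z => s i ((A.e i).symm z)) (f := fun q => A.e i (Φ q)) p h1
      (h.hol p hp i hi).hasFDerivAt
  refine h2.congr_of_eventuallyEq ?_
  filter_upwards [h.nhds hp hi] with q hq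
  rw [(A.e i).left_inv hq]

/-- the ratios as functions of `y` -/
def Rt (A : Atl N M) (t : Fin (r + 1) → A.ι → M → ℂ) (Φ : Cn r × Cn m → M) (i1 : A.ι) (x1 : Cn m)
    (b : Fin (r + 1)) (y : Cn r) : ℂ := t b i1 (Φ (y, x1)) / t 0 i1 (Φ (y, x1))

theorem Rt_diff (h : LTub A D Φ) {y0 : Cn r} (hy0 : y0 ∈ D) {t : Fin (r + 1) → A.ι → M → ℂ}
    (ht : ∀ a, IsHS L univ (t a)) {x1 : Cn m} {i1 : A.ι} (hi1 : Φ (y0, x1) ∈ (A.e i1).source)
    (hne : t 0 i1 (Φ (y0, x1)) ≠ 0) (b : Fin (r + 1)) :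
    DifferentiableAt ℂ (Rt A t Φ i1 x1 b) y0 := by
  have h1 : ∀ a, DifferentiableAt ℂ (fun y => t a i1 (Φ (y, x1))) y0 := fun a =>
    DifferentiableAt.comp (g := fun q => t a i1 (Φ q)) (f := fun y => (y, x1)) y0
      (h.sec (ht a) (LTub.mem hy0 x1) hi1).differentiableAt
      (differentiableAt_id.prodMk (differentiableAt_const x1))
  have h2 : DifferentiableAt ℂ (fun y => t b i1 (Φ (y, x1)) * (t 0 i1 (Φ (y, x1)))⁻¹) y0 :=
    (h1 b).mul ((h1 0).inv hne)
  unfold Rt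
  simp only [div_eq_mul_inv]
  exact h2

/-- `t_b = R_b(y) t_0` near every point of the torus -/
theorem rel (h : LTub A D Φ) {y0 : Cn r} (hy0 : y0 ∈ D) {t : Fin (r + 1) → A.ι → M → ℂ}
    (ht : ∀ a, IsHS L univ (t a)) (hfib : ∀ᶠ y in 𝓝 y0, FibT A t Φ y)
    {x1 : Cn m} {i1 : A.ι} (hi1 : Φ (y0, x1) ∈ (A.e i1).source)
    (hne : t 0 i1 (Φ (y0, x1)) ≠ 0) {z : Cn m} {i : A.ι} (hi : Φ (y0, z) ∈ (A.e i).source)
    (b : Fin (r + 1)) :
    ∀ᶠ q in 𝓝 ((y0, z) : Cn r × Cn m), t b i (Φ q) = Rt A t Φ i1 x1 b q.1 * t 0 i (Φ q) := by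
  have h1 : ∀ᶠ y in 𝓝 y0, Φ (y, x1) ∈ (A.e i1).source := by
    have h2 := h.nhds (LTub.mem hy0 x1) hi1
    have h3 : Tendsto (fun y : Cn r => (y, x1)) (𝓝 y0) (𝓝 (y0, x1)) :=
      (continuousAt_id.prodMk continuousAt_const)
    exact h3.eventually h2
  have h2 : ∀ᶠ y in 𝓝 y0, t 0 i1 (Φ (y, x1)) ≠ 0 := by
    have h3 : ContinuousAt (fun q => t 0 i1 (Φ q)) (y0, x1) :=
      (h.sec (ht 0) (LTub.mem hy0 x1) hi1).continuousAt
    have h4 : Tendsto (fun y : Cn r => (y, x1)) (𝓝 y0) (𝓝 (y0, x1)) :=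
      (continuousAt_id.prodMk continuousAt_const)
    exact h4.eventually (h3.eventually_ne hne)
  have h3 : Tendsto (fun q : Cn r × Cn m => q.1) (𝓝 (y0, z)) (𝓝 y0) := continuous_fst.tendsto _
  filter_upwards [h3.eventually h1, h3.eventually h2, h3.eventually hfib,
    h.nhds (LTub.mem hy0 z) hi] with q e1 e2 e3 e4
  have h4 := e3 b 0 i i1 q.2 x1 e4 e1
  unfold Rt
  rw [div_mul_eq_mul_div, eq_div_iff e2]
  linear_combination h4

/-- **(F2)**: rank at one point of the torus ⟹ vertical vectors are tangent -/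
theorem ver_of_rk (hN : N = r + m) (h : LTub A D Φ) {y0 : Cn r} (hy0 : y0 ∈ D)
    (T : (d → ℝ) ≃L[ℝ] Cn m) {t : Fin (r + 1) → A.ι → M → ℂ} (ht : ∀ a, IsHS L univ (t a))
    (hfib : ∀ᶠ y in 𝓝 y0, FibT A t Φ y)
    (hnz : ∀ i x, Φ (y0, x) ∈ (A.e i).source → t 0 i (Φ (y0, x)) ≠ 0)
    {x1 : Cn m} {i1 : A.ι} (hrk : Rk_599.Rk A t i1 (Φ (y0, x1))) :
    Ver t T (fun s => Φ (y0, T s)) := by
  obtain ⟨hi1, hne1, hlin⟩ := hrk
  set R := Rt A t Φ i1 x1 with hR
  set R' : Fin (r + 1) → Cn r →L[ℂ] ℂ := fun b => fderiv ℂ (R b) y0 with hR'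
  have hRd : ∀ b, HasFDerivAt (R b) (R' b) y0 := fun b =>
    (Rt_diff h hy0 ht hi1 hne1 b).hasFDerivAt
  -- bijectivity of the derivative of `Φ`
  have hfr : finrank ℂ (Cn r × Cn m) = finrank ℂ (Cn N) := by
    rw [finrank_prod, finrank_euclideanSpace_fin, finrank_euclideanSpace_fin,
      finrank_euclideanSpace_fin, hN]
  have hsurj : ∀ (i : A.ι) (z : Cn m), Φ (y0, z) ∈ (A.e i).source →
      Function.Surjective (fderiv ℂ (fun q => A.e i (Φ q)) (y0, z)) := fun i z hz =>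
    (LinearMap.injective_iff_surjective_of_finrank_eq_finrank
      (f := (fderiv ℂ (fun q => A.e i (Φ q)) (y0, z) : (Cn r × Cn m) →ₗ[ℂ] Cn N)) hfr).1
      (h.inj _ (LTub.mem hy0 z) i hz)
  -- derivative of the relation
  have hder : ∀ (i : A.ι) (z : Cn m), Φ (y0, z) ∈ (A.e i).source → ∀ (b : Fin (r + 1))
      (u : Cn r × Cn m), fderiv ℂ (fun y => t b i ((A.e i).symm y)) (A.e i (Φ (y0, z)))
        (fderiv ℂ (fun q => A.e i (Φ q)) (y0, z) u) =
      R' b u.1 * t 0 i (Φ (y0, z)) + R b y0 * fderiv ℂ (fun y => t 0 i ((A.e i).symm y))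
        (A.e i (Φ (y0, z))) (fderiv ℂ (fun q => A.e i (Φ q)) (y0, z) u) := by
    intro i z hi b u
    have h1 := h.sec (ht b) (LTub.mem hy0 z) hi
    have h2 := h.sec (ht 0) (LTub.mem hy0 z) hi
    have h3 : HasFDerivAt (fun q : Cn r × Cn m => R b q.1)
        ((R' b).comp (ContinuousLinearMap.fst ℂ (Cn r) (Cn m))) (y0, z) :=
      HasFDerivAt.comp (g := R b) (f := fun q : Cn r × Cn m => q.1) (y0, z) (hRd b) hasFDerivAt_fst
    have h4 := (h3.mul h2).congr_of_eventuallyEq (rel h hy0 ht hfib hi1 hne1 hi b)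
    have h5 := congrArg (fun T : (Cn r × Cn m) →L[ℂ] ℂ => T u) (h1.unique h4)
    simp only [ContinuousLinearMap.comp_apply, _root_.add_apply, _root_.smul_apply, smul_eq_mul,
      ContinuousLinearMap.coe_fst'] at h5
    rw [h5]
    ring
  -- the differentials of the ratios are independent
  have hLinj : ∀ w : Cn r, (∀ b, R' b w = 0) → w = 0 := by
    obtain ⟨v, hv⟩ := Rk_599.exists_dual hlin
    set P : Cn r →ₗ[ℂ] (Fin r → ℂ) := LinearMap.pi fun a => (R' a.succ : Cn r →ₗ[ℂ] ℂ) with hP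
    have hrat : ∀ (a : Fin r) (u : Cn r × Cn m), fderiv ℂ (Rk_599.rat A t i1 a)
        (A.e i1 (Φ (y0, x1))) (fderiv ℂ (fun q => A.e i1 (Φ q)) (y0, x1) u) = R' a.succ u.1 := by
      intro a u
      have hx : ∀ c, HasFDerivAt (fun y => t c i1 ((A.e i1).symm y))
          (fderiv ℂ (fun y => t c i1 ((A.e i1).symm y)) (A.e i1 (Φ (y0, x1))))
          (A.e i1 (Φ (y0, x1))) := fun c => (holAt_diff ((ht c).hol i1) hi1).hasFDerivAt
      have hv0 : (A.e i1).symm (A.e i1 (Φ (y0, x1))) = Φ (y0, x1) := (A.e i1).left_inv hi1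
      have hne2 : t 0 i1 ((A.e i1).symm (A.e i1 (Φ (y0, x1)))) ≠ 0 := by rw [hv0]; exact hne1
      have h1 : HasFDerivAt (fun y => (t 0 i1 ((A.e i1).symm y))⁻¹)
          ((-((t 0 i1 ((A.e i1).symm (A.e i1 (Φ (y0, x1))))) ^ 2)⁻¹) •
            (fderiv ℂ (fun y => t 0 i1 ((A.e i1).symm y)) (A.e i1 (Φ (y0, x1)))))
          (A.e i1 (Φ (y0, x1))) :=
        HasDerivAt.comp_hasFDerivAt (f := fun y => t 0 i1 ((A.e i1).symm y))
          (A.e i1 (Φ (y0, x1))) (hasDerivAt_inv hne2) (hx 0)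
      have h2 := (hx a.succ).mul h1
      have h3 : Rk_599.rat A t i1 a = fun y => t a.succ i1 ((A.e i1).symm y) *
          (t 0 i1 ((A.e i1).symm y))⁻¹ := by
        funext y
        unfold Rk_599.rat
        rw [div_eq_mul_inv]
      rw [h3]
      have h4 := hder i1 x1 hi1 a.succ u
      have h5 : t a.succ i1 (Φ (y0, x1)) = R a.succ y0 * t 0 i1 (Φ (y0, x1)) :=
        (rel h hy0 ht hfib hi1 hne1 hi1 a.succ).self_of_nhds
      have h6 := congrArg (fun T : Cn N →L[ℂ] ℂ =>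
        T (fderiv ℂ (fun q => A.e i1 (Φ q)) (y0, x1) u)) h2.fderiv
      refine h6.trans ?_
      simp only [_root_.add_apply, _root_.smul_apply, smul_eq_mul]
      rw [hv0, h4, h5]
      field_simp
      ring
    have hPs : Function.Surjective P := by
      rw [← LinearMap.range_eq_top, eq_top_iff]
      intro f _
      choose u hu using fun b => hsurj i1 x1 hi1 (v b)
      have h1 : ∀ a b, R' a.succ (u b).1 = if a = b then 1 else 0 := by
        intro a b
        rw [← hrat a (u b), hu b]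
        exact hv a b
      refine ⟨∑ b, f b • (u b).1, ?_⟩
      funext a
      rw [map_sum, Finset.sum_apply]
      simp only [hP, map_smul, LinearMap.pi_apply, ContinuousLinearMap.coe_coe,
        smul_eq_mul, h1]
      simp
    have hPi : Function.Injective P := by
      have hfr2 : finrank ℂ (Cn r) = finrank ℂ (Fin r → ℂ) := by
        rw [finrank_euclideanSpace_fin, finrank_fin_fun]
      exact (LinearMap.injective_iff_surjective_of_finrank_eq_finrank hfr2).2 hPs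
    intro w hw
    apply hPi
    rw [map_zero]
    funext a
    exact hw a.succ
  -- conclusion
  intro i z hz X hX
  simp only [ContinuousLinearEquiv.apply_symm_apply] at hz hX ⊢
  obtain ⟨u, hu⟩ := hsurj i z hz (WithLp.toLp 2 (X i (Φ (y0, z))))
  have hu0 : u.1 = 0 := by
    refine hLinj _ fun b => ?_
    have h1 := hX 0 b
    rw [dX_eq (ht b) X hz, dX_eq (ht 0) X hz, ← hu] at h1
    have h2 := hder i z hz b u
    have h5 : t b i (Φ (y0, z)) = R b y0 * t 0 i (Φ (y0, z)) :=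
      (rel h hy0 ht hfib hi1 hne1 hz b).self_of_nhds
    rw [h2, h5] at h1
    have h3 : t 0 i (Φ (y0, z)) ^ 2 * R' b u.1 = 0 := by linear_combination h1
    exact (mul_eq_zero.1 h3).resolve_left (pow_ne_zero 2 (hnz i z hz))
  refine ⟨u.2, ?_⟩
  have h1 : HasFDerivAt (fun w : Cn m => (y0, w)) (ContinuousLinearMap.inr ℂ (Cn r) (Cn m)) z :=
    hasFDerivAt_prodMk_right y0 z
  have h2 : HasFDerivAt (fun w => A.e i (Φ (y0, w))) ((fderiv ℂ (fun q => A.e i (Φ q)) (y0, z)).comp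
      (ContinuousLinearMap.inr ℂ (Cn r) (Cn m))) z :=
    (h.hol _ (LTub.mem hy0 z) i hz).hasFDerivAt.comp z h1
  have h3 : rd A T (fun s => Φ (y0, T s)) i = fun w => A.e i (Φ (y0, w)) := by
    funext w
    unfold rd
    simp only [ContinuousLinearEquiv.apply_symm_apply]
  rw [h3, h2.fderiv, ← hu]
  have h4 : u = (0, u.2) := Prod.ext hu0 rfl
  conv_rhs => rw [h4]
  rfl

end

end Crest.Agent.R281.OpT_330
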