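import Crest.Agent.R281.OpF2_330
import Crest.Agent.R281.OpB7_849

/-!
# Row 281, OPEN-FIB (helper330), file 3: families of sections, means, spanning families

* `FibA`, `VerA`  : the constancy and the tangency for ALL holomorphic sections of `L`
* `fibA_of_fib`   : `Fib` of one generating family implies `FibA`
* `Span G`        : the family `G` spans `H⁰(L)`; `exists_GGS`
* `verG_of_ver`   : `Ver t → Ver G.s` for a spanning family
* `mean_of_per`   : zero double means ⟹ zero mean over the box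
* `mean_lvC`      : zero periods of a form proportional to the curvature ⟹ zero mean of `lvC`
* `fibver`        : the open set `V`
-/

set_option autoImplicit false
set_option linter.unusedSectionVars false

open Set Filter Topology Complex Matrix MeasureTheory Module
open scoped ContDiff Matrix ComplexConjugate ComplexOrder

namespace Crest.Agent.R281.OpT_330

open Crest.Agent.R273 Crest.Agent.R275 Crest.Agent.R275.Geo Crest.Agent.R275.Core144
open Crest.Agent.R273.Defs_333 Crest.Agent.R273.HM_333 Crest.Agent.R273.Kah_333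
open Crest.Agent.R273.Vol_333
open Crest.Agent.R275.Tor812 (box setIntegral_box_add)
open Crest.Agent.R281.Op3_569
open Crest.Agent.R281.OpB_849

noncomputable section

variable {m N : ℕ} {M : Type} [TopologicalSpace M] {A : Atl N M} {L : LB A} {d : Type} [Fintype d]
  {T : (d → ℝ) ≃L[ℝ] Cn m} {F : (d → ℝ) → M}

/-! ### all sections -/

/-- any two holomorphic sections are proportional along the torus -/
def FibA (L : LB A) (F : (d → ℝ) → M) : Prop :=
  ∀ u v : A.ι → M → ℂ, IsHS L univ u → IsHS L univ v → ∀ i j x y, F x ∈ (A.e i).source →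
    F y ∈ (A.e j).source → u i (F x) * v j (F y) = v i (F x) * u j (F y)

theorem FibA.fib (h : FibA L F) {σ : Type*} {s : σ → A.ι → M → ℂ} (hs : ∀ a, IsHS L univ (s a)) :
    Fib s F := fun a b i j x y hx hy => h _ _ (hs a) (hs b) i j x y hx hy

/-- one generating family is enough -/
theorem fibA_of_fib (hF : HTor A T F) {σ : Type*} {s : σ → A.ι → M → ℂ}
    (hs : ∀ a, IsHS L univ (s a)) (ne : ∀ i, ∀ x ∈ (A.e i).source, ∃ a, s a i x ≠ 0)
    (h : Fib s F) : FibA L F := by
  intro u v hu hv i j x y hx hy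
  obtain ⟨a, ha⟩ := ne i _ hx
  have hnz := h.nz ne hx ha
  obtain ⟨c, hc⟩ := quot_const hF (hs a) hu hnz
  obtain ⟨c', hc'⟩ := quot_const hF (hs a) hv hnz
  rw [hc i x hx, hc' j y hy, hc' i x hx, hc j y hy]
  ring

/-- the nonvanishing of one section propagates along the torus -/
theorem nz_of_ne (hF : HTor A T F) {σ : Type*} {s : σ → A.ι → M → ℂ}
    (hs : ∀ a, IsHS L univ (s a)) (ne : ∀ i, ∀ x ∈ (A.e i).source, ∃ a, s a i x ≠ 0)
    (h : Fib s F) {u : A.ι → M → ℂ} (hu : IsHS L univ u) {i : A.ι} {x : d → ℝ}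
    (hx : F x ∈ (A.e i).source) (h0 : u i (F x) ≠ 0) : NZ u F := by
  intro j y hy h1
  obtain ⟨a, ha⟩ := ne j _ hy
  have h2 := fibA_of_fib hF hs ne h u (s a) hu (hs a) i j x y hx hy
  rw [h1, mul_zero] at h2
  exact mul_ne_zero h0 ha h2

/-! ### spanning families -/

/-- the family spans the space of holomorphic sections -/
def Span {c : ℕ} (G : GG L c) : Prop :=
  ∀ s, IsHS L univ s → ∃ r : Fin c → ℂ, ∀ i, ∀ x ∈ (A.e i).source, s i x = ∑ a, r a * G.s a i x

theorem exists_GGS [T2Space M] [CompactSpace M] [Finite A.ι] (P : Part A)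
    (hg : ∀ i, ∀ x ∈ (A.e i).source, ∃ s, IsHS L univ s ∧ s i x ≠ 0) :
    ∃ (c : ℕ) (G : GG L c), Span G := by
  have hfd : FiniteDimensional ℂ (H0S L) := H0S_fin (L := L) P
  have hfree : Module.Free ℂ (H0S L) := Module.Free.of_divisionRing ℂ (H0S L)
  let b := Module.finBasis ℂ (H0S L)
  have key : ∀ s, IsHS L univ s → ∃ r : Fin (finrank ℂ (H0S L)) → ℂ, ∀ i, ∀ x ∈ (A.e i).source,
      s i x = ∑ a, r a * sOf (b a).1 i x := by
    intro s hs
    refine ⟨fun a => b.repr ⟨ofS s (isS_of_isHS hs), ofS_mem hs⟩ a, fun i x hx => ?_⟩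
    let ev : H0S L →ₗ[ℂ] ℂ :=
      { toFun := fun u => sOf u.1 i x
        map_add' := fun _ _ => rfl
        map_smul' := fun _ _ => rfl }
    have h1 : s i x = ev ⟨ofS s (isS_of_isHS hs), ofS_mem hs⟩ := by
      show s i x = sOf (ofS s (isS_of_isHS hs)) i x
      rw [sOf_ofS _ hx]
    have h2 := b.sum_repr ⟨ofS s (isS_of_isHS hs), ofS_mem hs⟩
    conv_lhs => rw [h1, ← h2, map_sum]
    refine Finset.sum_congr rfl fun a _ => ?_
    rw [map_smul, smul_eq_mul]
    rfl
  refine ⟨_, ⟨fun a => sOf (b a).1, fun a => isHS_of_ker (b a).2.2, fun i x hx => ?_⟩, key⟩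
  by_contra hcon
  push Not at hcon
  obtain ⟨s, hs, hne⟩ := hg i x hx
  apply hne
  obtain ⟨r, hr⟩ := key s hs
  rw [hr i x hx]
  exact Finset.sum_eq_zero fun a _ => by rw [hcon a, mul_zero]

/-- derivative of a combination -/
theorem dX_sum {c : ℕ} {s : Fin c → A.ι → M → ℂ} (hs : ∀ a, IsHS L univ (s a))
    {u : A.ι → M → ℂ} (hu : IsHS L univ u) {r : Fin c → ℂ}
    (hr : ∀ i, ∀ x ∈ (A.e i).source, u i x = ∑ a, r a * s a i x) (X : A.ι → M → Fin N → ℂ)
    {i : A.ι} {x : M} (hx : x ∈ (A.e i).source) : dX X u i x = ∑ a, r a * dX X (s a) i x := by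
  rw [dX_eq hu X hx]
  have h1 : (fun z => u i ((A.e i).symm z)) =ᶠ[𝓝 (A.e i x)]
      fun z => ∑ a, r a * s a i ((A.e i).symm z) := by
    filter_upwards [(A.e i).open_target.mem_nhds ((A.e i).map_source hx)] with z hz
    exact hr i _ ((A.e i).map_target hz)
  have h2 : HasFDerivAt (fun z => ∑ a, r a * s a i ((A.e i).symm z))
      (∑ a, r a • fderiv ℂ (fun z => s a i ((A.e i).symm z)) (A.e i x)) (A.e i x) := by
    refine HasFDerivAt.fun_sum fun a _ => ?_
    exact ((holAt_diff ((hs a).hol i) hx).hasFDerivAt).const_mul (r a)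
  rw [h1.fderiv_eq, h2.fderiv]
  simp only [FunLike.coe_sum, Finset.sum_apply, FunLike.coe_smul, Pi.smul_apply, smul_eq_mul]
  exact Finset.sum_congr rfl fun a _ => by rw [dX_eq (hs a) X hx]

/-- verticality against a spanning family implies verticality against all sections -/
theorem verG_of_ver {c : ℕ} {G : GG L c} (hsp : Span G) {τ : Type*} {t : τ → A.ι → M → ℂ}
    (ht : ∀ a, IsHS L univ (t a)) (h : Ver t T F) : Ver G.s T F := by
  intro i z hz X hX
  refine h i z hz X fun a b => ?_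
  obtain ⟨r, hr⟩ := hsp _ (ht a)
  obtain ⟨q, hq⟩ := hsp _ (ht b)
  rw [dX_sum G.hs (ht b) hq X hz, dX_sum G.hs (ht a) hr X hz, hr i _ hz, hq i _ hz,
    Finset.sum_mul_sum, Finset.sum_mul_sum, Finset.sum_comm]
  refine Finset.sum_congr rfl fun k _ => Finset.sum_congr rfl fun l _ => ?_
  linear_combination (r l * q k) * hX l k

/-! ### means -/

theorem mean_shift {f : (d → ℝ) → ℝ} (hf : Continuous f) (hp : Per f) (c : d → ℝ) :
    ∫ x in box (0 : d → ℝ), f (x + c) = ∫ x in box (0 : d → ℝ), f x := by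
  have hfc : Continuous fun x => ((f x : ℝ) : ℂ) := Complex.continuous_ofReal.comp hf
  have hpc : Per fun x => ((f x : ℝ) : ℂ) := fun k x => by
    show ((f (x + fun i => (k i : ℝ)) : ℝ) : ℂ) = ((f x : ℝ) : ℂ)
    rw [hp k x]
  have h1 := fcc_eq hfc hpc 0 c
  unfold fcc at h1
  have h0 : ∀ x : d → ℝ, Crest.Agent.R275.Tor812.ch (-0) x = 1 := by
    intro x
    simp [Crest.Agent.R275.Tor812.ch]
  simp only [h0, one_mul] at h1
  have h2 := setIntegral_box_add (fun x => ((f x : ℝ) : ℂ)) c
  rw [← h1] at h2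
  have h3 : ∀ g : (d → ℝ) → ℝ, ∫ x in box (0 : d → ℝ), ((g x : ℝ) : ℂ) =
      ((∫ x in box (0 : d → ℝ), g x : ℝ) : ℂ) := fun g => integral_ofReal
  rw [h3, h3] at h2
  exact_mod_cast h2

theorem swap_box {g : (d → ℝ) → ℝ → ℝ} (hg : Continuous (Function.uncurry g)) :
    ∫ x in box (0 : d → ℝ), ∫ s in (0 : ℝ)..1, g x s =
      ∫ s in (0 : ℝ)..1, ∫ x in box (0 : d → ℝ), g x s := by
  simp only [intervalIntegral.integral_of_le zero_le_one]
  refine MeasureTheory.integral_integral_swap ?_
  rw [Measure.prod_restrict]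
  have h1 : IntegrableOn (Function.uncurry g) (Icc (0 : d → ℝ) 1 ×ˢ Icc (0 : ℝ) 1)
      (volume.prod volume) :=
    hg.continuousOn.integrableOn_compact (isCompact_Icc.prod isCompact_Icc)
  exact h1.mono_set (prod_mono box_sub Ioc_subset_Icc_self)

/-- zero double means imply zero mean -/
theorem mean_of_per {f : (d → ℝ) → ℝ} (hf : Continuous f) (hp : Per f) (a b : d → ℝ)
    (h0 : ∀ x, ∫ s in (0 : ℝ)..1, ∫ t in (0 : ℝ)..1, f (x + s • a + t • b) = 0) :
    ∫ x in box (0 : d → ℝ), f x = 0 := by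
  have hc : Continuous fun p : ((d → ℝ) × ℝ) × ℝ => f (p.1.1 + p.1.2 • a + p.2 • b) := by
    fun_prop
  have h1 : Continuous (Function.uncurry fun (x : d → ℝ) (s : ℝ) =>
      ∫ t in (0 : ℝ)..1, f (x + s • a + t • b)) :=
    intervalIntegral.continuous_parametric_intervalIntegral_of_continuous'
      (f := fun (p : (d → ℝ) × ℝ) (t : ℝ) => f (p.1 + p.2 • a + t • b)) hc 0 1
  have h2 := swap_box h1
  simp only [h0, integral_zero] at h2
  have h3 : ∀ s : ℝ, ∫ x in box (0 : d → ℝ), ∫ t in (0 : ℝ)..1, f (x + s • a + t • b) =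
      ∫ x in box (0 : d → ℝ), f x := by
    intro s
    have h4 : Continuous (Function.uncurry fun (x : d → ℝ) (t : ℝ) => f (x + s • a + t • b)) := by
      show Continuous fun p : (d → ℝ) × ℝ => f (p.1 + s • a + p.2 • b)
      fun_prop
    rw [swap_box h4]
    have h5 : ∀ t : ℝ, ∫ x in box (0 : d → ℝ), f (x + s • a + t • b) =
        ∫ x in box (0 : d → ℝ), f x := by
      intro t
      rw [← mean_shift hf hp (s • a + t • b)]
      simp only [add_assoc]
    simp only [h5]
    simp
  simp only [h3] at h2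
  simpa using h2.symm

/-- zero periods of a form proportional to the curvature ⟹ zero mean of `lvC` -/
theorem mean_lvC [DecidableEq d] (h : HM L) (κ : ℝ)
    {b : (d → ℝ) → d → d → ℝ} (hb : ∀ j k, Continuous fun x => b x j k)
    (hbp : ∀ j k, Per fun x => b x j k) {v w : d → ℝ}
    (hlv : ∀ x, lvC h T F x v = κ * ∑ j, ∑ k, v j * w k * b x j k)
    (h0 : ∀ j k x, ∫ s in (0 : ℝ)..1, ∫ t in (0 : ℝ)..1,
      b (x + s • Pi.single j 1 + t • Pi.single k 1) j k = 0) :
    ∫ x in box (0 : d → ℝ), lvC h T F x v = 0 := by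
  have h1 : ∀ j k, ∫ x in box (0 : d → ℝ), b x j k = 0 := fun j k =>
    mean_of_per (hb j k) (hbp j k) _ _ (h0 j k)
  simp only [hlv]
  rw [integral_const_mul, integral_finsetSum]
  · have h2 : ∀ j, ∫ x in box (0 : d → ℝ), ∑ k, v j * w k * b x j k = 0 := by
      intro j
      rw [integral_finsetSum]
      · exact Finset.sum_eq_zero fun k _ => by rw [integral_const_mul, h1, mul_zero]
      · exact fun k _ => (integrable_box (hb j k)).const_mul _
    simp only [h2, Finset.sum_const_zero, mul_zero]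
  · refine fun j _ => integrable_finsetSum _ fun k _ => (integrable_box (hb j k)).const_mul _

end

end Crest.Agent.R281.OpT_330
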