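import Crest.Agent.R281.Tub2_836

/-!
# R281 (S0424), helper836: transfer of `TubJ` (tube + zero periods) along an isomorphism which is the
identity on classes; uniqueness of the symplectic form.

* `TubJ.map`, `TubJ.scale`
* `TubJ.to_hk`     : any tube for `J 0` gives the tube for `om 1 + i om 2`
* `tub_of_iso`     : tube at `(J', w₁ + i w₂)`, `(X, J 0) ≅ (X, J')` ⟹ `Tub Q e n H`
-/

set_option autoImplicit false
set_option linter.unusedSectionVars false
set_option maxSynthPendingDepth 3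

open Set Filter Topology
open scoped ContDiff

namespace Crest.Agent.R281.Tub_836

open Crest.Agent.R275.Geo (Cn)
open Crest.Agent.R281.HkR_835 Crest.Agent.R281.Per_368 Crest.Agent.R281.NefO_476
open Crest.Agent.R281.Dif_268 Crest.Agent.R281.Ti_846 Crest.Agent.R281.Nef_252

noncomputable section

variable {V X : Type} [NormedAddCommGroup V] [NormedSpace ℝ V] [TopologicalSpace X]
  {C : RCh V X} {n : ℕ} {D : Set (Cn n)} {Φ : Cn n × Cn n → X} {l : Fin (2 * n) → Cn n → Cn n}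
  {τ : Cn n → Cn n → Cn n → ℂ} {J J' : AJ C} {w₁ w₂ : F2 C}
  {Q : F2 C →ₗ[ℝ] F2 C →ₗ[ℝ] ℝ} {e : F2 C}

theorem fib_deriv (y x : Cn n) : HasFDerivAt (fun x : Cn n => ((y, x) : Cn n × Cn n))
    (ContinuousLinearMap.inr ℝ (Cn n) (Cn n)) x := hasFDerivAt_prodMk_right y x

theorem smI_fib (h : SmI C (D ×ˢ (univ : Set (Cn n))) Φ) {y : Cn n} (hy : y ∈ D) :
    SmI C (univ : Set (Cn n)) (fun x => Φ (y, x)) := by
  have h1 := smI_pre h (a := fun x : Cn n => ((y, x) : Cn n × Cn n))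
    (contDiff_const.prodMk contDiff_id)
  have h2 : (fun x : Cn n => ((y, x) : Cn n × Cn n)) ⁻¹' (D ×ˢ (univ : Set (Cn n))) = univ := by
    ext x
    simp [hy]
  rwa [h2] at h1

theorem pull_fib (h : SmI C (D ×ˢ (univ : Set (Cn n))) Φ) {y : Cn n} (hy : y ∈ D) (v : F2 C)
    (x u w : Cn n) : Per_368.pull v (fun x => Φ (y, x)) x u w =
      Per_368.pull v Φ (y, x) (0, u) (0, w) :=
  pull_pre h v (fib_deriv y x) (⟨hy, mem_univ _⟩ : (y, x) ∈ D ×ˢ (univ : Set (Cn n))) u w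

/-- transfer along an isomorphism which is the identity on classes -/
theorem TubJ.map (hex : ∀ x y, Ex x → Q x y = 0) (t : TubJ Q e n J w₁ w₂) {g k : SMap C C}
    (hb : Bi g k) (hg : HolM g J' J) (hid : ∀ w : F2 C, Ex (g.pull w - w)) :
    TubJ Q e n J' (g.pull w₁) (g.pull w₂) := by
  obtain ⟨D, Φ, l, τ, h, hp⟩ := t
  refine ⟨D, k.f ∘ Φ, l, τ, h.map hb hg, fun v hv y hy j m x => ?_⟩
  have h1 : Q (k.pull v) e = 0 := by
    have h2 : Ex (v - k.pull v) := by
      have h3 := hid (k.pull v)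
      refine Eqv.ex ?_ h3
      intro i z hz u w
      have := hb.symm.pull_pull v i z hz u w
      simp only [F2.sub_w, sub_apply]
      rw [this]
    have h4 := hex _ e h2
    rw [map_sub, LinearMap.sub_apply, hv] at h4
    linarith
  have h5 := hp (k.pull v) h1 y hy j m x
  rw [← h5]
  have hs := smI_fib h.sm hy
  unfold Per_368.per
  refine intervalIntegral.integral_congr fun s _ => intervalIntegral.integral_congr fun r _ => ?_
  exact congrArg (fun T : Cn n →L[ℝ] Cn n →L[ℝ] ℝ => T (l j y) (l m y))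
    (pull_map hs k v (mem_univ _))

/-- multiplication of the symplectic form by a constant -/
theorem TubJ.scale (t : TubJ Q e n J w₁ w₂) {c : ℂ} (hc : c ≠ 0) {w₁' w₂' : F2 C}
    (h1 : Eqv w₁' (c.re • w₁ - c.im • w₂)) (h2 : Eqv w₂' (c.im • w₁ + c.re • w₂)) :
    TubJ Q e n J w₁' w₂' := by
  obtain ⟨D, Φ, l, τ, h, hp⟩ := t
  refine ⟨D, _, _, _, h.scale hc h1 h2, fun v hv y hy j m x => ?_⟩
  rw [← hp v hv y hy j m (c⁻¹ • x)]
  have hs := smI_fib h.sm hy
  have e1 : ∀ x u w : Cn n, Per_368.pull v (fun x => Φ (aC n c⁻¹ (y, x))) x u w =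
      Per_368.pull v (fun x => Φ (y, x)) (c⁻¹ • x) (c⁻¹ • u) (c⁻¹ • w) := by
    intro x u w
    have ha : HasFDerivAt (fun x : Cn n => c⁻¹ • x)
        ((c⁻¹ • ContinuousLinearMap.id ℂ (Cn n)).restrictScalars ℝ) x :=
      ((c⁻¹ • ContinuousLinearMap.id ℂ (Cn n)).restrictScalars ℝ).hasFDerivAt
    exact pull_pre hs v ha (mem_univ _) u w
  unfold Per_368.per
  refine intervalIntegral.integral_congr fun s _ => intervalIntegral.integral_congr fun r _ => ?_
  have e2 : c⁻¹ • pt x (c • l j y) (c • l m y) s r = pt (c⁻¹ • x) (l j y) (l m y) s r := by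
    simp only [pt, smul_add]
    rw [smul_comm c⁻¹ s, smul_comm c⁻¹ r, smul_smul, smul_smul, inv_mul_cancel₀ hc, one_smul,
      one_smul]
  have e3 := e1 (pt x (c • l j y) (c • l m y) s r) (c • l j y) (c • l m y)
  rw [e2, smul_smul, smul_smul, inv_mul_cancel₀ hc, one_smul, one_smul] at e3
  exact e3

/-- uniqueness of the symplectic form of `J 0` -/
theorem TubJ.to_hk {H : HkT C} (t : TubJ Q e n (ofHk H 0) w₁ w₂) (hu : UniqT H) (hn : 1 ≤ n)
    (hJ : ∀ i, ∀ z ∈ (C.e i).target, ∀ u v, w₁.w i z (H.J 0 i z u) v = - w₂.w i z u v) :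
    Tub Q e n H := by
  obtain ⟨a, b, hab⟩ := hu w₁ w₂ hJ
  have h12 : ∀ i, ∀ z ∈ (C.e i).target, ∀ u v, w₁.w i z u v =
      a * (H.om 1).w i z u v + b * (H.om 2).w i z u v := by
    intro i z hz u v
    rw [hab i z hz u v]
    simp
  have h22 : ∀ i, ∀ z ∈ (C.e i).target, ∀ u v, w₂.w i z u v =
      a * (H.om 2).w i z u v - b * (H.om 1).w i z u v := by
    intro i z hz u v
    have e1 := hJ i z hz u v
    rw [h12 i z hz, (H.om_J (Or.inl rfl) hz u v).1, (H.om_J (Or.inl rfl) hz u v).2] at e1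
    linarith
  have hne : a ^ 2 + b ^ 2 ≠ 0 := by
    intro h0
    have ha : a = 0 := by nlinarith [sq_nonneg a, sq_nonneg b]
    have hb : b = 0 := by nlinarith [sq_nonneg a, sq_nonneg b]
    subst ha hb
    obtain ⟨D, Φ, l, τ, h, -⟩ := t
    obtain ⟨y, hy⟩ := h.ne
    have hp : ((y, 0) : Cn n × Cn n) ∈ D ×ˢ (univ : Set (Cn n)) := ⟨hy, mem_univ _⟩
    have hz : ∀ w : F2 C, (∀ i, ∀ z ∈ (C.e i).target, ∀ u v, w.w i z u v = 0) →
        ∀ u v, Per_368.pull w Φ (y, 0) u v = 0 := by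
      intro w hw u v
      obtain ⟨i, hi⟩ := C.cover (Φ (y, 0))
      rw [h.sm.pull_eq w hp hi, pl_apply]
      exact hw i _ ((C.e i).map_source hi) _ _
    have z1 := hz w₁ fun i z hz u v => by rw [h12 i z hz]; ring
    have z2 := hz w₂ fun i z hz u v => by rw [h22 i z hz]; ring
    have s1 := h.sig _ hp (0, EuclideanSpace.single ⟨0, hn⟩ 1) (EuclideanSpace.single ⟨0, hn⟩ 1, 0)
    have s2 := h.sig _ hp (0, 0) (EuclideanSpace.single ⟨0, hn⟩ 1, 0)
    rw [z1, z2] at s1 s2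
    simp at s1 s2
    rw [← s2] at s1
    simp at s1
  obtain ⟨c, hre, him⟩ : ∃ c : ℂ, c.re = a / (a ^ 2 + b ^ 2) ∧ c.im = b / (a ^ 2 + b ^ 2) :=
    ⟨⟨a / (a ^ 2 + b ^ 2), b / (a ^ 2 + b ^ 2)⟩, rfl, rfl⟩
  have hc0 : c ≠ 0 := by
    intro h0
    rw [h0] at hre him
    simp only [Complex.zero_re, Complex.zero_im] at hre him
    have h1 : a = 0 := by
      rcases div_eq_zero_iff.1 hre.symm with h | h
      · exact h
      · exact absurd h hne
    have h2 : b = 0 := by
      rcases div_eq_zero_iff.1 him.symm with h | h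
      · exact h
      · exact absurd h hne
    rw [h1, h2] at hne
    exact hne (by ring)
  refine TubJ.scale t hc0 ?_ ?_
  · intro i z hz u v
    simp only [F2.sub_w, F2.smul_w, sub_apply, smul_apply, smul_eq_mul]
    rw [h12 i z hz, h22 i z hz, hre, him]
    field_simp
    ring
  · intro i z hz u v
    simp only [F2.add_w, F2.smul_w, add_apply, smul_apply, smul_eq_mul]
    rw [h12 i z hz, h22 i z hz, hre, him]
    field_simp
    ring

/-- **transfer**: a tube for `(J', w₁ + i w₂)` and an isomorphism `(X, J 0) ≅ (X, J')` which is the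
identity on classes give the tube of `H` -/
theorem tub_of_iso (hex : ∀ x y, Ex x → Q x y = 0) {H : HkT C} (hu : UniqT H) (hn : 1 ≤ n)
    {g k : SMap C C} (hb : Bi g k) (hg : HolM g (ofHk H 0) J')
    (hid : ∀ w : F2 C, Ex (g.pull w - w))
    (hJ : ∀ i, ∀ z ∈ (C.e i).target, ∀ u v, w₁.w i z (J'.J i z u) v = - w₂.w i z u v)
    (t : TubJ Q e n J' w₁ w₂) : Tub Q e n H := by
  refine TubJ.to_hk (t.map hex hb hg hid) hu hn fun j z hz u v => ?_
  obtain ⟨i, hi⟩ := g.exists_dom hz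
  rw [g.pull_w _ hi, g.pull_w _ hi]
  have h1 := hg.h i j z hi u
  have h2 : (ofHk H 0).J j z u = H.J 0 j z u := rfl
  rw [h2] at h1
  rw [h1]
  exact hJ i _ (g.loc_mem hi) _ _

end

end Crest.Agent.R281.Tub_836
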