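import Crest.Agent.R281.OpF3_330
import Crest.Agent.R281.Tub3_836
import Crest.Agent.R281.TubT_831
import Crest.Agent.R281.OTB3_280
import Crest.Agent.R281.Rk3_599
import Crest.Agent.R281.PL4_713

/-!
# Row 281, OPEN-FIB (helper330), file 4: the adapter from 831's `HolTube`

* `diffC_of_real` : real differentiable with `ℂ`-linear derivative is complex differentiable
* `ltub_of`       : `HolTube C J .. D Ψ l τ`, `JC C J A` ⟹ `LTub A D Ψ`
* `htor_of`       : its tori
* `mean_tube`     : zero periods of a form proportional to the curvature ⟹ zero mean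
* `fibver`        : **the open set of points with `Fib` and `Ver`**
-/

set_option autoImplicit false
set_option linter.unusedSectionVars false
set_option maxSynthPendingDepth 3

open Set Filter Topology Complex Matrix MeasureTheory Module
open scoped ContDiff Matrix ComplexConjugate ComplexOrder

namespace Crest.Agent.R281.OpT_330

open Crest.Agent.R273 Crest.Agent.R275 Crest.Agent.R275.Geo Crest.Agent.R275.Core144
open Crest.Agent.R273.Defs_333 Crest.Agent.R273.HM_333 Crest.Agent.R273.Kah_333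
open Crest.Agent.R273.Vol_333
open Crest.Agent.R275.Tor812 (box)
open Crest.Agent.R281.Op3_569 (Per chA chA_mem)
open Crest.Agent.R281.Nef_252 (curK)
open Crest.Agent.R281.OpB_849
open Crest.Agent.R281.HkR_835 Crest.Agent.R281.Ti_846 Crest.Agent.R281.PL_713
open Crest.Agent.R281.Dif_268 (Eqv SMap)
open Crest.Agent.R281.Per_368 (SmI pull per pt pl_apply)
open Crest.Agent.R281.Tub_836 (smI_map fderiv_map smI_fib pull_fib)
open Crest.Agent.R281.Tub_831

noncomputable section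

/-! ### complex differentiability -/

section cx

variable {E E' : Type*} [NormedAddCommGroup E] [NormedSpace ℂ E] [NormedSpace ℝ E]
  [IsScalarTower ℝ ℂ E] [NormedAddCommGroup E'] [NormedSpace ℂ E'] [NormedSpace ℝ E']
  [IsScalarTower ℝ ℂ E']

theorem cx_smul (c : ℂ) (u : E) : c • u = c.re • u + c.im • (I • u) := by
  have h1 : ∀ (r : ℝ) (x : E), r • x = (r : ℂ) • x := fun r x => (algebraMap_smul ℂ r x).symm
  rw [h1, h1, smul_smul, ← add_smul]
  congr 1
  exact (Complex.re_add_im c).symm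

/-- a real linear map commuting with `i` -/
def cxl (g : E →L[ℝ] E') (h : ∀ u, g (I • u) = I • g u) : E →L[ℂ] E' where
  toFun := g
  map_add' := map_add g
  map_smul' c u := by
    rw [cx_smul c u, map_add, map_smul, map_smul, h]
    exact (cx_smul c (g u)).symm
  cont := g.cont

theorem diffC_of_real {f : E → E'} {x : E} (hf : DifferentiableAt ℝ f x)
    (hI : ∀ u, fderiv ℝ f x (I • u) = I • fderiv ℝ f x u) :
    DifferentiableAt ℂ f x ∧ ∀ u, fderiv ℂ f x u = fderiv ℝ f x u := by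
  have h1 : HasFDerivAt f (cxl (fderiv ℝ f x) hI) x :=
    hasFDerivAt_of_restrictScalars ℝ hf.hasFDerivAt (by ext; rfl)
  exact ⟨h1.differentiableAt, fun u => by rw [h1.fderiv]; rfl⟩

end cx

variable {N : ℕ} {V X : Type} [NormedAddCommGroup V] [NormedSpace ℝ V] [TopologicalSpace X]
  {C : RCh V X} {J : C.ι → V → V →L[ℝ] V} {A : Atl N X} {L : LB A} {n : ℕ}
  {w w' : F2 C} {D : Set (Cn n)} {Ψ : Cn n × Cn n → X} {l : Fin (2 * n) → Cn n → Cn n}
  {τ : Cn n → Cn n → Cn n → ℂ}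

/-- smoothness in the charts of the holomorphic atlas -/
theorem smI_A {E : Type} [NormedAddCommGroup E] [NormedSpace ℝ E] {S : Set E} {Φ : E → X}
    (h : SmI C S Φ) (hc : Cmp C (ofAtl A)) : SmI (ofAtl A) S Φ :=
  smI_map h (SMap.ofCmp hc.symm)

theorem mem_mov {i : C.ι} {a : A.ι} {x : X} (hi : x ∈ (C.e i).source)
    (ha : x ∈ (A.e a).source) : A.e a x ∈ mov C (ofAtl A) i a := by
  refine ⟨(A.e a).map_source ha, ?_⟩
  show (A.e a).symm (A.e a x) ∈ (C.e i).source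
  rwa [(A.e a).left_inv ha]

theorem mt_e {i : C.ι} {a : A.ι} {x : X} (ha : x ∈ (A.e a).source) :
    mt C (ofAtl A) i a (A.e a x) = C.e i x := by
  show C.e i ((A.e a).symm (A.e a x)) = _
  rw [(A.e a).left_inv ha]

/-- chain rule between the charts of `C` and of `A` -/
theorem fd_A {E : Type} [NormedAddCommGroup E] [NormedSpace ℝ E] {S : Set E} {Φ : E → X}
    (h : SmI C S Φ) (hc : Cmp C (ofAtl A)) {p : E} (hp : p ∈ S) {i : C.ι} {a : A.ι}
    (hi : Φ p ∈ (C.e i).source) (ha : Φ p ∈ (A.e a).source) (u : E) :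
    fderiv ℝ (fun q => C.e i (Φ q)) p u = fderiv ℝ (mt C (ofAtl A) i a) (A.e a (Φ p))
      (fderiv ℝ (fun q => A.e a (Φ q)) p u) :=
  fderiv_map (smI_A h hc) (SMap.ofCmp hc) hp ha hi u

/-- the derivative in the charts of `A` is `ℂ`-linear -/
theorem fd_I (t : HolTube C J w w' n D Ψ l τ) (hJ : JC C J A) {p : Cn n × Cn n} (hp : p.1 ∈ D)
    {a : A.ι} (ha : Ψ p ∈ (A.e a).source) (u : Cn n × Cn n) :
    fderiv ℝ (fun q => A.e a (Ψ q)) p (I • u) = I • fderiv ℝ (fun q => A.e a (Ψ q)) p u := by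
  have hp' : p ∈ D ×ˢ (univ : Set (Cn n)) := ⟨hp, mem_univ _⟩
  obtain ⟨i, hi⟩ := C.cover (Ψ p)
  have hm := mem_mov hi ha
  refine hJ.cmp.inj hm ?_
  rw [← fd_A t.sm hJ.cmp hp' hi ha, t.hol p hp i hi, fd_A t.sm hJ.cmp hp' hi ha, hJ.lin i a _ hm,
    mt_e ha]

theorem fd_inj (t : HolTube C J w w' n D Ψ l τ) (hJ : JC C J A) {p : Cn n × Cn n} (hp : p.1 ∈ D)
    {a : A.ι} (ha : Ψ p ∈ (A.e a).source) :
    Function.Injective (fderiv ℝ (fun q => A.e a (Ψ q)) p) := by
  have hp' : p ∈ D ×ˢ (univ : Set (Cn n)) := ⟨hp, mem_univ _⟩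
  obtain ⟨i, hi⟩ := C.cover (Ψ p)
  intro u v huv
  apply t.inj p hp i hi
  rw [fd_A t.sm hJ.cmp hp' hi ha, fd_A t.sm hJ.cmp hp' hi ha, huv]

theorem fdC (t : HolTube C J w w' n D Ψ l τ) (hJ : JC C J A) {p : Cn n × Cn n} (hp : p.1 ∈ D)
    {a : A.ι} (ha : Ψ p ∈ (A.e a).source) : DifferentiableAt ℂ (fun q => A.e a (Ψ q)) p ∧
      ∀ u, fderiv ℂ (fun q => A.e a (Ψ q)) p u = fderiv ℝ (fun q => A.e a (Ψ q)) p u :=
  diffC_of_real ((smI_A t.sm hJ.cmp).diffAt ⟨hp, mem_univ _⟩ ha) (fd_I t hJ hp ha)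

/-- **831's tube is an `LTub`** -/
theorem ltub_of (t : HolTube C J w w' n D Ψ l τ) (hJ : JC C J A) : LTub A D Ψ where
  op := t.op
  cont := t.sm.cont
  hol p hp a ha := (fdC t hJ hp.1 ha).1
  inj p hp a ha u v huv := by
    rw [(fdC t hJ hp.1 ha).2, (fdC t hJ hp.1 ha).2] at huv
    exact fd_inj t hJ hp.1 ha huv

/-- the period coordinates of the torus of `y` -/
theorem exists_T {y : Cn n} (hli : LinearIndependent ℝ fun k => l k y) :
    ∃ T : (Fin (2 * n) → ℝ) ≃L[ℝ] Cn n, ∀ s, T s = ∑ k, s k • l k y := by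
  have hcard : Fintype.card (Fin (2 * n)) = finrank ℝ (Cn n) := by
    rw [Fintype.card_fin, finrank_real_of_complex, finrank_euclideanSpace_fin]
  let b : Basis (Fin (2 * n)) ℝ (Cn n) := basisOfLinearIndependentOfCardEqFinrank' _ hli hcard
  refine ⟨b.equivFun.symm.toContinuousLinearEquiv, fun s => ?_⟩
  show b.equivFun.symm s = _
  rw [Basis.equivFun_symm_apply]
  refine Finset.sum_congr rfl fun k _ => ?_
  simp [b]

theorem lat_per (t : HolTube C J w w' n D Ψ l τ) {y : Cn n} (hy : y ∈ D)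
    {T : (Fin (2 * n) → ℝ) ≃L[ℝ] Cn n} (hT : ∀ s, T s = ∑ k, s k • l k y)
    (k : Fin (2 * n) → ℤ) (x : Cn n) : Ψ (y, x + T fun j => (k j : ℝ)) = Ψ (y, x) := by
  refine (t.eq_iff y hy y hy _ _).2 ⟨rfl, k, ?_⟩
  rw [add_sub_cancel_left, hT]

/-- **the tori of the tube** -/
theorem htor_of (t : HolTube C J w w' n D Ψ l τ) (hJ : JC C J A) {y : Cn n} (hy : y ∈ D)
    {T : (Fin (2 * n) → ℝ) ≃L[ℝ] Cn n} (hT : ∀ s, T s = ∑ k, s k • l k y) :
    HTor A T (fun s => Ψ (y, T s)) :=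
  (ltub_of t hJ).htor hy T (lat_per t hy hT)

/-! ### the mean curvature -/

/-- a form in the charts of `A` -/
theorem pull_A {E : Type} [NormedAddCommGroup E] [NormedSpace ℝ E] {S : Set E} {Φ : E → X}
    (h : SmI C S Φ) (hc : Cmp C (ofAtl A)) (v : F2 C) {p : E} (hp : p ∈ S) {a : A.ι}
    (ha : Φ p ∈ (A.e a).source) (u₁ u₂ : E) :
    pull v Φ p u₁ u₂ = (hc.F v).w a (A.e a (Φ p)) (fderiv ℝ (fun q => A.e a (Φ q)) p u₁)
      (fderiv ℝ (fun q => A.e a (Φ q)) p u₂) := by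
  obtain ⟨i, hi⟩ := C.cover (Φ p)
  rw [hc.F_w v (mem_mov hi ha), ← fd_A h hc hp hi ha, ← fd_A h hc hp hi ha, mt_e ha,
    h.pull_eq v hp hi, pl_apply]

/-- the Levi form of the weight along the torus in terms of the pulled back form -/
theorem lvC_pull (t : HolTube C J w w' n D Ψ l τ) (hJ : JC C J A) {y : Cn n} (hy : y ∈ D)
    {T : (Fin (2 * n) → ℝ) ≃L[ℝ] Cn n} (h : HM L) {v : F2 C} {κ : ℝ}
    (hcur : Eqv (hJ.cmp.F v) (κ • (curK h).f2)) (x s : Fin (2 * n) → ℝ) :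
    pull v (fun z => Ψ (y, z)) (T x) (T s) (I • T s) =
      κ / 4 * lvC h T (fun s => Ψ (y, T s)) x s := by
  set a := chA A (Ψ (y, T x)) with ha'
  have ha : Ψ (y, T x) ∈ (A.e a).source := chA_mem _
  have hz : A.e a (Ψ (y, T x)) ∈ (A.e a).target := (A.e a).map_source ha
  have hp : ((y, T x) : Cn n × Cn n).1 ∈ D := hy
  -- the reading
  have h1 : HasFDerivAt (fun z : Cn n => (y, z)) (ContinuousLinearMap.inr ℂ (Cn n) (Cn n)) (T x) :=
    hasFDerivAt_prodMk_right y (T x)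
  have h2 : HasFDerivAt (fun z => A.e a (Ψ (y, z)))
      ((fderiv ℂ (fun q => A.e a (Ψ q)) (y, T x)).comp
        (ContinuousLinearMap.inr ℂ (Cn n) (Cn n))) (T x) :=
    (fdC t hJ hp ha).1.hasFDerivAt.comp (T x) h1
  have h3 : rd A T (fun s => Ψ (y, T s)) a = fun z => A.e a (Ψ (y, z)) := by
    funext z
    unfold rd
    simp only [ContinuousLinearEquiv.apply_symm_apply]
  set W : Cn N := fderiv ℂ (rd A T (fun s => Ψ (y, T s)) a) (T x) (T s) with hW
  have hW1 : W = fderiv ℝ (fun z => A.e a (Ψ (y, z))) (T x) (T s) := by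
    rw [hW, h3, h2.fderiv, (h2.restrictScalars ℝ).fderiv]
    rfl
  have hW2 : I • W = fderiv ℝ (fun z => A.e a (Ψ (y, z))) (T x) (I • T s) := by
    rw [hW, h3, h2.fderiv, (h2.restrictScalars ℝ).fderiv]
    show I • _ = ((fderiv ℂ (fun q => A.e a (Ψ q)) (y, T x)).comp
        (ContinuousLinearMap.inr ℂ (Cn n) (Cn n))) (I • T s)
    rw [map_smul]
  have hsm : SmI C (univ : Set (Cn n)) (fun z => Ψ (y, z)) := smI_fib t.sm hy
  rw [pull_A hsm hJ.cmp v (mem_univ _) ha, ← hW1, ← hW2, hcur a _ hz]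
  have e1 : (κ • (curK h).f2).w a (A.e a (Ψ (y, T x))) W (I • W) =
    κ * (curK h).f2.w a (A.e a (Ψ (y, T x))) W (I • W) := rfl
  have e2 : ((lvC h T (fun s => Ψ (y, T s)) x s : ℝ) : ℂ) =
      4 * hb (cur h a (Ψ (y, T x))) W W := by
    unfold lvC
    rw [← ha', lvT_eq h ha s, ← hW, hb_eq_dot]
    rfl
  have e3 : (curK h).f2.w a (A.e a (Ψ (y, T x))) W (I • W) =
      lvC h T (fun s => Ψ (y, T s)) x s / 4 := by
    rw [(curK h).f2_w hz, (A.e a).left_inv ha, hb_I_right]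
    have e4 : hb (cur h a (Ψ (y, T x))) W W =
        ((lvC h T (fun s => Ψ (y, T s)) x s / 4 : ℝ) : ℂ) := by
      push_cast
      rw [e2]
      ring
    have e5 : (curK h).g a (Ψ (y, T x)) = cur h a (Ψ (y, T x)) := rfl
    rw [e5, e4]
    have e6 : I * (-I * ((lvC h T (fun s => Ψ (y, T s)) x s / 4 : ℝ) : ℂ)) =
        ((lvC h T (fun s => Ψ (y, T s)) x s / 4 : ℝ) : ℂ) := by
      linear_combination (-((lvC h T (fun s => Ψ (y, T s)) x s / 4 : ℝ) : ℂ)) * I_mul_I
    rw [e6, Complex.ofReal_re]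
  rw [e1, e3]
  ring

/-- **zero periods ⟹ zero mean curvature** -/
theorem mean_tube (t : HolTube C J w w' n D Ψ l τ) (hJ : JC C J A) {y : Cn n} (hy : y ∈ D)
    {T : (Fin (2 * n) → ℝ) ≃L[ℝ] Cn n} (hT : ∀ s, T s = ∑ k, s k • l k y) (h : HM L) {v : F2 C}
    {κ : ℝ} (hκ : κ ≠ 0) (hcur : Eqv (hJ.cmp.F v) (κ • (curK h).f2))
    (hper : ∀ x j k, per (pull v Ψ) (y, x) (0, l j y) (0, l k y) = 0) (s : Fin (2 * n) → ℝ) :
    ∫ x in box (0 : Fin (2 * n) → ℝ), lvC h T (fun s => Ψ (y, T s)) x s = 0 := by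
  classical
  have hsm : SmI C (univ : Set (Cn n)) (fun z => Ψ (y, z)) := smI_fib t.sm hy
  have hTe : ∀ j, T (Pi.single j 1) = l j y := by
    intro j
    rw [hT, Finset.sum_eq_single j]
    · simp
    · intro k _ hk
      simp [hk]
    · simp
  set b : (Fin (2 * n) → ℝ) → Fin (2 * n) → Fin (2 * n) → ℝ := fun x j k =>
    pull v (fun z => Ψ (y, z)) (T x) (l j y) (l k y) with hb
  have hbc : ∀ j k, Continuous fun x => b x j k := by
    intro j k
    have h1 : Continuous (pull v fun z => Ψ (y, z)) :=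
      continuousOn_univ.1 (hsm.pull_smooth v).continuousOn
    have h2 : Continuous fun x : Fin (2 * n) → ℝ => pull v (fun z => Ψ (y, z)) (T x) :=
      h1.comp T.continuous
    exact (h2.clm_apply continuous_const).clm_apply continuous_const
  have hbp : ∀ j k, Per fun x => b x j k := by
    intro j k q x
    have h1 := hsm.pull_add v (l := T fun i => (q i : ℝ)) (fun ζ _ => ⟨mem_univ _,
      lat_per t hy hT q ζ⟩) (mem_univ (T x))
    show pull v (fun z => Ψ (y, z)) (T (x + fun i => (q i : ℝ))) (l j y) (l k y) = _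
    rw [map_add, h1]
  refine mean_lvC h (4 / κ) (b := b) (w := T.symm (I • T s)) hbc hbp (fun x => ?_) ?_
  · have h1 := lvC_pull t hJ hy (T := T) h hcur x s
    have h2 : pull v (fun z => Ψ (y, z)) (T x) (T s) (I • T s) =
        ∑ j, ∑ k, s j * (T.symm (I • T s)) k * b x j k := by
      have e1 : I • T s = T (T.symm (I • T s)) := by simp
      generalize T.symm (I • T s) = r at e1 ⊢
      rw [e1, hT s, hT r]
      simp only [map_sum, map_smul, FunLike.coe_sum, Finset.sum_apply,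
        FunLike.coe_smul, Pi.smul_apply, smul_eq_mul, Finset.mul_sum]
      rw [Finset.sum_comm]
      refine Finset.sum_congr rfl fun j _ => Finset.sum_congr rfl fun k _ => ?_
      rw [hb]
      ring
    rw [← h2, h1]
    field_simp
  · intro j k x
    have key : ∀ r q : ℝ, b (x + r • Pi.single j 1 + q • Pi.single k 1) j k =
        pull v Ψ (pt ((y, T x) : Cn n × Cn n) (0, l j y) (0, l k y) r q) (0, l j y) (0, l k y) := by
      intro r q
      have e1 : pt ((y, T x) : Cn n × Cn n) (0, l j y) (0, l k y) r q =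
          (y, T (x + r • Pi.single j 1 + q • Pi.single k 1)) := by
        unfold pt
        refine Prod.ext ?_ ?_
        · simp
        · simp only [map_add, map_smul, hTe, Prod.snd_add, Prod.smul_snd]
      rw [e1, ← pull_fib t.sm hy]
    simp only [key]
    exact hper (T x) j k

/-! ### the open set -/

theorem isOpen_rk {M : Type} [TopologicalSpace M] {A : Atl N M} {L : LB A} {r : ℕ}
    {s : Fin (r + 1) → A.ι → M → ℂ} (hs : ∀ a, IsHS L univ (s a)) :
    IsOpen {x | ∃ i, Rk_599.Rk A s i x} := by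
  rw [isOpen_iff_mem_nhds]
  rintro x ⟨i, hi⟩
  have hx : x ∈ (A.e i).source := hi.1
  have h1 : Rk_599.Rk A s i ((A.e i).symm (A.e i x)) := by rwa [(A.e i).left_inv hx]
  have h2 := Rk_599.eventually_rk hs ((A.e i).map_source hx) h1
  have h3 := ((A.e i).continuousAt hx).eventually h2
  filter_upwards [h3, (A.e i).open_source.mem_nhds hx] with y hy hyi
  refine ⟨i, ?_⟩
  have h4 := hy.2
  rwa [(A.e i).left_inv hyi] at h4

/-- **OPEN-FIB**: through the points of an open set pass tori on which the sections are constant and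
to which the vertical vectors are tangent -/
theorem fibver [PreconnectedSpace X] (hN : N = n + n) (t : HolTube C J w w' n D Ψ l τ)
    (hJ : JC C J A) (h : HM L) {v : F2 C} {κ : ℝ} (hκ : κ ≠ 0)
    (hcur : Eqv (hJ.cmp.F v) (κ • (curK h).f2))
    (hper : ∀ y ∈ D, ∀ x j k, per (pull v Ψ) (y, x) (0, l j y) (0, l k y) = 0)
    {c : ℕ} (G : GG L c) (hsp : Span G) {u : Fin (n + 1) → A.ι → X → ℂ}
    (hu : ∀ a, IsHS L univ (u a)) {i₀ : A.ι} {x₀ : X} (hrk : Rk_599.Rk A u i₀ x₀) :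
    ∃ V₀ : Set X, IsOpen V₀ ∧ V₀.Nonempty ∧ ∀ x ∈ V₀, ∃ y ∈ D, ∃ z, Ψ (y, z) = x ∧
      ∀ T : (Fin (2 * n) → ℝ) ≃L[ℝ] Cn n, (∀ s, T s = ∑ k, s k • l k y) →
        HTor A T (fun s => Ψ (y, T s)) ∧ Fib G.s (fun s => Ψ (y, T s)) ∧
          Ver G.s T (fun s => Ψ (y, T s)) := by
  -- the sections are constant on the tori
  have hfibG : ∀ y ∈ D, ∀ T : (Fin (2 * n) → ℝ) ≃L[ℝ] Cn n, (∀ s, T s = ∑ k, s k • l k y) →
      Fib G.s (fun s => Ψ (y, T s)) := fun y hy T hT =>
    fib_of_hm G (htor_of t hJ hy hT) h fun s => mean_tube t hJ hy hT h hκ hcur (hper y hy) s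
  have hfibT : ∀ y ∈ D, FibT A u Ψ y := by
    intro y hy
    obtain ⟨T, hT⟩ := exists_T (t.lli y hy)
    rw [fibT_iff T]
    exact (fibA_of_fib (htor_of t hJ hy hT) G.hs G.ne (hfibG y hy T hT)).fib hu
  -- the image of the tube is open
  have himg : IsOpen (Ψ '' (D ×ˢ (univ : Set (Cn n)))) := by
    refine OTB_280.isOpen_image (C := ofAtl A) (smI_A t.sm hJ.cmp) (fun ζ hζ a ha => ?_)
      (t.op.prod isOpen_univ) subset_rfl
    have hi := fd_inj t hJ hζ.1 ha
    refine ⟨hi, ?_⟩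
    have hf : finrank ℝ (Cn n × Cn n) = finrank ℝ (Cn N) := by
      rw [finrank_prod, finrank_real_of_complex, finrank_real_of_complex,
        finrank_euclideanSpace_fin, finrank_euclideanSpace_fin, hN]
      ring
    exact (LinearMap.injective_iff_surjective_of_finrank_eq_finrank
      (f := (fderiv ℝ (fun y => A.e a (Ψ y)) ζ : (Cn n × Cn n) →ₗ[ℝ] Cn N)) hf).1 hi
  have hne : (Ψ '' (D ×ˢ (univ : Set (Cn n)))).Nonempty := by
    obtain ⟨y, hy⟩ := t.ne
    exact ⟨Ψ (y, 0), (y, 0), ⟨hy, mem_univ _⟩, rfl⟩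
  refine ⟨Ψ '' (D ×ˢ (univ : Set (Cn n))) ∩ {x | ∃ i, Rk_599.Rk A u i x}, himg.inter (isOpen_rk hu),
    (Rk_599.dense_rk hu hrk).inter_open_nonempty _ himg hne, ?_⟩
  rintro x ⟨⟨⟨y, z⟩, ⟨hy, -⟩, rfl⟩, i, hi⟩
  refine ⟨y, hy, z, rfl, fun T hT => ⟨htor_of t hJ hy hT, hfibG y hy T hT, ?_⟩⟩
  refine verG_of_ver hsp hu (ver_of_rk hN (ltub_of t hJ) hy T hu
    (by filter_upwards [t.op.mem_nhds hy] with y' hy' using hfibT y' hy') ?_ hi)
  intro j x' hj
  have h1 : NZ (u 0) (fun s => Ψ (y, T s)) := by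
    have h2 : Ψ (y, T (T.symm z)) ∈ (A.e i).source := by
      rw [ContinuousLinearEquiv.apply_symm_apply]
      exact hi.1
    have h3 : u 0 i (Ψ (y, T (T.symm z))) ≠ 0 := by
      rw [ContinuousLinearEquiv.apply_symm_apply]
      exact hi.2.1
    exact nz_of_ne (htor_of t hJ hy hT) G.hs G.ne (hfibG y hy T hT) (hu 0) (x := T.symm z) h2 h3
  have h4 := h1 j (T.symm x')
  simp only [ContinuousLinearEquiv.apply_symm_apply] at h4
  exact h4 hj

end

end Crest.Agent.R281.OpT_330
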