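import Crest.Agent.R281.Pjx2_648
import Crest.Agent.R281.HkM1_835
import Crest.Agent.R273.LiftB_522

/-!
# R281 (S0424), G26 PROJ-x (helper648), part 4: several line bundles on one atlas

* `K11.chg`       : a closed real (1,1)-form on a compatible atlas; `chg_g`, `chg_int`
* `lefschetz_fam` : integral closed real (1,1)-forms `K a` (`a : Fin r`) ==> one finite good atlas,
                    subordinate to an open cover, with line bundles `L a` with metrics of curvature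
                    `K a`
* `lb_fam_on`     : the same for `w a : F2 C` integral and of type (1,1) for `J 0` of a
                    hyperkaehler triple: `cur (h a) = π GB (w a)`
* `kappa_data`    : positive bundle (integral Kaehler form), further bundles, `ProjD`: one atlas
-/

set_option autoImplicit false
set_option linter.unusedSectionVars false
set_option maxSynthPendingDepth 3

open Set Filter Topology Complex
open scoped ContDiff Matrix ComplexConjugate ComplexOrder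

namespace Crest.Agent.R281.Pjx_648

open Crest.Agent.R281.HkR_835 Crest.Agent.R281.Dif_268 Crest.Agent.R281.Cdr_234
open Crest.Agent.R281.Ti_846 (Ex)
open Crest.Agent.R275.Geo Crest.Agent.R275.Core144 Crest.Agent.R275.GC293 Crest.Agent.R275.EDR890
open Crest.Agent.R273
open Crest.Agent.R273.Defs_333 Crest.Agent.R273.Hess_333 Crest.Agent.R273.HessB_333
open Crest.Agent.R273.Map_835 (HolMap dm Jp mem_dm holMap_id Jp_comp)
open Crest.Agent.R273.PB_835 (LBih Ref pullLB)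
open Crest.Agent.R273.Kah_333 (Kah cur)
open Crest.Agent.R273.FS_333 (lb)
open Crest.Agent.R260.ACM_580 Crest.Agent.R260.NNB_580

noncomputable section

/-! ### (1,1)-forms under a change of atlas -/

section chg

variable {n : ℕ} {M : Type} [TopologicalSpace M] {A A' : Atl n M}

theorem hb_II (G : Matrix (Fin n) (Fin n) ℂ) (u v : Cn n) : hb G (I • u) (I • v) = hb G u v := by
  rw [hb_I_left, hb_I_right, ← mul_assoc, mul_neg, I_mul_I, neg_neg, one_mul]

/-- the matrix of the real form of a matrix -/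
theorem GB_of_hb {B : Bil (Cn n)} {G : Matrix (Fin n) (Fin n) ℂ}
    (h : ∀ u v, B u v = (I * hb G u v).re) : GB B = G := by
  have hB : ∀ u v, B (I • u) (I • v) = B u v := fun u v => by rw [h, h, hb_II]
  apply hb_ext
  intro u v
  rw [← hw_eq hB, hw, h, h, hb_I_right]
  apply Complex.ext
  · simp
  · simp

theorem chg_inv (h : HolMap A' A id) (h' : HolMap A A' id) (K : K11 A) (k : A'.ι) (z : Cn n)
    (hz : z ∈ (A'.e k).target) (u v : Cn n) :
    ((SMap.ofCmp (cmp_of_hol h h')).pull K.f2).w k z (I • u) (I • v) =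
      ((SMap.ofCmp (cmp_of_hol h h')).pull K.f2).w k z u v := by
  obtain ⟨i, hi⟩ := A.cover ((A'.e k).symm z)
  have hd : z ∈ dm A' A id k i := ⟨hz, hi⟩
  rw [pull_f2 h h' K hd, pull_f2 h h' K hd, hb_II]

/-- a closed real (1,1)-form on a compatible atlas -/
def chg (h : HolMap A' A id) (h' : HolMap A A' id) (K : K11 A) : K11 A' :=
  ((SMap.ofCmp (cmp_of_hol h h')).pull K.f2).k11 (chg_inv h h' K)

theorem chg_g (h : HolMap A' A id) (h' : HolMap A A' id) (K : K11 A) {k : A'.ι} {i : A.ι} {y : M}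
    (hk : y ∈ (A'.e k).source) (hi : y ∈ (A.e i).source) :
    (chg h h' K).g k y = (Jp A' A id k i y)ᵀ * K.g i y * (Jp A' A id k i y).map conj := by
  have hy : (A'.e k).symm (A'.e k y) = y := (A'.e k).left_inv hk
  refine GB_of_hb fun u v => ?_
  have h1 := pull_f2 h h' K (z := A'.e k y) (mem_dm hk hi) u v
  rw [hy] at h1
  exact h1

theorem chg_cls {G : AddSubgroup ℝ} (h : HolMap A' A id) (h' : HolMap A A' id) (K : K11 A)
    {c : ℝ} (hK : Cls G (c • K.f2)) : Cls G (c • (chg h h' K).f2) := by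
  refine Cls.eqv (hK.pull (SMap.ofCmp (cmp_of_hol h h'))) ?_
  intro k z hz u v
  obtain ⟨i, hi⟩ := A.cover ((A'.e k).symm z)
  have hz' : z ∈ dom (ofAtl A) (ofAtl A') (SMap.ofCmp (cmp_of_hol h h')).f i k := ⟨hz, hi⟩
  have e1 : (c • (chg h h' K).f2).w k z u v = c * (chg h h' K).f2.w k z u v := rfl
  have e2 : (chg h h' K).f2.w k z = ((SMap.ofCmp (cmp_of_hol h h')).pull K.f2).w k z :=
    F2.k11_f2 _ _ hz
  rw [e1, e2, (SMap.ofCmp (cmp_of_hol h h')).pull_w _ hz',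
    (SMap.ofCmp (cmp_of_hol h h')).pull_w _ hz']
  rfl

/-! ### several line bundles -/

theorem jac_comp {A₀ A₁ A₂ : Atl n M} (h1 : HolMap A₁ A₀ id) (h2 : HolMap A₂ A₁ id)
    (G : Matrix (Fin n) (Fin n) ℂ) {k : A₂.ι} {j : A₁.ι} {i : A₀.ι} {y : M}
    (hk : y ∈ (A₂.e k).source) (hj : y ∈ (A₁.e j).source) (hi : y ∈ (A₀.e i).source) :
    (Jp A₂ A₁ id k j y)ᵀ * ((Jp A₁ A₀ id j i y)ᵀ * G * (Jp A₁ A₀ id j i y).map conj) *
      (Jp A₂ A₁ id k j y).map conj =
    (Jp A₂ A₀ id k i y)ᵀ * G * (Jp A₂ A₀ id k i y).map conj := by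
  have h3 : Jp A₁ A₀ id j i y * Jp A₂ A₁ id k j y = Jp A₂ A₀ id k i y :=
    Jp_comp h1 h2 (i := k) (j := j) (l := i) (x := y) hk hj hi
  rw [← h3, Matrix.transpose_mul]
  have h4 : (Jp A₁ A₀ id j i y * Jp A₂ A₁ id k j y).map conj =
      (Jp A₁ A₀ id j i y).map conj * (Jp A₂ A₁ id k j y).map conj :=
    Matrix.map_mul (f := (starRingEnd ℂ))
  rw [h4]
  simp only [Matrix.mul_assoc]

/-- **Lefschetz (1,1) for several forms, on one atlas** -/
theorem lefschetz_fam [CompactSpace M] [T2Space M] {κ : Type*} (O : κ → Set M)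
    (hO : ∀ k, IsOpen (O k)) (hOc : ∀ x, ∃ k, x ∈ O k) (r : ℕ) (K : Fin r → K11 A)
    (hK : ∀ a, IntF ((Real.pi⁻¹ : ℝ) • (K a).f2)) :
    ∃ (A' : Atl n M) (L : Fin r → LB A') (h : ∀ a, HM (L a)), Finite A'.ι ∧ GoodA A' ∧
      Nonempty (Part A') ∧ (∀ i, ∃ k, (A'.e i).source ⊆ O k) ∧ Nonempty (Ref A' A id) ∧
      LBih A' A id ∧ LBih A A' id ∧ ∀ (a : Fin r) (k : A'.ι) (i : A.ι) (y : M),
        y ∈ (A'.e k).source → y ∈ (A.e i).source → cur (h a) k y =
          (Jp A' A id k i y)ᵀ * (K a).g i y * (Jp A' A id k i y).map conj := by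
  induction r with
  | zero =>
    obtain ⟨A', h1, h2, h3, h4, h5, h6, h7⟩ := Fam_835.exists_refine A O hO hOc
    exact ⟨A', fun a => a.elim0, fun a => a.elim0, h1, h2, h3, h4, h5, h6, h7,
      fun a => a.elim0⟩
  | succ r ih =>
    obtain ⟨A₁, L₁, g₁, -, -, -, -, ⟨R₁⟩, m₁, m₁', c₁⟩ :=
      ih (fun a => K a.castSucc) fun a => hK _
    obtain ⟨A₂, L₂, g₂, a1, a2, a3, a4, ⟨R₂⟩, m₂, m₂', c₂⟩ :=
      lefschetz (chg m₁.toHolMap m₁'.toHolMap (K (Fin.last r)))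
        (chg_cls m₁.toHolMap m₁'.toHolMap _ (hK _)) O hO hOc
    have hp := m₂.toHolMap
    set L : Fin (r + 1) → LB A₂ := fun a =>
      Fin.lastCases (motive := fun _ => LB A₂) L₂ (fun a => pullLB hp R₂ (L₁ a)) a with hL
    have key : ∀ a : Fin (r + 1), ∃ g : HM (L a), ∀ (k : A₂.ι) (i : A.ι) (y : M),
        y ∈ (A₂.e k).source → y ∈ (A.e i).source → cur g k y =
          (Jp A₂ A id k i y)ᵀ * (K a).g i y * (Jp A₂ A id k i y).map conj := by
      intro a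
      refine Fin.lastCases ?_ (fun a => ?_) a
      · have e1 : L (Fin.last r) = L₂ := by simp [hL]
        rw [e1]
        refine ⟨g₂, fun k i y hk hi => ?_⟩
        obtain ⟨j, hj⟩ := A₁.cover y
        rw [c₂ k j y hk hj, chg_g m₁.toHolMap m₁'.toHolMap _ hj hi,
          jac_comp m₁.toHolMap hp _ hk hj hi]
      · have e1 : L a.castSucc = pullLB hp R₂ (L₁ a) := by simp [hL]
        rw [e1]
        refine ⟨(PB_835.PB.ref hp R₂ (L₁ a)).pullHM hp (g₁ a), fun k i y hk hi => ?_⟩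
        obtain ⟨j, hj⟩ := A₁.cover y
        rw [LiftB_522.cur_pull (PB_835.PB.ref hp R₂ (L₁ a)) hp (g₁ a) hk hj]
        show (Jp A₂ A₁ id k j y)ᵀ * cur (g₁ a) j y * (Jp A₂ A₁ id k j y).map conj = _
        rw [c₁ a j i y hj hi, jac_comp m₁.toHolMap hp _ hk hj hi]
    choose g hg using key
    exact ⟨A₂, L, g, a1, a2, a3, a4,
      ⟨⟨fun k => R₁.r (R₂.r k), fun k x hx => R₁.sub _ _ (R₂.sub k x hx)⟩⟩,
      LBih.comp m₁ m₂, LBih.comp m₂' m₁', fun a k i y hk hi => hg a k i y hk hi⟩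

end chg

/-! ### the version for a hyperkaehler triple -/

section hk

variable {d : ℕ} {X V : Type} [TopologicalSpace X] [NormedAddCommGroup V] [NormedSpace ℝ V]
  {C : RCh V X} {A A' : Atl d X}

/-- `w` is of type (1,1) for `J 0` (= 252's `T11 (ofHk H 0) w`) -/
def T0 (H : HkT C) (w : F2 C) : Prop :=
  ∀ i, ∀ z ∈ (C.e i).target, ∀ u v, w.w i z (H.J 0 i z u) (H.J 0 i z v) = w.w i z u v

theorem T0.smul {H : HkT C} {w : F2 C} (h : T0 H w) (c : ℝ) : T0 H (c • w) := by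
  intro i z hz u v
  show c * w.w i z (H.J 0 i z u) (H.J 0 i z v) = c * w.w i z u v
  rw [h i z hz]

theorem t0_om (H : HkT C) : T0 H (H.om 0) := by
  intro i z hz u v
  rw [H.om_eq 0 i z hz, H.om_eq 0 i z hz, H.g_J 0 hz]

theorem F_inv {H : HkT C} (hA : Cp (H.acm 0) A) {w : F2 C} (hw : T0 H w) (j : A.ι) (z : Cn d)
    (hz : z ∈ (A.e j).target) (u v : Cn d) :
    ((cmp_of_cp hA).F w).w j z (I • u) (I • v) = ((cmp_of_cp hA).F w).w j z u v := by
  obtain ⟨i, hi⟩ := Cmp.exists_mov (C' := ofAtl A) C (j := j) hz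
  have e : ∀ v, fderiv ℝ (HkR_835.mt C (ofAtl A) i j) z (I • v) =
      H.J 0 i (HkR_835.mt C (ofAtl A) i j z) (fderiv ℝ (HkR_835.mt C (ofAtl A) i j) z v) :=
    fun v => (hA j).lin' (i := i) hi v
  rw [(cmp_of_cp hA).F_w w hi, (cmp_of_cp hA).F_w w hi, e, e]
  exact hw i _ (Cmp.mt_mem hi).1 _ _

/-- a closed form of type (1,1) on the complex charts -/
def kOn {H : HkT C} (hA : Cp (H.acm 0) A) {w : F2 C} (hw : T0 H w) : K11 A :=
  ((cmp_of_cp hA).F w).k11 (F_inv hA hw)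

theorem kOn_f2 {H : HkT C} (hA : Cp (H.acm 0) A) {w : F2 C} (hw : T0 H w) :
    Eqv (kOn hA hw).f2 ((cmp_of_cp hA).F w) := by
  intro i z hz u v
  have h1 : (kOn hA hw).f2.w i z = ((cmp_of_cp hA).F w).w i z := F2.k11_f2 _ (F_inv hA hw) hz
  rw [h1]

theorem kOn_om {H : HkT C} (hA : Cp (H.acm 0) A) (i : A.ι) (y : X) :
    (kOn hA (t0_om H)).g i y = (met H hA).g i y := rfl

theorem kOn_smul {H : HkT C} (hA : Cp (H.acm 0) A) {w : F2 C} (hw : T0 H w) (c : ℝ) {i : A.ι}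
    {y : X} (hy : y ∈ (A.e i).source) :
    (kOn hA (hw.smul c)).g i y = (c : ℂ) • (kOn hA hw).g i y := by
  have hz := (A.e i).map_source hy
  show GB (((cmp_of_cp hA).F (c • w)).w i (A.e i y)) = _
  have e : ((cmp_of_cp hA).F (c • w)).w i (A.e i y) = c • ((cmp_of_cp hA).F w).w i (A.e i y) := by
    ext u v
    exact F_smul (cmp_of_cp hA) c w i _ hz u v
  rw [e, GB_smul]
  rfl

theorem kOn_tr {H : HkT C} (hA : Cp (H.acm 0) A) (hA' : Cp (H.acm 0) A') {w : F2 C}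
    (hw : T0 H w) {k : A'.ι} {i : A.ι} {y : X} (hk : y ∈ (A'.e k).source)
    (hi : y ∈ (A.e i).source) : (kOn hA' hw).g k y =
      (Jp A' A id k i y)ᵀ * (kOn hA hw).g i y * (Jp A' A id k i y).map conj := by
  have h : HolMap A' A id := hol_of_cp hA hA'
  set z := A'.e k y with hz
  have hzt : z ∈ (A'.e k).target := (A'.e k).map_source hk
  have hd : z ∈ dm A' A id k i := mem_dm hk hi
  have hy : (A'.e k).symm z = y := (A'.e k).left_inv hk
  have hr : Map_835.rd A' A id k i z = A.e i y := KpK_487.rd_val hk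
  have hrt : A.e i y ∈ (A.e i).target := (A.e i).map_source hi
  have f1 := fderiv_rd h hd
  rw [hy] at f1
  refine GB_of_hb fun u v => ?_
  rw [F_rd (cmp_of_cp hA) (cmp_of_cp hA') h w hd u v, hr,
    eq_hb (F_inv hA hw i _ hrt), hb_mulVec _ _ (f1 u) (f1 v)]
  rfl

theorem cls_kOn {G : AddSubgroup ℝ} {H : HkT C} (hA : Cp (H.acm 0) A) {w : F2 C} (hw : T0 H w)
    (hI : Cls G w) : Cls G ((Real.pi⁻¹ : ℝ) • (kOn hA (hw.smul Real.pi)).f2) := by
  refine Cls.eqv ((Cls.cmp_F (cmp_of_cp hA)).2 hI) fun i z hz u v => ?_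
  have e1 : ((Real.pi⁻¹ : ℝ) • (kOn hA (hw.smul Real.pi)).f2).w i z u v =
    Real.pi⁻¹ * (kOn hA (hw.smul Real.pi)).f2.w i z u v := rfl
  have e2 := F_smul (cmp_of_cp hA) Real.pi w i z hz u v
  have e3 : (Real.pi • (cmp_of_cp hA).F w).w i z u v =
    Real.pi * ((cmp_of_cp hA).F w).w i z u v := rfl
  rw [e1, kOn_f2 hA (hw.smul Real.pi) i z hz u v, e2, e3, ← mul_assoc,
    inv_mul_cancel₀ Real.pi_ne_zero, one_mul]

/-- **integral classes of type (1,1) of a hyperkaehler triple are Chern classes**, several classes,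
one atlas, subordinate to an open cover -/
theorem lb_fam_on [CompactSpace X] [T2Space X] (H : HkT C) (hA : Cp (H.acm 0) A) {r : ℕ}
    (w : Fin r → F2 C) (hw : ∀ a, T0 H (w a)) (hI : ∀ a, IntF (w a)) {κ : Type*} (O : κ → Set X)
    (hO : ∀ k, IsOpen (O k)) (hOc : ∀ x, ∃ k, x ∈ O k) :
    ∃ (A' : Atl d X) (hA' : Cp (H.acm 0) A') (L : Fin r → LB A') (h : ∀ a, HM (L a)),
      Finite A'.ι ∧ GoodA A' ∧ Nonempty (Part A') ∧ (∀ i, ∃ k, (A'.e i).source ⊆ O k) ∧
      Nonempty (Ref A' A id) ∧ LBih A' A id ∧ LBih A A' id ∧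
      ∀ a, ∀ i, ∀ y ∈ (A'.e i).source,
        cur (h a) i y = (Real.pi : ℂ) • (kOn hA' (hw a)).g i y := by
  obtain ⟨A', L, h, h1, h2, h3, h4, h5, h6, h7, h8⟩ := lefschetz_fam O hO hOc r
    (fun a => kOn hA ((hw a).smul Real.pi)) fun a => cls_kOn hA (hw a) (hI a)
  have hA' : Cp (H.acm 0) A' := cp_of_hol hA h6.toHolMap h7.toHolMap
  refine ⟨A', hA', L, h, h1, h2, h3, h4, h5, h6, h7, fun a k y hy => ?_⟩
  obtain ⟨i, hi⟩ := A.cover y
  rw [h8 a k i y hy hi, ← kOn_tr hA hA' ((hw a).smul Real.pi) hy hi, kOn_smul hA' (hw a) _ hy]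

/-- the first Chern form of a metric with curvature `π w` is `w` -/
theorem c1F_eqv {H : HkT C} (hA : Cp (H.acm 0) A) {w : F2 C} (hw : T0 H w) {L : LB A} {h : HM L}
    (hh : ∀ i, ∀ y ∈ (A.e i).source, cur h i y = (Real.pi : ℂ) • (kOn hA hw).g i y) :
    Eqv (c1F h) ((cmp_of_cp hA).F w) := by
  intro i z hz u v
  have e1 : (c1F h).w i z u v = Real.pi⁻¹ * (curK h).f2.w i z u v := rfl
  have hy := (A.e i).map_target hz
  have e2 : (curK h).g i ((A.e i).symm z) = (Real.pi : ℂ) • (kOn hA hw).g i ((A.e i).symm z) :=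
    hh i _ hy
  have e3 : hb ((Real.pi : ℂ) • (kOn hA hw).g i ((A.e i).symm z)) u v =
      (Real.pi : ℂ) * hb ((kOn hA hw).g i ((A.e i).symm z)) u v := by
    rw [← hbL_apply u v, map_smul, hbL_apply, smul_eq_mul]
  have e4 := kOn_f2 hA hw i z hz u v
  rw [K11.f2_w _ hz] at e4
  rw [e1, (curK h).f2_w hz, e2, e3, ← e4, mul_left_comm, Complex.re_ofReal_mul, ← mul_assoc,
    inv_mul_cancel₀ Real.pi_ne_zero, one_mul]

/-- **projective data at a member**: an integral multiple of the Kaehler form, further integral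
classes of type (1,1), everything on one refinement of a given atlas -/
theorem kappa_on [CompactSpace X] [T2Space X] (H : HkT C) {A₀ : Atl d X}
    (hA₀ : Cp (H.acm 0) A₀) {c : ℝ} (hc : 0 < c) (hI : IntF (c • H.om 0)) {r : ℕ}
    (w : Fin r → F2 C) (hw : ∀ a, T0 H (w a)) (hwI : ∀ a, IntF (w a)) {κ : Type*} (O : κ → Set X)
    (hO : ∀ k, IsOpen (O k)) (hOc : ∀ x, ∃ k, x ∈ O k) :
    ∃ (A : Atl d X) (hA : Cp (H.acm 0) A) (B : LB A) (hB : HM B) (L : Fin r → LB A)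
      (h : ∀ a, HM (L a)), Finite A.ι ∧ GoodA A ∧ Nonempty (Part A) ∧
      (∀ i, ∃ k, (A.e i).source ⊆ O k) ∧
      Nonempty (Ref A A₀ id) ∧ LBih A A₀ id ∧ LBih A₀ A id ∧
      (∀ i, ∀ y ∈ (A.e i).source,
        cur hB i y = ((Real.pi * c : ℝ) : ℂ) • (met H hA).g i y) ∧ hB.Pos ∧
      Eqv (c1F hB) ((cmp_of_cp hA).F (c • H.om 0)) ∧
      (∀ a, ∀ i, ∀ y ∈ (A.e i).source,
        cur (h a) i y = (Real.pi : ℂ) • (kOn hA (hw a)).g i y) ∧
      (∀ a, Eqv (c1F (h a)) ((cmp_of_cp hA).F (w a))) ∧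
      ∃ m : ℕ, 0 < m ∧ ∃ P : ProjD A, lb P = B ^ m := by
  have hpc : 0 < Real.pi * c := mul_pos Real.pi_pos hc
  set W : Fin (r + 1) → F2 C := Fin.cons (c • H.om 0) w with hW
  have hWt : ∀ a, T0 H (W a) := fun a =>
    Fin.cases (motive := fun a => T0 H (W a)) ((t0_om H).smul c) hw a
  have hWI : ∀ a, IntF (W a) := fun a =>
    Fin.cases (motive := fun a => IntF (W a)) hI hwI a
  obtain ⟨A, hA, L, h, h1, h2, ⟨PA⟩, h4, h5, h6, h7, h8⟩ := lb_fam_on H hA₀ W hWt hWI O hO hOc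
  have h9 : ∀ i, ∀ y ∈ (A.e i).source,
      cur (h 0) i y = ((Real.pi * c : ℝ) : ℂ) • (met H hA).g i y := by
    intro i y hy
    have e1 : (kOn hA (hWt 0)).g i y = (c : ℂ) • (met H hA).g i y :=
      kOn_smul hA (t0_om H) c hy
    rw [h8 0 i y hy, e1, smul_smul]
    push_cast
    rfl
  have hP : (h 0).Pos := Kah_333.pos_of_cur fun i x hx => by
    rw [h9 i x hx]
    exact ((met H hA).pos i x hx).smul (by exact_mod_cast hpc)
  exact ⟨A, hA, L 0, h 0, fun a => L a.succ, fun a => h a.succ, h1, h2, ⟨PA⟩, h4, h5, h6, h7, h9,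
    hP, c1F_eqv hA (hWt 0) fun i y hy => h8 0 i y hy, fun a i y hy => h8 a.succ i y hy,
    fun a => c1F_eqv hA (hw a) fun i y hy => h8 a.succ i y hy,
    Crest.Agent.R272.Kod8_410.exists_projD PA hP⟩

/-- the same without a given atlas -/
theorem kappa_data [FiniteDimensional ℝ V] [CompactSpace X] [T2Space X] (hNN : NNat V d)
    (H : HkT C) {c : ℝ} (hc : 0 < c) (hI : IntF (c • H.om 0)) {r : ℕ} (w : Fin r → F2 C)
    (hw : ∀ a, T0 H (w a)) (hwI : ∀ a, IntF (w a)) {κ : Type*} (O : κ → Set X)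
    (hO : ∀ k, IsOpen (O k)) (hOc : ∀ x, ∃ k, x ∈ O k) :
    ∃ (A : Atl d X) (hA : Cp (H.acm 0) A) (B : LB A) (hB : HM B) (L : Fin r → LB A)
      (h : ∀ a, HM (L a)), Finite A.ι ∧ GoodA A ∧ Nonempty (Part A) ∧
      (∀ i, ∃ k, (A.e i).source ⊆ O k) ∧
      (∀ i, ∀ y ∈ (A.e i).source,
        cur hB i y = ((Real.pi * c : ℝ) : ℂ) • (met H hA).g i y) ∧ hB.Pos ∧
      Eqv (c1F hB) ((cmp_of_cp hA).F (c • H.om 0)) ∧
      (∀ a, ∀ i, ∀ y ∈ (A.e i).source,
        cur (h a) i y = (Real.pi : ℂ) • (kOn hA (hw a)).g i y) ∧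
      (∀ a, Eqv (c1F (h a)) ((cmp_of_cp hA).F (w a))) ∧
      ∃ m : ℕ, 0 < m ∧ ∃ P : ProjD A, lb P = B ^ m := by
  obtain ⟨A0, -, -, -, -, -, h0⟩ := exists_rot hNN H
  obtain ⟨A, hA, B, hB, L, h, h1, h2, h3, h4, -, -, -, h8⟩ := kappa_on H h0 hc hI w hw hwI O hO hOc
  exact ⟨A, hA, B, hB, L, h, h1, h2, h3, h4, h8⟩

end hk

end

end Crest.Agent.R281.Pjx_648
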