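import Crest.Agent.R281.Rkd4_386
import Crest.Agent.R281.Pjx4_648
import Crest.Agent.R281.Kd6_22
import Crest.Agent.R281.Sc3_413

/-!
# R281 (S0424), RANK281, lower end (helper386), part 5: global generation is transferred

* `cur_tr_F`    : the curvature form of a pulled back metric is the transported form
* `gg_of_coh`   : line bundles on two holomorphic atlases of the same structure, cohomologous
                  curvatures: global generation is the same
* `gg_dic`      : the same for the bundle of every dictionary of `(L0.pow m).add a`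
* `gg_transfer` : `p : Pres n H L0`, `GG (p.L ^ m)` ==> for every `a` with curvature of type (1,1)
                  the `J 0`-holomorphic sections of `(L0.pow m).add a` have no common zero
-/

set_option autoImplicit false
set_option linter.unusedSectionVars false
set_option maxSynthPendingDepth 3

open Set Filter Topology Complex
open scoped ContDiff Matrix

namespace Crest.Agent.R281.Rkd_386

open Crest.Agent.R275.Geo Crest.Agent.R275.Core144 Crest.Agent.R275.GC293
open Crest.Agent.R275.EDR890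
open Crest.Agent.R273
open Crest.Agent.R273.Defs_333 Crest.Agent.R273.Kah_333
open Crest.Agent.R273.Hess_333 Crest.Agent.R273.HessB_333
open Crest.Agent.R273.Map_835 (HolMap dm Jp mem_dm holMap_id Jp_comp)
open Crest.Agent.R273.PB_835
open Crest.Agent.R260.ACM_580 Crest.Agent.R260.NNB_580
open Crest.Agent.R281.HkR_835 Crest.Agent.R281.Ti_846 Crest.Agent.R281.NefO_476
open Crest.Agent.R281.Nef_252 Crest.Agent.R281.PL_713 Crest.Agent.R281.Dif_268
open Crest.Agent.R281.Alg_998 Crest.Agent.R281.RkD_902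
open Crest.Agent.R281.Pjx_648 Crest.Agent.R281.Kd_22

noncomputable section

variable {X V : Type} [TopologicalSpace X] [NormedAddCommGroup V] [NormedSpace ℝ V]
  {C : RCh V X} {d : ℕ} {A A' : Atl d X}

/-- the curvature form of a pulled back metric, in terms of a form on the real atlas -/
theorem cur_tr_F {H : HkT C} (hA : Cp (H.acm 0) A) (hA' : Cp (H.acm 0) A') {w : F2 C}
    {L : LB A} {h : HM L} {L' : LB A'} (T : PB id L' L) (hid : HolMap A' A id) {c : ℝ}
    (hw : Eqv ((cmp_of_cp hA).F w) (c • (curK h).f2)) :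
    Eqv ((cmp_of_cp hA').F w) (c • (curK (T.pullHM hid h)).f2) := by
  intro k z hz u v
  obtain ⟨i, hi⟩ := A.cover ((A'.e k).symm z)
  set y := (A'.e k).symm z with hy
  have hk : y ∈ (A'.e k).source := (A'.e k).map_target hz
  have hzy : A'.e k y = z := (A'.e k).right_inv hz
  have hd : z ∈ dm A' A id k i := ⟨hz, hi⟩
  have hr : Map_835.rd A' A id k i z = A.e i y := rfl
  have hrt : A.e i y ∈ (A.e i).target := (A.e i).map_source hi
  have f1 := Cdr_234.fderiv_rd hid hd
  have e1 : (c • (curK (T.pullHM hid h)).f2).w k z u v =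
    c * (curK (T.pullHM hid h)).f2.w k z u v := rfl
  have e2 : (c • (curK h).f2).w i (A.e i y)
      (fderiv ℝ (Map_835.rd A' A id k i) z u) (fderiv ℝ (Map_835.rd A' A id k i) z v) =
    c * (curK h).f2.w i (A.e i y)
      (fderiv ℝ (Map_835.rd A' A id k i) z u) (fderiv ℝ (Map_835.rd A' A id k i) z v) := rfl
  rw [F_rd (cmp_of_cp hA) (cmp_of_cp hA') hid w hd u v, hr, hw i _ hrt, e1, e2]
  congr 1
  have e3 : (curK h).g = cur h := rfl
  have e4 : (curK (T.pullHM hid h)).g = cur (T.pullHM hid h) := rfl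
  rw [(curK h).f2_w hrt, (curK (T.pullHM hid h)).f2_w hz, e3, e4,
    (A.e i).left_inv hi, ← hy, LiftB_522.cur_pull T hid h hk hi,
    hb_mulVec _ _ (f1 u) (f1 v)]
  rfl

/-- curvature of a power -/
theorem cur_pow_F {H : HkT C} (hA : Cp (H.acm 0) A) {w : F2 C} {L : LB A} {h : HM L} {c : ℝ}
    (hw : Eqv ((cmp_of_cp hA).F w) (c • (curK h).f2)) (m : ℕ) :
    Eqv ((cmp_of_cp hA).F ((m : ℝ) • w)) (c • (curK (HM_333.pow h m)).f2) := by
  intro k z hz u v
  have e1 : (c • (curK (HM_333.pow h m)).f2).w k z u v = c * (curK (HM_333.pow h m)).f2.w k z u v := rfl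
  have e2 : (c • (curK h).f2).w k z u v = c * (curK h).f2.w k z u v := rfl
  have e3 := HkR_835.F_smul (cmp_of_cp hA) (m : ℝ) w k z hz u v
  have e4 : ((m : ℝ) • (cmp_of_cp hA).F w).w k z u v = (m : ℝ) * ((cmp_of_cp hA).F w).w k z u v :=
    rfl
  rw [e3, e4, hw k z hz u v, e1, e2, (curK h).f2_w hz, (curK (HM_333.pow h m)).f2_w hz]
  have e5 : (curK (HM_333.pow h m)).g k ((A.e k).symm z) = (m : ℂ) • (curK h).g k ((A.e k).symm z) :=
    cur_pow h m k ((A.e k).map_target hz)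
  have e6 : hb ((m : ℂ) • (curK h).g k ((A.e k).symm z)) u v =
      (m : ℂ) * hb ((curK h).g k ((A.e k).symm z)) u v := by
    rw [← hbL_apply u v, map_smul, hbL_apply, smul_eq_mul]
  have e7 : (curK (HM_333.pow h m)).g k ((A.e k).symm z) =
      (m : ℂ) • (curK h).g k ((A.e k).symm z) := e5
  rw [e7, e6]
  simp only [mul_re, mul_im, I_re, I_im, natCast_re, natCast_im]
  ring

/-- global generation under refinement -/
theorem gg_pull {L : LB A} {L' : LB A'} (T : PB id L' L) (hid : HolMap A' A id) (h : GG L) :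
    GG L' := by
  intro x
  obtain ⟨s, hs, i, hx, h0⟩ := h x
  obtain ⟨k, hk⟩ := A'.cover x
  refine ⟨T.pull s, T.pull_isHS hid isOpen_univ hs, k, hk, ?_⟩
  rw [T.pull_eq hk (j := i) hx hs (mem_univ _)]
  exact mul_ne_zero (T.ne k i x hk hx) h0

theorem gg_un (hid : HolMap A' A id) (hid' : HolMap A A' id) {R : Ref A' A id} {L : LB A}
    (h : GG (pullLB hid R L)) : GG L := by
  intro x
  obtain ⟨s, hs, k, hk, h0⟩ := h x
  obtain ⟨i, hi⟩ := A.cover x
  exact ⟨unS R L s, isHS_unS hid' hs, i, hi, unS_ne hs hi hk h0⟩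

theorem gg_triv {L L' : LB A} (h : Sc_413.Triv (L' * L⁻¹)) (hg : GG L') : GG L := by
  obtain ⟨u, h0, -, -, h2⟩ := h.iso
  intro x
  obtain ⟨s, hs, i, hi, h3⟩ := hg x
  exact ⟨u⁻¹ * s, h2 _ s hs, i, hi, mul_ne_zero (inv_ne_zero (h0 i x hi)) h3⟩

/-- cohomologous curvatures in terms of forms on the real atlas -/
theorem ex_cur {H : HkT C} (hA : Cp (H.acm 0) A) {w w' : F2 C} {L L' : LB A} {h : HM L}
    {h' : HM L'} (hw : Eqv ((cmp_of_cp hA).F w) ((-2 : ℝ) • (curK h).f2))
    (hw' : Eqv ((cmp_of_cp hA).F w') ((-2 : ℝ) • (curK h').f2)) (he : Ex (w - w')) :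
    Ex ((curK h).f2 - (curK h').f2) := by
  have e1 : Ex ((-(1 / 2 : ℝ)) • (cmp_of_cp hA).F (w - w')) :=
    Cdr_234.Ex.smul _ (HkR_835.ex_F (cmp_of_cp hA) he)
  refine Sc_413.ex_congr e1 fun k z hz u v => ?_
  have e2 := HkR_835.F_sub (cmp_of_cp hA) w w' k z hz u v
  have e3 : ((-(1 / 2 : ℝ)) • (cmp_of_cp hA).F (w - w')).w k z u v =
    (-(1 / 2 : ℝ)) * ((cmp_of_cp hA).F (w - w')).w k z u v := rfl
  have e4 : ((cmp_of_cp hA).F w - (cmp_of_cp hA).F w').w k z u v =
    ((cmp_of_cp hA).F w).w k z u v - ((cmp_of_cp hA).F w').w k z u v := rfl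
  have e5 := hw k z hz u v
  have e6 := hw' k z hz u v
  rw [e3, e2, e4, e5, e6]
  show (-(1 / 2 : ℝ)) * ((-2) * (curK h).f2.w k z u v - (-2) * (curK h').f2.w k z u v) =
    (curK h).f2.w k z u v - (curK h').f2.w k z u v
  ring

/-- **line bundles on two atlases with cohomologous curvature**: global generation -/
theorem gg_of_coh [CompactSpace X] [T2Space X] [SimplyConnectedSpace X] {H : HkT C}
    (hA : Cp (H.acm 0) A) (hA' : Cp (H.acm 0) A') {w w' : F2 C} {L : LB A} {h : HM L}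
    {L' : LB A'} {h' : HM L'} (hw : Eqv ((cmp_of_cp hA).F w) ((-2 : ℝ) • (curK h).f2))
    (hw' : Eqv ((cmp_of_cp hA').F w') ((-2 : ℝ) • (curK h').f2)) (he : Ex (w - w'))
    (hg : GG L) : GG L' := by
  obtain ⟨A₁, hfin, hgood, ⟨P⟩, hsub, ⟨R'⟩, h1, h2⟩ := Fam_835.exists_refine A'
    (fun i => (A.e i).source) (fun i => (A.e i).open_source) A.cover
  choose r hr using hsub
  have R : Ref A₁ A id := ⟨r, hr⟩
  have hA₁ : Cp (H.acm 0) A₁ := cp_of_hol hA' h1.toHolMap h2.toHolMap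
  have hid : HolMap A₁ A id := hol_of_cp hA hA₁
  have c1 := cur_tr_F hA hA₁ (PB.ref hid R L) hid hw
  have c2 := cur_tr_F hA' hA₁ (PB.ref h1.toHolMap R' L') h1.toHolMap hw'
  have ht := Sc_413.triv_of_coh hgood P (met H hA₁) _ _ (ex_cur hA₁ c1 c2 he)
  exact gg_un h1.toHolMap h2.toHolMap (gg_triv ht (gg_pull (PB.ref hid R L) hid hg))

/-- the curvature of a dictionary bundle -/
theorem dic_cur {n : ℕ} {A : Atl n X} {H : HkT C} (hA : Cp (H.acm 0) A) {L : PL C}
    (D : Dic C (H.J 0) L A) : Eqv ((cmp_of_cp hA).F L.F) ((-2 : ℝ) • (curK D.hm).f2) := by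
  intro j z hz u v
  have hm := D.hκ.mem hz
  have h1 := (cmp_of_cp hA).F_w L.F hm u v
  have hx : (A.e j).symm z ∈ (A.e j).source := (A.e j).map_target hz
  have h2 := D.cur_eq hx u v
  have hz' : A.e j ((A.e j).symm z) = z := (A.e j).right_inv hz
  rw [hz'] at h2
  have h3 : ((-2 : ℝ) • (curK D.hm).f2).w j z u v = -2 * (curK D.hm).f2.w j z u v := rfl
  rw [h1, h3, K11.f2_w _ hz]
  exact h2.symm

/-- the curvatures of a presentation and of another connection are cohomologous -/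
theorem pres_ex [FiniteDimensional ℝ V] {n : ℕ} {H : HkT C} {L0 : PL C} (p : Pres n H L0) (m : ℕ)
    (a : F1 C) : Ex ((m : ℝ) • (L0.add p.a).F - ((L0.pow m).add a).F) := by
  let _ : MeasurableSpace V := borel V
  have : BorelSpace V := ⟨rfl⟩
  refine ⟨dif ((m : ℝ) • p.a) a, fun i z hz u v => ?_⟩
  have e1 : ((m : ℝ) • (L0.add p.a).F - ((L0.pow m).add a).F).w i z u v =
    (m : ℝ) * (L0.add p.a).F.w i z u v - ((L0.pow m).add a).F.w i z u v := rfl
  have e2 : ((m : ℝ) • p.a).d.w i z u v = (m : ℝ) * p.a.d.w i z u v := by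
    have h : fderiv ℝ (((m : ℝ) • p.a).η i) z = (m : ℝ) • fderiv ℝ (p.a.η i) z :=
      ((p.a.diffAt hz).hasFDerivAt.const_smul (m : ℝ)).fderiv
    simp only [F1.d_w, h, smul_apply, smul_eq_mul]
    ring
  have e3 : (dif ((m : ℝ) • p.a) a).d.w i z u v =
      ((m : ℝ) • p.a).d.w i z u v - a.d.w i z u v := by
    simp only [F1.d_w, dif_fderiv _ _ hz, sub_apply]
    ring
  have e4 : (dif ((m : ℝ) • p.a) a).d.w i z u v =
    fderiv ℝ ((dif ((m : ℝ) • p.a) a).η i) z u v -
      fderiv ℝ ((dif ((m : ℝ) • p.a) a).η i) z v u := rfl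
  rw [← e4, e3, e2, e1, PL.add_F _ _ hz, PL.add_F _ _ hz, PL.pow_F _ _ hz]
  ring

/-- **GG for every dictionary bundle of a connection of type (1,1)** -/
theorem gg_dic [FiniteDimensional ℝ V] [CompactSpace X] [T2Space X] [SimplyConnectedSpace X]
    {n : ℕ} {H : HkT C} {L0 : PL C} (p : Pres n H L0) {m : ℕ} (hg : GG (p.L ^ m)) {a : F1 C}
    {A' : Atl (2 * n) X} (D : Dic C (H.J 0) ((L0.pow m).add a) A') : GG D.lb :=
  gg_of_coh p.cp (cp_of_jc D.jc) (cur_pow_F p.cp p.cur m) (dic_cur (cp_of_jc D.jc) D)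
    (pres_ex p m a) hg

/-- **GG is transferred to every connection of type (1,1)** -/
theorem gg_transfer [FiniteDimensional ℝ V] [CompactSpace X] [T2Space X] [SimplyConnectedSpace X]
    {n : ℕ} {H : HkT C} {L0 : PL C} (p : Pres n H L0) {m : ℕ} (hg : GG (p.L ^ m)) {a : F1 C}
    (ha : T11 (ofHk H 0) ((L0.pow m).add a).F) (x : X) :
    ∃ s ∈ ((L0.pow m).add a).H0 (ofHk H 0).J, ∃ i, x ∈ (C.e i).source ∧
      s.u i (C.e i x) ≠ 0 := by
  obtain ⟨A', -, -, -, -, -, ⟨D⟩⟩ := exists_dic (JC.of_cp p.cp) (L := (L0.pow m).add a) ha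
  obtain ⟨s, hs, k, hk, h0⟩ := gg_dic p hg D x
  have h1 := D.iso_apply (D.iso.symm ⟨s, hs⟩) hk
  rw [LinearEquiv.apply_symm_apply] at h1
  refine ⟨(D.iso.symm ⟨s, hs⟩).1, (D.iso.symm ⟨s, hs⟩).2, D.κ k, D.hκ k hk, fun h2 => h0 ?_⟩
  rw [h2, zero_mul] at h1
  exact h1

end

end Crest.Agent.R281.Rkd_386
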