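import Crest.Agent.R281.OpF4_330
import Crest.Agent.R281.Rkd5_386

/-!
# Row 281, OPEN-FIB (helper330), file 5: the literal form for the node `OpenP`

* `q_dic`      : the curvature form of `(L0.pow m).add a` is orthogonal to `e`
* `fibver_dic` : `fibver` for the bundle of a dictionary of `(L0.pow m).add a`
-/

set_option autoImplicit false
set_option linter.unusedSectionVars false
set_option maxSynthPendingDepth 3

open Set Filter Topology Complex Matrix MeasureTheory Module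
open scoped ContDiff Matrix ComplexConjugate ComplexOrder

namespace Crest.Agent.R281.OpT_330

open Crest.Agent.R273 Crest.Agent.R275 Crest.Agent.R275.Geo Crest.Agent.R275.Core144
open Crest.Agent.R273.Defs_333 Crest.Agent.R273.HM_333 Crest.Agent.R273.Kah_333
open Crest.Agent.R273.Vol_333
open Crest.Agent.R281.OpB_849 (GG)
open Crest.Agent.R281.HkR_835 Crest.Agent.R281.Ti_846 Crest.Agent.R281.PL_713
open Crest.Agent.R281.Nef_252 Crest.Agent.R281.Alg_998
open Crest.Agent.R281.Dif_268 (Eqv)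
open Crest.Agent.R281.Tub_831
open Crest.Agent.R281.RkD_902 (Ctx Given)

noncomputable section

variable {X : Type} [TopologicalSpace X] {n : ℕ} {C : RCh (Cn (2 * n)) X}
  {Q : F2 C →ₗ[ℝ] F2 C →ₗ[ℝ] ℝ} {e : F2 C} {H : HkT C} {L0 : PL C}

/-- the curvature form is orthogonal to `e` -/
theorem q_dic [CompactSpace X] (hc : Ctx n C Q) (hg : Given Q H L0 e) (m : ℕ) (a : F1 C) :
    Q ((L0.pow m).add a).F e = 0 := by
  -- the form is cohomologous to `m L0.F`
  have h1 : Ex (((L0.pow m).add a).F - (m : ℝ) • L0.F) := by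
    refine ⟨a, fun i z hz u v => ?_⟩
    have e1 : (((L0.pow m).add a).F - (m : ℝ) • L0.F).w i z u v =
      ((L0.pow m).add a).F.w i z u v - (m : ℝ) * L0.F.w i z u v := rfl
    rw [e1, PL.add_F _ _ hz, PL.pow_F _ _ hz]
    simp only [F1.d_w]
    ring
  have h2 := hc.ex _ e h1
  have h3 := hc.ex _ e hg.lnk
  rw [map_sub, LinearMap.sub_apply, map_smul, LinearMap.smul_apply, smul_eq_mul] at h2 h3
  rw [hg.ee, mul_zero, sub_zero] at h3
  rw [h3, mul_zero, sub_zero] at h2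
  exact h2

/-- **OPEN-FIB for the bundle of a dictionary** -/
theorem fibver_dic [CompactSpace X] [PreconnectedSpace X] (hc : Ctx n C Q) (hg : Given Q H L0 e)
    {D : Set (Cn n)} {Ψ : Cn n × Cn n → X} {l : Fin (2 * n) → Cn n → Cn n}
    {τ : Cn n → Cn n → Cn n → ℂ}
    (t : HolTube C (H.J 0) (H.om 1) (H.om 2) n D Ψ l τ) (hpv : PVT Q e D Ψ l)
    {m : ℕ} {a : F1 C} {A' : Atl (2 * n) X} (Dc : Dic C (H.J 0) ((L0.pow m).add a) A')
    {c : ℕ} (G : GG Dc.lb c) (hsp : Span G)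
    (hrk : ∃ u : Fin (n + 1) → A'.ι → X → ℂ, (∀ j, IsHS Dc.lb univ (u j)) ∧
      ∃ i x, Rk_599.Rk A' u i x) :
    ∃ V₀ : Set X, IsOpen V₀ ∧ V₀.Nonempty ∧ ∀ x ∈ V₀, ∃ y ∈ D, ∃ z, Ψ (y, z) = x ∧
      ∀ T : (Fin (2 * n) → ℝ) ≃L[ℝ] Cn n, (∀ s, T s = ∑ k, s k • l k y) →
        HTor A' T (fun s => Ψ (y, T s)) ∧ Fib G.s (fun s => Ψ (y, T s)) ∧
          Ver G.s T (fun s => Ψ (y, T s)) := by
  obtain ⟨u, hu, i, x, hx⟩ := hrk
  exact fibver (two_mul n) t Dc.jc Dc.hm (κ := -2) (by norm_num)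
    (Rkd_386.dic_cur (Rkd_386.cp_of_jc Dc.jc) Dc)
    (fun y hy x j k => hpv _ (q_dic hc hg m a) y hy x j k) G hsp hu hx

end

end Crest.Agent.R281.OpT_330
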