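import Crest.Agent.R281.PL6_713

/-!
# R281 (S0424), OPEN' (helper941), M7a part 1: moving data read in other charts

`D : Dic C J1 L1 A` (713) is the dictionary at the centre.  A field of endomorphisms `J` on `C` and
line bundles `L` (with the same transition functions) are read in the charts of `A`:

* `pJ C C' κ J`      : the field `J` read in the charts of `C'`
* `pJ_jc`, `pJ_F11`  : `JC C J A' → JC (ofAtl A) (pJ ..) A'`, type (1,1) of the curvature
* `pJ_sm`, `thc_jsm` : joint smoothness in parameters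
* `csec`             : sections of bundles with the same transition functions
-/

set_option autoImplicit false
set_option linter.unusedSectionVars false
set_option maxSynthPendingDepth 3

open Set Filter Topology Complex
open scoped ContDiff ComplexConjugate

namespace Crest.Agent.R281.OpG_941

open Crest.Agent.R281.HkR_835 Crest.Agent.R281.Ti_846 Crest.Agent.R281.PL_713
open Crest.Agent.R275.Geo

noncomputable section

section pull

variable {V V' X : Type} [NormedAddCommGroup V] [NormedSpace ℝ V] [NormedAddCommGroup V']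
  [NormedSpace ℝ V'] [TopologicalSpace X] {C : RCh V X} {C' : RCh V' X} {κ : C'.ι → C.ι}

/-- a field of endomorphisms on `C` read in the charts of `C'` -/
def pJ (C : RCh V X) (C' : RCh V' X) (κ : C'.ι → C.ι) (J : C.ι → V → V →L[ℝ] V) (a : C'.ι)
    (z : V') : V' →L[ℝ] V' :=
  (fderiv ℝ (mt C' C a (κ a)) (mt C C' (κ a) a z)).comp
    ((J (κ a) (mt C C' (κ a) a z)).comp (fderiv ℝ (mt C C' (κ a) a) z))

theorem pJ_apply (J : C.ι → V → V →L[ℝ] V) (a : C'.ι) (z v : V') : pJ C C' κ J a z v =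
    fderiv ℝ (mt C' C a (κ a)) (mt C C' (κ a) a z)
      (J (κ a) (mt C C' (κ a) a z) (fderiv ℝ (mt C C' (κ a) a) z v)) := rfl

/-- the defining property -/
theorem pJ_d (h : Cmp C C') (hκ : Sub C C' κ) (J : C.ι → V → V →L[ℝ] V) {a : C'.ι} {z : V'}
    (hz : z ∈ (C'.e a).target) (v : V') :
    fderiv ℝ (mt C C' (κ a) a) z (pJ C C' κ J a z v) =
      J (κ a) (mt C C' (κ a) a z) (fderiv ℝ (mt C C' (κ a) a) z v) :=
  h.d_d' (hκ.mem hz) _

theorem pJ_sq (h : Cmp C C') (hκ : Sub C C' κ) {J : C.ι → V → V →L[ℝ] V}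
    (hJ : ∀ i, ∀ z ∈ (C.e i).target, ∀ v, J i z (J i z v) = -v) {a : C'.ι} {z : V'}
    (hz : z ∈ (C'.e a).target) (v : V') :
    pJ C C' κ J a z (pJ C C' κ J a z v) = -v := by
  refine h.inj (hκ.mem hz) ?_
  rw [pJ_d h hκ J hz, pJ_d h hκ J hz, hJ _ _ (Cmp.mt_mem (hκ.mem hz)).1, map_neg]

/-- type (1,1) -/
theorem pJ_F11 (h : Cmp C C') (hκ : Sub C C' κ) {J : C.ι → V → V →L[ℝ] V} {L : PL C}
    (hF : F11 J L) : F11 (pJ C C' κ J) (L.chg h κ hκ) := by
  intro a z hz u v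
  rw [PL.chg_F h κ hκ L hz, PL.chg_F h κ hκ L hz, pJ_d h hκ J hz, pJ_d h hκ J hz]
  exact hF _ _ (Cmp.mt_mem (hκ.mem hz)).1 _ _

/-- on the target the field is independent of the choice of the chart of `C` -/
theorem pJ_eq_of (h : Cmp C C') (hκ : Sub C C' κ) {J : C.ι → V → V →L[ℝ] V} {a : C'.ι} {z : V'}
    (hz : z ∈ (C'.e a).target) {T : V' →L[ℝ] V'}
    (hT : ∀ v, fderiv ℝ (mt C C' (κ a) a) z (T v) =
      J (κ a) (mt C C' (κ a) a z) (fderiv ℝ (mt C C' (κ a) a) z v)) :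
    pJ C C' κ J a z = T := by
  ext v
  refine h.inj (hκ.mem hz) ?_
  rw [pJ_d h hκ J hz, hT]

variable {E : Type*} [NormedAddCommGroup E] [NormedSpace ℝ E] {O : Set E}

/-- joint smoothness of the pulled back fields -/
theorem pJ_sm (h : Cmp C C') (hκ : Sub C C' κ) {J : E → C.ι → V → V →L[ℝ] V}
    (hJ : ∀ i, ContDiffOn ℝ ∞ (fun q : E × V => J q.1 i q.2) (O ×ˢ (C.e i).target)) (a : C'.ι) :
    ContDiffOn ℝ ∞ (fun q : E × V' => pJ C C' κ (J q.1) a q.2) (O ×ˢ (C'.e a).target) := by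
  have hm : MapsTo (fun q : E × V' => q.2) (O ×ˢ (C'.e a).target) (mov C C' (κ a) a) :=
    fun q hq => hκ.mem hq.2
  have h2 : ContDiffOn ℝ ∞ (fun q : E × V' => q.2) (O ×ˢ (C'.e a).target) :=
    contDiff_snd.contDiffOn
  have hmt : ContDiffOn ℝ ∞ (fun q : E × V' => mt C C' (κ a) a q.2) (O ×ˢ (C'.e a).target) :=
    (h.s (κ a) a).comp h2 hm
  have hd : ContDiffOn ℝ ∞ (fun q : E × V' => fderiv ℝ (mt C C' (κ a) a) q.2)
      (O ×ˢ (C'.e a).target) :=
    ((h.s (κ a) a).fderiv_of_isOpen (Cmp.isOpen_mov C C' (κ a) a) (m := ∞) (by simp)).comp h2 hm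
  have hd' : ContDiffOn ℝ ∞ (fun q : E × V' =>
      fderiv ℝ (mt C' C a (κ a)) (mt C C' (κ a) a q.2)) (O ×ˢ (C'.e a).target) :=
    ((h.s' (κ a) a).fderiv_of_isOpen (Cmp.isOpen_mov C' C a (κ a)) (m := ∞) (by simp)).comp hmt
      fun q hq => Cmp.mt_mem (hm hq)
  have hJ' : ContDiffOn ℝ ∞ (fun q : E × V' => J q.1 (κ a) (mt C C' (κ a) a q.2))
      (O ×ˢ (C'.e a).target) :=
    (hJ (κ a)).comp (contDiff_fst.contDiffOn.prodMk hmt)
      fun q hq => ⟨hq.1, (Cmp.mt_mem (hm hq)).1⟩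
  exact hd'.clm_comp (hJ'.clm_comp hd)

/-- joint smoothness of the connection forms -/
theorem thc_jsm (h : Cmp C C') (hκ : Sub C C' κ) {L : E → PL C}
    (hL : ∀ i, ContDiffOn ℝ ∞ (fun q : E × V => (L q.1).th i q.2) (O ×ˢ (C.e i).target))
    (a : C'.ι) :
    ContDiffOn ℝ ∞ (fun q : E × V' => ((L q.1).chg h κ hκ).th a q.2)
      (O ×ˢ (C'.e a).target) := by
  have hm : MapsTo (fun q : E × V' => q.2) (O ×ˢ (C'.e a).target) (mov C C' (κ a) a) :=
    fun q hq => hκ.mem hq.2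
  have h2 : ContDiffOn ℝ ∞ (fun q : E × V' => q.2) (O ×ˢ (C'.e a).target) :=
    contDiff_snd.contDiffOn
  have hmt : ContDiffOn ℝ ∞ (fun q : E × V' => mt C C' (κ a) a q.2) (O ×ˢ (C'.e a).target) :=
    (h.s (κ a) a).comp h2 hm
  have hd : ContDiffOn ℝ ∞ (fun q : E × V' => fderiv ℝ (mt C C' (κ a) a) q.2)
      (O ×ˢ (C'.e a).target) :=
    ((h.s (κ a) a).fderiv_of_isOpen (Cmp.isOpen_mov C C' (κ a) a) (m := ∞) (by simp)).comp h2 hm
  have hL' : ContDiffOn ℝ ∞ (fun q : E × V' => (L q.1).th (κ a) (mt C C' (κ a) a q.2))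
      (O ×ˢ (C'.e a).target) :=
    (hL (κ a)).comp (contDiff_fst.contDiffOn.prodMk hmt)
      fun q hq => ⟨hq.1, (Cmp.mt_mem (hm hq)).1⟩
  exact hL'.clm_comp hd

end pull

section sec

variable {V X : Type} [NormedAddCommGroup V] [NormedSpace ℝ V] [TopologicalSpace X] {C : RCh V X}
  {L L' : PL C}

/-- sections depend on the transition functions only -/
def csec (hg : L'.g = L.g) : Sec L' ≃ₗ[ℂ] Sec L where
  toFun s := ⟨s.u, s.sm, fun i j z hz => by rw [s.tr i j z hz, hg], s.off⟩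
  invFun s := ⟨s.u, s.sm, fun i j z hz => by rw [s.tr i j z hz, hg], s.off⟩
  map_add' _ _ := rfl
  map_smul' _ _ := rfl
  left_inv _ := rfl
  right_inv _ := rfl

@[simp] theorem csec_u (hg : L'.g = L.g) (s : Sec L') : (csec hg s).u = s.u := rfl
@[simp] theorem csec_symm_u (hg : L'.g = L.g) (s : Sec L) : ((csec hg).symm s).u = s.u := rfl

end sec

section jc

variable {V X : Type} [NormedAddCommGroup V] [NormedSpace ℝ V] [TopologicalSpace X] {C : RCh V X}
  {n : ℕ} {A A' : Atl n X} {κ : A.ι → C.ι} {J : C.ι → V → V →L[ℝ] V}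

/-- the field read in the charts of `A` has the same holomorphic atlases -/
theorem pJ_jc (h : Cmp C (ofAtl A)) (hκ : Sub C (ofAtl A) κ) (hJ : JC C J A') :
    JC (ofAtl A) (pJ C (ofAtl A) κ J) A' where
  cmp := Cmp_trans h.symm hJ.cmp
  lin i a z hz v := by
    -- `z ∈ A'.e a`, `i : A.ι`
    have hc : Cmp (ofAtl A) (ofAtl A') := Cmp_trans h.symm hJ.cmp
    have hzi : mt (ofAtl A) (ofAtl A') i a z ∈ ((ofAtl A).e i).target := (Cmp.mt_mem hz).1
    have hm := hκ.mem hzi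
    have hz2 : z ∈ mov C (ofAtl A') (κ i) a := by
      refine ⟨hz.1, ?_⟩
      exact hκ i hz.2
    refine h.inj hm ?_
    rw [pJ_d h hκ J hzi, dmt_comp h hc hz hz2 (I • v), dmt_comp h hc hz hz2 v,
      mt_comp hz, hJ.lin _ _ _ hz2]

/-- at the centre the field is multiplication by `i` -/
theorem pJ_center (hJ : JC C J A) (hκ : Sub C (ofAtl A) κ) {a : A.ι} {z : Cn n}
    (hz : z ∈ (A.e a).target) (v : Cn n) : pJ C (ofAtl A) κ J a z v = I • v := by
  refine hJ.cmp.inj (hκ.mem hz) ?_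
  rw [pJ_d hJ.cmp hκ J hz, hJ.lin _ _ _ (hκ.mem hz)]

end jc

end

end Crest.Agent.R281.OpG_941
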