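import Crest.Agent.R281.OpG1_941
import Crest.Agent.R281.OpD6_569
import Crest.Agent.R281.OpC5_920

/-!
# R281 (S0424), OPEN' (helper941), M7a part 2: holomorphic sections and the moving operator

* `sol_db`  : `exp h · db_J s = ∑ w_k (E_k f + c_k f)`, `f = s exp h`
* `bel_mem` : `s ∈ L'.H0 J ↔ (bel P ..).D (P.toB (csec hg s)) = 0`
-/

set_option autoImplicit false
set_option linter.unusedSectionVars false
set_option maxSynthPendingDepth 3

open Set Filter Topology Complex
open scoped ContDiff ComplexConjugate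

namespace Crest.Agent.R281.OpG_941

open Crest.Agent.R281.HkR_835 Crest.Agent.R281.Ti_846 Crest.Agent.R281.PL_713
open Crest.Agent.R275.Geo Crest.Agent.R275.Core144 Crest.Agent.R275.EDR890
open Crest.Agent.R281.OpD_569 Crest.Agent.R281.OpC_920
open Crest.Agent.R273.LamN127 (BN)
open Crest.Agent.R281.OpI_450 (SecQ HolB)

noncomputable section

variable {n : ℕ} {M : Type} [TopologicalSpace M] {A : Atl n M} {L L' : PL (ofAtl A)} (P : Pot L)

theorem toB_SecQ (s : Sec L) : P.toB s ∈ SecQ (BN P.lb) 0 := P.pqL_toB s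

theorem toB_i0 (s : Sec L) {i : A.ι} {x : M} (hx : x ∈ (A.e i).source) :
    (P.toB s).1 i x (i0 P.lb) = P.sx s i x := P.sOf_toB s hx

/-- the derivative of a section of `L'` read in the frames of `P.lb` -/
theorem d_read (s : Sec L') {i : A.ι} {z : Cn n} (hz : z ∈ (A.e i).target) (v : Cn n) :
    fderiv ℝ (fun y => s.u i y * exp (P.h i y)) z v =
      exp (P.h i z) * (fderiv ℝ (s.u i) z v + s.u i z * fderiv ℝ (P.h i) z v) := by
  have h1 : HasFDerivAt (fun y => s.u i y * exp (P.h i y)) _ z :=
    (s.diffAt (L := L') hz).hasFDerivAt.mul (P.diffAt hz).hasFDerivAt.cexp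
  rw [h1.fderiv]
  simp only [add_apply, smul_apply, smul_eq_mul]
  ring

theorem sol_db (s : Sec L') {J : A.ι → Cn n → Cn n →L[ℝ] Cn n} {i : A.ι} {z : Cn n}
    (hz : z ∈ (A.e i).target) (hJ : ∀ v, J i z (J i z v) = -v) (hS : IsUnit (Sm (J i z)).det)
    (v : Cn n) : exp (P.h i z) * s.db J i z v =
      ∑ k, wv (J i z) v k * (Ed (fun y => mu (J i y)) k (fun y => s.u i y * exp (P.h i y)) z +
        Ek (J i z) (tht P L' i z) k * (s.u i z * exp (P.h i z))) := by
  rw [← sol_eq hJ hS (tht P L' i z) (fun y => s.u i y * exp (P.h i y)) v, d_read P s hz,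
    d_read P s hz, tht_apply, tht_apply]
  unfold Sec.db Sec.D
  ring

variable {A' : Atl n M} {J : A.ι → Cn n → Cn n →L[ℝ] Cn n}

/-- the expression of `E_k + c_k` in the chart -/
theorem Ek_read (s : Sec L) {i : A.ι} {x : M} (hx : x ∈ (A.e i).source) (k : Fin n) :
    OpM_693.Ek (muA A J) i k (fun x => (P.toB s).1 i x (i0 P.lb)) x +
      cA P L' J i x k * (P.toB s).1 i x (i0 P.lb) =
    Ed (fun y => mu (J i y)) k (fun y => s.u i y * exp (P.h i y)) (A.e i x) +
      Ek (J i (A.e i x)) (tht P L' i (A.e i x)) k * (s.u i (A.e i x) * exp (P.h i (A.e i x))) := by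
  have hz : A.e i x ∈ (A.e i).target := (A.e i).map_source hx
  have hnb := (A.e i).open_target.mem_nhds hz
  rw [EkM_eq _ _ _ _ hx, toB_i0 P s hx, P.sx_of s hx]
  have e1 : (fun z => (P.toB s).1 i ((A.e i).symm z) (i0 P.lb)) =ᶠ[𝓝 (A.e i x)]
      fun y => s.u i y * exp (P.h i y) := by
    filter_upwards [hnb] with y hy
    rw [toB_i0 P s ((A.e i).map_target hy), P.sx_read s hy]
  have e2 : ∀ f : Cn n → ℂ, Ed (fun z => muA A J i ((A.e i).symm z)) k f (A.e i x) =
      Ed (fun z => mu (J i z)) k f (A.e i x) := by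
    intro f
    unfold Ed
    congr 1
    refine Finset.sum_congr rfl fun b _ => ?_
    have h : muA A J i ((A.e i).symm (A.e i x)) k b = mu (J i (A.e i x)) k b := by
      show mu (J i (A.e i ((A.e i).symm (A.e i x)))) k b = _
      rw [(A.e i).left_inv hx]
    exact congrArg (fun t : ℂ => t • wd (false, b) f (A.e i x)) h
  exact congrArg₂ (· + ·) ((Ed_congr e1).trans (e2 _)) rfl

/-- **holomorphic sections are the sections killed by the Beltrami operator** -/
theorem bel_mem (hJ : JC (ofAtl A) J A') (hN : Near A J) (hg : L'.g = L.g)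
    (hF : F11 (C := ofAtl A) J L')
    (s : Sec L') : s ∈ L'.H0 J ↔ (bel P hJ hN hg hF).D (P.toB (csec hg s)) = 0 := by
  rw [D_zero_iff _ (toB_SecQ P (csec hg s))]
  constructor
  · intro h i x hx k
    have hz : A.e i x ∈ (A.e i).target := (A.e i).map_source hx
    have h1 := Ek_read (L' := L') (J := J) P (csec hg s) hx k
    refine h1.trans ?_
    have h0 : s.db J i (A.e i x) = fun _ => 0 := funext fun v => h i _ hz v
    have h2 : ∀ v, ∑ k, wv (J i (A.e i x)) v k •
        (Ed (fun y => mu (J i y)) k (fun y => s.u i y * exp (P.h i y)) (A.e i x) +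
        Ek (J i (A.e i x)) (tht P L' i (A.e i x)) k *
          (s.u i (A.e i x) * exp (P.h i (A.e i x)))) = 0 := by
      intro v
      have h3 := sol_db P s hz (fun v => hJ.sq hz v) (hN.un i _ hz) v
      rw [h0, mul_zero] at h3
      exact h3.symm
    exact congrFun (wv_inj (hN.un i _ hz) h2) k
  · intro h i z hz v
    have hz' : z ∈ (A.e i).target := hz
    have hx : (A.e i).symm z ∈ (A.e i).source := (A.e i).map_target hz'
    have h3 := sol_db P s hz' (fun v => hJ.sq hz' v) (hN.un i _ hz') v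
    have h4 : ∀ k, Ed (fun y => mu (J i y)) k (fun y => s.u i y * exp (P.h i y)) z +
        Ek (J i z) (tht P L' i z) k * (s.u i z * exp (P.h i z)) = 0 := by
      intro k
      have h5 := h i _ hx k
      have h6 := Ek_read (L' := L') (J := J) P (csec hg s) hx k
      rw [(A.e i).right_inv hz'] at h6
      exact h6.symm.trans h5
    have h7 : exp (P.h i z) * s.db J i z v = 0 := by
      rw [h3]
      exact Finset.sum_eq_zero fun k _ => by rw [h4 k, mul_zero]
    exact (mul_eq_zero.1 h7).resolve_left (exp_ne_zero _)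

end

end Crest.Agent.R281.OpG_941
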