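import Crest.Agent.R281.OpG2_941

/-!
# R281 (S0424), OPEN' (helper941), M7a part 3: families on `C`

* `CFam n C E p1`  : a family of structures and bundles on `C`, jointly smooth near `p1`
* `CFam.mf D`      : the family of 569 (`MFam`) on the atlas of a dictionary `D` at `p1`
* `CFam.mem_iff`   : `s ∈ (L q).H0 (J q) ↔ ((F.mf D).bl D.P q).D (D.toB (csec s)) = 0`
-/

set_option autoImplicit false
set_option linter.unusedSectionVars false
set_option maxSynthPendingDepth 3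

open Set Filter Topology Complex
open scoped ContDiff ComplexConjugate

namespace Crest.Agent.R281.OpG_941

open Crest.Agent.R281.HkR_835 Crest.Agent.R281.Ti_846 Crest.Agent.R281.PL_713
open Crest.Agent.R275.Geo Crest.Agent.R275.Core144 Crest.Agent.R275.EDR890
open Crest.Agent.R281.OpD_569 Crest.Agent.R281.OpC_920
open Crest.Agent.R273.LamN127 (BN)
open Crest.Agent.R281.OpI_450 (SecQ HolB)

noncomputable section

section mem

variable {V X : Type} [NormedAddCommGroup V] [NormedSpace ℝ V]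
  [TopologicalSpace X] {C : RCh V X} {n : ℕ} {A A' : Atl n X} {κ : A.ι → C.ι}
  {J : C.ι → V → V →L[ℝ] V}

/-- holomorphic sections read in other charts -/
theorem mem_pJ (h : Cmp C (ofAtl A)) (hκ : Sub C (ofAtl A) κ) (hJ : JC C J A') {L : PL C}
    (s : PL_713.Sec L) :
    chF h κ hκ s ∈ (L.chg h κ hκ).H0 (pJ C (ofAtl A) κ J) ↔ s ∈ L.H0 J := by
  constructor
  · intro hs i z hz v
    obtain ⟨a, ha⟩ := Cmp.exists_mov (C' := C) (ofAtl A) (j := i) hz
    have hz2 : z ∈ C.ov i (κ a) := ⟨hz, hκ a ha.2⟩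
    set y := mt (ofAtl A) C a i z with hy
    have h1 : y ∈ mov C (ofAtl A) i a := Cmp.mt_mem (C := ofAtl A) (C' := C) ha
    have h2 : mt C (ofAtl A) (κ a) a y = C.t i (κ a) z := by
      show C.e (κ a) ((A.e a).symm (A.e a ((C.e i).symm z))) = C.e (κ a) ((C.e i).symm z)
      rw [(A.e a).left_inv ha.2]
    have h5 := hs a y h1.1
    unfold Sec.db at h5 ⊢
    rw [s.D_tr hz2, s.D_tr hz2, hJ.J_tr hz2]
    have h31 : y ∈ mov C (ofAtl A) (κ a) a := hκ.mem h1.1
    have hw' := h.d_d' h31 (fderiv ℝ (C.t i (κ a)) z v)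
    have h6 := h5 (fderiv ℝ (mt (ofAtl A) C a (κ a)) (mt C (ofAtl A) (κ a) a y)
      (fderiv ℝ (C.t i (κ a)) z v))
    rw [chF_D h κ hκ s h1.1, chF_D h κ hκ s h1.1, pJ_d h hκ J h1.1, hw', h2] at h6
    linear_combination L.g i (κ a) z * h6
  · intro hs a z hz v
    unfold Sec.db
    rw [chF_D h κ hκ s hz, chF_D h κ hκ s hz, pJ_d h hκ J hz]
    exact hs (κ a) _ (Cmp.mt_mem (hκ.mem hz)).1 _

end mem

/-! ### the family -/

variable {V X : Type} [NormedAddCommGroup V] [NormedSpace ℝ V]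
  [TopologicalSpace X] {C : RCh V X} {n : ℕ} {E : Type} [NormedAddCommGroup E] [NormedSpace ℝ E]
  {p1 : E}

/-- a family of structures and line bundles on `C`, jointly smooth near `p1` -/
structure CFam (n : ℕ) (C : RCh V X) (E : Type) [NormedAddCommGroup E] [NormedSpace ℝ E]
    (p1 : E) where
  O : Set E
  op : IsOpen O
  mem : p1 ∈ O
  J : E → C.ι → V → V →L[ℝ] V
  L : E → PL C
  Js : ∀ i, ContDiffOn ℝ ∞ (fun y : E × V => J y.1 i y.2) (O ×ˢ (C.e i).target)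
  Ls : ∀ i, ContDiffOn ℝ ∞ (fun y : E × V => (L y.1).th i y.2) (O ×ˢ (C.e i).target)
  g : ∀ q ∈ O, (L q).g = (L p1).g
  jc : ∀ q ∈ O, ∃ A' : Atl n X, JC C (J q) A'
  f11 : ∀ q ∈ O, F11 (J q) (L q)

namespace CFam

variable (F : CFam n C E p1) {A : Atl n X} (D : Dic C (F.J p1) (F.L p1) A)

/-- the family of 569 on the atlas of the dictionary -/
def mf : MFam A ((F.L p1).chg D.jc.cmp D.κ D.hκ) E p1 where
  O := F.O
  op := F.op
  mem := F.mem
  J q := pJ C (ofAtl A) D.κ (F.J q)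
  L' q := (F.L q).chg D.jc.cmp D.κ D.hκ
  Js i := pJ_sm D.jc.cmp D.hκ F.Js i
  Ls i := thc_jsm D.jc.cmp D.hκ F.Ls i
  J1 i z hz v := pJ_center D.jc D.hκ hz v
  L1 _ _ _ := rfl
  g q hq := by
    funext a b z
    exact congrFun (congrFun (congrFun (F.g q hq) (D.κ a)) (D.κ b))
      (mt C (ofAtl A) (D.κ a) a z)
  jc q hq := by
    obtain ⟨A', hA'⟩ := F.jc q hq
    exact ⟨A', pJ_jc D.jc.cmp D.hκ hA'⟩
  f11 q hq := pJ_F11 D.jc.cmp D.hκ (F.f11 q hq)

/-- **holomorphic sections of the member `q`** -/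
theorem mem_iff (q : (F.mf D).Good) (s : PL_713.Sec (F.L q.1)) :
    s ∈ (F.L q.1).H0 (F.J q.1) ↔
      ((F.mf D).bl D.P q).D (D.toB (csec (F.g q.1 q.2.1) s)) = 0 := by
  obtain ⟨A', hA'⟩ := F.jc q.1 q.2.1
  rw [← mem_pJ D.jc.cmp D.hκ hA' s]
  exact bel_mem D.P ((F.mf D).at_spec q) q.2.2 ((F.mf D).g q.1 q.2.1) ((F.mf D).f11 q.1 q.2.1)
    (chF D.jc.cmp D.κ D.hκ s)

end CFam

end

end Crest.Agent.R281.OpG_941
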