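import Crest.Agent.R281.OpG3_941
import Crest.Agent.R281.OpD8_569

/-!
# R281 (S0424), OPEN' (helper941), part 4: the counting argument for a family on `C`

`CFam.count` : the moving tori at `p1`, global generation at `p1` and `HasN` at `p1` give `HasN`
for all parameters near `p1` (569's `open_count`).
-/

set_option autoImplicit false
set_option linter.unusedSectionVars false
set_option maxSynthPendingDepth 3

open Set Filter Topology Complex
open scoped ContDiff ComplexConjugate

namespace Crest.Agent.R281.OpG_941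

open Crest.Agent.R281.HkR_835 Crest.Agent.R281.Ti_846 Crest.Agent.R281.PL_713
open Crest.Agent.R275.Geo Crest.Agent.R275.Core144 Crest.Agent.R275.EDR890
open Crest.Agent.R281.OpD_569 Crest.Agent.R281.OpC_920 Crest.Agent.R281.OpB_849
open Crest.Agent.R273 Crest.Agent.R273.Defs_333 Crest.Agent.R273.HM_333 Crest.Agent.R273.Kah_333
open Crest.Agent.R273.Vol_333
open Crest.Agent.R273.LamN127 (BN)
open Crest.Agent.R281.OpI_450 (SecQ HolB)
open Crest.Agent.R281.OpT_330

noncomputable section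

variable {V X : Type} [NormedAddCommGroup V] [NormedSpace ℝ V]
  [TopologicalSpace X] {C : RCh V X} {n : ℕ} {E : Type} [NormedAddCommGroup E] [NormedSpace ℝ E]
  {p1 : E}

namespace CFam

variable (F : CFam n C E p1) {A : Atl n X} (D : Dic C (F.J p1) (F.L p1) A)

/-- the family of moving tori through the points of a non-empty open set, in fibres -/
def Tori : Prop :=
  ∃ (m : ℕ) (d : Type) (_ : Fintype d) (V : Set X), IsOpen V ∧ V.Nonempty ∧
    ∀ x ∈ V, ∃ t : MTor d m (𝓝 p1) ((F.mf D).movD D.P) x,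
      Fib (fun v : HolB (BN D.P.lb) => sOf v.1) t.F0 ∧
        Ver (fun v : HolB (BN D.P.lb) => sOf v.1) t.T t.F0

theorem count [T2Space X] [CompactSpace X] [SimplyConnectedSpace X] [Finite A.ι]
    (hA : Crest.Agent.R275.GC293.GoodA A) (Pt : Part A) {K : Kah A}
    (hR : ∀ i, ∀ x ∈ (A.e i).source, cur (volK K) i x = 0)
    (hg : ∀ i, ∀ x ∈ (A.e i).source, ∃ s, IsHS D.P.lb univ s ∧ s i x ≠ 0)
    (hT : F.Tori D) {N : ℕ} (hN : (F.L p1).HasN (F.J p1) N) :
    ∀ᶠ q in 𝓝 p1, (F.L q).HasN (F.J q) N := by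
  obtain ⟨m, d, _, U, hU, hne, hT⟩ := hT
  obtain ⟨f, hf, hf0⟩ := hN
  have h1 : LinearIndependent ℂ fun k => D.toB (f k) := hf.map' _ (LinearMap.ker_eq_bot.2 D.toB_inj)
  have h2 : ∀ k, D.toB (f k) ∈ HolB (BN D.P.lb) := fun k =>
    ⟨D.pqL_toB (f k), (D.nab_toB_zero (f k)).2 (hf0 k)⟩
  filter_upwards [open_count hA Pt hR (F.mf D) D.P hg hU hne hT (fun k => D.toB (f k)) h1 h2]
    with q hq
  obtain ⟨hq, g, hg1, hg2⟩ := hq
  choose s hs using fun k => D.toB_surj (hg2 k).1
  set S : Fin N → PL_713.Sec (F.L q) := fun k => (csec (F.g q hq.1)).symm (s k) with hS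
  have h3 : ∀ k, D.toB (csec (F.g q hq.1) (S k)) = g k := fun k => by
    rw [hS]
    show D.toB (csec (F.g q hq.1) ((csec (F.g q hq.1)).symm (s k))) = _
    rw [LinearEquiv.apply_symm_apply, hs]
  refine ⟨S, ?_, fun k => ?_⟩
  · have h4 : LinearIndependent ℂ
        (fun k => (D.toB ∘ₗ (csec (F.g q hq.1)).toLinearMap) (S k)) := by
      have : (fun k => (D.toB ∘ₗ (csec (F.g q hq.1)).toLinearMap) (S k)) = g := funext h3
      rw [this]
      exact hg1
    exact LinearIndependent.of_comp _ h4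
  · refine (F.mem_iff D ⟨q, hq⟩ (S k)).2 ?_
    rw [h3]
    exact (hg2 k).2

end CFam

end

end Crest.Agent.R281.OpG_941
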