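import Crest.Agent.R281.Rkd4_386
import Crest.Agent.R281.Prim3_377

/-!
# Row 281, OPEN' (helper396): the (1,1)-connections of the members of the box

* `exists_aq` : over the box `B × D` there is a jointly smooth family `a q` of 1-forms such that the
  connection `L0.add (a q)` has curvature of type (1,1) for `J 0` of `B.H q.1 q.2`
  (fields `rep`, `lnk`, and the parametrised primitives `prim0` of 377).
-/

set_option autoImplicit false
set_option linter.unusedSectionVars false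
set_option maxSynthPendingDepth 3

open Set Filter Topology
open scoped ContDiff

namespace Crest.Agent.R281.OpP_396

open Crest.Agent.R275.Geo Crest.Agent.R275.Core144 Crest.Agent.R275.GC293
open Crest.Agent.R281.HkR_835 Crest.Agent.R281.Ti_846 Crest.Agent.R281.NefO_476
open Crest.Agent.R281.Nef_252 Crest.Agent.R281.PL_713 Crest.Agent.R281.Dif_268
open Crest.Agent.R281.Alg_998 Crest.Agent.R281.RkD_902 Crest.Agent.R281.Cdr_234
open Crest.Agent.R281.Prim_377 (JO1 JO2 prim0)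
open Crest.Agent.R281.Bx_557 (SmF)

noncomputable section

section gen

variable {V X : Type} [NormedAddCommGroup V] [NormedSpace ℝ V] [FiniteDimensional ℝ V]
  [TopologicalSpace X] [CompactSpace X] [T2Space X] {C : RCh V X}
  {P : Type} [NormedAddCommGroup P] [NormedSpace ℝ P] [FiniteDimensional ℝ P]

/-- a jointly smooth family of closed forms in the class `e` is, up to the factor `r`, the
curvature of a jointly smooth family of connections on `L0` with `Cl L0.F (r • e)` -/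
theorem exists_conn_fam {L0 : PL C} {e : F2 C} {r : ℝ} (hl : Cl L0.F (r • e)) {O : Set P}
    (hO : IsOpen O) {ρ : P → F2 C} (hρ : SmF O ρ) (he : ∀ p ∈ O, Cl (ρ p) e) :
    ∃ a : P → F1 C, JO1 O a ∧ ∀ p ∈ O, ∀ i, ∀ z ∈ (C.e i).target, ∀ u v,
      (L0.add (a p)).F.w i z u v = r * (ρ p).w i z u v := by
  have hw : JO2 O (fun p => r • ρ p - L0.F) := fun i =>
    ((hρ i).const_smul r).sub ((L0.F.sm i).comp contDiffOn_snd fun p hp => hp.2)
  have hex : ∀ p ∈ O, Ex (r • ρ p - L0.F) := fun p hp =>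
    (Cl.smul r (he p hp)).trans hl.symm
  obtain ⟨a, h1, h2⟩ := prim0 hO hw hex
  refine ⟨a, h1, fun p hp i z hz u v => ?_⟩
  have h3 := h2 p hp i z hz u v
  have h4 : (r • ρ p - L0.F).w i z u v = r * (ρ p).w i z u v - L0.F.w i z u v := rfl
  rw [h4] at h3
  let _ : MeasurableSpace V := borel V
  have : BorelSpace V := ⟨rfl⟩
  rw [PL.add_F _ _ hz, F1.d_w, ← h3]
  ring

/-- ... of type (1,1) -/
theorem exists_conn_fam11 {L0 : PL C} {e : F2 C} {r : ℝ} (hl : Cl L0.F (r • e)) {O : Set P}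
    (hO : IsOpen O) {ρ : P → F2 C} (hρ : SmF O ρ) (he : ∀ p ∈ O, Cl (ρ p) e)
    {J : P → AJ C} (h11 : ∀ p ∈ O, T11 (J p) (ρ p)) :
    ∃ a : P → F1 C, JO1 O a ∧ ∀ p ∈ O, T11 (J p) (L0.add (a p)).F := by
  obtain ⟨a, h1, h2⟩ := exists_conn_fam hl hO hρ he
  refine ⟨a, h1, fun p hp i z hz u v => ?_⟩
  rw [h2 p hp i z hz, h2 p hp i z hz, h11 p hp i z hz u v]

end gen

section box

variable {n : ℕ} {X : Type} [TopologicalSpace X] [CompactSpace X] [T2Space X]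
  {C : RCh (Cn (2 * n)) X} {Q : F2 C →ₗ[ℝ] F2 C →ₗ[ℝ] ℝ} {H0 : HkT C} {L0 : PL C} {e : F2 C}

/-- over the whole box -/
theorem exists_aq' (hG : Given Q H0 L0 e) (B : Box Q H0 e) :
    ∃ a : (Fin B.m → ℝ) × (Fin B.m → ℝ) → F1 C,
      (∀ i, ContDiffOn ℝ ∞ (fun y : ((Fin B.m → ℝ) × (Fin B.m → ℝ)) × Cn (2 * n) =>
        (a y.1).η i y.2) ((B.B ×ˢ B.D) ×ˢ (C.e i).target)) ∧
      ∀ q ∈ B.B ×ˢ B.D, T11 (ofHk (B.H q.1 q.2) 0) (L0.add (a q)).F := by
  obtain ⟨ρ, h1, h2⟩ := B.rep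
  exact exists_conn_fam11 (J := fun q : (Fin B.m → ℝ) × (Fin B.m → ℝ) => ofHk (B.H q.1 q.2) 0)
    hG.lnk (B.oB.prod B.oD) h1 (fun p hp => (h2 p hp).2) fun p hp => (h2 p hp).1

/-- **REP + PRIM**: (1,1)-connections on `L0` along the box, jointly smooth -/
theorem exists_aq (hG : Given Q H0 L0 e) (B : Box Q H0 e) {b c : Fin B.m → ℝ} (hb : b ∈ B.B)
    (hc : c ∈ B.D) :
    ∃ O : Set ((Fin B.m → ℝ) × (Fin B.m → ℝ)), IsOpen O ∧ (b, c) ∈ O ∧ O ⊆ B.B ×ˢ B.D ∧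
    ∃ a : (Fin B.m → ℝ) × (Fin B.m → ℝ) → F1 C,
      (∀ i, ContDiffOn ℝ ∞ (fun y : ((Fin B.m → ℝ) × (Fin B.m → ℝ)) × Cn (2 * n) =>
        (a y.1).η i y.2) (O ×ˢ (C.e i).target)) ∧
      ∀ q ∈ O, T11 (ofHk (B.H q.1 q.2) 0) (L0.add (a q)).F := by
  obtain ⟨a, h1, h2⟩ := exists_aq' hG B
  exact ⟨B.B ×ˢ B.D, B.oB.prod B.oD, ⟨hb, hc⟩, Subset.rfl, a, h1, h2⟩

end box

end

end Crest.Agent.R281.OpP_396
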