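import Crest.Agent.R281.Rkd6_386

/-!
# R281 (S0424), RANK281, lower end (helper386), part 7

* `rk_of_coh` : `Rk` is transferred between line bundles on two holomorphic atlases of the same
                member with cohomologous curvatures
* `rk_dic`    : `p : Pres n H L0`, `Rk` for sections of `p.L ^ m` ==> `Rk` for sections of the
                bundle of every dictionary of `(L0.pow m).add a`
-/

set_option autoImplicit false
set_option linter.unusedSectionVars false
set_option maxSynthPendingDepth 3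

open Set Filter Topology Complex
open scoped ContDiff Matrix

namespace Crest.Agent.R281.Rkd_386

open Crest.Agent.R275.Geo Crest.Agent.R275.Core144 Crest.Agent.R275.GC293
open Crest.Agent.R275.EDR890
open Crest.Agent.R273
open Crest.Agent.R273.Defs_333 Crest.Agent.R273.Kah_333
open Crest.Agent.R273.Map_835 (HolMap)
open Crest.Agent.R273.PB_835
open Crest.Agent.R260.ACM_580 Crest.Agent.R260.NNB_580
open Crest.Agent.R281.HkR_835 Crest.Agent.R281.Ti_846 Crest.Agent.R281.NefO_476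
open Crest.Agent.R281.Nef_252 Crest.Agent.R281.PL_713 Crest.Agent.R281.Dif_268
open Crest.Agent.R281.Alg_998 Crest.Agent.R281.RkD_902
open Crest.Agent.R281.Pjx_648 Crest.Agent.R281.Kd_22 Crest.Agent.R281.Rk_599
open Crest.Agent.R281.Rko_396

noncomputable section

variable {X V : Type} [TopologicalSpace X] [NormedAddCommGroup V] [NormedSpace ℝ V]
  {C : RCh V X} {d : ℕ} {A A' : Atl d X}

/-- the rank under a common holomorphic factor, two atlases -/
theorem rk_fac (h1 : HolMap A A' id) (h2 : HolMap A' A id) {L : LB A} {L' : LB A'} {r : ℕ}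
    {s : Fin (r + 1) → A.ι → X → ℂ} {s' : Fin (r + 1) → A'.ι → X → ℂ}
    (hs : ∀ j, IsHS L univ (s j)) (hs' : ∀ j, IsHS L' univ (s' j)) {b : A.ι} {k : A'.ι} {x : X}
    (hk : x ∈ (A'.e k).source) {c : X → ℂ} (hc : Hm A' c x) (h0 : c x ≠ 0)
    (he : ∀ j, ∀ᶠ y in 𝓝 x, s' j k y = c y * s j b y) (hR : Rk A s b x) : Rk A' s' k x := by
  have hcmp : Cmp (ofAtl A') (ofAtl A) := cmp_of_bih h1 h2
  obtain ⟨hb, h3, h4⟩ := hR
  have e1 : DifferentiableAt ℝ (fun z => c ((A'.e k).symm z)) (A'.e k x) :=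
    (hc k hk).differentiableAt.restrictScalars ℝ
  have hx : (A'.e k).symm (A'.e k x) = x := (A'.e k).left_inv hk
  have key := (Rko_396.rk_iff (C := ofAtl A') (A := A) hcmp (s := s) (a := b) (i := k)
    (u := fun j z => s' j k ((A'.e k).symm z)) (e := fun z => c ((A'.e k).symm z)) hb hk
    (fun j => (analyticOnNhd_rd (hs j) b _ ((A.e b).map_source hb)).differentiableAt) e1
    (by
      show c ((A'.e k).symm (A'.e k x)) ≠ 0
      rw [hx]
      exact h0) (fun j => by
        filter_upwards [he j, (A'.e k).open_source.mem_nhds hk] with y hy hyk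
        show s' j k ((A'.e k).symm (A'.e k y)) = c ((A'.e k).symm (A'.e k y)) * s j b y
        rw [(A'.e k).left_inv hyk, hy])).2 ⟨hb, h3, h4⟩
  have h5 := (rkR_holo_iff (s := fun j z => s' j k ((A'.e k).symm z)) (z := A'.e k x)
    fun j => (analyticOnNhd_rd (hs' j) k _ ((A'.e k).map_source hk)).differentiableAt).1 key
  refine ⟨hk, ?_, h5.2⟩
  have h6 := h5.1
  simp only [hx] at h6
  exact h6

/-- **`Rk` is transferred**: cohomologous curvatures -/
theorem rk_of_coh [CompactSpace X] [T2Space X] [SimplyConnectedSpace X] {H : HkT C}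
    (hA : Cp (H.acm 0) A) (hA' : Cp (H.acm 0) A') {w w' : F2 C} {L : LB A} {h : HM L}
    {L' : LB A'} {h' : HM L'} (hw : Eqv ((cmp_of_cp hA).F w) ((-2 : ℝ) • (curK h).f2))
    (hw' : Eqv ((cmp_of_cp hA').F w') ((-2 : ℝ) • (curK h').f2)) (he : Ex (w - w')) {r : ℕ}
    (hR : ∃ t : Fin (r + 1) → A.ι → X → ℂ, (∀ b, IsHS L univ (t b)) ∧ ∃ i x, Rk A t i x) :
    ∃ t : Fin (r + 1) → A'.ι → X → ℂ, (∀ b, IsHS L' univ (t b)) ∧ ∃ i x, Rk A' t i x := by
  obtain ⟨t, ht, b, x, hRk⟩ := hR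
  obtain ⟨Φ, hΦ, hc⟩ := fac_of_coh hA hA' hw hw' he
  obtain ⟨k, hk⟩ := A'.cover x
  obtain ⟨c, c1, c2, c3⟩ := hc b k x hRk.1 hk
  exact ⟨fun j => Φ (t j), fun j => hΦ _ (ht j), k, x,
    rk_fac (hol_of_cp hA' hA) (hol_of_cp hA hA') ht (fun j => hΦ _ (ht j)) hk c1 c2
      (fun j => c3 _ (ht j)) hRk⟩

/-- **`Rk` for every dictionary bundle of a connection of type (1,1)** -/
theorem rk_dic [FiniteDimensional ℝ V] [CompactSpace X] [T2Space X] [SimplyConnectedSpace X]
    {n : ℕ} {H : HkT C} {L0 : PL C} (p : Pres n H L0) {m r : ℕ}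
    (hR : ∃ t : Fin (r + 1) → p.A.ι → X → ℂ, (∀ b, IsHS (p.L ^ m) univ (t b)) ∧
      ∃ i x, Rk p.A t i x) {a : F1 C} {A' : Atl (2 * n) X}
    (D : Dic C (H.J 0) ((L0.pow m).add a) A') :
    ∃ t : Fin (r + 1) → A'.ι → X → ℂ, (∀ b, IsHS D.lb univ (t b)) ∧ ∃ i x, Rk A' t i x :=
  rk_of_coh p.cp (cp_of_jc D.jc) (cur_pow_F p.cp p.cur m) (dic_cur (cp_of_jc D.jc) D)
    (pres_ex p m a) hR

end

end Crest.Agent.R281.Rkd_386
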