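import Crest.Agent.R281.OpG4_941
import Crest.Agent.R281.OpP1_396
import Crest.Agent.R281.Rkd7_386

/-!
# R281 (S0424), OPEN' (helper941), part 5: the shell of `OpenP`

* `boxFam`      : the family over the box of 902
* `CentreP`     : the Kaehler structure of a member has vanishing Ricci curvature
* `TorP Tub`    : the moving tori
* `openP_of`    : `CentreP → TorP Tub → OpenP Tub`
-/

set_option autoImplicit false
set_option linter.unusedSectionVars false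
set_option maxSynthPendingDepth 3

open Set Filter Topology Complex
open scoped ContDiff ComplexConjugate

namespace Crest.Agent.R281.OpG_941

open Crest.Agent.R275.Geo Crest.Agent.R275.Core144 Crest.Agent.R275.GC293
open Crest.Agent.R273.Defs_333 Crest.Agent.R273.Kah_333 Crest.Agent.R273.HM_333
open Crest.Agent.R273.Vol_333
open Crest.Agent.R260.ACM_580 Crest.Agent.R260.NNB_580
open Crest.Agent.R281.HkR_835 Crest.Agent.R281.Ti_846 Crest.Agent.R281.NefO_476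
open Crest.Agent.R281.Nef_252 Crest.Agent.R281.PL_713 Crest.Agent.R281.Dif_268
open Crest.Agent.R281.Alg_998 Crest.Agent.R281.RkD_902 Crest.Agent.R281.Cdr_234
open Crest.Agent.R281.Rkd_386 Crest.Agent.R281.Rk_599

noncomputable section

section fam

variable {n : ℕ} {X : Type} [TopologicalSpace X] [CompactSpace X] [T2Space X]
  {C : RCh (Cn (2 * n)) X} {Q : F2 C →ₗ[ℝ] F2 C →ₗ[ℝ] ℝ} {H0 : HkT C} {L0 : PL C} {e : F2 C}

/-- every member has a holomorphic atlas -/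
theorem exists_jc (H : HkT C) : ∃ A : Atl (2 * n) X, JC C (H.J 0) A := by
  obtain ⟨A, -, -, -, -, -, hA⟩ := exists_atl (nnatC (2 * n)) (H.acm_int 0) (κ := Unit)
    (fun _ => (univ : Set X)) (fun _ => isOpen_univ) (fun x => ⟨(), mem_univ x⟩)
  exact ⟨A, JC.of_cp hA⟩

/-- **the family over the box** -/
def boxFam (B : Box Q H0 e) {b c : Fin B.m → ℝ} (hb : b ∈ B.B) (hc : c ∈ B.D)
    (a : (Fin B.m → ℝ) × (Fin B.m → ℝ) → F1 C)
    (ha : ∀ i, ContDiffOn ℝ ∞ (fun y : ((Fin B.m → ℝ) × (Fin B.m → ℝ)) × Cn (2 * n) =>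
      (a y.1).η i y.2) ((B.B ×ˢ B.D) ×ˢ (C.e i).target))
    (ha' : ∀ q ∈ B.B ×ˢ B.D, T11 (ofHk (B.H q.1 q.2) 0) (L0.add (a q)).F) (m : ℕ) :
    CFam (2 * n) C ((Fin B.m → ℝ) × (Fin B.m → ℝ)) (b, c) where
  O := B.B ×ˢ B.D
  op := B.oB.prod B.oD
  mem := ⟨hb, hc⟩
  J q := (B.H q.1 q.2).J 0
  L q := (L0.pow m).add ((m : ℝ) • a q)
  Js i := B.sm.J 0 i
  Ls i := by
    have h1 : ContDiffOn ℝ ∞ (fun y : ((Fin B.m → ℝ) × (Fin B.m → ℝ)) × Cn (2 * n) =>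
        (L0.pow m).th i y.2) ((B.B ×ˢ B.D) ×ˢ (C.e i).target) :=
      ((L0.pow m).th_sm i).comp contDiffOn_snd fun y hy => hy.2
    exact h1.add ((ha i).const_smul (m : ℝ))
  g _ _ := rfl
  jc q _ := exists_jc (B.H q.1 q.2)
  f11 q hq := by
    have h1 := T11.pow (ha' q hq) m
    rw [pow_add'] at h1
    exact h1

end fam

/-- the Kaehler structure of a member is Ricci flat -/
def CentreP : Prop :=
  ∀ (n : ℕ) (X : Type) [TopologicalSpace X] [CompactSpace X] [T2Space X]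
    [SimplyConnectedSpace X] (C : RCh (Cn (2 * n)) X) (H : HkT C) (A : Atl (2 * n) X)
    [Finite A.ι], 1 ≤ n → GoodA A → Nonempty (Part A) → JC C (H.J 0) A →
    ∃ K : Kah A, ∀ i, ∀ x ∈ (A.e i).source, cur (volK K) i x = 0

/-- the moving tori -/
def TorP (Tub : TubTT) : Prop :=
  ∀ (n : ℕ) (X : Type) [TopologicalSpace X] [CompactSpace X] [T2Space X]
    [SimplyConnectedSpace X] (C : RCh (Cn (2 * n)) X) (Q : F2 C →ₗ[ℝ] F2 C →ₗ[ℝ] ℝ), Ctx n C Q →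
    ∀ (H0 : HkT C) (L0 : PL C) (e : F2 C), Given Q H0 L0 e → ∀ (B : Box Q H0 e)
      (b c : Fin B.m → ℝ) (hb : b ∈ B.B) (hc : c ∈ B.D),
    Tub n X C Q e (B.H b c) → ∀ p : Pres n (B.H b c) L0, ∀ m : ℕ, 0 < m → GG (p.L ^ m) →
    (∃ t : Fin (n + 1) → p.A.ι → X → ℂ, (∀ a, IsHS (p.L ^ m) univ (t a)) ∧ ∃ i x, Rk p.A t i x) →
    ∀ (a : (Fin B.m → ℝ) × (Fin B.m → ℝ) → F1 C)
      (ha : ∀ i, ContDiffOn ℝ ∞ (fun y : ((Fin B.m → ℝ) × (Fin B.m → ℝ)) × Cn (2 * n) =>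
        (a y.1).η i y.2) ((B.B ×ˢ B.D) ×ˢ (C.e i).target))
      (ha' : ∀ q ∈ B.B ×ˢ B.D, T11 (ofHk (B.H q.1 q.2) 0) (L0.add (a q)).F)
      (A : Atl (2 * n) X) [Finite A.ι], GoodA A → ∀ (_ : Part A)
      (D : Dic C ((boxFam B hb hc a ha ha' m).J (b, c)) ((boxFam B hb hc a ha ha' m).L (b, c)) A),
    (boxFam B hb hc a ha ha' m).Tori D

/-- **the shell of `OpenP`** -/
theorem openP_of {Tub : TubTT} (hK : CentreP) (hT : TorP Tub) : OpenP Tub := by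
  intro n X _ _ _ _ C Q hQ H0 L0 e hG B b c hb hc hTub p m hm hgg hrk N hN
  obtain ⟨a, ha, ha'⟩ := Crest.Agent.R281.OpP_396.exists_aq' hG B
  set F := boxFam B hb hc a ha ha' m with hF
  have hn : 1 ≤ n := hQ.n1
  -- `HasN` at the centre
  have h11 : T11 (ofHk (B.H b c) 0) ((L0.pow m).add ((m : ℝ) • a (b, c))).F :=
    F.f11 (b, c) F.mem
  have h0 : (F.L (b, c)).HasN (F.J (b, c)) N :=
    hN_indep (nnatC (2 * n)) (by omega) hN h11
  obtain ⟨A0, hA0⟩ := F.jc (b, c) F.mem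
  obtain ⟨A, hfin, hgood, ⟨P⟩, -, -, ⟨D⟩⟩ := exists_dic hA0 (F.f11 (b, c) F.mem)
  obtain ⟨K, hR⟩ := hK n X C (B.H b c) A hn hgood ⟨P⟩ D.jc
  have hg : Crest.Agent.R281.RkD_902.GG D.lb := gg_dic p hgg D
  have hg' : ∀ i, ∀ x ∈ (A.e i).source, ∃ s, IsHS D.P.lb univ s ∧ s i x ≠ 0 := by
    intro i x hx
    obtain ⟨s, hs, j, hj, hne⟩ := hg x
    refine ⟨s, hs, ?_⟩
    rw [hs.tr i j x ⟨hx, hj⟩ (mem_univ x)]
    exact mul_ne_zero (LB.ne_zero _ i j x) hne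
  have h1 := F.count D hgood P hR hg'
    (hT n X C Q hQ H0 L0 e hG B b c hb hc hTub p m hm hgg hrk a ha ha' A hgood P D) h0
  filter_upwards [h1, (B.oB.prod B.oD).mem_nhds (show (b, c) ∈ B.B ×ˢ B.D from ⟨hb, hc⟩)]
    with q hq hqO
  exact ⟨(m : ℝ) • a q, F.f11 q hqO, hq⟩

end

end Crest.Agent.R281.OpG_941
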