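import Crest.Agent.R281.OpD7_569

/-!
# Row 281, OPEN' (helper450): tori and all sections

330 proves `Fib`, `Ver` for a basis `G.s` of the sections; 569's `hno_bel` uses the family of all
sections.
-/

set_option autoImplicit false
set_option linter.unusedSectionVars false

open Set Filter Topology Complex

namespace Crest.Agent.R281.OpL_450

open Crest.Agent.R273 Crest.Agent.R273.Defs_333
open Crest.Agent.R275 Crest.Agent.R275.Geo Crest.Agent.R275.Core144
open Crest.Agent.R273.LamN127 (BN)
open Crest.Agent.R281.OpB_849 Crest.Agent.R281.OpI_450 Crest.Agent.R281.OpT_330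
open Crest.Agent.R281.OpD_569

noncomputable section

variable {N m : ℕ} {M : Type} [TopologicalSpace M] {A : Atl N M} {L : LB A}
variable {d : Type} [Fintype d] {F : (d → ℝ) → M}

/-- all sections are constant on the torus -/
theorem fib_all {c : ℕ} {G : GG L c} (bs : Module.Basis (Fin c) ℂ (H0S L))
    (hbs : ∀ a, G.s a = sOf (bs a).1) (h : Fib G.s F) :
    Fib (fun v : HolB (BN L) => sOf v.1) F := by
  intro v w i j x y hx hy
  set xs : M := F x
  set ys : M := F y
  have h1 : ∀ a b, evH L i xs (bs a) * evH L j ys (bs b) =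
      evH L i xs (bs b) * evH L j ys (bs a) := by
    intro a b
    have h2 := h a b i j x y hx hy
    rw [hbs, hbs] at h2
    exact h2
  have e1 : ∀ a, ∀ w : H0S L, evH L i xs (bs a) * evH L j ys w =
      evH L i xs w * evH L j ys (bs a) := by
    intro a w
    have e2 : evH L i xs (bs a) • evH L j ys = evH L j ys (bs a) • evH L i xs := by
      refine bs.ext fun b => ?_
      simp only [LinearMap.smul_apply, smul_eq_mul]
      rw [h1 a b, mul_comm]
    have e3 := LinearMap.congr_fun e2 w
    simp only [LinearMap.smul_apply, smul_eq_mul] at e3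
    rw [e3, mul_comm]
  have e4 : ∀ v w : H0S L, evH L i xs v * evH L j ys w = evH L i xs w * evH L j ys v := by
    intro v w
    have e2 : evH L j ys w • evH L i xs = evH L i xs w • evH L j ys := by
      refine bs.ext fun a => ?_
      simp only [LinearMap.smul_apply, smul_eq_mul]
      rw [← e1 a w, mul_comm]
    have e3 := LinearMap.congr_fun e2 v
    simp only [LinearMap.smul_apply, smul_eq_mul] at e3
    rw [← e3, mul_comm]
  exact e4 ⟨v.1, v.2⟩ ⟨w.1, w.2⟩

/-- verticality against all sections is stronger than against a basis -/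
theorem ver_all {c : ℕ} {G : GG L c} (bs : Module.Basis (Fin c) ℂ (H0S L))
    (hbs : ∀ a, G.s a = sOf (bs a).1) {T : (d → ℝ) ≃L[ℝ] Cn m} (h : Ver G.s T F) :
    Ver (fun v : HolB (BN L) => sOf v.1) T F := by
  intro i z hz X hX
  refine h i z hz X fun a b => ?_
  rw [hbs, hbs]
  exact hX ⟨(bs a).1, (bs a).2⟩ ⟨(bs b).1, (bs b).2⟩

/-- the basis spans -/
theorem span_of {c : ℕ} {G : GG L c} (bs : Module.Basis (Fin c) ℂ (H0S L))
    (hbs : ∀ a, G.s a = sOf (bs a).1) {s : A.ι → M → ℂ} (hs : IsHS L univ s) :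
    ∃ k : Fin c → ℂ, ∀ i, ∀ x ∈ (A.e i).source, s i x = ∑ a, k a * G.s a i x := by
  set u : H0S L := ⟨_, ofS_mem hs⟩ with hu
  refine ⟨fun a => bs.repr u a, fun i x hx => ?_⟩
  have h1 : evH L i x u = s i x := sOf_ofS (isS_of_isHS hs) hx
  have h2 : evH L i x u = ∑ a, bs.repr u a * evH L i x (bs a) := by
    conv_lhs => rw [← bs.sum_repr u]
    simp only [map_sum, LinearMap.map_smul, smul_eq_mul]
  rw [← h1, h2]
  refine Finset.sum_congr rfl fun a _ => ?_
  rw [hbs]
  rfl

variable [Finite A.ι] [T2Space M] [CompactSpace M]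

/-- a basis of the sections of a globally generated bundle -/
theorem exists_GGB (P : Part A)
    (hg : ∀ i, ∀ x ∈ (A.e i).source, ∃ s, IsHS L univ s ∧ s i x ≠ 0) :
    ∃ (c : ℕ) (G : GG L c) (bs : Module.Basis (Fin c) ℂ (H0S L)), ∀ a, G.s a = sOf (bs a).1 := by
  have hfd : FiniteDimensional ℂ (H0S L) := H0S_fin (L := L) P
  have hfree : Module.Free ℂ (H0S L) := Module.Free.of_divisionRing ℂ (H0S L)
  let b := Module.finBasis ℂ (H0S L)
  refine ⟨_, ⟨fun a => sOf (b a).1, fun a => isHS_of_ker (b a).2.2, fun i x hx => ?_⟩,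
    b, fun a => rfl⟩
  by_contra hcon
  push Not at hcon
  obtain ⟨s, hs, hne⟩ := hg i x hx
  apply hne
  have h1 : evH L i x = 0 := b.ext fun a => by
    rw [LinearMap.zero_apply]
    exact hcon a
  have h2 := LinearMap.congr_fun h1 ⟨ofS s (isS_of_isHS hs), ofS_mem hs⟩
  have h3 : sOf (ofS s (isS_of_isHS hs)) i x = 0 := h2
  rwa [sOf_ofS _ hx] at h3

end

end Crest.Agent.R281.OpL_450
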