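import Crest.Agent.R281.OpG5_941
import Crest.Agent.R281.OT9_763
import Crest.Agent.R281.OpL1_450
import Crest.Agent.R281.OpF5_330

/-!
# R281 (S0424), OPEN' (helper941), part 6: the moving tori of the box

* `TubT`    : the tube of 831 as a parameter of the nodes of 902
* `FibP`    : tori of the tube are fibres (330)
* `torP_of` : `FibP → TorP TubT`
-/

set_option autoImplicit false
set_option linter.unusedSectionVars false
set_option maxSynthPendingDepth 3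

open Set Filter Topology Complex
open scoped ContDiff ComplexConjugate

namespace Crest.Agent.R281.OpG_941

open Crest.Agent.R275.Geo Crest.Agent.R275.Core144 Crest.Agent.R275.GC293
open Crest.Agent.R273.Defs_333 Crest.Agent.R273.Kah_333 Crest.Agent.R273.HM_333
open Crest.Agent.R273.Vol_333
open Crest.Agent.R260.ACM_580 Crest.Agent.R260.NNB_580
open Crest.Agent.R281.HkR_835 Crest.Agent.R281.Ti_846 Crest.Agent.R281.NefO_476
open Crest.Agent.R281.Nef_252 Crest.Agent.R281.PL_713 Crest.Agent.R281.Dif_268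
open Crest.Agent.R281.Alg_998 Crest.Agent.R281.RkD_902 Crest.Agent.R281.Cdr_234
open Crest.Agent.R281.Rkd_386 Crest.Agent.R281.Rk_599
open Crest.Agent.R281.OpD_569 Crest.Agent.R281.OT_763 Crest.Agent.R281.OpT_330
open Crest.Agent.R281.Op3_569 (MovD)
open Crest.Agent.R281.Tub_831 (HolTube PVT)
open Crest.Agent.R281.OpI_450 (HolB)
open Crest.Agent.R281.OpB_849 (sOf)
open Crest.Agent.R273.LamN127 (BN)

noncomputable section

/-- the tube of 831 as a parameter of the nodes -/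
def TubT : TubTT := fun n _ _ _ _ _ C Q e H => Crest.Agent.R281.Tub_831.Tub n C Q e H

section rel

variable {V X : Type} [NormedAddCommGroup V] [NormedSpace ℝ V]
  [TopologicalSpace X] {C : RCh V X} {n : ℕ} {A A' : Atl n X} {κ : A.ι → C.ι}
  {J : C.ι → V → V →L[ℝ] V}

/-- the defining property of `pJ` for all charts of `C` -/
theorem pJ_all (h : Cmp C (ofAtl A)) (hκ : Sub C (ofAtl A) κ) (hJ : JC C J A') {i : C.ι}
    {a : A.ι} {z : Cn n} (hz : z ∈ mov C (ofAtl A) i a) (v : Cn n) :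
    fderiv ℝ (mt C (ofAtl A) i a) z (pJ C (ofAtl A) κ J a z v) =
      J i (mt C (ofAtl A) i a z) (fderiv ℝ (mt C (ofAtl A) i a) z v) := by
  have hza : z ∈ ((ofAtl A).e a).target := hz.1
  have hm := hκ.mem hza
  have hcc : Cmp C C := Cmp_trans h h.symm
  have e1 : ∀ w, fderiv ℝ (mt C (ofAtl A) i a) z w = fderiv ℝ (C.t (κ a) i)
      (mt C (ofAtl A) (κ a) a z) (fderiv ℝ (mt C (ofAtl A) (κ a) a) z w) := fun w =>
    (dmt_comp hcc h hm hz w).symm
  have hy : mt C (ofAtl A) (κ a) a z ∈ C.ov (κ a) i := by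
    refine ⟨(Cmp.mt_mem hm).1, ?_⟩
    have e3 : (C.e (κ a)).symm (C.e (κ a) ((A.e a).symm z)) = (A.e a).symm z :=
      (C.e (κ a)).left_inv hm.2
    show (C.e (κ a)).symm (C.e (κ a) ((A.e a).symm z)) ∈ (C.e i).source
    exact (congrArg (· ∈ (C.e i).source) e3).mpr hz.2
  have e2 : C.t (κ a) i (mt C (ofAtl A) (κ a) a z) = mt C (ofAtl A) i a z := mt_comp hm
  rw [e1, e1, pJ_d h hκ J hza, hJ.J_tr hy, e2]

end rel

/-- the fields of the family on the atlas of the dictionary satisfy 763's relation -/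
theorem CFam.relJ {V X : Type} [NormedAddCommGroup V] [NormedSpace ℝ V]
    [TopologicalSpace X] {C : RCh V X} {n : ℕ} {E : Type} [NormedAddCommGroup E]
    [NormedSpace ℝ E] {p1 : E} (F : CFam n C E p1) {A : Atl n X}
    (D : Dic C (F.J p1) (F.L p1) A) {q : E} (hq : q ∈ F.O) :
    RelJ C A (F.J q) ((F.mf D).movD D.P q) := by
  obtain ⟨A', hA'⟩ := F.jc q hq
  exact relJ_of (J' := (F.mf D).J q) (fun _ _ _ => rfl)
    fun i a z hz v => pJ_all D.jc.cmp D.hκ hA' hz v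

section box

variable {n : ℕ} {X : Type} [TopologicalSpace X] [CompactSpace X] [T2Space X]
  [SimplyConnectedSpace X]
  {C : RCh (Cn (2 * n)) X} {Q : F2 C →ₗ[ℝ] F2 C →ₗ[ℝ] ℝ} {H0 : HkT C} {L0 : PL C} {e : F2 C}

/-- generating sections of the bundle of the dictionary -/
theorem gen_dic {H : HkT C} {A : Atl (2 * n) X} (p : Pres n H L0) {m : ℕ}
    (hgg : Crest.Agent.R281.RkD_902.GG (p.L ^ m)) {a : F1 C}
    (D : Dic C (H.J 0) ((L0.pow m).add a) A) :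
    ∀ i, ∀ x ∈ (A.e i).source, ∃ s, IsHS D.lb univ s ∧ s i x ≠ 0 := by
  have hgd : Crest.Agent.R281.RkD_902.GG D.lb := gg_dic p hgg D
  intro i x hx
  obtain ⟨s, hs, j, hj, hne⟩ := hgd x
  refine ⟨s, hs, ?_⟩
  rw [hs.tr i j x ⟨hx, hj⟩ (mem_univ x)]
  exact mul_ne_zero (LB.ne_zero _ i j x) hne

/-- fibre tori against all sections -/
theorem fib_tori (hQ : Ctx n C Q) {H : HkT C} (hGH : Given Q H L0 e)
    (hT : Crest.Agent.R281.Tub_831.Tub n C Q e H) (p : Pres n H L0) {m : ℕ}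
    (hgg : Crest.Agent.R281.RkD_902.GG (p.L ^ m))
    (hrk : ∃ t : Fin (n + 1) → p.A.ι → X → ℂ, (∀ a, IsHS (p.L ^ m) univ (t a)) ∧
      ∃ i x, Rk p.A t i x) {a : F1 C} {A : Atl (2 * n) X} [Finite A.ι] (Pt : Part A)
    (D : Dic C (H.J 0) ((L0.pow m).add a) A) :
    ∃ (Dd : Set (Cn n)) (Ψ : Cn n × Cn n → X) (l : Fin (2 * n) → Cn n → Cn n)
      (τ : Cn n → Cn n → Cn n → ℂ), HolTube C (H.J 0) (H.om 1) (H.om 2) n Dd Ψ l τ ∧
      PVT Q e Dd Ψ l ∧ ∃ V : Set X, IsOpen V ∧ V.Nonempty ∧ ∀ x ∈ V, ∃ y ∈ Dd, ∃ z,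
        Ψ (y, z) = x ∧ ∃ T : (Fin (2 * n) → ℝ) ≃L[ℝ] Cn n, (∀ s, T s = ∑ k, s k • l k y) ∧
          Fib (fun v : HolB (BN D.lb) => sOf v.1) (fun s => Ψ (y, T s)) ∧
          Ver (fun v : HolB (BN D.lb) => sOf v.1) T (fun s => Ψ (y, T s)) := by
  obtain ⟨Dd, Ψ, l, τ, ht, hpv⟩ := hT
  obtain ⟨k, G, bs, hbs⟩ := Crest.Agent.R281.OpL_450.exists_GGB Pt (gen_dic p hgg D)
  have hsp : Span G := fun s hs => Crest.Agent.R281.OpL_450.span_of bs hbs hs
  obtain ⟨V, hV, hVne, hVT⟩ := fibver_dic hQ hGH ht hpv D G hsp (rk_dic p hrk D)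
  refine ⟨Dd, Ψ, l, τ, ht, hpv, V, hV, hVne, fun x hx => ?_⟩
  obtain ⟨y, hy, z, hyz, hT⟩ := hVT x hx
  obtain ⟨T, hTs⟩ := Crest.Agent.R281.OpT_330.exists_T (ht.lli y hy)
  obtain ⟨-, hfib, hver⟩ := hT T hTs
  exact ⟨y, hy, z, hyz, T, hTs, Crest.Agent.R281.OpL_450.fib_all bs hbs hfib,
    Crest.Agent.R281.OpL_450.ver_all bs hbs hver⟩

/-- `e` at the members of the box -/
theorem given_mem (hc : Ctx n C Q) (h : Given Q H0 L0 e) (B : Box Q H0 e) {b c : Fin B.m → ℝ}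
    (hb : b ∈ B.B) (hd : c ∈ B.D) : Given Q (B.H b c) L0 e := by
  have cr : ∀ {x x' y : F2 C}, Cl x x' → Q y x = Q y x' := by
    intro x x' y hx
    have := hc.ex _ y hx
    rw [map_sub, LinearMap.sub_apply] at this
    rw [hc.symm, hc.symm y]
    linarith
  have ql : ∀ b : Fin B.m → ℝ, Q e (lco B.bas b) = 0 := by
    intro b
    unfold lco
    rw [map_sum]
    refine Finset.sum_eq_zero fun j _ => ?_
    rw [map_smul, hc.symm, B.orth j, smul_zero]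
  refine ⟨B.pos2 b hb c hd, h.int, h.lnk, h.ee, ?_, ?_, B.pos b hb c hd⟩
  · obtain ⟨s, -, h1⟩ := B.cl1 b hb c hd
    rw [cr h1, map_smul, ql, smul_zero]
  · obtain ⟨s, t, -, h1⟩ := B.cl2 b hb c hd
    rw [cr h1, map_add, map_smul, map_smul, ql, ql, smul_zero, smul_zero, add_zero]

/-- moving tori along a family on `C` whose structures are those of the box -/
theorem tori_box (hQ : Ctx n C Q) (hG : Given Q H0 L0 e) (B : Box Q H0 e) {b c : Fin B.m → ℝ}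
    (hb : b ∈ B.B) (hc : c ∈ B.D) (hT : Crest.Agent.R281.Tub_831.Tub n C Q e (B.H b c))
    (p : Pres n (B.H b c) L0) {m : ℕ} (hgg : Crest.Agent.R281.RkD_902.GG (p.L ^ m))
    (hrk : ∃ t : Fin (n + 1) → p.A.ι → X → ℂ, (∀ a, IsHS (p.L ^ m) univ (t a)) ∧
      ∃ i x, Rk p.A t i x) {a : F1 C} {A : Atl (2 * n) X} [Finite A.ι] (Pt : Part A)
    (D : Dic C ((B.H b c).J 0) ((L0.pow m).add a) A)
    {Dp : (Fin B.m → ℝ) × (Fin B.m → ℝ) → MovD A}
    (hrel : ∀ᶠ q in 𝓝 (b, c), RelJ C A ((B.H q.1 q.2).J 0) (Dp q)) :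
    ∃ V : Set X, IsOpen V ∧ V.Nonempty ∧ ∀ x ∈ V,
      ∃ t : MTor (Fin (2 * n)) n (𝓝 (b, c)) Dp x,
        Fib (fun v : HolB (BN D.lb) => sOf v.1) t.F0 ∧
          Ver (fun v : HolB (BN D.lb) => sOf v.1) t.T t.F0 := by
  obtain ⟨Dd, Ψ, l, τ, ht, hpv, V, hV, hVne, hVT⟩ :=
    fib_tori hQ (given_mem hQ hG B hb hc) hT p hgg hrk Pt D
  refine ⟨V, hV, hVne, fun x hx => ?_⟩
  obtain ⟨y, hy, z, rfl, T, hTs, hfib, hver⟩ := hVT x hx
  obtain ⟨t, ht1, ht2⟩ := exists_mtor_box hQ B hb hc ht hpv D.jc (π := fun q => q) tendsto_id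
    (Dp := Dp) hrel hy hTs z
  refine ⟨t, ?_, ?_⟩
  · rw [ht2]
    exact hfib
  · rw [ht1, ht2]
    exact hver

end box

/-- **the moving tori** -/
theorem torP : TorP TubT := by
  intro n X _ _ _ _ C Q hQ H0 L0 e hG B b c hb hc hTub p m hm hgg hrk a ha ha' A _ hgood Pt D
  obtain ⟨V, hV, hVne, h⟩ := tori_box hQ hG B hb hc hTub p hgg hrk Pt D
    (Dp := ((boxFam B hb hc a ha ha' m).mf D).movD D.P) (by
      filter_upwards [(B.oB.prod B.oD).mem_nhds (show (b, c) ∈ B.B ×ˢ B.D from ⟨hb, hc⟩)]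
        with q hq
      exact (boxFam B hb hc a ha ha' m).relJ D hq)
  exact ⟨n, Fin (2 * n), inferInstance, V, hV, hVne, h⟩

end

end Crest.Agent.R281.OpG_941
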