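import Crest.Agent.R281.OpA2_450

/-!
# OPEN-INST (row 281, LEMMA OPEN'), part 1: LEMMA A without the moving second operator

`lemmaB`, `lemmaB_filter` : LEMMA A of `OpA2_450` with the hypothesis `D1 j ∘ D0 j = 0`,
`D1 j → d1` replaced by `‖d1 (D0 j w)‖ ≤ δ j * ‖D0 j w‖`, `δ → 0`.
-/

set_option autoImplicit false

open Filter Topology Set

namespace Crest.Agent.R281.OpI_450

open Crest.Agent.R281.Semi_450 Crest.Agent.R281.OpA_450 Module

variable {E0 E1 E2 : Type*} [NormedAddCommGroup E0] [NormedSpace ℂ E0]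
  [NormedAddCommGroup E1] [NormedSpace ℂ E1] [NormedAddCommGroup E2] [NormedSpace ℂ E2]

section A0

variable {d0 : E0 →L[ℂ] E1} [FiniteDimensional ℂ (KK d0)] {π : E0 →L[ℂ] KK d0} {n : ℕ} (b : Basis (Fin n) ℂ (KK d0))

/-- **LEMMA A'**, uniform lower bound given. -/
theorem lemmaB0 (hπ : ∀ v : KK d0, π v = v) {d1 : E1 →L[ℂ] E2} {T0 : E1 →L[ℂ] E0}
    {T1 : E2 →L[ℂ] E1} {H : E1 →L[ℂ] E1}
    (hH : FiniteDimensional ℂ (LinearMap.range (H : E1 →ₗ[ℂ] E1)))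
    (hom : ∀ q, q = d0 (T0 q) + T1 (d1 q) + H q)
    {D0 : ℕ → E0 →L[ℂ] E1} {δ : ℕ → ℝ} (hDD : ∀ j w, ‖d1 (D0 j w)‖ ≤ δ j * ‖D0 j w‖)
    (h0 : Tendsto D0 atTop (𝓝 d0)) (h1 : Tendsto δ atTop (𝓝 0))
    {c : ℝ} (hc : 0 < c) (hb : ∀ j w, π w = 0 → c * ‖w‖ ≤ ‖D0 j w‖)
    (he : ∀ j, 0 < ee π b (D0 j)) :
    ∃ (φ : ℕ → ℕ) (e : ℕ → ℝ) (u : ℕ → KK d0 →ₗ[ℂ] E0) (Qj : ℕ → KK d0 →ₗ[ℂ] E1)
      (Q : KK d0 →ₗ[ℂ] E1), StrictMono φ ∧ (∀ j, 0 < e j) ∧ Tendsto e atTop (𝓝 0) ∧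
      (∀ v, Tendsto (fun j => u j v) atTop (𝓝 (v : E0))) ∧
      (∀ j v, D0 (φ j) (u j v) = (e j : ℂ) • Qj j v) ∧
      (∀ v, Tendsto (fun j => Qj j v) atTop (𝓝 (Q v))) ∧
      (∀ v, Q v ∈ LinearMap.range (H : E1 →ₗ[ℂ] E1)) ∧ Q ≠ 0 := by
  classical
  set e : ℕ → ℝ := fun j => ee π b (D0 j) with hedef
  -- pointwise convergence of `D0 j`
  have hpt : ∀ x, Tendsto (fun j => D0 j x) atTop (𝓝 (d0 x)) := fun x =>
    ((ContinuousLinearMap.apply ℂ E1 x).continuous.tendsto d0).comp h0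
  have hbi : ∀ i, Tendsto (fun j => ‖D0 j (b i : E0)‖) atTop (𝓝 0) := fun i => by
    have h2 : d0 (b i : E0) = 0 := (b i).2
    have h3 := (hpt (b i : E0)).norm
    rwa [h2, norm_zero] at h3
  have hetend : Tendsto e atTop (𝓝 0) := by
    refine squeeze_zero (fun j => ee_nonneg π b (D0 j)) (fun j => ee_le π b (D0 j)) ?_
    have h2 := tendsto_finsetSum (Finset.univ : Finset (Fin n)) fun i _ => hbi i
    simpa using h2
  have hex : ∀ j i, ∃ w, π w = 0 ∧ ‖D0 j ((b i : E0) + w)‖ ≤ 2 * e j := fun j i =>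
    exists_w π b (he j) i
  choose w hw0 hw2 using hex
  have hwt : ∀ i, Tendsto (fun j => w j i) atTop (𝓝 0) := by
    intro i
    rw [tendsto_zero_iff_norm_tendsto_zero]
    have h2 : Tendsto (fun j => c⁻¹ * (‖D0 j (b i : E0)‖ + 2 * e j)) atTop (𝓝 0) := by
      have h3 := ((hbi i).add (hetend.const_mul 2)).const_mul c⁻¹
      simpa using h3
    refine squeeze_zero (fun _ => norm_nonneg _) (fun j => ?_) h2
    rw [← div_eq_inv_mul, le_div_iff₀ hc, mul_comm]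
    refine (hb j _ (hw0 j i)).trans ?_
    have h4 : D0 j (w j i) = D0 j ((b i : E0) + w j i) - D0 j (b i : E0) := by
      rw [map_add]; abel
    rw [h4]
    have h5 := norm_sub_le (D0 j ((b i : E0) + w j i)) (D0 j (b i : E0))
    have h6 := hw2 j i
    linarith
  set q : ℕ → Fin n → E1 := fun j i => ((e j : ℂ)⁻¹) • D0 j ((b i : E0) + w j i) with hq
  have hec : ∀ j, (e j : ℂ) ≠ 0 := fun j => by exact_mod_cast (he j).ne'
  have hen : ∀ j, ‖(e j : ℂ)‖ = e j := fun j => by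
    rw [Complex.norm_real, Real.norm_of_nonneg (he j).le]
  have hq1 : ∀ j i, D0 j ((b i : E0) + w j i) = (e j : ℂ) • q j i := fun j i => by
    rw [hq, smul_inv_smul₀ (hec j)]
  have hq2 : ∀ j i, ‖q j i‖ ≤ 2 := by
    intro j i
    rw [hq]
    refine (norm_smul_le _ _).trans ?_
    rw [norm_inv, hen, inv_mul_le_iff₀ (he j), mul_comm]
    exact hw2 j i
  have hqD : ∀ j i, ‖d1 (q j i)‖ ≤ |δ j| * 2 := fun j i => by
    have h2 : ‖d1 (q j i)‖ ≤ δ j * ‖q j i‖ := by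
      rw [hq, map_smul, norm_smul, norm_smul, norm_inv, hen]
      have h3 := mul_le_mul_of_nonneg_left (hDD j ((b i : E0) + w j i)) (inv_nonneg.2 (he j).le)
      refine h3.trans (le_of_eq ?_)
      ring
    refine h2.trans ((mul_le_mul_of_nonneg_right (le_abs_self _) (norm_nonneg _)).trans ?_)
    exact mul_le_mul_of_nonneg_left (hq2 j i) (abs_nonneg _)
  set Q' : ℕ → Fin n → E1 := fun j i => q j i - D0 j (T0 (q j i)) with hQ'
  have hid : ∀ j i, Q' j i = H (q j i) +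
      ((d0 - D0 j) (T0 (q j i)) + T1 (d1 (q j i))) := by
    intro j i
    have h2 := hom (q j i)
    rw [sub_apply, hQ']
    show q j i - D0 j (T0 (q j i)) = _
    rw [sub_eq_iff_eq_add]
    exact h2.trans (by abel)
  have herr : ∀ i, Tendsto (fun j => (d0 - D0 j) (T0 (q j i)) + T1 (d1 (q j i)))
      atTop (𝓝 0) := by
    intro i
    have h00 : Tendsto (fun j => ‖d0 - D0 j‖) atTop (𝓝 0) := by
      have := (tendsto_const_nhds (x := d0)).sub h0
      simpa using this.norm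
    have h11 : Tendsto (fun j => |δ j|) atTop (𝓝 0) := by
      simpa using h1.abs
    rw [tendsto_zero_iff_norm_tendsto_zero]
    have h2 : Tendsto (fun j => ‖d0 - D0 j‖ * (‖T0‖ * 2) + ‖T1‖ * (|δ j| * 2)) atTop
        (𝓝 0) := by
      have h3 := (h00.mul_const (‖T0‖ * 2)).add ((h11.mul_const 2).const_mul ‖T1‖)
      simpa using h3
    refine squeeze_zero (fun _ => norm_nonneg _) (fun j => ?_) h2
    refine (norm_add_le _ _).trans (add_le_add ?_ ?_)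
    · refine ((d0 - D0 j).le_opNorm _).trans (mul_le_mul_of_nonneg_left ?_ (norm_nonneg _))
      exact (T0.le_opNorm _).trans (mul_le_mul_of_nonneg_left (hq2 j i) (norm_nonneg _))
    · refine (T1.le_opNorm _).trans (mul_le_mul_of_nonneg_left ?_ (norm_nonneg _))
      exact hqD j i
  -- compactness
  have hprop : ProperSpace (LinearMap.range (H : E1 →ₗ[ℂ] E1)) := FiniteDimensional.proper ℂ _
  set r : ℕ → (Fin n → LinearMap.range (H : E1 →ₗ[ℂ] E1)) := fun j i =>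
    ⟨H (q j i), ⟨q j i, rfl⟩⟩ with hr
  have hrb : ∀ j, r j ∈ Metric.closedBall (0 : Fin n → LinearMap.range (H : E1 →ₗ[ℂ] E1))
      (‖H‖ * 2) := by
    intro j
    rw [mem_closedBall_zero_iff, pi_norm_le_iff_of_nonneg (by positivity)]
    intro i
    exact (H.le_opNorm _).trans (mul_le_mul_of_nonneg_left (hq2 j i) (norm_nonneg _))
  obtain ⟨Q0, -, φ, hφ, hlim⟩ := tendsto_subseq_of_bounded Metric.isBounded_closedBall hrb
  have hHlim : ∀ i, Tendsto (fun j => H (q (φ j) i)) atTop (𝓝 (Q0 i : E1)) := fun i =>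
    (continuous_subtype_val.tendsto _).comp ((tendsto_pi_nhds.1 hlim) i)
  have hQlim : ∀ i, Tendsto (fun j => Q' (φ j) i) atTop (𝓝 (Q0 i : E1)) := by
    intro i
    have h2 := (hHlim i).add ((herr i).comp hφ.tendsto_atTop)
    rw [add_zero] at h2
    refine h2.congr fun j => ?_
    rw [hid]
    rfl
  set u' : ℕ → Fin n → E0 := fun j i => (b i : E0) + w j i - (e j : ℂ) • T0 (q j i) with hu'
  have hu'D : ∀ j i, D0 j (u' j i) = (e j : ℂ) • Q' j i := by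
    intro j i
    rw [hu', map_sub, map_smul, hq1, hQ', smul_sub]
  have hu't : ∀ i, Tendsto (fun j => u' j i) atTop (𝓝 (b i : E0)) := by
    intro i
    have h2 : Tendsto (fun j => (e j : ℂ) • T0 (q j i)) atTop (𝓝 0) := by
      rw [tendsto_zero_iff_norm_tendsto_zero]
      have h3 : Tendsto (fun j => e j * (‖T0‖ * 2)) atTop (𝓝 0) := by
        simpa using hetend.mul_const (‖T0‖ * 2)
      refine squeeze_zero (fun _ => norm_nonneg _) (fun j => ?_) h3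
      refine (norm_smul_le _ _).trans ?_
      rw [hen]
      refine mul_le_mul_of_nonneg_left ?_ (he j).le
      exact (T0.le_opNorm _).trans (mul_le_mul_of_nonneg_left (hq2 j i) (norm_nonneg _))
    have h4 := ((tendsto_const_nhds (x := (b i : E0))).add (hwt i)).sub h2
    rw [add_zero, sub_zero] at h4
    exact h4
  refine ⟨φ, fun j => e (φ j), fun j => b.constr ℂ (u' (φ j)), fun j => b.constr ℂ (Q' (φ j)),
    b.constr ℂ (fun i => (Q0 i : E1)), hφ, fun j => he _, hetend.comp hφ.tendsto_atTop,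
    fun v => ?_, fun j v => ?_, fun v => ?_, fun v => ?_, ?_⟩
  · simp only [Basis.constr_apply_fintype]
    have h2 : (v : E0) = ∑ i, b.equivFun v i • (b i : E0) := by
      conv_lhs => rw [← b.sum_equivFun v]
      rw [Submodule.coe_sum]
      rfl
    rw [h2]
    exact tendsto_finsetSum _ fun i _ => ((hu't i).comp hφ.tendsto_atTop).const_smul _
  · simp only [Basis.constr_apply_fintype]
    rw [map_sum, Finset.smul_sum]
    refine Finset.sum_congr rfl fun i _ => ?_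
    rw [map_smul, hu'D, smul_comm]
  · simp only [Basis.constr_apply_fintype]
    exact tendsto_finsetSum _ fun i _ => (hQlim i).const_smul _
  · simp only [Basis.constr_apply_fintype]
    exact Submodule.sum_mem _ fun i _ => Submodule.smul_mem _ _ (Q0 i).2
  · intro hQ0
    have h2 : ∀ i, (Q0 i : E1) = 0 := fun i => by
      have h3 := congrArg (fun T : KK d0 →ₗ[ℂ] E1 => T (b i)) hQ0
      simpa [Basis.constr_basis] using h3
    have hstep := fun j => step b hπ T0 (D := D0 (φ j)) (e := e (φ j)) rfl (he _) (w (φ j))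
      (q (φ j)) (Q' (φ j)) (hw0 _) (hq1 _) (hq2 _) (fun i => rfl)
    have h3 : Tendsto (fun j => (∑ i, ‖Q' (φ j) i‖) + (n * ∑ l,
        ‖((LinearMap.toContinuousLinearMap (b.coord l)).comp (π.comp T0) : E1 →L[ℂ] ℂ)‖ * 2) *
        e (φ j)) atTop (𝓝 0) := by
      have h4 : Tendsto (fun j => ∑ i, ‖Q' (φ j) i‖) atTop (𝓝 0) := by
        have h5 := tendsto_finsetSum (Finset.univ : Finset (Fin n)) fun i _ => (hQlim i).norm
        simpa [h2] using h5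
      have h6 := h4.add ((hetend.comp hφ.tendsto_atTop).const_mul (n * ∑ l,
        ‖((LinearMap.toContinuousLinearMap (b.coord l)).comp (π.comp T0) : E1 →L[ℂ] ℂ)‖ * 2))
      rw [mul_zero, add_zero] at h6
      exact h6
    have h4 := ge_of_tendsto h3 (Eventually.of_forall hstep)
    linarith

end A0

/-- **LEMMA A'.** -/
theorem lemmaB [CompleteSpace E0] {d0 : E0 →L[ℂ] E1} {d1 : E1 →L[ℂ] E2} {T0 : E1 →L[ℂ] E0}
    {T1 : E2 →L[ℂ] E1} {H : E1 →L[ℂ] E1}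
    (hH : FiniteDimensional ℂ (LinearMap.range (H : E1 →ₗ[ℂ] E1)))
    (hom : ∀ q, q = d0 (T0 q) + T1 (d1 q) + H q) (hLP : LP d0)
    {D0 : ℕ → E0 →L[ℂ] E1} {δ : ℕ → ℝ} (hDD : ∀ j w, ‖d1 (D0 j w)‖ ≤ δ j * ‖D0 j w‖)
    (h0 : Tendsto D0 atTop (𝓝 d0)) (h1 : Tendsto δ atTop (𝓝 0))
    {N : ℕ} (hN : Ker d0 N) (hneg : ∀ j, ¬ Ker (D0 j) N) :
    ∃ (φ : ℕ → ℕ) (e : ℕ → ℝ) (u : ℕ → KK d0 →ₗ[ℂ] E0) (Qj : ℕ → KK d0 →ₗ[ℂ] E1)
      (Q : KK d0 →ₗ[ℂ] E1), StrictMono φ ∧ (∀ j, 0 < e j) ∧ Tendsto e atTop (𝓝 0) ∧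
      (∀ v, Tendsto (fun j => u j v) atTop (𝓝 (v : E0))) ∧
      (∀ j v, D0 (φ j) (u j v) = (e j : ℂ) • Qj j v) ∧
      (∀ v, Tendsto (fun j => Qj j v) atTop (𝓝 (Q v))) ∧
      (∀ v, Q v ∈ LinearMap.range (H : E1 →ₗ[ℂ] E1)) ∧ Q ≠ 0 := by
  classical
  have hfd : FiniteDimensional ℂ (KK d0) := finiteDimensional_KK hLP
  obtain ⟨π, hπ⟩ := Submodule.ClosedComplemented.of_finiteDimensional (𝕜 := ℂ) (KK d0)
  obtain ⟨c, hc, hcb⟩ := bounded_below hLP π hπ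
  set b := Module.finBasis ℂ (KK d0) with hb
  -- `N ≤ dim ker d0`
  have hNle : N ≤ finrank ℂ (KK d0) := by
    obtain ⟨v, hv, hv0⟩ := hN
    let v' : Fin N → KK d0 := fun i => ⟨v i, hv0 i⟩
    have hv' : LinearIndependent ℂ v' := by
      apply LinearIndependent.of_comp (KK d0).subtype
      exact hv
    simpa using hv'.fintype_card_le_finrank
  -- tail
  have hev : ∀ᶠ j in atTop, ‖D0 j - d0‖ < c / 2 := by
    have := (tendsto_iff_norm_sub_tendsto_zero.1 h0)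
    exact this.eventually (gt_mem_nhds (by linarith))
  obtain ⟨J, hJ⟩ := eventually_atTop.1 hev
  have hbd : ∀ j w, π w = 0 → c / 2 * ‖w‖ ≤ ‖D0 (j + J) w‖ := by
    intro j w hw
    have h2 := hcb w hw
    have h3 : ‖(D0 (j + J) - d0) w‖ ≤ c / 2 * ‖w‖ :=
      ((D0 (j + J) - d0).le_opNorm w).trans
        (mul_le_mul_of_nonneg_right (hJ _ (by omega)).le (norm_nonneg _))
    have h4 : d0 w = D0 (j + J) w - (D0 (j + J) - d0) w := by
      rw [sub_apply]; abel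
    have h5 := norm_sub_le (D0 (j + J) w) ((D0 (j + J) - d0) w)
    rw [← h4] at h5
    linarith
  have he : ∀ j, 0 < ee π b (D0 (j + J)) := by
    intro j
    refine lt_of_le_of_ne (ee_nonneg π b _) fun h => hneg (j + J) ?_
    exact (ker_of_ee_zero π b hπ (by linarith : (0 : ℝ) < c / 2) (hbd j) h.symm).mono hNle
  have htail : Tendsto (fun j : ℕ => j + J) atTop atTop := tendsto_add_atTop_nat J
  obtain ⟨φ, e, u, Qj, Q, hφ, h2, h3, h4, h5, h6, h7, h8⟩ := lemmaB0 b hπ hH hom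
    (D0 := fun j => D0 (j + J)) (δ := fun j => δ (j + J)) (fun j w => hDD _ w)
    (h0.comp htail) (h1.comp htail) (by linarith : (0 : ℝ) < c / 2) hbd he
  exact ⟨fun j => φ j + J, e, u, Qj, Q, fun i j hij => Nat.add_lt_add_right (hφ hij) J,
    h2, h3, h4, h5, h6, h7, h8⟩

/-- **LEMMA A'**, filter form: openness of `Ker _ N` at `p₁` unless there is a bad sequence. -/
theorem lemmaB_filter [CompleteSpace E0] {d0 : E0 →L[ℂ] E1} {d1 : E1 →L[ℂ] E2}
    {T0 : E1 →L[ℂ] E0} {T1 : E2 →L[ℂ] E1} {H : E1 →L[ℂ] E1}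
    (hH : FiniteDimensional ℂ (LinearMap.range (H : E1 →ₗ[ℂ] E1)))
    (hom : ∀ q, q = d0 (T0 q) + T1 (d1 q) + H q) (hLP : LP d0)
    {P : Type*} {l : Filter P} [l.IsCountablyGenerated]
    {D0 : P → E0 →L[ℂ] E1} {δ : P → ℝ}
    (hDD : ∀ᶠ p in l, ∀ w, ‖d1 (D0 p w)‖ ≤ δ p * ‖D0 p w‖)
    (h0 : Tendsto D0 l (𝓝 d0)) (h1 : Tendsto δ l (𝓝 0)) {N : ℕ} (hN : Ker d0 N)
    (hno : ∀ (p : ℕ → P) (e : ℕ → ℝ) (u : ℕ → KK d0 →ₗ[ℂ] E0) (Qj : ℕ → KK d0 →ₗ[ℂ] E1)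
      (Q : KK d0 →ₗ[ℂ] E1), Tendsto p atTop l → (∀ j, 0 < e j) → Tendsto e atTop (𝓝 0) →
      (∀ v, Tendsto (fun j => u j v) atTop (𝓝 (v : E0))) →
      (∀ j v, D0 (p j) (u j v) = (e j : ℂ) • Qj j v) →
      (∀ v, Tendsto (fun j => Qj j v) atTop (𝓝 (Q v))) →
      (∀ v, Q v ∈ LinearMap.range (H : E1 →ₗ[ℂ] E1)) → Q = 0) :
    ∀ᶠ p in l, Ker (D0 p) N := by
  by_contra hcon
  rw [not_eventually] at hcon
  have h2 : ∃ᶠ p in l, ¬ Ker (D0 p) N ∧ ∀ w, ‖d1 (D0 p w)‖ ≤ δ p * ‖D0 p w‖ :=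
    hcon.and_eventually hDD
  obtain ⟨p, hp, hpf⟩ := exists_seq_forall_of_frequently h2
  obtain ⟨φ, e, u, Qj, Q, hφ, h3, h4, h5, h6, h7, h8, h9⟩ := lemmaB hH hom hLP
    (D0 := fun j => D0 (p j)) (δ := fun j => δ (p j)) (fun j => (hpf j).2)
    (h0.comp hp) (h1.comp hp) hN (fun j => (hpf j).1)
  exact h9 (hno (fun j => p (φ j)) e u Qj Q (hp.comp hφ.tendsto_atTop) h3 h4 h5 h6 h7 h8)

end Crest.Agent.R281.OpI_450
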