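import Crest.Agent.R281.OpI1_450
import Mathlib.Analysis.Normed.Operator.Extend
import Mathlib.Analysis.Normed.Module.Completion

/-!
# OPEN-INST (row 281, LEMMA OPEN'), part 2: completions and LEMMA A on a dense subspace

* `Cp p`, `io p`, `xt` : completion for a seminorm, extension of linear maps
* `open_abs` : LEMMA A for spaces of smooth sections (seminorms on plain vector spaces): either the
  kernels persist, with convergence, or there is a bad sequence of SMOOTH objects.
-/

set_option autoImplicit false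

open Filter Topology Set

namespace Crest.Agent.R281.OpI_450

open Crest.Agent.R281.Semi_450 Crest.Agent.R281.OpA_450 Module

noncomputable section

section compl

variable {V W : Type*} [AddCommGroup V] [Module ℂ V] [AddCommGroup W] [Module ℂ W]

/-- `V` with the seminorm `p` -/
def Nm (_p : Seminorm ℂ V) : Type _ := V

instance (p : Seminorm ℂ V) : AddCommGroup (Nm p) := inferInstanceAs (AddCommGroup V)

instance (p : Seminorm ℂ V) : Module ℂ (Nm p) := inferInstanceAs (Module ℂ V)

instance (p : Seminorm ℂ V) : SeminormedAddCommGroup (Nm p) :=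
  AddGroupSeminorm.toSeminormedAddCommGroup (E := Nm p) p.toAddGroupSeminorm

theorem norm_Nm (p : Seminorm ℂ V) (v : Nm p) : ‖v‖ = p v := rfl

instance (p : Seminorm ℂ V) : NormedSpace ℂ (Nm p) :=
  ⟨fun c v => (map_smul_eq_mul p c v).le⟩

/-- the completion of `V` for the seminorm `p` -/
abbrev Cp (p : Seminorm ℂ V) : Type _ := UniformSpace.Completion (Nm p)

/-- `V → Cp p` -/
def io (p : Seminorm ℂ V) : V →ₗ[ℂ] Cp p :=
  ((UniformSpace.Completion.toComplₗᵢ (𝕜 := ℂ) (E := Nm p)).toLinearMap : Nm p →ₗ[ℂ] Cp p)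

theorem norm_io (p : Seminorm ℂ V) (v : V) : ‖io p v‖ = p v :=
  UniformSpace.Completion.norm_coe (E := Nm p) v

theorem dense_io (p : Seminorm ℂ V) : DenseRange (io p) :=
  UniformSpace.Completion.denseRange_coe (α := Nm p)

/-- extension of a linear map to the completions -/
def xt (p : Seminorm ℂ V) (q : Seminorm ℂ W) (T : V →ₗ[ℂ] W) : Cp p →L[ℂ] Cp q :=
  (io q ∘ₗ T).extendOfNorm (io p)

variable {p : Seminorm ℂ V} {q : Seminorm ℂ W} {T : V →ₗ[ℂ] W}

theorem xt_io (h : ∃ C, ∀ v, q (T v) ≤ C * p v) (v : V) : xt p q T (io p v) = io q (T v) := by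
  refine LinearMap.extendOfNorm_eq (f := io q ∘ₗ T) (e := io p) (dense_io p) ?_ v
  obtain ⟨C, hC⟩ := h
  refine ⟨C, fun v => ?_⟩
  rw [LinearMap.comp_apply, norm_io, norm_io]
  exact hC v

/-- two continuous functions on the completion agree if they agree on `V` -/
theorem io_ext {Z : Type*} [TopologicalSpace Z] [T2Space Z] {f g : Cp p → Z} (hf : Continuous f)
    (hg : Continuous g) (h : ∀ v, f (io p v) = g (io p v)) (x : Cp p) : f x = g x :=
  congrFun ((dense_io p).equalizer hf hg (funext h)) x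

theorem io_le {f g : Cp p → ℝ} (hf : Continuous f) (hg : Continuous g)
    (h : ∀ v, f (io p v) ≤ g (io p v)) (x : Cp p) : f x ≤ g x :=
  (dense_io p).induction_on (p := fun x => f x ≤ g x) x (isClosed_le hf hg) h

theorem exists_near (x : Cp p) {δ : ℝ} (hδ : 0 < δ) : ∃ v : V, ‖io p v - x‖ < δ := by
  obtain ⟨v, hv⟩ := (dense_io p).exists_dist_lt x hδ
  exact ⟨v, by rwa [← dist_eq_norm, dist_comm]⟩

theorem io_inj (h : ∀ v, p v = 0 → v = 0) {v w : V} (hvw : io p v = io p w) : v = w := by
  rw [← sub_eq_zero]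
  apply h
  rw [← norm_io, map_sub, hvw, sub_self, norm_zero]

theorem xt_le {C : ℝ} (h : ∀ v, q (T v) ≤ C * p v) (x : Cp p) : ‖xt p q T x‖ ≤ C * ‖x‖ := by
  refine io_le (f := fun x => ‖xt p q T x‖) (g := fun x => C * ‖x‖)
    (xt p q T).continuous.norm (continuous_const.mul continuous_norm) (fun v => ?_) x
  show ‖xt p q T (io p v)‖ ≤ C * ‖io p v‖
  rw [xt_io ⟨C, h⟩, norm_io, norm_io]
  exact h v

/-- the range of the extension of an operator of finite rank -/
theorem xt_range (h : ∃ C, ∀ v, q (T v) ≤ C * p v) [FiniteDimensional ℂ (LinearMap.range T)]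
    (x : Cp p) : ∃ w ∈ LinearMap.range T, xt p q T x = io q w := by
  have h1 : IsClosed ((LinearMap.range T).map (io q) : Set (Cp q)) :=
    Submodule.closed_of_finiteDimensional _
  have h2 : xt p q T x ∈ ((LinearMap.range T).map (io q) : Set (Cp q)) := by
    refine (dense_io p).induction_on
      (p := fun x => xt p q T x ∈ ((LinearMap.range T).map (io q) : Set (Cp q))) x
      (h1.preimage (xt p q T).continuous) fun v => ?_
    rw [xt_io h]
    exact ⟨T v, ⟨v, rfl⟩, rfl⟩
  obtain ⟨w, hw, hw2⟩ := h2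
  exact ⟨w, hw, hw2.symm⟩

theorem xt_range_fd (h : ∃ C, ∀ v, q (T v) ≤ C * p v) [FiniteDimensional ℂ (LinearMap.range T)] :
    FiniteDimensional ℂ (LinearMap.range ((xt p q T : Cp p →L[ℂ] Cp q) : Cp p →ₗ[ℂ] Cp q)) := by
  refine Submodule.finiteDimensional_of_le (S₂ := (LinearMap.range T).map (io q)) ?_
  rintro y ⟨x, rfl⟩
  obtain ⟨w, hw, h2⟩ := xt_range h x
  exact ⟨w, hw, h2.symm⟩

end compl

end

end Crest.Agent.R281.OpI_450
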