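import Mathlib.Analysis.InnerProductSpace.Projection.Basic
import Mathlib.Analysis.Normed.Operator.NormedSpace
import Mathlib.LinearAlgebra.FiniteDimensional.Basic
import Mathlib.LinearAlgebra.Dimension.Free

/-!
# Row 281, RK-OPEN (helper396), part 3: a lower bound for `dim ker (D p)` alone gives
convergence of the kernels

`D p → D₁` in operator norm, `K = ker D₁` finite dimensional, `D₁` bounded below on a closed
complement of `K`. If (eventually) `dim ker (D p) ≥ dim K`, then there are linear maps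
`S p : K → ker (D p)` with `S p u → u` in `E` for every `u ∈ K`.
(No least squares, no regularity: for `v ∈ ker (D p)` the complementary part is small.)

* `lift_of_inj`  : one operator
* `lifts`, `lifts_orth` : the families
-/

set_option autoImplicit false
set_option linter.unusedSectionVars false

open Set Filter Topology

namespace Crest.Agent.R281.Rko_396

section One

variable {E F : Type*} [NormedAddCommGroup E] [NormedSpace ℂ E]
  [NormedAddCommGroup F] [NormedSpace ℂ F]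

/-- one operator: `T` near `D₁`, an injective map `J : K → ker T` can be replaced by a section of
the projection `π` -/
theorem lift_of_inj (K : Submodule ℂ E) [FiniteDimensional ℂ K] (D₁ T : E →L[ℂ] F)
    (hK : ∀ u ∈ K, D₁ u = 0) (π : E →ₗ[ℂ] K) (hπ : ∀ u : K, π u = u) {c δ : ℝ}
    (hδc : δ < c) (hδ0 : 0 ≤ δ)
    (hbd : ∀ v : E, π v = 0 → c * ‖v‖ ≤ ‖D₁ v‖) (hT : ∀ v, ‖(D₁ - T) v‖ ≤ δ * ‖v‖)
    (J : K →ₗ[ℂ] E) (hJ : Function.Injective J) (hJT : ∀ u, T (J u) = 0) :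
    ∃ S : K →ₗ[ℂ] E, (∀ u, T (S u) = 0) ∧ (∀ u, π (S u) = u) ∧
      ∀ u, ‖S u - u‖ ≤ δ / (c - δ) * ‖u‖ := by
  have hcd : 0 < c - δ := sub_pos.2 hδc
  -- the complementary part of a kernel vector is small
  have key : ∀ v : E, T v = 0 → ‖v - (π v : E)‖ ≤ δ / (c - δ) * ‖π v‖ := by
    intro v hv
    have h1 : π (v - (π v : E)) = 0 := by rw [map_sub, hπ, sub_self]
    have h2 := hbd _ h1
    have h3 : D₁ (v - (π v : E)) = (D₁ - T) v := by
      rw [map_sub, hK _ (π v).2, sub_zero, sub_apply, hv, sub_zero]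
    rw [h3] at h2
    have h4 := h2.trans (hT v)
    have h5 : ‖v‖ ≤ ‖π v‖ + ‖v - (π v : E)‖ := by
      have : v = (π v : E) + (v - (π v : E)) := by abel
      calc ‖v‖ = ‖(π v : E) + (v - (π v : E))‖ := by rw [← this]
        _ ≤ ‖(π v : E)‖ + ‖v - (π v : E)‖ := norm_add_le _ _
        _ = _ := rfl
    have h6 : c * ‖v - (π v : E)‖ ≤ δ * (‖π v‖ + ‖v - (π v : E)‖) :=
      h4.trans (mul_le_mul_of_nonneg_left h5 hδ0)
    rw [div_mul_eq_mul_div, le_div_iff₀ hcd]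
    nlinarith
  -- `π ∘ J` is bijective
  have hinj : Function.Injective (π ∘ₗ J : K →ₗ[ℂ] K) := by
    rw [← LinearMap.ker_eq_bot, LinearMap.ker_eq_bot']
    intro u hu
    have h1 := key (J u) (hJT u)
    have h2 : π (J u) = 0 := hu
    rw [h2] at h1
    simp only [ZeroMemClass.coe_zero, sub_zero, norm_zero, mul_zero] at h1
    have h3 : J u = 0 := norm_le_zero_iff.1 h1
    exact hJ (by rw [h3, map_zero])
  set e : K ≃ₗ[ℂ] K := LinearEquiv.ofInjectiveEndo (π ∘ₗ J) hinj with he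
  have hee : ∀ u, π (J (e.symm u)) = u := by
    intro u
    have : (π ∘ₗ J) (e.symm u) = u := by
      have h := e.apply_symm_apply u
      rw [he, LinearEquiv.coe_ofInjectiveEndo] at h
      exact h
    exact this
  refine ⟨J ∘ₗ (e.symm : K →ₗ[ℂ] K), fun u => hJT _, fun u => hee u, fun u => ?_⟩
  have h1 := key (J (e.symm u)) (hJT _)
  rw [hee] at h1
  exact h1

end One

section Fam

variable {E F : Type*} [NormedAddCommGroup E] [NormedSpace ℂ E]
  [NormedAddCommGroup F] [NormedSpace ℂ F]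

/-- **family version**; `π` = any (continuous or not) projection onto `K` -/
theorem lifts {P : Type*} {l : Filter P} (D : P → E →L[ℂ] F) (D₁ : E →L[ℂ] F)
    (hD : Tendsto D l (𝓝 D₁)) (K : Submodule ℂ E) [FiniteDimensional ℂ K]
    (hK : ∀ u ∈ K, D₁ u = 0) (π : E →ₗ[ℂ] K) (hπ : ∀ u : K, π u = u) {c : ℝ} (hc : 0 < c)
    (hbd : ∀ v : E, π v = 0 → c * ‖v‖ ≤ ‖D₁ v‖)
    (hJ : ∀ᶠ p in l, ∃ J : K →ₗ[ℂ] E, Function.Injective J ∧ ∀ u, D p (J u) = 0) :
    ∃ S : P → K →ₗ[ℂ] E, (∀ᶠ p in l, ∀ u, D p (S p u) = 0) ∧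
      ∀ u : K, Tendsto (fun p => S p u) l (𝓝 (u : E)) := by
  have hn : Tendsto (fun p => ‖D₁ - D p‖) l (𝓝 0) := by
    have h1 : Tendsto (fun p => D₁ - D p) l (𝓝 (D₁ - D₁)) := tendsto_const_nhds.sub hD
    rw [sub_self] at h1
    simpa using h1.norm
  have hex : ∀ p : P, ∃ S : K →ₗ[ℂ] E, (‖D₁ - D p‖ < c ∧
      ∃ J : K →ₗ[ℂ] E, Function.Injective J ∧ ∀ u, D p (J u) = 0) →
      (∀ u, D p (S u) = 0) ∧ ∀ u : K, ‖S u - u‖ ≤ ‖D₁ - D p‖ / (c - ‖D₁ - D p‖) * ‖u‖ := by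
    intro p
    by_cases h : ‖D₁ - D p‖ < c ∧ ∃ J : K →ₗ[ℂ] E, Function.Injective J ∧ ∀ u, D p (J u) = 0
    · obtain ⟨h1, J, hJ1, hJ2⟩ := h
      obtain ⟨S, hS1, -, hS3⟩ := lift_of_inj K D₁ (D p) hK π hπ h1 (norm_nonneg _) hbd
        (fun v => (D₁ - D p).le_opNorm v) J hJ1 hJ2
      exact ⟨S, fun _ => ⟨hS1, hS3⟩⟩
    · exact ⟨0, fun h' => absurd h' h⟩
  choose S hS using hex
  have hev : ∀ᶠ p in l, ‖D₁ - D p‖ < c ∧
      ∃ J : K →ₗ[ℂ] E, Function.Injective J ∧ ∀ u, D p (J u) = 0 :=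
    (hn.eventually_lt_const hc).and hJ
  refine ⟨S, hev.mono fun p hp => (hS p hp).1, fun u => ?_⟩
  have hlim : Tendsto (fun p => ‖D₁ - D p‖ / (c - ‖D₁ - D p‖) * ‖u‖) l (𝓝 0) := by
    have h1 : Tendsto (fun p => ‖D₁ - D p‖ / (c - ‖D₁ - D p‖)) l (𝓝 (0 / (c - 0))) :=
      hn.div (tendsto_const_nhds.sub hn) (by simpa using hc.ne')
    rw [zero_div] at h1
    simpa using h1.mul_const ‖u‖
  have h2 : Tendsto (fun p => S p u - (u : E)) l (𝓝 0) :=
    squeeze_zero_norm' (hev.mono fun p hp => (hS p hp).2 u) hlim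
  have h3 := h2.add_const (u : E)
  simpa using h3

/-- dimension form: `finrank K ≤ finrank (ker (D p))`, the kernels finite dimensional (or zero
finrank: then `K = 0`) -/
theorem exists_inj_of_finrank_le {K : Submodule ℂ E} [FiniteDimensional ℂ K] {T : E →L[ℂ] F}
    (h : Module.finrank ℂ K ≤ Module.finrank ℂ (LinearMap.ker (T : E →ₗ[ℂ] F))) :
    ∃ J : K →ₗ[ℂ] E, Function.Injective J ∧ ∀ u, T (J u) = 0 := by
  rcases Nat.eq_zero_or_pos (Module.finrank ℂ K) with h0 | h0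
  · have : Subsingleton K := Module.finrank_zero_iff.1 h0
    exact ⟨0, Function.injective_of_subsingleton _, fun u => by simp⟩
  · have hpos : 0 < Module.finrank ℂ (LinearMap.ker (T : E →ₗ[ℂ] F)) := h0.trans_le h
    have : FiniteDimensional ℂ (LinearMap.ker (T : E →ₗ[ℂ] F)) :=
      Module.finite_of_finrank_pos hpos
    obtain ⟨f, hf⟩ := finrank_le_iff_exists_linearMap.1 h
    refine ⟨(LinearMap.ker (T : E →ₗ[ℂ] F)).subtype ∘ₗ f,
      (Submodule.injective_subtype _).comp hf, fun u => ?_⟩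
    exact (f u).2

end Fam

section Hilb

variable {E F : Type*} [NormedAddCommGroup E] [InnerProductSpace ℂ E]
  [NormedAddCommGroup F] [NormedSpace ℂ F]

/-- Hilbert space form, literally the hypotheses of `OpA_693.open_or_seq` + its first
alternative -/
theorem lifts_orth {P : Type*} {l : Filter P} (D : P → E →L[ℂ] F) (D₁ : E →L[ℂ] F)
    (hD : Tendsto D l (𝓝 D₁)) (K : Submodule ℂ E) [FiniteDimensional ℂ K]
    (hK : ∀ u ∈ K, D₁ u = 0) {c : ℝ} (hc : 0 < c)
    (hbd : ∀ v ∈ Kᗮ, c * ‖v‖ ≤ ‖D₁ v‖)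
    (hJ : ∀ᶠ p in l, ∃ J : K →ₗ[ℂ] E, Function.Injective J ∧ ∀ u, D p (J u) = 0) :
    ∃ S : P → K →ₗ[ℂ] E, (∀ᶠ p in l, ∀ u, D p (S p u) = 0) ∧
      ∀ u : K, Tendsto (fun p => S p u) l (𝓝 (u : E)) := by
  refine lifts D D₁ hD K hK (K.orthogonalProjectionOnto : E →ₗ[ℂ] K)
    (fun u => ?_) hc (fun v hv => hbd v ?_) hJ
  · exact K.orthogonalProjectionOnto_mem_subspace_eq_self u
  · have h1 : K.orthogonalProjectionOnto v = 0 := hv
    exact Submodule.orthogonalProjectionOnto_eq_zero_iff.1 h1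

end Hilb

end Crest.Agent.R281.Rko_396
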