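import Crest.Agent.R281.OpI2_450
import Crest.Agent.R281.Rko3_396

/-!
# OPEN-INST (row 281, LEMMA OPEN'), part 3: LEMMA A on spaces of smooth sections

`open_abs`: `V0 --d0--> V1 --d1--> V2` plain complex vector spaces (smooth sections) with seminorms
`p0, p1, p2`, homotopy `T0, T1, H` (and `T0 d0 = 1 - H0`), `H`, `H0` of finite rank; moving
operators `D p`, `p1 ((D p - d0) v) ≤ ε p * p0 v`, `p2 (d1 (D p v)) ≤ ε p * p1 (D p v)`, `ε → 0`;
regularity of the kernels of `D p` in the completion.  Either there is a bad sequence (of smooth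
objects) or the kernels persist: `S p : ker d0 → V0`, `D p (S p v) = 0`, `p0 (S p v - v) → 0`.
-/

set_option autoImplicit false

open Filter Topology Set

namespace Crest.Agent.R281.OpI_450

open Crest.Agent.R281.Semi_450 Crest.Agent.R281.OpA_450 Module

noncomputable section

/-- linear maps on a finite dimensional space which tend to zero on a basis -/
theorem tendsto_of_basis {K E : Type*} [AddCommGroup K] [Module ℂ K] [NormedAddCommGroup E]
    [NormedSpace ℂ E] {n : ℕ} (b : Basis (Fin n) ℂ K) {P : Type*} {l : Filter P}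
    {L : P → K →ₗ[ℂ] E} (h : ∀ i, Tendsto (fun p => L p (b i)) l (𝓝 0)) (v : K) :
    Tendsto (fun p => L p v) l (𝓝 0) := by
  have h1 : ∀ p, L p v = ∑ i, b.repr v i • L p (b i) := by
    intro p
    conv_lhs => rw [← b.sum_repr v]
    rw [map_sum]
    exact Finset.sum_congr rfl fun i _ => map_smul _ _ _
  simp only [h1]
  have h2 := tendsto_finsetSum (Finset.univ : Finset (Fin n)) fun i _ =>
    (h i).const_smul (b.repr v i)
  simpa using h2

section abs

variable {V0 V1 V2 : Type*} [AddCommGroup V0] [Module ℂ V0] [AddCommGroup V1] [Module ℂ V1]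
  [AddCommGroup V2] [Module ℂ V2] {p0 : Seminorm ℂ V0} {p1 : Seminorm ℂ V1}
  {p2 : Seminorm ℂ V2} {d0 : V0 →ₗ[ℂ] V1} {d1 : V1 →ₗ[ℂ] V2} {T0 : V1 →ₗ[ℂ] V0}
  {T1 : V2 →ₗ[ℂ] V1} {H0 : V0 →ₗ[ℂ] V0} {H : V1 →ₗ[ℂ] V1}

/-- `ker d0 → ker (xt d0)` -/
theorem mem_ker_xt (bd0 : ∃ C, ∀ v, p1 (d0 v) ≤ C * p0 v) {v : V0} (hv : d0 v = 0) :
    io p0 v ∈ KK (xt p0 p1 d0) := by
  rw [mem_KK, xt_io bd0, hv, map_zero]

/-- the kernel of the extension consists of smooth vectors -/
theorem ker_smooth (h1z : ∀ v, p1 v = 0 → v = 0)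
    (bd0 : ∃ C, ∀ v, p1 (d0 v) ≤ C * p0 v) (bT0 : ∃ C, ∀ v, p0 (T0 v) ≤ C * p1 v)
    (bH0 : ∃ C, ∀ v, p0 (H0 v) ≤ C * p0 v) [FiniteDimensional ℂ (LinearMap.range H0)]
    (hom0 : ∀ u, u = T0 (d0 u) + H0 u) {x : Cp p0} (hx : xt p0 p1 d0 x = 0) :
    ∃ v, d0 v = 0 ∧ io p0 v = x := by
  have h1 : x = xt p1 p0 T0 (xt p0 p1 d0 x) + xt p0 p0 H0 x := by
    refine io_ext (f := fun x => x)
      (g := fun x => xt p1 p0 T0 (xt p0 p1 d0 x) + xt p0 p0 H0 x) continuous_id
      (((xt p1 p0 T0).continuous.comp (xt p0 p1 d0).continuous).add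
        (xt p0 p0 H0).continuous) (fun v => ?_) x
    show io p0 v = xt p1 p0 T0 (xt p0 p1 d0 (io p0 v)) + xt p0 p0 H0 (io p0 v)
    rw [xt_io bd0, xt_io bT0, xt_io bH0, ← map_add, ← hom0 v]
  rw [hx, map_zero, zero_add] at h1
  obtain ⟨w, -, hw⟩ := xt_range bH0 x
  refine ⟨w, ?_, by rw [← hw]; exact h1.symm⟩
  have h2 : io p1 (d0 w) = 0 := by
    rw [← xt_io bd0, ← hw, ← h1, hx]
  apply h1z
  rw [← norm_io, h2, norm_zero]

/-- `ker d0 ≃ ker (xt d0)` -/
def kerEq (h0z : ∀ v, p0 v = 0 → v = 0) (h1z : ∀ v, p1 v = 0 → v = 0)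
    (bd0 : ∃ C, ∀ v, p1 (d0 v) ≤ C * p0 v) (bT0 : ∃ C, ∀ v, p0 (T0 v) ≤ C * p1 v)
    (bH0 : ∃ C, ∀ v, p0 (H0 v) ≤ C * p0 v) [FiniteDimensional ℂ (LinearMap.range H0)]
    (hom0 : ∀ u, u = T0 (d0 u) + H0 u) : LinearMap.ker d0 ≃ₗ[ℂ] KK (xt p0 p1 d0) :=
  LinearEquiv.ofBijective
    (((io p0).domRestrict (LinearMap.ker d0)).codRestrict (KK (xt p0 p1 d0))
      fun v => mem_ker_xt bd0 v.2)
    ⟨fun v w h => Subtype.ext (io_inj h0z (congrArg Subtype.val h)), fun x => by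
      obtain ⟨v, hv, h2⟩ := ker_smooth h1z bd0 bT0 bH0 hom0 x.2
      exact ⟨⟨v, hv⟩, Subtype.ext h2⟩⟩

/-- **LEMMA A on smooth sections** -/
theorem open_abs (h0z : ∀ v, p0 v = 0 → v = 0) (h1z : ∀ v, p1 v = 0 → v = 0)
    (bd0 : ∃ C, ∀ v, p1 (d0 v) ≤ C * p0 v) (bd1 : ∃ C, ∀ v, p2 (d1 v) ≤ C * p1 v)
    (bT0 : ∃ C, ∀ v, p0 (T0 v) ≤ C * p1 v) (bT1 : ∃ C, ∀ v, p1 (T1 v) ≤ C * p2 v)
    (bH0 : ∃ C, ∀ v, p0 (H0 v) ≤ C * p0 v) (bH : ∃ C, ∀ v, p1 (H v) ≤ C * p1 v)
    [FiniteDimensional ℂ (LinearMap.range H0)] [FiniteDimensional ℂ (LinearMap.range H)]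
    (hom0 : ∀ u, u = T0 (d0 u) + H0 u) (hom : ∀ q, q = d0 (T0 q) + T1 (d1 q) + H q)
    {P : Type*} {l : Filter P} [l.IsCountablyGenerated] (D : P → V0 →ₗ[ℂ] V1) (ε : P → ℝ)
    (hε : Tendsto ε l (𝓝 0)) (hD : ∀ᶠ p in l, ∀ v, p1 (D p v - d0 v) ≤ ε p * p0 v)
    (hD1 : ∀ᶠ p in l, ∀ v, p2 (d1 (D p v)) ≤ ε p * p1 (D p v))
    (hreg : ∀ᶠ p in l, ∀ v : ℕ → V0,
      (∀ δ > 0, ∃ N, ∀ m ≥ N, ∀ k ≥ N, p0 (v m - v k) < δ) →
      Tendsto (fun m => p1 (D p (v m))) atTop (𝓝 0) →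
      ∃ w, Tendsto (fun m => p0 (v m - w)) atTop (𝓝 0))
    (hno : ∀ (p : ℕ → P) (e : ℕ → ℝ) (u : ℕ → LinearMap.ker d0 →ₗ[ℂ] V0)
      (Qj : ℕ → LinearMap.ker d0 →ₗ[ℂ] V1) (Q : LinearMap.ker d0 →ₗ[ℂ] V1),
      Tendsto p atTop l → (∀ j, 0 < e j) → Tendsto e atTop (𝓝 0) →
      (∀ v, Tendsto (fun j => p0 (u j v - v)) atTop (𝓝 0)) →
      (∀ j v, D (p j) (u j v) = (e j : ℂ) • Qj j v) →
      (∀ v, Tendsto (fun j => p1 (Qj j v - Q v)) atTop (𝓝 0)) →
      (∀ v, Q v ∈ LinearMap.range H) → Q = 0) :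
    FiniteDimensional ℂ (LinearMap.ker d0) ∧
    ∃ S : P → LinearMap.ker d0 →ₗ[ℂ] V0, (∀ᶠ p in l, ∀ v, D p (S p v) = 0) ∧
      ∀ v, Tendsto (fun p => p0 (S p v - v)) l (𝓝 0) := by
  classical
  set jE := kerEq h0z h1z bd0 bT0 bH0 hom0 with hjE
  have hjE' : ∀ v, ((jE v : KK (xt p0 p1 d0)) : Cp p0) = io p0 v := fun v => rfl
  -- the limit complex
  have hHfd := xt_range_fd bH
  have hom' : ∀ q, q = xt p0 p1 d0 (xt p1 p0 T0 q) + xt p2 p1 T1 (xt p1 p2 d1 q) +
      xt p1 p1 H q := by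
    intro q
    refine io_ext (f := fun q => q) (g := fun q => xt p0 p1 d0 (xt p1 p0 T0 q) +
      xt p2 p1 T1 (xt p1 p2 d1 q) + xt p1 p1 H q) continuous_id
      (((xt p0 p1 d0).continuous.comp (xt p1 p0 T0).continuous).add
        ((xt p2 p1 T1).continuous.comp (xt p1 p2 d1).continuous) |>.add
        (xt p1 p1 H).continuous) (fun v => ?_) q
    show io p1 v = xt p0 p1 d0 (xt p1 p0 T0 (io p1 v)) + xt p2 p1 T1 (xt p1 p2 d1 (io p1 v)) +
      xt p1 p1 H (io p1 v)
    rw [xt_io bT0, xt_io bd0, xt_io bd1, xt_io bT1, xt_io bH, ← map_add, ← map_add, ← hom v]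
  have hLP : LP (xt p0 p1 d0) := by
    refine ⟨xt p1 p0 T0, ?_⟩
    have hfd := xt_range_fd bH0
    refine Submodule.finiteDimensional_of_le (S₂ := LinearMap.range
      ((xt p0 p0 H0 : Cp p0 →L[ℂ] Cp p0) : Cp p0 →ₗ[ℂ] Cp p0)) ?_
    rintro y ⟨x, rfl⟩
    refine ⟨-x, ?_⟩
    have h1 : x = xt p1 p0 T0 (xt p0 p1 d0 x) + xt p0 p0 H0 x := by
      refine io_ext (f := fun x => x)
        (g := fun x => xt p1 p0 T0 (xt p0 p1 d0 x) + xt p0 p0 H0 x) continuous_id
        (((xt p1 p0 T0).continuous.comp (xt p0 p1 d0).continuous).add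
          (xt p0 p0 H0).continuous) (fun v => ?_) x
      show io p0 v = xt p1 p0 T0 (xt p0 p1 d0 (io p0 v)) + xt p0 p0 H0 (io p0 v)
      rw [xt_io bd0, xt_io bT0, xt_io bH0, ← map_add, ← hom0 v]
    show xt p0 p0 H0 (-x) = xt p1 p0 T0 (xt p0 p1 d0 x) - x
    rw [map_neg]
    nth_rw 3 [h1]
    abel
  have hfdK : FiniteDimensional ℂ (KK (xt p0 p1 d0)) := finiteDimensional_KK hLP
  have hfdk : FiniteDimensional ℂ (LinearMap.ker d0) := jE.symm.finiteDimensional
  refine ⟨hfdk, ?_⟩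
  set b := Module.finBasis ℂ (LinearMap.ker d0) with hb
  -- bounds of the moving operators
  obtain ⟨C0, hC0⟩ := bd0
  have bD : ∀ᶠ p in l, ∃ C, ∀ v, p1 (D p v) ≤ C * p0 v := by
    filter_upwards [hD] with p hp
    refine ⟨ε p + C0, fun v => ?_⟩
    have h1 : D p v = (D p v - d0 v) + d0 v := by abel
    rw [h1, add_mul]
    exact (map_add_le_add p1 _ _).trans (add_le_add (hp v) (hC0 v))
  have hDx : ∀ᶠ p in l, ∀ x, ‖xt p0 p1 (D p) x - xt p0 p1 d0 x‖ ≤ ε p * ‖x‖ := by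
    filter_upwards [hD, bD] with p hp hb x
    refine io_le (f := fun x => ‖xt p0 p1 (D p) x - xt p0 p1 d0 x‖) (g := fun x => ε p * ‖x‖)
      (((xt p0 p1 (D p)).continuous.sub (xt p0 p1 d0).continuous).norm)
      (continuous_const.mul continuous_norm) (fun v => ?_) x
    show ‖xt p0 p1 (D p) (io p0 v) - xt p0 p1 d0 (io p0 v)‖ ≤ ε p * ‖io p0 v‖
    rw [xt_io hb, xt_io ⟨C0, hC0⟩, ← map_sub, norm_io, norm_io]
    exact hp v
  have hlimD : Tendsto (fun p => xt p0 p1 (D p)) l (𝓝 (xt p0 p1 d0)) := by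
    rw [tendsto_iff_norm_sub_tendsto_zero]
    have hεa : Tendsto (fun p => |ε p|) l (𝓝 0) := by simpa using hε.abs
    refine squeeze_zero' (Eventually.of_forall fun _ => norm_nonneg _) ?_ hεa
    filter_upwards [hDx] with p hp
    refine ContinuousLinearMap.opNorm_le_bound _ (abs_nonneg _) fun x => ?_
    exact (hp x).trans (mul_le_mul_of_nonneg_right (le_abs_self _) (norm_nonneg _))
  have hDD : ∀ᶠ p in l, ∀ x, ‖xt p1 p2 d1 (xt p0 p1 (D p) x)‖ ≤ ε p * ‖xt p0 p1 (D p) x‖ := by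
    filter_upwards [hD1, bD] with p hp hb x
    refine io_le (f := fun x => ‖xt p1 p2 d1 (xt p0 p1 (D p) x)‖)
      (g := fun x => ε p * ‖xt p0 p1 (D p) x‖)
      (((xt p1 p2 d1).continuous.comp (xt p0 p1 (D p)).continuous).norm)
      (continuous_const.mul (xt p0 p1 (D p)).continuous.norm) (fun v => ?_) x
    show ‖xt p1 p2 d1 (xt p0 p1 (D p) (io p0 v))‖ ≤ ε p * ‖xt p0 p1 (D p) (io p0 v)‖
    rw [xt_io hb, xt_io bd1, norm_io, norm_io]
    exact hp v
  -- kernel vectors of the moving operators are smooth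
  have hkerD : ∀ᶠ p in l, ∀ x, xt p0 p1 (D p) x = 0 → ∃ v, io p0 v = x := by
    filter_upwards [hreg, bD] with p hp hb x hx
    choose v hv using fun m : ℕ => exists_near (p := p0) x
      (show (0 : ℝ) < 1 / ((m : ℝ) + 1) by positivity)
    have hvx : Tendsto (fun m => io p0 (v m)) atTop (𝓝 x) := by
      rw [tendsto_iff_norm_sub_tendsto_zero]
      exact squeeze_zero (fun _ => norm_nonneg _) (fun m => (hv m).le)
        tendsto_one_div_add_atTop_nhds_zero_nat
    obtain ⟨w, hw⟩ := hp v (by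
      intro δ hδ
      obtain ⟨N, hN⟩ := (Metric.cauchySeq_iff.1 hvx.cauchySeq) δ hδ
      refine ⟨N, fun m hm k hk => ?_⟩
      have h1 := hN m hm k hk
      rwa [dist_eq_norm, ← map_sub, norm_io] at h1) (by
      have h1 := ((xt p0 p1 (D p)).continuous.tendsto x).comp hvx
      rw [hx] at h1
      have h2 := h1.norm
      rw [norm_zero] at h2
      refine h2.congr fun m => ?_
      show ‖xt p0 p1 (D p) (io p0 (v m))‖ = _
      rw [xt_io hb, norm_io])
    refine ⟨w, ?_⟩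
    have h3 : Tendsto (fun m => io p0 (v m)) atTop (𝓝 (io p0 w)) := by
      rw [tendsto_iff_norm_sub_tendsto_zero]
      refine hw.congr fun m => ?_
      rw [← map_sub, norm_io]
    exact tendsto_nhds_unique h3 hvx
  -- LEMMA A
  have hKer : ∀ᶠ p in l, Ker (xt p0 p1 (D p)) (finrank ℂ (LinearMap.ker d0)) := by
    refine lemmaB_filter hHfd hom' hLP hDD hlimD hε ?_ ?_
    · refine ⟨fun i => io p0 (b i), ?_, fun i => mem_ker_xt ⟨C0, hC0⟩ (b i).2⟩
      have h1 : LinearIndependent ℂ fun i => jE (b i) :=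
        b.linearIndependent.map' (jE : LinearMap.ker d0 →ₗ[ℂ] KK (xt p0 p1 d0)) jE.ker
      exact h1.map' (KK (xt p0 p1 d0)).subtype (Submodule.ker_subtype _)
    · intro p e u Qj Q hp he he0 hu hDu hQ hQr
      -- a tail on which the operators are bounded
      obtain ⟨J, hJ⟩ := eventually_atTop.1 (hp.eventually (bD.and hDx))
      have hN : ∀ j i, ∃ v : V0, ‖io p0 v - u (j + J) (jE (b i))‖ <
          e (j + J) * (1 / ((j : ℝ) + 1)) :=
        fun j i => exists_near _ (mul_pos (he _) (by positivity))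
      choose v hv using hN
      -- preimages of the limit
      have hw : ∀ i, ∃ w ∈ LinearMap.range H, Q (jE (b i)) = io p1 w := by
        intro i
        obtain ⟨x, hx⟩ := hQr (jE (b i))
        obtain ⟨w, hw, h2⟩ := xt_range bH x
        exact ⟨w, hw, hx.symm.trans h2⟩
      choose w hwr hw using hw
      set u' : ℕ → LinearMap.ker d0 →ₗ[ℂ] V0 := fun j => b.constr ℂ (v j) with hu'
      have hu'b : ∀ j i, u' j (b i) = v j i := fun j i => b.constr_basis ℂ _ _
      set Qj' : ℕ → LinearMap.ker d0 →ₗ[ℂ] V1 := fun j =>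
        ((e (j + J) : ℂ)⁻¹) • (D (p (j + J)) ∘ₗ u' j) with hQj'
      set Q' : LinearMap.ker d0 →ₗ[ℂ] V1 := b.constr ℂ w with hQ'
      have hQ'io : ∀ v, io p1 (Q' v) = Q (jE v) := by
        intro v
        have h1 : io p1 ∘ₗ Q' = Q ∘ₗ (jE : LinearMap.ker d0 →ₗ[ℂ] KK (xt p0 p1 d0)) := by
          refine b.ext fun i => ?_
          show io p1 (Q' (b i)) = Q (jE (b i))
          rw [hw i, hQ', b.constr_basis]
        exact LinearMap.congr_fun h1 v
      have hec : ∀ j, (e j : ℂ) ≠ 0 := fun j => by exact_mod_cast (he j).ne'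
      have hen : ∀ j, ‖(e j : ℂ)‖ = e j := fun j => by
        rw [Complex.norm_real, Real.norm_of_nonneg (he j).le]
      have hsh : Tendsto (fun j : ℕ => j + J) atTop atTop := tendsto_add_atTop_nat J
      have hone : Tendsto (fun j : ℕ => 1 / ((j : ℝ) + 1)) atTop (𝓝 0) :=
        tendsto_one_div_add_atTop_nhds_zero_nat
      have hres := hno (fun j => p (j + J)) (fun j => e (j + J)) u' Qj' Q' (hp.comp hsh)
        (fun j => he _) (he0.comp hsh) ?_ ?_ ?_ ?_
      · ext x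
        obtain ⟨y, rfl⟩ := jE.surjective x
        rw [← hQ'io, hres]
        simp
      · -- convergence of `u'`
        intro x
        have h1 : Tendsto (fun j => (io p0 ∘ₗ u' j - (u (j + J)) ∘ₗ
            (jE : LinearMap.ker d0 →ₗ[ℂ] KK (xt p0 p1 d0))) x) atTop (𝓝 0) := by
          refine tendsto_of_basis b (fun i => ?_) x
          rw [tendsto_zero_iff_norm_tendsto_zero]
          have h2 := (he0.comp hsh).mul hone
          rw [mul_zero] at h2
          refine squeeze_zero (fun _ => norm_nonneg _) (fun j => ?_) h2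
          show ‖io p0 (u' j (b i)) - u (j + J) (jE (b i))‖ ≤ _
          rw [hu'b]
          exact (hv j i).le
        have h2 := h1.add ((hu (jE x)).comp hsh)
        rw [zero_add, hjE'] at h2
        have h3 : Tendsto (fun j => io p0 (u' j x)) atTop (𝓝 (io p0 x)) := by
          refine h2.congr fun j => ?_
          show io p0 (u' j x) - u (j + J) (jE x) + u (j + J) (jE x) = _
          abel
        rw [tendsto_iff_norm_sub_tendsto_zero] at h3
        refine h3.congr fun j => ?_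
        rw [← map_sub, norm_io]
      · intro j x
        show D (p (j + J)) (u' j x) = (e (j + J) : ℂ) • ((e (j + J) : ℂ)⁻¹ •
          D (p (j + J)) (u' j x))
        rw [smul_inv_smul₀ (hec _)]
      · -- convergence of `Qj'`
        intro x
        have h1 : Tendsto (fun j => (io p1 ∘ₗ Qj' j - (Qj (j + J)) ∘ₗ
            (jE : LinearMap.ker d0 →ₗ[ℂ] KK (xt p0 p1 d0))) x) atTop (𝓝 0) := by
          refine tendsto_of_basis b (fun i => ?_) x
          rw [tendsto_zero_iff_norm_tendsto_zero]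
          have hn : Tendsto (fun j => ‖xt p0 p1 (D (p (j + J)))‖) atTop
              (𝓝 ‖xt p0 p1 d0‖) := (hlimD.comp (hp.comp hsh)).norm
          have h2 := hn.mul hone
          rw [mul_zero] at h2
          refine squeeze_zero (fun _ => norm_nonneg _) (fun j => ?_) h2
          have hbj := (hJ (j + J) (by omega)).1
          have h3 : (io p1 ∘ₗ Qj' j - (Qj (j + J)) ∘ₗ
              (jE : LinearMap.ker d0 →ₗ[ℂ] KK (xt p0 p1 d0))) (b i) =
              ((e (j + J) : ℂ)⁻¹) • xt p0 p1 (D (p (j + J)))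
                (io p0 (v j i) - u (j + J) (jE (b i))) := by
            show io p1 (((e (j + J) : ℂ)⁻¹) • D (p (j + J)) (u' j (b i))) -
              Qj (j + J) (jE (b i)) = _
            rw [map_sub, hDu, xt_io hbj, smul_sub, inv_smul_smul₀ (hec _), hu'b, map_smul]
          rw [h3, norm_smul, norm_inv, hen, inv_mul_le_iff₀ (he _)]
          refine ((xt p0 p1 (D (p (j + J)))).le_opNorm _).trans ?_
          calc ‖xt p0 p1 (D (p (j + J)))‖ * ‖io p0 (v j i) - u (j + J) (jE (b i))‖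
              ≤ ‖xt p0 p1 (D (p (j + J)))‖ * (e (j + J) * (1 / ((j : ℝ) + 1))) :=
                mul_le_mul_of_nonneg_left (hv j i).le (norm_nonneg _)
            _ = e (j + J) * (‖xt p0 p1 (D (p (j + J)))‖ * (1 / ((j : ℝ) + 1))) := by ring
        have h2 := h1.add ((hQ (jE x)).comp hsh)
        rw [zero_add, ← hQ'io] at h2
        have h3 : Tendsto (fun j => io p1 (Qj' j x)) atTop (𝓝 (io p1 (Q' x))) := by
          refine h2.congr fun j => ?_
          show io p1 (Qj' j x) - Qj (j + J) (jE x) + Qj (j + J) (jE x) = _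
          abel
        rw [tendsto_iff_norm_sub_tendsto_zero] at h3
        refine h3.congr fun j => ?_
        rw [← map_sub, norm_io]
      · intro x
        rw [hQ', Basis.constr_apply_fintype]
        exact Submodule.sum_mem _ fun i _ => Submodule.smul_mem _ _ (hwr i)
  -- the lifts
  obtain ⟨π, hπ⟩ := Submodule.ClosedComplemented.of_finiteDimensional (𝕜 := ℂ)
    (KK (xt p0 p1 d0))
  obtain ⟨c, hc, hcb⟩ := bounded_below hLP π hπ
  obtain ⟨S, hS1, hS2⟩ := Crest.Agent.R281.Rko_396.lifts (fun p => xt p0 p1 (D p))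
    (xt p0 p1 d0) hlimD (KK (xt p0 p1 d0)) (fun u hu => hu) (π : Cp p0 →ₗ[ℂ] _) hπ hc hcb (by
      filter_upwards [hKer] with p hp
      obtain ⟨f, hf, hf0⟩ := hp
      have e1 : finrank ℂ (LinearMap.ker d0) = finrank ℂ (KK (xt p0 p1 d0)) := jE.finrank_eq
      set b' := b.map jE with hb'
      refine ⟨b'.constr ℂ f, ?_, fun x => ?_⟩
      · rw [← LinearMap.ker_eq_bot, LinearMap.ker_eq_bot']
        intro m hm
        rw [Basis.constr_apply_fintype] at hm
        have h2 := (Fintype.linearIndependent_iff.1 hf) _ hm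
        have h3 : b'.equivFun m = 0 := funext h2
        exact b'.equivFun.map_eq_zero_iff.1 h3
      · rw [Basis.constr_apply_fintype, map_sum]
        exact Finset.sum_eq_zero fun i _ => by rw [map_smul, hf0, smul_zero])
  -- back to smooth vectors
  have hchoice : ∀ p i, ∃ v : V0,
      (∃ v', io p0 v' = S p (jE (b i))) → io p0 v = S p (jE (b i)) := by
    intro p i
    by_cases h : ∃ v', io p0 v' = S p (jE (b i))
    · obtain ⟨v', hv'⟩ := h
      exact ⟨v', fun _ => hv'⟩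
    · exact ⟨0, fun h' => absurd h' h⟩
  choose g hg using hchoice
  have hgood : ∀ᶠ p in l, ∀ v, io p0 (b.constr ℂ (g p) v) = S p (jE v) := by
    filter_upwards [hkerD, hS1] with p h1 h2 v
    have h3 : io p0 ∘ₗ b.constr ℂ (g p) = S p ∘ₗ
        (jE : LinearMap.ker d0 →ₗ[ℂ] KK (xt p0 p1 d0)) := by
      refine b.ext fun i => ?_
      show io p0 (b.constr ℂ (g p) (b i)) = S p (jE (b i))
      rw [b.constr_basis]
      exact hg p i (h1 _ (h2 _))
    exact LinearMap.congr_fun h3 v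
  refine ⟨fun p => b.constr ℂ (g p), ?_, fun v => ?_⟩
  · filter_upwards [hgood, hS1, bD] with p h1 h2 h3 v
    apply h1z
    rw [← norm_io, ← xt_io h3, h1 v, h2, norm_zero]
  · have h1 := hS2 (jE v)
    rw [tendsto_iff_norm_sub_tendsto_zero] at h1
    refine h1.congr' ?_
    filter_upwards [hgood] with p hp
    rw [hjE', ← hp v, ← map_sub, norm_io]

end abs

end

end Crest.Agent.R281.OpI_450
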