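import Crest.Agent.R281.OpG5_941
import Crest.Agent.R281.OpF5_330
import Crest.Agent.R281.OpL1_450
import Crest.Agent.R281.Rkd7_386
import Crest.Agent.R281.OT9_763
import Crest.Agent.R281.Rank281_902

/-!
# Row 281, OPEN' (helper330): the join of the tori

* `relJ_mf` : the moving structure of the box read in the dictionary
* `torP`    : the leaf `TorP` of 941's `openP_of`
-/

set_option autoImplicit false
set_option linter.unusedSectionVars false
set_option maxSynthPendingDepth 3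

open Set Filter Topology Complex
open scoped ContDiff ComplexConjugate

namespace Crest.Agent.R281.OpJ_330

open Crest.Agent.R275.Geo Crest.Agent.R275.Core144 Crest.Agent.R275.GC293
open Crest.Agent.R273.Defs_333 Crest.Agent.R273.Kah_333 Crest.Agent.R273.HM_333
open Crest.Agent.R281.HkR_835 Crest.Agent.R281.PL_713
open Crest.Agent.R281.Alg_998 Crest.Agent.R281.RkD_902
open Crest.Agent.R281.Rkd_386 Crest.Agent.R281.OpG_941 Crest.Agent.R281.OpT_330
open Crest.Agent.R281.OpB_849 (H0S sOf GG)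
open Crest.Agent.R281.OpI_450 (HolB)

noncomputable section

section rel

variable {V X : Type} [NormedAddCommGroup V] [NormedSpace ℝ V]
  [TopologicalSpace X] {C : RCh V X} {n : ℕ} {E : Type} [NormedAddCommGroup E] [NormedSpace ℝ E]
  {p1 : E}

/-- the moving structure of a family on `C`, read in the dictionary -/
theorem relJ_mf (F : CFam n C E p1) {A : Atl n X} (D : Dic C (F.J p1) (F.L p1) A) {q : E}
    (hq : q ∈ F.O) : OT_763.RelJ C A (F.J q) ((F.mf D).movD D.P q) := by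
  obtain ⟨A', hA'⟩ := F.jc q hq
  refine OT_763.relJ_of (J' := pJ C (ofAtl A) D.κ (F.J q)) (fun a x hx => rfl) fun i a z hz v => ?_
  have hm : z ∈ mov C (ofAtl A) (D.κ a) a := D.hκ.mem hz.1
  rw [← D.jc.cmp.dmt_t hm hz, pJ_d D.jc.cmp D.hκ _ hz.1, hA'.J_tr (Cmp.mt_ov hm hz),
    D.jc.cmp.dmt_t hm hz, Cmp.mt_t hm]

/-- the join, for any family -/
theorem tori_join {r c : ℕ} (F : CFam n C E p1) {A : Atl n X} (D : Dic C (F.J p1) (F.L p1) A)
    {G : GG D.lb c} (bs : Module.Basis (Fin c) ℂ (H0S D.lb)) (hbs : ∀ a, G.s a = sOf (bs a).1)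
    {D₀ : Set (Cn r)} {Ψ : Cn r × Cn r → X} {l : Fin (2 * r) → Cn r → Cn r}
    (hli : ∀ y ∈ D₀, LinearIndependent ℝ fun k => l k y) {V₀ : Set X} (hV : IsOpen V₀)
    (hne : V₀.Nonempty) (hall : ∀ x ∈ V₀, ∃ y ∈ D₀, ∃ z, Ψ (y, z) = x ∧
      ∀ T : (Fin (2 * r) → ℝ) ≃L[ℝ] Cn r, (∀ s, T s = ∑ k, s k • l k y) →
        HTor A T (fun s => Ψ (y, T s)) ∧ Fib G.s (fun s => Ψ (y, T s)) ∧
          Ver G.s T (fun s => Ψ (y, T s)))
    (hmt : ∀ y ∈ D₀, ∀ T : (Fin (2 * r) → ℝ) ≃L[ℝ] Cn r, (∀ s, T s = ∑ k, s k • l k y) → ∀ z,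
      ∃ t : MTor (Fin (2 * r)) r (𝓝 p1) ((F.mf D).movD D.P) (Ψ (y, z)), t.T = T ∧
        t.F0 = fun s => Ψ (y, T s)) : F.Tori D := by
  refine ⟨r, Fin (2 * r), inferInstance, V₀, hV, hne, fun x hx => ?_⟩
  obtain ⟨y, hy, z, rfl, h1⟩ := hall x hx
  obtain ⟨T, hT⟩ := exists_T (hli y hy)
  obtain ⟨-, hfib, hver⟩ := h1 T hT
  obtain ⟨t, ht1, ht2⟩ := hmt y hy T hT z
  refine ⟨t, ?_, ?_⟩
  · rw [ht2]
    exact OpL_450.fib_all bs hbs hfib
  · rw [ht1, ht2]
    exact OpL_450.ver_all bs hbs hver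

end rel


theorem torP : TorP fun n _ _ _ _ _ C Q e H => Tub_831.Tub n C Q e H := by
  intro n X _ _ _ _ C Q hQ H0 L0 e hG B b c hb hc hTub p m hm hgg hrk a ha ha' A _ hA P D
  obtain ⟨D₀, Ψ, l, τ, ht, hpv⟩ := hTub
  have hg1 : Given Q (B.H b c) L0 e := Rank281_902.given_box hQ hG B hb hc
  -- the bundle of the dictionary is globally generated
  have hg : Crest.Agent.R281.RkD_902.GG D.lb := gg_dic (H := B.H b c) p hgg D
  have hg' : ∀ i, ∀ x ∈ (A.e i).source, ∃ s, IsHS D.lb univ s ∧ s i x ≠ 0 := by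
    intro i x hx
    obtain ⟨s, hs, j, hj, hne⟩ := hg x
    refine ⟨s, hs, ?_⟩
    rw [hs.tr i j x ⟨hx, hj⟩ (mem_univ x)]
    exact mul_ne_zero (LB.ne_zero _ i j x) hne
  obtain ⟨k, G, bs, hbs⟩ := OpL_450.exists_GGB (L := D.lb) P hg'
  have hsp : Span G := fun s hs => OpL_450.span_of bs hbs hs
  obtain ⟨V₀, hV, hne, hall⟩ := fibver_dic (H := B.H b c) hQ hg1 ht hpv D G hsp
    (rk_dic (H := B.H b c) p hrk D)
  have hrel : ∀ᶠ q in 𝓝 ((b, c) : (Fin B.m → ℝ) × (Fin B.m → ℝ)),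
      OT_763.RelJ C A ((B.H q.1 q.2).J 0) (((boxFam B hb hc a ha ha' m).mf D).movD D.P q) := by
    filter_upwards [(boxFam B hb hc a ha ha' m).op.mem_nhds (boxFam B hb hc a ha ha' m).mem]
      with q hq using relJ_mf (boxFam B hb hc a ha ha' m) D hq
  exact tori_join (boxFam B hb hc a ha ha' m) D bs hbs ht.lli hV hne hall fun y hy T hT z =>
    OT_763.exists_mtor_box hQ B hb hc ht hpv D.jc (L := 𝓝 (b, c)) (π := id) tendsto_id hrel hy hT z

end

end Crest.Agent.R281.OpJ_330
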