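import Crest.Agent.R281.PL4_713

/-!
# R281 (S0424), PREQ (helper713), part 5: the converse of DICT-L

* `ofHM h : PL (ofAtl A)` : unitary frames and Chern connection of `h : HM L`, `L : LB A`
* `potHM h : Pot (ofHM h)`, `potHM_lb : (potHM h).lb = L`, `potHM_w`
* `ofHM_F11`  : the curvature is of type (1,1); `ofHM_F : F = -2 f2 (cur)`
-/

set_option autoImplicit false
set_option linter.unusedSectionVars false
set_option maxSynthPendingDepth 3

open Set Filter Topology Complex
open scoped ContDiff ComplexConjugate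

namespace Crest.Agent.R281.PL_713

open Crest.Agent.R281.HkR_835 Crest.Agent.R281.Ti_846
open Crest.Agent.R275.Geo Crest.Agent.R275.Core144 Crest.Agent.R273.Defs_333
open Crest.Agent.R273.Kah_333 Crest.Agent.R273.HM_333

noncomputable section

variable {X : Type} [TopologicalSpace X] {n : ℕ} {A : Atl n X} {L : LB A} (h : HM L)

/-- `√w` in the chart -/
theorem sqrt_wt {i : A.ι} {z : Cn n} (hz : z ∈ (A.e i).target) :
    Real.exp (-h.wt i z) = h.w i ((A.e i).symm z) := by
  show Real.exp (- -Real.log (h.w i ((A.e i).symm z))) = _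
  rw [neg_neg, Real.exp_log (h.pos i _ ((A.e i).map_target hz))]

theorem wtC {i : A.ι} {z : Cn n} (hz : z ∈ (A.e i).target) : ContDiffAt ℝ ∞ (h.wt i) z :=
  (wt_smooth h i).contDiffAt ((A.e i).open_target.mem_nhds hz)

theorem gC {i j : A.ι} {z : Cn n} (hz : z ∈ (ofAtl A).ov i j) :
    DifferentiableAt ℂ (fun z => L.g i j ((A.e i).symm z)) z :=
  (L.hol i j).differentiableAt ((RCh.isOpen_ov (C := ofAtl A) i j).mem_nhds hz)

/-- the transition function in the unitary frames -/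
def gu (i j : A.ι) (z : Cn n) : ℂ :=
  L.g i j ((A.e i).symm z) * exp (((1 / 2) * (h.wt j ((ofAtl A).t i j z) - h.wt i z) : ℝ) : ℂ)

theorem gu_norm {i j : A.ι} {z : Cn n} (hz : z ∈ (ofAtl A).ov i j) :
    ‖L.g i j ((A.e i).symm z)‖ ^ 2 = Real.exp (h.wt i z - h.wt j ((ofAtl A).t i j z)) := by
  have hz1 : z ∈ (A.e i).target := hz.1
  have hz2 : (ofAtl A).t i j z ∈ (A.e j).target := (RCh.t_mem hz).1
  have hx : (A.e i).symm z ∈ (A.e i).source ∩ (A.e j).source := ⟨(A.e i).map_target hz1, hz.2⟩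
  have e2 : (A.e j).symm ((ofAtl A).t i j z) = (A.e i).symm z := (A.e j).left_inv hz.2
  have h1 := h.tr i j _ hx
  have h2 := sqrt_wt h hz1
  have h3 := sqrt_wt h hz2
  rw [e2] at h3
  rw [← h2, ← h3] at h1
  have h4 : Real.exp (h.wt i z - h.wt j ((ofAtl A).t i j z)) =
      Real.exp (h.wt i z) * Real.exp (-h.wt j ((ofAtl A).t i j z)) := by
    rw [← Real.exp_add]
    ring_nf
  rw [h4, h1]
  have h5 : Real.exp (h.wt i z) * Real.exp (-h.wt i z) = 1 := by
    rw [← Real.exp_add, add_neg_cancel, Real.exp_zero]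
  linear_combination (-‖L.g i j ((A.e i).symm z)‖ ^ 2) * h5

/-- the derivative of the transition function -/
theorem gu_deriv {i j : A.ι} {z : Cn n} (hz : z ∈ (ofAtl A).ov i j) (v : Cn n) :
    fderiv ℝ (gu h i j) z v = I * (((1 / 2) * fderiv ℝ (h.wt j) ((ofAtl A).t i j z)
      (I • fderiv ℝ ((ofAtl A).t i j) z v) - (1 / 2) * fderiv ℝ (h.wt i) z (I • v) : ℝ) : ℂ) *
      gu h i j z := by
  have hz1 : z ∈ (A.e i).target := hz.1
  have hz2 : (ofAtl A).t i j z ∈ (A.e j).target := (RCh.t_mem hz).1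
  set G : Cn n → ℂ := fun z => L.g i j ((A.e i).symm z) with hG
  have hGd : DifferentiableAt ℝ G z := (gC (L := L) hz).restrictScalars ℝ
  have hGI : ∀ v, fderiv ℝ G z (I • v) = I * fderiv ℝ G z v := fun v => fderiv_hol_I (gC (L := L) hz) v
  have hwi : HasFDerivAt (h.wt i) _ z := ((wtC h hz1).differentiableAt (by simp)).hasFDerivAt
  have hwj : HasFDerivAt (fun y => h.wt j ((ofAtl A).t i j y)) _ z :=
    HasFDerivAt.comp (g := h.wt j) (f := (ofAtl A).t i j) z
      ((wtC h hz2).differentiableAt (by simp)).hasFDerivAt (RCh.t_diff hz).hasFDerivAt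
  set D : Cn n → ℝ := fun w => fderiv ℝ (h.wt j) ((ofAtl A).t i j z)
    (fderiv ℝ ((ofAtl A).t i j) z w) - fderiv ℝ (h.wt i) z w with hD
  -- logarithmic derivative of `|G|²`
  have hn0 : G z ≠ 0 := L.ne_zero i j _
  have key : ∀ w, 2 * (fderiv ℝ G z w * conj (G z)).re = -D w * ‖G z‖ ^ 2 := by
    intro w
    have e1 : (fun y => ‖G y‖ ^ 2) =ᶠ[𝓝 z]
        fun y => Real.exp (h.wt i y - h.wt j ((ofAtl A).t i j y)) := by
      filter_upwards [(RCh.isOpen_ov (C := ofAtl A) i j).mem_nhds hz] with y hy using gu_norm h hy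
    have e2 : HasFDerivAt (fun y => Real.exp (h.wt i y - h.wt j ((ofAtl A).t i j y))) _ z :=
      (hwi.fun_sub hwj).exp
    have e3 : HasFDerivAt (fun y => ‖G y‖ ^ 2) _ z := hGd.hasFDerivAt.norm_sq
    have e4 := e1.fderiv_eq (𝕜 := ℝ)
    rw [e3.fderiv, e2.fderiv] at e4
    have e5 := DFunLike.congr_fun e4 w
    rw [← gu_norm h hz] at e5
    simp only [smul_apply, sub_apply, ContinuousLinearMap.comp_apply, smul_eq_mul,
      innerSL_apply_apply] at e5
    have e6 : (inner ℝ (G z) (fderiv ℝ G z w) : ℝ) = (fderiv ℝ G z w * conj (G z)).re := by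
      rw [Complex.inner, mul_comm]
    rw [e6] at e5
    have e7 : (2 : ℝ) * (fderiv ℝ G z w * conj (G z)).re =
      ‖G z‖ ^ 2 * (fderiv ℝ (h.wt i) z w - fderiv ℝ (h.wt j) ((ofAtl A).t i j z)
        (fderiv ℝ ((ofAtl A).t i j) z w)) := by
      rw [nsmul_eq_mul] at e5
      exact_mod_cast e5
    rw [e7, hD]
    ring
  have hnn : (‖G z‖ ^ 2 : ℝ) ≠ 0 := by positivity
  -- `DG v = G (-(1/2) D v + (i/2) D (i v))`
  have hG2 : fderiv ℝ G z v * conj (G z) = ((-(1 / 2) * D v * ‖G z‖ ^ 2 : ℝ) : ℂ) +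
      I * ((1 / 2 * D (I • v) * ‖G z‖ ^ 2 : ℝ) : ℂ) := by
    have k1 := key v
    have k2 := key (I • v)
    rw [hGI, mul_assoc] at k2
    apply Complex.ext
    · simp only [Complex.add_re, Complex.ofReal_re, Complex.mul_re, Complex.I_re, Complex.I_im,
        Complex.ofReal_im] at k1 k2 ⊢
      linarith
    · simp only [Complex.add_im, Complex.ofReal_im, Complex.mul_im, Complex.I_re, Complex.I_im,
        Complex.ofReal_re, Complex.mul_re] at k1 k2 ⊢
      linarith
  have hcc : G z * conj (G z) = ((‖G z‖ ^ 2 : ℝ) : ℂ) := by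
    rw [Complex.mul_conj, Complex.normSq_eq_norm_sq]
  have hG3 : fderiv ℝ G z v = G z * (((-(1 / 2) * D v : ℝ) : ℂ) + I * ((1 / 2 * D (I • v) : ℝ) : ℂ)) := by
    have hc0 : conj (G z) ≠ 0 := (map_ne_zero _).2 hn0
    refine mul_right_cancel₀ hc0 ?_
    rw [hG2]
    push_cast at hcc ⊢
    linear_combination (1 / 2 * (D v : ℂ) - I * (1 / 2 * (D (I • v) : ℂ))) * hcc
  have g1 : HasFDerivAt (gu h i j) _ z :=
    hGd.hasFDerivAt.mul (Complex.ofRealCLM.hasFDerivAt.comp z
      ((hwj.sub hwi).const_mul (1 / 2))).cexp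
  rw [g1.fderiv]
  simp only [add_apply, smul_apply, smul_eq_mul]
  rw [hG3]
  simp only [hD, gu]
  rw [ofAtl_dt_I hz]
  push_cast
  simp
  ring

/-- **the unitary frames and the Chern connection of a Hermitian line bundle** -/
def ofHM : PL (ofAtl A) where
  g := gu h
  sm i j := by
    have h0 : ContDiffOn ℝ ∞ (fun z => L.g i j ((A.e i).symm z)) ((ofAtl A).ov i j) :=
      (L.hol i j).contDiffOn (A.e j).open_source
    have h1 : ContDiffOn ℝ ∞ (h.wt i) ((ofAtl A).ov i j) :=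
      (wt_smooth h i).mono fun z hz => hz.1
    have h2 : ContDiffOn ℝ ∞ (fun z => h.wt j ((ofAtl A).t i j z)) ((ofAtl A).ov i j) :=
      (wt_smooth h j).comp (RCh.t_smooth (C := ofAtl A) i j) fun z hz => (RCh.t_mem hz).1
    exact h0.mul (Complex.ofRealCLM.contDiff.comp_contDiffOn
      (contDiffOn_const.mul (h2.sub h1))).cexp
  unit i j z hz := by
    have h1 := gu_norm h hz
    rw [gu, norm_mul, Complex.norm_exp, Complex.ofReal_re]
    have h2 : ‖L.g i j ((A.e i).symm z)‖ =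
        Real.exp ((1 / 2) * (h.wt i z - h.wt j ((ofAtl A).t i j z))) := by
      have h3 : ‖L.g i j ((A.e i).symm z)‖ ^ 2 =
          (Real.exp ((1 / 2) * (h.wt i z - h.wt j ((ofAtl A).t i j z)))) ^ 2 := by
        rw [h1, ← Real.exp_nat_mul]
        congr 1
        push_cast
        ring
      exact (pow_left_inj₀ (norm_nonneg _) (Real.exp_pos _).le two_ne_zero).1 h3
    rw [h2, ← Real.exp_add]
    have : (1 / 2) * (h.wt i z - h.wt j ((ofAtl A).t i j z)) +
        (1 / 2) * (h.wt j ((ofAtl A).t i j z) - h.wt i z) = 0 := by ring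
    rw [this, Real.exp_zero]
  coc i j k z hz hz' := by
    have hz1 : z ∈ (A.e i).target := hz.1
    have hx : (A.e i).symm z ∈ (A.e i).source ∩ (A.e j).source ∩ (A.e k).source :=
      ⟨⟨(A.e i).map_target hz1, hz.2⟩, hz'.2⟩
    have e2 : (A.e j).symm ((ofAtl A).t i j z) = (A.e i).symm z := (A.e j).left_inv hz.2
    have e3 : (ofAtl A).t j k ((ofAtl A).t i j z) = (ofAtl A).t i k z := by
      show A.e k ((A.e j).symm ((ofAtl A).t i j z)) = A.e k ((A.e i).symm z)
      rw [e2]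
    simp only [gu]
    rw [e2, e3, ← L.mul i j k _ hx]
    have h4 : exp (((1 / 2) * (h.wt k ((ofAtl A).t i k z) - h.wt i z) : ℝ) : ℂ) =
        exp (((1 / 2) * (h.wt j ((ofAtl A).t i j z) - h.wt i z) : ℝ) : ℂ) *
        exp (((1 / 2) * (h.wt k ((ofAtl A).t i k z) - h.wt j ((ofAtl A).t i j z)) : ℝ) : ℂ) := by
      rw [← Complex.exp_add]
      congr 1
      push_cast
      ring
    rw [h4]
    ring
  th i z := ((1 / 2 : ℝ) • fderiv ℝ (h.wt i) z).comp iL
  th_sm i := by
    have h1 : ContDiffOn ℝ ∞ (fderiv ℝ (h.wt i)) (A.e i).target :=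
      (wt_smooth h i).fderiv_of_isOpen (A.e i).open_target (by simp)
    exact (h1.const_smul (1 / 2 : ℝ)).clm_comp contDiffOn_const
  law i j z hz v := by
    rw [gu_deriv h hz v]
    rfl

@[simp] theorem ofHM_th (i : A.ι) (z v : Cn n) :
    (ofHM h).th i z v = (1 / 2) * fderiv ℝ (h.wt i) z (I • v) := rfl

/-- the holomorphic frames -/
def potHM : Pot (ofHM h) where
  h i z := ((h.wt i z / 2 : ℝ) : ℂ)
  sm i := Complex.ofRealCLM.contDiff.comp_contDiffOn ((wt_smooth h i).div_const 2)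
  eq i z hz v := by
    have h1 : HasFDerivAt (h.wt i) _ z := ((wtC h hz).differentiableAt (by simp)).hasFDerivAt
    have h2 : HasFDerivAt (fun z => ((h.wt i z / 2 : ℝ) : ℂ))
        (Complex.ofRealCLM.comp ((1 / 2 : ℝ) • fderiv ℝ (h.wt i) z)) z := by
      have h3 := Complex.ofRealCLM.hasFDerivAt.comp z (h1.const_mul (1 / 2))
      refine h3.congr_of_eventuallyEq (Eventually.of_forall fun y => ?_)
      show ((h.wt i y / 2 : ℝ) : ℂ) = ((1 / 2 * h.wt i y : ℝ) : ℂ)
      congr 1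
      ring
    rw [h2.fderiv]
    simp only [ofHM_th, ContinuousLinearMap.comp_apply, smul_apply, Complex.ofRealCLM_apply,
      smul_eq_mul, smul_smul, I_mul_I, neg_one_smul, map_neg]
    push_cast
    linear_combination ((1 / 2) * (fderiv ℝ (h.wt i) z v : ℂ)) * I_mul_I

theorem potHM_lb : (potHM h).lb = L := by
  ext i j x
  by_cases hx : x ∈ (A.e i).source ∩ (A.e j).source
  · rw [Pot.lb_g _ hx]
    have e1 : (ofAtl A).t i j (A.e i x) = A.e j x := by
      show A.e j ((A.e i).symm (A.e i x)) = _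
      rw [(A.e i).left_inv hx.1]
    show exp ((h.wt i (A.e i x) / 2 : ℝ) : ℂ) * (L.g i j ((A.e i).symm (A.e i x)) *
      exp (((1 / 2) * (h.wt j ((ofAtl A).t i j (A.e i x)) - h.wt i (A.e i x)) : ℝ) : ℂ)) *
      exp (-((h.wt j (A.e j x) / 2 : ℝ) : ℂ)) = L.g i j x
    rw [e1, (A.e i).left_inv hx.1]
    have h4 : exp ((h.wt i (A.e i x) / 2 : ℝ) : ℂ) *
        exp (((1 / 2) * (h.wt j (A.e j x) - h.wt i (A.e i x)) : ℝ) : ℂ) *
        exp (-((h.wt j (A.e j x) / 2 : ℝ) : ℂ)) = 1 := by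
      rw [← Complex.exp_add, ← Complex.exp_add, ← Complex.exp_zero]
      congr 1
      push_cast
      ring
    linear_combination L.g i j x * h4
  · rw [LB.off _ i j x hx, L.off i j x hx]

theorem potHM_w {i : A.ι} {x : X} (hx : x ∈ (A.e i).source) :
    (potHM h).hm.w i x = h.w i x := by
  have h1 := sqrt_wt h ((A.e i).map_source hx)
  rw [(A.e i).left_inv hx] at h1
  rw [← h1]
  show Real.exp (-2 * (((h.wt i (A.e i x) / 2 : ℝ) : ℂ)).re) = _
  rw [Complex.ofReal_re]
  congr 1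
  ring

theorem ofHM_F {i : A.ι} {x : X} (hx : x ∈ (A.e i).source) (u v : Cn n) :
    (ofHM h).F.w i (A.e i x) u v = -2 * (I * hb (cur h i x) u v).re := by
  have h1 := (potHM h).F_cur hx u v
  rw [h1]
  have h2 : cur (potHM h).hm i x = cur h i x := by
    unfold cur
    apply Crest.Agent.R273.HessB_333.hess_congr
    filter_upwards [(A.e i).open_target.mem_nhds ((A.e i).map_source hx)] with y hy
    unfold HM.wt
    rw [potHM_w h ((A.e i).map_target hy)]
  rw [h2]

/-- the curvature is of type (1,1) -/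
theorem ofHM_F11 : F11 (iJ A) (ofHM h) := by
  intro i z hz u v
  have hx : (A.e i).symm z ∈ (A.e i).source := (A.e i).map_target hz
  have h1 := ofHM_F h hx u v
  have h2 := ofHM_F h hx (I • u) (I • v)
  have e : A.e i ((A.e i).symm z) = z := (A.e i).right_inv hz
  rw [e] at h1 h2
  rw [iJ_apply, iJ_apply, h1, h2, hb_I_left, hb_I_right]
  congr 3
  linear_combination (-hb (cur h i ((A.e i).symm z)) u v) * I_mul_I

end

end Crest.Agent.R281.PL_713
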