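import Crest.Agent.R281.Ti5_846

/-!
# R281 (S0424), PREQ (helper713), part 1: line bundles with connection on a real manifold

Carrier: `RCh V X`, `F2 C` (835), `F1 C` (846).

* `PL C`      : unitary line bundle with connection: transition functions `g i j` (read in the
                chart `i`), connection forms `th i`, `d (g i j) = I (t^* th j - th i) g i j`
* `PL.F`      : curvature `d (th i)`, a closed 2-form `F2 C`
* `PL.pow m`, `PL.add a` (`a : F1 C`): powers, change of the connection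
* `Sec L`     : smooth sections, `ℂ`-module; `Sec.mul : Sec L → Sec L' → Sec (L * L')`
* `db J u`    : `D u (v) + I D u (J v)`, `H0 L J = {u | db J u = 0}`, `HasN L J N`
-/

set_option autoImplicit false
set_option linter.unusedSectionVars false
set_option maxSynthPendingDepth 3

open Set Filter Topology Complex
open scoped ContDiff

namespace Crest.Agent.R281.PL_713

open Crest.Agent.R281.HkR_835 Crest.Agent.R281.Ti_846

noncomputable section

variable {V X : Type} [NormedAddCommGroup V] [NormedSpace ℝ V] [TopologicalSpace X]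
  {C : RCh V X}

/-- derivative of `z ↦ f z v` -/
theorem ap1 {W : Type*} [NormedAddCommGroup W] [NormedSpace ℝ W] {f : V → (V →L[ℝ] W)} {z : V}
    (hf : DifferentiableAt ℝ f z) (v a : V) :
    fderiv ℝ (fun y => f y v) z a = fderiv ℝ f z a v := by
  rw [(hf.hasFDerivAt.clm_apply (hasFDerivAt_const v z)).fderiv]
  simp

theorem sym2 {W : Type*} [NormedAddCommGroup W] [NormedSpace ℝ W] {f : V → W} {z : V}
    (hf : ContDiffAt ℝ ∞ f z) (a b : V) :
    fderiv ℝ (fderiv ℝ f) z a b = fderiv ℝ (fderiv ℝ f) z b a :=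
  (hf.isSymmSndFDerivAt (by
      rw [minSmoothness_of_isRCLikeNormedField]; exact WithTop.coe_le_coe.2 le_top)) a b

/-- the differential of a field of 1-forms, as a bilinear form -/
def dd (f : V → (V →L[ℝ] ℝ)) (z : V) : Bil V := fderiv ℝ f z - (fderiv ℝ f z).flip

@[simp] theorem dd_apply (f : V → (V →L[ℝ] ℝ)) (z u v : V) :
    dd f z u v = fderiv ℝ f z u v - fderiv ℝ f z v u := rfl

/-- unitary line bundle with connection on a space with real charts -/
@[ext] structure PL (C : RCh V X) where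
  g : C.ι → C.ι → V → ℂ
  sm : ∀ i j, ContDiffOn ℝ ∞ (g i j) (C.ov i j)
  unit : ∀ i j, ∀ z ∈ C.ov i j, ‖g i j z‖ = 1
  coc : ∀ i j k, ∀ z ∈ C.ov i j, z ∈ C.ov i k → g i k z = g i j z * g j k (C.t i j z)
  th : C.ι → V → V →L[ℝ] ℝ
  th_sm : ∀ i, ContDiffOn ℝ ∞ (th i) (C.e i).target
  law : ∀ i j, ∀ z ∈ C.ov i j, ∀ v, fderiv ℝ (g i j) z v =
    I * ((th j (C.t i j z) (fderiv ℝ (C.t i j) z v) - th i z v : ℝ) : ℂ) * g i j z

namespace PL

theorem mem_self {i : C.ι} {z : V} (hz : z ∈ (C.e i).target) : z ∈ C.ov i i :=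
  ⟨hz, (C.e i).map_target hz⟩

theorem t_self {i : C.ι} {z : V} (hz : z ∈ (C.e i).target) : C.t i i z = z :=
  (C.e i).right_inv hz

theorem g_ne (L : PL C) {i j : C.ι} {z : V} (hz : z ∈ C.ov i j) : L.g i j z ≠ 0 := by
  intro h
  have := L.unit i j z hz
  rw [h, norm_zero] at this
  exact zero_ne_one this

theorem g_self (L : PL C) {i : C.ι} {z : V} (hz : z ∈ (C.e i).target) : L.g i i z = 1 := by
  have h := L.coc i i i z (mem_self hz) (mem_self hz)
  rw [t_self hz] at h
  have h1 := L.g_ne (mem_self hz)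
  have h2 : L.g i i z * L.g i i z = L.g i i z * 1 := by rw [← h, mul_one]
  exact mul_left_cancel₀ h1 h2

theorem g_diff (L : PL C) {i j : C.ι} {z : V} (hz : z ∈ C.ov i j) :
    DifferentiableAt ℝ (L.g i j) z :=
  ((L.sm i j).contDiffAt ((RCh.isOpen_ov i j).mem_nhds hz)).differentiableAt (by simp)

theorem th_diff (L : PL C) {i : C.ι} {z : V} (hz : z ∈ (C.e i).target) :
    DifferentiableAt ℝ (L.th i) z :=
  ((L.th_sm i).contDiffAt ((C.e i).open_target.mem_nhds hz)).differentiableAt (by simp)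

/-- `conj g = g⁻¹` -/
theorem conj_g (L : PL C) {i j : C.ι} {z : V} (hz : z ∈ C.ov i j) :
    (starRingEnd ℂ) (L.g i j z) * L.g i j z = 1 := by
  rw [mul_comm, Complex.mul_conj, Complex.normSq_eq_norm_sq, L.unit i j z hz]
  norm_num

/-- transformation of the differentials of the connection forms -/
theorem dth_tr (L : PL C) {i j : C.ι} {z : V} (hz : z ∈ C.ov i j) (u v : V) :
    fderiv ℝ (L.th i) z u v - fderiv ℝ (L.th i) z v u =
      fderiv ℝ (L.th j) (C.t i j z) (fderiv ℝ (C.t i j) z u) (fderiv ℝ (C.t i j) z v) -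
        fderiv ℝ (L.th j) (C.t i j z) (fderiv ℝ (C.t i j) z v) (fderiv ℝ (C.t i j) z u) := by
  have hU := RCh.isOpen_ov (C := C) i j
  have hg : ContDiffAt ℝ ∞ (L.g i j) z := (L.sm i j).contDiffAt (hU.mem_nhds hz)
  have hg2 : DifferentiableAt ℝ (fderiv ℝ (L.g i j)) z :=
    (((L.sm i j).fderiv_of_isOpen hU (m := ∞) (by simp)).contDiffAt
      (hU.mem_nhds hz)).differentiableAt (by simp)
  have ht : ContDiffAt ℝ ∞ (C.t i j) z := (RCh.t_smooth i j).contDiffAt (hU.mem_nhds hz)
  have ht' : DifferentiableAt ℝ (fderiv ℝ (C.t i j)) z :=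
    (((RCh.t_smooth i j).fderiv_of_isOpen hU (m := ∞) (by simp)).contDiffAt
      (hU.mem_nhds hz)).differentiableAt (by simp)
  -- the difference form
  set β : V → V →L[ℝ] ℝ := fun y => (L.th j (C.t i j y)).comp (fderiv ℝ (C.t i j) y) - L.th i y
    with hβ
  have h2 : HasFDerivAt (fun y => L.th j (C.t i j y))
      ((fderiv ℝ (L.th j) (C.t i j z)).comp (fderiv ℝ (C.t i j) z)) z :=
    HasFDerivAt.comp (g := L.th j) (f := C.t i j) z (L.th_diff (RCh.t_mem hz).1).hasFDerivAt
      (RCh.t_diff hz).hasFDerivAt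
  have h3 := (h2.clm_comp ht'.hasFDerivAt).sub (L.th_diff hz.1).hasFDerivAt
  have hβd : HasFDerivAt β _ z := h3
  have h4 : ∀ a c, fderiv ℝ β z a c =
      fderiv ℝ (L.th j) (C.t i j z) (fderiv ℝ (C.t i j) z a) (fderiv ℝ (C.t i j) z c) +
        L.th j (C.t i j z) (fderiv ℝ (fderiv ℝ (C.t i j)) z a c) - fderiv ℝ (L.th i) z a c := by
    intro a c
    rw [hβd.fderiv]
    simp [add_comm]
  have h5 : ∀ a c, fderiv ℝ (fderiv ℝ (L.g i j)) z a c =
      I * ((fderiv ℝ β z a c : ℝ) : ℂ) * L.g i j z +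
        I * ((β z c : ℝ) : ℂ) * (I * ((β z a : ℝ) : ℂ) * L.g i j z) := by
    intro a c
    have e1 : (fun y => fderiv ℝ (L.g i j) y c) =ᶠ[𝓝 z]
        fun y => I * ((β y c : ℝ) : ℂ) * L.g i j y := by
      filter_upwards [hU.mem_nhds hz] with y hy
      rw [L.law i j y hy c]
      rfl
    have e2 : fderiv ℝ (fderiv ℝ (L.g i j)) z a c = fderiv ℝ (fun y => fderiv ℝ (L.g i j) y c) z a := by
      rw [(hg2.hasFDerivAt.clm_apply (hasFDerivAt_const c z)).fderiv]
      simp
    have e3 : HasFDerivAt (fun y => β y c) (fderiv ℝ (fun y => β y c) z) z :=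
      ((hβd.differentiableAt.hasFDerivAt.clm_apply (hasFDerivAt_const c z))).differentiableAt.hasFDerivAt
    have e4 : fderiv ℝ (fun y => β y c) z a = fderiv ℝ β z a c :=
      ap1 hβd.differentiableAt c a
    have e5 : HasFDerivAt (fun y => ((β y c : ℝ) : ℂ))
        (Complex.ofRealCLM.comp (fderiv ℝ (fun y => β y c) z)) z :=
      Complex.ofRealCLM.hasFDerivAt.comp z e3
    have e6 : HasFDerivAt (fun y => I * ((β y c : ℝ) : ℂ) * L.g i j y) _ z :=
      ((e5.const_mul I).mul (L.g_diff hz).hasFDerivAt)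
    rw [e2, e1.fderiv_eq, e6.fderiv]
    simp only [add_apply, smul_apply, smul_eq_mul, ContinuousLinearMap.comp_apply,
      Complex.ofRealCLM_apply, e4]
    rw [L.law i j z hz a]
    simp only [hβ]
    push_cast
    simp
    ring
  have h6 : fderiv ℝ β z u v = fderiv ℝ β z v u := by
    have s := sym2 hg u v
    rw [h5, h5] at s
    have hn := L.g_ne hz
    have s2 : I * ((fderiv ℝ β z u v : ℝ) : ℂ) * L.g i j z =
        I * ((fderiv ℝ β z v u : ℝ) : ℂ) * L.g i j z := by
      linear_combination s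
    have s3 := mul_left_cancel₀ I_ne_zero (mul_right_cancel₀ hn s2)
    exact_mod_cast s3
  rw [h4, h4, sym2 ht u v] at h6
  linarith

/-- curvature -/
def F (L : PL C) : F2 C where
  w i := dd (L.th i)
  sm i := by
    have h1 : ContDiffOn ℝ ∞ (fderiv ℝ (L.th i)) (C.e i).target :=
      (L.th_sm i).fderiv_of_isOpen (C.e i).open_target (by simp)
    have h2 : ContDiff ℝ ∞ (fun T : V →L[ℝ] V →L[ℝ] ℝ => T - T.flip) := by
      have : (fun T : V →L[ℝ] V →L[ℝ] ℝ => T - T.flip) =
        fun T => T - ContinuousLinearMap.flipₗᵢ ℝ V V ℝ T := rfl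
      rw [this]
      fun_prop
    exact h2.comp_contDiffOn h1
  alt i z _ u v := by simp
  tr i j z hz u v := by
    rw [dd_apply, dd_apply, L.dth_tr hz]
  closed i z hz a b c := by
    have h0 : ContDiffAt ℝ ∞ (L.th i) z := (L.th_sm i).contDiffAt ((C.e i).open_target.mem_nhds hz)
    have h1 : DifferentiableAt ℝ (fderiv ℝ (L.th i)) z :=
      (((L.th_sm i).fderiv_of_isOpen (C.e i).open_target (m := ∞) (by simp)).contDiffAt
        ((C.e i).open_target.mem_nhds hz)).differentiableAt (by simp)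
    have h2 : ∀ p q r, fderiv ℝ (dd (L.th i)) z p q r =
        fderiv ℝ (fderiv ℝ (L.th i)) z p q r - fderiv ℝ (fderiv ℝ (L.th i)) z p r q := by
      intro p q r
      have g0 : HasFDerivAt (dd (L.th i)) (fderiv ℝ (fderiv ℝ (L.th i)) z -
          ((ContinuousLinearMap.flipₗᵢ ℝ V V ℝ).toContinuousLinearEquiv.toContinuousLinearMap.comp
            (fderiv ℝ (fderiv ℝ (L.th i)) z))) z :=
        h1.hasFDerivAt.sub
          (((ContinuousLinearMap.flipₗᵢ ℝ V V ℝ).toContinuousLinearEquiv.toContinuousLinearMap).hasFDerivAt.comp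
            z h1.hasFDerivAt)
      rw [g0.fderiv]
      simp
    rw [h2, h2, h2, sym2 h0 a b, sym2 h0 b c, sym2 h0 a c]
    ring

@[simp] theorem F_w (L : PL C) (i : C.ι) (z u v : V) :
    L.F.w i z u v = fderiv ℝ (L.th i) z u v - fderiv ℝ (L.th i) z v u := rfl

/-- product of line bundles -/
def mul (L L' : PL C) : PL C where
  g i j z := L.g i j z * L'.g i j z
  sm i j := (L.sm i j).mul (L'.sm i j)
  unit i j z hz := by rw [norm_mul, L.unit i j z hz, L'.unit i j z hz, one_mul]
  coc i j k z hz hz' := by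
    rw [L.coc i j k z hz hz', L'.coc i j k z hz hz']
    ring
  th i z := L.th i z + L'.th i z
  th_sm i := (L.th_sm i).add (L'.th_sm i)
  law i j z hz v := by
    have h : HasFDerivAt (fun z => L.g i j z * L'.g i j z) _ z :=
      ((L.g_diff hz).hasFDerivAt.mul (L'.g_diff hz).hasFDerivAt)
    rw [h.fderiv]
    simp only [add_apply, smul_apply, smul_eq_mul, L.law i j z hz v, L'.law i j z hz v]
    push_cast
    ring

/-- the trivial bundle -/
def one (C : RCh V X) : PL C where
  g _ _ _ := 1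
  sm _ _ := contDiffOn_const
  unit _ _ _ _ := by simp
  coc _ _ _ _ _ _ := by simp
  th _ _ := 0
  th_sm _ := contDiffOn_const
  law i j z hz v := by
    simp

/-- powers -/
def pow (L : PL C) (m : ℕ) : PL C where
  g i j z := L.g i j z ^ m
  sm i j := (L.sm i j).pow m
  unit i j z hz := by rw [norm_pow, L.unit i j z hz, one_pow]
  coc i j k z hz hz' := by rw [L.coc i j k z hz hz', mul_pow]
  th i z := (m : ℝ) • L.th i z
  th_sm i := (L.th_sm i).const_smul (m : ℝ)
  law i j z hz v := by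
    have hn := L.g_ne hz
    rcases Nat.eq_zero_or_pos m with hm | hm
    · subst hm
      simp
    · have h : HasFDerivAt (fun z => L.g i j z ^ m) _ z := ((L.g_diff hz).hasFDerivAt.pow m)
      rw [h.fderiv]
      simp only [smul_apply, smul_eq_mul, L.law i j z hz v]
      have e : L.g i j z ^ m = L.g i j z ^ (m - 1) * L.g i j z := by
        rw [← pow_succ, Nat.sub_add_cancel hm]
      rw [e]
      simp only [nsmul_eq_mul]
      push_cast
      ring

@[simp] theorem mul_g (L L' : PL C) (i j : C.ι) (z : V) :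
    (L.mul L').g i j z = L.g i j z * L'.g i j z := rfl
@[simp] theorem mul_th (L L' : PL C) (i : C.ι) (z : V) :
    (L.mul L').th i z = L.th i z + L'.th i z := rfl
@[simp] theorem pow_g (L : PL C) (m : ℕ) (i j : C.ι) (z : V) :
    (L.pow m).g i j z = L.g i j z ^ m := rfl
@[simp] theorem pow_th (L : PL C) (m : ℕ) (i : C.ι) (z : V) :
    (L.pow m).th i z = (m : ℝ) • L.th i z := rfl

section f1

variable [FiniteDimensional ℝ V] [MeasurableSpace V] [BorelSpace V]

/-- change of the connection by a global real 1-form -/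
def add (L : PL C) (a : F1 C) : PL C where
  g := L.g
  sm := L.sm
  unit := L.unit
  coc := L.coc
  th i z := L.th i z + a.η i z
  th_sm i := (L.th_sm i).add (a.sm i)
  law i j z hz v := by
    rw [L.law i j z hz v, add_apply, add_apply, a.tr i j z hz v]
    congr 3
    ring

@[simp] theorem add_g (L : PL C) (a : F1 C) (i j : C.ι) (z : V) :
    (L.add a).g i j z = L.g i j z := rfl
@[simp] theorem add_th (L : PL C) (a : F1 C) (i : C.ι) (z : V) :
    (L.add a).th i z = L.th i z + a.η i z := rfl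

theorem add_F (L : PL C) (a : F1 C) {i : C.ι} {z : V} (hz : z ∈ (C.e i).target) (u v : V) :
    (L.add a).F.w i z u v = L.F.w i z u v + a.d.w i z u v := by
  have h : fderiv ℝ ((L.add a).th i) z = fderiv ℝ (L.th i) z + fderiv ℝ (a.η i) z :=
    ((L.th_diff hz).hasFDerivAt.add (a.diffAt hz).hasFDerivAt).fderiv
  simp only [F_w, F1.d_w, h, add_apply]
  ring

end f1

theorem pow_F (L : PL C) (m : ℕ) {i : C.ι} {z : V} (hz : z ∈ (C.e i).target) (u v : V) :
    (L.pow m).F.w i z u v = m * L.F.w i z u v := by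
  have h : fderiv ℝ ((L.pow m).th i) z = (m : ℝ) • fderiv ℝ (L.th i) z :=
    ((L.th_diff hz).hasFDerivAt.const_smul (m : ℝ)).fderiv
  simp only [F_w, h, smul_apply, smul_eq_mul]
  ring

theorem mul_F (L L' : PL C) {i : C.ι} {z : V} (hz : z ∈ (C.e i).target) (u v : V) :
    (L.mul L').F.w i z u v = L.F.w i z u v + L'.F.w i z u v := by
  have h : fderiv ℝ ((L.mul L').th i) z = fderiv ℝ (L.th i) z + fderiv ℝ (L'.th i) z :=
    ((L.th_diff hz).hasFDerivAt.add (L'.th_diff hz).hasFDerivAt).fderiv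
  simp only [F_w, h, add_apply]
  ring

end PL

/-- smooth sections -/
@[ext] structure Sec (L : PL C) where
  u : C.ι → V → ℂ
  sm : ∀ i, ContDiffOn ℝ ∞ (u i) (C.e i).target
  tr : ∀ i j, ∀ z ∈ C.ov i j, u i z = L.g i j z * u j (C.t i j z)
  off : ∀ i, ∀ z ∉ (C.e i).target, u i z = 0

namespace Sec

variable {L L' : PL C}

/-- two sections which agree on the targets are equal -/
theorem ext' {s t : Sec L} (h : ∀ i, ∀ z ∈ (C.e i).target, s.u i z = t.u i z) : s = t := by
  refine Sec.ext ?_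
  funext i z
  by_cases hz : z ∈ (C.e i).target
  · exact h i z hz
  · rw [s.off i z hz, t.off i z hz]

theorem diffAt (s : Sec L) {i : C.ι} {z : V} (hz : z ∈ (C.e i).target) :
    DifferentiableAt ℝ (s.u i) z :=
  ((s.sm i).contDiffAt ((C.e i).open_target.mem_nhds hz)).differentiableAt (by simp)

instance : Zero (Sec L) := ⟨⟨fun _ _ => 0, fun _ => contDiffOn_const, fun _ _ _ _ => by simp,
  fun _ _ _ => rfl⟩⟩

instance : Add (Sec L) := ⟨fun s t => ⟨fun i z => s.u i z + t.u i z,
  fun i => (s.sm i).add (t.sm i), fun i j z hz => by rw [s.tr i j z hz, t.tr i j z hz, mul_add],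
  fun i z hz => by rw [s.off i z hz, t.off i z hz, add_zero]⟩⟩

instance : Neg (Sec L) := ⟨fun s => ⟨fun i z => -s.u i z, fun i => (s.sm i).neg,
  fun i j z hz => by rw [s.tr i j z hz, mul_neg], fun i z hz => by rw [s.off i z hz, neg_zero]⟩⟩

instance : Sub (Sec L) := ⟨fun s t => ⟨fun i z => s.u i z - t.u i z,
  fun i => (s.sm i).sub (t.sm i), fun i j z hz => by rw [s.tr i j z hz, t.tr i j z hz, mul_sub],
  fun i z hz => by rw [s.off i z hz, t.off i z hz, sub_zero]⟩⟩

instance : SMul ℂ (Sec L) := ⟨fun c s => ⟨fun i z => c * s.u i z,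
  fun i => contDiffOn_const.mul (s.sm i), fun i j z hz => by rw [s.tr i j z hz]; ring,
  fun i z hz => by rw [s.off i z hz, mul_zero]⟩⟩

instance : SMul ℕ (Sec L) := ⟨fun c s => (c : ℂ) • s⟩
instance : SMul ℤ (Sec L) := ⟨fun c s => (c : ℂ) • s⟩

theorem u_inj : Function.Injective (fun s : Sec L => s.u) := fun _ _ h => Sec.ext h

@[simp] theorem zero_u : (0 : Sec L).u = 0 := rfl
@[simp] theorem add_u (s t : Sec L) : (s + t).u = s.u + t.u := rfl
@[simp] theorem neg_u (s : Sec L) : (-s).u = -s.u := rfl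
@[simp] theorem sub_u (s t : Sec L) : (s - t).u = s.u - t.u := rfl
@[simp] theorem smul_u (c : ℂ) (s : Sec L) : (c • s).u = c • s.u := rfl

instance : AddCommGroup (Sec L) :=
  u_inj.addCommGroup _ zero_u add_u neg_u sub_u
    (fun s n => by
      change ((n : ℂ) • s).u = _
      rw [smul_u]
      funext i z
      simp)
    (fun s n => by
      change ((n : ℂ) • s).u = _
      rw [smul_u]
      funext i z
      simp)

/-- coordinates as an additive map -/
def uHom (L : PL C) : Sec L →+ (C.ι → V → ℂ) where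
  toFun s := s.u
  map_zero' := rfl
  map_add' _ _ := rfl

instance : Module ℂ (Sec L) := u_inj.module ℂ (uHom L) smul_u

/-- products -/
def mul (s : Sec L) (t : Sec L') : Sec (L.mul L') where
  u i z := s.u i z * t.u i z
  sm i := (s.sm i).mul (t.sm i)
  tr i j z hz := by
    rw [s.tr i j z hz, t.tr i j z hz, PL.mul_g]
    ring
  off i z hz := by rw [s.off i z hz, zero_mul]

/-- covariant derivative in the chart `i` -/
def D (s : Sec L) (i : C.ι) (z v : V) : ℂ :=
  fderiv ℝ (s.u i) z v + I * ((L.th i z v : ℝ) : ℂ) * s.u i z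

theorem D_tr (s : Sec L) {i j : C.ι} {z : V} (hz : z ∈ C.ov i j) (v : V) :
    s.D i z v = L.g i j z * s.D j (C.t i j z) (fderiv ℝ (C.t i j) z v) := by
  have h1 : s.u i =ᶠ[𝓝 z] fun y => L.g i j y * s.u j (C.t i j y) := by
    filter_upwards [(RCh.isOpen_ov i j).mem_nhds hz] with y hy using s.tr i j y hy
  have h2 : HasFDerivAt (fun y => s.u j (C.t i j y))
      ((fderiv ℝ (s.u j) (C.t i j z)).comp (fderiv ℝ (C.t i j) z)) z :=
    HasFDerivAt.comp (g := s.u j) (f := C.t i j) z (s.diffAt (RCh.t_mem hz).1).hasFDerivAt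
      (RCh.t_diff hz).hasFDerivAt
  have h3 : HasFDerivAt (fun y => L.g i j y * s.u j (C.t i j y)) _ z :=
    (L.g_diff hz).hasFDerivAt.mul h2
  unfold D
  rw [h1.fderiv_eq, h3.fderiv, s.tr i j z hz]
  simp only [add_apply, smul_apply, smul_eq_mul, ContinuousLinearMap.comp_apply,
    L.law i j z hz v]
  push_cast
  ring

theorem D_add (s t : Sec L) {i : C.ι} {z : V} (hz : z ∈ (C.e i).target) (v : V) :
    (s + t).D i z v = s.D i z v + t.D i z v := by
  unfold D
  have h : fderiv ℝ ((s + t).u i) z = fderiv ℝ (s.u i) z + fderiv ℝ (t.u i) z :=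
    ((s.diffAt hz).hasFDerivAt.add (t.diffAt hz).hasFDerivAt).fderiv
  rw [h]
  simp only [add_u, Pi.add_apply, add_apply]
  ring

theorem D_smul (c : ℂ) (s : Sec L) {i : C.ι} {z : V} (hz : z ∈ (C.e i).target) (v : V) :
    (c • s).D i z v = c * s.D i z v := by
  unfold D
  have h : fderiv ℝ ((c • s).u i) z = c • fderiv ℝ (s.u i) z :=
    ((s.diffAt hz).hasFDerivAt.const_mul c).fderiv
  rw [h]
  simp only [smul_u, Pi.smul_apply, smul_apply, smul_eq_mul]
  ring

theorem D_mul (s : Sec L) (t : Sec L') {i : C.ι} {z : V} (hz : z ∈ (C.e i).target) (v : V) :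
    (s.mul t).D i z v = s.D i z v * t.u i z + s.u i z * t.D i z v := by
  unfold D
  have h : fderiv ℝ ((s.mul t).u i) z = _ :=
    ((s.diffAt hz).hasFDerivAt.mul (t.diffAt hz).hasFDerivAt).fderiv
  rw [h]
  simp only [mul, PL.mul_th, add_apply, smul_apply, smul_eq_mul]
  push_cast
  ring

/-- the operator `D u (v) + I D u (J v)` -/
def db (J : C.ι → V → V →L[ℝ] V) (s : Sec L) (i : C.ι) (z v : V) : ℂ :=
  s.D i z v + I * s.D i z (J i z v)

end Sec

namespace PL

variable (L : PL C)

/-- holomorphic sections for the field of endomorphisms `J` -/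
def H0 (J : C.ι → V → V →L[ℝ] V) : Submodule ℂ (Sec L) where
  carrier := {s | ∀ i, ∀ z ∈ (C.e i).target, ∀ v, s.db J i z v = 0}
  add_mem' := by
    intro s t hs ht i z hz v
    have h1 := hs i z hz v
    have h2 := ht i z hz v
    unfold Sec.db at *
    rw [Sec.D_add s t hz, Sec.D_add s t hz]
    linear_combination h1 + h2
  zero_mem' := by
    intro i z hz v
    unfold Sec.db
    have h : ∀ w, (0 : Sec L).D i z w = 0 := fun w => by
      have := Sec.D_smul (L := L) 0 0 hz w
      simpa using this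
    rw [h, h]
    simp
  smul_mem' := by
    intro c s hs i z hz v
    have h1 := hs i z hz v
    unfold Sec.db at *
    rw [Sec.D_smul c s hz, Sec.D_smul c s hz]
    linear_combination c * h1

/-- at least `N` independent holomorphic sections -/
def HasN (J : C.ι → V → V →L[ℝ] V) (N : ℕ) : Prop :=
  ∃ f : Fin N → Sec L, LinearIndependent ℂ f ∧ ∀ k, f k ∈ L.H0 J

end PL

theorem Sec.mul_mem {L L' : PL C} {J : C.ι → V → V →L[ℝ] V} {s : Sec L} {t : Sec L'}
    (hs : s ∈ L.H0 J) (ht : t ∈ L'.H0 J) : s.mul t ∈ (L.mul L').H0 J := by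
  intro i z hz v
  have h1 := hs i z hz v
  have h2 := ht i z hz v
  unfold Sec.db at *
  rw [Sec.D_mul s t hz, Sec.D_mul s t hz]
  linear_combination t.u i z * h1 + s.u i z * h2

end

end Crest.Agent.R281.PL_713
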