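import Crest.Agent.R281.Rkd2_386
import Crest.Agent.R281.PL1_713
import Crest.Agent.R281.Nef1_252

/-!
# R281 (S0424), RANK281, lower end (helper386), part 3: the (1,1)-connection is unique up to gauge

* `mulS χ : Sec L₁ → Sec L₂` : multiplication by `exp χ` (same transition functions)
* `exists_gauge`  : `T11 J (L.add a).F`, `T11 J (L.add a').F`, `X` simply connected, `dd^c`-lemma:
                    there is `χ : X → ℂ` smooth such that multiplication by `exp χ` maps the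
                    holomorphic sections of `L.add a` onto those of `L.add a'`
* `hasN_indep`    : `(L.add a).HasN J N ↔ (L.add a').HasN J N`
-/

set_option autoImplicit false
set_option linter.unusedSectionVars false
set_option maxSynthPendingDepth 3

open Set Filter Topology Complex
open scoped ContDiff

namespace Crest.Agent.R281.Rkd_386

open Crest.Agent.R281.HkR_835 Crest.Agent.R281.Ti_846 Crest.Agent.R281.NefO_476
open Crest.Agent.R281.Nef_252 Crest.Agent.R281.PL_713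

noncomputable section

variable {V X : Type} [NormedAddCommGroup V] [NormedSpace ℝ V] [FiniteDimensional ℝ V]
  [MeasurableSpace V] [BorelSpace V] [TopologicalSpace X] {C : RCh V X}

/-- smooth complex functions -/
def SmC (C : RCh V X) (χ : X → ℂ) : Prop :=
  ∀ i, ContDiffOn ℝ ∞ (fun z => χ ((C.e i).symm z)) (C.e i).target

theorem SmC.neg {χ : X → ℂ} (h : SmC C χ) : SmC C fun x => -χ x := fun i => (h i).neg

/-- multiplication by `exp χ` -/
def mulS (χ : X → ℂ) (hχ : SmC C χ) {L₁ L₂ : PL C} (hg : L₁.g = L₂.g) (s : Sec L₁) : Sec L₂ where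
  u i z := exp (χ ((C.e i).symm z)) * s.u i z
  sm i := ((hχ i).cexp).mul (s.sm i)
  tr i j z hz := by
    have h1 : (C.e j).symm (C.t i j z) = (C.e i).symm z := (C.e j).left_inv hz.2
    rw [h1, s.tr i j z hz, hg]
    ring
  off i z hz := by rw [s.off i z hz, mul_zero]

@[simp] theorem mulS_u (χ : X → ℂ) (hχ : SmC C χ) {L₁ L₂ : PL C} (hg : L₁.g = L₂.g)
    (s : Sec L₁) (i : C.ι) (z : V) :
    (mulS χ hχ hg s).u i z = exp (χ ((C.e i).symm z)) * s.u i z := rfl

theorem mulS_D (χ : X → ℂ) (hχ : SmC C χ) {L₁ L₂ : PL C} (hg : L₁.g = L₂.g) (s : Sec L₁)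
    {i : C.ι} {z : V} (hz : z ∈ (C.e i).target) (v : V) :
    (mulS χ hχ hg s).D i z v = exp (χ ((C.e i).symm z)) * (s.D i z v +
      (fderiv ℝ (fun z => χ ((C.e i).symm z)) z v +
        I * ((L₂.th i z v : ℝ) : ℂ) - I * ((L₁.th i z v : ℝ) : ℂ)) * s.u i z) := by
  have h1 : HasFDerivAt (fun z => χ ((C.e i).symm z))
      (fderiv ℝ (fun z => χ ((C.e i).symm z)) z) z :=
    (((hχ i).contDiffAt ((C.e i).open_target.mem_nhds hz)).differentiableAt
      (by simp)).hasFDerivAt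
  have h2 : HasFDerivAt ((mulS χ hχ hg s).u i) _ z := h1.cexp.mul (s.diffAt hz).hasFDerivAt
  unfold Sec.D
  rw [h2.fderiv]
  simp only [add_apply, smul_apply, smul_eq_mul, mulS_u]
  ring

/-- the gauge equation -/
def Gau (J : AJ C) (L₁ L₂ : PL C) (χ : X → ℂ) : Prop :=
  ∀ i, ∀ z ∈ (C.e i).target, ∀ v,
    (fderiv ℝ (fun z => χ ((C.e i).symm z)) z v + I * ((L₂.th i z v : ℝ) : ℂ) -
        I * ((L₁.th i z v : ℝ) : ℂ)) +
      I * (fderiv ℝ (fun z => χ ((C.e i).symm z)) z (J.J i z v) +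
        I * ((L₂.th i z (J.J i z v) : ℝ) : ℂ) - I * ((L₁.th i z (J.J i z v) : ℝ) : ℂ)) = 0

theorem Gau.db {J : AJ C} {L₁ L₂ : PL C} {χ : X → ℂ} (h : Gau J L₁ L₂ χ) (hχ : SmC C χ)
    (hg : L₁.g = L₂.g) (s : Sec L₁) {i : C.ι} {z : V} (hz : z ∈ (C.e i).target) (v : V) :
    (mulS χ hχ hg s).db J.J i z v = exp (χ ((C.e i).symm z)) * s.db J.J i z v := by
  unfold Sec.db
  rw [mulS_D χ hχ hg s hz, mulS_D χ hχ hg s hz]
  linear_combination (exp (χ ((C.e i).symm z)) * s.u i z) * h i z hz v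

theorem Gau.symm {J : AJ C} {L₁ L₂ : PL C} {χ : X → ℂ} (h : Gau J L₁ L₂ χ) :
    Gau J L₂ L₁ fun x => -χ x := by
  intro i z hz v
  have h1 := h i z hz v
  have h2 : fderiv ℝ (fun z => -χ ((C.e i).symm z)) z =
      -fderiv ℝ (fun z => χ ((C.e i).symm z)) z := by
    rw [← fderiv_fun_neg]
  rw [h2]
  simp only [neg_apply]
  linear_combination -h1

theorem Gau.mem {J : AJ C} {L₁ L₂ : PL C} {χ : X → ℂ} (h : Gau J L₁ L₂ χ) (hχ : SmC C χ)
    (hg : L₁.g = L₂.g) {s : Sec L₁} (hs : s ∈ L₁.H0 J.J) : mulS χ hχ hg s ∈ L₂.H0 J.J := by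
  intro i z hz v
  rw [h.db hχ hg s hz, hs i z hz v, mul_zero]

/-- **gauge equivalence of the section spaces** -/
def Gau.iso {J : AJ C} {L₁ L₂ : PL C} {χ : X → ℂ} (h : Gau J L₁ L₂ χ) (hχ : SmC C χ)
    (hg : L₁.g = L₂.g) : L₁.H0 J.J ≃ₗ[ℂ] L₂.H0 J.J where
  toFun s := ⟨mulS χ hχ hg s.1, h.mem hχ hg s.2⟩
  invFun s := ⟨mulS (fun x => -χ x) hχ.neg hg.symm s.1, h.symm.mem hχ.neg hg.symm s.2⟩
  map_add' s t := by
    apply Subtype.ext
    refine Sec.ext ?_
    funext i z
    show exp _ * (s.1.u i z + t.1.u i z) = exp _ * s.1.u i z + exp _ * t.1.u i z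
    rw [mul_add]
  map_smul' c s := by
    apply Subtype.ext
    refine Sec.ext ?_
    funext i z
    show exp _ * (c * s.1.u i z) = c * (exp _ * s.1.u i z)
    ring
  left_inv s := by
    apply Subtype.ext
    refine Sec.ext ?_
    funext i z
    show exp (-χ ((C.e i).symm z)) * (exp (χ ((C.e i).symm z)) * s.1.u i z) = s.1.u i z
    rw [← mul_assoc, ← Complex.exp_add, neg_add_cancel, Complex.exp_zero, one_mul]
  right_inv s := by
    apply Subtype.ext
    refine Sec.ext ?_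
    funext i z
    show exp (χ ((C.e i).symm z)) * (exp (-χ ((C.e i).symm z)) * s.1.u i z) = s.1.u i z
    rw [← mul_assoc, ← Complex.exp_add, add_neg_cancel, Complex.exp_zero, one_mul]

theorem Gau.hasN {J : AJ C} {L₁ L₂ : PL C} {χ : X → ℂ} (h : Gau J L₁ L₂ χ) (hχ : SmC C χ)
    (hg : L₁.g = L₂.g) {N : ℕ} (hN : L₁.HasN J.J N) : L₂.HasN J.J N := by
  obtain ⟨f, hf, hm⟩ := hN
  let f' : Fin N → L₁.H0 J.J := fun i => ⟨f i, hm i⟩
  have hf' : LinearIndependent ℂ f' := by
    apply LinearIndependent.of_comp (L₁.H0 J.J).subtype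
    exact hf
  have h2 : LinearIndependent ℂ (fun i => h.iso hχ hg (f' i)) :=
    hf'.map' (h.iso hχ hg).toLinearMap (h.iso hχ hg).ker
  exact ⟨fun i => (h.iso hχ hg (f' i) : Sec L₂), h2.map' (L₂.H0 J.J).subtype (by simp),
    fun i => (h.iso hχ hg (f' i)).2⟩

/-- the difference of two real 1-forms -/
def dif (a' a : F1 C) : F1 C where
  η i z := a'.η i z - a.η i z
  sm i := (a'.sm i).sub (a.sm i)
  tr i j z hz v := by
    rw [sub_apply, sub_apply, a'.tr i j z hz v, a.tr i j z hz v]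

theorem dif_fderiv (a' a : F1 C) {i : C.ι} {z : V} (hz : z ∈ (C.e i).target) :
    fderiv ℝ ((dif a' a).η i) z = fderiv ℝ (a'.η i) z - fderiv ℝ (a.η i) z :=
  ((a'.diffAt hz).hasFDerivAt.sub (a.diffAt hz).hasFDerivAt).fderiv

/-- **the (1,1)-connections form one gauge orbit** -/
theorem exists_gauge [SimplyConnectedSpace X] {J : AJ C} (hJ : ∀ i, ∀ z ∈ (C.e i).target, ∀ v,
    J.J i z (J.J i z v) = -v) (hd : DDb J) (L : PL C) {a a' : F1 C}
    (ha : T11 J (L.add a).F) (ha' : T11 J (L.add a').F) :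
    ∃ χ : X → ℂ, SmC C χ ∧ Gau J (L.add a) (L.add a') χ := by
  set β : F1 C := dif a' a with hβ
  have h1 : T11 J β.d := by
    intro i z hz u v
    have e1 := ha i z hz u v
    have e2 := ha' i z hz u v
    rw [PL.add_F _ _ hz, PL.add_F _ _ hz] at e1 e2
    simp only [F1.d_w] at e1 e2 ⊢
    rw [dif_fderiv a' a hz]
    simp only [sub_apply]
    linarith
  obtain ⟨u, hu, h2⟩ := hd β.d ⟨β, β.isD⟩ h1
  set γ : F1 C := dif β (dc J u hu) with hγ
  have h3 : Clo γ := by
    intro i z hz p q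
    have e1 := h2 i z hz p q
    have e2 : (ddc J u hu).w i z p q = fderiv ℝ ((dc J u hu).η i) z p q -
      fderiv ℝ ((dc J u hu).η i) z q p := rfl
    rw [e2, F1.d_w] at e1
    rw [hγ, dif_fderiv β (dc J u hu) hz]
    simp only [sub_apply]
    linarith
  obtain ⟨ψ, hψ, h4⟩ := closed_exact γ h3
  refine ⟨fun x => (u x : ℂ) - I * (ψ x : ℂ), ?_, ?_⟩
  · intro i
    exact (Complex.ofRealCLM.contDiff.comp_contDiffOn (hu i)).sub
      (contDiffOn_const.mul (Complex.ofRealCLM.contDiff.comp_contDiffOn (hψ i)))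
  · intro i z hz v
    have hud : DifferentiableAt ℝ (uc C u i) z := (hu.at hz).differentiableAt (by simp)
    have hψd : DifferentiableAt ℝ (uc C ψ i) z := (Sm.at hψ hz).differentiableAt (by simp)
    have h5 : HasFDerivAt (fun z => ((u ((C.e i).symm z) : ℝ) : ℂ) -
        I * ((ψ ((C.e i).symm z) : ℝ) : ℂ))
        (Complex.ofRealCLM.comp (fderiv ℝ (uc C u i) z) -
          I • Complex.ofRealCLM.comp (fderiv ℝ (uc C ψ i) z)) z :=
      (Complex.ofRealCLM.hasFDerivAt.comp z hud.hasFDerivAt).sub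
        ((Complex.ofRealCLM.hasFDerivAt.comp z hψd.hasFDerivAt).const_mul I)
    rw [h5.fderiv]
    have e1 : ∀ w, a'.η i z w - a.η i z w = fderiv ℝ (uc C ψ i) z w -
        fderiv ℝ (uc C u i) z (J.J i z w) := by
      intro w
      have e2 : γ.η i z w = a'.η i z w - a.η i z w - (dc J u hu).η i z w := rfl
      have e3 : (dc J u hu).η i z w = -fderiv ℝ (uc C u i) z (J.J i z w) := rfl
      have e4 := h4 i z hz w
      rw [e2, e3] at e4
      linarith
    have e5 := e1 v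
    have e6 := e1 (J.J i z v)
    rw [hJ i z hz, map_neg] at e6
    simp only [PL.add_th, add_apply, sub_apply, smul_apply, smul_eq_mul,
      ContinuousLinearMap.comp_apply, Complex.ofRealCLM_apply]
    have c5 : ((a'.η i z v : ℝ) : ℂ) = (a.η i z v : ℂ) + (fderiv ℝ (uc C ψ i) z v : ℂ) -
        (fderiv ℝ (uc C u i) z (J.J i z v) : ℂ) := by
      have : a'.η i z v = a.η i z v + fderiv ℝ (uc C ψ i) z v -
        fderiv ℝ (uc C u i) z (J.J i z v) := by linarith
      rw [this]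
      push_cast
      ring
    have c6 : ((a'.η i z (J.J i z v) : ℝ) : ℂ) = (a.η i z (J.J i z v) : ℂ) +
        (fderiv ℝ (uc C ψ i) z (J.J i z v) : ℂ) + (fderiv ℝ (uc C u i) z v : ℂ) := by
      have : a'.η i z (J.J i z v) = a.η i z (J.J i z v) + fderiv ℝ (uc C ψ i) z (J.J i z v) +
        fderiv ℝ (uc C u i) z v := by linarith
      rw [this]
      push_cast
      ring
    push_cast
    rw [c5, c6]
    linear_combination ((fderiv ℝ (uc C u i) z v : ℂ) - (I : ℂ) * 0) * (I_mul_I)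

theorem hasN_indep [SimplyConnectedSpace X] {J : AJ C} (hJ : ∀ i, ∀ z ∈ (C.e i).target, ∀ v,
    J.J i z (J.J i z v) = -v) (hd : DDb J) (L : PL C) {a a' : F1 C}
    (ha : T11 J (L.add a).F) (ha' : T11 J (L.add a').F) {N : ℕ} (h : (L.add a).HasN J.J N) :
    (L.add a').HasN J.J N := by
  obtain ⟨χ, hχ, hG⟩ := exists_gauge hJ hd L ha ha'
  exact hG.hasN hχ rfl h

end

end Crest.Agent.R281.Rkd_386
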