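import Crest.Agent.R281.RkD_902
import Crest.Agent.R281.Rkd3_386
import Crest.Agent.R281.PL5_713
import Crest.Agent.R281.Nef4_252
import Crest.Agent.R260.NN6_900

/-!
# R281 (S0424), RANK281, lower end (helper386), part 4: nodes of `RkD_902`

* `hN_indep`  : `hN L J N` for every connection with curvature of type (1,1)
* `presP`     : the node `PresP` (T4, DICT)
* `setup_lnk`, `setup_fin` : the part of the node `SetupP` about `L0 := ofHM h`
-/

set_option autoImplicit false
set_option linter.unusedSectionVars false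
set_option maxSynthPendingDepth 3

open Set Filter Topology Complex
open scoped ContDiff

namespace Crest.Agent.R281.Rkd_386

open Crest.Agent.R275.Geo Crest.Agent.R275.Core144 Crest.Agent.R275.GC293
open Crest.Agent.R273.Defs_333 Crest.Agent.R273.Kah_333
open Crest.Agent.R260.ACM_580 Crest.Agent.R260.NNB_580
open Crest.Agent.R281.HkR_835 Crest.Agent.R281.Ti_846 Crest.Agent.R281.NefO_476
open Crest.Agent.R281.Nef_252 Crest.Agent.R281.PL_713 Crest.Agent.R281.Dif_268
open Crest.Agent.R281.Alg_998 Crest.Agent.R281.RkD_902 Crest.Agent.R281.Cdr_234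
open Crest.Agent.R273.Sg1_101 Crest.Agent.R273.Sg2_101

noncomputable section

variable {V X : Type} [NormedAddCommGroup V] [NormedSpace ℝ V] [FiniteDimensional ℝ V]
  [TopologicalSpace X] {C : RCh V X}

theorem hN_indep [CompactSpace X] [T2Space X] [SimplyConnectedSpace X] {d : ℕ}
    (hNN : NNat V d) (hd : 2 ≤ d) {H : HkT C} {k : Fin 3} {L : PL C} {N : ℕ}
    (h : hN L (ofHk H k) N) {a : F1 C} (ha : T11 (ofHk H k) (L.add a).F) :
    (L.add a).HasN (ofHk H k).J N := by
  obtain ⟨a', ha', h'⟩ := h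
  let _ : MeasurableSpace V := borel V
  have : BorelSpace V := ⟨rfl⟩
  exact hasN_indep (H.J_sq k) (ddb_hk hNN hd H k) L ha' ha h'

/-- adding the zero form -/
theorem add_zero' (L : PL C) : L.add 0 = L := by
  refine PL.ext rfl ?_
  funext i z
  show L.th i z + 0 = L.th i z
  rw [add_zero]

theorem pow_add' (L : PL C) (a : F1 C) (m : ℕ) :
    (L.add a).pow m = (L.pow m).add ((m : ℝ) • a) := by
  refine PL.ext rfl ?_
  funext i z
  show (m : ℝ) • (L.th i z + a.η i z) = (m : ℝ) • L.th i z + (m : ℝ) • a.η i z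
  rw [smul_add]

theorem T11.pow {J : AJ C} {L : PL C} (h : T11 J L.F) (m : ℕ) : T11 J (L.pow m).F := by
  intro i z hz u v
  rw [PL.pow_F _ _ hz, PL.pow_F _ _ hz, h i z hz]

/-- finite dimension of the space of sections -/
theorem fin_hs' [CompactSpace X] [T2Space X] {n : ℕ} {A : Atl n X} (L : LB A) :
    FiniteDimensional ℂ (HS L univ) := by
  obtain ⟨T⟩ := exists_net A
  obtain ⟨c, hc⟩ := exists_Bd T L
  exact fin_HS hc

/-- `JC` and `Cp` -/
theorem cp_of_jc {n : ℕ} {A : Atl n X} {H : HkT C} {k : Fin 3} (h : JC C (H.J k) A) :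
    Cp (H.acm k) A := by
  intro a
  refine ⟨fun i => h.cmp.s' i a, fun i => h.cmp.s i a, fun i z hz v => ?_⟩
  exact h.lin' (i := i) (a := a) hz v

/-! ### the presentation of a member -/

section pres

variable {n : ℕ}

theorem nnatC (d : ℕ) : NNat (Cn d) d :=
  Crest.Agent.R260.NN6_900.nnat d (Cn d) (by
    rw [finrank_real_of_complex]
    simp)

/-- `0` is a (1,1)-connection of `ofHM h` -/
theorem jeq_H0 {A : Atl n X} {L : PL (ofAtl A)} {J J' : (ofAtl A).ι → Cn n → Cn n →L[ℝ] Cn n}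
    (h : ∀ i, ∀ z ∈ (A.e i).target, ∀ v, J i z v = J' i z v) : L.H0 J = L.H0 J' := by
  ext s
  constructor
  · intro hs i z hz v
    have h1 := hs i z hz v
    unfold Sec.db at h1 ⊢
    rwa [h i z hz] at h1
  · intro hs i z hz v
    have h1 := hs i z hz v
    unfold Sec.db at h1 ⊢
    rwa [← h i z hz] at h1

/-- **(T0), last clause**: sections of `ofHM h` are sections of `L` -/
theorem setup_fin {A : Atl n X} [Finite A.ι] [CompactSpace X] [T2Space X] [SimplyConnectedSpace X]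
    (hn : 2 ≤ n) {L : LB A} (h : HM L) {H : HkT (ofAtl A)}
    (hJ : ∀ i, ∀ z ∈ (A.e i).target, ∀ v, H.J 0 i z v = I • v) (m N : ℕ)
    (hN : hN ((ofHM h).pow m) (ofHk H 0) N) : N ≤ Module.finrank ℂ (HS (L ^ m) univ) := by
  have h0 : T11 (ofHk H 0) (ofHM h).F := by
    intro i z hz u v
    have h1 := ofHM_F11 h i z hz u v
    have e : ∀ v, (ofHk H 0).J i z v = iJ A i z v := fun v => hJ i z hz v
    rw [e, e]
    exact h1
  have h1 : T11 (ofHk H 0) (((ofHM h).pow m).add 0).F := by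
    rw [add_zero']
    exact T11.pow h0 m
  have h2 := hN_indep (nnatC n) hn hN h1
  rw [add_zero'] at h2
  have h3 : ((ofHM h).pow m).H0 (ofHk H 0).J = ((ofHM h).pow m).H0 (iJ A) :=
    jeq_H0 fun i z hz v => hJ i z hz v
  obtain ⟨f, hf, hm⟩ := h2
  have := fin_hs' ((potHM h).pow m).lb
  let f' : Fin N → ((ofHM h).pow m).H0 (iJ A) := fun i => ⟨f i, by rw [← h3]; exact hm i⟩
  have hf' : LinearIndependent ℂ f' := by
    apply LinearIndependent.of_comp (((ofHM h).pow m).H0 (iJ A)).subtype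
    exact hf
  have h4 : LinearIndependent ℂ (fun i => ((potHM h).pow m).iso (f' i)) :=
    hf'.map' ((potHM h).pow m).iso.toLinearMap ((potHM h).pow m).iso.ker
  have h5 := h4.fintype_card_le_finrank
  rw [Fintype.card_fin, Pot.lb_pow, potHM_lb] at h5
  exact h5

/-- **(T0), field `lnk`** -/
theorem setup_lnk {A : Atl n X} {L : LB A} (h : HM L) {e : F2 (ofAtl A)}
    (he : Cl e (Real.pi⁻¹ • (curK h).f2)) : Cl (ofHM h).F ((-(2 * Real.pi)) • e) := by
  refine Cl.trans ?_ (Cl.smul _ he.symm)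
  refine Cl.of_eq_on fun i z hz => ?_
  ext u v
  have hx := (A.e i).map_target hz
  have h1 := ofHM_F h hx u v
  have hz' : A.e i ((A.e i).symm z) = z := (A.e i).right_inv hz
  rw [hz'] at h1
  have h2 : ((-(2 * Real.pi)) • (Real.pi⁻¹ • (curK h).f2)).w i z u v =
    (-(2 * Real.pi)) * (Real.pi⁻¹ * (curK h).f2.w i z u v) := rfl
  rw [h1, h2, K11.f2_w _ hz]
  have hpi : Real.pi ≠ 0 := Real.pi_ne_zero
  field_simp
  rfl

/-- a (1,1)-connection on `L0` -/
theorem exists_conn {C : RCh (Cn (2 * n)) X} [CompactSpace X] {Q : F2 C →ₗ[ℝ] F2 C →ₗ[ℝ] ℝ}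
    (hQ : Ctx n C Q) {H : HkT C} {L0 : PL C} {e : F2 C} (hg : Given Q H L0 e) :
    ∃ a : F1 C, T11 (ofHk H 0) (L0.add a).F := by
  obtain ⟨y, hy, hy'⟩ := hQ.t11 H hg.pos e hg.e1 hg.e2
  have h1 : Cl L0.F ((-(2 * Real.pi)) • y) := hg.lnk.trans (Cl.smul _ hy.symm)
  obtain ⟨η, hη⟩ := h1.symm
  refine ⟨η, fun i z hz u v => ?_⟩
  have e1 : ∀ p q, (L0.add η).F.w i z p q = (-(2 * Real.pi)) * y.w i z p q := by
    intro p q
    have h2 := hη i z hz p q
    have h3 : ((-(2 * Real.pi)) • y - L0.F).w i z p q =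
      (-(2 * Real.pi)) * y.w i z p q - L0.F.w i z p q := rfl
    rw [h3] at h2
    rw [PL.add_F _ _ hz, F1.d_w, ← h2]
    ring
  rw [e1, e1, hy' i z hz u v]

/-- **the node `PresP`** -/
theorem presP : PresP := by
  intro n X _ _ _ _ C Q hQ H L0 e hg
  obtain ⟨a, ha⟩ := exists_conn hQ hg
  have hNN := nnatC (2 * n)
  obtain ⟨A, -, -, -, -, -, hA⟩ := exists_atl hNN (H.acm_int 0) (κ := Unit)
    (fun _ => (univ : Set X)) (fun _ => isOpen_univ) (fun x => ⟨(), mem_univ x⟩)
  have hJ : JC C (H.J 0) A := JC.of_cp hA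
  obtain ⟨A', hfin, hgood, ⟨P⟩, -, -, ⟨D⟩⟩ := exists_dic hJ (L := L0.add a) ha
  have hcp : Cp (H.acm 0) A' := cp_of_jc D.jc
  refine ⟨⟨A', hfin, hgood, P, hcp, D.lb, D.hm, a, ha, ?_, ?_⟩⟩
  · intro j z hz u v
    have hm := D.hκ.mem hz
    have h1 := (cmp_of_cp hcp).F_w (L0.add a).F hm u v
    have hx : (A'.e j).symm z ∈ (A'.e j).source := (A'.e j).map_target hz
    have h2 := D.cur_eq hx u v
    have hz' : A'.e j ((A'.e j).symm z) = z := (A'.e j).right_inv hz
    rw [hz'] at h2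
    have h3 : ((-2 : ℝ) • (curK D.hm).f2).w j z u v = -2 * (curK D.hm).f2.w j z u v := rfl
    rw [h1, h3, K11.f2_w _ hz]
    exact h2.symm
  · intro m N hN
    refine ⟨(m : ℝ) • a, ?_, ?_⟩
    · rw [← pow_add']
      exact T11.pow ha m
    · rw [← pow_add']
      have h1 : FiniteDimensional ℂ (((L0.add a).pow m).H0 (H.J 0)) := by
        have := fin_hs' (D.pow m).lb
        exact (D.pow m).iso.symm.toLinearMap.finiteDimensional_of_surjective
          (LinearMap.range_eq_top.2 (D.pow m).iso.symm.surjective)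
      obtain ⟨f, hf⟩ := exists_linearIndependent_of_le_finrank (R := ℂ)
        (M := ((L0.add a).pow m).H0 (H.J 0)) (n := N) (by
          rw [(D.pow m).iso.finrank_eq, D.lb_pow m]
          exact hN)
      exact ⟨fun i => (f i : PL_713.Sec ((L0.add a).pow m)), hf.map' (((L0.add a).pow m).H0 (H.J 0)).subtype (by simp),
        fun i => (f i).2⟩

end pres

end

end Crest.Agent.R281.Rkd_386
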