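import Crest.Agent.R281.OpB5_849
import Crest.Agent.R281.OpB3_849
import Crest.Agent.R281.HkM2_835
import Crest.Agent.R281.Rkd4_386

/-!
# R281 (S0424), OPEN' (helper316), node (G4a): the centre

From a hyperkaehler triple `H` on `X`, a finite holomorphic atlas `A` of `J 0`, and a globally
generated line bundle `L` on `A`:

* `gg_of_gen` : finitely many holomorphic sections of `L` without common zero (`OpB_849.GG`)
* `centre`    : a Ricci flat Kaehler metric `K`, `G : GG L c` and the Hodge operator of `BN L` with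
  range in `HarS K (HKL K (fsL G))`
-/

set_option autoImplicit false
set_option linter.unusedSectionVars false
set_option maxSynthPendingDepth 3

open Set Filter Topology Complex
open scoped ContDiff

namespace Crest.Agent.R281.OpK_316

open Crest.Agent.R275.Geo Crest.Agent.R275.Core144 Crest.Agent.R275.GC293
open Crest.Agent.R273 Crest.Agent.R273.Defs_333 Crest.Agent.R273.Kah_333
open Crest.Agent.R273.HM_333 Crest.Agent.R273.Vol_333
open Crest.Agent.R273.BKNa_37 Crest.Agent.R273.BKNb_37 Crest.Agent.R273.BKNc_37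
open Crest.Agent.R273.BKNd_37 Crest.Agent.R273.BKNe_37
open Crest.Agent.R273.LamN127
open Crest.Agent.R260.ACM_580 Crest.Agent.R260.NNB_580
open Crest.Agent.R281.HkR_835 Crest.Agent.R281.Ti_846 Crest.Agent.R281.NefO_476
open Crest.Agent.R281.PL_713 Crest.Agent.R281.OpB_849

noncomputable section

variable {n : ℕ} {X : Type} [TopologicalSpace X] {A : Atl n X}

/-- a basis of the holomorphic sections has no common zero -/
theorem gg_of_gen [CompactSpace X] [T2Space X] {L : LB A}
    (gg : ∀ x, ∃ s : A.ι → X → ℂ, IsHS L univ s ∧ ∃ i, x ∈ (A.e i).source ∧ s i x ≠ 0) :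
    ∃ c : ℕ, Nonempty (GG L c) := by
  have hf : FiniteDimensional ℂ (HS L univ) := Rkd_386.fin_hs' L
  let b := Module.finBasis ℂ (HS L univ)
  refine ⟨_, ⟨⟨fun a => (b a).1, fun a => (b a).2, fun i x hx => ?_⟩⟩⟩
  by_contra hne
  push Not at hne
  obtain ⟨s, hs, j, hj, h0⟩ := gg x
  have h1 : s i x ≠ 0 := by
    intro h2
    have h3 := hs.tr j i x ⟨hj, hx⟩ (mem_univ x)
    rw [h2, mul_zero] at h3
    exact h0 h3
  let ev : HS L univ →ₗ[ℂ] ℂ :=
    { toFun := fun t => t.1 i x
      map_add' := fun _ _ => rfl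
      map_smul' := fun _ _ => rfl }
  have h2 : ev = 0 := b.ext fun a => hne a
  exact h1 (LinearMap.congr_fun h2 ⟨s, hs⟩)

variable {V : Type} [NormedAddCommGroup V] [NormedSpace ℝ V] [FiniteDimensional ℝ V]
  {C : RCh V X}

/-- the Kaehler metric of the triple is Ricci flat -/
theorem kah_ric (H : HkT C) (hA : Cp (H.acm 0) A) :
    ∀ i, ∀ x ∈ (A.e i).source, cur (volK (H.kah hA)) i x = 0 := ric0 _ (onA_J H hA)

/-- **the centre**: metric, generating sections, Hodge operator -/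
theorem centre [T2Space X] [CompactSpace X] [Finite A.ι] (P : Part A) (H : HkT C)
    (hA : JC C (ofHk H 0).J A) {L : LB A}
    (gg : ∀ x, ∃ s : A.ι → X → ℂ, IsHS L univ s ∧ ∃ i, x ∈ (A.e i).source ∧ s i x ≠ 0) :
    ∃ (K : Kah A) (c : ℕ) (G : GG L c) (T : HodgeH_803.HodgeOp P (BN L)),
      (∀ i, ∀ x ∈ (A.e i).source, cur (volK K) i x = 0) ∧
      ∀ u, T.H u ∈ HarS K (HKL K (fsL G)) := by
  obtain ⟨c, ⟨G⟩⟩ := gg_of_gen gg
  have hc : Cp (H.acm 0) A := Rkd_386.cp_of_jc hA
  have hR := kah_ric H hc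
  obtain ⟨T, hT⟩ := exists_harOp P (H.kah hc) (N := L)
    (HKL_semipos (H.kah hc) hR (fsL_semipos G))
  exact ⟨H.kah hc, c, G, T, hR, hT⟩

/-- the same with the metric of the triple -/
theorem centre' [T2Space X] [CompactSpace X] [Finite A.ι] (P : Part A) (H : HkT C)
    (hA : Cp (H.acm 0) A) {L : LB A}
    (gg : ∀ x, ∃ s : A.ι → X → ℂ, IsHS L univ s ∧ ∃ i, x ∈ (A.e i).source ∧ s i x ≠ 0) :
    ∃ (c : ℕ) (G : GG L c) (T : HodgeH_803.HodgeOp P (BN L)),
      ∀ u, T.H u ∈ HarS (H.kah hA) (HKL (H.kah hA) (fsL G)) := by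
  obtain ⟨c, ⟨G⟩⟩ := gg_of_gen gg
  have hR := kah_ric H hA
  obtain ⟨T, hT⟩ := exists_harOp P (H.kah hA) (N := L)
    (HKL_semipos (H.kah hA) hR (fsL_semipos G))
  exact ⟨c, G, T, hT⟩

end

end Crest.Agent.R281.OpK_316
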