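import Crest.Agent.R273.MolJ_106
import Crest.Agent.R273.LamN_127

/-!
# R281 (S0424), OPEN', (M2) part 1 (helper693): first order operators with square zero

* `pdM_comm` : real coordinate derivatives commute;
* `dz A i a f x` : `∂f/∂z_a` in the chart `i`; `dz_change`, `dz_holo`, `dz_anti`;
* `FOp.sq_zero` : algebraic criterion for `T (T u) = 0`.
-/

set_option autoImplicit false
set_option linter.unusedSectionVars false
set_option linter.unusedSimpArgs false
set_option linter.unusedVariables false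

open Set Filter Topology Complex
open scoped ContDiff Matrix ComplexConjugate

namespace Crest.Agent.R281.OpM_693

open Crest.Agent.R275 Crest.Agent.R275.Geo Crest.Agent.R275.Tor812
  Crest.Agent.R273.Mol_106

noncomputable section

variable {n : ℕ} {M : Type} [TopologicalSpace M] {A : Atl n M}

/-! ### real derivatives -/

section pd

variable {W : Type*} [NormedAddCommGroup W] [NormedSpace ℝ W]

/-- real coordinate derivatives commute -/
theorem pdM_comm {i : A.ι} {f : M → W} (hf : A.SmAt i f) {x : M} (hx : x ∈ (A.e i).source)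
    (p q : RI n) : pdM A i p (pdM A i q f) x = pdM A i q (pdM A i p f) x := by
  set F : Cn n → W := fun z => f ((A.e i).symm z) with hF
  have hz := (A.e i).map_source hx
  have hc : ContDiffAt ℝ ∞ F (A.e i x) := hf.contDiffAt ((A.e i).open_target.mem_nhds hz)
  have hc2 : DifferentiableAt ℝ (fderiv ℝ F) (A.e i x) :=
    ((ContDiffOn.fderiv_of_isOpen (m := ∞) hf (A.e i).open_target (by simp)).contDiffAt
      ((A.e i).open_target.mem_nhds hz)).differentiableAt (by simp)
  have key : ∀ r s : RI n, pdM A i r (pdM A i s f) x =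
      fderiv ℝ (fderiv ℝ F) (A.e i x) (cc (ev r)) (cc (ev s)) := by
    intro r s
    have h1 : (fun z => pdM A i s f ((A.e i).symm z)) =ᶠ[𝓝 (A.e i x)]
        fun z => fderiv ℝ F z (cc (ev s)) := by
      filter_upwards [(A.e i).open_target.mem_nhds hz] with z hz'
      exact pdM_symm hz' s f
    have h2 : HasFDerivAt (fun z => fderiv ℝ F z (cc (ev s))) _ (A.e i x) :=
      hc2.hasFDerivAt.clm_apply (hasFDerivAt_const (cc (ev s)) (A.e i x))
    show fderiv ℝ (fun z => pdM A i s f ((A.e i).symm z)) (A.e i x) (cc (ev r)) = _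
    rw [h1.fderiv_eq, h2.fderiv]
    simp
  rw [key, key]
  exact hc.isSymmSndFDerivAt (by
      rw [minSmoothness_of_isRCLikeNormedField]; exact WithTop.coe_le_coe.2 le_top) _ _

/-- matrices of derivatives -/
def pdMM (A : Atl n M) {κ κ' : Type} (i : A.ι) (p : RI n) (m : M → Matrix κ κ' ℂ) (x : M) :
    Matrix κ κ' ℂ := Matrix.of fun k l => pdM A i p (fun y => m y k l) x

theorem pdM_addW {i : A.ι} {f g : M → W} {x : M}
    (hf : DifferentiableAt ℝ (fun z => f ((A.e i).symm z)) (A.e i x))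
    (hg : DifferentiableAt ℝ (fun z => g ((A.e i).symm z)) (A.e i x)) (p : RI n) :
    pdM A i p (fun y => f y + g y) x = pdM A i p f x + pdM A i p g x := by
  unfold pdM
  have h : fderiv ℝ (fun z => f ((A.e i).symm z) + g ((A.e i).symm z)) (A.e i x) =
      fderiv ℝ (fun z => f ((A.e i).symm z)) (A.e i x) +
      fderiv ℝ (fun z => g ((A.e i).symm z)) (A.e i x) := fderiv_add hf hg
  rw [h]
  rfl

theorem pdM_sumW {i : A.ι} {σ : Type*} (s : Finset σ) {f : σ → M → W} {x : M}
    (hf : ∀ t ∈ s, DifferentiableAt ℝ (fun z => f t ((A.e i).symm z)) (A.e i x)) (p : RI n) :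
    pdM A i p (fun y => ∑ t ∈ s, f t y) x = ∑ t ∈ s, pdM A i p (f t) x := by
  unfold pdM
  rw [fderiv_fun_sum hf, _root_.sum_apply]

end pd

/-- smooth products -/
theorem smAt_mulVec {i : A.ι} {κ κ' : Type} [Fintype κ] [Fintype κ'] {m : M → Matrix κ κ' ℂ}
    {v : M → κ' → ℂ} (hm : ∀ k l, A.SmAt i (fun x => m x k l))
    (hv : ∀ l, A.SmAt i (fun x => v x l)) (k : κ) : A.SmAt i (fun x => (m x *ᵥ v x) k) :=
  ContDiffOn.sum fun l _ => (hm k l).mul (hv l)

theorem smAt_pdM {i : A.ι} {κ : Type} [Fintype κ] {v : M → κ → ℂ}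
    (hv : ∀ l, A.SmAt i (fun x => v x l)) (p : RI n) (l : κ) :
    A.SmAt i (fun x => pdM A i p v x l) := by
  refine (SmAt.pdM (hv l) p).congr fun z hz => ?_
  exact pdM_pi hv ((A.e i).map_target hz) p l

/-! ### squares of first order operators -/

variable {B : FBun A}

/-- first derivatives of `T u` -/
theorem FOp.pdM_T (T : FOp B B) (u : Sec B) {i : A.ι} {x : M} (hx : x ∈ (A.e i).source)
    (p : RI n) : pdM A i p ((T.T u).1 i) x =
      (∑ q, (pdMM A i p (T.a i q) x *ᵥ pdM A i q (u.1 i) x +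
        T.a i q x *ᵥ pdM A i p (pdM A i q (u.1 i)) x)) +
      (pdMM A i p (T.b i) x *ᵥ u.1 i x + T.b i x *ᵥ pdM A i p (u.1 i) x) := by
  have hu : ∀ l, A.SmAt i (fun y => u.1 i y l) := u.2.1 i
  have hev : (T.T u).1 i =ᶠ[𝓝 x] fun y => (∑ q, T.a i q y *ᵥ pdM A i q (u.1 i) y) +
      T.b i y *ᵥ u.1 i y := by
    filter_upwards [(A.e i).open_source.mem_nhds hx] with y hy
    exact T.hT u i y hy
  have h1 : ∀ q, A.SmAt i (fun y => T.a i q y *ᵥ pdM A i q (u.1 i) y) := fun q =>
    Atl.SmAt.pi (smAt_mulVec (T.a_sm i q) (smAt_pdM hu q))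
  have h2 : A.SmAt i (fun y => T.b i y *ᵥ u.1 i y) := Atl.SmAt.pi (smAt_mulVec (T.b_sm i) hu)
  have h3 : A.SmAt i (fun y => ∑ q, T.a i q y *ᵥ pdM A i q (u.1 i) y) :=
    ContDiffOn.sum fun q _ => h1 q
  rw [pdM_congr hx hev, pdM_addW (h3.diffAt hx) (h2.diffAt hx),
    pdM_sumW Finset.univ (fun q _ => (h1 q).diffAt hx)]
  rw [pdM_mulVec (T.b_sm i) hu hx]
  congr 1
  refine Finset.sum_congr rfl fun q _ => ?_
  rw [pdM_mulVec (T.a_sm i q) (smAt_pdM hu q) hx]
  rfl

/-- **criterion for `T (T u) = 0`** -/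
theorem FOp.sq_zero (T : FOp B B)
    (h2 : ∀ i, ∀ x ∈ (A.e i).source, ∀ p q, T.a i p x * T.a i q x + T.a i q x * T.a i p x = 0)
    (h1 : ∀ i, ∀ x ∈ (A.e i).source, ∀ q, (∑ p, T.a i p x * pdMM A i p (T.a i q) x) +
      T.a i q x * T.b i x + T.b i x * T.a i q x = 0)
    (h0 : ∀ i, ∀ x ∈ (A.e i).source, (∑ p, T.a i p x * pdMM A i p (T.b i) x) +
      T.b i x * T.b i x = 0) (u : Sec B) : T.T (T.T u) = 0 := by
  apply Subtype.ext
  funext i x
  by_cases hx : x ∈ (A.e i).source
  · have hu : ∀ l, A.SmAt i (fun y => u.1 i y l) := u.2.1 i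
    rw [T.hT (T.T u) i x hx]
    have e1 : ∀ p, T.a i p x *ᵥ pdM A i p ((T.T u).1 i) x =
        (∑ q, ((T.a i p x * pdMM A i p (T.a i q) x) *ᵥ pdM A i q (u.1 i) x +
          (T.a i p x * T.a i q x) *ᵥ pdM A i p (pdM A i q (u.1 i)) x)) +
        ((T.a i p x * pdMM A i p (T.b i) x) *ᵥ u.1 i x +
          (T.a i p x * T.b i x) *ᵥ pdM A i p (u.1 i) x) := by
      intro p
      rw [FOp.pdM_T T u hx p]
      simp only [Matrix.mulVec_add, Matrix.mulVec_sum, Matrix.mulVec_mulVec]
    have e2 : T.b i x *ᵥ (T.T u).1 i x = (∑ q, (T.b i x * T.a i q x) *ᵥ pdM A i q (u.1 i) x) +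
        (T.b i x * T.b i x) *ᵥ u.1 i x := by
      rw [T.hT u i x hx]
      simp only [Matrix.mulVec_add, Matrix.mulVec_sum, Matrix.mulVec_mulVec]
    have e3 : ∑ p, ∑ q, (T.a i p x * T.a i q x) *ᵥ pdM A i p (pdM A i q (u.1 i)) x = 0 := by
      set S := ∑ p, ∑ q, (T.a i p x * T.a i q x) *ᵥ pdM A i p (pdM A i q (u.1 i)) x with hS
      have e4 : S = -S := by
        conv_lhs => rw [hS, Finset.sum_comm]
        rw [hS, ← Finset.sum_neg_distrib]
        refine Finset.sum_congr rfl fun p _ => ?_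
        rw [← Finset.sum_neg_distrib]
        refine Finset.sum_congr rfl fun q _ => ?_
        rw [eq_neg_of_add_eq_zero_left (h2 i x hx q p), Matrix.neg_mulVec,
          pdM_comm (Atl.SmAt.pi hu) hx q p]
      have e5 : (2 : ℂ) • S = 0 := by
        rw [two_smul]
        nth_rewrite 1 [e4]
        exact neg_add_cancel S
      exact (smul_eq_zero.1 e5).resolve_left two_ne_zero
    have e6 : ∑ q, ((∑ p, T.a i p x * pdMM A i p (T.a i q) x) + T.a i q x * T.b i x +
        T.b i x * T.a i q x) *ᵥ pdM A i q (u.1 i) x = 0 :=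
      Finset.sum_eq_zero fun q _ => by rw [h1 i x hx q, Matrix.zero_mulVec]
    have e7 : ((∑ p, T.a i p x * pdMM A i p (T.b i) x) + T.b i x * T.b i x) *ᵥ u.1 i x = 0 := by
      rw [h0 i x hx, Matrix.zero_mulVec]
    simp only [Matrix.add_mulVec, Matrix.sum_mulVec, Finset.sum_add_distrib] at e6 e7
    rw [Finset.sum_congr rfl fun p _ => e1 p, e2]
    simp only [Finset.sum_add_distrib]
    rw [Finset.sum_comm] at e6
    have e8 : (0 : Sec B).1 i x = 0 := rfl
    rw [e8, e3]
    have e9 := congrArg₂ (fun a b => a + b) e6 e7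
    simp only [add_zero] at e9
    refine Eq.trans ?_ e9
    abel
  · rw [(T.T (T.T u)).2.2.1 i x hx]
    rfl

end

end Crest.Agent.R281.OpM_693
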