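import Crest.Agent.R281.OpI5_450

/-!
# R281 (S0424), OPEN' (helper693): (G5) the count

From the output of `OpI_450.open_mov` (linear maps `S i : HolB B → Sec B` with values in the kernel
of `D i`, converging to the inclusion in `C¹` on compact parts of the charts, `HolB B` finite
dimensional): eventually `S i` is injective (`inj_ev`), and `N` linearly independent elements of
`HolB B` give `N` linearly independent elements of the kernel of `D i` (`count_ev`).
-/

set_option autoImplicit false
set_option linter.unusedSectionVars false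
set_option maxSynthPendingDepth 3

open Set Filter Topology Complex
open scoped ContDiff

namespace Crest.Agent.R281.OpM_693

open Crest.Agent.R275 Crest.Agent.R275.Geo
open Crest.Agent.R281.OpC_920 Crest.Agent.R281.OpI_450

noncomputable section

section pure

variable {V : Type*} [AddCommGroup V] [Module ℂ V] {X : Type*}

/-- finitely many points suffice -/
theorem exists_pts [FiniteDimensional ℂ V] (ev : V →ₗ[ℂ] (X → ℂ)) (hev : Function.Injective ev) :
    ∃ F : Finset X, ∀ v, (∀ x ∈ F, ev v x = 0) → v = 0 := by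
  classical
  let K : Finset X → Submodule ℂ V := fun F =>
    { carrier := {v | ∀ x ∈ F, ev v x = 0}
      add_mem' := fun {a b} ha hb x hx => by
        rw [map_add, Pi.add_apply, ha x hx, hb x hx, add_zero]
      zero_mem' := fun x _ => by rw [map_zero, Pi.zero_apply]
      smul_mem' := fun c a ha x hx => by rw [map_smul, Pi.smul_apply, ha x hx, smul_zero] }
  obtain ⟨F, hF⟩ : ∃ F, ∀ G, Module.finrank ℂ (K F) ≤ Module.finrank ℂ (K G) := by
    have hne : (Set.range fun F => Module.finrank ℂ (K F)).Nonempty := ⟨_, ⟨∅, rfl⟩⟩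
    obtain ⟨F, hF⟩ := Nat.sInf_mem hne
    exact ⟨F, fun G => by
      have := Nat.sInf_le (show Module.finrank ℂ (K G) ∈
        Set.range fun F => Module.finrank ℂ (K F) from ⟨G, rfl⟩)
      rw [← hF] at this
      exact this⟩
  refine ⟨F, fun v hv => ?_⟩
  by_contra hv0
  have h1 : ∃ x, ev v x ≠ 0 := by
    by_contra hcon
    push Not at hcon
    exact hv0 (hev (by rw [map_zero]; exact funext hcon))
  obtain ⟨x, hx⟩ := h1
  have hlt : K (insert x F) < K F := by
    refine lt_of_le_of_ne (fun w hw y hy => hw y (Finset.mem_insert_of_mem hy)) fun heq => hx ?_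
    have : v ∈ K (insert x F) := by rw [heq]; exact hv
    exact this x (Finset.mem_insert_self _ _)
  exact absurd (Submodule.finrank_lt_finrank_of_lt hlt) (not_lt.2 (hF _))

/-- linear maps which converge pointwise to an injective one are eventually injective -/
theorem inj_of_pt [FiniteDimensional ℂ V] (ev : V →ₗ[ℂ] (X → ℂ)) (hev : Function.Injective ev)
    {I : Type*} {L : Filter I} (T : I → V →ₗ[ℂ] (X → ℂ))
    (hT : ∀ v x, Tendsto (fun i => T i v x) L (𝓝 (ev v x))) :
    ∀ᶠ i in L, Function.Injective (T i) := by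
  obtain ⟨F, hF⟩ := exists_pts ev hev
  let b := Module.finBasis ℂ V
  let r : (X → ℂ) →ₗ[ℂ] (F → ℂ) := LinearMap.funLeft ℂ ℂ (fun x : F => (x : X))
  have hr : Function.Injective (r ∘ₗ ev) := by
    rw [← LinearMap.ker_eq_bot, LinearMap.ker_eq_bot']
    intro v hv
    exact hF v fun x hx => congrFun hv ⟨x, hx⟩
  have hli : LinearIndependent ℂ (fun a => (r ∘ₗ ev) (b a)) :=
    b.linearIndependent.map' _ (LinearMap.ker_eq_bot.2 hr)
  have ht : Tendsto (fun i => fun a => (r ∘ₗ T i) (b a)) L (𝓝 fun a => (r ∘ₗ ev) (b a)) := by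
    rw [tendsto_pi_nhds]
    intro a
    rw [tendsto_pi_nhds]
    intro x
    exact hT (b a) x
  filter_upwards [ht.eventually hli.eventually] with i hi
  have h2 : Function.Injective (r ∘ₗ T i) := by
    rw [← LinearMap.ker_eq_bot, LinearMap.ker_eq_bot']
    intro v hv
    rw [← b.sum_repr v, map_sum] at hv
    simp only [map_smul] at hv
    have := Fintype.linearIndependent_iff.1 hi _ hv
    rw [← b.sum_repr v]
    exact Finset.sum_eq_zero fun a _ => by rw [this a, zero_smul]
  exact Function.Injective.of_comp (f := r) (g := T i) h2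

end pure

variable {n : ℕ} {M : Type} [TopologicalSpace M] {A : Atl n M} {B : FBun A}

/-- values of a section -/
def evS (B : FBun A) : Sec B →ₗ[ℂ] ((A.ι × M × B.κ) → ℂ) where
  toFun u := fun y => u.1 y.1 y.2.1 y.2.2
  map_add' _ _ := rfl
  map_smul' _ _ := rfl

theorem evS_inj : Function.Injective (evS B) := by
  intro u v h
  apply Subtype.ext
  funext i x k
  exact congrFun h (i, x, k)

theorem C1T.tendsto {σ : Type*} {l : Filter σ} {u : σ → Sec B} {v : Sec B}
    (h : C1T l (fun p => (u p).1) v.1) (i : A.ι) (x : M) (k : B.κ) :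
    Tendsto (fun p => (u p).1 i x k) l (𝓝 (v.1 i x k)) := by
  by_cases hx : x ∈ (A.e i).source
  · have h1 := h.c0 i {A.e i x} isCompact_singleton
      (singleton_subset_iff.2 ((A.e i).map_source hx))
    have h2 := h1.tendsto_at (mem_singleton _)
    simp only [(A.e i).left_inv hx] at h2
    exact ((continuous_apply k).tendsto _).comp h2
  · have h1 : v.1 i x = 0 := v.2.2.1 i x hx
    have h2 : ∀ p, (u p).1 i x = 0 := fun p => (u p).2.2.1 i x hx
    simp only [h1, h2]
    exact tendsto_const_nhds

/-- **(G5)** eventually injective -/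
theorem inj_ev [FiniteDimensional ℂ (HolB B)] {I : Type*} {L : Filter I}
    (S : I → HolB B →ₗ[ℂ] Sec B)
    (hS : ∀ v : HolB B, C1T L (fun i => (S i v).1) (v : Sec B).1) :
    ∀ᶠ i in L, Function.Injective (S i) := by
  have h := inj_of_pt (evS B ∘ₗ (HolB B).subtype)
    (evS_inj.comp (Submodule.injective_subtype _)) (fun i => evS B ∘ₗ S i)
    (fun v y => C1T.tendsto (hS v) y.1 y.2.1 y.2.2)
  filter_upwards [h] with i hi
  exact Function.Injective.of_comp (f := evS B) (g := S i) hi

/-- **(G5)** the count -/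
theorem count_ev [FiniteDimensional ℂ (HolB B)] {I : Type*} {L : Filter I}
    (S : I → HolB B →ₗ[ℂ] Sec B)
    (hS : ∀ v : HolB B, C1T L (fun i => (S i v).1) (v : Sec B).1) {p : I → Sec B → Prop}
    (hp : ∀ᶠ i in L, ∀ v, p i (S i v)) {N : ℕ} (t : Fin N → Sec B) (ht : LinearIndependent ℂ t)
    (htH : ∀ a, t a ∈ HolB B) :
    ∀ᶠ i in L, ∃ s : Fin N → Sec B, LinearIndependent ℂ s ∧ ∀ a, p i (s a) := by
  filter_upwards [inj_ev S hS, hp] with i hi hpi
  refine ⟨fun a => S i ⟨t a, htH a⟩, ?_, fun a => hpi _⟩
  have h1 : LinearIndependent ℂ (fun a => (⟨t a, htH a⟩ : HolB B)) :=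
    LinearIndependent.of_comp (HolB B).subtype ht
  exact h1.map' _ (LinearMap.ker_eq_bot.2 hi)

end

end Crest.Agent.R281.OpM_693
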