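import Crest.Agent.R273.MolJ_106
import Crest.Agent.R273.T8A_774

/-!
# R281, OPEN-INST (M1) (helper396), part 1: multiplication with small coefficients

* `SBt s δ p` : all partial derivatives of `p` up to order `s` are bounded by `δ`;
* `nrm_mul_le_of` : `‖p f‖_s ≤ K_s δ ‖f‖_s`;
* `nv_mulS_le_of` : the matrix form;
* `SBt_pz` : the derivatives of a function read in a chart.
-/

set_option autoImplicit false
set_option linter.unusedSectionVars false
set_option linter.unusedSimpArgs false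
set_option linter.unusedVariables false

open Set Filter Topology Complex
open scoped ContDiff Matrix ComplexConjugate

namespace Crest.Agent.R281.OpN396

open Crest.Agent.R275 Crest.Agent.R275.Geo Crest.Agent.R275.Tor812 Crest.Agent.R275.TorS666
  Crest.Agent.R275.C1d194 Crest.Agent.R275.C2812 Crest.Agent.R275.RetC666
  Crest.Agent.R273.L2K_774 Crest.Agent.R273.TorM_106 Crest.Agent.R273.Mol_106

noncomputable section

section torus

variable {d : Type} [Fintype d]

/-- all partial derivatives of order `≤ s` are bounded by `δ` -/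
def SBt : ℕ → ℝ → SPer d → Prop
  | 0, δ, p => ∀ x, ‖p x‖ ≤ δ
  | s + 1, δ, p => SBt s δ p ∧ ∀ j, SBt s δ (pd j p)

theorem norm_desc_le {p : SPer d} {δ : ℝ} (hδ : 0 ≤ δ) (h : ∀ x, ‖p x‖ ≤ δ) : ‖desc p‖ ≤ δ := by
  rw [ContinuousMap.norm_le _ hδ]
  intro t
  exact h _

/-- the constant -/
def KC (d : Type) [Fintype d] : ℕ → ℝ
  | 0 => 1
  | s + 1 => KC d s + (Fintype.card d : ℝ) * (KC d s + KC d s * (2 * Real.pi))

theorem KC_nonneg (s : ℕ) : 0 ≤ KC d s := by
  induction s with
  | zero => exact zero_le_one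
  | succ s ih =>
    unfold KC
    positivity

/-- **multiplication by a function with small derivatives** -/
theorem nrm_mul_le_of (s : ℕ) : ∀ {δ : ℝ} {p : SPer d}, 0 ≤ δ → SBt s δ p →
    ∀ f : SPer d, nrm s (p * f) ≤ KC d s * δ * nrm s f := by
  induction s with
  | zero =>
    intro δ p hδ hp f
    show _ ≤ 1 * δ * _
    rw [one_mul]
    exact (nrm_zero_mul_le p f).trans (mul_le_mul_of_nonneg_right (norm_desc_le hδ hp)
      (nrm_nonneg _ _))
  | succ s ih =>
    intro δ p hδ hp f
    have hK := KC_nonneg (d := d) s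
    refine (nrm_succ_le s (p * f)).trans ?_
    have h1 : nrm s (p * f) ≤ KC d s * δ * nrm (s + 1) f :=
      (ih hδ hp.1 f).trans (mul_le_mul_of_nonneg_left (nrm_mono (Nat.le_succ s) f) (by positivity))
    have h2 : ∀ j, nrm s (pd j (p * f)) ≤
        (KC d s + KC d s * (2 * Real.pi)) * δ * nrm (s + 1) f := by
      intro j
      rw [pd_mul]
      refine (nrm_add_le _ _ _).trans ?_
      have h3 : nrm s (pd j p * f) ≤ KC d s * δ * nrm (s + 1) f :=
        (ih hδ (hp.2 j) f).trans (mul_le_mul_of_nonneg_left (nrm_mono (Nat.le_succ s) f)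
          (by positivity))
      have h4 : nrm s (p * pd j f) ≤ KC d s * δ * (2 * Real.pi * nrm (s + 1) f) :=
        (ih hδ hp.1 (pd j f)).trans (mul_le_mul_of_nonneg_left (nrm_pd_le s j f) (by positivity))
      calc _ ≤ _ := add_le_add h3 h4
        _ = _ := by ring
    have h5 : ∑ j, nrm s (pd j (p * f)) ≤
        (Fintype.card d : ℝ) * ((KC d s + KC d s * (2 * Real.pi)) * δ * nrm (s + 1) f) := by
      refine (Finset.sum_le_sum fun j _ => h2 j).trans (le_of_eq ?_)
      rw [Finset.sum_const, nsmul_eq_mul, Finset.card_univ]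
    calc _ ≤ _ := add_le_add h1 h5
      _ = _ := by
        show _ = (KC d s + (Fintype.card d : ℝ) * (KC d s + KC d s * (2 * Real.pi))) * δ * _
        ring

end torus

section mulS

variable {n : ℕ} {κ₁ κ₂ : Type} [Fintype κ₁] [Fintype κ₂]

theorem nv_mulS_le_of (s : ℕ) {m : Matrix κ₂ κ₁ (SPer (RI n))} {δ : ℝ} (hδ : 0 ≤ δ)
    (hm : ∀ k l, SBt s δ (m k l)) (f : κ₁ → SPer (RI n)) :
    nv s (mulS m f) ≤ (Fintype.card κ₂ : ℝ) * KC (RI n) s * δ * nv s f := by
  unfold nv
  have h : ∀ k, nrm s (mulS m f k) ≤ KC (RI n) s * δ * ∑ l, nrm s (f l) := by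
    intro k
    rw [mulS_apply, Finset.mul_sum]
    exact (nrm_sum_le _ _ _).trans (Finset.sum_le_sum fun l _ => nrm_mul_le_of s hδ (hm k l) _)
  refine (Finset.sum_le_sum fun k _ => h k).trans (le_of_eq ?_)
  rw [Finset.sum_const, nsmul_eq_mul, Finset.card_univ]
  ring

end mulS

/-! ### reading in charts -/

section chart

variable {n : ℕ} {M : Type} [TopologicalSpace M] {A : Atl n M}

theorem norm_cc_ev (p : RI n) : ‖(cc (ev p) : Cn n)‖ = 1 := by
  obtain ⟨a, b⟩ := p
  fin_cases b
  · show ‖(cc (ev (a, 0)) : Cn n)‖ = 1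
    rw [cc_ev0]
    simp
  · show ‖(cc (ev (a, 1)) : Cn n)‖ = 1
    rw [cc_ev1]
    simp

/-- derivatives of a function read in a chart -/
theorem SBt_pz {i : A.ι} {δ : ℝ} (hδ : 0 ≤ δ) (s : ℕ) : ∀ {f : M → ℂ} (h : IsCF A i f),
    (∀ m ≤ s, ∀ z ∈ (A.e i).target,
      ‖iteratedFDeriv ℝ m (fun w => f ((A.e i).symm w)) z‖ ≤ δ) → SBt s δ (pz h) := by
  induction s with
  | zero =>
    intro f h hb x
    by_cases hx : cc (fr x) ∈ (A.e i).target
    · rw [pz_apply_mem h hx]
      have := hb 0 le_rfl _ hx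
      rwa [norm_iteratedFDeriv_zero] at this
    · rw [pz_apply_notMem h hx, norm_zero]
      exact hδ
  | succ s ih =>
    intro f h hb
    refine ⟨ih h fun m hm => hb m (hm.trans (Nat.le_succ s)), fun p => ?_⟩
    rw [pd_pz]
    refine ih _ fun m hm z hz => ?_
    have h1 : (fun w => pdM A i p f ((A.e i).symm w)) =ᶠ[𝓝 z]
        fun w => fderiv ℝ (fun w => f ((A.e i).symm w)) w (cc (ev p)) := by
      filter_upwards [(A.e i).open_target.mem_nhds hz] with w hw
      exact pdM_symm hw p f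
    rw [(h1.iteratedFDeriv (𝕜 := ℝ) m).eq_of_nhds]
    have h2 : ContDiffAt ℝ ∞ (fderiv ℝ (fun w => f ((A.e i).symm w))) z :=
      ((h.sm.contDiffAt ((A.e i).open_target.mem_nhds hz)).fderiv_right (m := ∞) (by simp))
    refine (norm_iteratedFDeriv_clm_apply_const h2 (by exact_mod_cast le_top)).trans ?_
    rw [norm_cc_ev, one_mul, norm_iteratedFDeriv_fderiv]
    exact hb (m + 1) (by omega) z hz

end chart

end

end Crest.Agent.R281.OpN396
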