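import Crest.Agent.R281.OpN1_396

/-!
# R281, OPEN-INST (M1) (helper396), part 2: the quantitative bound of a first order operator

* `SBt_ampT` : cut off coefficients;
* `loc_T_eq` : `loc ψ (T u) = ∑ (χ a^p) [∂_p (ψ u) - (∂_p ψ) u] + (χ b) ψ u` on the torus;
* `nrm_le`   : **(M1)** `‖T u‖_s ≤ C ε ‖u‖_{s+1}` with `C` independent of `T`.
-/

set_option autoImplicit false
set_option linter.unusedSectionVars false
set_option linter.unusedSimpArgs false
set_option linter.unusedVariables false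

open Set Filter Topology Complex
open scoped ContDiff Matrix ComplexConjugate

namespace Crest.Agent.R281.OpN396

open Crest.Agent.R275 Crest.Agent.R275.Geo Crest.Agent.R275.Tor812 Crest.Agent.R275.TorS666
  Crest.Agent.R275.C1d194 Crest.Agent.R275.C2812 Crest.Agent.R275.RetC666
  Crest.Agent.R273.L2K_774 Crest.Agent.R273.TorM_106 Crest.Agent.R273.Mol_106
open Crest.Agent.R273.KRL2_803 (S0)

noncomputable section

variable {n : ℕ} {M : Type} [TopologicalSpace M] {A : Atl n M}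

/-! ### cut off coefficients -/

section cut

variable {P : Part A} {j : A.ι}

theorem isCompact_img (P : Part A) (j : A.ι) : IsCompact (A.e j '' tsupport (P.χ j)) :=
  (P.χ_cpt j).image_of_continuousOn ((A.e j).continuousOn.mono (P.χ_sub j))

theorem img_sub (P : Part A) (j : A.ι) : A.e j '' tsupport (P.χ j) ⊆ (A.e j).target := by
  rintro _ ⟨x, hx, rfl⟩
  exact (A.e j).map_source (P.χ_sub j hx)

theorem chi_smAt (P : Part A) (j : A.ι) : A.SmAt j (fun x => ((P.χ j x : ℝ) : ℂ)) :=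
  smAt_ofReal (P.χ_sm j j)

/-- the derivatives of the cut off are bounded -/
theorem chi_bdd (P : Part A) (j : A.ι) (s : ℕ) : ∃ D, 0 ≤ D ∧ ∀ m ≤ s,
    ∀ z ∈ A.e j '' tsupport (P.χ j),
      ‖iteratedFDeriv ℝ m (fun w => ((P.χ j ((A.e j).symm w) : ℝ) : ℂ)) z‖ ≤ D := by
  have h1 : ∀ m : ℕ, ∃ D, 0 ≤ D ∧ ∀ z ∈ A.e j '' tsupport (P.χ j),
      ‖iteratedFDeriv ℝ m (fun w => ((P.χ j ((A.e j).symm w) : ℝ) : ℂ)) z‖ ≤ D := by
    intro m
    have hc : ContinuousOn (iteratedFDeriv ℝ m (fun w => ((P.χ j ((A.e j).symm w) : ℝ) : ℂ)))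
        (A.e j).target := by
      have := (chi_smAt P j).continuousOn_iteratedFDerivWithin (m := m)
        (by exact_mod_cast le_top) (A.e j).open_target.uniqueDiffOn
      exact this.congr fun z hz =>
        (iteratedFDerivWithin_of_isOpen m (A.e j).open_target hz).symm
    obtain ⟨D, hD⟩ := (isCompact_img P j).exists_bound_of_continuousOn (hc.mono (img_sub P j))
    exact ⟨max D 0, le_max_right _ _, fun z hz => (hD z hz).trans (le_max_left _ _)⟩
  choose D h0 hD using h1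
  refine ⟨∑ m ∈ Finset.range (s + 1), D m, Finset.sum_nonneg fun m _ => h0 m,
    fun m hm z hz => (hD m z hz).trans ?_⟩
  exact Finset.single_le_sum (f := D) (fun m _ => h0 m) (Finset.mem_range.2 (by omega))

/-- the derivatives of `χ a` -/
theorem bdd_chi_mul (P : Part A) (j : A.ι) {s : ℕ} {D ε : ℝ} (hD0 : 0 ≤ D) (hε : 0 ≤ ε)
    (hD : ∀ m ≤ s, ∀ z ∈ A.e j '' tsupport (P.χ j),
      ‖iteratedFDeriv ℝ m (fun w => ((P.χ j ((A.e j).symm w) : ℝ) : ℂ)) z‖ ≤ D)
    {f : M → ℂ} (hf : A.SmAt j f) (hb : ∀ m ≤ s, ∀ z ∈ A.e j '' tsupport (P.χ j),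
      ‖iteratedFDeriv ℝ m (fun w => f ((A.e j).symm w)) z‖ ≤ ε) :
    ∀ m ≤ s, ∀ z ∈ (A.e j).target,
      ‖iteratedFDeriv ℝ m (fun w => ((P.χ j ((A.e j).symm w) : ℝ) : ℂ) * f ((A.e j).symm w)) z‖ ≤
        2 ^ s * D * ε := by
  intro m hm z hz
  by_cases hz' : z ∈ A.e j '' tsupport (P.χ j)
  · have h1 := norm_iteratedFDerivWithin_mul_le (𝕜 := ℝ) (n := m) (chi_smAt P j) hf
      (A.e j).open_target.uniqueDiffOn hz (by exact_mod_cast le_top)
    rw [iteratedFDerivWithin_of_isOpen m (A.e j).open_target hz] at h1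
    refine h1.trans ?_
    have h2 : ∀ i ∈ Finset.range (m + 1), (m.choose i : ℝ) *
        ‖iteratedFDerivWithin ℝ i (fun w => ((P.χ j ((A.e j).symm w) : ℝ) : ℂ)) (A.e j).target z‖ *
        ‖iteratedFDerivWithin ℝ (m - i) (fun w => f ((A.e j).symm w)) (A.e j).target z‖ ≤
        (m.choose i : ℝ) * (D * ε) := by
      intro i hi
      have hi' : i ≤ m := Nat.lt_succ_iff.1 (Finset.mem_range.1 hi)
      rw [iteratedFDerivWithin_of_isOpen i (A.e j).open_target hz,
        iteratedFDerivWithin_of_isOpen (m - i) (A.e j).open_target hz, mul_assoc]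
      refine mul_le_mul_of_nonneg_left ?_ (by positivity)
      exact mul_le_mul (hD i (by omega) z hz') (hb (m - i) (by omega) z hz') (norm_nonneg _) hD0
    refine (Finset.sum_le_sum h2).trans ?_
    rw [← Finset.sum_mul, ← Nat.cast_sum, Nat.sum_range_choose, mul_assoc]
    refine mul_le_mul_of_nonneg_right ?_ (by positivity)
    push_cast
    exact pow_le_pow_right₀ (by norm_num) hm
  · have hev : (fun w => ((P.χ j ((A.e j).symm w) : ℝ) : ℂ) * f ((A.e j).symm w)) =ᶠ[𝓝 z]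
        fun _ => (0 : ℂ) := by
      filter_upwards [(isCompact_img P j).isClosed.isOpen_compl.mem_nhds hz',
        (A.e j).open_target.mem_nhds hz] with w hw hw'
      have h3 : (A.e j).symm w ∉ tsupport (P.χ j) := fun h =>
        hw ⟨_, h, (A.e j).right_inv hw'⟩
      rw [image_eq_zero_of_notMem_tsupport h3]
      simp
    rw [(hev.iteratedFDeriv (𝕜 := ℝ) m).eq_of_nhds]
    have h4 : iteratedFDeriv ℝ m (fun _ : Cn n => (0 : ℂ)) z = 0 := by
      rw [iteratedFDeriv_fun_zero]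
      rfl
    rw [h4, norm_zero]
    positivity

/-- entries of a cut off matrix -/
theorem SBt_ampT {κ₁ κ₂ : Type} [Fintype κ₁] [DecidableEq κ₁] [Fintype κ₂] (P : Part A) (j : A.ι)
    {s : ℕ} {D ε : ℝ}
    (hD0 : 0 ≤ D) (hε : 0 ≤ ε)
    (hD : ∀ m ≤ s, ∀ z ∈ A.e j '' tsupport (P.χ j),
      ‖iteratedFDeriv ℝ m (fun w => ((P.χ j ((A.e j).symm w) : ℝ) : ℂ)) z‖ ≤ D)
    {a : M → Matrix κ₁ κ₂ ℂ} (ha : ∀ k l, A.SmAt j (fun x => a x k l))
    (hb : ∀ k l, ∀ m ≤ s, ∀ z ∈ A.e j '' tsupport (P.χ j),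
      ‖iteratedFDeriv ℝ m (fun w => a ((A.e j).symm w) k l) z‖ ≤ ε)
    (hc : IsAmp A j (fun x => P.chi κ₁ j x * a x)) (k : κ₁) (l : κ₂) :
    SBt s (2 ^ s * D * ε) (ampT hc k l) := by
  have hent : ∀ x, (P.chi κ₁ j x * a x) k l = ((P.χ j x : ℝ) : ℂ) * a x k l := by
    intro x
    simp [Part.chi, Matrix.smul_mul]
  have hcf : IsCF A j (fun x => (P.chi κ₁ j x * a x) k l) := by
    refine ⟨hc.sm k l, tsupport (P.χ j), P.χ_cpt j, P.χ_sub j, fun x _ hx => ?_⟩
    rw [hent, image_eq_zero_of_notMem_tsupport hx]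
    simp
  have h1 : ampT hc k l = pz hcf := by
    refine SPer.ext fun x => ?_
    by_cases hx : cc (fr x) ∈ (A.e j).target
    · rw [pz_apply_mem hcf hx]
      exact ampT_mem hc k l hx
    · rw [pz_apply_notMem hcf hx]
      exact ampT_off hc k l hx
  rw [h1]
  refine SBt_pz (by positivity) s hcf fun m hm z hz => ?_
  have h2 := bdd_chi_mul P j hD0 hε hD (ha k l) (hb k l) m hm z hz
  have h3 : (fun w => (P.chi κ₁ j ((A.e j).symm w) * a ((A.e j).symm w)) k l) =
      fun w => ((P.χ j ((A.e j).symm w) : ℝ) : ℂ) * a ((A.e j).symm w) k l :=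
    funext fun w => hent _
  rw [h3]
  exact h2

end cut

/-! ### localisation of the operator -/

section loc

variable [Finite A.ι] {B B' : FBun A} (T : FOp B B') (P : Part A)

theorem amp_cb (j : A.ι) : IsAmp A j (fun x => P.chi B'.κ j x * T.b j x) :=
  isAmp_mul_right ((P.amp_chi B'.κ).amp j) (T.b_sm j)

/-- the cut off derivative `ψ ∂_p u` on the torus -/
def dpu (P : Part A) (B : FBun A) (p : RI n) (u : Sec B) (j : A.ι) : B.κ → SPer (RI n) :=
  pdv B.κ p (LocF B (P.psi B.κ) u.1 j) - LocF B (fun j => pAmp A j p (P.psi B.κ j)) u.1 j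

theorem ampF_dpsi (P : Part A) (B : FBun A) (p : RI n) :
    AmpF P (fun j => pAmp A j p (P.psi B.κ j)) :=
  ampF_of (P.amp_psi B.κ) (fun j => isAmp_pAmp ((P.amp_psi B.κ).amp j) p) fun j x hx => by
    unfold pAmp
    rw [if_neg hx]

theorem loc_T_eq (u : Sec B) (j : A.ι) :
    LocF B' (P.psi B'.κ) (T.T u).1 j =
      (∑ p, mulS (ampT (T.amp_ca P p j)) (dpu P B p u j)) +
        mulS (ampT (amp_cb T P j)) (LocF B (P.psi B.κ) u.1 j) := by
  have hs : ∀ l, A.SmAt j (fun x => u.1 j x l) := u.2.1 j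
  have hns : ∀ l, A.SmAt j (fun x => (T.T u).1 j x l) := (T.T u).2.1 j
  have hψ' := (P.amp_psi B'.κ).amp j
  have hψ := (P.amp_psi B.κ).amp j
  have hχψ : ∀ x, ((P.χ j x : ℝ) : ℂ) * ((P.ψ j x : ℝ) : ℂ) = ((P.ψ j x : ℝ) : ℂ) := by
    intro x; rw [← ofReal_mul, P.chi_mul_psi]
  funext k
  show loc A j (P.psi B'.κ j) ((T.T u).1 j) k = _
  rw [Pi.add_apply, Finset.sum_apply]
  refine SPer_ext_chart j (fun x hx => ?_) fun x hx => ?_
  · rw [SPer.add_apply, sper_sum_apply, Geo.loc_notMem hψ' hns k hx, mulS_apply, sper_sum_apply]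
    have h0 : ∀ p : RI n, mulS (ampT (T.amp_ca P p j)) (dpu P B p u j) k x = 0 := by
      intro p
      rw [mulS_apply, sper_sum_apply]
      refine Finset.sum_eq_zero fun l _ => ?_
      rw [SPer.mul_apply, ampT_off _ _ _ hx, zero_mul]
    have h0' : ∑ l, (ampT (amp_cb T P j) k l * LocF B (P.psi B.κ) u.1 j l) x = 0 := by
      refine Finset.sum_eq_zero fun l _ => ?_
      rw [SPer.mul_apply, ampT_off _ _ _ hx, zero_mul]
    rw [h0', add_zero]
    exact (Finset.sum_eq_zero fun p _ => h0 p).symm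
  · rw [SPer.add_apply, sper_sum_apply, loc_rc hψ' hns k hx, T.hT u j x hx]
    -- value of the cut off derivative
    have h1 : ∀ p l, dpu P B p u j l (rc (A.e j x)) =
        ((P.ψ j x : ℝ) : ℂ) * pdM A j p (u.1 j) x l := by
      intro p l
      show pd p (loc A j (P.psi B.κ j) (u.1 j) l) (rc (A.e j x)) -
        loc A j (pAmp A j p (P.psi B.κ j)) (u.1 j) l (rc (A.e j x)) = _
      have h2 := congrFun (pdM_mulVec hψ.sm hs hx p) l
      rw [Geo.loc_eq (hψ.cf hs l), pd_pz, pz_rc _ hx, loc_rc (isAmp_pAmp hψ p) hs l hx, pAmp_eq hx,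
        ← pdM_pi (fun k => (hψ.cf hs k).sm) hx, h2, Pi.add_apply, add_sub_cancel_left]
      simp only [Part.psi, Matrix.smul_mulVec, Matrix.one_mulVec, Pi.smul_apply, smul_eq_mul]
    have h3 : ∀ l, (LocF B (P.psi B.κ) u.1 j) l (rc (A.e j x)) =
        ((P.ψ j x : ℝ) : ℂ) * u.1 j x l := by
      intro l
      show loc A j (P.psi B.κ j) (u.1 j) l (rc (A.e j x)) = _
      rw [loc_rc hψ hs l hx]
      simp only [Part.psi, Matrix.smul_mulVec, Matrix.one_mulVec, Pi.smul_apply, smul_eq_mul]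
    have hc : ∀ a v : ℂ, ((P.χ j x : ℝ) : ℂ) * a * (((P.ψ j x : ℝ) : ℂ) * v) =
        ((P.ψ j x : ℝ) : ℂ) * (a * v) := by
      intro a v
      calc _ = (((P.χ j x : ℝ) : ℂ) * ((P.ψ j x : ℝ) : ℂ)) * (a * v) := by ring
        _ = _ := by rw [hχψ]
    have h4 : ∀ p, mulS (ampT (T.amp_ca P p j)) (dpu P B p u j) k (rc (A.e j x)) =
        ((P.ψ j x : ℝ) : ℂ) * (T.a j p x *ᵥ pdM A j p (u.1 j) x) k := by
      intro p
      rw [mulS_apply, sper_sum_apply]
      simp only [SPer.mul_apply, ampT_rc _ _ _ hx, h1, Matrix.mulVec, dotProduct, Part.chi,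
        Matrix.smul_mul, Matrix.one_mul, Matrix.smul_apply, smul_eq_mul, Finset.mul_sum]
      exact Finset.sum_congr rfl fun l _ => hc _ _
    have h5 : mulS (ampT (amp_cb T P j)) (LocF B (P.psi B.κ) u.1 j) k (rc (A.e j x)) =
        ((P.ψ j x : ℝ) : ℂ) * (T.b j x *ᵥ u.1 j x) k := by
      rw [mulS_apply, sper_sum_apply]
      simp only [SPer.mul_apply, ampT_rc _ _ _ hx, h3, Matrix.mulVec, dotProduct, Part.chi,
        Matrix.smul_mul, Matrix.one_mul, Matrix.smul_apply, smul_eq_mul, Finset.mul_sum]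
      exact Finset.sum_congr rfl fun l _ => hc _ _
    simp only [h4, h5]
    simp only [Part.psi, Matrix.smul_mulVec, Matrix.one_mulVec, Pi.smul_apply, smul_eq_mul,
      Pi.add_apply, Finset.sum_apply, mul_add, Finset.mul_sum]

end loc

/-! ### the bound -/

section main

variable [Finite A.ι] (P : Part A) (B B' : FBun A)

/-- the plain norm of the cut off derivative -/
theorem nv_dpu_le (p : RI n) (s : ℕ) : ∃ C, 0 ≤ C ∧ ∀ (u : Sec B) (j : A.ι),
    nv s (dpu P B p u j) ≤ C * nS P B (s + 1) u := by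
  obtain ⟨C, hC0, hC⟩ := nF_LocF_le P (ampF_dpsi P B p) s
  refine ⟨2 * Real.pi + C, by positivity, fun u j => ?_⟩
  unfold dpu
  refine (nv_sub_le _ _ _).trans ?_
  rw [add_mul]
  refine add_le_add ((nv_pdv_le s p _).trans ?_) ?_
  · exact mul_le_mul_of_nonneg_left (nv_le_nF (s + 1) _ j) (by positivity)
  · refine (nv_le_nF s _ j).trans ((hC u).trans ?_)
    exact mul_le_mul_of_nonneg_left (nS_mono P B (by omega) u) hC0

/-- **quantitative bound of a first order operator**, plain norms, only `s` derivatives of the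
coefficients are used -/
theorem nS_le_of (s : ℕ) : ∃ C, 0 ≤ C ∧ ∀ (T : FOp B B') (ε : ℝ), 0 ≤ ε →
    (∀ j p k l, ∀ m ≤ s, ∀ z ∈ A.e j '' tsupport (P.χ j),
      ‖iteratedFDeriv ℝ m (fun w => T.a j p ((A.e j).symm w) k l) z‖ ≤ ε) →
    (∀ j k l, ∀ m ≤ s, ∀ z ∈ A.e j '' tsupport (P.χ j),
      ‖iteratedFDeriv ℝ m (fun w => T.b j ((A.e j).symm w) k l) z‖ ≤ ε) →
    ∀ u : Sec B, nS P B' s (T.T u) ≤ C * ε * nS P B (s + 1) u := by
  have := Fintype.ofFinite A.ι
  choose D hD0 hD using fun j => chi_bdd P j s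
  choose C hC0 hC using fun p => nv_dpu_le P B p s
  refine ⟨∑ j, (Fintype.card B'.κ : ℝ) * KC (RI n) s * (2 ^ s * D j) * ((∑ p, C p) + 1),
    Finset.sum_nonneg fun j _ => ?_, fun T ε hε ha hb u => ?_⟩
  · have h1 := KC_nonneg (d := RI n) s
    have h2 : 0 ≤ ∑ p, C p := Finset.sum_nonneg fun p _ => hC0 p
    have h3 := hD0 j
    positivity
  · show nF s (LocF B' (P.psi B'.κ) (T.T u).1) ≤ _
    rw [nF_eq, Finset.sum_mul, Finset.sum_mul]
    refine Finset.sum_le_sum fun j _ => ?_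
    rw [loc_T_eq T P u j]
    have hK := KC_nonneg (d := RI n) s
    have hDj := hD0 j
    have h1 : ∀ p, nv s (mulS (ampT (T.amp_ca P p j)) (dpu P B p u j)) ≤
        (Fintype.card B'.κ : ℝ) * KC (RI n) s * (2 ^ s * D j * ε) * (C p * nS P B (s + 1) u) := by
      intro p
      refine (nv_mulS_le_of s (by positivity) (fun k l => SBt_ampT P j (hD0 j) hε (hD j)
        (T.a_sm j p) (ha j p) (T.amp_ca P p j) k l) _).trans ?_
      exact mul_le_mul_of_nonneg_left (hC p u j) (by positivity)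
    have h2 : nv s (mulS (ampT (amp_cb T P j)) (LocF B (P.psi B.κ) u.1 j)) ≤
        (Fintype.card B'.κ : ℝ) * KC (RI n) s * (2 ^ s * D j * ε) * (nS P B (s + 1) u) := by
      refine (nv_mulS_le_of s (by positivity) (fun k l => SBt_ampT P j (hD0 j) hε (hD j)
        (T.b_sm j) (hb j) (amp_cb T P j) k l) _).trans ?_
      refine mul_le_mul_of_nonneg_left ?_ (by positivity)
      exact (nv_le_nF s _ j).trans (nS_mono P B (by omega) u)
    refine (nv_add_le _ _ _).trans ((add_le_add ((nv_sum_le _ _ _).trans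
      (Finset.sum_le_sum fun p _ => h1 p)) h2).trans (le_of_eq ?_))
    rw [← Finset.mul_sum, ← Finset.sum_mul]
    ring

/-- **(M1)** the bound in the scale `S0` -/
theorem nrm_le (s : ℕ) : ∃ C, 0 ≤ C ∧ ∀ (T : FOp B B') (eps : ℝ), 0 ≤ eps →
    (∀ j p k l, ∀ m ≤ s + 1, ∀ z ∈ A.e j '' tsupport (P.χ j),
      ‖iteratedFDeriv ℝ m (fun w => T.a j p ((A.e j).symm w) k l) z‖ ≤ eps) →
    (∀ j k l, ∀ m ≤ s + 1, ∀ z ∈ A.e j '' tsupport (P.χ j),
      ‖iteratedFDeriv ℝ m (fun w => T.b j ((A.e j).symm w) k l) z‖ ≤ eps) →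
    ∀ u : Sec B, (S0 P B').nrm s (T.T u) ≤ C * eps * (S0 P B).nrm (s + 1) u := by
  obtain ⟨C, hC0, hC⟩ := nS_le_of P B B' s
  obtain ⟨C', hC0', hC'⟩ := Crest.Agent.R273.T8_774.nS_le_nrm0 P (B := B) (s + 1)
  refine ⟨C * C', mul_nonneg hC0 hC0', fun T eps he ha hb u => ?_⟩
  refine (Crest.Agent.R273.T8_774.nrm0_le_nS P s (T.T u)).trans ((hC T eps he
    (fun j p k l m hm => ha j p k l m (by omega)) (fun j k l m hm => hb j k l m (by omega)) u).trans
    ?_)
  refine (mul_le_mul_of_nonneg_left (hC' u) (mul_nonneg hC0 he)).trans (le_of_eq ?_)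
  ring

end main

end

end Crest.Agent.R281.OpN396
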