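import Crest.Agent.R281.Rk4_599

/-!
# R281 (S0424), OPEN' (helper330): the rank of a power

`rk_pow` : `n` independent ratios of sections of `L ^ k` give `n` independent ratios of sections of
`L ^ (k j)` (`t_a = s_a s_0 ^ (j - 1)`).
-/

set_option autoImplicit false
set_option linter.unusedSectionVars false

open Set Filter Topology Complex

namespace Crest.Agent.R281.OpR_330

open Crest.Agent.R275.Geo Crest.Agent.R275.Core144 Crest.Agent.R273.Sg1_101
open Crest.Agent.R273.Sg2_101 Crest.Agent.R281.Rk_599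

noncomputable section

variable {n : ℕ} {M : Type} [TopologicalSpace M] {A : Atl n M}

/-- multiplication of all sections by a power of `s 0` does not change the ratios -/
theorem rk_mul {L : LB A} {r : ℕ} {s : Fin (r + 1) → A.ι → M → ℂ}
    (hs : ∀ a, IsHS L univ (s a)) {i : A.ι} {x : M} (h : Rk A s i x) (m : ℕ) :
    Rk A (fun a => s a * s 0 ^ m) i x := by
  obtain ⟨hx, h0, hl⟩ := h
  refine ⟨hx, ?_, ?_⟩
  · show (s 0 * s 0 ^ m) i x ≠ 0
    rw [Pi.mul_apply, Pi.mul_apply, Pi.pow_apply, Pi.pow_apply]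
    exact mul_ne_zero h0 (pow_ne_zero _ h0)
  · have hne : ∀ᶠ z in 𝓝 (A.e i x), rd A i (s 0) z ≠ 0 := by
      refine (analyticOnNhd_rd (hs 0) i _ ((A.e i).map_source hx)).continuousAt.eventually_ne ?_
      show s 0 i ((A.e i).symm (A.e i x)) ≠ 0
      rwa [(A.e i).left_inv hx]
    have hrat : (fun a : Fin r => fderiv ℂ (rat A (fun a => s a * s 0 ^ m) i a) (A.e i x)) =
        fun a : Fin r => fderiv ℂ (rat A s i a) (A.e i x) := by
      funext a
      refine Filter.EventuallyEq.fderiv_eq ?_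
      filter_upwards [hne] with z hz
      have hz' : s 0 i ((A.e i).symm z) ≠ 0 := hz
      simp only [rat, Pi.mul_apply, Pi.pow_apply]
      field_simp
    rw [hrat]
    exact hl

/-- **the rank of a power** -/
theorem rk_pow {L : LB A} {k r : ℕ} {s : Fin (r + 1) → A.ι → M → ℂ}
    (hs : ∀ a, IsHS (L ^ k) univ (s a)) {i : A.ι} {x : M} (h : Rk A s i x) {j : ℕ} (hj : 0 < j) :
    ∃ t : Fin (r + 1) → A.ι → M → ℂ, (∀ a, IsHS (L ^ (k * j)) univ (t a)) ∧
      ∃ i x, Rk A t i x := by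
  obtain ⟨m, rfl⟩ : ∃ m, j = m + 1 := ⟨j - 1, by omega⟩
  refine ⟨fun a => s a * s 0 ^ m, fun a => ?_, i, x, rk_mul hs h m⟩
  have e1 : L ^ (k * (m + 1)) = L ^ k * (L ^ k) ^ m := by
    rw [← pow_mul, ← pow_add]; ring_nf
  rw [e1]
  exact isHS_mul_pow (hs a) (hs 0) m

end

end Crest.Agent.R281.OpR_330
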