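import Crest.Agent.R281.Op3a_569
import Crest.Agent.R281.OpB3_849
import Crest.Agent.R281.OpB4_849
import Crest.Agent.R266.Osgood

/-!
# Row 281, OPEN-O3, second owner (helper330), file 1: holomorphic immersed tori, Liouville

`F : (d → ℝ) → M` continuous, periodic, `F ∘ T⁻¹` a holomorphic immersion (`T : ℝ^d ≃ ℂ^m` linear).

* `quot_const` : two holomorphic sections of `L`, the first one without zeros on the torus, are
  proportional on the torus;
* `vec_const` : a holomorphic vector field with values in `L` which is tangent to the torus is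
  `u • DF(η)` with `η` constant.
-/

set_option autoImplicit false
set_option linter.unusedSectionVars false

open Set Filter Topology Complex Matrix
open scoped ContDiff Matrix ComplexConjugate ComplexOrder

namespace Crest.Agent.R281.OpT_330

open Crest.Agent.R273 Crest.Agent.R275 Crest.Agent.R275.Geo Crest.Agent.R275.Core144
open Crest.Agent.R273.Defs_333 Crest.Agent.R273.HM_333 Crest.Agent.R273.Kah_333
open Crest.Agent.R273.Vol_333
open Crest.Agent.R281.Op3_569 (Per)
open Crest.Agent.R281.OpB_849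

noncomputable section

variable {m N : ℕ} {M : Type} [TopologicalSpace M] {A : Atl N M} {L : LB A} {d : Type} [Fintype d]

/-- a holomorphic immersed torus -/
structure HTor (A : Atl N M) (T : (d → ℝ) ≃L[ℝ] Cn m) (F : (d → ℝ) → M) : Prop where
  cont : Continuous F
  per : Per F
  hol : ∀ i z, F (T.symm z) ∈ (A.e i).source →
    DifferentiableAt ℂ (fun w => A.e i (F (T.symm w))) z
  inj : ∀ i z, F (T.symm z) ∈ (A.e i).source →
    Function.Injective (fderiv ℂ (fun w => A.e i (F (T.symm w))) z)

/-- the reading of the torus in the chart `i` -/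
def rd (A : Atl N M) (T : (d → ℝ) ≃L[ℝ] Cn m) (F : (d → ℝ) → M) (i : A.ι) (z : Cn m) : Cn N :=
  A.e i (F (T.symm z))

variable {T : (d → ℝ) ≃L[ℝ] Cn m} {F : (d → ℝ) → M}

/-! ### periodic entire functions are constant -/

/-- a continuous periodic function has bounded range -/
theorem per_bdd {E : Type*} [NormedAddCommGroup E] {f : (d → ℝ) → E} (hf : Continuous f)
    (hp : Per f) : Bornology.IsBounded (range f) := by
  have h1 : range f ⊆ f '' (Icc (0 : d → ℝ) 1) := by
    rintro _ ⟨x, rfl⟩
    refine ⟨fun i => Int.fract (x i), ⟨fun i => Int.fract_nonneg _, fun i => (Int.fract_lt_one _).le⟩,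
      ?_⟩
    have h2 := hp (fun i => ⌊x i⌋) (fun i => Int.fract (x i))
    rw [← h2]
    congr 1
    funext i
    exact Int.fract_add_floor (x i)
  exact ((isCompact_Icc.image hf).isBounded).subset h1

theorem per_const {E : Type*} [NormedAddCommGroup E] [NormedSpace ℂ E] {f : Cn m → E}
    (hf : Differentiable ℂ f) (hp : Per fun x => f (T x)) (z w : Cn m) : f z = f w := by
  have h1 : range f = range fun x => f (T x) := by
    ext y
    constructor
    · rintro ⟨z, rfl⟩
      exact ⟨T.symm z, by simp⟩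
    · rintro ⟨x, rfl⟩
      exact ⟨T x, rfl⟩
  have h2 : Bornology.IsBounded (range f) := by
    rw [h1]
    exact per_bdd (hf.continuous.comp T.continuous) hp
  exact hf.apply_eq_apply_of_bounded h2 z w

/-! ### holomorphic data along the torus -/

theorem HTor.nhds (hF : HTor A T F) {i : A.ι} {z : Cn m} (hz : F (T.symm z) ∈ (A.e i).source) :
    ∀ᶠ w in 𝓝 z, F (T.symm w) ∈ (A.e i).source :=
  (hF.cont.comp T.symm.continuous).continuousAt.preimage_mem_nhds ((A.e i).open_source.mem_nhds hz)

theorem holAt_diff {i : A.ι} {f : M → ℂ} (hf : HolAt A i univ f) {x : M}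
    (hx : x ∈ (A.e i).source) :
    DifferentiableAt ℂ (fun z => f ((A.e i).symm z)) (A.e i x) := by
  have h1 : DifferentiableOn ℂ (fun z => f ((A.e i).symm z)) (A.e i).target := by
    unfold HolAt at hf
    simpa using hf
  exact h1.differentiableAt ((A.e i).open_target.mem_nhds ((A.e i).map_source hx))

/-- a holomorphic function along the torus -/
theorem HTor.comp (hF : HTor A T F) {i : A.ι} {f : M → ℂ} (hf : HolAt A i univ f) {z : Cn m}
    (hz : F (T.symm z) ∈ (A.e i).source) :
    DifferentiableAt ℂ (fun w => f (F (T.symm w))) z := by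
  have h1 := holAt_diff hf hz
  have h2 : DifferentiableAt ℂ (fun w => f ((A.e i).symm (A.e i (F (T.symm w))))) z :=
    DifferentiableAt.comp (f := fun w => A.e i (F (T.symm w)))
      (g := fun z => f ((A.e i).symm z)) z h1 (hF.hol i z hz)
  refine h2.congr_of_eventuallyEq ?_
  filter_upwards [hF.nhds hz] with w hw
  rw [(A.e i).left_inv hw]

theorem IsHS.quot {u v : A.ι → M → ℂ} (hu : IsHS L univ u) (hv : IsHS L univ v) {i j : A.ι} {x : M}
    (hi : x ∈ (A.e i).source) (hj : x ∈ (A.e j).source) : v i x / u i x = v j x / u j x := by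
  rw [hu.tr i j x ⟨hi, hj⟩ (mem_univ x), hv.tr i j x ⟨hi, hj⟩ (mem_univ x)]
  exact mul_div_mul_left _ _ (L.ne_zero i j x)

theorem ne_of_ne {u : A.ι → M → ℂ} (hu : IsHS L univ u) {i j : A.ι} {x : M}
    (hi : x ∈ (A.e i).source) (hj : x ∈ (A.e j).source) (h : u i x ≠ 0) : u j x ≠ 0 := by
  intro h0
  rw [hu.tr i j x ⟨hi, hj⟩ (mem_univ x), h0, mul_zero] at h
  exact h rfl

/-- the section `u` has no zero on the torus -/
def NZ (u : A.ι → M → ℂ) (F : (d → ℝ) → M) : Prop :=
  ∀ i x, F x ∈ (A.e i).source → u i (F x) ≠ 0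

/-- **two sections are proportional on the torus** -/
theorem quot_const (hF : HTor A T F) {u v : A.ι → M → ℂ} (hu : IsHS L univ u)
    (hv : IsHS L univ v) (h0 : NZ u F) :
    ∃ c : ℂ, ∀ i x, F x ∈ (A.e i).source → v i (F x) = c * u i (F x) := by
  set ch : M → A.ι := fun x => (A.cover x).choose with hch
  have hchs : ∀ x, x ∈ (A.e (ch x)).source := fun x => (A.cover x).choose_spec
  set g : Cn m → ℂ := fun z => v (ch (F (T.symm z))) (F (T.symm z)) /
    u (ch (F (T.symm z))) (F (T.symm z)) with hg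
  have hgi : ∀ i z, F (T.symm z) ∈ (A.e i).source →
      g z = v i (F (T.symm z)) / u i (F (T.symm z)) := fun i z hz =>
    IsHS.quot hu hv (hchs _) hz
  have hd : Differentiable ℂ g := by
    intro z
    obtain ⟨i, hi⟩ := A.cover (F (T.symm z))
    have h1 : DifferentiableAt ℂ (fun w => v i (F (T.symm w)) / u i (F (T.symm w))) z := by
      simp only [div_eq_mul_inv]
      exact (hF.comp (hv.hol i) hi).mul ((hF.comp (hu.hol i) hi).inv (h0 i _ hi))
    refine h1.congr_of_eventuallyEq ?_
    filter_upwards [hF.nhds hi] with w hw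
    exact hgi i w hw
  have hp : Per fun x => g (T x) := by
    intro k x
    show v (ch (F (T.symm (T (x + fun i => (k i : ℝ)))))) _ / u _ _ = _
    simp only [hg, ContinuousLinearEquiv.symm_apply_apply]
    rw [hF.per k x]
  refine ⟨g 0, fun i x hx => ?_⟩
  have h1 := hgi i (T x) (by simpa using hx)
  rw [per_const hd hp (T x) 0] at h1
  simp only [ContinuousLinearEquiv.symm_apply_apply] at h1
  rw [h1, div_mul_cancel₀ _ (h0 i x hx)]

/-! ### vector fields -/

/-- `X` is tangent to the torus -/
def Tang (X : A.ι → M → Fin N → ℂ) (T : (d → ℝ) ≃L[ℝ] Cn m) (F : (d → ℝ) → M) : Prop :=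
  ∀ i z, F (T.symm z) ∈ (A.e i).source →
    ∃ v, fderiv ℂ (rd A T F i) z v = WithLp.toLp 2 (X i (F (T.symm z)))

theorem HTor.rd_diff (hF : HTor A T F) {i : A.ι} {z : Cn m}
    (hz : F (T.symm z) ∈ (A.e i).source) : DifferentiableAt ℂ (rd A T F i) z := hF.hol i z hz

/-- change of charts for the derivative -/
theorem HTor.rd_change (hF : HTor A T F) {i j : A.ι} {z : Cn m}
    (hi : F (T.symm z) ∈ (A.e i).source) (hj : F (T.symm z) ∈ (A.e j).source) (v : Cn m) :
    fderiv ℂ (rd A T F j) z v =
      WithLp.toLp 2 (Jm A i j (F (T.symm z)) *ᵥ WithLp.ofLp (fderiv ℂ (rd A T F i) z v)) := by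
  have h1 : rd A T F j =ᶠ[𝓝 z] fun w => (fun y => A.e j ((A.e i).symm y)) (rd A T F i w) := by
    filter_upwards [hF.nhds hi] with w hw
    unfold rd
    simp only [(A.e i).left_inv hw]
  have h2 : DifferentiableAt ℂ (fun y => A.e j ((A.e i).symm y)) (rd A T F i z) := by
    have h3 := A.holo i j
    have h4 : IsOpen {z | z ∈ (A.e i).target ∧ (A.e i).symm z ∈ (A.e j).source} :=
      (A.e i).isOpen_inter_preimage_symm (A.e j).open_source
    exact h3.differentiableAt (h4.mem_nhds ⟨(A.e i).map_source hi, by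
      show (A.e i).symm (A.e i (F (T.symm z))) ∈ _
      rw [(A.e i).left_inv hi]; exact hj⟩)
  rw [h1.fderiv_eq]
  have h5 : fderiv ℂ (fun w => (fun y => A.e j ((A.e i).symm y)) (rd A T F i w)) z =
      (fderiv ℂ (fun y => A.e j ((A.e i).symm y)) (rd A T F i z)).comp (fderiv ℂ (rd A T F i) z) :=
    fderiv_comp z h2 (hF.rd_diff hi)
  rw [h5]
  exact fderiv_Jm i j (F (T.symm z)) _

/-- the derivative is differentiable -/
theorem HTor.fd_diff (hF : HTor A T F) {i : A.ι} {z : Cn m}
    (hz : F (T.symm z) ∈ (A.e i).source) : DifferentiableAt ℂ (fderiv ℂ (rd A T F i)) z := by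
  set U : Set (Cn m) := {w | F (T.symm w) ∈ (A.e i).source} with hU
  have hUo : IsOpen U := (A.e i).open_source.preimage (hF.cont.comp T.symm.continuous)
  have h1 : DifferentiableOn ℂ (rd A T F i) U := fun w hw => (hF.hol i w hw).differentiableWithinAt
  have h2 := R266.SCV.analyticOnNhd_of_differentiableOn hUo h1
  exact (h2.fderiv z hz).differentiableAt

/-- the derivative is periodic -/
theorem HTor.fd_per (hF : HTor A T F) (i : A.ι) (k : d → ℤ) (x : d → ℝ) :
    fderiv ℂ (rd A T F i) (T (x + fun j => (k j : ℝ))) = fderiv ℂ (rd A T F i) (T x) := by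
  have h1 : (fun w => rd A T F i (w + T fun j => (k j : ℝ))) = rd A T F i := by
    funext w
    unfold rd
    rw [map_add, ContinuousLinearEquiv.symm_apply_apply, hF.per k]
  have h2 : fderiv ℂ (fun w => rd A T F i (w + T fun j => (k j : ℝ))) (T x) =
      fderiv ℂ (rd A T F i) (T x + T fun j => (k j : ℝ)) := fderiv_comp_add_right _
  rw [map_add, ← h2, h1]

/-- **a tangent holomorphic vector field is `u` times a constant field** -/
theorem vec_const (hF : HTor A T F) {u : A.ι → M → ℂ} (hu : IsHS L univ u) (h0 : NZ u F)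
    {X : A.ι → M → Fin N → ℂ} (hX : IsX L X) (hh : HolX X) (ht : Tang X T F) :
    ∃ η : Cn m, ∀ i z, F (T.symm z) ∈ (A.e i).source →
      WithLp.toLp 2 (X i (F (T.symm z))) = u i (F (T.symm z)) • fderiv ℂ (rd A T F i) z η := by
  set ch : M → A.ι := fun x => (A.cover x).choose with hch
  have hchs : ∀ x, x ∈ (A.e (ch x)).source := fun x => (A.cover x).choose_spec
  have hex : ∀ i z, F (T.symm z) ∈ (A.e i).source → ∃ v, fderiv ℂ (rd A T F i) z v =
      (u i (F (T.symm z)))⁻¹ • WithLp.toLp 2 (X i (F (T.symm z))) := by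
    intro i z hz
    obtain ⟨v, hv⟩ := ht i z hz
    exact ⟨(u i (F (T.symm z)))⁻¹ • v, by rw [map_smul, hv]⟩
  choose! e he using hex
  set η : Cn m → Cn m := fun z => e (ch (F (T.symm z))) z with hη
  have key : ∀ i z, F (T.symm z) ∈ (A.e i).source → fderiv ℂ (rd A T F i) z (η z) =
      (u i (F (T.symm z)))⁻¹ • WithLp.toLp 2 (X i (F (T.symm z))) := by
    intro i z hz
    have hc := hchs (F (T.symm z))
    rw [hF.rd_change hc hz, hη]
    simp only []
    rw [he _ z hc, hX.tr i _ _ ⟨hz, hc⟩, hu.tr i _ _ ⟨hz, hc⟩ (mem_univ _)]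
    set x := F (T.symm z)
    have hg := L.ne_zero i (ch x) x
    have hux := h0 (ch x) _ hc
    ext a
    simp only [WithLp.ofLp_smul, WithLp.ofLp_toLp, Matrix.mulVec_smul, PiLp.smul_apply,
      Pi.smul_apply, smul_eq_mul]
    field_simp
  -- differentiability
  have hd : Differentiable ℂ η := by
    intro z0
    obtain ⟨i, hi⟩ := A.cover (F (T.symm z0))
    obtain ⟨P0, hP0⟩ := LinearMap.exists_leftInverse_of_injective
      (fderiv ℂ (rd A T F i) z0 : Cn m →ₗ[ℂ] Cn N) (LinearMap.ker_eq_bot.2 (hF.inj i z0 hi))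
    set P : Cn N →L[ℂ] Cn m := LinearMap.toContinuousLinearMap P0 with hP
    set S : Cn m → (Cn m →L[ℂ] Cn m) := fun z => P.comp (fderiv ℂ (rd A T F i) z) with hS
    have hS0 : S z0 = 1 := by
      ext1 v
      exact LinearMap.congr_fun hP0 v
    have hSd : DifferentiableAt ℂ S z0 := (differentiableAt_const P).clm_comp (hF.fd_diff hi)
    have hR : DifferentiableAt ℂ (fun z => P ((u i (F (T.symm z)))⁻¹ •
        WithLp.toLp 2 (X i (F (T.symm z))))) z0 := by
      refine P.differentiableAt.comp z0 ?_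
      refine ((hF.comp (hu.hol i) hi).inv (h0 i _ hi)).smul ?_
      rw [differentiableAt_euclidean]
      intro k
      exact hF.comp (hh i k) hi
    have hu1 : IsUnit (S z0) := by rw [hS0]; exact isUnit_one
    have hI : DifferentiableAt ℂ (fun z => Ring.inverse (S z)) z0 :=
      (differentiableAt_inverse (𝕜 := ℂ) hu1).comp z0 hSd
    have hunit : ∀ᶠ z in 𝓝 z0, IsUnit (S z) :=
      hSd.continuousAt.preimage_mem_nhds (Units.isOpen.mem_nhds hu1)
    refine (hI.clm_apply hR).congr_of_eventuallyEq ?_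
    filter_upwards [hF.nhds hi, hunit] with z hz hzu
    show η z = _
    rw [← key i z hz]
    show η z = Ring.inverse (S z) (S z (η z))
    have h1 := Ring.inverse_mul_cancel (S z) hzu
    have h2 := congrArg (fun f : Cn m →L[ℂ] Cn m => f (η z)) h1
    exact h2.symm
  have hp : Per fun x => η (T x) := by
    intro k x
    obtain ⟨i, hi⟩ := A.cover (F x)
    have hx1 : F (T.symm (T x)) ∈ (A.e i).source := by simpa using hi
    have hx2 : F (T.symm (T (x + fun j => (k j : ℝ)))) ∈ (A.e i).source := by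
      rw [ContinuousLinearEquiv.symm_apply_apply, hF.per k]; exact hi
    have h1 := key i _ hx1
    have h2 := key i _ hx2
    rw [hF.fd_per i k x, ContinuousLinearEquiv.symm_apply_apply, hF.per k] at h2
    rw [ContinuousLinearEquiv.symm_apply_apply] at h1
    exact hF.inj i _ hx1 (h2.trans h1.symm)
  refine ⟨η 0, fun i z hz => ?_⟩
  rw [per_const hd hp 0 z, key i z hz, smul_smul, mul_inv_cancel₀ (h0 i _ hz), one_smul]

end

end Crest.Agent.R281.OpT_330
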