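import Crest.Agent.R281.Op3b_569
import Crest.Agent.R281.OpT1_330

/-!
# Row 281, OPEN-O3, second owner (helper330), file 2: the identity `s_a X_b = s_b X_a` on a torus

* `exists_cstr` : a real vector space with `J² = -1` is `ℂ^m`;
* `torus_pair`  : `thmC` (569) + Liouville : `u X' = w X` on the torus.
-/

set_option autoImplicit false
set_option linter.unusedSectionVars false
set_option linter.style.haveILetI false

open Set Filter Topology Complex Matrix MeasureTheory Module
open scoped ContDiff Matrix ComplexConjugate ComplexOrder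

namespace Crest.Agent.R281.OpT_330

open Crest.Agent.R273 Crest.Agent.R275 Crest.Agent.R275.Geo Crest.Agent.R275.Core144
open Crest.Agent.R273.Defs_333 Crest.Agent.R273.HM_333 Crest.Agent.R273.Kah_333
open Crest.Agent.R273.Vol_333
open Crest.Agent.R281.Op3_569
open Crest.Agent.R281.OpB_849
open Crest.Agent.R275.Tor812 (box)

noncomputable section

/-! ### complex structures -/

theorem exists_cstr {V : Type*} [NormedAddCommGroup V] [NormedSpace ℝ V] [FiniteDimensional ℝ V]
    {J : V →L[ℝ] V} (hJ : ∀ v, J (J v) = -v) {m : ℕ} (hm : finrank ℝ V = 2 * m) :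
    ∃ T : V ≃L[ℝ] Cn m, ∀ v, T (J v) = Complex.I • T v := by
  have h1 : (J : V →ₗ[ℝ] V) * (J : V →ₗ[ℝ] V) = -1 := by
    ext v
    exact hJ v
  set φ : ℂ →ₐ[ℝ] Module.End ℝ V := Complex.lift ⟨(J : V →ₗ[ℝ] V), h1⟩ with hφ
  have hI : φ Complex.I = (J : V →ₗ[ℝ] V) := by
    rw [hφ]
    exact Complex.liftAux_apply_I _ h1
  letI : Module ℂ V := Module.compHom V φ.toRingHom
  have hs : ∀ (z : ℂ) (v : V), z • v = φ z v := fun z v => rfl
  haveI : IsScalarTower ℝ ℂ V := ⟨fun r z v => by
    rw [hs, hs, map_smul]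
    rfl⟩
  haveI : FiniteDimensional ℂ V := FiniteDimensional.right ℝ ℂ V
  have h2 : finrank ℂ V = finrank ℂ (Cn m) := by
    have h3 := Module.finrank_mul_finrank ℝ ℂ V
    rw [Complex.finrank_real_complex, hm] at h3
    rw [finrank_euclideanSpace_fin]
    omega
  set e := LinearEquiv.ofFinrankEq V (Cn m) h2
  refine ⟨(e.restrictScalars ℝ).toContinuousLinearEquiv, fun v => ?_⟩
  have h3 : J v = Complex.I • v := by
    rw [hs, hI]; rfl
  show e (J v) = Complex.I • e v
  rw [h3, map_smul]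

/-! ### (0,1)-forms -/

/-- the value of the (0,1)-form `∑ q_k dz̄_k` -/
def cj {N : ℕ} (q : Fin N → ℂ) : Cn N →L[ℝ] ℂ :=
  LinearMap.toContinuousLinearMap
    { toFun := fun v => ∑ k, q k * conj (v k)
      map_add' := fun v w => by
        rw [← Finset.sum_add_distrib]
        refine Finset.sum_congr rfl fun k _ => ?_
        simp only [PiLp.add_apply, map_add]
        ring
      map_smul' := fun c v => by
        rw [RingHom.id_apply, Finset.smul_sum]
        refine Finset.sum_congr rfl fun k _ => ?_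
        simp only [PiLp.smul_apply, Complex.real_smul, map_mul, Complex.conj_ofReal]
        ring }

theorem cj_apply {N : ℕ} (q : Fin N → ℂ) (v : Cn N) : cj q v = ∑ k, q k * conj (v k) := rfl

variable {m N : ℕ} {M : Type} [TopologicalSpace M] {A : Atl N M} {L : LB A} {d : Type} [Fintype d]
  {T : (d → ℝ) ≃L[ℝ] Cn m} {F : (d → ℝ) → M}

/-- real and complex derivative of a holomorphic torus -/
theorem HTor.fd_real (hF : HTor A T F) {i : A.ι} {x : d → ℝ} (hx : F x ∈ (A.e i).source)
    (v : d → ℝ) :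
    fderiv ℝ (fun y => A.e i (F y)) x v = fderiv ℂ (rd A T F i) (T x) (T v) := by
  have hx' : F (T.symm (T x)) ∈ (A.e i).source := by simpa using hx
  have h1 : HasFDerivAt (rd A T F i) (fderiv ℂ (rd A T F i) (T x)) (T x) :=
    (hF.rd_diff hx').hasFDerivAt
  have h2 : HasFDerivAt (fun y => rd A T F i (T y))
      (((fderiv ℂ (rd A T F i) (T x)).restrictScalars ℝ).comp (T : (d → ℝ) →L[ℝ] Cn m)) x :=
    (h1.restrictScalars ℝ).comp x T.hasFDerivAt
  have h3 : (fun y => rd A T F i (T y)) = fun y => A.e i (F y) := by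
    funext y
    unfold rd
    rw [ContinuousLinearEquiv.symm_apply_apply]
  rw [h3] at h2
  rw [h2.fderiv]
  rfl

/-! ### linear combinations of vector fields -/

theorem isX_comb {X X' : A.ι → M → Fin N → ℂ} (hX : IsX L X) (hX' : IsX L X') (c : ℂ) :
    IsX L (fun i x => X' i x - c • X i x) where
  sm i k := by
    have h1 : A.SmAt i (fun x => X' i x k - c * X i x k) :=
      ContDiffOn.sub (hX'.sm i k) (contDiffOn_const.mul (hX.sm i k))
    exact h1
  tr i j x hx := by
    rw [hX'.tr i j x hx, hX.tr i j x hx, Matrix.mulVec_sub, Matrix.mulVec_smul, smul_sub,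
      smul_comm c]

theorem holX_comb {X X' : A.ι → M → Fin N → ℂ} (hX : HolX X) (hX' : HolX X') (c : ℂ) :
    HolX (fun i x => X' i x - c • X i x) := fun i k => by
  have h1 : HolAt A i univ (fun x => X' i x k - c * X i x k) := by
    have h2 := hX i k
    have h3 := hX' i k
    unfold HolAt at h2 h3 ⊢
    exact h3.sub (h2.const_mul c)
  exact h1

theorem tang_comb {X X' : A.ι → M → Fin N → ℂ} (hX : Tang X T F) (hX' : Tang X' T F) (c : ℂ) :
    Tang (fun i x => X' i x - c • X i x) T F := by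
  intro i z hz
  obtain ⟨v, hv⟩ := hX i z hz
  obtain ⟨v', hv'⟩ := hX' i z hz
  refine ⟨v' - c • v, ?_⟩
  rw [map_sub, map_smul, hv, hv']
  rfl

/-- positivity -/
theorem herm_pos {g : Matrix (Fin N) (Fin N) ℂ} (hg : g.PosDef) {W : Cn N} (hW : W ≠ 0) :
    0 < (cj (gᵀ *ᵥ WithLp.ofLp W) W).re := by
  have h1 : star (WithLp.ofLp W) ≠ 0 := by
    intro h
    apply hW
    have h2 := congrArg star h
    rw [star_star, star_zero] at h2
    ext k
    exact congrFun h2 k
  have h2 := hg.re_dotProduct_pos (x := star (WithLp.ofLp W)) h1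
  have h3 : cj (gᵀ *ᵥ WithLp.ofLp W) W =
      star (star (WithLp.ofLp W)) ⬝ᵥ g *ᵥ star (WithLp.ofLp W) := by
    rw [cj_apply, star_star, Matrix.dotProduct_mulVec, dotProduct]
    refine Finset.sum_congr rfl fun k _ => ?_
    rw [Matrix.mulVec_transpose]
    rfl
  rw [h3]
  exact h2

/-- **one torus, two sections** -/
theorem torus_pair {α : Type*} {l : Filter α} [l.NeBot] {D : α → MovD A} {ε : α → ℝ}
    (hε : ∀ᶠ n in l, 0 < ε n) {F : α → (d → ℝ) → M} {J : α → (d → ℝ) → (d → ℝ) →L[ℝ] (d → ℝ)}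
    (hF : ∀ᶠ n in l, TorF (D n) (F n) (J n))
    {F0 : (d → ℝ) → M} {J0 : (d → ℝ) →L[ℝ] (d → ℝ)}
    (hFl : ∀ x, CC l F F0 x)
    (hDF : ∀ x i, F0 x ∈ (A.e i).source →
      CC l (fun n => fderiv ℝ (fun y => A.e i (F n y))) (fderiv ℝ (fun y => A.e i (F0 y))) x)
    (hJl : ∀ x, CC l J (fun _ => J0) x)
    (hT : HTor A T F0)
    {u w : α → A.ι → M → ℂ} {qu qw : α → A.ι → M → Cn N →L[ℝ] ℂ}
    (hu : ∀ᶠ n in l, Sol (D n) (ε n) (u n) (qu n)) (hw : ∀ᶠ n in l, Sol (D n) (ε n) (w n) (qw n))
    (hc : ∀ᶠ n in l, Cmt A (u n) (w n))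
    {u0 w0 : A.ι → M → ℂ} {q q' : A.ι → M → Fin N → ℂ}
    (hul : ∀ i, ∀ x ∈ (A.e i).source, CC l (fun n => u n i) (u0 i) x)
    (hwl : ∀ i, ∀ x ∈ (A.e i).source, CC l (fun n => w n i) (w0 i) x)
    (hqul : ∀ i, ∀ x ∈ (A.e i).source, CC l (fun n => qu n i) (fun x => cj (q i x)) x)
    (hqwl : ∀ i, ∀ x ∈ (A.e i).source, CC l (fun n => qw n i) (fun x => cj (q' i x)) x)
    (hu0 : IsHS L univ u0) (hw0 : IsHS L univ w0) (hne : NZ u0 F0) (K : Kah A)
    (hX : IsX L (shp K q)) (hX' : IsX L (shp K q')) (hh : HolX (shp K q)) (hh' : HolX (shp K q'))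
    (ht : Tang (shp K q) T F0) (ht' : Tang (shp K q') T F0) :
    ∀ i x, F0 x ∈ (A.e i).source →
      u0 i (F0 x) • shp K q' i (F0 x) = w0 i (F0 x) • shp K q i (F0 x) := by
  obtain ⟨c, hcc⟩ := quot_const hT hu0 hw0 hne
  obtain ⟨η, hη⟩ := vec_const hT hu0 hne (isX_comb hX hX' c) (holX_comb hh hh' c)
    (tang_comb ht ht' c)
  obtain ⟨B0, hB0c, hB0, hint⟩ := thmC hε hF hFl hDF hJl hu hw hc hul hwl hqul hqwl
    (fun x i hi => hne i x hi)
  set v : d → ℝ := T.symm η with hv
  -- the value of `B0 x v`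
  have hval : ∀ x i, F0 x ∈ (A.e i).source → B0 x v =
      cj ((K.g i (F0 x))ᵀ *ᵥ WithLp.ofLp (fderiv ℂ (rd A T F0 i) (T x) η))
        (fderiv ℂ (rd A T F0 i) (T x) η) := by
    intro x i hi
    have hxi : F0 (T.symm (T x)) ∈ (A.e i).source := by simpa using hi
    have hux := hne i x hi
    have h1 : fderiv ℝ (fun y => A.e i (F0 y)) x v = fderiv ℂ (rd A T F0 i) (T x) η := by
      rw [hT.fd_real hi v, hv, ContinuousLinearEquiv.apply_symm_apply]
    set W := fderiv ℂ (rd A T F0 i) (T x) η with hW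
    have h2 := hη i (T x) hxi
    rw [ContinuousLinearEquiv.symm_apply_apply, ← hW] at h2
    have h3 : shp K q' i (F0 x) - c • shp K q i (F0 x) = u0 i (F0 x) • WithLp.ofLp W := by
      have := congrArg WithLp.ofLp h2
      simpa using this
    have h4 : q' i (F0 x) - c • q i (F0 x) =
        u0 i (F0 x) • ((K.g i (F0 x))ᵀ *ᵥ WithLp.ofLp W) := by
      rw [← Matrix.mulVec_smul, ← h3, Matrix.mulVec_sub, Matrix.mulVec_smul]
      have e1 := flt_shp K q hi
      have e2 := flt_shp K q' hi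
      unfold flt at e1 e2
      rw [e1, e2]
    rw [hB0 x i hi, Bf_apply, h1, hcc i x hi]
    have h5 : u0 i (F0 x) * cj (q' i (F0 x)) W - c * u0 i (F0 x) * cj (q i (F0 x)) W =
        u0 i (F0 x) * (u0 i (F0 x) * cj ((K.g i (F0 x))ᵀ *ᵥ WithLp.ofLp W) W) := by
      have h6 : cj (q' i (F0 x)) W - c * cj (q i (F0 x)) W =
          u0 i (F0 x) * cj ((K.g i (F0 x))ᵀ *ᵥ WithLp.ofLp W) W := by
        simp only [cj_apply]
        rw [Finset.mul_sum, Finset.mul_sum, ← Finset.sum_sub_distrib]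
        refine Finset.sum_congr rfl fun k _ => ?_
        have h7 := congrFun h4 k
        simp only [Pi.sub_apply, Pi.smul_apply, smul_eq_mul] at h7
        linear_combination (conj (W k)) * h7
      rw [← h6]
      ring
    rw [h5]
    field_simp
  -- positivity forces `η = 0`
  have hη0 : η = 0 := by
    have h1 : v = 0 := by
      refine eq_zero_of_int (G := fun x v' => (B0 x v').re) (η := v) ?_ ?_ ?_
      · exact Complex.continuous_re.comp (hB0c.clm_apply continuous_const)
      · intro x hvne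
        obtain ⟨i, hi⟩ := A.cover (F0 x)
        show 0 < (B0 x v).re
        rw [hval x i hi]
        refine herm_pos (K.pos i _ hi) fun h0 => hvne ?_
        have hxi : F0 (T.symm (T x)) ∈ (A.e i).source := by simpa using hi
        have h2 := hT.inj i (T x) hxi
        have h3 : η = 0 := h2 (by
          show fderiv ℂ (rd A T F0 i) (T x) η = fderiv ℂ (rd A T F0 i) (T x) 0
          rw [h0, map_zero])
        rw [hv, h3, map_zero]
      · have h2 := hint v
        have h3 := integral_re (𝕜 := ℂ) (f := fun x => B0 x v)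
          (μ := volume.restrict (box (0 : d → ℝ)))
          (integrable_box (hB0c.clm_apply continuous_const))
        have h4 : ∫ x in box (0 : d → ℝ), (B0 x v).re = (∫ x in box (0 : d → ℝ), B0 x v).re := h3
        rw [h4, h2, Complex.zero_re]
    rw [hv] at h1
    exact T.symm.map_eq_zero_iff.1 h1
  intro i x hi
  have hxi : F0 (T.symm (T x)) ∈ (A.e i).source := by simpa using hi
  have h2 := hη i (T x) hxi
  rw [hη0, map_zero, smul_zero, ContinuousLinearEquiv.symm_apply_apply] at h2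
  have h3 : shp K q' i (F0 x) - c • shp K q i (F0 x) = 0 := by
    have := congrArg WithLp.ofLp h2
    simpa using this
  rw [sub_eq_zero.1 h3, hcc i x hi, smul_smul, mul_comm c]

end

end Crest.Agent.R281.OpT_330
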