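import Crest.Agent.R281.CL1_473
import Crest.Agent.R281.W3c_698
import Crest.Agent.R281.Pun3_924

/-! # R281 / PUNCT-ENDS part 1 (helper698): majorants and Moebius transformations -/

namespace Crest.Agent.R281.PE_698

open Filter Topology Set UpperHalfPlane
open Crest.Agent.R281.CL_473
open _root_.R281.Pun_924 (mob UH mem_UH mob_im mob_mem mob_mob mob_diff puncture FinEnd ParEnd)
open scoped ComplexConjugate

/-- The majorant determines the point. -/
theorem maj_inj {N : ℝ} (hN : 0 < N) {τ τ' : ℍ} (h : ∀ w, Maj N τ w = Maj N τ' w) : τ = τ' := by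
  have h0 := h ![0, 0, 1]
  have h1 := h ![0, 1, 0]
  have h2 := h ![0, 1, 1]
  have hy : 0 < τ.im := τ.im_pos
  have hy' : 0 < τ'.im := τ'.im_pos
  simp only [Maj, Matrix.cons_val_zero, Matrix.cons_val_one, Matrix.cons_val] at h0 h1 h2
  have e0 : τ.im = τ'.im := by
    have h3 : 2 / (N * τ.im ^ 2) = 2 / (N * τ'.im ^ 2) := by linarith
    rw [div_eq_div_iff (by positivity) (by positivity)] at h3
    have h4 : τ.im ^ 2 = τ'.im ^ 2 := by
      have : (2 * N) * τ.im ^ 2 = (2 * N) * τ'.im ^ 2 := by linarith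
      exact mul_left_cancel₀ (by positivity) this
    nlinarith [sq_nonneg (τ.im - τ'.im), sq_nonneg (τ.im + τ'.im)]
  rw [e0] at h1 h2
  have hk : 2 / (N * τ'.im ^ 2) ≠ 0 := by positivity
  have e1 : (N * 1 * τ.re) ^ 2 = (N * 1 * τ'.re) ^ 2 := by
    apply mul_left_cancel₀ hk
    ring_nf at h1 ⊢
    linarith
  have e2 : (1 + N * τ.re) ^ 2 = (1 + N * τ'.re) ^ 2 := by
    apply mul_left_cancel₀ hk
    ring_nf at h2 ⊢
    linarith
  have e3 : τ.re = τ'.re := by
    have : N * τ.re = N * τ'.re := by nlinarith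
    exact mul_left_cancel₀ hN.ne' this
  apply UpperHalfPlane.ext
  apply Complex.ext
  · rw [UpperHalfPlane.coe_re, UpperHalfPlane.coe_re, e3]
  · rw [UpperHalfPlane.coe_im, UpperHalfPlane.coe_im, e0]

theorem qb_eq (N : ℝ) (x y : Fin 3 → ℝ) : W3c_698.qb N x y = qb N x y := by
  unfold W3c_698.qb qb; ring

theorem qb_polar {N : ℝ} {A : (Fin 3 → ℝ) →ₗ[ℝ] (Fin 3 → ℝ)}
    (h : ∀ w, qb N (A w) (A w) = qb N w w) (x y : Fin 3 → ℝ) : qb N (A x) (A y) = qb N x y := by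
  have h1 := h (x + y)
  have h2 := h x
  have h3 := h y
  rw [map_add] at h1
  simp only [qb, Pi.add_apply] at h1 h2 h3 ⊢
  linarith

theorem iso_inj {N : ℝ} (hN : 0 < N) {A : (Fin 3 → ℝ) →ₗ[ℝ] (Fin 3 → ℝ)}
    (h : ∀ w, qb N (A w) (A w) = qb N w w) : Function.Injective A := by
  rw [injective_iff_map_eq_zero]
  intro x hx
  have h0 := qb_polar h x ![0, 0, 1]
  have h1 := qb_polar h x ![0, 1, 0]
  have h2 := qb_polar h x ![1, 0, 0]
  rw [hx] at h0 h1 h2
  simp [qb] at h0 h1 h2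
  funext i
  fin_cases i
  · exact h0.symm
  · rcases h1 with h1 | h1
    · exact absurd h1 hN.ne'
    · exact h1
  · exact h2.symm

theorem iso_surj {N : ℝ} (hN : 0 < N) {A : (Fin 3 → ℝ) →ₗ[ℝ] (Fin 3 → ℝ)}
    (h : ∀ w, qb N (A w) (A w) = qb N w w) : Function.Surjective A :=
  LinearMap.injective_iff_surjective.mp (iso_inj hN h)

/-- the period of a transformed vector -/
theorem per_sym2 {N : ℝ} (hN : 0 < N) {a b c d : ℝ} (hdet : a * d - b * c = 1 ∨ a * d - b * c = -1)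
    {τ : ℂ} (hτ : (c : ℂ) * τ + d ≠ 0) (x : Fin 3 → ℝ) :
    per N (W3c_698.sym2 N a b c d x) (mob a b c d τ) * (c * τ + d) ^ 2 = per N x τ := by
  have hNC : (N : ℂ) ≠ 0 := by exact_mod_cast hN.ne'
  have hd2 : ((a : ℂ) * d - b * c) ^ 2 = 1 := by
    have : (a * d - b * c) ^ 2 = 1 := by rcases hdet with h | h <;> rw [h] <;> norm_num
    exact_mod_cast this
  have e : mob a b c d τ * (c * τ + d) = a * τ + b := by
    unfold mob
    rw [div_mul_cancel₀ _ hτ]
  have e2 : per N (W3c_698.sym2 N a b c d x) (mob a b c d τ) * (c * τ + d) ^ 2 =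
      -(N / 2 : ℂ) * (W3c_698.sym2 N a b c d x 0 : ℝ) * (mob a b c d τ * (c * τ + d)) ^ 2
        + (W3c_698.sym2 N a b c d x 2 : ℝ) * (c * τ + d) ^ 2
        + N * (W3c_698.sym2 N a b c d x 1 : ℝ) * (mob a b c d τ * (c * τ + d)) * (c * τ + d) := by
    unfold per; ring
  rw [e2, e]
  have p0 : W3c_698.sym2 N a b c d x 0
      = d ^ 2 * x 0 + 2 * c * d * x 1 - 2 / N * c ^ 2 * x 2 := rfl
  have p1 : W3c_698.sym2 N a b c d x 1
      = b * d * x 0 + (a * d + b * c) * x 1 - 2 / N * a * c * x 2 := rfl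
  have p2 : W3c_698.sym2 N a b c d x 2
      = -(N / 2) * b ^ 2 * x 0 - N * a * b * x 1 + a ^ 2 * x 2 := rfl
  rw [p0, p1, p2]
  unfold per
  push_cast
  have key : -(N / 2 : ℂ) * ((d : ℂ) ^ 2 * x 0 + 2 * c * d * x 1 - 2 / N * c ^ 2 * x 2)
        * (a * τ + b) ^ 2
      + (-(N / 2) * (b : ℂ) ^ 2 * x 0 - N * a * b * x 1 + a ^ 2 * x 2) * (c * τ + d) ^ 2
      + N * (b * d * x 0 + (a * d + b * c) * x 1 - 2 / N * a * c * x 2) * (a * τ + b) * (c * τ + d)
      = ((a : ℂ) * d - b * c) ^ 2 * (-(N / 2 : ℂ) * x 0 * τ ^ 2 + x 2 + N * x 1 * τ) := by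
    field_simp
    ring
  rw [key, hd2, one_mul]

theorem per_conj (N : ℝ) (w : Fin 3 → ℝ) (τ : ℂ) : per N w (conj τ) = conj (per N w τ) := by
  simp only [per, map_add, map_mul, map_neg, map_div₀, map_pow, Complex.conj_ofReal, map_ofNat]

theorem sym2_smul (N a b c d s : ℝ) (x : Fin 3 → ℝ) :
    s • W3c_698.sym2 N a b c d x = W3c_698.sym2 N a b c d (s • x) := by
  funext i
  fin_cases i <;> simp [W3c_698.sym2] <;> ring

theorem per_smul (N s : ℝ) (w : Fin 3 → ℝ) (τ : ℂ) : per N (s • w) τ = s * per N w τ := by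
  simp only [per, Pi.smul_apply, smul_eq_mul]
  push_cast; ring

theorem im_mob_det {a b c d : ℝ} (τ : ℂ) :
    (mob a b c d τ).im = (a * d - b * c) * τ.im / ‖(c : ℂ) * τ + d‖ ^ 2 := by
  unfold mob
  rw [Complex.div_im, ← Complex.normSq_eq_norm_sq]
  simp
  ring

/-- invariance of the majorant under the Moebius action (both orientations) -/
theorem maj_mob {N : ℝ} (hN : 0 < N) {A : (Fin 3 → ℝ) →ₗ[ℝ] (Fin 3 → ℝ)}
    (hiso : ∀ w, qb N (A w) (A w) = qb N w w) {s a b c d : ℝ}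
    (hs : s = 1 ∨ s = -1) (hdet : a * d - b * c = 1 ∨ a * d - b * c = -1)
    (hA : ∀ x, A x = s • W3c_698.sym2 N a b c d x) {τ τ' : ℍ}
    (h : (τ' : ℂ) = mob a b c d τ ∨ (τ' : ℂ) = conj (mob a b c d τ)) (x : Fin 3 → ℝ) :
    Maj N τ' (A x) = Maj N τ x := by
  have hcd : (c : ℂ) * τ + d ≠ 0 := W3c_698.denom_ne (W3c_698.cd_ne hdet) τ.im_pos
  have hD : 0 < ‖(c : ℂ) * τ + d‖ := norm_pos_iff.mpr hcd
  have hp := per_sym2 hN hdet hcd x
  -- the norm of the period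
  have hs2 : s ^ 2 = 1 := by rcases hs with h | h <;> rw [h] <;> norm_num
  have n1 : Complex.normSq (per N (A x) τ') = Complex.normSq (per N (A x) (mob a b c d τ)) := by
    rcases h with h | h
    · rw [h]
    · rw [h, per_conj, Complex.normSq_conj]
  have n2 : Complex.normSq (per N (A x) (mob a b c d τ)) * (‖(c : ℂ) * τ + d‖ ^ 2) ^ 2
      = Complex.normSq (per N x τ) := by
    rw [← hp, hA, per_smul, map_mul, map_mul, Complex.normSq_ofReal, map_pow,
      Complex.normSq_eq_norm_sq ((c : ℂ) * τ + d)]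
    linear_combination (Complex.normSq (per N (W3c_698.sym2 N a b c d x) (mob a b c d τ))
      * (‖(c : ℂ) * τ + d‖ ^ 2) ^ 2) * hs2
  have n3 : τ'.im ^ 2 * (‖(c : ℂ) * τ + d‖ ^ 2) ^ 2 = τ.im ^ 2 := by
    have i1 : τ'.im ^ 2 = (mob a b c d τ).im ^ 2 := by
      rcases h with h | h
      · rw [← UpperHalfPlane.coe_im, h]
      · rw [← UpperHalfPlane.coe_im, h, Complex.conj_im, neg_sq]
    rw [i1, im_mob_det, div_pow, div_mul_cancel₀ _ (by positivity), mul_pow]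
    have : (a * d - b * c) ^ 2 = 1 := by rcases hdet with h | h <;> rw [h] <;> norm_num
    rw [this, one_mul, UpperHalfPlane.coe_im]
  rw [Maj_eq hN, Maj_eq hN, hiso, ← n2, ← n3, n1]
  have hy' : 0 < τ'.im := τ'.im_pos
  field_simp

end Crest.Agent.R281.PE_698
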