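import Crest.Agent.R281.PE1_698

/-! # R281 / PUNCT-ENDS part 2 (helper698): the ends of the period map

Main theorem `ends`: an end of the period map (monodromy `A` preserving the lattice) either tends to
an interior point, or to a cusp carried by an isotropic lattice vector. -/

namespace Crest.Agent.R281.PE_698

open Filter Topology Set UpperHalfPlane
open Crest.Agent.R281.CL_473
open _root_.R281.Pun_924 (mob UH mem_UH mob_im mob_mem mob_mob mob_diff puncture FinEnd ParEnd)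
open scoped ComplexConjugate

/-- A holomorphic function whose conjugate is holomorphic is constant. -/
theorem const_of_conj {U : Set ℂ} (hU : IsOpen U) (hc : IsPreconnected U) {u v : ℂ → ℂ}
    (hu : DifferentiableOn ℂ u U) (hv : DifferentiableOn ℂ v U)
    (h : ∀ z ∈ U, v z = conj (u z)) {z w : ℂ} (hz : z ∈ U) (hw : w ∈ U) : u z = u w := by
  refine hU.is_const_of_deriv_eq_zero hc hu (fun x hx => ?_) hz hw
  have h1 : HasDerivAt u (deriv u x) x := ((hu x hx).differentiableAt (hU.mem_nhds hx)).hasDerivAt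
  have h2 : HasDerivAt v (deriv v x) x := ((hv x hx).differentiableAt (hU.mem_nhds hx)).hasDerivAt
  have h1r := h1.hasFDerivAt.restrictScalars ℝ
  have h2r := h2.hasFDerivAt.restrictScalars ℝ
  have h3 := ((Complex.conjCLE : ℂ ≃L[ℝ] ℂ).toContinuousLinearMap.hasFDerivAt (x := u x)).comp x h1r
  have h4 : v =ᶠ[𝓝 x] ((Complex.conjCLE : ℂ ≃L[ℝ] ℂ).toContinuousLinearMap ∘ u) := by
    filter_upwards [hU.mem_nhds hx] with y hy
    exact h y hy
  have h5 := (h3.congr_of_eventuallyEq h4).unique h2r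
  have e1 := congrArg (fun L : ℂ →L[ℝ] ℂ => L 1) h5
  have e2 := congrArg (fun L : ℂ →L[ℝ] ℂ => L Complex.I) h5
  simp at e1 e2
  have e3 : Complex.I * deriv v x = 0 := by
    rw [← e1] at e2 ⊢
    linear_combination (-(1 / 2) : ℂ) * e2
  have e4 : deriv v x = 0 := by
    rcases mul_eq_zero.mp e3 with h | h
    · exact absurd h Complex.I_ne_zero
    · exact h
  rw [e4] at e1
  simpa using e1

/-- the fixed point of an elliptic transformation -/
theorem exists_fixed {a b c d : ℝ} (hdet : a * d - b * c = 1) (hell : (a + d) ^ 2 < 4) :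
    ∃ τ : ℍ, (τ : ℂ) = mob a b c d τ := by
  have hc : c ≠ 0 := by
    rintro rfl
    have h1 : a * d = 1 := by linarith
    nlinarith [sq_nonneg (a - d)]
  set D := 4 - (a + d) ^ 2 with hD
  have hD0 : 0 < D := by rw [hD]; linarith
  set y := Real.sqrt D / (2 * |c|) with hy
  have hy0 : 0 < y := by
    rw [hy]
    have := Real.sqrt_pos.mpr hD0
    have := abs_pos.mpr hc
    positivity
  have hy2 : y ^ 2 = D / (4 * c ^ 2) := by
    rw [hy, div_pow, Real.sq_sqrt hD0.le, mul_pow, sq_abs]; norm_num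
  set x := (a - d) / (2 * c) with hx
  let τ : ℂ := ⟨x, y⟩
  have hne : (c : ℂ) * τ + d ≠ 0 := W3c_698.denom_ne (Or.inl hc) hy0
  refine ⟨⟨τ, hy0⟩, ?_⟩
  show τ = ((a : ℂ) * τ + b) / (c * τ + d)
  rw [eq_div_iff hne]
  have key1 : c * (x ^ 2 - y ^ 2) + (d - a) * x - b = 0 := by
    rw [hy2, hx, hD]
    field_simp
    linear_combination (16 : ℝ) * hdet
  have key2 : 2 * c * x + (d - a) = 0 := by
    rw [hx]; field_simp; ring
  apply Complex.ext
  · simp only [τ, Complex.mul_re, Complex.add_re, Complex.add_im, Complex.mul_im, Complex.ofReal_re,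
      Complex.ofReal_im]
    linear_combination key1
  · simp only [τ, Complex.mul_re, Complex.add_re, Complex.add_im, Complex.mul_im, Complex.ofReal_re,
      Complex.ofReal_im]
    linear_combination y * key2

/-- finite order of an integral isometry fixing a majorant -/
theorem fin_order {N : ℝ} (hN : 0 < N) {Λ : Set (Fin 3 → ℝ)} (hΛ : Lat N Λ)
    {A : (Fin 3 → ℝ) →ₗ[ℝ] (Fin 3 → ℝ)} (hA : ∀ w ∈ Λ, A w ∈ Λ)
    (hiso : ∀ w, qb N (A w) (A w) = qb N w w) {τ : ℍ} (hfix : ∀ w, Maj N τ (A w) = Maj N τ w) :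
    ∃ m : ℕ, 0 < m ∧ A ^ m = 1 := by
  have hfin := hΛ.fin_map hN (C := {τ}) (C' := {τ}) isCompact_singleton isCompact_singleton
  have hmem : ∀ n : ℕ, (A ^ n) ∈ {A : (Fin 3 → ℝ) →ₗ[ℝ] (Fin 3 → ℝ) | (∀ w ∈ Λ, A w ∈ Λ) ∧
      ∃ τ₁ ∈ ({τ} : Set ℍ), ∃ τ' ∈ ({τ} : Set ℍ), ∀ w, Maj N τ' (A w) = Maj N τ₁ w} := by
    intro n
    induction n with
    | zero => exact ⟨fun w hw => hw, τ, rfl, τ, rfl, fun w => rfl⟩
    | succ n ih =>
      obtain ⟨h1, τ1, h2, τ2, h3, h4⟩ := ih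
      rw [mem_singleton_iff] at h2 h3
      subst h2; subst h3
      refine ⟨fun w hw => ?_, _, rfl, _, rfl, fun w => ?_⟩
      · rw [pow_succ, Module.End.mul_apply]
        exact h1 _ (hA w hw)
      · rw [pow_succ, Module.End.mul_apply, h4, hfix]
  have := hfin.to_subtype
  obtain ⟨n, m, hnm, he⟩ := Finite.exists_ne_map_eq_of_infinite
    (fun n : ℕ => (⟨A ^ n, hmem n⟩ : {A : (Fin 3 → ℝ) →ₗ[ℝ] (Fin 3 → ℝ) | (∀ w ∈ Λ, A w ∈ Λ) ∧
      ∃ τ₁ ∈ ({τ} : Set ℍ), ∃ τ' ∈ ({τ} : Set ℍ), ∀ w, Maj N τ' (A w) = Maj N τ₁ w}))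
  have he' : A ^ n = A ^ m := congrArg Subtype.val he
  have hinj := iso_inj hN hiso
  have hinjn : ∀ n : ℕ, Function.Injective (A ^ n) := by
    intro n
    rw [Module.End.coe_pow]
    exact hinj.iterate n
  have gen : ∀ n m : ℕ, n < m → A ^ n = A ^ m → ∃ m : ℕ, 0 < m ∧ A ^ m = 1 := by
    intro n m h1 h2
    refine ⟨m - n, Nat.sub_pos_of_lt h1, ?_⟩
    apply LinearMap.ext
    intro x
    apply hinjn n
    have : (A ^ n) ((A ^ (m - n)) x) = (A ^ m) x := by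
      rw [← Module.End.mul_apply, ← pow_add, Nat.add_sub_cancel' h1.le]
    rw [this, ← h2]; rfl
  rcases lt_or_gt_of_ne hnm with h | h
  · exact gen n m h he'
  · exact gen m n h he'.symm

/-- the matrix of a parabolic transformation in terms of its normalisation -/
theorem par_matrix {a b c d α β γ δ r : ℝ} (hdet : a * d - b * c = 1) (hκ : α * δ - β * γ = 1)
    (h : ∀ τ : ℂ, 0 < τ.im → mob α β γ δ (mob a b c d τ) = mob α β γ δ τ + r) :
    ∃ ε : ℝ, (ε = 1 ∨ ε = -1) ∧ a = ε * (1 + r * γ * δ) ∧ b = ε * (r * δ ^ 2) ∧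
      c = -(ε * (r * γ ^ 2)) ∧ d = ε * (1 - r * γ * δ) := by
  -- the matrix `κ g`
  obtain ⟨P, hP⟩ : ∃ P, P = α * a + β * c := ⟨_, rfl⟩
  obtain ⟨Q, hQ⟩ : ∃ Q, Q = α * b + β * d := ⟨_, rfl⟩
  obtain ⟨P', hP'⟩ : ∃ P', P' = γ * a + δ * c := ⟨_, rfl⟩
  obtain ⟨Q', hQ'⟩ : ∃ Q', Q' = γ * b + δ * d := ⟨_, rfl⟩
  have hdet2 : P * Q' - Q * P' = 1 := by
    rw [hP, hQ, hP', hQ']
    linear_combination (a * d - b * c) * hκ + hdet
  have h' : ∀ τ : ℂ, 0 < τ.im → mob P Q P' Q' τ = mob α β γ δ τ + r := by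
    intro τ hτ
    rw [← h τ hτ, mob_mob hκ hdet hτ, hP, hQ, hP', hQ']
  have him : ∀ τ : ℂ, 0 < τ.im → ‖(P' : ℂ) * τ + Q'‖ ^ 2 = ‖(γ : ℂ) * τ + δ‖ ^ 2 := by
    intro τ hτ
    have h1 := congrArg Complex.im (h' τ hτ)
    rw [Complex.add_im, Complex.ofReal_im, add_zero, mob_im hdet2, mob_im hκ] at h1
    have n1 : (P' : ℂ) * τ + Q' ≠ 0 := W3c_698.denom_ne (W3c_698.cd_ne (Or.inl hdet2)) hτ
    have n2 : (γ : ℂ) * τ + δ ≠ 0 := W3c_698.denom_ne (W3c_698.cd_ne (Or.inl hκ)) hτ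
    have n1' : ‖(P' : ℂ) * τ + Q'‖ ^ 2 ≠ 0 := by positivity
    have n2' : ‖(γ : ℂ) * τ + δ‖ ^ 2 ≠ 0 := by positivity
    rw [div_eq_div_iff n1' n2'] at h1
    exact (mul_left_cancel₀ hτ.ne' h1).symm
  have ev : ∀ x y p q : ℝ, ‖(p : ℂ) * (⟨x, y⟩ : ℂ) + q‖ ^ 2 = (p * x + q) ^ 2 + (p * y) ^ 2 := by
    intro x y p q
    rw [← Complex.normSq_eq_norm_sq, Complex.normSq_apply]
    simp
    ring
  have e1 := him ⟨0, 1⟩ one_pos
  have e2 := him ⟨0, 2⟩ two_pos
  have e3 := him ⟨1, 1⟩ one_pos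
  rw [ev, ev] at e1 e2 e3
  have f1 : P' ^ 2 = γ ^ 2 := by nlinarith
  have f2 : Q' ^ 2 = δ ^ 2 := by nlinarith
  have f3 : P' * Q' = γ * δ := by nlinarith
  obtain ⟨ε, hε, g1, g2⟩ : ∃ ε : ℝ, (ε = 1 ∨ ε = -1) ∧ P' = ε * γ ∧ Q' = ε * δ := by
    rcases eq_or_ne γ 0 with h0 | h0
    · rw [h0] at f1
      have hP0 : P' = 0 := by simpa using f1
      rcases sq_eq_sq_iff_eq_or_eq_neg.mp f2 with h | h
      · exact ⟨1, Or.inl rfl, by rw [hP0, h0]; simp, by rw [h]; ring⟩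
      · exact ⟨-1, Or.inr rfl, by rw [hP0, h0]; simp, by rw [h]; ring⟩
    · rcases sq_eq_sq_iff_eq_or_eq_neg.mp f1 with h | h
      · refine ⟨1, Or.inl rfl, by rw [h]; ring, ?_⟩
        rw [h] at f3
        rw [mul_left_cancel₀ h0 f3]; ring
      · refine ⟨-1, Or.inr rfl, by rw [h]; ring, ?_⟩
        rw [h] at f3
        have : γ * (-Q') = γ * δ := by linarith
        have := mul_left_cancel₀ h0 this
        linarith
  have hε2 : ε ^ 2 = 1 := by rcases hε with h | h <;> rw [h] <;> norm_num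
  have hεC : (ε : ℂ) ≠ 0 := by
    rcases hε with h | h <;> rw [h] <;> norm_num
  -- numerators at τ = i
  have hI : (0 : ℝ) < (⟨0, 1⟩ : ℂ).im := one_pos
  have hi := h' ⟨0, 1⟩ hI
  have n2 : (γ : ℂ) * (⟨0, 1⟩ : ℂ) + δ ≠ 0 := W3c_698.denom_ne (W3c_698.cd_ne (Or.inl hκ)) hI
  have hnum : (P : ℂ) * (⟨0, 1⟩ : ℂ) + Q
      = ε * ((α + r * γ) * (⟨0, 1⟩ : ℂ) + (β + r * δ)) := by
    unfold mob at hi
    have hden : (P' : ℂ) * (⟨0, 1⟩ : ℂ) + Q' = ε * (γ * (⟨0, 1⟩ : ℂ) + δ) := by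
      rw [g1, g2]; push_cast; ring
    rw [hden, div_add' _ _ _ n2, div_eq_div_iff (mul_ne_zero hεC n2) n2] at hi
    apply mul_right_cancel₀ n2
    rw [hi]; ring
  have hPe : P = ε * (α + r * γ) := by
    have := congrArg Complex.im hnum
    simp at this
    exact this
  have hQe : Q = ε * (β + r * δ) := by
    have := congrArg Complex.re hnum
    simp at this
    exact this
  refine ⟨ε, hε, ?_, ?_, ?_, ?_⟩
  · have : a = δ * P - β * P' := by rw [hP, hP']; linear_combination (-a) * hκ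
    rw [this, hPe, g1]; linear_combination ε * hκ
  · have : b = δ * Q - β * Q' := by rw [hQ, hQ']; linear_combination (-b) * hκ
    rw [this, hQe, g2]; ring
  · have : c = -γ * P + α * P' := by rw [hP, hP']; linear_combination (-c) * hκ
    rw [this, hPe, g1]; ring
  · have : d = -γ * Q + α * Q' := by rw [hQ, hQ']; linear_combination (-d) * hκ
    rw [this, hQe, g2]; linear_combination ε * hκ

/-- the isotropic vector of the cusp `κ⁻¹ ∞` -/
noncomputable def cv (N γ δ : ℝ) : Fin 3 → ℝ := ![-(2 * γ ^ 2 / N), 2 * γ * δ / N, δ ^ 2]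

theorem cv_iso {N : ℝ} (hN : 0 < N) (γ δ : ℝ) : qb N (cv N γ δ) (cv N γ δ) = 0 := by
  simp only [qb, cv, Matrix.cons_val_zero, Matrix.cons_val_one, Matrix.cons_val]
  field_simp
  ring

theorem cv_ne {N : ℝ} (hN : 0 < N) {γ δ : ℝ} (h : γ ≠ 0 ∨ δ ≠ 0) : cv N γ δ ≠ 0 := by
  intro h0
  have h1 := congrFun h0 0
  have h2 := congrFun h0 2
  simp [cv, hN.ne'] at h1 h2
  rcases h with h | h
  · exact h h1
  · exact h h2

theorem per_cv {N : ℝ} (hN : 0 < N) (γ δ : ℝ) (τ : ℂ) : per N (cv N γ δ) τ = (γ * τ + δ) ^ 2 := by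
  have hNC : (N : ℂ) ≠ 0 := by exact_mod_cast hN.ne'
  simp only [per, cv, Matrix.cons_val_zero, Matrix.cons_val_one, Matrix.cons_val]
  push_cast
  field_simp
  ring

theorem maj_cv {N : ℝ} (hN : 0 < N) {α β γ δ : ℝ} (hκ : α * δ - β * γ = 1) (τ : ℍ) :
    Maj N τ (cv N γ δ) = 2 / N / (mob α β γ δ τ).im ^ 2 := by
  rw [Maj_eq hN, cv_iso hN, sub_zero, per_cv hN, map_pow, Complex.normSq_eq_norm_sq, mob_im hκ,
    UpperHalfPlane.coe_im]
  have hy : 0 < τ.im := τ.im_pos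
  have hcd : (γ : ℂ) * τ + δ ≠ 0 := W3c_698.denom_ne (W3c_698.cd_ne (Or.inl hκ)) τ.im_pos
  have hD : 0 < ‖(γ : ℂ) * τ + δ‖ := norm_pos_iff.mpr hcd
  field_simp

theorem maj_smul {N : ℝ} (t : ℝ) (τ : ℍ) (w : Fin 3 → ℝ) : Maj N τ (t • w) = t ^ 2 * Maj N τ w := by
  simp only [Maj, Pi.smul_apply, smul_eq_mul]; ring

/-- `sym2` of a parabolic element on its cusp vector -/
theorem sym2_cv {N : ℝ} (hN : 0 < N) {a b c d γ δ r ε : ℝ} (hε : ε = 1 ∨ ε = -1)
    (ha : a = ε * (1 + r * γ * δ)) (hb : b = ε * (r * δ ^ 2)) (hc : c = -(ε * (r * γ ^ 2)))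
    (hd : d = ε * (1 - r * γ * δ)) : W3c_698.sym2 N a b c d (cv N γ δ) = cv N γ δ := by
  have hε2 : ε ^ 2 = 1 := by rcases hε with h | h <;> rw [h] <;> norm_num
  subst ha hb hc hd
  funext i
  fin_cases i
  · simp only [W3c_698.sym2, cv, Fin.zero_eta, Matrix.cons_val_zero, Matrix.cons_val_one,
      Matrix.cons_val]
    field_simp
    linear_combination (-γ ^ 2) * hε2
  · simp only [W3c_698.sym2, cv, Fin.mk_one, Matrix.cons_val_zero, Matrix.cons_val_one,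
      Matrix.cons_val]
    field_simp
    linear_combination (γ * δ) * hε2
  · simp only [W3c_698.sym2, cv, Fin.reduceFinMk, Matrix.cons_val_zero, Matrix.cons_val_one,
      Matrix.cons_val]
    field_simp
    linear_combination (δ ^ 2) * hε2

/-- the square of the nilpotent part of a parabolic element -/
theorem sym2_sq {N : ℝ} (hN : 0 < N) {a b c d γ δ r ε : ℝ} (hε : ε = 1 ∨ ε = -1)
    (ha : a = ε * (1 + r * γ * δ)) (hb : b = ε * (r * δ ^ 2)) (hc : c = -(ε * (r * γ ^ 2)))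
    (hd : d = ε * (1 - r * γ * δ)) (x : Fin 3 → ℝ) :
    W3c_698.sym2 N a b c d (W3c_698.sym2 N a b c d x) - (2 : ℝ) • W3c_698.sym2 N a b c d x + x
      = (-(N * r ^ 2) * qb N x (cv N γ δ)) • cv N γ δ := by
  have hε2 : ε ^ 2 = 1 := by rcases hε with h | h <;> rw [h] <;> norm_num
  have hε4 : ε ^ 4 = 1 := by
    have : ε ^ 4 = (ε ^ 2) ^ 2 := by ring
    rw [this, hε2, one_pow]
  subst ha hb hc hd
  funext i
  fin_cases i
  · simp only [W3c_698.sym2, cv, qb, Fin.zero_eta, Matrix.cons_val_zero, Matrix.cons_val_one,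
      Matrix.cons_val, Pi.add_apply, Pi.sub_apply, Pi.smul_apply, smul_eq_mul]
    field_simp
    ring_nf
    simp only [hε2, hε4]
    ring
  · simp only [W3c_698.sym2, cv, qb, Fin.mk_one, Matrix.cons_val_zero, Matrix.cons_val_one,
      Matrix.cons_val, Pi.add_apply, Pi.sub_apply, Pi.smul_apply, smul_eq_mul]
    field_simp
    ring_nf
    simp only [hε2, hε4]
    ring
  · simp only [W3c_698.sym2, cv, qb, Fin.reduceFinMk, Matrix.cons_val_zero, Matrix.cons_val_one,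
      Matrix.cons_val, Pi.add_apply, Pi.sub_apply, Pi.smul_apply, smul_eq_mul]
    field_simp
    ring_nf
    simp only [hε2, hε4]
    ring

end Crest.Agent.R281.PE_698
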