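import Crest.Agent.R281.PL2_713
import Crest.Agent.R281.HkR9_835

/-!
# R281 (S0424), PREQ (helper713), part 3: DICT-L on one holomorphic atlas

`L : PL (ofAtl A)`:

* `Pot L`     : potentials `h i` with `∂bar h = i θ^{0,1}`: the frames `exp (-h i)` are holomorphic
* `Pot.lb`    : the holomorphic line bundle `LB A`; `Pot.hm : HM P.lb`
* `Pot.cur_eq`: `F = -2 f2 (cur)`; `Pot.cur_GB : cur = -(1/2) GB F`
* `Pot.pow m`, `Pot.lb_pow : (P.pow m).lb = P.lb ^ m`
* `Pot.iso`   : `L.H0 (iJ A) ≃ₗ[ℂ] HS P.lb univ`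
-/

set_option autoImplicit false
set_option linter.unusedSectionVars false
set_option maxSynthPendingDepth 3

open Set Filter Topology Complex
open scoped ContDiff ComplexConjugate

namespace Crest.Agent.R281.PL_713

open Crest.Agent.R281.HkR_835 Crest.Agent.R281.Ti_846
open Crest.Agent.R275.Geo Crest.Agent.R275.Core144 Crest.Agent.R273.Defs_333
open Crest.Agent.R273.Hess_333 Crest.Agent.R273.Kah_333

noncomputable section

/-! ### the Hessian and the real second derivative -/

section hs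

variable {n : ℕ}

theorem hess_lev {u : Cn n → ℝ} {z : Cn n} (hu : ContDiffAt ℝ ∞ u z) (v w : Cn n) :
    fderiv ℝ (fderiv ℝ u) z v w + fderiv ℝ (fderiv ℝ u) z (I • v) (I • w) =
      4 * (hb (hess u z) v w).re := by
  have q : ∀ v : Cn n, fderiv ℝ (fderiv ℝ u) z v v + fderiv ℝ (fderiv ℝ u) z (I • v) (I • v) =
      4 * (hb (hess u z) v v).re := by
    intro v
    have h1 := lev_eq hu v
    have h2 := congrArg Complex.re h1
    rw [ofReal_re] at h2
    have h3 : (4 * hq u z v).re = 4 * (hq u z v).re := by simp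
    rw [h3] at h2
    have h4 : hq u z v = hb (hess u z) v v := rfl
    rw [← h4, ← h2, lev, iteratedFDeriv_two_apply, iteratedFDeriv_two_apply]
    rfl
  have s := sym2 hu
  have e1 := q (v + w)
  have e2 := q v
  have e3 := q w
  have hh : ∀ a b, (hb (hess u z) a b).re = (hb (hess u z) b a).re := fun a b => by
    rw [← hb_conj (hess_herm hu) b a, Complex.conj_re]
  have a1 : hb (hess u z) (v + w) (v + w) = hb (hess u z) v v + hb (hess u z) v w +
      hb (hess u z) w v + hb (hess u z) w w := by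
    simp only [hb, PiLp.add_apply, map_add, ← Finset.sum_add_distrib]
    exact Finset.sum_congr rfl fun a _ => Finset.sum_congr rfl fun b _ => by ring
  rw [a1] at e1
  simp only [smul_add, map_add, add_apply, Complex.add_re] at e1
  rw [hh w v, s w v, s (I • w) (I • v)] at e1
  linarith

/-- `f2 (hess u) = - (1/4) d (v ↦ Du (i v))` -/
theorem hess_f2 {u : Cn n → ℝ} {z : Cn n} (hu : ContDiffAt ℝ ∞ u z) (v w : Cn n) :
    4 * (I * hb (hess u z) v w).re =
      fderiv ℝ (fderiv ℝ u) z w (I • v) - fderiv ℝ (fderiv ℝ u) z v (I • w) := by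
  have h1 := hess_lev hu (I • v) w
  rw [hb_I_left, smul_smul, I_mul_I, neg_one_smul, map_neg, neg_apply] at h1
  rw [← h1, sym2 hu w (I • v)]
  ring

end hs

variable {n : ℕ} {X : Type} [TopologicalSpace X] {A : Atl n X}

/-- potentials of the (0,1)-part of the connection -/
structure Pot (L : PL (ofAtl A)) where
  h : A.ι → Cn n → ℂ
  sm : ∀ i, ContDiffOn ℝ ∞ (h i) (A.e i).target
  eq : ∀ i, ∀ z ∈ (A.e i).target, ∀ v : Cn n,
    fderiv ℝ (h i) z v + I * fderiv ℝ (h i) z (I • v) =
      I * ((L.th i z v : ℂ) + I * (L.th i z (I • v) : ℂ))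

namespace Pot

variable {L : PL (ofAtl A)} (P : Pot L)

theorem at_ {i : A.ι} {z : Cn n} (hz : z ∈ (A.e i).target) : ContDiffAt ℝ ∞ (P.h i) z :=
  (P.sm i).contDiffAt ((A.e i).open_target.mem_nhds hz)

theorem diffAt {i : A.ι} {z : Cn n} (hz : z ∈ (A.e i).target) :
    DifferentiableAt ℝ (P.h i) z := (P.at_ hz).differentiableAt (by simp)

/-- potentials of the powers -/
def pow (m : ℕ) : Pot (L.pow m) where
  h i z := (m : ℂ) * P.h i z
  sm i := contDiffOn_const.mul (P.sm i)
  eq i z hz v := by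
    have h1 : HasFDerivAt (fun z => (m : ℂ) * P.h i z) _ z :=
      (P.diffAt hz).hasFDerivAt.const_mul (m : ℂ)
    rw [h1.fderiv]
    have h2 := P.eq i z hz v
    simp only [PL.pow_th, smul_apply, smul_eq_mul]
    push_cast
    linear_combination (m : ℂ) * h2

/-- potentials of a product -/
def mul {L' : PL (ofAtl A)} (P' : Pot L') : Pot (L.mul L') where
  h i z := P.h i z + P'.h i z
  sm i := (P.sm i).add (P'.sm i)
  eq i z hz v := by
    have h1 : HasFDerivAt (fun z => P.h i z + P'.h i z) _ z :=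
      (P.diffAt hz).hasFDerivAt.add (P'.diffAt hz).hasFDerivAt
    rw [h1.fderiv]
    have h2 := P.eq i z hz v
    have h3 := P'.eq i z hz v
    simp only [PL.mul_th, add_apply]
    push_cast
    linear_combination h2 + h3

theorem mem_ov' {i j : A.ι} {x : X} (hx : x ∈ (A.e i).source ∩ (A.e j).source) :
    A.e i x ∈ (ofAtl A).ov i j := ⟨(A.e i).map_source hx.1, by
      show (A.e i).symm (A.e i x) ∈ (A.e j).source
      rw [(A.e i).left_inv hx.1]
      exact hx.2⟩

/-- the holomorphic transition function in the chart `i` -/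
def gz (i j : A.ι) (z : Cn n) : ℂ :=
  exp (P.h i z) * L.g i j z * exp (-P.h j ((ofAtl A).t i j z))

theorem gz_ne {i j : A.ι} {z : Cn n} (hz : z ∈ (ofAtl A).ov i j) : P.gz i j z ≠ 0 :=
  mul_ne_zero (mul_ne_zero (exp_ne_zero _) (L.g_ne hz)) (exp_ne_zero _)

theorem gz_diff {i j : A.ι} {z : Cn n} (hz : z ∈ (ofAtl A).ov i j) :
    DifferentiableAt ℂ (P.gz i j) z := by
  have ht := (RCh.t_mem hz).1
  have h1 : HasFDerivAt (fun y => exp (P.h i y)) _ z := (P.diffAt hz.1).hasFDerivAt.cexp
  have h2 : HasFDerivAt (fun y => P.h j ((ofAtl A).t i j y)) _ z :=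
    HasFDerivAt.comp (g := P.h j) (f := (ofAtl A).t i j) z (P.diffAt ht).hasFDerivAt
      (RCh.t_diff hz).hasFDerivAt
  have h3 : HasFDerivAt (fun y => exp (-P.h j ((ofAtl A).t i j y))) _ z := h2.neg.cexp
  have h4 : HasFDerivAt (P.gz i j) _ z := (h1.mul (L.g_diff hz).hasFDerivAt).mul h3
  refine diffC_of h4.differentiableAt fun v => ?_
  have e : ∀ w, fderiv ℝ (P.gz i j) z w = P.gz i j z * (fderiv ℝ (P.h i) z w +
      I * ((L.th j ((ofAtl A).t i j z) (fderiv ℝ ((ofAtl A).t i j) z w) - L.th i z w : ℝ) : ℂ) -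
      fderiv ℝ (P.h j) ((ofAtl A).t i j z) (fderiv ℝ ((ofAtl A).t i j) z w)) := by
    intro w
    rw [h4.fderiv]
    simp only [add_apply, smul_apply, neg_apply, smul_eq_mul, ContinuousLinearMap.comp_apply,
      L.law i j z hz w, gz, Pi.mul_apply, Pi.neg_apply]
    ring
  rw [e, e, ofAtl_dt_I hz]
  have p1 := P.eq i z hz.1 v
  have p2 := P.eq j _ ht (fderiv ℝ ((ofAtl A).t i j) z v)
  push_cast
  linear_combination (-I * P.gz i j z) * p1 + (I * P.gz i j z) * p2 +
    (P.gz i j z * (fderiv ℝ (P.h i) z (I • v) +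
      I * (L.th j ((ofAtl A).t i j z) (I • fderiv ℝ ((ofAtl A).t i j) z v) : ℂ) -
      I * (L.th i z (I • v) : ℂ) -
      fderiv ℝ (P.h j) ((ofAtl A).t i j z) (I • fderiv ℝ ((ofAtl A).t i j) z v))) * I_mul_I

/-- **the holomorphic line bundle** -/
def lb : LB A where
  g i j x := open Classical in
    if x ∈ (A.e i).source ∩ (A.e j).source then P.gz i j (A.e i x) else 1
  hol i j := by
    intro z hz
    have hz' : z ∈ (ofAtl A).ov i j := hz
    refine DifferentiableWithinAt.congr_of_eventuallyEq (f := P.gz i j) ?_ ?_ ?_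
    · exact (P.gz_diff hz').differentiableWithinAt
    · filter_upwards [self_mem_nhdsWithin] with y hy
      rw [if_pos ⟨(A.e i).map_target hy.1, hy.2⟩, (A.e i).right_inv hy.1]
    · exact (if_pos ⟨(A.e i).map_target hz.1, hz.2⟩).trans (by rw [(A.e i).right_inv hz.1])
  off i j x hx := by rw [if_neg hx]
  self i x := by
    by_cases hx : x ∈ (A.e i).source
    · rw [if_pos ⟨hx, hx⟩, gz, L.g_self ((A.e i).map_source hx), mul_one,
        PL.t_self (C := ofAtl A) ((A.e i).map_source hx), ← Complex.exp_add, add_neg_cancel,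
        Complex.exp_zero]
    · rw [if_neg fun h => hx h.1]
  mul i j k x hx := by
    have hij : x ∈ (A.e i).source ∩ (A.e j).source := hx.1
    have hjk : x ∈ (A.e j).source ∩ (A.e k).source := ⟨hx.1.2, hx.2⟩
    have hik : x ∈ (A.e i).source ∩ (A.e k).source := ⟨hx.1.1, hx.2⟩
    rw [if_pos hij, if_pos hjk, if_pos hik, gz, gz, gz, L.coc i j k _ (mem_ov' hij) (mem_ov' hik)]
    have e1 : (ofAtl A).t i j (A.e i x) = A.e j x := by
      show A.e j ((A.e i).symm (A.e i x)) = _
      rw [(A.e i).left_inv hij.1]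
    have e2 : (ofAtl A).t j k (A.e j x) = A.e k x := by
      show A.e k ((A.e j).symm (A.e j x)) = _
      rw [(A.e j).left_inv hjk.1]
    have e3 : (ofAtl A).t i k (A.e i x) = A.e k x := by
      show A.e k ((A.e i).symm (A.e i x)) = _
      rw [(A.e i).left_inv hij.1]
    rw [e1, e2, e3]
    have h1 : exp (-P.h j (A.e j x)) * exp (P.h j (A.e j x)) = 1 := by
      rw [← Complex.exp_add, neg_add_cancel, Complex.exp_zero]
    linear_combination (exp (P.h i (A.e i x)) * L.g i j (A.e i x) * L.g j k (A.e j x) *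
      exp (-P.h k (A.e k x))) * h1

theorem lb_g {i j : A.ι} {x : X} (hx : x ∈ (A.e i).source ∩ (A.e j).source) :
    P.lb.g i j x = exp (P.h i (A.e i x)) * L.g i j (A.e i x) * exp (-P.h j (A.e j x)) := by
  have e1 : (ofAtl A).t i j (A.e i x) = A.e j x := by
    show A.e j ((A.e i).symm (A.e i x)) = _
    rw [(A.e i).left_inv hx.1]
  refine (if_pos hx).trans ?_
  rw [gz, e1]

theorem lb_pow (m : ℕ) : (P.pow m).lb = P.lb ^ m := by
  have hp : ∀ (L : LB A) (m : ℕ) (i j : A.ι) (x : X), (L ^ m).g i j x = L.g i j x ^ m := by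
    intro L m i j x
    induction m with
    | zero => simp
    | succ m ih => rw [pow_succ, LB.mul_g, ih, pow_succ]
  ext i j x
  rw [hp]
  by_cases hx : x ∈ (A.e i).source ∩ (A.e j).source
  · rw [lb_g _ hx, lb_g _ hx, mul_pow, mul_pow, ← Complex.exp_nat_mul, ← Complex.exp_nat_mul]
    simp [pow]
  · rw [(P.pow m).lb.off i j x hx, P.lb.off i j x hx, one_pow]

theorem lb_mul {L' : PL (ofAtl A)} (P' : Pot L') : (P.mul P').lb = P.lb * P'.lb := by
  ext i j x
  rw [LB.mul_g]
  by_cases hx : x ∈ (A.e i).source ∩ (A.e j).source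
  · rw [lb_g _ hx, lb_g _ hx, lb_g _ hx]
    simp only [mul, PL.mul_g, neg_add, Complex.exp_add]
    ring
  · rw [(P.mul P').lb.off i j x hx, P.lb.off i j x hx, P'.lb.off i j x hx, one_mul]

/-- **the Hermitian metric** -/
def hm : HM P.lb where
  w i x := Real.exp (-2 * (P.h i (A.e i x)).re)
  pos i x _ := Real.exp_pos _
  sm i := by
    have h1 : ContDiffOn ℝ ∞ (fun z => Real.exp (-2 * (P.h i z).re)) (A.e i).target :=
      (contDiffOn_const.mul (Complex.reCLM.contDiff.comp_contDiffOn (P.sm i))).exp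
    exact h1.congr fun z hz => by
      show Real.exp (-2 * (P.h i (A.e i ((A.e i).symm z))).re) = _
      rw [(A.e i).right_inv hz]
  tr i j x hx := by
    have hn : ‖L.g i j (A.e i x)‖ = 1 := L.unit i j _ (mem_ov' hx)
    rw [P.lb_g hx, norm_mul, norm_mul, hn, mul_one, Complex.norm_exp, Complex.norm_exp, mul_pow,
      ← Real.exp_nat_mul, ← Real.exp_nat_mul, ← Real.exp_add, ← Real.exp_add]
    congr 1
    simp

theorem wt_eq {i : A.ι} {z : Cn n} (hz : z ∈ (A.e i).target) :
    P.hm.wt i z = 2 * (P.h i z).re := by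
  show -Real.log (Real.exp (-2 * (P.h i (A.e i ((A.e i).symm z))).re)) = _
  rw [Real.log_exp, (A.e i).right_inv hz]
  ring

/-- the curvature matrix and the curvature form -/
theorem F_cur {i : A.ι} {x : X} (hx : x ∈ (A.e i).source) (u v : Cn n) :
    L.F.w i (A.e i x) u v = -2 * (I * hb (cur P.hm i x) u v).re := by
  set z := A.e i x with hz
  have hzt : z ∈ (A.e i).target := (A.e i).map_source hx
  have h0 : P.hm.wt i =ᶠ[𝓝 z] fun y => 2 * (P.h i y).re := by
    filter_upwards [(A.e i).open_target.mem_nhds hzt] with y hy using P.wt_eq hy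
  set U : Cn n → ℝ := fun y => 2 * (P.h i y).re with hU
  have hUs : ContDiffOn ℝ ∞ U (A.e i).target :=
    contDiffOn_const.mul (Complex.reCLM.contDiff.comp_contDiffOn (P.sm i))
  have hUc : ContDiffAt ℝ ∞ U z := hUs.contDiffAt ((A.e i).open_target.mem_nhds hzt)
  have e0 : cur P.hm i x = hess U z := by
    rw [cur, Crest.Agent.R273.HessB_333.hess_congr h0]
  rw [e0]
  have k := hess_f2 hUc u v
  -- the 1-form `v ↦ DU (i v) / 2 = θ v - Im Dh v`
  have d1 : ∀ y ∈ (A.e i).target, ∀ w, fderiv ℝ U y (I • w) =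
      2 * L.th i y w - 2 * (fderiv ℝ (P.h i) y w).im := by
    intro y hy w
    have g1 : HasFDerivAt U _ y :=
      (Complex.reCLM.hasFDerivAt.comp y (P.diffAt hy).hasFDerivAt).const_mul 2
    rw [g1.fderiv]
    have g2 := congrArg Complex.im (P.eq i y hy w)
    simp at g2
    simp
    linarith
  have hDh : DifferentiableAt ℝ (fderiv ℝ (P.h i)) z :=
    (((P.sm i).fderiv_of_isOpen (A.e i).open_target (m := ∞) (by simp)).contDiffAt
      ((A.e i).open_target.mem_nhds hzt)).differentiableAt (by simp)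
  have hDU : DifferentiableAt ℝ (fderiv ℝ U) z :=
    ((hUs.fderiv_of_isOpen (A.e i).open_target (m := ∞) (by simp)).contDiffAt
      ((A.e i).open_target.mem_nhds hzt)).differentiableAt (by simp)
  have d2 : ∀ a w, fderiv ℝ (fderiv ℝ U) z a (I • w) =
      2 * fderiv ℝ (L.th i) z a w - 2 * (fderiv ℝ (fderiv ℝ (P.h i)) z a w).im := by
    intro a w
    rw [← ap1 hDU (I • w) a]
    have e1 : (fun y => fderiv ℝ U y (I • w)) =ᶠ[𝓝 z]
        fun y => 2 * L.th i y w - 2 * (fderiv ℝ (P.h i) y w).im := by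
      filter_upwards [(A.e i).open_target.mem_nhds hzt] with y hy using d1 y hy w
    have g1 : HasFDerivAt (fun y => L.th i y w) _ z :=
      (L.th_diff hzt).hasFDerivAt.clm_apply (hasFDerivAt_const w z)
    have g2 : HasFDerivAt (fun y => fderiv ℝ (P.h i) y w) _ z :=
      hDh.hasFDerivAt.clm_apply (hasFDerivAt_const w z)
    have g3 : HasFDerivAt (fun y => (fderiv ℝ (P.h i) y w).im) _ z :=
      Complex.imCLM.hasFDerivAt.comp z g2
    have g4 : HasFDerivAt (fun y => 2 * L.th i y w - 2 * (fderiv ℝ (P.h i) y w).im) _ z :=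
      (g1.const_mul 2).sub (g3.const_mul 2)
    rw [e1.fderiv_eq, g4.fderiv]
    simp
  rw [d2, d2, sym2 (P.at_ hzt) v u] at k
  rw [PL.F_w]
  linarith

/-- `cur = - (1/2) GB F` -/
theorem cur_GB {i : A.ι} {x : X} (hx : x ∈ (A.e i).source) (a b : Fin n) :
    cur P.hm i x a b = -(1 / 2) * GB (L.F.w i (A.e i x)) a b := by
  rw [GB, Matrix.of_apply, hw, P.F_cur hx, P.F_cur hx, hb_I_right, hb_single]
  apply Complex.ext <;> simp

theorem cur_GB' {i : A.ι} {x : X} (hx : x ∈ (A.e i).source) :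
    cur P.hm i x = (-(1 / 2) : ℂ) • GB (L.F.w i (A.e i x)) := by
  ext a b
  rw [P.cur_GB hx, Matrix.smul_apply, smul_eq_mul]

/-! ### sections -/

open Classical in
/-- a section read in the holomorphic frames -/
def sx (s : Sec L) : A.ι → X → ℂ := fun i x =>
  if x ∈ (A.e i).source then s.u i (A.e i x) * exp (P.h i (A.e i x)) else 0

theorem sx_of (s : Sec L) {i : A.ι} {x : X} (hx : x ∈ (A.e i).source) :
    P.sx s i x = s.u i (A.e i x) * exp (P.h i (A.e i x)) := if_pos hx

theorem sx_off (s : Sec L) {i : A.ι} {x : X} (hx : x ∉ (A.e i).source) :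
    P.sx s i x = 0 := if_neg hx

theorem sx_read (s : Sec L) {i : A.ι} {z : Cn n} (hz : z ∈ (A.e i).target) :
    P.sx s i ((A.e i).symm z) = s.u i z * exp (P.h i z) := by
  rw [P.sx_of s ((A.e i).map_target hz), (A.e i).right_inv hz]

theorem sx_tr (s : Sec L) {i j : A.ι} {x : X} (hx : x ∈ (A.e i).source ∩ (A.e j).source) :
    P.sx s i x = P.lb.g i j x * P.sx s j x := by
  rw [P.sx_of s hx.1, P.sx_of s hx.2, P.lb_g hx, s.tr i j _ (mem_ov' hx)]
  have e1 : (ofAtl A).t i j (A.e i x) = A.e j x := by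
    show A.e j ((A.e i).symm (A.e i x)) = _
    rw [(A.e i).left_inv hx.1]
  rw [e1]
  have h1 : exp (-P.h j (A.e j x)) * exp (P.h j (A.e j x)) = 1 := by
    rw [← Complex.exp_add, neg_add_cancel, Complex.exp_zero]
  linear_combination (-(L.g i j (A.e i x) * s.u j (A.e j x) * exp (P.h i (A.e i x)))) * h1

theorem sx_hol {s : Sec L} (hs : s ∈ L.H0 (iJ A)) : IsHS P.lb univ (P.sx s) where
  hol i := by
    intro z hz
    have hz' : z ∈ (A.e i).target := hz.1
    have h1 : HasFDerivAt (fun y => s.u i y * exp (P.h i y)) _ z :=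
      (s.diffAt (L := L) hz').hasFDerivAt.mul (P.diffAt hz').hasFDerivAt.cexp
    have h2 : DifferentiableAt ℂ (fun y => s.u i y * exp (P.h i y)) z := by
      refine diffC_of h1.differentiableAt fun v => ?_
      rw [h1.fderiv]
      have p1 := P.eq i z hz' v
      have p2 := hs i z hz' v
      unfold Sec.db Sec.D at p2
      rw [iJ_apply] at p2
      simp only [add_apply, smul_apply, smul_eq_mul]
      linear_combination (-I * exp (P.h i z)) * p2 - (I * s.u i z * exp (P.h i z)) * p1 +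
        (exp (P.h i z) * fderiv ℝ (s.u i) z (I • v) +
          s.u i z * exp (P.h i z) * fderiv ℝ (P.h i) z (I • v)) * I_mul_I
    refine h2.differentiableWithinAt.congr_of_eventuallyEq ?_ (P.sx_read s hz')
    filter_upwards [self_mem_nhdsWithin] with y hy using P.sx_read s hy.1
  off i x hx := P.sx_off s hx
  tr i j x hx _ := P.sx_tr s hx

open Classical in
/-- a holomorphic section as a smooth section of `L` -/
def su (t : A.ι → X → ℂ) (ht : IsHS P.lb univ t) : Sec L where
  u i z := if z ∈ (A.e i).target then t i ((A.e i).symm z) * exp (-P.h i z) else 0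
  sm i := by
    have h1 : ContDiffOn ℝ ∞ (fun z => t i ((A.e i).symm z)) (A.e i).target := by
      have := (ht.hol i).contDiffOn isOpen_univ
      rwa [preimage_univ, inter_univ] at this
    exact (h1.mul (P.sm i).neg.cexp).congr fun z hz => if_pos hz
  tr i j z hz := by
    have hz1 : z ∈ (A.e i).target := hz.1
    have hz2 : (ofAtl A).t i j z ∈ (A.e j).target := (RCh.t_mem hz).1
    have hx : (A.e i).symm z ∈ (A.e i).source ∩ (A.e j).source := ⟨(A.e i).map_target hz1, hz.2⟩
    rw [if_pos hz1, if_pos hz2, ht.tr i j _ hx (mem_univ _), P.lb_g hx, (A.e i).right_inv hz1]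
    have e1 : A.e j ((A.e i).symm z) = (ofAtl A).t i j z := rfl
    have e2 : (A.e j).symm ((ofAtl A).t i j z) = (A.e i).symm z := (A.e j).left_inv hz.2
    rw [e1, e2]
    have h1 : exp (-P.h i z) * exp (P.h i z) = 1 := by
      rw [← Complex.exp_add, neg_add_cancel, Complex.exp_zero]
    linear_combination (L.g i j z * exp (-P.h j ((ofAtl A).t i j z)) *
      t j ((A.e i).symm z)) * h1
  off i z hz := if_neg hz

theorem su_of {t : A.ι → X → ℂ} (ht : IsHS P.lb univ t) {i : A.ι} {z : Cn n}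
    (hz : z ∈ (A.e i).target) : (P.su t ht).u i z = t i ((A.e i).symm z) * exp (-P.h i z) :=
  if_pos hz

theorem sx_su {t : A.ι → X → ℂ} (ht : IsHS P.lb univ t) : P.sx (P.su t ht) = t := by
  funext i x
  by_cases hx : x ∈ (A.e i).source
  · rw [P.sx_of _ hx, P.su_of ht ((A.e i).map_source hx), (A.e i).left_inv hx, mul_assoc,
      ← Complex.exp_add, neg_add_cancel, Complex.exp_zero, mul_one]
  · rw [P.sx_off _ hx, ht.off i x hx]

theorem su_mem {t : A.ι → X → ℂ} (ht : IsHS P.lb univ t) : P.su t ht ∈ L.H0 (iJ A) := by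
  intro i z hz v
  have hz' : z ∈ (A.e i).target := hz
  have hd : DifferentiableAt ℂ (fun y => t i ((A.e i).symm y)) z :=
    DifferentiableOn.differentiableAt (ht.hol i) (by
      rw [preimage_univ, inter_univ]
      exact (A.e i).open_target.mem_nhds hz')
  have h0 : (P.su t ht).u i =ᶠ[𝓝 z] fun y => t i ((A.e i).symm y) * exp (-P.h i y) := by
    filter_upwards [(A.e i).open_target.mem_nhds hz'] with y hy using P.su_of ht hy
  have h1 : HasFDerivAt (fun y => t i ((A.e i).symm y) * exp (-P.h i y)) _ z :=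
    (hd.restrictScalars ℝ).hasFDerivAt.mul (P.diffAt hz').hasFDerivAt.fun_neg.cexp
  have h2 : fderiv ℝ (fun y => t i ((A.e i).symm y)) z (I • v) =
      I * fderiv ℝ (fun y => t i ((A.e i).symm y)) z v := fderiv_hol_I hd v
  unfold Sec.db Sec.D
  rw [h0.fderiv_eq, h1.fderiv, P.su_of ht hz', iJ_apply]
  simp only [add_apply, smul_apply, neg_apply, smul_eq_mul]
  rw [h2]
  have p1 := P.eq i z hz' v
  linear_combination (-(t i ((A.e i).symm z) * exp (-P.h i z))) * p1 +
    (exp (-P.h i z) * fderiv ℝ (fun y => t i ((A.e i).symm y)) z v) * I_mul_I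

/-- **DICT-L**: holomorphic sections of `L` are the holomorphic sections of `P.lb` -/
def iso : L.H0 (iJ A) ≃ₗ[ℂ] HS P.lb univ where
  toFun s := ⟨P.sx s.1, P.sx_hol s.2⟩
  invFun t := ⟨P.su t.1 t.2, P.su_mem t.2⟩
  map_add' s t := by
    apply Subtype.ext
    funext i x
    show P.sx (s.1 + t.1) i x = P.sx s.1 i x + P.sx t.1 i x
    by_cases hx : x ∈ (A.e i).source
    · rw [P.sx_of _ hx, P.sx_of _ hx, P.sx_of _ hx, Sec.add_u, Pi.add_apply, Pi.add_apply, add_mul]
    · rw [P.sx_off _ hx, P.sx_off _ hx, P.sx_off _ hx, add_zero]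
  map_smul' c s := by
    apply Subtype.ext
    funext i x
    show P.sx (c • s.1) i x = c * P.sx s.1 i x
    by_cases hx : x ∈ (A.e i).source
    · rw [P.sx_of _ hx, P.sx_of _ hx, Sec.smul_u, Pi.smul_apply, Pi.smul_apply, smul_eq_mul,
        mul_assoc]
    · rw [P.sx_off _ hx, P.sx_off _ hx, mul_zero]
  left_inv s := by
    apply Subtype.ext
    refine Sec.ext' fun i z hz => ?_
    have hz' : z ∈ (A.e i).target := hz
    show (P.su (P.sx s.1) (P.sx_hol s.2)).u i z = s.1.u i z
    rw [P.su_of _ hz', P.sx_read _ hz', mul_assoc, ← Complex.exp_add, add_neg_cancel,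
      Complex.exp_zero, mul_one]
  right_inv t := Subtype.ext (P.sx_su t.2)

theorem iso_apply (s : L.H0 (iJ A)) : (P.iso s : A.ι → X → ℂ) = P.sx s.1 := rfl

/-- products of sections -/
theorem sx_mul {L' : PL (ofAtl A)} (P' : Pot L') (s : Sec L) (t : Sec L') (i : A.ι) (x : X) :
    (P.mul P').sx (s.mul t) i x = P.sx s i x * P'.sx t i x := by
  by_cases hx : x ∈ (A.e i).source
  · rw [sx_of _ _ hx, sx_of _ _ hx, sx_of _ _ hx]
    simp only [mul, Sec.mul, Complex.exp_add]
    ring
  · rw [sx_off _ _ hx, sx_off _ _ hx, zero_mul]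

end Pot

end

end Crest.Agent.R281.PL_713
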