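import Crest.Agent.R281.PL4_713
import Crest.Agent.R281.OpB6_849

/-!
# R281 (S0424), PREQ (helper713), part 6: all smooth sections

* `Pot.sx_isS`, `Pot.dbS_sx` : smooth sections of `L : PL (ofAtl A)` are the smooth sections
  (849's `IsS`) of `P.lb`; `∂bar f = (1/2) exp h · db s`
* `Dic.toB : Sec L →ₗ[ℂ] Crest.Agent.R275.Geo.Sec (BN D.lb)`, injective, range `{u | pqL 0 u = u}`
* `Dic.nab_toB` : `nabL (toB s) = ofQ (dbS ..)`; `nab_toB_zero : nabL (toB s) = 0 ↔ s ∈ L.H0 J`
-/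

set_option autoImplicit false
set_option linter.unusedSectionVars false
set_option maxSynthPendingDepth 3

open Set Filter Topology Complex
open scoped ContDiff ComplexConjugate

namespace Crest.Agent.R281.PL_713

open Crest.Agent.R281.HkR_835 Crest.Agent.R281.Ti_846
open Crest.Agent.R275.Geo Crest.Agent.R275.Core144 Crest.Agent.R273.Defs_333
open Crest.Agent.R273.Kah_333 Crest.Agent.R273.Fock_243 Crest.Agent.R273.LamN127
open Crest.Agent.R273.DMetB_733 Crest.Agent.R281.OpB_849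

noncomputable section

variable {X : Type} [TopologicalSpace X] {n : ℕ} {A : Atl n X}

namespace Pot

variable {L : PL (ofAtl A)} (P : Pot L)

theorem sx_isS (s : Sec L) : IsS P.lb (P.sx s) where
  sm i := by
    have h1 : ContDiffOn ℝ ∞ (fun z => s.u i z * exp (P.h i z)) (A.e i).target :=
      (s.sm i).mul (P.sm i).cexp
    exact h1.congr fun z hz => P.sx_read s hz
  tr i j x hx := P.sx_tr s hx

open Classical in
/-- a smooth section of `P.lb` as a section of `L` -/
def sv (t : A.ι → X → ℂ) (ht : IsS P.lb t) : Sec L where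
  u i z := if z ∈ (A.e i).target then t i ((A.e i).symm z) * exp (-P.h i z) else 0
  sm i := by
    have h1 : ContDiffOn ℝ ∞ (fun z => t i ((A.e i).symm z)) (A.e i).target := ht.sm i
    exact (h1.mul (P.sm i).neg.cexp).congr fun z hz => if_pos hz
  tr i j z hz := by
    have hz1 : z ∈ (A.e i).target := hz.1
    have hz2 : (ofAtl A).t i j z ∈ (A.e j).target := (RCh.t_mem hz).1
    have hx : (A.e i).symm z ∈ (A.e i).source ∩ (A.e j).source := ⟨(A.e i).map_target hz1, hz.2⟩
    rw [if_pos hz1, if_pos hz2, ht.tr i j _ hx, P.lb_g hx, (A.e i).right_inv hz1]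
    have e1 : A.e j ((A.e i).symm z) = (ofAtl A).t i j z := rfl
    have e2 : (A.e j).symm ((ofAtl A).t i j z) = (A.e i).symm z := (A.e j).left_inv hz.2
    rw [e1, e2]
    have h1 : exp (-P.h i z) * exp (P.h i z) = 1 := by
      rw [← Complex.exp_add, neg_add_cancel, Complex.exp_zero]
    linear_combination (L.g i j z * exp (-P.h j ((ofAtl A).t i j z)) *
      t j ((A.e i).symm z)) * h1
  off i z hz := if_neg hz

theorem sv_of {t : A.ι → X → ℂ} (ht : IsS P.lb t) {i : A.ι} {z : Cn n}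
    (hz : z ∈ (A.e i).target) : (P.sv t ht).u i z = t i ((A.e i).symm z) * exp (-P.h i z) :=
  if_pos hz

theorem sx_sv {t : A.ι → X → ℂ} (ht : IsS P.lb t) {i : A.ι} {x : X} (hx : x ∈ (A.e i).source) :
    P.sx (P.sv t ht) i x = t i x := by
  rw [P.sx_of _ hx, P.sv_of ht ((A.e i).map_source hx), (A.e i).left_inv hx, mul_assoc,
      ← Complex.exp_add, neg_add_cancel, Complex.exp_zero, mul_one]

theorem sx_inj {s t : Sec L} (h : ∀ i, ∀ x ∈ (A.e i).source, P.sx s i x = P.sx t i x) : s = t := by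
  refine Sec.ext' fun i z hz => ?_
  have h1 := h i _ ((A.e i).map_target hz)
  rw [P.sx_read s hz, P.sx_read t hz] at h1
  exact mul_right_cancel₀ (exp_ne_zero _) h1

theorem sx_add (s t : Sec L) {i : A.ι} {x : X} (hx : x ∈ (A.e i).source) :
    P.sx (s + t) i x = P.sx s i x + P.sx t i x := by
  rw [P.sx_of _ hx, P.sx_of _ hx, P.sx_of _ hx, Sec.add_u, Pi.add_apply, Pi.add_apply, add_mul]

theorem sx_smul (c : ℂ) (s : Sec L) {i : A.ι} {x : X} (hx : x ∈ (A.e i).source) :
    P.sx (c • s) i x = c * P.sx s i x := by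
  rw [P.sx_of _ hx, P.sx_of _ hx, Sec.smul_u, Pi.smul_apply, Pi.smul_apply, smul_eq_mul,
        mul_assoc]

/-- the derivative of a section read in the holomorphic frame -/
theorem dsx (s : Sec L) {i : A.ι} {z : Cn n} (hz : z ∈ (A.e i).target) (v : Cn n) :
    fderiv ℝ (fun y => P.sx s i ((A.e i).symm y)) z v =
      exp (P.h i z) * (fderiv ℝ (s.u i) z v + s.u i z * fderiv ℝ (P.h i) z v) := by
  have h0 : (fun y => P.sx s i ((A.e i).symm y)) =ᶠ[𝓝 z] fun y => s.u i y * exp (P.h i y) := by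
    filter_upwards [(A.e i).open_target.mem_nhds hz] with y hy using P.sx_read s hy
  have h1 : HasFDerivAt (fun y => s.u i y * exp (P.h i y)) _ z :=
    (s.diffAt (L := L) hz).hasFDerivAt.mul (P.diffAt hz).hasFDerivAt.cexp
  rw [h0.fderiv_eq, h1.fderiv]
  simp only [add_apply, smul_apply, smul_eq_mul]
  ring

/-- `∂bar` of a section read in the holomorphic frame -/
theorem dbar_sx (s : Sec L) {i : A.ι} {z : Cn n} (hz : z ∈ (A.e i).target) (v : Cn n) :
    fderiv ℝ (fun y => P.sx s i ((A.e i).symm y)) z v +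
      I * fderiv ℝ (fun y => P.sx s i ((A.e i).symm y)) z (I • v) =
      exp (P.h i z) * s.db (iJ A) i z v := by
  rw [P.dsx s hz, P.dsx s hz]
  have p1 := P.eq i z hz v
  unfold Sec.db Sec.D
  rw [iJ_apply]
  linear_combination (exp (P.h i z) * s.u i z) * p1

theorem dbS_sx (s : Sec L) {i : A.ι} {x : X} (hx : x ∈ (A.e i).source) (k : Fin n) :
    dbS (P.sx s) i x k =
      (1 / 2) * exp (P.h i (A.e i x)) * s.db (iJ A) i (A.e i x) (EuclideanSpace.single k 1) := by
  have h1 := P.dbar_sx s ((A.e i).map_source hx) (EuclideanSpace.single k 1)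
  show A.db i k (P.sx s i) x = _
  unfold Atl.db dbj
  rw [sing_I, smul_eq_mul, smul_eq_mul, h1]
  ring

/-- `∂bar = 0` -/
theorem dbS_zero_iff (s : Sec L) : (∀ i, ∀ x ∈ (A.e i).source, dbS (P.sx s) i x = 0) ↔
    s ∈ L.H0 (iJ A) := by
  constructor
  · intro h i z hz v
    have hz' : z ∈ (A.e i).target := hz
    refine vec_zero (T := fun v => s.db (iJ A) i z v) ?_ ?_ ?_ ?_ ?_ v
    · simp [Sec.db, Sec.D]
    · intro u v
      simp only [Sec.db, Sec.D, map_add]
      push_cast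
      ring
    · intro r u
      simp only [Sec.db, Sec.D, map_smul, smul_eq_mul, Complex.real_smul]
      push_cast
      ring
    · intro v
      simp only [Sec.db, Sec.D, iJ_apply, smul_smul, I_mul_I, neg_one_smul, map_neg]
      push_cast
      linear_combination (fderiv ℝ (s.u i) z (I • v) +
        I * (L.th i z (I • v) : ℂ) * s.u i z) * I_mul_I
    · intro a
      have h1 := congrFun (h i _ ((A.e i).map_target hz')) a
      rw [P.dbS_sx s ((A.e i).map_target hz'), (A.e i).right_inv hz'] at h1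
      have h2 : (1 / 2 : ℂ) * exp (P.h i z) ≠ 0 := mul_ne_zero (by norm_num) (exp_ne_zero _)
      exact (mul_eq_zero.1 h1).resolve_left h2
  · intro h i x hx
    funext k
    rw [P.dbS_sx s hx, h i _ ((A.e i).map_source hx), mul_zero]
    rfl

/-- sections of `L` as sections of `BN P.lb` -/
def toB : Sec L →ₗ[ℂ] Crest.Agent.R275.Geo.Sec (BN P.lb) where
  toFun s := ofS (P.sx s) (P.sx_isS s)
  map_add' s t := by
    refine sec_ext' fun i x hx => ?_
    have h0 : (ofS (P.sx s) (P.sx_isS s) + ofS (P.sx t) (P.sx_isS t)).1 i x =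
      (ofS (P.sx s) (P.sx_isS s)).1 i x + (ofS (P.sx t) (P.sx_isS t)).1 i x := rfl
    rw [h0, ofS_val _ hx, ofS_val _ hx, ofS_val _ hx, P.sx_add s t hx, add_smul]
    rfl
  map_smul' c s := by
    refine sec_ext' fun i x hx => ?_
    have h0 : (c • ofS (P.sx s) (P.sx_isS s)).1 i x =
      c • (ofS (P.sx s) (P.sx_isS s)).1 i x := rfl
    rw [RingHom.id_apply, h0, ofS_val _ hx, ofS_val _ hx, P.sx_smul c s hx, mul_smul]
    rfl

theorem toB_apply (s : Sec L) : P.toB s = ofS (P.sx s) (P.sx_isS s) := rfl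

theorem sOf_toB (s : Sec L) {i : A.ι} {x : X} (hx : x ∈ (A.e i).source) :
    sOf (P.toB s) i x = P.sx s i x := sOf_ofS (P.sx_isS s) hx

theorem toB_inj : Function.Injective P.toB := by
  intro s t h
  refine P.sx_inj fun i x hx => ?_
  rw [← P.sOf_toB s hx, ← P.sOf_toB t hx, h]

theorem pqL_toB (s : Sec L) : pqL (BN P.lb) 0 (P.toB s) = P.toB s := pqL_ofS (P.sx_isS s)

theorem toB_surj {u : Crest.Agent.R275.Geo.Sec (BN P.lb)} (hu : pqL (BN P.lb) 0 u = u) : ∃ s, P.toB s = u := by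
  refine ⟨P.sv (sOf u) (sOf_isS u), ?_⟩
  rw [toB_apply]
  refine Eq.trans ?_ ((ofS_sOf u).trans hu)
  refine sec_ext' fun i x hx => ?_
  rw [ofS_val _ hx, ofS_val _ hx, P.sx_sv _ hx]

theorem nab_toB (s : Sec L) :
    nabL (BN P.lb) (P.toB s) = ofQ (dbS (P.sx s)) (P.sx_isS s).dbS := nab_ofS (P.sx_isS s)

theorem nab_toB_zero (s : Sec L) : nabL (BN P.lb) (P.toB s) = 0 ↔ s ∈ L.H0 (iJ A) := by
  rw [← P.dbS_zero_iff, nab_toB]
  constructor
  · intro h i x hx
    have h1 := qOf_ofQ (P.sx_isS s).dbS hx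
    rw [h] at h1
    exact h1.symm
  · intro h
    refine sec_ext' fun i x hx => ?_
    have h0 : ((0 : Crest.Agent.R275.Geo.Sec (BN P.lb)).1 i x) = 0 := rfl
    rw [ofQ_val _ hx, h i x hx, h0, e1_zero]
    rfl

end Pot

namespace Dic

variable {V : Type} [NormedAddCommGroup V] [NormedSpace ℝ V] {C : RCh V X}
  {J : C.ι → V → V →L[ℝ] V} {L : PL C} (D : Dic C J L A)

/-- the value of a section in the holomorphic frame -/
def sx (s : Sec L) : A.ι → X → ℂ := D.P.sx (chF D.jc.cmp D.κ D.hκ s)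

theorem sx_of (s : Sec L) {a : A.ι} {x : X} (hx : x ∈ (A.e a).source) :
    D.sx s a x = s.u (D.κ a) (C.e (D.κ a) x) * exp (D.P.h a (A.e a x)) := by
  unfold sx
  rw [D.P.sx_of _ hx, chF_u _ _ _ _ ((A.e a).map_source hx)]
  have : mt C (ofAtl A) (D.κ a) a (A.e a x) = C.e (D.κ a) x := by
    show C.e (D.κ a) ((A.e a).symm (A.e a x)) = _
    rw [(A.e a).left_inv hx]
  rw [this]

theorem sx_isS (s : Sec L) : IsS D.lb (D.sx s) := D.P.sx_isS _

/-- sections of `L` as sections of `BN D.lb` -/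
def toB : Sec L →ₗ[ℂ] Crest.Agent.R275.Geo.Sec (BN D.lb) :=
  D.P.toB ∘ₗ (chS D.jc.cmp D.κ D.hκ (L := L)).toLinearMap

theorem toB_apply (s : Sec L) : D.toB s = ofS (D.sx s) (D.sx_isS s) := rfl

theorem toB_inj : Function.Injective D.toB :=
  D.P.toB_inj.comp (chS D.jc.cmp D.κ D.hκ (L := L)).injective

theorem pqL_toB (s : Sec L) : pqL (BN D.lb) 0 (D.toB s) = D.toB s := pqL_ofS (D.sx_isS s)

theorem toB_surj {u : Crest.Agent.R275.Geo.Sec (BN D.lb)} (hu : pqL (BN D.lb) 0 u = u) : ∃ s, D.toB s = u := by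
  obtain ⟨t, ht⟩ := D.P.toB_surj hu
  refine ⟨(chS D.jc.cmp D.κ D.hκ (L := L)).symm t, ?_⟩
  show D.P.toB ((chS D.jc.cmp D.κ D.hκ (L := L)) ((chS D.jc.cmp D.κ D.hκ (L := L)).symm t)) = u
  rw [LinearEquiv.apply_symm_apply]
  exact ht

theorem nab_toB_zero (s : Sec L) : nabL (BN D.lb) (D.toB s) = 0 ↔ s ∈ L.H0 J := by
  rw [← D.jc.mem_H0 D.κ D.hκ s]
  exact D.P.nab_toB_zero _

/-- `∂bar` of the section read in the holomorphic frame, in terms of `db J` in the chart `κ a` -/
theorem dbS_sx (s : Sec L) {a : A.ι} {x : X} (hx : x ∈ (A.e a).source) (k : Fin n) :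
    dbS (D.sx s) a x k = (1 / 2) * exp (D.P.h a (A.e a x)) *
      s.db J (D.κ a) (C.e (D.κ a) x)
        (fderiv ℝ (mt C (ofAtl A) (D.κ a) a) (A.e a x) (EuclideanSpace.single k 1)) := by
  have h1 := D.P.dbS_sx (chF D.jc.cmp D.κ D.hκ s) hx k
  have hz : A.e a x ∈ (A.e a).target := (A.e a).map_source hx
  have hm := D.hκ.mem (C := C) (C' := ofAtl A) (a := a) hz
  have e : mt C (ofAtl A) (D.κ a) a (A.e a x) = C.e (D.κ a) x := by
    show C.e (D.κ a) ((A.e a).symm (A.e a x)) = _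
    rw [(A.e a).left_inv hx]
  refine h1.trans ?_
  congr 1
  unfold Sec.db
  rw [chF_D D.jc.cmp D.κ D.hκ s hz, chF_D D.jc.cmp D.κ D.hκ s hz, iJ_apply,
    D.jc.lin (D.κ a) a _ hm, e]

end Dic

end

end Crest.Agent.R281.PL_713
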