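import Crest.Agent.R281.Cdr2_234

/-!
# R281 (S0424), G29 PER-ALL (helper162), part 1: integral classes in the orthogonal of rational ones

`C : RCh V X`.
* `Gen S b`        : `b : Fin N → F2 C` are integral classes in the subspace `S` which span `S`
                     modulo exact forms
* `Gen.step`       : from `S` to `S ⊓ ker ℓ`, `ℓ` rational up to one scale on the `b k`
* `Gen.exists_indep` : an independent subfamily
* `exists_perp`, `exists_perp_fin` : integral classes spanning `e^⊥` modulo exact forms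
* `lam_perp`       : a linear map which kills the exact forms and the integral classes of `e^⊥`
                     kills `e^⊥`
* `lam_eq`         : ... and it is a multiple of `Q(·, e)`
-/

set_option autoImplicit false
set_option linter.unusedSectionVars false
set_option maxSynthPendingDepth 3

open Set Filter Topology

namespace Crest.Agent.R281.Pall_162

open Crest.Agent.R281.HkR_835 Crest.Agent.R281.Cdr_234
open Crest.Agent.R281.Ti_846 (Ex)

noncomputable section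

variable {V X : Type} [NormedAddCommGroup V] [NormedSpace ℝ V] [TopologicalSpace X]
  {C : RCh V X}

/-! ### sums of exact / integral forms -/

theorem ex_sum {κ : Type*} (s : Finset κ) {f : κ → F2 C} (h : ∀ k ∈ s, Ex (f k)) :
    Ex (∑ k ∈ s, f k) :=
  mem_exS.1 ((exS C).sum_mem fun k hk => mem_exS.2 (h k hk))

theorem int_sum {κ : Type*} (s : Finset κ) {f : κ → F2 C} (h : ∀ k ∈ s, IntF (f k)) :
    IntF (∑ k ∈ s, f k) :=
  mem_clsS.1 ((clsS C _).sum_mem fun k hk => mem_clsS.2 (h k hk))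

theorem int_comb {κ : Type*} (s : Finset κ) {f : κ → F2 C} (h : ∀ k ∈ s, IntF (f k))
    (m : κ → ℤ) : IntF (∑ k ∈ s, (m k : ℝ) • f k) :=
  int_sum s fun k hk => IntF.zsmul (h k hk) (m k)

theorem rat_sum {κ : Type*} (s : Finset κ) {f : κ → F2 C} (h : ∀ k ∈ s, RatF (f k)) :
    RatF (∑ k ∈ s, f k) :=
  mem_clsS.1 ((clsS C _).sum_mem fun k hk => mem_clsS.2 (h k hk))

theorem rat_comb {κ : Type*} (s : Finset κ) {f : κ → F2 C} (h : ∀ k ∈ s, RatF (f k))
    (q : κ → ℚ) : RatF (∑ k ∈ s, (q k : ℝ) • f k) :=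
  rat_sum s fun k hk => RatF.smul (h k hk) (q k)

/-- a linear map which kills the exact forms depends only on the class -/
theorem lam_congr {W : Type*} [AddCommGroup W] [Module ℝ W] {lam : F2 C →ₗ[ℝ] W}
    (h0 : ∀ x, Ex x → lam x = 0) {x y : F2 C} (h : Ex (x - y)) : lam x = lam y := by
  have := h0 _ h
  rwa [map_sub, sub_eq_zero] at this

/-! ### subspaces spanned by integral classes -/

/-- `b : Fin N → F2 C` are integral classes in the subspace `S` which span `S` modulo exact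
forms -/
structure Gen (S : Submodule ℝ (F2 C)) {N : ℕ} (b : Fin N → F2 C) : Prop where
  int : ∀ k, IntF (b k)
  mem : ∀ k, b k ∈ S
  span : ∀ x ∈ S, ∃ t : Fin N → ℝ, Ex (x - ∑ k, t k • b k)

theorem gen_top {N : ℕ} {b : Fin N → F2 C} (hb : ∀ k, IntF (b k))
    (hs : ∀ x : F2 C, ∃ t : Fin N → ℝ, Ex (x - ∑ k, t k • b k)) : Gen ⊤ b :=
  ⟨hb, fun _ => trivial, fun x _ => hs x⟩

/-- common denominators -/
theorem exists_clear {N : ℕ} (q : Fin N → ℚ) :
    ∃ (a : ℤ) (x : Fin N → ℤ), a ≠ 0 ∧ ∀ k, (x k : ℝ) = a * q k := by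
  classical
  refine ⟨∏ k, ((q k).den : ℤ), fun k => (∏ l ∈ Finset.univ.erase k, ((q l).den : ℤ)) * (q k).num,
    ?_, fun k => ?_⟩
  · exact Finset.prod_ne_zero_iff.2 fun k _ => by exact_mod_cast (q k).den_ne_zero
  · rw [← Finset.mul_prod_erase Finset.univ (fun l => ((q l).den : ℤ)) (Finset.mem_univ k)]
    have h1 : ((q k).den : ℝ) * (q k : ℝ) = (q k).num := by
      have h2 := Rat.den_mul_eq_num (q k)
      exact_mod_cast h2
    push_cast
    linear_combination (-(∏ l ∈ Finset.univ.erase k, ((q l).den : ℝ))) * h1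

/-- **the step**: `ℓ` a linear functional, zero on exact forms, rational up to one scale on the
generators -/
theorem Gen.step {S : Submodule ℝ (F2 C)} {N : ℕ} {b : Fin N → F2 C} (h : Gen S b)
    (ℓ : F2 C →ₗ[ℝ] ℝ) (h0 : ∀ x, Ex x → ℓ x = 0) (c : ℝ)
    (hr : ∀ k, ∃ r : ℚ, ℓ (b k) = c * r) :
    ∃ w : Fin N → F2 C, Gen (S ⊓ LinearMap.ker ℓ) w := by
  choose r hr using hr
  by_cases hz : ∀ k, ℓ (b k) = 0
  · exact ⟨b, h.int, fun k => ⟨h.mem k, LinearMap.mem_ker.2 (hz k)⟩, fun x hx => h.span x hx.1⟩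
  push Not at hz
  obtain ⟨k0, hk0⟩ := hz
  obtain ⟨a, y, ha, hy⟩ := exists_clear r
  have hc : c ≠ 0 := by
    rintro rfl
    exact hk0 (by rw [hr, zero_mul])
  have hr0 : (r k0 : ℝ) ≠ 0 := by
    intro h1
    exact hk0 (by rw [hr, h1, mul_zero])
  have ha' : (a : ℝ) ≠ 0 := by exact_mod_cast ha
  have hy0 : (y k0 : ℝ) ≠ 0 := by
    rw [hy]
    exact mul_ne_zero ha' hr0
  have hl : ∀ k, (a : ℝ) * ℓ (b k) = c * y k := fun k => by
    rw [hr, hy]
    ring
  refine ⟨fun k => (y k0 : ℝ) • b k - (y k : ℝ) • b k0, fun k => ?_, fun k => ⟨?_, ?_⟩,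
    fun x hx => ?_⟩
  · exact Cls.sub (IntF.zsmul (h.int k) (y k0)) (IntF.zsmul (h.int k0) (y k))
  · exact S.sub_mem (S.smul_mem _ (h.mem k)) (S.smul_mem _ (h.mem k0))
  · show ℓ ((y k0 : ℝ) • b k - (y k : ℝ) • b k0) = 0
    rw [map_sub, map_smul, map_smul, smul_eq_mul, smul_eq_mul]
    apply mul_left_cancel₀ ha'
    linear_combination (y k0 : ℝ) * hl k - (y k : ℝ) * hl k0
  · obtain ⟨t, ht⟩ := h.span x hx.1
    have h1 : ∑ k, t k * (y k : ℝ) = 0 := by
      have h2 : ℓ x = ℓ (∑ k, t k • b k) := lam_congr h0 ht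
      rw [LinearMap.mem_ker.1 hx.2, map_sum] at h2
      have h3 : c * ∑ k, t k * (y k : ℝ) = a * ∑ k, ℓ (t k • b k) := by
        rw [Finset.mul_sum, Finset.mul_sum]
        refine Finset.sum_congr rfl fun k _ => ?_
        rw [map_smul, smul_eq_mul]
        linear_combination (-(t k)) * hl k
      rw [← h2, mul_zero] at h3
      exact (mul_eq_zero.1 h3).resolve_left hc
    refine ⟨fun k => t k / y k0, ?_⟩
    have h2 : ∑ k, (t k / (y k0 : ℝ)) • ((y k0 : ℝ) • b k - (y k : ℝ) • b k0) =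
        ∑ k, t k • b k := by
      have h3 : ∀ k, (t k / (y k0 : ℝ)) • ((y k0 : ℝ) • b k - (y k : ℝ) • b k0) =
          t k • b k - (t k * (y k : ℝ)) • ((1 / (y k0 : ℝ)) • b k0) := fun k => by
        rw [smul_sub, smul_smul, smul_smul, smul_smul, div_mul_cancel₀ _ hy0]
        congr 2
        ring
      rw [Finset.sum_congr rfl fun k _ => h3 k, Finset.sum_sub_distrib, ← Finset.sum_smul, h1,
        zero_smul, sub_zero]
    rw [h2]
    exact ht

/-- an independent subfamily -/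
theorem Gen.exists_indep {S : Submodule ℝ (F2 C)} {N : ℕ} {b : Fin N → F2 C} (h : Gen S b) :
    ∃ (m : ℕ) (f : Fin m → Fin N), Function.Injective f ∧ Gen S (fun k => b (f k)) ∧
      ∀ t : Fin m → ℝ, Ex (∑ k, t k • b (f k)) → t = 0 := by
  classical
  obtain ⟨κ, a, ha, hsp, hli⟩ := exists_linearIndependent' ℝ (fun k => (exS C).mkQ (b k))
  have hfin : Finite κ := Finite.of_injective a ha
  have := Fintype.ofFinite κ
  obtain ⟨e⟩ := Fintype.truncEquivFin κ
  refine ⟨Fintype.card κ, fun k => a (e.symm k), fun k l hkl => e.symm.injective (ha hkl),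
    ⟨fun k => h.int _, fun k => h.mem _, fun x hx => ?_⟩, fun t ht => ?_⟩
  · obtain ⟨t, ht⟩ := h.span x hx
    have h1 : (exS C).mkQ x ∈ Submodule.span ℝ (range fun k => (exS C).mkQ (b k)) := by
      have h2 : (exS C).mkQ x = ∑ k, t k • (exS C).mkQ (b k) := by
        have h3 : (exS C).mkQ (x - ∑ k, t k • b k) = 0 := by
          rw [← LinearMap.mem_ker, Submodule.ker_mkQ]
          exact mem_exS.2 ht
        rw [map_sub, sub_eq_zero] at h3
        rw [h3, map_sum]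
        exact Finset.sum_congr rfl fun k _ => by rw [map_smul]
      rw [h2]
      exact Submodule.sum_mem _ fun k _ => Submodule.smul_mem _ _ (Submodule.subset_span ⟨k, rfl⟩)
    rw [← hsp] at h1
    obtain ⟨s, hs⟩ := (Submodule.mem_span_range_iff_exists_fun ℝ).1 h1
    refine ⟨fun k => s (e.symm k), mem_exS.1 ?_⟩
    rw [← Submodule.ker_mkQ (exS C), LinearMap.mem_ker, map_sub, ← hs, map_sum, sub_eq_zero]
    rw [← Equiv.sum_comp e]
    refine Finset.sum_congr rfl fun k _ => ?_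
    simp
  · have h1 : ∑ k : κ, (t (e k)) • ((fun k => (exS C).mkQ (b k)) ∘ a) k = 0 := by
      have h2 : (exS C).mkQ (∑ k, t k • b (a (e.symm k))) = 0 := by
        rw [← LinearMap.mem_ker, Submodule.ker_mkQ]
        exact mem_exS.2 ht
      rw [map_sum, ← Equiv.sum_comp e] at h2
      rw [← h2]
      refine Finset.sum_congr rfl fun k _ => ?_
      simp
    have h3 := Fintype.linearIndependent_iff.1 hli _ h1
    funext k
    have := h3 (e.symm k)
    simpa using this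

/-- **linear maps**: it suffices to test on the integral classes of `S` -/
theorem Gen.lam_zero {S : Submodule ℝ (F2 C)} {N : ℕ} {b : Fin N → F2 C} (h : Gen S b)
    {W : Type*} [AddCommGroup W] [Module ℝ W] (lam : F2 C →ₗ[ℝ] W) (h0 : ∀ x, Ex x → lam x = 0)
    (h1 : ∀ w, IntF w → w ∈ S → lam w = 0) : ∀ w ∈ S, lam w = 0 := by
  intro w hw
  obtain ⟨t, ht⟩ := h.span w hw
  rw [lam_congr h0 ht, map_sum]
  refine Finset.sum_eq_zero fun k _ => ?_
  rw [map_smul, h1 _ (h.int k) (h.mem k), smul_zero]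

/-! ### the orthogonal of rational classes -/

/-- the orthogonal of `e` -/
def perp (Q : F2 C →ₗ[ℝ] F2 C →ₗ[ℝ] ℝ) (e : F2 C) : Submodule ℝ (F2 C) :=
  LinearMap.ker (Q.flip e)

theorem mem_perp {Q : F2 C →ₗ[ℝ] F2 C →ₗ[ℝ] ℝ} {e x : F2 C} : x ∈ perp Q e ↔ Q x e = 0 := by
  rw [perp, LinearMap.mem_ker, LinearMap.flip_apply]

/-- **rational up to one scale** (the output of RAT-GLUE) -/
def RatQ (Q : F2 C →ₗ[ℝ] F2 C →ₗ[ℝ] ℝ) : Prop :=
  ∃ c : ℝ, 0 < c ∧ ∀ x y : F2 C, RatF x → RatF y → ∃ r : ℚ, Q x y = c * r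

variable {Q : F2 C →ₗ[ℝ] F2 C →ₗ[ℝ] ℝ}

/-- one more orthogonality condition -/
theorem Gen.perp (hQ : RatQ Q) (hk : ∀ x y, Ex x → Q x y = 0) {S : Submodule ℝ (F2 C)} {N : ℕ}
    {b : Fin N → F2 C} (h : Gen S b) {e : F2 C} (he : RatF e) :
    ∃ w : Fin N → F2 C, Gen (S ⊓ Pall_162.perp Q e) w := by
  obtain ⟨c, -, hc⟩ := hQ
  exact h.step (Q.flip e) (fun x hx => by rw [LinearMap.flip_apply]; exact hk x e hx) c
    fun k => by
      obtain ⟨r, hr⟩ := hc (b k) e (h.int k).rat he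
      exact ⟨r, by rw [LinearMap.flip_apply]; exact hr⟩

/-- **integral classes spanning the orthogonal of a rational class** -/
theorem exists_perp (hQ : RatQ Q) (hk : ∀ x y, Ex x → Q x y = 0) {N : ℕ} {b : Fin N → F2 C}
    (hb : ∀ k, IntF (b k)) (hs : ∀ x : F2 C, ∃ t : Fin N → ℝ, Ex (x - ∑ k, t k • b k))
    {e : F2 C} (he : RatF e) : ∃ w : Fin N → F2 C, (∀ k, IntF (w k)) ∧ (∀ k, Q (w k) e = 0) ∧
      ∀ x, Q x e = 0 → ∃ t : Fin N → ℝ, Ex (x - ∑ k, t k • w k) := by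
  obtain ⟨w, hw⟩ := (gen_top hb hs).perp hQ hk he
  exact ⟨w, hw.int, fun k => mem_perp.1 (hw.mem k).2,
    fun x hx => hw.span x ⟨trivial, mem_perp.2 hx⟩⟩

/-- the version with a basis modulo exact forms -/
theorem exists_perp_basis (hQ : RatQ Q) (hk : ∀ x y, Ex x → Q x y = 0) {N : ℕ}
    {b : Fin N → F2 C} (hb : ∀ k, IntF (b k))
    (hs : ∀ x : F2 C, ∃ t : Fin N → ℝ, Ex (x - ∑ k, t k • b k))
    {e : F2 C} (he : RatF e) : ∃ (m : ℕ) (w : Fin m → F2 C), m ≤ N ∧ (∀ k, IntF (w k)) ∧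
      (∀ k, Q (w k) e = 0) ∧ (∀ x, Q x e = 0 → ∃ t : Fin m → ℝ, Ex (x - ∑ k, t k • w k)) ∧
      ∀ t : Fin m → ℝ, Ex (∑ k, t k • w k) → t = 0 := by
  obtain ⟨w, hw⟩ := (gen_top hb hs).perp hQ hk he
  obtain ⟨m, f, hf, hw', hi⟩ := hw.exists_indep
  exact ⟨m, fun k => w (f k), by simpa using Fintype.card_le_of_injective f hf, hw'.int,
    fun k => mem_perp.1 (hw'.mem k).2, fun x hx => hw'.span x ⟨trivial, mem_perp.2 hx⟩, hi⟩

/-- the orthogonal of finitely many classes -/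
theorem Gen.perp_fin (hQ : RatQ Q) (hk : ∀ x y, Ex x → Q x y = 0) {κ : Type*} (s : Finset κ)
    {e : κ → F2 C} (he : ∀ j ∈ s, RatF (e j)) {S : Submodule ℝ (F2 C)} {N : ℕ}
    {b : Fin N → F2 C} (h : Gen S b) :
    ∃ w : Fin N → F2 C, Gen (S ⊓ ⨅ j ∈ s, Pall_162.perp Q (e j)) w := by
  classical
  induction s using Finset.induction_on with
  | empty =>
    refine ⟨b, ?_⟩
    simpa using h
  | insert a s ha ih =>
    obtain ⟨w, hw⟩ := ih fun j hj => he j (Finset.mem_insert_of_mem hj)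
    obtain ⟨w', hw'⟩ := hw.perp hQ hk (he a (Finset.mem_insert_self a s))
    refine ⟨w', ?_⟩
    have h1 : S ⊓ ⨅ j ∈ insert a s, Pall_162.perp Q (e j) =
        S ⊓ (⨅ j ∈ s, Pall_162.perp Q (e j)) ⊓ Pall_162.perp Q (e a) := by
      rw [Finset.iInf_insert, inf_assoc, inf_comm (⨅ j ∈ s, Pall_162.perp Q (e j))]
    rw [h1]
    exact hw'

/-- **integral classes spanning the orthogonal of finitely many rational classes** -/
theorem exists_perp_fin (hQ : RatQ Q) (hk : ∀ x y, Ex x → Q x y = 0) {N : ℕ}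
    {b : Fin N → F2 C} (hb : ∀ k, IntF (b k))
    (hs : ∀ x : F2 C, ∃ t : Fin N → ℝ, Ex (x - ∑ k, t k • b k)) {κ : Type*} [Finite κ]
    {e : κ → F2 C} (he : ∀ j, RatF (e j)) : ∃ w : Fin N → F2 C, (∀ k, IntF (w k)) ∧
      (∀ k j, Q (w k) (e j) = 0) ∧
      ∀ x, (∀ j, Q x (e j) = 0) → ∃ t : Fin N → ℝ, Ex (x - ∑ k, t k • w k) := by
  classical
  have := Fintype.ofFinite κ
  obtain ⟨w, hw⟩ := (gen_top hb hs).perp_fin hQ hk Finset.univ (e := e) fun j _ => he j
  refine ⟨w, hw.int, fun k j => mem_perp.1 ?_, fun x hx => hw.span x ⟨trivial, ?_⟩⟩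
  · have h1 : w k ∈ ⨅ j ∈ Finset.univ, Pall_162.perp Q (e j) := (hw.mem k).2
    simp only [Finset.mem_univ, iInf_pos, Submodule.mem_iInf] at h1
    exact h1 j
  · show x ∈ ⨅ j ∈ Finset.univ, Pall_162.perp Q (e j)
    simp only [Finset.mem_univ, iInf_pos, Submodule.mem_iInf]
    exact fun j => mem_perp.2 (hx j)

/-- **PER-ALL, linear form**: a linear map which kills the exact forms and the integral classes
of `e^⊥` kills `e^⊥` -/
theorem lam_perp (hQ : RatQ Q) (hk : ∀ x y, Ex x → Q x y = 0) {N : ℕ} {b : Fin N → F2 C}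
    (hb : ∀ k, IntF (b k)) (hs : ∀ x : F2 C, ∃ t : Fin N → ℝ, Ex (x - ∑ k, t k • b k))
    {e : F2 C} (he : RatF e) {W : Type*} [AddCommGroup W] [Module ℝ W] (lam : F2 C →ₗ[ℝ] W)
    (h0 : ∀ x, Ex x → lam x = 0) (h1 : ∀ w, IntF w → Q w e = 0 → lam w = 0) :
    ∀ w, Q w e = 0 → lam w = 0 := by
  obtain ⟨v, hv⟩ := (gen_top hb hs).perp hQ hk he
  intro w hw
  exact hv.lam_zero lam h0 (fun x hx hx' => h1 x hx (mem_perp.1 hx'.2)) w ⟨trivial, mem_perp.2 hw⟩

/-- a linear map which kills `e^⊥` is a multiple of `Q(·, e)` -/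
theorem lam_eq {e : F2 C} {W : Type*} [AddCommGroup W] [Module ℝ W] (lam : F2 C →ₗ[ℝ] W)
    (h1 : ∀ w, Q w e = 0 → lam w = 0) {w0 : F2 C} (hw0 : Q w0 e ≠ 0) (w : F2 C) :
    lam w = (Q w e / Q w0 e) • lam w0 := by
  have h2 := h1 (w - (Q w e / Q w0 e) • w0) (by
    rw [map_sub, LinearMap.sub_apply, map_smul, LinearMap.smul_apply, smul_eq_mul,
      div_mul_cancel₀ _ hw0, sub_self])
  rwa [map_sub, map_smul, sub_eq_zero] at h2

/-- **the form of KAPPA-1**: `lam` kills `e^⊥` and `N`, not `K`: then `Q(N, e) = 0` -/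
theorem perp_of_lam {e : F2 C} {W : Type*} [AddCommGroup W] [Module ℝ W] (lam : F2 C →ₗ[ℝ] W)
    (h1 : ∀ w, Q w e = 0 → lam w = 0) {N K : F2 C} (hN : lam N = 0) (hK : lam K ≠ 0) :
    Q N e = 0 := by
  by_contra h
  exact hK (by rw [lam_eq lam h1 h K, hN, smul_zero])

/-- the non-degenerate converse: if `Q(·, w)` is zero on `e^⊥`, then `Q(x, w) = t Q(x, e)` -/
theorem exists_mul_of_perp {e w : F2 C} (h : ∀ x, Q x e = 0 → Q x w = 0) :
    ∃ t : ℝ, ∀ x, Q x w = t * Q x e := by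
  by_cases h0 : ∀ x, Q x e = 0
  · exact ⟨0, fun x => by rw [h x (h0 x), zero_mul]⟩
  push Not at h0
  obtain ⟨w0, hw0⟩ := h0
  refine ⟨Q w0 w / Q w0 e, fun x => ?_⟩
  have := lam_eq (Q := Q) (e := e) (Q.flip w) (fun x hx => by
    rw [LinearMap.flip_apply]
    exact h x hx) hw0 x
  rw [LinearMap.flip_apply, LinearMap.flip_apply, smul_eq_mul] at this
  rw [this]
  field_simp

/-- the factor is rational: `N = t e` modulo exact forms, `N`, `e` rational,
`Q(e, e') ≠ 0` for one rational `e'` -/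
theorem rat_factor (hQ : RatQ Q) (hk : ∀ x y, Ex x → Q x y = 0) {N e e' : F2 C} (hN : RatF N)
    (he : RatF e) (he' : RatF e') (h0 : Q e e' ≠ 0) {t : ℝ} (h : Ex (N - t • e)) :
    ∃ r : ℚ, t = r := by
  obtain ⟨c, hc, hr⟩ := hQ
  obtain ⟨r1, h1⟩ := hr N e' hN he'
  obtain ⟨r2, h2⟩ := hr e e' he he'
  have h3 := hk _ e' h
  rw [map_sub, LinearMap.sub_apply, map_smul, LinearMap.smul_apply, smul_eq_mul, sub_eq_zero, h1,
    h2] at h3
  have hr2 : (r2 : ℝ) ≠ 0 := by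
    rintro h4
    exact h0 (by rw [h2, h4, mul_zero])
  refine ⟨r1 / r2, ?_⟩
  push_cast
  rw [eq_div_iff hr2]
  apply mul_left_cancel₀ hc.ne'
  linear_combination -h3

/-- there is an integral class with `Q(e, e') ≠ 0` as soon as `e` is not in the radical -/
theorem exists_dual (hk : ∀ x y, Ex y → Q x y = 0) {N : ℕ} {b : Fin N → F2 C}
    (hb : ∀ k, IntF (b k)) (hs : ∀ x : F2 C, ∃ t : Fin N → ℝ, Ex (x - ∑ k, t k • b k))
    {e : F2 C} {x : F2 C} (hx : Q e x ≠ 0) : ∃ e' : F2 C, IntF e' ∧ Q e e' ≠ 0 := by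
  by_contra h
  push Not at h
  exact hx ((gen_top hb hs).lam_zero (Q e) (fun y hy => hk e y hy) (fun w hw _ => h w hw) x
    trivial)

end

end Crest.Agent.R281.Pall_162
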