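import Crest.Agent.R281.SIn_14
import Crest.Agent.R281.Qr2_770
import Crest.Agent.R273.SteinM_794

/-!
S-PER (task 1725), part 6: change of variables for the strip map of Theorem S
(half of the `f`-clause of `SIn_14.SOut`).

* `jacN`      : `|det D(e_i ∘ Φ)|² det K` does not depend on the chart, `= (pbg K Φ ζ).det.re`
* `cv_inj`    : `Φ` injective on the measurable set `B`:
                `∫_B det(Φ^*K) f(Φ ζ) dζ ≤ ∫_M f dvm`
* `strip_lint`: `∫_{ball ζ0 R} det(Φ^*K) f(Φ ζ) dζ ≤ m(N,R) ∫_{Φ '' ball ζ0 R} f dvm`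
-/

set_option autoImplicit false
set_option linter.unusedSectionVars false
set_option maxSynthPendingDepth 3

open Set Filter Topology Complex MeasureTheory
open scoped ContDiff Matrix ComplexConjugate ComplexOrder ENNReal

namespace Crest.Agent.R281.Per_368

open Crest.Agent.R275.Geo Crest.Agent.R275.Core144 Crest.Agent.R275.EDR890
open Crest.Agent.R273.Defs_333 Crest.Agent.R273.Hess_333 Crest.Agent.R273.HessB_333
open Crest.Agent.R273.HM_333 Crest.Agent.R273.Kah_333 Crest.Agent.R273.Vol_333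
open Crest.Agent.R273.Vm_333 Crest.Agent.R273.FIb0_597
open Crest.Agent.R275.Pai323 Crest.Agent.R275.C1d194
open Crest.Agent.R273.SteinM_794 (kap kap_eq mp_kap rc_kap kap_rc me_kap)
open Crest.Agent.R281.Tor_922 Crest.Agent.R281.SIn_14

noncomputable section

variable {N : ℕ} {M : Type} [TopologicalSpace M] {A : Atl N M}

/-- `Φ` is continuous on the open set `S ⊆ ℂ^N`, holomorphic in the charts, local biholomorphism -/
structure HolI (A : Atl N M) (S : Set (Fin N → ℂ)) (Φ : (Fin N → ℂ) → M) : Prop where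
  op : IsOpen S
  cont : ContinuousOn Φ S
  hol : ∀ ζ ∈ S, ∀ i, Φ ζ ∈ (A.e i).source →
    DifferentiableAt ℂ (fun w => A.e i (Φ w)) ζ ∧ (jac A Φ i ζ).det ≠ 0

theorem strip_holI {F : M → Fin N → ℂ} {d : ℕ} {ζ0 : Fin N → ℂ} {r : ℝ}
    {Lam : AddSubgroup (Fin N → ℂ)} {Φ : (Fin N → ℂ) → M} (h : Strip A F d ζ0 r Lam Φ) :
    HolI A (strip ζ0 r) Φ := ⟨isOpen_strip ζ0 r, h.cont, h.hol⟩

namespace HolI

variable {S : Set (Fin N → ℂ)} {Φ : (Fin N → ℂ) → M}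

theorem isOpen_pre (h : HolI A S Φ) {U : Set M} (hU : IsOpen U) : IsOpen (S ∩ Φ ⁻¹' U) :=
  h.cont.isOpen_inter_preimage h.op hU

/-- change of chart for the Jacobian matrix -/
theorem jac_tr (h : HolI A S Φ) {ζ : Fin N → ℂ} (hζ : ζ ∈ S) {i j : A.ι}
    (hi : Φ ζ ∈ (A.e i).source) (hj : Φ ζ ∈ (A.e j).source) :
    jac A Φ j ζ = Jm A i j (Φ ζ) * jac A Φ i ζ := by
  have h1 : DifferentiableAt ℂ (fun z => A.e j ((A.e i).symm z)) (A.e i (Φ ζ)) :=
    Atl.diff_trans ⟨hi, hj⟩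
  have h2 := (h.hol ζ hζ i hi).1
  have h3 := HasFDerivAt.comp (g := fun z => A.e j ((A.e i).symm z))
    (f := fun w => A.e i (Φ w)) ζ h1.hasFDerivAt h2.hasFDerivAt
  have h4 : (fun w => A.e j (Φ w)) =ᶠ[𝓝 ζ]
      (fun z => A.e j ((A.e i).symm z)) ∘ fun w => A.e i (Φ w) := by
    filter_upwards [(h.isOpen_pre (A.e i).open_source).mem_nhds ⟨hζ, hi⟩] with w hw
    show A.e j (Φ w) = A.e j ((A.e i).symm (A.e i (Φ w)))
    rw [(A.e i).left_inv hw.2]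
  have h5 := (h3.congr_of_eventuallyEq h4).fderiv
  ext b a
  rw [Matrix.mul_apply]
  show (fderiv ℂ (fun w => A.e j (Φ w)) ζ (Pi.single a 1)) b = _
  rw [h5]
  set D := fderiv ℂ (fun z => A.e j ((A.e i).symm z)) (A.e i (Φ ζ)) with hD
  set u : Cn N := fderiv ℂ (fun w => A.e i (Φ w)) ζ (Pi.single a 1) with hu
  have h6 : D u = ∑ c, u c • D (EuclideanSpace.single c 1) := by
    conv_lhs => rw [← (EuclideanSpace.basisFun (Fin N) ℂ).sum_repr u]
    simp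
  show (D u) b = _
  rw [h6]
  simp only [WithLp.ofLp_sum, WithLp.ofLp_smul, Finset.sum_apply, Pi.smul_apply, smul_eq_mul]
  refine Finset.sum_congr rfl fun c _ => ?_
  rw [mul_comm]
  rfl

/-- the density of `Φ^* vm` -/
theorem det_pbg (h : HolI A S Φ) (K : Kah A) {ζ : Fin N → ℂ} (hζ : ζ ∈ S) {i : A.ι}
    (hi : Φ ζ ∈ (A.e i).source) :
    (pbg K Φ ζ).det.re = ‖(jac A Φ i ζ).det‖ ^ 2 * (K.g i (Φ ζ)).det.re := by
  have hc := mem_ch A (Φ ζ)
  have h0 : ∀ (m g : Matrix (Fin N) (Fin N) ℂ), (mᵀ * g * m.map conj).det =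
      ((‖m.det‖ ^ 2 : ℝ) : ℂ) * g.det := by
    intro m g
    have h2 : (m.map conj).det = conj m.det := by
      rw [← RingHom.mapMatrix_apply, ← RingHom.map_det]
    have h3 : ((‖m.det‖ ^ 2 : ℝ) : ℂ) = m.det * conj m.det := by
      rw [Complex.mul_conj, Complex.normSq_eq_norm_sq]
    rw [Matrix.det_mul, Matrix.det_mul, Matrix.det_transpose, h2, h3]
    ring
  have e1 : (pbg K Φ ζ).det.re =
      ‖(jac A Φ (ch A (Φ ζ)) ζ).det‖ ^ 2 * (K.g (ch A (Φ ζ)) (Φ ζ)).det.re := by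
    unfold pbg
    rw [h0, Complex.re_ofReal_mul]
  have e2 := h.jac_tr hζ hi hc
  have e3 := K.tr i (ch A (Φ ζ)) (Φ ζ) ⟨hi, hc⟩
  rw [e1, e2, e3, h0, Complex.re_ofReal_mul, Matrix.det_mul, norm_mul]
  ring

/-- the map in real coordinates and its determinant -/
theorem hasFDerivAt_real (h : HolI A S Φ) {y : RI N → ℝ} (hy : kap y ∈ S) {i : A.ι}
    (hi : Φ (kap y) ∈ (A.e i).source) :
    ∃ L : (RI N → ℝ) →L[ℝ] (RI N → ℝ),
      HasFDerivAt (fun y => rc (A.e i (Φ (kap y)))) L y ∧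
      |L.det| = ‖(jac A Φ i (kap y)).det‖ ^ 2 := by
  have hd := (h.hol _ hy i hi).1
  set D0 := fderiv ℂ (fun w => A.e i (Φ w)) (kap y) with hD0
  let oL : Cn N →L[ℂ] (Fin N → ℂ) :=
    ((PiLp.continuousLinearEquiv 2 ℂ (fun _ : Fin N => ℂ)) : Cn N →L[ℂ] (Fin N → ℂ))
  set D : Cn N →L[ℂ] Cn N := D0.comp oL with hD
  have h1 : HasFDerivAt (fun z : Cn N => A.e i (Φ (WithLp.ofLp z))) (D.restrictScalars ℝ)
      (cc y) := by
    have h11 : HasFDerivAt (fun z : Cn N => WithLp.ofLp z) oL (cc y) := oL.hasFDerivAt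
    have h12 : HasFDerivAt (fun w => A.e i (Φ w)) D0 (WithLp.ofLp (cc y)) := by
      rw [← kap_eq]; exact hd.hasFDerivAt
    exact (HasFDerivAt.comp (g := fun w => A.e i (Φ w))
      (f := fun z : Cn N => WithLp.ofLp z) (cc y) h12 h11).restrictScalars ℝ
  let ccL : (RI N → ℝ) →L[ℝ] Cn N := ((rcE N).symm.toContinuousLinearEquiv : (RI N → ℝ) →L[ℝ] Cn N)
  have h2 : HasFDerivAt (cc : (RI N → ℝ) → Cn N) ccL y := by
    exact ((rcE N).symm.toContinuousLinearEquiv).hasFDerivAt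
  have h3 : HasFDerivAt (rc : Cn N → RI N → ℝ) (rcL N) (A.e i (Φ (WithLp.ofLp (cc y)))) := by
    rw [rc_eq]; exact (rcL N).hasFDerivAt
  have h4 := h3.comp y (h1.comp y h2)
  refine ⟨_, h4, ?_⟩
  have h5 : ((((rcL N).comp ((D.restrictScalars ℝ).comp ccL)) : (RI N → ℝ) →L[ℝ] (RI N → ℝ)) :
      (RI N → ℝ) →ₗ[ℝ] (RI N → ℝ)) = ((rcE N : Cn N →ₗ[ℝ] (RI N → ℝ)) ∘ₗ
        ((D : Cn N →ₗ[ℂ] Cn N).restrictScalars ℝ)) ∘ₗ ((rcE N).symm : (RI N → ℝ) →ₗ[ℝ] Cn N) := by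
    ext v p
    rfl
  have h6 : ((rcL N).comp ((D.restrictScalars ℝ).comp ccL)).det =
      ‖LinearMap.det (D : Cn N →ₗ[ℂ] Cn N)‖ ^ 2 := by
    rw [← det_real D, ← h5]
  have h7 : LinearMap.det (D : Cn N →ₗ[ℂ] Cn N) = (jac A Φ i (kap y)).det := by
    rw [← LinearMap.det_toMatrix (EuclideanSpace.basisFun (Fin N) ℂ).toBasis]
    congr 1
  rw [h6, h7, abs_of_nonneg (by positivity)]

end HolI

variable [MeasurableSpace M] [BorelSpace M] [Countable A.ι]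

/-- **change of variables**, injective pieces -/
theorem cv_inj {S : Set (Fin N → ℂ)} {Φ : (Fin N → ℂ) → M} (h : HolI A S Φ) (K : Kah A)
    {B : Set (Fin N → ℂ)} (hB : MeasurableSet B) (hBS : B ⊆ S) (hinj : InjOn Φ B)
    {f : M → ℝ≥0∞} (hf : Measurable f) :
    ∫⁻ ζ in B, ENNReal.ofReal (pbg K Φ ζ).det.re * f (Φ ζ) ≤
      ∫⁻ x, f x ∂(vm (volK K)) := by
  classical
  -- pass to real coordinates
  have h0 : ∫⁻ ζ in B, ENNReal.ofReal (pbg K Φ ζ).det.re * f (Φ ζ) =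
      ∫⁻ y in kap ⁻¹' B, ENNReal.ofReal (pbg K Φ (kap y)).det.re * f (Φ (kap y)) :=
    ((mp_kap N).setLIntegral_comp_preimage_emb (me_kap N)
      (fun ζ => ENNReal.ofReal (pbg K Φ ζ).det.re * f (Φ ζ)) B).symm
  rw [h0]
  have hBm : MeasurableSet (kap ⁻¹' B : Set (RI N → ℝ)) := (mp_kap N).measurable hB
  have hkc : Continuous (kap : (RI N → ℝ) → (Fin N → ℂ)) := by
    unfold kap; fun_prop
  set T : A.ι → Set (RI N → ℝ) := fun i => {y | kap y ∈ B ∧ Φ (kap y) ∈ Dj A i} with hT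
  have hTm : ∀ i, MeasurableSet (T i) := by
    intro i
    have hc : ContinuousOn (fun y : RI N → ℝ => Φ (kap y)) (kap ⁻¹' S) :=
      h.cont.comp hkc.continuousOn fun y hy => hy
    have h1 : Measurable ((kap ⁻¹' S : Set (RI N → ℝ)).domRestrict fun y => Φ (kap y)) :=
      (continuousOn_iff_continuous_domRestrict.1 hc).measurable
    have h2 := (h.op.preimage hkc).measurableSet.subtype_image (h1 (meas_Dj i))
    have h3 : T i = (kap ⁻¹' B) ∩ (Subtype.val '' ((kap ⁻¹' S :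
        Set (RI N → ℝ)).domRestrict (fun y => Φ (kap y)) ⁻¹' Dj A i)) := by
      ext y
      constructor
      · rintro ⟨hy1, hy2⟩
        exact ⟨hy1, ⟨⟨y, hBS hy1⟩, hy2, rfl⟩⟩
      · rintro ⟨hy1, ⟨⟨a, ha⟩, haE, rfl⟩⟩
        exact ⟨hy1, haE⟩
    rw [h3]
    exact hBm.inter h2
  have hU : (kap ⁻¹' B : Set (RI N → ℝ)) = ⋃ i, T i := by
    ext y
    constructor
    · intro hy
      obtain ⟨i, hi⟩ := exists_Dj (A := A) (Φ (kap y))
      exact mem_iUnion.2 ⟨i, hy, hi⟩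
    · intro hy
      obtain ⟨i, hi⟩ := mem_iUnion.1 hy
      exact hi.1
  have hdis : Pairwise (Function.onFun Disjoint T) := by
    intro i j hij
    rw [Function.onFun, Set.disjoint_left]
    intro y hy1 hy2
    exact Set.disjoint_left.1 (Dj_disjoint hij) hy1.2 hy2.2
  rw [hU, lintegral_iUnion hTm hdis]
  have htot : ∫⁻ x, f x ∂(vm (volK K)) =
      ∑' i, ∫⁻ y in {y | y ∈ Ui A i ∧ sg A i y ∈ Dj A i ∩ univ},
        dn (volK K) i y * f (sg A i y) := by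
    rw [← Crest.Agent.R281.Qr_770.lintegral_vm (volK K) MeasurableSet.univ hf,
      Measure.restrict_univ]
  rw [htot]
  refine ENNReal.tsum_le_tsum fun i => ?_
  -- one chart
  have hmem : ∀ y ∈ T i, kap y ∈ S ∧ Φ (kap y) ∈ (A.e i).source := fun y hy =>
    ⟨hBS hy.1, hy.2.1⟩
  have hL : ∀ y : RI N → ℝ, ∃ L : (RI N → ℝ) →L[ℝ] (RI N → ℝ), y ∈ T i →
      (HasFDerivAt (fun y => rc (A.e i (Φ (kap y)))) L y ∧
        |L.det| = ‖(jac A Φ i (kap y)).det‖ ^ 2) := by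
    intro y
    by_cases hy : y ∈ T i
    · obtain ⟨L, hL⟩ := h.hasFDerivAt_real (hmem y hy).1 (hmem y hy).2
      exact ⟨L, fun _ => hL⟩
    · exact ⟨0, fun h => absurd h hy⟩
  choose L hL using hL
  set G : (RI N → ℝ) → (RI N → ℝ) := fun y => rc (A.e i (Φ (kap y))) with hG
  have hsgG : ∀ y ∈ T i, sg A i (G y) = Φ (kap y) := fun y hy => sg_rc (hmem y hy).2
  have hGinj : InjOn G (T i) := by
    intro a ha b hb hab
    have h1 : Φ (kap a) = Φ (kap b) := by rw [← hsgG a ha, ← hsgG b hb, hab]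
    have h2 := hinj ha.1 hb.1 h1
    rw [← rc_kap a, ← rc_kap b, h2]
  have e1 : ∫⁻ y in T i, ENNReal.ofReal (pbg K Φ (kap y)).det.re * f (Φ (kap y)) =
      ∫⁻ y in T i, ENNReal.ofReal |(L y).det| * (dn (volK K) i (G y) * f (sg A i (G y))) := by
    refine setLIntegral_congr_fun (hTm i) fun y hy => ?_
    have hK : 0 ≤ ‖(jac A Φ i (kap y)).det‖ ^ 2 := by positivity
    show ENNReal.ofReal (pbg K Φ (kap y)).det.re * f (Φ (kap y)) =
      ENNReal.ofReal |(L y).det| * (ENNReal.ofReal ((K.g i (sg A i (G y))).det.re) *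
        f (sg A i (G y)))
    rw [hsgG y hy, (hL y hy).2, h.det_pbg K (hmem y hy).1 (hmem y hy).2,
      ENNReal.ofReal_mul hK, mul_assoc]
  rw [e1, ← lintegral_image_eq_lintegral_abs_det_fderiv_mul volume (hTm i)
    (fun y hy => (hL y hy).1.hasFDerivWithinAt) hGinj
    (fun u => dn (volK K) i u * f (sg A i u))]
  refine lintegral_mono_set ?_
  rintro _ ⟨y, hy, rfl⟩
  refine ⟨mem_Ui (hmem y hy).2, ?_⟩
  rw [hsgG y hy]
  exact ⟨hy.2, mem_univ _⟩

/-- version with the image set -/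
theorem cv_inj' {S : Set (Fin N → ℂ)} {Φ : (Fin N → ℂ) → M} (h : HolI A S Φ) (K : Kah A)
    {B : Set (Fin N → ℂ)} (hB : MeasurableSet B) (hBS : B ⊆ S) (hinj : InjOn Φ B)
    {f : M → ℝ≥0∞} (hf : Measurable f) {W : Set M} (hW : MeasurableSet W)
    (hBW : MapsTo Φ B W) :
    ∫⁻ ζ in B, ENNReal.ofReal (pbg K Φ ζ).det.re * f (Φ ζ) ≤
      ∫⁻ x in W, f x ∂(vm (volK K)) := by
  have h1 := cv_inj h K hB hBS hinj (hf.indicator hW)
  rw [lintegral_indicator hW] at h1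
  refine le_trans (le_of_eq ?_) h1
  refine setLIntegral_congr_fun hB fun ζ hζ => ?_
  show _ = ENNReal.ofReal (pbg K Φ ζ).det.re * W.indicator f (Φ ζ)
  rw [indicator_of_mem (hBW hζ)]

/-- covering number of `ball 0 R` in `ℂ^N` by balls of radius one -/
theorem exists_cover (N : ℕ) (R : ℝ) : ∃ T : Finset (Fin N → ℂ), ∀ ζ0 : Fin N → ℂ,
    Metric.ball ζ0 R ⊆ ⋃ t ∈ T, Metric.ball (ζ0 + t) 1 := by
  obtain ⟨T, _, hT, hcov⟩ := (isCompact_closedBall (0 : Fin N → ℂ) R).finite_cover_balls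
    (zero_lt_one (α := ℝ))
  refine ⟨hT.toFinset, fun ζ0 ζ hζ => ?_⟩
  have h1 : ζ - ζ0 ∈ Metric.closedBall (0 : Fin N → ℂ) R := by
    rw [mem_closedBall_zero_iff, ← dist_eq_norm]
    exact (Metric.mem_ball.1 hζ).le
  obtain ⟨t, ht, h2⟩ := mem_iUnion₂.1 (hcov h1)
  refine mem_iUnion₂.2 ⟨t, by simpa using ht, ?_⟩
  rw [Metric.mem_ball, dist_eq_norm] at h2 ⊢
  rwa [show ζ - (ζ0 + t) = ζ - ζ0 - t by abel]

theorem lint_biUnion_le {α β : Type*} [MeasurableSpace α] (μ : Measure α) (T : Finset β)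
    (s : β → Set α) (g : α → ℝ≥0∞) :
    ∫⁻ x in ⋃ t ∈ T, s t, g x ∂μ ≤ ∑ t ∈ T, ∫⁻ x in s t, g x ∂μ := by
  classical
  induction T using Finset.induction_on with
  | empty => simp
  | insert a T ha ih =>
    rw [Finset.set_biUnion_insert, Finset.sum_insert ha]
    exact (lintegral_union_le _ _ _).trans (by gcongr)

/-- the number of balls -/
def mc (N : ℕ) (R : ℝ) : ℕ := (exists_cover N R).choose.card

theorem ball_subset_strip {ζ0 : Fin N → ℂ} {R r : ℝ} (h : R ≤ r) :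
    Metric.ball ζ0 R ⊆ strip ζ0 r := by
  intro ζ hζ j
  have h1 : ‖ζ - ζ0‖ < R := by rwa [← dist_eq_norm]
  have h2 : ‖(ζ - ζ0) j‖ ≤ ‖ζ - ζ0‖ := norm_le_pi_norm _ j
  have h3 := Complex.abs_re_le_norm ((ζ - ζ0) j)
  rw [Pi.sub_apply, Complex.sub_re] at h3
  rw [Pi.sub_apply] at h2
  linarith

/-- injectivity of the strip map on sets of diameter `< 2π` -/
theorem strip_inj {F : M → Fin N → ℂ} {d : ℕ} {ζ0 : Fin N → ℂ} {r : ℝ}
    {Lam : AddSubgroup (Fin N → ℂ)} {Φ : (Fin N → ℂ) → M} (h : Strip A F d ζ0 r Lam Φ)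
    {B : Set (Fin N → ℂ)} (hB : B ⊆ strip ζ0 r) (hd : ∀ a ∈ B, ∀ b ∈ B, ‖a - b‖ < 2 * Real.pi) :
    InjOn Φ B := by
  intro a ha b hb hab
  have h1 := h.le_lat ((h.eq_iff a (hB ha) b (hB hb)).1 hab)
  have h2 : a - b = 0 := by
    ext j
    obtain ⟨k, hk⟩ := h1 j
    have h3 : ‖(a - b) j‖ < 2 * Real.pi := lt_of_le_of_lt (norm_le_pi_norm _ j) (hd a ha b hb)
    rw [hk] at h3 ⊢
    have h4 : ‖(k : ℂ) * (2 * Real.pi * Complex.I)‖ = |(k : ℝ)| * (2 * Real.pi) := by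
      rw [norm_mul, norm_mul, Complex.norm_I, mul_one, norm_mul, Complex.norm_intCast,
        Complex.norm_real, Real.norm_eq_abs, abs_of_pos Real.pi_pos]
      simp
    rw [h4] at h3
    have hpi := Real.pi_pos
    have h5 : |(k : ℝ)| < 1 := by
      by_contra hcon
      push Not at hcon
      nlinarith
    have h6 : k = 0 := by
      have : |k| < 1 := by exact_mod_cast h5
      exact Int.abs_lt_one_iff.1 this
    simp [h6]
  exact sub_eq_zero.1 h2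

/-- **change of variables for the strip map** -/
theorem strip_lint {F : M → Fin N → ℂ} {d : ℕ} {ζ0 : Fin N → ℂ} {r : ℝ}
    {Lam : AddSubgroup (Fin N → ℂ)} {Φ : (Fin N → ℂ) → M} (h : Strip A F d ζ0 r Lam Φ)
    (K : Kah A) {R : ℝ} (hR : R ≤ r) {f : M → ℝ≥0∞} (hf : Measurable f) {W : Set M}
    (hW : MeasurableSet W) (hBW : MapsTo Φ (Metric.ball ζ0 R) W) :
    ∫⁻ ζ in Metric.ball ζ0 R, ENNReal.ofReal (pbg K Φ ζ).det.re * f (Φ ζ) ≤
      mc N R * ∫⁻ x in W, f x ∂(vm (volK K)) := by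
  classical
  set T := (exists_cover N R).choose with hT
  have hcov := (exists_cover N R).choose_spec ζ0
  have hS := ball_subset_strip (ζ0 := ζ0) hR
  have h1 : Metric.ball ζ0 R ⊆ ⋃ t ∈ T, (Metric.ball ζ0 R ∩ Metric.ball (ζ0 + t) 1) := by
    intro ζ hζ
    obtain ⟨t, ht, h2⟩ := mem_iUnion₂.1 (hcov hζ)
    exact mem_iUnion₂.2 ⟨t, ht, hζ, h2⟩
  calc ∫⁻ ζ in Metric.ball ζ0 R, ENNReal.ofReal (pbg K Φ ζ).det.re * f (Φ ζ)
      ≤ ∫⁻ ζ in ⋃ t ∈ T, (Metric.ball ζ0 R ∩ Metric.ball (ζ0 + t) 1),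
          ENNReal.ofReal (pbg K Φ ζ).det.re * f (Φ ζ) := lintegral_mono_set h1
    _ ≤ ∑ t ∈ T, ∫⁻ ζ in (Metric.ball ζ0 R ∩ Metric.ball (ζ0 + t) 1),
          ENNReal.ofReal (pbg K Φ ζ).det.re * f (Φ ζ) := lint_biUnion_le _ _ _ _
    _ ≤ ∑ t ∈ T, ∫⁻ x in W, f x ∂(vm (volK K)) := by
        refine Finset.sum_le_sum fun t _ => ?_
        refine cv_inj' (strip_holI h) K (Metric.isOpen_ball.inter
          Metric.isOpen_ball).measurableSet (fun ζ hζ => hS hζ.1) ?_ hf hW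
          (fun ζ hζ => hBW hζ.1)
        refine strip_inj h (fun ζ hζ => hS hζ.1) fun a ha b hb => ?_
        have e1 := Metric.mem_ball.1 ha.2
        have e2 := Metric.mem_ball.1 hb.2
        have e3 := dist_triangle_right a b (ζ0 + t)
        rw [← dist_eq_norm]
        linarith [Real.pi_gt_three]
    _ = mc N R * ∫⁻ x in W, f x ∂(vm (volK K)) := by
        rw [Finset.sum_const, nsmul_eq_mul]; rfl

/-- with a lower bound of the metric -/
theorem strip_lint' {F : M → Fin N → ℂ} {d : ℕ} {ζ0 : Fin N → ℂ} {r : ℝ}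
    {Lam : AddSubgroup (Fin N → ℂ)} {Φ : (Fin N → ℂ) → M} (h : Strip A F d ζ0 r Lam Φ)
    (K : Kah A) {R : ℝ} (hR : R ≤ r) {f : M → ℝ≥0∞} (hf : Measurable f) {W : Set M}
    (hW : MeasurableSet W) (hBW : MapsTo Φ (Metric.ball ζ0 R) W) {c : ℝ} (hc : 0 < c)
    (hlow : ∀ ζ ∈ Metric.ball ζ0 R, c ≤ (pbg K Φ ζ).det.re) :
    ∫⁻ ζ in Metric.ball ζ0 R, f (Φ ζ) ≤
      ENNReal.ofReal c⁻¹ * (mc N R * ∫⁻ x in W, f x ∂(vm (volK K))) := by
  have h1 := strip_lint h K hR hf hW hBW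
  have h2 : ENNReal.ofReal c * ∫⁻ ζ in Metric.ball ζ0 R, f (Φ ζ) ≤
      ∫⁻ ζ in Metric.ball ζ0 R, ENNReal.ofReal (pbg K Φ ζ).det.re * f (Φ ζ) := by
    rw [← lintegral_const_mul' _ _ ENNReal.ofReal_ne_top]
    refine setLIntegral_mono' measurableSet_ball fun ζ hζ => ?_
    gcongr
    exact hlow ζ hζ
  have h3 : ENNReal.ofReal c⁻¹ * (ENNReal.ofReal c * ∫⁻ ζ in Metric.ball ζ0 R, f (Φ ζ)) =
      ∫⁻ ζ in Metric.ball ζ0 R, f (Φ ζ) := by
    rw [← mul_assoc, ← ENNReal.ofReal_mul (by positivity), inv_mul_cancel₀ hc.ne',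
      ENNReal.ofReal_one, one_mul]
  rw [← h3]
  exact mul_le_mul_right (h2.trans h1) _

end

end Crest.Agent.R281.Per_368
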