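import Crest.Agent.R281.Per5_368
import Crest.Agent.R281.Per6_368
import Crest.Agent.R281.HkR5_835

/-!
S-PER (task 1725), part 7: **PER-FIN**, literal over `SIn_14.SOut`.

* `strip_smI` : the strip map is smooth in the real charts
* `q_le`      : `|DΦ u|²_K ≤ (K1 N + N²) ‖u‖²`
* `per_fin`   : an integral class `b` with `|b(u,v)|² ≤ δ f |u|² |v|²` has zero periods over `Lam`
* `per_fin_comb` : and so has every `w = Σ t_k b_k + exact`
-/

set_option autoImplicit false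
set_option linter.unusedSectionVars false
set_option maxSynthPendingDepth 3

open Set Filter Topology Complex MeasureTheory
open scoped ContDiff Matrix ComplexConjugate ComplexOrder ENNReal

namespace Crest.Agent.R281.Per_368

open Crest.Agent.R275.Geo Crest.Agent.R275.Core144 Crest.Agent.R275.EDR890
open Crest.Agent.R273.Defs_333 Crest.Agent.R273.Hess_333 Crest.Agent.R273.HessB_333
open Crest.Agent.R273.HM_333 Crest.Agent.R273.Kah_333 Crest.Agent.R273.Vol_333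
open Crest.Agent.R273.Vm_333 Crest.Agent.R273.FIb0_597
open Crest.Agent.R281.Tor_922 Crest.Agent.R281.SIn_14
open Crest.Agent.R281.HkR_835
open Crest.Agent.R281.Cdr_234 (sh CD IntF)
open Crest.Agent.R281.Ti_846 (F1 IsD Ex)

noncomputable section

variable {N : ℕ} {M : Type} [TopologicalSpace M] {A : Atl N M}

/-- the strip map is smooth in the real charts of the atlas -/
theorem HolI.smI {S : Set (Fin N → ℂ)} {Φ : (Fin N → ℂ) → M} (h : HolI A S Φ) :
    SmI (ofAtl A) S Φ where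
  op := h.op
  cont := h.cont
  sm i := by
    have hO : IsOpen (S ∩ Φ ⁻¹' (A.e i).source) := h.isOpen_pre (A.e i).open_source
    have h1 : DifferentiableOn ℂ (fun ζ => A.e i (Φ ζ)) (S ∩ Φ ⁻¹' (A.e i).source) :=
      fun ζ hζ => ((h.hol ζ hζ.1 i hζ.2).1).differentiableWithinAt
    exact ((Crest.Agent.R266.SCV.contDiffOn_omega_of_differentiableOn hO h1).restrict_scalars
      ℝ).of_le le_top

theorem strip_smI {F : M → Fin N → ℂ} {d : ℕ} {ζ0 : Fin N → ℂ} {r : ℝ}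
    {Lam : AddSubgroup (Fin N → ℂ)} {Φ : (Fin N → ℂ) → M} (h : Strip A F d ζ0 r Lam Φ) :
    SmI (ofAtl A) (strip ζ0 r) Φ := (strip_holI h).smI

theorem convex_strip' (ζ0 : Fin N → ℂ) (r : ℝ) : Convex ℝ (strip ζ0 r) := convex_strip ζ0 r

/-- the lattice acts on the strip -/
theorem strip_per {F : M → Fin N → ℂ} {d : ℕ} {ζ0 : Fin N → ℂ} {r : ℝ}
    {Lam : AddSubgroup (Fin N → ℂ)} {Φ : (Fin N → ℂ) → M} (h : Strip A F d ζ0 r Lam Φ) :
    ∀ l ∈ (Lam : Set (Fin N → ℂ)), ∀ ζ ∈ strip ζ0 r, (∀ s : ℝ, ζ + s • l ∈ strip ζ0 r) ∧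
      Φ (ζ + l) = Φ ζ := by
  intro l hl ζ hζ
  have hre : ∀ j, (l j).re = 0 := by
    intro j
    obtain ⟨k, hk⟩ := h.le_lat hl j
    rw [hk]
    simp
  have h1 : ∀ s : ℝ, ζ + s • l ∈ strip ζ0 r := by
    intro s j
    have := hζ j
    simp only [Pi.add_apply, Pi.smul_apply, Complex.add_re, Complex.real_smul,
      Complex.re_ofReal_mul, hre j, mul_zero, add_zero]
    exact this
  refine ⟨h1, ?_⟩
  have h2 : ζ + l ∈ strip ζ0 r := by have := h1 1; rwa [one_smul] at this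
  rw [h.eq_iff _ h2 _ hζ, add_sub_cancel_left]
  exact hl

/-- the length of `DΦ u` -/
theorem HolI.hb_eq {S : Set (Fin N → ℂ)} {Φ : (Fin N → ℂ) → M} (h : HolI A S Φ) (K : Kah A)
    {ζ : Fin N → ℂ} (hζ : ζ ∈ S) (u : Fin N → ℂ) :
    hb (K.g (ch A (Φ ζ)) (Φ ζ))
      (fderiv ℝ (fun y => A.e (ch A (Φ ζ)) (Φ y)) ζ u)
      (fderiv ℝ (fun y => A.e (ch A (Φ ζ)) (Φ y)) ζ u) =
      hb (pbg K Φ ζ) (WithLp.toLp 2 u) (WithLp.toLp 2 u) := by
  have hd := (h.hol ζ hζ _ (mem_ch A (Φ ζ))).1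
  have h1 : fderiv ℝ (fun y => A.e (ch A (Φ ζ)) (Φ y)) ζ u =
      fderiv ℂ (fun y => A.e (ch A (Φ ζ)) (Φ y)) ζ u := by
    rw [hd.fderiv_restrictScalars ℝ]; rfl
  have h2 : (fderiv ℝ (fun y => A.e (ch A (Φ ζ)) (Φ y)) ζ u).ofLp =
      jac A Φ (ch A (Φ ζ)) ζ *ᵥ (WithLp.toLp 2 u : Cn N).ofLp := by
    rw [h1]
    set D := fderiv ℂ (fun y => A.e (ch A (Φ ζ)) (Φ y)) ζ with hD
    have h3 : D u = ∑ a, u a • D (Pi.single a 1) := by
      conv_lhs => rw [pi_eq_sum_univ' u]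
      rw [map_sum]
      refine Finset.sum_congr rfl fun a _ => ?_
      rw [map_smul]
    rw [h3]
    ext b
    simp only [WithLp.ofLp_sum, WithLp.ofLp_smul, Finset.sum_apply, Pi.smul_apply, smul_eq_mul,
      Matrix.mulVec, dotProduct]
    refine Finset.sum_congr rfl fun a _ => ?_
    rw [mul_comm]; rfl
  exact hb_mulVec _ _ h2 h2

/-- pinching -/
theorem hb_pinch {G G0 : Matrix (Fin N) (Fin N) ℂ} {K1 ε : ℝ} (hK1 : 0 ≤ K1) (hε : 0 ≤ ε)
    (hup : (((K1 : ℝ) : ℂ) • (1 : Matrix (Fin N) (Fin N) ℂ) - G0).PosSemidef)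
    (hcl : ∀ a b, ‖G a b - G0 a b‖ ≤ ε) (u : Fin N → ℂ) :
    (hb G (WithLp.toLp 2 u) (WithLp.toLp 2 u)).re ≤ (K1 * N + ε * N ^ 2) * ‖u‖ ^ 2 := by
  have hle : ∀ a, ‖u a‖ ≤ ‖u‖ := fun a => norm_le_pi_norm u a
  have h1 : (hb G0 (WithLp.toLp 2 u) (WithLp.toLp 2 u)).re ≤ K1 * ∑ a, ‖u a‖ ^ 2 := by
    have h2 := hup.re_dotProduct_nonneg (fun a => conj (u a))
    have h3 : star (fun a => conj (u a)) = u := by funext a; simp
    rw [h3, Matrix.sub_mulVec, dotProduct_sub, Matrix.smul_mulVec, Matrix.one_mulVec,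
      dotProduct_smul] at h2
    have h4 : u ⬝ᵥ (fun a => conj (u a)) = ((∑ a, ‖u a‖ ^ 2 : ℝ) : ℂ) := by
      simp only [dotProduct]
      push_cast
      exact Finset.sum_congr rfl fun a _ => by rw [Complex.mul_conj, Complex.normSq_eq_norm_sq]; push_cast; rfl
    have h5 : u ⬝ᵥ (G0 *ᵥ fun a => conj (u a)) =
        hb G0 (WithLp.toLp 2 u) (WithLp.toLp 2 u) := by
      rw [hb_eq_dot]
    rw [h4, h5] at h2
    have h6 : RCLike.re ((K1 : ℂ) • ((∑ a, ‖u a‖ ^ 2 : ℝ) : ℂ) -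
        hb G0 (WithLp.toLp 2 u) (WithLp.toLp 2 u)) =
        K1 * ∑ a, ‖u a‖ ^ 2 - (hb G0 (WithLp.toLp 2 u) (WithLp.toLp 2 u)).re := by
      rw [smul_eq_mul, ← Complex.ofReal_mul]
      show ((((K1 * ∑ a, ‖u a‖ ^ 2 : ℝ)) : ℂ) -
        hb G0 (WithLp.toLp 2 u) (WithLp.toLp 2 u)).re = _
      rw [Complex.sub_re, Complex.ofReal_re]
    rw [h6] at h2
    linarith
  have h2 : (hb G (WithLp.toLp 2 u) (WithLp.toLp 2 u)).re -
      (hb G0 (WithLp.toLp 2 u) (WithLp.toLp 2 u)).re ≤ ∑ a : Fin N, ∑ b : Fin N, ε * ‖u‖ ^ 2 := by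
    rw [← Complex.sub_re]
    refine (Complex.re_le_norm _).trans ?_
    have e : hb G (WithLp.toLp 2 u) (WithLp.toLp 2 u) - hb G0 (WithLp.toLp 2 u) (WithLp.toLp 2 u) =
        ∑ a, ∑ b, (G a b - G0 a b) * u a * conj (u b) := by
      simp only [hb, ← Finset.sum_sub_distrib]
      exact Finset.sum_congr rfl fun a _ => Finset.sum_congr rfl fun b _ => by ring
    rw [e]
    refine (norm_sum_le _ _).trans (Finset.sum_le_sum fun a _ => ?_)
    refine (norm_sum_le _ _).trans (Finset.sum_le_sum fun b _ => ?_)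
    rw [norm_mul, norm_mul, RCLike.norm_conj, sq, mul_assoc]
    exact mul_le_mul (hcl a b) (mul_le_mul (hle a) (hle b) (norm_nonneg _) (norm_nonneg _))
      (by positivity) hε
  have h3 : ∑ a, ‖u a‖ ^ 2 ≤ N * ‖u‖ ^ 2 := by
    calc ∑ a, ‖u a‖ ^ 2 ≤ ∑ _a : Fin N, ‖u‖ ^ 2 :=
          Finset.sum_le_sum fun a _ => by have := hle a; gcongr
      _ = N * ‖u‖ ^ 2 := by simp
  have h4 : ∑ a : Fin N, ∑ b : Fin N, ε * ‖u‖ ^ 2 = ε * N ^ 2 * ‖u‖ ^ 2 := by
    simp; ring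
  rw [h4] at h2
  nlinarith [mul_le_mul_of_nonneg_left h3 hK1]

variable [MeasurableSpace M] [BorelSpace M]

/-- measurability of `f ∘ Φ` -/
theorem exists_meas {S : Set (Fin N → ℂ)} {Φ : (Fin N → ℂ) → M} (h : HolI A S Φ) [Nonempty M]
    {f : M → ℝ≥0∞} (hf : Measurable f) :
    ∃ g : (Fin N → ℂ) → ℝ≥0∞, Measurable g ∧ ∀ ζ ∈ S, g ζ = f (Φ ζ) := by
  classical
  obtain ⟨x0⟩ := (inferInstance : Nonempty M)
  refine ⟨fun ζ => f (S.piecewise Φ (fun _ => x0) ζ), hf.comp ?_, fun ζ hζ => ?_⟩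
  · exact h.cont.measurable_piecewise continuousOn_const h.op.measurableSet
  · simp [hζ]

/-- the constant -/
def Bq (N : ℕ) (K1 : ℝ) : ℝ := K1 * N + N ^ 2

/-- **PER-FIN** -/
theorem per_fin (N : ℕ) {K1 B0 R1 : ℝ} (hK1 : 0 < K1) (hR1 : 4 * B0 ≤ R1)
    (hR : 0 < R1) : ∃ δ : ℝ, 0 < δ ∧
    ∀ (M : Type) [TopologicalSpace M] [MeasurableSpace M] [BorelSpace M] (A : Atl N M)
      (K : Kah A) (F : M → Fin N → ℂ) (d : ℕ) (ζ0 : Fin N → ℂ) (r : ℝ)
      (Lam : AddSubgroup (Fin N → ℂ)) (Φ : (Fin N → ℂ) → M)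
      (G0 : Matrix (Fin N) (Fin N) ℂ) (ε : ℝ) (f : M → ℝ≥0∞),
      Strip A F d ζ0 r Lam Φ → R1 ≤ r → 0 ≤ ε → ε ≤ 1 →
      (((K1 : ℝ) : ℂ) • (1 : Matrix (Fin N) (Fin N) ℂ) - G0).PosSemidef →
      CloseC2 (pbg K Φ) G0 (strip ζ0 r) ε → Measurable f →
      ∫⁻ ζ in Metric.ball ζ0 R1, f (Φ ζ) ≤ ENNReal.ofReal K1 →
      ∀ b : F2 (ofAtl A), IntF b →
      (∀ i, ∀ x ∈ (A.e i).source, ∀ u v : Cn N,
        ENNReal.ofReal ((b.w i (A.e i x) u v) ^ 2) ≤
          ENNReal.ofReal δ * f x * ENNReal.ofReal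
            ((hb (K.g i x) u u).re * (hb (K.g i x) v v).re)) →
      ∀ l ∈ Lam, ∀ l' ∈ Lam, ‖l‖ ≤ B0 → ‖l'‖ ≤ B0 → ∀ z ∈ strip ζ0 r,
        per (pull b Φ) z l l' = 0 := by
  classical
  -- constants
  set D : ℕ := Module.finrank ℝ (Fin N → ℂ) with hD
  set m1 : ℝ := (volume (Metric.ball (0 : Fin N → ℂ) 1)).toReal with hm1
  have hm1top : volume (Metric.ball (0 : Fin N → ℂ) 1) ≠ ⊤ := measure_ball_lt_top.ne
  have hm1pos : 0 < m1 := ENNReal.toReal_pos (Metric.measure_ball_pos _ _ one_pos).ne' hm1top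
  have hm1eq : volume (Metric.ball (0 : Fin N → ℂ) 1) = ENNReal.ofReal m1 :=
    (ENNReal.ofReal_toReal hm1top).symm
  set η : ℝ := (1 / 2) ^ D with hη
  have hηpos : 0 < η := by positivity
  set Qc : ℝ := (Bq N K1 * B0 ^ 2) ^ 2 with hQc
  have hQ0 : 0 ≤ Qc := by positivity
  set δ : ℝ := (2 * η) * ((R1 / 2) ^ D * m1) / (4 * K1 * (Qc + 1)) with hδ
  have hvh : 0 < (R1 / 2) ^ D * m1 := by positivity
  have hδpos : 0 < δ := by positivity
  refine ⟨δ, hδpos, ?_⟩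
  intro M _ _ _ A K F d ζ0 r Lam Φ G0 ε f hst hr hε hε1 hup hcl hf hint b hbI hbd l hl l' hl'
    hlB hlB' z hz
  have hB0 : 0 ≤ B0 := (norm_nonneg _).trans hlB
  have hH := strip_holI hst
  have hSm := strip_smI hst
  have hΛ := strip_per hst
  have hζ0 : ζ0 ∈ strip ζ0 r := ball_subset_strip hr (Metric.mem_ball_self hR)
  have : Nonempty M := ⟨Φ ζ0⟩
  obtain ⟨g0, hg0m, hg0⟩ := exists_meas hH hf
  have hballS := ball_subset_strip (ζ0 := ζ0) hr
  -- the pointwise bound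
  have hBq : 0 ≤ Bq N K1 := by unfold Bq; positivity
  have hqb : ∀ ζ ∈ strip ζ0 r, ∀ u : Fin N → ℂ, ‖u‖ ≤ B0 →
      (hb (pbg K Φ ζ) (WithLp.toLp 2 u) (WithLp.toLp 2 u)).re ≤ Bq N K1 * B0 ^ 2 := by
    intro ζ hζ u hu
    refine (hb_pinch hK1.le hε hup (fun a b => (hcl.2 ζ hζ a b).1) u).trans ?_
    have h1 : K1 * N + ε * N ^ 2 ≤ Bq N K1 := by
      unfold Bq
      have : ε * (N:ℝ) ^ 2 ≤ 1 * (N:ℝ) ^ 2 := by gcongr
      linarith
    have h2 : ‖u‖ ^ 2 ≤ B0 ^ 2 := by gcongr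
    have h3 : 0 ≤ K1 * N + ε * N ^ 2 := by positivity
    exact mul_le_mul h1 h2 (by positivity) hBq
  have hnn : ∀ ζ ∈ strip ζ0 r, ∀ u : Fin N → ℂ,
      0 ≤ (hb (pbg K Φ ζ) (WithLp.toLp 2 u) (WithLp.toLp 2 u)).re := by
    intro ζ hζ u
    rw [← hH.hb_eq K hζ u, hb_eq_dot]
    have h1 := (K.pos _ _ (mem_ch A (Φ ζ))).posSemidef.re_dotProduct_nonneg
      (fun b => conj ((fderiv ℝ (fun y => A.e (ch A (Φ ζ)) (Φ y)) ζ u) b))
    have h3 : star (fun b => conj ((fderiv ℝ (fun y => A.e (ch A (Φ ζ)) (Φ y)) ζ u) b)) =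
        (fderiv ℝ (fun y => A.e (ch A (Φ ζ)) (Φ y)) ζ u).ofLp := by funext a; simp
    rw [h3] at h1
    exact h1
  have hpt : ∀ x ∈ Metric.ball ζ0 R1, x ∈ strip ζ0 r → ENNReal.ofReal |pull b Φ x l l'| ≤
      ENNReal.ofReal (η / 2) + ENNReal.ofReal (1 / (2 * η)) *
        (ENNReal.ofReal δ * g0 x * ENNReal.ofReal Qc) := by
    intro x _ hx
    set t := |pull b Φ x l l'| with ht
    have h1 : t ≤ η / 2 + 1 / (2 * η) * t ^ 2 := by
      have h11 : 0 ≤ (t - η) ^ 2 := sq_nonneg _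
      have h12 : 1 / (2 * η) * t ^ 2 + η / 2 - t = (t - η) ^ 2 / (2 * η) := by
        field_simp; ring
      have h13 : 0 ≤ (t - η) ^ 2 / (2 * η) := by positivity
      linarith
    have h2 : ENNReal.ofReal (t ^ 2) ≤ ENNReal.ofReal δ * g0 x * ENNReal.ofReal Qc := by
      have e1 : t ^ 2 = (pull b Φ x l l') ^ 2 := by rw [ht, sq_abs]
      rw [e1, hSm.pull_eq b (i := ch A (Φ x)) hx (mem_ch A (Φ x)), pl_apply]
      have h21 := hbd (ch A (Φ x)) (Φ x) (mem_ch A (Φ x))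
        (fderiv ℝ (fun y => A.e (ch A (Φ x)) (Φ y)) x l)
        (fderiv ℝ (fun y => A.e (ch A (Φ x)) (Φ y)) x l')
      refine h21.trans ?_
      rw [hH.hb_eq K hx l, hH.hb_eq K hx l', hg0 x hx]
      gcongr
      rw [hQc, sq]
      exact mul_le_mul (hqb x hx l hlB) (hqb x hx l' hlB') (hnn x hx l') (by positivity)
    calc ENNReal.ofReal t ≤ ENNReal.ofReal (η / 2 + 1 / (2 * η) * t ^ 2) :=
          ENNReal.ofReal_le_ofReal h1
      _ = ENNReal.ofReal (η / 2) + ENNReal.ofReal (1 / (2 * η)) * ENNReal.ofReal (t ^ 2) := by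
          rw [ENNReal.ofReal_add (by positivity) (by positivity),
            ENNReal.ofReal_mul (by positivity)]
      _ ≤ _ := by gcongr
  -- the integral
  have hlt : ∫⁻ x in Metric.ball ζ0 R1, (ENNReal.ofReal (η / 2) + ENNReal.ofReal (1 / (2 * η)) *
        (ENNReal.ofReal δ * g0 x * ENNReal.ofReal Qc)) < volume (Metric.ball ζ0 (R1 / 2)) := by
    have hv1 : volume (Metric.ball ζ0 R1) = ENNReal.ofReal (R1 ^ D * m1) := by
      rw [Measure.addHaar_ball_of_pos volume ζ0 hR, ← hD, hm1eq,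
        ENNReal.ofReal_mul (by positivity)]
    have hvh' : volume (Metric.ball ζ0 (R1 / 2)) = ENNReal.ofReal ((R1 / 2) ^ D * m1) := by
      rw [Measure.addHaar_ball_of_pos volume ζ0 (by positivity), ← hD, hm1eq,
        ENNReal.ofReal_mul (by positivity)]
    have hI : ∫⁻ x in Metric.ball ζ0 R1, g0 x ≤ ENNReal.ofReal K1 := by
      refine le_trans (le_of_eq ?_) hint
      exact setLIntegral_congr_fun measurableSet_ball fun x hx => hg0 x (hballS hx)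
    have e1 : ∫⁻ x in Metric.ball ζ0 R1, (ENNReal.ofReal (η / 2) + ENNReal.ofReal (1 / (2 * η)) *
        (ENNReal.ofReal δ * g0 x * ENNReal.ofReal Qc)) =
        ENNReal.ofReal (η / 2) * volume (Metric.ball ζ0 R1) + ENNReal.ofReal (1 / (2 * η)) *
        (ENNReal.ofReal δ * (∫⁻ x in Metric.ball ζ0 R1, g0 x) * ENNReal.ofReal Qc) := by
      rw [lintegral_add_left measurable_const, setLIntegral_const,
        lintegral_const_mul _ ((hg0m.const_mul _).mul_const _),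
        lintegral_mul_const _ (hg0m.const_mul _), lintegral_const_mul _ hg0m]
    rw [e1, hv1, hvh']
    calc ENNReal.ofReal (η / 2) * ENNReal.ofReal (R1 ^ D * m1) + ENNReal.ofReal (1 / (2 * η)) *
          (ENNReal.ofReal δ * (∫⁻ x in Metric.ball ζ0 R1, g0 x) * ENNReal.ofReal Qc)
        ≤ ENNReal.ofReal (η / 2) * ENNReal.ofReal (R1 ^ D * m1) + ENNReal.ofReal (1 / (2 * η)) *
          (ENNReal.ofReal δ * ENNReal.ofReal K1 * ENNReal.ofReal Qc) := by gcongr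
      _ = ENNReal.ofReal (η / 2 * (R1 ^ D * m1) + 1 / (2 * η) * (δ * K1 * Qc)) := by
          rw [ENNReal.ofReal_add (by positivity) (by positivity),
            ENNReal.ofReal_mul (p := η / 2) (by positivity),
            ENNReal.ofReal_mul (p := 1 / (2 * η)) (by positivity),
            ENNReal.ofReal_mul (p := δ * K1) (by positivity),
            ENNReal.ofReal_mul (p := δ) (by positivity)]
      _ < ENNReal.ofReal ((R1 / 2) ^ D * m1) := by
          rw [ENNReal.ofReal_lt_ofReal_iff hvh]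
          have a1 : η / 2 * (R1 ^ D * m1) = ((R1 / 2) ^ D * m1) / 2 := by
            rw [hη, div_pow, one_pow, div_pow]; ring
          have a2 : 1 / (2 * η) * (δ * K1 * Qc) =
              ((R1 / 2) ^ D * m1) / 4 * (Qc / (Qc + 1)) := by
            have a0 : δ * (4 * K1 * (Qc + 1)) = 2 * η * ((R1 / 2) ^ D * m1) := by
              rw [hδ]; exact div_mul_cancel₀ _ (by positivity)
            have a4 : (0:ℝ) < 2 * η := by positivity
            have a5 : (0:ℝ) < Qc + 1 := by positivity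
            rw [div_mul_div_comm, one_div, inv_mul_eq_div, div_eq_div_iff a4.ne' (by positivity)]
            linear_combination Qc * a0
          have a3 : Qc / (Qc + 1) ≤ 1 := by
            rw [div_le_one (by positivity)]; linarith
          rw [a1, a2]
          nlinarith
  refine per_pull_zero volume hSm (convex_strip ζ0 r) hΛ hbI hζ0 hl hl'
    (R := R1) (by linarith) ((Metric.ball_subset_ball (by linarith)).trans hballS)
    (g := fun x => ENNReal.ofReal (η / 2) + ENNReal.ofReal (1 / (2 * η)) *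
        (ENNReal.ofReal δ * g0 x * ENNReal.ofReal Qc))
    (measurable_const.add (((hg0m.const_mul _).mul_const _).const_mul _)) hpt hlt hz

/-- real combinations of classes with zero periods -/
theorem strip_comb {F : M → Fin N → ℂ} {d : ℕ} {ζ0 : Fin N → ℂ} {r : ℝ}
    {Lam : AddSubgroup (Fin N → ℂ)} {Φ : (Fin N → ℂ) → M} (h : Strip A F d ζ0 r Lam Φ)
    {κ : Type*} [Fintype κ] {b : κ → F2 (ofAtl A)} {t : κ → ℝ} {w : F2 (ofAtl A)}
    (hw : Ex (w - ∑ k, t k • b k)) {z l l' : Fin N → ℂ} (hz : z ∈ strip ζ0 r) (hl : l ∈ Lam)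
    (hl' : l' ∈ Lam) (hb : ∀ k, per (pull (b k) Φ) z l l' = 0) :
    per (pull w Φ) z l l' = 0 := by
  have hΛ := strip_per h
  have hΛ' : ∀ l ∈ (Lam : Set (Fin N → ℂ)), ∀ ζ ∈ strip ζ0 r, ζ + l ∈ strip ζ0 r ∧
      Φ (ζ + l) = Φ ζ := fun l hl ζ hζ =>
    ⟨by have := (hΛ l hl ζ hζ).1 1; rwa [one_smul] at this, (hΛ l hl ζ hζ).2⟩
  exact per_pull_comb (strip_smI h) hΛ' hw hl hl'
    (fun s t => (hΛ l' hl' _ ((hΛ l hl z hz).1 s)).1 t) hb

end

end Crest.Agent.R281.Per_368
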