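import Crest.Agent.R281.Pall1_162
import Crest.Agent.R281.Per7_368

/-!
# R281 (S0424), G29 PER-ALL (helper162), part 2: periods

* `perL`          : the period of the pull back over a parallelogram, as a linear map on `F2 C`
* `Gen.per_zero`  : the periods of generators vanish ==> all periods on `S` vanish
* `per_all`       : **all integral `w` with `Q(w, e) = 0` have period zero ==> all closed `w` with
                    `Q(w, e) = 0` have period zero**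
* `per_eq`        : ... and then `per w = Q(w, e) / Q(w0, e) * per w0`
* `strip_all`, `strip_all_fin` : the same on a strip (`SIn_14.Strip`)
-/

set_option autoImplicit false
set_option linter.unusedSectionVars false
set_option maxSynthPendingDepth 3

open Set Filter Topology MeasureTheory
open scoped ENNReal ContDiff

namespace Crest.Agent.R281.Pall_162

open Crest.Agent.R281.HkR_835 Crest.Agent.R281.Cdr_234 Crest.Agent.R281.Per_368
open Crest.Agent.R281.Ti_846 (Ex)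

noncomputable section

section gen

variable {V X : Type} [NormedAddCommGroup V] [NormedSpace ℝ V] [TopologicalSpace X]
variable {E : Type*} [NormedAddCommGroup E] [NormedSpace ℝ E]
variable {C : RCh V X} {S Λ : Set E} {Φ : E → X}

/-- the period over a parallelogram, as a linear map -/
def perL [FiniteDimensional ℝ E] (h : SmI C S Φ) {z v v' : E}
    (hin : ∀ s t : ℝ, pt z v v' s t ∈ S) : F2 C →ₗ[ℝ] ℝ where
  toFun w := per (pull w Φ) z v v'
  map_add' a b := per_add (S := S) (h.pull_smooth a).continuousOn (h.pull_smooth b).continuousOn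
    hin fun x _ => pull_add_w a b Φ x v v'
  map_smul' c a := by
    rw [RingHom.id_apply, smul_eq_mul]
    exact per_smul (S := S) c hin fun x _ => pull_smul_w c a Φ x v v'

@[simp] theorem perL_apply [FiniteDimensional ℝ E] (h : SmI C S Φ) {z v v' : E}
    (hin : ∀ s t : ℝ, pt z v v' s t ∈ S) (w : F2 C) : perL h hin w = per (pull w Φ) z v v' := rfl

theorem perL_ex [FiniteDimensional ℝ E] (h : SmI C S Φ)
    (hΛ : ∀ l ∈ Λ, ∀ ζ ∈ S, ζ + l ∈ S ∧ Φ (ζ + l) = Φ ζ) {z v v' : E}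
    (hv : v ∈ Λ) (hv' : v' ∈ Λ) (hin : ∀ s t : ℝ, pt z v v' s t ∈ S) (w : F2 C) (hw : Ex w) :
    perL h hin w = 0 := per_pull_ex h hΛ hw hv hv' hin

variable [FiniteDimensional ℝ E] (h : SmI C S Φ)
  (hΛ : ∀ l ∈ Λ, ∀ ζ ∈ S, ζ + l ∈ S ∧ Φ (ζ + l) = Φ ζ) {z v v' : E}
  (hv : v ∈ Λ) (hv' : v' ∈ Λ) (hin : ∀ s t : ℝ, pt z v v' s t ∈ S)

include h hΛ hv hv' hin in
/-- generators suffice -/
theorem Gen.per_zero {T : Submodule ℝ (F2 C)} {N : ℕ} {b : Fin N → F2 C} (hG : Gen T b)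
    (hb : ∀ k, per (pull (b k) Φ) z v v' = 0) : ∀ w ∈ T, per (pull w Φ) z v v' = 0 := by
  intro w hw
  obtain ⟨t, ht⟩ := hG.span w hw
  exact per_pull_comb h hΛ ht hv hv' hin hb

variable {Q : F2 C →ₗ[ℝ] F2 C →ₗ[ℝ] ℝ}

include h hΛ hv hv' hin in
/-- **PER-ALL** -/
theorem per_all (hQ : RatQ Q) (hk : ∀ x y, Ex x → Q x y = 0) {N : ℕ} {b : Fin N → F2 C}
    (hb : ∀ k, IntF (b k)) (hs : ∀ x : F2 C, ∃ t : Fin N → ℝ, Ex (x - ∑ k, t k • b k))
    {e : F2 C} (he : RatF e)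
    (h1 : ∀ w, IntF w → Q w e = 0 → per (pull w Φ) z v v' = 0) :
    ∀ w, Q w e = 0 → per (pull w Φ) z v v' = 0 :=
  lam_perp hQ hk hb hs he (perL h hin) (perL_ex h hΛ hv hv' hin) h1

include h hin in
/-- the period is a multiple of `Q(·, e)` -/
theorem per_eq {e : F2 C} (h1 : ∀ w, Q w e = 0 → per (pull w Φ) z v v' = 0) {w0 : F2 C}
    (hw0 : Q w0 e ≠ 0) (w : F2 C) :
    per (pull w Φ) z v v' = Q w e / Q w0 e * per (pull w0 Φ) z v v' :=
  lam_eq (perL h hin) h1 hw0 w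

include h hin in
/-- `N` has period zero, `K` has not: then `Q(N, e) = 0` -/
theorem perp_of_per {e : F2 C} (h1 : ∀ w, Q w e = 0 → per (pull w Φ) z v v' = 0) {N K : F2 C}
    (hN : per (pull N Φ) z v v' = 0) (hK : per (pull K Φ) z v v' ≠ 0) : Q N e = 0 :=
  perp_of_lam (perL h hin) h1 hN hK

end gen

section strip

open Crest.Agent.R281.SIn_14 Crest.Agent.R281.Tor_922
open Crest.Agent.R275.Geo

variable {N : ℕ} {M : Type} [TopologicalSpace M] {A : Atl N M}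
  {F : M → Fin N → ℂ} {d : ℕ} {ζ0 : Fin N → ℂ} {r : ℝ} {Lam : AddSubgroup (Fin N → ℂ)}
  {Φ : (Fin N → ℂ) → M}

theorem strip_lam (h : Strip A F d ζ0 r Lam Φ) :
    ∀ l ∈ (Lam : Set (Fin N → ℂ)), ∀ ζ ∈ strip ζ0 r, ζ + l ∈ strip ζ0 r ∧
      Φ (ζ + l) = Φ ζ := fun l hl ζ hζ =>
  ⟨by have := ((strip_per h) l hl ζ hζ).1 1; rwa [one_smul] at this,
    ((strip_per h) l hl ζ hζ).2⟩

theorem strip_in (h : Strip A F d ζ0 r Lam Φ) {z l l' : Fin N → ℂ} (hz : z ∈ strip ζ0 r)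
    (hl : l ∈ Lam) (hl' : l' ∈ Lam) (s t : ℝ) : pt z l l' s t ∈ strip ζ0 r :=
  ((strip_per h) l' hl' _ (((strip_per h) l hl z hz).1 s)).1 t

/-- generators suffice, on a strip -/
theorem Gen.strip_zero (h : Strip A F d ζ0 r Lam Φ) {T : Submodule ℝ (F2 (ofAtl A))} {m : ℕ}
    {b : Fin m → F2 (ofAtl A)} (hG : Gen T b) {z l l' : Fin N → ℂ} (hz : z ∈ strip ζ0 r)
    (hl : l ∈ Lam) (hl' : l' ∈ Lam) (hb : ∀ k, per (pull (b k) Φ) z l l' = 0) :
    ∀ w ∈ T, per (pull w Φ) z l l' = 0 :=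
  hG.per_zero (strip_smI h) (strip_lam h) hl hl' (strip_in h hz hl hl') hb

variable {Q : F2 (ofAtl A) →ₗ[ℝ] F2 (ofAtl A) →ₗ[ℝ] ℝ}

/-- **PER-ALL on a strip** -/
theorem strip_all (h : Strip A F d ζ0 r Lam Φ) (hQ : RatQ Q) (hk : ∀ x y, Ex x → Q x y = 0)
    {m : ℕ} {b : Fin m → F2 (ofAtl A)} (hb : ∀ k, IntF (b k))
    (hs : ∀ x : F2 (ofAtl A), ∃ t : Fin m → ℝ, Ex (x - ∑ k, t k • b k))
    {e : F2 (ofAtl A)} (he : RatF e) {z l l' : Fin N → ℂ} (hz : z ∈ strip ζ0 r)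
    (hl : l ∈ Lam) (hl' : l' ∈ Lam)
    (h1 : ∀ w, IntF w → Q w e = 0 → per (pull w Φ) z l l' = 0) :
    ∀ w, Q w e = 0 → per (pull w Φ) z l l' = 0 :=
  per_all (strip_smI h) (strip_lam h) hl hl' (strip_in h hz hl hl') hQ hk hb hs he h1

/-- `N` has period zero, `K` has not: then `Q(N, e) = 0` -/
theorem strip_perp (h : Strip A F d ζ0 r Lam Φ) {e : F2 (ofAtl A)} {z l l' : Fin N → ℂ}
    (hz : z ∈ strip ζ0 r) (hl : l ∈ Lam) (hl' : l' ∈ Lam)
    (h1 : ∀ w, Q w e = 0 → per (pull w Φ) z l l' = 0) {D K : F2 (ofAtl A)}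
    (hD : per (pull D Φ) z l l' = 0) (hK : per (pull K Φ) z l l' ≠ 0) : Q D e = 0 :=
  perp_of_per (strip_smI h) (strip_in h hz hl hl') h1 hD hK

end strip

end

end Crest.Agent.R281.Pall_162
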