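import Crest.Agent.R281.Cdr2_234

/-!
# R281 (S0424), G26 PROJ-x (helper648), part 1: clearing denominators

`RatF.exists_int` : `X` compact, `RatF w` ==> some positive multiple of `w` is `IntF`
(also: with a prescribed factor, `RatF.exists_int_mul`).
-/

set_option autoImplicit false
set_option linter.unusedSectionVars false
set_option maxSynthPendingDepth 3

open Set Filter Topology
open scoped ContDiff

namespace Crest.Agent.R281.Pjx_648

open Crest.Agent.R281.HkR_835
open Crest.Agent.R281.Ti_846 (F1 IsD Ex d1 d1_apply)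
open Crest.Agent.R281.Dif_268
open Crest.Agent.R281.Cdr_234

noncomputable section

/-- a locally constant function takes finitely many values on a compact set -/
theorem fin_vals {X Y : Type*} [TopologicalSpace X] {K : Set X} (hK : IsCompact K) {c : X → Y}
    (hloc : ∀ x ∈ K, ∀ᶠ y in 𝓝 x, c y = c x) : (c '' K).Finite := by
  obtain ⟨t, ht, hcov⟩ := hK.elim_nhds_subcover (fun x => {y | c y = c x}) hloc
  refine (t.finite_toSet.image c).subset ?_
  rintro _ ⟨y, hy, rfl⟩
  obtain ⟨x, hx, hxy⟩ := mem_iUnion₂.1 (hcov hy)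
  exact ⟨x, hx, hxy.symm⟩

/-- common denominator of finitely many rational numbers -/
theorem exists_denom {S : Set ℝ} (hS : S.Finite) (hq : ∀ r ∈ S, ∃ q : ℚ, (q : ℝ) = r) :
    ∃ m : ℕ, 0 < m ∧ ∀ r ∈ S, ∃ k : ℤ, (k : ℝ) = m * r := by
  induction S, hS using Set.Finite.induction_on with
  | empty => exact ⟨1, one_pos, fun r hr => absurd hr (notMem_empty r)⟩
  | @insert a s _ _ ih =>
    obtain ⟨m, hm, h⟩ := ih fun r hr => hq r (mem_insert_of_mem _ hr)
    obtain ⟨q, hqa⟩ := hq a (mem_insert _ _)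
    refine ⟨m * q.den, Nat.mul_pos hm q.den_pos, fun r hr => ?_⟩
    rcases mem_insert_iff.1 hr with rfl | hr
    · refine ⟨m * q.num, ?_⟩
      have h1 : (q : ℝ) * q.den = q.num := by
        exact_mod_cast Rat.mul_den_eq_num q
      push_cast
      rw [← hqa, ← h1]
      ring
    · obtain ⟨k, hk⟩ := h r hr
      refine ⟨k * q.den, ?_⟩
      push_cast
      rw [hk]
      ring

variable {V X : Type} [NormedAddCommGroup V] [NormedSpace ℝ V] [TopologicalSpace X]
  {C : RCh V X}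

/-- the cocycle of Cech-de Rham data is locally constant -/
theorem cocycle_loc {w : F2 C} {α : Type} (D : CD w α) (a b c : α) {x : X}
    (hx : x ∈ D.U a ∩ D.U b ∩ D.U c) :
    ∀ᶠ y in 𝓝 x, D.f a b y + D.f b c y - D.f a c y = D.f a b x + D.f b c x - D.f a c x := by
  obtain ⟨i, hi⟩ := C.cover x
  set φ : X → ℝ := fun y => D.f a b y + D.f b c y - D.f a c y with hφ
  set z := C.e i x with hz
  have hzx : (C.e i).symm z = x := (C.e i).left_inv hi
  have hzt : z ∈ (C.e i).target := (C.e i).map_source hi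
  have hU : IsOpen (D.U a ∩ D.U b ∩ D.U c) := ((D.op a).inter (D.op b)).inter (D.op c)
  have hs : z ∈ sh C i (D.U a ∩ D.U b ∩ D.U c) := ⟨hzt, by rw [hzx]; exact hx⟩
  obtain ⟨r, hr, hball⟩ := Metric.mem_nhds_iff.1 (sh_nhds hU hs)
  have hd : ∀ y ∈ Metric.ball z r, HasFDerivAt (fun y => φ ((C.e i).symm y)) (0 : V →L[ℝ] ℝ) y := by
    intro y hy
    obtain ⟨h0, ⟨ha, hb⟩, hc⟩ := hball hy
    have h1 := D.f_d a b i y ⟨h0, ha, hb⟩
    have h2 := D.f_d b c i y ⟨h0, hb, hc⟩
    have h3 := D.f_d a c i y ⟨h0, ha, hc⟩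
    refine ((h1.add h2).sub h3).congr_fderiv ?_
    abel
  have hconst : ∀ y ∈ Metric.ball z r, φ ((C.e i).symm y) = φ x := by
    intro y hy
    have h1 := Metric.isOpen_ball.is_const_of_fderiv_eq_zero (𝕜 := ℝ)
      (convex_ball z r).isPreconnected
      (fun p hp => (hd p hp).differentiableAt.differentiableWithinAt)
      (fun p hp => (hd p hp).fderiv) hy (Metric.mem_ball_self hr)
    simp only [hzx] at h1
    exact h1
  have h1 : ∀ᶠ y in 𝓝 x, C.e i y ∈ Metric.ball z r :=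
    ((C.e i).continuousAt hi) (Metric.ball_mem_nhds z hr)
  filter_upwards [h1, (C.e i).open_source.mem_nhds hi] with y hy hy2
  have h2 := hconst _ hy
  rwa [(C.e i).left_inv hy2] at h2

/-- **clearing denominators** -/
theorem RatF.exists_int [CompactSpace X] [T2Space X] {w : F2 C} (hw : RatF w) :
    ∃ m : ℕ, 0 < m ∧ IntF ((m : ℝ) • w) := by
  classical
  obtain ⟨α, D, hD⟩ := hw
  obtain ⟨t, ht⟩ := isCompact_univ.elim_finite_subcover D.U D.op fun x _ => by
    obtain ⟨a, ha⟩ := D.cov x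
    exact mem_iUnion.2 ⟨a, ha⟩
  -- a finite cover with small closures
  obtain ⟨v, hvc, hvo, hvs⟩ := exists_iUnion_eq_closure_subset (X := X) (u := fun a : t => D.U a)
    (fun a => D.op a) (fun x => toFinite _) (by
      refine eq_univ_of_forall fun x => ?_
      obtain ⟨a, ha, hx⟩ := mem_iUnion₂.1 (ht (mem_univ x))
      exact mem_iUnion.2 ⟨⟨a, ha⟩, hx⟩)
  have hfin : ∀ p : t × t × t, ((fun x => D.f p.1 p.2.1 x + D.f p.2.1 p.2.2 x - D.f p.1 p.2.2 x) ''
      (closure (v p.1) ∩ closure (v p.2.1) ∩ closure (v p.2.2))).Finite := by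
    intro p
    refine fin_vals (((isClosed_closure.inter isClosed_closure).inter isClosed_closure).isCompact)
      fun x hx => ?_
    exact cocycle_loc D _ _ _ ⟨⟨hvs _ hx.1.1, hvs _ hx.1.2⟩, hvs _ hx.2⟩
  obtain ⟨m, hm, hmk⟩ := exists_denom (S := ⋃ p : t × t × t,
    ((fun x => D.f p.1 p.2.1 x + D.f p.2.1 p.2.2 x - D.f p.1 p.2.2 x) ''
      (closure (v p.1) ∩ closure (v p.2.1) ∩ closure (v p.2.2)))) (finite_iUnion hfin) (by
    intro r hr
    obtain ⟨p, x, hx, rfl⟩ := mem_iUnion.1 hr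
    obtain ⟨q, hq⟩ := hD p.1 p.2.1 p.2.2 x ⟨⟨hvs _ hx.1.1, hvs _ hx.1.2⟩, hvs _ hx.2⟩
    exact ⟨q, hq⟩)
  refine ⟨m, hm, t, (D.refine (fun a : t => v a) hvo (fun x => ?_) (fun a => (a : α))
    (fun a => subset_closure.trans (hvs a))).smul m, fun a b c x hx => ?_⟩
  · have := mem_univ x
    rw [← hvc] at this
    exact mem_iUnion.1 this
  · obtain ⟨k, hk⟩ := hmk _ (mem_iUnion.2 ⟨(a, b, c), x,
      ⟨⟨subset_closure hx.1.1, subset_closure hx.1.2⟩, subset_closure hx.2⟩, rfl⟩)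
    refine ⟨k, ?_⟩
    show (k : ℝ) = (m : ℝ) * D.f a b x + m * D.f b c x - m * D.f a c x
    rw [hk]
    ring

end

end Crest.Agent.R281.Pjx_648
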