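import Crest.Agent.R281.Qg3_770
import Crest.Agent.R281.Pjx1_648
import Crest.Agent.R260.NN6_900

/-!
# Row 281, RAT-GLUE (helper770), part 4: the Beauville form is rational up to a scalar

* `lef_pi`  : `Lef d π`
* `rat_Tn`  : `∃ c > 0, ∀ x y, RatF x → RatF y → ∃ r : ℚ, Q(x, y) = c * r` (from `RSpan A` only)
* `pow_Tn`  : `RatF x → ∃ r : ℚ, ∫ x^d = kap d π * r`
* `int_Tn`  : on a finitely generated lattice of classes `Q = c * integer`
-/

set_option autoImplicit false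
set_option linter.unusedSectionVars false
set_option maxSynthPendingDepth 3

open Set Filter Topology Complex MeasureTheory
open scoped ContDiff Matrix ComplexConjugate ComplexOrder

noncomputable section

namespace Crest.Agent.R281.Qg_770

open Crest.Agent.R275 Crest.Agent.R275.Geo Crest.Agent.R275.Core144 Crest.Agent.R275.EDR890
open Crest.Agent.R275.GC293
open Crest.Agent.R273.Defs_333 Crest.Agent.R273.Kah_333 Crest.Agent.R273.Vol_333
open Crest.Agent.R281.HkR_835 Crest.Agent.R281.Ti_846 Crest.Agent.R281.Dif_268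
open Crest.Agent.R281.Defs_273 (H2 HSymp)
open Crest.Agent.R281.Cdr_234 (RatF IntF Cls clsS)
open Crest.Agent.R281.Fuj1_207 (Qf qf Kills Tri)
open Crest.Agent.R281.Fuj4_207 Crest.Agent.R281.Fuj5_207 Crest.Agent.R281.Fuj7_207
open Crest.Agent.R260.ACM_580 (NNat)

theorem rint (d : ℕ) : RInt d := fun _ _ _ _ _ _ _ _ hw => Pjx_648.RatF.exists_int hw

theorem lef_pi (d : ℕ) : Lef d Real.pi := lef (rint d)

theorem finrank_cn (d : ℕ) : Module.finrank ℝ (Cn d) = 2 * d := by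
  rw [Module.finrank_eq_card_basis (bc d)]
  simp [mul_comm]

theorem nnat (d : ℕ) : NNat (Cn d) d := Crest.Agent.R260.NN6_900.nnat d (Cn d) (finrank_cn d)

theorem bil_sum {H : Type*} [AddCommGroup H] [Module ℝ H] (Q : H →ₗ[ℝ] H →ₗ[ℝ] ℝ) {N : ℕ}
    (b : Fin N → H) (s t : Fin N → ℝ) : Q (∑ k, s k • b k) (∑ l, t l • b l) =
      ∑ k, ∑ l, s k * (t l * Q (b k) (b l)) := by
  simp only [map_sum, LinearMap.sum_apply, map_smul, LinearMap.smul_apply, smul_eq_mul,
    Finset.mul_sum]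
  rw [Finset.sum_comm]
  exact Finset.sum_congr rfl fun k _ => Finset.sum_congr rfl fun l _ => by ring

variable {d : ℕ} {M : Type} [TopologicalSpace M] {A : Atl d M} [T2Space M] [CompactSpace M]
  [ConnectedSpace M] [Finite A.ι] (P : Part A) (σ : HSymp A) (hu : σ.Uniq) (hc : ClH σ.toH2)
  {n : ℕ} (hdn : d = n + n) (hn : 1 ≤ n) (hn2 : 2 ≤ n + n)

include P hu hn in
/-- **RAT** -/
theorem rat_Tn (K : Kah A) (hS : RSpan A) :
    ∃ c : ℝ, 0 < c ∧ (∃ r : ℚ, 0 < r ∧ c ^ n = kap d Real.pi * r) ∧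
      ∀ x y : F2 (ofAtl A), RatF x → RatF y → ∃ r : ℚ,
        Qf (Tn hdn P) hn2 n (reS σ.toH2 hc) x y = c * r :=
  rat_Tn_of P σ hu hc hdn hn hn2 Real.pi_pos (lef_pi d) (nnat d) K hS

include hu hn in
/-- top powers of rational classes -/
theorem pow_Tn (K : Kah A) (hS : RSpan A) {x : F2 (ofAtl A)} (hx : RatF x) :
    ∃ r : ℚ, Tn hdn P (fun _ => x) = kap d Real.pi * r := by
  have hn2 : 2 ≤ n + n := by omega
  have hc : ClH σ.toH2 := clH P K σ hu _
  obtain ⟨c, -, ⟨r, -, hr⟩, h⟩ := rat_Tn P σ hu hc hdn hn hn2 K hS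
  obtain ⟨s, hs⟩ := h x x hx hx
  refine ⟨r * s ^ n, ?_⟩
  rw [fujiki_Tn hdn P hn hn2 K σ hu hc x, hs, mul_pow, hr]
  push_cast
  ring

/-- finitely many rational numbers have a common denominator -/
theorem common_den {κ : Type*} [Finite κ] (q : κ → ℚ) : ∃ m : ℕ, 0 < m ∧
    ∀ k, ∃ a : ℤ, (m : ℚ) * q k = a := by
  classical
  have := Fintype.ofFinite κ
  refine ⟨∏ k, (q k).den, Finset.prod_pos fun k _ => (q k).den_pos, fun k => ?_⟩
  refine ⟨(∏ j ∈ Finset.univ.erase k, ((q j).den : ℤ)) * (q k).num, ?_⟩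
  rw [← Finset.mul_prod_erase Finset.univ (fun j => (q j).den) (Finset.mem_univ k)]
  push_cast
  have h1 : ((q k).den : ℚ) * q k = (q k).num := Rat.den_mul_eq_num _
  calc ((q k).den : ℚ) * (∏ j ∈ Finset.univ.erase k, ((q j).den : ℚ)) * q k =
      (∏ j ∈ Finset.univ.erase k, ((q j).den : ℚ)) * (((q k).den : ℚ) * q k) := by ring
    _ = _ := by rw [h1]

/-- the integral classes are finitely generated modulo exact forms (234 (3)) -/
def IFin (A : Atl d M) : Prop := ∃ (N : ℕ) (b : Fin N → F2 (ofAtl A)), (∀ k, IntF (b k)) ∧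
  ∀ x : F2 (ofAtl A), IntF x → ∃ a : Fin N → ℤ, x - ∑ k, (a k : ℝ) • b k ∈ exS (ofAtl A)

include P hu hn in
/-- **integral normalisation** of the Beauville form -/
theorem int_Tn (K : Kah A) (hS : RSpan A) (hI : IFin A) :
    ∃ c : ℝ, 0 < c ∧ (∃ r : ℚ, 0 < r ∧ c ^ n = kap d Real.pi * r) ∧
      (∀ x y : F2 (ofAtl A), RatF x → RatF y → ∃ r : ℚ,
        Qf (Tn hdn P) hn2 n (reS σ.toH2 hc) x y = c * r) ∧
      ∀ x y : F2 (ofAtl A), IntF x → IntF y → ∃ m : ℤ,
        Qf (Tn hdn P) hn2 n (reS σ.toH2 hc) x y = c * m := by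
  obtain ⟨c, hc0, ⟨r, hr0, hr⟩, h⟩ := rat_Tn P σ hu hc hdn hn hn2 K hS
  obtain ⟨N, b, hb, hspan⟩ := hI
  choose q hq using fun p : Fin N × Fin N => h (b p.1) (b p.2) (Cdr_234.IntF.rat (hb p.1))
    (Cdr_234.IntF.rat (hb p.2))
  obtain ⟨m, hm, ha⟩ := common_den q
  choose a ha using ha
  have hm' : (0 : ℝ) < m := by exact_mod_cast hm
  have hk := Tn_kills hdn P
  refine ⟨c / m, by positivity, ⟨r / m ^ n, by positivity, ?_⟩, fun x y hx hy => ?_,
    fun x y hx hy => ?_⟩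
  · rw [div_pow, hr]
    push_cast
    ring
  · obtain ⟨s, hs⟩ := h x y hx hy
    refine ⟨s * m, ?_⟩
    rw [hs]
    push_cast
    field_simp
  · obtain ⟨s, hs⟩ := hspan x hx
    obtain ⟨t, ht⟩ := hspan y hy
    set Q := Qf (Tn hdn P) hn2 n (reS σ.toH2 hc) with hQ
    have e1 : Q x y = Q (∑ k, (s k : ℝ) • b k) (∑ k, (t k : ℝ) • b k) := by
      have e2 : Q (x - ∑ k, (s k : ℝ) • b k) y = 0 := hk.Qf_left hs hn2 n _ y
      have e3 : Q (∑ k, (s k : ℝ) • b k) (y - ∑ k, (t k : ℝ) • b k) = 0 :=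
        hk.Qf_right ht hn2 n _ _
      rw [map_sub, LinearMap.sub_apply, sub_eq_zero] at e2
      rw [map_sub, sub_eq_zero] at e3
      rw [e2, e3]
    have e4 : ∀ k l, Q (b k) (b l) = c / m * a (k, l) := by
      intro k l
      have e5 := hq (k, l)
      have e6 : (m : ℝ) * q (k, l) = a (k, l) := by exact_mod_cast ha (k, l)
      rw [← e6]
      show Q (b k) (b l) = _
      rw [show Q (b k) (b l) = c * q (k, l) from e5]
      field_simp
    refine ⟨∑ k, ∑ l, s k * (t l * a (k, l)), ?_⟩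
    rw [e1, bil_sum]
    push_cast
    rw [Finset.mul_sum]
    refine Finset.sum_congr rfl fun k _ => ?_
    rw [Finset.mul_sum]
    refine Finset.sum_congr rfl fun l _ => ?_
    rw [e4]
    ring

end Crest.Agent.R281.Qg_770
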