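import Crest.Agent.R281.Pall2_162
import Crest.Agent.R281.Qg4_770

/-!
# R281 (S0424), G29 PER-ALL (helper162), part 3: the Beauville form of `(M, A)`

`Q = Qf (Tn hdn P) hn2 n (reS σ.toH2 hc)` (207, 770).

* `IBas C`        : finitely many integral classes span `F2 C` modulo exact forms (773)
* `ratQ_Tn`       : `IBas (ofAtl A) ==> RatQ Q`
* `Tn_left`, `Tn_right` : `Q` kills the exact forms
* `exists_perp_Tn`: integral classes `w_1, …, w_m` in `e^⊥`, a basis of `e^⊥` modulo exact forms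
* `strip_all_Tn`, `strip_gen_Tn`, `strip_perp_Tn` : PER-ALL on a strip
-/

set_option autoImplicit false
set_option linter.unusedSectionVars false
set_option maxSynthPendingDepth 3

open Set Filter Topology MeasureTheory

namespace Crest.Agent.R281.Pall_162

open Crest.Agent.R275 Crest.Agent.R275.Geo
open Crest.Agent.R273.Defs_333 Crest.Agent.R273.Kah_333
open Crest.Agent.R281.HkR_835 Crest.Agent.R281.Dif_268
open Crest.Agent.R281.Defs_273 (H2 HSymp)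
open Crest.Agent.R281.Cdr_234
open Crest.Agent.R281.Per_368
open Crest.Agent.R281.Ti_846 (Ex)
open Crest.Agent.R281.Fuj1_207 (Qf Kills)
open Crest.Agent.R281.Fuj4_207 Crest.Agent.R281.Fuj5_207 Crest.Agent.R281.Fuj7_207
open Crest.Agent.R281.Qg_770 (RSpan rat_Tn)
open Crest.Agent.R281.SIn_14 Crest.Agent.R281.Tor_922

noncomputable section

/-- finitely many integral classes span the closed 2-forms modulo exact forms (output of CDR (3),
773) -/
def IBas {V X : Type} [NormedAddCommGroup V] [NormedSpace ℝ V] [TopologicalSpace X]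
    (C : RCh V X) : Prop :=
  ∃ (N : ℕ) (b : Fin N → F2 C), (∀ k, IntF (b k)) ∧
    ∀ w : F2 C, ∃ t : Fin N → ℝ, Ex (w - ∑ k, t k • b k)

variable {d : ℕ} {M : Type} [TopologicalSpace M] {A : Atl d M}

theorem IBas.rspan (h : IBas (ofAtl A)) : RSpan A := by
  obtain ⟨N, b, hb, hs⟩ := h
  intro x
  obtain ⟨t, ht⟩ := hs x
  exact ⟨N, b, t, fun k => (hb k).rat, mem_exS.2 ht⟩

variable [T2Space M] [CompactSpace M] [ConnectedSpace M] [Finite A.ι] (P : Part A) (σ : HSymp A)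
  (hu : σ.Uniq) (hc : ClH σ.toH2) {n : ℕ} (hdn : d = n + n) (hn : 1 ≤ n) (hn2 : 2 ≤ n + n)

include P hu hn in
/-- **the Beauville form is rational up to one scale** -/
theorem ratQ_Tn (K : Kah A) (hB : IBas (ofAtl A)) :
    RatQ (Qf (Tn hdn P) hn2 n (reS σ.toH2 hc)) := by
  obtain ⟨c, hc0, -, h⟩ := rat_Tn P σ hu hc hdn hn hn2 K hB.rspan
  exact ⟨c, hc0, h⟩

theorem Tn_left (x y : F2 (ofAtl A)) (hx : Ex x) :
    Qf (Tn hdn P) hn2 n (reS σ.toH2 hc) x y = 0 :=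
  (Tn_kills hdn P).Qf_left (mem_exS.2 hx) hn2 n _ y

theorem Tn_right (x y : F2 (ofAtl A)) (hy : Ex y) :
    Qf (Tn hdn P) hn2 n (reS σ.toH2 hc) x y = 0 :=
  (Tn_kills hdn P).Qf_right (mem_exS.2 hy) hn2 n _ x

include P hu hn in
/-- **a basis of `e^⊥` modulo exact forms, of integral classes** -/
theorem exists_perp_Tn (K : Kah A) (hB : IBas (ofAtl A)) {e : F2 (ofAtl A)} (he : RatF e) :
    ∃ (m : ℕ) (w : Fin m → F2 (ofAtl A)), (∀ k, IntF (w k)) ∧
      (∀ k, Qf (Tn hdn P) hn2 n (reS σ.toH2 hc) (w k) e = 0) ∧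
      (∀ x, Qf (Tn hdn P) hn2 n (reS σ.toH2 hc) x e = 0 →
        ∃ t : Fin m → ℝ, Ex (x - ∑ k, t k • w k)) ∧
      ∀ t : Fin m → ℝ, Ex (∑ k, t k • w k) → t = 0 := by
  have hQ := ratQ_Tn P σ hu hc hdn hn hn2 K hB
  obtain ⟨N, b, hb, hs⟩ := hB
  obtain ⟨m, w, -, h⟩ := exists_perp_basis hQ (fun x y hx => Tn_left P σ hc hdn hn2 x y hx) hb hs he
  exact ⟨m, w, h⟩

include P hu hn in
/-- **a linear map which kills the exact forms and the integral classes of `e^⊥` kills `e^⊥`** -/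
theorem lam_perp_Tn (K : Kah A) (hB : IBas (ofAtl A)) {e : F2 (ofAtl A)} (he : RatF e)
    {W : Type*} [AddCommGroup W] [Module ℝ W] (lam : F2 (ofAtl A) →ₗ[ℝ] W)
    (h0 : ∀ x, Ex x → lam x = 0)
    (h1 : ∀ w, IntF w → Qf (Tn hdn P) hn2 n (reS σ.toH2 hc) w e = 0 → lam w = 0) :
    ∀ w, Qf (Tn hdn P) hn2 n (reS σ.toH2 hc) w e = 0 → lam w = 0 := by
  have hQ := ratQ_Tn P σ hu hc hdn hn hn2 K hB
  obtain ⟨N, b, hb, hs⟩ := hB
  exact lam_perp hQ (fun x y hx => Tn_left P σ hc hdn hn2 x y hx) hb hs he lam h0 h1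

section strip

variable {F : M → Fin d → ℂ} {dg : ℕ} {ζ0 : Fin d → ℂ} {r : ℝ} {Lam : AddSubgroup (Fin d → ℂ)}
  {Φ : (Fin d → ℂ) → M}

include hu hn in
/-- **PER-ALL on a strip, for the Beauville form** -/
theorem strip_all_Tn (h : Strip A F dg ζ0 r Lam Φ) (K : Kah A) (hB : IBas (ofAtl A))
    {e : F2 (ofAtl A)} (he : RatF e) {z l l' : Fin d → ℂ} (hz : z ∈ strip ζ0 r)
    (hl : l ∈ Lam) (hl' : l' ∈ Lam)
    (h1 : ∀ w, IntF w → Qf (Tn hdn P) hn2 n (reS σ.toH2 hc) w e = 0 →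
      per (pull w Φ) z l l' = 0) :
    ∀ w, Qf (Tn hdn P) hn2 n (reS σ.toH2 hc) w e = 0 → per (pull w Φ) z l l' = 0 := by
  have hQ := ratQ_Tn P σ hu hc hdn hn hn2 K hB
  obtain ⟨N, b, hb, hs⟩ := hB
  exact strip_all h hQ (fun x y hx => Tn_left P σ hc hdn hn2 x y hx) hb hs he hz hl hl' h1

/-- generators of `e^⊥` suffice, on a strip -/
theorem strip_gen (h : Strip A F dg ζ0 r Lam Φ) {Q : F2 (ofAtl A) →ₗ[ℝ] F2 (ofAtl A) →ₗ[ℝ] ℝ}
    {m : ℕ} {w : Fin m → F2 (ofAtl A)} {e : F2 (ofAtl A)}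
    (hw : ∀ x, Q x e = 0 → ∃ t : Fin m → ℝ, Ex (x - ∑ k, t k • w k))
    {z l l' : Fin d → ℂ} (hz : z ∈ strip ζ0 r) (hl : l ∈ Lam) (hl' : l' ∈ Lam)
    (h1 : ∀ k, per (pull (w k) Φ) z l l' = 0) :
    ∀ x, Q x e = 0 → per (pull x Φ) z l l' = 0 := by
  intro x hx
  obtain ⟨t, ht⟩ := hw x hx
  exact per_pull_comb (strip_smI h) (strip_lam h) ht hl hl' (strip_in h hz hl hl') h1

end strip

end

end Crest.Agent.R281.Pall_162
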