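import Mathlib

/-!
PATH-M (helper998 #7176): a smooth path in an open set of `ℂ^m` along which `Re g` is constant and `Im g` is
monotone, from a point where the holomorphic function `g` is not locally constant to a point of a `K₀`-rational
coordinate line at which `∂_j g ≠ 0`.
-/

open Set Filter Topology Complex
open scoped ContDiff

noncomputable section

namespace Crest.Agent.R281.PathM_315

theorem inv_loc {E F : Type*} [NormedAddCommGroup E] [NormedSpace ℂ E] [CompleteSpace E]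
    [NormedAddCommGroup F] [NormedSpace ℂ F] [CompleteSpace F] {f : E → F} {a : E}
    (hf : AnalyticAt ℂ f a) (e : E ≃L[ℂ] F) (he : HasFDerivAt f (e : E →L[ℂ] F) a) :
    ∃ ψ : F → E, ψ (f a) = a ∧ AnalyticAt ℂ ψ (f a) ∧ ∀ᶠ y in 𝓝 (f a), f (ψ y) = y := by
  have hc : ContDiffAt ℂ ω f a := hf.contDiffAt
  have h1 : (ω : WithTop ℕ∞) ≠ 0 := by simp
  refine ⟨hc.localInverse he h1, hc.localInverse_apply_image he h1, ?_, ?_⟩
  · have h2 := hc.to_localInverse he h1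
    have h3 : ContDiffWithinAt ℂ ω (hc.localInverse he h1) univ (f a) := h2.contDiffWithinAt
    have h4 := contDiffWithinAt_omega_iff_analyticWithinAt.1 h3
    simpa using h4
  · exact (hc.hasStrictFDerivAt' he h1).eventually_right_inverse

/-- a local `n`-th root coordinate -/
theorem local_root {f : ℂ → ℂ} (hf : AnalyticAt ℂ f 0) (h0 : f 0 = 0)
    (hne : ¬ ∀ᶠ u in 𝓝 (0:ℂ), f u = 0) :
    ∃ (n : ℕ) (ψ : ℂ → ℂ), 1 ≤ n ∧ ψ 0 = 0 ∧ AnalyticAt ℂ ψ 0 ∧
      ∀ᶠ s in 𝓝 (0:ℂ), f (ψ s) = s ^ n := by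
  obtain ⟨n, h, hh, hh0, hfh⟩ := (hf.exists_eventuallyEq_pow_smul_nonzero_iff).2 hne
  have hn : n ≠ 0 := by
    rintro rfl
    have := hfh.self_of_nhds
    simp at this
    exact hh0 (by rw [← this, h0])
  obtain ⟨c, hc⟩ := IsAlgClosed.exists_pow_nat_eq (h 0) (Nat.pos_of_ne_zero hn)
  have hc0 : c ≠ 0 := by
    rintro rfl
    rw [zero_pow hn] at hc
    exact hh0 hc.symm
  set r : ℂ → ℂ := fun u => c * (h u / h 0) ^ ((n:ℂ)⁻¹) with hr
  set φ : ℂ → ℂ := fun u => u * r u with hφ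
  have hra : AnalyticAt ℂ r 0 := by
    apply AnalyticAt.mul analyticAt_const
    apply AnalyticAt.cpow (hh.div analyticAt_const hh0) analyticAt_const
    simp [hh0]
  have hr0 : r 0 = c := by simp [hr, hh0]
  have hφa : AnalyticAt ℂ φ 0 := analyticAt_id.mul hra
  have hφ0 : φ 0 = 0 := by simp [hφ]
  have hd : HasDerivAt φ c 0 := by
    have h1 := (hasDerivAt_id (0:ℂ)).mul hra.differentiableAt.hasDerivAt
    have h2 : (1:ℂ) * r 0 + id (0:ℂ) * deriv r 0 = c := by simp [hr0]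
    rw [h2] at h1
    exact h1
  have hfd : HasFDerivAt φ ((ContinuousLinearEquiv.unitsEquivAut ℂ (Units.mk0 c hc0) : ℂ ≃L[ℂ] ℂ) : ℂ →L[ℂ] ℂ) 0 := by
    have h1 := hd.hasFDerivAt
    have h2 : ((ContinuousLinearEquiv.unitsEquivAut ℂ (Units.mk0 c hc0) : ℂ ≃L[ℂ] ℂ) : ℂ →L[ℂ] ℂ)
        = ContinuousLinearMap.toSpanSingleton ℂ c := by
      ext; simp
    rw [h2]
    exact h1
  obtain ⟨ψ, hψ0, hψa, hψ⟩ := inv_loc hφa _ hfd
  rw [hφ0] at hψ0 hψa hψ
  refine ⟨n, ψ, Nat.one_le_iff_ne_zero.2 hn, hψ0, hψa, ?_⟩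
  have ht : Tendsto ψ (𝓝 0) (𝓝 0) := by
    have := hψa.continuousAt.tendsto
    rwa [hψ0] at this
  filter_upwards [hψ, ht.eventually hfh] with s h1 h2
  rw [h2, sub_zero, smul_eq_mul]
  conv_rhs => rw [← h1]
  simp only [hφ, hr]
  rw [mul_pow, mul_pow, hc, Complex.cpow_nat_inv_pow _ hn, mul_div_cancel₀ _ hh0]

/-- a direction along which `g` is not locally constant -/
theorem exists_dir {m : ℕ} {B : Set (Fin m → ℂ)} (hB : IsOpen B) {g : (Fin m → ℂ) → ℂ}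
    (hg : AnalyticOnNhd ℂ g B) {z0 : Fin m → ℂ} (hz0 : z0 ∈ B)
    (hnc : ¬ ∀ᶠ z in 𝓝 z0, g z = g z0) :
    ∃ d : Fin m → ℂ, ¬ ∀ᶠ u in 𝓝 (0:ℂ), g (z0 + u • d) - g z0 = 0 := by
  by_contra hcon
  push Not at hcon
  apply hnc
  obtain ⟨r, hr, hrB⟩ := Metric.isOpen_iff.1 hB z0 hz0
  filter_upwards [Metric.ball_mem_nhds z0 hr] with z hz
  set d := z - z0 with hd
  set f : ℂ → ℂ := fun u => g (z0 + u • d) - g z0 with hf
  set U : Set ℂ := {u | z0 + u • d ∈ Metric.ball z0 r} with hU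
  have hUo : IsOpen U := Metric.isOpen_ball.preimage (by fun_prop)
  have hUc : IsPreconnected U := by
    apply Convex.isPreconnected
    have : U = (fun u : ℂ => u • d) ⁻¹' (Metric.ball (0 : Fin m → ℂ) r) := by
      ext u; simp [hU, Metric.mem_ball, dist_eq_norm]
    rw [this]
    intro x hx y hy a b ha hb hab
    simp only [mem_preimage, add_smul, smul_assoc] at hx hy ⊢
    exact (convex_ball (0 : Fin m → ℂ) r) hx hy ha hb hab
  have hfa : AnalyticOnNhd ℂ f U := by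
    intro u hu
    have h1 : AnalyticAt ℂ (fun u : ℂ => z0 + u • d) u :=
      analyticAt_const.add (analyticAt_id.smul analyticAt_const)
    have h2 : AnalyticAt ℂ (g ∘ fun u : ℂ => z0 + u • d) u := AnalyticAt.comp (hg _ (hrB hu)) h1
    exact h2.sub analyticAt_const
  have h0U : (0:ℂ) ∈ U := by simp [hU, hr]
  have h1U : (1:ℂ) ∈ U := by
    simp only [hU, Set.mem_ofPred_eq, one_smul, hd, add_sub_cancel]; exact hz
  have := hfa.eqOn_zero_of_preconnected_of_eventuallyEq_zero hUc h0U (hcon d) h1U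
  simp only [hf, one_smul, hd, add_sub_cancel, Pi.zero_apply] at this
  exact sub_eq_zero.1 this

/-- implicit function: near a point with `∂_j g ≠ 0` -/
theorem exists_graph {m : ℕ} {g : (Fin m → ℂ) → ℂ} {p : Fin m → ℂ} (hg : AnalyticAt ℂ g p) {j : Fin m}
    (hj : fderiv ℂ g p (Pi.single j 1) ≠ 0) :
    ∃ Θ : (Fin m → ℂ) → (Fin m → ℂ), Θ (Function.update p j (g p)) = p ∧
      AnalyticAt ℂ Θ (Function.update p j (g p)) ∧
      ∀ᶠ w in 𝓝 (Function.update p j (g p)), g (Θ w) = w j ∧ ∀ i, i ≠ j → Θ w i = w i := by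
  set G : (Fin m → ℂ) → (Fin m → ℂ) := fun z => Function.update z j (g z) with hG
  have hGe : G = fun z => z + (g z - z j) • (Pi.single j (1:ℂ) : Fin m → ℂ) := by
    funext z i
    by_cases h : i = j
    · subst h; simp [hG]
    · simp [hG, h]
  have hGa : AnalyticAt ℂ G p := by
    rw [hGe]
    have h1 : AnalyticAt ℂ (fun z : Fin m → ℂ => z j) p :=
      (ContinuousLinearMap.proj (R := ℂ) (φ := fun _ : Fin m => ℂ) j).analyticAt p
    exact analyticAt_id.add ((hg.sub h1).smul analyticAt_const)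
  set D : (Fin m → ℂ) →L[ℂ] (Fin m → ℂ) := fderiv ℂ G p with hD
  have hDv : ∀ v, D v = v + (fderiv ℂ g p v - v j) • (Pi.single j (1:ℂ) : Fin m → ℂ) := by
    intro v
    have h1 : HasFDerivAt (fun z : Fin m → ℂ => z j)
        (ContinuousLinearMap.proj (R := ℂ) (φ := fun _ : Fin m => ℂ) j) p :=
      (ContinuousLinearMap.proj (R := ℂ) (φ := fun _ : Fin m => ℂ) j).hasFDerivAt
    have h0 : HasFDerivAt (fun z : Fin m → ℂ => z) (ContinuousLinearMap.id ℂ (Fin m → ℂ)) p :=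
      hasFDerivAt_id p
    have h2 := h0.add
      ((hg.differentiableAt.hasFDerivAt.sub h1).smul_const (Pi.single j (1:ℂ) : Fin m → ℂ))
    have h3 : HasFDerivAt G (ContinuousLinearMap.id ℂ (Fin m → ℂ) +
        (fderiv ℂ g p - ContinuousLinearMap.proj j).smulRight (Pi.single j 1)) p := by
      rw [hGe]; exact h2
    rw [hD, h3.fderiv]
    simp
  have hinj : Function.Injective (D : (Fin m → ℂ) →ₗ[ℂ] (Fin m → ℂ)) := by
    rw [← LinearMap.ker_eq_bot, LinearMap.ker_eq_bot']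
    intro v hv
    have hv' : v + (fderiv ℂ g p v - v j) • (Pi.single j (1:ℂ) : Fin m → ℂ) = 0 := by
      rw [← hDv]; exact hv
    have h1 : ∀ i, i ≠ j → v i = 0 := by
      intro i hi
      have := congrFun hv' i
      simpa [hi] using this
    have h2 : v = v j • (Pi.single j (1:ℂ) : Fin m → ℂ) := by
      funext i
      by_cases h : i = j
      · subst h; simp
      · simp [h1 i h, h]
    have h3 : fderiv ℂ g p v = 0 := by
      have := congrFun hv' j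
      simpa using this
    rw [h2, map_smul, smul_eq_mul, mul_eq_zero] at h3
    rcases h3 with h3 | h3
    · rw [h2, h3, zero_smul]
    · exact absurd h3 hj
  set e : (Fin m → ℂ) ≃L[ℂ] (Fin m → ℂ) :=
    (LinearEquiv.ofInjectiveEndo (D : (Fin m → ℂ) →ₗ[ℂ] (Fin m → ℂ)) hinj).toContinuousLinearEquiv with he
  have heD : (e : (Fin m → ℂ) →L[ℂ] (Fin m → ℂ)) = D := by
    ext v; simp [he]
  have hfd : HasFDerivAt G (e : (Fin m → ℂ) →L[ℂ] (Fin m → ℂ)) p := by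
    rw [heD]; exact hGa.differentiableAt.hasFDerivAt
  obtain ⟨Θ, h1, h2, h3⟩ := inv_loc hGa e hfd
  refine ⟨Θ, h1, h2, ?_⟩
  filter_upwards [h3] with w hw
  constructor
  · have := congrFun hw j
    simpa [hG] using this
  · intro i hi
    have := congrFun hw i
    simpa [hG, hi] using this

theorem exists_fderiv_ne {m : ℕ} {L : (Fin m → ℂ) →L[ℂ] ℂ} {d : Fin m → ℂ} (h : L d ≠ 0) :
    ∃ j, L (Pi.single j 1) ≠ 0 := by
  by_contra hcon
  push Not at hcon
  apply h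
  have h1 : d = ∑ j, d j • (Pi.single j (1:ℂ) : Fin m → ℂ) := by
    funext i
    simp [Finset.sum_apply, Pi.single_apply]
  rw [h1, map_sum]
  apply Finset.sum_eq_zero
  intro j _
  rw [map_smul, hcon j, smul_zero]

/-- first piece -/
theorem piece1 {m : ℕ} {B : Set (Fin m → ℂ)} (hB : IsOpen B) {g : (Fin m → ℂ) → ℂ}
    (hg : AnalyticOnNhd ℂ g B) {z0 : Fin m → ℂ} (hz0 : z0 ∈ B)
    (hnc : ¬ ∀ᶠ z in 𝓝 z0, g z = g z0) :
    ∃ (P : ℝ → Fin m → ℂ) (n : ℕ) (ε : ℝ) (j : Fin m), 1 ≤ n ∧ 0 < ε ∧ P 0 = z0 ∧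
      (∀ s ∈ Icc (0:ℝ) 1, ContDiffAt ℝ ∞ P s ∧ P s ∈ B ∧ g (P s) = g z0 + ((ε * s ^ n : ℝ) : ℂ) * I) ∧
      fderiv ℂ g (P 1) (Pi.single j 1) ≠ 0 := by
  obtain ⟨d, hd⟩ := exists_dir hB hg hz0 hnc
  set f : ℂ → ℂ := fun u => g (z0 + u • d) - g z0 with hf
  have hl : ∀ u : ℂ, AnalyticAt ℂ (fun u : ℂ => z0 + u • d) u := fun u =>
    analyticAt_const.add (analyticAt_id.smul analyticAt_const)
  have hfa0 : AnalyticAt ℂ f 0 :=
    (AnalyticAt.comp (g := g) (hg _ (by simpa using hz0)) (hl 0)).sub analyticAt_const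
  obtain ⟨n, ψ, hn, hψ0, hψa, hψ⟩ := local_root hfa0 (by simp [hf]) hd
  have hBψ : ∀ᶠ s in 𝓝 (0:ℂ), z0 + ψ s • d ∈ B := by
    have h1 : ContinuousAt (fun s => z0 + ψ s • d) 0 :=
      continuousAt_const.add (hψa.continuousAt.smul continuousAt_const)
    apply h1.eventually
    simp only [hψ0, zero_smul, add_zero]
    exact hB.mem_nhds hz0
  have hall : ∀ᶠ s in 𝓝 (0:ℂ), AnalyticAt ℂ ψ s ∧ z0 + ψ s • d ∈ B ∧ ∀ᶠ s' in 𝓝 s, f (ψ s') = s' ^ n := by
    filter_upwards [hψa.eventually_analyticAt, hBψ, hψ.eventually_nhds] with s h1 h2 h3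
    exact ⟨h1, h2, h3⟩
  obtain ⟨δ, hδ, hball⟩ := Metric.eventually_nhds_iff_ball.1 hall
  obtain ⟨η, hη⟩ := IsAlgClosed.exists_pow_nat_eq I (Nat.lt_of_lt_of_le Nat.zero_lt_one hn)
  have hη1 : ‖η‖ = 1 := by
    have h1 : ‖η‖ ^ n = 1 := by rw [← norm_pow, hη, norm_I]
    exact (pow_eq_one_iff_of_nonneg (norm_nonneg _) (by omega)).1 h1
  have hη0 : η ≠ 0 := by
    rintro rfl; simp at hη1
  set ε : ℝ := δ / 2 with hε
  have hε0 : 0 < ε := by positivity
  have hmem : ∀ s ∈ Icc (0:ℝ) 1, (η * ((ε * s : ℝ) : ℂ)) ∈ Metric.ball (0:ℂ) δ := by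
    intro s hs
    rw [Metric.mem_ball, dist_zero_right, norm_mul, hη1, one_mul, Complex.norm_real, Real.norm_eq_abs,
      abs_of_nonneg (mul_nonneg hε0.le hs.1)]
    calc ε * s ≤ ε * 1 := mul_le_mul_of_nonneg_left hs.2 hε0.le
      _ < δ := by rw [hε]; linarith
  set P : ℝ → Fin m → ℂ := fun s => z0 + ψ (η * ((ε * s : ℝ) : ℂ)) • d with hP
  have hval : ∀ s ∈ Icc (0:ℝ) 1, g (P s) = g z0 + ((ε ^ n * s ^ n : ℝ) : ℂ) * I := by
    intro s hs
    have h1 := (hball _ (hmem s hs)).2.2.self_of_nhds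
    simp only [hf] at h1
    simp only [hP]
    rw [sub_eq_iff_eq_add'] at h1
    rw [h1, mul_pow, hη]
    push_cast
    ring
  -- derivative at the end point
  have h1mem : (1:ℝ) ∈ Icc (0:ℝ) 1 := ⟨zero_le_one, le_rfl⟩
  obtain ⟨ha1, hb1, hc1⟩ := hball _ (hmem 1 h1mem)
  have hend : fderiv ℂ g (P 1) d ≠ 0 := by
    set s1 : ℂ := η * ((ε * 1 : ℝ) : ℂ) with hs1
    have hs10 : s1 ≠ 0 := by
      rw [hs1, mul_one]
      exact mul_ne_zero hη0 (by exact_mod_cast hε0.ne')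
    have hf1 : HasDerivAt f (fderiv ℂ g (P 1) d) (ψ s1) := by
      have h2 : HasDerivAt (fun u : ℂ => z0 + u • d) d (ψ s1) := by
        have := ((hasDerivAt_id (ψ s1)).smul_const d).const_add z0
        simpa using this
      have h3 := ((hg _ hb1).differentiableAt.hasFDerivAt).comp_hasDerivAt (ψ s1) h2
      exact h3.sub_const _
    have h4 : HasDerivAt (fun s => f (ψ s)) (fderiv ℂ g (P 1) d * deriv ψ s1) s1 :=
      hf1.comp s1 ha1.differentiableAt.hasDerivAt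
    have h5 : HasDerivAt (fun s : ℂ => s ^ n) ((n:ℂ) * s1 ^ (n-1)) s1 := hasDerivAt_pow n s1
    have h6 : (fun s => f (ψ s)) =ᶠ[𝓝 s1] fun s => s ^ n := hc1
    have h7 := h4.unique (h5.congr_of_eventuallyEq h6)
    intro h8
    rw [h8, zero_mul] at h7
    exact mul_ne_zero (by exact_mod_cast (by omega : n ≠ 0)) (pow_ne_zero _ hs10) h7.symm
  obtain ⟨j, hj⟩ := exists_fderiv_ne hend
  refine ⟨P, n, ε ^ n, j, hn, by positivity, by simp [hP, hψ0], ?_, hj⟩
  intro s hs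
  obtain ⟨ha, hb, hc⟩ := hball _ (hmem s hs)
  refine ⟨?_, hb, hval s hs⟩
  have h1 : ContDiffAt ℝ ∞ ψ (η * ((ε * s : ℝ) : ℂ)) := (ha.contDiffAt (n := ∞)).restrict_scalars ℝ
  have h2 : ContDiffAt ℝ ∞ (fun s : ℝ => η * ((ε * s : ℝ) : ℂ)) s := by
    apply ContDiffAt.mul contDiffAt_const
    exact Complex.ofRealCLM.contDiff.contDiffAt.comp s (contDiffAt_const.mul contDiffAt_id)
  have h3 := h1.comp s h2
  exact contDiffAt_const.add (h3.smul contDiffAt_const)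

/-- second piece: `g` constant, ending on a `K₀`-rational coordinate line -/
theorem piece2 {m : ℕ} {B : Set (Fin m → ℂ)} (hB : IsOpen B) {g : (Fin m → ℂ) → ℂ}
    (hg : AnalyticOnNhd ℂ g B) {p : Fin m → ℂ} (hp : p ∈ B) {j : Fin m}
    (hj : fderiv ℂ g p (Pi.single j 1) ≠ 0) {K0 : Set ℂ} (hK : Dense K0) :
    ∃ (P : ℝ → Fin m → ℂ), P 0 = p ∧
      (∀ s ∈ Icc (0:ℝ) 1, ContDiffAt ℝ ∞ P s ∧ P s ∈ B ∧ g (P s) = g p) ∧
      (∀ i, i ≠ j → P 1 i ∈ K0) ∧ fderiv ℂ g (P 1) (Pi.single j 1) ≠ 0 := by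
  obtain ⟨Θ, hΘp, hΘa, hΘ⟩ := exists_graph (hg p hp) hj
  set w0 : Fin m → ℂ := Function.update p j (g p) with hw0
  have hdc : ContinuousAt (fun z => fderiv ℂ g z (Pi.single j 1)) p :=
    ((hg p hp).fderiv.continuousAt).clm_apply continuousAt_const
  have hΘt : Tendsto Θ (𝓝 w0) (𝓝 p) := by
    have := hΘa.continuousAt.tendsto
    rwa [hΘp] at this
  have hall : ∀ᶠ w in 𝓝 w0, AnalyticAt ℂ Θ w ∧ Θ w ∈ B ∧ (g (Θ w) = w j ∧ ∀ i, i ≠ j → Θ w i = w i) ∧
      fderiv ℂ g (Θ w) (Pi.single j 1) ≠ 0 := by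
    filter_upwards [hΘa.eventually_analyticAt, hΘt.eventually (hB.mem_nhds hp), hΘ,
      hΘt.eventually (hdc.eventually_ne hj)] with w h1 h2 h3 h4
    exact ⟨h1, h2, h3, h4⟩
  obtain ⟨δ, hδ, hball⟩ := Metric.eventually_nhds_iff_ball.1 hall
  have hq : ∀ i, ∃ q ∈ K0, dist q (w0 i) < δ := fun i => by
    obtain ⟨q, hq, hd⟩ := hK.exists_dist_lt (w0 i) hδ
    exact ⟨q, hq, by rwa [dist_comm]⟩
  choose q hqK hqd using hq
  set w1 : Fin m → ℂ := Function.update q j (g p) with hw1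
  have hw1b : w1 ∈ Metric.ball w0 δ := by
    rw [Metric.mem_ball, dist_pi_lt_iff hδ]
    intro i
    by_cases h : i = j
    · subst h; simp [hw1, hw0, hδ]
    · simp only [hw1, hw0, Function.update_of_ne h]
      have := hqd i
      simpa only [hw0, Function.update_of_ne h] using this
  set W : ℝ → Fin m → ℂ := fun s => w0 + s • (w1 - w0) with hW
  have hWb : ∀ s ∈ Icc (0:ℝ) 1, W s ∈ Metric.ball w0 δ := by
    intro s hs
    exact (convex_ball w0 δ).add_smul_sub_mem (Metric.mem_ball_self hδ) hw1b hs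
  have hWj : ∀ s, W s j = g p := by
    intro s; simp [hW, hw0, hw1]
  refine ⟨fun s => Θ (W s), by simp [hW, hΘp], ?_, ?_, ?_⟩
  · intro s hs
    obtain ⟨h1, h2, h3, h4⟩ := hball _ (hWb s hs)
    refine ⟨?_, h2, by rw [h3.1, hWj]⟩
    have h5 : ContDiffAt ℝ ∞ Θ (W s) := (h1.contDiffAt (n := ∞)).restrict_scalars ℝ
    have h6 : ContDiffAt ℝ ∞ W s := by
      simp only [hW]
      exact contDiffAt_const.add (contDiffAt_id.smul contDiffAt_const)
    exact h5.comp s h6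
  · intro i hi
    have h3 := (hball _ (hWb 1 ⟨zero_le_one, le_rfl⟩)).2.2.1.2 i hi
    simp only
    rw [h3]
    have : W 1 i = q i := by simp [hW, hw1, hi]
    rw [this]; exact hqK i
  · exact (hball _ (hWb 1 ⟨zero_le_one, le_rfl⟩)).2.2.2

theorem path_m {m : ℕ} {B : Set (Fin m → ℂ)} (hB : IsOpen B) {g : (Fin m → ℂ) → ℂ}
    (hg : AnalyticOnNhd ℂ g B) {z0 : Fin m → ℂ} (hz0 : z0 ∈ B)
    (hnc : ¬ ∀ᶠ z in 𝓝 z0, g z = g z0) {K0 : Set ℂ} (hK : Dense K0) :
    ∃ (p : ℝ → Fin m → ℂ) (j : Fin m), ContDiff ℝ ∞ p ∧ (∀ t ≤ 0, p t = z0) ∧ (∀ t, 1 ≤ t → p t = p 1) ∧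
      (∀ t, p t ∈ B) ∧ (∀ t, (g (p t)).re = (g z0).re) ∧ (Monotone fun t => (g (p t)).im) ∧
      (g z0).im < (g (p 1)).im ∧ (∀ i, i ≠ j → p 1 i ∈ K0) ∧ fderiv ℂ g (p 1) (Pi.single j 1) ≠ 0 := by
  obtain ⟨P1, n, ε, j, hn, hε, hP10, hP1, hj⟩ := piece1 hB hg hz0 hnc
  have hone : (1:ℝ) ∈ Icc (0:ℝ) 1 := ⟨zero_le_one, le_rfl⟩
  obtain ⟨P2, hP20, hP2, hK2, hj2⟩ := piece2 hB hg (hP1 1 hone).2.1 hj hK
  set a : ℝ → ℝ := fun t => Real.smoothTransition (2 * t) with ha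
  set b : ℝ → ℝ := fun t => Real.smoothTransition (2 * t - 1) with hb
  have haI : ∀ t, a t ∈ Icc (0:ℝ) 1 := fun t => ⟨Real.smoothTransition.nonneg _, Real.smoothTransition.le_one _⟩
  have hbI : ∀ t, b t ∈ Icc (0:ℝ) 1 := fun t => ⟨Real.smoothTransition.nonneg _, Real.smoothTransition.le_one _⟩
  set p : ℝ → Fin m → ℂ := fun t => P1 (a t) + P2 (b t) - P1 1 with hp
  have hlo : ∀ t, t ≤ 1/2 → p t = P1 (a t) := by
    intro t ht
    have : b t = 0 := Real.smoothTransition.zero_of_nonpos (by linarith)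
    simp [hp, this, hP20]
  have hhi : ∀ t, 1/2 ≤ t → p t = P2 (b t) ∧ a t = 1 := by
    intro t ht
    have : a t = 1 := Real.smoothTransition.one_of_one_le (by linarith)
    simp [hp, this]
  have hg' : ∀ t, g (p t) = g z0 + ((ε * (a t) ^ n : ℝ) : ℂ) * I := by
    intro t
    rcases le_total t (1/2) with h | h
    · rw [hlo t h, (hP1 _ (haI t)).2.2]
    · rw [(hhi t h).1, (hP2 _ (hbI t)).2.2, (hP1 1 hone).2.2, (hhi t h).2]
  have hp1 : p 1 = P2 1 := by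
    rw [(hhi 1 (by norm_num)).1]
    congr 1
    exact Real.smoothTransition.one_of_one_le (by norm_num)
  refine ⟨p, j, ?_, ?_, ?_, ?_, ?_, ?_, ?_, ?_, ?_⟩
  · rw [contDiff_iff_contDiffAt]
    intro t
    have h1 : ContDiffAt ℝ ∞ a t := Real.smoothTransition.contDiffAt.comp t (by fun_prop)
    have h2 : ContDiffAt ℝ ∞ b t := Real.smoothTransition.contDiffAt.comp t (by fun_prop)
    exact (((hP1 _ (haI t)).1.comp t h1).add ((hP2 _ (hbI t)).1.comp t h2)).sub contDiffAt_const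
  · intro t ht
    rw [hlo t (by linarith)]
    have : a t = 0 := Real.smoothTransition.zero_of_nonpos (by linarith)
    rw [this, hP10]
  · intro t ht
    rw [(hhi t (by linarith)).1, hp1]
    congr 1
    exact Real.smoothTransition.one_of_one_le (by linarith)
  · intro t
    rcases le_total t (1/2) with h | h
    · rw [hlo t h]; exact (hP1 _ (haI t)).2.1
    · rw [(hhi t h).1]; exact (hP2 _ (hbI t)).2.1
  · intro t
    rw [hg' t]
    simp only [add_re, re_ofReal_mul, I_re, mul_zero, add_zero]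
  · intro s t hst
    simp only [hg', add_im, mul_im, ofReal_re, I_im, mul_one, ofReal_im, I_re, mul_zero, add_zero]
    have : a s ≤ a t := Real.smoothTransition.monotone (by linarith)
    have h2 := pow_le_pow_left₀ (haI s).1 this n
    nlinarith [mul_le_mul_of_nonneg_left h2 hε.le]
  · rw [hg' 1, (hhi 1 (by norm_num)).2]
    simp [hε]
  · rw [hp1]; exact hK2
  · rw [hp1]; exact hj2

end Crest.Agent.R281.PathM_315
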