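import Crest.Agent.R281.Sk0_474

/-!
# Row 281, KappaP glue (K2) (helper139), part 1: pull back of all data by a homeomorphism

`g : X ≃ₜ Y`, `A : Atl n Y`. All chart expressions are literally the same.

* `pbA g A`   : the atlas with the charts `A.e i ∘ g`
* `pbP`, `pbK`, `pbL`, `pbH`, `pbS2`, `pbS` : `Part`, `Kah`, `LB`, `HM`, `H2`, `HSymp`
* `isHS_pb`, `rk_pb`, `rich_pb`, `nefW_pb`, `nonFlat_pb`
-/

set_option autoImplicit false
set_option linter.unusedSectionVars false

open Set Filter Topology Complex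
open scoped ContDiff Matrix ComplexConjugate ComplexOrder

namespace Crest.Agent.R281.Pbk_139

open Crest.Agent.R275.Geo Crest.Agent.R275.Core144 Crest.Agent.R275.EDR890
open Crest.Agent.R275.GC293
open Crest.Agent.R273.Defs_333 Crest.Agent.R273.Kah_333 Crest.Agent.R273.Hess_333
open Crest.Agent.R273.HM_333
open Crest.Agent.R281.Defs_273 Crest.Agent.R281.Rk_599

noncomputable section

variable {n : ℕ} {X Y : Type} [TopologicalSpace X] [TopologicalSpace Y] (g : X ≃ₜ Y)

/-- the atlas with the charts `A.e i ∘ g` -/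
def pbA (A : Atl n Y) : Atl n X where
  ι := A.ι
  e i := g.transOpenPartialHomeomorph (A.e i)
  cover x := A.cover (g x)
  cube i z hz p := A.cube i z hz p
  holo i j := by
    have h : (fun z => (g.transOpenPartialHomeomorph (A.e j))
        ((g.transOpenPartialHomeomorph (A.e i)).symm z)) = fun z => A.e j ((A.e i).symm z) := by
      funext z
      show A.e j (g (g.symm ((A.e i).symm z))) = _
      rw [g.apply_symm_apply]
    rw [h]
    refine (A.holo i j).mono ?_
    rintro z ⟨h1, h2⟩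
    refine ⟨h1, ?_⟩
    have h3 : g (g.symm ((A.e i).symm z)) ∈ (A.e j).source := h2
    rwa [g.apply_symm_apply] at h3

variable {A : Atl n Y}

instance [h : Finite A.ι] : Finite (pbA g A).ι := h

@[simp] theorem pb_symm (i : A.ι) (z : Cn n) :
    g (((pbA g A).e i).symm z) = (A.e i).symm z := g.apply_symm_apply _

theorem pb_symm' (i : A.ι) (z : Cn n) :
    ((pbA g A).e i).symm z = g.symm ((A.e i).symm z) := rfl

theorem pb_e (i : A.ι) (x : X) : (pbA g A).e i x = A.e i (g x) := rfl

theorem mem_pb (i : A.ι) (x : X) : x ∈ ((pbA g A).e i).source ↔ g x ∈ (A.e i).source := Iff.rfl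

theorem tgt_pb (i : A.ι) : ((pbA g A).e i).target = (A.e i).target := rfl

theorem t_pb (i j : A.ι) : (fun z => (pbA g A).e j (((pbA g A).e i).symm z)) =
    fun z => A.e j ((A.e i).symm z) := by
  funext z
  show A.e j (g (((pbA g A).e i).symm z)) = _
  rw [pb_symm]

theorem ov_pb (i j : A.ι) : (pbA g A).ov i j = A.ov i j := by
  ext z
  constructor
  · rintro ⟨h1, h2⟩
    refine ⟨h1, ?_⟩
    have h3 : g (((pbA g A).e i).symm z) ∈ (A.e j).source := h2
    rwa [pb_symm] at h3
  · rintro ⟨h1, h2⟩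
    refine ⟨h1, ?_⟩
    show g (((pbA g A).e i).symm z) ∈ (A.e j).source
    rwa [pb_symm]

theorem good_pb (h : GoodA A) : GoodA (pbA g A) := fun i j => by
  rw [ov_pb]
  exact h i j

theorem J_pb (i j : A.ι) (x : X) : (pbA g A).J i j x = A.J i j (g x) := by
  unfold Atl.J
  rw [t_pb]
  rfl

theorem Jm_pb (i j : A.ι) (x : X) : Jm (pbA g A) i j x = Jm A i j (g x) := by
  unfold Jm
  rw [J_pb]

theorem sm_pb {W : Type*} [NormedAddCommGroup W] [NormedSpace ℝ W] {f : Y → W} (h : A.Sm f) :
    (pbA g A).Sm fun x => f (g x) := by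
  intro i
  have h1 := h i
  have h2 : (fun z => f (g (((pbA g A).e i).symm z))) = fun z => f ((A.e i).symm z) := by
    funext z
    rw [pb_symm]
  rw [h2]
  exact h1

theorem smAt_pb {W : Type*} [NormedAddCommGroup W] [NormedSpace ℝ W] {i : A.ι} {f : Y → W}
    (h : A.SmAt i f) : (pbA g A).SmAt i fun x => f (g x) := by
  have h2 : (fun z => f (g (((pbA g A).e i).symm z))) = fun z => f ((A.e i).symm z) := by
    funext z
    rw [pb_symm]
  unfold Atl.SmAt
  rw [h2]
  exact h

theorem holAt_pb {i : A.ι} {U : Set Y} {f : Y → ℂ} (h : HolAt A i U f) :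
    HolAt (pbA g A) i (g ⁻¹' U) fun x => f (g x) := by
  have h2 : (fun z => f (g (((pbA g A).e i).symm z))) = fun z => f ((A.e i).symm z) := by
    funext z
    rw [pb_symm]
  unfold HolAt at h ⊢
  rw [h2]
  refine h.mono ?_
  rintro z ⟨h3, h4⟩
  refine ⟨h3, ?_⟩
  have h5 : g (((pbA g A).e i).symm z) ∈ U := h4
  rwa [pb_symm] at h5

/-- partition of unity -/
def pbP (P : Part A) : Part (pbA g A) where
  ψ i x := P.ψ i (g x)
  χ i x := P.χ i (g x)
  ψ_sm i := sm_pb g (P.ψ_sm i)
  χ_sm i := sm_pb g (P.χ_sm i)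
  χ_cpt i := by
    have h : tsupport (fun x => P.χ i (g x)) = g ⁻¹' tsupport (P.χ i) :=
      tsupport_comp_eq_preimage (P.χ i) g
    rw [h]
    exact g.isCompact_preimage.2 (P.χ_cpt i)
  χ_sub i := by
    have h : tsupport (fun x => P.χ i (g x)) = g ⁻¹' tsupport (P.χ i) :=
      tsupport_comp_eq_preimage (P.χ i) g
    rw [h]
    exact preimage_mono (P.χ_sub i)
  χ_one i x hx := by
    have h : tsupport (fun x => P.ψ i (g x)) = g ⁻¹' tsupport (P.ψ i) :=
      tsupport_comp_eq_preimage (P.ψ i) g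
    rw [h] at hx
    exact g.continuous.continuousAt.eventually (P.χ_one i (g x) hx)
  lf K hK := by
    refine (P.lf (g '' K) (hK.image g.continuous)).subset ?_
    rintro i ⟨x, hx, hxK⟩
    have h : tsupport (fun x => P.χ i (g x)) = g ⁻¹' tsupport (P.χ i) :=
      tsupport_comp_eq_preimage (P.χ i) g
    rw [h] at hx
    exact ⟨g x, hx, mem_image_of_mem g hxK⟩
  sum_one x := P.sum_one (g x)

theorem read_pb {W : Type*} (f : Y → W) (i : A.ι) :
    (fun z => f (g (((pbA g A).e i).symm z))) = fun z => f ((A.e i).symm z) := by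
  funext z
  rw [pb_symm]

/-- Kaehler metrics -/
def pbK (K : Kah A) : Kah (pbA g A) where
  g i x := K.g i (g x)
  sm i a b := smAt_pb g (K.sm i a b)
  pos i x hx := K.pos i (g x) hx
  tr i j x hx := by
    rw [Jm_pb]
    exact K.tr i j (g x) hx
  closed i z hz a b c := by
    rw [read_pb g (fun y => K.g i y a b) i, read_pb g (fun y => K.g i y c b) i]
    exact K.closed i z hz a b c
  closed' i z hz a b c := by
    rw [read_pb g (fun y => K.g i y a b) i, read_pb g (fun y => K.g i y a c) i]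
    exact K.closed' i z hz a b c

@[simp] theorem pbK_g (K : Kah A) (i : A.ι) (x : X) : (pbK g K).g i x = K.g i (g x) := rfl

/-- holomorphic line bundles -/
def pbL (L : LB A) : LB (pbA g A) where
  g i j x := L.g i j (g x)
  hol i j := holAt_pb g (L.hol i j)
  off i j x hx := L.off i j (g x) hx
  self i x := L.self i (g x)
  mul i j k x hx := L.mul i j k (g x) hx

theorem pbL_mul (L L' : LB A) : pbL g (L * L') = pbL g L * pbL g L' := rfl

theorem pbL_one : pbL g (1 : LB A) = 1 := rfl

theorem pbL_inv (L : LB A) : pbL g L⁻¹ = (pbL g L)⁻¹ := rfl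

theorem pbL_pow (L : LB A) (m : ℕ) : pbL g (L ^ m) = pbL g L ^ m := by
  induction m with
  | zero => rw [pow_zero, pow_zero]; rfl
  | succ m ih => rw [pow_succ, pow_succ, pbL_mul, ih]

/-- metrics -/
def pbH {L : LB A} (h : HM L) : HM (pbL g L) where
  w i x := h.w i (g x)
  pos i x hx := h.pos i (g x) hx
  sm i := smAt_pb g (h.sm i)
  tr i j x hx := h.tr i j (g x) hx

theorem wt_pb {L : LB A} (h : HM L) (i : A.ι) : (pbH g h).wt i = h.wt i := by
  funext z
  show -Real.log (h.w i (g (((pbA g A).e i).symm z))) = _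
  rw [pb_symm]
  rfl

theorem cur_pb {L : LB A} (h : HM L) (i : A.ι) (x : X) : cur (pbH g h) i x = cur h i (g x) := by
  unfold cur
  rw [wt_pb]
  rfl

theorem pos_pb {L : LB A} {h : HM L} (hp : h.Pos) : (pbH g h).Pos := fun i z hz v hv => by
  rw [wt_pb]
  exact hp i z hz v hv

theorem hsf_pb (f : Y → ℝ) (i : A.ι) (x : X) :
    hsf (pbA g A) (fun x => f (g x)) i x = hsf A f i (g x) := by
  unfold hsf
  rw [read_pb g f i]
  rfl

/-- sections -/
theorem isHS_pb {L : LB A} {U : Set Y} {s : A.ι → Y → ℂ} (h : IsHS L U s) :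
    IsHS (pbL g L) (g ⁻¹' U) fun i x => s i (g x) where
  hol i := holAt_pb g (h.hol i)
  off i x hx := h.off i (g x) hx
  tr i j x hx hU := h.tr i j (g x) hx hU

theorem isHS_pb' {L : LB A} {s : A.ι → Y → ℂ} (h : IsHS L univ s) :
    IsHS (pbL g L) univ fun i x => s i (g x) := isHS_pb g h

theorem isHS_pb_back {L : LB A} {s : A.ι → X → ℂ} (h : IsHS (pbL g L) univ s) :
    IsHS L univ fun i y => s i (g.symm y) where
  hol i := by
    have h1 := h.hol i
    unfold HolAt at h1 ⊢
    refine h1.mono ?_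
    rintro z ⟨h3, -⟩
    exact ⟨h3, mem_univ _⟩
  off i y hy := h.off i (g.symm y) fun h1 => hy (by
    have h2 : g (g.symm y) ∈ (A.e i).source := h1
    rwa [g.apply_symm_apply] at h2)
  tr i j y hy _ := by
    have h1 : g.symm y ∈ ((pbA g A).e i).source ∩ ((pbA g A).e j).source := by
      constructor
      · show g (g.symm y) ∈ (A.e i).source
        rw [g.apply_symm_apply]
        exact hy.1
      · show g (g.symm y) ∈ (A.e j).source
        rw [g.apply_symm_apply]
        exact hy.2
    have h2 := h.tr i j (g.symm y) h1 (mem_univ _)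
    have h3 : (pbL g L).g i j (g.symm y) = L.g i j (g (g.symm y)) := rfl
    rw [h3, g.apply_symm_apply] at h2
    exact h2

theorem rk_pb {r : ℕ} {s : Fin (r + 1) → A.ι → Y → ℂ} {i : A.ι} {x : X} :
    Rk (pbA g A) (fun a i x => s a i (g x)) i x ↔ Rk A s i (g x) := by
  have h : ∀ a : Fin r, rat (pbA g A) (fun a i x => s a i (g x)) i a = rat A s i a := by
    intro a
    funext z
    show s a.succ i (g (((pbA g A).e i).symm z)) / s 0 i (g (((pbA g A).e i).symm z)) = _
    rw [pb_symm]
    rfl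
  have h' : (fun a : Fin r => fderiv ℂ (rat (pbA g A) (fun a i x => s a i (g x)) i a)
      ((pbA g A).e i x)) = fun a : Fin r => fderiv ℂ (rat A s i a) (A.e i (g x)) := by
    funext a
    rw [h]
    rfl
  unfold Rk
  rw [h']
  exact Iff.rfl

/-- holomorphic 2-forms -/
def pbS2 (σ : H2 A) : H2 (pbA g A) where
  s i x := σ.s i (g x)
  hol i a b := holAt_pb g (σ.hol i a b)
  alt i x hx := σ.alt i (g x) hx
  tr i j x hx := by
    rw [Jm_pb]
    exact σ.tr i j (g x) hx

/-- holomorphic symplectic forms -/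
def pbS (σ : HSymp A) : HSymp (pbA g A) where
  toH2 := pbS2 g σ.toH2
  nd i x hx := σ.nd i (g x) hx

@[simp] theorem pbS_s (σ : HSymp A) (i : A.ι) (x : X) : (pbS g σ).s i x = σ.s i (g x) := rfl

theorem nefW_pb {K : Kah A} {L : LB A} (h : NefW K L) : NefW (pbK g K) (pbL g L) := by
  intro ε hε
  obtain ⟨h1, h2⟩ := h ε hε
  refine ⟨pbH g h1, fun i x hx => ?_⟩
  rw [cur_pb]
  exact h2 i (g x) hx

end

section rich

variable {n : ℕ} {X Y : Type} [TopologicalSpace X] [TopologicalSpace Y] (g : X ≃ₜ Y)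
  {A : Atl (2 * n) Y}

theorem rich_pb {L : LB A} (h : Sk_474.Rich A L) : Sk_474.Rich (pbA g A) (pbL g L) := by
  obtain ⟨k, hk, s, hs, i, x, hx⟩ := h
  refine ⟨k, hk, fun a i x => s a i (g x), fun a => ?_, i, g.symm x, ?_⟩
  · rw [← pbL_pow]
    exact isHS_pb' g (hs a)
  · rw [rk_pb, g.apply_symm_apply]
    exact hx

theorem rich_pb_back {L : LB A} (h : Sk_474.Rich (pbA g A) (pbL g L)) : Sk_474.Rich A L := by
  obtain ⟨k, hk, s, hs, i, x, hx⟩ := h
  refine ⟨k, hk, fun a i y => s a i (g.symm y), fun a => ?_, i, g x, ?_⟩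
  · have h1 := hs a
    rw [← pbL_pow] at h1
    exact isHS_pb_back g h1
  · rw [← rk_pb g]
    have h2 : (fun a i x => s a i (g.symm (g x))) = s := by
      funext a i x
      rw [g.symm_apply_apply]
    show Rk (pbA g A) (fun a i x => s a i (g.symm (g x))) i x
    rw [h2]
    exact hx

end rich

end Crest.Agent.R281.Pbk_139
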