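import Crest.Agent.R281.Pbk1_139
import Crest.Agent.R281.Nef3_252

/-!
# Row 281, KappaP glue (K2) (helper139), part 2: pull back along a holomorphic diffeomorphism

`g : SMap C' C`, `Bi g k`, `HolM g (ofHk G a) (ofHk H b)`, `A` a holomorphic atlas of `H.J b`.

* `homeo hb`  : the homeomorphism
* `cp_pb`     : `pbA (homeo hb) A` is a holomorphic atlas of `G.J a`
* `pbF g w`   : a closed 2-form on `ofAtl A`, read on `ofAtl (pbA g A)`
* `f2_pb`     : `(ofKah (pbK g K)).f2 = pbF g (ofKah K).f2`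
* `F_pb`      : `(cmp_of_cp (cp_pb ..)).F (g.pull w) = pbF (cmp_of_cp hA).F w`
* `eqv_pb`    : the consequence for the Kaehler form
-/

set_option autoImplicit false
set_option maxSynthPendingDepth 3
set_option linter.unusedSectionVars false

open Set Filter Topology Complex
open scoped ContDiff Matrix ComplexConjugate ComplexOrder

namespace Crest.Agent.R281.Pbk_139

open Crest.Agent.R275.Geo Crest.Agent.R275.Core144
open Crest.Agent.R273.Kah_333
open Crest.Agent.R260.ACM_580 Crest.Agent.R260.NNB_580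
open Crest.Agent.R281.HkR_835 Crest.Agent.R281.Dif_268
open Crest.Agent.R281.NefO_476 Crest.Agent.R281.Nef_252

noncomputable section

section hol

variable {V V' X X' : Type} [NormedAddCommGroup V] [NormedSpace ℝ V] [NormedAddCommGroup V']
  [NormedSpace ℝ V'] [TopologicalSpace X] [TopologicalSpace X'] {C : RCh V X} {C' : RCh V' X'}
  {g : SMap C' C} {k : SMap C C'}

/-- the homeomorphism -/
def homeo (hb : Bi g k) : X' ≃ₜ X where
  toFun := g.f
  invFun := k.f
  left_inv := hb.kg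
  right_inv := hb.gk
  continuous_toFun := g.cont
  continuous_invFun := k.cont

@[simp] theorem homeo_apply (hb : Bi g k) (x : X') : homeo hb x = g.f x := rfl

@[simp] theorem homeo_symm (hb : Bi g k) (x : X) : (homeo hb).symm x = k.f x := rfl

variable {d : ℕ}

theorem jch_pb (hb : Bi g k) {H : HkT C} {G : HkT C'} {a b : Fin 3}
    (hg : HolM g (ofHk G a) (ofHk H b)) {φ : OpenPartialHomeomorph X (Cn d)}
    (hφ : JCh (H.acm b) φ) : JCh (G.acm a) ((homeo hb).transOpenPartialHomeomorph φ) := by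
  -- the chart read through a chart of `C`
  have hy : ∀ (i : C'.ι) (j : C.ι) (z : V'),
      z ∈ ovr (G.acm a) i ((homeo hb).transOpenPartialHomeomorph φ) → z ∈ dom C C' g.f j i →
      loc C C' g.f j i z ∈ ovr (H.acm b) j φ := by
    intro i j z hz hj
    refine ⟨g.loc_mem hj, ?_⟩
    show (C.e j).symm (loc C C' g.f j i z) ∈ φ.source
    rw [g.symm_loc hj]
    exact hz.2
  have hev : ∀ (i : C'.ι) (j : C.ι) (z : V'), z ∈ dom C C' g.f j i →
      (fun y => ((homeo hb).transOpenPartialHomeomorph φ) ((C'.e i).symm y)) =ᶠ[𝓝 z]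
        ((fun y => φ ((C.e j).symm y)) ∘ loc C C' g.f j i) := by
    intro i j z hj
    filter_upwards [(g.isOpen_dom j i).mem_nhds hj] with y hy'
    show φ (g.f ((C'.e i).symm y)) = φ ((C.e j).symm (loc C C' g.f j i y))
    rw [g.symm_loc hy']
  refine ⟨fun i z hz => ?_, fun i z hz => ?_, fun i z hz v => ?_⟩
  · obtain ⟨j, hj⟩ := g.exists_dom (C := C) (j := i) hz.1
    have h1 : ContDiffAt ℝ ∞ (fun y => φ ((C.e j).symm y)) (loc C C' g.f j i z) :=
      (hφ.sm j).contDiffAt ((isOpen_ovr (C := H.acm b) j φ).mem_nhds (hy i j z hz hj))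
    exact ((h1.comp z (g.contDiffAt_loc hj)).congr_of_eventuallyEq (hev i j z hj)).contDiffWithinAt
  · have hz1 : z ∈ φ.target := hz.1
    have hz2 : k.f (φ.symm z) ∈ (C'.e i).source := hz.2
    obtain ⟨j, hj⟩ := C.cover (φ.symm z)
    have hzc : z ∈ ovc (H.acm b) j φ := ⟨hz1, hj⟩
    have hjd : C.e j (φ.symm z) ∈ dom C' C k.f i j := by
      refine ⟨(C.e j).map_source hj, ?_⟩
      rw [(C.e j).left_inv hj]
      exact hz2
    have h1 : ContDiffAt ℝ ∞ (fun y => C.e j (φ.symm y)) z :=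
      (hφ.sm' j).contDiffAt ((isOpen_ovc (C := H.acm b) j φ).mem_nhds hzc)
    have h2 : ContDiffAt ℝ ∞ (loc C' C k.f i j ∘ fun y => C.e j (φ.symm y)) z :=
      ContDiffAt.comp z (k.contDiffAt_loc hjd) h1
    refine (h2.congr_of_eventuallyEq ?_).contDiffWithinAt
    filter_upwards [(isOpen_ovc (C := H.acm b) j φ).mem_nhds hzc] with y hy'
    show C'.e i (k.f (φ.symm y)) = C'.e i (k.f ((C.e j).symm (C.e j (φ.symm y))))
    have h3 : φ.symm y ∈ (C.e j).source := hy'.2
    rw [(C.e j).left_inv h3]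
  · obtain ⟨j, hj⟩ := g.exists_dom (C := C) (j := i) hz.1
    have h1 : DifferentiableAt ℝ (fun y => φ ((C.e j).symm y)) (loc C C' g.f j i z) :=
      ((hφ.sm j).contDiffAt ((isOpen_ovr (C := H.acm b) j φ).mem_nhds (hy i j z hz hj))).differentiableAt
        (by simp)
    have h2 : ∀ w, fderiv ℝ (fun y => ((homeo hb).transOpenPartialHomeomorph φ)
        ((C'.e i).symm y)) z w = fderiv ℝ (fun y => φ ((C.e j).symm y)) (loc C C' g.f j i z)
          (fderiv ℝ (loc C C' g.f j i) z w) := by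
      intro w
      rw [(hev i j z hj).fderiv_eq,
        (h1.hasFDerivAt.comp z (g.diff_loc hj).hasFDerivAt).fderiv]
      rfl
    have h3 := hg.h j i z hj v
    have h4 := hφ.lin j _ (hy i j z hz hj) (fderiv ℝ (loc C C' g.f j i) z v)
    have e1 := h2 ((G.acm a).J i z v)
    have e2 := h2 v
    have h3' : fderiv ℝ (loc C C' g.f j i) z ((G.acm a).J i z v) =
        (H.acm b).J j (loc C C' g.f j i z) (fderiv ℝ (loc C C' g.f j i) z v) := h3
    refine e1.trans ?_
    rw [h3']
    refine h4.trans ?_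
    exact congrArg (fun t => I • t) e2.symm

/-- **the pulled back atlas is holomorphic** -/
theorem cp_pb (hb : Bi g k) {H : HkT C} {G : HkT C'} {a b : Fin 3}
    (hg : HolM g (ofHk G a) (ofHk H b)) {A : Atl d X} (hA : Cp (H.acm b) A) :
    Cp (G.acm a) (pbA (homeo hb) A) := fun c => jch_pb hb hg (hA c)

end hol

/-! ### closed 2-forms -/

section forms

variable {d : ℕ} {X Y : Type} [TopologicalSpace X] [TopologicalSpace Y] (g : X ≃ₜ Y)
  {A : Atl d Y}

theorem oft_pb (i j : A.ι) : (ofAtl (pbA g A)).t i j = (ofAtl A).t i j := t_pb g i j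

theorem ofov_pb (i j : A.ι) : (ofAtl (pbA g A)).ov i j = (ofAtl A).ov i j := ov_pb g i j

/-- a closed 2-form on `ofAtl A`, read on `ofAtl (pbA g A)` -/
def pbF (w : F2 (ofAtl A)) : F2 (ofAtl (pbA g A)) where
  w := w.w
  sm := w.sm
  alt := w.alt
  tr i j z hz u v := by
    have hz' : z ∈ (ofAtl A).ov i j := by
      rw [← ofov_pb g]
      exact hz
    have h := w.tr i j z hz' u v
    rw [← oft_pb g] at h
    exact h
  closed := w.closed

@[simp] theorem pbF_w (w : F2 (ofAtl A)) (i : A.ι) : (pbF g w).w i = w.w i := rfl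

theorem pbF_eqv {w w' : F2 (ofAtl A)} (h : Eqv w w') : Eqv (pbF g w) (pbF g w') := h

theorem f2_pb (K : Kah A) : Eqv (ofKah (pbK g K)).f2 (pbF g (ofKah K).f2) := by
  intro i z hz u v
  have h1 := K11.f2_w (ofKah (pbK g K)) (i := i) (z := z) hz u v
  have h2 := K11.f2_w (ofKah K) (i := i) (z := z) hz u v
  have h3 : (ofKah (pbK g K)).g i (((pbA g A).e i).symm z) =
      (ofKah K).g i ((A.e i).symm z) := by
    show K.g i (g (((pbA g A).e i).symm z)) = K.g i ((A.e i).symm z)
    rw [pb_symm]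
  rw [h1, h3]
  exact h2.symm

end forms

section comp

variable {V V' X X' : Type} [NormedAddCommGroup V] [NormedSpace ℝ V] [NormedAddCommGroup V']
  [NormedSpace ℝ V'] [TopologicalSpace X] [TopologicalSpace X'] {C : RCh V X} {C' : RCh V' X'}
  {g : SMap C' C} {k : SMap C C'} {d : ℕ} {A : Atl d X}

/-- pull back and reading in the atlas commute -/
theorem F_pb (hb : Bi g k) (hA : Cmp C (ofAtl A)) (hA' : Cmp C' (ofAtl (pbA (homeo hb) A)))
    (w : F2 C) : Eqv (hA'.F (g.pull w)) (pbF (homeo hb) (hA.F w)) := by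
  intro c z hz u v
  obtain ⟨i', hi'⟩ := Cmp.exists_mov (C' := ofAtl (pbA (homeo hb) A)) C' (j := c) hz
  have hm := Cmp.mt_mem hi'
  have hzt : mt C' (ofAtl (pbA (homeo hb) A)) i' c z ∈ (C'.e i').target := hm.1
  obtain ⟨i, hi⟩ := g.exists_dom (C := C) (j := i') hzt
  -- the point
  have hval : ∀ y ∈ mov C' (ofAtl (pbA (homeo hb) A)) i' c,
      loc C C' g.f i i' (mt C' (ofAtl (pbA (homeo hb) A)) i' c y) = mt C (ofAtl A) i c y := by
    intro y hy
    have hs : ((ofAtl (pbA (homeo hb) A)).e c).symm y ∈ (C'.e i').source := hy.2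
    show C.e i (g.f ((C'.e i').symm (C'.e i' (((ofAtl (pbA (homeo hb) A)).e c).symm y)))) =
      C.e i ((A.e c).symm y)
    rw [(C'.e i').left_inv hs]
    have h1 : g.f (((ofAtl (pbA (homeo hb) A)).e c).symm y) = (A.e c).symm y :=
      pb_symm (homeo hb) (A := A) c y
    rw [h1]
  have hmov : z ∈ mov C (ofAtl A) i c := by
    refine ⟨hz, ?_⟩
    have h1 := hi.2
    have hs : ((ofAtl (pbA (homeo hb) A)).e c).symm z ∈ (C'.e i').source := hi'.2
    have h2 : (C'.e i').symm (mt C' (ofAtl (pbA (homeo hb) A)) i' c z) =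
        ((ofAtl (pbA (homeo hb) A)).e c).symm z := (C'.e i').left_inv hs
    rw [h2] at h1
    have h3 : g.f (((ofAtl (pbA (homeo hb) A)).e c).symm z) = (A.e c).symm z :=
      pb_symm (homeo hb) (A := A) c z
    rw [h3] at h1
    exact h1
  have hev : (loc C C' g.f i i' ∘ mt C' (ofAtl (pbA (homeo hb) A)) i' c) =ᶠ[𝓝 z]
      mt C (ofAtl A) i c := by
    filter_upwards [(Cmp.isOpen_mov C' (ofAtl (pbA (homeo hb) A)) i' c).mem_nhds hi'] with y hy
      using hval y hy
  have hd : ∀ u, fderiv ℝ (loc C C' g.f i i') (mt C' (ofAtl (pbA (homeo hb) A)) i' c z)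
      (fderiv ℝ (mt C' (ofAtl (pbA (homeo hb) A)) i' c) z u) =
      fderiv ℝ (mt C (ofAtl A) i c) z u := by
    intro u
    rw [← hev.fderiv_eq,
      ((g.diff_loc hi).hasFDerivAt.comp z (hA'.diff hi').hasFDerivAt).fderiv]
    rfl
  rw [hA'.F_w (g.pull w) hi' u v, g.pull_w w hi, hd, hd, hval z hi']
  exact (hA.F_w w hmov u v).symm

/-- the Kaehler form of the pulled back metric -/
theorem eqv_pb (hb : Bi g k) (hA : Cmp C (ofAtl A)) (hA' : Cmp C' (ofAtl (pbA (homeo hb) A)))
    {K : Kah A} {w : F2 C} (h : Eqv (ofKah K).f2 (hA.F w)) :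
    Eqv (ofKah (pbK (homeo hb) K)).f2 (hA'.F (g.pull w)) :=
  ((f2_pb (homeo hb) K).trans (pbF_eqv (homeo hb) h)).trans (F_pb hb hA hA' w).symm

end comp

end

end Crest.Agent.R281.Pbk_139
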