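import Crest.Agent.R281.Pbk2_139
import Crest.Agent.R281.Qt1_922
import Crest.Agent.R281.TubT_831

/-!
# Row 281, KappaP glue (K2) (helper139), part 3: tubes

* `disc_pb`, `qtube_pb`  : pull back of 922's `Disc`, `QTube` by a homeomorphism
* `smI_map`, `pull_map`  : a map into `X` followed by a diffeomorphism `k : X → X'`
* `holTube_pb`, `pvt_pb` : pull back of 831's `HolTube`, `PVT` along `IsoId`
-/

set_option autoImplicit false
set_option maxSynthPendingDepth 3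
set_option linter.unusedSectionVars false

open Set Filter Topology Complex Metric
open scoped ContDiff Matrix ComplexConjugate ComplexOrder

namespace Crest.Agent.R281.Pbk_139

open Crest.Agent.R275.Geo Crest.Agent.R275.Core144
open Crest.Agent.R273.Kah_333
open Crest.Agent.R260.ACM_580 Crest.Agent.R260.NNB_580
open Crest.Agent.R281.HkR_835 Crest.Agent.R281.Dif_268
open Crest.Agent.R281.NefO_476 Crest.Agent.R281.Nef_252
open Crest.Agent.R281.Qt_922 Crest.Agent.R281.SAsm_790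
open Crest.Agent.R281.Alg_998 (Cl)

noncomputable section

section qt

variable {N : ℕ} {X Y : Type} [TopologicalSpace X] [TopologicalSpace Y] (g : X ≃ₜ Y)
  {A : Atl N Y} {K : Kah A} {κ : ℝ}

theorem qf_pb (K : Kah A) (i : A.ι) (x : X) (v : Cn N) : qf (pbK g K) i x v = qf K i (g x) v := rfl

theorem disc_pb {T : Set Y} {c : ℂ → Y} (h : Disc A K κ T c) :
    Disc (pbA g A) (pbK g K) κ (g ⁻¹' T) fun ζ => g.symm (c ζ) where
  mem ζ hζ := by
    show g (g.symm (c ζ)) ∈ T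
    rw [g.apply_symm_apply]
    exact h.mem ζ hζ
  cont := g.symm.continuous.comp_continuousOn h.cont
  hol ζ hζ i hi := by
    have hi' : g (g.symm (c ζ)) ∈ (A.e i).source := hi
    rw [g.apply_symm_apply] at hi'
    have h1 : (fun w => (pbA g A).e i (g.symm (c w))) = fun w => A.e i (c w) := by
      funext w
      rw [pb_e, g.apply_symm_apply]
    rw [h1]
    exact h.hol ζ hζ i hi'
  q ζ hζ i hi := by
    have hi' : g (g.symm (c ζ)) ∈ (A.e i).source := hi
    rw [g.apply_symm_apply] at hi'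
    have h1 : (fun w => (pbA g A).e i (g.symm (c w))) = fun w => A.e i (c w) := by
      funext w
      rw [pb_e, g.apply_symm_apply]
    rw [h1, qf_pb, g.apply_symm_apply]
    exact h.q ζ hζ i hi'

/-- pull back of a quantified tube -/
def qtube_pb {n : ℕ} {R : ℝ} (q : QTube A K n κ R) : QTube (pbA g A) (pbK g K) n κ R where
  U := g ⁻¹' q.U
  f x := q.f (g x)
  op := q.op.preimage g.continuous
  cont := q.cont.comp g.continuous.continuousOn fun _ hx => hx
  hol i := by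
    rw [read_pb g q.f i]
    refine (q.hol i).mono ?_
    rintro z ⟨h1, h2⟩
    refine ⟨h1, ?_⟩
    have h3 : g (((pbA g A).e i).symm z) ∈ q.U := h2
    rwa [pb_symm] at h3
  lt x hx := q.lt (g x) hx
  onto b hb := by
    obtain ⟨y, hy, hf⟩ := q.onto b hb
    refine ⟨g.symm y, ?_, ?_⟩
    · show g (g.symm y) ∈ q.U
      rwa [g.apply_symm_apply]
    · rw [g.apply_symm_apply]
      exact hf
  surj i x hx hU := by
    rw [read_pb g q.f i]
    exact q.surj i (g x) hx hU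
  cpt R' hR' := by
    have h1 := g.isCompact_preimage.2 (q.cpt R' hR')
    exact h1
  q1 i x hx hU v := by
    rw [read_pb g q.f i]
    exact q.q1 i (g x) hx hU v
  q2 x hx z hz hxz := by
    obtain ⟨c, hc, h0, h1⟩ := q.q2 (g x) hx (g z) hz hxz
    refine ⟨fun ζ => g.symm (c ζ), ?_, ?_, ?_⟩
    · exact disc_pb g hc
    · show g.symm (c 0) = z
      rw [h0, g.symm_apply_apply]
    · show g.symm (c 1) = x
      rw [h1, g.symm_apply_apply]

@[simp] theorem qtube_pb_U {n : ℕ} {R : ℝ} (q : QTube A K n κ R) :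
    (qtube_pb g q).U = g ⁻¹' q.U := rfl

@[simp] theorem qtube_pb_f {n : ℕ} {R : ℝ} (q : QTube A K n κ R) (x : X) :
    (qtube_pb g q).f x = q.f (g x) := rfl

end qt

/-! ### maps into `X` -/

section maps

open Crest.Agent.R281.Per_368 (SmI pull per pl pl_apply)

variable {V V' X X' : Type} [NormedAddCommGroup V] [NormedSpace ℝ V] [NormedAddCommGroup V']
  [NormedSpace ℝ V'] [TopologicalSpace X] [TopologicalSpace X'] {C : RCh V X} {C' : RCh V' X'}
  {g : SMap C' C} {k : SMap C C'} {E : Type*} [NormedAddCommGroup E] [NormedSpace ℝ E]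
  {S : Set E} {Ψ : E → X}

theorem dom_map (k : SMap C C') {i' : C'.ι} {j : C.ι} {ζ : E}
    (hj : Ψ ζ ∈ (C.e j).source) (hi : k.f (Ψ ζ) ∈ (C'.e i').source) :
    C.e j (Ψ ζ) ∈ dom C' C k.f i' j := by
  refine ⟨(C.e j).map_source hj, ?_⟩
  rw [(C.e j).left_inv hj]
  exact hi

theorem ev_map (h : SmI C S Ψ) (k : SMap C C') {i' : C'.ι} {j : C.ι} {ζ : E} (hζ : ζ ∈ S)
    (hj : Ψ ζ ∈ (C.e j).source) :
    (fun q => C'.e i' (k.f (Ψ q))) =ᶠ[𝓝 ζ] (loc C' C k.f i' j ∘ fun q => C.e j (Ψ q)) := by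
  filter_upwards [(h.isOpen_pre (C.e j).open_source).mem_nhds ⟨hζ, hj⟩] with y hy
  show C'.e i' (k.f (Ψ y)) = C'.e i' (k.f ((C.e j).symm (C.e j (Ψ y))))
  have h3 : Ψ y ∈ (C.e j).source := hy.2
  rw [(C.e j).left_inv h3]

theorem fd_map (h : SmI C S Ψ) (k : SMap C C') {i' : C'.ι} {j : C.ι} {ζ : E} (hζ : ζ ∈ S)
    (hj : Ψ ζ ∈ (C.e j).source) (hi : k.f (Ψ ζ) ∈ (C'.e i').source) (u : E) :
    fderiv ℝ (fun q => C'.e i' (k.f (Ψ q))) ζ u =
      fderiv ℝ (loc C' C k.f i' j) (C.e j (Ψ ζ)) (fderiv ℝ (fun q => C.e j (Ψ q)) ζ u) := by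
  rw [(ev_map h k hζ hj).fderiv_eq,
    ((k.diff_loc (dom_map k hj hi)).hasFDerivAt.comp ζ (h.diffAt hζ hj).hasFDerivAt).fderiv]
  rfl

/-- a smooth map into `X` followed by `k` -/
theorem smI_map (h : SmI C S Ψ) (k : SMap C C') : SmI C' S fun ζ => k.f (Ψ ζ) where
  op := h.op
  cont := k.cont.comp_continuousOn h.cont
  sm i' := by
    rintro ζ ⟨hζ, hi⟩
    obtain ⟨j, hj⟩ := C.cover (Ψ ζ)
    have h1 : ContDiffAt ℝ ∞ (loc C' C k.f i' j ∘ fun q => C.e j (Ψ q)) ζ :=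
      ContDiffAt.comp ζ (k.contDiffAt_loc (dom_map k hj hi)) (h.smAt hζ hj)
    exact (h1.congr_of_eventuallyEq (ev_map h k hζ hj)).contDiffWithinAt

/-- `(k ∘ Ψ)^* (g^* w) = Ψ^* w` -/
theorem pull_map (h : SmI C S Ψ) (hb : Bi g k) (w : F2 C) {ζ : E} (hζ : ζ ∈ S) :
    pull (g.pull w) (fun ζ => k.f (Ψ ζ)) ζ = pull w Ψ ζ := by
  obtain ⟨j, hj⟩ := C.cover (Ψ ζ)
  obtain ⟨i', hi⟩ := C'.cover (k.f (Ψ ζ))
  have hk := smI_map h k
  rw [h.pull_eq w hζ hj, hk.pull_eq (g.pull w) hζ hi]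
  have hy : C'.e i' (k.f (Ψ ζ)) ∈ dom C C' g.f j i' := by
    refine ⟨(C'.e i').map_source hi, ?_⟩
    rw [(C'.e i').left_inv hi, hb.gk]
    exact hj
  have hval : loc C C' g.f j i' (C'.e i' (k.f (Ψ ζ))) = C.e j (Ψ ζ) := by
    show C.e j (g.f ((C'.e i').symm (C'.e i' (k.f (Ψ ζ))))) = _
    rw [(C'.e i').left_inv hi, hb.gk]
  have hd : ∀ u, fderiv ℝ (loc C C' g.f j i') (C'.e i' (k.f (Ψ ζ)))
      (fderiv ℝ (fun q => C'.e i' (k.f (Ψ q))) ζ u) = fderiv ℝ (fun q => C.e j (Ψ q)) ζ u := by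
    intro u
    have h1 := fd_map hk g (i' := j) (j := i') hζ hi (by rw [hb.gk]; exact hj) u
    rw [← h1]
    have h2 : (fun q => C.e j (g.f (k.f (Ψ q)))) = fun q => C.e j (Ψ q) := by
      funext q
      rw [hb.gk]
    rw [h2]
  refine ContinuousLinearMap.ext fun u => ContinuousLinearMap.ext fun v => ?_
  rw [pl_apply, pl_apply, g.pull_w w hy, hd, hd, hval]

end maps

section tube

open Crest.Agent.R281.Per_368 (SmI pull per pl pl_apply)
open Crest.Agent.R281.Tub_831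

variable {V V' X X' : Type} [NormedAddCommGroup V] [NormedSpace ℝ V] [NormedAddCommGroup V']
  [NormedSpace ℝ V'] [TopologicalSpace X] [TopologicalSpace X'] {C : RCh V X} {C' : RCh V' X'}
  {g : SMap C' C} {k : SMap C C'} {n : ℕ} {D : Set (Cn n)} {Ψ : Cn n × Cn n → X}
  {l : Fin (2 * n) → Cn n → Cn n} {τ : Cn n → Cn n → Cn n → ℂ}

/-- **pull back of a holomorphic tube of Lagrangian tori** -/
theorem holTube_pb (hb : Bi g k) {J' : AJ C'} {J : AJ C} (hg : HolM g J' J) {w w' : F2 C}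
    (h : HolTube C J.J w w' n D Ψ l τ) :
    HolTube C' J'.J (g.pull w) (g.pull w') n D (fun p => k.f (Ψ p)) l τ where
  op := h.op
  cv := h.cv
  ne := h.ne
  sm := smI_map h.sm k
  hol p hp i' hi u := by
    obtain ⟨j, hj⟩ := C.cover (Ψ p)
    have hp' : p ∈ D ×ˢ (univ : Set (Cn n)) := ⟨hp, mem_univ _⟩
    have hdom := dom_map (ζ := p) k hj hi
    rw [fd_map h.sm k hp' hj hi, fd_map h.sm k hp' hj hi, h.hol p hp j hj u,
      (hb.holM hg).h i' j _ hdom]
    have hval : loc C' C k.f i' j (C.e j (Ψ p)) = C'.e i' (k.f (Ψ p)) := by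
      show C'.e i' (k.f ((C.e j).symm (C.e j (Ψ p)))) = _
      rw [(C.e j).left_inv hj]
    rw [hval]
  inj p hp i' hi := by
    obtain ⟨j, hj⟩ := C.cover (Ψ p)
    have hp' : p ∈ D ×ˢ (univ : Set (Cn n)) := ⟨hp, mem_univ _⟩
    have hdom := dom_map (ζ := p) k hj hi
    refine (injective_iff_map_eq_zero _).2 fun u hu => ?_
    have h1 := fd_map h.sm k hp' hj hi u
    rw [hu] at h1
    have h2 := hb.symm.imm i' j _ hdom _ h1.symm
    exact (injective_iff_map_eq_zero _).1 (h.inj p hp j hj) u h2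
  lhol := h.lhol
  lli := h.lli
  eq_iff y hy y' hy' x x' := by
    rw [← h.eq_iff y hy y' hy' x x']
    constructor
    · intro h1
      have h2 := congrArg g.f h1
      rwa [hb.gk, hb.gk] at h2
    · intro h1
      rw [h1]
  symp p hp u v := by
    have hp' : p ∈ D ×ˢ (univ : Set (Cn n)) := ⟨hp, mem_univ _⟩
    rw [pull_map h.sm hb w hp', pull_map h.sm hb w' hp']
    exact h.symp p hp u v

end tube

section pvt

open Crest.Agent.R281.Per_368 (SmI pull per pl pl_apply pt)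
open Crest.Agent.R281.Tub_831

variable {V X : Type} [NormedAddCommGroup V] [NormedSpace ℝ V] [TopologicalSpace X] {C : RCh V X}
  {g k : SMap C C} {n : ℕ} {D : Set (Cn n)} {Ψ : Cn n × Cn n → X}
  {l : Fin (2 * n) → Cn n → Cn n} {Q : F2 C →ₗ[ℝ] F2 C →ₗ[ℝ] ℝ} {e : F2 C}

theorem eqv_pull_fun {E : Type*} [NormedAddCommGroup E] [NormedSpace ℝ E] {S : Set E}
    {Φ : E → X} (h : SmI C S Φ) {w w' : F2 C} (he : Eqv w w') {ζ : E} (hζ : ζ ∈ S) :
    pull w Φ ζ = pull w' Φ ζ := by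
  obtain ⟨j, hj⟩ := C.cover (Φ ζ)
  rw [h.pull_eq w hζ hj, h.pull_eq w' hζ hj]
  refine ContinuousLinearMap.ext fun u => ContinuousLinearMap.ext fun v => ?_
  rw [pl_apply, pl_apply]
  exact he j _ ((C.e j).map_source hj) _ _

/-- the periods of the pulled back tube -/
theorem pvt_pb (hb : Bi g k) (hcl : ∀ w : F2 C, Cl (g.pull w) w)
    (hQ : ∀ v v' : F2 C, Cl v v' → Q v e = Q v' e) (hs : SmI C (D ×ˢ univ) Ψ)
    (h : PVT Q e D Ψ l) : PVT Q e D (fun p => k.f (Ψ p)) l := by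
  intro v hv y hy x a b
  -- `v = g^* (k^* v)`
  have h1 : Eqv (g.pull (k.pull v)) v := hb.symm.pull_pull v
  have h2 : Q (k.pull v) e = 0 := by
    have h3 := hQ _ _ (hcl (k.pull v))
    rw [← h3, ← hv]
    exact hQ _ _ (eqv_ex_sub h1)
  have h4 := h (k.pull v) h2 y hy x a b
  have hk := smI_map hs k
  refine Eq.trans ?_ h4
  unfold per
  refine intervalIntegral.integral_congr fun s _ => ?_
  refine intervalIntegral.integral_congr fun t _ => ?_
  have hmem : pt (y, x) (0, l a y) (0, l b y) s t ∈ D ×ˢ (univ : Set (Cn n)) := by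
    refine ⟨?_, mem_univ _⟩
    show ((pt (y, x) (0, l a y) (0, l b y) s t : Cn n × Cn n)).1 ∈ D
    simpa [pt] using hy
  have h5 : pull v (fun p => k.f (Ψ p)) (pt (y, x) (0, l a y) (0, l b y) s t) =
      pull (k.pull v) Ψ (pt (y, x) (0, l a y) (0, l b y) s t) := by
    rw [← eqv_pull_fun hk h1 hmem]
    exact pull_map hs hb (k.pull v) hmem
  show pull v (fun p => k.f (Ψ p)) (pt (y, x) (0, l a y) (0, l b y) s t) (0, l a y) (0, l b y) =
    pull (k.pull v) Ψ (pt (y, x) (0, l a y) (0, l b y) s t) (0, l a y) (0, l b y)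
  rw [h5]

end pvt

end

end Crest.Agent.R281.Pbk_139
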