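import Crest.Agent.R281.Ehr2_268
import Crest.Agent.R281.HkR4_835
import Crest.Agent.R273.Fam_835

/-!
# R281 (S0424), FAM (helper313), part 1: the complex manifold of a projective embedding

`P : HEmb C H` (268) homogeneous coordinates of a real immersion of `(X, C : RCh V X)`, with complex
tangent spaces (`P.Cx`), `b : H ≃L[ℂ] (Fin (K+1) → ℂ)`.

* `dm`, `nu`     : the domain of the `k`-th affine coordinates, the affine coordinates;
* `nu_imm`, `nu_cx` : the affine coordinates are immersive with complex tangent spaces;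
* `exists_proj`  : a linear projection to `Cn N` which is a local diffeomorphism at a point;
* `Ch`           : the resulting holomorphic charts of `X`; `Ch.diffAt`.
-/

set_option autoImplicit false
set_option linter.unusedSectionVars false

open Set Filter Topology Complex
open scoped ContDiff

namespace Crest.Agent.R281.Pe_313

open Crest.Agent.R275.Geo
open Crest.Agent.R281.HkR_835 Crest.Agent.R281.Ehr2_268

noncomputable section

/-! ### linear algebra -/

section Lin

variable {V Z : Type*} [NormedAddCommGroup V] [NormedSpace ℝ V] [FiniteDimensional ℝ V]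
  [NormedAddCommGroup Z] [NormedSpace ℂ Z] [FiniteDimensional ℂ Z]

/-- an injective real linear map with complex image can be composed with a complex linear
projection to a bijection to `Cn N` -/
theorem exists_projection {N : ℕ} (hN : Module.finrank ℝ V = 2 * N) (D : V →L[ℝ] Z)
    (hi : ∀ v, D v = 0 → v = 0) (hc : ∀ v, ∃ w, I • D v = D w) :
    ∃ π : Z →L[ℂ] Cn N, Function.Bijective fun v => π (D v) := by
  have hI : Function.Injective D := (injective_iff_map_eq_zero D).2 hi
  let R : Submodule ℂ Z :=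
    { carrier := Set.range D
      add_mem' := by
        rintro _ _ ⟨a, rfl⟩ ⟨b, rfl⟩
        exact ⟨a + b, map_add D a b⟩
      zero_mem' := ⟨0, map_zero D⟩
      smul_mem' := by
        rintro c _ ⟨a, rfl⟩
        obtain ⟨w, hw⟩ := hc a
        refine ⟨c.re • a + c.im • w, ?_⟩
        rw [map_add, map_smul, map_smul, ← hw]
        conv_rhs => rw [← Complex.re_add_im c]
        rw [add_smul, mul_smul]
        rfl }
  have hR : ∀ v, D v ∈ R := fun v => ⟨v, rfl⟩
  have h1 : Module.finrank ℝ R = Module.finrank ℝ V := by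
    have h2 : Module.finrank ℝ (LinearMap.range (D : V →ₗ[ℝ] Z)) = Module.finrank ℝ V :=
      LinearMap.finrank_range_of_inj hI
    rw [← h2]
    exact LinearEquiv.finrank_eq
      { toFun := fun x => ⟨x.1, x.2⟩
        invFun := fun x => ⟨x.1, x.2⟩
        map_add' := fun _ _ => rfl
        map_smul' := fun _ _ => rfl
        left_inv := fun _ => rfl
        right_inv := fun _ => rfl }
  have h3 : Module.finrank ℝ R = 2 * Module.finrank ℂ R := finrank_real_of_complex R
  have h4 : Module.finrank ℂ R = Module.finrank ℂ (Cn N) := by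
    rw [finrank_euclideanSpace_fin]
    omega
  let φ : R ≃ₗ[ℂ] Cn N := LinearEquiv.ofFinrankEq R (Cn N) h4
  obtain ⟨g, hg⟩ := LinearMap.exists_extend (φ : R →ₗ[ℂ] Cn N)
  have hgR : ∀ (x : Z) (hx : x ∈ R), g x = φ ⟨x, hx⟩ := fun x hx => by
    have := congrArg (fun T : R →ₗ[ℂ] Cn N => T ⟨x, hx⟩) hg
    exact this
  refine ⟨LinearMap.toContinuousLinearMap g, ?_, ?_⟩
  · intro v w hvw
    have h5 : g (D v) = g (D w) := hvw
    rw [hgR _ (hR v), hgR _ (hR w)] at h5
    exact hI (congrArg Subtype.val (φ.injective h5))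
  · intro y
    obtain ⟨v, hv⟩ := (φ.symm y).2
    refine ⟨v, ?_⟩
    show g (D v) = y
    rw [hgR _ (hR v)]
    have h5 : (⟨D v, hR v⟩ : R) = φ.symm y := Subtype.ext hv
    rw [h5, φ.apply_symm_apply]

/-- a bijective real linear map between finite dimensional spaces -/
theorem exists_equiv {W : Type*} [NormedAddCommGroup W] [NormedSpace ℝ W] [FiniteDimensional ℝ W]
    (T : V →L[ℝ] W) (hT : Function.Bijective T) : ∃ e : V ≃L[ℝ] W, (e : V →L[ℝ] W) = T := by
  refine ⟨(LinearEquiv.ofBijective (T : V →ₗ[ℝ] W) hT).toContinuousLinearEquiv, ?_⟩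
  ext v
  rfl

/-- a real linear map commuting with `I` -/
theorem exists_complex {W W' : Type*} [NormedAddCommGroup W] [NormedSpace ℂ W]
    [NormedAddCommGroup W'] [NormedSpace ℂ W'] (L : W →L[ℝ] W') (h : ∀ w, L (I • w) = I • L w) :
    ∃ T : W →L[ℂ] W', T.restrictScalars ℝ = L := by
  refine ⟨⟨{ toFun := L, map_add' := map_add L, map_smul' := fun c w => ?_ }, L.continuous⟩, rfl⟩
  have h1 : c • w = c.re • w + c.im • (I • w) := by
    conv_lhs => rw [← Complex.re_add_im c]
    rw [add_smul, mul_smul]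
    rfl
  rw [h1, map_add, map_smul, map_smul, h w]
  conv_rhs => rw [RingHom.id_apply, ← Complex.re_add_im c]
  rw [add_smul, mul_smul]
  rfl

end Lin

variable {V X : Type} [NormedAddCommGroup V] [NormedSpace ℝ V] [TopologicalSpace X]
variable {H : Type} [NormedAddCommGroup H] [NormedSpace ℂ H] {K : ℕ}
variable {C : RCh V X} (P : HEmb C H) (b : H ≃L[ℂ] (Fin (K + 1) → ℂ))

/-- the domain of the `k`-th affine coordinates, in the chart `i` -/
def dm (k : Fin (K + 1)) (i : C.ι) : Set V := {z | z ∈ (C.e i).target ∧ b (P.u i z) k ≠ 0}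

/-- the `k`-th affine coordinates, in the chart `i` -/
def nu (k : Fin (K + 1)) (i : C.ι) (z : V) : Fin (K + 1) → ℂ := (b (P.u i z) k)⁻¹ • b (P.u i z)

variable {P b}

theorem u_contDiffAt {i : C.ι} {z : V} (hz : z ∈ (C.e i).target) : ContDiffAt ℝ ∞ (P.u i) z :=
  (P.sm i).contDiffAt ((C.e i).open_target.mem_nhds hz)

theorem bu_contDiffAt {i : C.ι} {z : V} (hz : z ∈ (C.e i).target) :
    ContDiffAt ℝ ∞ (fun z => b (P.u i z)) z :=
  ((b : H →L[ℂ] (Fin (K + 1) → ℂ)).restrictScalars ℝ).contDiff.contDiffAt.comp z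
    (u_contDiffAt hz)

theorem isOpen_dm (k : Fin (K + 1)) (i : C.ι) : IsOpen (dm P b k i) := by
  rw [isOpen_iff_mem_nhds]
  rintro z ⟨hz, hk⟩
  have h1 : ContinuousAt (fun z => b (P.u i z) k) z :=
    (continuous_apply k).continuousAt.comp (bu_contDiffAt (b := b) hz).continuousAt
  filter_upwards [(C.e i).open_target.mem_nhds hz, h1.eventually_ne hk] with y hy1 hy2
  exact ⟨hy1, hy2⟩

theorem nu_contDiffAt {k : Fin (K + 1)} {i : C.ι} {z : V} (hz : z ∈ dm P b k i) :
    ContDiffAt ℝ ∞ (nu P b k i) z := by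
  have h1 := bu_contDiffAt (P := P) (b := b) hz.1
  have h2 : ContDiffAt ℝ ∞ (fun z => b (P.u i z) k) z := (contDiffAt_pi.1 h1) k
  have h3 : ContDiffAt ℝ ∞ (fun z => (b (P.u i z) k)⁻¹) z := h2.inv hz.2
  exact h3.smul h1

theorem nu_diff {k : Fin (K + 1)} {i : C.ι} {z : V} (hz : z ∈ dm P b k i) :
    DifferentiableAt ℝ (nu P b k i) z := (nu_contDiffAt hz).differentiableAt (by simp)

theorem nu_self {k : Fin (K + 1)} {i : C.ι} {z : V} (hz : z ∈ dm P b k i) :
    nu P b k i z k = 1 := by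
  show (b (P.u i z) k)⁻¹ * b (P.u i z) k = 1
  exact inv_mul_cancel₀ hz.2

/-- change of the chart and of the coordinate -/
theorem nu_chg {k k' : Fin (K + 1)} {i j : C.ι} {z : V} (hz : z ∈ C.ov i j)
    (hk : z ∈ dm P b k i) (hk' : C.t i j z ∈ dm P b k' j) :
    nu P b k i z k' ≠ 0 ∧ nu P b k' j (C.t i j z) = (nu P b k i z k')⁻¹ • nu P b k i z := by
  obtain ⟨a, ha⟩ := P.tr i j z hz
  have h1 : b (P.u i z) = a • b (P.u j (C.t i j z)) := by rw [ha, map_smul]
  have ha0 : a ≠ 0 := by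
    rintro rfl
    rw [zero_smul] at ha
    exact P.ne i z hz.1 ha
  have h2 : b (P.u i z) k ≠ 0 := hk.2
  have h3 : b (P.u j (C.t i j z)) k' ≠ 0 := hk'.2
  have h4 : b (P.u i z) k' ≠ 0 := by
    rw [h1]
    exact mul_ne_zero ha0 h3
  have h5 : nu P b k i z k' = (b (P.u i z) k)⁻¹ * b (P.u i z) k' := rfl
  refine ⟨by rw [h5]; exact mul_ne_zero (inv_ne_zero h2) h4, ?_⟩
  rw [h5]
  unfold nu
  rw [smul_smul, mul_inv, inv_inv]
  have h6 : b (P.u i z) k * (b (P.u i z) k')⁻¹ * (b (P.u i z) k)⁻¹ = (b (P.u i z) k')⁻¹ := by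
    field_simp
  rw [h6]
  conv_rhs => rw [h1]
  rw [smul_smul, Pi.smul_apply, smul_eq_mul, mul_inv]
  congr 1
  field_simp

/-- the derivative of the affine coordinates -/
theorem fderiv_nu {k : Fin (K + 1)} {i : C.ι} {z : V} (hz : z ∈ dm P b k i) (v : V) :
    fderiv ℝ (nu P b k i) z v = (b (P.u i z) k)⁻¹ • b (fderiv ℝ (P.u i) z v) -
      (b (fderiv ℝ (P.u i) z v) k * ((b (P.u i z) k)⁻¹ * (b (P.u i z) k)⁻¹)) • b (P.u i z) := by
  have h1 : HasFDerivAt (P.u i) (fderiv ℝ (P.u i) z) z :=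
    ((u_contDiffAt hz.1).differentiableAt (by simp)).hasFDerivAt
  have h2 : HasFDerivAt (fun z => b (P.u i z))
      (((b : H →L[ℂ] (Fin (K + 1) → ℂ)).restrictScalars ℝ).comp (fderiv ℝ (P.u i) z)) z :=
    HasFDerivAt.comp (g := fun w : H => b w) (f := P.u i) z
      ((b : H →L[ℂ] (Fin (K + 1) → ℂ)).restrictScalars ℝ).hasFDerivAt h1
  have h3 := (hasFDerivAt_pi'.1 h2) k
  have h4 : HasFDerivAt (fun w : ℂ => w⁻¹)
      ((ContinuousLinearMap.toSpanSingleton ℂ (-(b (P.u i z) k ^ 2)⁻¹)).restrictScalars ℝ)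
      (b (P.u i z) k) := (hasDerivAt_inv hz.2).hasFDerivAt.restrictScalars ℝ
  have h5 := HasFDerivAt.comp (g := fun w : ℂ => w⁻¹) (f := fun z => b (P.u i z) k) z h4 h3
  have h6 : fderiv ℝ (nu P b k i) z = _ := (h5.smul h2).fderiv
  rw [h6]
  simp only [add_apply, smul_apply, ContinuousLinearMap.smulRight_apply,
    ContinuousLinearMap.comp_apply, ContinuousLinearMap.coe_restrictScalars',
    ContinuousLinearMap.toSpanSingleton_apply, Function.comp_apply]
  funext l
  simp
  ring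

theorem nu_imm {k : Fin (K + 1)} {i : C.ι} {z : V} (hz : z ∈ dm P b k i) (v : V)
    (h : fderiv ℝ (nu P b k i) z v = 0) : v = 0 := by
  rw [fderiv_nu hz, sub_eq_zero] at h
  refine P.imm i z hz.1 v ⟨b (fderiv ℝ (P.u i) z v) k * (b (P.u i z) k)⁻¹, ?_⟩
  apply b.injective
  rw [map_smul]
  have h1 := congrArg (fun w => b (P.u i z) k • w) h
  simp only [smul_smul] at h1
  rw [mul_inv_cancel₀ hz.2, one_smul] at h1
  refine h1.trans ?_
  congr 1
  have := hz.2
  field_simp

theorem nu_cx (hcx : P.Cx) {k : Fin (K + 1)} {i : C.ι} {z : V} (hz : z ∈ dm P b k i) (v : V) :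
    ∃ w, I • fderiv ℝ (nu P b k i) z v = fderiv ℝ (nu P b k i) z w := by
  obtain ⟨w, a, hw⟩ := hcx i z hz.1 v
  refine ⟨w, ?_⟩
  rw [fderiv_nu hz, fderiv_nu hz]
  have h1 : I • b (fderiv ℝ (P.u i) z v) = b (fderiv ℝ (P.u i) z w) + a • b (P.u i z) := by
    rw [← map_smul, hw, map_add, map_smul]
  funext l
  have h2 : ∀ m, I * b (fderiv ℝ (P.u i) z v) m =
      b (fderiv ℝ (P.u i) z w) m + a * b (P.u i z) m := fun m => congrFun h1 m
  simp only [Pi.sub_apply, Pi.smul_apply, smul_eq_mul]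
  have h3 := hz.2
  have h4 : I * ((b (P.u i z) k)⁻¹ * b (fderiv ℝ (P.u i) z v) l -
      b (fderiv ℝ (P.u i) z v) k * ((b (P.u i z) k)⁻¹ * (b (P.u i z) k)⁻¹) * b (P.u i z) l) =
      (b (P.u i z) k)⁻¹ * (I * b (fderiv ℝ (P.u i) z v) l) -
      (I * b (fderiv ℝ (P.u i) z v) k) * ((b (P.u i z) k)⁻¹ * (b (P.u i z) k)⁻¹) *
        b (P.u i z) l := by ring
  rw [h4, h2, h2]
  field_simp
  ring

end

end Crest.Agent.R281.Pe_313
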