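import Crest.Agent.R281.Pe1_313

/-!
# R281 (S0424), FAM (helper313), part 2: charts, atlas and projective embedding

* `Ch P b N`   : holomorphic charts of `X`; `exists_ch`; `Ch.hom`; `Ch.diffAt`
* `OX`, `nuX`  : the affine coordinates on `X`
* `famP`       : the family of all charts
* `HolA P b A` : the atlas `A : Atl N X` is holomorphic for the embedding `P`;
  `exists_atl`, `HolA.toProj`, `HolA.unique`
-/

set_option autoImplicit false
set_option linter.unusedSectionVars false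

open Set Filter Topology Complex
open scoped ContDiff

namespace Crest.Agent.R281.Pe_313

open Crest.Agent.R275.Geo Crest.Agent.R275.Core144 Crest.Agent.R275.GC293
open Crest.Agent.R273.Defs_333 Crest.Agent.R273.Fam_835 Crest.Agent.R273.PB_835
open Crest.Agent.R273.Map_835
open Crest.Agent.R281.HkR_835 Crest.Agent.R281.Ehr2_268

noncomputable section

variable {V X : Type} [NormedAddCommGroup V] [NormedSpace ℝ V] [TopologicalSpace X]
variable {H : Type} [NormedAddCommGroup H] [NormedSpace ℂ H] {K N : ℕ}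
variable {C : RCh V X} (P : HEmb C H) (b : H ≃L[ℂ] (Fin (K + 1) → ℂ))

/-- a holomorphic chart of `X` -/
structure Ch (N : ℕ) where
  i : C.ι
  k : Fin (K + 1)
  π : (Fin (K + 1) → ℂ) →L[ℂ] Cn N
  e : OpenPartialHomeomorph V (Cn N)
  coe : ∀ z ∈ e.source, e z = π (nu P b k i z)
  sub : e.source ⊆ dm P b k i
  bij : ∀ z ∈ e.source, Function.Bijective fun v => π (fderiv ℝ (nu P b k i) z v)

variable {P b}

theorem exists_ch [FiniteDimensional ℝ V] (hcx : P.Cx) (hN : Module.finrank ℝ V = 2 * N) {i : C.ι}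
    {k : Fin (K + 1)} {z0 : V} (hz0 : z0 ∈ dm P b k i) :
    ∃ c : Ch P b N, c.i = i ∧ c.k = k ∧ z0 ∈ c.e.source := by
  have : CompleteSpace V := FiniteDimensional.complete ℝ V
  have : FiniteDimensional ℝ (Cn N) := inferInstance
  obtain ⟨π, hπ⟩ := exists_projection hN (fderiv ℝ (nu P b k i) z0) (fun v => nu_imm hz0 v)
    (nu_cx hcx hz0)
  let πR : (Fin (K + 1) → ℂ) →L[ℝ] Cn N := π.restrictScalars ℝ
  let ψ : V → Cn N := fun z => π (nu P b k i z)
  have hψ : ∀ z ∈ dm P b k i, ContDiffAt ℝ ∞ ψ z := fun z hz =>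
    πR.contDiff.contDiffAt.comp z (nu_contDiffAt hz)
  have hψd : ∀ z ∈ dm P b k i, HasFDerivAt ψ (πR.comp (fderiv ℝ (nu P b k i) z)) z := fun z hz =>
    HasFDerivAt.comp (g := fun w => πR w) (f := nu P b k i) z πR.hasFDerivAt
      (nu_diff hz).hasFDerivAt
  obtain ⟨T, hT⟩ := exists_equiv (πR.comp (fderiv ℝ (nu P b k i) z0)) hπ
  have hT' : HasFDerivAt ψ (T : V →L[ℝ] Cn N) z0 := by
    rw [hT]
    exact hψd z0 hz0
  let e' := (hψ z0 hz0).toOpenPartialHomeomorph ψ hT' (by simp)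
  have he' : ∀ z, e' z = ψ z := fun _ => rfl
  let U : Set V := dm P b k i ∩ (fderiv ℝ ψ) ⁻¹' (range ((↑) : (V ≃L[ℝ] Cn N) → V →L[ℝ] Cn N))
  have hU : IsOpen U := by
    refine ContinuousOn.isOpen_inter_preimage (fun z hz => ?_) (isOpen_dm k i)
      ContinuousLinearEquiv.isOpen
    exact ((hψ z hz).fderiv_right (m := 0) (by simp)).continuousAt.continuousWithinAt
  refine ⟨⟨i, k, π, e'.restrOpen U hU, fun z hz => rfl, fun z hz => ?_, fun z hz => ?_⟩,
    rfl, rfl, ?_⟩
  · exact hz.2.1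
  · obtain ⟨T', hT1⟩ := hz.2.2
    rw [(hψd z hz.2.1).fderiv] at hT1
    have h1 : (fun v => π (fderiv ℝ (nu P b k i) z v)) = T' := by
      funext v
      have := congrArg (fun S : V →L[ℝ] Cn N => S v) hT1
      exact this.symm
    rw [h1]
    exact T'.bijective
  · refine ⟨(hψ z0 hz0).mem_toOpenPartialHomeomorph_source hT' (by simp), hz0, T, ?_⟩
    exact hT'.fderiv.symm

namespace Ch

variable (c : Ch P b N)

theorem hasFDerivAt_e [FiniteDimensional ℝ V] {z : V} (hz : z ∈ c.e.source) :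
    ∃ T : V ≃L[ℝ] Cn N, HasFDerivAt c.e (T : V →L[ℝ] Cn N) z ∧
      ∀ v, T v = c.π (fderiv ℝ (nu P b c.k c.i) z v) := by
  let πR : (Fin (K + 1) → ℂ) →L[ℝ] Cn N := c.π.restrictScalars ℝ
  obtain ⟨T, hT⟩ := exists_equiv (πR.comp (fderiv ℝ (nu P b c.k c.i) z)) (c.bij z hz)
  have h1 : HasFDerivAt (fun z => c.π (nu P b c.k c.i z))
      (πR.comp (fderiv ℝ (nu P b c.k c.i) z)) z :=
    HasFDerivAt.comp (g := fun w => πR w) (f := nu P b c.k c.i) z πR.hasFDerivAt
      (nu_diff (c.sub hz)).hasFDerivAt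
  refine ⟨T, ?_, fun v => ?_⟩
  · rw [hT]
    refine h1.congr_of_eventuallyEq ?_
    filter_upwards [c.e.open_source.mem_nhds hz] with y hy using c.coe y hy
  · exact congrArg (fun S : V →L[ℝ] Cn N => S v) hT

theorem contDiffAt_e {z : V} (hz : z ∈ c.e.source) : ContDiffAt ℝ ∞ c.e z := by
  have h1 : ContDiffAt ℝ ∞ (fun z => c.π (nu P b c.k c.i z)) z :=
    (c.π.restrictScalars ℝ).contDiff.contDiffAt.comp z (nu_contDiffAt (c.sub hz))
  refine h1.congr_of_eventuallyEq ?_
  filter_upwards [c.e.open_source.mem_nhds hz] with y hy using c.coe y hy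

theorem contDiffAt_symm [FiniteDimensional ℝ V] {y : Cn N} (hy : y ∈ c.e.target) :
    ContDiffAt ℝ ∞ c.e.symm y := by
  have : CompleteSpace V := FiniteDimensional.complete ℝ V
  obtain ⟨T, hT, -⟩ := c.hasFDerivAt_e (c.e.map_target hy)
  exact c.e.contDiffAt_symm hy hT (c.contDiffAt_e (c.e.map_target hy))

/-- **holomorphic functions of the affine coordinates are holomorphic in the chart** -/
theorem diffAt [FiniteDimensional ℝ V] (hcx : P.Cx) {W : Type*} [NormedAddCommGroup W]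
    [NormedSpace ℂ W] {y : Cn N} (hy : y ∈ c.e.target) {g : (Fin (K + 1) → ℂ) → W}
    (hg : DifferentiableAt ℂ g (nu P b c.k c.i (c.e.symm y))) :
    DifferentiableAt ℂ (fun y => g (nu P b c.k c.i (c.e.symm y))) y := by
  have hz := c.e.map_target hy
  obtain ⟨T, hT, hTv⟩ := c.hasFDerivAt_e hz
  have h1 : HasFDerivAt c.e.symm (T.symm : Cn N →L[ℝ] V) y := c.e.hasFDerivAt_symm hy hT
  have h2 := HasFDerivAt.comp (g := nu P b c.k c.i) (f := c.e.symm) y
    (nu_diff (c.sub hz)).hasFDerivAt h1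
  have h3 := HasFDerivAt.comp (g := g) (f := fun y => nu P b c.k c.i (c.e.symm y)) y
    (hg.hasFDerivAt.restrictScalars ℝ) h2
  obtain ⟨S, hS⟩ := exists_complex (((fderiv ℂ g (nu P b c.k c.i (c.e.symm y))).restrictScalars
    ℝ).comp ((fderiv ℝ (nu P b c.k c.i) (c.e.symm y)).comp (T.symm : Cn N →L[ℝ] V))) fun w => by
    obtain ⟨v', hv'⟩ := nu_cx hcx (c.sub hz) (T.symm w)
    have h4 : T v' = I • w := by
      rw [hTv, ← hv', map_smul, ← hTv, T.apply_symm_apply]
    have h5 : T.symm (I • w) = v' := by rw [← h4, T.symm_apply_apply]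
    show fderiv ℂ g _ (fderiv ℝ (nu P b c.k c.i) (c.e.symm y) (T.symm (I • w))) =
      I • fderiv ℂ g _ (fderiv ℝ (nu P b c.k c.i) (c.e.symm y) (T.symm w))
    rw [h5, ← hv', map_smul]
  exact (hasFDerivAt_of_restrictScalars ℝ h3 hS).differentiableAt

/-- the chart of `X` -/
def hom : OpenPartialHomeomorph X (Cn N) := (C.e c.i).trans c.e

theorem mem_source {x : X} : x ∈ c.hom.source ↔ x ∈ (C.e c.i).source ∧ C.e c.i x ∈ c.e.source := by
  simp [hom]

theorem mem_target {y : Cn N} : y ∈ c.hom.target ↔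
    y ∈ c.e.target ∧ c.e.symm y ∈ (C.e c.i).target := by
  simp [hom]

theorem mem_target' {y : Cn N} : y ∈ c.hom.target ↔ y ∈ c.e.target := by
  rw [c.mem_target]
  exact ⟨fun h => h.1, fun h => ⟨h, (c.sub (c.e.map_target h)).1⟩⟩

theorem hom_apply (x : X) : c.hom x = c.e (C.e c.i x) := rfl

theorem hom_symm (y : Cn N) : c.hom.symm y = (C.e c.i).symm (c.e.symm y) := rfl

end Ch

/-! ### the affine coordinates on `X` -/

variable (P b)

/-- a chart at `x` -/
def ci (C : RCh V X) (x : X) : C.ι := (C.cover x).choose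

theorem ci_mem (C : RCh V X) (x : X) : x ∈ (C.e (ci C x)).source := (C.cover x).choose_spec

/-- the open set on which the `k`-th coordinate does not vanish -/
def OX (k : Fin (K + 1)) : Set X := {x | b (P.u (ci C x) (C.e (ci C x) x)) k ≠ 0}

/-- the `k`-th affine coordinates -/
def nuX (k : Fin (K + 1)) (x : X) : Fin (K + 1) → ℂ := nu P b k (ci C x) (C.e (ci C x) x)

variable {P b}

theorem mem_ov {i j : C.ι} {x : X} (hi : x ∈ (C.e i).source) (hj : x ∈ (C.e j).source) :
    C.e i x ∈ C.ov i j :=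
  ⟨(C.e i).map_source hi, by rw [(C.e i).left_inv hi]; exact hj⟩

theorem t_e {i j : C.ι} {x : X} (hi : x ∈ (C.e i).source) : C.t i j (C.e i x) = C.e j x := by
  show C.e j ((C.e i).symm (C.e i x)) = C.e j x
  rw [(C.e i).left_inv hi]

theorem dm_iff {i j : C.ι} {x : X} {k : Fin (K + 1)} (hi : x ∈ (C.e i).source)
    (hj : x ∈ (C.e j).source) : C.e i x ∈ dm P b k i ↔ C.e j x ∈ dm P b k j := by
  have key : ∀ {i j : C.ι}, x ∈ (C.e i).source → x ∈ (C.e j).source →
      C.e i x ∈ dm P b k i → C.e j x ∈ dm P b k j := by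
    intro i j hi hj h
    obtain ⟨a, ha⟩ := P.tr i j (C.e i x) (mem_ov hi hj)
    rw [t_e hi] at ha
    refine ⟨(C.e j).map_source hj, fun h0 => h.2 ?_⟩
    rw [ha, map_smul, Pi.smul_apply, h0, smul_zero]
  exact ⟨key hi hj, key hj hi⟩

theorem mem_OX {i : C.ι} {x : X} {k : Fin (K + 1)} (hi : x ∈ (C.e i).source) :
    x ∈ OX P b k ↔ C.e i x ∈ dm P b k i := by
  rw [← dm_iff (ci_mem C x) hi]
  exact ⟨fun h => ⟨(C.e _).map_source (ci_mem C x), h⟩, fun h => h.2⟩

theorem nuX_eq {i : C.ι} {x : X} {k : Fin (K + 1)} (hi : x ∈ (C.e i).source) (hk : x ∈ OX P b k) :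
    nuX P b k x = nu P b k i (C.e i x) := by
  have h1 := (mem_OX (ci_mem C x)).1 hk
  have h2 := (mem_OX hi).1 hk
  have h3 := nu_chg (k' := k) (mem_ov (ci_mem C x) hi) h1 (by rw [t_e (ci_mem C x)]; exact h2)
  rw [t_e (ci_mem C x), nu_self h1, inv_one, one_smul] at h3
  exact h3.2.symm

theorem nuX_chg {x : X} {k k' : Fin (K + 1)} (hk : x ∈ OX P b k) (hk' : x ∈ OX P b k') :
    nuX P b k x k' ≠ 0 ∧ nuX P b k' x = (nuX P b k x k')⁻¹ • nuX P b k x := by
  have h1 := (mem_OX (ci_mem C x)).1 hk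
  have h2 := (mem_OX (ci_mem C x)).1 hk'
  have h3 := nu_chg (k' := k') (mem_ov (ci_mem C x) (ci_mem C x)) h1
    (by rw [t_e (ci_mem C x)]; exact h2)
  rw [t_e (ci_mem C x)] at h3
  exact h3

theorem nuX_self {x : X} {k : Fin (K + 1)} (hk : x ∈ OX P b k) : nuX P b k x k = 1 :=
  nu_self ((mem_OX (ci_mem C x)).1 hk)

theorem isOpen_OX (k : Fin (K + 1)) : IsOpen (OX P b k) := by
  rw [isOpen_iff_mem_nhds]
  intro x hx
  have h1 := (mem_OX (ci_mem C x)).1 hx
  filter_upwards [(C.e (ci C x)).open_source.mem_nhds (ci_mem C x),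
    ((C.e (ci C x)).continuousAt (ci_mem C x)).preimage_mem_nhds
      ((isOpen_dm k _).mem_nhds h1)] with y hy1 hy2
  exact (mem_OX hy1).2 hy2

theorem exists_OX (x : X) : ∃ k, x ∈ OX P b k := by
  by_contra h
  push Not at h
  refine P.ne (ci C x) (C.e (ci C x) x) ((C.e _).map_source (ci_mem C x)) ?_
  apply b.injective
  rw [map_zero]
  funext k
  by_contra h1
  exact h k h1

/-- every point is described by its coordinates -/
theorem eq_of_nuX {x y : X} {k : Fin (K + 1)} (hx : x ∈ OX P b k)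
    (h : nuX P b k x = nuX P b k y) : x = y := by
  have h1 := ci_mem C x
  have h2 := ci_mem C y
  have h3 := P.inj (ci C x) (ci C y) _ ((C.e _).map_source h1) _ ((C.e _).map_source h2)
    ⟨b (P.u (ci C x) (C.e (ci C x) x)) k * (b (P.u (ci C y) (C.e (ci C y) y)) k)⁻¹, by
      apply b.injective
      have h4 := congrArg (fun w => b (P.u (ci C x) (C.e (ci C x) x)) k • w) h
      have h5 : b (P.u (ci C x) (C.e (ci C x) x)) k ≠ 0 := hx
      simp only [nuX, nu, smul_smul] at h4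
      rw [mul_inv_cancel₀ h5, one_smul] at h4
      rw [map_smul]
      exact h4⟩
  rwa [(C.e _).left_inv h1, (C.e _).left_inv h2] at h3

namespace Ch

variable (c : Ch P b N)

theorem mem_OX {x : X} (hx : x ∈ c.hom.source) : x ∈ OX P b c.k :=
  (Pe_313.mem_OX (c.mem_source.1 hx).1).2 (c.sub (c.mem_source.1 hx).2)

theorem nuX_symm {y : Cn N} (hy : y ∈ c.hom.target) :
    nuX P b c.k (c.hom.symm y) = nu P b c.k c.i (c.e.symm y) := by
  have h1 := c.hom.map_target hy
  have h2 := nuX_eq (c.mem_source.1 h1).1 (c.mem_OX h1)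
  rw [h2, c.hom_symm, (C.e c.i).right_inv (c.mem_target.1 hy).2]

theorem hom_eq {x : X} (hx : x ∈ c.hom.source) : c.hom x = c.π (nuX P b c.k x) := by
  rw [c.hom_apply, c.coe _ (c.mem_source.1 hx).2, nuX_eq (c.mem_source.1 hx).1 (c.mem_OX hx)]

theorem diffX [FiniteDimensional ℝ V] (hcx : P.Cx) {W : Type*} [NormedAddCommGroup W]
    [NormedSpace ℂ W] {y : Cn N} (hy : y ∈ c.hom.target) {k : Fin (K + 1)}
    (hk : c.hom.symm y ∈ OX P b k) {g : (Fin (K + 1) → ℂ) → W}
    (hg : DifferentiableAt ℂ g (nuX P b k (c.hom.symm y))) :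
    DifferentiableAt ℂ (fun y => g (nuX P b k (c.hom.symm y))) y := by
  have h0 := c.mem_OX (c.hom.map_target hy)
  have h1 := nuX_chg h0 hk
  have h2 : DifferentiableAt ℂ (fun w : Fin (K + 1) → ℂ => g ((w k)⁻¹ • w))
      (nu P b c.k c.i (c.e.symm y)) := by
    rw [← c.nuX_symm hy]
    have h3a : DifferentiableAt ℂ (fun w : Fin (K + 1) → ℂ => w k)
        (nuX P b c.k (c.hom.symm y)) := differentiableAt_apply k _
    have h3 : DifferentiableAt ℂ (fun w : Fin (K + 1) → ℂ => (w k)⁻¹ • w)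
        (nuX P b c.k (c.hom.symm y)) := (h3a.fun_inv h1.1).fun_smul differentiableAt_id
    have h4 : DifferentiableAt ℂ g ((nuX P b c.k (c.hom.symm y) k)⁻¹ •
        nuX P b c.k (c.hom.symm y)) := by
      rw [← h1.2]
      exact hg
    exact DifferentiableAt.comp (g := g) (f := fun w : Fin (K + 1) → ℂ => (w k)⁻¹ • w) _ h4 h3
  have h3 := c.diffAt hcx (c.mem_target'.1 hy) h2
  refine h3.congr_of_eventuallyEq ?_
  have h5 : ∀ᶠ y' in 𝓝 y, c.hom.symm y' ∈ OX P b k :=
    (c.hom.continuousAt_symm hy).preimage_mem_nhds ((isOpen_OX k).mem_nhds hk)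
  filter_upwards [c.hom.open_target.mem_nhds hy, h5] with y' hy' hk'
  show g (nuX P b k (c.hom.symm y')) = _
  rw [(nuX_chg (c.mem_OX (c.hom.map_target hy')) hk').2, c.nuX_symm hy']

end Ch

/-- the family of holomorphic charts -/
def famP [FiniteDimensional ℝ V] (hcx : P.Cx) (hN : Module.finrank ℝ V = 2 * N) (b : H ≃L[ℂ] (Fin (K + 1) → ℂ)) : Fam N X where
  ι := Ch P b N
  e := Ch.hom
  cover x := by
    obtain ⟨k, hk⟩ := exists_OX (P := P) (b := b) x
    obtain ⟨c, h1, h2, h3⟩ := exists_ch hcx hN ((mem_OX (ci_mem C x)).1 hk)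
    refine ⟨c, ?_⟩
    rw [c.mem_source, h1]
    exact ⟨ci_mem C x, h3⟩
  holo c c' := by
    intro y hy
    refine DifferentiableAt.differentiableWithinAt ?_
    have h1 := c.diffX hcx hy.1 (c'.mem_OX hy.2) (g := fun w => c'.π w)
      c'.π.differentiableAt
    refine h1.congr_of_eventuallyEq ?_
    filter_upwards [(c.hom.isOpen_inter_preimage_symm c'.hom.open_source).mem_nhds hy] with y' hy'
    exact c'.hom_eq hy'.2

end

end Crest.Agent.R281.Pe_313
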