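import Crest.Agent.R281.Pe3_313

/-!
# R281 (S0424), FAM (helper313), part 4: from a projective embedding of a complex manifold to the
carrier of the members

* `cmp_refl`, `cmp_trans`  : compatibility of systems of real charts
* `ofProj`   : `Q : ProjD A` ⇒ `HEmb (ofAtl A) H`, `u i z = b⁻¹ (Q.F i ((A.e i).symm z))`
* `ofProj_cx`, `ofProj_holA` : complex tangent spaces; the atlas `A` is holomorphic for it
* `ofProj_cone` : the cone
* `HolA.cx`     : conversely, a holomorphic atlas forces the tangent spaces to be complex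
-/

set_option autoImplicit false
set_option linter.unusedSectionVars false

open Set Filter Topology Complex
open scoped ContDiff

namespace Crest.Agent.R281.Pe_313

open Crest.Agent.R275.Geo Crest.Agent.R275.Core144 Crest.Agent.R275.GC293
open Crest.Agent.R273.Defs_333 Crest.Agent.R273.Fam_835 Crest.Agent.R273.PB_835
open Crest.Agent.R273.Map_835
open Crest.Agent.R281.HkR_835 Crest.Agent.R281.Ehr2_268

noncomputable section

section cmp

variable {V V' V'' X : Type} [NormedAddCommGroup V] [NormedSpace ℝ V] [NormedAddCommGroup V']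
  [NormedSpace ℝ V'] [NormedAddCommGroup V''] [NormedSpace ℝ V''] [TopologicalSpace X]

theorem cmp_refl (C : RCh V X) : Cmp C C := ⟨fun i j => C.sm j i, fun i j => C.sm i j⟩

theorem mt_trans {C : RCh V X} {C' : RCh V' X} {C'' : RCh V'' X} (h : Cmp C C')
    (h' : Cmp C' C'') (i : C.ι) (j : C''.ι) : ContDiffOn ℝ ∞ (mt C C'' i j) (mov C C'' i j) := by
  intro z hz
  obtain ⟨k, hk⟩ := C'.cover ((C''.e j).symm z)
  have hz1 : z ∈ mov C' C'' k j := ⟨hz.1, hk⟩
  have e1 : ContDiffAt ℝ ∞ (mt C' C'' k j) z :=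
    (h'.s k j).contDiffAt ((Cmp.isOpen_mov C' C'' k j).mem_nhds hz1)
  have hz2 : mt C' C'' k j z ∈ mov C C' i k := by
    refine ⟨(C'.e k).map_source hk, ?_⟩
    show (C'.e k).symm (C'.e k ((C''.e j).symm z)) ∈ (C.e i).source
    rw [(C'.e k).left_inv hk]
    exact hz.2
  have e2 : ContDiffAt ℝ ∞ (mt C C' i k) (mt C' C'' k j z) :=
    (h.s i k).contDiffAt ((Cmp.isOpen_mov C C' i k).mem_nhds hz2)
  have e3 : ContDiffAt ℝ ∞ (fun y => mt C C' i k (mt C' C'' k j y)) z :=
    ContDiffAt.comp (g := mt C C' i k) (f := mt C' C'' k j) z e2 e1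
  refine (e3.congr_of_eventuallyEq ?_).contDiffWithinAt
  filter_upwards [(Cmp.isOpen_mov C' C'' k j).mem_nhds hz1] with y hy
  show C.e i ((C''.e j).symm y) = C.e i ((C'.e k).symm (C'.e k ((C''.e j).symm y)))
  rw [(C'.e k).left_inv hy.2]

theorem cmp_trans {C : RCh V X} {C' : RCh V' X} {C'' : RCh V'' X} (h : Cmp C C')
    (h' : Cmp C' C'') : Cmp C C'' :=
  ⟨fun i j => mt_trans h h' i j, fun i j => mt_trans h'.symm h.symm j i⟩

end cmp

section conv

variable {X : Type} [TopologicalSpace X] {N : ℕ} {A : Atl N X}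
variable {H : Type} [NormedAddCommGroup H] [NormedSpace ℂ H]

section

variable (Q : ProjD A)

theorem F_hol {a : A.ι} {z : Cn N} (hz : z ∈ (A.e a).target) :
    DifferentiableAt ℂ (fun z => Q.F a ((A.e a).symm z)) z := by
  refine differentiableAt_pi.2 fun k => ?_
  have h := Q.hol a k
  exact (h z ⟨hz, mem_univ _⟩).differentiableAt
    (((A.e a).isOpen_inter_preimage_symm isOpen_univ).mem_nhds ⟨hz, mem_univ _⟩)

theorem F_cont {a : A.ι} {z : Cn N} (hz : z ∈ (A.e a).target) :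
    ContDiffAt ℝ ∞ (fun z => Q.F a ((A.e a).symm z)) z :=
  contDiffAt_of_hol (A.e a).open_target (fun _ hy => (F_hol Q hy).differentiableWithinAt) hz

end

/-- homogeneous coordinates of the manifold from a projective embedding -/
def ofProj (Q : ProjD A) (b : H ≃L[ℂ] (Fin (Q.N + 1) → ℂ)) : HEmb (ofAtl A) H where
  u a z := b.symm (Q.F a ((A.e a).symm z))
  sm a := fun z hz => by
    have h1 : ContDiff ℝ ∞ (fun w : Fin (Q.N + 1) → ℂ => b.symm w) :=
      ((b.symm : (Fin (Q.N + 1) → ℂ) →L[ℂ] H).restrictScalars ℝ).contDiff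
    have h2 : ContDiffAt ℝ ∞ (fun z => b.symm (Q.F a ((A.e a).symm z))) z :=
      ContDiffAt.comp (g := fun w : Fin (Q.N + 1) → ℂ => b.symm w)
        (f := fun z => Q.F a ((A.e a).symm z)) z h1.contDiffAt (F_cont Q hz)
    exact h2.contDiffWithinAt
  ne a z hz h := by
    have h1 : Q.F a ((A.e a).symm z) = 0 := by
      have := congrArg b h
      rwa [b.apply_symm_apply, map_zero] at this
    exact Q.ne a _ ((A.e a).map_target hz) h1
  tr a a' z hz := by
    obtain ⟨c, hc⟩ := Q.tr a a' ((A.e a).symm z) ⟨(A.e a).map_target hz.1, hz.2⟩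
    refine ⟨c, ?_⟩
    have h1 : (A.e a').symm ((ofAtl A).t a a' z) = (A.e a).symm z := (A.e a').left_inv hz.2
    show b.symm (Q.F a ((A.e a).symm z)) = c • b.symm (Q.F a' ((A.e a').symm ((ofAtl A).t a a' z)))
    rw [h1, hc, map_smul]
  inj a a' z hz z' hz' h := by
    obtain ⟨c, hc⟩ := h
    refine Q.inj a a' _ ((A.e a).map_target hz) _ ((A.e a').map_target hz') ⟨c, ?_⟩
    have := congrArg b hc
    rwa [map_smul, b.apply_symm_apply, b.apply_symm_apply] at this
  imm a z hz v h := by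
    obtain ⟨c, hc⟩ := h
    have h1 : HasFDerivAt (fun z => b.symm (Q.F a ((A.e a).symm z)))
        (((b.symm : (Fin (Q.N + 1) → ℂ) →L[ℂ] H).comp
          (fderiv ℂ (fun z => Q.F a ((A.e a).symm z)) z)).restrictScalars ℝ) z := by
      have h2 : HasFDerivAt (fun z => b.symm (Q.F a ((A.e a).symm z)))
          ((b.symm : (Fin (Q.N + 1) → ℂ) →L[ℂ] H).comp
            (fderiv ℂ (fun z => Q.F a ((A.e a).symm z)) z)) z :=
        b.symm.hasFDerivAt.comp z (F_hol Q hz).hasFDerivAt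
      exact h2.restrictScalars ℝ
    rw [h1.fderiv] at hc
    refine Q.imm a z hz v ⟨c, ?_⟩
    have h3 : b.symm (fderiv ℂ (fun z => Q.F a ((A.e a).symm z)) z v) =
        c • b.symm (Q.F a ((A.e a).symm z)) := hc
    have h4 := congrArg b h3
    rwa [map_smul, b.apply_symm_apply, b.apply_symm_apply] at h4

variable (Q : ProjD A) (b : H ≃L[ℂ] (Fin (Q.N + 1) → ℂ))

@[simp] theorem ofProj_u (a : A.ι) (z : Cn N) :
    (ofProj Q b).u a z = b.symm (Q.F a ((A.e a).symm z)) := rfl

theorem ofProj_fderiv {a : A.ι} {z : Cn N} (hz : z ∈ (A.e a).target) (v : Cn N) :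
    fderiv ℝ ((ofProj Q b).u a) z v =
      b.symm (fderiv ℂ (fun z => Q.F a ((A.e a).symm z)) z v) := by
  have h2 : HasFDerivAt (fun z => b.symm (Q.F a ((A.e a).symm z)))
      ((b.symm : (Fin (Q.N + 1) → ℂ) →L[ℂ] H).comp
        (fderiv ℂ (fun z => Q.F a ((A.e a).symm z)) z)) z :=
    b.symm.hasFDerivAt.comp z (F_hol Q hz).hasFDerivAt
  have h3 : fderiv ℝ ((ofProj Q b).u a) z = _ := (h2.restrictScalars ℝ).fderiv
  rw [h3]
  rfl

theorem ofProj_cx : (ofProj Q b).Cx := by
  intro a z hz v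
  refine ⟨I • v, 0, ?_⟩
  rw [ofProj_fderiv Q b hz, ofProj_fderiv Q b hz, map_smul, map_smul, zero_smul, add_zero]

/-- the cone of the embedding -/
theorem ofProj_cone (w : H) : w ∈ (ofProj Q b).cone ↔
    ∃ a, ∃ x ∈ (A.e a).source, ∃ c : ℂ, c ≠ 0 ∧ b w = c • Q.F a x := by
  constructor
  · rintro ⟨a, z, hz, c, hc, rfl⟩
    refine ⟨a, (A.e a).symm z, (A.e a).map_target hz, c, hc, ?_⟩
    rw [map_smul, ofProj_u, b.apply_symm_apply]
  · rintro ⟨a, x, hx, c, hc, h⟩
    refine ⟨a, A.e a x, (A.e a).map_source hx, c, hc, ?_⟩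
    rw [ofProj_u, (A.e a).left_inv hx, ← map_smul, ← h, b.symm_apply_apply]

/-- affine coordinates of the embedding -/
theorem ofProj_nuX {a : A.ι} {x : X} (hx : x ∈ (A.e a).source) {k : Fin (Q.N + 1)}
    (hk : x ∈ OX (ofProj Q b) b k) :
    Q.F a x k ≠ 0 ∧ nuX (ofProj Q b) b k x = (Q.F a x k)⁻¹ • Q.F a x := by
  have h1 := (mem_OX (P := ofProj Q b) (b := b) (i := a) hx).1 hk
  have h2 : b ((ofProj Q b).u a ((ofAtl A).e a x)) = Q.F a x := by
    show b (b.symm (Q.F a ((A.e a).symm (A.e a x)))) = Q.F a x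
    rw [b.apply_symm_apply, (A.e a).left_inv hx]
  refine ⟨?_, ?_⟩
  · have h3 := h1.2
    rwa [h2] at h3
  · rw [nuX_eq (i := a) hx hk]
    show (b ((ofProj Q b).u a ((ofAtl A).e a x)) k)⁻¹ • b ((ofProj Q b).u a ((ofAtl A).e a x)) = _
    rw [h2]

/-- the atlas is holomorphic for the embedding -/
theorem ofProj_holA : HolA (ofProj Q b) b A where
  cmp := cmp_refl _
  hol a k z hz hk := by
    have h1 : ∀ᶠ y in 𝓝 z, nuX (ofProj Q b) b k ((A.e a).symm y) =
        (Q.F a ((A.e a).symm y) k)⁻¹ • Q.F a ((A.e a).symm y) := by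
      have h3 : ∀ᶠ z' in 𝓝 z, (A.e a).symm z' ∈ OX (ofProj Q b) b k :=
        ((A.e a).continuousAt_symm hz).preimage_mem_nhds ((isOpen_OX k).mem_nhds hk)
      filter_upwards [(A.e a).open_target.mem_nhds hz, h3] with y hy hk'
      exact (ofProj_nuX Q b ((A.e a).map_target hy) hk').2
    have h2 := F_hol Q hz
    have h4 : Q.F a ((A.e a).symm z) k ≠ 0 := (ofProj_nuX Q b ((A.e a).map_target hz) hk).1
    have h5 : DifferentiableAt ℂ (fun y => (Q.F a ((A.e a).symm y) k)⁻¹ •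
        Q.F a ((A.e a).symm y)) z :=
      ((differentiableAt_pi.1 h2 k).inv h4).smul h2
    exact h5.congr_of_eventuallyEq h1

end conv

section back

variable {V X : Type} [NormedAddCommGroup V] [NormedSpace ℝ V] [TopologicalSpace X]
variable {H : Type} [NormedAddCommGroup H] [NormedSpace ℂ H] {K N : ℕ}
variable {C : RCh V X} {P : HEmb C H} {b : H ≃L[ℂ] (Fin (K + 1) → ℂ)} {A : Atl N X}

/-- derivative of `nu` in the chart `i` along a real vector, through the holomorphic atlas -/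
theorem HolA.dnu (h : HolA P b A) {a : A.ι} {i : C.ι} {z : Cn N} (hz : z ∈ mov C (ofAtl A) i a)
    {k : Fin (K + 1)} (hk : (A.e a).symm z ∈ OX P b k) (v : Cn N) :
    fderiv ℝ (nu P b k i) (mt C (ofAtl A) i a z) (fderiv ℝ (mt C (ofAtl A) i a) z v) =
      fderiv ℂ (fun z => nuX P b k ((A.e a).symm z)) z v := by
  have hd := h.hol a k z hz.1 hk
  have h2 : (fun z => nuX P b k ((A.e a).symm z)) =ᶠ[𝓝 z]
      fun z => nu P b k i (mt C (ofAtl A) i a z) := by
    have h3 : ∀ᶠ z' in 𝓝 z, (A.e a).symm z' ∈ OX P b k :=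
      ((A.e a).continuousAt_symm hz.1).preimage_mem_nhds ((isOpen_OX k).mem_nhds hk)
    filter_upwards [(Cmp.isOpen_mov C (ofAtl A) i a).mem_nhds hz, h3] with z' hz' hk'
    exact h.nuX_mt hz' hk'
  have hzd : mt C (ofAtl A) i a z ∈ dm P b k i := (mem_OX hz.2).1 hk
  have h4 := HasFDerivAt.comp (g := nu P b k i) (f := mt C (ofAtl A) i a) z
    (nu_diff hzd).hasFDerivAt (h.cmp.diff hz).hasFDerivAt
  have h5 : fderiv ℝ (fun z => nu P b k i (mt C (ofAtl A) i a z)) z = _ := h4.fderiv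
  have h6 : fderiv ℝ (fun z => nuX P b k ((A.e a).symm z)) z v =
      fderiv ℂ (fun z => nuX P b k ((A.e a).symm z)) z v := by
    rw [hd.fderiv_restrictScalars ℝ]
    rfl
  rw [← h6, h2.fderiv_eq, h5]
  rfl

end back

end

end Crest.Agent.R281.Pe_313
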