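import Crest.Agent.R281.Pe4_313
import Crest.Agent.R281.HkR9_835
import Crest.Agent.R281.Defs_273

/-!
# R281 (S0424), FAM (helper313), part 5: types of forms and the complex atlas of a member

`P : HEmb C H`, `HolA P b A`.  `IRel P i z v v'` : `v' = J v` for the complex structure of the
tangent spaces of the image, `i · Du(v) = Du(v') + c u`.

* `HolA.iRel`   : `J` corresponds to the multiplication by `i` in the charts of `A`
* `HolA.iRel_iff`
* `HolA.hsymp`  : `s₁ + i s₂` of type `(2,0)` for `P`, closed, nondegenerate ⇒ `HSymp A`,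
                  `hsymp_w` (the value of the form)
* `HolA.k11`    : closed `(1,1)`-form for `P` ⇒ `K11 A`; `HolA.posDef`
-/

set_option autoImplicit false
set_option linter.unusedSectionVars false

open Set Filter Topology Complex
open scoped ContDiff ComplexOrder

namespace Crest.Agent.R281.Pe_313

open Crest.Agent.R275.Geo Crest.Agent.R275.Core144 Crest.Agent.R275.GC293
open Crest.Agent.R273.Defs_333 Crest.Agent.R273.Fam_835 Crest.Agent.R273.PB_835
open Crest.Agent.R273.Map_835 Crest.Agent.R273.Kah_333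
open Crest.Agent.R281.HkR_835 Crest.Agent.R281.Ehr2_268 Crest.Agent.R281.Defs_273

noncomputable section

variable {V X : Type} [NormedAddCommGroup V] [NormedSpace ℝ V] [TopologicalSpace X]
variable {H : Type} [NormedAddCommGroup H] [NormedSpace ℂ H] {K N : ℕ}
variable {C : RCh V X}

/-- `v' = J v` for the complex structure of the tangent spaces of the image -/
def IRel (P : HEmb C H) (i : C.ι) (z : V) (v v' : V) : Prop :=
  ∃ c : ℂ, I • fderiv ℝ (P.u i) z v = fderiv ℝ (P.u i) z v' + c • P.u i z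

theorem IRel.neg {P : HEmb C H} {i : C.ι} {z v v' : V} (h : IRel P i z v v') :
    IRel P i z v' (-v) := by
  obtain ⟨c, hc⟩ := h
  refine ⟨-(I * c), ?_⟩
  have h1 : fderiv ℝ (P.u i) z v' = I • fderiv ℝ (P.u i) z v - c • P.u i z := by
    rw [hc, add_sub_cancel_right]
  rw [h1, smul_sub, smul_smul, I_mul_I, smul_smul, map_neg, neg_one_smul, neg_smul, sub_eq_add_neg]

theorem IRel.uniq {P : HEmb C H} {i : C.ι} {z v v' v'' : V} (hz : z ∈ (C.e i).target)
    (h : IRel P i z v v') (h' : IRel P i z v v'') : v' = v'' := by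
  obtain ⟨c, hc⟩ := h
  obtain ⟨c', hc'⟩ := h'
  refine sub_eq_zero.1 (P.imm i z hz (v' - v'') ⟨c' - c, ?_⟩)
  rw [map_sub, sub_smul, sub_eq_sub_iff_add_eq_add, ← hc, add_comm, ← hc']

theorem exists_iRel {P : HEmb C H} (hcx : P.Cx) {i : C.ι} {z : V} (hz : z ∈ (C.e i).target)
    (v : V) : ∃ v', IRel P i z v v' := by
  obtain ⟨w, a, h⟩ := hcx i z hz v
  exact ⟨w, a, h⟩

variable {P : HEmb C H} {b : H ≃L[ℂ] (Fin (K + 1) → ℂ)} {A : Atl N X}

theorem iRel_of_nu {i : C.ι} {z : V} {k : Fin (K + 1)} (hz : z ∈ dm P b k i) {v v' : V}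
    (h : I • fderiv ℝ (nu P b k i) z v = fderiv ℝ (nu P b k i) z v') : IRel P i z v v' := by
  rw [fderiv_nu hz, fderiv_nu hz] at h
  set p : Fin (K + 1) → ℂ := b (fderiv ℝ (P.u i) z v) with hp
  set p' : Fin (K + 1) → ℂ := b (fderiv ℝ (P.u i) z v') with hp'
  set w : Fin (K + 1) → ℂ := b (P.u i z) with hw
  refine ⟨(I * p k - p' k) * (w k)⁻¹, ?_⟩
  apply b.injective
  rw [map_add, map_smul, map_smul, ← hp, ← hp', ← hw]
  have h1 := congrArg (fun y => w k • y) h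
  have hk : w k ≠ 0 := hz.2
  funext l
  have h2 := congrFun h1 l
  simp only [Pi.smul_apply, Pi.sub_apply, Pi.add_apply, smul_eq_mul] at h2 ⊢
  field_simp at h2 ⊢
  linear_combination h2

namespace HolA

variable (h : HolA P b A)
include h

theorem iRel {a : A.ι} {i : C.ι} {z : Cn N} (hz : z ∈ mov C (ofAtl A) i a) (v : Cn N) :
    IRel P i (mt C (ofAtl A) i a z) (fderiv ℝ (mt C (ofAtl A) i a) z v)
      (fderiv ℝ (mt C (ofAtl A) i a) z (I • v)) := by
  obtain ⟨k, hk⟩ := exists_OX (P := P) (b := b) ((A.e a).symm z)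
  have e1 : I • fderiv ℝ (nu P b k i) (mt C (ofAtl A) i a z)
      (fderiv ℝ (mt C (ofAtl A) i a) z v) = fderiv ℝ (nu P b k i) (mt C (ofAtl A) i a z)
        (fderiv ℝ (mt C (ofAtl A) i a) z (I • v)) := by
    rw [h.dnu hz hk, h.dnu hz hk, map_smul]
  exact iRel_of_nu (b := b) (k := k) (z := mt C (ofAtl A) i a z) ((mem_OX hz.2).1 hk) e1

theorem iRel_iff {a : A.ι} {i : C.ι} {z : Cn N} (hz : z ∈ mov C (ofAtl A) i a) (v v' : Cn N) :
    IRel P i (mt C (ofAtl A) i a z) (fderiv ℝ (mt C (ofAtl A) i a) z v)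
      (fderiv ℝ (mt C (ofAtl A) i a) z v') ↔ v' = I • v := by
  constructor
  · intro h1
    have h2 := IRel.uniq (Cmp.mt_mem hz).1 h1 (h.iRel hz v)
    exact Cmp.inj h.cmp hz h2
  · rintro rfl
    exact h.iRel hz v

/-- the derivative of the transition to a chart of `C` is onto -/
theorem exists_dmt {a : A.ι} {i : C.ι} {z : Cn N} (hz : z ∈ mov C (ofAtl A) i a) (v : V) :
    ∃ w : Cn N, fderiv ℝ (mt C (ofAtl A) i a) z w = v :=
  ⟨_, Cmp.d_d' h.cmp hz v⟩

end HolA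

/-- `s₁ + i s₂` is of type `(2,0)` for the embedding -/
def Typ (P : HEmb C H) (s₁ s₂ : F2 C) : Prop :=
  ∀ i, ∀ z ∈ (C.e i).target, ∀ v v' u : V, IRel P i z v v' → s₁.w i z v' u = -s₂.w i z v u

theorem Typ.snd {s₁ s₂ : F2 C} (ht : Typ P s₁ s₂) {i : C.ι} {z : V} (hz : z ∈ (C.e i).target)
    {v v' : V} (u : V) (hv : IRel P i z v v') : s₂.w i z v' u = s₁.w i z v u := by
  have h1 := ht i z hz v' (-v) u hv.neg
  rw [map_neg, neg_apply] at h1
  linarith

/-- `w` is of type `(1,1)` for the embedding -/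
def Typ11 (P : HEmb C H) (w : F2 C) : Prop :=
  ∀ i, ∀ z ∈ (C.e i).target, ∀ v v' u u' : V, IRel P i z v v' → IRel P i z u u' →
    w.w i z v' u' = w.w i z v u

/-- nondegenerate -/
def Nd (s : F2 C) : Prop := ∀ i, ∀ z ∈ (C.e i).target, ∀ v : V, (∀ u, s.w i z v u = 0) → v = 0

/-- `w` is positive on the complex lines: `w(v, Jv) > 0` -/
def Pos11 (P : HEmb C H) (w : F2 C) : Prop :=
  ∀ i, ∀ z ∈ (C.e i).target, ∀ v v' : V, IRel P i z v v' → v ≠ 0 → 0 < w.w i z v v'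

namespace HolA

variable (h : HolA P b A)

theorem typ_F {s₁ s₂ : F2 C} (ht : Typ P s₁ s₂) (a : A.ι) (z : Cn N) (hz : z ∈ (A.e a).target)
    (u v : Cn N) : (h.cmp.F s₁).w a z (I • u) v = -(h.cmp.F s₂).w a z u v := by
  obtain ⟨i, hi⟩ := C.cover ((A.e a).symm z)
  have hm : z ∈ mov C (ofAtl A) i a := ⟨hz, hi⟩
  rw [Cmp.F_w h.cmp s₁ hm, Cmp.F_w h.cmp s₂ hm]
  exact ht i _ (Cmp.mt_mem hm).1 _ _ _ (h.iRel hm u)

theorem typ11_F {w : F2 C} (ht : Typ11 P w) (a : A.ι) (z : Cn N) (hz : z ∈ (A.e a).target)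
    (u v : Cn N) : (h.cmp.F w).w a z (I • u) (I • v) = (h.cmp.F w).w a z u v := by
  obtain ⟨i, hi⟩ := C.cover ((A.e a).symm z)
  have hm : z ∈ mov C (ofAtl A) i a := ⟨hz, hi⟩
  rw [Cmp.F_w h.cmp w hm, Cmp.F_w h.cmp w hm]
  exact ht i _ (Cmp.mt_mem hm).1 _ _ _ _ (h.iRel hm u) (h.iRel hm v)

theorem pos11_F {w : F2 C} (ht : Pos11 P w) (a : A.ι) (z : Cn N) (hz : z ∈ (A.e a).target)
    (u : Cn N) (hu : u ≠ 0) : 0 < (h.cmp.F w).w a z u (I • u) := by
  obtain ⟨i, hi⟩ := C.cover ((A.e a).symm z)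
  have hm : z ∈ mov C (ofAtl A) i a := ⟨hz, hi⟩
  rw [Cmp.F_w h.cmp w hm]
  refine ht i _ (Cmp.mt_mem hm).1 _ _ (h.iRel hm u) fun h0 => hu ?_
  exact Cmp.inj h.cmp hm (by rw [h0, map_zero])

theorem nd_F {s : F2 C} (hs : Nd s) (a : A.ι) (z : Cn N) (hz : z ∈ (A.e a).target)
    (u : Cn N) (hu : ∀ v, (h.cmp.F s).w a z u v = 0) : u = 0 := by
  obtain ⟨i, hi⟩ := C.cover ((A.e a).symm z)
  have hm : z ∈ mov C (ofAtl A) i a := ⟨hz, hi⟩
  have h1 : fderiv ℝ (mt C (ofAtl A) i a) z u = 0 := by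
    refine hs i _ (Cmp.mt_mem hm).1 _ fun v => ?_
    obtain ⟨w, rfl⟩ := h.exists_dmt hm v
    have := hu w
    rwa [Cmp.F_w h.cmp s hm] at this
  exact Cmp.inj h.cmp hm (by rw [h1, map_zero])

/-- the holomorphic symplectic form of a member -/
def hsymp {s₁ s₂ : F2 C} (ht : Typ P s₁ s₂) (hnd : Nd s₁) : HSymp A where
  toH2 := h20 (h.cmp.F s₁) (h.cmp.F s₂) (h.typ_F ht)
  nd a x hx h0 := by
    set z := A.e a x with hzdef
    have hz : z ∈ (A.e a).target := (A.e a).map_source hx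
    have ht' := h.typ_F ht a z hz
    have h1 : (SB ((h.cmp.F s₁).w a z) ((h.cmp.F s₂).w a z)).det = 0 := h0
    obtain ⟨v, hv0, hv⟩ := Matrix.exists_vecMul_eq_zero_iff.2 h1
    refine hv0 ?_
    have h2 : ∀ u : Cn N, sw ((h.cmp.F s₁).w a z) ((h.cmp.F s₂).w a z)
        (WithLp.toLp 2 v : Cn N) u = 0 := by
      intro u
      rw [sw_eq ht' ((h.cmp.F s₁).alt a z hz) ((h.cmp.F s₂).alt a z hz)]
      have h3 : sb (SB ((h.cmp.F s₁).w a z) ((h.cmp.F s₂).w a z)) (WithLp.toLp 2 v : Cn N) u =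
          ∑ c, (Matrix.vecMul v (SB ((h.cmp.F s₁).w a z) ((h.cmp.F s₂).w a z))) c * u c := by
        simp only [sb, Matrix.vecMul, dotProduct, Finset.sum_mul]
        rw [Finset.sum_comm]
        refine Finset.sum_congr rfl fun c _ => Finset.sum_congr rfl fun d _ => ?_
        ring
      rw [h3, hv]
      simp
    have h4 : (WithLp.toLp 2 v : Cn N) = 0 := by
      refine h.nd_F hnd a z hz _ fun u => ?_
      have h5 := h2 u
      rw [sw] at h5
      have h6 := congrArg Complex.re h5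
      simpa using h6
    have h7 := congrArg (fun w : Cn N => (w : Fin N → ℂ)) h4
    simpa using h7

theorem hsymp_w {s₁ s₂ : F2 C} (ht : Typ P s₁ s₂) (hnd : Nd s₁) {a : A.ι} {z : Cn N}
    (hz : z ∈ (A.e a).target) (u v : Cn N) :
    ((h.cmp.F s₁).w a z u v : ℂ) + I * ((h.cmp.F s₂).w a z u v : ℂ) =
      sb ((h.hsymp ht hnd).s a ((A.e a).symm z)) u v := by
  have h1 := sw_eq (h.typ_F ht a z hz) ((h.cmp.F s₁).alt a z hz) ((h.cmp.F s₂).alt a z hz) u v
  have h2 : (h.hsymp ht hnd).s a ((A.e a).symm z) =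
      SB ((h.cmp.F s₁).w a z) ((h.cmp.F s₂).w a z) := by
    show SB ((h.cmp.F s₁).w a (A.e a ((A.e a).symm z)))
      ((h.cmp.F s₂).w a (A.e a ((A.e a).symm z))) = _
    rw [(A.e a).right_inv hz]
  rw [h2]
  exact h1

/-- the `(1,1)`-form of a member -/
def k11 {w : F2 C} (ht : Typ11 P w) : K11 A := (h.cmp.F w).k11 (h.typ11_F ht)

theorem k11_f2 {w : F2 C} (ht : Typ11 P w) {a : A.ι} {z : Cn N} (hz : z ∈ (A.e a).target) :
    (h.k11 ht).f2.w a z = (h.cmp.F w).w a z :=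
  F2.k11_f2 (h.cmp.F w) (h.typ11_F ht) hz

theorem k11_hb {w : F2 C} (ht : Typ11 P w) {a : A.ι} {x : X} (hx : x ∈ (A.e a).source)
    (u v : Cn N) : hb ((h.k11 ht).g a x) u v =
      ((h.cmp.F w).w a (A.e a x) u (I • v) : ℂ) - I * ((h.cmp.F w).w a (A.e a x) u v : ℂ) :=
  (hw_eq (h.typ11_F ht a _ ((A.e a).map_source hx)) u v).symm

theorem k11_pos {w : F2 C} (ht : Typ11 P w) (hp : Pos11 P w) (a : A.ι) (x : X)
    (hx : x ∈ (A.e a).source) : ((h.k11 ht).g a x).PosDef := by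
  refine Matrix.PosDef.of_dotProduct_mulVec_pos ((h.k11 ht).herm a x hx) fun y hy => ?_
  set v : Cn N := WithLp.toLp 2 (fun b => (starRingEnd ℂ) (y b)) with hv
  have hz := (A.e a).map_source hx
  have h1 : star y ⬝ᵥ ((h.k11 ht).g a x).mulVec y = hb ((h.k11 ht).g a x) v v := by
    rw [hb_self]
    congr 2
    · funext b
      simp [hv]
    · funext b
      simp [hv]
  have hv0 : v ≠ 0 := by
    intro h0
    apply hy
    funext b
    have : v b = 0 := by rw [h0]; rfl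
    simpa [hv] using this
  have h2 := h.k11_hb ht hx v v
  have h3 : (h.cmp.F w).w a (A.e a x) v v = 0 := by
    have := (h.cmp.F w).alt a _ hz v v
    linarith
  rw [h1, h2, h3]
  have h4 := h.pos11_F hp a _ hz v hv0
  simp only [ofReal_zero, mul_zero, sub_zero]
  exact_mod_cast h4

/-- the Kaehler form of a member -/
def kah {w : F2 C} (ht : Typ11 P w) (hp : Pos11 P w) : Kah A := (h.k11 ht).kah (h.k11_pos ht hp)

theorem kah_f2 {w : F2 C} (ht : Typ11 P w) (hp : Pos11 P w) {a : A.ι} {z : Cn N}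
    (hz : z ∈ (A.e a).target) : (ofKah (h.kah ht hp)).f2.w a z = (h.cmp.F w).w a z :=
  h.k11_f2 ht hz

end HolA

/-! ### the converse: forms on the manifold `(A, Q : ProjD A)` -/

section conv

variable (Q : ProjD A) (b' : H ≃L[ℂ] (Fin (Q.N + 1) → ℂ))

theorem ofProj_iRel {a : A.ι} {z : Cn N} (hz : z ∈ (A.e a).target) (v v' : Cn N) :
    IRel (ofProj Q b') a z v v' ↔ v' = I • v := by
  constructor
  · intro h1
    refine IRel.uniq (P := ofProj Q b') (C := ofAtl A) hz h1 ⟨0, ?_⟩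
    rw [ofProj_fderiv Q b' hz, ofProj_fderiv Q b' hz, map_smul, map_smul, zero_smul, add_zero]
  · rintro rfl
    refine ⟨0, ?_⟩
    rw [ofProj_fderiv Q b' hz, ofProj_fderiv Q b' hz, map_smul, map_smul, zero_smul, add_zero]

theorem ofProj_typ {s₁ s₂ : F2 (ofAtl A)}
    (h : ∀ i, ∀ z ∈ (A.e i).target, ∀ u v, s₁.w i z (I • u) v = -s₂.w i z u v) :
    Typ (ofProj Q b') s₁ s₂ := by
  intro a z hz v v' u hv
  rw [(ofProj_iRel Q b' hz v v').1 hv]
  exact h a z hz v u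

theorem ofProj_typ11 {w : F2 (ofAtl A)}
    (h : ∀ i, ∀ z ∈ (A.e i).target, ∀ u v, w.w i z (I • u) (I • v) = w.w i z u v) :
    Typ11 (ofProj Q b') w := by
  intro a z hz v v' u u' hv hu
  rw [(ofProj_iRel Q b' hz v v').1 hv, (ofProj_iRel Q b' hz u u').1 hu]
  exact h a z hz v u

end conv

end

end Crest.Agent.R281.Pe_313
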