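import Mathlib

/-!
S-PER (task 1725), part 1: periods of closed 2-forms on a periodic tube.

`Cl S ξ`   : `ξ` is a `C^1` closed alternating real 2-form on `S`.
`per ξ z v w` : the integral of `ξ` over the parallelogram `z + [0,1] v + [0,1] w`.
`green`    : Green's formula on rectangles in the plane `z + ℝ v + ℝ w`.
`per_const`: the period over a torus 2-cycle does not depend on the base point.
`per_exact`: exact forms with periodic primitive have period zero.
-/

open MeasureTheory Set Filter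
open scoped Topology

set_option maxSynthPendingDepth 3

namespace Crest.Agent.R281.Per_368

variable {E : Type*} [NormedAddCommGroup E] [NormedSpace ℝ E]

/-- `ξ` is a `C^1`, alternating, closed real 2-form on (the open set) `S`. -/
structure Cl (S : Set E) (ξ : E → E →L[ℝ] E →L[ℝ] ℝ) : Prop where
  sm : ContDiffOn ℝ 1 ξ S
  alt : ∀ z ∈ S, ∀ v w, ξ z v w = - ξ z w v
  closed : ∀ z ∈ S, ∀ a b c,
    fderiv ℝ ξ z a b c + fderiv ℝ ξ z b c a + fderiv ℝ ξ z c a b = 0

/-- the point `z + s v + t w`. -/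
def pt (z v w : E) (s t : ℝ) : E := z + s • v + t • w

/-- the period of `ξ` over the parallelogram `z + [0,1] v + [0,1] w`. -/
noncomputable def per (ξ : E → E →L[ℝ] E →L[ℝ] ℝ) (z v w : E) : ℝ :=
  ∫ s in (0:ℝ)..1, ∫ t in (0:ℝ)..1, ξ (pt z v w s t) v w

/-- the unit square -/
def Q : Set (ℝ × ℝ) := Icc (0:ℝ) 1 ×ˢ Icc (0:ℝ) 1

lemma isCompact_Q : IsCompact Q := isCompact_Icc.prod isCompact_Icc

lemma measurableSet_Q : MeasurableSet Q := isCompact_Q.measurableSet

lemma volume_Q : volume Q = 1 := by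
  rw [Q, Measure.volume_eq_prod, Measure.prod_prod]; simp

lemma continuous_pt (z v w : E) : Continuous fun p : ℝ × ℝ => pt z v w p.1 p.2 := by
  unfold pt; fun_prop

/-- the derivative of `(s,t) ↦ z + s v + t w`. -/
noncomputable def dpt (v w : E) : ℝ × ℝ →L[ℝ] E :=
  (ContinuousLinearMap.fst ℝ ℝ ℝ).smulRight v + (ContinuousLinearMap.snd ℝ ℝ ℝ).smulRight w

@[simp] lemma dpt_apply (v w : E) (p : ℝ × ℝ) : dpt v w p = p.1 • v + p.2 • w := by
  simp [dpt]

lemma hasFDerivAt_pt (z v w : E) (p : ℝ × ℝ) :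
    HasFDerivAt (fun p : ℝ × ℝ => pt z v w p.1 p.2) (dpt v w) p := by
  have h : (fun p : ℝ × ℝ => pt z v w p.1 p.2) = fun p => z + dpt v w p := by
    funext p; simp [pt, add_assoc]
  rw [h]
  exact (dpt v w).hasFDerivAt.const_add z

/-- iterated integral over `[a,b] × [c,d]` = set integral over the rectangle -/
lemma iter_eq_set {f : ℝ × ℝ → ℝ} {a b c d : ℝ} (hab : a ≤ b) (hcd : c ≤ d)
    (hf : ContinuousOn f (Icc a b ×ˢ Icc c d)) :
    (∫ s in a..b, ∫ t in c..d, f (s, t)) = ∫ p in Icc a b ×ˢ Icc c d, f p := by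
  have hi : IntegrableOn f (Icc a b ×ˢ Icc c d) (volume.prod volume) := by
    rw [← Measure.volume_eq_prod]
    exact hf.integrableOn_compact (isCompact_Icc.prod isCompact_Icc)
  rw [Measure.volume_eq_prod, setIntegral_prod _ hi, intervalIntegral.integral_of_le hab,
    integral_Icc_eq_integral_Ioc]
  refine setIntegral_congr_fun measurableSet_Ioc fun s _ => ?_
  rw [intervalIntegral.integral_of_le hcd, integral_Icc_eq_integral_Ioc]

/-- **Green's formula** on a rectangle in the plane `z + ℝ v + ℝ w`. -/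
theorem green {U : Set E} (hU : IsOpen U) {α : E → E →L[ℝ] ℝ} (hα : ContDiffOn ℝ 1 α U)
    (z v w : E) {a b c d : ℝ}
    (hin : ∀ s ∈ uIcc a b, ∀ t ∈ uIcc c d, pt z v w s t ∈ U) :
    (∫ s in a..b, ∫ t in c..d,
      (fderiv ℝ α (pt z v w s t) v w - fderiv ℝ α (pt z v w s t) w v)) =
    (∫ t in c..d, α (pt z v w b t) w) - (∫ t in c..d, α (pt z v w a t) w)
      - (∫ s in a..b, α (pt z v w s d) v) + ∫ s in a..b, α (pt z v w s c) v := by
  have hd : ∀ x ∈ U, HasFDerivAt α (fderiv ℝ α x) x := fun x hx =>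
    ((hα.differentiableOn (by norm_num)) x hx).differentiableAt (hU.mem_nhds hx) |>.hasFDerivAt
  have hcα : ContinuousOn α U := hα.continuousOn
  have hcd : ContinuousOn (fun x => fderiv ℝ α x) U :=
    hα.continuousOn_fderiv_of_isOpen hU le_rfl
  have hmap : MapsTo (fun p : ℝ × ℝ => pt z v w p.1 p.2) (uIcc a b ×ˢ uIcc c d) U :=
    fun p hp => hin p.1 hp.1 p.2 hp.2
  have hcp := (continuous_pt z v w).continuousOn (s := uIcc a b ×ˢ uIcc c d)
  have hevw : ∀ u : E, ContinuousOn (fun p : ℝ × ℝ => α (pt z v w p.1 p.2) u)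
      (uIcc a b ×ˢ uIcc c d) := fun u =>
    (hcα.comp hcp hmap).clm_apply continuousOn_const
  have hdvw : ∀ u u' : E, ContinuousOn (fun p : ℝ × ℝ => fderiv ℝ α (pt z v w p.1 p.2) u u')
      (uIcc a b ×ˢ uIcc c d) := fun u u' =>
    ((hcd.comp hcp hmap).clm_apply continuousOn_const).clm_apply continuousOn_const
  have hder : ∀ u : E, ∀ p ∈ uIcc a b ×ˢ uIcc c d,
      HasFDerivAt (fun p : ℝ × ℝ => α (pt z v w p.1 p.2) u)
        ((((fderiv ℝ α (pt z v w p.1 p.2)).flip u)).comp (dpt v w)) p := by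
    intro u p hp
    have h1 := (hd _ (hmap hp)).comp p (hasFDerivAt_pt z v w p)
    have h2 := h1.clm_apply (hasFDerivAt_const u p)
    refine h2.congr_fderiv ?_
    ext <;> simp
  have hsub : Ioo (min a b) (max a b) ×ˢ Ioo (min c d) (max c d) ⊆ uIcc a b ×ˢ uIcc c d :=
    prod_mono Ioo_subset_Icc_self Ioo_subset_Icc_self
  have key := integral2_divergence_prod_of_hasFDerivAt
    (f := fun p : ℝ × ℝ => α (pt z v w p.1 p.2) w)
    (g := fun p : ℝ × ℝ => - α (pt z v w p.1 p.2) v)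
    (f' := fun p => (((fderiv ℝ α (pt z v w p.1 p.2)).flip w)).comp (dpt v w))
    (g' := fun p => - (((fderiv ℝ α (pt z v w p.1 p.2)).flip v)).comp (dpt v w))
    a c b d (hevw w) (hevw v).neg
    (fun p hp => hder w p (hsub hp)) (fun p hp => (hder v p (hsub hp)).neg)
    (by
      have : (fun p : ℝ × ℝ => (((fderiv ℝ α (pt z v w p.1 p.2)).flip w)).comp (dpt v w) (1, 0)
          + (- (((fderiv ℝ α (pt z v w p.1 p.2)).flip v)).comp (dpt v w)) (0, 1)) =
          fun p => fderiv ℝ α (pt z v w p.1 p.2) v w - fderiv ℝ α (pt z v w p.1 p.2) w v := by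
        funext p; simp [sub_eq_add_neg]
      rw [this]
      exact ((hdvw v w).sub (hdvw w v)).integrableOn_compact
        (isCompact_uIcc.prod isCompact_uIcc))
  have hl : (∫ s in a..b, ∫ t in c..d,
      (fderiv ℝ α (pt z v w s t) v w - fderiv ℝ α (pt z v w s t) w v)) =
      ∫ x in a..b, ∫ y in c..d,
        (((fderiv ℝ α (pt z v w (x, y).1 (x, y).2)).flip w).comp (dpt v w)) (1, 0) +
        (- (((fderiv ℝ α (pt z v w (x, y).1 (x, y).2)).flip v)).comp (dpt v w)) (0, 1) := by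
    simp [sub_eq_add_neg]
  rw [hl]
  refine key.trans ?_
  simp only [intervalIntegral.integral_neg]
  ring

/-- periods in terms of the set integral over the unit square -/
lemma per_eq_set {S : Set E} {ξ : E → E →L[ℝ] E →L[ℝ] ℝ} (hξ : ContinuousOn ξ S) {z v w : E}
    (hin : ∀ s ∈ Icc (0:ℝ) 1, ∀ t ∈ Icc (0:ℝ) 1, pt z v w s t ∈ S) :
    per ξ z v w = ∫ p in Q, ξ (pt z v w p.1 p.2) v w := by
  have hc : ContinuousOn (fun p : ℝ × ℝ => ξ (pt z v w p.1 p.2) v w)
      (Icc (0:ℝ) 1 ×ˢ Icc (0:ℝ) 1) :=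
    ((hξ.comp (continuous_pt z v w).continuousOn
      (fun p hp => hin p.1 hp.1 p.2 hp.2)).clm_apply continuousOn_const).clm_apply
      continuousOn_const
  exact iter_eq_set (f := fun p : ℝ × ℝ => ξ (pt z v w p.1 p.2) v w) zero_le_one zero_le_one hc

/-- **(P3)** a form which is exact with a periodic primitive has period zero. -/
theorem per_exact {U : Set E} (hU : IsOpen U) {ξ : E → E →L[ℝ] E →L[ℝ] ℝ}
    {η : E → E →L[ℝ] ℝ} (hη : ContDiffOn ℝ 1 η U) {z v w : E}
    (hin : ∀ s ∈ Icc (0:ℝ) 1, ∀ t ∈ Icc (0:ℝ) 1, pt z v w s t ∈ U)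
    (hd : ∀ x ∈ U, ξ x v w = fderiv ℝ η x v w - fderiv ℝ η x w v)
    (hv : ∀ x ∈ U, x + v ∈ U → η (x + v) = η x) (hw : ∀ x ∈ U, x + w ∈ U → η (x + w) = η x) :
    per ξ z v w = 0 := by
  have hin' : ∀ s ∈ uIcc (0:ℝ) 1, ∀ t ∈ uIcc (0:ℝ) 1, pt z v w s t ∈ U := by
    simpa [uIcc_of_le (zero_le_one (α := ℝ))] using hin
  have h1 : per ξ z v w = ∫ s in (0:ℝ)..1, ∫ t in (0:ℝ)..1,
      (fderiv ℝ η (pt z v w s t) v w - fderiv ℝ η (pt z v w s t) w v) := by
    unfold per
    refine intervalIntegral.integral_congr fun s hs => ?_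
    refine intervalIntegral.integral_congr fun t ht => ?_
    exact hd _ (hin' s hs t ht)
  rw [h1, green hU hη z v w hin']
  have h2 : (∫ t in (0:ℝ)..1, η (pt z v w 1 t) w) = ∫ t in (0:ℝ)..1, η (pt z v w 0 t) w := by
    refine intervalIntegral.integral_congr fun t ht => ?_
    have e : pt z v w 1 t = pt z v w 0 t + v := by simp [pt]; abel
    show η (pt z v w 1 t) w = η (pt z v w 0 t) w
    rw [e, hv _ (hin' 0 (by simp) t ht) (by rw [← e]; exact hin' 1 (by simp) t ht)]
  have h3 : (∫ s in (0:ℝ)..1, η (pt z v w s 1) v) = ∫ s in (0:ℝ)..1, η (pt z v w s 0) v := by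
    refine intervalIntegral.integral_congr fun s hs => ?_
    have e : pt z v w s 1 = pt z v w s 0 + w := by simp [pt]
    show η (pt z v w s 1) v = η (pt z v w s 0) v
    rw [e, hw _ (hin' s hs 0 (by simp)) (by rw [← e]; exact hin' s hs 1 (by simp))]
  rw [h2, h3]; ring

/-- the inner integral of **(P1)**: the integral of the derivative of a closed form in a
direction `u` over a torus 2-cycle is zero. -/
lemma inner_zero {S : Set E} (hS : IsOpen S) {ξ : E → E →L[ℝ] E →L[ℝ] ℝ} (hξ : Cl S ξ)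
    {v w : E} (hv : ∀ x ∈ S, ∀ s : ℝ, x + s • v ∈ S) (hw : ∀ x ∈ S, ∀ s : ℝ, x + s • w ∈ S)
    (pv : ∀ x ∈ S, ξ (x + v) = ξ x) (pw : ∀ x ∈ S, ξ (x + w) = ξ x) {z : E} (hz : z ∈ S)
    (u : E) :
    (∫ s in (0:ℝ)..1, ∫ t in (0:ℝ)..1, fderiv ℝ ξ (pt z v w s t) u v w) = 0 := by
  have hin : ∀ s t : ℝ, pt z v w s t ∈ S := fun s t => hw _ (hv z hz s) t
  have hd : ∀ x ∈ S, HasFDerivAt ξ (fderiv ℝ ξ x) x := fun x hx =>
    ((hξ.sm.differentiableOn (by norm_num)) x hx).differentiableAt (hS.mem_nhds hx)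
      |>.hasFDerivAt
  have hcξ : ContinuousOn ξ S := hξ.sm.continuousOn
  have hcd : ContinuousOn (fun x => fderiv ℝ ξ x) S :=
    hξ.sm.continuousOn_fderiv_of_isOpen hS le_rfl
  -- use Green's formula with the 1-form `α x = ξ x u`
  set α : E → E →L[ℝ] ℝ := fun x => ξ x u with hαdef
  have hα : ContDiffOn ℝ 1 α S := hξ.sm.clm_apply contDiffOn_const
  have hfd : ∀ x ∈ S, ∀ a b, fderiv ℝ α x a b = fderiv ℝ ξ x a u b := by
    intro x hx a b
    have h := (hd x hx).clm_apply (hasFDerivAt_const u x)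
    have h' : fderiv ℝ α x = _ := h.fderiv
    rw [h']; simp
  have hae : ∀ x ∈ S, ∀ a b c, fderiv ℝ ξ x a b c = - fderiv ℝ ξ x a c b := by
    intro x hx a b c
    have e1 : HasFDerivAt (fun y => ξ y b c) _ x :=
      ((hd x hx).clm_apply (hasFDerivAt_const b x)).clm_apply (hasFDerivAt_const c x)
    have e2 : HasFDerivAt (fun y => ξ y c b) _ x :=
      ((hd x hx).clm_apply (hasFDerivAt_const c x)).clm_apply (hasFDerivAt_const b x)
    have e3 : HasFDerivAt (fun y => ξ y b c) _ x :=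
      (e2.neg).congr_of_eventuallyEq
        (by filter_upwards [hS.mem_nhds hx] with y hy using hξ.alt y hy b c)
    have e4 := congrArg (fun L => L a) (e1.unique e3)
    simpa using e4
  have key : ∀ s t : ℝ, fderiv ℝ ξ (pt z v w s t) u v w =
      fderiv ℝ α (pt z v w s t) v w - fderiv ℝ α (pt z v w s t) w v := by
    intro s t
    have hx := hin s t
    have h1 := hξ.closed _ hx u v w
    rw [hfd _ hx, hfd _ hx]
    have h2 := hae _ hx v w u
    linarith
  have h1 : (∫ s in (0:ℝ)..1, ∫ t in (0:ℝ)..1, fderiv ℝ ξ (pt z v w s t) u v w) =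
      per (fun x => ((fderiv ℝ α x) - (fderiv ℝ α x).flip)) z v w := by
    unfold per
    refine intervalIntegral.integral_congr fun s hs => ?_
    refine intervalIntegral.integral_congr fun t ht => ?_
    simp [key s t]
  rw [h1]
  refine per_exact hS hα (fun s _ t _ => hin s t) (fun x hx => by simp) ?_ ?_
  · intro x hx _; simp [hαdef, pv x hx]
  · intro x hx _; simp [hαdef, pw x hx]

/-- **(P1)** the period over a torus 2-cycle does not depend on the base point. -/
theorem per_const {S : Set E} (hS : IsOpen S) (hconv : Convex ℝ S)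
    {ξ : E → E →L[ℝ] E →L[ℝ] ℝ} (hξ : Cl S ξ)
    {v w : E} (hv : ∀ x ∈ S, ∀ s : ℝ, x + s • v ∈ S) (hw : ∀ x ∈ S, ∀ s : ℝ, x + s • w ∈ S)
    (pv : ∀ x ∈ S, ξ (x + v) = ξ x) (pw : ∀ x ∈ S, ξ (x + w) = ξ x) {z z' : E} (hz : z ∈ S)
    (hz' : z' ∈ S) :
    per ξ z v w = per ξ z' v w := by
  set u := z' - z with hu
  have hin : ∀ x ∈ S, ∀ s t : ℝ, pt x v w s t ∈ S := fun x hx s t => hw _ (hv x hx s) t
  have hseg : ∀ r ∈ Icc (0:ℝ) 1, z + r • u ∈ S := by
    intro r hr
    have := hconv.add_smul_sub_mem hz hz' hr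
    simpa [hu] using this
  have hd : ∀ x ∈ S, HasFDerivAt ξ (fderiv ℝ ξ x) x := fun x hx =>
    ((hξ.sm.differentiableOn (by norm_num)) x hx).differentiableAt (hS.mem_nhds hx)
      |>.hasFDerivAt
  have hcξ : ContinuousOn ξ S := hξ.sm.continuousOn
  have hcd : ContinuousOn (fun x => fderiv ℝ ξ x) S :=
    hξ.sm.continuousOn_fderiv_of_isOpen hS le_rfl
  -- the map `(r,(s,t)) ↦ z + r u + s v + t w`
  have hFc : ContinuousOn (fun q : ℝ × ℝ × ℝ =>
      fderiv ℝ ξ (pt (z + q.1 • u) v w q.2.1 q.2.2) u v w) (Icc (0:ℝ) 1 ×ˢ Q) := by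
    have hm : ContinuousOn (fun q : ℝ × ℝ × ℝ => pt (z + q.1 • u) v w q.2.1 q.2.2)
        (Icc (0:ℝ) 1 ×ˢ Q) := by
      unfold pt
      exact (by fun_prop : Continuous fun q : ℝ × ℝ × ℝ =>
        z + q.1 • u + q.2.1 • v + q.2.2 • w).continuousOn
    exact (((hcd.comp hm (fun q hq => hin _ (hseg q.1 hq.1) _ _)).clm_apply
      continuousOn_const).clm_apply continuousOn_const).clm_apply continuousOn_const
  -- fundamental theorem of calculus in the direction `u`
  have hftc : ∀ s t : ℝ, (∫ r in (0:ℝ)..1, fderiv ℝ ξ (pt (z + r • u) v w s t) u v w) =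
      ξ (pt z' v w s t) v w - ξ (pt z v w s t) v w := by
    intro s t
    have hder : ∀ r ∈ uIcc (0:ℝ) 1, HasDerivAt (fun r : ℝ => ξ (pt (z + r • u) v w s t) v w)
        (fderiv ℝ ξ (pt (z + r • u) v w s t) u v w) r := by
      intro r hr
      rw [uIcc_of_le zero_le_one] at hr
      have h0 : HasDerivAt (fun r : ℝ => pt (z + r • u) v w s t) u r := by
        have : HasDerivAt (fun r : ℝ => z + r • u) u r := by
          simpa using ((hasDerivAt_id r).smul_const u).const_add z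
        unfold pt
        exact (this.add_const _).add_const _
      have h1 := (hd _ (hin _ (hseg r hr) s t)).comp_hasDerivAt r h0
      have h2 := (h1.clm_apply (hasDerivAt_const r v)).clm_apply (hasDerivAt_const r w)
      simpa using h2
    have hcont : ContinuousOn (fun r : ℝ => fderiv ℝ ξ (pt (z + r • u) v w s t) u v w)
        (uIcc (0:ℝ) 1) := by
      rw [uIcc_of_le zero_le_one]
      have hm : ContinuousOn (fun r : ℝ => pt (z + r • u) v w s t) (Icc (0:ℝ) 1) := by
        unfold pt; exact (by fun_prop : Continuous fun r : ℝ =>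
          z + r • u + s • v + t • w).continuousOn
      exact (((hcd.comp hm (fun r hr => hin _ (hseg r hr) _ _)).clm_apply
        continuousOn_const).clm_apply continuousOn_const).clm_apply continuousOn_const
    rw [intervalIntegral.integral_eq_sub_of_hasDerivAt hder hcont.intervalIntegrable]
    simp [hu]
  have hper : ∀ x ∈ S, per ξ x v w = ∫ p in Q, ξ (pt x v w p.1 p.2) v w := fun x hx =>
    per_eq_set hcξ (fun s _ t _ => hin x hx s t)
  have hint : ∀ x ∈ S, IntegrableOn (fun p : ℝ × ℝ => ξ (pt x v w p.1 p.2) v w) Q := by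
    intro x hx
    have : ContinuousOn (fun p : ℝ × ℝ => ξ (pt x v w p.1 p.2) v w) Q :=
      ((hcξ.comp (continuous_pt x v w).continuousOn
        (fun p _ => hin x hx _ _)).clm_apply continuousOn_const).clm_apply
        continuousOn_const
    exact this.integrableOn_compact isCompact_Q
  have hdiff : per ξ z' v w - per ξ z v w =
      ∫ p in Q, (∫ r in (0:ℝ)..1, fderiv ℝ ξ (pt (z + r • u) v w p.1 p.2) u v w) := by
    rw [hper z' hz', hper z hz, ← integral_sub (hint z' hz') (hint z hz)]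
    exact setIntegral_congr_fun measurableSet_Q fun p _ => (hftc p.1 p.2).symm
  have hswap : (∫ p in Q, (∫ r in (0:ℝ)..1,
        fderiv ℝ ξ (pt (z + r • u) v w p.1 p.2) u v w)) =
      ∫ r in (0:ℝ)..1, ∫ p in Q, fderiv ℝ ξ (pt (z + r • u) v w p.1 p.2) u v w := by
    symm
    refine intervalIntegral_integral_swap ?_
    have h1 : IntegrableOn (fun q : ℝ × ℝ × ℝ =>
        fderiv ℝ ξ (pt (z + q.1 • u) v w q.2.1 q.2.2) u v w) (Icc (0:ℝ) 1 ×ˢ Q) :=
      hFc.integrableOn_compact (isCompact_Icc.prod isCompact_Q)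
    have h2 : IntegrableOn (fun q : ℝ × ℝ × ℝ =>
        fderiv ℝ ξ (pt (z + q.1 • u) v w q.2.1 q.2.2) u v w) (Ioc (0:ℝ) 1 ×ˢ Q) :=
      h1.mono_set (prod_mono Ioc_subset_Icc_self le_rfl)
    rw [uIoc_of_le zero_le_one, Measure.prod_restrict]
    exact h2
  have hzero : ∀ r ∈ Icc (0:ℝ) 1,
      (∫ p in Q, fderiv ℝ ξ (pt (z + r • u) v w p.1 p.2) u v w) = 0 := by
    intro r hr
    have hc : ContinuousOn (fun p : ℝ × ℝ => fderiv ℝ ξ (pt (z + r • u) v w p.1 p.2) u v w)
        (Icc (0:ℝ) 1 ×ˢ Icc (0:ℝ) 1) :=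
      (((hcd.comp (continuous_pt _ v w).continuousOn
        (fun p _ => hin _ (hseg r hr) _ _)).clm_apply
        continuousOn_const).clm_apply continuousOn_const).clm_apply continuousOn_const
    have h1 := iter_eq_set (zero_le_one (α := ℝ)) (zero_le_one (α := ℝ)) hc
    have h2 := inner_zero hS hξ hv hw pv pw (hseg r hr) u
    unfold Q
    exact h1.symm.trans h2
  have h0 : per ξ z' v w - per ξ z v w = 0 := by
    rw [hdiff, hswap]
    have : (∫ r in (0:ℝ)..1, ∫ p in Q, fderiv ℝ ξ (pt (z + r • u) v w p.1 p.2) u v w) =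
        ∫ r in (0:ℝ)..1, (0:ℝ) := by
      refine intervalIntegral.integral_congr fun r hr => ?_
      rw [uIcc_of_le zero_le_one] at hr
      exact hzero r hr
    rw [this]; simp
  linarith

end Crest.Agent.R281.Per_368
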