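import Crest.Agent.R281.Per1_368

/-!
S-PER (task 1725), part 2: smallness in mean implies smallness of the period.
-/

open MeasureTheory Set Filter
open scoped Topology ENNReal

set_option maxSynthPendingDepth 3

namespace Crest.Agent.R281.Per_368

variable {E : Type*} [NormedAddCommGroup E] [NormedSpace ℝ E]

/-- **(P2)**, integral form: if `|ξ(v,w)| ≤ h` on `ball z R` and `‖v‖ + ‖w‖ ≤ R/2` then
`|per ξ z v w| * vol (ball z (R/2)) ≤ ∫ h over ball z R`. -/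
theorem per_le_lint [FiniteDimensional ℝ E] [MeasurableSpace E] [BorelSpace E]
    (μ : Measure E) [μ.IsAddHaarMeasure]
    {S : Set E} (hS : IsOpen S) (hconv : Convex ℝ S)
    {ξ : E → E →L[ℝ] E →L[ℝ] ℝ} (hξ : Cl S ξ)
    {v w : E} (hv : ∀ x ∈ S, ∀ s : ℝ, x + s • v ∈ S) (hw : ∀ x ∈ S, ∀ s : ℝ, x + s • w ∈ S)
    (pv : ∀ x ∈ S, ξ (x + v) = ξ x) (pw : ∀ x ∈ S, ξ (x + w) = ξ x) {z : E} {R : ℝ}
    (hz : z ∈ S) (hvw : ‖v‖ + ‖w‖ ≤ R / 2) (hball : Metric.ball z (R / 2) ⊆ S)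
    {h : E → ℝ≥0∞} (hm : Measurable h)
    (hh : ∀ x ∈ Metric.ball z R, x ∈ S → ENNReal.ofReal |ξ x v w| ≤ h x) :
    ENNReal.ofReal |per ξ z v w| * μ (Metric.ball z (R / 2)) ≤
      ∫⁻ x in Metric.ball z R, h x ∂μ := by
  have hcξ : ContinuousOn ξ S := hξ.sm.continuousOn
  have hin : ∀ x ∈ S, ∀ s t : ℝ, pt x v w s t ∈ S := fun x hx s t => hw _ (hv x hx s) t
  -- displacement bound
  have hdis : ∀ p ∈ Q, ‖p.1 • v + p.2 • w‖ ≤ R / 2 := by
    rintro ⟨s, t⟩ ⟨hs, ht⟩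
    calc ‖s • v + t • w‖ ≤ ‖s • v‖ + ‖t • w‖ := norm_add_le _ _
      _ = |s| * ‖v‖ + |t| * ‖w‖ := by rw [norm_smul, norm_smul]; rfl
      _ ≤ 1 * ‖v‖ + 1 * ‖w‖ := by
          have h1 : |s| ≤ 1 := abs_le.2 ⟨by linarith [hs.1], hs.2⟩
          have h2 : |t| ≤ 1 := abs_le.2 ⟨by linarith [ht.1], ht.2⟩
          gcongr
      _ ≤ R / 2 := by linarith
  have hmem : ∀ z' ∈ Metric.ball z (R / 2), ∀ p ∈ Q, pt z' v w p.1 p.2 ∈ Metric.ball z R := by
    intro z' hz' p hp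
    rw [Metric.mem_ball, dist_eq_norm] at hz' ⊢
    have e : pt z' v w p.1 p.2 - z = (z' - z) + (p.1 • v + p.2 • w) := by unfold pt; abel
    rw [e]
    calc _ ≤ ‖z' - z‖ + ‖p.1 • v + p.2 • w‖ := norm_add_le _ _
      _ < R := by linarith [hdis p hp]
  -- pointwise bound
  have hpt : ∀ z' ∈ Metric.ball z (R / 2), ENNReal.ofReal |per ξ z v w| ≤
      ∫⁻ p in Q, h (pt z' v w p.1 p.2) := by
    intro z' hz'
    have hz'S := hball hz'
    rw [per_const hS hconv hξ hv hw pv pw hz hz'S,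
      per_eq_set hcξ (fun s _ t _ => hin z' hz'S s t)]
    calc ENNReal.ofReal |∫ p in Q, ξ (pt z' v w p.1 p.2) v w|
        = ‖∫ p in Q, ξ (pt z' v w p.1 p.2) v w‖ₑ := by
          rw [← Real.norm_eq_abs, ofReal_norm]
      _ ≤ ∫⁻ p in Q, ‖ξ (pt z' v w p.1 p.2) v w‖ₑ := enorm_integral_le_lintegral_enorm _
      _ ≤ ∫⁻ p in Q, h (pt z' v w p.1 p.2) := by
          refine setLIntegral_mono' measurableSet_Q fun p hp => ?_
          rw [← ofReal_norm, Real.norm_eq_abs]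
          exact hh _ (hmem z' hz' p hp) (hin z' hz'S _ _)
  have hjoint : Measurable fun q : E × (ℝ × ℝ) => h (pt q.1 v w q.2.1 q.2.2) := by
    refine hm.comp ?_
    have : Continuous fun q : E × (ℝ × ℝ) => pt q.1 v w q.2.1 q.2.2 := by
      unfold pt; fun_prop
    exact this.measurable
  calc ENNReal.ofReal |per ξ z v w| * μ (Metric.ball z (R / 2))
      = ∫⁻ _ in Metric.ball z (R / 2), ENNReal.ofReal |per ξ z v w| ∂μ := by
        rw [setLIntegral_const]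
    _ ≤ ∫⁻ z' in Metric.ball z (R / 2), (∫⁻ p in Q, h (pt z' v w p.1 p.2)) ∂μ :=
        setLIntegral_mono' measurableSet_ball hpt
    _ = ∫⁻ p in Q, (∫⁻ z' in Metric.ball z (R / 2), h (pt z' v w p.1 p.2) ∂μ) :=
        lintegral_lintegral_swap hjoint.aemeasurable
    _ ≤ ∫⁻ _ in Q, (∫⁻ x in Metric.ball z R, h x ∂μ) := by
        refine setLIntegral_mono' measurableSet_Q fun p hp => ?_
        have hmp := measurePreserving_add_right μ (p.1 • v + p.2 • w)
        have e1 : (∫⁻ z' in Metric.ball z (R / 2), h (pt z' v w p.1 p.2) ∂μ) ≤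
            ∫⁻ z' in (fun y => y + (p.1 • v + p.2 • w)) ⁻¹' (Metric.ball z R),
              h (z' + (p.1 • v + p.2 • w)) ∂μ := by
          have e2 : ∀ z' : E, pt z' v w p.1 p.2 = z' + (p.1 • v + p.2 • w) := fun z' => by
            unfold pt; abel
          simp only [e2]
          refine lintegral_mono_set fun z' hz' => ?_
          have := hmem z' hz' p hp
          rwa [e2] at this
        refine e1.trans ?_
        rw [hmp.setLIntegral_comp_preimage measurableSet_ball hm]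
    _ = ∫⁻ x in Metric.ball z R, h x ∂μ := by
        rw [setLIntegral_const, volume_Q, mul_one]

/-- small mean: the period is `< 1` in absolute value. -/
theorem abs_per_lt [FiniteDimensional ℝ E] [MeasurableSpace E] [BorelSpace E]
    (μ : Measure E) [μ.IsAddHaarMeasure]
    {S : Set E} (hS : IsOpen S) (hconv : Convex ℝ S)
    {ξ : E → E →L[ℝ] E →L[ℝ] ℝ} (hξ : Cl S ξ)
    {v w : E} (hv : ∀ x ∈ S, ∀ s : ℝ, x + s • v ∈ S) (hw : ∀ x ∈ S, ∀ s : ℝ, x + s • w ∈ S)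
    (pv : ∀ x ∈ S, ξ (x + v) = ξ x) (pw : ∀ x ∈ S, ξ (x + w) = ξ x) {z : E} {R : ℝ}
    (hz : z ∈ S) (hvw : ‖v‖ + ‖w‖ ≤ R / 2) (hball : Metric.ball z (R / 2) ⊆ S)
    {h : E → ℝ≥0∞} (hm : Measurable h)
    (hh : ∀ x ∈ Metric.ball z R, x ∈ S → ENNReal.ofReal |ξ x v w| ≤ h x)
    (hsm : ∫⁻ x in Metric.ball z R, h x ∂μ < μ (Metric.ball z (R / 2))) :
    |per ξ z v w| < 1 := by
  by_contra hcon
  push Not at hcon
  have h1 := per_le_lint μ hS hconv hξ hv hw pv pw hz hvw hball hm hh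
  have h2 : μ (Metric.ball z (R / 2)) ≤
      ENNReal.ofReal |per ξ z v w| * μ (Metric.ball z (R / 2)) := by
    calc μ (Metric.ball z (R / 2)) = 1 * μ (Metric.ball z (R / 2)) := (one_mul _).symm
      _ ≤ _ := by
        gcongr
        rw [← ENNReal.ofReal_one]
        exact ENNReal.ofReal_le_ofReal hcon
  exact absurd (h2.trans h1) (not_le.2 hsm)

end Crest.Agent.R281.Per_368
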