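import Crest.Agent.R281.Ma1_69

/-!
# Row 281, OM-PF, part 1 (helper69): the Pfaffian

* `pfv B v`   : `∑_σ sgn σ ∏ k, B (v (σ (k,0))) (v (σ (k,1)))`; `pfv_comp`: naturality
* `pf0 e S`   : the same for a matrix, `e : K × Fin 2 ≃ Fin d`; `pf0_mul`, `pf0_J`
* `pf e S`    : the Pfaffian, `pf_mul : pf (Tᵀ S T) = det T * pf S`, `pf_sq : pf S ^ 2 = det S`
                for antisymmetric invertible `S`
-/

set_option autoImplicit false
set_option linter.unusedSectionVars false

open Complex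
open scoped Matrix ComplexConjugate

namespace Crest.Agent.R281.Pfa_69

open Crest.Agent.R281.Ma_69 Equiv

noncomputable section

section alt

variable {V : Type*} [AddCommGroup V] [Module ℂ V] {K : Type*} [Fintype K] [DecidableEq K]

/-- one factor of the product -/
theorem upd_fst {α : Type*} {D : DecidableEq (K × Fin 2)} (v : K × Fin 2 → α) {k0 k : K}
    (hk : k ≠ k0) (e f : Fin 2) (z : α) : @Function.update _ _ D v (k0, e) z (k, f) = v (k, f) := by
  rw [Function.update_of_ne (by intro h; exact hk (congrArg Prod.fst h))]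

/-- `v ↦ ∏ k, B (v (k,0)) (v (k,1))` -/
def mlt (B : V →ₗ[ℂ] V →ₗ[ℂ] ℂ) : MultilinearMap ℂ (fun _ : K × Fin 2 => V) ℂ where
  toFun v := ∏ k, B (v (k, 0)) (v (k, 1))
  map_update_add' := by
    intro D v p x y
    obtain ⟨k0, e⟩ := p
    have h : ∀ z : V, ∏ k,
        B (Function.update v (k0, e) z (k, 0)) (Function.update v (k0, e) z (k, 1)) =
        (B (Function.update v (k0, e) z (k0, 0)) (Function.update v (k0, e) z (k0, 1))) *
        ∏ k ∈ Finset.univ.erase k0, B (v (k, 0)) (v (k, 1)) := by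
      intro z
      rw [← Finset.mul_prod_erase _ _ (Finset.mem_univ k0)]
      congr 1
      refine Finset.prod_congr rfl fun k hk => ?_
      rw [upd_fst v (Finset.ne_of_mem_erase hk), upd_fst v (Finset.ne_of_mem_erase hk)]
    rw [h, h, h, ← add_mul]
    congr 1
    fin_cases e <;> simp
  map_update_smul' := by
    intro D v p c x
    obtain ⟨k0, e⟩ := p
    have h : ∀ z : V, ∏ k,
        B (Function.update v (k0, e) z (k, 0)) (Function.update v (k0, e) z (k, 1)) =
        (B (Function.update v (k0, e) z (k0, 0)) (Function.update v (k0, e) z (k0, 1))) *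
        ∏ k ∈ Finset.univ.erase k0, B (v (k, 0)) (v (k, 1)) := by
      intro z
      rw [← Finset.mul_prod_erase _ _ (Finset.mem_univ k0)]
      congr 1
      refine Finset.prod_congr rfl fun k hk => ?_
      rw [upd_fst v (Finset.ne_of_mem_erase hk), upd_fst v (Finset.ne_of_mem_erase hk)]
    rw [h, h, smul_eq_mul, ← mul_assoc]
    congr 1
    fin_cases e <;> simp

@[simp] theorem mlt_apply (B : V →ₗ[ℂ] V →ₗ[ℂ] ℂ) (v : K × Fin 2 → V) :
    mlt B v = ∏ k, B (v (k, 0)) (v (k, 1)) := rfl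

/-- the alternating form -/
def wed (B : V →ₗ[ℂ] V →ₗ[ℂ] ℂ) : V [⋀^(K × Fin 2)]→ₗ[ℂ] ℂ :=
  MultilinearMap.alternatization (mlt B)

/-- its value -/
def pfv (v : K × Fin 2 → V) (B : V →ₗ[ℂ] V →ₗ[ℂ] ℂ) : ℂ :=
  ∑ σ : Perm (K × Fin 2), ((Perm.sign σ : ℤ) : ℂ) * ∏ k, B (v (σ (k, 0))) (v (σ (k, 1)))

theorem wed_apply (B : V →ₗ[ℂ] V →ₗ[ℂ] ℂ) (v : K × Fin 2 → V) : wed B v = pfv v B := by
  unfold wed pfv
  rw [MultilinearMap.alternatization_apply]
  refine Finset.sum_congr rfl fun σ _ => ?_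
  rw [MultilinearMap.domDomCongr_apply, mlt_apply, Units.smul_def, zsmul_eq_mul]

/-- **naturality** -/
theorem pfv_comp (b : Module.Basis (K × Fin 2) ℂ V) (T : V →ₗ[ℂ] V)
    {B B' : V →ₗ[ℂ] V →ₗ[ℂ] ℂ} (h : ∀ u v, B' u v = B (T u) (T v)) :
    pfv b B' = LinearMap.det T * pfv b B := by
  have h1 : pfv b B' = wed B (T ∘ b) := by
    rw [wed_apply]
    unfold pfv
    simp only [h]
    rfl
  have h2 := AlternatingMap.eq_smul_basis_det b (wed B)
  rw [h1, ← wed_apply B b]
  have h3 : wed B (T ∘ b) = wed B b * b.det (T ∘ b) := by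
    conv_lhs => rw [h2]
    rfl
  have h4 := Module.Basis.det_comp b T b
  rw [b.det_self, mul_one] at h4
  rw [h3]
  have h5 : b.det (T ∘ b) = LinearMap.det T := h4
  rw [h5, mul_comm]

end alt

/-! ### the standard form -/

section std

variable {K : Type*} [Fintype K] [DecidableEq K]

/-- the standard antisymmetric matrix on `K × Fin 2` -/
def jj (p q : K × Fin 2) : ℂ :=
  if p.1 = q.1 then (if p.2 = 0 ∧ q.2 = 1 then 1 else if p.2 = 1 ∧ q.2 = 0 then -1 else 0) else 0

theorem jj_perm (k : K) (f : Perm (Fin 2)) : jj (k, f 0) (k, f 1) = ((Perm.sign f : ℤ) : ℂ) := by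
  have h : f = 1 ∨ f = swap 0 1 := by
    revert f
    decide
  rcases h with rfl | rfl
  · simp [jj]
  · simp [jj]

theorem jj_term (σ : Perm (K × Fin 2)) :
    ((Perm.sign σ : ℤ) : ℂ) * ∏ k, jj (σ (k, 0)) (σ (k, 1)) =
      if ∀ k, (σ (k, 0)).1 = (σ (k, 1)).1 then 1 else 0 := by
  by_cases hg : ∀ k, (σ (k, 0)).1 = (σ (k, 1)).1
  · rw [if_pos hg]
    have h2 : ∀ k (j : Fin 2), (σ (k, j)).1 = (σ (k, 0)).1 := by
      intro k j
      fin_cases j
      · rfl
      · exact (hg k).symm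
    have hinj : Function.Injective fun k => (σ (k, 0)).1 := by
      intro k l hkl
      by_contra hne
      have h3 : ∀ (i j : Fin 2), (σ (k, i)).2 ≠ (σ (l, j)).2 := by
        intro i j h4
        have h5 : σ (k, i) = σ (l, j) := Prod.ext ((h2 k i).trans (hkl.trans (h2 l j).symm)) h4
        exact hne (congrArg Prod.fst (σ.injective h5))
      have h6 : (σ (k, 0)).2 ≠ (σ (k, 1)).2 := by
        intro h4
        have h5 : σ (k, 0) = σ (k, 1) := Prod.ext (hg k) h4
        have := congrArg Prod.snd (σ.injective h5)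
        simp at this
      have h7 := h3 0 0
      have h8 := h3 1 0
      omega
    set τ : Perm K := Equiv.ofBijective _ (Finite.injective_iff_bijective.1 hinj) with hτ
    have hτk : ∀ k, τ k = (σ (k, 0)).1 := fun k => rfl
    have hinj2 : ∀ k, Function.Injective fun j => (σ (k, j)).2 := by
      intro k i j hij
      have h5 : σ (k, i) = σ (k, j) := Prod.ext ((h2 k i).trans (h2 k j).symm) hij
      exact congrArg Prod.snd (σ.injective h5)
    set f : K → Perm (Fin 2) := fun k =>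
      Equiv.ofBijective _ (Finite.injective_iff_bijective.1 (hinj2 k)) with hf
    have hfk : ∀ k j, f k j = (σ (k, j)).2 := fun k j => rfl
    have hσ : σ = (Equiv.prodCongrLeft fun _ => τ) * (Equiv.prodCongrRight f) := by
      ext1 ⟨k, j⟩
      rw [Perm.mul_apply, Equiv.prodCongrRight_apply, Equiv.prodCongrLeft_apply]
      exact Prod.ext (by rw [hτk]; exact h2 k j) (hfk k j).symm
    have hsg : ((Perm.sign σ : ℤ) : ℂ) = ∏ k, ((Perm.sign (f k) : ℤ) : ℂ) := by
      rw [hσ, Perm.sign_mul, Perm.sign_prodCongrLeft, Perm.sign_prodCongrRight]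
      simp
    have hpr : ∏ k, jj (σ (k, 0)) (σ (k, 1)) = ∏ k, ((Perm.sign (f k) : ℤ) : ℂ) := by
      refine Finset.prod_congr rfl fun k _ => ?_
      have e0 : σ (k, 0) = (τ k, f k 0) := Prod.ext rfl rfl
      have e1 : σ (k, 1) = (τ k, f k 1) := Prod.ext ((h2 k 1).trans rfl) rfl
      rw [e0, e1, jj_perm]
    rw [hsg, hpr, ← Finset.prod_mul_distrib]
    refine Finset.prod_eq_one fun k _ => ?_
    rcases Int.units_eq_one_or (Perm.sign (f k)) with h | h <;> simp [h]
  · rw [if_neg hg]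
    push Not at hg
    obtain ⟨k, hk⟩ := hg
    rw [Finset.prod_eq_zero (Finset.mem_univ k), mul_zero]
    rw [jj, if_neg hk]

/-- the Pfaffian of the standard matrix is not zero -/
theorem jj_sum : ∑ σ : Perm (K × Fin 2), ((Perm.sign σ : ℤ) : ℂ) *
    ∏ k, jj (σ (k, 0)) (σ (k, 1)) ≠ 0 := by
  simp only [jj_term]
  rw [Finset.sum_boole, Nat.cast_ne_zero]
  refine Finset.card_ne_zero.2 ⟨1, ?_⟩
  simp

end std

/-! ### matrices -/

section mat

variable {K : Type*} [Fintype K] [DecidableEq K] {d : ℕ} (e : K × Fin 2 ≃ Fin d)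

/-- the Pfaffian without normalising factor -/
def pf0 (S : Matrix (Fin d) (Fin d) ℂ) : ℂ :=
  ∑ σ : Perm (K × Fin 2), ((Perm.sign σ : ℤ) : ℂ) * ∏ k, S (e (σ (k, 0))) (e (σ (k, 1)))

theorem pf0_eq (S : Matrix (Fin d) (Fin d) ℂ) :
    pf0 e S = pfv ((Pi.basisFun ℂ (Fin d)).reindex e.symm) (bf S) := by
  unfold pf0 pfv
  refine Finset.sum_congr rfl fun σ _ => ?_
  congr 1
  refine Finset.prod_congr rfl fun k _ => ?_
  rw [Module.Basis.reindex_apply, Module.Basis.reindex_apply, Equiv.symm_symm,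
    Pi.basisFun_apply, Pi.basisFun_apply, bf_single]

theorem pf0_mul (S T : Matrix (Fin d) (Fin d) ℂ) : pf0 e (Tᵀ * S * T) = T.det * pf0 e S := by
  rw [pf0_eq, pf0_eq, pfv_comp _ (Matrix.toLin' T) (B := bf S) (fun u v => ?_),
    LinearMap.det_toLin']
  rw [Matrix.toLin'_apply, Matrix.toLin'_apply, bf_mul]

/-- the standard antisymmetric matrix -/
def J0 : Matrix (Fin d) (Fin d) ℂ := Matrix.of fun a b => jj (e.symm a) (e.symm b)

theorem pf0_J0 : pf0 e (J0 e) ≠ 0 := by
  have h := jj_sum (K := K)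
  unfold pf0 J0
  simpa using h

theorem jj_swap (p q : K × Fin 2) : jj q p = -jj p q := by
  obtain ⟨k, i⟩ := p
  obtain ⟨l, j⟩ := q
  unfold jj
  by_cases h : k = l
  · subst h
    fin_cases i <;> fin_cases j <;> simp
  · rw [if_neg h, if_neg fun h' => h h'.symm, neg_zero]

theorem J0_skew : (J0 e)ᵀ = -J0 e := by
  ext a b
  exact jj_swap _ _

theorem J0_det : (J0 e).det = 1 := by
  have h1 : J0 e = (Matrix.of (jj : K × Fin 2 → K × Fin 2 → ℂ)).submatrix e.symm e.symm := rfl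
  rw [h1, Matrix.det_submatrix_equiv_self]
  have h2 : (Matrix.of (jj : K × Fin 2 → K × Fin 2 → ℂ)) =
      (Matrix.blockDiagonal fun _ : K => (!![0, 1; -1, 0] : Matrix (Fin 2) (Fin 2) ℂ)).submatrix
        (Equiv.prodComm K (Fin 2)) (Equiv.prodComm K (Fin 2)) := by
    ext ⟨k, i⟩ ⟨l, j⟩
    simp only [Matrix.of_apply, Matrix.submatrix_apply, Equiv.prodComm_apply, Prod.swap_prod_mk,
      Matrix.blockDiagonal_apply, jj]
    by_cases h : k = l
    · subst h
      fin_cases i <;> fin_cases j <;> simp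
    · simp [h]
  rw [h2, Matrix.det_submatrix_equiv_self, Matrix.det_blockDiagonal]
  simp

/-- **the Pfaffian** -/
def pf (S : Matrix (Fin d) (Fin d) ℂ) : ℂ := (pf0 e (J0 e))⁻¹ * pf0 e S

theorem pf_mul (S T : Matrix (Fin d) (Fin d) ℂ) : pf e (Tᵀ * S * T) = T.det * pf e S := by
  unfold pf
  rw [pf0_mul]
  ring

theorem pf_J0 : pf e (J0 e) = 1 := inv_mul_cancel₀ (pf0_J0 e)

theorem pf_sq {S : Matrix (Fin d) (Fin d) ℂ} (hS : Sᵀ = -S) (hd : S.det ≠ 0) :
    pf e S ^ 2 = S.det := by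
  obtain ⟨T, hT⟩ := exists_T hS hd (J0_skew e) (by rw [J0_det]; exact one_ne_zero)
  rw [hT, pf_mul, pf_J0, Matrix.det_mul, Matrix.det_mul, Matrix.det_transpose, J0_det]
  ring

end mat

/-- **existence of the Pfaffian** in every dimension which carries symplectic forms -/
theorem exists_e {d : ℕ} {S : Matrix (Fin d) (Fin d) ℂ} (hS : Sᵀ = -S) (hd : S.det ≠ 0) :
    ∃ N : ℕ, Nonempty (Fin N × Fin 2 ≃ Fin d) := by
  obtain ⟨N, -, hN, -⟩ := exists_bas hS hd
  refine ⟨N, ⟨finProdFinEquiv.trans (finCongr (by omega))⟩⟩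

end

end Crest.Agent.R281.Pfa_69
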