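import Crest.Agent.R281.Pfa1_69
import Crest.Agent.R281.Ma3_69

/-!
# Row 281, OM-PF + RAY-VOL, part 2 (helper69)

* `exists_om σ` : a holomorphic `n`-form `om` (`IsHS (KB A) univ om`) with `om i x ^ 2 = det σ`,
                  hence `‖om i x‖ ^ 2 = ‖det σ‖`
* `exists_omK`  : HK pair (508): `‖om i x‖ ^ 2 = (K.g i x).det.re`; scaled metric `g' = L g`
* `vm_ratio`    : `w' = mu w` ==> `vm h' = mu • vm h`
* `vol_f2`      : `2^n n! vol(K)` is the top power of the class of the Kaehler form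
* `ray`         : `vol(K)` and `mu = ‖det σ‖ / det g` from the classes
-/

set_option autoImplicit false
set_option linter.unusedSectionVars false

open Set Filter Topology Complex MeasureTheory
open scoped ContDiff Matrix ComplexConjugate InnerProductSpace ENNReal ComplexOrder

namespace Crest.Agent.R281.Pfa_69

open Crest.Agent.R275.Geo Crest.Agent.R275.Core144 Crest.Agent.R275.EDR890
open Crest.Agent.R275.C1d194
open Crest.Agent.R273.Defs_333 Crest.Agent.R273.HM_333 Crest.Agent.R273.Kah_333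
open Crest.Agent.R273.Vol_333 Crest.Agent.R273.Vm_333
open Crest.Agent.R281.HkR_835 Crest.Agent.R281.Ti_846 Crest.Agent.R281.HkP2_508
open Crest.Agent.R281.Defs_273 (H2 HSymp)
open Crest.Agent.R281.Ma_69

noncomputable section

variable {n : ℕ} {M : Type} [TopologicalSpace M] {A : Atl n M}

/-! ### the form `om` -/

theorem pf_hol {K : Type*} [Fintype K] [DecidableEq K] (e : K × Fin 2 ≃ Fin n) (σ : H2 A)
    (i : A.ι) : HolAt A i univ fun x => pf e (σ.s i x) := by
  unfold pf pf0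
  refine HolAt.const_mul _ (HolAt.sum _ fun τ _ => HolAt.const_mul _ (HolAt.prod _ fun k _ => ?_))
  exact σ.hol i _ _

/-- **the holomorphic `n`-form of a holomorphic symplectic form** -/
theorem exists_om (σ : HSymp A) : ∃ om : A.ι → M → ℂ, IsHS (KB A) univ om ∧
    ∀ i, ∀ x ∈ (A.e i).source, om i x ^ 2 = (σ.s i x).det := by
  classical
  by_cases hM : ∃ i, ∃ x, x ∈ (A.e i).source
  · obtain ⟨i0, x0, hx0⟩ := hM
    obtain ⟨N, ⟨e⟩⟩ := exists_e (σ.alt i0 x0 hx0) (σ.nd i0 x0 hx0)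
    refine ⟨fun i x => if x ∈ (A.e i).source then pf e (σ.s i x) else 0, ⟨?_, ?_, ?_⟩, ?_⟩
    · intro i
      exact (pf_hol e σ.toH2 i).congr fun x hx _ => by rw [if_pos hx]
    · intro i x hx
      exact if_neg hx
    · intro i j x hx _
      show (if x ∈ (A.e i).source then pf e (σ.s i x) else 0) =
        (KB A).g i j x * (if x ∈ (A.e j).source then pf e (σ.s j x) else 0)
      rw [if_pos hx.1, if_pos hx.2, KB_g hx, σ.tr i j x hx, pf_mul]
    · intro i x hx
      show (if x ∈ (A.e i).source then pf e (σ.s i x) else 0) ^ 2 = _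
      rw [if_pos hx, pf_sq e (σ.alt i x hx) (σ.nd i x hx)]
  · push Not at hM
    refine ⟨fun _ _ => 0, ⟨fun i => holAt_const 0, fun i x _ => rfl, ?_⟩, ?_⟩
    · intro i j x hx
      exact absurd hx.1 (hM i x)
    · intro i x hx
      exact absurd hx (hM i x)

/-- `‖om‖² = ‖det σ‖` -/
theorem exists_om_norm (σ : HSymp A) : ∃ om : A.ι → M → ℂ, IsHS (KB A) univ om ∧
    ∀ i, ∀ x ∈ (A.e i).source, ‖om i x‖ ^ 2 = ‖(σ.s i x).det‖ := by
  obtain ⟨om, h1, h2⟩ := exists_om σ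
  refine ⟨om, h1, fun i x hx => ?_⟩
  rw [← norm_pow, h2 i x hx]

theorem isHS_smul {L : LB A} {s : A.ι → M → ℂ} (h : IsHS L univ s) (c : ℂ) :
    IsHS L univ (fun i x => c * s i x) where
  hol i := (h.hol i).const_mul c
  off i x hx := by rw [h.off i x hx, mul_zero]
  tr i j x hx hU := by
    rw [h.tr i j x hx hU]
    ring

/-- **`omh`, `omn` of `SDat`**: `‖det σ‖ = mu det g`, `mu > 0`, and `G = L g` -/
theorem exists_omK (σ : HSymp A) (K : Kah A) {mu L : ℝ} (hmu : 0 < mu) (hL : 0 ≤ L)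
    (h : ∀ i, ∀ x ∈ (A.e i).source, ‖(σ.s i x).det‖ = mu * (K.g i x).det.re)
    {K' : Kah A} (hK : ∀ i, ∀ x ∈ (A.e i).source, K'.g i x = (L : ℂ) • K.g i x) :
    ∃ om : A.ι → M → ℂ, IsHS (KB A) univ om ∧
    ∀ i, ∀ x ∈ (A.e i).source, ‖om i x‖ ^ 2 = (K'.g i x).det.re := by
  obtain ⟨om, h1, h2⟩ := exists_om_norm σ
  set c : ℝ := Real.sqrt (mu⁻¹ * L ^ n) with hc
  have hc2 : c ^ 2 = mu⁻¹ * L ^ n := Real.sq_sqrt (by positivity)
  refine ⟨fun i x => (c : ℂ) * om i x, isHS_smul h1 _, fun i x hx => ?_⟩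
  have h3 : ((K'.g i x).det).re = L ^ n * (K.g i x).det.re := by
    rw [hK i x hx, Matrix.det_smul, Fintype.card_fin, ← Complex.ofReal_pow, Complex.re_ofReal_mul]
  rw [norm_mul, mul_pow, h2 i x hx, h i x hx, h3, Complex.norm_real, Real.norm_eq_abs, sq_abs, hc2]
  field_simp

/-! ### measures -/

section meas

variable [MeasurableSpace M] [BorelSpace M] [Countable A.ι]

/-- proportional volume forms -/
theorem vm_ratio {h h' : HM (KB A)⁻¹} {mu : ℝ} (hmu : 0 ≤ mu)
    (H : ∀ i, ∀ x ∈ (A.e i).source, h'.w i x = mu * h.w i x) :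
    vm h' = ENNReal.ofReal mu • vm h := by
  symm
  refine ext_vm h' fun i => ?_
  rw [Measure.restrict_smul, vm_restrict]
  unfold chm
  rw [← Measure.map_smul, ← withDensity_smul' _ _ ENNReal.ofReal_ne_top]
  congr 1
  refine withDensity_congr_ae ?_
  filter_upwards [ae_restrict_mem (Crest.Agent.R273.Vm_333.isOpen_Ui i).measurableSet] with y hy
  show ENNReal.ofReal mu * ENNReal.ofReal (h.w i (sg A i y)) = ENNReal.ofReal (h'.w i (sg A i y))
  rw [H i _ (sg_mem hy), ENNReal.ofReal_mul hmu]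

theorem real_ratio {h h' : HM (KB A)⁻¹} {mu : ℝ} (hmu : 0 ≤ mu)
    (H : ∀ i, ∀ x ∈ (A.e i).source, h'.w i x = mu * h.w i x) :
    (vm h').real univ = mu * (vm h).real univ := by
  rw [vm_ratio hmu H, Measure.real, Measure.real, Measure.smul_apply, smul_eq_mul,
    ENNReal.toReal_mul, ENNReal.toReal_ofReal hmu]

/-- the mass of `σ` and the volume of `K` -/
theorem mass_ratio (σ : HSymp A) (K : Kah A) {mu : ℝ} (hmu : 0 ≤ mu)
    (H : ∀ i, ∀ x ∈ (A.e i).source, ‖(σ.s i x).det‖ = mu * (K.g i x).det.re) :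
    (vm (volS σ)).real univ = mu * (vm (volK K)).real univ :=
  real_ratio hmu fun i x hx => H i x hx

variable [CompactSpace M]

/-- **the volume from the class** in a fixed system of real charts -/
theorem vol_f2 (K : Kah A) {C : RCh (Cn n) M} (hC : Cmp C (ofAtl A)) (ho : OriM C (ofAtl A))
    (hoC : Ori C) (P : RPart C) (P' : RPart (ofAtl A)) {a a' : F2 C}
    (ha : ∀ i, ∀ z ∈ (A.e i).target, ∀ u v, (hC.F a).w i z u v = (ofKah K).f2.w i z u v)
    (hcoh : Coh a a') :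
    2 ^ n * n.factorial * (vm (volK K)).real univ = II (lc n) (bc n) P (fun _ => a') := by
  rw [← II_coh (lc n) hoC (bc n) P (fun _ => a) (fun _ => a') fun _ => hcoh, ← II_same K P',
    ← II_cmp (lc n) (bc n) hC ho P P' (fun _ => a)]
  exact (II_congr (lc n) (bc n) P' fun _ i z hz u v => ha i z hz u v).symm

/-- **RAY-VOL**: a member with Kaehler class `a0` and period `z * sig N τ`; `mu = ‖det σ‖ / det g` -/
theorem ray (σ : HSymp A) (hc : ClH σ.toH2) (K : Kah A) {C : RCh (Cn n) M}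
    (hC : Cmp C (ofAtl A)) (ho : OriM C (ofAtl A)) (hoC : Ori C) (P : RPart C)
    (P' : RPart (ofAtl A)) {r a : F2 C}
    (hr : ∀ i, ∀ z ∈ (A.e i).target, ∀ u v,
      (hC.F r).w i z u v = (sb (σ.s i ((A.e i).symm z)) u v).re)
    (ha : ∀ i, ∀ z ∈ (A.e i).target, ∀ u v, (hC.F a).w i z u v = (ofKah K).f2.w i z u v)
    {a0 : F2 C} (hcoha : Coh a a0) (W : Fin 3 → F2 C) {κ N : ℝ} {ν : ℕ}
    (hQ : ∀ x : Fin 3 → ℝ, II (lc n) (bc n) P (fun _ => ∑ i, x i • W i) =
      κ * Crest.Agent.R281.W3c_698.qb N x x ^ ν)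
    (z τ : ℂ) (hcoh : Coh r (∑ i, (z * Crest.Agent.R281.W3c_698.sig N τ i).re • W i))
    {mu : ℝ} (hmu : 0 ≤ mu)
    (H : ∀ i, ∀ x ∈ (A.e i).source, ‖(σ.s i x).det‖ = mu * (K.g i x).det.re) :
    (vm (volK K)).real univ = II (lc n) (bc n) P (fun _ => a0) / (2 ^ n * n.factorial) ∧
    mu * II (lc n) (bc n) P (fun _ => a0) = κ * (‖z‖ ^ 2 * (N * τ.im ^ 2)) ^ ν := by
  have h1 := vol_f2 K hC ho hoC P P' ha hcoha
  have h2 := mass_sig σ hc hC ho hoC P P' hr W hQ z τ hcoh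
  have h3 := mass_ratio σ K hmu H
  have h0 : (2 : ℝ) ^ n * n.factorial ≠ 0 := by positivity
  constructor
  · rw [← h1, mul_div_cancel_left₀ _ h0]
  · rw [h3, eq_div_iff h0] at h2
    rw [← h1, ← h2]
    ring

end meas

end

end Crest.Agent.R281.Pfa_69
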