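import Mathlib

/-!
# Row 281, PER-HOL, part Ph1 (helper429): Fujiki relation, polarisation, holomorphy of the period

`W` a real vector space, `B` a symmetric bilinear form, `T` a symmetric multilinear form with
`T (x, ..., x) = B (x, x) ^ ν`.

* `quad_eq`   : `B(x,x)^ν = B'(x,x)^ν` for all `x`, both positive at one vector ==> `B = B'`
* `quad_g`    : `B(gx,gx)^ν = ± B(x,x)^ν`, `g x₀ = x₀`, `B(x₀,x₀) > 0` ==> `g` is an isometry
* `polar`     : `T (y, x, ..., x) = B(x,x)^(ν-1) B(x,y)`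
* `hol_of`    : if all the products `T (w, re s_q + i im s_q)` are holomorphic in `q` then
                `q ↦ B(x, re s_q) + i B(x, im s_q)` is holomorphic for every `x`
* `cont_of`   : the same with continuity
-/

set_option autoImplicit false
set_option maxHeartbeats 400000

open Set Filter Topology Finset

namespace Crest.Agent.R281.Ph1_429

noncomputable section

variable {W : Type*} [AddCommGroup W] [Module ℝ W]

theorem quad_add (B : W →ₗ[ℝ] W →ₗ[ℝ] ℝ) (hs : ∀ x y, B x y = B y x) (x y : W) (t : ℝ) :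
    B (x + t • y) (x + t • y) = B x x + 2 * t * B x y + t ^ 2 * B y y := by
  simp only [map_add, map_smul, LinearMap.add_apply, LinearMap.smul_apply, smul_eq_mul]
  rw [hs y x]
  ring

/-- near `0` a quadratic polynomial which is positive at `0` is positive -/
theorem ev_pos (a b c : ℝ) (ha : 0 < a) : ∀ᶠ t : ℝ in 𝓝 0, 0 < a + 2 * t * b + t ^ 2 * c := by
  have h1 : Continuous fun t : ℝ => a + 2 * t * b + t ^ 2 * c := by fun_prop
  have h2 : Tendsto (fun t : ℝ => a + 2 * t * b + t ^ 2 * c) (𝓝 0) (𝓝 a) :=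
    h1.tendsto' 0 a (by ring)
  exact h2.eventually (lt_mem_nhds ha)

/-- polarisation of an equality of quadratic forms -/
theorem pol_eq (B B' : W →ₗ[ℝ] W →ₗ[ℝ] ℝ) (hs : ∀ x y, B x y = B y x)
    (hs' : ∀ x y, B' x y = B' y x) (h : ∀ x, B x x = B' x x) (x y : W) : B x y = B' x y := by
  have h1 := h (x + y)
  have h2 := quad_add B hs x y 1
  have h3 := quad_add B' hs' x y 1
  rw [one_smul] at h2 h3
  rw [h2, h3, h x, h y] at h1
  linarith

/-- **the sign at one vector determines the form** -/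
theorem quad_eq {ν : ℕ} (hν : ν ≠ 0) (B B' : W →ₗ[ℝ] W →ₗ[ℝ] ℝ) (hs : ∀ x y, B x y = B y x)
    (hs' : ∀ x y, B' x y = B' y x) (h : ∀ x, (B x x) ^ ν = (B' x x) ^ ν) {x₀ : W}
    (h0 : 0 < B x₀ x₀) (h0' : 0 < B' x₀ x₀) (x y : W) : B x y = B' x y := by
  refine pol_eq B B' hs hs' (fun x => ?_) x y
  have h1 : ∀ᶠ t : ℝ in 𝓝 0, B (x₀ + t • x) (x₀ + t • x) = B' (x₀ + t • x) (x₀ + t • x) := by
    filter_upwards [ev_pos (B x₀ x₀) (B x₀ x) (B x x) h0,
      ev_pos (B' x₀ x₀) (B' x₀ x) (B' x x) h0'] with t ht ht'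
    have h2 := quad_add B hs x₀ x t
    have h3 := quad_add B' hs' x₀ x t
    exact (pow_left_inj₀ (by rw [h2]; exact ht.le) (by rw [h3]; exact ht'.le) hν).1 (h _)
  obtain ⟨ε, hε, h4⟩ := Metric.eventually_nhds_iff.1 h1
  have h5 : B x₀ x₀ = B' x₀ x₀ := by
    have := h1.self_of_nhds
    simpa using this
  have h6 := h4 (y := ε / 2) (by rw [dist_zero_right, Real.norm_eq_abs, abs_of_pos] <;> linarith)
  have h7 := h4 (y := -(ε / 2))
    (by rw [dist_zero_right, Real.norm_eq_abs, abs_neg, abs_of_pos] <;> linarith)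
  rw [quad_add B hs, quad_add B' hs'] at h6 h7
  have h8 : (ε / 2) ^ 2 * B x x = (ε / 2) ^ 2 * B' x x := by
    have : (-(ε / 2)) ^ 2 = (ε / 2) ^ 2 := by ring
    rw [this] at h7
    linarith
  exact mul_left_cancel₀ (by positivity) h8

/-- **a linear map which preserves `B^ν` up to sign and fixes a positive vector is an isometry** -/
theorem quad_g {ν : ℕ} (hν : ν ≠ 0) (B : W →ₗ[ℝ] W →ₗ[ℝ] ℝ) (hs : ∀ x y, B x y = B y x)
    (g : W →ₗ[ℝ] W) {ε : ℝ} (h : ∀ x, (B (g x) (g x)) ^ ν = ε * (B x x) ^ ν) {x₀ : W}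
    (h0 : 0 < B x₀ x₀) (hg : B (g x₀) (g x₀) = B x₀ x₀) (x y : W) : B (g x) (g y) = B x y := by
  have h1 : ε = 1 := by
    have h2 := h x₀
    rw [hg] at h2
    have h3 : (B x₀ x₀) ^ ν ≠ 0 := by positivity
    field_simp at h2
    exact h2.symm
  have h2 : ∀ x y, ((B.comp g).compl₂ g) x y = B (g x) (g y) := fun _ _ => rfl
  rw [← h2]
  refine quad_eq hν _ B (fun x y => ?_) hs (fun x => ?_) (x₀ := x₀) ?_ h0 x y
  · rw [h2, h2]; exact hs _ _
  · rw [h2, h x, h1, one_mul]
  · rw [h2, hg]; exact h0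

/-! ### polarisation of the Fujiki relation -/

variable {K : Type*} [Fintype K] [DecidableEq K]

/-- symmetric multilinear forms -/
def Sym (T : MultilinearMap ℝ (fun _ : K => W) ℝ) : Prop :=
  ∀ (σ : Equiv.Perm K) (w : K → W), T (fun k => w (σ k)) = T w

omit [Fintype K] in
theorem Sym.update {T : MultilinearMap ℝ (fun _ : K => W) ℝ} (hT : Sym T) (x y : W) (k l : K) :
    T (Function.update (fun _ => x) k y) = T (Function.update (fun _ => x) l y) := by
  rw [← hT (Equiv.swap k l) (Function.update (fun _ => x) k y)]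
  congr 1
  funext j
  rcases eq_or_ne j l with rfl | hj
  · rw [Equiv.swap_apply_right, Function.update_self, Function.update_self]
  · rw [Function.update_of_ne hj]
    rcases eq_or_ne j k with rfl | hjk
    · rw [Equiv.swap_apply_left, Function.update_of_ne (Ne.symm hj)]
    · rw [Equiv.swap_apply_of_ne_of_ne hjk hj, Function.update_of_ne hjk]

/-- the first derivative of `t ↦ T (x + t y, ..., x + t y)` at `0` -/
theorem hasDerivAt_diag (T : MultilinearMap ℝ (fun _ : K => W) ℝ) (x y : W) :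
    HasDerivAt (fun t : ℝ => T (fun _ => x + t • y))
      (∑ k, T (Function.update (fun _ => x) k y)) 0 := by
  have h1 : ∀ t : ℝ, T (fun _ => x + t • y) =
      ∑ s : Finset K, t ^ s.card * T (s.piecewise (fun _ => y) (fun _ => x)) := by
    intro t
    have h2 : (fun _ : K => x + t • y) = (fun _ => t • y) + (fun _ => x) := by
      funext k
      simp [add_comm]
    rw [h2, T.map_add_univ]
    refine Finset.sum_congr rfl fun s _ => ?_
    have h3 := T.map_piecewise_smul (fun _ : K => t) (s.piecewise (fun _ => y) (fun _ => x)) s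
    rw [prod_const, smul_eq_mul] at h3
    rw [← h3]
    congr 1
    funext k
    by_cases hk : k ∈ s <;> simp [hk]
  have h2 : ∀ s : Finset K, HasDerivAt
      (fun t : ℝ => t ^ s.card * T (s.piecewise (fun _ => y) (fun _ => x)))
      ((s.card : ℝ) * 0 ^ (s.card - 1) * T (s.piecewise (fun _ => y) (fun _ => x))) 0 :=
    fun s => (hasDerivAt_pow s.card (0 : ℝ)).mul_const _
  have h3 := HasDerivAt.fun_sum (u := (Finset.univ : Finset (Finset K))) fun s _ => h2 s
  have h4 : (fun t : ℝ => T (fun _ => x + t • y)) = fun t =>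
      ∑ s : Finset K, t ^ s.card * T (s.piecewise (fun _ => y) (fun _ => x)) := funext h1
  rw [h4]
  refine h3.congr_deriv ?_
  have h5 : ∀ s : Finset K, (s.card : ℝ) * 0 ^ (s.card - 1) *
      T (s.piecewise (fun _ => y) (fun _ => x)) =
        if s.card = 1 then T (s.piecewise (fun _ => y) (fun _ => x)) else 0 := by
    intro s
    split_ifs with hs
    · rw [hs]; simp
    · rcases Nat.eq_zero_or_pos s.card with h | h
      · rw [h]; simp
      · rw [zero_pow (by omega)]; simp
  rw [Finset.sum_congr rfl fun s _ => h5 s, ← Finset.sum_filter]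
  have h6 : (Finset.univ.filter fun s : Finset K => s.card = 1) =
      Finset.univ.map ⟨fun k : K => ({k} : Finset K), Finset.singleton_injective⟩ := by
    ext s
    simp only [mem_filter, Finset.mem_univ, true_and, Finset.mem_map, Function.Embedding.coeFn_mk,
      Finset.card_eq_one]
    constructor
    · rintro ⟨a, rfl⟩
      exact ⟨a, rfl⟩
    · rintro ⟨a, rfl⟩
      exact ⟨a, rfl⟩
  rw [h6, Finset.sum_map]
  refine Finset.sum_congr rfl fun k _ => ?_
  simp only [Function.Embedding.coeFn_mk]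
  congr 1
  funext j
  by_cases hj : j = k
  · subst hj; simp
  · simp [hj]

/-- **the polarised Fujiki relation** -/
theorem polar {ν : ℕ} (hν : ν ≠ 0) (hK : Fintype.card K = 2 * ν)
    {T : MultilinearMap ℝ (fun _ : K => W) ℝ} (hT : Sym T) (B : W →ₗ[ℝ] W →ₗ[ℝ] ℝ)
    (hs : ∀ x y, B x y = B y x) (hF : ∀ x, T (fun _ => x) = (B x x) ^ ν) (x y : W) (k : K) :
    T (Function.update (fun _ => x) k y) = (B x x) ^ (ν - 1) * B x y := by
  have h1 := hasDerivAt_diag T x y
  have h2 : ∀ l, T (Function.update (fun _ => x) l y) = T (Function.update (fun _ => x) k y) :=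
    fun l => hT.update x y l k
  rw [Finset.sum_congr rfl fun l _ => h2 l, Finset.sum_const, Finset.card_univ, hK,
    nsmul_eq_mul] at h1
  have h3 : HasDerivAt (fun t : ℝ => (B x x + 2 * t * B x y + t ^ 2 * B y y) ^ ν)
      (ν * (B x x) ^ (ν - 1) * (2 * B x y)) 0 := by
    have h4 : HasDerivAt (fun t : ℝ => B x x + 2 * t * B x y + t ^ 2 * B y y) (2 * B x y) 0 := by
      have a1 : HasDerivAt (fun t : ℝ => 2 * t * B x y) (2 * B x y) 0 := by
        simpa using ((hasDerivAt_id (0 : ℝ)).const_mul 2).mul_const (B x y)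
      have a2 : HasDerivAt (fun t : ℝ => t ^ 2 * B y y) 0 0 := by
        simpa using (hasDerivAt_pow 2 (0 : ℝ)).mul_const (B y y)
      exact ((a1.const_add (B x x)).fun_add a2).congr_deriv (by ring)
    exact (h4.fun_pow ν).congr_deriv (by simp)
  have h5 : (fun t : ℝ => T (fun _ => x + t • y)) =
      fun t : ℝ => (B x x + 2 * t * B x y + t ^ 2 * B y y) ^ ν := by
    funext t
    rw [hF, quad_add B hs]
  rw [h5] at h1
  have h6 := h1.unique h3
  have h7 : (ν : ℝ) ≠ 0 := Nat.cast_ne_zero.2 hν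
  push_cast at h6
  have h8 : (2 * (ν : ℝ)) * T (Function.update (fun _ => x) k y) =
      (2 * (ν : ℝ)) * ((B x x) ^ (ν - 1) * B x y) := by
    rw [h6]; ring
  exact mul_left_cancel₀ (by positivity) h8

/-! ### holomorphy of the period -/

section hol

variable {E : Type*}

/-- the abstract transfer: a class of functions closed under real linear combinations which contains
all `T (w, s)` contains all `B (x, s)` -/
theorem transfer {ν : ℕ} (hν : ν ≠ 0) (hK : Fintype.card K = 2 * ν)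
    {T : MultilinearMap ℝ (fun _ : K => W) ℝ} (hT : Sym T) (B : W →ₗ[ℝ] W →ₗ[ℝ] ℝ)
    (hs : ∀ x y, B x y = B y x) (hF : ∀ x, T (fun _ => x) = (B x x) ^ ν) {x₀ : W}
    (h0 : B x₀ x₀ ≠ 0) (S : E → W) (S' : E → W) (P : (E → ℂ) → Prop)
    (hP : ∀ (f g : E → ℂ) (a b : ℝ), P f → P g → P fun q => (a : ℂ) * f q + (b : ℂ) * g q)
    (h : ∀ (w : K → W) (k : K), P fun q => (T (Function.update w k (S q)) : ℂ) +
      (T (Function.update w k (S' q)) : ℂ) * Complex.I) (x : W) :
    P fun q => (B x (S q) : ℂ) + (B x (S' q) : ℂ) * Complex.I := by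
  have hne : Nonempty K := by
    rw [← Fintype.card_pos_iff]
    omega
  obtain ⟨k⟩ := hne
  have key : ∀ x : W, B x x ≠ 0 → P fun q => (B x (S q) : ℂ) + (B x (S' q) : ℂ) * Complex.I := by
    intro x hx
    have h1 := h (fun _ => x) k
    have h2 := hP _ _ (((B x x) ^ (ν - 1))⁻¹) 0 h1 h1
    convert h2 using 1
    funext q
    rw [polar hν hK hT B hs hF, polar hν hK hT B hs hF]
    have h3 : (((B x x) ^ (ν - 1) : ℝ) : ℂ) ≠ 0 :=
      Complex.ofReal_ne_zero.2 (pow_ne_zero _ hx)
    push_cast at h3 ⊢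
    field_simp
    ring
  by_cases hx : B x x = 0
  · -- `x = (x + t x₀) - t x₀`
    obtain ⟨t, ht0, ht⟩ : ∃ t : ℝ, t ≠ 0 ∧ B (x + t • x₀) (x + t • x₀) ≠ 0 := by
      by_contra hcon
      push Not at hcon
      have h1 := hcon 1 one_ne_zero
      have h2 := hcon (-1) (by norm_num)
      rw [quad_add B hs, hx] at h1 h2
      apply h0
      linarith
    have h1 := key _ ht
    have h2 := key _ h0
    have h3 := hP _ _ 1 (-t) h1 h2
    convert h3 using 1
    funext q
    simp only [map_add, map_smul, LinearMap.add_apply, LinearMap.smul_apply, smul_eq_mul]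
    push_cast
    ring
  · exact key x hx

/-- **holomorphy of the period** -/
theorem hol_of {E : Type*} [NormedAddCommGroup E] [NormedSpace ℂ E] {ν : ℕ} (hν : ν ≠ 0)
    (hK : Fintype.card K = 2 * ν)
    {T : MultilinearMap ℝ (fun _ : K => W) ℝ} (hT : Sym T) (B : W →ₗ[ℝ] W →ₗ[ℝ] ℝ)
    (hs : ∀ x y, B x y = B y x) (hF : ∀ x, T (fun _ => x) = (B x x) ^ ν) {x₀ : W}
    (h0 : B x₀ x₀ ≠ 0) {D : Set E} (S S' : E → W)
    (h : ∀ (w : K → W) (k : K), DifferentiableOn ℂ (fun q => (T (Function.update w k (S q)) : ℂ) +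
      (T (Function.update w k (S' q)) : ℂ) * Complex.I) D) (x : W) :
    DifferentiableOn ℂ (fun q => (B x (S q) : ℂ) + (B x (S' q) : ℂ) * Complex.I) D :=
  transfer hν hK hT B hs hF h0 S S' (fun f => DifferentiableOn ℂ f D)
    (fun _ _ a b hf hg => (hf.const_mul (a : ℂ)).add (hg.const_mul (b : ℂ))) h x

/-- the same at a point -/
theorem hol_at {E : Type*} [NormedAddCommGroup E] [NormedSpace ℂ E] {ν : ℕ} (hν : ν ≠ 0)
    (hK : Fintype.card K = 2 * ν)
    {T : MultilinearMap ℝ (fun _ : K => W) ℝ} (hT : Sym T) (B : W →ₗ[ℝ] W →ₗ[ℝ] ℝ)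
    (hs : ∀ x y, B x y = B y x) (hF : ∀ x, T (fun _ => x) = (B x x) ^ ν) {x₀ : W}
    (h0 : B x₀ x₀ ≠ 0) {q₀ : E} (S S' : E → W)
    (h : ∀ (w : K → W) (k : K), AnalyticAt ℂ (fun q => (T (Function.update w k (S q)) : ℂ) +
      (T (Function.update w k (S' q)) : ℂ) * Complex.I) q₀) (x : W) :
    AnalyticAt ℂ (fun q => (B x (S q) : ℂ) + (B x (S' q) : ℂ) * Complex.I) q₀ :=
  transfer hν hK hT B hs hF h0 S S' (fun f => AnalyticAt ℂ f q₀)
    (fun _ _ _ _ hf hg => (analyticAt_const.mul hf).add (analyticAt_const.mul hg)) h x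

/-- continuity of the period -/
theorem cont_of {E : Type*} [TopologicalSpace E] {ν : ℕ} (hν : ν ≠ 0)
    (hK : Fintype.card K = 2 * ν)
    {T : MultilinearMap ℝ (fun _ : K => W) ℝ} (hT : Sym T) (B : W →ₗ[ℝ] W →ₗ[ℝ] ℝ)
    (hs : ∀ x y, B x y = B y x) (hF : ∀ x, T (fun _ => x) = (B x x) ^ ν) {x₀ : W}
    (h0 : B x₀ x₀ ≠ 0) {D : Set E} (S S' : E → W)
    (h : ∀ (w : K → W) (k : K), ContinuousOn (fun q => (T (Function.update w k (S q)) : ℂ) +
      (T (Function.update w k (S' q)) : ℂ) * Complex.I) D) (x : W) :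
    ContinuousOn (fun q => (B x (S q) : ℂ) + (B x (S' q) : ℂ) * Complex.I) D :=
  transfer hν hK hT B hs hF h0 S S' (fun f => ContinuousOn f D)
    (fun _ _ _ _ hf hg => (continuousOn_const.mul hf).add (continuousOn_const.mul hg)) h x

end hol

end

end Crest.Agent.R281.Ph1_429
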