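import Crest.Agent.R281.Phl1_655

/-!
# R281 (S0424), PER-HOL, part 2 (helper655): holomorphic basic forms

* `CF S`       : closed basic holomorphic 2-forms on the cone family `S`
* `CF.part π`  : real and imaginary part, as `BF S`
* `CF.hol`     : the pull back by a family holomorphic in `c` is pointwise holomorphic in `c`
* `CF.type`    : type `(2,0)`
* `JForm.cf`   : `CF` from a family of polynomial forms `X_j^m σ = s_j`
-/

set_option autoImplicit false
set_option linter.unusedSectionVars false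
set_option synthInstance.maxHeartbeats 100000

open Set Filter Topology Complex
open scoped ContDiff

namespace Crest.Agent.R281.Phl_655

open Crest.Agent.R281.HkR_835 Crest.Agent.R281.Ti_846 Crest.Agent.R281.Ehr2_268

noncomputable section

variable {V X : Type} [NormedAddCommGroup V] [NormedSpace ℝ V] [TopologicalSpace X]
variable {E : Type} [NormedAddCommGroup E] [NormedSpace ℂ E]
variable {H : Type} [NormedAddCommGroup H] [NormedSpace ℂ H]

/-- closed basic holomorphic 2-forms on the cone family `S` -/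
structure CF (S : Set (E × H)) where
  sg : E → H → H → H → ℂ
  loc : ∀ c x, (c, x) ∈ S → ∃ Sg : E × H → H →L[ℂ] H →L[ℂ] ℂ,
    (∀ᶠ p in 𝓝 (c, x), ContDiffAt ℂ ω Sg p ∧ (p ∈ S → (∀ u v, Sg p u v = -Sg p v u) ∧
      ∀ u v, Vel S p.1 p.2 u → Vel S p.1 p.2 v → Sg p u v = sg p.1 p.2 u v)) ∧
    ∀ u v w, Vel S c x u → Vel S c x v → Vel S c x w →
      fderiv ℂ Sg (c, x) (0, u) v w + fderiv ℂ Sg (c, x) (0, v) w u +
        fderiv ℂ Sg (c, x) (0, w) u v = 0
  bas : ∀ c x, (c, x) ∈ S → ∀ a : ℂ, a ≠ 0 → ∀ b b' : ℂ, ∀ u v, Vel S c x u → Vel S c x v →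
    sg c (a • x) (a • u + b • x) (a • v + b' • x) = sg c x u v

/-- `s ↦ π ∘ s` -/
def prt (π : ℂ →L[ℝ] ℝ) : (H →L[ℂ] H →L[ℂ] ℂ) →L[ℝ] (H →L[ℝ] H →L[ℝ] ℝ) :=
  (ContinuousLinearMap.compL ℝ H (H →L[ℂ] ℂ) (H →L[ℝ] ℝ)
    ((ContinuousLinearMap.compL ℝ H ℂ ℝ π).comp
      (ContinuousLinearMap.restrictScalarsL ℂ H ℂ ℝ ℝ))).comp
    (ContinuousLinearMap.restrictScalarsL ℂ H (H →L[ℂ] ℂ) ℝ ℝ)

@[simp] theorem prt_apply (π : ℂ →L[ℝ] ℝ) (s : H →L[ℂ] H →L[ℂ] ℂ) (u v : H) :
    prt π s u v = π (s u v) := rfl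

theorem smulC_contDiff {M G : Type*} [NormedAddCommGroup M] [NormedSpace ℂ M]
    [NormedAddCommGroup G] [NormedSpace ℂ G] {f : M → ℂ} {g : M → G} {m : M} {n : WithTop ℕ∞}
    (hf : ContDiffAt ℂ n f m) (hg : ContDiffAt ℂ n g m) :
    ContDiffAt ℂ n (fun y => f y • g y) m := hf.smul hg

theorem smulC_fderiv {M G : Type*} [NormedAddCommGroup M] [NormedSpace ℂ M]
    [NormedAddCommGroup G] [NormedSpace ℂ G] {f : M → ℂ} {g : M → G} {m : M} {f' : M →L[ℂ] ℂ}
    (hf : HasFDerivAt f f' m) (hg : DifferentiableAt ℂ g m) (x : M) :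
    fderiv ℂ (fun y => f y • g y) m x = f m • fderiv ℂ g m x + f' x • g m := by
  have h : HasFDerivAt (fun y => f y • g y) _ m := hf.smul hg.hasFDerivAt
  rw [h.fderiv]
  rfl

theorem two_le : (2 : WithTop ℕ∞) ≤ ∞ := WithTop.coe_le_coe.2 (le_top : (2 : ℕ∞) ≤ ⊤)

theorem clm_fderiv {M G G' : Type*} [NormedAddCommGroup M] [NormedSpace ℝ M]
    [NormedAddCommGroup G] [NormedSpace ℝ G] [NormedAddCommGroup G'] [NormedSpace ℝ G']
    (T : G →L[ℝ] G') {f : M → G} {f' : M →L[ℝ] G} {m : M} (h : HasFDerivAt f f' m) :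
    HasFDerivAt (fun y => T (f y)) (T.comp f') m := T.hasFDerivAt.comp m h

theorem clm_contDiff {M G G' : Type*} [NormedAddCommGroup M] [NormedSpace ℝ M]
    [NormedAddCommGroup G] [NormedSpace ℝ G] [NormedAddCommGroup G'] [NormedSpace ℝ G']
    (T : G →L[ℝ] G') {f : M → G} {m : M} {n : WithTop ℕ∞} (h : ContDiffAt ℝ n f m) :
    ContDiffAt ℝ n (fun y => T (f y)) m := T.contDiff.contDiffAt.comp m h

/-- real or imaginary part of a holomorphic form -/
def CF.part {S : Set (E × H)} (σ : CF S) (π : ℂ →L[ℝ] ℝ) : BF S where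
  sg c x u v := π (σ.sg c x u v)
  loc c x hx := by
    obtain ⟨Sg, h1, h2⟩ := σ.loc c x hx
    refine ⟨fun p => prt π (Sg p), ?_, ?_⟩
    · filter_upwards [h1] with p hp
      refine ⟨?_, fun hpS => ⟨fun u v => ?_, fun u v hu hv => ?_⟩⟩
      · have h3 : ContDiffAt ℝ ∞ Sg p := (hp.1.restrict_scalars ℝ).of_le le_top
        exact clm_contDiff (G := H →L[ℂ] H →L[ℂ] ℂ) (G' := H →L[ℝ] H →L[ℝ] ℝ) (prt π) h3
      · rw [prt_apply, prt_apply, (hp.2 hpS).1 u v, map_neg]
      · rw [prt_apply, (hp.2 hpS).2 u v hu hv]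
    · intro u v w hu hv hw
      have h3 : HasFDerivAt Sg ((fderiv ℂ Sg (c, x)).restrictScalars ℝ) (c, x) :=
        ((h1.self_of_nhds.1).differentiableAt (by simp)).hasFDerivAt.restrictScalars ℝ
      have h4 := clm_fderiv (G := H →L[ℂ] H →L[ℂ] ℂ) (G' := H →L[ℝ] H →L[ℝ] ℝ) (prt π) h3
      rw [h4.fderiv]
      have h5 := h2 u v w hu hv hw
      have h6 := congrArg π h5
      rw [map_add, map_add, map_zero] at h6
      exact h6
  bas c x hx a ha b b' u v hu hv := by rw [σ.bas c x hx a ha b b' u v hu hv]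

variable {C : RCh V X} {B : Set E} {S : Set (E × H)} (σ : CF S) {F : PFam C H B}
  {i j : C.ι} {c : E} {z : V} {U U' : E × V → H}

/-- the complex pull back -/
def CF.cw (σ : CF S) (i : C.ι) (F : PFam C H B) (c : E) (z v w : V) : ℂ :=
  ((σ.part reCLM).pw i F c z v w : ℂ) + ((σ.part imCLM).pw i F c z v w : ℂ) * I

theorem cw_apply (hS : Cn S) (hF : F.In S) (hc : c ∈ B) (hz : z ∈ (C.e i).target)
    (h : Lift F i c z U) (v w : V) :
    σ.cw i F c z v w = σ.sg c (U (c, z)) (dz U (c, z) v) (dz U (c, z) w) := by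
  unfold CF.cw
  rw [pw_apply _ hS hF hc hz h, pw_apply _ hS hF hc hz h]
  exact re_add_im _

theorem cw_re (c : E) (z v w : V) :
    (σ.cw i F c z v w).re = (σ.part reCLM).pw i F c z v w := by
  simp [CF.cw]

theorem cw_im (c : E) (z v w : V) :
    (σ.cw i F c z v w).im = (σ.part imCLM).pw i F c z v w := by
  simp [CF.cw]

/-- **type (2,0)** -/
theorem CF.type (hS : Cn S) (hF : F.In S) (hc : c ∈ B) (hz : z ∈ (C.e i).target)
    (h : Lift F i c z U) {v v' w : V} {a : ℂ}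
    (hv : I • dz U (c, z) v = dz U (c, z) v' + a • U (c, z)) :
    σ.cw i F c z v' w = I * σ.cw i F c z v w := by
  have hx := h.mem hS hF hc hz
  obtain ⟨Sg, h1, -⟩ := σ.loc c _ hx
  have h2 := (h1.self_of_nhds.2 hx).2
  have e1 : dz U (c, z) v' = I • dz U (c, z) v + (-a) • U (c, z) := by
    rw [hv, neg_smul]; abel
  have h3 := h.vel hS hF hc hz v
  have h3' := h.vel hS hF hc hz v'
  have h4 := h.vel hS hF hc hz w
  rw [cw_apply σ hS hF hc hz h, cw_apply σ hS hF hc hz h, ← h2 _ _ h3' h4, ← h2 _ _ h3 h4]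
  -- the Euler relation for the representative
  have h5 : Sg (c, U (c, z)) (U (c, z)) (dz U (c, z) w) = 0 := by
    have h6 := σ.bas c _ hx 1 one_ne_zero 1 0 _ _ h3 h4
    have h7 : Vel S c (U (c, z)) (dz U (c, z) v + U (c, z)) := by
      simpa using h3.scale hS (one_ne_zero (α := ℂ)) 1
    simp only [one_smul, zero_smul, add_zero] at h6
    rw [← h2 _ _ h7 h4, ← h2 _ _ h3 h4, map_add, add_apply] at h6
    exact left_eq_add.mp h6.symm
  rw [e1, map_add, add_apply, map_smul, map_smul, smul_apply, smul_apply, h5]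
  simp

/-- the derivative in the space direction is holomorphic in the parameter -/
theorem hol_dz {U : E × V → H} {c : E} {z : V} (h1 : ContDiffAt ℝ ∞ U (c, z))
    (h2 : ∀ᶠ p in 𝓝 (c, z), DifferentiableAt ℝ U p ∧
      DifferentiableAt ℂ (fun c => U (c, p.2)) p.1) (v : V) :
    DifferentiableAt ℂ (fun c => dz U (c, z) v) c := by
  have hd : ContDiffAt ℝ 1 (fderiv ℝ U) (c, z) :=
    (h1.of_le (m := 2) two_le).fderiv_right (m := 1) (by norm_num)
  have hD : HasFDerivAt (fderiv ℝ U) (fderiv ℝ (fderiv ℝ U) (c, z)) (c, z) :=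
    (hd.differentiableAt (by simp)).hasFDerivAt
  have hsym : ∀ p q : E × V, fderiv ℝ (fderiv ℝ U) (c, z) p q =
      fderiv ℝ (fderiv ℝ U) (c, z) q p := fun p q =>
    (h1.of_le (m := 2) two_le).isSymmSndFDerivAt (by simp) p q
  -- complex linearity of the parameter derivative
  have h3 : ∀ h : E, ∀ᶠ p in 𝓝 (c, z),
      fderiv ℝ U p (I • h, 0) - I • fderiv ℝ U p (h, 0) = 0 := by
    intro h
    filter_upwards [h2] with p hp
    have h4 : HasFDerivAt (fun c => U (c, p.2))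
        ((fderiv ℝ U p).comp (ContinuousLinearMap.inl ℝ E V)) p.1 :=
      HasFDerivAt.comp (f := fun c : E => (c, p.2)) (g := U) p.1 (by exact hp.1.hasFDerivAt)
        (hasFDerivAt_prodMk_left _ _)
    have h5 := h4.unique (hp.2.hasFDerivAt.restrictScalars ℝ)
    have h6 : ∀ x : E, fderiv ℝ U p (x, 0) = fderiv ℂ (fun c => U (c, p.2)) p.1 x := fun x =>
      congrArg (fun L : E →L[ℝ] H => L x) h5
    rw [h6, h6, map_smul, sub_self]
  have h4 : ∀ h : E, fderiv ℝ (fderiv ℝ U) (c, z) (0, v) (I • h, 0) =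
      I • fderiv ℝ (fderiv ℝ U) (c, z) (0, v) (h, 0) := by
    intro h
    have h5 : HasFDerivAt (fun p => fderiv ℝ U p (I • h, 0)) _ (c, z) :=
      hD.clm_apply (hasFDerivAt_const (I • h, (0 : V)) _)
    have h6 : HasFDerivAt (fun p => fderiv ℝ U p (h, 0)) _ (c, z) :=
      hD.clm_apply (hasFDerivAt_const (h, (0 : V)) _)
    have h7 := (h5.sub (h6.const_smul I)).unique
      ((hasFDerivAt_const (0 : H) (c, z)).congr_of_eventuallyEq (h3 h))
    have h8 := congrArg (fun L : E × V →L[ℝ] H => L (0, v)) h7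
    simp at h8
    exact sub_eq_zero.mp h8
  -- real derivative of `c ↦ dz U (c,z) v`
  have h5 : HasFDerivAt (fun c => dz U (c, z) v)
      ((fderiv ℝ (fderiv ℝ U) (c, z) (0, v)).comp (ContinuousLinearMap.inl ℝ E V)) c := by
    have h6 : HasFDerivAt (fun c => fderiv ℝ U (c, z))
        ((fderiv ℝ (fderiv ℝ U) (c, z)).comp (ContinuousLinearMap.inl ℝ E V)) c :=
      HasFDerivAt.comp (f := fun c : E => (c, z)) (g := fderiv ℝ U) c (by exact hD)
        (hasFDerivAt_prodMk_left _ _)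
    have h7 := h6.clm_apply (hasFDerivAt_const ((0 : E), v) c)
    refine h7.congr_fderiv ?_
    ext h
    simp [hsym (h, 0) (0, v)]
  set f' := (fderiv ℝ (fderiv ℝ U) (c, z) (0, v)).comp (ContinuousLinearMap.inl ℝ E V) with hf'
  have h6 : ∀ h : E, f' (I • h) = I • f' h := h4
  have h7 : ∀ (a : ℂ) (h : E), f' (a • h) = a • f' h := by
    intro a h
    have e1 : a • h = a.re • h + a.im • (I • h) := by
      conv_lhs => rw [← Complex.re_add_im a]
      rw [add_smul, mul_smul]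
      rfl
    have e2 : a • f' h = a.re • f' h + a.im • (I • f' h) := by
      conv_lhs => rw [← Complex.re_add_im a]
      rw [add_smul, mul_smul]
      rfl
    rw [e1, e2, map_add, map_smul, map_smul, h6]
  let fC : E →L[ℂ] H :=
    { toFun := f', map_add' := f'.map_add, map_smul' := h7, cont := f'.continuous }
  exact (hasFDerivAt_of_restrictScalars (𝕜' := ℂ) (f' := fC) ℝ h5 (by ext; rfl)).differentiableAt

/-- **the pull back is pointwise holomorphic in the parameter** -/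
theorem CF.hol (hS : Cn S) (hF : F.In S) (hc : c ∈ B) (hz : z ∈ (C.e i).target) (v w : V) :
    DifferentiableAt ℂ (fun c => σ.cw i F c z v w) c := by
  obtain ⟨U, h⟩ := F.exists_lift hc hz
  have hx := h.mem hS hF hc hz
  obtain ⟨Sg, h1, -⟩ := σ.loc c _ hx
  have ht : Tendsto (fun c : E => (c, z)) (𝓝 c) (𝓝 (c, z)) :=
    Continuous.tendsto' (by fun_prop) _ _ rfl
  have h0 : ContinuousAt (fun p : E × V => (p.1, U p)) (c, z) :=
    continuousAt_fst.prodMk h.diff.continuousAt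
  have e1 : (fun c => σ.cw i F c z v w) =ᶠ[𝓝 c] fun c =>
      Sg (c, U (c, z)) (dz U (c, z) v) (dz U (c, z) w) := by
    filter_upwards [ht.eventually h.eventually, ht.eventually (nhds_mem F hc hz),
      ht.eventually (h0.eventually h1)] with c' h2 h3 h4
    have h5 := h2.mem hS hF h3.1 h3.2
    rw [cw_apply σ hS hF h3.1 h3.2 h2]
    exact ((h4.2 h5).2 _ _ (h2.vel hS hF h3.1 h3.2 v) (h2.vel hS hF h3.1 h3.2 w)).symm
  refine DifferentiableAt.congr_of_eventuallyEq ?_ e1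
  have hU : DifferentiableAt ℂ (fun c => U (c, z)) c := h.self_of_nhds.2.2
  have h2 : ∀ v, DifferentiableAt ℂ (fun c => dz U (c, z) v) c := fun v =>
    hol_dz h.sm (h.mono fun p hp => ⟨hp.1.differentiableAt (by simp), hp.2.2⟩) v
  have h3 : DifferentiableAt ℂ (fun c => (c, U (c, z))) c := differentiableAt_id.prodMk hU
  have h4 : DifferentiableAt ℂ (fun c => Sg (c, U (c, z))) c :=
    DifferentiableAt.comp (f := fun c => (c, U (c, z))) (g := Sg) c
      (by exact h1.self_of_nhds.1.differentiableAt (by simp)) h3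
  exact (h4.clm_apply (h2 v)).clm_apply (h2 w)

/-! ### polynomial forms -/

/-- a form `σ` with `X_j^m σ = s_j` -/
structure JForm (S : Set (E × H)) (κ : Type) where
  m : ℕ
  hm : 2 ≤ m
  X : κ → H →L[ℂ] ℂ
  s : κ → E × H → H →L[ℂ] H →L[ℂ] ℂ
  cover : ∀ c x, (c, x) ∈ S → ∃ j, X j x ≠ 0
  hol : ∀ j c x, (c, x) ∈ S → ∀ᶠ p in 𝓝 (c, x), ContDiffAt ℂ ω (s j) p
  alt : ∀ j p, p ∈ S → ∀ u v, s j p u v = -s j p v u
  hom : ∀ j c x, (c, x) ∈ S → ∀ a : ℂ, a ≠ 0 → ∀ u v,
    s j (c, a • x) u v = a ^ (m - 2) * s j (c, x) u v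
  eul : ∀ j c x, (c, x) ∈ S → ∀ v, s j (c, x) x v = 0
  agr : ∀ i j c x, (c, x) ∈ S → ∀ u v, Vel S c x u → Vel S c x v →
    X i x ^ m * s j (c, x) u v = X j x ^ m * s i (c, x) u v
  clo : ∀ j c x, (c, x) ∈ S → X j x ≠ 0 → ∀ u v w, Vel S c x u → Vel S c x v → Vel S c x w →
    X j x * (fderiv ℂ (s j) (c, x) (0, u) v w + fderiv ℂ (s j) (c, x) (0, v) w u +
      fderiv ℂ (s j) (c, x) (0, w) u v) -
      m * (X j u * s j (c, x) v w + X j v * s j (c, x) w u + X j w * s j (c, x) u v) = 0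

namespace JForm

variable {κ : Type} (J : JForm S κ)

/-- the value, with a chosen coordinate -/
def val (c : E) (x u v : H) : ℂ :=
  open Classical in
  if h : ∃ j, J.X j x ≠ 0 then J.s h.choose (c, x) u v / J.X h.choose x ^ J.m else 0

theorem val_eq {c : E} {x : H} (hx : (c, x) ∈ S) {j : κ} (hj : J.X j x ≠ 0) {u v : H}
    (hu : Vel S c x u) (hv : Vel S c x v) :
    J.val c x u v = J.s j (c, x) u v / J.X j x ^ J.m := by
  have h : ∃ j, J.X j x ≠ 0 := ⟨j, hj⟩
  unfold val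
  rw [dif_pos h, div_eq_div_iff (pow_ne_zero _ h.choose_spec) (pow_ne_zero _ hj), mul_comm,
    J.agr _ _ c x hx u v hu hv, mul_comm]

/-- the form -/
def cf (hS : Cn S) : CF S where
  sg := J.val
  loc c x hx := by
    obtain ⟨j, hj⟩ := J.cover c x hx
    have hXc : ContDiff ℂ ω (fun p : E × H => J.X j p.2) :=
      (J.X j).contDiff.comp contDiff_snd
    have hX : ∀ᶠ p : E × H in 𝓝 (c, x), J.X j p.2 ≠ 0 :=
      hXc.continuous.continuousAt.eventually_ne hj
    have hinv : ∀ p : E × H, J.X j p.2 ≠ 0 →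
        ContDiffAt ℂ ω (fun p : E × H => (J.X j p.2 ^ J.m)⁻¹) p := fun p hp =>
      (hXc.contDiffAt.pow _).inv (pow_ne_zero _ hp)
    refine ⟨fun p => (J.X j p.2 ^ J.m)⁻¹ • J.s j p, ?_, ?_⟩
    · filter_upwards [hX, J.hol j c x hx] with p h1 h2
      refine ⟨smulC_contDiff (G := H →L[ℂ] H →L[ℂ] ℂ) (hinv p h1) h2, fun hp => ⟨fun u v => ?_, fun u v hu hv => ?_⟩⟩
      · rw [smul_apply, smul_apply, smul_apply, smul_apply, J.alt j p hp u v, smul_neg]
      · rw [J.val_eq hp h1 hu hv, smul_apply, smul_apply, smul_eq_mul, div_eq_inv_mul]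
    · intro u v w hu hv hw
      have hs := (J.hol j c x hx).self_of_nhds.differentiableAt (by simp)
      have h1 : HasFDerivAt (fun p : E × H => J.X j p.2)
          ((J.X j).comp (ContinuousLinearMap.snd ℂ E H)) (c, x) :=
        HasFDerivAt.comp (f := fun p : E × H => p.2) (g := fun y => J.X j y) (c, x)
          (by exact (J.X j).hasFDerivAt) hasFDerivAt_snd
      have h2 : HasFDerivAt (fun p : E × H => (J.X j p.2 ^ J.m)⁻¹)
          (-((J.X j x ^ J.m) ^ 2)⁻¹ • ((J.m : ℂ) * J.X j x ^ (J.m - 1)) •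
            (J.X j).comp (ContinuousLinearMap.snd ℂ E H)) (c, x) := by
        have h3 := h1.pow J.m
        have h4 := (hasDerivAt_inv (pow_ne_zero J.m hj)).comp_hasFDerivAt (c, x) h3
        refine h4.congr_fderiv ?_
        simp
      have h4 : ∀ a : H, fderiv ℂ (fun p : E × H => (J.X j p.2 ^ J.m)⁻¹ • J.s j p) (c, x) (0, a) =
          (J.X j x ^ J.m)⁻¹ • fderiv ℂ (J.s j) (c, x) (0, a) +
            (-((J.X j x ^ J.m) ^ 2)⁻¹ * ((J.m : ℂ) * J.X j x ^ (J.m - 1)) * J.X j a) •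
              J.s j (c, x) := by
        intro a
        rw [smulC_fderiv (G := H →L[ℂ] H →L[ℂ] ℂ) h2 hs (0, a)]
        simp only [smul_apply, ContinuousLinearMap.comp_apply, ContinuousLinearMap.coe_snd',
          smul_eq_mul, mul_assoc]
      have h5 := J.clo j c x hx hj u v w hu hv hw
      simp only [h4, add_apply, smul_apply, smul_eq_mul]
      obtain ⟨n, hn⟩ : ∃ n, J.m = n + 1 := ⟨J.m - 1, by have := J.hm; omega⟩
      rw [hn] at h5 ⊢
      simp only [Nat.add_sub_cancel]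
      have hX0 : J.X j x ≠ 0 := hj
      field_simp
      push_cast at h5 ⊢
      linear_combination J.X j x ^ n * h5
  bas c x hx a ha b b' u v hu hv := by
    obtain ⟨j, hj⟩ := J.cover c x hx
    have hj' : J.X j (a • x) ≠ 0 := by
      rw [map_smul]
      exact smul_ne_zero ha hj
    rw [J.val_eq (hS _ _ hx a ha) hj' (hu.scale hS ha b) (hv.scale hS ha b'), J.val_eq hx hj hu hv,
      J.hom j c x hx a ha]
    have e1 : ∀ w, J.s j (c, x) w x = 0 := fun w => by
      rw [J.alt j _ hx, J.eul j c x hx, neg_zero]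
    obtain ⟨n, hn⟩ : ∃ n, J.m = n + 2 := ⟨J.m - 2, by have := J.hm; omega⟩
    rw [hn]
    simp only [map_add, add_apply, map_smul, smul_apply, J.eul j c x hx, e1, smul_eq_mul,
      Nat.add_sub_cancel, mul_zero, add_zero]
    field_simp
    ring

end JForm

end

end Crest.Agent.R281.Phl_655
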