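import Crest.Agent.R281.Ti5_846
import Crest.Agent.R281.F2Mod_358
import Crest.Agent.R281.Phl2_655
import Crest.Agent.R281.Ph1_429

/-!
# Row 281, PER-HOL, part Ph2 (helper429): the intersection numbers are holomorphic in the parameter

* `hol_int`  : the integral over a compact set of a jointly continuous family which is holomorphic
               in the parameter is holomorphic
* `II_hol`   : `s, s' : E → F2 C` (`E` any finite dimensional complex space) jointly continuous, `s + i s'` pointwise holomorphic in `q` ==>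
               `q ↦ II (update w k (s q)) + i II (update w k (s' q))` holomorphic
* `IM_hol`   : the same for the multilinear map `IM`
* `Q_hol`    : for every form `Q` with the Fujiki relation, `q ↦ Q(x, s q) + i Q(x, s' q)`
* `holF_of_CF`: the pull back of 655's `CF` by a `PFam` is a `HolF`
-/

set_option autoImplicit false
set_option linter.unusedSectionVars false
set_option maxHeartbeats 400000

open Set Filter Topology MeasureTheory
open scoped ContDiff

namespace Crest.Agent.R281.Ph2_429

open Crest.Agent.R281.HkR_835 Crest.Agent.R281.Ti_846 Equiv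

noncomputable section

/-! ### integrals depending holomorphically on a parameter -/

/-- Cauchy estimate for the derivative in any complex normed space -/
theorem norm_fderiv_le {E : Type*} [NormedAddCommGroup E] [NormedSpace ℂ E] {f : E → ℂ} {q : E}
    {r M : ℝ} (hr : 0 < r) {D : Set E} (hD : IsOpen D) (hsub : Metric.closedBall q r ⊆ D)
    (hf : DifferentiableOn ℂ f D) (hM : ∀ y ∈ Metric.closedBall q r, ‖f y‖ ≤ M) :
    ‖fderiv ℂ f q‖ ≤ M / r := by
  have hM0 : 0 ≤ M := (norm_nonneg _).trans (hM q (Metric.mem_closedBall_self hr.le))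
  refine ContinuousLinearMap.opNorm_le_bound _ (by positivity) fun v => ?_
  rcases eq_or_ne v 0 with rfl | hv
  · simp
  have hv0 : 0 < ‖v‖ := norm_pos_iff.2 hv
  set w : E := ((‖v‖⁻¹ : ℝ) : ℂ) • v with hw
  have hw1 : ‖w‖ = 1 := by
    rw [hw, norm_smul, Complex.norm_real, Real.norm_eq_abs, abs_of_pos (by positivity)]
    field_simp
  have hvw : v = ((‖v‖ : ℝ) : ℂ) • w := by
    rw [hw, smul_smul, ← Complex.ofReal_mul, mul_inv_cancel₀ hv0.ne', Complex.ofReal_one, one_smul]
  have hline : ∀ t ∈ Metric.closedBall (0 : ℂ) r, q + t • w ∈ Metric.closedBall q r := by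
    intro t ht
    rw [Metric.mem_closedBall, dist_eq_norm, add_sub_cancel_left, norm_smul, hw1, mul_one]
    simpa using ht
  have hlin : Continuous fun t : ℂ => q + t • w := by fun_prop
  have hd : ∀ t ∈ Metric.closedBall (0 : ℂ) r,
      HasDerivAt (fun t : ℂ => f (q + t • w)) (fderiv ℂ f (q + t • w) w) t := by
    intro t ht
    have h1 : HasDerivAt (fun t : ℂ => q + t • w) w t := by
      simpa using ((hasDerivAt_id t).smul_const w).const_add q
    have h2 : DifferentiableAt ℂ f (q + t • w) :=
      (hf _ (hsub (hline t ht))).differentiableAt (hD.mem_nhds (hsub (hline t ht)))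
    exact HasFDerivAt.comp_hasDerivAt (f := fun t : ℂ => q + t • w) (l := f) t
      h2.hasFDerivAt h1
  have hdc : DiffContOnCl ℂ (fun t : ℂ => f (q + t • w)) (Metric.ball 0 r) := by
    refine DifferentiableOn.diffContOnCl ?_
    rw [closure_ball _ hr.ne']
    exact fun t ht => (hd t ht).differentiableAt.differentiableWithinAt
  have h3 := Complex.norm_deriv_le_of_forall_mem_sphere_norm_le hr hdc
    fun t ht => hM _ (hline t (Metric.sphere_subset_closedBall ht))
  have h4 := (hd 0 (Metric.mem_closedBall_self hr.le)).deriv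
  rw [zero_smul, add_zero] at h4
  rw [h4] at h3
  calc ‖fderiv ℂ f q v‖ = ‖v‖ * ‖fderiv ℂ f q w‖ := by
        conv_lhs => rw [hvw]
        rw [map_smul, norm_smul, Complex.norm_real, Real.norm_eq_abs, abs_of_pos hv0]
    _ ≤ ‖v‖ * (M / r) := by gcongr
    _ = M / r * ‖v‖ := mul_comm _ _

theorem hol_int {E : Type*} [NormedAddCommGroup E] [NormedSpace ℂ E] [FiniteDimensional ℂ E]
    {V : Type*} [NormedAddCommGroup V] [MeasurableSpace V] [BorelSpace V]
    (μ : Measure V) [IsFiniteMeasureOnCompacts μ] {U Kc : Set V} (hU : MeasurableSet U)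
    (hK : IsCompact Kc) (hKU : Kc ⊆ U) {D : Set E} (hD : IsOpen D) {G : E → V → ℂ}
    (hG : ContinuousOn (fun p : E × V => G p.1 p.2) (D ×ˢ Kc))
    (h0 : ∀ q ∈ D, ∀ z ∈ U, z ∉ Kc → G q z = 0)
    (hh : ∀ z ∈ Kc, DifferentiableOn ℂ (fun q => G q z) D) :
    DifferentiableOn ℂ (fun q => ∫ z in U, G q z ∂μ) D := by
  have e1 : ∀ q ∈ D, ∫ z in U, G q z ∂μ = ∫ z in Kc, G q z ∂μ := fun q hq =>
    setIntegral_eq_of_subset_of_forall_sdiff_eq_zero hU hKU fun z hz => h0 q hq z hz.1 hz.2
  refine DifferentiableOn.congr ?_ e1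
  intro q₀ hq₀
  have : ProperSpace E := FiniteDimensional.proper ℂ E
  obtain ⟨r, hr, hball⟩ := Metric.isOpen_iff.1 hD q₀ hq₀
  have hr2 : 0 < r / 2 := by linarith
  have hr4 : 0 < r / 4 := by linarith
  have hcb : Metric.closedBall q₀ (r / 2) ⊆ D :=
    (Metric.closedBall_subset_ball (by linarith)).trans hball
  have hcont : ∀ q ∈ D, ContinuousOn (G q) Kc := fun q hq =>
    hG.comp (f := fun z : V => (q, z)) (by fun_prop) fun z hz => ⟨hq, hz⟩
  have hm : ∀ q ∈ D, AEStronglyMeasurable (G q) (μ.restrict Kc) := fun q hq =>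
    (hcont q hq).aestronglyMeasurable_of_isCompact hK hK.measurableSet
  obtain ⟨M, hM⟩ : ∃ M, ∀ q ∈ Metric.closedBall q₀ (r / 2), ∀ z ∈ Kc, ‖G q z‖ ≤ M := by
    have h1 : IsCompact (Metric.closedBall q₀ (r / 2) ×ˢ Kc) :=
      (isCompact_closedBall _ _).prod hK
    obtain ⟨M, hM⟩ := h1.exists_bound_of_continuousOn
      (hG.mono (Set.prod_mono hcb le_rfl))
    exact ⟨M, fun q hq z hz => hM (q, z) ⟨hq, hz⟩⟩
  have hder : ∀ z ∈ Kc, ∀ q ∈ Metric.ball q₀ (r / 4), HasFDerivAt (fun q => G q z)
      (fderiv ℂ (fun q => G q z) q) q := by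
    intro z hz q hq
    have hqD : q ∈ D := hball (Metric.ball_subset_ball (by linarith) hq)
    exact ((hh z hz).differentiableAt (hD.mem_nhds hqD)).hasFDerivAt
  have hbd : ∀ z ∈ Kc, ∀ q ∈ Metric.ball q₀ (r / 4),
      ‖fderiv ℂ (fun q => G q z) q‖ ≤ M / (r / 4) := by
    intro z hz q hq
    have hsub : Metric.closedBall q (r / 4) ⊆ Metric.closedBall q₀ (r / 2) := by
      intro y hy
      rw [Metric.mem_closedBall] at hy ⊢
      rw [Metric.mem_ball] at hq
      linarith [dist_triangle y q q₀]
    exact norm_fderiv_le hr4 hD (hsub.trans hcb) (hh z hz) fun y hy => hM y (hsub hy) z hz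
  have hmd : AEStronglyMeasurable (fun z => fderiv ℂ (fun q => G q z) q₀) (μ.restrict Kc) := by
    set bE := Module.finBasis ℂ E with hbE
    have key : ∀ v : E, AEStronglyMeasurable (fun z => fderiv ℂ (fun q => G q z) q₀ v)
        (μ.restrict Kc) := by
      intro v
      have hρ : 0 < r / 2 / (‖v‖ + 1) := by positivity
      set ρ := r / 2 / (‖v‖ + 1) with hρd
      have hun : ∀ n : ℕ, 0 < ρ / ((n : ℝ) + 1) := fun n => by positivity
      have hu : ∀ n : ℕ, q₀ + ((ρ / ((n : ℝ) + 1) : ℝ) : ℂ) • v ∈ D := by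
        intro n
        apply hcb
        rw [Metric.mem_closedBall, dist_eq_norm, add_sub_cancel_left, norm_smul, Complex.norm_real,
          Real.norm_eq_abs, abs_of_pos (hun n)]
        have h1 : ρ / ((n : ℝ) + 1) ≤ ρ :=
          div_le_self hρ.le (by linarith [(Nat.cast_nonneg n : (0 : ℝ) ≤ n)])
        calc ρ / ((n : ℝ) + 1) * ‖v‖ ≤ ρ * (‖v‖ + 1) := by
              gcongr
              linarith
          _ = r / 2 := by rw [hρd]; field_simp
      refine aestronglyMeasurable_of_tendsto_ae (u := atTop) (f := fun (n : ℕ) z =>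
        ((ρ / ((n : ℝ) + 1) : ℝ) : ℂ)⁻¹ * (G (q₀ + ((ρ / ((n : ℝ) + 1) : ℝ) : ℂ) • v) z -
          G q₀ z)) (fun n => ((hm _ (hu n)).sub (hm _ hq₀)).const_mul _) ?_
      refine ae_restrict_of_forall_mem hK.measurableSet fun z hz => ?_
      have h1 : HasDerivAt (fun t : ℂ => G (q₀ + t • v) z)
          (fderiv ℂ (fun q => G q z) q₀ v) 0 := by
        have h2 : HasDerivAt (fun t : ℂ => q₀ + t • v) v 0 := by
          simpa using ((hasDerivAt_id (0 : ℂ)).smul_const v).const_add q₀
        have h3 := hder z hz q₀ (Metric.mem_ball_self hr4)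
        have h4 : HasFDerivAt (fun q => G q z) (fderiv ℂ (fun q => G q z) q₀)
            (q₀ + (0 : ℂ) • v) := by simpa using h3
        exact HasFDerivAt.comp_hasDerivAt (f := fun t : ℂ => q₀ + t • v)
          (l := fun q => G q z) (0 : ℂ) h4 h2
      rw [hasDerivAt_iff_tendsto_slope] at h1
      have h2 : Tendsto (fun n : ℕ => ((ρ / ((n : ℝ) + 1) : ℝ) : ℂ)) atTop (𝓝[≠] 0) := by
        refine tendsto_nhdsWithin_iff.2 ⟨?_, Eventually.of_forall fun n => ?_⟩
        · have h3 : Tendsto (fun n : ℕ => ρ / ((n : ℝ) + 1)) atTop (𝓝 0) := by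
            have h4 := (tendsto_one_div_add_atTop_nhds_zero_nat (𝕜 := ℝ)).const_mul ρ
            rw [mul_zero] at h4
            refine h4.congr fun n => ?_
            rw [mul_one_div]
          have := (Complex.continuous_ofReal.tendsto 0).comp h3
          rw [Complex.ofReal_zero] at this
          exact this
        · simp only [mem_compl_iff, mem_singleton_iff, Complex.ofReal_eq_zero]
          exact (hun n).ne'
      refine (h1.comp h2).congr fun n => ?_
      simp only [Function.comp, slope, vsub_eq_sub, sub_zero, zero_smul, add_zero, smul_eq_mul]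
    have e2 : (fun z => fderiv ℂ (fun q => G q z) q₀) = fun z =>
        ∑ j, fderiv ℂ (fun q => G q z) q₀ (bE j) • LinearMap.toContinuousLinearMap (bE.coord j) := by
      funext z
      ext v
      rw [sum_apply]
      conv_lhs => rw [← bE.sum_repr v]
      rw [map_sum]
      refine Finset.sum_congr rfl fun j _ => ?_
      rw [map_smul, smul_eq_mul, smul_apply, smul_eq_mul, mul_comm]
      rfl
    rw [e2]
    exact Finset.aestronglyMeasurable_fun_sum _ fun j _ => (key (bE j)).smul_const _
  have hint : Integrable (G q₀) (μ.restrict Kc) := (hcont q₀ hq₀).integrableOn_compact hK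
  have hkey := hasFDerivAt_integral_of_dominated_of_fderiv_le (μ := μ.restrict Kc) (𝕜 := ℂ)
    (F := G) (F' := fun q z => fderiv ℂ (fun q => G q z) q) (x₀ := q₀)
    (s := Metric.ball q₀ (r / 4)) (bound := fun _ => M / (r / 4))
    (Metric.ball_mem_nhds q₀ hr4)
    (by
      filter_upwards [hD.mem_nhds hq₀] with q hq
      exact hm q hq) hint hmd
    (ae_restrict_of_forall_mem hK.measurableSet fun z hz q hq => hbd z hz q hq)
    (by
      have : IsFiniteMeasure (μ.restrict Kc) :=
        ⟨by rw [Measure.restrict_apply_univ]; exact hK.measure_lt_top⟩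
      exact integrable_const _)
    (ae_restrict_of_forall_mem hK.measurableSet fun z hz q hq => hder z hz q hq)
  exact hkey.differentiableAt.differentiableWithinAt

/-! ### top forms -/

section top

variable {V : Type} [NormedAddCommGroup V] [NormedSpace ℝ V] {K : Type} [Fintype K] [DecidableEq K]

/-- the coefficient of a top form with one slot left free -/
def cf (b : K × Fin 2 → V) (w : K → Bil V) (k : K) (σ : Perm (K × Fin 2)) : ℝ :=
  ((Perm.sign σ : ℤ) : ℝ) * ∏ l ∈ Finset.univ.erase k, w l (b (σ (l, 0))) (b (σ (l, 1)))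

theorem TP_upd (b : K × Fin 2 → V) (w : K → Bil V) (k : K) (x : Bil V) :
    TP b (Function.update w k x) =
      ∑ σ : Perm (K × Fin 2), cf b w k σ * x (b (σ (k, 0))) (b (σ (k, 1))) := by
  unfold TP cf
  refine Finset.sum_congr rfl fun σ _ => ?_
  rw [← Finset.mul_prod_erase _ _ (Finset.mem_univ k), Function.update_self]
  have h1 : ∀ l ∈ (Finset.univ : Finset K).erase k,
      (Function.update w k x) l (b (σ (l, 0))) (b (σ (l, 1))) =
        w l (b (σ (l, 0))) (b (σ (l, 1))) := by
    intro l hl
    rw [Function.update_of_ne (Finset.ne_of_mem_erase hl)]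
  rw [Finset.prod_congr rfl h1]
  ring

end top

variable {V X : Type} [NormedAddCommGroup V] [NormedSpace ℝ V] [FiniteDimensional ℝ V]
  [MeasurableSpace V] [BorelSpace V] (μ : Measure V) [μ.IsAddHaarMeasure] [TopologicalSpace X]
  {K : Type} [Fintype K] [DecidableEq K] {C : RCh V X} [CompactSpace X]
  {E : Type} [NormedAddCommGroup E] [NormedSpace ℂ E] [FiniteDimensional ℂ E]

/-- a pair of families of closed real 2-forms which is the real and imaginary part of a
holomorphic family -/
structure HolF (D : Set E) (s s' : E → F2 C) : Prop where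
  op : IsOpen D
  ct : ∀ i, ContinuousOn (fun p : E × V => (s p.1).w i p.2) (D ×ˢ (C.e i).target)
  ct' : ∀ i, ContinuousOn (fun p : E × V => (s' p.1).w i p.2) (D ×ˢ (C.e i).target)
  hol : ∀ i, ∀ z ∈ (C.e i).target, ∀ u v, DifferentiableOn ℂ
    (fun q => ((s q).w i z u v : ℂ) + ((s' q).w i z u v : ℂ) * Complex.I) D

variable {D : Set E} {s s' : E → F2 C}

theorem HolF.mono (h : HolF D s s') {D' : Set E} (hD : IsOpen D') (hs : D' ⊆ D) :
    HolF D' s s' :=
  ⟨hD, fun i => (h.ct i).mono (Set.prod_mono hs le_rfl),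
    fun i => (h.ct' i).mono (Set.prod_mono hs le_rfl),
    fun i z hz u v => (h.hol i z hz u v).mono hs⟩

/-- **the intersection numbers are holomorphic in the parameter** -/
theorem II_hol (h : HolF D s s') (b : Module.Basis (K × Fin 2) ℝ V) (P : RPart C)
    (w : K → F2 C) (k : K) :
    DifferentiableOn ℂ (fun q => (II μ b P (Function.update w k (s q)) : ℂ) +
      (II μ b P (Function.update w k (s' q)) : ℂ) * Complex.I) D := by
  have e1 : ∀ q, (II μ b P (Function.update w k (s q)) : ℂ) +
      (II μ b P (Function.update w k (s' q)) : ℂ) * Complex.I =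
      ∑ l, ∫ z in (C.e (P.c l)).target, (P.ψ l ((C.e (P.c l)).symm z) : ℂ) *
        ∑ σ : Perm (K × Fin 2), (cf b (fun j => (w j).w (P.c l) z) k σ : ℂ) *
          (((s q).w (P.c l) z (b (σ (k, 0))) (b (σ (k, 1))) : ℂ) +
            ((s' q).w (P.c l) z (b (σ (k, 0))) (b (σ (k, 1))) : ℂ) * Complex.I) ∂μ := by
    intro q
    unfold II intT
    rw [Complex.ofReal_sum, Complex.ofReal_sum, Finset.sum_mul, ← Finset.sum_add_distrib]
    refine Finset.sum_congr rfl fun l _ => ?_
    rw [← integral_complex_ofReal, ← integral_complex_ofReal, ← integral_mul_const,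
      ← integral_add]
    · refine integral_congr_ae (Eventually.of_forall fun z => ?_)
      simp only [TopF.of_D, upd_w]
      rw [TP_upd, TP_upd]
      push_cast
      simp only [mul_add, Finset.sum_add_distrib, Finset.mul_sum, Finset.sum_mul]
      congr 1
      exact Finset.sum_congr rfl fun σ _ => by ring
    · exact (integrableOn_psi μ P _ l).ofReal
    · exact (integrableOn_psi μ P _ l).ofReal.mul_const _
  refine DifferentiableOn.congr ?_ fun q _ => e1 q
  refine DifferentiableOn.fun_sum fun l _ => ?_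
  set i := P.c l with hi
  set Kc : Set V := (C.e i) '' tsupport (P.ψ l) with hKc
  have hts : IsCompact (tsupport (P.ψ l)) := (isClosed_tsupport _).isCompact
  have hK : IsCompact Kc :=
    hts.image_of_continuousOn ((C.e i).continuousOn.mono (P.sub l))
  have hKU : Kc ⊆ (C.e i).target := by
    rintro _ ⟨x, hx, rfl⟩
    exact (C.e i).map_source (P.sub l hx)
  refine hol_int μ (C.e i).open_target.measurableSet hK hKU h.op ?_ ?_ ?_
  · have hpsi : ContinuousOn (fun p : E × V => (P.ψ l ((C.e i).symm p.2) : ℂ)) (D ×ˢ Kc) :=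
      Complex.continuous_ofReal.comp_continuousOn
        (((P.sm l i).continuousOn).comp continuousOn_snd fun p hp => hKU hp.2)
    refine hpsi.mul (continuousOn_finsetSum _ fun σ _ => ContinuousOn.mul ?_ ?_)
    · refine Complex.continuous_ofReal.comp_continuousOn ?_
      unfold cf
      refine continuousOn_const.mul (continuousOn_finsetProd _ fun j _ => ?_)
      exact (((((w j).sm i).continuousOn).clm_apply continuousOn_const).clm_apply
        continuousOn_const).comp continuousOn_snd fun p hp => hKU hp.2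
    · have h1 := ((h.ct i).mono (Set.prod_mono (le_refl D) hKU)).clm_apply
        (continuousOn_const (c := b (σ (k, 0)))) |>.clm_apply
        (continuousOn_const (c := b (σ (k, 1))))
      have h2 := ((h.ct' i).mono (Set.prod_mono (le_refl D) hKU)).clm_apply
        (continuousOn_const (c := b (σ (k, 0)))) |>.clm_apply
        (continuousOn_const (c := b (σ (k, 1))))
      exact (Complex.continuous_ofReal.comp_continuousOn h1).add
        ((Complex.continuous_ofReal.comp_continuousOn h2).mul continuousOn_const)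
  · intro q _ z hz hzK
    have h1 : P.ψ l ((C.e i).symm z) = 0 := by
      by_contra hne
      exact hzK ⟨(C.e i).symm z, subset_tsupport _ hne, (C.e i).right_inv hz⟩
    rw [h1]
    simp
  · intro z hz
    refine DifferentiableOn.const_mul (DifferentiableOn.fun_sum fun σ _ =>
      DifferentiableOn.const_mul ?_ _) _
    exact h.hol i z (hKU hz) _ _

theorem IM_hol (h : HolF D s s') (b : Module.Basis (K × Fin 2) ℝ V) (P : RPart C)
    (w : K → F2 C) (k : K) :
    DifferentiableOn ℂ (fun q => (IM μ b P (Function.update w k (s q)) : ℂ) +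
      (IM μ b P (Function.update w k (s' q)) : ℂ) * Complex.I) D :=
  II_hol μ h b P w k

theorem IM_sym (b : Module.Basis (K × Fin 2) ℝ V) (P : RPart C) :
    Ph1_429.Sym (IM μ b P) := fun π w => IM_perm μ b P π w

/-- **the period is holomorphic**: `Q` any form with the Fujiki relation -/
theorem Q_hol (h : HolF D s s') (b : Module.Basis (K × Fin 2) ℝ V) (P : RPart C) {ν : ℕ}
    (hν : ν ≠ 0) (hK : Fintype.card K = 2 * ν) (Q : F2 C →ₗ[ℝ] F2 C →ₗ[ℝ] ℝ)
    (hs : ∀ x y, Q x y = Q y x) (hF : ∀ x, IM μ b P (fun _ => x) = (Q x x) ^ ν) {x₀ : F2 C}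
    (h0 : Q x₀ x₀ ≠ 0) (x : F2 C) :
    DifferentiableOn ℂ (fun q => (Q x (s q) : ℂ) + (Q x (s' q) : ℂ) * Complex.I) D :=
  Ph1_429.hol_of hν hK (IM_sym μ b P) Q hs hF h0 s s' (fun w k => IM_hol μ h b P w k) x

theorem Q_analyticAt {D : Set ℂ} {s s' : ℂ → F2 C} (h : HolF D s s') (b : Module.Basis (K × Fin 2) ℝ V) (P : RPart C) {ν : ℕ}
    (hν : ν ≠ 0) (hK : Fintype.card K = 2 * ν) (Q : F2 C →ₗ[ℝ] F2 C →ₗ[ℝ] ℝ)
    (hs : ∀ x y, Q x y = Q y x) (hF : ∀ x, IM μ b P (fun _ => x) = (Q x x) ^ ν) {x₀ : F2 C}
    (h0 : Q x₀ x₀ ≠ 0) (x : F2 C) {q : ℂ} (hq : q ∈ D) :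
    AnalyticAt ℂ (fun q => (Q x (s q) : ℂ) + (Q x (s' q) : ℂ) * Complex.I) q :=
  (Q_hol μ h b P hν hK Q hs hF h0 x).analyticAt (h.op.mem_nhds hq)

/-! ### pull backs -/

/-- total version of a family given on `B` -/
def tot {B : Set E} (f : ∀ c ∈ B, F2 C) (c : E) : F2 C :=
  open Classical in if hc : c ∈ B then f c hc else 0

theorem tot_eq {B : Set E} (f : ∀ c ∈ B, F2 C) {c : E} (hc : c ∈ B) : tot f c = f c hc :=
  dif_pos hc

open Crest.Agent.R281.Phl_655

variable {H : Type} [NormedAddCommGroup H] [NormedSpace ℂ H] {B : Set E} {S : Set (E × H)}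
  {F : PFam C H B}

/-- the pull back of a holomorphic form by a holomorphic family is a holomorphic family -/
theorem holF_of_CF (σ : CF S) (hS : Cn S) (hF : F.In S) :
    HolF B (tot fun _ hc => (σ.part Complex.reCLM).pull F hS hF hc)
      (tot fun _ hc => (σ.part Complex.imCLM).pull F hS hF hc) where
  op := F.op
  ct i := by
    refine (pw_smooth (σ.part Complex.reCLM) hS hF i).continuousOn.congr ?_
    rintro ⟨c, z⟩ ⟨hc, hz⟩
    simp only [tot_eq _ hc]
    rfl
  ct' i := by
    refine (pw_smooth (σ.part Complex.imCLM) hS hF i).continuousOn.congr ?_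
    rintro ⟨c, z⟩ ⟨hc, hz⟩
    simp only [tot_eq _ hc]
    rfl
  hol i z hz u v := by
    have h1 : DifferentiableOn ℂ (fun c => σ.cw i F c z u v) B := fun c hc =>
      (CF.hol σ hS hF hc hz u v).differentiableWithinAt
    refine h1.congr fun c hc => ?_
    simp only [tot_eq _ hc]
    rfl

end

end Crest.Agent.R281.Ph2_429
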