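import Crest.Agent.R281.Ti4_846

/-!
# R281 (S0424), (D12) PER-HOL, second owner (helper267): integrals of holomorphic families

* `hol_int` : `q ↦ ∫_K F q z dz` is holomorphic if `F` is `C^1` and pointwise holomorphic in `q`
* `II_hol`  : `q ↦ II(…, R q, …) + i II(…, T q, …)` is holomorphic if `R + iT` is pointwise
              holomorphic
-/

set_option autoImplicit false
set_option linter.unusedSectionVars false

open Complex Set Filter Topology MeasureTheory
open scoped ContDiff

namespace Crest.Agent.R281.Phb_267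

open Crest.Agent.R281.HkR_835 Crest.Agent.R281.Ti_846

noncomputable section

section int

variable {E V : Type*} [NormedAddCommGroup E] [NormedSpace ℂ E]
  [NormedAddCommGroup V] [NormedSpace ℝ V] [FiniteDimensional ℝ V] [MeasurableSpace V]
  [BorelSpace V] {μ : Measure V} [IsFiniteMeasureOnCompacts μ]

theorem hol_int {B : Set E} (hB : IsOpen B) {U : Set V} (hU : IsOpen U) {K : Set V}
    (hK : IsCompact K) (hKU : K ⊆ U) {F : E → V → ℂ}
    (hF : ContDiffOn ℝ 1 (fun p : E × V => F p.1 p.2) (B ×ˢ U))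
    (hh : ∀ z ∈ U, DifferentiableOn ℂ (fun q => F q z) B) :
    DifferentiableOn ℂ (fun q => ∫ z in K, F q z ∂μ) B := by
  have hO : IsOpen (B ×ˢ U) := hB.prod hU
  have hc := hF.continuousOn_fderiv_of_isOpen hO le_rfl
  -- the complex derivative in `q`
  have e1 : ∀ q ∈ B, ∀ z ∈ U, (fderiv ℂ (fun q => F q z) q).restrictScalars ℝ =
      (fderiv ℝ (fun p : E × V => F p.1 p.2) (q, z)).comp (ContinuousLinearMap.inl ℝ E V) := by
    intro q hq z hz
    have h1 : HasFDerivAt (fun q => F q z) ((fderiv ℂ (fun q => F q z) q).restrictScalars ℝ) q :=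
      ((hh z hz q hq).differentiableAt (hB.mem_nhds hq)).hasFDerivAt.restrictScalars ℝ
    have h2 : HasFDerivAt (fun p : E × V => F p.1 p.2)
        (fderiv ℝ (fun p : E × V => F p.1 p.2) (q, z)) (q, z) :=
      ((hF.contDiffAt (hO.mem_nhds ⟨hq, hz⟩)).differentiableAt one_ne_zero).hasFDerivAt
    have h3 : HasFDerivAt (fun q => F q z)
        ((fderiv ℝ (fun p : E × V => F p.1 p.2) (q, z)).comp (ContinuousLinearMap.inl ℝ E V)) q :=
      HasFDerivAt.comp (f := fun q : E => (q, z)) (g := fun p : E × V => F p.1 p.2) q h2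
        (hasFDerivAt_prodMk_left q z)
    exact h1.unique h3
  have hc2 : ContinuousOn (fun p : E × V => (fderiv ℝ (fun p : E × V => F p.1 p.2) p).comp
      (ContinuousLinearMap.inl ℝ E V)) (B ×ˢ U) := hc.clm_comp continuousOn_const
  -- continuity in `z`
  have hcz : ∀ q ∈ B, ContinuousOn (fun z => fderiv ℂ (fun q => F q z) q) U := by
    intro q hq z hz
    have h1 : ContinuousWithinAt (fun z => (fderiv ℂ (fun q => F q z) q).restrictScalars ℝ) U z := by
      have h2 : ContinuousOn (fun z => (fderiv ℝ (fun p : E × V => F p.1 p.2) (q, z)).comp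
          (ContinuousLinearMap.inl ℝ E V)) U :=
        hc2.comp (f := fun z : V => (q, z)) (by fun_prop) fun z hz => ⟨hq, hz⟩
      exact (h2 z hz).congr (fun y hy => e1 q hq y hy) (e1 q hq z hz)
    rw [Metric.continuousWithinAt_iff] at h1 ⊢
    intro ε hε
    obtain ⟨δ, hδ, h2⟩ := h1 ε hε
    refine ⟨δ, hδ, fun y hy hyz => ?_⟩
    have h3 := h2 hy hyz
    rw [dist_eq_norm] at h3 ⊢
    have h4 : (fderiv ℂ (fun q => F q y) q).restrictScalars ℝ -
        (fderiv ℂ (fun q => F q z) q).restrictScalars ℝ =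
        (fderiv ℂ (fun q => F q y) q - fderiv ℂ (fun q => F q z) q).restrictScalars ℝ := rfl
    rwa [h4, ContinuousLinearMap.norm_restrictScalars] at h3
  intro q₀ hq₀
  -- the bound
  have hb : ∃ M : ℝ, ∀ᶠ q in 𝓝 q₀, ∀ z ∈ K, q ∈ B → ‖fderiv ℂ (fun q => F q z) q‖ ≤ M := by
    have h1 : ContinuousOn (fun z => ‖fderiv ℂ (fun q => F q z) q₀‖) K :=
      ((hcz q₀ hq₀).mono hKU).norm
    obtain ⟨M, hM⟩ := hK.bddAbove_image h1
    refine ⟨M + 1, hK.eventually_forall_of_forall_eventually
      (P := fun q z => q ∈ B → ‖fderiv ℂ (fun q => F q z) q‖ ≤ M + 1) fun z hz => ?_⟩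
    have h2 : ContinuousAt (fun p : E × V => ‖(fderiv ℝ (fun p : E × V => F p.1 p.2) p).comp
      (ContinuousLinearMap.inl ℝ E V)‖) (q₀, z) :=
      (hc2.continuousAt (hO.mem_nhds ⟨hq₀, hKU hz⟩)).norm
    have h3 : ‖(fderiv ℝ (fun p : E × V => F p.1 p.2) (q₀, z)).comp
      (ContinuousLinearMap.inl ℝ E V)‖ < M + 1 := by
      rw [← e1 q₀ hq₀ z (hKU hz), ContinuousLinearMap.norm_restrictScalars]
      have h5 : ‖fderiv ℂ (fun q => F q z) q₀‖ ≤ M := hM (mem_image_of_mem _ hz)
      linarith
    filter_upwards [h2.eventually_lt continuousAt_const h3, hO.mem_nhds ⟨hq₀, hKU hz⟩] with p hp hpO _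
    rw [← e1 p.1 hpO.1 p.2 hpO.2, ContinuousLinearMap.norm_restrictScalars] at hp
    exact hp.le
  obtain ⟨M, hM⟩ := hb
  have hs : {q | q ∈ B ∧ ∀ z ∈ K, ‖fderiv ℂ (fun q => F q z) q‖ ≤ M} ∈ 𝓝 q₀ := by
    filter_upwards [hM, hB.mem_nhds hq₀] with q h1 h2
    exact ⟨h2, fun z hz => h1 z hz h2⟩
  have hcF : ∀ q ∈ B, ContinuousOn (F q) K := fun q hq =>
    (hF.continuousOn.comp (f := fun z : V => (q, z)) (by fun_prop) fun z hz =>
      (⟨hq, hKU hz⟩ : (q, z) ∈ B ×ˢ U))
  have hmain := hasFDerivAt_integral_of_dominated_of_fderiv_le (𝕜 := ℂ) (μ := μ.restrict K)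
    (F := F) (F' := fun q z => fderiv ℂ (fun q => F q z) q) (x₀ := q₀) (bound := fun _ => M) hs
    (by
      filter_upwards [hB.mem_nhds hq₀] with q hq
      exact (hcF q hq).aestronglyMeasurable hK.measurableSet)
    ((hcF q₀ hq₀).integrableOn_compact hK)
    (((hcz q₀ hq₀).mono hKU).aestronglyMeasurable hK.measurableSet)
    (by
      refine (ae_restrict_iff' hK.measurableSet).2 (Eventually.of_forall fun z hz q hq => ?_)
      exact hq.2 z hz)
    (integrableOn_const hK.measure_lt_top.ne)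
    (by
      refine (ae_restrict_iff' hK.measurableSet).2 (Eventually.of_forall fun z hz q hq => ?_)
      exact ((hh z (hKU hz) q hq.1).differentiableAt (hB.mem_nhds hq.1)).hasFDerivAt)
  exact hmain.differentiableAt.differentiableWithinAt

end int

section II

variable {E : Type*} [NormedAddCommGroup E] [NormedSpace ℂ E]
  {V X : Type} [NormedAddCommGroup V] [NormedSpace ℝ V] [FiniteDimensional ℝ V]
  [MeasurableSpace V] [BorelSpace V] (μ : Measure V) [μ.IsAddHaarMeasure] [TopologicalSpace X]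
  {K : Type} [Fintype K] [DecidableEq K] {C : RCh V X} {B : Set E}

/-- the family `q ↦ R q + i T q` of closed complex 2-forms is smooth and pointwise holomorphic -/
structure HolF (C : RCh V X) (B : Set E) (R T : E → F2 C) : Prop where
  smR : ∀ i, ContDiffOn ℝ ∞ (fun p : E × V => (R p.1).w i p.2) (B ×ˢ (C.e i).target)
  smT : ∀ i, ContDiffOn ℝ ∞ (fun p : E × V => (T p.1).w i p.2) (B ×ˢ (C.e i).target)
  hol : ∀ i, ∀ z ∈ (C.e i).target, ∀ u v,
    DifferentiableOn ℂ (fun q => (((R q).w i z u v : ℝ) : ℂ) + (((T q).w i z u v : ℝ) : ℂ) * I) B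

/-- `TP` is affine in one factor, complex form -/
theorem TP_update_eq (b : K × Fin 2 → V) (w : K → Bil V) (k : K) (x y : Bil V) :
    ((TP b (Function.update w k x) : ℝ) : ℂ) + ((TP b (Function.update w k y) : ℝ) : ℂ) * I =
    ∑ σ : Equiv.Perm (K × Fin 2), (((((Equiv.Perm.sign σ : ℤ) : ℝ) *
      ∏ j ∈ Finset.univ.erase k, w j (b (σ (j, 0))) (b (σ (j, 1))) : ℝ)) : ℂ) *
      (((x (b (σ (k, 0))) (b (σ (k, 1))) : ℝ) : ℂ) +
        ((y (b (σ (k, 0))) (b (σ (k, 1))) : ℝ) : ℂ) * I) := by
  have h : ∀ x : Bil V, TP b (Function.update w k x) =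
      ∑ σ : Equiv.Perm (K × Fin 2), (((Equiv.Perm.sign σ : ℤ) : ℝ) *
        ∏ j ∈ Finset.univ.erase k, w j (b (σ (j, 0))) (b (σ (j, 1)))) *
        x (b (σ (k, 0))) (b (σ (k, 1))) := by
    intro x
    unfold TP
    refine Finset.sum_congr rfl fun σ _ => ?_
    rw [← Finset.mul_prod_erase _ _ (Finset.mem_univ k), Function.update_self]
    have h2 : ∏ j ∈ Finset.univ.erase k,
        (Function.update w k x j) (b (σ (j, 0))) (b (σ (j, 1))) =
        ∏ j ∈ Finset.univ.erase k, w j (b (σ (j, 0))) (b (σ (j, 1))) :=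
      Finset.prod_congr rfl fun j hj => by
        rw [Function.update_of_ne (Finset.ne_of_mem_erase hj)]
    rw [h2]
    ring
  rw [h x, h y]
  push_cast
  rw [Finset.sum_mul, ← Finset.sum_add_distrib]
  refine Finset.sum_congr rfl fun σ _ => ?_
  ring

theorem update_w (w : K → F2 C) (k : K) (x : F2 C) (i : C.ι) (z : V) :
    (fun j => ((Function.update w k x) j).w i z) =
      Function.update (fun j => (w j).w i z) k (x.w i z) := by
  funext j
  by_cases h : j = k
  · subst h
    simp
  · simp [Function.update_of_ne h]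

variable [CompactSpace X]

/-- **the intersection numbers of a holomorphic family of closed complex 2-forms with fixed real
forms are holomorphic** -/
theorem II_hol (hB : IsOpen B) (b : Module.Basis (K × Fin 2) ℝ V) (P : RPart C) (w : K → F2 C)
    (k : K) {R T : E → F2 C} (h : HolF C B R T) :
    DifferentiableOn ℂ (fun q => ((II μ b P (Function.update w k (R q)) : ℝ) : ℂ) +
      ((II μ b P (Function.update w k (T q)) : ℝ) : ℂ) * I) B := by
  classical
  -- the integrand
  set F : (s : P.σ) → E → V → ℂ := fun s q z =>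
    ((P.ψ s ((C.e (P.c s)).symm z) : ℝ) : ℂ) *
      (((TP b (Function.update (fun j => (w j).w (P.c s) z) k ((R q).w (P.c s) z)) : ℝ) : ℂ) +
      ((TP b (Function.update (fun j => (w j).w (P.c s) z) k ((T q).w (P.c s) z)) : ℝ) : ℂ) * I)
    with hF
  have hKc : ∀ s : P.σ, IsCompact ((C.e (P.c s)) '' (tsupport (P.ψ s))) := fun s =>
    (isClosed_tsupport _).isCompact.image_of_continuousOn ((C.e (P.c s)).continuousOn.mono (P.sub s))
  have hKs : ∀ s : P.σ, (C.e (P.c s)) '' (tsupport (P.ψ s)) ⊆ (C.e (P.c s)).target := by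
    rintro s _ ⟨x, hx, rfl⟩
    exact (C.e (P.c s)).map_source (P.sub s hx)
  have hsmw : ∀ (i : C.ι) (S : E → F2 C),
      ContDiffOn ℝ ∞ (fun p : E × V => (S p.1).w i p.2) (B ×ˢ (C.e i).target) →
      ContDiffOn ℝ ∞ (fun p : E × V =>
        TP b (Function.update (fun j => (w j).w i p.2) k ((S p.1).w i p.2)))
        (B ×ˢ (C.e i).target) := by
    intro i S hS
    unfold TP
    refine ContDiffOn.sum fun σ _ => contDiffOn_const.mul (contDiffOn_prod fun j _ => ?_)
    by_cases hj : j = k
    · subst hj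
      simp only [Function.update_self]
      exact (hS.clm_apply contDiffOn_const).clm_apply contDiffOn_const
    · simp only [Function.update_of_ne hj]
      have h1 : ContDiffOn ℝ ∞ (fun p : E × V => (w j).w i p.2) (B ×ˢ (C.e i).target) :=
        ((w j).sm i).comp contDiffOn_snd fun p hp => hp.2
      exact (h1.clm_apply contDiffOn_const).clm_apply contDiffOn_const
  have hsm : ∀ s : P.σ, ContDiffOn ℝ 1 (fun p : E × V => F s p.1 p.2)
      (B ×ˢ (C.e (P.c s)).target) := by
    intro s
    have h1 : ContDiffOn ℝ ∞ (fun p : E × V => P.ψ s ((C.e (P.c s)).symm p.2))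
        (B ×ˢ (C.e (P.c s)).target) := (P.sm s (P.c s)).comp contDiffOn_snd fun p hp => hp.2
    have h2 := hsmw (P.c s) R (h.smR _)
    have h3 := hsmw (P.c s) T (h.smT _)
    have h1' := ofRealCLM.contDiff.comp_contDiffOn h1
    have h2' := ofRealCLM.contDiff.comp_contDiffOn h2
    have h3' := ofRealCLM.contDiff.comp_contDiffOn h3
    have h4 : ContDiffOn ℝ ∞ (fun p : E × V => F s p.1 p.2) (B ×ˢ (C.e (P.c s)).target) :=
      h1'.mul (h2'.add (h3'.mul contDiffOn_const))
    exact h4.of_le (by norm_cast)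
  have hhol : ∀ s : P.σ, ∀ z ∈ (C.e (P.c s)).target, DifferentiableOn ℂ (fun q => F s q z) B := by
    intro s z hz
    simp only [hF, TP_update_eq]
    refine DifferentiableOn.const_mul ?_ _
    refine DifferentiableOn.fun_sum fun σ _ => DifferentiableOn.const_mul ?_ _
    exact h.hol _ z hz _ _
  have hint : ∀ s : P.σ, DifferentiableOn ℂ (fun q =>
      ∫ z in (C.e (P.c s)) '' (tsupport (P.ψ s)), F s q z ∂μ) B := fun s =>
    hol_int hB (C.e (P.c s)).open_target (hKc s) (hKs s) (hsm s) (hhol s)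
  have hsum : DifferentiableOn ℂ (fun q => ∑ s : P.σ,
      ∫ z in (C.e (P.c s)) '' (tsupport (P.ψ s)), F s q z ∂μ) B :=
    DifferentiableOn.fun_sum fun s _ => hint s
  refine hsum.congr fun q hq => ?_
  -- real and imaginary part
  have hint' : ∀ (s : P.σ) (S : E → F2 C),
      ContDiffOn ℝ ∞ (fun p : E × V => (S p.1).w (P.c s) p.2) (B ×ˢ (C.e (P.c s)).target) →
      IntegrableOn (fun z => P.ψ s ((C.e (P.c s)).symm z) *
        TP b (Function.update (fun j => (w j).w (P.c s) z) k ((S q).w (P.c s) z)))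
        ((C.e (P.c s)) '' (tsupport (P.ψ s))) μ := by
    intro s S hS
    refine ContinuousOn.integrableOn_compact (hKc s) ?_
    have h1 : ContinuousOn (fun z => P.ψ s ((C.e (P.c s)).symm z)) (C.e (P.c s)).target :=
      (P.sm s (P.c s)).continuousOn
    have h2 : ContinuousOn (fun z =>
        TP b (Function.update (fun j => (w j).w (P.c s) z) k ((S q).w (P.c s) z)))
        (C.e (P.c s)).target :=
      (hsmw (P.c s) S hS).continuousOn.comp (f := fun z : V => (q, z)) (by fun_prop)
        fun z hz => (⟨hq, hz⟩ : (q, z) ∈ B ×ˢ (C.e (P.c s)).target)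
    exact (h1.mul h2).mono (hKs s)
  have hII : ∀ (S : E → F2 C), II μ b P (Function.update w k (S q)) = ∑ s : P.σ,
      ∫ z in (C.e (P.c s)) '' (tsupport (P.ψ s)), P.ψ s ((C.e (P.c s)).symm z) *
        TP b (Function.update (fun j => (w j).w (P.c s) z) k ((S q).w (P.c s) z)) ∂μ := by
    intro S
    unfold II intT
    refine Finset.sum_congr rfl fun s _ => ?_
    have h1 : ∀ z, P.ψ s ((C.e (P.c s)).symm z) *
        (TopF.of b (Function.update w k (S q))).D (P.c s) z =
        P.ψ s ((C.e (P.c s)).symm z) *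
        TP b (Function.update (fun j => (w j).w (P.c s) z) k ((S q).w (P.c s) z)) := by
      intro z
      rw [TopF.of_D, update_w]
    simp only [h1]
    refine setIntegral_eq_of_subset_of_forall_sdiff_eq_zero
      (C.e (P.c s)).open_target.measurableSet (hKs s) fun z hz => ?_
    have h2 : (C.e (P.c s)).symm z ∉ tsupport (P.ψ s) := fun h3 =>
      hz.2 ⟨_, h3, (C.e (P.c s)).right_inv hz.1⟩
    rw [psi_zero P s h2, zero_mul]
  rw [hII R, hII T]
  push_cast
  rw [Finset.sum_mul, ← Finset.sum_add_distrib]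
  refine Finset.sum_congr rfl fun s _ => ?_
  rw [← integral_complex_ofReal, ← integral_complex_ofReal, ← integral_mul_const, ← integral_add]
  · refine integral_congr_ae (Eventually.of_forall fun z => ?_)
    simp only [hF]
    push_cast
    ring
  · exact (hint' s R (h.smR _)).ofReal
  · exact (hint' s T (h.smT _)).ofReal.mul_const _

end II

end

end Crest.Agent.R281.Phb_267
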