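import Crest.Agent.R281.W3c_698

/-!
# R281 (S0424), (D12) PER-HOL, second owner (helper267): the linear algebra of the period

* `quad_eq`  : quadratic forms with equal `ν`-th powers, both positive at one vector, coincide
* `split`    : a vector orthogonal to the `B_i` is `q(x,es) e + q(x,v)/N v + q(x,e) es` modulo the
               radical
* `period`   : `z = q(s, e)`, `Φ = q(s, v) / (N z)` : holomorphic, `z ≠ 0`, `Im Φ ≠ 0`,
               `[s] = z • σ_Φ`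
-/

set_option autoImplicit false

open Complex Set Filter Topology

namespace Crest.Agent.R281.Phb_267

noncomputable section

variable {W : Type*} [AddCommGroup W] [Module ℝ W]

section quad

variable {Q Q' : W →ₗ[ℝ] W →ₗ[ℝ] ℝ}

theorem quad_expand (hs : ∀ x y, Q x y = Q y x) (x y : W) (t : ℝ) :
    Q (x + t • y) (x + t • y) = Q x x + 2 * t * Q x y + t ^ 2 * Q y y := by
  simp only [map_add, map_smul, LinearMap.add_apply, LinearMap.smul_apply, smul_eq_mul]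
  rw [hs y x]
  ring

theorem quad_diag (hs : ∀ x y, Q x y = Q y x) (hs' : ∀ x y, Q' x y = Q' y x) {ν : ℕ}
    (hν : ν ≠ 0) (h : ∀ x, Q x x ^ ν = Q' x x ^ ν) {x₀ : W} (h0 : 0 < Q x₀ x₀)
    (h0' : 0 < Q' x₀ x₀) (x : W) : Q x x = Q' x x := by
  have hc : Continuous fun t : ℝ => Q x₀ x₀ + 2 * t * Q x₀ x + t ^ 2 * Q x x := by fun_prop
  have hc' : Continuous fun t : ℝ => Q' x₀ x₀ + 2 * t * Q' x₀ x + t ^ 2 * Q' x x := by fun_prop
  have e1 : ∀ᶠ t : ℝ in 𝓝 0, 0 < Q x₀ x₀ + 2 * t * Q x₀ x + t ^ 2 * Q x x :=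
    (hc.tendsto' 0 (Q x₀ x₀) (by simp)).eventually_const_lt h0
  have e2 : ∀ᶠ t : ℝ in 𝓝 0, 0 < Q' x₀ x₀ + 2 * t * Q' x₀ x + t ^ 2 * Q' x x :=
    (hc'.tendsto' 0 (Q' x₀ x₀) (by simp)).eventually_const_lt h0'
  obtain ⟨δ, hδ, hb⟩ := Metric.eventually_nhds_iff.1 (e1.and e2)
  have key : ∀ t : ℝ, |t| < δ → Q x₀ x₀ + 2 * t * Q x₀ x + t ^ 2 * Q x x =
      Q' x₀ x₀ + 2 * t * Q' x₀ x + t ^ 2 * Q' x x := by
    intro t ht
    have h1 := hb (y := t) (by simpa [Real.dist_eq] using ht)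
    have h2 := h (x₀ + t • x)
    rw [quad_expand hs, quad_expand hs'] at h2
    exact (pow_left_inj₀ h1.1.le h1.2.le hν).1 h2
  have k0 := key 0 (by simpa using hδ)
  have k1 := key (δ / 2) (by rw [abs_of_pos (by linarith)]; linarith)
  have k2 := key (-(δ / 2)) (by rw [abs_neg, abs_of_pos (by linarith)]; linarith)
  have h3 : (δ / 2) ^ 2 * (Q x x - Q' x x) = 0 := by
    linear_combination (k1 + k2) / 2 - k0
  have h4 : (δ / 2) ^ 2 ≠ 0 := by positivity
  have h5 := (mul_eq_zero.1 h3).resolve_left h4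
  linarith

/-- quadratic forms with equal powers, both positive at one vector, coincide -/
theorem quad_eq (hs : ∀ x y, Q x y = Q y x) (hs' : ∀ x y, Q' x y = Q' y x) {ν : ℕ}
    (hν : ν ≠ 0) (h : ∀ x, Q x x ^ ν = Q' x x ^ ν) {x₀ : W} (h0 : 0 < Q x₀ x₀)
    (h0' : 0 < Q' x₀ x₀) : Q = Q' := by
  have hd := quad_diag hs hs' hν h h0 h0'
  ext x y
  have h1 := hd (x + (1 : ℝ) • y)
  rw [quad_expand hs, quad_expand hs'] at h1
  have h2 := hd x
  have h3 := hd y
  linarith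

end quad

section split

variable {Q : W →ₗ[ℝ] W →ₗ[ℝ] ℝ} {Z : Submodule ℝ W} {e v es : W} {N : ℝ} {ι : Type*}
  {Bs : ι → W}

/-- the plane `⟨e*, v, e⟩` -/
structure Pl (Q : W →ₗ[ℝ] W →ₗ[ℝ] ℝ) (e v es : W) (N : ℝ) : Prop where
  symm : ∀ x y, Q x y = Q y x
  hN : 0 < N
  e_e : Q e e = 0
  e_v : Q e v = 0
  es_e : Q es e = 1
  es_v : Q es v = 0
  es_es : Q es es = 0
  v_v : Q v v = N

/-- coordinates of `x` -/
def co (Q : W →ₗ[ℝ] W →ₗ[ℝ] ℝ) (e v es : W) (N : ℝ) (x : W) : Fin 3 → ℝ :=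
  ![Q x e, Q x v / N, Q x es]

/-- the vector with given coordinates -/
def vc (e v es : W) (c : Fin 3 → ℝ) : W := c 0 • es + c 1 • v + c 2 • e

variable (P : Pl Q e v es N)

include P in
theorem Pl.co_vc (c : Fin 3 → ℝ) : co Q e v es N (vc e v es c) = c := by
  have h1 : Q v e = 0 := by rw [P.symm]; exact P.e_v
  have h2 : Q v es = 0 := by rw [P.symm]; exact P.es_v
  have h3 : Q e es = 1 := by rw [P.symm]; exact P.es_e
  have hN := P.hN.ne'
  funext i
  fin_cases i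
  · simp [co, vc, P.es_e, P.e_e, h1]
  · simp [co, vc, P.es_v, P.e_v, P.v_v, hN]
  · simp [co, vc, P.es_es, h2, h3]

include P in
/-- the form in coordinates -/
theorem Pl.q_vc (c d : Fin 3 → ℝ) : Q (vc e v es c) (vc e v es d) = W3c_698.qb N c d := by
  have h1 : Q v e = 0 := by rw [P.symm]; exact P.e_v
  have h2 : Q v es = 0 := by rw [P.symm]; exact P.es_v
  have h3 : Q e es = 1 := by rw [P.symm]; exact P.es_e
  simp only [vc, W3c_698.qb, map_add, map_smul, LinearMap.add_apply, LinearMap.smul_apply,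
    smul_eq_mul, P.e_e, P.e_v, P.es_e, P.es_v, P.es_es, P.v_v, h1, h2, h3]
  ring

include P in
/-- a vector orthogonal to the `B_i` lies in the plane, modulo the radical -/
theorem Pl.split (hspan : ∀ x, ∃ c : Fin 3 → ℝ, ∃ y ∈ Submodule.span ℝ (range Bs),
      x - (vc e v es c + y) ∈ Z)
    (hZ : ∀ x, (∀ y, Q x y = 0) → x ∈ Z) (hZ' : ∀ x ∈ Z, ∀ y, Q x y = 0)
    (he : ∀ i, Q e (Bs i) = 0) (hv : ∀ i, Q v (Bs i) = 0) (hes : ∀ i, Q es (Bs i) = 0)
    {x : W} (hx : ∀ i, Q x (Bs i) = 0) : x - vc e v es (co Q e v es N x) ∈ Z := by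
  have hl : ∀ {w : W}, (∀ i, Q w (Bs i) = 0) → ∀ y ∈ Submodule.span ℝ (range Bs), Q w y = 0 := by
    intro w hw y hy
    induction hy using Submodule.span_induction with
    | mem y hy => obtain ⟨i, rfl⟩ := hy; exact hw i
    | zero => simp
    | add a b _ _ ha hb => rw [map_add, ha, hb, add_zero]
    | smul a b _ hb => rw [map_smul, hb, smul_zero]
  obtain ⟨c, y, hy, hc⟩ := hspan x
  have hvc : ∀ (c : Fin 3 → ℝ), ∀ y ∈ Submodule.span ℝ (range Bs), Q (vc e v es c) y = 0 := by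
    intro c y hy
    simp only [vc, map_add, map_smul, LinearMap.add_apply, LinearMap.smul_apply, hl he y hy,
      hl hv y hy, hl hes y hy, smul_zero, add_zero]
  -- `y` is in the radical
  have hyZ : y ∈ Z := by
    refine hZ y fun w => ?_
    obtain ⟨d, y', hy', hd⟩ := hspan w
    have h1 : Q y w = Q y (vc e v es d + y') := by
      have h2 := hZ' _ hd y
      rw [P.symm, map_sub, sub_eq_zero] at h2
      exact h2
    have h2 : Q y (vc e v es d) = 0 := by rw [P.symm]; exact hvc d y hy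
    have h3 : Q y y' = 0 := by
      have h4 : Q x y' = Q (vc e v es c + y) y' := by
        have h5 := hZ' _ hc y'
        rwa [map_sub, LinearMap.sub_apply, sub_eq_zero] at h5
      rw [hl hx y' hy', map_add, LinearMap.add_apply, hvc c y' hy', zero_add] at h4
      exact h4.symm
    rw [h1, map_add, h2, h3, add_zero]
  have hxc : x - vc e v es c ∈ Z := by
    have h1 : x - vc e v es c = (x - (vc e v es c + y)) + y := by abel
    rw [h1]
    exact Z.add_mem hc hyZ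
  have hcc : co Q e v es N x = c := by
    rw [← P.co_vc c]
    have h1 : ∀ w, Q x w = Q (vc e v es c) w := fun w => by
      have h5 := hZ' _ hxc w
      rwa [map_sub, LinearMap.sub_apply, sub_eq_zero] at h5
    simp only [co, h1]
  rw [hcc]
  exact hxc

end split

section period

variable {Q : W →ₗ[ℝ] W →ₗ[ℝ] ℝ} {Z : Submodule ℝ W} {e v es : W} {N : ℝ}

/-- real part of `σ_τ = e* + τ v - (N/2) τ² e` (998) -/
def sre (e v es : W) (N : ℝ) (τ : ℂ) : W :=
  es + τ.re • v - (N / 2 * (τ.re ^ 2 - τ.im ^ 2)) • e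

/-- imaginary part of `σ_τ` (998) -/
def sim (e v : W) (N : ℝ) (τ : ℂ) : W := τ.im • v - (N * (τ.re * τ.im)) • e

theorem vc_re (z τ : ℂ) : vc e v es (fun i => ((z • W3c_698.sig N τ) i).re) =
    z.re • sre e v es N τ - z.im • sim e v N τ := by
  have h2 : ((τ ^ 2).re) = τ.re ^ 2 - τ.im ^ 2 := by simp [pow_two]
  have h3 : ((τ ^ 2).im) = 2 * (τ.re * τ.im) := by simp [pow_two]; ring
  have e0 : ((z • W3c_698.sig N τ) 0).re = z.re := by simp
  have e1 : ((z • W3c_698.sig N τ) 1).re = z.re * τ.re - z.im * τ.im := by simp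
  have e2 : ((z • W3c_698.sig N τ) 2).re =
      -(z.re * (N / 2 * (τ.re ^ 2 - τ.im ^ 2)) - z.im * (N * (τ.re * τ.im))) := by
    have h4 : (z • W3c_698.sig N τ) 2 = z * (-(((N / 2 : ℝ) : ℂ)) * τ ^ 2) := by
      simp [W3c_698.sig]
    rw [h4, mul_re, neg_mul, neg_re, neg_im, re_ofReal_mul, im_ofReal_mul, h2, h3]
    ring
  simp only [vc, e0, e1, e2, sre, sim]
  module

theorem vc_im (z τ : ℂ) : vc e v es (fun i => ((z • W3c_698.sig N τ) i).im) =
    z.im • sre e v es N τ + z.re • sim e v N τ := by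
  have h2 : ((τ ^ 2).re) = τ.re ^ 2 - τ.im ^ 2 := by simp [pow_two]
  have h3 : ((τ ^ 2).im) = 2 * (τ.re * τ.im) := by simp [pow_two]; ring
  have e0 : ((z • W3c_698.sig N τ) 0).im = z.im := by simp
  have e1 : ((z • W3c_698.sig N τ) 1).im = z.re * τ.im + z.im * τ.re := by simp
  have e2 : ((z • W3c_698.sig N τ) 2).im =
      -(z.im * (N / 2 * (τ.re ^ 2 - τ.im ^ 2)) + z.re * (N * (τ.re * τ.im))) := by
    have h4 : (z • W3c_698.sig N τ) 2 = z * (-(((N / 2 : ℝ) : ℂ)) * τ ^ 2) := by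
      simp [W3c_698.sig]
    rw [h4, mul_im, neg_mul, neg_re, neg_im, re_ofReal_mul, im_ofReal_mul, h2, h3]
    ring
  simp only [vc, e0, e1, e2, sre, sim]
  module

/-- complex coordinates of `R + iT` -/
def coC (Q : W →ₗ[ℝ] W →ₗ[ℝ] ℝ) (e v es : W) (N : ℝ) (R T : W) : Fin 3 → ℂ :=
  fun i => (co Q e v es N R i : ℂ) + (co Q e v es N T i : ℂ) * I

theorem coC_zero (R T : W) : coC Q e v es N R T 0 = (Q R e : ℂ) + (Q T e : ℂ) * I := rfl

theorem coC_one (R T : W) : coC Q e v es N R T 1 = ((Q R v : ℂ) + (Q T v : ℂ) * I) / N := by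
  show (((Q R v / N : ℝ) : ℂ)) + (((Q T v / N : ℝ) : ℂ)) * I = _
  push_cast
  ring

variable (P : Pl Q e v es N)

include P in
/-- **one member**: `z = q(s, e) ≠ 0`, `Φ = q(s, v) / (N z)`, `Im Φ ≠ 0`, `[s] = z • σ_Φ` -/
theorem Pl.member {R T : W} (hZ' : ∀ x ∈ Z, ∀ y, Q x y = 0)
    (hR : R - vc e v es (co Q e v es N R) ∈ Z) (hT : T - vc e v es (co Q e v es N T) ∈ Z)
    (h1 : Q R R = Q T T) (h2 : 0 < Q R R) (h3 : Q R T = 0) (z Φ : ℂ)
    (hz : z = (Q R e : ℂ) + (Q T e : ℂ) * I)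
    (hΦ : Φ = ((Q R v : ℂ) + (Q T v : ℂ) * I) / (N * z)) :
    z ≠ 0 ∧ Φ.im ≠ 0 ∧ R - (z.re • sre e v es N Φ - z.im • sim e v N Φ) ∈ Z ∧
      T - (z.im • sre e v es N Φ + z.re • sim e v N Φ) ∈ Z := by
  have hq : ∀ {x y : W}, x - vc e v es (co Q e v es N x) ∈ Z →
      y - vc e v es (co Q e v es N y) ∈ Z →
      Q x y = W3c_698.qb N (co Q e v es N x) (co Q e v es N y) := by
    intro x y hx hy
    rw [← P.q_vc]
    have h5 := hZ' _ hx y
    rw [map_sub, LinearMap.sub_apply, sub_eq_zero] at h5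
    have h6 := hZ' _ hy (vc e v es (co Q e v es N x))
    rw [map_sub, LinearMap.sub_apply, sub_eq_zero] at h6
    rw [h5, P.symm, h6, P.symm]
  have q1 := hq hR hR
  have q2 := hq hT hT
  have q3 := hq hR hT
  set r := co Q e v es N R with hr
  set t := co Q e v es N T with ht
  have c0 : W3c_698.qbC N (coC Q e v es N R T) (coC Q e v es N R T) = 0 := by
    have h4 : W3c_698.qbC N (coC Q e v es N R T) (coC Q e v es N R T) =
        ((W3c_698.qb N r r - W3c_698.qb N t t : ℝ) : ℂ) + ((2 * W3c_698.qb N r t : ℝ) : ℂ) * I := by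
      simp only [W3c_698.qbC, W3c_698.qb, coC, ← hr, ← ht]
      push_cast
      linear_combination (2 * (t 0 : ℂ) * (t 2 : ℂ) + N * (t 1 : ℂ) * (t 1 : ℂ)) * I_sq
    rw [h4, ← q1, ← q2, ← q3, h1, h3]
    simp
  have c1 : 0 < (W3c_698.qbC N (coC Q e v es N R T)
      (fun i => (starRingEnd ℂ) (coC Q e v es N R T i))).re := by
    have h4 : W3c_698.qbC N (coC Q e v es N R T)
        (fun i => (starRingEnd ℂ) (coC Q e v es N R T i)) =
        ((W3c_698.qb N r r + W3c_698.qb N t t : ℝ) : ℂ) := by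
      simp only [W3c_698.qbC, W3c_698.qb, coC, ← hr, ← ht, map_add, map_mul, conj_ofReal, conj_I]
      push_cast
      linear_combination (-(2 * (t 0 : ℂ) * (t 2 : ℂ) + N * (t 1 : ℂ) * (t 1 : ℂ))) * I_sq
    rw [h4, ofReal_re, ← q1, ← q2, ← h1]
    linarith
  obtain ⟨k1, k2, k3⟩ := W3c_698.eq_sig P.hN c0 c1
  have hz' : z = coC Q e v es N R T 0 := hz
  have hΦ' : Φ = coC Q e v es N R T 1 / coC Q e v es N R T 0 := by
    rw [hΦ, coC_one, ← hz', div_div]
  rw [← hz'] at k1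
  rw [← hΦ'] at k3
  rw [← hΦ', ← hz'] at k2
  have kr : (fun i => ((z • W3c_698.sig N Φ) i).re) = r := by
    funext i
    rw [← k2]
    simp [coC, ← hr]
  have kt : (fun i => ((z • W3c_698.sig N Φ) i).im) = t := by
    funext i
    rw [← k2]
    simp [coC, ← ht]
  refine ⟨k1, k3, ?_, ?_⟩
  · rw [← vc_re, kr]; exact hR
  · rw [← vc_im, kt]; exact hT

variable {E : Type*} [NormedAddCommGroup E] [NormedSpace ℂ E] {B : Set E}

include P in
/-- **PERIOD**: the class of a holomorphic family is `z • σ_Φ` with `z`, `Φ` holomorphic -/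
theorem Pl.period {R T : E → W} (hZ' : ∀ x ∈ Z, ∀ y, Q x y = 0)
    (hR : ∀ q ∈ B, R q - vc e v es (co Q e v es N (R q)) ∈ Z)
    (hT : ∀ q ∈ B, T q - vc e v es (co Q e v es N (T q)) ∈ Z)
    (h1 : ∀ q ∈ B, Q (R q) (R q) = Q (T q) (T q)) (h2 : ∀ q ∈ B, 0 < Q (R q) (R q))
    (h3 : ∀ q ∈ B, Q (R q) (T q) = 0)
    (he : DifferentiableOn ℂ (fun q => (Q (R q) e : ℂ) + (Q (T q) e : ℂ) * I) B)
    (hv : DifferentiableOn ℂ (fun q => (Q (R q) v : ℂ) + (Q (T q) v : ℂ) * I) B) :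
    ∃ z Φ : E → ℂ, DifferentiableOn ℂ z B ∧ DifferentiableOn ℂ Φ B ∧
      (∀ q ∈ B, z q = (Q (R q) e : ℂ) + (Q (T q) e : ℂ) * I) ∧
      (∀ q ∈ B, N * z q * Φ q = (Q (R q) v : ℂ) + (Q (T q) v : ℂ) * I) ∧
      (∀ q ∈ B, z q ≠ 0) ∧ (∀ q ∈ B, (Φ q).im ≠ 0) ∧
      (∀ q ∈ B, R q - ((z q).re • sre e v es N (Φ q) - (z q).im • sim e v N (Φ q)) ∈ Z) ∧
      ∀ q ∈ B, T q - ((z q).im • sre e v es N (Φ q) + (z q).re • sim e v N (Φ q)) ∈ Z := by
  set z : E → ℂ := fun q => (Q (R q) e : ℂ) + (Q (T q) e : ℂ) * I with hz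
  set Φ : E → ℂ := fun q => ((Q (R q) v : ℂ) + (Q (T q) v : ℂ) * I) / (N * z q) with hΦ
  have hm := fun q (hq : q ∈ B) => P.member hZ' (hR q hq) (hT q hq) (h1 q hq) (h2 q hq)
    (h3 q hq) (z q) (Φ q) rfl rfl
  have hN : (N : ℂ) ≠ 0 := by exact_mod_cast P.hN.ne'
  refine ⟨z, Φ, he, ?_, fun _ _ => rfl, fun q hq => ?_, fun q hq => (hm q hq).1,
    fun q hq => (hm q hq).2.1, fun q hq => (hm q hq).2.2.1, fun q hq => (hm q hq).2.2.2⟩
  · have h5 : DifferentiableOn ℂ (fun q => (N : ℂ) * z q) B := he.const_mul _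
    have h6 : DifferentiableOn ℂ (fun q => ((N : ℂ) * z q)⁻¹) B :=
      h5.inv fun q hq => mul_ne_zero hN (hm q hq).1
    have h7 : DifferentiableOn ℂ (fun q => ((Q (R q) v : ℂ) + (Q (T q) v : ℂ) * I) *
        ((N : ℂ) * z q)⁻¹) B := hv.mul h6
    exact h7.congr fun q _ => div_eq_mul_inv _ _
  · have := (hm q hq).1
    simp only [hΦ]
    field_simp

/-- a continuous function without real values on a preconnected set stays in one half plane -/
theorem im_pos_of_ne {Y : Type*} [TopologicalSpace Y] {S : Set Y} (hS : IsPreconnected S)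
    {Φ : Y → ℂ} (hc : ContinuousOn Φ S) (h : ∀ q ∈ S, (Φ q).im ≠ 0) {q₀ : Y} (h0 : q₀ ∈ S)
    (hp : 0 < (Φ q₀).im) {q : Y} (hq : q ∈ S) : 0 < (Φ q).im := by
  by_contra hn
  have hlt : (Φ q).im < 0 := lt_of_le_of_ne (not_lt.1 hn) (h q hq)
  have hci : ContinuousOn (fun q => (Φ q).im) S := continuous_im.comp_continuousOn hc
  obtain ⟨p, hpS, hp0⟩ := hS.intermediate_value hq h0 hci ⟨hlt.le, hp.le⟩
  exact h p hpS hp0

end period

end

end Crest.Agent.R281.Phb_267
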