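import Crest.Agent.R281.Pjx8_648
import Crest.Agent.R281.Pjx9_648
import Crest.Agent.R281.Tp1_836

/-!
# R281 (S0424), KAPPA-1 (helper648), part 10: everything on one atlas of the chart member

`kap_data` : a member `H` of the end over a rational `x` with `y²` rational, isomorphic to the chart
member `H₀` (identity on classes), an atlas `A` of `J 1` of `H` with a Kaehler metric `K` of form
`s • om 1`, a quantified tube on `(A, K)` and a tube of tori inside it ==> on one finite atlas `A'` of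
`J 0` of `H₀` which refines the atlas of a given presentation: metric, positive line bundle, `ProjD`,
quantified tube, tube of tori, and the given line bundle with its class.
-/

set_option autoImplicit false
set_option linter.unusedSectionVars false
set_option maxSynthPendingDepth 3

open Set Filter Topology Complex
open scoped ContDiff Matrix ComplexConjugate ComplexOrder

namespace Crest.Agent.R281.Pjx_648

open Crest.Agent.R281.HkR_835 Crest.Agent.R281.Dif_268 Crest.Agent.R281.Cdr_234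
open Crest.Agent.R281.Alg_998 Crest.Agent.R281.RkD_902 Crest.Agent.R281.PL_713
open Crest.Agent.R281.Ti_846
open Crest.Agent.R281.NefO_476 Crest.Agent.R281.Nef_252
open Crest.Agent.R275.Geo Crest.Agent.R275.Core144 Crest.Agent.R275.GC293 Crest.Agent.R275.EDR890
open Crest.Agent.R273
open Crest.Agent.R273.Defs_333
open Crest.Agent.R273.Map_835 (HolMap dm Jp mem_dm holMap_id Jp_comp)
open Crest.Agent.R273.PB_835 (LBih Ref PB pullLB pullLB_g)
open Crest.Agent.R273.Kah_333 (Kah cur)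
open Crest.Agent.R273.FS_333 (lb)
open Crest.Agent.R260.ACM_580 Crest.Agent.R260.NNB_580
open Crest.Agent.R281.Qt_922 Crest.Agent.R281.Tub_831
open Crest.Agent.R281.Sk_474 (Rich)

noncomputable section

variable {n : ℕ} {X : Type} [TopologicalSpace X] {C : RCh (Cn (2 * n)) X}
  {Q : F2 C →ₗ[ℝ] F2 C →ₗ[ℝ] ℝ} {L0 : PL C} {e : F2 C}

/-- a form orthogonal to `e` stays orthogonal to `e` under a map which is the identity on classes -/
theorem q_pull (hex : ∀ x y, Ex x → Q x y = 0) {g k : SMap C C} (hb : Bi g k)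
    (hid : ∀ w : F2 C, Ex (g.pull w - w)) (v : F2 C) (hv : Q v e = 0) : Q (k.pull v) e = 0 := by
  have h2 : Ex (v - k.pull v) := by
    have h3 := hid (k.pull v)
    refine Eqv.ex ?_ h3
    intro i z hz u w
    have := hb.symm.pull_pull v i z hz u w
    simp only [F2.sub_w, sub_apply]
    rw [this]
  have h4 := hex _ e h2
  rw [map_sub, LinearMap.sub_apply, hv] at h4
  linarith

/-- **(K2), (K3), (K9) on one atlas of the chart member** -/
theorem kap_data [CompactSpace X] [T2Space X] (hX : Ctx n C Q) {H₀ H : HkT C}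
    (hG : Given Q H₀ L0 e) (p : Pres n H₀ L0) {F : Frm C Q} {x : ℚ} {y z s : ℝ} (hz : 0 < z)
    (hs : 0 < s) (hy : ∃ q : ℚ, (q : ℝ) = y ^ 2) (h1 : Cl (H.om 1) (z • F.sre ⟨x, y⟩))
    (hiso : IsoId (ofHk H₀ 0) (ofHk H 1)) {A : Atl (2 * n) X} (hA : Cp (H.acm 1) A) {K : Kah A}
    (hK : Eqv (ofKah K).f2 (s • (cmp_of_cp hA).F (H.om 1))) {κ R : ℝ} (T : QTube A K n κ R)
    {D : Set (Cn n)} {Ψ : Cn n × Cn n → X} {l : Fin (2 * n) → Cn n → Cn n}
    {τ : Cn n → Cn n → Cn n → ℂ} {w w' : F2 C} (t : HolTube C (H.J 1) w w' n D Ψ l τ)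
    (tp : PVT Q e D Ψ l)
    (hD : ∀ b ∈ D, ∀ c, Ψ (b, c) ∈ T.U ∧ T.f (Ψ (b, c)) = T.f (Ψ (b, 0)) ∧
      ‖T.f (Ψ (b, c))‖ < R / 4) :
    ∃ (A' : Atl (2 * n) X) (hA' : Cp (H₀.acm 0) A') (K' : Kah A') (Lb : LB A') (h : HM Lb) (c : ℝ)
      (T' : QTube A' K' n κ R) (Ψ' : Cn n × Cn n → X) (w₁ w₁' : F2 C) (hl : LBih A' p.A id)
      (Rf : Ref A' p.A id),
      Finite A'.ι ∧ GoodA A' ∧ Nonempty (Part A') ∧
      0 < c ∧ (∀ i, ∀ y ∈ (A'.e i).source, cur h i y = ((Real.pi * c : ℝ) : ℂ) • K'.g i y) ∧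
      h.Pos ∧ (∃ m : ℕ, 0 < m ∧ ∃ P : ProjD A', lb P = Lb ^ m) ∧
      HolTube C (H₀.J 0) w₁ w₁' n D Ψ' l τ ∧ PVT Q e D Ψ' l ∧
      (∀ b ∈ D, ∀ c, Ψ' (b, c) ∈ T'.U ∧ T'.f (Ψ' (b, c)) = T'.f (Ψ' (b, 0)) ∧
        ‖T'.f (Ψ' (b, c))‖ < R / 4) ∧
      LBih p.A A' id ∧
      Ex (c1F ((PB.ref hl.toHolMap Rf p.L).pullHM hl.toHolMap p.h) - (cmp_of_cp hA').F e) ∧
      (Rich A' (pullLB hl.toHolMap Rf p.L) → Rich p.A p.L) := by
  obtain ⟨g, k, hb, hg, hcl⟩ := hiso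
  obtain ⟨c, A', hA', K', Lb, h, hc, a1, a2, a3, -, ⟨Rf⟩, hl, hl', hp, hq, hlaw, a4, a5, a6⟩ :=
    lb_iso (F := F) (τ := ⟨x, y⟩) p.cp hA hb hg hcl hs hz hK h1 (rat_N hX F) ⟨x, rfl⟩ hy
      (fun _ : Unit => univ) (fun _ => isOpen_univ) (fun _ => ⟨(), mem_univ _⟩)
  have hpq : ∀ x, g.f (k.f x) = x := hb.gk
  have hqp : ∀ x, k.f (g.f x) = x := hb.kg
  have t' := t.map (J := ofHk H 1) (J' := ofHk H₀ 0) hb hg
  have tp' : PVT Q e D (k.f ∘ Ψ) l := tp.map t.sm k (q_pull hX.ex hb hcl)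
  refine ⟨A', hA', K', Lb, h, c, pbT hp hq hpq hqp hlaw T, k.f ∘ Ψ, _, _, hl, Rf, a1, a2, a3,
    hc, a4, a5, a6, t', tp', fun b hb' c => ?_, hl', c1_ref hG p hA' hl Rf,
    rich_ref hl.toHolMap hl'.toHolMap Rf⟩
  obtain ⟨b1, b2, b3⟩ := hD b hb' c
  refine ⟨?_, ?_, ?_⟩
  · show g.f (k.f (Ψ (b, c))) ∈ T.U
    rw [hpq]; exact b1
  · show T.f (g.f (k.f (Ψ (b, c)))) = T.f (g.f (k.f (Ψ (b, 0))))
    rw [hpq, hpq]; exact b2
  · show ‖T.f (g.f (k.f (Ψ (b, c))))‖ < R / 4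
    rw [hpq]; exact b3

end

end Crest.Agent.R281.Pjx_648
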