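import Crest.Agent.R281.Pjx10_648
import Crest.Agent.R281.KapD_975

/-!
# R281 (S0424), KAPPA-1 (helper648), part 11: `QTubP` ⟹ the data at the chart member

`kap_ray` : 975's `QTubP Alg` at the hypotheses of `KappaP` gives `κ > 0` such that for every radius
there is one finite atlas of the chart member with metric, positive line bundle, `ProjD`, `TubeQ`
(complex structure `J 0`) and the bundle of the presentation.
-/

set_option autoImplicit false
set_option linter.unusedSectionVars false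
set_option maxSynthPendingDepth 3

open Set Filter Topology Complex
open scoped ContDiff Matrix ComplexConjugate ComplexOrder

namespace Crest.Agent.R281.Pjx_648

open Crest.Agent.R281.HkR_835 Crest.Agent.R281.Dif_268 Crest.Agent.R281.Cdr_234
open Crest.Agent.R281.Alg_998 Crest.Agent.R281.RkD_902 Crest.Agent.R281.PL_713
open Crest.Agent.R281.Ti_846
open Crest.Agent.R281.NefO_476 Crest.Agent.R281.Nef_252
open Crest.Agent.R275.Geo Crest.Agent.R275.Core144 Crest.Agent.R275.GC293 Crest.Agent.R275.EDR890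
open Crest.Agent.R273
open Crest.Agent.R273.Defs_333
open Crest.Agent.R273.Map_835 (HolMap dm Jp mem_dm holMap_id Jp_comp)
open Crest.Agent.R273.PB_835 (LBih Ref PB pullLB pullLB_g)
open Crest.Agent.R273.Kah_333 (Kah cur)
open Crest.Agent.R273.FS_333 (lb)
open Crest.Agent.R260.ACM_580 Crest.Agent.R260.NNB_580
open Crest.Agent.R281.Qt_922 Crest.Agent.R281.Tub_831
open Crest.Agent.R281.KapD_975
open Crest.Agent.R281.Sk_474 (Rich)

noncomputable section

/-- the data of the proof of `KappaP` at the chart member `H₀`, for one radius -/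
def KData {n : ℕ} {X : Type} [TopologicalSpace X] {C : RCh (Cn (2 * n)) X}
    (Q : F2 C →ₗ[ℝ] F2 C →ₗ[ℝ] ℝ) (e : F2 C) (H₀ : HkT C) {L0 : PL C} (p : Pres n H₀ L0)
    (κ r : ℝ) : Prop :=
  ∃ (A' : Atl (2 * n) X) (hA' : Cp (H₀.acm 0) A') (K' : Kah A') (Lb : LB A') (h : HM Lb) (c : ℝ)
    (hl : LBih A' p.A id) (Rf : Ref A' p.A id),
    Finite A'.ι ∧ GoodA A' ∧ Nonempty (Part A') ∧
    0 < c ∧ (∀ i, ∀ y ∈ (A'.e i).source, cur h i y = ((Real.pi * c : ℝ) : ℂ) • K'.g i y) ∧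
    h.Pos ∧ (∃ m : ℕ, 0 < m ∧ ∃ P : ProjD A', lb P = Lb ^ m) ∧
    TubeQ Q e H₀ 0 A' K' κ r ∧
    LBih p.A A' id ∧
    Ex (c1F ((PB.ref hl.toHolMap Rf p.L).pullHM hl.toHolMap p.h) - (cmp_of_cp hA').F e) ∧
    (Rich A' (pullLB hl.toHolMap Rf p.L) → Rich p.A p.L)

/-- **`QTubP` ⟹ the data at the chart member** -/
theorem kap_ray {Alg : AlgTT} (hQT : QTubP Alg) (n : ℕ) (X : Type) [TopologicalSpace X]
    [CompactSpace X] [T2Space X] [SimplyConnectedSpace X] (C : RCh (Cn (2 * n)) X)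
    (Q : F2 C →ₗ[ℝ] F2 C →ₗ[ℝ] ℝ) (hX : Ctx n C Q) (H0 : HkT C) (L0 : PL C) (e : F2 C)
    (hG : Given Q H0 L0 e) (B : Box Q H0 e) (R : Road (Alg n X C Q) B) (x : ℚ)
    (hx : R.c x ∈ B.D) (hE : EndIso R x) (p : Pres n (B.H R.a (R.c x)) L0) :
    ∃ κ : ℝ, 0 < κ ∧ ∀ r : ℝ, 0 < r → KData Q e (B.H R.a (R.c x)) p κ r := by
  obtain ⟨κ, hκ, h1⟩ := hQT n X C Q hX H0 L0 e hG B R x hx hE
  refine ⟨κ, hκ, fun r hr => ?_⟩
  obtain ⟨H, y, z, s, -, hz, hs, hy, hcl, hiso, A, hA, K, hK, q, D, Ψ, l, τ, w, w', ht, hp, hD⟩ :=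
    h1 r hr
  obtain ⟨A', hA', K', Lb, h, c, T', Ψ', w₁, w₁', hl, Rf, a1, a2, a3, a4, a5, a6, a7, a8, a9, a10,
    a11, a12, a13⟩ := kap_data hX (given_box' hX hG B R.aB hx) p hz hs hy hcl hiso hA hK q ht hp hD
  exact ⟨A', hA', K', Lb, h, c, hl, Rf, a1, a2, a3, a4, a5, a6, a7,
    ⟨T', D, Ψ', l, τ, w₁, w₁', a8, a9, a10⟩, a11, a12, a13⟩

end

end Crest.Agent.R281.Pjx_648
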