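import Crest.Agent.R281.Pjx4_648
import Crest.Agent.R281.Nef3_252
import Crest.Agent.R281.Sk0_474

/-!
# R281 (S0424), PREQ + BACK (helper648), part 5: transport along biholomorphisms

* `holMap_of`  : a smooth map which intertwines complex structures of hyperkaehler triples is
                 holomorphic on the holomorphic atlases
* `lbih_of_inv`, `lbih_of` : bijective holomorphic maps are locally biholomorphic
* `back hq R L`: `L` is the pull back, under `p`, of its pull back `pullLB hq R L` under the inverse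
                 `q` of `p`
* `rk_pull`, `rich_pull`, `rich_back` : ranks of sections under biholomorphisms
-/

set_option autoImplicit false
set_option linter.unusedSectionVars false
set_option maxSynthPendingDepth 3

open Set Filter Topology Complex
open scoped ContDiff Matrix ComplexConjugate ComplexOrder

namespace Crest.Agent.R281.Pjx_648

open Crest.Agent.R281.HkR_835 Crest.Agent.R281.Dif_268
open Crest.Agent.R281.NefO_476 Crest.Agent.R281.Nef_252
open Crest.Agent.R275.Geo Crest.Agent.R275.Core144 Crest.Agent.R275.GC293 Crest.Agent.R275.EDR890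
open Crest.Agent.R273
open Crest.Agent.R273.Defs_333
open Crest.Agent.R273.Map_835 (HolMap dm Jp mem_dm holMap_id Jp_comp)
open Crest.Agent.R273.PB_835 (LBih Ref PB pullLB pullLB_g)
open Crest.Agent.R260.ACM_580 Crest.Agent.R260.NNB_580
open Crest.Agent.R281.Rk_599 (Rk rat analyticAt_rat)
open Crest.Agent.R281.Sk_474 (Rich)

noncomputable section

/-! ### holomorphic maps -/

section map

variable {d d' : ℕ} {X X' V V' : Type} [TopologicalSpace X] [TopologicalSpace X']
  [NormedAddCommGroup V] [NormedSpace ℝ V] [NormedAddCommGroup V'] [NormedSpace ℝ V']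
  {C : RCh V X} {C' : RCh V' X'} {A : Atl d X} {A' : Atl d' X'}

/-- a smooth map which intertwines the complex structures is holomorphic -/
theorem holMap_of {H' : HkT C'} {H : HkT C} {k' k : Fin 3} (hA' : Cp (H'.acm k') A')
    (hA : Cp (H.acm k) A) {g : SMap C' C} (hg : HolM g (ofHk H' k') (ofHk H k)) :
    HolMap A' A g.f := by
  refine ⟨g.cont, fun i j z hz => ?_⟩
  apply DifferentiableAt.differentiableWithinAt
  obtain ⟨a', ha'⟩ := C'.cover ((A'.e i).symm z)
  obtain ⟨a, ha⟩ := C.cover (g.f ((A'.e i).symm z))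
  have hz2 : g.f ((A'.e i).symm z) ∈ (A.e j).source := hz.2
  have h1 : z ∈ ovc (H'.acm k') a' (A'.e i) := ⟨hz.1, ha'⟩
  have e1 : (C'.e a').symm (C'.e a' ((A'.e i).symm z)) = (A'.e i).symm z := (C'.e a').left_inv ha'
  have h2 : C'.e a' ((A'.e i).symm z) ∈ dom C C' g.f a a' :=
    ⟨(C'.e a').map_source ha', by rw [e1]; exact ha⟩
  have e2 : loc C C' g.f a a' (C'.e a' ((A'.e i).symm z)) = C.e a (g.f ((A'.e i).symm z)) := by
    show C.e a (g.f ((C'.e a').symm (C'.e a' ((A'.e i).symm z)))) = _
    rw [e1]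
  have h3 : loc C C' g.f a a' (C'.e a' ((A'.e i).symm z)) ∈ ovr (H.acm k) a (A.e j) := by
    rw [e2]
    exact mem_ovr_of_source (C := H.acm k) hz2 ha
  have d1 : HasFDerivAt (fun z => C'.e a' ((A'.e i).symm z))
      (fderiv ℝ (fun z => C'.e a' ((A'.e i).symm z)) z) z := ((hA' i).diffAt' h1).hasFDerivAt
  have d2 := (g.diff_loc h2).hasFDerivAt
  have d3 : HasFDerivAt (fun z => A.e j ((C.e a).symm z))
      (fderiv ℝ (fun z => A.e j ((C.e a).symm z)) (loc C C' g.f a a' (C'.e a' ((A'.e i).symm z))))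
      (loc C C' g.f a a' (C'.e a' ((A'.e i).symm z))) := ((hA j).diffAt h3).hasFDerivAt
  have d4 := HasFDerivAt.comp z (g := fun w => loc C C' g.f a a' w)
    (f := fun z => C'.e a' ((A'.e i).symm z)) d2 d1
  have d5 := HasFDerivAt.comp z (g := fun z => A.e j ((C.e a).symm z))
    (f := (fun w => loc C C' g.f a a' w) ∘ fun z => C'.e a' ((A'.e i).symm z)) d3 d4
  have he : (fun z => A.e j (g.f ((A'.e i).symm z))) =ᶠ[𝓝 z]
      (fun z => A.e j ((C.e a).symm z)) ∘
        ((fun w => loc C C' g.f a a' w) ∘ fun z => C'.e a' ((A'.e i).symm z)) := by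
    have hc : ContinuousAt (fun w => g.f ((A'.e i).symm w)) z :=
      g.cont.continuousAt.comp ((A'.e i).continuousAt_symm hz.1)
    filter_upwards [(isOpen_ovc (C := H'.acm k') a' (A'.e i)).mem_nhds h1,
      hc.preimage_mem_nhds ((C.e a).open_source.mem_nhds ha)] with w hw hwa
    have hw1 : (C'.e a').symm (C'.e a' ((A'.e i).symm w)) = (A'.e i).symm w :=
      (C'.e a').left_inv hw.2
    have hw2 : g.f ((A'.e i).symm w) ∈ (C.e a).source := hwa
    show _ = A.e j ((C.e a).symm (C.e a (g.f ((C'.e a').symm (C'.e a' ((A'.e i).symm w))))))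
    rw [hw1, (C.e a).left_inv hw2]
  have d6 := d5.congr_of_eventuallyEq he
  refine differentiableAt_of_real d6.differentiableAt fun v => ?_
  rw [d6.fderiv]
  have l1 : fderiv ℝ (fun z => C'.e a' ((A'.e i).symm z)) z (I • v) =
      H'.J k' a' (C'.e a' ((A'.e i).symm z))
        (fderiv ℝ (fun z => C'.e a' ((A'.e i).symm z)) z v) := (hA' i).lin' h1 v
  have l2 := hg.h a a' _ h2 (fderiv ℝ (fun z => C'.e a' ((A'.e i).symm z)) z v)
  have l3 := (hA j).lin a _ h3 (fderiv ℝ (loc C C' g.f a a') (C'.e a' ((A'.e i).symm z))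
    (fderiv ℝ (fun z => C'.e a' ((A'.e i).symm z)) z v))
  simp only [ContinuousLinearMap.comp_apply]
  rw [l1]
  refine (congrArg _ l2).trans ?_
  exact l3

end map

section bih

variable {n : ℕ} {M N : Type} [TopologicalSpace M] [TopologicalSpace N] {A : Atl n M}
  {B : Atl n N} {p : M → N} {q : N → M}

/-- holomorphic maps with holomorphic left inverse, equal dimensions -/
theorem lbih_of_inv (hp : HolMap A B p) (hq : HolMap B A q) (h1 : ∀ x, q (p x) = x) :
    LBih A B p := by
  refine ⟨hp, fun i j x hx hj h0 => ?_⟩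
  have h3 := Jp_comp hq hp (x := x) (l := i) hx hj (by rw [h1]; exact hx)
  have h4 : Jp A A (fun x => q (p x)) i i x = 1 := by
    have h5 : (fun x => q (p x)) = id := funext h1
    rw [h5]
    exact J_self i hx
  rw [h4] at h3
  have h5 := congrArg Matrix.det h3
  rw [Matrix.det_mul, h0, mul_zero, Matrix.det_one] at h5
  exact zero_ne_one h5

/-- `L` is the pull back under `p` of its pull back under the inverse of `p` -/
def back (hq : HolMap B A q) (hqp : ∀ x, q (p x) = x) (R : Ref B A q)
    (L : LB A) : PB p L (pullLB hq R L) where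
  c i j x := L.g i (R.r j) x
  hol i j := by
    have h1 := L.hol i (R.r j)
    refine DifferentiableOn.mono h1 fun z hz => ⟨hz.1, ?_⟩
    have h2 := R.sub j _ hz.2
    rw [hqp] at h2
    exact h2
  ne i j x _ _ := L.ne_zero _ _ _
  left i i' j x hx hj := by
    have h2 := R.sub j _ hj
    rw [hqp] at h2
    exact L.mul i i' (R.r j) x ⟨hx, h2⟩
  right i j j' x hx hj := by
    have h2 := R.sub j _ hj.1
    have h3 := R.sub j' _ hj.2
    rw [hqp] at h2 h3
    rw [pullLB_g hq R L hj, hqp]
    exact L.mul i (R.r j) (R.r j') x ⟨⟨hx, h2⟩, h3⟩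

/-- the rank of sections is invariant under local biholomorphisms -/
theorem rk_pull (h : LBih A B p) {L' : LB A} {L : LB B} (T : PB p L' L) {r : ℕ}
    {s : Fin (r + 1) → B.ι → N → ℂ} (hs : ∀ a, IsHS L univ (s a)) {i : A.ι} {j : B.ι} {x : M}
    (hx : x ∈ (A.e i).source) (hR : Rk B s j (p x)) : Rk A (fun a => T.pull (s a)) i x := by
  obtain ⟨hj, h0, hl⟩ := hR
  have hd : A.e i x ∈ dm A B p i j := mem_dm hx hj
  have hval : Map_835.rd A B p i j (A.e i x) = B.e j (p x) := by
    simp only [Map_835.rd]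
    rw [(A.e i).left_inv hx]
  refine ⟨hx, ?_, ?_⟩
  · show T.pull (s 0) i x ≠ 0
    rw [T.pull_eq hx hj (hs 0) (mem_univ _)]
    exact mul_ne_zero (T.ne i j x hx hj) h0
  · set D := fderiv ℂ (Map_835.rd A B p i j) (A.e i x) with hD
    have hDs : Function.Surjective D :=
      LinearMap.injective_iff_surjective (f := D.toLinearMap).1 (h.inj hd)
    have key : ∀ a : Fin r, fderiv ℂ (rat A (fun a => T.pull (s a)) i a) (A.e i x) =
        (fderiv ℂ (rat B s j a) (B.e j (p x))).comp D := by
      intro a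
      have he : rat A (fun a => T.pull (s a)) i a =ᶠ[𝓝 (A.e i x)]
          (rat B s j a) ∘ (Map_835.rd A B p i j) := by
        filter_upwards [(h.toHolMap.isOpen_dm i j).mem_nhds hd] with w hw
        have hw1 : (A.e i).symm w ∈ (A.e i).source := (A.e i).map_target hw.1
        have hw2 : p ((A.e i).symm w) ∈ (B.e j).source := hw.2
        show T.pull (s a.succ) i ((A.e i).symm w) / T.pull (s 0) i ((A.e i).symm w) =
          s a.succ j ((B.e j).symm (B.e j (p ((A.e i).symm w)))) /
            s 0 j ((B.e j).symm (B.e j (p ((A.e i).symm w))))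
        rw [T.pull_eq hw1 hw2 (hs _) (mem_univ _), T.pull_eq hw1 hw2 (hs _) (mem_univ _),
          (B.e j).left_inv hw2, mul_div_mul_left _ _ (T.ne i j _ hw1 hw2)]
      have hr : DifferentiableAt ℂ (rat B s j a) (Map_835.rd A B p i j (A.e i x)) := by
        rw [hval]
        exact (analyticAt_rat hs hj h0 a).differentiableAt
      rw [he.fderiv_eq, fderiv_comp _ hr (h.toHolMap.diffAt hd), hval]
    set S : (Cn n →L[ℂ] ℂ) →ₗ[ℂ] (Cn n →L[ℂ] ℂ) :=
      { toFun := fun φ => φ.comp D
        map_add' := fun φ ψ => by ext v; simp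
        map_smul' := fun c φ => by ext v; simp } with hS
    have hker : LinearMap.ker S = ⊥ := by
      rw [LinearMap.ker_eq_bot']
      intro φ hφ
      ext v
      obtain ⟨u, rfl⟩ := hDs v
      exact congrArg (fun T : Cn n →L[ℂ] ℂ => T u) hφ
    have h1 : (fun a : Fin r => fderiv ℂ (rat A (fun a => T.pull (s a)) i a) (A.e i x)) =
        ⇑S ∘ fun a : Fin r => fderiv ℂ (rat B s j a) (B.e j (p x)) := funext key
    rw [h1]
    exact hl.map' S hker

end bih

section rich

variable {n : ℕ} {M N : Type} [TopologicalSpace M] [TopologicalSpace N] {A : Atl (2 * n) M}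
  {B : Atl (2 * n) N} {p : M → N} {q : N → M}

theorem rich_pull (h : LBih A B p) (hsur : Function.Surjective p) {L' : LB A} {L : LB B}
    (T : PB p L' L) (hR : Rich B L) : Rich A L' := by
  obtain ⟨k, hk, s, hs, j, y, hy⟩ := hR
  obtain ⟨x, rfl⟩ := hsur y
  obtain ⟨i, hi⟩ := A.cover x
  exact ⟨k, hk, fun a => (T.pow k).pull (s a), fun a =>
    (T.pow k).pull_isHS h.toHolMap isOpen_univ (hs a), i, x, rk_pull h (T.pow k) hs hi hy⟩

/-- **back to the given member** -/
theorem rich_back (hp : HolMap A B p) (hq : HolMap B A q) (hqp : ∀ x, q (p x) = x)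
    (hpq : ∀ y, p (q y) = y) (R : Ref B A q) {L : LB A} (hR : Rich B (pullLB hq R L)) :
    Rich A L :=
  rich_pull (lbih_of_inv hp hq hqp) (fun y => ⟨q y, hpq y⟩) (back hq hqp R L) hR

end rich

end

end Crest.Agent.R281.Pjx_648
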