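import Crest.Agent.R281.Pjx5_648
import Crest.Agent.R273.KahI_645

/-!
# R281 (S0424), PREQ (helper648), part 6: a Kaehler metric with integral class ((K3) of 975)

* `pullK h K`   : the Kaehler metric on a compatible atlas, `pullK_g`
* `lb_kah_fam`  : `K : Kah A` with `IntF (c • (ofKah K).f2)`, `c > 0`, and further integral
                  (1,1)-forms `w a : K11 A` ==> refinement `A'` of `A` subordinate to an open cover,
                  `Lb` with metric of curvature exactly `(π c) K'`, `L a` with metrics of curvature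
                  `w a`, `ProjD` with `lb P = Lb ^ m`
* `lb_kah`      : the same without further forms
-/

set_option autoImplicit false
set_option linter.unusedSectionVars false
set_option maxSynthPendingDepth 3

open Set Filter Topology Complex
open scoped ContDiff Matrix ComplexConjugate ComplexOrder

namespace Crest.Agent.R281.Pjx_648

open Crest.Agent.R281.HkR_835 Crest.Agent.R281.Dif_268 Crest.Agent.R281.Cdr_234
open Crest.Agent.R275.Geo Crest.Agent.R275.Core144 Crest.Agent.R275.GC293 Crest.Agent.R275.EDR890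
open Crest.Agent.R273
open Crest.Agent.R273.Defs_333
open Crest.Agent.R273.Map_835 (HolMap dm Jp mem_dm holMap_id Jp_comp)
open Crest.Agent.R273.PB_835 (LBih Ref PB pullLB pullLB_g)
open Crest.Agent.R273.Kah_333 (Kah cur)
open Crest.Agent.R273.FS_333 (lb)

noncomputable section

variable {d : ℕ} {X Y : Type} [TopologicalSpace X] [TopologicalSpace Y] {A : Atl d X}
  {A' : Atl d X} {B : Atl d Y} {p : Y → X}

/-- pull back of a Kaehler metric by a locally biholomorphic map -/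
def pullK (h : LBih B A p) (K : Kah A) : Kah B :=
  KahI_645.pullI K h.toHolMap fun _ _ _ hy hi => h.inj (mem_dm hy hi)

theorem pullK_g (h : LBih B A p) (K : Kah A) {k : B.ι} {i : A.ι} {y : Y}
    (hk : y ∈ (B.e k).source) (hi : p y ∈ (A.e i).source) :
    (pullK h K).g k y = (Jp B A p k i y)ᵀ * K.g i (p y) * (Jp B A p k i y).map conj :=
  KahI_645.gm_eq K h.toHolMap hk (A.cover (p y)).choose_spec hi

/-- the multiple of a Kaehler metric -/
theorem exists_smul (K : Kah A) (c : ℝ) : ∃ G : K11 A,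
    (∀ i, ∀ x ∈ (A.e i).source, G.g i x = (c : ℂ) • K.g i x) ∧
      Eqv G.f2 (c • (ofKah K).f2) := by
  have i1 : ∀ i, ∀ z ∈ (A.e i).target, ∀ u v,
      (c • (ofKah K).f2).w i z (I • u) (I • v) = (c • (ofKah K).f2).w i z u v := by
    intro i z hz u v
    show c * (ofKah K).f2.w i z (I • u) (I • v) = c * (ofKah K).f2.w i z u v
    rw [(ofKah K).f2_inv hz]
  refine ⟨(c • (ofKah K).f2).k11 i1, fun i x hx => ?_, fun i z hz u v => ?_⟩
  · show GB (c • (ofKah K).f2.w i (A.e i x)) = _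
    rw [GB_smul]
    congr 1
    exact (ofKah K).f2_k11 hx
  · have h1 : ((c • (ofKah K).f2).k11 i1).f2.w i z = (c • (ofKah K).f2).w i z :=
      F2.k11_f2 _ i1 hz
    rw [h1]

/-- **(K3)** a Kaehler metric with integral class, further integral (1,1)-forms, one atlas -/
theorem lb_kah_fam [CompactSpace X] [T2Space X] (K : Kah A) {c : ℝ} (hc : 0 < c)
    (hI : IntF (c • (ofKah K).f2)) {r : ℕ} (w : Fin r → K11 A)
    (hw : ∀ a, IntF ((Real.pi⁻¹ : ℝ) • (w a).f2)) {κ : Type*} (O : κ → Set X)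
    (hO : ∀ k, IsOpen (O k)) (hOc : ∀ x, ∃ k, x ∈ O k) :
    ∃ (A' : Atl d X) (K' : Kah A') (Lb : LB A') (h : HM Lb) (L : Fin r → LB A')
      (g : ∀ a, HM (L a)), Finite A'.ι ∧ GoodA A' ∧ Nonempty (Part A') ∧
      (∀ i, ∃ k, (A'.e i).source ⊆ O k) ∧ Nonempty (Ref A' A id) ∧ LBih A' A id ∧ LBih A A' id ∧
      (∀ (k : A'.ι) (i : A.ι) (y : X), y ∈ (A'.e k).source → y ∈ (A.e i).source →
        K'.g k y = (Jp A' A id k i y)ᵀ * K.g i y * (Jp A' A id k i y).map conj) ∧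
      (∀ i, ∀ y ∈ (A'.e i).source, cur h i y = ((Real.pi * c : ℝ) : ℂ) • K'.g i y) ∧ h.Pos ∧
      (∀ (a : Fin r) (k : A'.ι) (i : A.ι) (y : X), y ∈ (A'.e k).source → y ∈ (A.e i).source →
        cur (g a) k y = (Jp A' A id k i y)ᵀ * (w a).g i y * (Jp A' A id k i y).map conj) ∧
      ∃ m : ℕ, 0 < m ∧ ∃ P : ProjD A', lb P = Lb ^ m := by
  have hpc : 0 < Real.pi * c := mul_pos Real.pi_pos hc
  obtain ⟨G, hG, hG'⟩ := exists_smul K (Real.pi * c)
  have hGI : IntF ((Real.pi⁻¹ : ℝ) • G.f2) := by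
    refine Cls.eqv hI fun i z hz u v => ?_
    show c * (ofKah K).f2.w i z u v = Real.pi⁻¹ * G.f2.w i z u v
    rw [hG' i z hz u v]
    show _ = Real.pi⁻¹ * (Real.pi * c * (ofKah K).f2.w i z u v)
    rw [← mul_assoc, ← mul_assoc, inv_mul_cancel₀ Real.pi_ne_zero, one_mul]
  set W : Fin (r + 1) → K11 A := Fin.cons G w with hW
  have hWI : ∀ a, IntF ((Real.pi⁻¹ : ℝ) • (W a).f2) := fun a =>
    Fin.cases (motive := fun a => IntF ((Real.pi⁻¹ : ℝ) • (W a).f2)) hGI hw a
  obtain ⟨A', L, h, h1, h2, ⟨PA⟩, h4, h5, h6, h7, h8⟩ := lefschetz_fam O hO hOc (r + 1) W hWI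
  have h9 : ∀ i, ∀ y ∈ (A'.e i).source,
      cur (h 0) i y = ((Real.pi * c : ℝ) : ℂ) • (pullK h6 K).g i y := by
    intro k y hy
    obtain ⟨i, hi⟩ := A.cover y
    rw [pullK_g h6 K hy hi, h8 0 k i y hy hi]
    show (Jp A' A id k i y)ᵀ * G.g i y * (Jp A' A id k i y).map conj = _
    rw [hG i y hi, Matrix.mul_smul, Matrix.smul_mul]
    rfl
  have hP : (h 0).Pos := Kah_333.pos_of_cur fun i x hx => by
    rw [h9 i x hx]
    exact ((pullK h6 K).pos i x hx).smul (by exact_mod_cast hpc)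
  exact ⟨A', pullK h6 K, L 0, h 0, fun a => L a.succ, fun a => h a.succ, h1, h2, ⟨PA⟩, h4, h5, h6,
    h7, fun k i y hk hi => pullK_g h6 K hk hi, h9, hP,
    fun a k i y hk hi => h8 a.succ k i y hk hi, Crest.Agent.R272.Kod8_410.exists_projD PA hP⟩

/-- **(K3)** of 975: a Kaehler metric with integral class -/
theorem lb_kah [CompactSpace X] [T2Space X] (K : Kah A) {c : ℝ} (hc : 0 < c)
    (hI : IntF (c • (ofKah K).f2)) {κ : Type*} (O : κ → Set X)
    (hO : ∀ k, IsOpen (O k)) (hOc : ∀ x, ∃ k, x ∈ O k) :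
    ∃ (A' : Atl d X) (K' : Kah A') (Lb : LB A') (h : HM Lb), Finite A'.ι ∧ GoodA A' ∧
      Nonempty (Part A') ∧ (∀ i, ∃ k, (A'.e i).source ⊆ O k) ∧ Nonempty (Ref A' A id) ∧
      LBih A' A id ∧ LBih A A' id ∧
      (∀ (k : A'.ι) (i : A.ι) (y : X), y ∈ (A'.e k).source → y ∈ (A.e i).source →
        K'.g k y = (Jp A' A id k i y)ᵀ * K.g i y * (Jp A' A id k i y).map conj) ∧
      (∀ i, ∀ y ∈ (A'.e i).source, cur h i y = ((Real.pi * c : ℝ) : ℂ) • K'.g i y) ∧ h.Pos ∧
      ∃ m : ℕ, 0 < m ∧ ∃ P : ProjD A', lb P = Lb ^ m := by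
  obtain ⟨A', K', Lb, h, -, -, h1, h2, h3, h4, h5, h6, h7, h8, h9, h10, -, h12⟩ :=
    lb_kah_fam K hc hI (r := 0) (fun a => a.elim0) (fun a => a.elim0) O hO hOc
  exact ⟨A', K', Lb, h, h1, h2, h3, h4, h5, h6, h7, h8, h9, h10, h12⟩

end

end Crest.Agent.R281.Pjx_648
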