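import Mathlib

/-!
# R281, PATH-M (helper691): real paths on which `Re g` is constant, part 1

`exists_inv`   : local inverse (`C^ω`) of an analytic map with invertible derivative;
`exists_root`  : `φ` analytic at `0`, `φ 0 = 0`, not locally zero ⟹ `φ (h s) = s ^ n` near `0`;
`exists_dir`   : a nonconstant germ is nonconstant in some direction.
-/

set_option autoImplicit false

open Set Filter Topology Metric
open scoped ContDiff

namespace Crest.Agent.R281.Pm_691

/-- local inverse of a `C^ω` map with invertible derivative -/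
theorem exists_inv {E F : Type*} [NormedAddCommGroup E] [NormedSpace ℂ E] [CompleteSpace E]
    [NormedAddCommGroup F] [NormedSpace ℂ F] {f : E → F} {f' : E ≃L[ℂ] F} {a : E}
    (hf : ContDiffAt ℂ ω f a) (hf' : HasFDerivAt f (f' : E →L[ℂ] F) a) :
    ∃ g : F → E, ContDiffAt ℂ ω g (f a) ∧ g (f a) = a ∧ ∀ᶠ y in 𝓝 (f a), f (g y) = y := by
  have hn : (ω : WithTop ℕ∞) ≠ 0 := by simp
  refine ⟨hf.localInverse hf' hn, hf.to_localInverse hf' hn, hf.localInverse_apply_image hf' hn, ?_⟩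
  exact (hf.hasStrictFDerivAt' hf' hn).eventually_right_inverse

theorem exists_root {φ : ℂ → ℂ} (hφ : AnalyticAt ℂ φ 0) (h0 : φ 0 = 0)
    (hne : ¬ ∀ᶠ u in 𝓝 (0 : ℂ), φ u = 0) :
    ∃ (n : ℕ) (h : ℂ → ℂ), 0 < n ∧ ContDiffAt ℂ ω h 0 ∧ h 0 = 0 ∧
      ∀ᶠ s in 𝓝 (0 : ℂ), φ (h s) = s ^ n := by
  obtain ⟨n, ψ, hψ, hψ0, hev⟩ := hφ.exists_eventuallyEq_pow_smul_nonzero_iff.2 hne
  have hn : n ≠ 0 := by
    rintro rfl
    have h1 := hev.self_of_nhds
    simp only [sub_zero, pow_zero, one_smul] at h1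
    exact hψ0 (by rw [← h1]; exact h0)
  obtain ⟨c, hc⟩ := IsAlgClosed.exists_pow_nat_eq (ψ 0) (Nat.pos_of_ne_zero hn)
  have hc0 : c ≠ 0 := by
    rintro rfl
    rw [zero_pow hn] at hc
    exact hψ0 hc.symm
  set r : ℂ → ℂ := fun u => c * (ψ u / ψ 0) ^ ((n : ℂ)⁻¹) with hr_def
  have hr : AnalyticAt ℂ r 0 := by
    refine analyticAt_const.mul ((hψ.div analyticAt_const hψ0).cpow analyticAt_const ?_)
    simp [hψ0]
  have hrn : ∀ u, (r u) ^ n = ψ u := by
    intro u
    simp only [hr_def]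
    rw [mul_pow, Complex.cpow_nat_inv_pow _ hn, hc]
    field_simp
  have hr0 : r 0 = c := by simp [hr_def, hψ0]
  set ρ : ℂ → ℂ := fun u => u * r u with hρ_def
  have hρ : AnalyticAt ℂ ρ 0 := analyticAt_id.mul hr
  have hρ0 : ρ 0 = 0 := by simp [hρ_def]
  have hρ' : HasDerivAt ρ c 0 := by
    have h1 : HasDerivAt (fun u : ℂ => u * r u) (1 * r 0 + 0 * deriv r 0) 0 :=
      (hasDerivAt_id' (0 : ℂ)).mul hr.differentiableAt.hasDerivAt
    have h2 : (1 * r 0 + 0 * deriv r 0) = c := by rw [hr0]; ring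
    rw [h2] at h1
    exact h1
  let e : ℂ ≃L[ℂ] ℂ := ContinuousLinearEquiv.unitsEquivAut ℂ (Units.mk0 c hc0)
  have he : HasFDerivAt ρ (e : ℂ →L[ℂ] ℂ) 0 := by
    have h1 := hρ'.hasFDerivAt
    have h2 : (e : ℂ →L[ℂ] ℂ) = ContinuousLinearMap.toSpanSingleton ℂ c := by
      ext
      simp [e]
    rw [h2]
    exact h1
  obtain ⟨g, hg1, hg2, hg3⟩ := exists_inv hρ.contDiffAt he
  rw [hρ0] at hg1 hg2 hg3
  refine ⟨n, g, Nat.pos_of_ne_zero hn, hg1, hg2, ?_⟩
  have hgt : Tendsto g (𝓝 0) (𝓝 0) := by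
    have h1 := hg1.continuousAt
    rw [ContinuousAt, hg2] at h1
    exact h1
  filter_upwards [hg3, hgt.eventually hev] with s hs1 hs2
  rw [hs2, sub_zero, smul_eq_mul, ← hrn, ← mul_pow]
  show (ρ (g s)) ^ n = s ^ n
  rw [hs1]

/-- a nonconstant germ is nonconstant in some direction -/
theorem exists_dir {E : Type*} [NormedAddCommGroup E] [NormedSpace ℂ E] {B : Set E}
    (hB : IsOpen B) {g : E → ℂ} (hg : AnalyticOnNhd ℂ g B) {z : E} (hz : z ∈ B)
    (hnc : ¬ ∀ᶠ w in 𝓝 z, g w = g z) :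
    ∃ d : E, ¬ ∀ᶠ u in 𝓝 (0 : ℂ), g (z + u • d) = g z := by
  by_contra hcon
  push Not at hcon
  apply hnc
  obtain ⟨r, hr, hrB⟩ := Metric.isOpen_iff.1 hB z hz
  filter_upwards [ball_mem_nhds z hr] with w hw
  set D : Set ℂ := (fun u : ℂ => z + u • (w - z)) ⁻¹' ball z r with hD
  have hDc : Convex ℝ D := by
    intro u hu v hv a b ha hb hab
    simp only [hD, mem_preimage] at hu hv ⊢
    have h1 : z + (a • u + b • v) • (w - z) = a • (z + u • (w - z)) + b • (z + v • (w - z)) := by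
      have : z = a • z + b • z := by rw [← add_smul, hab, one_smul]
      calc z + (a • u + b • v) • (w - z)
          = (a • z + b • z) + (a • u + b • v) • (w - z) := by rw [← this]
        _ = _ := by
          rw [add_smul, smul_assoc, smul_assoc, smul_add, smul_add]
          abel
    rw [h1]
    exact (convex_ball z r) hu hv ha hb hab
  have hF : AnalyticOnNhd ℂ (fun u : ℂ => g (z + u • (w - z))) D := by
    intro u hu
    have h1 : AnalyticAt ℂ (fun u : ℂ => z + u • (w - z)) u :=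
      analyticAt_const.add (analyticAt_id.smul analyticAt_const)
    exact AnalyticAt.comp (g := g) (hg _ (hrB hu)) h1
  have hC : AnalyticOnNhd ℂ (fun _ : ℂ => g z) D := fun u _ => analyticAt_const
  have h0 : (0 : ℂ) ∈ D := by simp [hD, hr]
  have h1 : (1 : ℂ) ∈ D := by simpa [hD] using hw
  have h2 := hF.eqOn_of_preconnected_of_eventuallyEq hC hDc.isPreconnected h0 (hcon (w - z))
  simpa using h2 h1

end Crest.Agent.R281.Pm_691
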