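import Crest.Agent.R281.Yv4_900

/-!
# Row 281, YAU-VAR, leaf (L6) POSN, part 1 (helper355)

* `quad_pos`   : tube lemma for families of quadratic forms
* `posn`       : the form `om_p + dd^c u0` stays positive on the half balls for `p` near `p₀`, with a
                 uniform room `δ` for the first and second derivatives `(ξ, H)`
* `posn_jet`   : the same for elements `x : JJ B` with `‖x‖ ≤ δ`
* `bt_add`     : the form of `u0 + U` for a `C²` function `U`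
* `posn_C2`    : positivity of `om_p + dd^c (u0 + U)` on the half balls
-/

set_option autoImplicit false
set_option maxSynthPendingDepth 3
set_option linter.unusedSectionVars false

open Set Filter Topology Metric
open scoped ContDiff

namespace Crest.Agent.R281.Pn_355

open Crest.Agent.R275.Geo Crest.Agent.R275.Core144 Crest.Agent.R275.EDR890
open Crest.Agent.R273.YauDefs_635 Crest.Agent.R273.SchF_152
open Crest.Agent.R260.ACM_580 Crest.Agent.R281.HkR_835 Crest.Agent.R281.NefO_476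
open Crest.Agent.R281.Hjs_680 Crest.Agent.R281.Tt_476 Crest.Agent.R281.Yv_900

noncomputable section

/-! ### the tube lemma for quadratic forms -/

section loc

variable {V : Type*} [NormedAddCommGroup V] [NormedSpace ℝ V] [FiniteDimensional ℝ V]
  {P W : Type*} [TopologicalSpace P] [TopologicalSpace W]

theorem quad_pos {T : Set P} (hT : IsOpen T) {U K : Set V} (hU : IsOpen U) (hK : IsCompact K)
    (hKU : K ⊆ U) {Φ : (P × W) × (V × V) → ℝ}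
    (hΦ : ContinuousOn Φ ((T ×ˢ univ) ×ˢ (U ×ˢ univ)))
    (hq : ∀ (q : P × W) (z : V) (c : ℝ) (v : V), Φ (q, z, c • v) = c ^ 2 * Φ (q, z, v))
    {p₀ : P} (hp₀ : p₀ ∈ T) {w₀ : W}
    (hpos : ∀ z ∈ K, ∀ v, v ≠ 0 → 0 < Φ ((p₀, w₀), z, v)) :
    ∀ᶠ q in 𝓝 p₀ ×ˢ 𝓝 w₀, ∀ z ∈ K, ∀ v, v ≠ 0 → 0 < Φ (q, z, v) := by
  have : ProperSpace V := FiniteDimensional.proper ℝ V
  have hopen : IsOpen ((T ×ˢ (univ : Set W)) ×ˢ (U ×ˢ (univ : Set V))) :=
    (hT.prod isOpen_univ).prod (hU.prod isOpen_univ)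
  have hO : IsOpen (((T ×ˢ (univ : Set W)) ×ˢ (U ×ˢ (univ : Set V))) ∩ Φ ⁻¹' Ioi 0) :=
    hΦ.isOpen_inter_preimage hopen isOpen_Ioi
  have hsub : ({(p₀, w₀)} : Set (P × W)) ×ˢ (K ×ˢ sphere (0 : V) 1) ⊆
      ((T ×ˢ (univ : Set W)) ×ˢ (U ×ˢ (univ : Set V))) ∩ Φ ⁻¹' Ioi 0 := by
    rintro ⟨⟨p, w⟩, z, v⟩ ⟨hpw, hz, hv⟩
    simp only [mem_singleton_iff, Prod.mk.injEq] at hpw
    obtain ⟨rfl, rfl⟩ := hpw
    refine ⟨⟨⟨hp₀, mem_univ _⟩, hKU hz, mem_univ _⟩, hpos z hz v fun h0 => ?_⟩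
    simp [h0] at hv
  obtain ⟨A, B, hA, hB, hA', hB', hAB⟩ := generalized_tube_lemma isCompact_singleton
    (hK.prod (isCompact_sphere (0 : V) 1)) hO hsub
  have hA'' : A ∈ 𝓝 (p₀, w₀) := hA.mem_nhds (hA' rfl)
  rw [← nhds_prod_eq]
  refine mem_of_superset hA'' fun q hqA => ?_
  intro z hz v hv
  have hn : 0 < ‖v‖ := norm_pos_iff.2 hv
  have h1 := hAB (mk_mem_prod hqA (hB' (mk_mem_prod hz (show ‖v‖⁻¹ • v ∈ sphere (0 : V) 1 by
    rw [mem_sphere_zero_iff_norm, norm_smul, norm_inv, norm_norm, inv_mul_cancel₀ hn.ne']))))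
  have h2 : 0 < Φ (q, z, ‖v‖⁻¹ • v) := h1.2
  rw [hq] at h2
  exact (mul_pos_iff_of_pos_left (by positivity)).1 h2

end loc

/-! ### the form of the Monge-Ampère equation -/

section form

variable {n : ℕ} {X : Type} [TopologicalSpace X] {A : Atl n X} (B : Cb A)
  {P : Type} [NormedAddCommGroup P] [NormedSpace ℝ P] {D : P → Dat (ofAtl A)} {u0 : X → ℝ}
  {T : Set P}

theorem c2_self (T : Cn n → Cn n →L[ℝ] Cn n) (v z : Cn n) (H : Cn n →L[ℝ] Cn n →L[ℝ] ℝ) :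
    c2 T v v z H = -(H v (T z (T z v))) + H (T z v) (T z v) := rfl

theorem c1_self (T : Cn n → Cn n →L[ℝ] Cn n) (v z : Cn n) (ξ : Cn n →L[ℝ] ℝ) :
    c1 T v v z ξ = ξ (-(fderiv ℝ T z v (T z v)) + fderiv ℝ T z (T z v) v) := rfl

theorem c2_smul (T : Cn n → Cn n →L[ℝ] Cn n) (v z : Cn n) (c : ℝ)
    (H : Cn n →L[ℝ] Cn n →L[ℝ] ℝ) :
    c2 T (c • v) (c • v) z H = c ^ 2 * c2 T v v z H := by
  rw [c2_self, c2_self]
  simp only [map_smul, smul_apply, smul_eq_mul]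
  ring

theorem c1_smul (T : Cn n → Cn n →L[ℝ] Cn n) (v z : Cn n) (c : ℝ) (ξ : Cn n →L[ℝ] ℝ) :
    c1 T (c • v) (c • v) z ξ = c ^ 2 * c1 T v v z ξ := by
  rw [c1_self, c1_self]
  simp only [map_smul, smul_apply, smul_eq_mul, map_add, map_neg]
  ring

theorem bt_eq (i : A.ι) (p : P) (z a c : Cn n) : bt D u0 i p z a c =
    (D p).om.w i z a ((D p).J.J i z c) +
      (c2 ((D p).J.J i) a c z (fderiv ℝ (fderiv ℝ (inC A i u0)) z) +
        c1 ((D p).J.J i) a c z (fderiv ℝ (inC A i u0) z)) := by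
  rw [bt, ddcF_eq]

theorem bt_smul (i : A.ι) (p : P) (z v : Cn n) (c : ℝ) :
    bt D u0 i p z (c • v) (c • v) = c ^ 2 * bt D u0 i p z v v := by
  rw [bt_eq, bt_eq, c2_smul, c1_smul]
  simp only [map_smul, smul_apply, smul_eq_mul]
  ring

/-- `bt` is the form `om + dd^c u0` -/
theorem bt_eq_ddc (hu : Sm (ofAtl A) u0) (i : A.ι) (p : P) {z : Cn n}
    (hz : z ∈ (A.e i).target) (a c : Cn n) :
    bt D u0 i p z a c =
      ((D p).om + ddc (D p).J u0 hu).w i z a ((D p).J.J i z c) := by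
  show _ = (D p).om.w i z a ((D p).J.J i z c) + (ddc (D p).J u0 hu).w i z a ((D p).J.J i z c)
  rw [ddc_w (D p).J u0 hu (i := i) hz]
  rfl

theorem bt_pos_iff (hu : Sm (ofAtl A) u0) (p : P) :
    (∀ i, ∀ z ∈ (A.e i).target, ∀ v, v ≠ 0 → 0 < bt D u0 i p z v v) ↔
      Pos (D p).J ((D p).om + ddc (D p).J u0 hu) := by
  constructor
  · intro h i z hz v hv
    have := h i z hz v hv
    rwa [bt_eq_ddc hu i p hz] at this
  · intro h i z hz v hv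
    rw [bt_eq_ddc hu i p hz]
    exact h i z hz v hv

/-- the value at `v` of the form perturbed by the jet `(ξ, H)` -/
def Fv (D : P → Dat (ofAtl A)) (u0 : X → ℝ) (i : A.ι)
    (q : (P × ((Cn n →L[ℝ] ℝ) × (Cn n →L[ℝ] Cn n →L[ℝ] ℝ))) × (Cn n × Cn n)) : ℝ :=
  bt D u0 i q.1.1 q.2.1 q.2.2 q.2.2 + (c2 ((D q.1.1).J.J i) q.2.2 q.2.2 q.2.1 q.1.2.2 +
    c1 ((D q.1.1).J.J i) q.2.2 q.2.2 q.2.1 q.1.2.1)

theorem Fv_smul (i : A.ι) (q : P × ((Cn n →L[ℝ] ℝ) × (Cn n →L[ℝ] Cn n →L[ℝ] ℝ)))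
    (z : Cn n) (c : ℝ) (v : Cn n) : Fv D u0 i (q, z, c • v) = c ^ 2 * Fv D u0 i (q, z, v) := by
  simp only [Fv, bt_smul, c2_smul, c1_smul]
  ring

theorem Fv_cont (hT : IsOpen T) (hD : JSDat T D) (hu : A.Sm u0) (i : A.ι) :
    ContinuousOn (Fv D u0 i) ((T ×ˢ univ) ×ˢ ((A.e i).target ×ˢ univ)) := by
  have hJ : ContDiffOn ℝ ∞ (fun q : P × Cn n => (D q.1).J.J i q.2) (T ×ˢ (A.e i).target) :=
    hD.J i
  have hom : ContDiffOn ℝ ∞ (fun q : P × Cn n => (D q.1).om.w i q.2) (T ×ˢ (A.e i).target) :=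
    hD.om i
  have hDJ : ContDiffOn ℝ ∞ (fun q : P × Cn n => fderiv ℝ ((D q.1).J.J i) q.2)
      (T ×ˢ (A.e i).target) := js_fderiv (a := fun p z => (D p).J.J i z) hT
        (A.e i).open_target hJ
  have hui : ContDiffOn ℝ ∞ (inC A i u0) (A.e i).target := hu i
  have hu1 : ContDiffOn ℝ ∞ (fderiv ℝ (inC A i u0)) (A.e i).target :=
    hui.fderiv_of_isOpen (A.e i).open_target (m := ∞) (by simp)
  have hu2 : ContDiffOn ℝ ∞ (fderiv ℝ (fderiv ℝ (inC A i u0))) (A.e i).target :=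
    hu1.fderiv_of_isOpen (A.e i).open_target (m := ∞) (by simp)
  let Q := (P × ((Cn n →L[ℝ] ℝ) × (Cn n →L[ℝ] Cn n →L[ℝ] ℝ))) × (Cn n × Cn n)
  let S : Set Q := (T ×ˢ univ) ×ˢ ((A.e i).target ×ˢ univ)
  have m1 : MapsTo (fun q : Q => (q.1.1, q.2.1)) S (T ×ˢ (A.e i).target) :=
    fun q hq => ⟨hq.1.1, hq.2.1⟩
  have m2 : MapsTo (fun q : Q => q.2.1) S (A.e i).target := fun q hq => hq.2.1
  have k1 : ContinuousOn (fun q : Q => (q.1.1, q.2.1)) S := by fun_prop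
  have k2 : ContinuousOn (fun q : Q => q.2.1) S := by fun_prop
  have kv : ContinuousOn (fun q : Q => q.2.2) S := by fun_prop
  have kξ : ContinuousOn (fun q : Q => q.1.2.1) S := by fun_prop
  have kH : ContinuousOn (fun q : Q => q.1.2.2) S := by fun_prop
  have gJ : ContinuousOn (fun q : Q => (D q.1.1).J.J i q.2.1) S := hJ.continuousOn.comp k1 m1
  have gDJ : ContinuousOn (fun q : Q => fderiv ℝ ((D q.1.1).J.J i) q.2.1) S :=
    hDJ.continuousOn.comp k1 m1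
  have gom : ContinuousOn (fun q : Q => (D q.1.1).om.w i q.2.1) S :=
    hom.continuousOn.comp k1 m1
  have g1 : ContinuousOn (fun q : Q => fderiv ℝ (inC A i u0) q.2.1) S :=
    hu1.continuousOn.comp k2 m2
  have g2 : ContinuousOn (fun q : Q => fderiv ℝ (fderiv ℝ (inC A i u0)) q.2.1) S :=
    hu2.continuousOn.comp k2 m2
  have gJv := gJ.clm_apply kv
  have gJJv := gJ.clm_apply gJv
  have gX : ContinuousOn (fun q : Q => -(fderiv ℝ ((D q.1.1).J.J i) q.2.1 q.2.2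
      ((D q.1.1).J.J i q.2.1 q.2.2)) + fderiv ℝ ((D q.1.1).J.J i) q.2.1
      ((D q.1.1).J.J i q.2.1 q.2.2) q.2.2) S :=
    (((gDJ.clm_apply kv).clm_apply gJv).neg).add ((gDJ.clm_apply gJv).clm_apply kv)
  have t0 := (gom.clm_apply kv).clm_apply gJv
  have t1 := (((g2.clm_apply kv).clm_apply gJJv).neg).add ((g2.clm_apply gJv).clm_apply gJv)
  have t2 := g1.clm_apply gX
  have t3 := (((kH.clm_apply kv).clm_apply gJJv).neg).add ((kH.clm_apply gJv).clm_apply gJv)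
  have t4 := kξ.clm_apply gX
  refine ((t0.add (t1.add t2)).add (t3.add t4)).congr fun q _ => ?_
  rw [Fv, bt_eq]
  rfl

/-- **POSN** : positivity on the half balls with uniform room for the jet -/
theorem posn (hT : IsOpen T) (hD : JSDat T D) (hu : A.Sm u0) {p₀ : P} (hp₀ : p₀ ∈ T)
    (hpos : ∀ i, ∀ z ∈ (A.e i).target, ∀ v, v ≠ 0 → 0 < bt D u0 i p₀ z v v) :
    ∃ δ > 0, ∀ᶠ p in 𝓝 p₀, ∀ k, ∀ z ∈ KK B k, ∀ (ξ : Cn n →L[ℝ] ℝ)
      (H : Cn n →L[ℝ] Cn n →L[ℝ] ℝ), ‖ξ‖ ≤ δ → ‖H‖ ≤ δ → ∀ v, v ≠ 0 →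
        0 < bt D u0 (B.i k) p z v v + (c2 ((D p).J.J (B.i k)) v v z H +
          c1 ((D p).J.J (B.i k)) v v z ξ) := by
  have h1 : ∀ k : B.κ, ∀ᶠ q in 𝓝 p₀ ×ˢ 𝓝 (0 : (Cn n →L[ℝ] ℝ) × (Cn n →L[ℝ] Cn n →L[ℝ] ℝ)),
      ∀ z ∈ KK B k, ∀ v, v ≠ 0 → 0 < Fv D u0 (B.i k) (q, z, v) := by
    intro k
    refine quad_pos hT (A.e (B.i k)).open_target (KK_compact B k) (KK_sub B k)
      (Fv_cont hT hD hu (B.i k)) (fun q z c v => Fv_smul (B.i k) q z c v) hp₀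
      fun z hz v hv => ?_
    have := hpos (B.i k) z (KK_sub B k hz) v hv
    simpa [Fv] using this
  have h2 := (eventually_all (ι := B.κ)).2 h1
  obtain ⟨N, hN, M, hM, hNM⟩ := mem_prod_iff.1 h2
  obtain ⟨ε, hε, hεM⟩ := Metric.mem_nhds_iff.1 hM
  refine ⟨ε / 2, half_pos hε, mem_of_superset hN fun p hp k z hz ξ H hξ hH v hv => ?_⟩
  have h3 : ((ξ, H) : (Cn n →L[ℝ] ℝ) × (Cn n →L[ℝ] Cn n →L[ℝ] ℝ)) ∈ M := by
    refine hεM ?_
    rw [mem_ball_zero_iff, Prod.norm_mk]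
    exact max_lt (hξ.trans_lt (half_lt_self hε)) (hH.trans_lt (half_lt_self hε))
  exact hNM (mk_mem_prod hp h3) k z hz v hv

/-- the components of a small element of `JJ B` are small -/
theorem JJ_small {x : JJ B} {δ : ℝ} (hx : ‖x‖ ≤ δ) (k : B.κ) (z : Cn n) :
    ‖HF.fn (x k).2.1 z‖ ≤ δ ∧ ‖HF.fn (x k).2.2 z‖ ≤ δ := by
  have h1 : ‖x k‖ ≤ δ := (norm_le_pi_norm x k).trans hx
  have h2 : ‖(x k).2‖ ≤ ‖x k‖ := norm_snd_le (x k : Jet (KK B k))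
  have h3 : ‖(x k).2.1‖ ≤ ‖(x k).2‖ := norm_fst_le (x k).2
  have h4 : ‖(x k).2.2‖ ≤ ‖(x k).2‖ := norm_snd_le (x k).2
  exact ⟨(HF.norm_fn _ z).trans (h3.trans (h2.trans h1)),
    (HF.norm_fn _ z).trans (h4.trans (h2.trans h1))⟩

/-- **POSN** for elements of `JJ B` -/
theorem posn_jet (hT : IsOpen T) (hD : JSDat T D) (hu : A.Sm u0) {p₀ : P} (hp₀ : p₀ ∈ T)
    (hpos : ∀ i, ∀ z ∈ (A.e i).target, ∀ v, v ≠ 0 → 0 < bt D u0 i p₀ z v v) :
    ∃ δ > 0, ∀ᶠ p in 𝓝 p₀, ∀ x : JJ B, ‖x‖ ≤ δ → ∀ k, ∀ z ∈ KK B k, ∀ v, v ≠ 0 →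
        0 < bt D u0 (B.i k) p z v v + (c2 ((D p).J.J (B.i k)) v v z (HF.fn (x k).2.2 z) +
          c1 ((D p).J.J (B.i k)) v v z (HF.fn (x k).2.1 z)) := by
  obtain ⟨δ, hδ, h⟩ := posn B hT hD hu hp₀ hpos
  refine ⟨δ, hδ, h.mono fun p hp x hx k z hz v hv => ?_⟩
  exact hp k z hz _ _ (JJ_small B hx k z).1 (JJ_small B hx k z).2 v hv

/-- the form of the sum `u0 + U` -/
theorem bt_add {i : A.ι} {p : P} {z : Cn n} {U : X → ℝ}
    (hz : z ∈ (A.e i).target) (hu : ContDiffOn ℝ 2 (inC A i u0) (A.e i).target)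
    (hU : ContDiffOn ℝ 2 (inC A i U) (A.e i).target) (a c : Cn n) :
    bt D (fun x => u0 x + U x) i p z a c = bt D u0 i p z a c +
      (c2 ((D p).J.J i) a c z (fderiv ℝ (fderiv ℝ (inC A i U)) z) +
        c1 ((D p).J.J i) a c z (fderiv ℝ (inC A i U) z)) := by
  have ho := (A.e i).open_target
  have hd : ∀ {f : Cn n → ℝ}, ContDiffOn ℝ 2 f (A.e i).target → ∀ y ∈ (A.e i).target,
      DifferentiableAt ℝ f y := fun hf y hy =>
    (hf.contDiffAt (ho.mem_nhds hy)).differentiableAt (by simp)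
  have hd2 : ∀ {f : Cn n → ℝ}, ContDiffOn ℝ 2 f (A.e i).target → ∀ y ∈ (A.e i).target,
      DifferentiableAt ℝ (fderiv ℝ f) y := fun hf y hy =>
    ((hf.fderiv_of_isOpen ho (m := 1) (by norm_num)).contDiffAt
      (ho.mem_nhds hy)).differentiableAt (by simp)
  have e0 : inC A i (fun x => u0 x + U x) = fun y => inC A i u0 y + inC A i U y := rfl
  have e1 : ∀ y ∈ (A.e i).target, fderiv ℝ (inC A i (fun x => u0 x + U x)) y =
      fderiv ℝ (inC A i u0) y + fderiv ℝ (inC A i U) y := by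
    intro y hy
    rw [e0, fderiv_fun_add (hd hu y hy) (hd hU y hy)]
  have e2 : fderiv ℝ (inC A i (fun x => u0 x + U x)) =ᶠ[𝓝 z]
      fun y => fderiv ℝ (inC A i u0) y + fderiv ℝ (inC A i U) y := by
    filter_upwards [ho.mem_nhds hz] with y hy using e1 y hy
  have e3 : fderiv ℝ (fderiv ℝ (inC A i (fun x => u0 x + U x))) z =
      fderiv ℝ (fderiv ℝ (inC A i u0)) z + fderiv ℝ (fderiv ℝ (inC A i U)) z := by
    rw [e2.fderiv_eq, fderiv_fun_add (hd2 hu z hz) (hd2 hU z hz)]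
  rw [bt_eq, bt_eq, e1 z hz, e3, map_add, map_add]
  ring

/-- **POSN** for `C²` functions given by an element of `JJ B` -/
theorem posn_C2 (hT : IsOpen T) (hD : JSDat T D) (hu : A.Sm u0) {p₀ : P} (hp₀ : p₀ ∈ T)
    (hpos : ∀ i, ∀ z ∈ (A.e i).target, ∀ v, v ≠ 0 → 0 < bt D u0 i p₀ z v v) :
    ∃ δ > 0, ∀ᶠ p in 𝓝 p₀, ∀ (x : JJ B) (U : X → ℝ), ‖x‖ ≤ δ →
      (∀ i, ContDiffOn ℝ 2 (inC A i U) (A.e i).target) →
      (∀ k, ∀ z ∈ ball (B.z k) (B.r k / 2), HF.fn (x k).2.1 z = fderiv ℝ (inC A (B.i k) U) z ∧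
        HF.fn (x k).2.2 z = fderiv ℝ (fderiv ℝ (inC A (B.i k) U)) z) →
      ∀ k, ∀ z ∈ ball (B.z k) (B.r k / 2), ∀ v, v ≠ 0 →
        0 < bt D (fun x => u0 x + U x) (B.i k) p z v v := by
  obtain ⟨δ, hδ, h⟩ := posn_jet B hT hD hu hp₀ hpos
  refine ⟨δ, hδ, h.mono fun p hp x U hx hU hxU k z hz v hv => ?_⟩
  have hz' : z ∈ KK B k := ball_subset_closedBall hz
  have hui : ContDiffOn ℝ ∞ (inC A (B.i k) u0) (A.e (B.i k)).target := hu (B.i k)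
  rw [bt_add (KK_sub B k hz') (hui.of_le ENat.LEInfty.out) (hU _), ← (hxU k z hz).1,
    ← (hxU k z hz).2]
  exact hp x hx k z hz' v hv

end form

end

end Crest.Agent.R281.Pn_355
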