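import Crest.Agent.R281.Uq1_250
import Crest.Agent.R260.NN6_900

/-!
# Row 281, UNIQ-R, part 2 (helper250)

* `det_hb`  : real determinant of the real part of a Hermitian form
* `uniqR`   : **uniqueness for the Monge-Ampere equation in real charts**, functions of class `C²`
-/

set_option autoImplicit false
set_option maxSynthPendingDepth 3
set_option linter.unusedSectionVars false

open Set Filter Topology Complex
open scoped ContDiff Matrix ComplexConjugate ComplexOrder InnerProductSpace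

namespace Crest.Agent.R281.Uq_250

open Crest.Agent.R275.Geo Crest.Agent.R275.Core144 Crest.Agent.R275.EDR890
open Crest.Agent.R273.Defs_333 Crest.Agent.R273.YauDefs_635 Crest.Agent.R273
open Crest.Agent.R273.HM_333 Crest.Agent.R273.Hess_333 Crest.Agent.R273.HessB_333
open Crest.Agent.R273.Kah_333
open Crest.Agent.R260.ACM_580 Crest.Agent.R260.NNB_580 Crest.Agent.R281.HkR_835
open Crest.Agent.R281.NefO_476 Crest.Agent.R281.Nef_252 Crest.Agent.R281.KpU_487

noncomputable section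

/-! ### determinants -/

section det

variable {d : ℕ} {κ : Type*} [Fintype κ] [DecidableEq κ]

theorem det_mL (G : Matrix (Fin d) (Fin d) ℂ) :
    LinearMap.det ((mL G : Cn d →L[ℝ] Cn d) : Cn d →ₗ[ℝ] Cn d) = ‖G.det‖ ^ 2 := by
  have h1 : ((mL G : Cn d →L[ℝ] Cn d) : Cn d →ₗ[ℝ] Cn d) =
      (Matrix.toEuclideanLin G).restrictScalars ℝ := rfl
  rw [h1, LinearMap.det_restrictScalars, Matrix.toEuclideanLin_eq_toLin_orthonormal,
    LinearMap.det_toLin, Algebra.norm_complex_apply, Complex.normSq_eq_norm_sq]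

/-- the real part of a Hermitian form in a real basis -/
theorem det_hb {G : Matrix (Fin d) (Fin d) ℂ} (hG : G.IsHermitian)
    (b : Module.Basis κ ℝ (Cn d)) :
    (Matrix.of fun a c => (hb G (b a) (b c)).re).det =
      ‖G.det‖ ^ 2 * (Matrix.gram ℝ (b : κ → Cn d)).det := by
  have h1 : (Matrix.of fun a c => (hb G (b a) (b c)).re) =
      (LinearMap.toMatrix b b ((mL Gᵀ : Cn d →L[ℝ] Cn d) : Cn d →ₗ[ℝ] Cn d))ᵀ *
        Matrix.gram ℝ (b : κ → Cn d) := by
    ext a c
    rw [Matrix.mul_apply, Matrix.of_apply, ← bM_mL G hG]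
    show ⟪mL Gᵀ (b a), b c⟫_ℝ = _
    have h2 : mL Gᵀ (b a) = ∑ k, b.repr (mL Gᵀ (b a)) k • b k := (b.sum_repr _).symm
    rw [h2, sum_inner]
    refine Finset.sum_congr rfl fun k _ => ?_
    rw [Matrix.transpose_apply, LinearMap.toMatrix_apply, real_inner_smul_left]
    rfl
  rw [h1, Matrix.det_mul, Matrix.det_transpose, LinearMap.det_toMatrix, det_mL,
    Matrix.det_transpose]

theorem det_gram_ne (b : Module.Basis κ ℝ (Cn d)) : (Matrix.gram ℝ (b : κ → Cn d)).det ≠ 0 :=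
  Matrix.det_gram_ne_zero_iff_linearIndependent.2 b.linearIndependent

end det

/-! ### the theorem -/

variable {V X : Type} [NormedAddCommGroup V] [NormedSpace ℝ V] [TopologicalSpace X]
  {C : RCh V X} {d : ℕ} {A : Atl d X} {J : AJ C} {hJ : Cx J}

/-- the function in the charts of `A` -/
theorem c2f (hA : Cp (acmJ J hJ) A) {U : X → ℝ}
    (hU : ∀ i, ContDiffOn ℝ 2 (uc C U i) (C.e i).target) : C2f A U := by
  intro j z hz
  obtain ⟨i, hi⟩ := Cmp.exists_mov (C' := ofAtl A) C (j := j) hz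
  have h1 : (fun y => U ((A.e j).symm y)) =ᶠ[𝓝 z] fun y => uc C U i (mt C (ofAtl A) i j y) := by
    filter_upwards [(Cmp.isOpen_mov C (ofAtl A) i j).mem_nhds hi] with y hy
    exact congrArg U ((C.e i).left_inv hy.2).symm
  have h2 : ContDiffAt ℝ 2 (uc C U i) (mt C (ofAtl A) i j z) :=
    (hU i).contDiffAt ((C.e i).open_target.mem_nhds (Cmp.mt_mem hi).1)
  have h3 : ContDiffAt ℝ 2 (mt C (ofAtl A) i j) z :=
    (((cmp_acm hA).s i j).contDiffAt ((Cmp.isOpen_mov C (ofAtl A) i j).mem_nhds hi)).of_le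
      (WithTop.coe_le_coe.2 le_top)
  exact ((h2.comp z h3).congr_of_eventuallyEq h1).contDiffWithinAt

/-- `dd^c` in the charts of `A` -/
theorem ddcF_atl (hA : Cp (acmJ J hJ) A) {U : X → ℝ}
    (hU : ∀ i, ContDiffOn ℝ 2 (uc C U i) (C.e i).target) {i : C.ι} {j : A.ι} {z : Cn d}
    (hz : z ∈ mov C (ofAtl A) i j) (a b : Cn d) :
    ddcF (uc C U i) (J.J i) (mt C (ofAtl A) i j z) (fderiv ℝ (mt C (ofAtl A) i j) z a)
      (fderiv ℝ (mt C (ofAtl A) i j) z b) =
      (I * hb ((4 : ℂ) • cH (fun y => U ((A.e j).symm y)) z) a b).re := by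
  have hO := (Cmp.isOpen_mov C (ofAtl A) i j).mem_nhds hz
  have hzA : z ∈ (A.e j).target := hz.1
  have hc2 := (c2f hA hU j).contDiffAt ((A.e j).open_target.mem_nhds hzA)
  have h1 : (fun y => uc C U i (mt C (ofAtl A) i j y)) =ᶠ[𝓝 z]
      fun y => U ((A.e j).symm y) := by
    filter_upwards [hO] with y hy
    exact congrArg U ((C.e i).left_inv hy.2)
  rw [← ddcF_nat (S := fun _ => iL)
    ((hU i).contDiffAt ((C.e i).open_target.mem_nhds (Cmp.mt_mem hz).1))
    (((J.sm i).contDiffAt ((C.e i).open_target.mem_nhds (Cmp.mt_mem hz).1)).differentiableAt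
      (by simp)) (((cmp_acm hA).s i j).contDiffAt hO) (differentiableAt_const _)
    (by filter_upwards [hO] with y hy v using lin_acm hA hy v) a b]
  have h2 : ddcF (fun y => uc C U i (mt C (ofAtl A) i j y)) (fun _ => iL) z a b =
      ddcF (fun y => U ((A.e j).symm y)) (fun _ => iL) z a b := by
    unfold ddcF
    rw [h1.fderiv_eq, (h1.fderiv (𝕜 := ℝ)).fderiv_eq]
  rw [h2, ddcF_iL hc2]

/-- the form `om` in the charts of `A` -/
theorem t11_atl (hA : Cp (acmJ J hJ) A) {om : F2 C} (hom : T11 J om) (j : A.ι) (z : Cn d)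
    (hz : z ∈ (A.e j).target) (u v : Cn d) :
    ((cmp_acm hA).F om).w j z (I • u) (I • v) = ((cmp_acm hA).F om).w j z u v := by
  obtain ⟨i, hi⟩ := Cmp.exists_mov (C' := ofAtl A) C (j := j) hz
  rw [(cmp_acm hA).F_w om hi, (cmp_acm hA).F_w om hi, lin_acm hA hi, lin_acm hA hi]
  exact hom i _ (Cmp.mt_mem hi).1 _ _

/-- the matrices of `om` in the charts of `A` -/
def omK (hA : Cp (acmJ J hJ) A) {om : F2 C} (hom : T11 J om) : K11 A :=
  ((cmp_acm hA).F om).k11 (t11_atl hA hom)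

theorem omK_w (hA : Cp (acmJ J hJ) A) {om : F2 C} (hom : T11 J om) {i : C.ι} {j : A.ι} {z : Cn d}
    (hz : z ∈ mov C (ofAtl A) i j) (a b : Cn d) :
    om.w i (mt C (ofAtl A) i j z) (fderiv ℝ (mt C (ofAtl A) i j) z a)
      (fderiv ℝ (mt C (ofAtl A) i j) z b) =
      (I * hb ((omK hA hom).g j ((A.e j).symm z)) a b).re := by
  have hzA : z ∈ (A.e j).target := hz.1
  rw [← (cmp_acm hA).F_w om hz, ← K11.f2_w (omK hA hom) hzA]
  have := F2.k11_f2 ((cmp_acm hA).F om) (t11_atl hA hom) hzA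
  exact (congrArg (fun T : Bil (Cn d) => T a b) this).symm

/-- the differential of the change of charts as an equivalence -/
def dmE (hA : Cp (acmJ J hJ) A) {i : C.ι} {j : A.ι} {z : Cn d}
    (hz : z ∈ mov C (ofAtl A) i j) : Cn d ≃ₗ[ℝ] V where
  toFun := fderiv ℝ (mt C (ofAtl A) i j) z
  map_add' := map_add _
  map_smul' := map_smul _
  invFun := fderiv ℝ (mt (ofAtl A) C j i) (mt C (ofAtl A) i j z)
  left_inv v := (cmp_acm hA).d_d hz v
  right_inv v := (cmp_acm hA).d_d' hz v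

/-- positivity and determinant of `om + dd^c U` in the charts of `A` -/
theorem core (hA : Cp (acmJ J hJ) A) {om : F2 C} (hom : T11 J om) {U : X → ℝ}
    (hU : ∀ i, ContDiffOn ℝ 2 (uc C U i) (C.e i).target) {i : C.ι} {j : A.ι} {z : Cn d}
    (hz : z ∈ mov C (ofAtl A) i j)
    (hp : ∀ v, v ≠ 0 → 0 < om.w i (mt C (ofAtl A) i j z) v (J.J i (mt C (ofAtl A) i j z) v) +
      ddcF (uc C U i) (J.J i) (mt C (ofAtl A) i j z) v (J.J i (mt C (ofAtl A) i j z) v))
    {κ : Type*} [Fintype κ] [DecidableEq κ] (b : Module.Basis κ ℝ V) :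
    ((omK hA hom).g j ((A.e j).symm z) +
      (4 : ℂ) • cH (fun y => U ((A.e j).symm y)) z).PosDef ∧
    (Matrix.of fun a c =>
      om.w i (mt C (ofAtl A) i j z) (b a) (J.J i (mt C (ofAtl A) i j z) (b c)) +
      ddcF (uc C U i) (J.J i) (mt C (ofAtl A) i j z) (b a)
        (J.J i (mt C (ofAtl A) i j z) (b c))).det =
      ‖((omK hA hom).g j ((A.e j).symm z) +
        (4 : ℂ) • cH (fun y => U ((A.e j).symm y)) z).det‖ ^ 2 *
      (Matrix.gram ℝ ((b.map (dmE hA hz).symm : Module.Basis κ ℝ (Cn d)) : κ → Cn d)).det := by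
  have hzA : z ∈ (A.e j).target := hz.1
  have hc2 := (c2f hA hU j).contDiffAt ((A.e j).open_target.mem_nhds hzA)
  set G := (omK hA hom).g j ((A.e j).symm z) with hG
  set H := cH (fun y => U ((A.e j).symm y)) z with hH
  have hGh : G.IsHermitian := (omK hA hom).herm j _ ((A.e j).map_target hzA)
  have hHh : H.IsHermitian := by
    ext a b
    rw [Matrix.conjTranspose_apply, hH, cH_eq_hs hc2, cH_eq_hs hc2]
    exact Levi_145.hs_herm hc2 b a
  have hS : (G + (4 : ℂ) • H).IsHermitian := by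
    refine hGh.add ?_
    rw [Matrix.IsHermitian, Matrix.conjTranspose_smul, hHh.eq]
    simp
  -- the form on `V`
  have key : ∀ u v : Cn d,
      om.w i (mt C (ofAtl A) i j z) (fderiv ℝ (mt C (ofAtl A) i j) z u)
        (J.J i (mt C (ofAtl A) i j z) (fderiv ℝ (mt C (ofAtl A) i j) z v)) +
      ddcF (uc C U i) (J.J i) (mt C (ofAtl A) i j z) (fderiv ℝ (mt C (ofAtl A) i j) z u)
        (J.J i (mt C (ofAtl A) i j z) (fderiv ℝ (mt C (ofAtl A) i j) z v)) =
      (hb (G + (4 : ℂ) • H) u v).re := by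
    intro u v
    rw [← lin_acm hA hz, omK_w hA hom hz, ddcF_atl hA hU hz, hb_I_right, hb_I_right, hb_add,
      ← Complex.add_re, ← mul_add, ← mul_add, ← mul_assoc]
    congr 1
    linear_combination (-(hb G u v + hb ((4 : ℂ) • H) u v)) * I_mul_I
  constructor
  · refine posDef_of_hb hS fun v hv => ?_
    rw [← key]
    refine hp _ fun h0 => hv ?_
    have := (dmE hA hz).injective (a₁ := v) (a₂ := 0) (by rw [map_zero]; exact h0)
    exact this
  · rw [← det_hb hS]
    congr 1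
    ext a c
    rw [Matrix.of_apply, Matrix.of_apply, ← key]
    have e : ∀ k, fderiv ℝ (mt C (ofAtl A) i j) z ((b.map (dmE hA hz).symm) k) = b k := fun k => by
      rw [Module.Basis.map_apply]
      exact (dmE hA hz).apply_symm_apply (b k)
    rw [e, e]

/-- **UNIQ-R.** -/
theorem uniqR [FiniteDimensional ℝ V] [CompactSpace X] [T2Space X] [ConnectedSpace X] {n : ℕ}
    (hn : Module.finrank ℝ V = 2 * n) (J : AJ C) (hJ : Cx J) (om : F2 C) (hom : T11 J om)
    {κ : Type*} [Fintype κ] [DecidableEq κ] (b : Module.Basis κ ℝ V) (r : C.ι → V → ℝ)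
    (hr : ∀ i, ∀ z ∈ (C.e i).target, r i z ≠ 0) {U u : X → ℝ}
    (hU : ∀ i, ContDiffOn ℝ 2 (uc C U i) (C.e i).target)
    (hu : ∀ i, ContDiffOn ℝ 2 (uc C u i) (C.e i).target)
    (hpU : ∀ i, ∀ z ∈ (C.e i).target, ∀ v, v ≠ 0 →
      0 < om.w i z v (J.J i z v) + ddcF (uc C U i) (J.J i) z v (J.J i z v))
    (hpu : ∀ i, ∀ z ∈ (C.e i).target, ∀ v, v ≠ 0 →
      0 < om.w i z v (J.J i z v) + ddcF (uc C u i) (J.J i) z v (J.J i z v))
    {k₁ k₂ : ℝ}
    (hdU : ∀ i, ∀ z ∈ (C.e i).target, (Matrix.of fun a c => om.w i z (b a) (J.J i z (b c)) +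
      ddcF (uc C U i) (J.J i) z (b a) (J.J i z (b c))).det = k₁ * r i z)
    (hdu : ∀ i, ∀ z ∈ (C.e i).target, (Matrix.of fun a c => om.w i z (b a) (J.J i z (b c)) +
      ddcF (uc C u i) (J.J i) z (b a) (J.J i z (b c))).det = k₂ * r i z) :
    k₁ = k₂ ∧ ∃ c : ℝ, ∀ x, U x - u x = c := by
  obtain ⟨A, -, -, -, -, -, hA⟩ := exists_atl (Crest.Agent.R260.NN6_900.nnat n V hn) (acmJ_int J hJ) (κ := Unit)
    (fun _ => (univ : Set X)) (fun _ => isOpen_univ) (fun x => ⟨(), mem_univ x⟩)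
  set K := omK hA hom with hK
  have c4 : ∀ {W : X → ℝ}, (∀ i, ContDiffOn ℝ 2 (uc C W i) (C.e i).target) →
      C2f A (fun x => 4 * W x) := fun hW j => contDiffOn_const.mul (c2f hA hW j)
  have h4 : ∀ {W : X → ℝ}, (∀ i, ContDiffOn ℝ 2 (uc C W i) (C.e i).target) → ∀ j,
      ∀ x ∈ (A.e j).source, hsf A (fun x => 4 * W x) j x =
        (4 : ℂ) • cH (fun y => W ((A.e j).symm y)) (A.e j x) := by
    intro W hW j x hx
    rw [(c4 hW).hsf_eq j hx, cH_const_mul 4 ((c2f hA hW j).contDiffAt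
      ((A.e j).open_target.mem_nhds ((A.e j).map_source hx)))]
    push_cast
    rfl
  -- data at a point
  have pt : ∀ {W : X → ℝ} {k : ℝ}, (∀ i, ContDiffOn ℝ 2 (uc C W i) (C.e i).target) →
      (∀ i, ∀ z ∈ (C.e i).target, ∀ v, v ≠ 0 →
        0 < om.w i z v (J.J i z v) + ddcF (uc C W i) (J.J i) z v (J.J i z v)) →
      (∀ i, ∀ z ∈ (C.e i).target, (Matrix.of fun a c => om.w i z (b a) (J.J i z (b c)) +
        ddcF (uc C W i) (J.J i) z (b a) (J.J i z (b c))).det = k * r i z) →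
      ∀ (i : C.ι) (j : A.ι), ∀ x ∈ (A.e j).source, ∀ hi : A.e j x ∈ mov C (ofAtl A) i j,
        (K.g j x + hsf A (fun x => 4 * W x) j x).PosDef ∧
        k * r i (mt C (ofAtl A) i j (A.e j x)) =
          ‖(K.g j x + hsf A (fun x => 4 * W x) j x).det‖ ^ 2 *
          (Matrix.gram ℝ ((b.map (dmE hA hi).symm : Module.Basis κ ℝ (Cn n)) : κ → Cn n)).det := by
    intro W k hW hp hd i j x hx hi
    have h := core hA hom hW hi (hp i _ (Cmp.mt_mem hi).1) b
    rw [hd i _ (Cmp.mt_mem hi).1, (A.e j).left_inv hx, ← h4 hW j x hx] at h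
    exact h
  have hex : ∀ (j : A.ι), ∀ x ∈ (A.e j).source, ∃ i, A.e j x ∈ mov C (ofAtl A) i j :=
    fun j x hx => Cmp.exists_mov (C' := ofAtl A) C (j := j) ((A.e j).map_source hx)
  -- ratio of the determinants
  have hpos : ∀ {W : X → ℝ} {j : A.ι} {x : X}, (K.g j x + hsf A (fun x => 4 * W x) j x).PosDef →
      0 < ‖(K.g j x + hsf A (fun x => 4 * W x) j x).det‖ := fun h =>
    norm_pos_iff.2 h.det_pos.ne'
  have hdet : ∀ j, ∀ x ∈ (A.e j).source, (K.g j x + hsf A (fun x => 4 * U x) j x).det =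
      ((Real.sqrt (k₁ / k₂) : ℝ) : ℂ) * (K.g j x + hsf A (fun x => 4 * u x) j x).det := by
    intro j x hx
    obtain ⟨i, hi⟩ := hex j x hx
    obtain ⟨p1, e1⟩ := pt hU hpU hdU i j x hx hi
    obtain ⟨p2, e2⟩ := pt hu hpu hdu i j x hx hi
    have hg := det_gram_ne (b.map (dmE hA hi).symm)
    set D := (Matrix.gram ℝ ((b.map (dmE hA hi).symm : Module.Basis κ ℝ (Cn n)) : κ → Cn n)).det
    set R := r i (mt C (ofAtl A) i j (A.e j x)) with hR
    have hR0 : R ≠ 0 := hr i _ (Cmp.mt_mem hi).1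
    have n1 := hpos p1
    have n2 := hpos p2
    set a1 := ‖(K.g j x + hsf A (fun x => 4 * U x) j x).det‖ with ha1
    set a2 := ‖(K.g j x + hsf A (fun x => 4 * u x) j x).det‖ with ha2
    have hk2 : k₂ ≠ 0 := by
      rintro rfl
      rw [zero_mul] at e2
      exact (mul_ne_zero (pow_ne_zero 2 n2.ne') hg) e2.symm
    have hratio : k₁ / k₂ = (a1 / a2) ^ 2 := by
      rw [div_pow, div_eq_div_iff hk2 (pow_ne_zero 2 n2.ne')]
      have : (k₁ * a2 ^ 2 - a1 ^ 2 * k₂) * (R * D) = 0 := by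
        linear_combination (a2 ^ 2 * D) * e1 - (a1 ^ 2 * D) * e2
      rcases mul_eq_zero.1 this with h | h
      · linarith
      · exact absurd h (mul_ne_zero hR0 hg)
    rw [hratio, Real.sqrt_sq (by positivity)]
    have q1 : (K.g j x + hsf A (fun x => 4 * U x) j x).det = (a1 : ℂ) := by
      have := p1.det_pos
      rw [ha1]
      exact (Complex.eq_coe_norm_of_nonneg this.le)
    have q2 : (K.g j x + hsf A (fun x => 4 * u x) j x).det = (a2 : ℂ) := by
      have := p2.det_pos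
      rw [ha2]
      exact (Complex.eq_coe_norm_of_nonneg this.le)
    rw [q1, q2]
    push_cast
    have : (a2 : ℂ) ≠ 0 := by exact_mod_cast n2.ne'
    field_simp
  obtain ⟨h1, k, hk⟩ := unique_gen K.g (fun i a b => (K.sm i a b).continuousOn) (c4 hU) (c4 hu)
    (fun j x hx => by
      obtain ⟨i, hi⟩ := hex j x hx
      exact (pt hU hpU hdU i j x hx hi).1)
    (fun j x hx => by
      obtain ⟨i, hi⟩ := hex j x hx
      exact (pt hu hpu hdu i j x hx hi).1) hdet
  refine ⟨?_, k / 4, fun x => by linarith [hk x]⟩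
  have h2 : k₁ / k₂ = 1 := by
    have := Real.sqrt_eq_one.1 h1
    exact this
  have hk2 : k₂ ≠ 0 := by
    rintro rfl
    rw [div_zero] at h2
    exact zero_ne_one h2
  field_simp at h2
  exact h2

end

end Crest.Agent.R281.Uq_250
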