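import Crest.Agent.R281.Yv4_900
import Crest.Agent.R281.Uq2_250

/-!
# Row 281, YAU-VAR (helper900), part 5: the literal statements of the leaves

`ClosStmt` (680), `LinSt` (833), `TSt` (250), `PosnSt` (355), `GlobSt`, `TrSt` (476)
-/

set_option autoImplicit false
set_option maxSynthPendingDepth 3
set_option linter.unusedSectionVars false

open Set Filter Topology Metric
open scoped ContDiff

namespace Crest.Agent.R281.Yv_900

open Crest.Agent.R275.Geo Crest.Agent.R275.Core144 Crest.Agent.R275.EDR890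
open Crest.Agent.R273.Defs_333 Crest.Agent.R273.Kah_333
open Crest.Agent.R273.YauDefs_635 Crest.Agent.R273.SchF_152 Crest.Agent.R273.SchG_152
open Crest.Agent.R273.SchH_152
open Crest.Agent.R260.ACM_580 Crest.Agent.R281.HkR_835 Crest.Agent.R281.NefO_476
open Crest.Agent.R281.Nef_252 Crest.Agent.R281.Hjs_680 Crest.Agent.R281.Tt_476

noncomputable section

variable {n : ℕ} {X : Type} [TopologicalSpace X] {A : Atl n X}

/-- **(L5) CLOS**: elements of the closure of the jets are the jets of functions of class `C²` -/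
def ClosSt (B : Cb A) : Prop :=
  ∀ x ∈ (LinearMap.range (jj B)).topologicalClosure, ∃ U : X → ℝ,
    (∀ i, ContDiffOn ℝ 2 (inC A i U) (A.e i).target) ∧
    ∀ k, (∀ z ∈ KK B k, HF.fn (x k).1 z = inC A (B.i k) U z) ∧
      (∀ z ∈ ball (B.z k) (B.r k / 2), HF.fn (x k).2.1 z = fderiv ℝ (inC A (B.i k) U) z ∧
        HF.fn (x k).2.2 z = fderiv ℝ (fderiv ℝ (inC A (B.i k) U)) z)

/-- **(L3) LIN**: the linear theory of a Kähler metric in the norms of `JJ`, `HH` -/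
def LinSt (B : Cb A) (K : Kah A) (x1 : X) : Prop :=
  (∃ C : ℝ, ∀ f : SmE A, ∃ (w : SmE A) (m : ℝ), IsLap (gi K) w (fun x => 8⁻¹ * (f.1 x + m)) ∧
    ‖jj B w‖ ≤ C * ‖hh B f‖ ∧ |m| ≤ C * ‖hh B f‖) ∧
  ∀ (w : SmE A) (m : ℝ), IsLap (gi K) w (fun _ => 8⁻¹ * m) → w.1 x1 = 0 → jj B w = 0 ∧ m = 0

section fam

variable {ι : Type} [Fintype ι] [DecidableEq ι] (b : Module.Basis ι ℝ (Cn n)) (B : Cb A)
  {P : Type} [NormedAddCommGroup P] [NormedSpace ℝ P] (D : P → Dat (ofAtl A)) (u0 : X → ℝ)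
  (k0 : ℝ) (T : Set P) (p0 : P)

/-- **(L4) T-FORMULA**: the derivative of the operator at `p0` -/
def TSt : Prop := ∃ K : Kah A, ∀ w f : SmE A, IsLap (gi K) w f.1 →
  fderiv ℝ (GG b B D u0 k0 p0) 0 (jj B w) = hh B ((8 : ℝ) • f)

/-- hypotheses of (L4) -/
structure TH : Prop where
  hT : IsOpen T
  hp : p0 ∈ T
  hD : JSDat T D
  hr : ∀ p ∈ T, ∀ i, ∀ z ∈ (A.e i).target, k0 * (D p).r.r i z ≠ 0
  sol : SolMA b (D p0) u0
  eq : ∀ i, ∀ z ∈ (A.e i).target, (MM b D u0 i p0 z 0 0).det = k0 * (D p0).r.r i z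
  hJ : ∀ i, ∀ z ∈ (A.e i).target, ∀ v, (D p0).J.J i z v = Complex.I • v

/-- **(L6) POSN**: positivity for small jets, near `p0` -/
def PosnSt : Prop := ∃ N ∈ 𝓝 p0, ∃ δ > 0, ∀ p ∈ N, ∀ k, ∀ z ∈ KK B k,
  ∀ (ξ : Cn n →L[ℝ] ℝ) (H : Cn n →L[ℝ] Cn n →L[ℝ] ℝ), ‖ξ‖ ≤ δ → ‖H‖ ≤ δ → ∀ v : Cn n, v ≠ 0 →
    0 < bt D u0 (B.i k) p z v v + (c2 ((D p).J.J (B.i k)) v v z H +
      c1 ((D p).J.J (B.i k)) v v z ξ)

/-- **(L2) GLOB**: the values of the operator on smooth functions are smooth functions -/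
def GlobSt : Prop := ∀ p ∈ T, ∀ f : SmE A, GG b B D u0 k0 p (jj B f) ∈ LinearMap.range (hh B)

end fam

/-- **(L2') TR**: forms, positivity and determinants of `om + dd^c U`, `U` of class `C²`, only need
to be checked in the open half balls -/
def TrSt {ι : Type} [Fintype ι] [DecidableEq ι] (b : Module.Basis ι ℝ (Cn n)) (B : Cb A)
    (D0 : Dat (ofAtl A)) (U : X → ℝ) : Prop :=
  (∀ i, ContDiffOn ℝ 2 (inC A i U) (A.e i).target) →
  ((∀ k, ∀ z ∈ ball (B.z k) (B.r k / 2), ∀ v : Cn n, v ≠ 0 →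
    0 < bt (fun _ : Unit => D0) U (B.i k) () z v v) →
    ∀ i, ∀ z ∈ (A.e i).target, ∀ v : Cn n, v ≠ 0 → 0 < bt (fun _ : Unit => D0) U i () z v v) ∧
  ∀ c : ℝ, (∀ k, ∀ z ∈ ball (B.z k) (B.r k / 2),
    (Matrix.of fun a c => bt (fun _ : Unit => D0) U (B.i k) () z (b a) (b c)).det =
      c * D0.r.r (B.i k) z) →
    ∀ i, ∀ z ∈ (A.e i).target,
      (Matrix.of fun a c => bt (fun _ : Unit => D0) U i () z (b a) (b c)).det = c * D0.r.r i z

end

end Crest.Agent.R281.Yv_900
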