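import Crest.Agent.R281.Pn1_355
import Crest.Agent.R281.Yv5_900

/-!
# Row 281, YAU-VAR, leaf (L6) POSN, part 2 (helper355): the literal form `PosnSt` of Yv5_900
-/

set_option autoImplicit false
set_option maxSynthPendingDepth 3
set_option linter.unusedSectionVars false

open Set Filter Topology Metric
open scoped ContDiff

namespace Crest.Agent.R281.Pn_355

open Crest.Agent.R275.Geo Crest.Agent.R275.Core144 Crest.Agent.R275.EDR890
open Crest.Agent.R273.YauDefs_635 Crest.Agent.R273.SchF_152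
open Crest.Agent.R260.ACM_580 Crest.Agent.R281.HkR_835 Crest.Agent.R281.NefO_476
open Crest.Agent.R281.Hjs_680 Crest.Agent.R281.Tt_476 Crest.Agent.R281.Yv_900

noncomputable section

variable {n : ℕ} {X : Type} [TopologicalSpace X] {A : Atl n X} (B : Cb A)
  {P : Type} [NormedAddCommGroup P] [NormedSpace ℝ P] {D : P → Dat (ofAtl A)} {u0 : X → ℝ}
  {T : Set P} {p0 : P}

/-- **(L6)**, literal form of Yv5_900 -/
theorem posnSt (hT : IsOpen T) (hp : p0 ∈ T) (hD : JSDat T D) (hu : A.Sm u0)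
    (hpos : ∀ i, ∀ z ∈ (A.e i).target, ∀ v : Cn n, v ≠ 0 → 0 < bt D u0 i p0 z v v) :
    PosnSt B D u0 p0 := by
  obtain ⟨δ, hδ, h⟩ := posn B hT hD hu hp hpos
  exact ⟨_, h, δ, hδ, fun p hp' => hp'⟩

/-- **(L6)** from a solution `u0` of the Monge-Ampère equation at `p0` -/
theorem posnSt_sol {ι : Type} [Fintype ι] [DecidableEq ι] {b : Module.Basis ι ℝ (Cn n)}
    (hT : IsOpen T) (hp : p0 ∈ T) (hD : JSDat T D) (hs : SolMA b (D p0) u0) :
    PosnSt B D u0 p0 :=
  posnSt B hT hp hD hs.sm ((bt_pos_iff hs.sm p0).2 hs.pos)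

end

end Crest.Agent.R281.Pn_355
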