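import Crest.Agent.R281.Jen1_563

/-!
# R281, DIV 6, (J0) of helper664 #7270 (helper967), part 1: cut-offs at one point

Calculus of `D v`, `lap` (Jen1_563) for smooth functions on `ℂ`, `gs f = |∇ f|²`,
`exists_pt`: for every point `a`, neighbourhood `W` and `δ > 0` a smooth `p ≥ 0` with compact support in `W`,
`p ≥ 1` near `a`, `∫ |Δ p| ≤ δ`, `∫ |∇ p|² ≤ δ`.
-/

set_option autoImplicit false

open MeasureTheory Set Filter Topology Metric
open scoped Real ContDiff

noncomputable section
namespace Crest.Agent.R281.Pol_967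

open Crest.Agent.R281.Jen_563

theorem two_le : (2 : WithTop ℕ∞) ≤ ∞ := by
  have h : ((2 : ℕ∞) : WithTop ℕ∞) ≤ ((⊤ : ℕ∞) : WithTop ℕ∞) := WithTop.coe_le_coe.2 le_top
  exact h

/-- `|∇ f|²` -/
def gs (f : ℂ → ℝ) (y : ℂ) : ℝ := D 1 f y ^ 2 + D Complex.I f y ^ 2

theorem gs_nonneg (f : ℂ → ℝ) (y : ℂ) : 0 ≤ gs f y := by unfold gs; positivity

section calculus

variable {f g : ℂ → ℝ}

theorem smooth_D (hf : ContDiff ℝ ∞ f) (v : ℂ) : ContDiff ℝ ∞ (D v f) := by
  have : ContDiff ℝ ∞ (fun z => fderiv ℝ f z v) :=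
    (hf.fderiv_right (m := ∞) (by simp)).clm_apply contDiff_const
  exact this

theorem smooth_lap (hf : ContDiff ℝ ∞ f) : ContDiff ℝ ∞ (lap f) :=
  (smooth_D (smooth_D hf 1) 1).add (smooth_D (smooth_D hf Complex.I) Complex.I)

theorem smooth_gs (hf : ContDiff ℝ ∞ f) : ContDiff ℝ ∞ (gs f) :=
  ((smooth_D hf 1).pow 2).add ((smooth_D hf Complex.I).pow 2)

theorem D_mulAt {y : ℂ} (hf : DifferentiableAt ℝ f y) (hg : DifferentiableAt ℝ g y) (v : ℂ) :
    D v (fun z => f z * g z) y = f y * D v g y + D v f y * g y := by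
  unfold D
  have h := (hf.hasFDerivAt.mul hg.hasFDerivAt).fderiv
  have h' : fderiv ℝ (fun z => f z * g z) y = f y • fderiv ℝ g y + g y • fderiv ℝ f y := h
  rw [h']
  simp
  ring

theorem D_addAt {y : ℂ} (hf : DifferentiableAt ℝ f y) (hg : DifferentiableAt ℝ g y) (v : ℂ) :
    D v (fun z => f z + g z) y = D v f y + D v g y := by
  unfold D
  have h : fderiv ℝ (fun z => f z + g z) y = fderiv ℝ f y + fderiv ℝ g y :=
    (hf.hasFDerivAt.add hg.hasFDerivAt).fderiv
  rw [h]
  simp

theorem D_congr {y : ℂ} (h : f =ᶠ[𝓝 y] g) (v : ℂ) : D v f y = D v g y := by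
  unfold D
  rw [h.fderiv_eq]

theorem D_congr_ev {y : ℂ} (h : f =ᶠ[𝓝 y] g) (v : ℂ) : D v f =ᶠ[𝓝 y] D v g := by
  filter_upwards [h.eventually_nhds] with z hz
  exact D_congr hz v

theorem lap_congr {y : ℂ} (h : f =ᶠ[𝓝 y] g) : lap f y = lap g y := by
  unfold lap
  rw [D_congr (D_congr_ev h 1) 1, D_congr (D_congr_ev h Complex.I) Complex.I]

theorem gs_congr {y : ℂ} (h : f =ᶠ[𝓝 y] g) : gs f y = gs g y := by
  unfold gs
  rw [D_congr h 1, D_congr h Complex.I]

theorem D_const (c : ℝ) (v y : ℂ) : D v (fun _ => c) y = 0 := by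
  unfold D
  simp

theorem lap_const (c : ℝ) (y : ℂ) : lap (fun _ => c) y = 0 := by
  unfold lap
  have h : ∀ v : ℂ, D v (fun _ : ℂ => c) = fun _ => 0 := fun v => funext fun z => D_const c v z
  rw [h, h, D_const, D_const]
  simp

/-- second derivatives of a product -/
theorem lap_mulAt {U : Set ℂ} (hU : IsOpen U) (hf : ContDiffOn ℝ ∞ f U) (hg : ContDiffOn ℝ ∞ g U)
    {y : ℂ} (hy : y ∈ U) :
    lap (fun z => f z * g z) y = f y * lap g y +
      2 * (D 1 f y * D 1 g y + D Complex.I f y * D Complex.I g y) + lap f y * g y := by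
  have dd : ∀ {φ : ℂ → ℝ}, ContDiffOn ℝ ∞ φ U → ∀ z ∈ U, DifferentiableAt ℝ φ z :=
    fun hφ z hz => (hφ.contDiffAt (hU.mem_nhds hz)).differentiableAt (by simp)
  have d2 : ∀ {φ : ℂ → ℝ}, ContDiffOn ℝ ∞ φ U → ∀ v, ∀ z ∈ U, DifferentiableAt ℝ (D v φ) z :=
    fun hφ v z hz => D_differentiableAt ((hφ.contDiffAt (hU.mem_nhds hz)).of_le two_le) v
  have key : ∀ v : ℂ, D v (D v (fun z => f z * g z)) y =
      f y * D v (D v g) y + 2 * (D v f y * D v g y) + D v (D v f) y * g y := by
    intro v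
    have e : D v (fun z => f z * g z) =ᶠ[𝓝 y] fun z => f z * D v g z + D v f z * g z := by
      filter_upwards [hU.mem_nhds hy] with z hz
      exact D_mulAt (dd hf z hz) (dd hg z hz) v
    have m1 : DifferentiableAt ℝ (fun z => f z * D v g z) y := (dd hf y hy).mul (d2 hg v y hy)
    have m2 : DifferentiableAt ℝ (fun z => D v f z * g z) y := (d2 hf v y hy).mul (dd hg y hy)
    rw [D_congr e v, D_addAt m1 m2 v,
      D_mulAt (dd hf y hy) (d2 hg v y hy), D_mulAt (d2 hf v y hy) (dd hg y hy)]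
    ring
  unfold lap
  rw [key 1, key Complex.I]
  ring

end calculus

section quad

variable (a : ℂ) (r : ℝ)

/-- `|y - a|² + r²` -/
def s (y : ℂ) : ℝ := (y.re - a.re) ^ 2 + (y.im - a.im) ^ 2 + r ^ 2

theorem s_eq (y : ℂ) : s a r y = ‖y - a‖ ^ 2 + r ^ 2 := by
  unfold s
  rw [Complex.sq_norm, Complex.normSq_apply]
  simp
  ring

theorem smooth_re : ContDiff ℝ ∞ (fun y : ℂ => y.re) := Complex.reCLM.contDiff
theorem smooth_im : ContDiff ℝ ∞ (fun y : ℂ => y.im) := Complex.imCLM.contDiff

theorem smooth_s : ContDiff ℝ ∞ (s a r) := by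
  unfold s
  exact (((smooth_re.sub contDiff_const).pow 2).add ((smooth_im.sub contDiff_const).pow 2)).add
    contDiff_const

/-- linear function `2 Re (conj v (y - a))` -/
def l (v y : ℂ) : ℝ := 2 * ((y.re - a.re) * v.re + (y.im - a.im) * v.im)

theorem hasF_re (y : ℂ) : HasFDerivAt (fun y : ℂ => y.re) Complex.reCLM y := Complex.reCLM.hasFDerivAt
theorem hasF_im (y : ℂ) : HasFDerivAt (fun y : ℂ => y.im) Complex.imCLM y := Complex.imCLM.hasFDerivAt

theorem D_s (v y : ℂ) : D v (s a r) y = l a v y := by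
  unfold D s
  have h1 := ((hasF_re y).sub_const a.re).pow 2
  have h2 := ((hasF_im y).sub_const a.im).pow 2
  have h : fderiv ℝ (fun y : ℂ => (y.re - a.re) ^ 2 + (y.im - a.im) ^ 2 + r ^ 2) y = _ :=
    ((h1.add h2).add_const (r ^ 2)).fderiv
  rw [h]
  unfold l
  simp
  ring

theorem smooth_l (v : ℂ) : ContDiff ℝ ∞ (l a v) := by
  unfold l
  exact contDiff_const.mul (((smooth_re.sub contDiff_const).mul contDiff_const).add
    ((smooth_im.sub contDiff_const).mul contDiff_const))

theorem D_l (v w y : ℂ) : D w (l a v) y = 2 * (w.re * v.re + w.im * v.im) := by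
  unfold D l
  have h1 := ((hasF_re y).sub_const a.re).mul_const v.re
  have h2 := ((hasF_im y).sub_const a.im).mul_const v.im
  have h : fderiv ℝ (fun y : ℂ => 2 * ((y.re - a.re) * v.re + (y.im - a.im) * v.im)) y = _ :=
    ((h1.add h2).const_mul 2).fderiv
  rw [h]
  simp
  ring

variable {a r}

theorem s_pos (hr : 0 < r) (y : ℂ) : 0 < s a r y := by
  unfold s; positivity

theorem D_log (hr : 0 < r) (v y : ℂ) : D v (fun z => Real.log (s a r z)) y = l a v y / s a r y := by
  have h1 : HasFDerivAt (s a r) (fderiv ℝ (s a r) y) y :=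
    ((smooth_s a r).differentiable (by simp) y).hasFDerivAt
  have h := (h1.log (s_pos hr y).ne').fderiv
  unfold D
  rw [h]
  have := D_s a r v y
  unfold D at this
  simp [this]
  field_simp

theorem DD_log (hr : 0 < r) (v y : ℂ) : D v (D v (fun z => Real.log (s a r z))) y =
    2 * (v.re ^ 2 + v.im ^ 2) / s a r y - (l a v y) ^ 2 / (s a r y) ^ 2 := by
  have e : D v (fun z => Real.log (s a r z)) = fun z => l a v z * (s a r z)⁻¹ := by
    funext z; rw [D_log hr]; rfl
  have hi : HasFDerivAt (fun z => (s a r z)⁻¹) (-(s a r y ^ 2)⁻¹ • fderiv ℝ (s a r) y) y := by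
    have h1 : HasFDerivAt (s a r) (fderiv ℝ (s a r) y) y :=
      ((smooth_s a r).differentiable (by simp) y).hasFDerivAt
    exact (hasDerivAt_inv (s_pos (a := a) hr y).ne').comp_hasFDerivAt y h1
  have hl : DifferentiableAt ℝ (l a v) y := (smooth_l a v).differentiable (by simp) y
  rw [e, D_mulAt hl hi.differentiableAt]
  have h2 : D v (fun z => (s a r z)⁻¹) y = -(s a r y ^ 2)⁻¹ * l a v y := by
    unfold D
    rw [hi.fderiv]
    have := D_s a r v y
    unfold D at this
    simp [this]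
  rw [h2, D_l]
  have := (s_pos (a := a) hr y).ne'
  field_simp
  ring

/-- `Δ log (|y-a|² + r²) = 4 r² / (|y-a|²+r²)²` -/
theorem lap_log (hr : 0 < r) (y : ℂ) :
    lap (fun z => Real.log (s a r z)) y = 4 * r ^ 2 / (s a r y) ^ 2 := by
  unfold lap
  rw [DD_log hr, DD_log hr]
  have h := (s_pos (a := a) hr y).ne'
  simp only [Complex.one_re, Complex.one_im, Complex.I_re, Complex.I_im, l]
  field_simp
  unfold s
  ring

end quad

section integrals

variable {f g : ℂ → ℝ}

theorem cpt_D (hc : HasCompactSupport f) (v : ℂ) : HasCompactSupport (D v f) :=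
  IsCompact.of_isClosed_subset hc (isClosed_tsupport _) (tsupport_D f v)

theorem D_zero_off {y : ℂ} (hy : y ∉ tsupport f) (v : ℂ) : D v f y = 0 :=
  image_eq_zero_of_notMem_tsupport fun h => hy (tsupport_D f v h)

theorem lap_zero_off {y : ℂ} (hy : y ∉ tsupport f) : lap f y = 0 := by
  unfold lap
  rw [D_zero_off (fun h => hy (tsupport_D f 1 h)) 1,
    D_zero_off (fun h => hy (tsupport_D f Complex.I h)) Complex.I, add_zero]

theorem gs_zero_off {y : ℂ} (hy : y ∉ tsupport f) : gs f y = 0 := by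
  unfold gs
  rw [D_zero_off hy, D_zero_off hy]
  ring

theorem tsupport_lap : tsupport (lap f) ⊆ tsupport f :=
  closure_minimal (fun y hy => by
    by_contra h
    exact hy (lap_zero_off h)) (isClosed_tsupport _)

theorem tsupport_gs : tsupport (gs f) ⊆ tsupport f :=
  closure_minimal (fun y hy => by
    by_contra h
    exact hy (gs_zero_off h)) (isClosed_tsupport _)

theorem cpt_lap (hc : HasCompactSupport f) : HasCompactSupport (lap f) :=
  IsCompact.of_isClosed_subset hc (isClosed_tsupport _) tsupport_lap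

theorem cpt_gs (hc : HasCompactSupport f) : HasCompactSupport (gs f) :=
  IsCompact.of_isClosed_subset hc (isClosed_tsupport _) tsupport_gs

theorem int_lap (hf : ContDiff ℝ ∞ f) (hc : HasCompactSupport f) : Integrable (lap f) :=
  (smooth_lap hf).continuous.integrable_of_hasCompactSupport (cpt_lap hc)

theorem int_gs (hf : ContDiff ℝ ∞ f) (hc : HasCompactSupport f) : Integrable (gs f) :=
  (smooth_gs hf).continuous.integrable_of_hasCompactSupport (cpt_gs hc)

theorem int_f (hf : ContDiff ℝ ∞ f) (hc : HasCompactSupport f) : Integrable f :=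
  hf.continuous.integrable_of_hasCompactSupport hc

/-- `∫ |∇ f|² = - ∫ f Δ f` -/
theorem int_gs_eq (hf : ContDiff ℝ ∞ f) (hc : HasCompactSupport f) :
    ∫ y, gs f y = - ∫ y, f y * lap f y := by
  have key : ∀ v : ℂ, ∫ y, D v f y ^ 2 = - ∫ y, D v (D v f) y * f y := by
    intro v
    have h := ibp (U := univ) isOpen_univ (F := D v f) (ψ := f)
      (((smooth_D hf v).of_le (by simp)).contDiffOn) (hf.of_le (by simp)) hc (subset_univ _) v
    rw [← h]
    congr 1
    funext y
    ring
  have i1 : ∀ v : ℂ, Integrable (fun y => D v f y ^ 2) := fun v =>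
    (((smooth_D hf v).pow 2).continuous).integrable_of_hasCompactSupport
      ((cpt_D hc v).comp_left (g := fun t : ℝ => t ^ 2) (by simp))
  have i2 : ∀ v : ℂ, Integrable (fun y => D v (D v f) y * f y) := fun v =>
    ((smooth_D (smooth_D hf v) v).mul hf).continuous.integrable_of_hasCompactSupport
      (hc.mul_left)
  unfold gs
  rw [integral_add (i1 1) (i1 Complex.I), key 1, key Complex.I, ← neg_add,
    ← integral_add (i2 1) (i2 Complex.I)]
  congr 2
  funext y
  unfold lap
  ring

theorem int_gs_le (hf : ContDiff ℝ ∞ f) (hc : HasCompactSupport f) {B : ℝ} (hB : ∀ y, |f y| ≤ B) :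
    ∫ y, gs f y ≤ B * ∫ y, |lap f y| := by
  rw [int_gs_eq hf hc, ← integral_neg, ← integral_const_mul]
  refine integral_mono ?_ ?_ fun y => ?_
  · exact ((hf.mul (smooth_lap hf)).continuous.integrable_of_hasCompactSupport (hc.mul_right)).neg
  · exact (int_lap hf hc).abs.const_mul B
  · calc -(f y * lap f y) ≤ |f y * lap f y| := neg_le_abs _
      _ = |f y| * |lap f y| := abs_mul _ _
      _ ≤ B * |lap f y| := mul_le_mul_of_nonneg_right (hB y) (abs_nonneg _)

/-- `Δ (|y-a|²) = 4` -/
theorem lap_s (a : ℂ) (r : ℝ) (y : ℂ) : lap (s a r) y = 4 := by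
  unfold lap
  have h : ∀ v, D v (s a r) = l a v := fun v => funext fun z => D_s a r v z
  rw [h, h, D_l, D_l]
  simp
  norm_num

/-- a function with compact support in a disc of radius `R` is controlled by its Laplacian -/
theorem int_le_lap (hf : ContDiff ℝ ∞ f) (hc : HasCompactSupport f) {a : ℂ} {R : ℝ}
    (hs : tsupport f ⊆ closedBall a R) :
    ∫ y, f y ≤ R ^ 2 / 4 * ∫ y, |lap f y| := by
  have h := green (U := univ) isOpen_univ (G := s a 0) (ψ := f)
    (((smooth_s a 0).of_le two_le).contDiffOn) (hf.of_le two_le) hc (subset_univ _)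
  have h4 : ∫ y, lap (s a 0) y * f y = 4 * ∫ y, f y := by
    rw [← integral_const_mul]
    congr 1
    funext y
    rw [lap_s]
  rw [h4] at h
  have h5 : ∫ y, s a 0 y * lap f y ≤ R ^ 2 * ∫ y, |lap f y| := by
    rw [← integral_const_mul]
    refine integral_mono ?_ ?_ fun y => ?_
    · exact (((smooth_s a 0).mul (smooth_lap hf)).continuous.integrable_of_hasCompactSupport
        ((cpt_lap hc).mul_left))
    · exact (int_lap hf hc).abs.const_mul _
    · show s a 0 y * lap f y ≤ R ^ 2 * |lap f y|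
      by_cases hy : y ∈ tsupport f
      · have h1 : ‖y - a‖ ≤ R := by simpa [dist_eq_norm] using hs hy
        have h2 : s a 0 y ≤ R ^ 2 := by
          rw [s_eq]
          have := pow_le_pow_left₀ (norm_nonneg (y - a)) h1 2
          linarith [this, sq_nonneg (0 : ℝ)]
        have h3 : 0 ≤ s a 0 y := by rw [s_eq]; positivity
        calc s a 0 y * lap f y ≤ s a 0 y * |lap f y| := mul_le_mul_of_nonneg_left (le_abs_self _) h3
          _ ≤ R ^ 2 * |lap f y| := mul_le_mul_of_nonneg_right h2 (abs_nonneg _)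
      · rw [lap_zero_off hy]
        simp
  linarith

end integrals

end Crest.Agent.R281.Pol_967
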