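import Crest.Agent.R281.Pol1_967

/-!
# R281, DIV 6, (J0) of helper664 #7270 (helper967), part 2: one point

`exists_pt`: for every point `a`, neighbourhood `W` and `δ > 0` a smooth `p` with compact support in `W`,
`0 ≤ p ≤ 2`, `p ≥ 1` near `a`, `∫ |Δ p| ≤ δ`, `∫ |∇ p|² ≤ δ`.
-/

set_option autoImplicit false

open MeasureTheory Set Filter Topology Metric
open scoped Real ContDiff

noncomputable section
namespace Crest.Agent.R281.Pol_967

open Crest.Agent.R281.Jen_563

/-- the logarithmic potential `(2/T) log (1/(|y-a|² + e^{-T}))` -/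
def u (a : ℂ) (T : ℝ) (y : ℂ) : ℝ := -(2 / T) * Real.log (s a (Real.exp (-T / 2)) y)

section pot

variable {a : ℂ} {T : ℝ}

theorem exp_sq (T : ℝ) : Real.exp (-T / 2) ^ 2 = Real.exp (-T) := by
  rw [← Real.exp_nat_mul]
  congr 1
  push_cast
  ring

theorem smooth_u : ContDiff ℝ ∞ (u a T) := by
  unfold u
  exact contDiff_const.mul ((smooth_s a _).log fun y => (s_pos (Real.exp_pos _) y).ne')

theorem D_const_mul (c : ℝ) {f : ℂ → ℝ} {y : ℂ} (hf : DifferentiableAt ℝ f y) (v : ℂ) :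
    D v (fun z => c * f z) y = c * D v f y := by
  have := D_mulAt (f := fun _ => c) (differentiableAt_const c) hf v
  rw [this, D_const]
  ring

theorem D_u (v y : ℂ) : D v (u a T) y = -(2 / T) * (l a v y / s a (Real.exp (-T / 2)) y) := by
  have hd : DifferentiableAt ℝ (fun z => Real.log (s a (Real.exp (-T / 2)) z)) y :=
    (((smooth_s a _).log fun y => (s_pos (Real.exp_pos _) y).ne').differentiable (by simp)) y
  have h := D_const_mul (-(2 / T)) hd v
  rw [D_log (Real.exp_pos _)] at h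
  exact h

theorem lap_const_mul (c : ℝ) {f : ℂ → ℝ} (hf : ContDiff ℝ ∞ f) (y : ℂ) :
    lap (fun z => c * f z) y = c * lap f y := by
  have h := lap_mulAt (f := fun _ => c) isOpen_univ contDiffOn_const hf.contDiffOn (mem_univ y)
  rw [h, lap_const, D_const, D_const]
  ring

theorem lap_u (y : ℂ) : lap (u a T) y =
    -(2 / T) * (4 * Real.exp (-T / 2) ^ 2 / (s a (Real.exp (-T / 2)) y) ^ 2) := by
  have h := lap_const_mul (-(2 / T)) (f := fun z => Real.log (s a (Real.exp (-T / 2)) z))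
    ((smooth_s a _).log fun y => (s_pos (Real.exp_pos _) y).ne') y
  rw [lap_log (Real.exp_pos _)] at h
  exact h

theorem lap_u_nonpos (hT : 0 < T) (y : ℂ) : lap (u a T) y ≤ 0 := by
  rw [lap_u]
  have h : 0 ≤ 4 * Real.exp (-T / 2) ^ 2 / (s a (Real.exp (-T / 2)) y) ^ 2 := by positivity
  have h2 : 0 ≤ 2 / T := by positivity
  nlinarith [mul_nonneg h2 h]

theorem u_le (hT : 0 < T) (y : ℂ) : u a T y ≤ 2 := by
  unfold u
  have h1 : Real.exp (-T) ≤ s a (Real.exp (-T / 2)) y := by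
    rw [s_eq, exp_sq]
    nlinarith [sq_nonneg ‖y - a‖]
  have h2 : -T ≤ Real.log (s a (Real.exp (-T / 2)) y) := by
    have := Real.log_le_log (Real.exp_pos _) h1
    rwa [Real.log_exp] at this
  have h3 : (2 / T) * (-T) ≤ (2 / T) * Real.log (s a (Real.exp (-T / 2)) y) :=
    mul_le_mul_of_nonneg_left h2 (by positivity)
  have h4 : (2 / T) * (-T) = -2 := by field_simp
  linarith

theorem exp_half_lt (hT : 2 ≤ T) : Real.exp (-T / 2) < 1 / 2 := by
  have h1 : Real.exp (-T / 2) ≤ Real.exp (-1) := Real.exp_le_exp.2 (by linarith)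
  have h2 := Real.exp_neg_one_lt_d9
  linarith

theorem exp_lt (hT : 2 ≤ T) : Real.exp (-T) < 1 / 4 := by
  rw [← exp_sq]
  have h1 := exp_half_lt hT
  have h2 : 0 < Real.exp (-T / 2) := Real.exp_pos _
  nlinarith

theorem u_nonneg (hT : 2 ≤ T) {y : ℂ} (hy : ‖y - a‖ ≤ 1 / 2) : 0 ≤ u a T y := by
  unfold u
  have h1 : s a (Real.exp (-T / 2)) y ≤ 1 := by
    rw [s_eq, exp_sq]
    have := exp_lt hT
    nlinarith [norm_nonneg (y - a)]
  have h2 : Real.log (s a (Real.exp (-T / 2)) y) ≤ 0 :=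
    Real.log_nonpos (s_pos (Real.exp_pos _) y).le h1
  have h3 : 0 ≤ 2 / T := by positivity
  nlinarith [mul_nonneg h3 (neg_nonneg.2 h2)]

theorem one_le_u (hT : 2 ≤ T) {y : ℂ} (hy : ‖y - a‖ ≤ Real.exp (-T / 2)) : 1 ≤ u a T y := by
  unfold u
  have h1 : s a (Real.exp (-T / 2)) y ≤ 2 * Real.exp (-T) := by
    rw [s_eq, exp_sq]
    have := pow_le_pow_left₀ (norm_nonneg (y - a)) hy 2
    rw [exp_sq] at this
    linarith
  have h2 : Real.log (s a (Real.exp (-T / 2)) y) ≤ Real.log 2 + -T := by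
    rw [← Real.log_exp (-T), ← Real.log_mul (by norm_num) (Real.exp_pos _).ne']
    simpa using Real.log_le_log (s_pos (Real.exp_pos _) y) h1
  have h3 : Real.log 2 < 1 := by have := Real.log_two_lt_d9; linarith
  have h5 : Real.log (s a (Real.exp (-T / 2)) y) ≤ -(T / 2) := by linarith
  have h6 : (2 / T) * Real.log (s a (Real.exp (-T / 2)) y) ≤ (2 / T) * (-(T / 2)) :=
    mul_le_mul_of_nonneg_left h5 (by positivity)
  have h4 : (2 / T) * (-(T / 2)) = -1 := by field_simp
  linarith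

theorem abs_u_le (hT : 2 ≤ T) {ρ : ℝ} (hρ : 0 < ρ) {y : ℂ} (h0 : ρ / 2 ≤ ‖y - a‖)
    (h1 : ‖y - a‖ ≤ 1 / 2) : |u a T y| ≤ 2 * Real.log (4 / ρ ^ 2) / T := by
  rw [abs_of_nonneg (u_nonneg hT h1)]
  unfold u
  have h2 : ρ ^ 2 / 4 ≤ s a (Real.exp (-T / 2)) y := by
    rw [s_eq]
    have := pow_le_pow_left₀ (by positivity) h0 2
    have h3 : (ρ / 2) ^ 2 = ρ ^ 2 / 4 := by ring
    nlinarith [sq_nonneg (Real.exp (-T / 2))]
  have h3 : Real.log (ρ ^ 2 / 4) ≤ Real.log (s a (Real.exp (-T / 2)) y) :=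
    Real.log_le_log (by positivity) h2
  have h4 : Real.log (ρ ^ 2 / 4) = -Real.log (4 / ρ ^ 2) := by
    rw [← Real.log_inv]
    congr 1
    field_simp
  have h5 : (2 / T) * Real.log (ρ ^ 2 / 4) ≤ (2 / T) * Real.log (s a (Real.exp (-T / 2)) y) :=
    mul_le_mul_of_nonneg_left h3 (by positivity)
  rw [h4] at h5
  have h6 : 2 * Real.log (4 / ρ ^ 2) / T = (2 / T) * Real.log (4 / ρ ^ 2) := by ring
  linarith

theorem abs_l_le {v : ℂ} (hv : ‖v‖ ≤ 1) (y : ℂ) : |l a v y| ≤ 2 * ‖y - a‖ := by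
  have h : l a v y = 2 * ((y - a) * (starRingEnd ℂ) v).re := by
    unfold l
    simp
  rw [h, abs_mul]
  have h1 : |((y - a) * (starRingEnd ℂ) v).re| ≤ ‖y - a‖ * ‖v‖ := by
    refine (Complex.abs_re_le_norm _).trans ?_
    rw [norm_mul]
    simp
  have h2 : ‖y - a‖ * ‖v‖ ≤ ‖y - a‖ := mul_le_of_le_one_right (norm_nonneg _) hv
  have h3 : |(2 : ℝ)| = 2 := by norm_num
  rw [h3]
  linarith

theorem abs_D_u_le (hT : 2 ≤ T) {ρ : ℝ} (hρ : 0 < ρ) {v y : ℂ} (hv : ‖v‖ ≤ 1)
    (h0 : ρ / 2 ≤ ‖y - a‖) : |D v (u a T) y| ≤ 8 / ρ / T := by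
  have hn : 0 < ‖y - a‖ := lt_of_lt_of_le (by positivity) h0
  rw [D_u, abs_mul, abs_div, abs_neg, abs_of_nonneg (show (0 : ℝ) ≤ 2 / T by positivity),
    abs_of_pos (s_pos (Real.exp_pos _) y)]
  have h1 : ‖y - a‖ ^ 2 ≤ s a (Real.exp (-T / 2)) y := by
    rw [s_eq]; nlinarith [sq_nonneg (Real.exp (-T / 2))]
  have h2 : |l a v y| / s a (Real.exp (-T / 2)) y ≤ 4 / ρ := by
    rw [div_le_div_iff₀ (s_pos (Real.exp_pos _) y) hρ]
    have h3 := abs_l_le (a := a) hv y
    have h4 : ‖y - a‖ * ρ ≤ 2 * ‖y - a‖ ^ 2 := by nlinarith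
    have h5 : |l a v y| * ρ ≤ 2 * ‖y - a‖ * ρ := mul_le_mul_of_nonneg_right h3 hρ.le
    linarith
  calc 2 / T * (|l a v y| / s a (Real.exp (-T / 2)) y) ≤ 2 / T * (4 / ρ) :=
        mul_le_mul_of_nonneg_left h2 (by positivity)
    _ = 8 / ρ / T := by ring

end pot

/-- **one point** -/
theorem exists_pt (a : ℂ) {W : Set ℂ} (hW : IsOpen W) (ha : a ∈ W) {δ : ℝ} (hδ : 0 < δ) :
    ∃ p : ℂ → ℝ, ContDiff ℝ ∞ p ∧ HasCompactSupport p ∧ tsupport p ⊆ W ∧ (∀ y, 0 ≤ p y) ∧
      (∀ y, p y ≤ 2) ∧ (∀ᶠ y in 𝓝 a, 1 ≤ p y) ∧ ∫ y, |lap p y| ≤ δ ∧ ∫ y, gs p y ≤ δ := by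
  obtain ⟨ρ₀, hρ₀, hρW⟩ := Metric.isOpen_iff.1 hW a ha
  set ρ : ℝ := min (ρ₀ / 2) (1 / 2) with hρd
  have hρ : 0 < ρ := by positivity
  have hρ2 : ρ ≤ 1 / 2 := min_le_right _ _
  have hρW' : closedBall a ρ ⊆ W :=
    (closedBall_subset_ball (lt_of_le_of_lt (min_le_left _ _) (by linarith))).trans hρW
  let χ : ContDiffBump a := ⟨ρ / 2, ρ, by positivity, by linarith⟩
  have hχ : ContDiff ℝ ∞ (χ : ℂ → ℝ) := χ.contDiff
  have hχc : HasCompactSupport (χ : ℂ → ℝ) := χ.hasCompactSupport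
  have hχt : tsupport (χ : ℂ → ℝ) = closedBall a ρ := χ.tsupport_eq
  have hχ0 : ∀ y, 0 ≤ χ y := fun y => χ.nonneg
  have hχ1 : ∀ y, χ y ≤ 1 := fun y => χ.le_one
  -- bounds
  obtain ⟨A1, hA1⟩ := (cpt_D hχc 1).exists_bound_of_continuous (smooth_D hχ 1).continuous
  obtain ⟨A2, hA2⟩ := (cpt_D hχc Complex.I).exists_bound_of_continuous
    (smooth_D hχ Complex.I).continuous
  obtain ⟨A3, hA3⟩ := (cpt_lap hχc).exists_bound_of_continuous (smooth_lap hχ).continuous
  set A : ℝ := max A1 (max A2 A3) with hA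
  have hA1' : ∀ y, |D 1 χ y| ≤ A := fun y => (hA1 y).trans (le_max_left _ _)
  have hA2' : ∀ y, |D Complex.I χ y| ≤ A := fun y =>
    (hA2 y).trans ((le_max_left _ _).trans (le_max_right _ _))
  have hA3' : ∀ y, |lap χ y| ≤ A := fun y =>
    (hA3 y).trans ((le_max_right _ _).trans (le_max_right _ _))
  have hA0 : 0 ≤ A := (abs_nonneg _).trans (hA1' a)
  set B : ℝ := Real.log (4 / ρ ^ 2) with hB
  have hB0 : 0 ≤ B := Real.log_nonneg (by
    rw [le_div_iff₀ (by positivity)]
    nlinarith)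
  set V : ℝ := volume.real (closedBall a ρ) with hV
  have hV0 : 0 ≤ V := measureReal_nonneg
  set C : ℝ := (32 * A / ρ + 2 * A * B) + 2 * A * B with hC
  have hC0 : 0 ≤ C := by positivity
  -- the parameter
  set T : ℝ := max 2 (2 * (C * V) / δ) with hTd
  have hT2 : 2 ≤ T := le_max_left _ _
  have hT0 : 0 < T := by linarith
  have hTδ : 2 * (C * V / T) ≤ δ := by
    have h1 : 2 * (C * V) / δ ≤ T := le_max_right _ _
    rw [div_le_iff₀ hδ] at h1
    have h2 : 2 * (C * V / T) = 2 * (C * V) / T := by ring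
    rw [h2, div_le_iff₀ hT0]
    linarith
  have hu := smooth_u (a := a) (T := T)
  set p : ℂ → ℝ := fun y => χ y * u a T y with hp
  have hps : ContDiff ℝ ∞ p := hχ.mul hu
  have hpc : HasCompactSupport p := hχc.mul_right
  have hpt : tsupport p ⊆ closedBall a ρ := by
    rw [← hχt]
    exact tsupport_mul_subset_left
  have near0 : ∀ y, y ∈ closedBall a ρ → ‖y - a‖ ≤ 1 / 2 := fun y hy => by
    have : ‖y - a‖ ≤ ρ := by simpa [dist_eq_norm] using hy
    linarith
  have hp0 : ∀ y, 0 ≤ p y := by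
    intro y
    by_cases hy : y ∈ closedBall a ρ
    · exact mul_nonneg (hχ0 y) (u_nonneg hT2 (near0 y hy))
    · have : χ y = 0 := image_eq_zero_of_notMem_tsupport (by rw [hχt]; exact hy)
      simp [hp, this]
  have hp2 : ∀ y, p y ≤ 2 := by
    intro y
    by_cases hy : y ∈ closedBall a ρ
    · calc χ y * u a T y ≤ 1 * u a T y :=
            mul_le_mul_of_nonneg_right (hχ1 y) (u_nonneg hT2 (near0 y hy))
        _ ≤ 2 := by rw [one_mul]; exact u_le hT0 y
    · have : χ y = 0 := image_eq_zero_of_notMem_tsupport (by rw [hχt]; exact hy)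
      simp [hp, this]
  have hp1 : ∀ᶠ y in 𝓝 a, 1 ≤ p y := by
    have h1 : ∀ᶠ y in 𝓝 a, y ∈ closedBall a (ρ / 2) :=
      closedBall_mem_nhds a (by positivity)
    have h2 : ∀ᶠ y in 𝓝 a, y ∈ closedBall a (Real.exp (-T / 2)) :=
      closedBall_mem_nhds a (Real.exp_pos _)
    filter_upwards [h1, h2] with y hy1 hy2
    have h3 : χ y = 1 := χ.one_of_mem_closedBall hy1
    have h4 : ‖y - a‖ ≤ Real.exp (-T / 2) := by simpa [dist_eq_norm] using hy2
    simp only [hp, h3, one_mul]
    exact one_le_u hT2 h4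
  -- the annulus
  have ann : ∀ y, |2 * (D 1 χ y * D 1 (u a T) y + D Complex.I χ y * D Complex.I (u a T) y) +
      lap χ y * u a T y| ≤ (closedBall a ρ).indicator (fun _ => (32 * A / ρ + 2 * A * B) / T) y := by
    intro y
    by_cases hy : y ∈ closedBall a ρ
    · rw [indicator_of_mem hy]
      by_cases hy2 : y ∈ ball a (ρ / 2)
      · have e : (χ : ℂ → ℝ) =ᶠ[𝓝 y] fun _ => 1 := by
          filter_upwards [isOpen_ball.mem_nhds hy2] with z hz
          exact χ.one_of_mem_closedBall (ball_subset_closedBall hz)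
        rw [D_congr e, D_congr e, lap_congr e, D_const, D_const, lap_const]
        simp only [zero_mul, add_zero, mul_zero, abs_zero]
        positivity
      · have h0 : ρ / 2 ≤ ‖y - a‖ := by
          by_contra h
          exact hy2 (by simpa [dist_eq_norm] using not_le.1 h)
        have k1 := abs_D_u_le (a := a) hT2 hρ (v := 1) (by simp) h0
        have k2 := abs_D_u_le (a := a) hT2 hρ (v := Complex.I) (by simp) h0
        have k3 := abs_u_le (a := a) hT2 hρ h0 (near0 y hy)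
        have m1 : |D 1 χ y * D 1 (u a T) y| ≤ A * (8 / ρ / T) := by
          rw [abs_mul]; exact mul_le_mul (hA1' y) k1 (abs_nonneg _) hA0
        have m2 : |D Complex.I χ y * D Complex.I (u a T) y| ≤ A * (8 / ρ / T) := by
          rw [abs_mul]; exact mul_le_mul (hA2' y) k2 (abs_nonneg _) hA0
        have m3 : |lap χ y * u a T y| ≤ A * (2 * B / T) := by
          rw [abs_mul]; exact mul_le_mul (hA3' y) k3 (abs_nonneg _) hA0
        have e : (32 * A / ρ + 2 * A * B) / T =
            2 * (A * (8 / ρ / T) + A * (8 / ρ / T)) + A * (2 * B / T) := by ring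
        rw [e]
        refine (abs_add_le _ _).trans (add_le_add ?_ m3)
        rw [abs_mul, abs_of_pos (show (0 : ℝ) < 2 by norm_num)]
        exact mul_le_mul_of_nonneg_left ((abs_add_le _ _).trans (add_le_add m1 m2)) (by norm_num)
    · have hy' : y ∉ tsupport (χ : ℂ → ℝ) := by rw [hχt]; exact hy
      rw [D_zero_off hy', D_zero_off hy', lap_zero_off hy', indicator_of_notMem hy]
      simp
  have hfin : volume (closedBall a ρ) ≠ ⊤ := measure_closedBall_lt_top.ne
  have iind : ∀ c : ℝ, Integrable ((closedBall a ρ).indicator fun _ : ℂ => c) := fun c =>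
    (integrable_indicator_iff measurableSet_closedBall).2
      (integrableOn_const hfin)
  have cind : ∀ c : ℝ, ∫ y, (closedBall a ρ).indicator (fun _ : ℂ => c) y = V * c := fun c => by
    rw [integral_indicator measurableSet_closedBall, setIntegral_const, smul_eq_mul]
  have ilu : Integrable fun y => lap (u a T) y * χ y :=
    ((smooth_lap hu).mul hχ).continuous.integrable_of_hasCompactSupport hχc.mul_left
  have ilun : Integrable fun y => -(lap (u a T) y * χ y) := ilu.neg
  -- the main term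
  have hmain : -∫ y, lap (u a T) y * χ y ≤ V * (2 * A * B / T) := by
    rw [green (U := univ) isOpen_univ (G := u a T) (ψ := χ) ((hu.of_le two_le).contDiffOn)
      (hχ.of_le two_le) hχc (subset_univ _), ← integral_neg, ← cind]
    refine integral_mono ?_ (iind _) fun y => ?_
    · exact ((hu.mul (smooth_lap hχ)).continuous.integrable_of_hasCompactSupport
        (cpt_lap hχc).mul_left).neg
    · show -(u a T y * lap χ y) ≤ _
      by_cases hy : y ∈ closedBall a ρ
      · rw [indicator_of_mem hy]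
        by_cases hy2 : y ∈ ball a (ρ / 2)
        · have e : (χ : ℂ → ℝ) =ᶠ[𝓝 y] fun _ => 1 := by
            filter_upwards [isOpen_ball.mem_nhds hy2] with z hz
            exact χ.one_of_mem_closedBall (ball_subset_closedBall hz)
          rw [lap_congr e, lap_const]
          simp only [mul_zero, neg_zero]
          positivity
        · have h0 : ρ / 2 ≤ ‖y - a‖ := by
            by_contra h
            exact hy2 (by simpa [dist_eq_norm] using not_le.1 h)
          have k3 := abs_u_le (a := a) hT2 hρ h0 (near0 y hy)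
          calc -(u a T y * lap χ y) ≤ |u a T y * lap χ y| := neg_le_abs _
            _ = |u a T y| * |lap χ y| := abs_mul _ _
            _ ≤ (2 * B / T) * A := mul_le_mul k3 (hA3' y) (abs_nonneg _) (by positivity)
            _ = 2 * A * B / T := by ring
      · have hy' : y ∉ tsupport (χ : ℂ → ℝ) := by rw [hχt]; exact hy
        rw [lap_zero_off hy', indicator_of_notMem hy]
        simp
  have hlap : ∫ y, |lap p y| ≤ C * V / T := by
    have hpt' : ∀ y, |lap p y| ≤ -(lap (u a T) y * χ y) +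
        (closedBall a ρ).indicator (fun _ => (32 * A / ρ + 2 * A * B) / T) y := by
      intro y
      have h1 : lap p y = χ y * lap (u a T) y +
          (2 * (D 1 χ y * D 1 (u a T) y + D Complex.I χ y * D Complex.I (u a T) y) +
            lap χ y * u a T y) := by
        rw [hp, lap_mulAt isOpen_univ hχ.contDiffOn hu.contDiffOn (mem_univ y)]
        ring
      rw [h1]
      refine (abs_add_le _ _).trans (add_le_add ?_ (ann y))
      rw [abs_mul, abs_of_nonneg (hχ0 y), abs_of_nonpos (lap_u_nonpos hT0 y)]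
      apply le_of_eq
      ring
    calc ∫ y, |lap p y| ≤ ∫ y, (-(lap (u a T) y * χ y) +
        (closedBall a ρ).indicator (fun _ => (32 * A / ρ + 2 * A * B) / T) y) :=
          integral_mono (int_lap hps hpc).abs (ilun.add (iind _)) hpt'
      _ = (-∫ y, lap (u a T) y * χ y) + V * ((32 * A / ρ + 2 * A * B) / T) := by
          rw [integral_add ilun (iind _), cind, integral_neg]
      _ ≤ V * (2 * A * B / T) + V * ((32 * A / ρ + 2 * A * B) / T) := by linarith
      _ = C * V / T := by rw [hC]; ring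
  refine ⟨p, hps, hpc, hpt.trans hρW', hp0, hp2, hp1, ?_, ?_⟩
  · have : 0 ≤ C * V / T := by positivity
    linarith
  · have h := int_gs_le hps hpc (B := 2) fun y => by rw [abs_of_nonneg (hp0 y)]; exact hp2 y
    linarith

end Crest.Agent.R281.Pol_967
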