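import Mathlib

/-!
# R281 (S0424), GLUE-23 (second owner helper989): primality of the generic sheet polynomial

`R` a domain, `F` a monic polynomial in `Z` over `R[y_1..y_n]`.  If for "enough" specialisations
`e : R →+* ℂ` (every `r ≠ 0` in `R` survives in one of them) the polynomial `F^e` over `ℂ[y]` is
irreducible, then `F` is prime.
-/

set_option autoImplicit false
set_option linter.unusedSectionVars false

open Polynomial

namespace Crest.Agent.R281.Pri1_989

variable {n : ℕ} {R : Type*} [CommRing R] [IsDomain R]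

/-- clearing denominators in `K[y]` -/
theorem clear_mv (P : MvPolynomial (Fin n) (FractionRing R)) : ∃ b : R, b ≠ 0 ∧
    ∃ P' : MvPolynomial (Fin n) R, MvPolynomial.map (algebraMap R (FractionRing R)) P' =
      MvPolynomial.C (algebraMap R (FractionRing R) b) * P := by
  induction P using MvPolynomial.induction_on with
  | C a =>
    obtain ⟨r, s, hs, rfl⟩ := IsFractionRing.div_surjective (A := R) a
    have hs0 : s ≠ 0 := nonZeroDivisors.ne_zero hs
    refine ⟨s, hs0, MvPolynomial.C r, ?_⟩
    rw [MvPolynomial.map_C, ← MvPolynomial.C_mul]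
    congr 1
    have : algebraMap R (FractionRing R) s ≠ 0 := by
      rw [Ne, FaithfulSMul.algebraMap_eq_zero_iff]; exact hs0
    field_simp
  | add P Q hP hQ =>
    obtain ⟨b, hb, P', hP'⟩ := hP
    obtain ⟨c, hc, Q', hQ'⟩ := hQ
    refine ⟨b * c, mul_ne_zero hb hc, MvPolynomial.C c * P' + MvPolynomial.C b * Q', ?_⟩
    rw [map_add, map_mul, map_mul, MvPolynomial.map_C, MvPolynomial.map_C, hP', hQ', map_mul,
      MvPolynomial.C_mul]
    ring
  | mul_X P i hP =>
    obtain ⟨b, hb, P', hP'⟩ := hP
    refine ⟨b, hb, P' * MvPolynomial.X i, ?_⟩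
    rw [map_mul, MvPolynomial.map_X, hP']
    ring

/-- clearing denominators in `K[y][Z]` -/
theorem clear_poly (P : (MvPolynomial (Fin n) (FractionRing R))[X]) : ∃ b : R, b ≠ 0 ∧
    ∃ P' : (MvPolynomial (Fin n) R)[X],
      P'.map (MvPolynomial.map (algebraMap R (FractionRing R))) =
        C (MvPolynomial.C (algebraMap R (FractionRing R) b)) * P := by
  induction P using Polynomial.induction_on' with
  | add P Q hP hQ =>
    obtain ⟨b, hb, P', hP'⟩ := hP
    obtain ⟨c, hc, Q', hQ'⟩ := hQ
    refine ⟨b * c, mul_ne_zero hb hc, C (MvPolynomial.C c) * P' + C (MvPolynomial.C b) * Q', ?_⟩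
    rw [Polynomial.map_add, Polynomial.map_mul, Polynomial.map_mul, map_C, map_C,
      MvPolynomial.map_C, MvPolynomial.map_C, hP', hQ', map_mul, MvPolynomial.C_mul, C_mul]
    ring
  | monomial k a =>
    obtain ⟨b, hb, a', ha'⟩ := clear_mv a
    refine ⟨b, hb, monomial k a', ?_⟩
    rw [map_monomial, ha', C_mul_monomial]

/-- the specialisation of a polynomial over `R[y]` -/
noncomputable abbrev spc (e : R →+* ℂ) (F : (MvPolynomial (Fin n) R)[X]) :
    (MvPolynomial (Fin n) ℂ)[X] := F.map (MvPolynomial.map e)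

theorem map_inj : Function.Injective
    (MvPolynomial.map (σ := Fin n) (algebraMap R (FractionRing R))) :=
  MvPolynomial.map_injective _ (IsFractionRing.injective R (FractionRing R))

theorem coeff_top {G : (MvPolynomial (Fin n) (FractionRing R))[X]} (hG : G.Monic) {b : R}
    {G' : (MvPolynomial (Fin n) R)[X]}
    (h : G'.map (MvPolynomial.map (algebraMap R (FractionRing R))) =
        C (MvPolynomial.C (algebraMap R (FractionRing R) b)) * G) :
    G'.coeff G.natDegree = MvPolynomial.C b := by
  apply map_inj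
  have h1 := congrArg (fun P => P.coeff G.natDegree) h
  simp only [coeff_map, coeff_C_mul, hG.coeff_natDegree, mul_one] at h1
  rw [h1, MvPolynomial.map_C]

theorem natDegree_pos_spc {G : (MvPolynomial (Fin n) (FractionRing R))[X]} (hG : G.Monic) {b : R}
    (hd : 0 < G.natDegree) {G' : (MvPolynomial (Fin n) R)[X]}
    (h : G'.map (MvPolynomial.map (algebraMap R (FractionRing R))) =
        C (MvPolynomial.C (algebraMap R (FractionRing R) b)) * G) {e : R →+* ℂ} (he : e b ≠ 0) :
    ¬ IsUnit (spc e G') := by
  intro hu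
  have h1 : (spc e G').natDegree = 0 := natDegree_eq_zero_of_isUnit hu
  have h2 : (spc e G').coeff G.natDegree = MvPolynomial.C (e b) := by
    rw [coeff_map, coeff_top hG h, MvPolynomial.map_C]
  have h3 : (spc e G').coeff G.natDegree = 0 :=
    coeff_eq_zero_of_natDegree_lt (by rw [h1]; exact hd)
  rw [h3] at h2
  exact he (by simpa using h2.symm)

/-- irreducibility over `Frac(R)[y]` -/
theorem irreducible_frac {F : (MvPolynomial (Fin n) R)[X]} (hm : F.Monic) {S : Set (R →+* ℂ)}
    (hS : ∀ r : R, r ≠ 0 → ∃ e ∈ S, e r ≠ 0) (hF : ∀ e ∈ S, Irreducible (spc e F)) :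
    Irreducible (F.map (MvPolynomial.map (algebraMap R (FractionRing R)))) := by
  have hmK := hm.map (MvPolynomial.map (σ := Fin n) (algebraMap R (FractionRing R)))
  rw [hmK.irreducible_iff_natDegree']
  refine ⟨fun h1 => ?_, fun G H hG hH hGH hmem => ?_⟩
  · have h2 : F = 1 := by
      apply Polynomial.map_injective _ (map_inj (R := R) (n := n))
      rw [h1, Polynomial.map_one]
    obtain ⟨e, he, -⟩ := hS 1 one_ne_zero
    have h3 : Irreducible (F.map (MvPolynomial.map e)) := hF e he
    rw [h2, Polynomial.map_one] at h3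
    exact h3.not_isUnit isUnit_one
  · rw [Finset.mem_Ioc] at hmem
    have hdeg : G.natDegree + H.natDegree =
        (F.map (MvPolynomial.map (algebraMap R (FractionRing R)))).natDegree := by
      rw [← hGH, hG.natDegree_mul hH]
    have hGd : 0 < G.natDegree := by omega
    obtain ⟨b, hb, G', hG'⟩ := clear_poly G
    obtain ⟨c, hc, H', hH'⟩ := clear_poly H
    have h1 : G' * H' = C (MvPolynomial.C (b * c)) * F := by
      apply Polynomial.map_injective _ (map_inj (R := R) (n := n))
      rw [Polynomial.map_mul, Polynomial.map_mul, hG', hH', ← hGH, map_C, MvPolynomial.map_C,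
        map_mul, MvPolynomial.C_mul, C_mul]
      ring
    obtain ⟨e, heS, he⟩ := hS (b * c) (mul_ne_zero hb hc)
    rw [map_mul] at he
    have heb : e b ≠ 0 := left_ne_zero_of_mul he
    have hec : e c ≠ 0 := right_ne_zero_of_mul he
    have h2 : spc e G' * spc e H' = C (MvPolynomial.C (e (b * c))) * spc e F := by
      rw [← Polynomial.map_mul, h1, Polynomial.map_mul, map_C, MvPolynomial.map_C]
    have hu : IsUnit (C (MvPolynomial.C (σ := Fin n) (e (b * c))) : (MvPolynomial (Fin n) ℂ)[X]) := by
      have : e (b * c) ≠ 0 := by rw [map_mul]; exact he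
      exact ((Ne.isUnit this).map MvPolynomial.C).map C
    have h3 : Irreducible (spc e G' * spc e H') := by
      rw [h2]
      exact (irreducible_isUnit_mul hu).2 (hF e heS)
    rcases h3.isUnit_or_isUnit rfl with h4 | h4
    · exact natDegree_pos_spc hG hGd hG' heb h4
    · exact natDegree_pos_spc hH hmem.1 hH' hec h4

/-- **(P1)** primality over `R[y]` -/
theorem prime_of_spc {F : (MvPolynomial (Fin n) R)[X]} (hm : F.Monic) {S : Set (R →+* ℂ)}
    (hS : ∀ r : R, r ≠ 0 → ∃ e ∈ S, e r ≠ 0) (hF : ∀ e ∈ S, Irreducible (spc e F)) :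
    Prime F := by
  set φ := MvPolynomial.map (σ := Fin n) (algebraMap R (FractionRing R)) with hφ
  have hp : Prime (F.map φ) := (irreducible_frac hm hS hF).prime
  have hinj : Function.Injective φ := map_inj
  refine ⟨hm.ne_zero, fun hu => hp.not_isUnit (hu.map (mapRingHom φ)), fun G H hGH => ?_⟩
  have h1 : F.map φ ∣ G.map φ * H.map φ := by
    rw [← Polynomial.map_mul]
    exact Polynomial.map_dvd φ hGH
  rcases hp.dvd_or_dvd h1 with h2 | h2
  · exact Or.inl ((Polynomial.map_dvd_map φ hinj hm).1 h2)
  · exact Or.inr ((Polynomial.map_dvd_map φ hinj hm).1 h2)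

end Crest.Agent.R281.Pri1_989
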