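import Crest.Agent.R281.Poi_234

/-!
# Row 281, PRIM-VAR (helper377), part 1: local tools

* `pr O`  : a linear projection of `P → ℝ` onto the functions which are smooth on `O`
* `par1`  : Poincaré lemma in degree 1 with parameters (convex open sets)
* `par2`  : Poincaré lemma in degree 2 with parameters (convex open sets)
-/

set_option autoImplicit false
set_option linter.unusedSectionVars false

open Set Filter Topology MeasureTheory
open scoped ContDiff Interval

namespace Crest.Agent.R281.Prim_377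

open Crest.Agent.R216.Par Crest.Agent.R281.Poi_234

noncomputable section

section proj

variable {P : Type} [NormedAddCommGroup P] [NormedSpace ℝ P]

/-- the functions which are smooth on `O` -/
def Sm (O : Set P) : Submodule ℝ (P → ℝ) where
  carrier := {f | ContDiffOn ℝ ∞ f O}
  add_mem' ha hb := ContDiffOn.add ha hb
  zero_mem' := contDiffOn_const
  smul_mem' c _ h := ContDiffOn.const_smul c h

theorem exists_pr (O : Set P) : ∃ π : (P → ℝ) →ₗ[ℝ] (P → ℝ), (∀ f, ContDiffOn ℝ ∞ (π f) O) ∧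
    ∀ f, ContDiffOn ℝ ∞ f O → π f = f := by
  obtain ⟨g, hg⟩ := (Sm O).subtype.exists_leftInverse_of_injective (Submodule.ker_subtype _)
  refine ⟨(Sm O).subtype.comp g, fun f => (g f).2, fun f hf => ?_⟩
  have h1 : g f = (⟨f, hf⟩ : Sm O) := LinearMap.congr_fun hg (⟨f, hf⟩ : Sm O)
  show ((g f : Sm O) : P → ℝ) = f
  rw [h1]

/-- a (non canonical) linear projection onto the functions which are smooth on `O` -/
def pr (O : Set P) : (P → ℝ) →ₗ[ℝ] (P → ℝ) := (exists_pr O).choose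

theorem pr_smooth (O : Set P) (f : P → ℝ) : ContDiffOn ℝ ∞ (pr O f) O :=
  (exists_pr O).choose_spec.1 f

theorem pr_eq {O : Set P} {f : P → ℝ} (hf : ContDiffOn ℝ ∞ f O) : pr O f = f :=
  (exists_pr O).choose_spec.2 f hf

end proj

section loc

variable {P E : Type} [NormedAddCommGroup P] [NormedSpace ℝ P]
  [NormedAddCommGroup E] [NormedSpace ℝ E]

/-- slices of jointly smooth maps -/
theorem slice {W : Type*} [NormedAddCommGroup W] [NormedSpace ℝ W] {O : Set P} {U : Set E}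
    {G : P → E → W} (hG : ContDiffOn ℝ ∞ (fun p : P × E => G p.1 p.2) (O ×ˢ U)) {t : P}
    (ht : t ∈ O) : ContDiffOn ℝ ∞ (G t) U :=
  hG.comp (f := fun z => (t, z)) (contDiffOn_const.prodMk contDiffOn_id) fun _ hz => ⟨ht, hz⟩

/-- slices in the other direction -/
theorem slice' {W : Type*} [NormedAddCommGroup W] [NormedSpace ℝ W] {O : Set P} {U : Set E}
    {G : P → E → W} (hG : ContDiffOn ℝ ∞ (fun p : P × E => G p.1 p.2) (O ×ˢ U)) {z : E}
    (hz : z ∈ U) : ContDiffOn ℝ ∞ (fun t => G t z) O :=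
  hG.comp (f := fun t => (t, z)) (contDiffOn_id.prodMk contDiffOn_const) fun _ ht => ⟨ht, hz⟩

variable [FiniteDimensional ℝ P] [FiniteDimensional ℝ E]

/-- **Poincaré lemma in degree 1 with parameters** -/
theorem par1 {O : Set P} (hO : IsOpen O) {U : Set E} (hU : IsOpen U) (hc : Convex ℝ U)
    {x0 : E} (hx0 : x0 ∈ U) {θ : P → E → E →L[ℝ] ℝ}
    (hθ : ContDiffOn ℝ ∞ (fun p : P × E => θ p.1 p.2) (O ×ˢ U))
    (hcl : ∀ t ∈ O, ∀ z ∈ U, ∀ v w, fderiv ℝ (θ t) z v w = fderiv ℝ (θ t) z w v) :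
    ∃ Ψ : P → E → ℝ, ContDiffOn ℝ ∞ (fun p : P × E => Ψ p.1 p.2) (O ×ˢ U) ∧
      (∀ t, Ψ t x0 = 0) ∧ ∀ t ∈ O, ∀ z ∈ U, HasFDerivAt (Ψ t) (θ t z) z := by
  set Q : E × ℝ → E := fun p => x0 + p.2 • (p.1 - x0) with hQ
  have hQs : ContDiff ℝ ∞ Q := by
    rw [hQ]
    fun_prop
  have hmem : ∀ z ∈ U, ∀ s ∈ uIcc (0 : ℝ) 1, x0 + s • (z - x0) ∈ U := by
    intro z hz s hs
    rw [uIcc_of_le zero_le_one] at hs
    have := hc hx0 hz (a := 1 - s) (b := s) (by linarith [hs.2]) hs.1 (by ring)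
    convert this using 1
    module
  set R : (P × E) × ℝ → P × E := fun q => (q.1.1, x0 + q.2 • (q.1.2 - x0)) with hR
  have hRs : ContDiff ℝ ∞ R := by
    rw [hR]
    fun_prop
  set O' : Set ((P × E) × ℝ) := R ⁻¹' (O ×ˢ U) with hO'
  have hO'o : IsOpen O' := (hO.prod hU).preimage hRs.continuous
  have hmem' : ∀ p ∈ O ×ˢ U, ∀ s ∈ uIcc (0 : ℝ) 1, (p, s) ∈ O' := fun p hp s hs =>
    ⟨hp.1, hmem p.2 hp.2 s hs⟩
  set g : (P × E) × ℝ → ℝ := fun q => θ q.1.1 (x0 + q.2 • (q.1.2 - x0)) (q.1.2 - x0) with hg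
  have hgs : ContDiffOn ℝ ∞ g O' := by
    have h1 : ContDiffOn ℝ ∞ (fun q => θ (R q).1 (R q).2) O' :=
      hθ.comp hRs.contDiffOn fun q hq => hq
    have h2 : ContDiff ℝ ∞ (fun q : (P × E) × ℝ => q.1.2 - x0) := by fun_prop
    exact h1.clm_apply h2.contDiffOn
  refine ⟨fun t z => ∫ s in (0 : ℝ)..1, g ((t, z), s),
    contDiffOn_par (hO.prod hU) hO'o hmem' hgs, fun t => ?_, fun t ht z hz => ?_⟩
  · have : ∀ s : ℝ, g ((t, x0), s) = 0 := fun s => by simp [hg]
    simp [this]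
  · obtain ⟨f, hf⟩ := poincare1 hU hc (slice hθ ht) (hcl t ht)
    have key : ∀ y ∈ U, ∫ s in (0 : ℝ)..1, g ((t, y), s) = f y - f x0 := by
      intro y hy
      have h1 : ∀ s ∈ uIcc (0 : ℝ) 1,
          HasDerivAt (fun s : ℝ => f (x0 + s • (y - x0))) (g ((t, y), s)) s := by
        intro s hs
        have h2 : HasDerivAt (fun s : ℝ => x0 + s • (y - x0)) (y - x0) s := by
          simpa using ((hasDerivAt_id s).smul_const (y - x0)).const_add x0
        exact (hf _ (hmem y hy s hs)).comp_hasDerivAt s h2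
      have h3 : ContinuousOn (fun s => g ((t, y), s)) (uIcc (0 : ℝ) 1) :=
        hgs.continuousOn.comp (by fun_prop) fun s hs => hmem' (t, y) ⟨ht, hy⟩ s hs
      rw [intervalIntegral.integral_eq_sub_of_hasDerivAt h1 h3.intervalIntegrable]
      simp
    have h4 : (fun y => ∫ s in (0 : ℝ)..1, g ((t, y), s)) =ᶠ[𝓝 z] fun y => f y - f x0 := by
      filter_upwards [hU.mem_nhds hz] with y hy using key y hy
    exact ((hf z hz).sub_const (f x0)).congr_of_eventuallyEq h4

/-- the homotopy operator in degree 2 -/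
def hom2 (x0 : E) (om : E → E →L[ℝ] E →L[ℝ] ℝ) (z : E) : E →L[ℝ] ℝ :=
  ∫ s in (0 : ℝ)..1, s • (om (x0 + s • (z - x0)) (z - x0))

/-- `d (hom2 om) = om` (the proof is helper234's proof of `poincare2`) -/
theorem d_hom2 {U : Set E} (hU : IsOpen U) (hc : Convex ℝ U) {x0 : E} (hx0 : x0 ∈ U)
    {om : E → E →L[ℝ] E →L[ℝ] ℝ} (hom : ContDiffOn ℝ ∞ om U) (ha : Alt2 om U)
    (hcl : Closed2 om U) : ∀ z ∈ U, ∀ v w,
      fderiv ℝ (hom2 x0 om) z v w - fderiv ℝ (hom2 x0 om) z w v = om z v w := by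
  set P : E × ℝ → E := fun p => x0 + p.2 • (p.1 - x0) with hP
  have hPs : ContDiff ℝ ∞ P := by
    rw [hP]
    fun_prop
  set O : Set (E × ℝ) := P ⁻¹' U with hO
  have hOo : IsOpen O := hU.preimage hPs.continuous
  have hmem : ∀ z ∈ U, ∀ s ∈ uIcc (0 : ℝ) 1, (z, s) ∈ O := by
    intro z hz s hs
    rw [uIcc_of_le zero_le_one] at hs
    have := hc hx0 hz (a := 1 - s) (b := s) (by linarith [hs.2]) hs.1 (by ring)
    change x0 + s • (z - x0) ∈ U
    convert this using 1
    module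
  set g : E × ℝ → (E →L[ℝ] ℝ) := fun p => p.2 • (om (P p) (p.1 - x0)) with hg
  have homP : ContDiffOn ℝ ∞ (fun p => om (P p)) O := hom.comp hPs.contDiffOn fun p hp => hp
  have hgs : ContDiffOn ℝ ∞ g O := by
    refine ContDiffOn.smul contDiffOn_snd ?_
    exact homP.clm_apply (contDiff_fst.sub contDiff_const).contDiffOn
  have hg1 : ContDiffOn ℝ 1 g O := hgs.of_le (by exact_mod_cast le_top)
  change ∀ z ∈ U, ∀ v w, fderiv ℝ (fun z => ∫ s in (0 : ℝ)..1, g (z, s)) z v w -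
    fderiv ℝ (fun z => ∫ s in (0 : ℝ)..1, g (z, s)) z w v = om z v w
  intro z hz v w
  have hz' := hmem z hz
  -- derivative of the integrand
  have hdg : ∀ s ∈ uIcc (0 : ℝ) 1, ∀ a b : E, fderiv ℝ g (z, s) (a, 0) b =
      s * (s * fderiv ℝ om (P (z, s)) a (z - x0) b + om (P (z, s)) a b) := by
    intro s hs a b
    have hin : (z, s) ∈ O := hz' s hs
    have homd : DifferentiableAt ℝ om (P (z, s)) :=
      (hom.contDiffAt (hU.mem_nhds hin)).differentiableAt (by simp)
    -- along the line `z + t a`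
    have h1 : HasFDerivAt g (fderiv ℝ g (z, s)) (z, s) :=
      ((hgs.contDiffAt (hOo.mem_nhds hin)).differentiableAt (by simp)).hasFDerivAt
    have hline : HasDerivAt (fun t : ℝ => ((z + t • a, s) : E × ℝ)) (a, 0) 0 := by
      have h2 : HasDerivAt (fun t : ℝ => z + t • a) a 0 := by
        simpa using ((hasDerivAt_id (0 : ℝ)).smul_const a).const_add z
      exact h2.prodMk (hasDerivAt_const (0 : ℝ) s)
    have h3 : HasDerivAt (fun t : ℝ => g (z + t • a, s)) (fderiv ℝ g (z, s) (a, 0)) 0 := by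
      have h1' : HasFDerivAt g (fderiv ℝ g (z, s)) (z + (0 : ℝ) • a, s) := by simpa using h1
      exact h1'.comp_hasDerivAt (0 : ℝ) hline
    have h4 : HasDerivAt (fun t : ℝ => g (z + t • a, s) b) (fderiv ℝ g (z, s) (a, 0) b) 0 := by
      simpa using h3.clm_apply (hasDerivAt_const (0 : ℝ) b)
    have h5 : HasDerivAt (fun t : ℝ => P (z + t • a, s)) (s • a) 0 := by
      have : (fun t : ℝ => P (z + t • a, s)) = fun t : ℝ => P (z, s) + t • (s • a) := by
        funext t
        simp only [hP]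
        module
      rw [this]
      simpa using ((hasDerivAt_id (0 : ℝ)).smul_const (s • a)).const_add (P (z, s))
    have h6 : HasDerivAt (fun t : ℝ => om (P (z + t • a, s))) (fderiv ℝ om (P (z, s)) (s • a)) 0 := by
      have h7 : HasFDerivAt om (fderiv ℝ om (P (z, s))) (P (z + (0 : ℝ) • a, s)) := by
        simpa using homd.hasFDerivAt
      exact HasFDerivAt.comp_hasDerivAt (l := om) (0 : ℝ) h7 h5
    have h8 : HasDerivAt (fun t : ℝ => z + t • a - x0) a 0 := by
      simpa using (((hasDerivAt_id (0 : ℝ)).smul_const a).const_add z).sub_const x0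
    have h9 := (h6.clm_apply h8).clm_apply (hasDerivAt_const (0 : ℝ) b)
    have h10 := h9.const_mul s
    have h11 : (fun t : ℝ => g (z + t • a, s) b) =
        fun t : ℝ => s * (om (P (z + t • a, s)) (z + t • a - x0)) b := by
      funext t
      simp [hg]
    rw [h11] at h4
    have := h4.unique h10
    rw [this]
    simp
  have key : ∀ a b : E, fderiv ℝ (fun z => ∫ s in (0 : ℝ)..1, g (z, s)) z a b =
      ∫ s in (0 : ℝ)..1, fderiv ℝ g (z, s) (a, 0) b := by
    intro a b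
    rw [fderiv_par_apply hOo hg1 hz' a]
    have hcont : ContinuousOn (fun s => fderiv ℝ g (z, s) (a, 0)) (uIcc (0 : ℝ) 1) := by
      have h1 : ContinuousOn (fderiv ℝ g) O := hg1.continuousOn_fderiv_of_isOpen hOo (by simp)
      have h2 : ContinuousOn (fun s : ℝ => fderiv ℝ g (z, s)) (uIcc (0 : ℝ) 1) :=
        h1.comp (by fun_prop) hz'
      exact h2.clm_apply continuousOn_const
    rw [ContinuousLinearMap.intervalIntegral_apply hcont.intervalIntegrable]
  have hint : ∀ a b : E, IntervalIntegrable (fun s => fderiv ℝ g (z, s) (a, 0) b) volume 0 1 := by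
    intro a b
    have h1 : ContinuousOn (fderiv ℝ g) O := hg1.continuousOn_fderiv_of_isOpen hOo (by simp)
    have h2 : ContinuousOn (fun s : ℝ => fderiv ℝ g (z, s)) (uIcc (0 : ℝ) 1) :=
      h1.comp (by fun_prop) hz'
    exact ((h2.clm_apply continuousOn_const).clm_apply continuousOn_const).intervalIntegrable
  rw [key, key, ← intervalIntegral.integral_sub (hint v w) (hint w v)]
  -- the integrand is a derivative
  have hder : ∀ s ∈ uIcc (0 : ℝ) 1, HasDerivAt (fun s : ℝ => s ^ 2 * om (P (z, s)) v w)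
      (fderiv ℝ g (z, s) (v, 0) w - fderiv ℝ g (z, s) (w, 0) v) s := by
    intro s hs
    have hin : (z, s) ∈ O := hz' s hs
    have homd : DifferentiableAt ℝ om (P (z, s)) :=
      (hom.contDiffAt (hU.mem_nhds hin)).differentiableAt (by simp)
    have h5 : HasDerivAt (fun s : ℝ => P (z, s)) (z - x0) s := by
      simpa [hP] using ((hasDerivAt_id s).smul_const (z - x0)).const_add x0
    have h6 : HasDerivAt (fun s : ℝ => om (P (z, s)) v w)
        (fderiv ℝ om (P (z, s)) (z - x0) v w) s := by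
      exact (hasFDerivAt_app homd v w).comp_hasDerivAt s h5
    have h7 := ((hasDerivAt_pow 2 s)).fun_mul h6
    refine h7.congr_deriv ?_
    rw [hdg s hs v w, hdg s hs w v]
    have e1 := hcl _ hin (z - x0) v w
    have e2 := ha.fderiv_swap hU hin homd v (z - x0) w
    have e3 := ha.swap hin w v
    have e4 : fderiv ℝ om (P (z, s)) v (z - x0) w - fderiv ℝ om (P (z, s)) w (z - x0) v =
        fderiv ℝ om (P (z, s)) (z - x0) v w := by
      rw [e2]; linarith
    rw [e3]
    push_cast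
    linear_combination (-(s ^ 2)) * e4
  rw [intervalIntegral.integral_eq_sub_of_hasDerivAt hder ((hint v w).sub (hint w v))]
  simp [hP]

/-- **Poincaré lemma in degree 2 with parameters** -/
theorem par2 {O : Set P} (hO : IsOpen O) {U : Set E} (hU : IsOpen U) (hc : Convex ℝ U)
    {x0 : E} (hx0 : x0 ∈ U) {om : P → E → E →L[ℝ] E →L[ℝ] ℝ}
    (hom : ContDiffOn ℝ ∞ (fun p : P × E => om p.1 p.2) (O ×ˢ U))
    (ha : ∀ t ∈ O, Alt2 (om t) U) (hcl : ∀ t ∈ O, Closed2 (om t) U) :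
    ∃ θ : P → E → E →L[ℝ] ℝ, ContDiffOn ℝ ∞ (fun p : P × E => θ p.1 p.2) (O ×ˢ U) ∧
      ∀ t ∈ O, ∀ z ∈ U, ∀ v w, fderiv ℝ (θ t) z v w - fderiv ℝ (θ t) z w v = om t z v w := by
  have hmem : ∀ z ∈ U, ∀ s ∈ uIcc (0 : ℝ) 1, x0 + s • (z - x0) ∈ U := by
    intro z hz s hs
    rw [uIcc_of_le zero_le_one] at hs
    have := hc hx0 hz (a := 1 - s) (b := s) (by linarith [hs.2]) hs.1 (by ring)
    convert this using 1
    module
  set R : (P × E) × ℝ → P × E := fun q => (q.1.1, x0 + q.2 • (q.1.2 - x0)) with hR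
  have hRs : ContDiff ℝ ∞ R := by
    rw [hR]
    fun_prop
  set O' : Set ((P × E) × ℝ) := R ⁻¹' (O ×ˢ U) with hO'
  have hO'o : IsOpen O' := (hO.prod hU).preimage hRs.continuous
  have hmem' : ∀ p ∈ O ×ˢ U, ∀ s ∈ uIcc (0 : ℝ) 1, (p, s) ∈ O' := fun p hp s hs =>
    ⟨hp.1, hmem p.2 hp.2 s hs⟩
  set g : (P × E) × ℝ → (E →L[ℝ] ℝ) := fun q =>
    q.2 • (om q.1.1 (x0 + q.2 • (q.1.2 - x0)) (q.1.2 - x0)) with hg
  have hgs : ContDiffOn ℝ ∞ g O' := by
    have h1 : ContDiffOn ℝ ∞ (fun q => om (R q).1 (R q).2) O' :=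
      hom.comp hRs.contDiffOn fun q hq => hq
    have h2 : ContDiff ℝ ∞ (fun q : (P × E) × ℝ => q.1.2 - x0) := by fun_prop
    exact ContDiffOn.smul contDiffOn_snd (h1.clm_apply h2.contDiffOn)
  refine ⟨fun t => hom2 x0 (om t), contDiffOn_par (hO.prod hU) hO'o hmem' hgs,
    fun t ht => d_hom2 hU hc hx0 (slice hom ht) (ha t ht) (hcl t ht)⟩

end loc

end

end Crest.Agent.R281.Prim_377
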