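import Crest.Agent.R281.Prim1_377
import Crest.Agent.R281.Cdr2_234

/-!
# Row 281, PRIM-VAR (helper377), part 2: the projection trick; local primitives; partition of unity

* `par0`     : if `h t` has differential `ψ t z - Σ c k t • φ k z` (`ψ` jointly smooth, no
               regularity of `h`, `c` in `t`), then `H t z = pr O (h · z) t` is jointly smooth with
               differential `ψ t z - Σ pr O (c k) t • φ k z`
* `Ball C U` : coordinate balls, `Ball.prim2` (parametrised primitives of families of closed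
               2-forms on `U`), `Ball.prim1` (primitives of closed 1-forms on `U`)
* `exists_part` : finite partition of unity subordinate to a cover by coordinate balls
-/

set_option autoImplicit false
set_option linter.unusedSectionVars false
set_option maxSynthPendingDepth 3

open Set Filter Topology Metric
open scoped ContDiff

namespace Crest.Agent.R281.Prim_377

open Crest.Agent.R281.HkR_835 Crest.Agent.R281.Poi_234 Crest.Agent.R281.Cdr_234
open Crest.Agent.R281.Ti_846 (F1 IsD Ex d1 d1_apply)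

noncomputable section

section par0

variable {P E : Type} [NormedAddCommGroup P] [NormedSpace ℝ P] [FiniteDimensional ℝ P]
  [NormedAddCommGroup E] [NormedSpace ℝ E] [FiniteDimensional ℝ E]

theorem pr_congr {O : Set P} {f g : P → ℝ} (h : ∀ t ∈ O, f t = g t) :
    ∀ t ∈ O, pr O f t = pr O g t := by
  intro t ht
  have h1 : ContDiffOn ℝ ∞ (f - g) O := by
    refine (contDiffOn_const (c := (0 : ℝ))).congr fun s hs => ?_
    show f s - g s = 0
    rw [h s hs, sub_self]
  have h2 : pr O f - pr O g = f - g := by rw [← map_sub, pr_eq h1]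
  have h3 := congrFun h2 t
  simp only [Pi.sub_apply, h t ht, sub_self] at h3
  linarith

variable {κ : Type} [Fintype κ]

/-- **the projection trick** -/
theorem par0 {O : Set P} (hO : IsOpen O) {S : Set E} (hS : IsOpen S) {h : P → E → ℝ}
    {ψ : P → E → E →L[ℝ] ℝ} {φ : κ → E → E →L[ℝ] ℝ} {c : κ → P → ℝ}
    (hψ : ContDiffOn ℝ ∞ (fun p : P × E => ψ p.1 p.2) (O ×ˢ S))
    (hφ : ∀ k, ContDiffOn ℝ ∞ (φ k) S)
    (cψ : ∀ t ∈ O, ∀ z ∈ S, ∀ v w, fderiv ℝ (ψ t) z v w = fderiv ℝ (ψ t) z w v)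
    (cφ : ∀ k, ∀ z ∈ S, ∀ v w, fderiv ℝ (φ k) z v w = fderiv ℝ (φ k) z w v)
    (hh : ∀ t ∈ O, ∀ z ∈ S, HasFDerivAt (h t) (ψ t z - ∑ k, c k t • φ k z) z) :
    ContDiffOn ℝ ∞ (fun p : P × E => pr O (fun t => h t p.2) p.1) (O ×ˢ S) ∧
      ∀ t ∈ O, ∀ z ∈ S, HasFDerivAt (fun y => pr O (fun t => h t y) t)
        (ψ t z - ∑ k, pr O (c k) t • φ k z) z := by
  -- local form
  have key : ∀ z1 ∈ S, ∃ N, IsOpen N ∧ z1 ∈ N ∧
      ContDiffOn ℝ ∞ (fun p : P × E => pr O (fun t => h t p.2) p.1) (O ×ˢ N) ∧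
      ∀ t ∈ O, HasFDerivAt (fun y => pr O (fun t => h t y) t)
        (ψ t z1 - ∑ k, pr O (c k) t • φ k z1) z1 := by
    intro z1 hz1
    obtain ⟨r, hr, hrS⟩ := Metric.isOpen_iff.1 hS z1 hz1
    have hN : IsOpen (ball z1 r) := isOpen_ball
    have hNc : Convex ℝ (ball z1 r) := convex_ball z1 r
    have hz1N : z1 ∈ ball z1 r := mem_ball_self hr
    obtain ⟨Ψ, Ψs, Ψ0, Ψd⟩ := par1 hO hN hNc hz1N (hψ.mono (prod_mono le_rfl hrS))
      (fun t ht z hz => cψ t ht z (hrS hz))
    have h1 : ∀ k, ∃ f : E → ℝ, ∀ z ∈ ball z1 r, HasFDerivAt f (φ k z) z := fun k =>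
      poincare1 hN hNc ((hφ k).mono hrS) fun z hz => cφ k z (hrS hz)
    choose f hf using h1
    have hfs : ∀ k, ContDiffOn ℝ ∞ (f k) (ball z1 r) := fun k =>
      contDiffOn_of_hasFDerivAt hN ((hφ k).mono hrS) (hf k)
    -- `h` in terms of `Ψ`, `f`
    have h2 : ∀ z ∈ ball z1 r, ∀ t ∈ O,
        h t z = h t z1 + Ψ t z - ∑ k, (f k z - f k z1) * c k t := by
      intro z hz t ht
      set q : E → ℝ := fun z => h t z - (Ψ t z - ∑ k, (f k z - f k z1) * c k t) with hq
      have hq' : ∀ y ∈ ball z1 r, HasFDerivAt q (0 : E →L[ℝ] ℝ) y := by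
        intro y hy
        have e1 : HasFDerivAt (fun y => ∑ k, (f k y - f k z1) * c k t) (∑ k, c k t • φ k y) y := by
          refine HasFDerivAt.fun_sum fun k _ => ?_
          exact ((hf k y hy).sub_const (f k z1)).mul_const (c k t)
        have e2 := (hh t ht y (hrS hy)).sub ((Ψd t ht y hy).sub e1)
        refine e2.congr_fderiv ?_
        abel
      have e3 : q z = q z1 := by
        refine hNc.is_const_of_fderivWithin_eq_zero (𝕜 := ℝ) (fun y hy =>
          (hq' y hy).differentiableAt.differentiableWithinAt) (fun y hy => ?_) hz hz1N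
        rw [fderivWithin_of_isOpen hN hy, (hq' y hy).fderiv]
      simp only [hq, Ψ0, sub_self, zero_mul, Finset.sum_const_zero, sub_zero] at e3
      linarith
    -- after projection
    have h3 : ∀ t ∈ O, ∀ z ∈ ball z1 r, pr O (fun t => h t z) t =
        pr O (fun t => h t z1) t + Ψ t z - ∑ k, (f k z - f k z1) * pr O (c k) t := by
      intro t ht z hz
      have e1 := pr_congr (O := O) (h2 z hz) t ht
      have e2 : (fun t => h t z1 + Ψ t z - ∑ k, (f k z - f k z1) * c k t) =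
          (fun t => h t z1) + (fun t => Ψ t z) - ∑ k, (f k z - f k z1) • c k := by
        funext s
        simp [Finset.sum_apply]
      rw [e2, map_sub, map_add, pr_eq (slice' Ψs hz), map_sum] at e1
      simp only [map_smul] at e1
      rw [e1]
      simp [Finset.sum_apply]
    refine ⟨ball z1 r, hN, hz1N, ?_, fun t ht => ?_⟩
    · have e1 : ContDiffOn ℝ ∞ (fun p : P × E => pr O (fun t => h t z1) p.1 + Ψ p.1 p.2 -
          ∑ k, (f k p.2 - f k z1) * pr O (c k) p.1) (O ×ˢ ball z1 r) := by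
        refine ContDiffOn.sub (ContDiffOn.add ?_ Ψs) (ContDiffOn.sum fun k _ => ContDiffOn.mul ?_ ?_)
        · exact (pr_smooth O _).comp contDiffOn_fst fun p hp => hp.1
        · exact ((hfs k).comp contDiffOn_snd fun p hp => hp.2).sub contDiffOn_const
        · exact (pr_smooth O _).comp contDiffOn_fst fun p hp => hp.1
      exact e1.congr fun p hp => h3 p.1 hp.1 p.2 hp.2
    · have e1 : HasFDerivAt (fun y => ∑ k, (f k y - f k z1) * pr O (c k) t)
          (∑ k, pr O (c k) t • φ k z1) z1 := by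
        refine HasFDerivAt.fun_sum fun k _ => ?_
        exact ((hf k z1 hz1N).sub_const (f k z1)).mul_const (pr O (c k) t)
      have e2 := ((Ψd t ht z1 hz1N).const_add (pr O (fun t => h t z1) t)).sub e1
      refine e2.congr_of_eventuallyEq ?_
      filter_upwards [hN.mem_nhds hz1N] with y hy using h3 t ht y hy
  refine ⟨fun p hp => ?_, fun t ht z hz => ?_⟩
  · obtain ⟨N, hN, hpN, h1, -⟩ := key p.2 hp.2
    exact (h1.contDiffAt ((hO.prod hN).mem_nhds ⟨hp.1, hpN⟩)).contDiffWithinAt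
  · obtain ⟨N, hN, hpN, -, h1⟩ := key z hz
    exact h1 t ht

end par0

variable {V X : Type} [NormedAddCommGroup V] [NormedSpace ℝ V] [TopologicalSpace X]
  {C : RCh V X}

/-- transition maps compose -/
theorem t_t3 {i j l : C.ι} {z : V} (hz : z ∈ C.ov j l) : C.t l i (C.t j l z) = C.t j i z := by
  show C.e i ((C.e l).symm (C.e l ((C.e j).symm z))) = C.e i ((C.e j).symm z)
  rw [(C.e l).left_inv hz.2]

theorem dt_t3 {i j l : C.ι} {z : V} (hz : z ∈ C.ov j l) (hi : (C.e j).symm z ∈ (C.e i).source)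
    (v : V) : fderiv ℝ (C.t l i) (C.t j l z) (fderiv ℝ (C.t j l) z v) = fderiv ℝ (C.t j i) z v := by
  have h1 : (fun y => C.t l i (C.t j l y)) =ᶠ[𝓝 z] C.t j i := by
    filter_upwards [(RCh.isOpen_ov j l).mem_nhds hz] with y hy using t_t3 hy
  have hm : C.t j l z ∈ C.ov l i := by
    refine ⟨(C.e l).map_source hz.2, ?_⟩
    show (C.e l).symm (C.e l ((C.e j).symm z)) ∈ (C.e i).source
    rwa [(C.e l).left_inv hz.2]
  have h2 := ((RCh.t_diff hm).hasFDerivAt.comp z (RCh.t_diff hz).hasFDerivAt).fderiv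
  have h3 : (C.t l i ∘ C.t j l) = fun y => C.t l i (C.t j l y) := rfl
  rw [h3, h1.fderiv_eq] at h2
  exact (congrArg (fun T : V →L[ℝ] V => T v) h2).symm

/-- coordinate balls -/
def Ball (C : RCh V X) (U : Set X) : Prop :=
  ∃ (i : C.ι) (z0 : V) (r : ℝ), 0 < r ∧ ball z0 r ⊆ (C.e i).target ∧
    U = (C.e i).source ∩ (C.e i) ⁻¹' (ball z0 r)

theorem Ball.isOpen {U : Set X} (hU : Ball C U) : IsOpen U := by
  obtain ⟨i, z0, r, hr, hs, rfl⟩ := hU
  exact (C.e i).isOpen_inter_preimage isOpen_ball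

section ball

variable [FiniteDimensional ℝ V] {P : Type} [NormedAddCommGroup P] [NormedSpace ℝ P]
  [FiniteDimensional ℝ P]

/-- **primitives with parameters on a coordinate ball** -/
theorem Ball.prim2 {U : Set X} (hU : Ball C U) {O : Set P} (hO : IsOpen O) {w : P → F2 C}
    (hw : ∀ i, ContDiffOn ℝ ∞ (fun p : P × V => (w p.1).w i p.2) (O ×ˢ (C.e i).target)) :
    ∃ th : P → C.ι → V → V →L[ℝ] ℝ,
      (∀ j, ContDiffOn ℝ ∞ (fun p : P × V => th p.1 j p.2) (O ×ˢ sh C j U)) ∧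
      (∀ t j l, ∀ z ∈ C.ov j l, (C.e j).symm z ∈ U → ∀ v,
        th t j z v = th t l (C.t j l z) (fderiv ℝ (C.t j l) z v)) ∧
      ∀ t ∈ O, ∀ j, ∀ z ∈ sh C j U, ∀ u v,
        fderiv ℝ (th t j) z u v - fderiv ℝ (th t j) z v u = (w t).w j z u v := by
  obtain ⟨i, z0, r, hr, hs, hUe⟩ := hU
  have hN : IsOpen (ball z0 r) := isOpen_ball
  obtain ⟨θ, θs, θd⟩ := par2 hO hN (convex_ball z0 r) (mem_ball_self hr)
    (om := fun t => (w t).w i) ((hw i).mono (prod_mono le_rfl hs))
    (fun t _ z hz v => by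
      have := (w t).alt i z (hs hz) v v
      linarith)
    (fun t _ z hz u v q => (w t).closed i z (hs hz) u v q)
  have hov : ∀ {j : C.ι} {z : V}, z ∈ sh C j U → z ∈ C.ov j i ∧ C.t j i z ∈ ball z0 r := by
    intro j z hz
    have h1 : (C.e j).symm z ∈ (C.e i).source ∩ (C.e i) ⁻¹' (ball z0 r) := by
      rw [← hUe]
      exact hz.2
    exact ⟨⟨hz.1, h1.1⟩, h1.2⟩
  have hUo : IsOpen U := by
    rw [hUe]
    exact (C.e i).isOpen_inter_preimage isOpen_ball
  refine ⟨fun t j => pb1 (θ t) (C.t j i), fun j => ?_, fun t j l z hz hzU v => ?_,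
    fun t ht j z hz u v => ?_⟩
  · have hT : ContDiffOn ℝ ∞ (C.t j i) (sh C j U) := (RCh.t_smooth j i).mono fun z hz => (hov hz).1
    have hdT : ContDiffOn ℝ ∞ (fderiv ℝ (C.t j i)) (sh C j U) :=
      hT.fderiv_of_isOpen (isOpen_sh j hUo) (by simp)
    have h1 : ContDiffOn ℝ ∞ (fun p : P × V => (p.1, C.t j i p.2)) (O ×ˢ sh C j U) :=
      contDiffOn_fst.prodMk (hT.comp contDiffOn_snd fun p hp => hp.2)
    have h2 : ContDiffOn ℝ ∞ (fun p : P × V => θ p.1 (C.t j i p.2)) (O ×ˢ sh C j U) :=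
      θs.comp h1 fun p hp => ⟨hp.1, (hov hp.2).2⟩
    exact h2.clm_comp (hdT.comp contDiffOn_snd fun p hp => hp.2)
  · have hzi : (C.e j).symm z ∈ (C.e i).source := (hov (j := j) ⟨hz.1, hzU⟩).1.2
    simp only [pb1_apply]
    rw [t_t3 hz, dt_t3 hz hzi]
  · obtain ⟨h1, h2⟩ := hov hz
    have hd : DifferentiableAt ℝ (θ t) (C.t j i z) :=
      ((slice θs ht).contDiffAt (hN.mem_nhds h2)).differentiableAt (by simp)
    have hT : ContDiffAt ℝ ∞ (C.t j i) z :=
      (RCh.t_smooth j i).contDiffAt ((RCh.isOpen_ov j i).mem_nhds h1)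
    rw [d_pb1 hd hT, θd t ht _ h2, ← (w t).tr j i z h1]

/-- primitives of closed 1-forms on a coordinate ball -/
theorem Ball.prim1 {U : Set X} (hU : Ball C U) {α : C.ι → V → V →L[ℝ] ℝ}
    (hs : ∀ j, ContDiffOn ℝ ∞ (α j) (sh C j U))
    (ht : ∀ j l, ∀ z ∈ C.ov j l, (C.e j).symm z ∈ U → ∀ v,
      α j z v = α l (C.t j l z) (fderiv ℝ (C.t j l) z v))
    (hd : ∀ j, ∀ z ∈ sh C j U, ∀ u v, fderiv ℝ (α j) z u v = fderiv ℝ (α j) z v u) :
    ∃ g : X → ℝ, ∀ j, ∀ z ∈ sh C j U, HasFDerivAt (fun y => g ((C.e j).symm y)) (α j z) z := by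
  obtain ⟨i, z0, r, hr, hsub, hUe⟩ := hU
  have hN : IsOpen (ball z0 r) := isOpen_ball
  have hb : ball z0 r ⊆ sh C i U := by
    intro z hz
    refine ⟨hsub hz, ?_⟩
    rw [hUe]
    refine ⟨(C.e i).map_target (hsub hz), ?_⟩
    show C.e i ((C.e i).symm z) ∈ ball z0 r
    rwa [(C.e i).right_inv (hsub hz)]
  obtain ⟨f, hf⟩ := poincare1 hN (convex_ball z0 r) ((hs i).mono hb) fun z hz => hd i z (hb hz)
  refine ⟨fun x => f (C.e i x), fun j z hz => ?_⟩
  have h1 : (C.e j).symm z ∈ (C.e i).source ∩ (C.e i) ⁻¹' (ball z0 r) := by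
    rw [← hUe]
    exact hz.2
  have h2 : z ∈ C.ov j i := ⟨hz.1, h1.1⟩
  have h3 := (hf (C.t j i z) h1.2).comp z (RCh.t_diff h2).hasFDerivAt
  refine h3.congr_fderiv ?_
  ext v
  exact (ht j i z h2 hz.2 v).symm

end ball

/-! ### partition of unity -/

section part

variable [FiniteDimensional ℝ V] [T2Space X]

/-- coordinate balls with a bump function around every point -/
theorem exists_bump (x : X) : ∃ (U K : Set X) (ψ : X → ℝ), Ball C U ∧ IsClosed K ∧ K ⊆ U ∧
    (∀ y, 0 ≤ ψ y) ∧ 0 < ψ x ∧ (∀ y ∉ K, ψ y = 0) ∧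
    ∀ j, ContDiffOn ℝ ∞ (fun z => ψ ((C.e j).symm z)) (C.e j).target := by
  classical
  obtain ⟨i, hi⟩ := C.cover x
  set z0 : V := C.e i x with hz0
  have hz0t : z0 ∈ (C.e i).target := (C.e i).map_source hi
  obtain ⟨r, hr, hrs⟩ := Metric.isOpen_iff.1 (C.e i).open_target z0 hz0t
  let b : ContDiffBump z0 := ⟨r / 4, r / 2, by positivity, by linarith⟩
  have hcb : closedBall z0 (r / 2) ⊆ ball z0 r := closedBall_subset_ball (by linarith)
  set K : Set X := (C.e i).symm '' closedBall z0 (r / 2) with hK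
  set U : Set X := (C.e i).source ∩ (C.e i) ⁻¹' (ball z0 r) with hU
  have hKc : IsClosed K := by
    have : ProperSpace V := FiniteDimensional.proper ℝ V
    refine IsCompact.isClosed ?_
    exact (isCompact_closedBall z0 (r / 2)).image_of_continuousOn
      ((C.e i).continuousOn_symm.mono (hcb.trans hrs))
  have hKU : K ⊆ U := by
    rintro _ ⟨z, hz, rfl⟩
    refine ⟨(C.e i).map_target (hrs (hcb hz)), ?_⟩
    show C.e i ((C.e i).symm z) ∈ ball z0 r
    rw [(C.e i).right_inv (hrs (hcb hz))]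
    exact hcb hz
  set ψ : X → ℝ := fun y => if y ∈ (C.e i).source then b (C.e i y) else 0 with hψ
  have hψK : ∀ y ∉ K, ψ y = 0 := by
    intro y hy
    by_cases h : y ∈ (C.e i).source
    · have h1 : C.e i y ∉ closedBall z0 (r / 2) := fun h2 =>
        hy ⟨C.e i y, h2, (C.e i).left_inv h⟩
      simp only [hψ, if_pos h]
      refine b.zero_of_le_dist ?_
      simp only [mem_closedBall, not_le] at h1
      exact h1.le
    · simp only [hψ, if_neg h]
  refine ⟨U, K, ψ, ⟨i, z0, r, hr, hrs, rfl⟩, hKc, hKU, fun y => ?_, ?_, hψK, fun j z hz => ?_⟩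
  · by_cases h : y ∈ (C.e i).source
    · simp only [hψ, if_pos h]
      exact b.nonneg
    · simp only [hψ, if_neg h]
      exact le_rfl
  · simp only [hψ, if_pos hi]
    exact b.pos_of_mem_ball (by
      show C.e i x ∈ ball z0 (r / 2)
      rw [← hz0]
      exact mem_ball_self (by positivity))
  · by_cases h : (C.e j).symm z ∈ (C.e i).source
    · have hz' : z ∈ C.ov j i := ⟨hz, h⟩
      have h1 : ContDiffAt ℝ ∞ (fun y => b (C.t j i y)) z :=
        b.contDiff.contDiffAt.comp z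
          ((RCh.t_smooth j i).contDiffAt ((RCh.isOpen_ov j i).mem_nhds hz'))
      refine (h1.congr_of_eventuallyEq ?_).contDiffWithinAt
      filter_upwards [(RCh.isOpen_ov j i).mem_nhds hz'] with y hy
      have hy2 : (C.e j).symm y ∈ (C.e i).source := hy.2
      simp only [hψ, if_pos hy2]
      rfl
    · have h1 : (C.e j).symm z ∉ K := fun h2 => h (hKU h2).1
      have h2 : sh C j Kᶜ ∈ 𝓝 z := (isOpen_sh j hKc.isOpen_compl).mem_nhds ⟨hz, h1⟩
      refine ((contDiffAt_const (c := (0 : ℝ))).congr_of_eventuallyEq ?_).contDiffWithinAt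
      filter_upwards [h2] with y hy using hψK _ hy.2

/-- **finite partition of unity subordinate to coordinate balls** -/
theorem exists_part [CompactSpace X] : ∃ (s : Finset X) (U K : X → Set X) (χ : X → X → ℝ),
    (∀ c, Ball C (U c)) ∧ (∀ x, ∃ c, x ∈ U c) ∧ (∀ c, IsClosed (K c)) ∧ (∀ c, K c ⊆ U c) ∧
    (∀ c, ∀ y ∉ K c, χ c y = 0) ∧ (∀ y, ∑ c ∈ s, χ c y = 1) ∧
    ∀ c j, ContDiffOn ℝ ∞ (fun z => χ c ((C.e j).symm z)) (C.e j).target := by
  choose U K ψ hU hK hKU h0 hpos hz hsm using exists_bump (C := C)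
  have hcont : ∀ c, Continuous (ψ c) := by
    intro c
    rw [continuous_iff_continuousAt]
    intro x
    obtain ⟨i, hi⟩ := C.cover x
    have h1 : ContinuousAt (fun z => ψ c ((C.e i).symm z)) (C.e i x) :=
      ((hsm c i).continuousOn).continuousAt ((C.e i).open_target.mem_nhds ((C.e i).map_source hi))
    have h2 : ContinuousAt (fun y => ψ c ((C.e i).symm (C.e i y))) x :=
      ContinuousAt.comp (f := C.e i) h1 ((C.e i).continuousAt hi)
    refine h2.congr ?_
    filter_upwards [(C.e i).open_source.mem_nhds hi] with y hy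
    rw [(C.e i).left_inv hy]
  obtain ⟨s, hs⟩ := isCompact_univ.elim_finite_subcover (fun c : X => {y | 0 < ψ c y})
    (fun c => isOpen_lt continuous_const (hcont c)) (fun x _ => mem_iUnion.2 ⟨x, hpos x⟩)
  have hΨ : ∀ y, 0 < ∑ c ∈ s, ψ c y := by
    intro y
    have h1 := hs (mem_univ y)
    simp only [mem_iUnion] at h1
    obtain ⟨c, hc, hcy⟩ := h1
    exact Finset.sum_pos' (fun d _ => h0 d y) ⟨c, hc, hcy⟩
  refine ⟨s, U, K, fun c y => ψ c y / ∑ d ∈ s, ψ d y, hU, fun x => ⟨x, ?_⟩, hK, hKU, ?_, ?_, ?_⟩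
  · by_contra h
    have h1 : ψ x x = 0 := hz x x fun h2 => h (hKU x h2)
    exact (hpos x).ne' h1
  · intro c y hy
    simp only
    rw [hz c y hy, zero_div]
  · intro y
    rw [← Finset.sum_div, div_self (hΨ y).ne']
  · intro c j
    refine (hsm c j).div (ContDiffOn.sum fun d _ => hsm d j) fun z _ => (hΨ _).ne'

end part

end

end Crest.Agent.R281.Prim_377
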