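import Crest.Agent.R281.Prim3_377
import Crest.Agent.R281.Iso2_139

/-!
# Row 281, PRIM-VAR (helper377), part 4: in the language of HK-ISO (Iso2_139)

* `prim_var` : `w : ℝ → F2 C` jointly smooth, every `w t` exact ==> jointly smooth primitives
* `prim_dot` : `w : ℝ → F2 C` jointly smooth of constant class ==> `∂_t w = d b_t`, `b` jointly smooth
-/

set_option autoImplicit false
set_option linter.unusedSectionVars false
set_option maxSynthPendingDepth 3

open Set Filter Topology Metric
open scoped ContDiff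

namespace Crest.Agent.R281.Prim_377

open Crest.Agent.R281.HkR_835 Crest.Agent.R281.Cdr_234
open Crest.Agent.R281.Ti_846 (F1 IsD Ex d1)
open Crest.Agent.R281.Iso_139 (JS1 JS2 dotF dotF_js dotF_hd)

noncomputable section

variable {V X : Type} [NormedAddCommGroup V] [NormedSpace ℝ V] [FiniteDimensional ℝ V]
  [TopologicalSpace X] [CompactSpace X] [T2Space X] {C : RCh V X}

/-- **PRIM-VAR** -/
theorem prim_var {w : ℝ → F2 C} (hw : JS2 w) (hex : ∀ t, Ex (w t)) :
    ∃ η : ℝ → F1 C, JS1 η ∧ ∀ t, IsD (w t) (η t) := by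
  obtain ⟨η, h1, h2⟩ := prim0 (O := (univ : Set ℝ)) isOpen_univ hw fun t _ => hex t
  exact ⟨η, h1, fun t => h2 t (mem_univ t)⟩

/-- a jointly smooth family of closed forms of constant class is `∂_t w_t = d b_t` -/
theorem prim_dot {w : ℝ → F2 C} (hw : JS2 w) (s0 : ℝ) (hex : ∀ t, Ex (w t - w s0)) :
    ∃ b : ℝ → F1 C, JS1 b ∧ ∀ t i, ∀ z ∈ (C.e i).target, ∀ u v,
      HasDerivAt (fun s => (w s).w i z u v) (d1 ((b t).η i) z u v) t := by
  have hw' : JS2 fun t => w t - w s0 := fun i =>
    (hw i).sub (((w s0).sm i).comp contDiffOn_snd fun p hp => hp.2)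
  obtain ⟨η, h1, h2⟩ := prim_var hw' hex
  refine ⟨dotF η h1, dotF_js h1, fun t i z hz u v => ?_⟩
  have h3 := (dotF_hd h1 hz u v (t := t)).add_const ((w s0).w i z u v)
  refine h3.congr_of_eventuallyEq (Eventually.of_forall fun s => ?_)
  have h4 := h2 s i z hz u v
  simp only [F2.sub_w, sub_apply] at h4
  show (w s).w i z u v = d1 ((η s).η i) z u v + (w s0).w i z u v
  rw [Crest.Agent.R281.Iso_139.d1a]
  linarith

end

end Crest.Agent.R281.Prim_377
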