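import Mathlib

/-! # R281 / PUNCT part 1 (helper924)

Schwarz–Pick in the upper half plane and its consequence at a puncture: if `f` maps the upper half
plane to itself holomorphically and `f (z+1) = g • f z` with `g ∈ SL₂(ℝ)`, then `g` is not
hyperbolic.  Mathlib only. -/

namespace R281.Pun_924

open Complex Set Metric
open scoped ComplexConjugate

/-- the upper half plane as a set of complex numbers -/
def UH : Set ℂ := {z | 0 < z.im}

lemma mem_UH {z : ℂ} : z ∈ UH ↔ 0 < z.im := Iff.rfl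

lemma isOpen_UH : IsOpen UH := isOpen_lt continuous_const Complex.continuous_im

lemma convex_UH : Convex ℝ UH := convex_halfSpace_im_gt 0

lemma norm_sub_conj_sq (z w : ℂ) : ‖z - conj w‖ ^ 2 = ‖z - w‖ ^ 2 + 4 * (z.im * w.im) := by
  rw [← Complex.normSq_eq_norm_sq, ← Complex.normSq_eq_norm_sq, normSq_apply, normSq_apply]
  simp
  ring

lemma sub_conj_ne {z w : ℂ} (hz : 0 < z.im) (hw : 0 < w.im) : z - conj w ≠ 0 := by
  intro h
  have := congrArg Complex.im h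
  simp at this
  linarith

/-- inverse Cayley transform centred at `w` -/
noncomputable def psi (w ζ : ℂ) : ℂ := (w - conj w * ζ) / (1 - ζ)

lemma im_psi (w : ℂ) {ζ : ℂ} (hζ : ζ ≠ 1) :
    (psi w ζ).im = w.im * (1 - ‖ζ‖ ^ 2) / ‖1 - ζ‖ ^ 2 := by
  have h1 : (1 - ζ) ≠ 0 := sub_ne_zero.mpr (Ne.symm hζ)
  have h2 : ‖1 - ζ‖ ^ 2 ≠ 0 := by positivity
  have h3 : normSq (1 - ζ) = ‖1 - ζ‖ ^ 2 := Complex.normSq_eq_norm_sq _
  have h4 : ‖ζ‖ ^ 2 = ζ.re ^ 2 + ζ.im ^ 2 := by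
    rw [← Complex.normSq_eq_norm_sq, normSq_apply]; ring
  rw [psi, Complex.div_im, h3, h4]
  field_simp
  simp
  ring

lemma psi_mem {w : ℂ} (hw : 0 < w.im) {ζ : ℂ} (hζ : ‖ζ‖ < 1) : psi w ζ ∈ UH := by
  have h1 : ζ ≠ 1 := by rintro rfl; simp at hζ
  have h2 : (1 - ζ) ≠ 0 := sub_ne_zero.mpr (Ne.symm h1)
  rw [mem_UH, im_psi w h1]
  have h3 : ‖ζ‖ ^ 2 < 1 := by
    have := norm_nonneg ζ
    nlinarith
  have h4 : 0 < ‖1 - ζ‖ ^ 2 := by positivity
  apply div_pos (mul_pos hw (by linarith)) h4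

lemma psi_phi {z w : ℂ} (hz : 0 < z.im) (hw : 0 < w.im) :
    psi w ((z - w) / (z - conj w)) = z := by
  have h1 := sub_conj_ne hz hw
  have h2 := sub_conj_ne hw hw
  have h3 : (1 : ℂ) - (z - w) / (z - conj w) ≠ 0 := by
    intro h
    rw [sub_eq_zero, eq_comm, div_eq_one_iff_eq h1] at h
    apply h2
    rw [sub_eq_zero]
    have : w = conj w := by
      have := sub_right_injective h
      exact this
    exact this
  rw [psi, div_eq_iff h3]
  field_simp
  ring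

/-- **Schwarz–Pick** in the upper half plane. -/
theorem schwarz_pick {f : ℂ → ℂ} (hd : DifferentiableOn ℂ f UH) (hm : MapsTo f UH UH) {z w : ℂ}
    (hz : 0 < z.im) (hw : 0 < w.im) :
    ‖f z - f w‖ ^ 2 * (z.im * w.im) ≤ ‖z - w‖ ^ 2 * ((f z).im * (f w).im) := by
  have hfw : 0 < (f w).im := hm hw
  have hfz : 0 < (f z).im := hm hz
  set g : ℂ → ℂ := fun ζ => (f (psi w ζ) - f w) / (f (psi w ζ) - conj (f w)) with hg
  have hpd : DifferentiableOn ℂ (psi w) (ball 0 1) := by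
    intro ζ hζ
    have h1 : ζ ≠ 1 := by rintro rfl; simp at hζ
    have h2 : (1 - ζ) ≠ 0 := sub_ne_zero.mpr (Ne.symm h1)
    unfold psi
    apply DifferentiableAt.differentiableWithinAt
    apply DifferentiableAt.div _ _ h2
    · fun_prop
    · fun_prop
  have hpm : MapsTo (psi w) (ball 0 1) UH := fun ζ hζ => psi_mem hw (by simpa using hζ)
  have hfp : DifferentiableOn ℂ (fun ζ => f (psi w ζ)) (ball 0 1) := hd.comp hpd hpm
  have hgd : DifferentiableOn ℂ g (ball 0 1) := by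
    intro ζ hζ
    exact ((hfp ζ hζ).sub_const _).div ((hfp ζ hζ).sub_const _) (sub_conj_ne (hm (hpm hζ)) hfw)
  have key : ∀ u v : ℂ, 0 < u.im → 0 < v.im → ‖u - v‖ ≤ ‖u - conj v‖ := by
    intro u v hu hv
    have h1 := norm_sub_conj_sq u v
    have h2 : ‖u - v‖ ^ 2 ≤ ‖u - conj v‖ ^ 2 := by
      rw [h1]
      have := mul_pos hu hv
      linarith
    exact (sq_le_sq₀ (norm_nonneg _) (norm_nonneg _)).mp h2
  have hgm : MapsTo g (ball 0 1) (closedBall 0 1) := by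
    intro ζ hζ
    have h1 := hm (hpm hζ)
    rw [mem_closedBall_zero_iff, hg]
    simp only [norm_div]
    apply div_le_one_of_le₀ (key _ _ h1 hfw) (norm_nonneg _)
  have hg0 : g 0 = 0 := by simp [hg, psi]
  have hζ : ‖(z - w) / (z - conj w)‖ < 1 := by
    rw [norm_div, div_lt_one (norm_pos_iff.mpr (sub_conj_ne hz hw))]
    have h1 := norm_sub_conj_sq z w
    have h2 : ‖z - w‖ ^ 2 < ‖z - conj w‖ ^ 2 := by
      rw [h1]
      have := mul_pos hz hw
      linarith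
    exact (sq_lt_sq₀ (norm_nonneg _) (norm_nonneg _)).mp h2
  have hS := Complex.norm_le_norm_of_mapsTo_ball hgd hgm hg0 hζ
  have e1 : g ((z - w) / (z - conj w)) = (f z - f w) / (f z - conj (f w)) := by
    simp only [hg, psi_phi hz hw]
  rw [e1, norm_div, norm_div, div_le_div_iff₀ (norm_pos_iff.mpr (sub_conj_ne hfz hfw))
    (norm_pos_iff.mpr (sub_conj_ne hz hw))] at hS
  have hS2 : (‖f z - f w‖ * ‖z - conj w‖) ^ 2 ≤ (‖z - w‖ * ‖f z - conj (f w)‖) ^ 2 := by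
    gcongr
  rw [mul_pow, mul_pow, norm_sub_conj_sq, norm_sub_conj_sq] at hS2
  nlinarith [hS2]

/-- the quadratic form of a matrix: `‖P τ‖² = (…)² + (tr² - 4) (Im τ)²` -/
lemma normSq_fix {a b c d : ℝ} (hdet : a * d - b * c = 1) (τ : ℂ) :
    ‖(c : ℂ) * τ ^ 2 + (d - a) * τ - b‖ ^ 2 =
      (((c : ℂ) * τ ^ 2 + (d - a) * τ - b).re + 2 * c * τ.im ^ 2) ^ 2
        + ((a + d) ^ 2 - 4) * τ.im ^ 2 := by
  rw [← Complex.normSq_eq_norm_sq, normSq_apply]
  simp [pow_two]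
  linear_combination (-4 * τ.im ^ 2) * hdet

lemma denom_ne {c d : ℝ} {a b : ℝ} (hdet : a * d - b * c = 1) {τ : ℂ} (hτ : 0 < τ.im) :
    (c : ℂ) * τ + d ≠ 0 := by
  intro h
  have h1 := congrArg Complex.im h
  have h2 := congrArg Complex.re h
  simp at h1 h2
  rcases h1 with h1 | h1
  · subst h1
    simp at h2
    subst h2
    simp at hdet
  · exact hτ.ne' h1

lemma im_moeb {a b c d : ℝ} (hdet : a * d - b * c = 1) (τ : ℂ) :
    (((a : ℂ) * τ + b) / (c * τ + d)).im = τ.im / ‖(c : ℂ) * τ + d‖ ^ 2 := by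
  have h3 : normSq ((c : ℂ) * τ + d) = ‖(c : ℂ) * τ + d‖ ^ 2 := Complex.normSq_eq_norm_sq _
  rw [Complex.div_im, h3, ← sub_div]
  congr 1
  simp
  linear_combination τ.im * hdet

/-- **No hyperbolic monodromy at a puncture.** -/
theorem tr_sq_le_four {f : ℂ → ℂ} (hd : DifferentiableOn ℂ f UH) (hm : MapsTo f UH UH)
    {a b c d : ℝ} (hdet : a * d - b * c = 1)
    (heq : ∀ z, 0 < z.im → f (z + 1) = (a * f z + b) / (c * f z + d)) :
    (a + d) ^ 2 ≤ 4 := by
  have main : ∀ y : ℝ, 0 < y → ((a + d) ^ 2 - 4) * y ^ 2 ≤ 1 := by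
    intro y hy
    set z : ℂ := y * I with hz
    have hzi : z.im = y := by simp [hz]
    have hz0 : 0 < z.im := by rw [hzi]; exact hy
    have hz1 : 0 < (z + 1).im := by simp [hzi, hy]
    have hzi1 : (z + 1).im = y := by simp [hzi]
    set τ := f z with hτ
    have hτ0 : 0 < τ.im := hm hz0
    have h1 := schwarz_pick hd hm hz1 hz0
    rw [heq z hz0, ← hτ, im_moeb hdet τ, hzi1, hzi] at h1
    have hne := denom_ne hdet hτ0
    have h2 : ((a : ℂ) * τ + b) / (c * τ + d) - τ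
        = - ((c : ℂ) * τ ^ 2 + (d - a) * τ - b) / (c * τ + d) := by
      rw [eq_div_iff hne, sub_mul, div_mul_cancel₀ _ hne]
      ring
    have hpos : 0 < ‖(c : ℂ) * τ + d‖ ^ 2 := by positivity
    rw [h2, norm_div, norm_neg, div_pow, normSq_fix hdet] at h1
    have h3 : z + 1 - z = 1 := by ring
    rw [h3, norm_one, one_pow, one_mul] at h1
    have h4 : (((((c : ℂ) * τ ^ 2 + (d - a) * τ - b).re + 2 * c * τ.im ^ 2) ^ 2
        + ((a + d) ^ 2 - 4) * τ.im ^ 2)) * (y * y) ≤ τ.im * τ.im := by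
      have h5 := mul_le_mul_of_nonneg_right h1 hpos.le
      have h6 : ∀ A B C D : ℝ, D ≠ 0 → A / D * B * D = A * B := by
        intro A B C D hD
        field_simp
      have h7 : τ.im / ‖(c : ℂ) * τ + d‖ ^ 2 * τ.im * ‖(c : ℂ) * τ + d‖ ^ 2 = τ.im * τ.im := by
        field_simp
      rw [h7] at h5
      rw [h6 _ _ 0 _ hpos.ne'] at h5
      exact h5
    have h8 : ((a + d) ^ 2 - 4) * y ^ 2 * (τ.im * τ.im) ≤ 1 * (τ.im * τ.im) := by
      nlinarith [h4, sq_nonneg ((((c : ℂ) * τ ^ 2 + (d - a) * τ - b).re + 2 * c * τ.im ^ 2) * y)]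
    exact le_of_mul_le_mul_right h8 (mul_pos hτ0 hτ0)
  by_contra hcon
  push Not at hcon
  have hk : 0 < (a + d) ^ 2 - 4 := by linarith
  have hy : 0 < 1 + 1 / ((a + d) ^ 2 - 4) := by positivity
  have h := main _ hy
  have h2 : ((a + d) ^ 2 - 4) * (1 + 1 / ((a + d) ^ 2 - 4)) ^ 2
      = ((a + d) ^ 2 - 4) + 2 + 1 / ((a + d) ^ 2 - 4) := by
    field_simp
    ring
  rw [h2] at h
  have : 0 < 1 / ((a + d) ^ 2 - 4) := by positivity
  linarith

end R281.Pun_924
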