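import Crest.Agent.R281.Pun1_924

/-! # R281 / PUNCT part 2 (helper924)

Removable singularities at a puncture.  `f : UH → UH` holomorphic with `f (z+1) = f z + w`, `w`
real: then `w ≥ 0` and `f z = w z + h (exp (2πiz))` with `h` holomorphic on the unit disc; if
`w = 0`, then `h` takes values in the upper half plane (also at `0`).  Mathlib only. -/

namespace R281.Pun_924

open Complex Set Metric Filter Function.Periodic
open scoped ComplexConjugate Topology Real

lemma qParam_one (z : ℂ) : qParam 1 z = Complex.exp (2 * π * I * z) := by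
  simp [qParam]

lemma qParam_one_add (z : ℂ) : qParam 1 (z + 1) = qParam 1 z := by
  rw [qParam_one, qParam_one, mul_add, Complex.exp_add, mul_one, Complex.exp_two_pi_mul_I, mul_one]

lemma invQ_mem {q : ℂ} (hq : q ≠ 0) (hq1 : ‖q‖ < 1) : 0 < (invQParam 1 q).im := by
  rw [im_invQParam]
  have h1 : Real.log ‖q‖ < 0 := Real.log_neg (norm_pos_iff.mpr hq) hq1
  have h2 : (-1 / (2 * π)) < 0 := by
    apply div_neg_of_neg_of_pos (by norm_num) (by positivity)
  exact mul_pos_of_neg_of_neg h2 h1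

lemma qParam_one_lt {z : ℂ} (hz : 0 < z.im) : ‖qParam 1 z‖ < 1 := norm_qParam_lt_one one_pos hz

lemma qParam_inv {q : ℂ} (hq : q ≠ 0) : qParam 1 (invQParam 1 q) = q :=
  qParam_right_inv one_ne_zero hq

lemma qParam_one_ne (z : ℂ) : qParam 1 z ≠ 0 := qParam_ne_zero z

/-- extension of a function on `UH` by zero -/
noncomputable def ext0 (f : ℂ → ℂ) : ℂ → ℂ := by
  classical exact fun z => if 0 < z.im then f z else 0

lemma ext0_of {f : ℂ → ℂ} {z : ℂ} (hz : 0 < z.im) : ext0 f z = f z := by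
  simp [ext0, hz]

lemma ext0_periodic {f : ℂ → ℂ} (h : ∀ z, 0 < z.im → f (z + 1) = f z) :
    Function.Periodic (ext0 f) ((1 : ℝ) : ℂ) := by
  intro z
  have e : (z + ((1 : ℝ) : ℂ)).im = z.im := by simp
  by_cases hz : 0 < z.im
  · rw [ext0_of hz, ext0_of (by rw [e]; exact hz), Complex.ofReal_one, h z hz]
  · have hz' : ¬ 0 < (z + ((1 : ℝ) : ℂ)).im := by rw [e]; exact hz
    simp only [ext0, hz, hz', if_false]

lemma ext0_diff {f : ℂ → ℂ} (hd : DifferentiableOn ℂ f UH) {z : ℂ} (hz : 0 < z.im) :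
    DifferentiableAt ℂ (ext0 f) z := by
  have h1 : DifferentiableAt ℂ f z := (hd z hz).differentiableAt (isOpen_UH.mem_nhds hz)
  apply h1.congr_of_eventuallyEq
  filter_upwards [isOpen_UH.mem_nhds (show z ∈ UH from hz)] with u hu
  exact ext0_of hu

lemma eventually_I {P : ℂ → Prop} (h : ∀ᶠ z in comap im atTop, P z) :
    ∃ R : ℝ, 0 < R ∧ ∀ z : ℂ, R < z.im → P z := by
  rw [Filter.eventually_comap] at h
  obtain ⟨R, hR⟩ := Filter.eventually_atTop.mp h
  exact ⟨max R 1, by positivity, fun z hz => hR z.im (le_of_lt (lt_of_le_of_lt (le_max_left _ _) hz)) z rfl⟩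

lemma eventually_I' {P : ℂ → Prop} (R : ℝ) (h : ∀ z : ℂ, R < z.im → P z) :
    ∀ᶠ z in comap im atTop, P z := by
  rw [Filter.eventually_comap]
  filter_upwards [Filter.eventually_gt_atTop R] with a ha z hz
  exact h z (by rw [hz]; exact ha)

lemma cusp_diff {f : ℂ → ℂ} (hd : DifferentiableOn ℂ f UH)
    (hp : ∀ z, 0 < z.im → f (z + 1) = f z) {q : ℂ} (hq : q ≠ 0) (hq1 : ‖q‖ < 1) :
    DifferentiableAt ℂ (cuspFunction 1 (ext0 f)) q := by
  have h1 := differentiableAt_cuspFunction (h := 1) one_ne_zero (ext0_periodic hp)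
    (ext0_diff hd (invQ_mem hq hq1))
  rwa [qParam_inv hq] at h1

lemma cusp_diff_zero {f : ℂ → ℂ} (hd : DifferentiableOn ℂ f UH)
    (hp : ∀ z, 0 < z.im → f (z + 1) = f z) (hb : BoundedAtFilter (comap im atTop) (ext0 f)) :
    DifferentiableAt ℂ (cuspFunction 1 (ext0 f)) 0 := by
  refine differentiableAt_cuspFunction_zero (h := 1) one_pos (ext0_periodic hp) ?_ hb
  exact eventually_I' 0 (fun z hz => ext0_diff hd hz)

lemma cusp_apply {f : ℂ → ℂ} (hp : ∀ z, 0 < z.im → f (z + 1) = f z) {z : ℂ} (hz : 0 < z.im) :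
    cuspFunction 1 (ext0 f) (qParam 1 z) = f z := by
  rw [eq_cuspFunction (h := 1) one_ne_zero (ext0_periodic hp), ext0_of hz]

lemma cusp_apply' {f : ℂ → ℂ} {q : ℂ} (hq : q ≠ 0) (hq1 : ‖q‖ < 1) :
    cuspFunction 1 (ext0 f) q = f (invQParam 1 q) := by
  rw [cuspFunction_eq_of_nonzero _ _ hq, ext0_of (invQ_mem hq hq1)]

/-- A holomorphic function with `exp (2πi N) = 1` on a convex open set is constant. -/
lemma const_of_exp {N : ℂ → ℂ} {S : Set ℂ} (hS : IsOpen S) (hc : IsPreconnected S)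
    (hN : DifferentiableOn ℂ N S) (h1 : ∀ z ∈ S, Complex.exp (2 * π * I * N z) = 1) :
    ∃ c, ∀ z ∈ S, N z = c := by
  apply hS.exists_is_const_of_deriv_eq_zero hc hN
  intro z hz
  have hd : HasDerivAt N (deriv N z) z := ((hN z hz).differentiableAt (hS.mem_nhds hz)).hasDerivAt
  have h2 : HasDerivAt (fun z => Complex.exp (2 * π * I * N z))
      (Complex.exp (2 * π * I * N z) * (2 * π * I * deriv N z)) z := (hd.const_mul _).cexp
  have h3 : (fun z => Complex.exp (2 * π * I * N z)) =ᶠ[𝓝 z] fun _ => (1 : ℂ) := by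
    filter_upwards [hS.mem_nhds hz] with u hu
    exact h1 u hu
  have h4 := (h2.congr_of_eventuallyEq h3.symm).unique (hasDerivAt_const z (1 : ℂ))
  rw [h1 z hz, one_mul] at h4
  have h5 : (2 * π * I : ℂ) ≠ 0 := Complex.two_pi_I_ne_zero
  exact (mul_eq_zero.mp h4).resolve_left h5

/-- **Asymptotic form** of a period map with unipotent monodromy. -/
theorem asymptotic {f : ℂ → ℂ} (hd : DifferentiableOn ℂ f UH) (hm : MapsTo f UH UH)
    {v : ℝ} (hv : 0 < v) {k' : ℤ} (heq : ∀ z, 0 < z.im → f (z + 1) = f z + ((k' * v : ℝ) : ℂ)) :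
    ∃ (k : ℕ) (L : ℂ → ℂ) (R : ℝ), (k : ℤ) = k' ∧ AnalyticAt ℂ L 0 ∧ 0 < R ∧
      ∀ z : ℂ, R < z.im → f z = ((k' * v : ℝ) : ℂ) * z + L (qParam 1 z) := by
  have hvC : (v : ℂ) ≠ 0 := by exact_mod_cast hv.ne'
  have h2pi : (2 * π * I : ℂ) ≠ 0 := Complex.two_pi_I_ne_zero
  set Q : ℂ → ℂ := fun z => Complex.exp (2 * π * I * (f z / v)) with hQ
  have hQd : DifferentiableOn ℂ Q UH := ((hd.div_const _).const_mul _).cexp
  have hQp : ∀ z, 0 < z.im → Q (z + 1) = Q z := by
    intro z hz
    simp only [hQ]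
    rw [heq z hz, add_div, mul_add, Complex.exp_add]
    have : (2 * π * I * (((k' * v : ℝ) : ℂ) / v)) = k' * (2 * π * I) := by
      push_cast
      field_simp
    rw [this, Complex.exp_int_mul_two_pi_mul_I, mul_one]
  have hQn : ∀ z, 0 < z.im → ‖Q z‖ ≤ 1 := by
    intro z hz
    simp only [hQ]
    rw [Complex.norm_exp]
    have h1 : (2 * π * I * (f z / v)).re = - (2 * π * ((f z).im / v)) := by
      have : (f z / v : ℂ).im = (f z).im / v := Complex.div_ofReal_im _ _
      simp [this]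
    rw [h1, Real.exp_le_one_iff]
    have : 0 < (f z).im := hm hz
    have : 0 < 2 * π * ((f z).im / v) := by positivity
    linarith
  have hQb : BoundedAtFilter (comap im atTop) (ext0 Q) := by
    refine Asymptotics.IsBigO.of_bound 1 ?_
    refine Filter.Eventually.of_forall fun z => ?_
    by_cases hz : 0 < z.im
    · rw [ext0_of hz]; simpa using hQn z hz
    · simp [ext0, hz]
  set Qh := cuspFunction 1 (ext0 Q) with hQh
  have hQ0 : DifferentiableAt ℂ Qh 0 := cusp_diff_zero hQd hQp hQb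
  have hQD : DifferentiableOn ℂ Qh (ball 0 1) := by
    intro q hq
    rw [mem_ball_zero_iff] at hq
    by_cases h0 : q = 0
    · rw [h0]; exact hQ0.differentiableWithinAt
    · exact (cusp_diff hQd hQp h0 hq).differentiableWithinAt
  have hQA : AnalyticAt ℂ Qh 0 := hQD.analyticAt (ball_mem_nhds _ one_pos)
  have hnz : ¬ ∀ᶠ q in 𝓝 (0 : ℂ), Qh q = 0 := by
    intro h
    have h1 : ∀ᶠ q in 𝓝[≠] (0 : ℂ), Qh q = 0 ∧ ‖q‖ < 1 ∧ q ≠ 0 := by
      have h2 : ∀ᶠ q in 𝓝 (0 : ℂ), ‖q‖ < 1 := by
        filter_upwards [ball_mem_nhds (0 : ℂ) one_pos] with q hq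
        simpa using hq
      filter_upwards [h.filter_mono nhdsWithin_le_nhds, h2.filter_mono nhdsWithin_le_nhds,
        self_mem_nhdsWithin] with q h1 h2 h3
      exact ⟨h1, h2, h3⟩
    obtain ⟨q, h2, h3, h4⟩ := h1.exists
    rw [hQh, cusp_apply' h4 h3] at h2
    exact Complex.exp_ne_zero _ h2
  obtain ⟨k, u, huA, hu0, hku⟩ := hQA.exists_eventuallyEq_pow_smul_nonzero_iff.mpr hnz
  simp only [sub_zero, smul_eq_mul] at hku
  -- local logarithm of `u`
  set L0 : ℂ → ℂ := fun q => (v / (2 * π * I)) * (Complex.log (u q / u 0) + Complex.log (u 0))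
    with hL0
  have hslit : u 0 / u 0 ∈ Complex.slitPlane := by
    rw [div_self hu0]; exact Complex.one_mem_slitPlane
  have huA' : AnalyticAt ℂ (fun q => u q / u 0) 0 := huA.div analyticAt_const hu0
  have hL0A : AnalyticAt ℂ L0 0 :=
    analyticAt_const.mul ((huA'.clog hslit).add analyticAt_const)
  have hev : ∀ᶠ q in 𝓝[≠] (0 : ℂ), Qh q = q ^ k * u q ∧ DifferentiableAt ℂ L0 q ∧ u q ≠ 0 := by
    have h1 : ∀ᶠ q in 𝓝 (0 : ℂ), DifferentiableAt ℂ L0 q :=
      hL0A.eventually_analyticAt.mono fun q hq => hq.differentiableAt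
    have h2 : ∀ᶠ q in 𝓝 (0 : ℂ), u q ≠ 0 := huA.continuousAt.eventually_ne hu0
    exact ((hku.and (h1.and h2))).filter_mono nhdsWithin_le_nhds
  obtain ⟨R, hR, hRP⟩ := eventually_I ((qParam_tendsto (h := 1) one_pos).eventually hev)
  have hexpL : ∀ z : ℂ, R < z.im →
      Complex.exp (2 * π * I * (L0 (qParam 1 z) / v)) = u (qParam 1 z) := by
    intro z hz
    obtain ⟨-, -, h3⟩ := hRP z hz
    have h4 : 2 * π * I * (L0 (qParam 1 z) / v)
        = Complex.log (u (qParam 1 z) / u 0) + Complex.log (u 0) := by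
      simp only [hL0]
      have hpi : (π : ℂ) ≠ 0 := by exact_mod_cast Real.pi_ne_zero
      have hI := Complex.I_ne_zero
      field_simp
    rw [h4, Complex.exp_add, Complex.exp_log (div_ne_zero h3 hu0), Complex.exp_log hu0,
      div_mul_cancel₀ _ hu0]
  set S : Set ℂ := {z | R < z.im} with hS
  have hSo : IsOpen S := isOpen_lt continuous_const Complex.continuous_im
  have hSc : IsPreconnected S := (convex_halfSpace_im_gt R).isPreconnected
  have hSU : S ⊆ UH := fun z hz => lt_trans hR hz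
  set N : ℂ → ℂ := fun z => (f z - k * v * z - L0 (qParam 1 z)) / v with hN
  have hNd : DifferentiableOn ℂ N S := by
    intro z hz
    have h1 : DifferentiableAt ℂ f z :=
      (hd z (hSU hz)).differentiableAt (isOpen_UH.mem_nhds (hSU hz))
    have h2 : DifferentiableAt ℂ (fun z => L0 (qParam 1 z)) z :=
      DifferentiableAt.comp (g := L0) (f := qParam 1) z (hRP z hz).2.1 (differentiable_qParam z)
    have h3 : DifferentiableAt ℂ (fun z : ℂ => (k : ℂ) * v * z) z := by fun_prop
    exact (((h1.sub h3).sub h2).div_const _).differentiableWithinAt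
  have hN1 : ∀ z ∈ S, Complex.exp (2 * π * I * N z) = 1 := by
    intro z hz
    have h1 : 2 * π * I * N z = 2 * π * I * (f z / v) - k * (2 * π * I * z)
        - 2 * π * I * (L0 (qParam 1 z) / v) := by
      simp only [hN]
      field_simp
    rw [h1, Complex.exp_sub, Complex.exp_sub, hexpL z hz, Complex.exp_nat_mul, ← qParam_one z]
    have h2 : Complex.exp (2 * π * I * (f z / v)) = qParam 1 z ^ k * u (qParam 1 z) := by
      have h3 := (hRP z hz).1
      rw [hQh, cusp_apply hQp (hSU hz)] at h3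
      exact h3
    rw [h2]
    have h4 := (hRP z hz).2.2
    have h5 := pow_ne_zero k (qParam_one_ne z)
    field_simp
  obtain ⟨c, hc⟩ := const_of_exp hSo hSc hNd hN1
  have hfz : ∀ z ∈ S, f z = k * v * z + (L0 (qParam 1 z) + c * v) := by
    intro z hz
    have h1 := hc z hz
    simp only [hN] at h1
    rw [div_eq_iff hvC] at h1
    linear_combination h1
  have hkk : ((k : ℤ) : ℂ) = (k' : ℂ) := by
    set z : ℂ := ((R + 1 : ℝ) : ℂ) * I with hz
    have hzi : z.im = R + 1 := by simp [hz]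
    have hz1 : z ∈ S := by
      show R < z.im
      rw [hzi]; linarith
    have hz2 : z + 1 ∈ S := by
      show R < (z + 1).im
      simp only [Complex.add_im, Complex.one_im, add_zero]; rw [hzi]; linarith
    have h1 := hfz z hz1
    have h2 := hfz (z + 1) hz2
    rw [heq z (hSU hz1), qParam_one_add, h1] at h2
    have h3 : ((k' : ℂ) - k) * v = 0 := by
      push_cast at h2
      linear_combination h2
    rcases mul_eq_zero.mp h3 with h | h
    · push_cast
      linear_combination - h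
    · exact absurd h hvC
  have hkk' : (k : ℤ) = k' := by exact_mod_cast hkk
  refine ⟨k, fun q => L0 q + c * v, R, hkk', hL0A.add analyticAt_const, hR, ?_⟩
  intro z hz
  rw [hfz z hz]
  have : (k : ℂ) = (k' : ℂ) := by exact_mod_cast hkk
  rw [this]
  push_cast
  ring

/-- **Puncture, unipotent case.** -/
theorem unipotent {f : ℂ → ℂ} (hd : DifferentiableOn ℂ f UH) (hm : MapsTo f UH UH)
    {v : ℝ} (hv : 0 < v) {k' : ℤ} (heq : ∀ z, 0 < z.im → f (z + 1) = f z + ((k' * v : ℝ) : ℂ)) :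
    0 ≤ k' ∧ ∃ h : ℂ → ℂ, DifferentiableOn ℂ h (ball 0 1) ∧
      (∀ z : ℂ, 0 < z.im → f z = ((k' * v : ℝ) : ℂ) * z + h (qParam 1 z)) ∧
      (∀ q : ℂ, q ≠ 0 → ‖q‖ < 1 →
        h q = f (invQParam 1 q) - ((k' * v : ℝ) : ℂ) * invQParam 1 q) := by
  obtain ⟨k, L, R, hk, hLA, hR, hL⟩ := asymptotic hd hm hv heq
  refine ⟨by omega, ?_⟩
  set w : ℂ := ((k' * v : ℝ) : ℂ) with hw
  set F : ℂ → ℂ := fun z => f z - w * z with hF
  have hFd : DifferentiableOn ℂ F UH :=
    hd.sub ((differentiable_const _).mul differentiable_id).differentiableOn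
  have hFp : ∀ z, 0 < z.im → F (z + 1) = F z := by
    intro z hz
    simp only [hF, heq z hz]
    ring
  have hFb : BoundedAtFilter (comap im atTop) (ext0 F) := by
    have h1 : Tendsto (fun z => L (qParam 1 z)) (comap im atTop) (𝓝 (L 0)) := by
      have h2 : Tendsto L (𝓝[≠] 0) (𝓝 (L 0)) :=
        hLA.continuousAt.tendsto.mono_left nhdsWithin_le_nhds
      exact h2.comp (qParam_tendsto (h := 1) one_pos)
    have h3 : Tendsto (ext0 F) (comap im atTop) (𝓝 (L 0)) := by
      refine h1.congr' ?_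
      refine eventually_I' R fun z hz => ?_
      rw [ext0_of (lt_trans hR hz)]
      simp only [hF]
      rw [hL z hz]
      ring
    exact h3.isBigO_one ℝ
  refine ⟨cuspFunction 1 (ext0 F), ?_, ?_, ?_⟩
  · intro q hq
    rw [mem_ball_zero_iff] at hq
    by_cases h0 : q = 0
    · rw [h0]; exact (cusp_diff_zero hFd hFp hFb).differentiableWithinAt
    · exact (cusp_diff hFd hFp h0 hq).differentiableWithinAt
  · intro z hz
    rw [cusp_apply hFp hz]
    simp only [hF]
    ring
  · intro q hq hq1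
    rw [cusp_apply' hq hq1]

/-- **(S2)** trivial monodromy: the period map extends to the puncture, with a value in the open
upper half plane. -/
theorem periodic_case {f : ℂ → ℂ} (hd : DifferentiableOn ℂ f UH) (hm : MapsTo f UH UH)
    (heq : ∀ z, 0 < z.im → f (z + 1) = f z) :
    ∃ h : ℂ → ℂ, DifferentiableOn ℂ h (ball 0 1) ∧ MapsTo h (ball 0 1) UH ∧
      ∀ z : ℂ, 0 < z.im → f z = h (Complex.exp (2 * π * I * z)) := by
  obtain ⟨-, h, hh, h1, h2⟩ := unipotent (k' := 0) hd hm one_pos (fun z hz => by simp [heq z hz])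
  simp only [Int.cast_zero, zero_mul, Complex.ofReal_zero, zero_add, sub_zero] at h1 h2
  have hpos : ∀ q : ℂ, q ≠ 0 → ‖q‖ < 1 → 0 < (h q).im := fun q hq hq1 => by
    rw [h2 q hq hq1]; exact hm (invQ_mem hq hq1)
  have hdiff0 : ∀ᶠ q in 𝓝 (0 : ℂ), DifferentiableAt ℂ h q := by
    filter_upwards [ball_mem_nhds (0 : ℂ) one_pos] with q hq
    exact (hh q hq).differentiableAt (isOpen_ball.mem_nhds hq)
  have hc0 : ContinuousAt h 0 := hdiff0.self_of_nhds.continuousAt
  have hev1 : ∀ᶠ q in 𝓝[≠] (0 : ℂ), 0 < (h q).im := by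
    have : ∀ᶠ q in 𝓝 (0 : ℂ), ‖q‖ < 1 := by
      filter_upwards [ball_mem_nhds (0 : ℂ) one_pos] with q hq
      simpa using hq
    filter_upwards [this.filter_mono nhdsWithin_le_nhds, self_mem_nhdsWithin] with q h1 h2
    exact hpos q h2 h1
  have h0 : 0 ≤ (h 0).im := by
    have ht : Tendsto (fun q => (h q).im) (𝓝[≠] 0) (𝓝 (h 0).im) :=
      (Complex.continuous_im.continuousAt.comp hc0).tendsto.mono_left nhdsWithin_le_nhds
    exact ge_of_tendsto ht (hev1.mono fun q hq => hq.le)
  have h0' : 0 < (h 0).im := by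
    rcases h0.lt_or_eq with hlt | heq0
    · exact hlt
    · exfalso
      set E : ℂ → ℂ := fun q => Complex.exp (I * h q) with hE
      have hEn : ∀ q, ‖E q‖ = Real.exp (-(h q).im) := by
        intro q
        simp only [hE]
        rw [Complex.norm_exp]
        simp
      have hmax : IsLocalMax (norm ∘ E) 0 := by
        filter_upwards [ball_mem_nhds (0 : ℂ) one_pos] with q hq
        rw [mem_ball_zero_iff] at hq
        simp only [Function.comp_apply, hEn, ← heq0, neg_zero, Real.exp_zero, Real.exp_le_one_iff]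
        by_cases hq0 : q = 0
        · rw [hq0, ← heq0]; simp
        · have := hpos q hq0 hq
          linarith
      have hEd : ∀ᶠ q in 𝓝 (0 : ℂ), DifferentiableAt ℂ E q := by
        filter_upwards [hdiff0] with q hq
        exact (hq.const_mul _).cexp
      have hloc := Complex.norm_eventually_eq_of_isLocalMax hEd hmax
      obtain ⟨q, h3, h4⟩ := ((hloc.filter_mono nhdsWithin_le_nhds).and hev1).exists
      rw [hEn, hEn, Real.exp_eq_exp, ← heq0] at h3
      linarith
  refine ⟨h, hh, ?_, fun z hz => by rw [h1 z hz, qParam_one]⟩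
  intro q hq
  rw [mem_ball_zero_iff] at hq
  by_cases hq0 : q = 0
  · rw [hq0]; exact h0'
  · exact hpos q hq0 hq

/-- **(S3)** parabolic monodromy. -/
theorem parabolic_case {f : ℂ → ℂ} (hd : DifferentiableOn ℂ f UH) (hm : MapsTo f UH UH)
    {w : ℝ} (hw : w ≠ 0) (heq : ∀ z, 0 < z.im → f (z + 1) = f z + w) :
    0 < w ∧ ∃ h : ℂ → ℂ, DifferentiableOn ℂ h (ball 0 1) ∧
      ∀ z : ℂ, 0 < z.im → f z = w * z + h (Complex.exp (2 * π * I * z)) := by
  rcases lt_or_gt_of_ne hw with hneg | hpos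
  · exfalso
    have h1 := unipotent (k' := -1) (v := -w) hd hm (by linarith) (fun z hz => by
      rw [heq z hz]; push_cast; ring)
    have := h1.1
    omega
  · obtain ⟨-, h, hh, h1, -⟩ := unipotent (k' := 1) (v := w) hd hm hpos (fun z hz => by
      rw [heq z hz]; push_cast; ring)
    refine ⟨hpos, h, hh, fun z hz => ?_⟩
    rw [h1 z hz, qParam_one]
    push_cast
    ring

end R281.Pun_924
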