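import Crest.Agent.R281.KapD_975

/-!
# Row 281, QTubP (A4), bookkeeping (helper975): from the members of a ray to `QTubP`

* `QRay Alg`  : on every ray of a road: `κ`, for every radius `r` a height from which on every member
                carries the quantified tube
* `qtubP_of_ray : QRay Alg → QTubP Alg`
-/

set_option autoImplicit false
set_option linter.unusedSectionVars false
set_option maxSynthPendingDepth 3

open Set Filter Topology
open scoped ContDiff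

namespace Crest.Agent.R281.Qb_975

open Crest.Agent.R275.Geo Crest.Agent.R275.Core144 Crest.Agent.R275.GC293
open Crest.Agent.R275.EDR890
open Crest.Agent.R273.Defs_333 Crest.Agent.R273.Kah_333
open Crest.Agent.R260.ACM_580 Crest.Agent.R260.NNB_580
open Crest.Agent.R281.HkR_835 Crest.Agent.R281.Ti_846 Crest.Agent.R281.Cdr_234
open Crest.Agent.R281.Dif_268 Crest.Agent.R281.PL_713
open Crest.Agent.R281.NefO_476 Crest.Agent.R281.Nef_252
open Crest.Agent.R281.Alg_998 Crest.Agent.R281.RkD_902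
open Crest.Agent.R281.KapD_975

variable (Alg : AlgTT)

/-- quantified tubes at all high members over a ray -/
def QRay : Prop :=
  ∀ (n : ℕ) (X : Type) [TopologicalSpace X] [CompactSpace X] [T2Space X]
    [SimplyConnectedSpace X] (C : RCh (Cn (2 * n)) X) (Q : F2 C →ₗ[ℝ] F2 C →ₗ[ℝ] ℝ), Ctx n C Q →
    ∀ (H0 : HkT C) (L0 : PL C) (e : F2 C), Given Q H0 L0 e → ∀ (B : Box Q H0 e)
      (R : Road (Alg n X C Q) B) (x : ℝ),
    ∃ κ : ℝ, 0 < κ ∧ ∀ r : ℝ, 0 < r → ∃ Y1 : ℝ, ∀ y : ℝ, Y1 < y → ∀ H : HkT C,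
      MemN R.K ⟨x, y⟩ H → ∃ s : ℝ, 0 < s ∧ ∃ (A : Atl (2 * n) X) (hA : Cp (H.acm 1) A) (K : Kah A),
        Eqv (ofKah K).f2 (s • (cmp_of_cp hA).F (H.om 1)) ∧ TubeQ Q e H 1 A K κ r

/-- **the choice of the member** -/
theorem qtubP_of_ray (h : QRay Alg) : QTubP Alg := by
  intro n X _ _ _ _ C Q hX H0 L0 e hG B R x hxD hE
  obtain ⟨κ, hκ, hr⟩ := h n X C Q hX H0 L0 e hG B R (x : ℝ)
  refine ⟨κ, hκ, fun r hr0 => ?_⟩
  obtain ⟨Y1, hY1⟩ := hr r hr0
  obtain ⟨Kt, -, hK⟩ := hE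
  obtain ⟨m, hm⟩ := exists_nat_gt (max Y1 (max R.K.Y 0))
  have h1 : Y1 < m := lt_of_le_of_lt (le_max_left _ _) hm
  have h2 : R.K.Y < m := lt_of_le_of_lt ((le_max_left _ _).trans (le_max_right _ _)) hm
  have h3 : (0 : ℝ) < m := lt_of_le_of_lt ((le_max_right _ _).trans (le_max_right _ _)) hm
  obtain ⟨hM, hI⟩ := hK (Real.log (m - R.K.Y))
  have h4 : R.K.Y + Real.exp (Real.log (m - R.K.Y)) = m := by
    rw [Real.exp_log (by linarith)]
    ring
  rw [h4] at hM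
  obtain ⟨s, hs, A, hA, K, hKe, hT⟩ := hY1 m h1 _ hM
  obtain ⟨-, z, hz, hz1, -⟩ := hM
  exact ⟨_, m, z, s, h3, hz, hs, ⟨(m : ℚ) ^ 2, by push_cast; rfl⟩, hz1, hI, A, hA, K, hKe, hT⟩

end Crest.Agent.R281.Qb_975
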