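import Crest.Agent.R281.Aa5_836

/-!
# R281 (S0424), QTUBE (helper956), discs, part 1: **path lifting with a length bound** in an
action-angle tube of helper836, and straight discs `ζ ↦ Ψ (c0 + ζ (c1 - c0), b)`.
-/

set_option autoImplicit false
set_option linter.unusedSectionVars false

open Set Metric Filter Topology Complex Function
open scoped NNReal ContDiff

namespace Crest.Agent.R281.Qd_956

open Crest.Agent.R275.Geo Crest.Agent.R273.HFlow3_376 Crest.Agent.R273.HFlow4_376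
open Crest.Agent.R273.HFlow5_376 Crest.Agent.R273.HFlow6_376
open Crest.Agent.R281.Aa1_836 Crest.Agent.R281.Aa2_836 Crest.Agent.R281.Aa3_836
open Crest.Agent.R281.Aa4_836 Crest.Agent.R281.Aa5_836

noncomputable section

variable {N g : ℕ} {M : Type} [TopologicalSpace M] {A : Atl N M}
  {F : Type} [NormedAddCommGroup F] [NormedSpace ℂ F] [FiniteDimensional ℂ F]
  {V : Fin g → HVF A} {y : M → F} {b0 : F} {ε R : ℝ} {Nb : Set M}
  {Ψ : (Fin g → ℂ) × F → M} {l : Fin (2 * g) → F → (Fin g → ℂ)}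

/-- the derivative of `Ψ` along the leaves -/
theorem dPsi (t : Tube A V y b0 ε R Nb Ψ l) (c : Fin g → ℂ) {b : F} (hb : b ∈ ball b0 ε)
    {i : A.ι} (hi : Ψ (c, b) ∈ (A.e i).source) (w : Fin g → ℂ) :
    fderiv ℂ (fun q => A.e i (Ψ q)) (c, b) (w, 0) = ∑ k, w k • (V k).X i (Ψ (c, b)) := by
  have key : ∀ k, fderiv ℂ (fun q => A.e i (Ψ q)) (c, b) (Pi.single k 1, 0) =
      (V k).X i (Ψ (c, b)) := by
    intro k
    have h1 := (t.int c b hb k 0).chart (j := i) (by simpa using hi)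
    have e0 : c + (Pi.single k (0 : ℂ) : Fin g → ℂ) = c := by simp
    rw [e0] at h1
    have h2 : HasDerivAt (fun w : ℂ => ((c + (Pi.single k w : Fin g → ℂ), b) :
        (Fin g → ℂ) × F)) (Pi.single k 1, 0) 0 := by
      have e1 : (fun t : ℂ => ((c + Pi.single k t, b) : (Fin g → ℂ) × F)) =
          fun t => (c, b) + t • ((Pi.single k 1, 0) : (Fin g → ℂ) × F) := by
        funext t
        ext1
        · simp only [Prod.fst_add, Prod.smul_mk, ← Pi.single_smul, smul_eq_mul, mul_one]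
        · simp
      rw [e1]
      simpa using ((hasDerivAt_id (0 : ℂ)).smul_const
        ((Pi.single k 1, 0) : (Fin g → ℂ) × F)).const_add (c, b)
    have h3 : HasFDerivAt (fun q => A.e i (Ψ q)) (fderiv ℂ (fun q => A.e i (Ψ q)) (c, b))
        ((c + (Pi.single k (0 : ℂ) : Fin g → ℂ), b)) := by
      rw [e0]
      exact ((t.hol c b hb).chart hi).hasFDerivAt
    have h4 := h3.comp_hasDerivAt (f := fun w : ℂ => ((c + (Pi.single k w : Fin g → ℂ), b) :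
        (Fin g → ℂ) × F)) 0 h2
    exact h4.unique h1
  have h3 : ((w, 0) : (Fin g → ℂ) × F) = ∑ k, w k • ((Pi.single k 1, 0) : (Fin g → ℂ) × F) := by
    ext1
    · rw [Prod.fst_sum]
      funext l
      simp [Finset.sum_apply, Pi.single_apply]
    · rw [Prod.snd_sum]
      simp
  rw [h3, map_sum]
  simp only [map_smul, key]

/-- `Ψ` is a local biholomorphism -/
theorem tube_loc (t : Tube A V y b0 ε R Nb Ψ l) (hdim : g + Module.finrank ℂ F = N)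
    (c : Fin g → ℂ) {b : F} (hb : b ∈ ball b0 ε)
    {i : A.ι} (hi : Ψ (c, b) ∈ (A.e i).source) :
    ∃ e : OpenPartialHomeomorph ((Fin g → ℂ) × F) (Cn N), (c, b) ∈ e.source ∧
      (∀ q ∈ e.source, q.2 ∈ ball b0 ε ∧ Ψ q ∈ (A.e i).source) ∧
      (∀ q, e q = A.e i (Ψ q)) ∧
      AnalyticOnNhd ℂ e e.source ∧ AnalyticOnNhd ℂ e.symm e.target := by
  have hinj := t.inj c b hb i hi
  have hbe : ∀ᶠ q : (Fin g → ℂ) × F in 𝓝 (c, b), q.2 ∈ ball b0 ε :=
    continuousAt_snd (isOpen_ball.mem_nhds hb)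
  have hev : ∀ᶠ q : (Fin g → ℂ) × F in 𝓝 (c, b), HolC A Ψ q := by
    filter_upwards [hbe] with q hq
    exact t.hol q.1 q.2 hq
  have han := analyticAt_of_holC hev hi
  have hfr : Module.finrank ℂ ((Fin g → ℂ) × F) = Module.finrank ℂ (Cn N) := by
    rw [Module.finrank_prod, Module.finrank_fin_fun, finrank_euclideanSpace_fin]
    exact hdim
  set D := fderiv ℂ (fun q => A.e i (Ψ q)) (c, b) with hD
  set L : ((Fin g → ℂ) × F) ≃L[ℂ] Cn N :=
    (LinearEquiv.ofInjectiveOfFinrankEq D.toLinearMap hinj hfr).toContinuousLinearEquiv with hL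
  have hLD : (L : ((Fin g → ℂ) × F) →L[ℂ] Cn N) = D := ContinuousLinearMap.ext fun v => rfl
  have hU : {q : (Fin g → ℂ) × F | q.2 ∈ ball b0 ε ∧ Ψ q ∈ (A.e i).source} ∈ 𝓝 (c, b) :=
    hbe.and (hev.self_of_nhds.cont ((A.e i).open_source.mem_nhds hi))
  obtain ⟨e, h1, h2, h3, h4, h5⟩ :=
    Crest.Agent.R266.SCV.exists_analytic_openPartialHomeomorph han L
      (by rw [hLD]; exact han.differentiableAt.hasFDerivAt) hU
  exact ⟨e, h1, h2, h3, h4, h5⟩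

/-- local lifts of differentiable paths in a leaf -/
theorem lift_step (t : Tube A V y b0 ε R Nb Ψ l) (hdim : g + Module.finrank ℂ F = N)
    (c : Fin g → ℂ) {b : F} (hb : b ∈ ball b0 ε) {γ : ℝ → M} {s0 : ℝ}
    (h0 : Ψ (c, b) = γ s0) (hy : ∀ s, y (γ s) = b) (hc : ContinuousAt γ s0)
    {i : A.ι} (hi : γ s0 ∈ (A.e i).source) {v : Cn N}
    (hv : HasDerivAt (fun s => A.e i (γ s)) v s0) :
    ∃ (u : ℝ → (Fin g → ℂ)) (w : Fin g → ℂ), u s0 = c ∧ (∀ᶠ s in 𝓝 s0, Ψ (u s, b) = γ s) ∧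
      HasDerivAt u w s0 ∧ v = ∑ k, w k • (V k).X i (γ s0) := by
  have hi' : Ψ (c, b) ∈ (A.e i).source := by rw [h0]; exact hi
  obtain ⟨e, he0, heU, hee, hea, hes⟩ := tube_loc t hdim c hb hi'
  set q : ℝ → (Fin g → ℂ) × F := fun s => e.symm (A.e i (γ s)) with hq
  have hq0 : q s0 = (c, b) := by
    rw [hq]
    simp only
    rw [← h0, ← hee, e.left_inv he0]
  have ht0 : A.e i (γ s0) ∈ e.target := by
    rw [← h0, ← hee]; exact e.map_source he0
  have hqd : HasDerivAt q ((fderiv ℂ e.symm (A.e i (γ s0))).restrictScalars ℝ v) s0 := by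
    have h1 : HasFDerivAt e.symm ((fderiv ℂ e.symm (A.e i (γ s0))).restrictScalars ℝ)
        (A.e i (γ s0)) := (hes _ ht0).differentiableAt.hasFDerivAt.restrictScalars ℝ
    exact h1.comp_hasDerivAt s0 hv
  have hev : ∀ᶠ s in 𝓝 s0, γ s ∈ (A.e i).source ∧ A.e i (γ s) ∈ e.target := by
    have h1 : ∀ᶠ s in 𝓝 s0, γ s ∈ (A.e i).source := hc ((A.e i).open_source.mem_nhds hi)
    have h2 : ∀ᶠ s in 𝓝 s0, A.e i (γ s) ∈ e.target :=
      hv.continuousAt (e.open_target.mem_nhds ht0)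
    exact h1.and h2
  have hΨ : ∀ᶠ s in 𝓝 s0, Ψ (q s) = γ s ∧ (q s).2 = b := by
    filter_upwards [hev] with s hs
    have h1 : q s ∈ e.source := e.map_target hs.2
    have h2 : A.e i (Ψ (q s)) = A.e i (γ s) := by
      rw [← hee]; exact e.right_inv hs.2
    have h3 : Ψ (q s) = γ s := (A.e i).injOn (heU _ h1).2 hs.1 h2
    refine ⟨h3, ?_⟩
    have h4 := t.y_eq (q s).1 (q s).2 (heU _ h1).1
    rw [Prod.mk.eta, h3, hy s] at h4
    exact h4.symm
  refine ⟨fun s => (q s).1, ((fderiv ℂ e.symm (A.e i (γ s0))).restrictScalars ℝ v).1, ?_, ?_, ?_,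
    ?_⟩
  · simp only [hq0]
  · filter_upwards [hΨ] with s hs
    have : ((q s).1, b) = q s := by rw [← hs.2]
    rw [this, hs.1]
  · exact (ContinuousLinearMap.fst ℝ (Fin g → ℂ) F).hasFDerivAt.comp_hasDerivAt s0 hqd
  · have hw2 : ((fderiv ℂ e.symm (A.e i (γ s0))).restrictScalars ℝ v).2 = 0 := by
      have h1 : (fun s => (q s).2) =ᶠ[𝓝 s0] fun _ => b := by
        filter_upwards [hΨ] with s hs
        exact hs.2
      have h3 : HasDerivAt (fun s => (q s).2)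
          ((fderiv ℂ e.symm (A.e i (γ s0))).restrictScalars ℝ v).2 s0 :=
        (ContinuousLinearMap.snd ℝ (Fin g → ℂ) F).hasFDerivAt.comp_hasDerivAt s0 hqd
      have h4 : HasDerivAt (fun s => (q s).2) 0 s0 :=
        (hasDerivAt_const s0 b).congr_of_eventuallyEq h1
      exact h3.unique h4
    have h5 : HasDerivAt (fun s => A.e i (Ψ (q s)))
        ((fderiv ℂ (fun q => A.e i (Ψ q)) (c, b)).restrictScalars ℝ
          ((fderiv ℂ e.symm (A.e i (γ s0))).restrictScalars ℝ v)) s0 := by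
      have h1 : HasFDerivAt (fun q => A.e i (Ψ q))
          ((fderiv ℂ (fun q => A.e i (Ψ q)) (c, b)).restrictScalars ℝ) (q s0) := by
        rw [hq0]
        exact ((t.hol c b hb).chart hi').hasFDerivAt.restrictScalars ℝ
      exact h1.comp_hasDerivAt s0 hqd
    have h6 : (fun s => A.e i (Ψ (q s))) =ᶠ[𝓝 s0] fun s => A.e i (γ s) := by
      filter_upwards [hΨ] with s hs
      rw [hs.1]
    have h7 := (hv.congr_of_eventuallyEq h6).unique h5
    refine h7.trans ?_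
    have h8 : (fderiv ℂ e.symm (A.e i (γ s0))).restrictScalars ℝ v =
        (((fderiv ℂ e.symm (A.e i (γ s0))).restrictScalars ℝ v).1, 0) := by
      rw [← hw2]
    refine (congrArg _ h8).trans ?_
    rw [← h0]
    exact dPsi t c hb hi' _

/-- **path lifting with a length bound** -/
theorem lift_path [T2Space M] (t : Tube A V y b0 ε R Nb Ψ l)
    (hdim : g + Module.finrank ℂ F = N) {b : F} (hb : b ∈ ball b0 ε) {γ : ℝ → M}
    (hγ : Continuous γ) (hy : ∀ s, y (γ s) = b) {ℓ ℓ' : ℝ} (hℓ : ℓ < ℓ')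
    (hd : ∀ s, ∃ i, γ s ∈ (A.e i).source ∧ ∃ v, HasDerivAt (fun s => A.e i (γ s)) v s ∧
      ∀ w : Fin g → ℂ, v = ∑ k, w k • (V k).X i (γ s) → ‖w‖ ≤ ℓ)
    {c0 : Fin g → ℂ} (h0 : Ψ (c0, b) = γ 0) : ∃ c1, Ψ (c1, b) = γ 1 ∧ ‖c1 - c0‖ ≤ ℓ' := by
  set S : Set ℝ := {s | ∃ c, Ψ (c, b) = γ s ∧ ‖c - c0‖ ≤ ℓ' * s} with hS
  have hℓ0 : 0 ≤ ℓ := by
    obtain ⟨i, hi, v, hv, hw⟩ := hd 0
    obtain ⟨u, w, -, -, -, h4⟩ := lift_step t hdim c0 hb h0 hy hγ.continuousAt hi hv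
    exact (norm_nonneg _).trans (hw w h4)
  have hℓ'0 : 0 < ℓ' := lt_of_le_of_lt hℓ0 hℓ
  have hcl : IsClosed (S ∩ Icc 0 1) := by
    have hK : IsCompact {p : ℝ × (Fin g → ℂ) | p ∈ Icc (0 : ℝ) 1 ×ˢ closedBall c0 ℓ' ∧
        (Ψ (p.2, b) = γ p.1 ∧ ‖p.2 - c0‖ ≤ ℓ' * p.1)} := by
      refine (isCompact_Icc.prod (isCompact_closedBall c0 ℓ')).inter_right ?_
      refine IsClosed.inter ?_ ?_
      · exact isClosed_eq ((t.cont_fib hb).comp continuous_snd) (hγ.comp continuous_fst)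
      · have e1 : Continuous fun p : ℝ × (Fin g → ℂ) => ‖p.2 - c0‖ := by fun_prop
        have e2 : Continuous fun p : ℝ × (Fin g → ℂ) => ℓ' * p.1 := by fun_prop
        exact isClosed_le e1 e2
    have h1 := (hK.image continuous_fst).isClosed
    convert h1 using 1
    ext s
    constructor
    · rintro ⟨⟨c, hc1, hc2⟩, hs⟩
      refine ⟨(s, c), ⟨⟨hs, ?_⟩, hc1, hc2⟩, rfl⟩
      rw [mem_closedBall, dist_eq_norm]
      exact hc2.trans (by nlinarith [hs.2])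
    · rintro ⟨⟨s', c⟩, ⟨⟨hs, -⟩, hc1, hc2⟩, rfl⟩
      exact ⟨⟨c, hc1, hc2⟩, hs⟩
  have h0S : (0 : ℝ) ∈ S := ⟨c0, h0, by simp⟩
  have hstep : ∀ x ∈ S ∩ Ico 0 1, ∀ z ∈ Ioi x, (S ∩ Ioc x z).Nonempty := by
    rintro x ⟨⟨c, hc1, hc2⟩, hx⟩ z hz
    obtain ⟨i, hi, v, hv, hw⟩ := hd x
    obtain ⟨u, w, hu0, huΨ, hud, hvw⟩ := lift_step t hdim c hb hc1 hy hγ.continuousAt hi hv
    have hwl : ‖w‖ ≤ ℓ := hw w hvw
    have h1 : ∀ᶠ s in 𝓝 x, ‖u s - u x - (s - x) • w‖ ≤ (ℓ' - ℓ) * ‖s - x‖ := by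
      have := (hasDerivAt_iff_isLittleO.1 hud).def (sub_pos.2 hℓ)
      exact this
    have h2 : ∀ᶠ s in 𝓝[>] x, ‖u s - u x - (s - x) • w‖ ≤ (ℓ' - ℓ) * ‖s - x‖ ∧
        Ψ (u s, b) = γ s := nhdsWithin_le_nhds (h1.and huΨ)
    have h3 : ∀ᶠ s in 𝓝[>] x, s ∈ Ioc x z := Ioc_mem_nhdsGT hz
    obtain ⟨s, ⟨hs1, hs2⟩, hs3⟩ := (h2.and h3).exists
    refine ⟨s, ⟨u s, hs2, ?_⟩, hs3⟩
    have hsx : 0 < s - x := sub_pos.2 hs3.1
    rw [Real.norm_of_nonneg hsx.le, hu0] at hs1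
    have h4 : ‖(s - x) • w‖ ≤ (s - x) * ℓ := by
      rw [norm_smul, Real.norm_of_nonneg hsx.le]
      exact mul_le_mul_of_nonneg_left hwl hsx.le
    calc ‖u s - c0‖ = ‖(u s - c - (s - x) • w) + (s - x) • w + (c - c0)‖ := by congr 1; abel
      _ ≤ ‖u s - c - (s - x) • w‖ + ‖(s - x) • w‖ + ‖c - c0‖ := norm_add₃_le
      _ ≤ (ℓ' - ℓ) * (s - x) + (s - x) * ℓ + ℓ' * x := by gcongr
      _ = ℓ' * s := by ring
  have h1 := hcl.Icc_subset_of_forall_exists_gt h0S hstep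
  obtain ⟨c1, hc1, hc2⟩ := h1 ⟨zero_le_one, le_rfl⟩
  exact ⟨c1, hc1, by simpa using hc2⟩

/-! ### straight discs -/

/-- the straight disc -/
def sdisc (Ψ : (Fin g → ℂ) × F → M) (b : F) (c0 c1 : Fin g → ℂ) (ζ : ℂ) : M :=
  Ψ (c0 + ζ • (c1 - c0), b)

theorem sdisc_zero (b : F) (c0 c1 : Fin g → ℂ) : sdisc Ψ b c0 c1 0 = Ψ (c0, b) := by
  simp [sdisc]

theorem sdisc_one (b : F) (c0 c1 : Fin g → ℂ) : sdisc Ψ b c0 c1 1 = Ψ (c1, b) := by
  simp [sdisc]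

theorem sdisc_cont (t : Tube A V y b0 ε R Nb Ψ l) {b : F} (hb : b ∈ ball b0 ε)
    (c0 c1 : Fin g → ℂ) : Continuous (sdisc Ψ b c0 c1) :=
  (t.cont_fib hb).comp (f := fun ζ : ℂ => c0 + ζ • (c1 - c0)) (by fun_prop)

theorem sdisc_deriv (t : Tube A V y b0 ε R Nb Ψ l) {b : F} (hb : b ∈ ball b0 ε)
    (c0 c1 : Fin g → ℂ) (ζ : ℂ) {i : A.ι} (hi : sdisc Ψ b c0 c1 ζ ∈ (A.e i).source) :
    HasDerivAt (fun w => A.e i (sdisc Ψ b c0 c1 w))
      (∑ k, (c1 - c0) k • (V k).X i (sdisc Ψ b c0 c1 ζ)) ζ := by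
  have h1 : HasFDerivAt (fun q => A.e i (Ψ q))
      (fderiv ℂ (fun q => A.e i (Ψ q)) (c0 + ζ • (c1 - c0), b)) (c0 + ζ • (c1 - c0), b) :=
    ((t.hol _ b hb).chart hi).hasFDerivAt
  have h2 : HasDerivAt (fun w : ℂ => ((c0 + w • (c1 - c0), b) : (Fin g → ℂ) × F))
      (c1 - c0, 0) ζ := by
    refine HasDerivAt.prodMk ?_ (hasDerivAt_const _ _)
    have := ((hasDerivAt_id ζ).smul_const (c1 - c0)).const_add c0
    simpa using this
  have h3 := h1.comp_hasDerivAt ζ h2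
  rw [dPsi t _ hb hi] at h3
  exact h3

end

end Crest.Agent.R281.Qd_956
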