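import Mathlib

/-!
# Row 281 (S0424), QTUBE of helper922 (#8358), Qt4 = SELECTION (helper877)

`exists_sel`   : `P : V → H` real linear, `P (J₀ c) = i P c`, `‖c‖ ≤ m ‖P c‖`, `dim_ℝ V = 2 n`: there is
                 a complex linear `L : H → ℂⁿ` with `‖L z‖ ≤ ‖z‖`, `‖L (P c)‖ = ‖P c‖` and `L ∘ P`
                 bijective
`Near`         : `‖F c - F c' - P (c - c')‖ ≤ η ‖c - c'‖` on `ball 0 R`
`Near.lower`, `Near.injOn`, `Near.ball_sub`, `Near.isCompact` : the consequences for `L ∘ F`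
`sel`          : everything together for `V N = ℝᴺ`, `N = 2 n`
-/

set_option autoImplicit false
set_option linter.unusedSectionVars false

open Set Metric Filter Topology

namespace Crest.Agent.R281.Qt4_877

noncomputable section

/-! ### selection -/

section Sel

variable {V H : Type*} [NormedAddCommGroup V] [NormedSpace ℝ V] [FiniteDimensional ℝ V]
  [NormedAddCommGroup H] [InnerProductSpace ℂ H] [FiniteDimensional ℂ H]

/-- the range of `P` as a complex subspace -/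
def rg (P : V →L[ℝ] H) (J₀ : V → V) (hJ : ∀ c, P (J₀ c) = Complex.I • P c) : Submodule ℂ H where
  carrier := range P
  add_mem' := by
    rintro _ _ ⟨a, rfl⟩ ⟨b, rfl⟩
    exact ⟨a + b, map_add _ _ _⟩
  zero_mem' := ⟨0, map_zero _⟩
  smul_mem' := by
    rintro z _ ⟨a, rfl⟩
    refine ⟨z.re • a + z.im • J₀ a, ?_⟩
    rw [map_add, map_smul, map_smul, hJ]
    conv_rhs => rw [← Complex.re_add_im z]
    rw [add_smul, mul_smul]
    rfl

theorem exists_sel {n : ℕ} (hn : Module.finrank ℝ V = 2 * n) (P : V →L[ℝ] H) (J₀ : V → V)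
    (hJ : ∀ c, P (J₀ c) = Complex.I • P c) {m : ℝ} (hm : ∀ c, ‖c‖ ≤ m * ‖P c‖) :
    ∃ L : H →L[ℂ] EuclideanSpace ℂ (Fin n), (∀ z, ‖L z‖ ≤ ‖z‖) ∧ (∀ c, ‖L (P c)‖ = ‖P c‖) ∧
      Function.Bijective (fun c => L (P c)) := by
  set S := rg P J₀ hJ with hS
  have hinj : Function.Injective P := by
    rw [injective_iff_map_eq_zero]
    intro c hc
    have := hm c
    rw [hc, norm_zero, mul_zero] at this
    exact norm_le_zero_iff.1 this
  -- dimension
  have hdim : Module.finrank ℂ S = n := by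
    have h1 : Module.finrank ℝ S = 2 * n := by
      rw [← hn]
      let e : V →ₗ[ℝ] S := 
        { toFun := fun c => ⟨P c, c, rfl⟩
          map_add' := fun a b => Subtype.ext (map_add P a b)
          map_smul' := fun t a => Subtype.ext (map_smul P t a) }
      have hb : Function.Bijective e := by
        constructor
        · intro a b hab
          exact hinj (congrArg Subtype.val hab)
        · rintro ⟨_, c, rfl⟩
          exact ⟨c, rfl⟩
      exact (LinearEquiv.ofBijective e hb).finrank_eq.symm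
    have h2 := Module.finrank_mul_finrank ℝ ℂ S
    rw [Complex.finrank_real_complex, h1] at h2
    omega
  let b := (stdOrthonormalBasis ℂ S).reindex (finCongr hdim)
  let L : H →L[ℂ] EuclideanSpace ℂ (Fin n) :=
    (b.repr.toContinuousLinearEquiv : S →L[ℂ] EuclideanSpace ℂ (Fin n)).comp S.orthogonalProjectionOnto
  have hLn : ∀ z, ‖L z‖ = ‖S.orthogonalProjectionOnto z‖ := fun z => b.repr.norm_map _
  have hmem : ∀ c, P c ∈ S := fun c => ⟨c, rfl⟩
  have hLP : ∀ c, ‖L (P c)‖ = ‖P c‖ := by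
    intro c
    rw [hLn, Submodule.orthogonalProjectionOnto_mem_subspace_eq_self (⟨P c, hmem c⟩ : S)]
    rfl
  refine ⟨L, fun z => ?_, hLP, ?_, ?_⟩
  · rw [hLn]
    exact S.norm_orthogonalProjectionOnto_apply_le z
  · intro a c hac
    have h1 : L (P (a - c)) = 0 := by
      rw [map_sub, map_sub]
      exact sub_eq_zero.2 hac
    have h2 := hLP (a - c)
    rw [h1, norm_zero] at h2
    have h3 := hm (a - c)
    rw [← h2, mul_zero] at h3
    exact sub_eq_zero.1 (norm_le_zero_iff.1 h3)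
  · intro y
    obtain ⟨c, hc⟩ := (b.repr.symm y).2
    refine ⟨c, ?_⟩
    show b.repr (S.orthogonalProjectionOnto (P c)) = y
    rw [hc, Submodule.orthogonalProjectionOnto_mem_subspace_eq_self]
    exact b.repr.apply_symm_apply y

end Sel

/-! ### near-linear maps -/

section NearS

variable {V H G : Type*} [NormedAddCommGroup V] [NormedSpace ℝ V] [FiniteDimensional ℝ V]
  [NormedAddCommGroup H] [NormedSpace ℝ H] [NormedAddCommGroup G] [NormedSpace ℝ G]

/-- `F` is close to the linear map `P` on `ball 0 R` -/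
def Near (F : V → H) (P : V →L[ℝ] H) (η R : ℝ) : Prop :=
  ∀ c ∈ ball (0 : V) R, ∀ c' ∈ ball (0 : V) R, ‖F c - F c' - P (c - c')‖ ≤ η * ‖c - c'‖

variable {F : V → H} {P : V →L[ℝ] H} {η R m : ℝ}

theorem Near.comp (h : Near F P η R) (L : H →L[ℝ] G) (hL : ∀ z, ‖L z‖ ≤ ‖z‖) :
    Near (fun c => L (F c)) (L.comp P) η R := by
  intro c hc c' hc'
  have : L (F c) - L (F c') - (L.comp P) (c - c') = L (F c - F c' - P (c - c')) := by
    simp only [map_sub, ContinuousLinearMap.comp_apply]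
  rw [this]
  exact (hL _).trans (h c hc c' hc')

theorem Near.lower (h : Near F P η R) (hm0 : 0 < m) (hm : ∀ c, ‖c‖ ≤ m * ‖P c‖)
    (hη : η * m ≤ 1 / 2) {c c' : V} (hc : c ∈ ball (0 : V) R) (hc' : c' ∈ ball (0 : V) R) :
    ‖c - c'‖ / (2 * m) ≤ ‖F c - F c'‖ := by
  have h1 := h c hc c' hc'
  have h2 := hm (c - c')
  have h3 : ‖P (c - c')‖ ≤ ‖F c - F c'‖ + ‖F c - F c' - P (c - c')‖ := by
    have : P (c - c') = (F c - F c') - (F c - F c' - P (c - c')) := by abel
    calc ‖P (c - c')‖ = ‖(F c - F c') - (F c - F c' - P (c - c'))‖ := by rw [← this]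
      _ ≤ _ := norm_sub_le _ _
  rw [div_le_iff₀ (by positivity)]
  have h4 : m * ‖P (c - c')‖ ≤ m * (‖F c - F c'‖ + η * ‖c - c'‖) :=
    mul_le_mul_of_nonneg_left (h3.trans (by linarith)) hm0.le
  have h5 : η * m * ‖c - c'‖ ≤ 1 / 2 * ‖c - c'‖ := mul_le_mul_of_nonneg_right hη (norm_nonneg _)
  nlinarith

theorem Near.injOn (h : Near F P η R) (hm0 : 0 < m) (hm : ∀ c, ‖c‖ ≤ m * ‖P c‖)
    (hη : η * m ≤ 1 / 2) : InjOn F (ball 0 R) := by
  intro c hc c' hc' hcc
  have := h.lower hm0 hm hη hc hc'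
  rw [hcc, sub_self, norm_zero, div_le_iff₀ (by positivity), zero_mul] at this
  exact sub_eq_zero.1 (norm_le_zero_iff.1 this)

theorem Near.continuousOn (h : Near F P η R) : ContinuousOn F (ball 0 R) := by
  have hlip : LipschitzOnWith (Real.toNNReal (‖P‖ + |η|)) F (ball 0 R) := by
    refine LipschitzOnWith.of_dist_le_mul fun c hc c' hc' => ?_
    rw [Real.coe_toNNReal _ (by positivity), dist_eq_norm, dist_eq_norm]
    have h1 := h c hc c' hc'
    have h2 : ‖F c - F c'‖ ≤ ‖P (c - c')‖ + ‖F c - F c' - P (c - c')‖ := by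
      have : F c - F c' = P (c - c') + (F c - F c' - P (c - c')) := by abel
      calc ‖F c - F c'‖ = ‖P (c - c') + (F c - F c' - P (c - c'))‖ := by rw [← this]
        _ ≤ _ := norm_add_le _ _
    have h3 := P.le_opNorm (c - c')
    have h4 : η * ‖c - c'‖ ≤ |η| * ‖c - c'‖ :=
      mul_le_mul_of_nonneg_right (le_abs_self _) (norm_nonneg _)
    linarith
  exact hlip.continuousOn

/-- the image contains a ball -/
theorem Near.ball_sub [CompleteSpace G] {F : V → G} {P : V →L[ℝ] G} (h : Near F P η R)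
    (hm0 : 0 < m) (hm : ∀ c, ‖c‖ ≤ m * ‖P c‖) (hη0 : 0 ≤ η) (hη : η * m ≤ 1 / 2)
    (hP : Function.Surjective P) :
    ball (F 0) (R / (2 * m)) ⊆ F '' ball 0 R := by
  have : ProperSpace V := FiniteDimensional.proper_real V
  intro y hy
  rw [mem_ball, lt_div_iff₀ (by positivity)] at hy
  set r := dist y (F 0) * (2 * m) with hr
  have hr0 : 0 ≤ r := by positivity
  let g : G → V := fun y => (hP y).choose
  have hg : ∀ y, P (g y) = y := fun y => (hP y).choose_spec
  let N : P.NonlinearRightInverse :=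
    { toFun := g
      nnnorm := ⟨m, hm0.le⟩
      bound' := fun y => by
        have := hm (g y)
        rw [hg] at this
        exact this
      right_inv' := hg }
  have happ : ApproximatesLinearOn F P (ball 0 R) ⟨η, hη0⟩ := by
    intro c hc c' hc'
    exact h c hc c' hc'
  have hsub : closedBall (0 : V) r ⊆ ball 0 R := closedBall_subset_ball hy
  have h1 := happ.surjOn_closedBall_of_nonlinearRightInverse N hr0 hsub
  have h2 : y ∈ closedBall (F 0) ((((N.nnnorm : ℝ))⁻¹ - (⟨η, hη0⟩ : NNReal)) * r) := by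
    rw [mem_closedBall]
    have e : ((N.nnnorm : ℝ)) = m := rfl
    rw [e]
    show dist y (F 0) ≤ (m⁻¹ - η) * r
    have h3 : (2 * m)⁻¹ ≤ m⁻¹ - η := by
      have h4 : η ≤ 1 / 2 / m := (le_div_iff₀ hm0).2 hη
      have h5 : m⁻¹ = (2 * m)⁻¹ + 1 / 2 / m := by field_simp; norm_num
      linarith
    calc dist y (F 0) = (2 * m)⁻¹ * r := by rw [hr]; field_simp
      _ ≤ (m⁻¹ - η) * r := mul_le_mul_of_nonneg_right h3 hr0
  obtain ⟨c, hc, hcy⟩ := h1 h2
  exact ⟨c, hsub hc, hcy⟩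

/-- compact preimages -/
theorem Near.isCompact (h : Near F P η R) (hm0 : 0 < m) (hm : ∀ c, ‖c‖ ≤ m * ‖P c‖)
    (hη : η * m ≤ 1 / 2) {R' : ℝ} (hR' : R' < R / (2 * m)) :
    IsCompact {c | c ∈ ball (0 : V) R ∧ ‖F c - F 0‖ ≤ R'} := by
  have : ProperSpace V := FiniteDimensional.proper_real V
  rcases lt_or_ge R' 0 with h0 | h0
  · have : {c | c ∈ ball (0 : V) R ∧ ‖F c - F 0‖ ≤ R'} = ∅ := by
      ext c
      simp only [mem_ofPred_eq, mem_empty_iff_false, iff_false, not_and, not_le]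
      intro _
      exact lt_of_lt_of_le h0 (norm_nonneg _)
    rw [this]
    exact isCompact_empty
  have hR'' : 2 * m * R' < R := by
    rw [lt_div_iff₀ (by positivity)] at hR'
    linarith
  have hR : 0 < R := lt_of_le_of_lt (by positivity) hR''
  have hsub : closedBall (0 : V) (2 * m * R') ⊆ ball 0 R := closedBall_subset_ball hR''
  have e : {c | c ∈ ball (0 : V) R ∧ ‖F c - F 0‖ ≤ R'} =
      closedBall (0 : V) (2 * m * R') ∩ (fun c => ‖F c - F 0‖) ⁻¹' Iic R' := by
    ext c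
    constructor
    · rintro ⟨hc, hc'⟩
      refine ⟨?_, hc'⟩
      have h1 := h.lower hm0 hm hη hc (mem_ball_self hR)
      rw [sub_zero, div_le_iff₀ (by positivity)] at h1
      rw [mem_closedBall_zero_iff]
      nlinarith
    · rintro ⟨hc, hc'⟩
      exact ⟨hsub hc, hc'⟩
  rw [e]
  have hcont : ContinuousOn (fun c => ‖F c - F 0‖) (closedBall (0 : V) (2 * m * R')) :=
    ((h.continuousOn.mono hsub).sub continuousOn_const).norm
  exact (isCompact_closedBall _ _).of_isClosed_subset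
    (hcont.preimage_isClosed_of_isClosed isClosed_closedBall isClosed_Iic) inter_subset_left

end NearS

/-! ### everything together -/

/-- **SELECTION**, the form of #8358 -/
theorem sel {N n : ℕ} (hN : N = 2 * n) {P : EuclideanSpace ℝ (Fin N) →L[ℝ] EuclideanSpace ℂ (Fin N)}
    {J₀ : EuclideanSpace ℝ (Fin N) → EuclideanSpace ℝ (Fin N)}
    (hJ : ∀ c, P (J₀ c) = Complex.I • P c) {m : ℝ} (hm0 : 0 < m) (hm : ∀ c, ‖c‖ ≤ m * ‖P c‖) :
    ∃ L : EuclideanSpace ℂ (Fin N) →L[ℂ] EuclideanSpace ℂ (Fin n), (∀ z, ‖L z‖ ≤ ‖z‖) ∧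
      (∀ c, ‖L (P c)‖ = ‖P c‖) ∧ Function.Bijective (fun c => L (P c)) ∧
      ∀ (F : EuclideanSpace ℝ (Fin N) → EuclideanSpace ℂ (Fin N)) (η R : ℝ), 0 ≤ η →
        η * m ≤ 1 / 2 →
        (∀ c ∈ ball (0 : EuclideanSpace ℝ (Fin N)) R, ∀ c' ∈ ball (0 : EuclideanSpace ℝ (Fin N)) R,
          ‖F c - F c' - P (c - c')‖ ≤ η * ‖c - c'‖) →
        InjOn (fun c => L (F c)) (ball 0 R) ∧ ContinuousOn (fun c => L (F c)) (ball 0 R) ∧
        (∀ c ∈ ball (0 : EuclideanSpace ℝ (Fin N)) R, ∀ c' ∈ ball (0 : EuclideanSpace ℝ (Fin N)) R,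
          ‖c - c'‖ / (2 * m) ≤ ‖L (F c) - L (F c')‖) ∧
        ball (L (F 0)) (R / (2 * m)) ⊆ (fun c => L (F c)) '' ball 0 R ∧
        ∀ R' < R / (2 * m), IsCompact {c | c ∈ ball (0 : EuclideanSpace ℝ (Fin N)) R ∧
          ‖L (F c) - L (F 0)‖ ≤ R'} := by
  obtain ⟨L, h1, h2, h3⟩ := exists_sel (n := n) (by rw [finrank_euclideanSpace, Fintype.card_fin, hN])
    P J₀ hJ hm
  refine ⟨L, h1, h2, h3, fun F η R hη0 hη hF => ?_⟩
  set L' : EuclideanSpace ℂ (Fin N) →L[ℝ] EuclideanSpace ℂ (Fin n) := L.restrictScalars ℝ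
  have hn : Near (fun c => L (F c)) (L'.comp P) η R := Near.comp (F := F) (P := P) hF L' h1
  have hm' : ∀ c, ‖c‖ ≤ m * ‖(L'.comp P) c‖ := fun c => by
    show ‖c‖ ≤ m * ‖L (P c)‖
    rw [h2]
    exact hm c
  exact ⟨hn.injOn hm0 hm' hη, hn.continuousOn, fun c hc c' hc' => hn.lower hm0 hm' hη hc hc',
    hn.ball_sub hm0 hm' hη0 hη h3.2, fun R' hR' => hn.isCompact hm0 hm' hη hR'⟩

end

end Crest.Agent.R281.Qt4_877
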