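import Crest.Agent.R281.Qt6_922
import Crest.Agent.R281.Qt4_877

/-!
# R281 (S0424), QTUBE (helper922), part 7: the complex flux, near-linearity, lower bound

* `PhiC Flx Fly b`  : the complex flux in `ℂ^N`
* `flux_near`       : `|Fl b' - Fl b - w0 (0,d) (e_k,0)| ≤ (2 + 2Λ) ε ‖d‖`
* `vert_low`        : `‖c‖ ≤ 2Λ ‖(z0 (0,c) (e_k,0))_k‖`
-/

set_option autoImplicit false
set_option maxSynthPendingDepth 3

open Set Metric Filter Topology MeasureTheory intervalIntegral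
open scoped ContDiff

namespace Crest.Agent.R281.Qt_922

open Crest.Agent.R281.Mc673 (V W Fo tube ClF isOpen_tube)
open Crest.Agent.R281.Tub_57 (Out LF ctr)
open Crest.Agent.R238.Sch (ee norm_ee)

noncomputable section

variable {N : ℕ}

/-- the target of the complex flux -/
abbrev CE (N : ℕ) := EuclideanSpace ℂ (Fin N)

/-- real coordinates to complex coordinates -/
def mk2 (D1 D2 : Fin N → (V N →L[ℝ] ℝ)) : V N →L[ℝ] CE N :=
  ((PiLp.continuousLinearEquiv 2 ℝ (fun _ : Fin N => ℂ)).symm :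
    (Fin N → ℂ) →L[ℝ] PiLp 2 (fun _ : Fin N => ℂ)).comp
  (ContinuousLinearMap.pi fun k => Complex.ofRealCLM.comp (D1 k) +
    (Complex.I • Complex.ofRealCLM.comp (D2 k)))

theorem mk2_apply (D1 D2 : Fin N → (V N →L[ℝ] ℝ)) (u : V N) (k : Fin N) :
    mk2 D1 D2 u k = (D1 k u : ℂ) + Complex.I * (D2 k u : ℂ) := rfl

/-- the complex flux -/
def PhiC (Flx Fly : Fin N → (V N → V N) → ℝ) (b : V N → V N) : CE N :=
  WithLp.toLp 2 fun k => (Flx k b : ℂ) + Complex.I * (Fly k b : ℂ)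

theorem PhiC_apply (Flx Fly : Fin N → (V N → V N) → ℝ) (b : V N → V N) (k : Fin N) :
    PhiC Flx Fly b k = (Flx k b : ℂ) + Complex.I * (Fly k b : ℂ) := rfl

theorem hasFDerivAt_mk2 {f g : Fin N → V N → ℝ} {D1 D2 : Fin N → (V N →L[ℝ] ℝ)} {s : V N}
    (h1 : ∀ k, HasFDerivAt (f k) (D1 k) s) (h2 : ∀ k, HasFDerivAt (g k) (D2 k) s) :
    HasFDerivAt (fun s => (WithLp.toLp 2 fun k => (f k s : ℂ) + Complex.I * (g k s : ℂ) : CE N))
      (mk2 D1 D2) s := by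
  have e1 : HasFDerivAt (fun s => fun k => (f k s : ℂ) + Complex.I * (g k s : ℂ))
      (ContinuousLinearMap.pi fun k => Complex.ofRealCLM.comp (D1 k) +
        (Complex.I • Complex.ofRealCLM.comp (D2 k))) s := by
    refine hasFDerivAt_pi.2 fun k => ?_
    have a1 : HasFDerivAt (fun s => (f k s : ℂ)) (Complex.ofRealCLM.comp (D1 k)) s :=
      Complex.ofRealCLM.hasFDerivAt.comp s (h1 k)
    have a2 : HasFDerivAt (fun s => (g k s : ℂ)) (Complex.ofRealCLM.comp (D2 k)) s :=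
      Complex.ofRealCLM.hasFDerivAt.comp s (h2 k)
    exact a1.add (a2.const_mul Complex.I)
  exact (PiLp.continuousLinearEquiv 2 ℝ (fun _ : Fin N => ℂ)).symm.toContinuousLinearMap.hasFDerivAt.comp
    s e1

theorem mk2_I {D1 D2 : Fin N → (V N →L[ℝ] ℝ)} {J : V N → V N}
    (h1 : ∀ k u, D1 k (J u) = - D2 k u) (h2 : ∀ k u, D2 k (J u) = D1 k u) (u : V N) :
    mk2 D1 D2 (J u) = Complex.I • mk2 D1 D2 u := by
  ext k
  rw [PiLp.smul_apply, mk2_apply, mk2_apply, h1, h2, smul_eq_mul]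
  push_cast
  linear_combination (-(D2 k u : ℂ)) * Complex.I_mul_I

theorem norm_CE_le (z : CE N) {B : ℝ} (h : ∀ k, ‖z k‖ ≤ B) : ‖z‖ ≤ N * B := by
  have h1 : z = ∑ k, (EuclideanSpace.single k (z k) : CE N) := by
    ext i
    simp
  rw [h1]
  refine (norm_sum_le _ _).trans ?_
  calc ∑ k, ‖(EuclideanSpace.single k (z k) : CE N)‖ ≤ ∑ _k : Fin N, B := by
        refine Finset.sum_le_sum fun k _ => ?_
        rw [PiLp.norm_single]; exact h k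
    _ = N * B := by simp

/-- the constant model -/
def P0 (x0 y0 : W N →L[ℝ] W N →L[ℝ] ℝ) : V N →L[ℝ] CE N :=
  mk2 (fun k => (x0.flip (ee k, 0)).comp (ContinuousLinearMap.inr ℝ (V N) (V N)))
    (fun k => (y0.flip (ee k, 0)).comp (ContinuousLinearMap.inr ℝ (V N) (V N)))

theorem P0_apply (x0 y0 : W N →L[ℝ] W N →L[ℝ] ℝ) (u : V N) (k : Fin N) :
    P0 x0 y0 u k = (x0 (0, u) (ee k, 0) : ℂ) + Complex.I * (y0 (0, u) (ee k, 0) : ℂ) := rfl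

theorem norm_inr (v : V N) : ‖((0, v) : W N)‖ = ‖v‖ := by simp [Prod.norm_def]

theorem norm_inl (v : V N) : ‖((v, 0) : W N)‖ = ‖v‖ := by simp [Prod.norm_def]

theorem norm_P0_le {x0 y0 : W N →L[ℝ] W N →L[ℝ] ℝ} {Λ : ℝ} (hx : ‖x0‖ ≤ Λ) (hy : ‖y0‖ ≤ Λ)
    (u : V N) : ‖P0 x0 y0 u‖ ≤ N * (2 * Λ * ‖u‖) := by
  have hb : ∀ z0 : W N →L[ℝ] W N →L[ℝ] ℝ, ‖z0‖ ≤ Λ → ∀ k, |z0 (0, u) (ee k, 0)| ≤ Λ * ‖u‖ := by
    intro z0 hz k
    have := z0.le_opNorm₂ (0, u) (ee k, 0)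
    rw [norm_inr, norm_inl, norm_ee, mul_one] at this
    exact this.trans (by gcongr)
  refine norm_CE_le _ fun k => ?_
  rw [P0_apply]
  refine (norm_add_le _ _).trans ?_
  rw [norm_mul, Complex.norm_I, one_mul, Complex.norm_real, Complex.norm_real]
  have h1 := hb x0 hx k
  have h2 := hb y0 hy k
  rw [Real.norm_eq_abs, Real.norm_eq_abs]
  linarith

variable {r : ℝ} {w : Fo N} {b b' : V N → V N}

/-- **near-linearity of the flux** -/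
theorem flux_near {Fl : (V N → V N) → ℝ} {k : Fin N} (hw : ContinuousOn w (tube N r))
    (hFl : ∀ b0 b1 : V N → V N, Gr r b0 → Gr r b1 →
      Fl b1 - Fl b0 = ∫ s in (0:ℝ)..1, ∫ t in (0:ℝ)..1, st w b0 b1 k s t)
    {w0 : W N →L[ℝ] W N →L[ℝ] ℝ} {Λ ε : ℝ} (h0 : ‖w0‖ ≤ Λ) (hε0 : 0 ≤ ε) (hε : ε ≤ 1)
    (hc : ∀ p ∈ tube N r, ‖p.1‖ ≤ 1 → ‖w p - w0‖ ≤ ε) (hb : Gr r b) (hb' : Gr r b') {d : V N}
    (h1 : ∀ θ, ‖b' θ - b θ - d‖ ≤ ε * ‖d‖) (h2 : ∀ θ, ‖fderiv ℝ b θ‖ ≤ ε)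
    (h3 : ∀ θ, ‖fderiv ℝ b' θ‖ ≤ ε) :
    |Fl b' - Fl b - w0 (0, d) (ee k, 0)| ≤ (2 + 2 * Λ) * ε * ‖d‖ := by
  have hΛ : 0 ≤ Λ := (norm_nonneg _).trans h0
  rw [hFl b b' hb hb']
  have e0 : w0 (0, d) (ee k, 0) = ∫ _t in (0:ℝ)..1, w0 (0, d) (ee k, 0) := by simp
  rw [e0]
  refine ii_le (continuousOn_st hw hb hb' k) continuousOn_const fun s hs t ht => ?_
  set β : V N := b' (t • ee k) - b (t • ee k) with hβ
  set γ : V N := fderiv ℝ b (t • ee k) (ee k) + s • (fderiv ℝ b' (t • ee k) (ee k) -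
    fderiv ℝ b (t • ee k) (ee k)) with hγ
  set q : W N := (t • ee k, b (t • ee k) + s • β) with hq
  have e1 : st w b b' k s t = w q (0, β) (ee k, γ) := rfl
  have b1 : ‖β - d‖ ≤ ε * ‖d‖ := h1 _
  have b2 : ‖β‖ ≤ 2 * ‖d‖ := by
    calc ‖β‖ = ‖(β - d) + d‖ := by rw [sub_add_cancel]
      _ ≤ ‖β - d‖ + ‖d‖ := norm_add_le _ _
      _ ≤ 2 * ‖d‖ := by nlinarith [norm_nonneg d]
  have b3 : ‖γ‖ ≤ ε := by
    have e2 : γ = (1 - s) • fderiv ℝ b (t • ee k) (ee k) + s • fderiv ℝ b' (t • ee k) (ee k) := by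
      rw [hγ, smul_sub, sub_smul, one_smul]; abel
    have a1 : ∀ b : V N → V N, (∀ θ, ‖fderiv ℝ b θ‖ ≤ ε) →
        ‖fderiv ℝ b (t • ee k) (ee k)‖ ≤ ε := by
      intro b hb
      have := (fderiv ℝ b (t • ee k)).le_opNorm (ee k)
      rw [norm_ee, mul_one] at this
      exact this.trans (hb _)
    rw [e2]
    refine (norm_add_le _ _).trans ?_
    rw [norm_smul, norm_smul, Real.norm_of_nonneg (by linarith [hs.2] : 0 ≤ 1 - s),
      Real.norm_of_nonneg hs.1]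
    have := a1 b h2
    have := a1 b' h3
    nlinarith [hs.1, hs.2]
  have b4 : ‖((ee k, γ) : W N)‖ ≤ 1 := by
    rw [Prod.norm_def]
    exact max_le (by rw [norm_ee]) (b3.trans hε)
  have hq1 : q ∈ tube N r := gr_seg hb hb' hs _
  have b5 : ‖w q - w0‖ ≤ ε := by
    refine hc q hq1 ?_
    show ‖t • (ee k : V N)‖ ≤ 1
    rw [norm_smul, norm_ee, mul_one, Real.norm_of_nonneg ht.1]
    exact ht.2
  have key : st w b b' k s t - w0 (0, d) (ee k, 0) =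
      (w q - w0) (0, β) (ee k, γ) + w0 (0, β - d) (ee k, γ) + w0 (0, d) (0, γ) := by
    rw [e1]
    have e3 : ((0, β - d) : W N) = ((0, β) : W N) - (0, d) := by ext1 <;> simp
    have e4 : ((ee k, γ) : W N) = (ee k, 0) + (0, γ) := by ext1 <;> simp
    rw [e3, e4]
    simp only [map_sub, map_add, _root_.sub_apply]
    ring
  rw [key]
  have t1 : ‖(w q - w0) (0, β) (ee k, γ)‖ ≤ ε * (2 * ‖d‖) * 1 := by
    refine (ContinuousLinearMap.le_opNorm₂ _ _ _).trans ?_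
    rw [norm_inr]
    gcongr
  have t2 : ‖w0 (0, β - d) (ee k, γ)‖ ≤ Λ * (ε * ‖d‖) * 1 := by
    refine (ContinuousLinearMap.le_opNorm₂ _ _ _).trans ?_
    rw [norm_inr]
    gcongr
  have t3 : ‖w0 (0, d) (0, γ)‖ ≤ Λ * ‖d‖ * ε := by
    refine (ContinuousLinearMap.le_opNorm₂ _ _ _).trans ?_
    rw [norm_inr, norm_inr]
    gcongr
  refine ((abs_add_le _ _).trans (add_le_add ((abs_add_le _ _).trans
    (add_le_add t1 t2)) t3)).trans (le_of_eq ?_)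
  ring

/-- near-linearity of the complex flux -/
theorem phi_near {Flx Fly : Fin N → (V N → V N) → ℝ} {x y : Fo N} {x0 y0 : W N →L[ℝ] W N →L[ℝ] ℝ}
    (hx : ContinuousOn x (tube N r)) (hy : ContinuousOn y (tube N r))
    (hFx : ∀ k, ∀ b0 b1 : V N → V N, Gr r b0 → Gr r b1 →
      Flx k b1 - Flx k b0 = ∫ s in (0:ℝ)..1, ∫ t in (0:ℝ)..1, st x b0 b1 k s t)
    (hFy : ∀ k, ∀ b0 b1 : V N → V N, Gr r b0 → Gr r b1 →
      Fly k b1 - Fly k b0 = ∫ s in (0:ℝ)..1, ∫ t in (0:ℝ)..1, st y b0 b1 k s t)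
    {Λ ε : ℝ} (hx0 : ‖x0‖ ≤ Λ) (hy0 : ‖y0‖ ≤ Λ) (hε0 : 0 ≤ ε) (hε : ε ≤ 1)
    (hcx : ∀ p ∈ tube N r, ‖p.1‖ ≤ 1 → ‖x p - x0‖ ≤ ε)
    (hcy : ∀ p ∈ tube N r, ‖p.1‖ ≤ 1 → ‖y p - y0‖ ≤ ε) (hb : Gr r b) (hb' : Gr r b') {d : V N}
    (h1 : ∀ θ, ‖b' θ - b θ - d‖ ≤ ε * ‖d‖) (h2 : ∀ θ, ‖fderiv ℝ b θ‖ ≤ ε)
    (h3 : ∀ θ, ‖fderiv ℝ b' θ‖ ≤ ε) :
    ‖PhiC Flx Fly b' - PhiC Flx Fly b - P0 x0 y0 d‖ ≤ N * (2 * ((2 + 2 * Λ) * ε * ‖d‖)) := by
  refine norm_CE_le _ fun k => ?_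
  have e1 : (PhiC Flx Fly b' - PhiC Flx Fly b - P0 x0 y0 d) k =
      ((Flx k b' - Flx k b - x0 (0, d) (ee k, 0) : ℝ) : ℂ) +
        Complex.I * ((Fly k b' - Fly k b - y0 (0, d) (ee k, 0) : ℝ) : ℂ) := by
    rw [PiLp.sub_apply, PiLp.sub_apply, PhiC_apply, PhiC_apply, P0_apply]
    push_cast; ring
  rw [e1]
  refine (norm_add_le _ _).trans ?_
  rw [norm_mul, Complex.norm_I, one_mul, Complex.norm_real, Complex.norm_real, Real.norm_eq_abs,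
    Real.norm_eq_abs]
  have a1 := flux_near hx (hFx k) hx0 hε0 hε hcx hb hb' h1 h2 h3
  have a2 := flux_near hy (hFy k) hy0 hε0 hε hcy hb hb' h1 h2 h3
  linarith

/-- **lower bound of the constant model** from a non-degenerate form -/
theorem vert_low {z0 : W N →L[ℝ] W N →L[ℝ] ℝ} {Λ δ : ℝ} (hΛ : 0 ≤ Λ)
    (halt : ∀ u v, z0 u v = - z0 v u)
    (hnd : ∀ u, ‖u‖ ≤ Λ * ‖z0 u‖) (hh : ∀ u v, |z0 (u, 0) (v, 0)| ≤ δ * ‖u‖ * ‖v‖) (hδ : 0 ≤ δ)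
    (hΛδ : Λ * δ ≤ 1 / 2) (c : V N) :
    ‖c‖ ≤ 2 * Λ * ‖(WithLp.toLp 2 fun k => z0 (0, c) (ee k, 0) : V N)‖ := by
  -- the block `B h = z0 (h, 0) (0, ·)`
  set B : V N →L[ℝ] (V N →L[ℝ] ℝ) :=
    ((ContinuousLinearMap.compL ℝ (V N) (W N) ℝ).flip (ContinuousLinearMap.inr ℝ (V N) (V N))).comp
      (z0.comp (ContinuousLinearMap.inl ℝ (V N) (V N))) with hB
  have hBa : ∀ h c, B h c = z0 (h, 0) (0, c) := fun h c => rfl
  have hlow : ∀ h, ‖h‖ ≤ 2 * Λ * ‖B h‖ := by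
    intro h
    have h1 := hnd (h, 0)
    rw [norm_inl] at h1
    have h2 : ‖z0 (h, 0)‖ ≤ δ * ‖h‖ + ‖B h‖ := by
      refine ContinuousLinearMap.opNorm_le_bound _ (by positivity) fun v => ?_
      have e1 : z0 (h, 0) v = z0 (h, 0) (v.1, 0) + B h v.2 := by
        rw [hBa, ← map_add]; congr 1; ext1 <;> simp
      rw [e1, Real.norm_eq_abs]
      refine (abs_add_le _ _).trans ?_
      have a1 := hh h v.1
      have a2 : |B h v.2| ≤ ‖B h‖ * ‖v.2‖ := (B h).le_opNorm _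
      have a3 := norm_fst_le v
      have a4 := norm_snd_le v
      calc |z0 (h, 0) (v.1, 0)| + |B h v.2| ≤ δ * ‖h‖ * ‖v‖ + ‖B h‖ * ‖v‖ :=
            add_le_add (a1.trans (by gcongr)) (a2.trans (by gcongr))
        _ = (δ * ‖h‖ + ‖B h‖) * ‖v‖ := by ring
    have h3 : ‖h‖ ≤ Λ * (δ * ‖h‖ + ‖B h‖) := h1.trans (by gcongr)
    nlinarith [norm_nonneg h, norm_nonneg (B h)]
  have hinj : Function.Injective B := by
    rw [injective_iff_map_eq_zero]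
    intro h hh0
    have := hlow h
    rw [hh0, norm_zero, mul_zero] at this
    exact norm_le_zero_iff.1 this
  have hdim : Module.finrank ℝ (V N) = Module.finrank ℝ (V N →L[ℝ] ℝ) := by
    rw [← (InnerProductSpace.toDual ℝ (V N)).toLinearEquiv.finrank_eq]
  have hsurj : Function.Surjective B :=
    (LinearMap.injective_iff_surjective_of_finrank_eq_finrank (f := (B : V N →ₗ[ℝ] _)) hdim).1 hinj
  rcases eq_or_ne c 0 with rfl | hc
  · rw [norm_zero]; positivity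
  have hc' : 0 < ‖c‖ := norm_pos_iff.2 hc
  obtain ⟨h, hh1⟩ := hsurj (‖c‖⁻¹ • innerSL ℝ c)
  have hn1 : ‖B h‖ ≤ 1 := by
    rw [hh1, norm_smul, innerSL_apply_norm, norm_inv, norm_norm, inv_mul_cancel₀ hc'.ne']
  have hn : ‖h‖ ≤ 2 * Λ := (hlow h).trans (by nlinarith)
  have hv : z0 (h, 0) (0, c) = ‖c‖ := by
    rw [← hBa, hh1]
    show ‖c‖⁻¹ * inner ℝ c c = ‖c‖
    rw [real_inner_self_eq_norm_sq]
    field_simp
  -- expansion in the basis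
  have hexp : z0 (0, c) (h, 0) = inner ℝ h (WithLp.toLp 2 fun k => z0 (0, c) (ee k, 0) : V N) := by
    have e1 : ((h, 0) : W N) = ∑ k, h k • ((ee k, 0) : W N) := by
      have : h = ∑ k, h k • (ee k : V N) := by
        ext i
        simp [ee, Finset.sum_apply, Pi.single_apply]
      conv_lhs => rw [this]
      ext1
      · simp [Prod.fst_sum]
      · simp [Prod.snd_sum]
    rw [e1, map_sum]
    simp only [map_smul, smul_eq_mul]
    rw [PiLp.inner_apply]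
    refine Finset.sum_congr rfl fun k _ => ?_
    simp [mul_comm]
  have hfin : ‖c‖ = |z0 (0, c) (h, 0)| := by
    rw [← abs_of_pos hc', ← hv, halt, abs_neg]
  calc ‖c‖ = |inner ℝ h (WithLp.toLp 2 fun k => z0 (0, c) (ee k, 0) : V N)| := by rw [hfin, hexp]
    _ ≤ ‖h‖ * ‖(WithLp.toLp 2 fun k => z0 (0, c) (ee k, 0) : V N)‖ := abs_real_inner_le_norm _ _
    _ ≤ _ := by gcongr

/-- the same for `P0`, when the second form is non-degenerate -/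
theorem P0_low {x0 z0 : W N →L[ℝ] W N →L[ℝ] ℝ} {Λ δ : ℝ} (hΛ : 0 ≤ Λ)
    (halt : ∀ u v, z0 u v = - z0 v u)
    (hnd : ∀ u, ‖u‖ ≤ Λ * ‖z0 u‖) (hh : ∀ u v, |z0 (u, 0) (v, 0)| ≤ δ * ‖u‖ * ‖v‖) (hδ : 0 ≤ δ)
    (hΛδ : Λ * δ ≤ 1 / 2) (c : V N) : ‖c‖ ≤ 2 * Λ * ‖P0 x0 z0 c‖ := by
  refine (vert_low hΛ halt hnd hh hδ hΛδ c).trans ?_
  gcongr
  rw [EuclideanSpace.norm_eq, EuclideanSpace.norm_eq]
  refine Real.sqrt_le_sqrt (Finset.sum_le_sum fun k _ => ?_)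
  have : ‖z0 (0, c) (ee k, 0)‖ ≤ ‖P0 x0 z0 c k‖ := by
    rw [P0_apply, Real.norm_eq_abs]
    have := Complex.abs_im_le_norm ((x0 (0, c) (ee k, 0) : ℂ) + Complex.I * (z0 (0, c) (ee k, 0) : ℂ))
    simpa using this
  gcongr

end

end Crest.Agent.R281.Qt_922
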