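import Crest.Agent.R281.Qt1_922
import Crest.Agent.R281.Qt7_922

/-!
# R281 (S0424), QTUBE (helper922), part 8: the interfaces

* `TFam`  : the family of tori of radius `R` (output of LAGT on the tube `|v| < r`)
* `RTube` : the holomorphic function on the real tube (output of `real_tube`, Qt9_922)
* `Push`  : the map `Θ : W N → X` into a complex manifold `(X, A)` with metric `K`
-/

set_option autoImplicit false
set_option maxSynthPendingDepth 3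

open Set Metric Filter Topology
open scoped ContDiff

namespace Crest.Agent.R281.Qt_922

open Crest.Agent.R281.Mc673 (V W Fo tube ClF isOpen_tube kv)
open Crest.Agent.R275.Geo Crest.Agent.R273.Defs_333 Crest.Agent.R273.Kah_333
open Crest.Agent.R281.SAsm_790

noncomputable section

variable {N : ℕ}

/-- the family of isotropic tori `{(θ, a c θ)}`, `|c| < R` -/
structure TFam (r R ε : ℝ) (x y : Fo N) (a : V N → V N → V N) : Prop where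
  leaf : ∀ c, ‖c‖ < R → Tub_57.Leaf r x y (a c)
  near : ∀ c, ‖c‖ < R → ∀ θ, ‖a c θ - c‖ ≤ ε
  dnear : ∀ c, ‖c‖ < R → ∀ θ, ‖fderiv ℝ (a c) θ‖ ≤ ε
  lip : ∀ c, ‖c‖ < R → ∀ c', ‖c'‖ < R → ∀ θ, ‖a c θ - a c' θ - (c - c')‖ ≤ ε * ‖c - c'‖
  dlip : ∀ c, ‖c‖ < R → ∀ c', ‖c'‖ < R → ∀ θ,
    ‖fderiv ℝ (a c) θ - fderiv ℝ (a c') θ‖ ≤ ε * ‖c - c'‖

/-- the region covered by the tori -/
def reg (a : V N → V N → V N) (R : ℝ) : Set (W N) := {p | ∃ c, ‖c‖ < R ∧ a c p.1 = p.2}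

/-- **the output on the real tube**: `G (θ, a c θ) = g c`, `G` holomorphic for `I` -/
structure RTube (n : ℕ) (C R : ℝ) (I : W N → W N →L[ℝ] W N) (a : V N → V N → V N)
    (g : V N → Cn n) (G : W N → Cn n) : Prop where
  op : IsOpen (reg a R)
  ga : ∀ c, ‖c‖ < R → ∀ θ, G (θ, a c θ) = g c
  inj : InjOn g (ball 0 R)
  cont : ContinuousOn g (ball 0 R)
  onto : ball 0 (R / C) ⊆ g '' ball 0 R
  cpt : ∀ R' < R / C, IsCompact {c | c ∈ ball (0 : V N) R ∧ ‖g c‖ ≤ R'}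
  der : ∀ p ∈ reg a R, ∃ G' : W N →L[ℝ] Cn n, HasFDerivAt G G' p ∧ ‖G'‖ ≤ C ∧
    (∀ w : V N, ‖w‖ ≤ C * ‖G' (0, w)‖) ∧ ∀ w, G' (I p w) = Complex.I • G' w

/-- the map into the complex manifold -/
structure Push {X : Type} [TopologicalSpace X] (A : Atl N X) (K : Kah A) (r Λ : ℝ)
    (I : W N → W N →L[ℝ] W N) (Θ : W N → X) : Prop where
  cont : ContinuousOn Θ (tube N r)
  sm : ∀ p ∈ tube N r, ∀ j, Θ p ∈ (A.e j).source → ContDiffAt ℝ ∞ (fun q => A.e j (Θ q)) p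
  bij : ∀ p ∈ tube N r, ∀ j, Θ p ∈ (A.e j).source →
    Function.Bijective (fderiv ℝ (fun q => A.e j (Θ q)) p)
  hol : ∀ p ∈ tube N r, ∀ j, Θ p ∈ (A.e j).source → ∀ u,
    fderiv ℝ (fun q => A.e j (Θ q)) p (I p u) =
      Complex.I • fderiv ℝ (fun q => A.e j (Θ q)) p u
  low : ∀ p ∈ tube N r, ∀ j, Θ p ∈ (A.e j).source → ∀ u,
    ‖u‖ ^ 2 ≤ Λ * qf K j (Θ p) (fderiv ℝ (fun q => A.e j (Θ q)) p u)
  up : ∀ p ∈ tube N r, ∀ j, Θ p ∈ (A.e j).source → ∀ u,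
    qf K j (Θ p) (fderiv ℝ (fun q => A.e j (Θ q)) p u) ≤ Λ * ‖u‖ ^ 2
  eq_iff : ∀ p ∈ tube N r, ∀ q ∈ tube N r,
    (Θ p = Θ q ↔ ∃ k : Fin N → ℤ, p = (q.1 + kv k, q.2))

end

end Crest.Agent.R281.Qt_922
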