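import Crest.Agent.R281.Qd1_956
import Crest.Agent.R281.Ab1_729
import Crest.Agent.R281.Qt8_922

/-!
# R281 (S0424), QTUBE (helper956), discs, part 2: discs in a compact Lagrangian fibre joining the
end points of a path of bounded speed.
-/

set_option autoImplicit false
set_option linter.unusedSectionVars false

open Set Metric Filter Topology Complex Function TopologicalSpace
open scoped NNReal ContDiff Matrix

namespace Crest.Agent.R281.Qd_956

open Crest.Agent.R275.Geo Crest.Agent.R275.Core144 Crest.Agent.R273.HFlow3_376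
open Crest.Agent.R273.HFlow4_376
open Crest.Agent.R273.HFlow5_376 Crest.Agent.R273.HFlow6_376
open Crest.Agent.R281.Aa1_836 Crest.Agent.R281.Aa2_836 Crest.Agent.R281.Aa3_836
open Crest.Agent.R281.Aa4_836 Crest.Agent.R281.Aa5_836 Crest.Agent.R281.Aa6_836
open Crest.Agent.R281.Aa7_836 Crest.Agent.R281.Ab_729
open Crest.Agent.R281.Defs_273 Crest.Agent.R281.HkP2_508
open Crest.Agent.R273.Defs_333 Crest.Agent.R273.Kah_333
open Crest.Agent.R281.SAsm_790 Crest.Agent.R281.Qt_922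

noncomputable section

variable {g : ℕ} {X : Type} [TopologicalSpace X] {A : Atl (2 * g) X} {K : Kah A} {σ : HSymp A}
  {U : Opens X} {f : X → Cn g}

/-- `v = Σ w_k V_k` at `x`, `σ(V_k, ·) = d f_k` -/
def Hm (σ : HSymp A) (f : X → Cn g) (j : A.ι) (x : X) (w : Fin g → ℂ) (v : Cn (2 * g)) : Prop :=
  ∀ v', bf (σ.s j x) v v' = ∑ k, w k * (fderiv ℂ (fun z => f ((A.e j).symm z)) (A.e j x) v') k

theorem hm_sum (h : LagF (opS σ U) (fun x : U => f x.1)) {j : A.ι} {p x : U}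
    (hx : x.1 ∈ (A.e j).source) (w : Fin g → ℂ) :
    Hm σ f j x.1 w (∑ k, w k • (VH (opS σ U) h.hol k).X (p, j) x) := by
  intro v'
  rw [map_sum, _root_.sum_apply]
  refine Finset.sum_congr rfl fun k _ => ?_
  rw [map_smul, _root_.smul_apply, smul_eq_mul]
  congr 1
  have hx' : x ∈ ((opA A U).e (p, j)).source := opA_source.2 hx
  have h1 := VH_spec (σ := opS σ U) h.hol k hx' v'
  have h2 : fderiv ℂ (fun z => (fun x : U => f x.1) (((opA A U).e (p, j)).symm z))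
      ((opA A U).e (p, j) x) = fderiv ℂ (fun z => f ((A.e j).symm z)) (A.e j x.1) :=
    fderiv_opA f hx'
  rw [h2] at h1
  exact h1

/-- **a disc in a compact Lagrangian fibre** joining the end points of a path of bounded speed -/
theorem disc_of_path [T2Space X] (h : LagF (opS σ U) (fun x : U => f x.1)) {T : Set X}
    (hT : IsCompact T) (hTc : IsPreconnected T) (hTU : T ⊆ (U : Set X)) {b : Cn g}
    (hTy : ∀ x ∈ T, f x = b) {O : Set X} (hO : IsOpen O) (hTO : T ⊆ O)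
    (hOT : ∀ x ∈ O, x ∈ U → f x = b → x ∈ T) {c1 ℓ ℓ' : ℝ} (hc1 : 0 ≤ c1) (hℓ : ℓ < ℓ')
    (h1 : ∀ j, ∀ x ∈ (A.e j).source, x ∈ T → ∀ w v, Hm σ f j x w v → qf K j x v ≤ c1 * ‖w‖ ^ 2)
    {γ : ℝ → X} (hγ : Continuous γ) (hγT : ∀ s, γ s ∈ T)
    (hd : ∀ s, ∃ j, γ s ∈ (A.e j).source ∧ ∃ v, HasDerivAt (fun s => A.e j (γ s)) v s ∧
      ∀ w, Hm σ f j (γ s) w v → ‖w‖ ≤ ℓ) :
    ∃ G : ℂ → X, Disc A K (c1 * ℓ' ^ 2) T G ∧ G 0 = γ 0 ∧ G 1 = γ 1 := by
  classical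
  -- the leaf in `U`
  set T' : Set U := Subtype.val ⁻¹' T with hT'
  have himg : Subtype.val '' T' = T := by
    apply Subset.antisymm
    · rintro _ ⟨x, hx, rfl⟩
      exact hx
    · exact fun x hx => ⟨⟨x, hTU hx⟩, hx, rfl⟩
  have hT1 : IsCompact T' := by
    rw [Subtype.isCompact_iff, himg]
    exact hT
  have hT2 : IsPreconnected T' := by
    refine (IsInducing.isPreconnected_image (f := (Subtype.val : U → X))
      IsInducing.subtypeVal).1 ?_
    have h1 := himg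
    exact h1.symm ▸ hTc
  set γ' : ℝ → U := fun s => ⟨γ s, hTU (hγT s)⟩ with hγ'
  have hγ'c : Continuous γ' := hγ.subtype_mk _
  obtain ⟨ε, R, Nb, Ψ, lp, t, hTN, hNO, hΨ0⟩ := exists_AA h (x0 := γ' 0) (T := T')
    (hγT 0) hT1 hT2 (fun x hx => (hTy x.1 hx).trans (hTy _ (hγT 0)).symm)
    (O := Subtype.val ⁻¹' O)
    (hO.preimage continuous_subtype_val) (fun x hx => hTO hx)
    (fun x hx hy => hOT x.1 hx x.2 (hy.trans (hTy _ (hγT 0))))
  have hb0 : f (γ' 0).1 = b := hTy _ (hγT 0)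
  rw [hb0] at t hΨ0
  have hb : b ∈ ball b ε := mem_ball_self t.pos
  have hdim : g + Module.finrank ℂ (Cn g) = 2 * g := by
    rw [finrank_euclideanSpace_fin]; omega
  obtain ⟨c, hc, hcℓ⟩ := lift_path t hdim hb hγ'c (fun s => hTy _ (hγT s)) hℓ (fun s => by
    obtain ⟨j, hj, v, hv, hw⟩ := hd s
    refine ⟨(γ' s, j), opA_source.2 hj, v, hv, fun w hvw => hw w ?_⟩
    rw [hvw]
    exact hm_sum h (p := γ' s) (x := γ' s) hj w) hΨ0
  have hmem : ∀ ζ, (sdisc Ψ b 0 c ζ).1 ∈ T := fun ζ => by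
    have h2 := t.mem ((0 : Fin g → ℂ) + ζ • (c - 0)) b hb
    exact hOT _ (hNO h2) (sdisc Ψ b 0 c ζ).2 (t.y_eq _ b hb)
  have hder : ∀ ζ, ∀ j, (sdisc Ψ b 0 c ζ).1 ∈ (A.e j).source →
      HasDerivAt (fun w => A.e j (sdisc Ψ b 0 c w).1)
      (∑ k, (c - 0) k • (VH (opS σ U) h.hol k).X (sdisc Ψ b 0 c ζ, j) (sdisc Ψ b 0 c ζ)) ζ :=
    fun ζ j hj => by
      have hj' : sdisc Ψ b 0 c ζ ∈ ((opA A U).e (sdisc Ψ b 0 c ζ, j)).source :=
        opA_source.2 hj
      exact sdisc_deriv t hb 0 c ζ (i := (sdisc Ψ b 0 c ζ, j)) hj'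
  refine ⟨fun ζ => (sdisc Ψ b 0 c ζ).1, ?_, ?_, ?_⟩
  · refine
      { mem := fun ζ _ => hmem ζ
        cont := (continuous_subtype_val.comp (sdisc_cont t hb 0 c)).continuousOn
        hol := fun ζ _ j hj => (hder ζ j hj).differentiableAt
        q := fun ζ _ j hj => ?_ }
    rw [(hder ζ j hj).deriv]
    have h3 := hm_sum h (p := sdisc Ψ b 0 c ζ) (x := sdisc Ψ b 0 c ζ) hj (c - 0)
    refine (h1 j (sdisc Ψ b 0 c ζ).1 hj (hmem ζ) (c - 0) _ h3).trans ?_
    gcongr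
  · change (sdisc Ψ b 0 c 0).1 = γ 0
    rw [sdisc_zero, hΨ0]
  · change (sdisc Ψ b 0 c 1).1 = γ 1
    rw [sdisc_one, hc]

end

end Crest.Agent.R281.Qd_956
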