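import Crest.Agent.R281.Qd2_956

/-!
# R281 (S0424), QTUBE (helper956), discs, part 3: pointwise linear algebra, the lattice, and
**the clause (q2) of the quantified tube**.
-/

set_option autoImplicit false
set_option linter.unusedSectionVars false
set_option maxSynthPendingDepth 3

open Set Metric Filter Topology Complex Function TopologicalSpace
open scoped NNReal ContDiff Matrix ComplexConjugate

namespace Crest.Agent.R281.Qd_956

open Crest.Agent.R275.Geo Crest.Agent.R275.Core144 Crest.Agent.R273.HFlow3_376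
open Crest.Agent.R273.HFlow4_376
open Crest.Agent.R273.HFlow5_376 Crest.Agent.R273.HFlow6_376
open Crest.Agent.R281.Aa1_836 Crest.Agent.R281.Aa2_836 Crest.Agent.R281.Aa3_836
open Crest.Agent.R281.Aa4_836 Crest.Agent.R281.Aa5_836 Crest.Agent.R281.Aa6_836
open Crest.Agent.R281.Aa7_836 Crest.Agent.R281.Ab_729
open Crest.Agent.R281.Defs_273 Crest.Agent.R281.HkP2_508
open Crest.Agent.R273.Defs_333 Crest.Agent.R273.Kah_333
open Crest.Agent.R281.SAsm_790 Crest.Agent.R281.Qt_922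
open Crest.Agent.R281.Mc673 (V W Fo tube isOpen_tube kv)

noncomputable section

/-! ### linear algebra at a point -/

section Lin

variable {g N : ℕ}

theorem abs_sum_le (w : Fin g → ℂ) (z : Cn g) : ‖∑ k, w k * z k‖ ≤ g * (‖w‖ * ‖z‖) := by
  calc ‖∑ k, w k * z k‖ ≤ ∑ k, ‖w k * z k‖ := norm_sum_le _ _
    _ ≤ ∑ _k : Fin g, ‖w‖ * ‖z‖ := by
        refine Finset.sum_le_sum fun k _ => ?_
        rw [norm_mul]
        exact mul_le_mul (norm_le_pi_norm w k) (PiLp.norm_apply_le z k) (norm_nonneg _)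
          (norm_nonneg _)
    _ = g * (‖w‖ * ‖z‖) := by simp

variable {D : W N →L[ℝ] Cn (2 * g)} {B : Cn (2 * g) →L[ℂ] Cn (2 * g) →L[ℂ] ℂ}
  {df : Cn (2 * g) →L[ℂ] Cn g} {G' : W N →L[ℝ] Cn g} {s : ℂ}
  {x y : W N →L[ℝ] W N →L[ℝ] ℝ} {Λ C : ℝ}

/-- upper bound of `Σ w_k V_k` -/
theorem lin_up (hG : ∀ u, G' u = df (D u)) (hs : s ≠ 0) (hΛ : 0 ≤ Λ) (hC : ‖G'‖ ≤ C)
    (hB : ∀ u w, B (D u) (D w) = s * (x u w + I * y u w))
    (hnd : ∀ u, ‖u‖ ≤ Λ * ‖x u‖ ∨ ‖u‖ ≤ Λ * ‖y u‖) {w : Fin g → ℂ} {u : W N}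
    (hw : ∀ v', B (D u) v' = ∑ k, w k * (df v') k) : ‖u‖ ≤ Λ * (g * C * ‖w‖ / ‖s‖) := by
  have hs0 : 0 < ‖s‖ := norm_pos_iff.2 hs
  have hC0 : 0 ≤ C := (norm_nonneg _).trans hC
  have key : ∀ u', ‖((x u u' : ℝ) : ℂ) + I * ((y u u' : ℝ) : ℂ)‖ ≤ g * C * ‖w‖ / ‖s‖ * ‖u'‖ := by
    intro u'
    have h1 := hw (D u')
    rw [hB, ← hG] at h1
    have h2 := congrArg norm h1
    rw [norm_mul] at h2
    have h3 := abs_sum_le w (G' u')
    have h4 : ‖G' u'‖ ≤ C * ‖u'‖ := (G'.le_opNorm u').trans (by gcongr)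
    rw [div_mul_eq_mul_div, le_div_iff₀ hs0, mul_comm _ ‖s‖, h2]
    calc ‖∑ k, w k * (G' u') k‖ ≤ g * (‖w‖ * ‖G' u'‖) := h3
      _ ≤ g * (‖w‖ * (C * ‖u'‖)) := by gcongr
      _ = g * C * ‖w‖ * ‖u'‖ := by ring
  have hb : 0 ≤ g * C * ‖w‖ / ‖s‖ := by positivity
  have hx : ‖x u‖ ≤ g * C * ‖w‖ / ‖s‖ := by
    refine ContinuousLinearMap.opNorm_le_bound _ hb fun u' => ?_
    refine le_trans ?_ (key u')
    have := Complex.abs_re_le_norm (((x u u' : ℝ) : ℂ) + I * ((y u u' : ℝ) : ℂ))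
    simpa using this
  have hy : ‖y u‖ ≤ g * C * ‖w‖ / ‖s‖ := by
    refine ContinuousLinearMap.opNorm_le_bound _ hb fun u' => ?_
    refine le_trans ?_ (key u')
    have := Complex.abs_im_le_norm (((x u u' : ℝ) : ℂ) + I * ((y u u' : ℝ) : ℂ))
    simpa using this
  rcases hnd u with h | h
  · exact h.trans (mul_le_mul_of_nonneg_left hx hΛ)
  · exact h.trans (mul_le_mul_of_nonneg_left hy hΛ)

end Lin

section Lin2

variable {g : ℕ} {D : W (2 * g) →L[ℝ] Cn (2 * g)} {B : Cn (2 * g) →L[ℂ] Cn (2 * g) →L[ℂ] ℂ}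
  {df : Cn (2 * g) →L[ℂ] Cn g} {G' : W (2 * g) →L[ℝ] Cn g} {s : ℂ}
  {x y : W (2 * g) →L[ℝ] W (2 * g) →L[ℝ] ℝ} {Λ C : ℝ}

theorem exists_vert (hlow : ∀ w : V (2 * g), ‖w‖ ≤ C * ‖G' (0, w)‖) (z : Cn g) :
    ∃ w : V (2 * g), G' (0, w) = z := by
  set L : V (2 * g) →ₗ[ℝ] Cn g :=
    (G'.comp (ContinuousLinearMap.inr ℝ (V (2 * g)) (V (2 * g)))).toLinearMap with hL
  have hLa : ∀ w, L w = G' (0, w) := fun w => rfl
  have hinj : Injective L := by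
    rw [injective_iff_map_eq_zero]
    intro w hw
    have := hlow w
    rw [← hLa, hw, norm_zero, mul_zero] at this
    exact norm_le_zero_iff.1 this
  have hfr : Module.finrank ℝ (V (2 * g)) = Module.finrank ℝ (Cn g) := by
    rw [finrank_euclideanSpace_fin, finrank_real_of_complex, finrank_euclideanSpace_fin]
  obtain ⟨w, hw⟩ := (LinearMap.injective_iff_surjective_of_finrank_eq_finrank hfr).1 hinj z
  exact ⟨w, hw⟩

/-- lower bound of `Σ w_k V_k` -/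
theorem lin_low (hG : ∀ u, G' u = df (D u)) (hC : 0 ≤ C)
    (hlow : ∀ w : V (2 * g), ‖w‖ ≤ C * ‖G' (0, w)‖)
    (hB : ∀ u w, B (D u) (D w) = s * (x u w + I * y u w))
    (hbd : ‖x‖ ≤ Λ ∧ ‖y‖ ≤ Λ) {w : Fin g → ℂ} {u : W (2 * g)}
    (hw : ∀ v', B (D u) v' = ∑ k, w k * (df v') k) : ‖w‖ ≤ ‖s‖ * (2 * Λ * C * ‖u‖) := by
  have hΛ : 0 ≤ Λ := (norm_nonneg _).trans hbd.1
  set z : Cn g := WithLp.toLp 2 (fun k => conj (w k)) with hz
  have hzk : ∀ k, z k = conj (w k) := fun k => rfl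
  obtain ⟨w', hw'⟩ := exists_vert hlow z
  have h1 := hw (D (0, w'))
  rw [hB, ← hG, hw'] at h1
  have h2 : ∑ k, w k * z k = ((‖z‖ ^ 2 : ℝ) : ℂ) := by
    rw [EuclideanSpace.norm_sq_eq, Complex.ofReal_sum]
    refine Finset.sum_congr rfl fun k _ => ?_
    rw [hzk, Complex.mul_conj, Complex.norm_conj, Complex.normSq_eq_norm_sq]
  rw [h2] at h1
  have hw'n : ‖w'‖ ≤ C * ‖z‖ := by rw [← hw']; exact hlow w'
  have hu' : ‖((0, w') : W (2 * g))‖ ≤ C * ‖z‖ := by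
    rw [Prod.norm_def, norm_zero]
    exact max_le (by positivity) hw'n
  have hx : |x u (0, w')| ≤ Λ * ‖u‖ * (C * ‖z‖) := by
    refine (x.le_opNorm₂ u (0, w')).trans ?_
    gcongr
    exact hbd.1
  have hy : |y u (0, w')| ≤ Λ * ‖u‖ * (C * ‖z‖) := by
    refine (y.le_opNorm₂ u (0, w')).trans ?_
    gcongr
    exact hbd.2
  have h3 : ‖z‖ ^ 2 ≤ ‖s‖ * (2 * Λ * C * ‖u‖) * ‖z‖ := by
    have h4 := congrArg norm h1
    rw [norm_mul, Complex.norm_real, Real.norm_of_nonneg (by positivity)] at h4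
    rw [← h4]
    have h5 : ‖((x u (0, w') : ℝ) : ℂ) + I * ((y u (0, w') : ℝ) : ℂ)‖ ≤
        Λ * ‖u‖ * (C * ‖z‖) + Λ * ‖u‖ * (C * ‖z‖) := by
      refine (norm_add_le _ _).trans ?_
      rw [norm_mul, Complex.norm_I, one_mul, Complex.norm_real, Complex.norm_real]
      exact add_le_add hx hy
    calc ‖s‖ * ‖((x u (0, w') : ℝ) : ℂ) + I * ((y u (0, w') : ℝ) : ℂ)‖
        ≤ ‖s‖ * (Λ * ‖u‖ * (C * ‖z‖) + Λ * ‖u‖ * (C * ‖z‖)) := by gcongr
      _ = ‖s‖ * (2 * Λ * C * ‖u‖) * ‖z‖ := by ring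
  have hwz : ‖w‖ ≤ ‖z‖ := by
    rw [pi_norm_le_iff_of_nonneg (norm_nonneg _)]
    intro k
    have := PiLp.norm_apply_le z k
    rwa [hzk, Complex.norm_conj] at this
  rcases (norm_nonneg z).eq_or_lt with h0 | h0
  · refine hwz.trans ?_
    rw [← h0]
    positivity
  · refine hwz.trans ?_
    rw [pow_two] at h3
    exact le_of_mul_le_mul_right h3 h0

end Lin2

/-! ### the lattice -/

theorem exists_near {N : ℕ} (θ θ' : V N) : ∃ k : Fin N → ℤ, ‖θ' + kv k - θ‖ ≤ √N := by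
  refine ⟨fun i => -⌊θ' i - θ i⌋, ?_⟩
  rw [EuclideanSpace.norm_eq]
  refine Real.sqrt_le_sqrt ?_
  calc ∑ i, ‖(θ' + kv (fun i => -⌊θ' i - θ i⌋) - θ : V N) i‖ ^ 2 ≤ ∑ _i : Fin N, (1 : ℝ) := by
        refine Finset.sum_le_sum fun i _ => ?_
        have h1 : (θ' + kv (fun i => -⌊θ' i - θ i⌋) - θ : V N) i =
            Int.fract (θ' i - θ i) := by
          change θ' i + ((-⌊θ' i - θ i⌋ : ℤ) : ℝ) - θ i = _
          rw [Int.fract]
          push_cast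
          ring
        rw [h1, Real.norm_of_nonneg (Int.fract_nonneg _)]
        have h2 := Int.fract_nonneg (θ' i - θ i)
        have h3 := (Int.fract_lt_one (θ' i - θ i)).le
        nlinarith
    _ = N := by simp

end

end Crest.Agent.R281.Qd_956
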