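import Crest.Agent.R281.Qd3_956

/-!
# R281 (S0424), QTUBE (helper956), discs, part 4: **the clause (q2) of the quantified tube**
`q2_disc`: `Push` + `RTube` + `TFam` (helper922) + the holomorphic symplectic form of the atlas.
-/

set_option autoImplicit false
set_option linter.unusedSectionVars false
set_option maxSynthPendingDepth 3

open Set Metric Filter Topology Complex Function TopologicalSpace
open scoped NNReal ContDiff Matrix ComplexConjugate

namespace Crest.Agent.R281.Qd_956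

open Crest.Agent.R275.Geo Crest.Agent.R275.Core144 Crest.Agent.R273.HFlow3_376
open Crest.Agent.R273.HFlow4_376
open Crest.Agent.R273.HFlow5_376 Crest.Agent.R273.HFlow6_376
open Crest.Agent.R281.Aa1_836 Crest.Agent.R281.Aa2_836 Crest.Agent.R281.Aa3_836
open Crest.Agent.R281.Aa4_836 Crest.Agent.R281.Aa5_836 Crest.Agent.R281.Aa6_836
open Crest.Agent.R281.Aa7_836 Crest.Agent.R281.Ab_729
open Crest.Agent.R281.Defs_273 Crest.Agent.R281.HkP2_508
open Crest.Agent.R273.Defs_333 Crest.Agent.R273.Kah_333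
open Crest.Agent.R281.SAsm_790 Crest.Agent.R281.Qt_922
open Crest.Agent.R281.Mc673 (V W Fo tube isOpen_tube kv)

noncomputable section

section Lag

variable {g : ℕ} {X : Type} [TopologicalSpace X] {A : Atl (2 * g) X} {σ : HSymp A}
  {U : Opens X} {f : X → Cn g}

/-- a holomorphic submersion with Lagrangian fibres, defined on an open subset -/
theorem lagF_gen (hcl : Clo σ.toH2)
    (hol : ∀ i, DifferentiableOn ℂ (fun z => f ((A.e i).symm z))
      ((A.e i).target ∩ (A.e i).symm ⁻¹' (U : Set X)))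
    (sur : ∀ i, ∀ x ∈ (A.e i).source, x ∈ U →
      Surjective (fderiv ℂ (fun z => f ((A.e i).symm z)) (A.e i x)))
    (lag : ∀ i, ∀ x ∈ (A.e i).source, x ∈ U → ∀ u v,
      fderiv ℂ (fun z => f ((A.e i).symm z)) (A.e i x) u = 0 →
      fderiv ℂ (fun z => f ((A.e i).symm z)) (A.e i x) v = 0 → bf (σ.s i x) u v = 0) :
    LagF (opS σ U) (fun x : U => f x.1) where
  clo := opS_clo hcl
  hol p := by
    refine ((hol p.2).mono fun z hz => ?_).congr fun z hz => ?_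
    · have := opA_target.1 hz
      exact ⟨this.1, this.2⟩
    · change f (((opA A U).e p).symm z).1 = f ((A.e p.2).symm z)
      rw [opA_symm hz]
  sur p x hx := by
    have h1 : fderiv ℂ (fun z => (fun x : U => f x.1) (((opA A U).e p).symm z))
        ((opA A U).e p x) = fderiv ℂ (fun z => f ((A.e p.2).symm z)) (A.e p.2 x.1) :=
      fderiv_opA f hx
    rw [h1]
    exact sur p.2 x.1 (opA_source.1 hx) x.2
  lag p x hx u v hu hv := by
    have h1 : fderiv ℂ (fun z => (fun x : U => f x.1) (((opA A U).e p).symm z))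
        ((opA A U).e p x) = fderiv ℂ (fun z => f ((A.e p.2).symm z)) (A.e p.2 x.1) :=
      fderiv_opA f hx
    rw [h1] at hu hv
    exact lag p.2 x.1 (opA_source.1 hx) x.2 u v hu hv

end Lag

theorem disc_mono {N : ℕ} {M : Type} [TopologicalSpace M] {A : Atl N M} {K : Kah A} {κ κ' : ℝ}
    {T T' : Set M} {g : ℂ → M} (h : Disc A K κ T g) (hκ : κ ≤ κ') (hT : T ⊆ T') :
    Disc A K κ' T' g where
  mem ζ hζ := hT (h.mem ζ hζ)
  cont := h.cont
  hol := h.hol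
  q ζ hζ i hi := (h.q ζ hζ i hi).trans hκ

variable {g : ℕ} {X : Type} [TopologicalSpace X] {A : Atl (2 * g) X} {K : Kah A} {σ : HSymp A}
  {r R C Λ Λ1 ε : ℝ} {x y : Fo (2 * g)} {J : W (2 * g) → W (2 * g) →L[ℝ] W (2 * g)}
  {Θ : W (2 * g) → X} {a : V (2 * g) → V (2 * g) → V (2 * g)} {gg : V (2 * g) → Cn g}
  {G : W (2 * g) → Cn g} {s : ℂ} {U : Opens X} {f : X → Cn g}

/-- the region of the quantified tube -/
def Om (a : V (2 * g) → V (2 * g) → V (2 * g)) (G : W (2 * g) → Cn g) (R C : ℝ) :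
    Set (W (2 * g)) := {p | p ∈ reg a R ∧ ‖G p‖ < R / C}

theorem isOpen_Om (hR : RTube g C R J a gg G) : IsOpen (Om a G R C) := by
  have h1 : ContinuousOn G (reg a R) := fun p hp => by
    obtain ⟨G', h, -⟩ := hR.der p hp
    exact h.continuousAt.continuousWithinAt
  have h2 : ContinuousOn (fun p => ‖G p‖) (reg a R) := h1.norm
  have := h2.isOpen_inter_preimage hR.op (isOpen_Iio (a := R / C))
  exact this

/-- what the function on the manifold has to satisfy -/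
structure FOn (A : Atl (2 * g) X) (Θ : W (2 * g) → X) (Ω : Set (W (2 * g))) (G : W (2 * g) → Cn g)
    (U : Opens X) (f : X → Cn g) : Prop where
  eq : (U : Set X) = Θ '' Ω
  val : ∀ p ∈ Ω, f (Θ p) = G p
  hol : ∀ i, DifferentiableOn ℂ (fun z => f ((A.e i).symm z))
    ((A.e i).target ∩ (A.e i).symm ⁻¹' (U : Set X))
  sur : ∀ i, ∀ x ∈ (A.e i).source, x ∈ (U : Set X) →
    Surjective (fderiv ℂ (fun z => f ((A.e i).symm z)) (A.e i x))

/-- the chain rule -/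
theorem chain_G (hP : Push A K r Λ J Θ) (hR : RTube g C R J a gg G)
    (hreg : reg a R ⊆ tube (2 * g) r) (hF : FOn A Θ (Om a G R C) G U f) {p : W (2 * g)}
    (hp : p ∈ Om a G R C) {j : A.ι} (hj : Θ p ∈ (A.e j).source) {G' : W (2 * g) →L[ℝ] Cn g}
    (hG' : HasFDerivAt G G' p) (u : W (2 * g)) :
    G' u = fderiv ℂ (fun z => f ((A.e j).symm z)) (A.e j (Θ p))
      (fderiv ℝ (fun q => A.e j (Θ q)) p u) := by
  have hΘ : HasFDerivAt (fun q => A.e j (Θ q)) (fderiv ℝ (fun q => A.e j (Θ q)) p) p :=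
    ((hP.sm p (hreg hp.1) j hj).differentiableAt (by simp)).hasFDerivAt
  have hU : Θ p ∈ (U : Set X) := by rw [hF.eq]; exact ⟨p, hp, rfl⟩
  have hop : IsOpen ((A.e j).target ∩ (A.e j).symm ⁻¹' (U : Set X)) :=
    (A.e j).isOpen_inter_preimage_symm U.isOpen
  have hm : A.e j (Θ p) ∈ (A.e j).target ∩ (A.e j).symm ⁻¹' (U : Set X) := by
    refine ⟨(A.e j).map_source hj, ?_⟩
    rw [mem_preimage, (A.e j).left_inv hj]
    exact hU
  have hf : HasFDerivAt (fun z => f ((A.e j).symm z))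
      ((fderiv ℂ (fun z => f ((A.e j).symm z)) (A.e j (Θ p))).restrictScalars ℝ)
      (A.e j (Θ p)) :=
    ((hF.hol j).differentiableAt (hop.mem_nhds hm)).hasFDerivAt.restrictScalars ℝ
  have h1 := hf.comp p hΘ
  have hc : ContinuousAt Θ p :=
    hP.cont.continuousAt ((isOpen_tube r).mem_nhds (hreg hp.1))
  have h2 : ((fun z => f ((A.e j).symm z)) ∘ fun q => A.e j (Θ q)) =ᶠ[𝓝 p] G := by
    filter_upwards [hc ((A.e j).open_source.mem_nhds hj), (isOpen_Om hR).mem_nhds hp]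
      with q hq hq2
    simp only [comp_apply]
    rw [(A.e j).left_inv hq, hF.val q hq2]
  have h3 := (h1.congr_of_eventuallyEq h2.symm).unique hG'
  rw [← h3]
  rfl

/-- the tangent space of the leaf is the kernel -/
theorem ker_G (hR : RTube g C R J a gg G) (hT : TFam r R ε x y a)
    {c θ : V (2 * g)} (hc : ‖c‖ < R) {G' : W (2 * g) →L[ℝ] Cn g}
    (hG' : HasFDerivAt G G' (θ, a c θ)) (hlow : ∀ w : V (2 * g), ‖w‖ ≤ C * ‖G' (0, w)‖)
    {u : W (2 * g)} (hu : G' u = 0) : u = (u.1, fderiv ℝ (a c) θ u.1) := by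
  have ha : HasFDerivAt (a c) (fderiv ℝ (a c) θ) θ :=
    ((hT.leaf c hc).c1.differentiable one_ne_zero θ).hasFDerivAt
  have h1 : HasFDerivAt (fun θ => ((θ, a c θ) : W (2 * g)))
      ((ContinuousLinearMap.id ℝ (V (2 * g))).prod (fderiv ℝ (a c) θ)) θ :=
    (hasFDerivAt_id θ).prodMk ha
  have h2 : HasFDerivAt (fun θ => G (θ, a c θ)) (0 : V (2 * g) →L[ℝ] Cn g) θ := by
    have : (fun θ => G (θ, a c θ)) = fun _ => gg c := funext fun θ => hR.ga c hc θ
    rw [this]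
    exact hasFDerivAt_const _ _
  have h3 := (hG'.comp θ h1).unique h2
  have h4 : G' (u.1, fderiv ℝ (a c) θ u.1) = 0 :=
    congrArg (fun T : V (2 * g) →L[ℝ] Cn g => T u.1) h3
  have h5 : G' (0, u.2 - fderiv ℝ (a c) θ u.1) = 0 := by
    have : ((0, u.2 - fderiv ℝ (a c) θ u.1) : W (2 * g)) = u - (u.1, fderiv ℝ (a c) θ u.1) := by
      ext1 <;> simp
    rw [this, map_sub, hu, h4, sub_zero]
  have h6 := hlow (u.2 - fderiv ℝ (a c) θ u.1)
  rw [h5, norm_zero, mul_zero] at h6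
  have h7 := sub_eq_zero.1 (norm_le_zero_iff.1 h6)
  ext1
  · rfl
  · exact h7

/-- the fibres of `f` are Lagrangian -/
theorem lagF_tube (hcl : Clo σ.toH2) (hP : Push A K r Λ J Θ) (hR : RTube g C R J a gg G)
    (hT : TFam r R ε x y a) (hreg : reg a R ⊆ tube (2 * g) r)
    (hσ : ∀ p ∈ tube (2 * g) r, ∀ j, Θ p ∈ (A.e j).source → ∀ u w,
      bf (σ.s j (Θ p)) (fderiv ℝ (fun q => A.e j (Θ q)) p u)
        (fderiv ℝ (fun q => A.e j (Θ q)) p w) = s * (x p u w + I * y p u w))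
    (hF : FOn A Θ (Om a G R C) G U f) : LagF (opS σ U) (fun x : U => f x.1) := by
  refine lagF_gen hcl hF.hol hF.sur ?_
  intro i q hi hq u v hu hv
  have hq' : q ∈ (U : Set X) := hq
  rw [hF.eq] at hq'
  obtain ⟨p, hp, rfl⟩ := hq'
  obtain ⟨G', hG', -, hlow, -⟩ := hR.der p hp.1
  have hpt := hreg hp.1
  obtain ⟨u', rfl⟩ := (hP.bij p hpt i hi).2 u
  obtain ⟨v', rfl⟩ := (hP.bij p hpt i hi).2 v
  rw [← chain_G hP hR hreg hF hp hi hG'] at hu hv
  rw [hσ p hpt i hi]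
  obtain ⟨c, hc, hca⟩ := hp.1
  have hpe : p = (p.1, a c p.1) := by rw [hca]
  rw [hpe] at hG'
  have e1 := ker_G hR hT hc hG' hlow hu
  have e2 := ker_G hR hT hc hG' hlow hv
  have h1 : x p u' v' = 0 := by
    have := (hT.leaf c hc).ix p.1 u'.1 v'.1
    rwa [← e1, ← e2, ← hpe] at this
  have h2 : y p u' v' = 0 := by
    have := (hT.leaf c hc).iy p.1 u'.1 v'.1
    rwa [← e1, ← e2, ← hpe] at this
  rw [h1, h2]
  simp

/-- the constant of (q2) -/
def kap (g : ℕ) (Λ Λ1 C : ℝ) : ℝ :=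
  Λ * (Λ1 * (g * C)) ^ 2 * (2 * Λ1 * C * √((2 * g : ℕ) : ℝ) + 1) ^ 2

/-- **(q2)** -/
theorem q2_disc [T2Space X] (hcl : Clo σ.toH2) (hP : Push A K r Λ J Θ)
    (hR : RTube g C R J a gg G) (hT : TFam r R ε x y a) (hε : ε ≤ 1)
    (hreg : reg a R ⊆ tube (2 * g) r) (hΛ : 0 ≤ Λ) (hC : 0 ≤ C) (hs : s ≠ 0)
    (hσ : ∀ p ∈ tube (2 * g) r, ∀ j, Θ p ∈ (A.e j).source → ∀ u w,
      bf (σ.s j (Θ p)) (fderiv ℝ (fun q => A.e j (Θ q)) p u)
        (fderiv ℝ (fun q => A.e j (Θ q)) p w) = s * (x p u w + I * y p u w))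
    (hbd : ∀ p ∈ tube (2 * g) r, ‖x p‖ ≤ Λ1 ∧ ‖y p‖ ≤ Λ1)
    (hnd : ∀ p ∈ tube (2 * g) r, ∀ u, ‖u‖ ≤ Λ1 * ‖x p u‖ ∨ ‖u‖ ≤ Λ1 * ‖y p u‖)
    (hF : FOn A Θ (Om a G R C) G U f) {p q : W (2 * g)} (hp : p ∈ Om a G R C)
    (hq : q ∈ Om a G R C) (hpq : G p = G q) :
    ∃ γ : ℂ → X, Disc A K (kap g Λ Λ1 C) {z | ∃ p' ∈ Om a G R C, Θ p' = z ∧ G p' = G p} γ ∧
      γ 0 = Θ q ∧ γ 1 = Θ p := by
  have hlag := lagF_tube hcl hP hR hT hreg hσ hF
  have hs0 : 0 < ‖s‖ := norm_pos_iff.2 hs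
  obtain ⟨c, hc, hcq⟩ := hq.1
  obtain ⟨c', hc', hcp⟩ := hp.1
  have hqe : (q.1, a c q.1) = q := by rw [hcq]
  have hpe : (p.1, a c' p.1) = p := by rw [hcp]
  have hgq : G q = gg c := by rw [← hqe]; exact hR.ga c hc q.1
  have hgp : G p = gg c' := by rw [← hpe]; exact hR.ga c' hc' p.1
  have hcc : c' = c := hR.inj (by simpa using hc') (by simpa using hc)
    (by rw [← hgp, ← hgq, hpq])
  rw [hcc] at hcp hpe hgp
  have hleaf := hT.leaf c hc
  have hper := hleaf.per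
  -- the leaf
  have hmem : ∀ θ, ((θ, a c θ) : W (2 * g)) ∈ Om a G R C := fun θ => by
    refine ⟨⟨c, hc, rfl⟩, ?_⟩
    rw [hR.ga c hc θ, ← hgq]
    exact hq.2
  have htub : ∀ θ, ((θ, a c θ) : W (2 * g)) ∈ tube (2 * g) r := fun θ => hreg (hmem θ).1
  have hΛ1 : 0 ≤ Λ1 := (norm_nonneg _).trans (hbd q (hreg hq.1)).1
  have hgc : Continuous fun θ : V (2 * g) => ((θ, a c θ) : W (2 * g)) :=
    continuous_id.prodMk hleaf.c1.continuous
  set L : V (2 * g) → X := fun θ => Θ (θ, a c θ) with hL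
  have hLc : Continuous L := by
    refine continuous_iff_continuousAt.2 fun θ => ?_
    have h1 : ContinuousAt Θ (θ, a c θ) :=
      hP.cont.continuousAt ((isOpen_tube r).mem_nhds (htub θ))
    exact ContinuousAt.comp (g := Θ) (f := fun θ => ((θ, a c θ) : W (2 * g))) h1 hgc.continuousAt
  have hLper : ∀ θ (k : Fin (2 * g) → ℤ), L (θ + kv k) = L θ := fun θ k => by
    have h1 : a c (θ + kv k) = a c θ := hper k θ
    have h2 : ((θ + kv k, a c (θ + kv k)) : W (2 * g)) ∈ tube (2 * g) r := htub _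
    refine (hP.eq_iff _ h2 _ (htub θ)).2 ⟨k, ?_⟩
    rw [h1]
  set T : Set X := range L with hTd
  have hTc : IsCompact T := by
    have h1 : T = L '' closedBall 0 (√((2 * g : ℕ) : ℝ)) := by
      apply Subset.antisymm
      · rintro _ ⟨θ, rfl⟩
        obtain ⟨k, hk⟩ := exists_near 0 θ
        refine ⟨θ + kv k, ?_, hLper θ k⟩
        rw [mem_closedBall, dist_zero_right]
        simpa using hk
      · rintro _ ⟨θ, -, rfl⟩
        exact ⟨θ, rfl⟩
    rw [h1]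
    exact (isCompact_closedBall _ _).image hLc
  have hTp : IsPreconnected T := isPreconnected_range hLc
  have hTU : T ⊆ (U : Set X) := by
    rintro _ ⟨θ, rfl⟩
    rw [hF.eq]
    exact ⟨_, hmem θ, rfl⟩
  have hTy : ∀ z ∈ T, f z = gg c := by
    rintro _ ⟨θ, rfl⟩
    exact (hF.val _ (hmem θ)).trans (hR.ga c hc θ)
  have hOT : ∀ z ∈ (univ : Set X), z ∈ U → f z = gg c → z ∈ T := by
    intro z _ hz hfz
    have hz' : z ∈ (U : Set X) := hz
    rw [hF.eq] at hz'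
    obtain ⟨p', hp', rfl⟩ := hz'
    obtain ⟨c1, hc1, hca⟩ := hp'.1
    have hpe' : (p'.1, a c1 p'.1) = p' := by rw [hca]
    have h1 : G p' = gg c1 := by
      rw [← hpe']; exact hR.ga c1 hc1 p'.1
    have h2 : c1 = c := hR.inj (by simpa using hc1) (by simpa using hc)
      (by rw [← h1, ← hfz, hF.val p' hp'])
    rw [h2] at hpe'
    exact ⟨p'.1, by rw [hL]; simp only; rw [hpe']⟩
  -- the path
  obtain ⟨k, hk⟩ := exists_near q.1 p.1
  set d : V (2 * g) := p.1 + kv k - q.1 with hd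
  set γ : ℝ → X := fun t => L (q.1 + t • d) with hγ
  have hγc : Continuous γ := hLc.comp (by fun_prop)
  have hγT : ∀ t, γ t ∈ T := fun t => ⟨_, rfl⟩
  have hγ0 : γ 0 = Θ q := by
    simp only [hγ, hL, zero_smul, add_zero]
    rw [hqe]
  have hγ1 : γ 1 = Θ p := by
    have h1 : γ 1 = L (p.1 + kv k) := by
      simp only [hγ, one_smul, hd]
      congr 1
      abel
    rw [h1, hLper]
    simp only [hL]
    rw [hpe]
  -- speed
  have hdn : ‖d‖ ≤ √((2 * g : ℕ) : ℝ) := hk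
  have hspeed : ∀ t, ∃ j, γ t ∈ (A.e j).source ∧ ∃ v, HasDerivAt (fun t => A.e j (γ t)) v t ∧
      ∀ w, Hm σ f j (γ t) w v → ‖w‖ ≤ ‖s‖ * (2 * Λ1 * C * √((2 * g : ℕ) : ℝ)) := by
    intro t
    obtain ⟨j, hj⟩ := A.cover (γ t)
    set θ : V (2 * g) := q.1 + t • d with hθ
    set P : W (2 * g) := (θ, a c θ) with hPdef
    have hPt : P ∈ tube (2 * g) r := htub θ
    have hjP : Θ P ∈ (A.e j).source := hj
    have ha : HasFDerivAt (a c) (fderiv ℝ (a c) θ) θ :=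
      (hleaf.c1.differentiable one_ne_zero θ).hasFDerivAt
    have h1 : HasDerivAt (fun t : ℝ => q.1 + t • d) d t := by
      simpa using ((hasDerivAt_id t).smul_const d).const_add q.1
    have h2 : HasDerivAt (fun t : ℝ => ((q.1 + t • d, a c (q.1 + t • d)) : W (2 * g)))
        (d, fderiv ℝ (a c) θ d) t := h1.prodMk (ha.comp_hasDerivAt t h1)
    have hΘ : HasFDerivAt (fun q => A.e j (Θ q)) (fderiv ℝ (fun q => A.e j (Θ q)) P) P :=
      ((hP.sm P hPt j hjP).differentiableAt (by simp)).hasFDerivAt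
    refine ⟨j, hj, fderiv ℝ (fun q => A.e j (Θ q)) P (d, fderiv ℝ (a c) θ d),
      by have h5 := hΘ.comp_hasDerivAt t h2; exact h5, ?_⟩
    intro w hw
    obtain ⟨G', hG', hGn, hlow, -⟩ := hR.der P (hmem θ).1
    have h3 := lin_low (D := fderiv ℝ (fun q => A.e j (Θ q)) P) (B := bf (σ.s j (Θ P)))
      (df := fderiv ℂ (fun z => f ((A.e j).symm z)) (A.e j (Θ P))) (G' := G') (s := s)
      (x := x P) (y := y P) (Λ := Λ1) (C := C)
      (fun u => chain_G hP hR hreg hF (hmem θ) hjP hG' u) hC hlow (hσ P hPt j hjP)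
      (hbd P hPt) (w := w) (u := (d, fderiv ℝ (a c) θ d)) hw
    have hda : ‖fderiv ℝ (a c) θ‖ ≤ 1 := (hT.dnear c hc θ).trans hε
    have hu : ‖((d, fderiv ℝ (a c) θ d) : W (2 * g))‖ ≤ √((2 * g : ℕ) : ℝ) := by
      rw [Prod.norm_def]
      refine max_le hdn ?_
      calc ‖fderiv ℝ (a c) θ d‖ ≤ ‖fderiv ℝ (a c) θ‖ * ‖d‖ := ContinuousLinearMap.le_opNorm _ _
        _ ≤ 1 * ‖d‖ := by gcongr
        _ ≤ _ := by rw [one_mul]; exact hdn
    refine h3.trans ?_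
    gcongr
  -- the fields
  have hup : ∀ j, ∀ z ∈ (A.e j).source, z ∈ T → ∀ w v, Hm σ f j z w v →
      qf K j z v ≤ Λ * (Λ1 * (g * C) / ‖s‖) ^ 2 * ‖w‖ ^ 2 := by
    rintro j _ hj ⟨θ, rfl⟩ w v hw
    set P : W (2 * g) := (θ, a c θ) with hPdef
    have hPt : P ∈ tube (2 * g) r := htub θ
    have hjP : Θ P ∈ (A.e j).source := hj
    obtain ⟨u, rfl⟩ := (hP.bij P hPt j hjP).2 v
    obtain ⟨G', hG', hGn, hlow, -⟩ := hR.der P (hmem θ).1
    have h3 := lin_up (D := fderiv ℝ (fun q => A.e j (Θ q)) P) (B := bf (σ.s j (Θ P)))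
      (df := fderiv ℂ (fun z => f ((A.e j).symm z)) (A.e j (Θ P))) (G' := G') (s := s)
      (x := x P) (y := y P) (Λ := Λ1) (C := C)
      (fun u => chain_G hP hR hreg hF (hmem θ) hjP hG' u) hs hΛ1 hGn (hσ P hPt j hjP)
      (hnd P hPt) (w := w) (u := u) hw
    calc qf K j (Θ P) (fderiv ℝ (fun q => A.e j (Θ q)) P u) ≤ Λ * ‖u‖ ^ 2 := hP.up P hPt j hjP u
      _ ≤ Λ * (Λ1 * (g * C * ‖w‖ / ‖s‖)) ^ 2 := by gcongr
      _ = Λ * (Λ1 * (g * C) / ‖s‖) ^ 2 * ‖w‖ ^ 2 := by ring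
  obtain ⟨γ', hγ', h0, h1⟩ := disc_of_path hlag hTc hTp hTU hTy isOpen_univ (subset_univ _) hOT
    (K := K) (c1 := Λ * (Λ1 * (g * C) / ‖s‖) ^ 2)
    (ℓ := ‖s‖ * (2 * Λ1 * C * √((2 * g : ℕ) : ℝ)))
    (ℓ' := ‖s‖ * (2 * Λ1 * C * √((2 * g : ℕ) : ℝ) + 1)) (by positivity)
    (by rw [mul_add, mul_one]; linarith) hup hγc hγT hspeed
  refine ⟨γ', disc_mono hγ' (le_of_eq ?_) ?_, h0.trans hγ0, h1.trans hγ1⟩
  · rw [kap]
    field_simp
  · rintro _ ⟨θ, rfl⟩
    exact ⟨_, hmem θ, rfl, (hR.ga c hc θ).trans (hgq.symm.trans hpq.symm)⟩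

end

end Crest.Agent.R281.Qd_956
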