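import Crest.Agent.R281.Tub10_57
import Crest.Agent.R281.Mc12_673

/-!
# R281 (S0424), TUBE-HOL (helper57), part 11: push-down of the local holomorphic fibration to `X`
-/

set_option autoImplicit false
set_option linter.unusedSectionVars false
set_option maxSynthPendingDepth 3

open Set Filter Topology Metric
open scoped ContDiff NNReal

namespace Crest.Agent.R281.Tub_57

open Crest.Agent.R275.Geo Crest.Agent.R281.HkR_835
open Crest.Agent.R281.Per_368 (SmI pull ci ci_mem pl_apply)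
open Crest.Agent.R281.T5D_808 (TubeD)

noncomputable section

variable {N : ℕ} {X : Type} [TopologicalSpace X]

/-- **holomorphic Lagrangian fibration on the open set `U`** with compact connected fibres -/
structure LagFib (A : Atl N X) (w w' : F2 (ofAtl A)) (n : ℕ) (U : Set X) (f : X → Cn n) (ρ : ℝ) :
    Prop where
  pos : 0 < ρ
  op : IsOpen U
  lt : ∀ x ∈ U, ‖f x‖ < ρ
  hol : ∀ i, DifferentiableOn ℂ (fun z => f ((A.e i).symm z))
    ((A.e i).target ∩ (A.e i).symm ⁻¹' U)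
  surj : ∀ i, ∀ x ∈ (A.e i).source, x ∈ U →
    Function.Surjective (fderiv ℂ (fun z => f ((A.e i).symm z)) (A.e i x))
  lag : ∀ i, ∀ x ∈ (A.e i).source, x ∈ U → ∀ u v,
    fderiv ℂ (fun z => f ((A.e i).symm z)) (A.e i x) u = 0 →
    fderiv ℂ (fun z => f ((A.e i).symm z)) (A.e i x) v = 0 →
    w.w i (A.e i x) u v = 0 ∧ w'.w i (A.e i x) u v = 0
  cpt : ∀ b, ‖b‖ < ρ → IsCompact {x | x ∈ U ∧ f x = b}
  con : ∀ b, ‖b‖ < ρ → IsPreconnected {x | x ∈ U ∧ f x = b}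
  ne : ∀ b, ‖b‖ < ρ → {x | x ∈ U ∧ f x = b}.Nonempty

variable {A : Atl N X} {w w' : F2 (ofAtl A)} {R Λ δ : ℝ} {Θ : VN N × VN N → X}
  {S : Set (VN N)} {B : VN N → VN N → VN N}

/-- `Θ` is open on the tube -/
theorem tube_open (hT : TubeD (ofAtl A) w w' N R Λ δ Θ) {p : VN N × VN N} (hp : p ∈ tub N R) {i : A.ι}
    (hi : Θ p ∈ (A.e i).source) {Q : Set (VN N × VN N)} (hQ : IsOpen Q) (hpQ : p ∈ Q) :
    ∃ η : Cn N → VN N × VN N, η (A.e i (Θ p)) = p ∧ ContDiffAt ℝ ∞ η (A.e i (Θ p)) ∧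
      ∀ᶠ z in 𝓝 (A.e i (Θ p)), η z ∈ Q ∧ η z ∈ tub N R ∧ z ∈ (A.e i).target ∧
        Θ (η z) = (A.e i).symm z ∧ A.e i (Θ (η z)) = z := by
  obtain ⟨η, h0, h1, h2, h3⟩ := exists_inv (hT.sm.smAt (i := i) hp hi) (by simp) (hT.bij p hp i hi)
  refine ⟨η, h0, h1, ?_⟩
  have ht : Tendsto η (𝓝 (A.e i (Θ p))) (𝓝 p) := by
    have := h1.continuousAt.tendsto
    rwa [h0] at this
  have hO := hT.sm.isOpen_pre ((ofAtl A).e i).open_source
  filter_upwards [ht.eventually (hQ.mem_nhds hpQ), ht.eventually (hO.mem_nhds ⟨hp, hi⟩), h3,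
    (A.e i).open_target.mem_nhds ((A.e i).map_source hi)] with z k1 k2 k3 k4
  have k3' : A.e i (Θ (η z)) = z := k3
  refine ⟨k1, k2.1, k4, ?_, k3'⟩
  have k5 : (A.e i).symm (A.e i (Θ (η z))) = Θ (η z) := (A.e i).left_inv k2.2
  rw [k3'] at k5
  exact k5.symm

theorem exists_lagFib (hT : TubeD (ofAtl A) w w' N R Λ δ Θ) {k : VN N × VN N → VN N}
    {M : VN N → VN N → VN N ≃L[ℝ] VN N} {J : VN N → VN N →L[ℝ] VN N}
    (hJ : ∀ i, ∀ z ∈ (A.e i).target, ∀ u v, w.w i z (Complex.I • u) v = - w'.w i z u v)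
    (O : Out R (pull w Θ) (pull w' Θ) (IT A Θ) S B k M J) {n : ℕ} (hn : N = 2 * n) {s0 : VN N}
    (hs0 : s0 ∈ S) : ∃ (ρ : ℝ) (U : Set X) (f : X → Cn n), LagFib A w w' n U f ρ ∧
      {x | x ∈ U ∧ f x = 0} = range (fun θ => Θ (θ, B s0 θ)) ∧
      U ⊆ Θ '' {p | ∃ s ∈ S, B s p.1 = p.2} ∧
      (∀ b, ‖b‖ < ρ → ∃ s ∈ S, {x | x ∈ U ∧ f x = b} = range (fun θ => Θ (θ, B s θ))) := by
  classical
  have G := geo_of hT hJ
  have hY : Module.finrank ℝ (Cn n) = N := by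
    rw [finrank_real_of_complex, finrank_euclideanSpace_fin, hn]
  obtain ⟨ρ, ι, f0, q, hB, hq0, -⟩ := exists_bas G O hY hs0 0
  set Rg : Set (VN N × VN N) := {p | ∃ e ∈ ball (0 : Cn n) ρ, B (q e) p.1 = p.2} with hRg
  have hRt : ∀ p ∈ Rg, p ∈ tub N R := by
    rintro ⟨θ, v⟩ ⟨e, he, h⟩
    simp only at h
    subst h
    exact O.sub _ (hB.qS e he) θ
  have hRf : ∀ p ∈ Rg, ‖f0 p‖ < ρ ∧ B (q (f0 p)) p.1 = p.2 := by
    rintro ⟨θ, v⟩ ⟨e, he, h⟩
    simp only at h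
    subst h
    rw [hB.fA e he θ]
    exact ⟨mem_ball_zero_iff.1 he, rfl⟩
  have hRp : ∀ p ∈ Rg, ∀ kk : Fin N → ℤ, (p.1 + kv kk, p.2) ∈ Rg ∧ f0 (p.1 + kv kk, p.2) = f0 p := by
    rintro ⟨θ, v⟩ ⟨e, he, h⟩ kk
    simp only at h
    subst h
    have h1 : ((θ + kv kk, B (q e) θ) : VN N × VN N) = (θ + kv kk, B (q e) (θ + kv kk)) := by
      rw [O.per _ (hB.qS e he) kk θ]
    simp only
    rw [h1, hB.fA e he, hB.fA e he]
    exact ⟨⟨e, he, rfl⟩, rfl⟩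
  -- the function on `X`
  set f : X → Cn n := fun x => if h : ∃ p ∈ Rg, Θ p = x then f0 h.choose else 0 with hf
  have hfΘ : ∀ p ∈ Rg, f (Θ p) = f0 p := by
    intro p hp
    have h : ∃ p' ∈ Rg, Θ p' = Θ p := ⟨p, hp, rfl⟩
    have h1 : f (Θ p) = f0 h.choose := dif_pos h
    rw [h1]
    obtain ⟨kk, hk⟩ := (hT.eq_iff _ (hRt _ h.choose_spec.1) _ (hRt p hp)).1 h.choose_spec.2
    have h2 : h.choose = (p.1 + kv kk, p.2) := hk
    rw [h2]
    exact (hRp p hp kk).2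
  set U : Set X := Θ '' Rg with hU
  -- local inverse
  have hloc : ∀ p ∈ Rg, ∀ i, Θ p ∈ (A.e i).source → ∃ η : Cn N → VN N × VN N,
      η (A.e i (Θ p)) = p ∧ ContDiffAt ℝ ∞ η (A.e i (Θ p)) ∧
      ∀ᶠ z in 𝓝 (A.e i (Θ p)), η z ∈ Rg ∧ η z ∈ tub N R ∧ z ∈ (A.e i).target ∧
        Θ (η z) = (A.e i).symm z ∧ A.e i (Θ (η z)) = z := fun p hp i hi =>
    tube_open hT (hRt p hp) hi hB.op hp
  have hUo : IsOpen U := by
    rw [isOpen_iff_mem_nhds]
    rintro x ⟨p, hp, rfl⟩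
    obtain ⟨i, hi⟩ := A.cover (Θ p)
    obtain ⟨η, h1, h2, h3⟩ := hloc p hp i hi
    have h4 : Tendsto (A.e i) (𝓝 (Θ p)) (𝓝 (A.e i (Θ p))) := (A.e i).continuousAt hi
    filter_upwards [h4.eventually h3, (A.e i).open_source.mem_nhds hi] with x k1 k2
    refine ⟨η (A.e i x), k1.1, ?_⟩
    rw [k1.2.2.2.1, (A.e i).left_inv k2]
  -- the derivative
  have hder : ∀ p ∈ Rg, ∀ i, Θ p ∈ (A.e i).source →
      DifferentiableAt ℂ (fun z => f ((A.e i).symm z)) (A.e i (Θ p)) ∧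
      ∀ a, fderiv ℂ (fun z => f ((A.e i).symm z)) (A.e i (Θ p))
        (fderiv ℝ (fun q => A.e i (Θ q)) p a) = fderiv ℝ f0 p a := by
    intro p hp i hi
    obtain ⟨η, h1, h2, h3⟩ := hloc p hp i hi
    set z0 := A.e i (Θ p) with hz0
    have hη : HasFDerivAt η (fderiv ℝ η z0) z0 := (h2.differentiableAt (by simp)).hasFDerivAt
    have hf0 : HasFDerivAt f0 (fderiv ℝ f0 p) (η z0) := by
      rw [h1]
      exact ((hB.fs.contDiffAt (hB.op.mem_nhds hp)).differentiableAt (by simp)).hasFDerivAt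
    have hcomp : HasFDerivAt (fun z => f ((A.e i).symm z)) ((fderiv ℝ f0 p).comp (fderiv ℝ η z0))
        z0 := by
      refine (hf0.comp z0 hη).congr_of_eventuallyEq ?_
      filter_upwards [h3] with z hz
      rw [← hz.2.2.2.1, hfΘ _ hz.1]
      rfl
    -- `η` inverts `A.e i ∘ Θ`
    have hD := hT.bij p (hRt p hp) i hi
    have hΘd : HasFDerivAt (fun q => A.e i (Θ q)) (fderiv ℝ (fun q => A.e i (Θ q)) p) (η z0) := by
      rw [h1]
      exact (hT.sm.diffAt (i := i) (hRt p hp) hi).hasFDerivAt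
    have h4 : HasFDerivAt (fun z => A.e i (Θ (η z)))
        ((fderiv ℝ (fun q => A.e i (Θ q)) p).comp (fderiv ℝ η z0)) z0 :=
      HasFDerivAt.comp (g := fun q => A.e i (Θ q)) z0 hΘd hη
    have h5 : HasFDerivAt (fun z => A.e i (Θ (η z))) (ContinuousLinearMap.id ℝ (Cn N)) z0 :=
      (hasFDerivAt_id z0).congr_of_eventuallyEq (h3.mono fun z hz => hz.2.2.2.2)
    have h6 : ∀ v, fderiv ℝ (fun q => A.e i (Θ q)) p (fderiv ℝ η z0 v) = v := fun v =>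
      ContinuousLinearMap.ext_iff.1 (h4.unique h5) v
    have h7 : ∀ a, fderiv ℝ η z0 (fderiv ℝ (fun q => A.e i (Θ q)) p a) = a := fun a =>
      hD.1 (h6 _)
    have hIf : ∀ u, fderiv ℝ f0 p (IT A Θ p u) = Complex.I • fderiv ℝ f0 p u := by
      intro u
      obtain ⟨e, he, h⟩ := hp
      have hpe : (p.1, B (q e) p.1) = p := by rw [h]
      have := hB.fI e he p.1 u
      rwa [hpe] at this
    have h8 : ∀ v, fderiv ℝ η z0 (Complex.I • v) = IT A Θ p (fderiv ℝ η z0 v) := by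
      intro v
      apply hD.1
      have h9 := IT_spec hT (hRt p hp) hi (fderiv ℝ η z0 v)
      have h10 : fderiv ℝ (fun q => A.e i (Θ q)) p (fderiv ℝ η z0 v) = v := h6 v
      rw [h10] at h9
      exact (h6 _).trans h9.symm
    have hdC : DifferentiableAt ℂ (fun z => f ((A.e i).symm z)) z0 := by
      refine diffC hcomp.differentiableAt fun v => ?_
      rw [hcomp.fderiv]
      simp only [ContinuousLinearMap.comp_apply]
      rw [h8, hIf]
    refine ⟨hdC, fun a => ?_⟩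
    have h11 : fderiv ℝ (fun z => f ((A.e i).symm z)) z0 =
        (fderiv ℂ (fun z => f ((A.e i).symm z)) z0).restrictScalars ℝ :=
      (hdC.hasFDerivAt.restrictScalars ℝ).fderiv
    have h12 : fderiv ℂ (fun z => f ((A.e i).symm z)) z0 (fderiv ℝ (fun q => A.e i (Θ q)) p a) =
        fderiv ℝ (fun z => f ((A.e i).symm z)) z0 (fderiv ℝ (fun q => A.e i (Θ q)) p a) := by
      rw [h11]
      rfl
    rw [h12, hcomp.fderiv, ContinuousLinearMap.comp_apply, h7]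
  have hfib : ∀ b : Cn n, ‖b‖ < ρ →
      {x | x ∈ U ∧ f x = b} = range (fun θ => Θ (θ, B (q b) θ)) := by
    intro b hb
    ext x
    constructor
    · rintro ⟨⟨p, hp, rfl⟩, h⟩
      rw [hfΘ p hp] at h
      refine ⟨p.1, ?_⟩
      have := (hRf p hp).2
      rw [h] at this
      simp only [this]
    · rintro ⟨θ, rfl⟩
      have hb' : b ∈ ball (0 : Cn n) ρ := mem_ball_zero_iff.2 hb
      have hm : (θ, B (q b) θ) ∈ Rg := ⟨b, hb', rfl⟩
      exact ⟨⟨_, hm, rfl⟩, by rw [hfΘ _ hm, hB.fA b hb']⟩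
  have hcont : ∀ s ∈ S, Continuous fun θ => Θ (θ, B s θ) := fun s hs =>
    hT.sm.cont.comp_continuous (continuous_id.prodMk (O.sm s hs).continuous) fun θ => O.sub s hs θ
  have hperΘ : ∀ s ∈ S, ∀ (kk : Fin N → ℤ) θ, Θ (θ + kv kk, B s (θ + kv kk)) = Θ (θ, B s θ) := by
    intro s hs kk θ
    rw [O.per s hs kk θ]
    exact tube_per hT (O.sub s hs θ) kk
  refine ⟨ρ, U, f, ⟨hB.pos, hUo, ?_, ?_, ?_, ?_, ?_, ?_, ?_⟩, ?_, ?_, ?_⟩
  · rintro x ⟨p, hp, rfl⟩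
    rw [hfΘ p hp]
    exact (hRf p hp).1
  · rintro i z ⟨hz, ⟨p, hp, hpz⟩⟩
    have hi : Θ p ∈ (A.e i).source := by rw [hpz]; exact (A.e i).map_target hz
    have h1 : A.e i (Θ p) = z := by rw [hpz]; exact (A.e i).right_inv hz
    have h2 := (hder p hp i hi).1
    rw [h1] at h2
    exact h2.differentiableWithinAt
  · rintro i x hi ⟨p, hp, rfl⟩ b
    obtain ⟨e, he, h⟩ := hp
    have hpe : (p.1, B (q e) p.1) = p := by rw [h]
    have h1 := hB.fsur e he p.1 b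
    rw [hpe] at h1
    obtain ⟨a, ha⟩ := h1
    exact ⟨_, ((hder p ⟨e, he, h⟩ i hi).2 a).trans ha⟩
  · rintro i x hi ⟨p, hp, rfl⟩ u v hu hv
    have hD := hT.bij p (hRt p hp) i hi
    obtain ⟨a, rfl⟩ := hD.2 u
    obtain ⟨b, rfl⟩ := hD.2 v
    have ha : fderiv ℝ f0 p a = 0 := ((hder p hp i hi).2 a).symm.trans hu
    have hb : fderiv ℝ f0 p b = 0 := ((hder p hp i hi).2 b).symm.trans hv
    obtain ⟨e, he, h⟩ := id hp
    have hpe : (p.1, B (q e) p.1) = p := by rw [h]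
    have hkera := (hB.fker e he p.1 a)
    have hkerb := (hB.fker e he p.1 b)
    rw [hpe] at hkera hkerb
    have ea := hkera.1 ha
    have eb := hkerb.1 hb
    have ea' : a = (a.1, fderiv ℝ (B (q e)) p.1 a.1) := Prod.ext rfl ea
    have eb' : b = (b.1, fderiv ℝ (B (q e)) p.1 b.1) := Prod.ext rfl eb
    have hx := O.ix _ (hB.qS e he) p.1 a.1 b.1
    have hy := O.iy _ (hB.qS e he) p.1 a.1 b.1
    rw [hpe, ← ea', ← eb'] at hx hy
    rw [hT.sm.pull_eq w (hRt p hp) hi, pl_apply] at hx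
    rw [hT.sm.pull_eq w' (hRt p hp) hi, pl_apply] at hy
    exact ⟨hx, hy⟩
  · intro b hb
    rw [hfib b hb]
    have hb' : b ∈ ball (0 : Cn n) ρ := mem_ball_zero_iff.2 hb
    have h1 : range (fun θ => Θ (θ, B (q b) θ)) = (fun θ => Θ (θ, B (q b) θ)) '' cub N := by
      ext x
      constructor
      · rintro ⟨θ, rfl⟩
        obtain ⟨kk, hk⟩ := exists_cub θ
        exact ⟨_, hk, hperΘ _ (hB.qS b hb') kk θ⟩
      · rintro ⟨θ, -, rfl⟩
        exact ⟨θ, rfl⟩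
    rw [h1]
    exact isCompact_cub.image (hcont _ (hB.qS b hb'))
  · intro b hb
    rw [hfib b hb]
    exact isPreconnected_range (hcont _ (hB.qS b (mem_ball_zero_iff.2 hb)))
  · intro b hb
    rw [hfib b hb]
    exact ⟨_, 0, rfl⟩
  · have h1 := hfib 0 (by rw [norm_zero]; exact hB.pos)
    rw [h1, hq0]
  · rintro x ⟨p, ⟨e, he, h⟩, rfl⟩
    exact ⟨p, ⟨q e, hB.qS e he, h⟩, rfl⟩
  · intro b hb
    exact ⟨q b, hB.qS b (mem_ball_zero_iff.2 hb), hfib b hb⟩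

/-- helper673's `Tori` gives `Inp` -/
theorem inp_of_tori {r ρ ε : ℝ} {x y : Fo N} {a : VN N → VN N → VN N}
    (h : Mc673.Tori N r ρ ε x y a) (hε : ε ≤ 1 / 2) : Inp r x y (ball 0 ρ) a where
  Bo := isOpen_ball
  leaf c hc := by
    have hc' : ‖c‖ ≤ ρ := (mem_ball_zero_iff.1 hc).le
    exact ⟨h.c1 c hc', h.per c hc', h.lt c hc', h.x0 c hc', h.y0 c hc'⟩
  near c hc c' hc' θ := (h.lip c c' (mem_ball_zero_iff.1 hc).le (mem_ball_zero_iff.1 hc').le θ).trans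
    (by gcongr)
  dnear c hc c' hc' θ :=
    (h.dlip c c' (mem_ball_zero_iff.1 hc).le (mem_ball_zero_iff.1 hc').le θ).trans
      (by nlinarith [norm_nonneg (c - c')])

/-- **TUBE-HOL**: through every point of the tube covered by 673's tori there is a holomorphic
Lagrangian fibration with compact connected fibres on an open set of `X` -/
theorem tube_hol (hT : TubeD (ofAtl A) w w' N R Λ δ Θ)
    (hJ : ∀ i, ∀ z ∈ (A.e i).target, ∀ u v, w.w i z (Complex.I • u) v = - w'.w i z u v)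
    {ρ0 ε : ℝ} {a : VN N → VN N → VN N} (hTo : Mc673.Tori N R ρ0 ε (pull w Θ) (pull w' Θ) a)
    (hε : ε ≤ 1 / 2) {n : ℕ} (hn : N = 2 * n) {c0 : VN N} (hc0 : ‖c0‖ < ρ0) :
    ∃ (ρ : ℝ) (U : Set X) (f : X → Cn n), LagFib A w w' n U f ρ ∧
      {x | x ∈ U ∧ f x = 0} = range (fun θ => Θ (θ, a c0 θ)) ∧
      U ⊆ Θ '' {p | ∃ c ∈ ball 0 ρ0, a c p.1 = p.2} ∧
      (∀ b, ‖b‖ < ρ → ∃ c ∈ ball 0 ρ0, {x | x ∈ U ∧ f x = b} = range (fun θ => Θ (θ, a c θ))) := by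
  have G := geo_of hT hJ
  have hI := inp_of_tori hTo hε
  obtain ⟨cs, h1, h2, hF, hOS⟩ := hI.toLF
  obtain ⟨M, J, O⟩ := hF.out G
  have hc0' : c0 ∈ ball (0 : VN N) ρ0 := mem_ball_zero_iff.2 hc0
  obtain ⟨ρ, U, f, k1, k2, k3, k4⟩ := exists_lagFib hT hJ O hn (s0 := a c0 0) ⟨c0, hc0', rfl⟩
  refine ⟨ρ, U, f, k1, ?_, ?_, ?_⟩
  · rw [k2, h1 c0 hc0']
  · refine k3.trans (image_mono ?_)
    exact hOS.subset
  · intro b hb
    obtain ⟨s, hs, h⟩ := k4 b hb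
    exact ⟨cs s, (h2 s hs).1, h⟩

end

end Crest.Agent.R281.Tub_57
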