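import Crest.Agent.R281.Qt10_355
import Crest.Agent.R281.Tub11_57

/-!
# R281 (S0424), QTUBE (helper355), part 11: the tube is a Lagrangian fibration

* `ker_tan`         : the kernel of the derivative of `G` is the tangent space of the leaf
* `lagFib_of`       : `LagFib A w w' n q.U q.f (R / C)` (helper57) for the quantified tube
* `exists_qtube_lag`: the quantified tube with all its additional properties
-/

set_option autoImplicit false
set_option maxSynthPendingDepth 3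
set_option linter.unusedSectionVars false

open Set Metric Filter Topology
open scoped ContDiff

namespace Crest.Agent.R281.Qt11_355

open Crest.Agent.R275.Geo Crest.Agent.R273.Defs_333 Crest.Agent.R273.Kah_333
open Crest.Agent.R281.SAsm_790 Crest.Agent.R281.Qt_922 Crest.Agent.R281.Qt10_355
open Crest.Agent.R281.HkR_835
open Crest.Agent.R281.Per_368 (SmI pull)
open Crest.Agent.R281.Mc673 (V W Fo tube ClF isOpen_tube kv)
open Crest.Agent.R281.Tub_57 (LagFib)

noncomputable section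

variable {N n : ℕ} {X : Type} [TopologicalSpace X] {A : Atl N X} {K : Kah A}
  {r Λ C R ε κ : ℝ} {x y : Fo N} {I : W N → W N →L[ℝ] W N} {Θ : W N → X} {a : V N → V N → V N}
  {g : V N → Cn n} {G : W N → Cn n}

/-- the map is smooth in the charts -/
theorem Push.smI (hP : Push A K r Λ I Θ) : SmI (ofAtl A) (tube N r) Θ :=
  ⟨isOpen_tube r, hP.cont, fun i p hp => (hP.sm p hp.1 i hp.2).contDiffWithinAt⟩

/-- the kernel of the derivative of `G` is the tangent space of the leaf -/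
theorem ker_tan (hT : RTube n C R I a g G) (hF : TFam r R ε x y a) {c : V N} (hc : ‖c‖ < R)
    (θ : V N) {u : W N} (hu : fderiv ℝ G (θ, a c θ) u = 0) :
    u = (u.1, fderiv ℝ (a c) θ u.1) := by
  obtain ⟨G', hG', -, hw, -⟩ := hT.der (θ, a c θ) ⟨c, hc, rfl⟩
  rw [hG'.fderiv] at hu
  have hda : HasFDerivAt (fun t : V N => ((t, a c t) : W N))
      ((ContinuousLinearMap.id ℝ (V N)).prod (fderiv ℝ (a c) θ)) θ :=
    (hasFDerivAt_id θ).prodMk ((((hF.leaf c hc).c1).differentiable (by simp)) θ).hasFDerivAt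
  have h1 : HasFDerivAt (fun t : V N => G (t, a c t))
      (G'.comp ((ContinuousLinearMap.id ℝ (V N)).prod (fderiv ℝ (a c) θ))) θ :=
    HasFDerivAt.comp (g := G) θ hG' hda
  have h2 : (fun t : V N => G (t, a c t)) = fun _ => g c := funext fun t => hT.ga c hc t
  rw [h2] at h1
  have h3 := h1.unique (hasFDerivAt_const (g c) θ)
  have h4 : G' (u.1, fderiv ℝ (a c) θ u.1) = 0 := by
    have := congrArg (fun L : V N →L[ℝ] Cn n => L u.1) h3
    simpa using this
  have h5 : G' (0, u.2 - fderiv ℝ (a c) θ u.1) = 0 := by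
    have e : ((0, u.2 - fderiv ℝ (a c) θ u.1) : W N) = u - (u.1, fderiv ℝ (a c) θ u.1) := by
      refine Prod.ext ?_ rfl
      show (0 : V N) = u.1 - u.1
      rw [sub_self]
    rw [e, map_sub, hu, h4, sub_zero]
  have h6 := hw (u.2 - fderiv ℝ (a c) θ u.1)
  rw [h5, norm_zero, mul_zero] at h6
  have h7 : u.2 - fderiv ℝ (a c) θ u.1 = 0 := norm_le_zero_iff.1 h6
  exact Prod.ext rfl (sub_eq_zero.1 h7)

/-- **the tube is a Lagrangian fibration** -/
theorem lagFib_of (hP : Push A K r Λ I Θ) (hT : RTube n C R I a g G)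
    (hF : TFam r R ε x y a) (hC : 0 < C) (hR : 0 < R) {w w' : F2 (ofAtl A)}
    (hx : ∀ p ∈ tube N r, x p = pull w Θ p) (hy : ∀ p ∈ tube N r, y p = pull w' Θ p)
    (q : QTube A K n κ (R / C)) (hU : q.U = Θ '' Om a R C G)
    (hf : ∀ p ∈ Om a R C G, q.f (Θ p) = G p) : LagFib A w w' n q.U q.f (R / C) := by
  have hsub := reg_sub hF
  have h0 := pd0 hP hT hF
  have hsm := Push.smI hP
  have hfib : ∀ b : Cn n, ‖b‖ < R / C → ∃ c, ‖c‖ < R ∧ g c = b ∧
      {z | z ∈ q.U ∧ q.f z = b} = range fun θ => Θ (θ, a c θ) := by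
    intro b hb
    obtain ⟨c, hc, rfl⟩ := hT.onto (mem_ball_zero_iff.2 hb)
    have hc' : ‖c‖ < R := by simpa using hc
    refine ⟨c, hc', rfl, ?_⟩
    rw [← fibre Θ hT hc' hb]
    ext z
    constructor
    · rintro ⟨hz, hzf⟩
      rw [hU] at hz
      obtain ⟨p, hp, rfl⟩ := hz
      exact ⟨p, hp, rfl, by rw [← hf p hp, hzf]⟩
    · rintro ⟨p, hp, rfl, hG⟩
      exact ⟨hU ▸ ⟨p, hp, rfl⟩, by rw [hf p hp, hG]⟩
  refine ⟨by positivity, q.op, q.lt, q.hol, q.surj, ?_, ?_, ?_, ?_⟩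
  · intro i z hz hzU u v hu hv
    rw [hU] at hzU
    obtain ⟨p, hp, rfl⟩ := hzU
    have hfun : (fun z => q.f ((A.e i).symm z)) =ᶠ[𝓝 (A.e i (Θ p))]
        fun z => PD0.fD (Om a R C G) Θ G ((A.e i).symm z) := by
      have h1 : Θ '' Om a R C G ∈ 𝓝 (Θ p) :=
        (h0.isOpen_image h0.op le_rfl).mem_nhds ⟨p, hp, rfl⟩
      have h2 : Tendsto (A.e i).symm (𝓝 (A.e i (Θ p))) (𝓝 (Θ p)) := by
        have := (A.e i).continuousAt_symm ((A.e i).map_source hz)
        rw [ContinuousAt, (A.e i).left_inv hz] at this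
        exact this
      filter_upwards [h2.eventually h1] with t ht
      obtain ⟨p', hp', hpt⟩ := ht
      rw [← hpt, hf p' hp', h0.fD_eq hp']
    rw [hfun.fderiv_eq] at hu hv
    obtain ⟨u', hu'⟩ := (h0.bij p hp i hz).2 u
    obtain ⟨v', hv'⟩ := (h0.bij p hp i hz).2 v
    rw [← hu', (h0.fD_deriv hp hz).2 u'] at hu
    rw [← hv', (h0.fD_deriv hp hz).2 v'] at hv
    obtain ⟨⟨c, hc, hpc⟩, -⟩ := hp
    have hpe : p = (p.1, a c p.1) := Prod.ext rfl hpc.symm
    have hpt : p ∈ tube N r := hsub ⟨c, hc, hpc⟩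
    rw [hpe] at hu hv
    have eu := ker_tan hT hF hc p.1 hu
    have ev := ker_tan hT hF hc p.1 hv
    have k1 : x p u' v' = 0 := by
      rw [hpe, eu, ev]
      exact (hF.leaf c hc).ix p.1 u'.1 v'.1
    have k2 : y p u' v' = 0 := by
      rw [hpe, eu, ev]
      exact (hF.leaf c hc).iy p.1 u'.1 v'.1
    have e1 : ∀ w : F2 (ofAtl A), pull w Θ p u' v' = w.w i (A.e i (Θ p)) u v := by
      intro w
      rw [hsm.pull_eq w hpt hz, ← hu', ← hv']
      rfl
    rw [hx p hpt, e1 w] at k1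
    rw [hy p hpt, e1 w'] at k2
    exact ⟨k1, k2⟩
  · intro b hb
    obtain ⟨c, hc, -, h1⟩ := hfib b hb
    rw [h1]
    exact isCompact_leaf hP hF hc
  · intro b hb
    obtain ⟨c, hc, -, h1⟩ := hfib b hb
    rw [h1]
    exact (isConnected_leaf hP hF hc).isPreconnected
  · intro b hb
    obtain ⟨c, hc, -, h1⟩ := hfib b hb
    rw [h1]
    exact range_nonempty _

/-- **the quantified tube, with all its properties** -/
theorem exists_qtube_lag (hN : N = 2 * n) (hP : Push A K r Λ I Θ) (hT : RTube n C R I a g G)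
    (hF : TFam r R ε x y a) (hC : 0 < C) (hR : 0 < R) (hκ : C ^ 2 * Λ ≤ κ)
    {w w' : F2 (ofAtl A)}
    (hx : ∀ p ∈ tube N r, x p = pull w Θ p) (hy : ∀ p ∈ tube N r, y p = pull w' Θ p)
    (hq2 : ∀ c, ‖c‖ < R → ‖g c‖ < R / C → ∀ θ θ', ∃ gg : ℂ → X,
      Disc A K κ (range fun t => Θ (t, a c t)) gg ∧ gg 0 = Θ (θ', a c θ') ∧
        gg 1 = Θ (θ, a c θ)) :
    ∃ q : QTube A K n κ (R / C), q.U = Θ '' Om a R C G ∧ q.U ⊆ Θ '' tube N r ∧
      (∀ p ∈ Om a R C G, q.f (Θ p) = G p) ∧ LagFib A w w' n q.U q.f (R / C) ∧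
      ∀ c, ‖c‖ < R → ‖g c‖ < R / C →
        {z | z ∈ q.U ∧ q.f z = g c} = range fun θ => Θ (θ, a c θ) := by
  obtain ⟨q, hU, hf⟩ := exists_qtube hN hP hT hF hC hκ hq2
  refine ⟨q, hU, ?_, hf, lagFib_of hP hT hF hC hR hx hy q hU hf, fun c hc hg => ?_⟩
  · rw [hU]
    exact image_mono fun p hp => reg_sub hF hp.1
  · rw [← fibre Θ hT hc hg]
    ext z
    constructor
    · rintro ⟨hz, hzf⟩
      rw [hU] at hz
      obtain ⟨p, hp, rfl⟩ := hz
      exact ⟨p, hp, rfl, by rw [← hf p hp, hzf]⟩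
    · rintro ⟨p, hp, rfl, hG⟩
      exact ⟨hU ▸ ⟨p, hp, rfl⟩, by rw [hf p hp, hG]⟩

end

end Crest.Agent.R281.Qt11_355
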