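import Crest.Agent.R281.Qd4_956
import Crest.Agent.R281.Qt11_355
import Crest.Agent.R281.Ab2_729

/-!
# R281 (S0424), QTUBE (helper956), discs, part 5: **the literal hypothesis `hq2` of Qt10/Qt11_355**
(a disc inside one leaf, joining two given points), for a hyperkähler structure.
-/

set_option autoImplicit false
set_option linter.unusedSectionVars false
set_option maxSynthPendingDepth 3

open Set Metric Filter Topology Complex Function TopologicalSpace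
open scoped NNReal ContDiff Matrix ComplexConjugate

namespace Crest.Agent.R281.Qd_956

open Crest.Agent.R275.Geo Crest.Agent.R275.Core144
open Crest.Agent.R281.Aa6_836 Crest.Agent.R281.Ab_729
open Crest.Agent.R281.Defs_273 Crest.Agent.R281.HkP2_508
open Crest.Agent.R281.HkR_835 Crest.Agent.R260.ACM_580 Crest.Agent.R260.NNB_580
open Crest.Agent.R281.Per_368 (SmI pull)
open Crest.Agent.R273.Defs_333 Crest.Agent.R273.Kah_333
open Crest.Agent.R281.SAsm_790 Crest.Agent.R281.Qt_922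
open Crest.Agent.R281.Mc673 (V W Fo tube isOpen_tube kv)

noncomputable section

section Gen

variable {N n : ℕ} {X : Type} [TopologicalSpace X] {A : Atl N X} {K : Kah A} {σ : HSymp A}
  {r R C Λ Λ1 ε : ℝ} {x y : Fo N} {J : W N → W N →L[ℝ] W N}
  {Θ : W N → X} {a : V N → V N → V N} {gg : V N → Cn n} {G : W N → Cn n} {s : ℂ}

/-- the function downstairs -/
theorem fOn {n : ℕ} {A : Atl (2 * n) X} {K : Kah A} {x y : Fo (2 * n)}
    {J : W (2 * n) → W (2 * n) →L[ℝ] W (2 * n)} {Θ : W (2 * n) → X}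
    {a : V (2 * n) → V (2 * n) → V (2 * n)} {gg : V (2 * n) → Cn n} {G : W (2 * n) → Cn n}
    (hP : Push A K r Λ J Θ) (hR : RTube n C R J a gg G) (hT : TFam r R ε x y a) :
    ∃ (U : Opens X) (f : X → Cn n), FOn A Θ (Om a G R C) G U f := by
  have h0 : Qt10_355.PD0 A (Om a G R C) Θ G := Qt10_355.pd0 hP hR hT
  refine ⟨⟨Θ '' Om a G R C, h0.isOpen_image h0.op le_rfl⟩,
    Qt10_355.PD0.fD (Om a G R C) Θ G, rfl, fun p hp => h0.fD_eq hp, ?_, ?_⟩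
  · rintro i z ⟨hz, p, hp, hpz⟩
    have hi : Θ p ∈ (A.e i).source := by
      rw [hpz]
      exact (A.e i).map_target hz
    have h1 := (h0.fD_deriv hp hi).1
    rw [hpz, (A.e i).right_inv hz] at h1
    exact h1.differentiableWithinAt
  · rintro i _ hi ⟨p, hp, rfl⟩ z
    obtain ⟨G', hG', -, hw, -⟩ := hR.der p hp.1
    obtain ⟨u, hu⟩ := Qt10_355.surj_aux rfl hw z
    refine ⟨fderiv ℝ (fun q => A.e i (Θ q)) p u, ?_⟩
    rw [(h0.fD_deriv hp hi).2 u, hG'.fderiv, hu]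

/-- **the hypothesis `hq2` of the push-down**, for any holomorphic symplectic form -/
theorem hq2_gen [T2Space X] (hN : N = 2 * n) (hcl : Clo σ.toH2) (hP : Push A K r Λ J Θ)
    (hR : RTube n C R J a gg G) (hT : TFam r R ε x y a) (hε : ε ≤ 1) (hΛ : 0 ≤ Λ) (hC : 0 ≤ C)
    (hs : s ≠ 0)
    (hσ : ∀ p ∈ tube N r, ∀ j, Θ p ∈ (A.e j).source → ∀ u w,
      bf (σ.s j (Θ p)) (fderiv ℝ (fun q => A.e j (Θ q)) p u)
        (fderiv ℝ (fun q => A.e j (Θ q)) p w) = s * (x p u w + I * y p u w))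
    (hbd : ∀ p ∈ tube N r, ‖x p‖ ≤ Λ1 ∧ ‖y p‖ ≤ Λ1)
    (hnd : ∀ p ∈ tube N r, ∀ u, ‖u‖ ≤ Λ1 * ‖x p u‖ ∨ ‖u‖ ≤ Λ1 * ‖y p u‖) :
    ∀ c, ‖c‖ < R → ‖gg c‖ < R / C → ∀ θ θ', ∃ δ : ℂ → X,
      Disc A K (kap n Λ Λ1 C) (range fun t => Θ (t, a c t)) δ ∧ δ 0 = Θ (θ', a c θ') ∧
        δ 1 = Θ (θ, a c θ) := by
  subst hN
  intro c hc hgc θ θ'
  obtain ⟨U, f, hF⟩ := fOn hP hR hT
  have hreg := Qt10_355.reg_sub hT
  have hp : ∀ θ : V (2 * n), ((θ, a c θ) : W (2 * n)) ∈ Om a G R C := fun θ =>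
    ⟨⟨c, hc, rfl⟩, by rw [hR.ga c hc θ]; exact hgc⟩
  obtain ⟨δ, h1, h2, h3⟩ := q2_disc hcl hP hR hT hε hreg hΛ hC hs hσ hbd hnd hF (hp θ) (hp θ')
    ((hR.ga c hc θ).trans (hR.ga c hc θ').symm)
  refine ⟨δ, disc_mono h1 le_rfl ?_, h2, h3⟩
  rintro z ⟨p', hp', rfl, hG⟩
  rw [hR.ga c hc θ] at hG
  obtain ⟨⟨d, hd, hdp⟩, -⟩ := hp'
  have h4 : G p' = gg d := Qt10_355.G_reg hR hd hdp
  have h5 : d = c := hR.inj (by simpa using hd) (by simpa using hc) (by rw [← h4, hG])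
  subst h5
  refine ⟨p'.1, ?_⟩
  show Θ (p'.1, a d p'.1) = Θ p'
  rw [hdp]

end Gen

section Hk

variable {V' X : Type} [NormedAddCommGroup V'] [NormedSpace ℝ V'] [TopologicalSpace X]
  {C' : RCh V' X} {N n : ℕ} {A : Atl N X} {K : Kah A} {H : HkT C'} {k l m : Fin 3}
  (hc : (k, l, m) = (0, 1, 2) ∨ (k, l, m) = (1, 2, 0) ∨ (k, l, m) = (2, 0, 1))
  (hA : Cp (H.acm k) A) {r : ℝ} {Θ : W N → X}

/-- `σ = om l + i om m` on the tube -/
theorem shS_pull (hs : SmI (ofAtl A) (tube N r) Θ) {p : W N} (hp : p ∈ tube N r) {j : A.ι}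
    (hj : Θ p ∈ (A.e j).source) (u w : W N) :
    bf ((shS hc hA).s j (Θ p)) (fderiv ℝ (fun q => A.e j (Θ q)) p u)
        (fderiv ℝ (fun q => A.e j (Θ q)) p w) =
      1 * (pull (H.om l) Θ p u w + I * pull (H.om m) Θ p u w) := by
  have hcmp := cmp_of_cp hA
  change bf ((sh2 hc hA).s j (Θ p)) _ _ = _
  rw [sh2_bf hc hA hj, one_mul, pull_cmp hcmp hs (H.om l) (j := j) hp hj,
    pull_cmp hcmp hs (H.om m) (j := j) hp hj]
  rfl

/-- the pull back of a form read in the charts of `A` -/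
theorem pull_F (hs : SmI (ofAtl A) (tube N r) Θ) (w : F2 C') {p : W N} (hp : p ∈ tube N r) :
    pull ((cmp_of_cp hA).F w) Θ p = pull w Θ p := by
  obtain ⟨j, hj⟩ := A.cover (Θ p)
  refine ContinuousLinearMap.ext fun u => ContinuousLinearMap.ext fun v => ?_
  rw [pull_cmp (cmp_of_cp hA) hs w (j := j) hp hj, hs.pull_eq _ hp (i := j) hj]
  rfl

variable {R C Λ Λ1 ε : ℝ} {x y : Fo N} {J : W N → W N →L[ℝ] W N}
  {a : V N → V N → V N} {gg : V N → Cn n} {G : W N → Cn n}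

include hc hA in
/-- **(q2), literal**: `hq2` of Qt10/Qt11_355 -/
theorem hq2 [T2Space X] (hN : N = 2 * n) (hP : Push A K r Λ J Θ)
    (hR : RTube n C R J a gg G) (hT : TFam r R ε x y a) (hε : ε ≤ 1) (hΛ : 0 ≤ Λ) (hC : 0 ≤ C)
    (hx : ∀ p ∈ tube N r, x p = pull (H.om l) Θ p) (hy : ∀ p ∈ tube N r, y p = pull (H.om m) Θ p)
    (hbd : ∀ p ∈ tube N r, ‖x p‖ ≤ Λ1 ∧ ‖y p‖ ≤ Λ1)
    (hnd : ∀ p ∈ tube N r, ∀ u, ‖u‖ ≤ Λ1 * ‖x p u‖ ∨ ‖u‖ ≤ Λ1 * ‖y p u‖) :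
    ∀ c, ‖c‖ < R → ‖gg c‖ < R / C → ∀ θ θ', ∃ δ : ℂ → X,
      Disc A K (kap n Λ Λ1 C) (range fun t => Θ (t, a c t)) δ ∧ δ 0 = Θ (θ', a c θ') ∧
        δ 1 = Θ (θ, a c θ) :=
  hq2_gen (σ := shS hc hA) hN (sh2_clo hc hA) hP hR hT hε hΛ hC (s := 1) one_ne_zero
    (fun p hp j hj u w => by
      rw [shS_pull hc hA (Qt11_355.Push.smI hP) hp hj, hx p hp, hy p hp]) hbd hnd

end Hk

end

end Crest.Agent.R281.Qd_956
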