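import Crest.Agent.R281.Qr6_770
import Crest.Agent.R281.Fuj4_207
import Crest.Agent.R281.Ti7_846
import Crest.Agent.R281.HkR9_835
import Crest.Agent.R281.Cdr2_234

/-!
# Row 281, RAT-GLUE (helper770), part 1: top power of a rational class of a rotated Kaehler form

* `TP_kah_pos`, `oriM_of`, `IM_change` : two holomorphic atlases whose Kaehler forms agree induce
  the same orientation, the intersection form does not depend on the atlas
* `IM_totc`   : `IM (lc d) (bc d) P (ω_K, .., ω_K) = 2^d d! ∫ det K`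
* `exists_fr` : orthonormal frames
* `Lef d c0`  : what is consumed of the Lefschetz (1,1) theorem
* `core`      : `RatF (a₀ ω₀ + a₁ ω₁ + a₂ ω₂)` ==> the top power is in `kap d c0 * ℚ`
-/

set_option autoImplicit false
set_option linter.unusedSectionVars false
set_option maxSynthPendingDepth 3

open Set Filter Topology Complex MeasureTheory
open scoped ContDiff Matrix ComplexConjugate ComplexOrder

noncomputable section

namespace Crest.Agent.R281.Qg_770

open Crest.Agent.R275 Crest.Agent.R275.Geo Crest.Agent.R275.Core144 Crest.Agent.R275.EDR890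
open Crest.Agent.R275.GC293
open Crest.Agent.R273.Defs_333 Crest.Agent.R273.Kah_333 Crest.Agent.R273.Vol_333
open Crest.Agent.R273.Vm_333 (vm)
open Crest.Agent.R273.StV_37 (totc)
open Crest.Agent.R273.FIb0_597 (TF tf_cur tf_kah dtM mem_ch ch)
open Crest.Agent.R281.HkR_835 Crest.Agent.R281.Ti_846
open Crest.Agent.R281.Cdr_234 (RatF IntF)
open Crest.Agent.R281.Qr_770 (cn cn_pos degree_pos totc_pos)
open Crest.Agent.R260.ACM_580 (NNat)

variable {d : ℕ} {M : Type} [TopologicalSpace M] {A A' : Atl d M}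

/-- Kaehler forms are positive -/
theorem TP_kah_pos (K : Kah A) {i : A.ι} {z : Cn d} (hz : z ∈ (A.e i).target) :
    0 < TP (bc d) (fun _ => (ofKah K).f2.w i z) := by
  have hx := (A.e i).map_target hz
  have h1 := TP_herm (w := fun _ => (ofKah K).f2.w i z)
    (G := fun _ => (ofKah K).g i ((A.e i).symm z)) (fun _ => (ofKah K).herm i _ hx)
    fun _ u v => (ofKah K).f2_w hz u v
  rw [MD_same] at h1
  have h2 : 0 < (K.g i ((A.e i).symm z)).det := (K.pos i _ hx).det_pos
  have h3 := Complex.lt_def.1 h2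
  have h4 : (((TP (bc d) (fun _ => (ofKah K).f2.w i z)) : ℝ) : ℂ) =
      ((2 ^ d * (d.factorial * (K.g i ((A.e i).symm z)).det.re) : ℝ) : ℂ) := by
    rw [h1]
    have h5 : (K.g i ((A.e i).symm z)).det = (((K.g i ((A.e i).symm z)).det.re : ℝ) : ℂ) := by
      apply Complex.ext
      · simp
      · simpa using h3.2.symm
    have h6 : (ofKah K).g = K.g := rfl
    rw [h6]
    push_cast
    rw [← h5]
  have h7 : TP (bc d) (fun _ => (ofKah K).f2.w i z) =
      2 ^ d * (d.factorial * (K.g i ((A.e i).symm z)).det.re) := by exact_mod_cast h4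
  rw [h7]
  have h8 : 0 < (K.g i ((A.e i).symm z)).det.re := h3.1
  have h9 : (0 : ℝ) < d.factorial := by exact_mod_cast d.factorial_pos
  positivity

/-- equal orientations -/
theorem oriM_of (h : Cmp (ofAtl A) (ofAtl A')) (w : F2 (ofAtl A))
    (hw : ∀ i, ∀ z ∈ (A.e i).target, 0 < TP (bc d) (fun _ => w.w i z))
    (hw' : ∀ j, ∀ z ∈ (A'.e j).target, 0 < TP (bc d) (fun _ => (h.F w).w j z)) :
    OriM (ofAtl A) (ofAtl A') := by
  intro i j z hz
  have h1 := TP_comp' (bc d) (fderiv ℝ (HkR_835.mt (ofAtl A) (ofAtl A') i j) z)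
    (w := fun _ => (h.F w).w j z) (w' := fun _ => w.w i (HkR_835.mt (ofAtl A) (ofAtl A') i j z))
    fun k u v => h.F_w w hz u v
  have h2 := hw' j z hz.1
  have h3 := hw i _ (Cmp.mt_mem hz).1
  rw [h1] at h2
  exact pos_of_mul_pos_left h2 h3.le

section cpt

variable [CompactSpace M]

/-- independence of the atlas -/
theorem IM_change (h : Cmp (ofAtl A) (ofAtl A')) (w : F2 (ofAtl A))
    (hw : ∀ i, ∀ z ∈ (A.e i).target, 0 < TP (bc d) (fun _ => w.w i z))
    (hw' : ∀ j, ∀ z ∈ (A'.e j).target, 0 < TP (bc d) (fun _ => (h.F w).w j z))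
    (P : RPart (ofAtl A)) (P' : RPart (ofAtl A')) (x : Fin d → F2 (ofAtl A)) :
    IM (lc d) (bc d) P' (fun k => h.F (x k)) = IM (lc d) (bc d) P x :=
  II_cmp (lc d) (bc d) h (oriM_of h w hw hw') P P' x

/-- the top power of a Kaehler form -/
theorem IM_totc [T2Space M] [Fintype A.ι] (PA : Part A) (K : Kah A) (P : RPart (ofAtl A)) :
    IM (lc d) (bc d) P (fun _ => (ofKah K).f2) =
      2 ^ d * d.factorial * (totc PA (fun i x => (K.g i x).det)).re := by
  let _ : MeasurableSpace M := borel M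
  have : BorelSpace M := ⟨rfl⟩
  rw [IM_apply, II_same, ← Crest.Agent.R273.FId0_597.int_dtM PA (volK K) (tf_kah K)]
  congr 1
  have h1 : ∀ x, dtM (volK K) K.g x = 1 := by
    intro x
    have hx := mem_ch A x
    unfold dtM
    exact div_self ((volK K).pos _ x hx).ne'
  simp only [h1]
  rw [integral_const, smul_eq_mul, mul_one]

end cpt

/-- an oriented orthonormal frame with prescribed first vector -/
theorem exists_fr (a : Fin 3 → ℝ) (ha : a 0 * a 0 + a 1 * a 1 + a 2 * a 2 = 1) :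
    ∃ R : Fin 3 → Fin 3 → ℝ, HkT.Fr R ∧ R 0 = a := by
  -- a unit vector orthogonal to `a`
  obtain ⟨b, hb, hab⟩ : ∃ b : Fin 3 → ℝ, b 0 * b 0 + b 1 * b 1 + b 2 * b 2 = 1 ∧
      a 0 * b 0 + a 1 * b 1 + a 2 * b 2 = 0 := by
    by_cases h : a 0 * a 0 + a 1 * a 1 = 0
    · have h0 : a 0 = 0 := by nlinarith [mul_self_nonneg (a 0), mul_self_nonneg (a 1)]
      have h1 : a 1 = 0 := by nlinarith [mul_self_nonneg (a 0), mul_self_nonneg (a 1)]
      exact ⟨![1, 0, 0], by simp, by simp [h0, h1]⟩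
    · have hp : 0 < a 0 * a 0 + a 1 * a 1 :=
        lt_of_le_of_ne (by nlinarith [mul_self_nonneg (a 0), mul_self_nonneg (a 1)]) (Ne.symm h)
      set ρ := Real.sqrt (a 0 * a 0 + a 1 * a 1) with hρ
      have hρ0 : 0 < ρ := Real.sqrt_pos.2 hp
      have hρ2 : ρ * ρ = a 0 * a 0 + a 1 * a 1 := Real.mul_self_sqrt hp.le
      refine ⟨![-(a 1) / ρ, a 0 / ρ, 0], ?_, ?_⟩
      · simp only [Matrix.cons_val_zero, Matrix.cons_val_one, Matrix.cons_val]
        field_simp
        nlinarith
      · simp only [Matrix.cons_val_zero, Matrix.cons_val_one, Matrix.cons_val]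
        ring
  refine ⟨![a, b, ![a 1 * b 2 - a 2 * b 1, a 2 * b 0 - a 0 * b 2, a 0 * b 1 - a 1 * b 0]],
    ⟨fun k => ?_, by simpa using hab, by simp⟩, rfl⟩
  fin_cases k
  · simpa using ha
  · simpa using hb
  · simp only [Fin.reduceFinMk, Matrix.cons_val, Matrix.cons_val_zero, Matrix.cons_val_one]
    have h1 : (a 1 * b 2 - a 2 * b 1) * (a 1 * b 2 - a 2 * b 1) +
        (a 2 * b 0 - a 0 * b 2) * (a 2 * b 0 - a 0 * b 2) +
        (a 0 * b 1 - a 1 * b 0) * (a 0 * b 1 - a 1 * b 0) =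
        (a 0 * a 0 + a 1 * a 1 + a 2 * a 2) * (b 0 * b 0 + b 1 * b 1 + b 2 * b 2) -
          (a 0 * b 0 + a 1 * b 1 + a 2 * b 2) ^ 2 := by ring
    rw [h1, ha, hb, hab]
    norm_num

/-- what is consumed of the Lefschetz (1,1) theorem (234 (4)): a Kaehler form with a rational
class is, on some holomorphic atlas, `1/(c0 m)` times the curvature of a line bundle -/
def Lef (d : ℕ) (c0 : ℝ) : Prop :=
  ∀ (M : Type) [TopologicalSpace M] [T2Space M] [CompactSpace M] [ConnectedSpace M]
    (A : Atl d M) [Finite A.ι], GoodA A → Part A → ∀ K : Kah A, RatF (ofKah K).f2 →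
    ∃ (A' : Atl d M) (_ : Finite A'.ι) (_ : Part A') (h : Cmp (ofAtl A) (ofAtl A')) (K' : Kah A')
      (m : ℕ) (L : LB A') (hL : HM L), 0 < m ∧
      (∀ j, ∀ z ∈ (A'.e j).target, (ofKah K').f2.w j z = (h.F (ofKah K).f2).w j z) ∧
      ∀ j, ∀ x ∈ (A'.e j).source, cur hL j x = ((c0 * m : ℝ) : ℂ) • K'.g j x

/-- the universal constant -/
def kap (d : ℕ) (c0 : ℝ) : ℝ := 2 ^ d * d.factorial * cn d / c0 ^ d

theorem kap_pos {c0 : ℝ} (h : 0 < c0) : 0 < kap d c0 := by
  have h1 := cn_pos (n := d)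
  have h9 : (0 : ℝ) < d.factorial := by exact_mod_cast d.factorial_pos
  unfold kap
  positivity

section main

variable [T2Space M] [CompactSpace M] [ConnectedSpace M]

/-- **the volume of a rational Kaehler class** -/
theorem vol_rat {c0 : ℝ} (hc0 : 0 < c0) (hL : Lef d c0) [Finite A.ι] (hG : GoodA A) (PA : Part A)
    (K : Kah A) (P : RPart (ofAtl A)) (hr : RatF (ofKah K).f2) :
    ∃ r : ℚ, IM (lc d) (bc d) P (fun _ => (ofKah K).f2) = kap d c0 * r := by
  obtain ⟨A', hfin, PA', h, K', m, L, hl, hm, hK', hcur⟩ := hL M A hG PA K hr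
  have := Fintype.ofFinite A'.ι
  -- the degree
  have hpos : hl.Pos := pos_of_cur fun j x hx => by
    rw [hcur j x hx]
    refine (K'.pos j x hx).smul ?_
    have : (0 : ℝ) < c0 * m := by
      have : (0 : ℝ) < m := by exact_mod_cast hm
      positivity
    exact_mod_cast this
  obtain ⟨D, -, hD⟩ := degree_pos PA' hpos
  have h1 := hD PA' hl
  have h2 : totc PA' (fun j x => (cur hl j x).det) =
      (((c0 * m : ℝ) : ℂ)) ^ d * totc PA' (fun j x => (K'.g j x).det) := by
    rw [← Crest.Agent.R273.VolInv_5.totc_smul]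
    refine Crest.Agent.R273.VolInv_5.totc_congr PA' fun j x hx => ?_
    rw [hcur j x hx, Matrix.det_smul, Fintype.card_fin]
  rw [h2] at h1
  have h3 : (c0 * m) ^ d * (totc PA' (fun j x => (K'.g j x).det)).re = cn d * D := by
    have h4 := congrArg Complex.re h1
    rw [← Complex.ofReal_pow, Complex.re_ofReal_mul] at h4
    rw [h4]
    have : (cn d : ℂ) * (D : ℂ) = ((cn d * D : ℝ) : ℂ) := by push_cast; ring
    rw [this, Complex.ofReal_re]
  -- the intersection form
  have e1 : IM (lc d) (bc d) P (fun _ => (ofKah K).f2) =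
      IM (lc d) (bc d) (RPart.ofPart PA') (fun _ => (ofKah K').f2) := by
    rw [← IM_change h (ofKah K).f2 (fun i z hz => TP_kah_pos K hz)
      (fun j z hz => by rw [← hK' j z hz]; exact TP_kah_pos K' hz) P (RPart.ofPart PA')]
    exact II_congr _ _ _ fun k j z hz u v => by rw [hK' j z hz]
  rw [e1, IM_totc PA' K']
  have hm0 : (m : ℝ) ≠ 0 := by exact_mod_cast hm.ne'
  refine ⟨(D : ℚ) / (m : ℚ) ^ d, ?_⟩
  have h5 : (totc PA' (fun j x => (K'.g j x).det)).re = cn d * D / (c0 * m) ^ d := by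
    rw [eq_div_iff (pow_ne_zero _ (mul_ne_zero hc0.ne' hm0)), ← h3]
    ring
  rw [h5, kap]
  push_cast
  rw [mul_pow]
  field_simp

end main

end Crest.Agent.R281.Qg_770
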