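import Crest.Agent.R281.Qg1_770
import Crest.Agent.R281.Cdr5_234
import Crest.Agent.R281.Fuj7_207

/-!
# Row 281, RAT-GLUE (helper770), part 2: `Lef` from 234's Lefschetz theorem; the core

* `smK c K`  : the real multiple of a closed real (1,1)-form
* `F_eqv_pull` : `Cmp.F` is the pull back along the identity; `RatF` is independent of the charts
* `lef`      : `Lef d π` if rational classes have integral multiples
* `core`     : `RatF (a₀ ω₀ + a₁ ω₁ + a₂ ω₂)` ==> the top power is in `kap d c0 * ℚ`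
-/

set_option autoImplicit false
set_option linter.unusedSectionVars false
set_option maxSynthPendingDepth 3

open Set Filter Topology Complex MeasureTheory
open scoped ContDiff Matrix ComplexConjugate ComplexOrder

noncomputable section

namespace Crest.Agent.R281.Qg_770

open Crest.Agent.R275 Crest.Agent.R275.Geo Crest.Agent.R275.Core144 Crest.Agent.R275.EDR890
open Crest.Agent.R275.GC293
open Crest.Agent.R273.Defs_333 Crest.Agent.R273.Kah_333 Crest.Agent.R273.Vol_333
open Crest.Agent.R273.Map_835 (HolMap Jp)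
open Crest.Agent.R281.HkR_835 Crest.Agent.R281.Ti_846 Crest.Agent.R281.Dif_268
open Crest.Agent.R281.Cdr_234 (RatF IntF Cls curK cmp_of_hol pull_f2)
open Crest.Agent.R281.Qr_770 (cn cn_pos degree_pos totc_pos)
open Crest.Agent.R260.ACM_580 (NNat)
open Crest.Agent.R281.Fuj5_207 (E11 f2_mem mem_exS_of_eq)

variable {d : ℕ} {M : Type} [TopologicalSpace M] {A A' : Atl d M}

/-! ### real multiples -/

/-- the real multiple of a closed real (1,1)-form -/
def smK (c : ℝ) (K : K11 A) : K11 A := F2.k11 (c • K.f2) ((E11 A).smul_mem c (f2_mem K))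

theorem smK_f2 (c : ℝ) (K : K11 A) {i : A.ι} {z : Cn d} (hz : z ∈ (A.e i).target) :
    (smK c K).f2.w i z = (c • K.f2).w i z := F2.k11_f2 _ _ hz

theorem GB_smul (B : Bil (Cn d)) (t : ℝ) : GB (t • B) = (t : ℂ) • GB B := by
  ext a b
  rw [Matrix.smul_apply, GB, GB, Matrix.of_apply, Matrix.of_apply, hw, hw]
  simp only [smul_apply, smul_eq_mul]
  push_cast
  ring

theorem smK_g (c : ℝ) (K : K11 A) {i : A.ι} {x : M} (hx : x ∈ (A.e i).source) :
    (smK c K).g i x = (c : ℂ) • K.g i x := by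
  have h1 := K11.f2_k11 K hx
  rw [F2.k11_g] at h1
  rw [← h1]
  exact GB_smul _ _

theorem smK_pos {c : ℝ} (hc : 0 < c) (K : K11 A)
    (hp : ∀ i, ∀ x ∈ (A.e i).source, (K.g i x).PosDef) :
    ∀ i, ∀ x ∈ (A.e i).source, ((smK c K).g i x).PosDef := by
  intro i x hx
  rw [smK_g c K hx]
  exact (hp i x hx).smul (by exact_mod_cast hc)

/-! ### change of charts -/

section cmp

variable {V V' X : Type} [NormedAddCommGroup V] [NormedSpace ℝ V] [NormedAddCommGroup V']
  [NormedSpace ℝ V'] [TopologicalSpace X] {C : RCh V X} {C' : RCh V' X}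

theorem F_eqv_pull (h : Cmp C C') (w : F2 C) : Eqv ((SMap.ofCmp h).pull w) (h.F w) := by
  intro j z hz u v
  obtain ⟨i, hi⟩ := Cmp.exists_mov C hz
  rw [h.F_w w hi, (SMap.ofCmp h).pull_w w hi]
  rfl

theorem RatF.F (h : Cmp C C') {w : F2 C} (hw : RatF w) : RatF (h.F w) :=
  Cls.eqv (Cdr_234.Cls.pull (SMap.ofCmp h) hw) (F_eqv_pull h w)

end cmp

/-! ### the Lefschetz theorem -/

/-- rational classes on compact manifolds have integral multiples -/
def RInt (d : ℕ) : Prop := ∀ (M : Type) [TopologicalSpace M] [T2Space M] [CompactSpace M]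
  (A : Atl d M) [Finite A.ι], Part A → ∀ w : F2 (ofAtl A), RatF w →
    ∃ m : ℕ, 0 < m ∧ IntF ((m : ℝ) • w)

theorem lef (hR : RInt d) : Lef d Real.pi := by
  intro M _ _ _ _ A _ _ P K hr
  obtain ⟨m, hm, hi⟩ := hR M A P _ hr
  have hm' : (0 : ℝ) < m := by exact_mod_cast hm
  have hmπ : (0 : ℝ) < Real.pi * m := by positivity
  set K1 : K11 A := smK (Real.pi * m) (ofKah K) with hK1
  have h1 : IntF ((Real.pi⁻¹ : ℝ) • K1.f2) := by
    refine Cls.eqv hi fun i z hz u v => ?_
    show (m : ℝ) * (ofKah K).f2.w i z u v = Real.pi⁻¹ * K1.f2.w i z u v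
    rw [hK1, smK_f2 _ _ hz]
    show _ = Real.pi⁻¹ * (Real.pi * m * (ofKah K).f2.w i z u v)
    field_simp
  obtain ⟨A', L, hL, hfin, hG, ⟨P'⟩, -, -, hA1, hA2, hcur⟩ := Cdr_234.lefschetz K1 h1
    (fun _ : Unit => (univ : Set M)) (fun _ => isOpen_univ) (fun x => ⟨(), mem_univ x⟩)
  set h := cmp_of_hol hA1.toHolMap hA2.toHolMap with hh
  -- positivity
  have hp : ∀ j, ∀ x ∈ (A'.e j).source, (cur hL j x).PosDef := by
    intro j x hx
    obtain ⟨i, hi⟩ := A.cover x
    rw [hcur j i x hx hi]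
    refine Crest.Agent.R281.Fuj7_207.posDef_congr
      (smK_pos hmπ (ofKah K) (fun i x hx => K.pos i x hx) i x hi) (hA1.det j i x hx hi)
  set K' : Kah A' := (smK (Real.pi * m)⁻¹ (curK hL)).kah
    (smK_pos (inv_pos.2 hmπ) (curK hL) hp) with hK'
  refine ⟨A', hfin, P', h, K', m, L, hL, hm, ?_, ?_⟩
  · intro j z hz
    ext u v
    obtain ⟨i, hi⟩ := Cmp.exists_mov (ofAtl A) (C' := ofAtl A') (j := j) hz
    have e1 : (ofKah K').f2.w j z u v = (Real.pi * m)⁻¹ * (curK hL).f2.w j z u v := by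
      have : ofKah K' = smK (Real.pi * m)⁻¹ (curK hL) := rfl
      rw [this, smK_f2 _ _ hz]
      rfl
    have hx := (A'.e j).map_target hz
    have e2 : (curK hL).f2.w j z u v = ((SMap.ofCmp h).pull K1.f2).w j z u v := by
      rw [(curK hL).f2_w hz, pull_f2 hA1.toHolMap hA2.toHolMap K1 hi]
      have := hcur j i _ hx hi.2
      rw [← this]
      rfl
    have e3 : ((SMap.ofCmp h).pull K1.f2).w j z u v = (h.F K1.f2).w j z u v :=
      F_eqv_pull h K1.f2 j z hz u v
    rw [e1, e2, e3, h.F_w _ hi, h.F_w _ hi, hK1, smK_f2 _ _ (Cmp.mt_mem hi).1]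
    show (Real.pi * m)⁻¹ * (Real.pi * m * _) = _
    rw [← mul_assoc, inv_mul_cancel₀ hmπ.ne', one_mul]
    rfl
  · intro j x hx
    have : K'.g j x = (((Real.pi * m)⁻¹ : ℝ) : ℂ) • cur hL j x := smK_g _ (curK hL) hx
    rw [this, smul_smul, ← Complex.ofReal_mul, mul_inv_cancel₀ hmπ.ne', Complex.ofReal_one,
      one_smul]

/-! ### the core -/

section core

variable [T2Space M] [CompactSpace M] [ConnectedSpace M]

/-- top power of the forms of a triple, pointwise -/
theorem TP_rot (H : HkT (ofAtl A)) (a : Fin 3 → ℝ) {i : A.ι} {z : Cn d}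
    (hz : z ∈ (A.e i).target) :
    TP (bc d) (fun _ => (F2.lin a H.om).w i z) =
      Real.sqrt (a 0 ^ 2 + a 1 ^ 2 + a 2 ^ 2) ^ d * TP (bc d) (fun _ => (H.om 0).w i z) := by
  have hfin : Module.finrank ℝ (Cn d) = 2 * d := by
    rw [Module.finrank_eq_card_basis (bc d)]
    simp [mul_comm]
  have h2 := (Crest.Agent.R281.Fuj2_207.trip H i z hz).rot hfin
    (Crest.Agent.R281.Fuj4_207.nat_TP' (bc d)) a
  have h3 : ∀ k, (Crest.Agent.R281.Fuj2_207.trip H i z hz).om k = (H.om k).w i z := by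
    intro k
    ext u v
    rw [(H.om_eq k i z hz)]
    rfl
  have h4 : (Crest.Agent.R281.Fuj2_207.trip H i z hz).omv a = (F2.lin a H.om).w i z := by
    rw [HKA_799.Trip.omv, Fin.sum_univ_three, h3, h3, h3]
    ext u v
    refine Eq.trans ?_ (F2.lin_w a H.om i z u v).symm
    rw [Fin.sum_univ_three]
    rfl
  simp only [h4, h3] at h2
  exact h2

/-- **the core**: the top power of a rational class in the span of a hyperkaehler triple -/
theorem core {c0 : ℝ} (hc0 : 0 < c0) (hL : Lef d c0) (hNN : NNat (Cn d) d) (hd : 1 ≤ d)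
    [Finite A.ι] (P : RPart (ofAtl A)) (H : HkT (ofAtl A))
    (hpos : ∀ i, ∀ z ∈ (A.e i).target, 0 < TP (bc d) (fun _ => (H.om 0).w i z))
    (a : Fin 3 → ℝ) (hr : RatF (F2.lin a H.om)) :
    ∃ r : ℚ, IM (lc d) (bc d) P (fun _ => F2.lin a H.om) = kap d c0 * r := by
  by_cases ha : a = 0
  · refine ⟨0, ?_⟩
    have h0 : F2.lin a H.om = 0 := by
      refine F2.ext (funext fun i => funext fun z => ?_)
      ext u v
      rw [F2.lin_w, ha]
      simp
    rw [h0]
    have : (fun _ : Fin d => (0 : F2 (ofAtl A))) = 0 := rfl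
    rw [this]
    have hne : Nonempty (Fin d) := ⟨⟨0, hd⟩⟩
    rw [MultilinearMap.map_zero]
    simp
  set t := Real.sqrt (a 0 ^ 2 + a 1 ^ 2 + a 2 ^ 2) with ht
  have hs : 0 < a 0 ^ 2 + a 1 ^ 2 + a 2 ^ 2 := by
    by_contra hcon
    push Not at hcon
    refine ha (funext fun k => ?_)
    have h0 : a 0 = 0 := by nlinarith [sq_nonneg (a 0), sq_nonneg (a 1), sq_nonneg (a 2)]
    have h1 : a 1 = 0 := by nlinarith [sq_nonneg (a 0), sq_nonneg (a 1), sq_nonneg (a 2)]
    have h2 : a 2 = 0 := by nlinarith [sq_nonneg (a 0), sq_nonneg (a 1), sq_nonneg (a 2)]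
    fin_cases k
    · exact h0
    · exact h1
    · exact h2
  have ht0 : 0 < t := Real.sqrt_pos.2 hs
  have ht2 : t * t = a 0 ^ 2 + a 1 ^ 2 + a 2 ^ 2 := Real.mul_self_sqrt hs.le
  obtain ⟨R, hR, hR0⟩ := exists_fr (fun k => a k / t) (by
    field_simp
    linarith)
  set H' := H.rot R hR with hH'
  obtain ⟨A', hfin, hG, ⟨P'⟩, h, hJ, -⟩ := exists_rot hNN H'
  set K0 := (h.hk H').K0 hJ with hK0
  set Kt : Kah A' := (smK t (ofKah K0)).kah (smK_pos ht0 (ofKah K0) (fun i x hx => K0.pos i x hx))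
    with hKt
  -- the form `t K0` is the given form
  have e1 : ∀ j, ∀ z ∈ (A'.e j).target, (ofKah Kt).f2.w j z = (h.F (F2.lin a H.om)).w j z := by
    intro j z hz
    obtain ⟨i, hi⟩ := Cmp.exists_mov (ofAtl A) (C' := ofAtl A') (j := j) hz
    have e2 : ofKah Kt = smK t (ofKah K0) := rfl
    rw [e2, smK_f2 _ _ hz]
    ext u v
    show t * (ofKah K0).f2.w j z u v = _
    rw [hK0, K0_om0 (h.hk H') hJ hz]
    show t * (h.F (H'.om 0)).w j z u v = _
    rw [h.F_w _ hi, h.F_w _ hi, hH', HkT.rot_om, F2.lin_w, F2.lin_w, hR0, Finset.mul_sum]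
    refine Finset.sum_congr rfl fun k _ => ?_
    field_simp
  have hrt : RatF (ofKah Kt).f2 := Cls.eqv (RatF.F h hr) fun j z hz u v => by rw [e1 j z hz]
  obtain ⟨r, hr'⟩ := vol_rat hc0 hL hG P' Kt (RPart.ofPart P') hrt
  refine ⟨r, ?_⟩
  rw [← hr', ← IM_change h (F2.lin a H.om) (fun i z hz => ?_) (fun j z hz => ?_) P
    (RPart.ofPart P')]
  · exact (II_congr _ _ _ fun k j z hz u v => by rw [e1 j z hz]).symm
  · rw [TP_rot H a hz, ← ht]
    have := hpos i z hz
    positivity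
  · rw [← e1 j z hz]
    exact TP_kah_pos Kt hz

end core

end Crest.Agent.R281.Qg_770
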