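import Crest.Agent.R281.Qg2_770
import Crest.Agent.R281.Hdg7_850
import Crest.Agent.R281.FujR_513

/-!
# Row 281, RAT-GLUE (helper770), part 3: the Beauville form is rational up to a scalar

* `InU`      : `x = K' + a Re σ + c Im σ + exact`, `K'` Kaehler
* `vol_U`    : `RatF x`, `InU x` ==> `∫ x^d ∈ kap d c0 * ℚ`
* `rat_Tn`   : **`∃ c > 0, ∀ x y, RatF x → RatF y → ∃ r : ℚ, Q(x, y) = c * r`**
-/

set_option autoImplicit false
set_option linter.unusedSectionVars false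
set_option maxSynthPendingDepth 3

open Set Filter Topology Complex MeasureTheory
open scoped ContDiff Matrix ComplexConjugate ComplexOrder

noncomputable section

namespace Crest.Agent.R281.Qg_770

open Crest.Agent.R275 Crest.Agent.R275.Geo Crest.Agent.R275.Core144 Crest.Agent.R275.EDR890
open Crest.Agent.R275.GC293
open Crest.Agent.R273.Defs_333 Crest.Agent.R273.Kah_333 Crest.Agent.R273.Vol_333
open Crest.Agent.R281.HkR_835 Crest.Agent.R281.Ti_846 Crest.Agent.R281.Dif_268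
open Crest.Agent.R281.Defs_273 (H2 HSymp)
open Crest.Agent.R281.Cdr_234 (RatF IntF Cls clsS)
open Crest.Agent.R281.Fuj1_207 (Qf qf Kills Tri)
open Crest.Agent.R281.Fuj4_207 Crest.Agent.R281.Fuj5_207 Crest.Agent.R281.Fuj7_207
open Crest.Agent.R260.ACM_580 (NNat)
open Crest.Agent.R281.FujR_513 (rational_form)

variable {d : ℕ} {M : Type} [TopologicalSpace M] {A : Atl d M}

/-- `x = K' + a Re σ + c Im σ + exact` -/
def InU (σ : HSymp A) (hc : ClH σ.toH2) (x : F2 (ofAtl A)) : Prop :=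
  ∃ (K' : Kah A) (a c : ℝ), ∃ e ∈ exS (ofAtl A),
    x = (ofKah K').f2 + a • reS σ.toH2 hc + c • imS σ.toH2 hc + e

theorem bil_exp {H : Type*} [AddCommGroup H] [Module ℝ H] (Q : H →ₗ[ℝ] H →ₗ[ℝ] ℝ) {k r s e : H}
    (a c : ℝ) (s1 : ∀ x y, Q x y = Q y x) (s2 : ∀ x, Q x e = 0) (w1 : Q s s = Q r r)
    (w2 : Q r s = 0) (w3 : Q r k = 0) (w4 : Q s k = 0) :
    Q (k + a • r + c • s + e) (k + a • r + c • s + e) = Q k k + (a ^ 2 + c ^ 2) * Q r r := by
  have s3 : ∀ x, Q e x = 0 := fun x => by rw [s1, s2]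
  simp only [map_add, LinearMap.add_apply, map_smul, LinearMap.smul_apply, smul_eq_mul, s2, s3,
    w1, w2, w3, w4, s1 k r, s1 k s, s1 s r]
  ring

section main

variable [T2Space M] [CompactSpace M] [ConnectedSpace M] [Finite A.ι] (P : Part A)
  (σ : HSymp A) (hu : σ.Uniq) (hc : ClH σ.toH2)

include hu in
/-- **the top power of a rational class in `U`** -/
theorem vol_U {c0 : ℝ} (hc0 : 0 < c0) (hL : Lef d c0) (hNN : NNat (Cn d) d) (hd : 1 ≤ d)
    {x : F2 (ofAtl A)} (hx : RatF x) (hU : InU σ hc x) :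
    ∃ r : ℚ, IM (lc d) (bc d) (RPart.ofPart P) (fun _ => x) = kap d c0 * r := by
  obtain ⟨K', a, c, e, he, hxe⟩ := hU
  obtain ⟨K'', H, ρ, hρ, h0, h1, h2, h3⟩ := exists_tri P σ hu hc K'
  set a' : Fin 3 → ℝ := ![1, a / ρ, c / ρ] with ha'
  have e1 : x - F2.lin a' H.om ∈ exS (ofAtl A) := by
    have e2 : x - F2.lin a' H.om =
        (x - ((ofKah K'').f2 + a • reS σ.toH2 hc + c • imS σ.toH2 hc)) +
        (((ofKah K'').f2 + a • reS σ.toH2 hc + c • imS σ.toH2 hc) - F2.lin a' H.om) := by abel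
    rw [e2]
    refine (exS _).add_mem ?_ (mem_exS_of_eq fun i z hz u v => ?_)
    · have e3 : x - ((ofKah K'').f2 + a • reS σ.toH2 hc + c • imS σ.toH2 hc) =
          e - ((ofKah K'').f2 - (ofKah K').f2) := by
        rw [hxe]
        abel
      rw [e3]
      exact (exS _).sub_mem he h3
    · refine Eq.trans ?_ (F2.lin_w a' H.om i z u v).symm
      rw [Fin.sum_univ_three, h0, h1, h2]
      show (ofKah K'').f2.w i z u v + a * (reS σ.toH2 hc).w i z u v +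
        c * (imS σ.toH2 hc).w i z u v = 1 * (ofKah K'').f2.w i z u v +
        a / ρ * (ρ * (reS σ.toH2 hc).w i z u v) + c / ρ * (ρ * (imS σ.toH2 hc).w i z u v)
      field_simp
  have hr : RatF (F2.lin a' H.om) := Cls.of_sub_ex' hx (mem_exS.1 e1)
  obtain ⟨r, hr'⟩ := core hc0 hL hNN hd (RPart.ofPart P) H
    (fun i z hz => by rw [h0]; exact TP_kah_pos K'' hz) a' hr
  exact ⟨r, by rw [← hr']; exact IM_coh _ _ _ (ori_ofAtl A) fun _ => e1⟩

include P hu in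
/-- `U` is open -/
theorem InU.near {x : F2 (ofAtl A)} (h : InU σ hc x) (y : F2 (ofAtl A)) :
    ∃ ε : ℝ, 0 < ε ∧ ∀ t : ℝ, 0 < t → t < ε → InU σ hc (x + t • y) := by
  obtain ⟨K', a, c, e, he, hxe⟩ := h
  obtain ⟨ε, hε, h1⟩ := Fuj5_207.near P σ hu hc open11 K' y
  refine ⟨ε, hε, fun t ht0 ht1 => ?_⟩
  obtain ⟨K'', H, ρ, a', c', hρ, h2, -, -, -, e', he', h3⟩ := h1 t ht0 ht1
  refine ⟨K'', a + a', c + c', e + e', (exS _).add_mem he he', ?_⟩
  rw [hxe]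
  have : (ofKah K').f2 + a • reS σ.toH2 hc + c • imS σ.toH2 hc + e + t • y =
      ((ofKah K').f2 + t • y) + a • reS σ.toH2 hc + c • imS σ.toH2 hc + e := by abel
  rw [this, h3, h2]
  module

/-- every closed real 2-form is a real combination of rational classes (234 (3)) -/
def RSpan (A : Atl d M) : Prop := ∀ x : F2 (ofAtl A), ∃ (N : ℕ) (b : Fin N → F2 (ofAtl A))
  (t : Fin N → ℝ), (∀ k, RatF (b k)) ∧ x - ∑ k, t k • b k ∈ exS (ofAtl A)

theorem RatF.sum {N : ℕ} {b : Fin N → F2 (ofAtl A)} (hb : ∀ k, RatF (b k)) (q : Fin N → ℚ) :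
    RatF (∑ k, (q k : ℝ) • b k) := by
  have h1 : ∑ k, (q k : ℝ) • b k ∈ clsS (ofAtl A) (Rat.castHom ℝ).toAddMonoidHom.range :=
    AddSubgroup.sum_mem _ fun k _ => Cdr_234.RatF.smul (hb k) (q k)
  exact h1

include P hu in
/-- there are rational classes in `U` -/
theorem exists_rat_U (K : Kah A) (hS : RSpan A) : ∃ x : F2 (ofAtl A), RatF x ∧ InU σ hc x := by
  obtain ⟨N, b, t, hb, hx⟩ := hS (ofKah K).f2
  obtain ⟨c, c', ε, hε, h1⟩ := Hdg_850.h4 P K hc hu b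
  have h2 : ∀ k, ∃ q : ℚ, |(q : ℝ) - t k| < ε := fun k => by
    obtain ⟨q, hq1, hq2⟩ := exists_rat_btwn (show t k < t k + ε by linarith)
    exact ⟨q, by rw [abs_lt]; constructor <;> linarith⟩
  choose q hq using h2
  obtain ⟨K', e, he, h3⟩ := h1 (fun k => (q k : ℝ) - t k) hq
  refine ⟨∑ k, (q k : ℝ) • b k, RatF.sum hb q, K', ∑ k, ((q k : ℝ) - t k) * c k,
    ∑ k, ((q k : ℝ) - t k) * c' k,
    e - ((ofKah K).f2 - ∑ k, t k • b k), (exS _).sub_mem he hx, ?_⟩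
  have h4 : ∑ k, (q k : ℝ) • b k = ((ofKah K).f2 + ∑ k, ((q k : ℝ) - t k) • b k) -
      ((ofKah K).f2 - ∑ k, t k • b k) := by
    have : ∑ k, ((q k : ℝ) - t k) • b k = ∑ k, (q k : ℝ) • b k - ∑ k, t k • b k := by
      rw [← Finset.sum_sub_distrib]
      exact Finset.sum_congr rfl fun k _ => sub_smul _ _ _
    rw [this]
    abel
  rw [h4, h3, add_sub_assoc]
  rfl

variable {n : ℕ} (hdn : d = n + n) (hn : 1 ≤ n) (hn2 : 2 ≤ n + n)

/-- the top power in the notation of 207 -/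
theorem Tn_pow (x : F2 (ofAtl A)) :
    Tn hdn P (fun _ => x) = IM (lc d) (bc d) (RPart.ofPart P) (fun _ => x) := Tn_eq hdn P _

include P hu hn in
/-- the form is positive on `U` -/
theorem InU.pos {x : F2 (ofAtl A)} (h : InU σ hc x) :
    0 < Qf (Tn hdn P) hn2 n (reS σ.toH2 hc) x x := by
  obtain ⟨K', a, c, e, he, rfl⟩ := h
  obtain ⟨v0, v1, v2, v3, v4, v5⟩ := Fuj6_207.values P σ hu hc (lc d) (bn hdn) (RPart.ofPart P) hn
    (by omega) hn2 (ori_ofAtl A) (fun K => Tn_pos hdn P K) K'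
  have hT := Tn_symm hdn P
  have hk := Tn_kills hdn P
  rw [bil_exp (Qf (Tn hdn P) hn2 n (reS σ.toH2 hc)) a c
    (fun x y => Fuj1_207.Qf_symm hT hn2 n _ x y) (fun x => hk.Qf_right he hn2 n _ x) v1 v2 v3 v4]
  have h1 : 0 ≤ (a ^ 2 + c ^ 2) *
      Qf (Tn hdn P) hn2 n (reS σ.toH2 hc) (reS σ.toH2 hc) (reS σ.toH2 hc) :=
    mul_nonneg (by positivity) (le_of_lt v0)
  exact add_pos_of_pos_of_nonneg v5 h1

include P hu hn in
/-- **RAT**: the Beauville form is rational on rational classes, up to one positive constant `c`,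
`c ^ n ∈ kap d c0 * ℚ` -/
theorem rat_Tn_of {c0 : ℝ} (hc0 : 0 < c0) (hL : Lef d c0) (hNN : NNat (Cn d) d) (K : Kah A)
    (hS : RSpan A) : ∃ c : ℝ, 0 < c ∧ (∃ r : ℚ, 0 < r ∧ c ^ n = kap d c0 * r) ∧
      ∀ x y : F2 (ofAtl A), RatF x → RatF y → ∃ r : ℚ,
        Qf (Tn hdn P) hn2 n (reS σ.toH2 hc) x y = c * r := by
  have hT := Tn_symm hdn P
  obtain ⟨x0, hx0, hU0⟩ := exists_rat_U P σ hu hc K hS
  have hκ : 0 < kap d c0 := kap_pos hc0
  have hn0 : n ≠ 0 := by omega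
  set κ := kap d c0 with hκd
  set lam : ℝ := κ ^ ((n : ℝ)⁻¹) with hlam
  have hlam0 : 0 < lam := Real.rpow_pos_of_pos hκ _
  have hlamn : lam ^ n = κ := Real.rpow_inv_natCast_pow hκ.le hn0
  set Q := qf (Tn hdn P) hn2 n (reS σ.toH2 hc) with hQ
  have hfuj : ∀ x, Q x ^ n = IM (lc d) (bc d) (RPart.ofPart P) (fun _ => x) := fun x => by
    rw [← Tn_pow P hdn, fujiki_Tn hdn P hn hn2 K σ hu hc x]
    rfl
  -- values on `U`
  have hval : ∀ x, RatF x → InU σ hc x → ∃ r : ℚ, (lam⁻¹ • Q) x ^ n = r := by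
    intro x hx hUx
    obtain ⟨r, hr⟩ := vol_U P σ hu hc hc0 hL hNN (by omega) hx hUx
    refine ⟨r, ?_⟩
    rw [smul_apply, smul_eq_mul, mul_pow, hfuj, hr, inv_pow, hlamn, ← mul_assoc,
      inv_mul_cancel₀ hκ.ne', one_mul]
  have hQ0 : 0 < Q x0 := InU.pos P σ hu hc hdn hn hn2 hU0
  set Hq : AddSubgroup (F2 (ofAtl A)) := clsS (ofAtl A) (Rat.castHom ℝ).toAddMonoidHom.range
    with hHq
  obtain ⟨h1, h2⟩ := rational_form (n := n) (by omega) (lam⁻¹ • Q) Hq (x0 := x0)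
    (by rw [smul_apply, smul_eq_mul]; positivity) (hval x0 hx0 hU0) (fun y hy => by
      obtain ⟨ε, hε, h3⟩ := InU.near P σ hu hc hU0 y
      refine ⟨ε, hε, fun s hs0 hs1 => ?_⟩
      refine hval _ ?_ (h3 s (by exact_mod_cast hs0) hs1)
      exact Hq.add_mem hx0 (Cdr_234.RatF.smul hy s))
  obtain ⟨r0, hr0⟩ := hval x0 hx0 hU0
  rw [smul_apply, smul_eq_mul, mul_pow, inv_pow, hlamn] at hr0
  have hr0' : Q x0 ^ n = κ * r0 := by
    rw [← hr0, ← mul_assoc, mul_inv_cancel₀ hκ.ne', one_mul]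
  have hr0p : (0 : ℝ) < r0 := by
    have : 0 < Q x0 ^ n := pow_pos hQ0 n
    rw [hr0'] at this
    exact (mul_pos_iff_of_pos_left hκ).1 this
  refine ⟨Q x0, hQ0, ⟨r0, by exact_mod_cast hr0p, hr0'⟩, fun x y hx hy => ?_⟩
  obtain ⟨r, hr⟩ := h2 x hx y hy
  rw [FunLike.coe_smul, QuadraticMap.polar_smul, Pi.smul_apply, smul_eq_mul, smul_eq_mul,
    hQ, Fuj1_207.polar_qf hT, ← hQ] at hr
  refine ⟨r / 2, ?_⟩
  have h3 : lam⁻¹ ≠ 0 := (inv_pos.2 hlam0).ne'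
  have h4 : 2 * Qf (Tn hdn P) hn2 n (reS σ.toH2 hc) x y = Q x0 * r :=
    mul_left_cancel₀ h3 (by rw [hr]; ring)
  push_cast
  linarith

end main

end Crest.Agent.R281.Qg_770
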