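import Crest.Agent.R281.Qg4_770
import Crest.Agent.R281.Cdr10_234

/-!
# Row 281, RAT-GLUE (helper770), part 5: final form

* `rspan`, `ifin` : from the basis theorem of 234
* `rat`     : **`∃ c > 0, Q(x, y) ∈ c ℚ` on rational classes, `∈ c ℤ` on integral classes**,
              `c ^ n ∈ kap d π * ℚ`
* `pow_rat` : `∫ x^d ∈ kap d π * ℚ` on rational classes
* `ratC`    : the same for a system of real charts `C` and `h : Cmp C (ofAtl A)`
-/

set_option autoImplicit false
set_option linter.unusedSectionVars false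
set_option maxSynthPendingDepth 3

open Set Filter Topology Complex MeasureTheory
open scoped ContDiff Matrix ComplexConjugate ComplexOrder

noncomputable section

namespace Crest.Agent.R281.Qg_770

open Crest.Agent.R275 Crest.Agent.R275.Geo Crest.Agent.R275.Core144 Crest.Agent.R275.EDR890
open Crest.Agent.R275.GC293
open Crest.Agent.R273.Defs_333 Crest.Agent.R273.Kah_333 Crest.Agent.R273.Vol_333
open Crest.Agent.R281.HkR_835 Crest.Agent.R281.Ti_846 Crest.Agent.R281.Dif_268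
open Crest.Agent.R281.Defs_273 (H2 HSymp)
open Crest.Agent.R281.Cdr_234 (RatF IntF Cls clsS HBas exists_hbas)
open Crest.Agent.R281.Fuj1_207 (Qf qf Kills Tri)
open Crest.Agent.R281.Fuj4_207 Crest.Agent.R281.Fuj5_207 Crest.Agent.R281.Fuj7_207

variable {d : ℕ} {M : Type} [TopologicalSpace M] {A : Atl d M} [T2Space M] [CompactSpace M]

theorem rspan (A : Atl d M) : RSpan A := by
  obtain ⟨B⟩ := exists_hbas A
  intro x
  obtain ⟨t, ht⟩ := B.span x
  exact ⟨B.N, B.b, t, fun k => Cdr_234.IntF.rat (B.int k), mem_exS.2 ht⟩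

theorem ifin (A : Atl d M) : IFin A := by
  obtain ⟨B⟩ := exists_hbas A
  refine ⟨B.N, B.b, B.int, fun x hx => ?_⟩
  have h1 := B.intF_iff_co.1 hx
  choose a ha using h1
  refine ⟨a, mem_exS.2 ?_⟩
  simp only [← ha]
  exact B.ex_co x

variable [ConnectedSpace M] [Finite A.ι] (P : Part A) (σ : HSymp A) (hu : σ.Uniq)
  (hc : ClH σ.toH2) {n : ℕ} (hdn : d = n + n) (hn : 1 ≤ n) (hn2 : 2 ≤ n + n)

include P hu hn in
/-- **(RAT)** rational and integral normalisation of the Beauville-Bogomolov form -/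
theorem rat (K : Kah A) :
    ∃ c : ℝ, 0 < c ∧ (∃ r : ℚ, 0 < r ∧ c ^ n = kap d Real.pi * r) ∧
      (∀ x y : F2 (ofAtl A), RatF x → RatF y → ∃ r : ℚ,
        Qf (Tn hdn P) hn2 n (reS σ.toH2 hc) x y = c * r) ∧
      ∀ x y : F2 (ofAtl A), IntF x → IntF y → ∃ m : ℤ,
        Qf (Tn hdn P) hn2 n (reS σ.toH2 hc) x y = c * m :=
  int_Tn P σ hu hc hdn hn hn2 K (rspan A) (ifin A)

include hu hn in
/-- **top powers of rational classes** -/
theorem pow_rat (K : Kah A) {x : F2 (ofAtl A)} (hx : RatF x) :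
    ∃ r : ℚ, Tn hdn P (fun _ => x) = kap d Real.pi * r :=
  pow_Tn P σ hu hdn hn K (rspan A) hx

include P hu hn in
/-- the same in a system of real charts -/
theorem ratC {V : Type} [NormedAddCommGroup V] [NormedSpace ℝ V] {C : RCh V M}
    (h : Cmp C (ofAtl A)) (K : Kah A) :
    ∃ c : ℝ, 0 < c ∧
      (∀ x y : F2 C, RatF x → RatF y → ∃ r : ℚ,
        Qf (Tn hdn P) hn2 n (reS σ.toH2 hc) (h.F x) (h.F y) = c * r) ∧
      ∀ x y : F2 C, IntF x → IntF y → ∃ m : ℤ,
        Qf (Tn hdn P) hn2 n (reS σ.toH2 hc) (h.F x) (h.F y) = c * m := by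
  obtain ⟨c, hc0, -, h1, h2⟩ := rat P σ hu hc hdn hn hn2 K
  exact ⟨c, hc0, fun x y hx hy => h1 _ _ (RatF.F h hx) (RatF.F h hy),
    fun x y hx hy => h2 _ _ (Cls.cmp_F h |>.2 hx) (Cls.cmp_F h |>.2 hy)⟩

end Crest.Agent.R281.Qg_770
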