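import Crest.Agent.R281.RkE_902
import Crest.Agent.R281.NefM_252

/-!
# Row 281, node KappaP, QTubP (helper831), part 1

* `exists_kah_k` : the Kaehler metric `s g` of `J k` in a holomorphic atlas of `J k`
* `exists_height`: `y ≥ Y0` with `y²` rational
-/

set_option autoImplicit false
set_option linter.unusedSectionVars false
set_option maxSynthPendingDepth 3

open Set Filter Topology Complex
open scoped ContDiff ComplexOrder

namespace Crest.Agent.R281.Qp_831

open Crest.Agent.R275.Geo Crest.Agent.R275.Core144 Crest.Agent.R275.EDR890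
open Crest.Agent.R273.Defs_333 Crest.Agent.R273.Kah_333
open Crest.Agent.R260.ACM_580 Crest.Agent.R260.NNB_580 Crest.Agent.R275.GC293
open Crest.Agent.R281.HkR_835 Crest.Agent.R281.Ti_846 Crest.Agent.R281.Dif_268
open Crest.Agent.R281.NefO_476 Crest.Agent.R281.Nef_252

noncomputable section

theorem exists_height (Y0 : ℝ) : ∃ y : ℝ, Y0 ≤ y ∧ 0 < y ∧ ∃ a : ℚ, (a : ℝ) = y ^ 2 := by
  obtain ⟨m, hm⟩ := exists_nat_gt (max Y0 1)
  have h1 : (1 : ℝ) < m := (le_max_right _ _).trans_lt hm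
  refine ⟨m, ((le_max_left _ _).trans_lt hm).le, by linarith, (m : ℚ) ^ 2, by push_cast; rfl⟩

variable {V X : Type} [NormedAddCommGroup V] [NormedSpace ℝ V] [TopologicalSpace X] {C : RCh V X}
  {d : ℕ} {A : Atl d X}

/-- **the metric `s g` in the holomorphic atlas of `J k`** -/
theorem exists_kah_k (H : HkT C) (k : Fin 3) {s : ℝ} (hs : 0 < s) (hA : Cp (H.acm k) A) :
    ∃ K : Kah A, Eqv (ofKah K).f2 (s • (cmp_of_cp hA).F (H.om k)) := by
  set h0 := cmp_of_cp hA with hh0
  have t0 : T11 (jA A) (h0.F (H.om k)) :=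
    eqv_T11 (cmp_F h0 _) (pull_T11 (holM_cp hA) (T11_hk H k))
  have p0 : Pos (jA A) (h0.F (H.om k)) := eqv_Pos (cmp_F h0 _)
    (pull_Pos (holM_cp hA) (bi_cmp h0).imm (Pos_hk H k))
  have t1 : T11 (jA A) (s • h0.F (H.om k)) := fun i z hz u v =>
    congrArg (fun t => s * t) (t0 i z hz u v)
  have p1 : Pos (jA A) (s • h0.F (H.om k)) := fun i z hz v hv => mul_pos hs (p0 i z hz v hv)
  set K1 : K11 A := (s • h0.F (H.om k)).k11 t1 with hK1
  have e1 : Eqv K1.f2 (s • h0.F (H.om k)) := fun i z hz u v => by rw [F2.k11_f2 _ t1 hz]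
  exact ⟨K1.kah ((pos_f2 K1).1 (eqv_Pos e1.symm p1)), e1⟩

end

end Crest.Agent.R281.Qp_831
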