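import Mathlib.MeasureTheory.Function.Jacobian
import Mathlib.Analysis.Calculus.InverseFunctionTheorem.FDeriv
import Mathlib.MeasureTheory.Measure.Lebesgue.EqHaar

/-!
# Row 281, Q-RAT (helper770), part 1: the area formula with multiplicities (Mathlib only)

`E` a finite dimensional real normed space with Haar measure `μ`, `g` strictly differentiable with
non-zero Jacobian on the open set `U`, `S ⊆ U` Borel:
`∫_S |det g'| F dμ = ∫ ∑_{x ∈ S, g x = w} F x dμ(w)`.
-/

set_option autoImplicit false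

open Set Filter Topology MeasureTheory
open scoped ENNReal

noncomputable section

namespace Crest.Agent.R281.Qr_770

variable {E : Type*} [NormedAddCommGroup E] [NormedSpace ℝ E] [FiniteDimensional ℝ E]
  [MeasurableSpace E] [BorelSpace E]

/-- sum of `F` over the points of `S` in the fibre of `w` -/
def fsum {X Y : Type*} (g : X → Y) (S : Set X) (F : X → ℝ≥0∞) (w : Y) : ℝ≥0∞ :=
  ∑' x : {x : X // g x = w}, S.indicator F x.1

theorem fsum_single {X Y : Type*} {g : X → Y} {S : Set X} {F : X → ℝ≥0∞} (hinj : InjOn g S)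
    {x : X} (hx : x ∈ S) : fsum g S F (g x) = F x := by
  unfold fsum
  rw [tsum_eq_single (⟨x, rfl⟩ : {y : X // g y = g x})]
  · rw [indicator_of_mem hx]
  · rintro ⟨y, hy⟩ hne
    apply indicator_of_notMem
    intro hyS
    exact hne (Subtype.ext (hinj hyS hx hy))

theorem fsum_zero {X Y : Type*} {g : X → Y} {S : Set X} {F : X → ℝ≥0∞} {w : Y}
    (hw : w ∉ g '' S) : fsum g S F w = 0 := by
  unfold fsum
  rw [ENNReal.tsum_eq_zero]
  rintro ⟨y, hy⟩
  apply indicator_of_notMem
  intro hyS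
  exact hw ⟨y, hyS, hy⟩

theorem fsum_iUnion {X Y : Type*} {g : X → Y} {S : ℕ → Set X} (hd : Pairwise (Function.onFun Disjoint S))
    (F : X → ℝ≥0∞) (w : Y) : fsum g (⋃ k, S k) F w = ∑' k, fsum g (S k) F w := by
  unfold fsum
  rw [ENNReal.tsum_comm]
  refine tsum_congr ?_
  rintro ⟨x, hx⟩
  by_cases hxS : x ∈ ⋃ i, S i
  · rw [Set.indicator_of_mem hxS]
    obtain ⟨i, hi⟩ := mem_iUnion.1 hxS
    rw [tsum_eq_single i]
    · rw [Set.indicator_of_mem hi]
    · intro j hj
      rw [Set.indicator_of_notMem]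
      intro hxj
      exact Set.disjoint_left.mp (hd hj) hxj hi
  · rw [Set.indicator_of_notMem hxS, eq_comm, ENNReal.tsum_eq_zero]
    intro i
    rw [Set.indicator_of_notMem]
    exact fun h => hxS (mem_iUnion.2 ⟨i, h⟩)

theorem fsum_congr {X Y : Type*} {g : X → Y} {S : Set X} {F F' : X → ℝ≥0∞}
    (h : ∀ x ∈ S, F x = F' x) (w : Y) : fsum g S F w = fsum g S F' w := by
  unfold fsum
  refine tsum_congr fun x => ?_
  by_cases hx : x.1 ∈ S
  · rw [indicator_of_mem hx, indicator_of_mem hx, h _ hx]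
  · rw [indicator_of_notMem hx, indicator_of_notMem hx]

variable (μ : Measure E) [μ.IsAddHaarMeasure]

/-- one piece of injectivity -/
theorem piece {g : E → E} {g' : E → E →L[ℝ] E} {S : Set E} (hS : MeasurableSet S)
    (hg : ∀ x ∈ S, HasFDerivWithinAt g (g' x) S x) (hinj : InjOn g S) {F : E → ℝ≥0∞}
    (hF : Measurable fun z : S => F z.1) :
    Measurable (fsum g S F) ∧
      ∫⁻ x in S, ENNReal.ofReal |(g' x).det| * F x ∂μ = ∫⁻ w, fsum g S F w ∂μ := by
  classical
  have hemb := measurableEmbedding_of_fderivWithin hS hg hinj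
  let G : E → ℝ≥0∞ := Function.extend (S.domRestrict g) (fun z => F z.1) 0
  have hGm : Measurable G := hemb.measurable_extend hF measurable_zero
  have hG1 : ∀ z (hz : z ∈ S), G (g z) = F z := by
    intro z hz
    exact hemb.injective.extend_apply (fun z : S => F z.1) 0 ⟨z, hz⟩
  have hG2 : ∀ η, η ∉ g '' S → G η = 0 := by
    intro η hη
    apply Function.extend_apply'
    rintro ⟨⟨z, hz⟩, h⟩
    exact hη ⟨z, hz, h⟩
  have hGe : fsum g S F = G := by
    funext w
    by_cases hw : w ∈ g '' S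
    · obtain ⟨z, hz, rfl⟩ := hw
      rw [fsum_single hinj hz, hG1 z hz]
    · rw [fsum_zero hw, hG2 w hw]
  rw [hGe]
  refine ⟨hGm, ?_⟩
  have h1 : ∫⁻ η, G η ∂μ = ∫⁻ η in g '' S, G η ∂μ := by
    rw [← lintegral_indicator (measurable_image_of_fderivWithin hS hg hinj)]
    apply lintegral_congr
    intro η
    by_cases hη : η ∈ g '' S
    · rw [Set.indicator_of_mem hη]
    · rw [Set.indicator_of_notMem hη, hG2 η hη]
  rw [h1, lintegral_image_eq_lintegral_abs_det_fderiv_mul μ hS hg hinj G]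
  refine setLIntegral_congr_fun hS ?_
  intro z hz
  simp only
  rw [hG1 z hz]

/-- a countable partition of an open set into Borel pieces of injectivity -/
theorem exists_parts {g : E → E} {g' : E → E →L[ℝ] E} {U : Set E} (hU : IsOpen U)
    (hg : ∀ x ∈ U, HasStrictFDerivAt g (g' x) x) (hdet : ∀ x ∈ U, (g' x).det ≠ 0) :
    ∃ D : ℕ → Set E, (∀ k, MeasurableSet (D k)) ∧ Pairwise (Function.onFun Disjoint D) ∧
      (⋃ k, D k) = U ∧ ∀ k, InjOn g (D k) := by
  classical
  have hloc : ∀ x ∈ U, ∃ W : Set E, IsOpen W ∧ x ∈ W ∧ InjOn g W := by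
    intro x hx
    let e' := (g' x).toContinuousLinearEquivOfDetNeZero (hdet x hx)
    have he' : (e' : E →L[ℝ] E) = g' x :=
      ContinuousLinearMap.coe_toContinuousLinearEquivOfDetNeZero _ _
    have hd : HasStrictFDerivAt g (e' : E →L[ℝ] E) x := by rw [he']; exact hg x hx
    refine ⟨(hd.toOpenPartialHomeomorph g).source, (hd.toOpenPartialHomeomorph g).open_source,
      hd.mem_toOpenPartialHomeomorph_source, ?_⟩
    exact (hd.toOpenPartialHomeomorph g).injOn
  choose! W hWo hWm hWi using hloc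
  obtain ⟨T, hTU, hTc, hTcov⟩ : ∃ T ⊆ U, T.Countable ∧ U ⊆ ⋃ x ∈ T, W x :=
    TopologicalSpace.countable_cover_nhdsWithin
      (f := W) (s := U) (fun x hx => mem_nhdsWithin_of_mem_nhds ((hWo x hx).mem_nhds (hWm x hx)))
  rcases T.eq_empty_or_nonempty with hTe | hTne
  · have hUe : U = ∅ := by
      apply Set.eq_empty_of_subset_empty
      simpa [hTe] using hTcov
    refine ⟨fun _ => ∅, fun _ => MeasurableSet.empty, fun i j _ => disjoint_bot_left, ?_,
      fun _ => injOn_empty g⟩
    rw [hUe]; simp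
  obtain ⟨u, hu⟩ := hTc.exists_eq_range hTne
  have huT : ∀ i, u i ∈ U := fun i => hTU (hu ▸ mem_range_self i)
  refine ⟨disjointed fun i => W (u i) ∩ U, fun i => ?_, disjoint_disjointed _, ?_, fun i => ?_⟩
  · exact MeasurableSet.disjointed (fun i => ((hWo _ (huT i)).inter hU).measurableSet) i
  · rw [iUnion_disjointed]
    apply Subset.antisymm
    · exact iUnion_subset fun i => inter_subset_right
    · intro x hx
      have := hTcov hx
      simp only [mem_iUnion] at this
      obtain ⟨y, hy, hxy⟩ := this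
      rw [hu] at hy
      obtain ⟨i, rfl⟩ := hy
      exact mem_iUnion.2 ⟨i, hxy, hx⟩
  · exact (hWi _ (huT i)).mono ((disjointed_subset _ i).trans inter_subset_left)

/-- **area formula with multiplicities** -/
theorem area_loc {g : E → E} {g' : E → E →L[ℝ] E} {U : Set E} (hU : IsOpen U)
    (hg : ∀ x ∈ U, HasStrictFDerivAt g (g' x) x) (hdet : ∀ x ∈ U, (g' x).det ≠ 0) {S : Set E}
    (hS : MeasurableSet S) (hSU : S ⊆ U) {F : E → ℝ≥0∞} (hF : Measurable fun z : S => F z.1) :
    Measurable (fsum g S F) ∧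
      ∫⁻ x in S, ENNReal.ofReal |(g' x).det| * F x ∂μ = ∫⁻ w, fsum g S F w ∂μ := by
  obtain ⟨D, hDm, hDd, hDU, hDi⟩ := exists_parts hU hg hdet
  have hm : ∀ k, MeasurableSet (D k ∩ S) := fun k => (hDm k).inter hS
  have hd : Pairwise (Function.onFun Disjoint fun k => D k ∩ S) := fun i j hij =>
    (hDd hij).mono inter_subset_left inter_subset_left
  have hun : (⋃ k, D k ∩ S) = S := by
    rw [← iUnion_inter, hDU, inter_eq_right.2 hSU]
  have hp : ∀ k, Measurable (fsum g (D k ∩ S) F) ∧
      ∫⁻ x in D k ∩ S, ENNReal.ofReal |(g' x).det| * F x ∂μ = ∫⁻ w, fsum g (D k ∩ S) F w ∂μ := by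
    intro k
    refine piece μ (hm k) (fun x hx => ?_) ((hDi k).mono inter_subset_left) ?_
    · exact (hg x (hSU hx.2)).hasFDerivAt.hasFDerivWithinAt
    · exact hF.comp (g := fun z : S => F z.1)
        (f := fun z : (D k ∩ S : Set E) => (⟨z.1, z.2.2⟩ : S))
        (measurable_subtype_coe.subtype_mk)
  have he : fsum g S F = fun w => ∑' k, fsum g (D k ∩ S) F w := by
    funext w
    rw [← fsum_iUnion hd, hun]
  refine ⟨?_, ?_⟩
  · rw [he]
    exact Measurable.tsum fun k => (hp k).1
  · rw [he, lintegral_tsum fun k => (hp k).1.aemeasurable]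
    conv_lhs => rw [← hun]
    rw [lintegral_iUnion hm hd]
    exact tsum_congr fun k => (hp k).2

end Crest.Agent.R281.Qr_770
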