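import Crest.Agent.R281.Qr2_770
import Crest.Agent.R273.FId0_597
import Crest.Agent.R273.SteinL_794

/-!
# Row 281, Q-RAT (helper770), part 3: Fubini-Study metrics of sections without common zero

* `det_hess_fs` : `det ∂∂̄ log (ε² + |f - a|²) = |det Df|² ε² / (ε² + |f - a|²)^(n+1)`
* `hmS`         : the metric of a family of sections without common zero
* `fmap s s0`   : the map `(s_1/s_0, .., s_n/s_0)`, holomorphic on `nz s0`
* `det_cur_fs`  : the curvature determinant of the metric of `(ε s_0, s_j - a_j s_0)`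
* `main_identity` : `∫ N(w) ε² / (ε² + |w - a|²)^(n+1) dw = ∫ det (cur h)` for all `a`, `ε`, `h`
-/

set_option autoImplicit false
set_option linter.unusedSectionVars false

open Set Filter Topology Complex MeasureTheory
open scoped ContDiff Matrix ComplexConjugate Manifold ENNReal ComplexOrder

noncomputable section

namespace Crest.Agent.R281.Qr_770

open Crest.Agent.R273 Crest.Agent.R275 Crest.Agent.R275.Geo Crest.Agent.R275.Core144
open Crest.Agent.R275.EDR890
open Crest.Agent.R273.Defs_333 Crest.Agent.R273.Hess_333 Crest.Agent.R273.HessB_333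
open Crest.Agent.R273.Kah_333 Crest.Agent.R273.FS_333
open Crest.Agent.R273.Vm_333
open Crest.Agent.R275.Pai323 Crest.Agent.R275.C1d194

variable {n : ℕ}

/-- `ε² / (ε² + t)^(n+1)` -/
def kn (n : ℕ) (ε t : ℝ) : ℝ := ε ^ 2 / (ε ^ 2 + t) ^ (n + 1)

theorem det_rank_one (S : ℂ) (hS : S ≠ 0) (v u : Fin n → ℂ) :
    (S⁻¹ • (1 : Matrix (Fin n) (Fin n) ℂ) - (S⁻¹) ^ 2 • Matrix.vecMulVec v u).det =
      (S - ∑ k, u k * v k) / S ^ (n + 1) := by
  have h1 : S⁻¹ • (1 : Matrix (Fin n) (Fin n) ℂ) - (S⁻¹) ^ 2 • Matrix.vecMulVec v u =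
      S⁻¹ • (1 + Matrix.replicateCol Unit ((-S⁻¹) • v) * Matrix.replicateRow Unit u) := by
    ext a b
    simp only [Matrix.sub_apply, Matrix.smul_apply, Matrix.add_apply, Matrix.vecMulVec_apply,
      smul_eq_mul, Matrix.mul_apply, Finset.univ_unique, Finset.sum_singleton,
      Matrix.replicateCol_apply, Matrix.replicateRow_apply, Pi.smul_apply]
    ring
  rw [h1, Matrix.det_smul, Matrix.det_one_add_replicateCol_mul_replicateRow, Fintype.card_fin]
  have h2 : u ⬝ᵥ ((-S⁻¹) • v) = -S⁻¹ * ∑ k, u k * v k := by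
    rw [dotProduct_smul, smul_eq_mul]
    rfl
  rw [h2, inv_pow]
  field_simp
  ring

/-- the local computation -/
theorem det_hess_fs {f : Cn n → Cn n} {U : Set (Cn n)} (hU : IsOpen U)
    (hf : DifferentiableOn ℂ f U) {z : Cn n} (hz : z ∈ U) (a : Cn n) {ε : ℝ} (hε : ε ≠ 0) :
    (hess (fun w => Real.log (ε ^ 2 + ‖f w - a‖ ^ 2)) z).det =
      ((‖LinearMap.det ((fderiv ℂ f z : Cn n →L[ℂ] Cn n) : Cn n →ₗ[ℂ] Cn n)‖ ^ 2 *
        kn n ε (‖f z - a‖ ^ 2) : ℝ) : ℂ) := by
  set F : Cn n → Fin (n + 1) → ℂ := fun w => Fin.cons (ε : ℂ) (fun j => f w j - a j) with hF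
  have hd0 : ∀ j, DifferentiableOn ℂ (fun w => f w j) U := fun j =>
    (EuclideanSpace.proj j : Cn n →L[ℂ] ℂ).differentiable.comp_differentiableOn hf
  have hFd : ∀ k, DifferentiableOn ℂ (fun w => F w k) U := by
    intro k
    refine Fin.cases ?_ (fun j => ?_) k
    · simp only [hF, Fin.cons_zero]
      exact differentiableOn_const _
    · simp only [hF, Fin.cons_succ]
      exact (hd0 j).sub_const _
  have hsq : FS_333.sq F = fun w => ε ^ 2 + ‖f w - a‖ ^ 2 := by
    funext w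
    simp only [FS_333.sq, Fin.sum_univ_succ, hF, Fin.cons_zero, Fin.cons_succ]
    rw [EuclideanSpace.norm_sq_eq, Complex.norm_real, Real.norm_eq_abs, sq_abs]
    rfl
  have hpos : ∀ w, 0 < FS_333.sq F w := by
    intro w
    rw [hsq]
    positivity
  have hs : ContDiffAt ℝ ∞ (FS_333.sq F) z :=
    ContDiffAt.sum fun k _ => (contDiffAt_of_hol hU (hFd k) hz).norm_sq ℝ
  have hf0 : ∀ b : Fin n, fderiv ℂ (fun z => F z 0) z (EuclideanSpace.single b 1) = 0 := by
    intro b
    have : (fun z => F z 0) = fun _ => (ε : ℂ) := by funext w; simp [hF]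
    rw [this, fderiv_fun_const]
    rfl
  have hfj : ∀ (j b : Fin n), fderiv ℂ (fun z => F z j.succ) z (EuclideanSpace.single b 1) =
      (fderiv ℂ f z (EuclideanSpace.single b 1)) j := by
    intro j b
    have h1 : (fun z => F z j.succ) = fun w => f w j - a j := by
      funext w; simp [hF]
    have h2 : HasFDerivAt (fun w => f w j) ((EuclideanSpace.proj j : Cn n →L[ℂ] ℂ).comp
        (fderiv ℂ f z)) z := (EuclideanSpace.proj j : Cn n →L[ℂ] ℂ).hasFDerivAt.comp _
        (hf.differentiableAt (hU.mem_nhds hz)).hasFDerivAt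
    rw [h1, (h2.sub_const (a j)).fderiv]
    rfl
  set S : ℂ := ((FS_333.sq F z : ℝ) : ℂ) with hS
  have hS0 : S ≠ 0 := by
    rw [hS]; exact_mod_cast (hpos z).ne'
  set v : Fin n → ℂ := fun j => f z j - a j with hv
  set J : Matrix (Fin n) (Fin n) ℂ := Matrix.of fun j b =>
    (fderiv ℂ f z (EuclideanSpace.single b 1)) j with hJ
  have hFz : ∀ j : Fin n, F z j.succ = v j := fun j => by simp [hF, hv]
  have hmat : hess (fun w => Real.log (ε ^ 2 + ‖f w - a‖ ^ 2)) z =
      Jᵀ * (S⁻¹ • (1 : Matrix (Fin n) (Fin n) ℂ) - (S⁻¹) ^ 2 • Matrix.vecMulVec (fun k => conj (v k)) v) *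
        J.map conj := by
    have h0 : (fun w => Real.log (ε ^ 2 + ‖f w - a‖ ^ 2)) = fun w => Real.log (FS_333.sq F w) := by
      rw [hsq]
    ext b c
    rw [h0, hess_log hs (hpos z), hess_sq hU hFd hz, wd_sq hU hFd hz, wd_sq' hU hFd hz]
    simp only [Fin.sum_univ_succ, hf0, hfj, zero_mul, mul_zero, zero_add, map_zero, hFz]
    rw [Matrix.mul_sub, Matrix.sub_mul, Matrix.sub_apply]
    congr 1
    · rw [Matrix.mul_smul, Matrix.mul_one, Matrix.smul_mul, Matrix.smul_apply, smul_eq_mul]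
      congr 1
    · rw [Matrix.mul_smul, Matrix.smul_mul, Matrix.smul_apply, smul_eq_mul]
      congr 1
      rw [Matrix.mul_apply]
      simp only [Matrix.mul_apply, Matrix.transpose_apply, Matrix.vecMulVec_apply, Matrix.map_apply,
        hJ, Matrix.of_apply]
      rw [Finset.sum_mul_sum, Finset.sum_comm]
      refine Finset.sum_congr rfl fun j _ => ?_
      rw [Finset.sum_mul]
      refine Finset.sum_congr rfl fun k _ => ?_
      ring
  have hdJ : J.det = LinearMap.det ((fderiv ℂ f z : Cn n →L[ℂ] Cn n) : Cn n →ₗ[ℂ] Cn n) := by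
    rw [← LinearMap.det_toMatrix (EuclideanSpace.basisFun (Fin n) ℂ).toBasis]
    congr 1
  have hvv : ∑ k, v k * conj (v k) = ((‖f z - a‖ ^ 2 : ℝ) : ℂ) := by
    rw [EuclideanSpace.norm_sq_eq, Complex.ofReal_sum]
    refine Finset.sum_congr rfl fun k _ => ?_
    rw [Complex.mul_conj, Complex.normSq_eq_norm_sq]
    rfl
  have hSv : S = (ε : ℂ) ^ 2 + ((‖f z - a‖ ^ 2 : ℝ) : ℂ) := by
    rw [hS, hsq]
    push_cast
    ring
  have hcj : (J.map conj).det = conj J.det := by
    rw [← RingHom.mapMatrix_apply, ← RingHom.map_det]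
  rw [hmat, Matrix.det_mul, Matrix.det_mul, Matrix.det_transpose, hcj, det_rank_one S hS0, hvv,
    ← hdJ]
  have h5 : S - ((‖f z - a‖ ^ 2 : ℝ) : ℂ) = (ε : ℂ) ^ 2 := by rw [hSv]; ring
  rw [h5]
  have h6 : ((‖J.det‖ ^ 2 * kn n ε (‖f z - a‖ ^ 2) : ℝ) : ℂ) =
      (J.det * conj J.det) * ((ε : ℂ) ^ 2 / S ^ (n + 1)) := by
    rw [Complex.mul_conj, Complex.normSq_eq_norm_sq, hSv, kn]
    push_cast
    ring
  rw [h6]
  ring


/-! ### metrics from sections -/

section metric

variable {M : Type} [TopologicalSpace M] {A : Atl n M} {L : LB A}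

/-- the metric of a finite family of sections without common zero -/
def hmS {N : ℕ} (t : Fin N → A.ι → M → ℂ) (ht : ∀ k, IsHS L univ (t k))
    (h0 : ∀ i, ∀ x ∈ (A.e i).source, ∃ k, t k i x ≠ 0) : HM L where
  w i x := (∑ k, ‖t k i x‖ ^ 2)⁻¹
  pos i x hx := by
    have h : (fun k => t k i x) ≠ 0 := by
      obtain ⟨k, hk⟩ := h0 i x hx
      exact fun h => hk (congrFun h k)
    exact inv_pos.2 (FS_333.sq_pos (n := 0) (F := fun _ k => t k i x) (z := 0) h)
  sm i := by
    have h1 : ContDiffOn ℝ ∞ (fun z => ∑ k, ‖t k i ((A.e i).symm z)‖ ^ 2) (A.e i).target := by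
      refine ContDiffOn.sum fun k _ => ?_
      have h2 : ContDiffOn ℝ ∞ (fun z => t k i ((A.e i).symm z)) (A.e i).target := by
        have := ((ht k).hol i).contDiffOn isOpen_univ
        simpa using this
      exact h2.norm_sq ℝ
    refine h1.inv fun z hz => ?_
    have h : (fun k => t k i ((A.e i).symm z)) ≠ 0 := by
      obtain ⟨k, hk⟩ := h0 i _ ((A.e i).map_target hz)
      exact fun h => hk (congrFun h k)
    exact (FS_333.sq_pos (n := 0) (F := fun _ k => t k i ((A.e i).symm z)) (z := 0) h).ne'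
  tr i j x hx := by
    have h2 : (∑ k, ‖t k i x‖ ^ 2) = ‖L.g i j x‖ ^ 2 * ∑ k, ‖t k j x‖ ^ 2 := by
      rw [Finset.mul_sum]
      refine Finset.sum_congr rfl fun k _ => ?_
      rw [(ht k).tr i j x hx (mem_univ x), norm_mul, mul_pow]
    have h3 : L.g i j x ≠ 0 := L.ne_zero i j x
    rw [h2, mul_inv, ← mul_assoc, mul_inv_cancel₀ (by positivity), one_mul]

theorem hmS_wt {N : ℕ} (t : Fin N → A.ι → M → ℂ) (ht : ∀ k, IsHS L univ (t k))
    (h0 : ∀ i, ∀ x ∈ (A.e i).source, ∃ k, t k i x ≠ 0) (i : A.ι) :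
    (hmS t ht h0).wt i = fun z => Real.log (∑ k, ‖t k i ((A.e i).symm z)‖ ^ 2) := by
  funext z
  simp only [HM.wt, hmS, Real.log_inv, neg_neg]

theorem hmS_semipos {N : ℕ} (t : Fin N → A.ι → M → ℂ) (ht : ∀ k, IsHS L univ (t k))
    (h0 : ∀ i, ∀ x ∈ (A.e i).source, ∃ k, t k i x ≠ 0) : (hmS t ht h0).Semipos := by
  intro i z hz v
  rw [hmS_wt]
  have hF : ∀ k, DifferentiableOn ℂ (fun z => t k i ((A.e i).symm z)) (A.e i).target := by
    intro k
    have := (ht k).hol i
    unfold HolAt at this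
    simpa using this
  have h : (fun k => t k i ((A.e i).symm z)) ≠ 0 := by
    obtain ⟨k, hk⟩ := h0 i _ ((A.e i).map_target hz)
    exact fun h => hk (congrFun h k)
  have h1 := lev_log_sq (F := fun z k => t k i ((A.e i).symm z)) (A.e i).open_target hF hz h v
  unfold FS_333.sq at h1
  rw [h1]
  have hp := FS_333.sq_pos (F := fun z k => t k i ((A.e i).symm z)) (z := z) h
  have hL := (lagrange (fun k => t k i ((A.e i).symm z))
    (fun k => fderiv ℂ (fun z => t k i ((A.e i).symm z)) z v)).resolve_right hp.ne'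
  unfold FS_333.sq at hp
  rw [hL]
  have h1 : 0 ≤ ∑ k, ‖(∑ l, ‖t l i ((A.e i).symm z)‖ ^ 2 : ℝ) •
      fderiv ℂ (fun z => t k i ((A.e i).symm z)) z v -
      (∑ l, fderiv ℂ (fun z => t l i ((A.e i).symm z)) z v * conj (t l i ((A.e i).symm z))) *
        t k i ((A.e i).symm z)‖ ^ 2 :=
    Finset.sum_nonneg fun _ _ => by positivity
  positivity

/-- the family `(ε s_0, s_j - a_j s_0)` -/
def fam (s0 : A.ι → M → ℂ) (s : Fin n → A.ι → M → ℂ) (a : Cn n) (ε : ℝ) :
    Fin (n + 1) → A.ι → M → ℂ :=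
  Fin.cons ((ε : ℂ) • s0) fun j => s j + (- a j) • s0

variable {s0 : A.ι → M → ℂ} {s : Fin n → A.ι → M → ℂ}

theorem isHS_fam (h0 : IsHS L univ s0) (h1 : ∀ j, IsHS L univ (s j)) (a : Cn n) (ε : ℝ)
    (k : Fin (n + 1)) : IsHS L univ (fam s0 s a ε k) := by
  refine Fin.cases ?_ (fun j => ?_) k
  · exact h0.smul _
  · exact (h1 j).add (h0.smul _)

theorem fam_ne (hz : ∀ i, ∀ x ∈ (A.e i).source, s0 i x = 0 → ∃ j, s j i x ≠ 0) (a : Cn n) {ε : ℝ}
    (hε : ε ≠ 0) : ∀ i, ∀ x ∈ (A.e i).source, ∃ k, fam s0 s a ε k i x ≠ 0 := by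
  intro i x hx
  by_cases h : s0 i x = 0
  · obtain ⟨j, hj⟩ := hz i x hx h
    refine ⟨j.succ, ?_⟩
    simp only [fam, Fin.cons_succ, Pi.add_apply, Pi.smul_apply, smul_eq_mul, h, mul_zero, add_zero]
    exact hj
  · refine ⟨0, ?_⟩
    simp only [fam, Fin.cons_zero, Pi.smul_apply, smul_eq_mul]
    exact mul_ne_zero (by exact_mod_cast hε) h

open Crest.Agent.R273.SteinC_794 (nz mem_nz isOpen_nz qt qt_eq qt_hol continuousAt_of_holAt)

/-- the map `(s_1/s_0, .., s_n/s_0)` -/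
def fmap (s0 : A.ι → M → ℂ) (s : Fin n → A.ι → M → ℂ) (x : M) : Cn n :=
  WithLp.toLp 2 fun j => qt (s j) s0 x

theorem fmap_apply (x : M) (j : Fin n) : fmap s0 s x j = qt (s j) s0 x := rfl

theorem holW_fmap (h0 : IsHS L univ s0) (h1 : ∀ j, IsHS L univ (s j)) :
    HolW A (nz s0) (fmap s0 s) := by
  intro i
  have h2 : ∀ j, DifferentiableOn ℂ (fun z => qt (s j) s0 ((A.e i).symm z))
      ((A.e i).target ∩ (A.e i).symm ⁻¹' (nz s0)) := fun j => qt_hol (h1 j) h0 i
  exact (PiLp.continuousLinearEquiv 2 ℂ (fun _ : Fin n => ℂ)).symm.differentiable.comp_differentiableOn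
    (differentiableOn_pi.2 h2)

theorem cont_fmap (h0 : IsHS L univ s0) (h1 : ∀ j, IsHS L univ (s j)) :
    ContinuousOn (fmap s0 s) (nz s0) := by
  intro x hx
  obtain ⟨i, hi⟩ := A.cover x
  have h2 : ∀ j, ContinuousAt (qt (s j) s0) x := fun j =>
    continuousAt_of_holAt (isOpen_nz h0) (qt_hol (h1 j) h0 i) hi hx
  have h3 : ContinuousAt (fun x => (PiLp.continuousLinearEquiv 2 ℂ (fun _ : Fin n => ℂ)).symm
      (fun j => qt (s j) s0 x)) x :=
    (PiLp.continuousLinearEquiv 2 ℂ (fun _ : Fin n => ℂ)).symm.continuous.continuousAt.comp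
      (continuousAt_pi.2 h2)
  exact h3.continuousWithinAt

/-- the curvature determinant -/
theorem det_cur_fs (h0 : IsHS L univ s0) (h1 : ∀ j, IsHS L univ (s j))
    (hz : ∀ i, ∀ x ∈ (A.e i).source, s0 i x = 0 → ∃ j, s j i x ≠ 0) (a : Cn n) {ε : ℝ}
    (hε : ε ≠ 0) {i : A.ι} {x : M} (hx : x ∈ (A.e i).source) (hxn : x ∈ nz s0) :
    (cur (hmS (fam s0 s a ε) (isHS_fam h0 h1 a ε) (fam_ne hz a hε)) i x).det =
      ((‖jd A (fmap s0 s) i x‖ ^ 2 * kn n ε (‖fmap s0 s x - a‖ ^ 2) : ℝ) : ℂ) := by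
  have ho : IsOpen ((A.e i).target ∩ (A.e i).symm ⁻¹' (nz s0)) := isOpen_ti (isOpen_nz h0)
  have hzz : A.e i x ∈ (A.e i).target ∩ (A.e i).symm ⁻¹' (nz s0) :=
    ⟨(A.e i).map_source hx, by rw [mem_preimage, (A.e i).left_inv hx]; exact hxn⟩
  have hhol := holW_fmap h0 h1 i
  have hs0 : DifferentiableOn ℂ (fun z => s0 i ((A.e i).symm z))
      ((A.e i).target ∩ (A.e i).symm ⁻¹' (nz s0)) :=
    DifferentiableOn.mono (h0.hol i) (inter_subset_inter_right _ (preimage_mono (subset_univ _)))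
  have hev : (hmS (fam s0 s a ε) (isHS_fam h0 h1 a ε) (fam_ne hz a hε)).wt i =ᶠ[𝓝 (A.e i x)]
      fun z => (fun z => Real.log (ε ^ 2 + ‖fmap s0 s ((A.e i).symm z) - a‖ ^ 2)) z +
        (fun z => Real.log (‖s0 i ((A.e i).symm z)‖ ^ 2)) z := by
    filter_upwards [ho.mem_nhds hzz] with z hz
    have hzs : (A.e i).symm z ∈ (A.e i).source := (A.e i).map_target hz.1
    have hne : s0 i ((A.e i).symm z) ≠ 0 := (mem_nz h0 hzs).1 hz.2
    rw [hmS_wt]
    simp only
    rw [← Real.log_mul (by positivity) (by positivity)]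
    congr 1
    rw [Fin.sum_univ_succ, add_mul, EuclideanSpace.norm_sq_eq, Finset.sum_mul]
    congr 1
    · simp only [fam, Fin.cons_zero, Pi.smul_apply, smul_eq_mul, norm_mul, Complex.norm_real,
        Real.norm_eq_abs, mul_pow, sq_abs]
    · refine Finset.sum_congr rfl fun j _ => ?_
      simp only [fam, Fin.cons_succ, Pi.add_apply, Pi.smul_apply, smul_eq_mul]
      rw [← mul_pow, ← norm_mul]
      congr 2
      rw [PiLp.sub_apply, fmap_apply, qt_eq (h1 j) h0 hzs]
      field_simp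
      ring
  have hdo : DifferentiableOn ℂ (fun z => fmap s0 s ((A.e i).symm z))
      ((A.e i).target ∩ (A.e i).symm ⁻¹' (nz s0)) := hhol
  have hsx : s0 i ((A.e i).symm (A.e i x)) ≠ 0 := by
    rw [(A.e i).left_inv hx]; exact (mem_nz h0 hx).1 hxn
  have c1 : ContDiffAt ℝ ∞ (fun z => Real.log (ε ^ 2 + ‖fmap s0 s ((A.e i).symm z) - a‖ ^ 2))
      (A.e i x) := by
    have h2 := contDiffAt_of_hol ho (hdo.sub_const a) hzz
    exact (contDiffAt_const.add (h2.norm_sq ℝ)).log (by positivity)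
  have c2 : ContDiffAt ℝ ∞ (fun z => Real.log (‖s0 i ((A.e i).symm z)‖ ^ 2)) (A.e i x) :=
    ((contDiffAt_of_hol ho hs0 hzz).norm_sq ℝ).log (by positivity)
  have hlog : hess (fun z => Real.log (‖s0 i ((A.e i).symm z)‖ ^ 2)) (A.e i x) = 0 := by
    refine hess_log_norm ?_ hsx
    filter_upwards [ho.mem_nhds hzz] with w hw
    exact hs0.differentiableAt (ho.mem_nhds hw)
  unfold cur
  rw [hess_congr hev, hess_add c1 c2, hlog, add_zero, det_hess_fs ho hdo hzz a hε,
    (A.e i).left_inv hx]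
  rfl

end metric

/-! ### the integral identity -/

theorem fsum_const_mul {X Y : Type*} {g : X → Y} {S : Set X} {F : X → ℝ≥0∞} {w : Y} (c : ℝ≥0∞)
    (h : ∀ x ∈ S, g x = w → F x = c) : fsum g S F w = c * fsum g S (fun _ => 1) w := by
  unfold fsum
  rw [← ENNReal.tsum_mul_left]
  refine tsum_congr fun x => ?_
  by_cases hx : x.1 ∈ S
  · rw [indicator_of_mem hx, indicator_of_mem hx, h _ hx x.2, mul_one]
  · rw [indicator_of_notMem hx, indicator_of_notMem hx, mul_zero]

theorem fsum_one_nat {X Y : Type*} {g : X → Y} {S : Set X} {w : Y}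
    (h : fsum g S (fun _ => 1) w ≠ ⊤) : ∃ d : ℕ, fsum g S (fun _ => 1) w = d := by
  classical
  rw [fsum_eq_sub] at h ⊢
  have h1 : (∑' _ : {x : X // x ∈ S ∧ g x = w}, (1 : ℝ≥0∞)) =
      ENat.card {x : X // x ∈ S ∧ g x = w} := by
    rw [ENNReal.tsum_const]
    simp
  rw [h1] at h ⊢
  have h2 : ENat.card {x : X // x ∈ S ∧ g x = w} ≠ ⊤ := fun h3 => h (by rw [h3]; rfl)
  obtain ⟨d, hd⟩ := ENat.ne_top_iff_exists.1 h2
  exact ⟨d, by rw [← hd]; rfl⟩

section int

open Crest.Agent.R273.HM_333 Crest.Agent.R273.FIb0_597 Crest.Agent.R273.FId0_597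
open Crest.Agent.R273.FIc0_597 (integrable_cont)
open Crest.Agent.R273.Green_5 Crest.Agent.R273.VolInv_5 Crest.Agent.R273.StV_37
open Crest.Agent.R273.SteinC_794 (nz mem_nz isOpen_nz qt qt_eq qt_hol continuousAt_of_holAt)

variable {M : Type} [TopologicalSpace M] {A : Atl n M} {L : LB A}
variable {s0 : A.ι → M → ℂ} {s : Fin n → A.ι → M → ℂ}
variable [T2Space M] [CompactSpace M] [Fintype A.ι] [MeasurableSpace M] [BorelSpace M]

theorem psd_det_nonneg {S : Matrix (Fin n) (Fin n) ℂ} (h : S.PosSemidef) : 0 ≤ S.det.re := by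
  have := h.det_nonneg
  exact (Complex.le_def.1 this).1

/-- the number of noncritical points in the fibres -/
def Nn (s0 : A.ι → M → ℂ) (s : Fin n → A.ι → M → ℂ) (w : RI n → ℝ) : ℝ≥0∞ :=
  fsum (fun x => rc (fmap s0 s x)) (Reg A (fmap s0 s) (nz s0)) (fun _ => 1) w

theorem meas_Nn (h0 : IsHS L univ s0) (h1 : ∀ j, IsHS L univ (s j)) :
    Measurable (Nn s0 s) :=
  (area (isOpen_nz h0) (holW_fmap h0 h1) (F := fun _ => 1) measurable_const).1

theorem totc_real (P : Part A) {S : A.ι → M → Matrix (Fin n) (Fin n) ℂ} (hS : TF A S)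
    (hr : ∀ i, ∀ x ∈ (A.e i).source, (S i x).IsHermitian) :
    totc P (fun i x => (S i x).det) = ((totc P (fun i x => (S i x).det)).re : ℂ) := by
  obtain ⟨h⟩ := exists_hm P (KB A)⁻¹
  have hGc : Continuous (dtC h S) := sm_continuous (sm_dtC h hS)
  have e1 : totc P (fun i x => (S i x).det) = ∫ x, dtC h S x ∂(vm h) := by
    rw [int_eq_totc P h (f := dtC h S) hGc fun i x hx => ?_]
    have h6 : (h.w i x : ℂ) ≠ 0 := by exact_mod_cast (h.pos i x hx).ne'
    rw [dtC_eq h hS hx]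
    field_simp
  have e2 : ∀ x, dtC h S x = ((dtM h S x : ℝ) : ℂ) := by
    intro x
    have hx := mem_ch A x
    have h1 : (S (ch A x) x).det = ((S (ch A x) x).det.re : ℂ) := by
      have h2 : conj (S (ch A x) x).det = (S (ch A x) x).det := by
        have h3 := Matrix.det_conjTranspose (S (ch A x) x)
        rw [(hr _ x hx).eq] at h3
        exact h3.symm
      exact (Complex.conj_eq_iff_re.1 h2).symm
    unfold dtC dtM
    rw [h1]
    simp
  have e3 : ∫ x, dtC h S x ∂(vm h) = ((∫ x, dtM h S x ∂(vm h) : ℝ) : ℂ) := by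
    rw [← integral_complex_ofReal]
    exact integral_congr_ae (Eventually.of_forall e2)
  rw [e1, e3, Complex.ofReal_re]

theorem main_identity [ConnectedSpace M] (P : Part A) (h : HM L) (h0 : IsHS L univ s0)
    (h1 : ∀ j, IsHS L univ (s j))
    (hz : ∀ i, ∀ x ∈ (A.e i).source, s0 i x = 0 → ∃ j, s j i x ≠ 0)
    (hne : ∃ i, ∃ x ∈ (A.e i).source, s0 i x ≠ 0) (a : Cn n) {ε : ℝ} (hε : ε ≠ 0) :
    0 ≤ (totc P (fun i x => (cur h i x).det)).re ∧
      ∫⁻ w, ENNReal.ofReal (kn n ε (‖cc w - a‖ ^ 2)) * Nn s0 s w =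
        ENNReal.ofReal (totc P (fun i x => (cur h i x).det)).re := by
  obtain ⟨v⟩ := exists_hm P (KB A)⁻¹
  have := isFinite_vm v
  set h' := hmS (fam s0 s a ε) (isHS_fam h0 h1 a ε) (fam_ne hz a hε) with hh'
  have hS : TF A (cur h') := tf_of_cf (cur_cf h')
  have hpsd : ∀ i, ∀ x ∈ (A.e i).source, (cur h' i x).PosSemidef := fun i x hx =>
    cur_posSemidef (hmS_semipos _ _ _) i hx
  have hnn : ∀ x, 0 ≤ dtM v (cur h') x := by
    intro x
    have hx := mem_ch A x
    exact div_nonneg (psd_det_nonneg (hpsd _ x hx)) (v.pos _ x hx).le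
  have e0 : totc P (fun i x => (cur h i x).det) = totc P (fun i x => (cur h' i x).det) :=
    volinv_cur P h' h
  have e1 := int_dtM P v hS
  rw [e0]
  refine ⟨?_, ?_⟩
  · rw [← e1]
    exact integral_nonneg hnn
  rw [← e1]
  have hc := cont_dtM v hS
  rw [ofReal_integral_eq_lintegral_ofReal (integrable_cont v hc) (Eventually.of_forall hnn)]
  have hWo : IsOpen (nz s0) := isOpen_nz h0
  have hnull := Crest.Agent.R273.SteinL_794.null_nz v h0 hne
  have e2 : ∫⁻ x, ENNReal.ofReal (dtM v (cur h') x) ∂(vm v) =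
      ∫⁻ x in nz s0, ENNReal.ofReal (dtM v (cur h') x) ∂(vm v) := by
    rw [← lintegral_add_compl _ hWo.measurableSet, setLIntegral_measure_zero _ _ hnull, add_zero]
  set F : M → ℝ≥0∞ := (nz s0).indicator fun x =>
    ENNReal.ofReal (kn n ε (‖fmap s0 s x - a‖ ^ 2)) with hF
  have hFm : Measurable F := by
    have hcn : ContinuousOn (fun x => ENNReal.ofReal (kn n ε (‖fmap s0 s x - a‖ ^ 2))) (nz s0) := by
      refine ENNReal.continuous_ofReal.comp_continuousOn ?_
      have h3 : ContinuousOn (fun x => ‖fmap s0 s x - a‖ ^ 2) (nz s0) :=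
        ((cont_fmap h0 h1).sub continuousOn_const).norm.pow 2
      refine ContinuousOn.div continuousOn_const ((continuousOn_const.add h3).pow _) fun x _ => ?_
      positivity
    classical
    have h5 := hcn.measurable_piecewise (g := fun _ : M => (0 : ℝ≥0∞)) continuousOn_const
      hWo.measurableSet
    rw [hF, ← Set.piecewise_eq_indicator]
    exact h5
  rw [e2, area_vm v hWo (holW_fmap h0 h1) (F := F)
    (Φ := fun x => ENNReal.ofReal (dtM v (cur h') x)) hFm
    (ENNReal.continuous_ofReal.comp hc).measurable ?_]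
  · refine lintegral_congr fun w => ?_
    rw [eq_comm]
    refine fsum_const_mul _ fun x hx hw => ?_
    rw [hF, indicator_of_mem hx.1, ← hw, cc_rc]
  · intro i x hx hxn
    have h3 := det_cur_fs h0 h1 hz a hε hx hxn
    rw [hF, indicator_of_mem hxn, dtM_eq v hS hx, h3, Complex.ofReal_re,
      ← ENNReal.ofReal_mul (v.pos i x hx).le, ← ENNReal.ofReal_mul (by positivity)]
    congr 1
    have := (v.pos i x hx).ne'
    field_simp

end int

end Crest.Agent.R281.Qr_770
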