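import Mathlib

/-!
# Row 281, Q-RAT (helper770), part 4: concentration of the Fubini-Study kernel (Mathlib only)

`kq n ε t = ε² / (ε² + t)^(n+1)` on a real vector space of dimension `2n` with Haar measure `μ`,
`cq n μ = ∫ kq n 1 |w|²`. If `∫ kq n ε |w - a|² N(w) dw = V` for all `a` and `ε > 0` then
`cq n μ * N = V` almost everywhere (`ae_const`).
-/

set_option autoImplicit false
set_option linter.unusedSectionVars false

open Set Filter Topology MeasureTheory Module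
open scoped ENNReal ContDiff

noncomputable section

namespace Crest.Agent.R281.Qr4_770

/-- `ε² / (ε² + t)^(n+1)` -/
def kq (n : ℕ) (ε t : ℝ) : ℝ := ε ^ 2 / (ε ^ 2 + t) ^ (n + 1)

theorem kq_nonneg (n : ℕ) (ε : ℝ) {t : ℝ} (ht : 0 ≤ t) : 0 ≤ kq n ε t := by
  unfold kq; positivity

theorem kq_pos (n : ℕ) {ε : ℝ} (hε : ε ≠ 0) {t : ℝ} (ht : 0 ≤ t) : 0 < kq n ε t := by
  unfold kq; positivity

theorem kq_one (n : ℕ) (t : ℝ) : kq n 1 t = ((1 + t) ^ (n + 1))⁻¹ := by
  unfold kq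
  rw [one_pow, one_div]

variable {E : Type*} [NormedAddCommGroup E] [NormedSpace ℝ E] [FiniteDimensional ℝ E]
  [MeasurableSpace E] [BorelSpace E] (μ : Measure E) [μ.IsAddHaarMeasure] {n : ℕ}

theorem cont_kq {ε : ℝ} (hε : ε ≠ 0) : Continuous fun w : E => kq n ε (‖w‖ ^ 2) := by
  unfold kq
  refine continuous_const.div (by fun_prop) fun w => ?_
  positivity

/-- the scaling relation -/
theorem kq_scale {c : ℝ} (hc : 0 < c) (t : ℝ) (ht : 0 ≤ t) :
    c ^ (2 * n) * kq n 1 (c ^ 2 * t) = kq n c⁻¹ t := by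
  unfold kq
  have h1 : (c⁻¹ ^ 2 + t) = c⁻¹ ^ 2 * (1 ^ 2 + c ^ 2 * t) := by
    field_simp
  rw [h1, mul_pow]
  have h2 : (c⁻¹ ^ 2) ^ (n + 1) = c⁻¹ ^ (2 * n) * c⁻¹ ^ 2 := by
    rw [← pow_mul]; ring
  rw [h2]
  field_simp
  rw [← mul_pow, mul_one_div_cancel hc.ne', one_pow]

theorem kq_scale' {c : ℝ} (hc : 0 < c) (w : E) :
    c ^ (2 * n) * kq n 1 (‖c • w‖ ^ 2) = kq n c⁻¹ (‖w‖ ^ 2) := by
  rw [norm_smul, Real.norm_eq_abs, mul_pow, sq_abs, kq_scale hc _ (by positivity)]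

theorem integrable_kq_one (hd : finrank ℝ E = 2 * n) :
    Integrable (fun w : E => kq n 1 (‖w‖ ^ 2)) μ := by
  have h1 := integrable_rpow_neg_one_add_norm_sq (E := E) (μ := μ) (r := 2 * n + 2) (by
    rw [hd]; push_cast; linarith)
  refine h1.congr (Eventually.of_forall fun w => ?_)
  simp only
  rw [kq_one]
  have h2 : (-(2 * (n : ℝ) + 2) / 2) = -((n + 1 : ℕ) : ℝ) := by push_cast; ring
  rw [h2, Real.rpow_neg (by positivity), Real.rpow_natCast]

theorem integrable_kq (hd : finrank ℝ E = 2 * n) {ε : ℝ} (hε : 0 < ε) :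
    Integrable (fun w : E => kq n ε (‖w‖ ^ 2)) μ := by
  have h1 := ((integrable_comp_smul_iff μ (fun w : E => kq n 1 (‖w‖ ^ 2))
    (R := ε⁻¹) (by positivity)).2 (integrable_kq_one μ hd)).const_mul (ε⁻¹ ^ (2 * n))
  refine h1.congr (Eventually.of_forall fun w => ?_)
  simp only
  rw [kq_scale' (by positivity), inv_inv]

/-- the total mass of the kernel -/
def cq (n : ℕ) (μ : Measure E) : ℝ := ∫ w, kq n 1 (‖w‖ ^ 2) ∂μ

theorem cq_pos (hd : finrank ℝ E = 2 * n) : 0 < cq n μ := by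
  unfold cq
  rw [integral_pos_iff_support_of_nonneg (fun w => kq_nonneg n 1 (by positivity))
    (integrable_kq_one μ hd)]
  have : Function.support (fun w : E => kq n 1 (‖w‖ ^ 2)) = univ := by
    refine eq_univ_of_forall fun w => ?_
    exact (kq_pos n one_ne_zero (by positivity)).ne'
  rw [this]
  exact isOpen_univ.measure_pos μ univ_nonempty

theorem integral_kq (hd : finrank ℝ E = 2 * n) {ε : ℝ} (hε : 0 < ε) :
    ∫ w, kq n ε (‖w‖ ^ 2) ∂μ = cq n μ := by
  have h1 : ∀ w : E, kq n ε (‖w‖ ^ 2) = ε⁻¹ ^ (2 * n) * kq n 1 (‖ε⁻¹ • w‖ ^ 2) := by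
    intro w
    rw [kq_scale' (by positivity), inv_inv]
  simp only [h1]
  rw [integral_const_mul, Measure.integral_comp_smul_of_nonneg μ (fun w => kq n 1 (‖w‖ ^ 2)) ε⁻¹
    (hR := by positivity), hd, smul_eq_mul, ← mul_assoc, mul_inv_cancel₀ (by positivity), one_mul]
  rfl

theorem integral_kq_sub (hd : finrank ℝ E = 2 * n) {ε : ℝ} (hε : 0 < ε) (w : E) :
    ∫ a, kq n ε (‖w - a‖ ^ 2) ∂μ = cq n μ := by
  rw [← integral_kq μ hd hε]
  exact integral_sub_left_eq_self (fun x : E => kq n ε (‖x‖ ^ 2)) μ w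

theorem integrable_kq_sub (hd : finrank ℝ E = 2 * n) {ε : ℝ} (hε : 0 < ε) (w : E) :
    Integrable (fun a => kq n ε (‖w - a‖ ^ 2)) μ :=
  (integrable_kq μ hd hε).comp_sub_left w

theorem integrable_kq_sub' (hd : finrank ℝ E = 2 * n) {ε : ℝ} (hε : 0 < ε) (a : E) :
    Integrable (fun w => kq n ε (‖w - a‖ ^ 2)) μ :=
  (integrable_kq μ hd hε).comp_sub_right a

/-- the domination -/
theorem kq_dom {ε : ℝ} (hε : 0 < ε) (hε1 : ε ≤ 1) (w a : E) :
    kq n 1 (‖a‖ ^ 2) * kq n ε (‖w - a‖ ^ 2) ≤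
      kq n 1 (‖w‖ ^ 2) * (4 ^ (n + 1) * kq n ε (‖w - a‖ ^ 2) + 8 ^ (n + 1) * kq n 1 (‖a‖ ^ 2)) := by
  have p1 : 0 ≤ kq n 1 (‖a‖ ^ 2) := kq_nonneg n 1 (by positivity)
  have p2 : 0 ≤ kq n ε (‖w - a‖ ^ 2) := kq_nonneg n ε (by positivity)
  have p3 : 0 ≤ kq n 1 (‖w‖ ^ 2) := kq_nonneg n 1 (by positivity)
  -- comparison of `kq n 1`
  have key : ∀ K t s : ℝ, 0 < K → 0 ≤ t → 0 ≤ s → 1 + s ≤ K * (1 + t) →
      kq n 1 t ≤ kq n 1 s * K ^ (n + 1) := by
    intro K t s hK ht hs h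
    rw [kq_one, kq_one, inv_mul_eq_div, le_div_iff₀ (by positivity), inv_mul_le_iff₀ (by positivity),
      ← mul_pow]
    refine pow_le_pow_left₀ (by positivity) ?_ _
    linarith
  by_cases h : (1 + ‖w‖ ^ 2) ≤ 4 * (1 + ‖a‖ ^ 2)
  · have h1 := key 4 (‖a‖ ^ 2) (‖w‖ ^ 2) (by norm_num) (by positivity) (by positivity) h
    calc kq n 1 (‖a‖ ^ 2) * kq n ε (‖w - a‖ ^ 2) ≤
        kq n 1 (‖w‖ ^ 2) * 4 ^ (n + 1) * kq n ε (‖w - a‖ ^ 2) :=
          mul_le_mul_of_nonneg_right h1 p2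
      _ ≤ _ := by
        have : 0 ≤ kq n 1 (‖w‖ ^ 2) * (8 ^ (n + 1) * kq n 1 (‖a‖ ^ 2)) := by positivity
        linarith
  · push Not at h
    have hw : 3 < ‖w‖ ^ 2 := by nlinarith [sq_nonneg ‖a‖]
    have haw : ‖a‖ ≤ ‖w‖ / 2 := by
      by_contra hcon
      push Not at hcon
      nlinarith [norm_nonneg w, norm_nonneg a]
    have h2 : ‖w‖ / 2 ≤ ‖w - a‖ := by
      have := norm_sub_norm_le w a
      linarith
    have h3 : ‖w‖ ^ 2 / 4 ≤ ‖w - a‖ ^ 2 := by nlinarith [norm_nonneg w, norm_nonneg (w - a)]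
    have h4 : kq n ε (‖w - a‖ ^ 2) ≤ kq n 1 (‖w‖ ^ 2) * 8 ^ (n + 1) := by
      rw [kq_one, inv_mul_eq_div]
      unfold kq
      rw [div_le_div_iff₀ (by positivity) (by positivity), ← mul_pow]
      have h5 : ε ^ 2 ≤ 1 := by nlinarith
      have h6 : (1 + ‖w‖ ^ 2) ^ (n + 1) ≤ (8 * (ε ^ 2 + ‖w - a‖ ^ 2)) ^ (n + 1) := by
        refine pow_le_pow_left₀ (by positivity) ?_ _
        nlinarith [sq_nonneg ε]
      calc ε ^ 2 * (1 + ‖w‖ ^ 2) ^ (n + 1) ≤ 1 * (1 + ‖w‖ ^ 2) ^ (n + 1) :=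
            mul_le_mul_of_nonneg_right h5 (by positivity)
        _ ≤ _ := by rw [one_mul]; exact h6
    calc kq n 1 (‖a‖ ^ 2) * kq n ε (‖w - a‖ ^ 2) ≤
        kq n 1 (‖a‖ ^ 2) * (kq n 1 (‖w‖ ^ 2) * 8 ^ (n + 1)) :=
          mul_le_mul_of_nonneg_left h4 p1
      _ ≤ _ := by
        have : 0 ≤ kq n 1 (‖w‖ ^ 2) * (4 ^ (n + 1) * kq n ε (‖w - a‖ ^ 2)) := by positivity
        linarith

/-- the smoothed function -/
def sm (n : ℕ) (μ : Measure E) (g : E → ℝ) (ε : ℝ) (w : E) : ℝ :=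
  ∫ a, kq n ε (‖w - a‖ ^ 2) * g a ∂μ

theorem cont_bdd {g : E → ℝ} (hg : Continuous g) (hgs : HasCompactSupport g) :
    ∃ K, 0 ≤ K ∧ ∀ a, |g a| ≤ K * kq n 1 (‖a‖ ^ 2) := by
  have hc : Continuous fun a : E => g a * (1 + ‖a‖ ^ 2) ^ (n + 1) := by fun_prop
  have hs : HasCompactSupport fun a : E => g a * (1 + ‖a‖ ^ 2) ^ (n + 1) := hgs.mul_right
  obtain ⟨K, hK⟩ := hc.bounded_above_of_compact_support hs
  refine ⟨K, (norm_nonneg _).trans (hK 0), fun a => ?_⟩
  have h1 := hK a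
  rw [norm_mul, Real.norm_eq_abs, Real.norm_eq_abs,
    abs_of_nonneg (show (0 : ℝ) ≤ (1 + ‖a‖ ^ 2) ^ (n + 1) by positivity)] at h1
  rw [kq_one, ← div_eq_mul_inv, le_div_iff₀ (by positivity)]
  exact h1

theorem sm_bound (hd : finrank ℝ E = 2 * n) {g : E → ℝ} {K : ℝ} (hK0 : 0 ≤ K)
    (hK : ∀ a, |g a| ≤ K * kq n 1 (‖a‖ ^ 2)) {ε : ℝ} (hε : 0 < ε) (hε1 : ε ≤ 1) (w : E) :
    |sm n μ g ε w| ≤ K * (4 ^ (n + 1) + 8 ^ (n + 1)) * cq n μ * kq n 1 (‖w‖ ^ 2) := by
  have h1 : ∀ a, ‖kq n ε (‖w - a‖ ^ 2) * g a‖ ≤ K * (kq n 1 (‖w‖ ^ 2) *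
      (4 ^ (n + 1) * kq n ε (‖w - a‖ ^ 2) + 8 ^ (n + 1) * kq n 1 (‖a‖ ^ 2))) := by
    intro a
    have p2 : 0 ≤ kq n ε (‖w - a‖ ^ 2) := kq_nonneg n ε (by positivity)
    rw [norm_mul, Real.norm_eq_abs, Real.norm_eq_abs, abs_of_nonneg p2]
    calc kq n ε (‖w - a‖ ^ 2) * |g a| ≤ kq n ε (‖w - a‖ ^ 2) * (K * kq n 1 (‖a‖ ^ 2)) :=
          mul_le_mul_of_nonneg_left (hK a) p2
      _ = K * (kq n 1 (‖a‖ ^ 2) * kq n ε (‖w - a‖ ^ 2)) := by ring
      _ ≤ _ := mul_le_mul_of_nonneg_left (kq_dom hε hε1 w a) hK0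
  have i1 := integrable_kq_sub μ hd hε w
  have i2 := integrable_kq_one (n := n) μ hd
  have i3 : Integrable (fun a => K * (kq n 1 (‖w‖ ^ 2) *
      (4 ^ (n + 1) * kq n ε (‖w - a‖ ^ 2) + 8 ^ (n + 1) * kq n 1 (‖a‖ ^ 2)))) μ :=
    (((i1.const_mul (4 ^ (n + 1))).add (i2.const_mul (8 ^ (n + 1)))).const_mul
      (kq n 1 (‖w‖ ^ 2))).const_mul K
  have h2 := norm_integral_le_of_norm_le i3 (Eventually.of_forall h1)
  unfold sm
  rw [← Real.norm_eq_abs]
  refine h2.trans (le_of_eq ?_)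
  have e1 : ∫ a, K * (kq n 1 (‖w‖ ^ 2) *
      (4 ^ (n + 1) * kq n ε (‖w - a‖ ^ 2) + 8 ^ (n + 1) * kq n 1 (‖a‖ ^ 2))) ∂μ =
      K * (kq n 1 (‖w‖ ^ 2) * (4 ^ (n + 1) * cq n μ + 8 ^ (n + 1) * cq n μ)) := by
    rw [integral_const_mul, integral_const_mul, integral_add (i1.const_mul _) (i2.const_mul _),
      integral_const_mul, integral_const_mul, integral_kq_sub μ hd hε w]
    rfl
  rw [e1]
  ring

theorem sm_tendsto (hd : finrank ℝ E = 2 * n) {g : E → ℝ} (hg : Continuous g)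
    (hgs : HasCompactSupport g) (w : E) :
    Tendsto (fun c : ℝ => sm n μ g c⁻¹ w) atTop (𝓝 (cq n μ * g w)) := by
  have hc := cq_pos (n := n) μ hd
  set φ : E → ℝ := fun x => (cq n μ)⁻¹ * kq n 1 (‖x‖ ^ 2) with hφ
  have h1 : ∀ x, 0 ≤ φ x := fun x => mul_nonneg (by positivity) (kq_nonneg n 1 (by positivity))
  have h2 : ∫ x, φ x ∂μ = 1 := by
    rw [hφ, integral_const_mul]
    exact inv_mul_cancel₀ hc.ne'
  have h3 : Tendsto (fun x : E => ‖x‖ ^ finrank ℝ E * φ x) (Bornology.cobounded E) (𝓝 0) := by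
    have e1 : Tendsto (fun x : E => (cq n μ)⁻¹ * (1 + ‖x‖ ^ 2)⁻¹) (Bornology.cobounded E) (𝓝 0) := by
      have e2 : Tendsto (fun x : E => (1 + ‖x‖ ^ 2)) (Bornology.cobounded E) atTop :=
        tendsto_atTop_add_const_left _ _
          ((tendsto_pow_atTop two_ne_zero).comp tendsto_norm_cobounded_atTop)
      simpa using (tendsto_inv_atTop_zero.comp e2).const_mul (cq n μ)⁻¹
    refine squeeze_zero (fun x => mul_nonneg (by positivity) (h1 x)) (fun x => ?_) e1
    rw [hφ, hd]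
    simp only
    rw [kq_one]
    have e3 : ‖x‖ ^ (2 * n) ≤ (1 + ‖x‖ ^ 2) ^ n := by
      rw [pow_mul]
      exact pow_le_pow_left₀ (by positivity) (by linarith) _
    calc ‖x‖ ^ (2 * n) * ((cq n μ)⁻¹ * ((1 + ‖x‖ ^ 2) ^ (n + 1))⁻¹) =
        (cq n μ)⁻¹ * (‖x‖ ^ (2 * n) * ((1 + ‖x‖ ^ 2) ^ (n + 1))⁻¹) := by ring
      _ ≤ (cq n μ)⁻¹ * ((1 + ‖x‖ ^ 2) ^ n * ((1 + ‖x‖ ^ 2) ^ (n + 1))⁻¹) := by
        gcongr
      _ = _ := by
        rw [pow_succ]
        field_simp
        ring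
  have h4 := tendsto_integral_comp_smul_smul_of_integrable' (μ := μ) h1 h2 h3
    (hg.integrable_of_hasCompactSupport hgs) (x₀ := w) hg.continuousAt
  have h5 := h4.const_mul (cq n μ)
  refine h5.congr' ?_
  filter_upwards [eventually_gt_atTop 0] with c hcpos
  unfold sm
  rw [← integral_const_mul]
  refine integral_congr_ae (Eventually.of_forall fun a => ?_)
  simp only [smul_eq_mul, hφ, hd]
  rw [← kq_scale' hcpos]
  field_simp

section main

variable {N : E → ℝ≥0∞} {V : ℝ}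

theorem ae_fin (hN : Measurable N)
    (h : ∀ (a : E) (ε : ℝ), 0 < ε →
      ∫⁻ w, ENNReal.ofReal (kq n ε (‖w - a‖ ^ 2)) * N w ∂μ = ENNReal.ofReal V) :
    ∀ᵐ w ∂μ, N w ≠ ⊤ := by
  have h1 := h 0 1 one_pos
  have hm : Measurable fun w : E => ENNReal.ofReal (kq n 1 (‖w - 0‖ ^ 2)) * N w := by
    refine Measurable.mul ?_ hN
    refine ENNReal.measurable_ofReal.comp ?_
    simp only [sub_zero]
    exact (cont_kq one_ne_zero).measurable
  have h2 := ae_lt_top hm (by rw [h1]; exact ENNReal.ofReal_ne_top)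
  filter_upwards [h2] with w hw hN0
  rw [hN0, ENNReal.mul_top] at hw
  · exact lt_irrefl _ hw
  · exact (ENNReal.ofReal_pos.2 (kq_pos n one_ne_zero (by positivity))).ne'

theorem int_N (hN : Measurable N) (hV : 0 ≤ V)
    (h : ∀ (a : E) (ε : ℝ), 0 < ε →
      ∫⁻ w, ENNReal.ofReal (kq n ε (‖w - a‖ ^ 2)) * N w ∂μ = ENNReal.ofReal V)
    (a : E) {ε : ℝ} (hε : 0 < ε) :
    Integrable (fun w => kq n ε (‖w - a‖ ^ 2) * (N w).toReal) μ ∧
      ∫ w, kq n ε (‖w - a‖ ^ 2) * (N w).toReal ∂μ = V := by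
  have h1 := h a ε hε
  have hm : Measurable fun w : E => ENNReal.ofReal (kq n ε (‖w - a‖ ^ 2)) * N w := by
    refine Measurable.mul ?_ hN
    refine ENNReal.measurable_ofReal.comp ?_
    exact ((cont_kq hε.ne').comp (continuous_id.sub continuous_const)).measurable
  have hne : ∫⁻ w, ENNReal.ofReal (kq n ε (‖w - a‖ ^ 2)) * N w ∂μ ≠ ⊤ := by
    rw [h1]; exact ENNReal.ofReal_ne_top
  have he : ∀ w : E, (ENNReal.ofReal (kq n ε (‖w - a‖ ^ 2)) * N w).toReal =
      kq n ε (‖w - a‖ ^ 2) * (N w).toReal := by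
    intro w
    rw [ENNReal.toReal_mul, ENNReal.toReal_ofReal (kq_nonneg n ε (by positivity))]
  refine ⟨?_, ?_⟩
  · have := integrable_toReal_of_lintegral_ne_top hm.aemeasurable hne
    exact this.congr (Eventually.of_forall he)
  · have h2 := integral_toReal hm.aemeasurable (ae_lt_top hm hne)
    rw [h1, ENNReal.toReal_ofReal hV] at h2
    rw [← h2]
    exact integral_congr_ae (Eventually.of_forall fun w => (he w).symm)

theorem fubini (hd : finrank ℝ E = 2 * n) (hN : Measurable N) (hV : 0 ≤ V)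
    (h : ∀ (a : E) (ε : ℝ), 0 < ε →
      ∫⁻ w, ENNReal.ofReal (kq n ε (‖w - a‖ ^ 2)) * N w ∂μ = ENNReal.ofReal V)
    {g : E → ℝ} (hg : Continuous g) (hgs : HasCompactSupport g) {ε : ℝ} (hε : 0 < ε) :
    AEStronglyMeasurable (fun w => (N w).toReal * sm n μ g ε w) μ ∧
      ∫ w, (N w).toReal * sm n μ g ε w ∂μ = V * ∫ a, g a ∂μ := by
  have hgi : Integrable g μ := hg.integrable_of_hasCompactSupport hgs
  set f : E → E → ℝ := fun w a => (N w).toReal * (kq n ε (‖w - a‖ ^ 2) * g a) with hf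
  have hcm : Continuous fun p : E × E => kq n ε (‖p.1 - p.2‖ ^ 2) :=
    (cont_kq hε.ne').comp (continuous_fst.sub continuous_snd)
  have hm : Measurable (Function.uncurry f) := by
    have h1 : Measurable fun p : E × E => (N p.1).toReal := hN.ennreal_toReal.comp measurable_fst
    exact h1.mul (hcm.measurable.mul (hg.measurable.comp measurable_snd))
  have hint : Integrable (Function.uncurry f) (μ.prod μ) := by
    rw [integrable_prod_iff' hm.aestronglyMeasurable]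
    have e1 : ∀ a w, f w a = g a * (kq n ε (‖w - a‖ ^ 2) * (N w).toReal) := by
      intro a w; rw [hf]; ring
    refine ⟨Eventually.of_forall fun a => ?_, ?_⟩
    · refine ((int_N μ hN hV h a hε).1.const_mul (g a)).congr (Eventually.of_forall fun w => ?_)
      exact (e1 a w).symm
    · have e2 : ∀ a, ∫ w, ‖Function.uncurry f (w, a)‖ ∂μ = |g a| * V := by
        intro a
        have e3 : ∀ w, ‖Function.uncurry f (w, a)‖ =
            |g a| * (kq n ε (‖w - a‖ ^ 2) * (N w).toReal) := by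
          intro w
          have : Function.uncurry f (w, a) = f w a := rfl
          rw [this, e1, norm_mul, Real.norm_eq_abs, Real.norm_eq_abs,
            abs_of_nonneg (mul_nonneg (kq_nonneg n ε (by positivity)) ENNReal.toReal_nonneg)]
        simp only [e3]
        rw [integral_const_mul, (int_N μ hN hV h a hε).2]
      simp only [e2]
      exact hgi.abs.mul_const V
  have hin : ∀ w, ∫ a, f w a ∂μ = (N w).toReal * sm n μ g ε w := by
    intro w
    rw [hf]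
    simp only
    rw [integral_const_mul]
    rfl
  refine ⟨?_, ?_⟩
  · have := hint.integral_prod_left.aestronglyMeasurable
    exact this.congr (Eventually.of_forall hin)
  · have h3 := integral_integral_swap hint
    simp only [hin] at h3
    rw [h3]
    have h4 : ∀ a, ∫ w, f w a ∂μ = V * g a := by
      intro a
      have e1 : ∀ w, f w a = g a * (kq n ε (‖w - a‖ ^ 2) * (N w).toReal) := by
        intro w; rw [hf]; ring
      simp only [e1]
      rw [integral_const_mul, (int_N μ hN hV h a hε).2, mul_comm]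
    simp only [h4]
    rw [integral_const_mul]

/-- **the concentration theorem** -/
theorem ae_const (hd : finrank ℝ E = 2 * n) (hN : Measurable N) (hV : 0 ≤ V)
    (h : ∀ (a : E) (ε : ℝ), 0 < ε →
      ∫⁻ w, ENNReal.ofReal (kq n ε (‖w - a‖ ^ 2)) * N w ∂μ = ENNReal.ofReal V) :
    ∀ᵐ w ∂μ, N w ≠ ⊤ ∧ cq n μ * (N w).toReal = V := by
  have hI1 := (int_N μ hN hV h 0 one_pos).1
  simp only [sub_zero] at hI1
  have hNm : Measurable fun w => (N w).toReal := hN.ennreal_toReal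
  -- local integrability
  have hloc : LocallyIntegrable (fun w => (N w).toReal) μ := by
    rw [locallyIntegrable_iff]
    intro K hK
    have h1 : IntegrableOn (fun w => (kq n 1 (‖w‖ ^ 2))⁻¹ * (kq n 1 (‖w‖ ^ 2) * (N w).toReal)) K μ :=
      IntegrableOn.continuousOn_mul (hg := ((cont_kq one_ne_zero).inv₀ fun w =>
        (kq_pos n one_ne_zero (by positivity)).ne').continuousOn) hI1.integrableOn hK
    refine h1.congr_fun_ae (Eventually.of_forall fun w => ?_)
    simp only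
    rw [← mul_assoc, inv_mul_cancel₀ (kq_pos n one_ne_zero (by positivity)).ne', one_mul]
  have hloc2 : LocallyIntegrable (fun w => cq n μ * (N w).toReal - V) μ :=
    (hloc.smul (cq n μ)).sub (locallyIntegrable_const V)
  have hz : ∀ᵐ w ∂μ, cq n μ * (N w).toReal - V = 0 := by
    refine ae_eq_zero_of_integral_contDiff_smul_eq_zero hloc2 fun g hgd hgs => ?_
    have hg := hgd.continuous
    have hgi : Integrable g μ := hg.integrable_of_hasCompactSupport hgs
    obtain ⟨K, hK0, hK⟩ := cont_bdd (n := n) hg hgs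
    have hlim : Tendsto (fun c : ℝ => ∫ w, (N w).toReal * sm n μ g c⁻¹ w ∂μ) atTop
        (𝓝 (∫ w, (N w).toReal * (cq n μ * g w) ∂μ)) := by
      refine tendsto_integral_filter_of_dominated_convergence
        (fun w => (K * (4 ^ (n + 1) + 8 ^ (n + 1)) * cq n μ) * (kq n 1 (‖w‖ ^ 2) * (N w).toReal))
        ?_ ?_ (hI1.const_mul _) ?_
      · filter_upwards [eventually_gt_atTop 0] with c hc
        exact (fubini μ hd hN hV h hg hgs (inv_pos.2 hc)).1
      · filter_upwards [eventually_ge_atTop 1] with c hc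
        have hc0 : 0 < c := lt_of_lt_of_le one_pos hc
        refine Eventually.of_forall fun w => ?_
        rw [norm_mul, Real.norm_eq_abs, Real.norm_eq_abs, abs_of_nonneg ENNReal.toReal_nonneg]
        calc (N w).toReal * |sm n μ g c⁻¹ w| ≤ (N w).toReal *
              (K * (4 ^ (n + 1) + 8 ^ (n + 1)) * cq n μ * kq n 1 (‖w‖ ^ 2)) :=
              mul_le_mul_of_nonneg_left (sm_bound μ hd hK0 hK (inv_pos.2 hc0)
                (inv_le_one_of_one_le₀ hc) w) ENNReal.toReal_nonneg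
          _ = _ := by ring
      · exact Eventually.of_forall fun w => (sm_tendsto μ hd hg hgs w).const_mul _
    have hcon : Tendsto (fun c : ℝ => ∫ w, (N w).toReal * sm n μ g c⁻¹ w ∂μ) atTop
        (𝓝 (V * ∫ a, g a ∂μ)) := by
      refine tendsto_const_nhds.congr' ?_
      filter_upwards [eventually_gt_atTop 0] with c hc
      exact (fubini μ hd hN hV h hg hgs (inv_pos.2 hc)).2.symm
    have heq := tendsto_nhds_unique hlim hcon
    have hi2 : Integrable (fun w => (N w).toReal * (cq n μ * g w)) μ := by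
      refine (hI1.const_mul (cq n μ * K)).mono' ?_ ?_
      · exact (hNm.mul (hg.measurable.const_mul _)).aestronglyMeasurable
      · refine Eventually.of_forall fun w => ?_
        rw [norm_mul, norm_mul, Real.norm_eq_abs, Real.norm_eq_abs, Real.norm_eq_abs,
          abs_of_nonneg ENNReal.toReal_nonneg, abs_of_pos (cq_pos μ hd)]
        calc (N w).toReal * (cq n μ * |g w|) ≤
              (N w).toReal * (cq n μ * (K * kq n 1 (‖w‖ ^ 2))) :=
              mul_le_mul_of_nonneg_left (mul_le_mul_of_nonneg_left (hK w) (cq_pos μ hd).le)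
                ENNReal.toReal_nonneg
          _ = _ := by ring
    have e1 : ∀ w, g w • (cq n μ * (N w).toReal - V) =
        (N w).toReal * (cq n μ * g w) - V * g w := by
      intro w
      rw [smul_eq_mul]; ring
    simp only [e1]
    rw [integral_sub hi2 (hgi.const_mul V), heq, integral_const_mul, sub_self]
  filter_upwards [hz, ae_fin μ hN h] with w h1 h2
  exact ⟨h2, by linarith⟩

end main

end Crest.Agent.R281.Qr4_770
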