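import Crest.Agent.R281.Qr3_770
import Crest.Agent.R281.Qr4_770

/-!
# Row 281, Q-RAT (helper770), part 5: the degree of a base point free line bundle

* `Bpf L`      : `L` has finitely many sections without common zero
* `Bpf.exact`  : then it has `n + 1` such sections (dimension count)
* `cn n`       : `∫_{ℂⁿ} (1 + |w|²)^(-(n+1))`
* `degree`     : `Bpf L → ∃ d : ℕ, ∀ P h, totc P (det (cur h)) = cn n * d`
* `degree_pow` : `Bpf (L ^ K) → ∃ d : ℕ, ∀ P (h : HM L), K ^ n * totc P (det (cur h)) = cn n * d`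
-/

set_option autoImplicit false
set_option linter.unusedSectionVars false

open Set Filter Topology Complex MeasureTheory Module
open scoped ContDiff Matrix ComplexConjugate Manifold ENNReal ComplexOrder NNReal

noncomputable section

namespace Crest.Agent.R281.Qr_770

open Crest.Agent.R273 Crest.Agent.R275 Crest.Agent.R275.Geo Crest.Agent.R275.Core144
open Crest.Agent.R275.EDR890
open Crest.Agent.R273.Defs_333 Crest.Agent.R273.Hess_333 Crest.Agent.R273.HessB_333
open Crest.Agent.R273.Kah_333 Crest.Agent.R273.FS_333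
open Crest.Agent.R273.Vm_333
open Crest.Agent.R275.Pai323 Crest.Agent.R275.C1d194
open Crest.Agent.R281.Qr4_770

variable {n : ℕ}

/-! ### dimension count -/

section dim

variable {M : Type} [TopologicalSpace M] {A : Atl n M} {L L' : LB A}

/-- finitely many sections without common zero -/
def Bpf (L : LB A) : Prop :=
  ∃ (N : ℕ) (t : Fin N → A.ι → M → ℂ), (∀ k, IsHS L univ (t k)) ∧
    ∀ i, ∀ x ∈ (A.e i).source, ∃ k, t k i x ≠ 0

/-- the cone over the image -/
def coneS {N : ℕ} (t : Fin N → A.ι → M → ℂ) : Set (Fin N → ℂ) :=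
  {u | ∃ i, ∃ x ∈ (A.e i).source, ∃ c : ℂ, u = c • fun k => t k i x}

theorem finrank_Cn : finrank ℝ (Cn n) = 2 * n := by
  have h1 := LinearEquiv.finrank_eq (rcE n)
  rw [h1, Module.finrank_fintype_fun_eq_card]
  simp [mul_comm]

theorem dimH_cone [Finite A.ι] {N : ℕ} {t : Fin N → A.ι → M → ℂ} (ht : ∀ k, IsHS L univ (t k)) :
    dimH (coneS t) ≤ ((2 * n + 2 : ℕ) : ℝ≥0∞) := by
  set Ψ : A.ι → ℂ × Cn n → (Fin N → ℂ) := fun i p => p.1 • fun k => t k i ((A.e i).symm p.2) with hΨ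
  have h1 : coneS t = ⋃ i, Ψ i '' (univ ×ˢ (A.e i).target) := by
    ext u
    simp only [coneS, mem_ofPred_eq, mem_iUnion, mem_image]
    constructor
    · rintro ⟨i, x, hx, c, rfl⟩
      refine ⟨i, (c, A.e i x), ⟨mem_univ _, (A.e i).map_source hx⟩, ?_⟩
      simp only [hΨ, (A.e i).left_inv hx]
    · rintro ⟨i, ⟨c, z⟩, hz, rfl⟩
      exact ⟨i, (A.e i).symm z, (A.e i).map_target hz.2, c, rfl⟩
  rw [h1, dimH_iUnion]
  refine iSup_le fun i => ?_
  have h2 : dimH (Ψ i '' (univ ×ˢ (A.e i).target)) ≤ dimH ((univ : Set ℂ) ×ˢ (A.e i).target) := by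
    refine dimH_image_le_of_locally_lipschitzOn fun p hp => ?_
    have h3 : ∀ k, ContDiffAt ℝ 1 (fun z => t k i ((A.e i).symm z)) p.2 := by
      intro k
      have h4 := ((ht k).hol i).contDiffOn isOpen_univ
      simp only [preimage_univ, inter_univ] at h4
      exact (h4.contDiffAt ((A.e i).open_target.mem_nhds hp.2)).of_le (by exact_mod_cast le_top)
    have h5 : ContDiffAt ℝ 1 (Ψ i) p := by
      rw [contDiffAt_pi]
      intro k
      exact contDiffAt_fst.mul ((h3 k).comp p contDiffAt_snd)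
    obtain ⟨C, U, hU, hL⟩ := h5.exists_lipschitzOnWith
    exact ⟨C, U, mem_nhdsWithin_of_mem_nhds hU, hL⟩
  refine h2.trans ((dimH_mono (subset_univ _)).trans ?_)
  rw [Real.dimH_univ_eq_finrank]
  have h6 : finrank ℝ (ℂ × Cn n) = 2 * n + 2 := by
    rw [Module.finrank_prod, finrank_Cn, Complex.finrank_real_complex, add_comm]
  rw [h6]

theorem exists_notMem_cone [Finite A.ι] {N : ℕ} {t : Fin N → A.ι → M → ℂ}
    (ht : ∀ k, IsHS L univ (t k)) (hN : n + 1 < N) : ∃ v, v ∉ coneS t := by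
  by_contra hcon
  push Not at hcon
  have h1 : coneS t = univ := eq_univ_of_forall hcon
  have h2 := dimH_cone ht
  rw [h1, Real.dimH_univ_eq_finrank] at h2
  have h3 : finrank ℝ (Fin N → ℂ) = 2 * N := by
    rw [Module.finrank_pi_fintype]
    simp [Complex.finrank_real_complex, mul_comm]
  rw [h3] at h2
  have h4 : 2 * N ≤ 2 * n + 2 := by exact_mod_cast h2
  omega

/-- projection from a point off the cone -/
theorem exists_proj {N : ℕ} (v : Fin (N + 1) → ℂ) (hv : v ≠ 0) :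
    ∃ T : (Fin (N + 1) → ℂ) →ₗ[ℂ] (Fin N → ℂ), ∀ u, T u = 0 → ∃ c : ℂ, u = c • v := by
  set p : Submodule ℂ (Fin (N + 1) → ℂ) := Submodule.span ℂ {v} with hp
  have h1 : finrank ℂ ((Fin (N + 1) → ℂ) ⧸ p) = finrank ℂ (Fin N → ℂ) := by
    have h2 := p.finrank_quotient_add_finrank
    have h3 : finrank ℂ p = 1 := finrank_span_singleton hv
    rw [h3, Module.finrank_fintype_fun_eq_card, Fintype.card_fin] at h2
    rw [Module.finrank_fintype_fun_eq_card, Fintype.card_fin]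
    omega
  set e := LinearEquiv.ofFinrankEq _ _ h1
  refine ⟨e.toLinearMap ∘ₗ p.mkQ, fun u hu => ?_⟩
  have h2 : p.mkQ u = 0 := by
    have : e (p.mkQ u) = 0 := hu
    exact (LinearEquiv.map_eq_zero_iff e).1 this
  have h3 : u ∈ p := by
    rwa [Submodule.mkQ_apply, Submodule.Quotient.mk_eq_zero] at h2
  obtain ⟨c, hc⟩ := Submodule.mem_span_singleton.1 h3
  exact ⟨c, hc.symm⟩

theorem isHS_sum {σ : Type*} (S : Finset σ) {t : σ → A.ι → M → ℂ} (ht : ∀ k ∈ S, IsHS L univ (t k)) :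
    IsHS L univ (∑ k ∈ S, t k) := by
  have : (∑ k ∈ S, t k) ∈ HS L univ := Submodule.sum_mem _ fun k hk => ht k hk
  exact this

theorem reduce [Finite A.ι] {N : ℕ} {t : Fin (N + 1) → A.ι → M → ℂ}
    (ht : ∀ k, IsHS L univ (t k)) (h0 : ∀ i, ∀ x ∈ (A.e i).source, ∃ k, t k i x ≠ 0)
    (hN : n + 1 < N + 1) (hM : ∃ i, ∃ x, x ∈ (A.e i).source) :
    ∃ t' : Fin N → A.ι → M → ℂ, (∀ k, IsHS L univ (t' k)) ∧
      ∀ i, ∀ x ∈ (A.e i).source, ∃ k, t' k i x ≠ 0 := by
  obtain ⟨v, hv⟩ := exists_notMem_cone ht hN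
  have hv0 : v ≠ 0 := by
    rintro rfl
    obtain ⟨i, x, hx⟩ := hM
    exact hv ⟨i, x, hx, 0, by rw [zero_smul]⟩
  obtain ⟨T, hT⟩ := exists_proj v hv0
  refine ⟨fun k => ∑ l, (T (Pi.single l 1) k) • t l, fun k => isHS_sum _ fun l _ => (ht l).smul _,
    fun i x hx => ?_⟩
  have h1 : T (fun l => t l i x) = fun k => (∑ l, (T (Pi.single l 1) k) • t l) i x := by
    have e1 : (fun l => t l i x) = ∑ l, (t l i x) • (Pi.single l (1 : ℂ) : Fin (N + 1) → ℂ) := by
      funext m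
      simp [Finset.sum_apply, Pi.single_apply]
    funext k
    rw [e1, map_sum]
    simp only [map_smul, Finset.sum_apply, Pi.smul_apply, smul_eq_mul]
    exact Finset.sum_congr rfl fun l _ => mul_comm _ _
  by_contra hcon
  push Not at hcon
  have h2 : T (fun l => t l i x) = 0 := by
    rw [h1]
    funext k
    exact hcon k
  obtain ⟨c, hc⟩ := hT _ h2
  obtain ⟨k, hk⟩ := h0 i x hx
  have hc0 : c ≠ 0 := by
    rintro rfl
    rw [zero_smul] at hc
    exact hk (congrFun hc k)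
  exact hv ⟨i, x, hx, c⁻¹, by rw [hc, smul_smul, inv_mul_cancel₀ hc0, one_smul]⟩

/-- `n + 1` sections without common zero -/
theorem Bpf.exact [Finite A.ι] (hM : ∃ i : A.ι, ∃ x, x ∈ (A.e i).source) (hb : Bpf L) :
    ∃ t : Fin (n + 1) → A.ι → M → ℂ, (∀ k, IsHS L univ (t k)) ∧
      ∀ i, ∀ x ∈ (A.e i).source, ∃ k, t k i x ≠ 0 := by
  obtain ⟨N, t, ht, h0⟩ := hb
  -- reduction
  have h1 : ∀ m, (∃ t : Fin (n + 1 + m) → A.ι → M → ℂ, (∀ k, IsHS L univ (t k)) ∧
      ∀ i, ∀ x ∈ (A.e i).source, ∃ k, t k i x ≠ 0) →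
      ∃ t : Fin (n + 1) → A.ι → M → ℂ, (∀ k, IsHS L univ (t k)) ∧
      ∀ i, ∀ x ∈ (A.e i).source, ∃ k, t k i x ≠ 0 := by
    intro m
    induction m with
    | zero => exact id
    | succ m ih =>
      rintro ⟨t, ht, h0⟩
      exact ih (reduce (N := n + 1 + m) ht h0 (by omega) hM)
  -- padding
  refine h1 N ⟨fun k => if h : (k : ℕ) < N then t ⟨k, h⟩ else 0, fun k => ?_, fun i x hx => ?_⟩
  · by_cases h : (k : ℕ) < N
    · simp only [h, dite_true]; exact ht _
    · simp only [h, dite_false]; exact IsHS.zero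
  · obtain ⟨k, hk⟩ := h0 i x hx
    refine ⟨⟨k, by omega⟩, ?_⟩
    simp only [k.2, dite_true]
    exact hk

theorem Bpf.proj (Q : ProjD A) : Bpf (lb Q) :=
  ⟨Q.N + 1, sec Q, isHS_sec Q, fun _ _ hx => exists_sec_ne Q hx⟩

theorem Bpf.of_fintype {σ : Type*} [Finite σ] {t : σ → A.ι → M → ℂ}
    (ht : ∀ k, IsHS L univ (t k)) (h0 : ∀ i, ∀ x ∈ (A.e i).source, ∃ k, t k i x ≠ 0) : Bpf L := by
  have := Fintype.ofFinite σ
  refine ⟨Fintype.card σ, fun k => t ((Fintype.equivFin σ).symm k), fun k => ht _,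
    fun i x hx => ?_⟩
  obtain ⟨k, hk⟩ := h0 i x hx
  exact ⟨Fintype.equivFin σ k, by simpa using hk⟩

theorem Bpf.one : Bpf (1 : LB A) :=
  Bpf.of_fintype (σ := Unit) (t := fun _ => oneS A) (fun _ => isHS_oneS univ) fun i x hx =>
    ⟨(), by simp [oneS, hx]⟩

theorem Bpf.mul (h : Bpf L) (h' : Bpf L') : Bpf (L * L') := by
  obtain ⟨N, t, ht, h0⟩ := h
  obtain ⟨N', t', ht', h0'⟩ := h'
  refine Bpf.of_fintype (σ := Fin N × Fin N') (t := fun k => t k.1 * t' k.2)
    (fun k => (ht k.1).mul (ht' k.2)) fun i x hx => ?_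
  obtain ⟨k, hk⟩ := h0 i x hx
  obtain ⟨k', hk'⟩ := h0' i x hx
  exact ⟨(k, k'), by simpa using mul_ne_zero hk hk'⟩

theorem Bpf.pow (h : Bpf L) (m : ℕ) : Bpf (L ^ m) := by
  induction m with
  | zero => rw [pow_zero]; exact Bpf.one
  | succ m ih => rw [pow_succ]; exact ih.mul h

end dim

/-! ### the degree -/

section deg

open Crest.Agent.R273.HM_333 Crest.Agent.R273.FIb0_597 Crest.Agent.R273.FId0_597
open Crest.Agent.R273.Green_5 Crest.Agent.R273.VolInv_5 Crest.Agent.R273.StV_37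

/-- `∫_{ℂⁿ} (1 + |w|²)^(-(n+1))` -/
def cn (n : ℕ) : ℝ := ∫ w : RI n → ℝ, kq n 1 (‖(cc w : Cn n)‖ ^ 2)

/-- Lebesgue measure on `Cn n` -/
def leb (n : ℕ) : Measure (Cn n) :=
  (volume : Measure (RI n → ℝ)).map (rcE n).symm.toContinuousLinearEquiv

instance : (leb n).IsAddHaarMeasure := ContinuousLinearEquiv.isAddHaarMeasure_map _ _

theorem cq_leb : cq n (leb n) = cn n := by
  unfold cq leb cn
  exact ((rcE n).symm.toContinuousLinearEquiv.toHomeomorph.measurableEmbedding.integral_map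
    (μ := (volume : Measure (RI n → ℝ))) (fun z : Cn n => kq n 1 (‖z‖ ^ 2)))

theorem lintegral_leb (f : Cn n → ℝ≥0∞) : ∫⁻ z, f z ∂(leb n) = ∫⁻ w : RI n → ℝ, f (cc w) :=
  (rcE n).symm.toContinuousLinearEquiv.toHomeomorph.measurableEmbedding.lintegral_map
    (μ := (volume : Measure (RI n → ℝ))) f

theorem cn_pos : 0 < cn n := by
  rw [← cq_leb]
  exact cq_pos (leb n) finrank_Cn

variable {M : Type} [TopologicalSpace M] {A : Atl n M} {L : LB A}
variable [T2Space M] [CompactSpace M] [Fintype A.ι]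

theorem totc_indep (P P' : Part A) {S : A.ι → M → Matrix (Fin n) (Fin n) ℂ} (hS : TF A S) :
    totc P (fun i x => (S i x).det) = totc P' (fun i x => (S i x).det) := by
  let _ : MeasurableSpace M := borel M
  have : BorelSpace M := ⟨rfl⟩
  obtain ⟨h⟩ := exists_hm P (KB A)⁻¹
  have hGc : Continuous (dtC h S) := sm_continuous (sm_dtC h hS)
  have hF : ∀ i, ∀ x ∈ (A.e i).source, (h.w i x : ℂ) * dtC h S x = (S i x).det := by
    intro i x hx
    have h6 : (h.w i x : ℂ) ≠ 0 := by exact_mod_cast (h.pos i x hx).ne'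
    rw [dtC_eq h hS hx]
    field_simp
  rw [← int_eq_totc P h hGc hF, ← int_eq_totc P' h hGc hF]

/-- **degree theorem** -/
theorem degree [ConnectedSpace M] (hb : Bpf L) :
    ∃ d : ℕ, ∀ (P : Part A) (h : HM L), totc P (fun i x => (cur h i x).det) = (cn n : ℂ) * d := by
  classical
  let _ : MeasurableSpace M := borel M
  have : BorelSpace M := ⟨rfl⟩
  by_cases hex : ∃ (_ : Part A) (_ : HM L), True
  swap
  · exact ⟨0, fun P h => absurd ⟨P, h, trivial⟩ hex⟩
  obtain ⟨P, h, -⟩ := hex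
  have hM : ∃ i : A.ι, ∃ x, x ∈ (A.e i).source := by
    obtain ⟨x⟩ := (inferInstance : Nonempty M)
    obtain ⟨i, hi⟩ := A.cover x
    exact ⟨i, x, hi⟩
  obtain ⟨t, ht, h0⟩ := hb.exact hM
  -- a nonzero section
  obtain ⟨i₀, x₀, hx₀⟩ := hM
  obtain ⟨k₀, hk₀⟩ := h0 i₀ x₀ hx₀
  set s0 := t k₀ with hs0
  set s : Fin n → A.ι → M → ℂ := fun j => t (k₀.succAbove j) with hs
  have hz : ∀ i, ∀ x ∈ (A.e i).source, s0 i x = 0 → ∃ j, s j i x ≠ 0 := by
    intro i x hx hx0
    obtain ⟨k, hk⟩ := h0 i x hx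
    have hkk : k ≠ k₀ := by
      rintro rfl
      exact hk hx0
    obtain ⟨j, hj⟩ := Fin.exists_succAbove_eq hkk
    exact ⟨j, by rw [hs]; simp only [hj]; exact hk⟩
  have hmain := fun (a : Cn n) (ε : ℝ) (hε : 0 < ε) => main_identity P h (ht k₀)
    (fun j => ht (k₀.succAbove j)) hz ⟨i₀, x₀, hx₀, hk₀⟩ a hε.ne'
  set V : ℝ := (totc P (fun i x => (cur h i x).det)).re with hV
  have hV0 : 0 ≤ V := (hmain 0 1 one_pos).1
  set N : Cn n → ℝ≥0∞ := fun z => Nn s0 s (rc z) with hN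
  have hNm : Measurable N := (meas_Nn (ht k₀) fun j => ht (k₀.succAbove j)).comp
    continuous_rc.measurable
  have hNi : ∀ (a : Cn n) (ε : ℝ), 0 < ε →
      ∫⁻ z, ENNReal.ofReal (kq n ε (‖z - a‖ ^ 2)) * N z ∂(leb n) = ENNReal.ofReal V := by
    intro a ε hε
    rw [lintegral_leb, ← (hmain a ε hε).2]
    refine lintegral_congr fun w => ?_
    simp only [hN, rc_cc]
    rfl
  have hae := ae_const (leb n) finrank_Cn hNm hV0 hNi
  obtain ⟨z, hz1, hz2⟩ := hae.exists
  obtain ⟨d, hd⟩ := fsum_one_nat hz1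
  refine ⟨d, fun P' h' => ?_⟩
  have hreal := totc_real P (tf_of_cf (cur_cf h)) fun i x hx => cur_herm h i hx
  have hNd : (N z).toReal = d := by
    have : N z = d := hd
    rw [this]; simp
  rw [totc_indep P' P (tf_of_cf (cur_cf h')), volinv_cur P h h', hreal]
  rw [hNd, cq_leb] at hz2
  rw [← hV, ← hz2]
  push_cast
  ring

/-- the integral is positive for a positively curved metric -/
theorem totc_pos [ConnectedSpace M] (P : Part A) {h : HM L} (hp : h.Pos) :
    0 < (totc P (fun i x => (cur h i x).det)).re := by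
  let _ : MeasurableSpace M := borel M
  have : BorelSpace M := ⟨rfl⟩
  obtain ⟨v⟩ := exists_hm P (KB A)⁻¹
  have := isFinite_vm v
  have := isOpenPos_vm v
  have hS : TF A (cur h) := tf_of_cf (cur_cf h)
  have hpos : ∀ x, 0 < dtM v (cur h) x := by
    intro x
    have hx := mem_ch A x
    have h1 := (cur_posDef hp _ hx).det_pos
    exact div_pos (Complex.lt_def.1 h1).1 (v.pos _ x hx)
  rw [← int_dtM P v hS, integral_pos_iff_support_of_nonneg (fun x => (hpos x).le)
    (Crest.Agent.R273.FIc0_597.integrable_cont v (cont_dtM v hS))]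
  have : Function.support (dtM v (cur h)) = univ := eq_univ_of_forall fun x => (hpos x).ne'
  rw [this]
  exact isOpen_univ.measure_pos _ univ_nonempty

/-- the degree of a line bundle with a base point free power -/
theorem degree_pow [ConnectedSpace M] {K : ℕ} (hb : Bpf (L ^ K)) :
    ∃ d : ℕ, ∀ (P : Part A) (h : HM L),
      (K : ℂ) ^ n * totc P (fun i x => (cur h i x).det) = (cn n : ℂ) * d := by
  obtain ⟨d, hd⟩ := degree hb
  refine ⟨d, fun P h => ?_⟩
  rw [← hd P (pow h K), ← totc_smul]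
  refine totc_congr P fun i x hx => ?_
  rw [cur_pow h K i hx, Matrix.det_smul, Fintype.card_fin]

end deg

end Crest.Agent.R281.Qr_770
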