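import Crest.Agent.R281.Qr5_770
import Crest.Agent.R272.Kod8_410

/-!
# Row 281, Q-RAT (helper770), part 6: integrality of all top self-intersection numbers

`M` compact connected, `hO : HM O` positive (so `M` is projective, Kodaira embedding R272/Kod8_410).
* `numerical`   : a polynomial with values in `c ℤ` on `ℕ` has its value at `-1` in `c ℤ`
* `degree_int`  : for EVERY line bundle `L` : `∃ z : ℤ, ∀ P h, totc P (det (cur h)) = cn n * z`
* `degree_pos`  : for a positive `h : HM L` : `∃ d : ℕ, 0 < d ∧ ∀ P h, totc P (det (cur h)) = cn n * d`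
* `degree_rat`  : `∫ det S ∈ cn n ℚ` for `S` with `m • S = cur h + ∂∂̄ u`
-/

set_option autoImplicit false
set_option linter.unusedSectionVars false

open Set Filter Topology Complex MeasureTheory Module
open scoped ContDiff Matrix ComplexConjugate Manifold ENNReal ComplexOrder NNReal Polynomial fwdDiff

noncomputable section

namespace Crest.Agent.R281.Qr_770

open Crest.Agent.R273 Crest.Agent.R275 Crest.Agent.R275.Geo Crest.Agent.R275.Core144
open Crest.Agent.R275.EDR890
open Crest.Agent.R273.Defs_333 Crest.Agent.R273.Hess_333 Crest.Agent.R273.HessB_333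
open Crest.Agent.R273.Kah_333 Crest.Agent.R273.FS_333
open Crest.Agent.R273.HM_333 Crest.Agent.R273.FIb0_597 Crest.Agent.R273.FId0_597
open Crest.Agent.R273.Green_5 Crest.Agent.R273.VolInv_5 Crest.Agent.R273.StV_37

variable {n : ℕ}

/-- numerical polynomials -/
theorem numerical {p : ℂ[X]} {c : ℂ} (h : ∀ l : ℕ, ∃ z : ℤ, p.eval (l : ℂ) = c * z) :
    ∃ z : ℤ, p.eval (-1) = c * z := by
  have h1 := congrFun (Polynomial.fwdDiff_iter_degree_add_one_eq_zero p) (-1)
  rw [fwdDiff_iter_eq_sum_shift, Pi.zero_apply, Finset.sum_range_succ'] at h1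
  choose z hz using h
  have h2 : ∀ k : ℕ, p.eval (-1 + (k + 1) • (1 : ℂ)) = c * z k := by
    intro k
    rw [← hz k]
    congr 1
    rw [nsmul_eq_mul, Nat.cast_add, Nat.cast_one]
    ring
  simp only [h2] at h1
  simp only [zero_smul, add_zero, Nat.sub_zero, Nat.choose_zero_right, Nat.cast_one, mul_one] at h1
  have h3 : ∃ w : ℤ, ∑ k ∈ Finset.range (p.natDegree + 1),
      ((-1 : ℤ) ^ (p.natDegree + 1 - (k + 1)) * ((p.natDegree + 1).choose (k + 1) : ℤ)) • (c * z k) =
      c * w := by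
    refine ⟨∑ k ∈ Finset.range (p.natDegree + 1),
      ((-1 : ℤ) ^ (p.natDegree + 1 - (k + 1)) * ((p.natDegree + 1).choose (k + 1) : ℤ)) * z k, ?_⟩
    rw [Int.cast_sum, Finset.mul_sum]
    refine Finset.sum_congr rfl fun k _ => ?_
    rw [zsmul_eq_mul]
    push_cast
    ring
  obtain ⟨w, hw⟩ := h3
  rw [hw] at h1
  rcases neg_one_pow_eq_or ℤ (p.natDegree + 1) with h4 | h4
  · rw [h4, one_smul] at h1
    exact ⟨-w, by push_cast; linear_combination h1⟩
  · rw [h4, neg_smul, one_smul] at h1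
    exact ⟨w, by linear_combination -h1⟩

section

variable {M : Type} [TopologicalSpace M] {A : Atl n M} {L L' : LB A}
variable [T2Space M] [CompactSpace M] [Fintype A.ι]

/-- `t ↦ ∫ det (g + t H)` is a polynomial -/
theorem exists_poly (P : Part A) {g H : A.ι → M → Matrix (Fin n) (Fin n) ℂ}
    (hg : ∀ i a b, A.SmAt i (fun x => g i x a b)) (hH : ∀ i a b, A.SmAt i (fun x => H i x a b)) :
    ∃ p : ℂ[X], ∀ t : ℂ, p.eval t = totc P (fun i x => (g i x + t • H i x).det) := by
  set c : ℕ → A.ι → M → ℂ := fun k i x => (dp (g i x) (H i x)).coeff k with hc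
  have hcs : ∀ k i, A.SmAt i (c k i) := fun k i => smAt_coeff_dp (hg i) (hH i) k
  refine ⟨∑ k ∈ Finset.range (n + 1), Polynomial.C (totc P (c k)) * Polynomial.X ^ k, fun t => ?_⟩
  have h1 : totc P (fun i x => (g i x + t • H i x).det) =
      totc P (fun i x => ∑ k ∈ Finset.range (n + 1), t ^ k * c k i x) := by
    refine totc_congr P fun i x _ => ?_
    rw [← eval_dp, Polynomial.eval_eq_sum_range' (Nat.lt_succ_of_le (natDegree_dp _ _))]
    exact Finset.sum_congr rfl fun k _ => mul_comm _ _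
  rw [h1, totc_sum P _ (f := fun (k : ℕ) i x => t ^ k * c k i x) fun k _ i =>
    (contDiffOn_const (c := t ^ k)).mul (hcs k i), Polynomial.eval_finsetSum]
  refine Finset.sum_congr rfl fun k _ => ?_
  rw [Polynomial.eval_mul, Polynomial.eval_C, Polynomial.eval_pow, Polynomial.eval_X, totc_smul,
    mul_comm]

theorem HM.exists_cast {h : HM L} (e : L = L') : ∃ h' : HM L', ∀ i x, cur h' i x = cur h i x := by
  subst e
  exact ⟨h, fun _ _ => rfl⟩

/-- the difference of two base point free bundles -/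
theorem degree_div [ConnectedSpace M] (hb : Bpf L) (hb' : Bpf L') :
    ∃ z : ℤ, ∀ (P : Part A) (h : HM (L * L'⁻¹)),
      totc P (fun i x => (cur h i x).det) = (cn n : ℂ) * z := by
  by_cases hex : ∃ (_ : Part A), True
  swap
  · exact ⟨0, fun P h => absurd ⟨P, trivial⟩ hex⟩
  obtain ⟨P, -⟩ := hex
  obtain ⟨h1⟩ := exists_hm P L
  obtain ⟨h2⟩ := exists_hm P L'
  obtain ⟨p, hp⟩ := exists_poly P (cur_smooth h1) (cur_smooth h2)
  have hv : ∀ l : ℕ, ∃ z : ℤ, p.eval (l : ℂ) = (cn n : ℂ) * z := by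
    intro l
    obtain ⟨d, hd⟩ := degree (hb.mul (hb'.pow l))
    refine ⟨d, ?_⟩
    rw [hp, Int.cast_natCast, ← hd P (mul h1 (pow h2 l))]
    refine totc_congr P fun i x hx => ?_
    rw [cur_mul h1 (pow h2 l) i hx, cur_pow h2 l i hx]
  obtain ⟨z, hz⟩ := numerical hv
  refine ⟨z, fun P' h => ?_⟩
  rw [totc_indep P' P (tf_of_cf (cur_cf h)), ← hz, hp, volinv_cur P (mul h1 (inv h2)) h]
  refine totc_congr P fun i x hx => ?_
  rw [cur_mul h1 (inv h2) i hx, cur_inv h2 i hx, neg_one_smul]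

/-- **integrality of the top self-intersection of every line bundle** -/
theorem degree_int [ConnectedSpace M] (P : Part A) {O : LB A} {hO : HM O} (hp : hO.Pos)
    (L : LB A) : ∃ z : ℤ, ∀ (P : Part A) (h : HM L),
      totc P (fun i x => (cur h i x).det) = (cn n : ℂ) * z := by
  obtain ⟨m1, hm1⟩ := Crest.Agent.R272.Kod8_410.kodaira P hp L
  obtain ⟨m2, hm2⟩ := Crest.Agent.R272.Kod8_410.kodaira P hp (1 : LB A)
  obtain ⟨P1, hP1⟩ := hm1 (max m1 m2) (le_max_left _ _)
  obtain ⟨P2, hP2⟩ := hm2 (max m1 m2) (le_max_right _ _)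
  have hb1 : Bpf (L * O ^ max m1 m2) := hP1 ▸ Bpf.proj P1
  have hb2 : Bpf (O ^ max m1 m2) := by
    have := Bpf.proj P2
    rwa [hP2, one_mul] at this
  obtain ⟨z, hz⟩ := degree_div hb1 hb2
  have e : L = L * O ^ max m1 m2 * (O ^ max m1 m2)⁻¹ := by rw [mul_inv_cancel_right]
  refine ⟨z, fun P' h => ?_⟩
  obtain ⟨h', hh'⟩ := HM.exists_cast (h := h) e
  rw [← hz P' h']
  simp only [hh']

/-- **a positive line bundle has positive integral degree** -/
theorem degree_pos [ConnectedSpace M] (P : Part A) {h0 : HM L} (hp : h0.Pos) :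
    ∃ d : ℕ, 0 < d ∧ ∀ (P : Part A) (h : HM L),
      totc P (fun i x => (cur h i x).det) = (cn n : ℂ) * d := by
  obtain ⟨z, hz⟩ := degree_int P hp L
  have h1 := totc_pos P hp
  rw [hz P h0] at h1
  have h2 : 0 < cn n * z := by
    have : ((cn n : ℂ) * (z : ℂ)).re = cn n * z := by
      rw [← Complex.ofReal_intCast, ← Complex.ofReal_mul, Complex.ofReal_re]
    rwa [this] at h1
  have h3 : (0 : ℝ) < z := pos_of_mul_pos_right h2 cn_pos.le
  have h4 : 0 < z := by exact_mod_cast h3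
  refine ⟨z.toNat, by omega, fun P' h => ?_⟩
  rw [hz P' h]
  congr 1
  have h5 : ((z.toNat : ℕ) : ℤ) = z := Int.toNat_of_nonneg h4.le
  rw [← Int.cast_natCast, h5]

/-- **rationality**: a closed form of type `(1,1)` a multiple of which is the curvature of a
metric on `L`, up to `∂∂̄ u` -/
theorem degree_rat [ConnectedSpace M] (P : Part A) {O : LB A} {hO : HM O} (hp : hO.Pos)
    {S : A.ι → M → Matrix (Fin n) (Fin n) ℂ} (h : HM L) {m : ℕ} (hm : 0 < m) {u : M → ℝ}
    (hu : A.Sm u) (hS : ∀ i, ∀ x ∈ (A.e i).source, (m : ℂ) • S i x = cur h i x + hsf A u i x) :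
    ∃ r : ℚ, totc P (fun i x => (S i x).det) = (cn n : ℂ) * r := by
  obtain ⟨z, hz⟩ := degree_int P hp L
  refine ⟨(z : ℚ) / (m : ℚ) ^ n, ?_⟩
  have h1 : (m : ℂ) ^ n * totc P (fun i x => (S i x).det) = (cn n : ℂ) * z := by
    rw [← hz P h, ← volinv P (cur_cf h) hu, ← totc_smul]
    refine totc_congr P fun i x hx => ?_
    rw [← hS i x hx, Matrix.det_smul, Fintype.card_fin]
  have hm0 : (m : ℂ) ^ n ≠ 0 := pow_ne_zero _ (by exact_mod_cast hm.ne')
  push_cast
  rw [eq_comm, mul_div_assoc', div_eq_iff hm0, ← h1]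
  ring

end

end Crest.Agent.R281.Qr_770
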