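import Crest.Agent.R281.Qt10a_355
import Crest.Agent.R281.Qt8_922

/-!
# R281 (S0424), QTUBE (helper355), part 10: the push-down, literal form on the interfaces of Qt8_922

* `Om a R C G`   : `{p ∈ reg a R | ‖G p‖ < R / C}`
* `pd0`, `fibre` : the local data, the fibres are the images of the leaves
* `exists_qtube` : `Push` + `RTube` + `TFam` + discs in the leaves ==> `QTube A K n κ (R / C)`
-/

set_option autoImplicit false
set_option maxSynthPendingDepth 3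
set_option linter.unusedSectionVars false

open Set Metric Filter Topology
open scoped ContDiff ComplexOrder

namespace Crest.Agent.R281.Qt10_355

open Crest.Agent.R275.Geo Crest.Agent.R273.Defs_333 Crest.Agent.R273.Kah_333
open Crest.Agent.R281.SAsm_790 Crest.Agent.R281.Qt_922
open Crest.Agent.R281.Mc673 (V W Fo tube ClF isOpen_tube kv)

noncomputable section

variable {N n : ℕ} {X : Type} [TopologicalSpace X] {A : Atl N X} {K : Kah A}
  {r Λ C R ε κ : ℝ} {x y : Fo N} {I : W N → W N →L[ℝ] W N} {Θ : W N → X} {a : V N → V N → V N}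
  {g : V N → Cn n} {G : W N → Cn n}

theorem qf_nonneg (K : Kah A) {i : A.ι} {z : X} (hz : z ∈ (A.e i).source) (v : Cn N) :
    0 ≤ qf K i z v := by
  have h1 := (K.pos i z hz).posSemidef.transpose
  exact h1.re_dotProduct_nonneg v.ofLp

/-- the region upstairs -/
def Om (a : V N → V N → V N) (R C : ℝ) (G : W N → Cn n) : Set (W N) :=
  {p | p ∈ reg a R ∧ ‖G p‖ < R / C}

theorem reg_sub (hF : TFam r R ε x y a) : reg a R ⊆ tube N r := by
  rintro ⟨θ, v⟩ ⟨c, hc, hv⟩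
  have h1 : ((θ, a c θ) : W N) ∈ tube N r := (hF.leaf c hc).tub θ
  rw [show a c θ = v from hv] at h1
  exact h1

theorem diffG (hT : RTube n C R I a g G) {p : W N} (hp : p ∈ reg a R) :
    DifferentiableAt ℝ G p := by
  obtain ⟨G', h, -⟩ := hT.der p hp
  exact h.differentiableAt

theorem isOpen_Om (hT : RTube n C R I a g G) : IsOpen (Om a R C G) := by
  have h1 : ContinuousOn G (reg a R) := fun p hp =>
    (diffG hT hp).continuousAt.continuousWithinAt
  have h2 := h1.isOpen_inter_preimage hT.op (isOpen_ball (x := (0 : Cn n)) (ε := R / C))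
  have h3 : Om a R C G = reg a R ∩ G ⁻¹' ball 0 (R / C) := by
    ext p
    simp [Om]
  rw [h3]
  exact h2

theorem G_reg (hT : RTube n C R I a g G) {p : W N} {c : V N} (hc : ‖c‖ < R)
    (hp : a c p.1 = p.2) : G p = g c := by
  have h1 := hT.ga c hc p.1
  rwa [hp] at h1

/-- translation by the lattice stays on the leaf -/
theorem leaf_add (hF : TFam r R ε x y a) {c : V N} (hc : ‖c‖ < R) (k : Fin N → ℤ) (θ : V N) :
    a c (θ + kv k) = a c θ := (hF.leaf c hc).per k θ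

theorem pd0 (hP : Push A K r Λ I Θ) (hT : RTube n C R I a g G) (hF : TFam r R ε x y a) :
    PD0 A (Om a R C G) Θ G := by
  have hsub := reg_sub hF
  refine ⟨isOpen_Om hT, hP.cont.mono fun p hp => hsub hp.1, fun p hp => hP.sm p (hsub hp.1),
    fun p hp => hP.bij p (hsub hp.1), fun p hp => diffG hT hp.1, ?_, ?_⟩
  · rintro p ⟨⟨c, hc, hp⟩, -⟩ q ⟨⟨d, hd, hq⟩, -⟩ hpq
    have hp' : p ∈ tube N r := hsub ⟨c, hc, hp⟩
    have hq' : q ∈ tube N r := hsub ⟨d, hd, hq⟩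
    obtain ⟨k, hk⟩ := (hP.eq_iff p hp' q hq').1 hpq
    have e1 : p.1 = q.1 + kv k := by rw [hk]
    have e2 : p.2 = q.2 := by rw [hk]
    rw [G_reg hT hd hq]
    refine G_reg hT hd ?_
    rw [e1, e2, leaf_add hF hd, hq]
  · intro p hp i hi u v huv
    obtain ⟨G', hG', -, -, hI⟩ := hT.der p hp.1
    rw [hG'.fderiv, ← hI u]
    congr 1
    refine (hP.bij p (hsub hp.1) i hi).1 ?_
    rw [huv, hP.hol p (hsub hp.1) i hi u]

/-- continuity of the family -/
theorem cont_fam (hF : TFam r R ε x y a) :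
    ContinuousOn (fun q : V N × V N => ((q.2, a q.1 q.2) : W N)) (ball 0 R ×ˢ univ) := by
  rintro ⟨c0, θ0⟩ ⟨hc0, -⟩
  rw [mem_ball_zero_iff] at hc0
  refine ContinuousWithinAt.prodMk continuous_snd.continuousWithinAt ?_
  have h1 : Tendsto (fun q : V N × V N => a q.1 q.2 - a c0 q.2)
      (𝓝[ball 0 R ×ˢ univ] (c0, θ0)) (𝓝 0) := by
    rw [tendsto_zero_iff_norm_tendsto_zero]
    have h2 : Tendsto (fun q : V N × V N => (1 + ε) * ‖q.1 - c0‖)
        (𝓝[ball 0 R ×ˢ univ] (c0, θ0)) (𝓝 0) := by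
      have h3 : Continuous fun q : V N × V N => (1 + ε) * ‖q.1 - c0‖ := by fun_prop
      have h4 := h3.tendsto (c0, θ0)
      simp only [sub_self, norm_zero, mul_zero] at h4
      exact h4.mono_left nhdsWithin_le_nhds
    refine squeeze_zero' (Eventually.of_forall fun q => norm_nonneg _) ?_ h2
    filter_upwards [self_mem_nhdsWithin] with q hq
    have hq1 : ‖q.1‖ < R := by simpa using hq.1
    have h5 := hF.lip q.1 hq1 c0 hc0 q.2
    calc ‖a q.1 q.2 - a c0 q.2‖ = ‖(a q.1 q.2 - a c0 q.2 - (q.1 - c0)) + (q.1 - c0)‖ := by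
          congr 1; abel
      _ ≤ ‖a q.1 q.2 - a c0 q.2 - (q.1 - c0)‖ + ‖q.1 - c0‖ := norm_add_le _ _
      _ ≤ (1 + ε) * ‖q.1 - c0‖ := by linarith
  have h6 : Tendsto (fun q : V N × V N => a c0 q.2) (𝓝[ball 0 R ×ˢ univ] (c0, θ0))
      (𝓝 (a c0 θ0)) := by
    have h7 : Continuous fun q : V N × V N => a c0 q.2 :=
      (hF.leaf c0 hc0).c1.continuous.comp continuous_snd
    exact (h7.tendsto (c0, θ0)).mono_left nhdsWithin_le_nhds
  have h8 := h1.add h6
  rw [zero_add] at h8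
  refine h8.congr fun q => ?_
  simp

/-- compactness modulo the lattice -/
theorem cpt_aux (hP : Push A K r Λ I Θ) (hT : RTube n C R I a g G) (hF : TFam r R ε x y a)
    {R' : ℝ} (hR' : R' < R / C) : ∃ K0 : Set (W N), IsCompact K0 ∧ K0 ⊆ Om a R C G ∧
      ∀ p ∈ Om a R C G, ‖G p‖ ≤ R' → ∃ q ∈ K0, Θ q = Θ p := by
  have hsub := reg_sub hF
  set S : Set (V N) := {c | c ∈ ball (0 : V N) R ∧ ‖g c‖ ≤ R'} with hS
  have hSc : IsCompact S := hT.cpt R' hR'
  refine ⟨(fun q : V N × V N => ((q.2, a q.1 q.2) : W N)) '' (S ×ˢ Tub_57.cub N),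
    (hSc.prod Tub_57.isCompact_cub).image_of_continuousOn
      ((cont_fam hF).mono (prod_mono (fun c hc => hc.1) (subset_univ _))), ?_, ?_⟩
  · rintro _ ⟨⟨c, θ⟩, ⟨hc, -⟩, rfl⟩
    have hc1 : ‖c‖ < R := by simpa using hc.1
    refine ⟨⟨c, hc1, rfl⟩, ?_⟩
    show ‖G (θ, a c θ)‖ < R / C
    rw [hT.ga c hc1 θ]
    exact hc.2.trans_lt hR'
  · rintro p ⟨⟨c, hc, hp⟩, -⟩ hpR
    obtain ⟨k, hk⟩ := Tub_57.exists_cub p.1
    have hk' : p.1 + kv k ∈ Tub_57.cub N := hk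
    refine ⟨(p.1 + kv k, a c (p.1 + kv k)), ⟨(c, p.1 + kv k), ⟨⟨?_, ?_⟩, hk'⟩, rfl⟩, ?_⟩
    · rw [mem_ball_zero_iff]
      exact hc
    · show ‖g c‖ ≤ R'
      rw [← G_reg hT hc hp]
      exact hpR
    · refine (hP.eq_iff _ (hsub ⟨c, hc, rfl⟩) p (hsub ⟨c, hc, hp⟩)).2 ⟨k, ?_⟩
      rw [leaf_add hF hc, hp]

/-- the fibre of `G`, downstairs -/
theorem fibre (Θ : W N → X) (hT : RTube n C R I a g G) {c : V N}
    (hc : ‖c‖ < R) (hg : ‖g c‖ < R / C) :
    {z | ∃ p' ∈ Om a R C G, Θ p' = z ∧ G p' = g c} = range fun θ => Θ (θ, a c θ) := by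
  ext z
  constructor
  · rintro ⟨p, ⟨⟨d, hd, hp⟩, -⟩, rfl, hG⟩
    rw [G_reg hT hd hp] at hG
    have hdc : d = c := hT.inj (by simpa using hd) (by simpa using hc) hG
    subst hdc
    refine ⟨p.1, ?_⟩
    show Θ (p.1, a d p.1) = Θ p
    rw [hp]
  · rintro ⟨θ, rfl⟩
    refine ⟨(θ, a c θ), ⟨⟨c, hc, rfl⟩, ?_⟩, rfl, hT.ga c hc θ⟩
    rw [hT.ga c hc θ]
    exact hg

theorem finrank_Cn (n : ℕ) : Module.finrank ℝ (Cn n) = 2 * n := by
  rw [finrank_real_of_complex]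
  congr 1
  exact finrank_euclideanSpace_fin

theorem surj_aux (hN : N = 2 * n) {G' : W N →L[ℝ] Cn n} (hC : ∀ w : V N, ‖w‖ ≤ C * ‖G' (0, w)‖) :
    Function.Surjective G' := by
  let T : V N →ₗ[ℝ] Cn n := (G' : W N →ₗ[ℝ] Cn n).comp (LinearMap.inr ℝ (V N) (V N))
  have hi : Function.Injective T := by
    refine (injective_iff_map_eq_zero T).2 fun w hw => ?_
    have h1 := hC w
    have h2 : G' (0, w) = 0 := hw
    rw [h2, norm_zero, mul_zero] at h1
    exact norm_le_zero_iff.1 h1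
  have hf : Module.finrank ℝ (V N) = Module.finrank ℝ (Cn n) := by
    rw [finrank_Cn, finrank_euclideanSpace_fin, hN]
  have hs := (LinearMap.injective_iff_surjective_of_finrank_eq_finrank hf).1 hi
  intro w
  obtain ⟨u, hu⟩ := hs w
  exact ⟨(0, u), hu⟩

/-- **the quantified tube** from the function on the real tube and the discs in the leaves -/
theorem exists_qtube (hN : N = 2 * n) (hP : Push A K r Λ I Θ) (hT : RTube n C R I a g G)
    (hF : TFam r R ε x y a) (hC : 0 < C) (hκ : C ^ 2 * Λ ≤ κ)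
    (hq2 : ∀ c, ‖c‖ < R → ‖g c‖ < R / C → ∀ θ θ', ∃ gg : ℂ → X,
      Disc A K κ (range fun t => Θ (t, a c t)) gg ∧ gg 0 = Θ (θ', a c θ') ∧
        gg 1 = Θ (θ, a c θ)) :
    ∃ q : QTube A K n κ (R / C), q.U = Θ '' Om a R C G ∧ ∀ p ∈ Om a R C G, q.f (Θ p) = G p := by
  have hsub := reg_sub hF
  refine PD.exists_qtube (κ := κ) (R := R / C) ⟨pd0 hP hT hF, fun p hp => hp.2, ?_, ?_, ?_, ?_, ?_⟩
  · intro b hb
    obtain ⟨c, hc, rfl⟩ := hT.onto (mem_ball_zero_iff.2 hb)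
    have hc' : ‖c‖ < R := by simpa using hc
    refine ⟨(0, a c 0), ⟨⟨c, hc', rfl⟩, ?_⟩, hT.ga c hc' 0⟩
    rw [hT.ga c hc' 0]
    exact hb
  · intro p hp
    obtain ⟨G', hG', -, hw, -⟩ := hT.der p hp.1
    rw [hG'.fderiv]
    exact surj_aux hN hw
  · exact fun R' hR' => cpt_aux hP hT hF hR'
  · intro p hp i hi u
    obtain ⟨G', hG', hn, -, -⟩ := hT.der p hp.1
    rw [hG'.fderiv]
    have h1 : ‖G' u‖ ≤ C * ‖u‖ := (G'.le_opNorm u).trans (by gcongr)
    have h2 := hP.low p (hsub hp.1) i hi u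
    have h3 := qf_nonneg K hi (fderiv ℝ (fun q => A.e i (Θ q)) p u)
    calc ‖G' u‖ ^ 2 ≤ (C * ‖u‖) ^ 2 := by gcongr
      _ = C ^ 2 * ‖u‖ ^ 2 := by ring
      _ ≤ C ^ 2 * (Λ * qf K i (Θ p) (fderiv ℝ (fun q => A.e i (Θ q)) p u)) := by gcongr
      _ = (C ^ 2 * Λ) * qf K i (Θ p) (fderiv ℝ (fun q => A.e i (Θ q)) p u) := by ring
      _ ≤ κ * qf K i (Θ p) (fderiv ℝ (fun q => A.e i (Θ q)) p u) := by gcongr
  · rintro p ⟨⟨c, hc, hp⟩, hpR⟩ q ⟨⟨d, hd, hq⟩, -⟩ hpq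
    rw [G_reg hT hc hp] at hpq hpR
    rw [G_reg hT hd hq] at hpq
    have hdc : c = d := hT.inj (by simpa using hc) (by simpa using hd) hpq
    subst hdc
    obtain ⟨gg, h1, h2, h3⟩ := hq2 c hc hpR p.1 q.1
    refine ⟨gg, ?_, ?_, ?_⟩
    · rw [G_reg hT hc hp, fibre Θ hT hc hpR]
      exact h1
    · rw [h2, hq]
    · rw [h3, hp]

/-- the leaves downstairs are compact -/
theorem isCompact_leaf (hP : Push A K r Λ I Θ) (hF : TFam r R ε x y a) {c : V N} (hc : ‖c‖ < R) :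
    IsCompact (range fun θ => Θ (θ, a c θ)) := by
  have hsub := reg_sub hF
  have h0 : Continuous fun θ : V N => ((θ, a c θ) : W N) :=
    continuous_id.prodMk (hF.leaf c hc).c1.continuous
  have h1 : Continuous fun θ : V N => Θ (θ, a c θ) :=
    hP.cont.comp_continuous h0 fun θ => hsub ⟨c, hc, rfl⟩
  have h2 : (range fun θ => Θ (θ, a c θ)) = (fun θ => Θ (θ, a c θ)) '' Tub_57.cub N := by
    refine subset_antisymm ?_ (image_subset_range _ _)
    rintro _ ⟨θ, rfl⟩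
    obtain ⟨k, hk⟩ := Tub_57.exists_cub θ
    have hk' : θ + kv k ∈ Tub_57.cub N := hk
    refine ⟨θ + kv k, hk', ?_⟩
    refine (hP.eq_iff _ (hsub ⟨c, hc, rfl⟩) _ (hsub ⟨c, hc, rfl⟩)).2 ⟨k, ?_⟩
    rw [leaf_add hF hc]
  rw [h2]
  exact Tub_57.isCompact_cub.image h1

/-- the leaves downstairs are connected -/
theorem isConnected_leaf (hP : Push A K r Λ I Θ) (hF : TFam r R ε x y a) {c : V N}
    (hc : ‖c‖ < R) : IsConnected (range fun θ => Θ (θ, a c θ)) := by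
  have hsub := reg_sub hF
  have h0 : Continuous fun θ : V N => ((θ, a c θ) : W N) :=
    continuous_id.prodMk (hF.leaf c hc).c1.continuous
  have h1 : Continuous fun θ : V N => Θ (θ, a c θ) :=
    hP.cont.comp_continuous h0 fun θ => hsub ⟨c, hc, rfl⟩
  exact isConnected_range h1

end

end Crest.Agent.R281.Qt10_355
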