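import Crest.Agent.R281.Qt1_922

/-!
# R281 (S0424), QTUBE (helper355), part 10a: the abstract push-down

* `exists_cderiv` : a real derivative which commutes with `i` is complex
* `PD`            : data upstairs: `Θ : Ω → X` local diffeomorphism, `G : Ω → ℂⁿ` constant on the
                    fibres of `Θ`, holomorphic for the pulled back complex structure
* `PD.exists_qtube` : the quantified tube `QTube A K n κ R`, with `U = Θ(Ω)` and `f ∘ Θ = G`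
-/

set_option autoImplicit false
set_option maxSynthPendingDepth 3
set_option linter.unusedSectionVars false

open Set Metric Filter Topology Complex
open scoped ContDiff

namespace Crest.Agent.R281.Qt10_355

open Crest.Agent.R275.Geo Crest.Agent.R273.Defs_333 Crest.Agent.R273.Kah_333
open Crest.Agent.R281.SAsm_790 Crest.Agent.R281.Qt_922

noncomputable section

/-- a real derivative commuting with `i` is a complex derivative -/
theorem exists_cderiv {E F : Type*} [NormedAddCommGroup E] [NormedSpace ℂ E] [NormedSpace ℝ E]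
    [IsScalarTower ℝ ℂ E] [NormedAddCommGroup F] [NormedSpace ℂ F] [NormedSpace ℝ F]
    [IsScalarTower ℝ ℂ F] {f : E → F} {z : E} {L : E →L[ℝ] F} (h : HasFDerivAt f L z)
    (hI : ∀ v, L (I • v) = I • L v) : ∃ L' : E →L[ℂ] F, HasFDerivAt f L' z ∧ ∀ v, L' v = L v := by
  have hs : ∀ (c : ℂ) (v : E), L (c • v) = c • L v := by
    intro c v
    have e1 : c • v = c.re • v + c.im • (I • v) := by
      conv_lhs => rw [← Complex.re_add_im c, add_smul, mul_smul]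
      rw [← algebraMap_smul ℂ c.re v, ← algebraMap_smul ℂ c.im (I • v)]
      rfl
    have e2 : c • L v = c.re • L v + c.im • (I • L v) := by
      conv_lhs => rw [← Complex.re_add_im c, add_smul, mul_smul]
      rw [← algebraMap_smul ℂ c.re (L v), ← algebraMap_smul ℂ c.im (I • L v)]
      rfl
    rw [e1, e2, map_add, map_smul, map_smul, hI]
  let L' : E →L[ℂ] F := ⟨⟨⟨L, map_add L⟩, hs⟩, L.continuous⟩
  exact ⟨L', hasFDerivAt_of_restrictScalars ℝ h rfl, fun v => rfl⟩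

variable {N n : ℕ} {X W : Type} [TopologicalSpace X] [NormedAddCommGroup W] [NormedSpace ℝ W]
  [FiniteDimensional ℝ W]

/-- local part of the data upstairs -/
structure PD0 (A : Atl N X) (Ω : Set W) (Θ : W → X) (G : W → Cn n) : Prop where
  op : IsOpen Ω
  cont : ContinuousOn Θ Ω
  sm : ∀ p ∈ Ω, ∀ i, Θ p ∈ (A.e i).source → ContDiffAt ℝ ∞ (fun q => A.e i (Θ q)) p
  bij : ∀ p ∈ Ω, ∀ i, Θ p ∈ (A.e i).source →
    Function.Bijective (fderiv ℝ (fun q => A.e i (Θ q)) p)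
  dG : ∀ p ∈ Ω, DifferentiableAt ℝ G p
  wd : ∀ p ∈ Ω, ∀ q ∈ Ω, Θ p = Θ q → G p = G q
  cx : ∀ p ∈ Ω, ∀ i, Θ p ∈ (A.e i).source → ∀ u v,
    fderiv ℝ (fun q => A.e i (Θ q)) p v = I • fderiv ℝ (fun q => A.e i (Θ q)) p u →
    fderiv ℝ G p v = I • fderiv ℝ G p u

variable {A : Atl N X} {Ω : Set W} {Θ : W → X} {G : W → Cn n}

namespace PD0

/-- local inverse of `Θ` in a chart -/
theorem exists_inv (h : PD0 A Ω Θ G) {p : W} (hp : p ∈ Ω) {i : A.ι}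
    (hi : Θ p ∈ (A.e i).source) :
    ∃ (L : W ≃L[ℝ] Cn N) (ψ : Cn N → W), (∀ u, L u = fderiv ℝ (fun q => A.e i (Θ q)) p u) ∧
      ψ (A.e i (Θ p)) = p ∧ HasFDerivAt ψ (L.symm : Cn N →L[ℝ] W) (A.e i (Θ p)) ∧
      (∀ᶠ z in 𝓝 (A.e i (Θ p)), ψ z ∈ Ω ∧ Θ (ψ z) = (A.e i).symm z) ∧
      map (fun q => A.e i (Θ q)) (𝓝 p) = 𝓝 (A.e i (Θ p)) := by
  have hd := h.sm p hp i hi
  have hopen : IsOpen (Ω ∩ Θ ⁻¹' (A.e i).source) :=
    h.cont.isOpen_inter_preimage h.op (A.e i).open_source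
  let L : W ≃L[ℝ] Cn N := (LinearEquiv.ofBijective
    ((fderiv ℝ (fun q => A.e i (Θ q)) p : W →L[ℝ] Cn N) : W →ₗ[ℝ] Cn N)
      (h.bij p hp i hi)).toContinuousLinearEquiv
  have hL : (L : W →L[ℝ] Cn N) = fderiv ℝ (fun q => A.e i (Θ q)) p := by
    ext1 u
    rfl
  have hs : HasStrictFDerivAt (fun q => A.e i (Θ q)) (L : W →L[ℝ] Cn N) p := by
    rw [hL]
    exact hd.hasStrictFDerivAt (by simp)
  refine ⟨L, hs.localInverse _ _ _, fun u => rfl, hs.localInverse_apply_image,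
    hs.to_localInverse.hasFDerivAt, ?_, hs.map_nhds_eq_of_equiv⟩
  have h1 : ∀ᶠ z in 𝓝 (A.e i (Θ p)), A.e i (Θ (hs.localInverse _ _ _ z)) = z :=
    hs.eventually_right_inverse
  have h2 : Tendsto (hs.localInverse _ _ _) (𝓝 (A.e i (Θ p))) (𝓝 p) :=
    hs.localInverse_tendsto
  filter_upwards [h1, h2.eventually (hopen.mem_nhds ⟨hp, hi⟩)] with z hz hz2
  refine ⟨hz2.1, ?_⟩
  rw [← (A.e i).left_inv hz2.2, hz]

/-- `Θ` is open -/
theorem map_nhds (h : PD0 A Ω Θ G) {p : W} (hp : p ∈ Ω) : map Θ (𝓝 p) = 𝓝 (Θ p) := by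
  obtain ⟨i, hi⟩ := A.cover (Θ p)
  obtain ⟨L, ψ, -, -, -, -, hm⟩ := h.exists_inv hp hi
  have h1 : Θ =ᶠ[𝓝 p] fun q => (A.e i).symm (A.e i (Θ q)) := by
    have h2 : Ω ∩ Θ ⁻¹' (A.e i).source ∈ 𝓝 p :=
      (h.cont.isOpen_inter_preimage h.op (A.e i).open_source).mem_nhds ⟨hp, hi⟩
    filter_upwards [h2] with q hq using ((A.e i).left_inv hq.2).symm
  rw [map_congr h1]
  have h3 : map (fun q => (A.e i).symm (A.e i (Θ q))) (𝓝 p) =
      map (A.e i).symm (map (fun q => A.e i (Θ q)) (𝓝 p)) := by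
    rw [Filter.map_map]
    rfl
  rw [h3, hm, (A.e i).symm.map_nhds_eq ((A.e i).map_source hi), (A.e i).left_inv hi]

theorem isOpen_image (h : PD0 A Ω Θ G) {S : Set W} (hS : IsOpen S) (hSΩ : S ⊆ Ω) :
    IsOpen (Θ '' S) := by
  rw [isOpen_iff_mem_nhds]
  rintro _ ⟨p, hp, rfl⟩
  rw [← h.map_nhds (hSΩ hp)]
  exact image_mem_map (hS.mem_nhds hp)

/-- the function downstairs -/
def fD (Ω : Set W) (Θ : W → X) (G : W → Cn n) (x : X) : Cn n := by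
  classical exact if h : ∃ p ∈ Ω, Θ p = x then G h.choose else 0

theorem fD_eq (h : PD0 A Ω Θ G) {p : W} (hp : p ∈ Ω) : fD Ω Θ G (Θ p) = G p := by
  have h1 : ∃ q ∈ Ω, Θ q = Θ p := ⟨p, hp, rfl⟩
  unfold fD
  rw [dif_pos h1]
  exact h.wd _ h1.choose_spec.1 _ hp h1.choose_spec.2

theorem fD_cont (h : PD0 A Ω Θ G) : ContinuousOn (fD Ω Θ G) (Θ '' Ω) := by
  rintro _ ⟨p, hp, rfl⟩
  refine ContinuousAt.continuousWithinAt ?_
  have h1 : Tendsto (fD Ω Θ G) (map Θ (𝓝 p)) (𝓝 (G p)) := by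
    rw [tendsto_map'_iff]
    refine ((h.dG p hp).continuousAt.tendsto).congr' ?_
    filter_upwards [h.op.mem_nhds hp] with q hq using (h.fD_eq hq).symm
  rw [h.map_nhds hp] at h1
  rw [ContinuousAt, h.fD_eq hp]
  exact h1

/-- derivative of the function downstairs, in the charts -/
theorem fD_deriv (h : PD0 A Ω Θ G) {p : W} (hp : p ∈ Ω) {i : A.ι}
    (hi : Θ p ∈ (A.e i).source) :
    DifferentiableAt ℂ (fun z => fD Ω Θ G ((A.e i).symm z)) (A.e i (Θ p)) ∧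
    ∀ u, fderiv ℂ (fun z => fD Ω Θ G ((A.e i).symm z)) (A.e i (Θ p))
      (fderiv ℝ (fun q => A.e i (Θ q)) p u) = fderiv ℝ G p u := by
  obtain ⟨L, ψ, hL, h0, hψ, hev, -⟩ := h.exists_inv hp hi
  have h1 : (fun z => fD Ω Θ G ((A.e i).symm z)) =ᶠ[𝓝 (A.e i (Θ p))] fun z => G (ψ z) := by
    filter_upwards [hev] with z hz
    rw [← hz.2, h.fD_eq hz.1]
  have h2 : HasFDerivAt (fun z => G (ψ z)) ((fderiv ℝ G p).comp (L.symm : Cn N →L[ℝ] W))
      (A.e i (Θ p)) := by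
    have h3 : HasFDerivAt G (fderiv ℝ G p) (ψ (A.e i (Θ p))) := by
      rw [h0]
      exact (h.dG p hp).hasFDerivAt
    exact h3.comp _ hψ
  have h4 := h2.congr_of_eventuallyEq h1
  obtain ⟨L', hL', hv⟩ := exists_cderiv h4 (fun v => by
    refine h.cx p hp i hi (L.symm v) (L.symm (I • v)) ?_
    rw [← hL, ← hL, L.apply_symm_apply, L.apply_symm_apply])
  refine ⟨hL'.differentiableAt, fun u => ?_⟩
  rw [hL'.fderiv, hv, ← hL]
  show fderiv ℝ G p (L.symm (L u)) = _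
  rw [L.symm_apply_apply]

end PD0

/-- data upstairs -/
structure PD (A : Atl N X) (K : Kah A) (Ω : Set W) (Θ : W → X) (G : W → Cn n) (κ R : ℝ) : Prop
    extends PD0 A Ω Θ G where
  lt : ∀ p ∈ Ω, ‖G p‖ < R
  onto : ∀ b : Cn n, ‖b‖ < R → ∃ p ∈ Ω, G p = b
  surj : ∀ p ∈ Ω, Function.Surjective (fderiv ℝ G p)
  cpt : ∀ R' < R, ∃ K0 : Set W, IsCompact K0 ∧ K0 ⊆ Ω ∧
    ∀ p ∈ Ω, ‖G p‖ ≤ R' → ∃ q ∈ K0, Θ q = Θ p
  q1 : ∀ p ∈ Ω, ∀ i, Θ p ∈ (A.e i).source → ∀ u,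
    ‖fderiv ℝ G p u‖ ^ 2 ≤ κ * qf K i (Θ p) (fderiv ℝ (fun q => A.e i (Θ q)) p u)
  disc : ∀ p ∈ Ω, ∀ q ∈ Ω, G p = G q →
    ∃ g : ℂ → X, Disc A K κ {y | ∃ p' ∈ Ω, Θ p' = y ∧ G p' = G p} g ∧ g 0 = Θ q ∧ g 1 = Θ p

/-- **the push-down** -/
theorem PD.exists_qtube {K : Kah A} {κ R : ℝ} (h : PD A K Ω Θ G κ R) :
    ∃ q : QTube A K n κ R, q.U = Θ '' Ω ∧ ∀ p ∈ Ω, q.f (Θ p) = G p := by
  have h0 := h.toPD0
  have hf : ∀ p ∈ Ω, PD0.fD Ω Θ G (Θ p) = G p := fun p hp => h0.fD_eq hp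
  refine ⟨⟨Θ '' Ω, PD0.fD Ω Θ G, h0.isOpen_image h.op le_rfl, h0.fD_cont, ?_, ?_, ?_, ?_, ?_, ?_,
    ?_⟩, rfl, hf⟩
  · rintro i z ⟨hz, p, hp, hpz⟩
    have hi : Θ p ∈ (A.e i).source := by
      rw [hpz]
      exact (A.e i).map_target hz
    have h1 := (h0.fD_deriv hp hi).1
    rw [hpz, (A.e i).right_inv hz] at h1
    exact h1.differentiableWithinAt
  · rintro _ ⟨p, hp, rfl⟩
    rw [hf p hp]
    exact h.lt p hp
  · intro b hb
    obtain ⟨p, hp, rfl⟩ := h.onto b hb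
    exact ⟨Θ p, ⟨p, hp, rfl⟩, hf p hp⟩
  · rintro i _ hi ⟨p, hp, rfl⟩ w
    obtain ⟨u, hu⟩ := h.surj p hp w
    exact ⟨_, ((h0.fD_deriv hp hi).2 u).trans hu⟩
  · intro R' hR'
    obtain ⟨K0, hK0, hsub, hK⟩ := h.cpt R' hR'
    have h1 : ContinuousOn G Ω := fun p hp => (h.dG p hp).continuousAt.continuousWithinAt
    have h2 : IsCompact (K0 ∩ {p | ‖G p‖ ≤ R'}) := by
      have h3 : IsClosed (K0 ∩ G ⁻¹' closedBall 0 R') :=
        (h1.mono hsub).preimage_isClosed_of_isClosed hK0.isClosed isClosed_closedBall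
      have h4 : K0 ∩ {p | ‖G p‖ ≤ R'} = K0 ∩ G ⁻¹' closedBall 0 R' := by
        ext p
        simp
      rw [h4]
      exact hK0.of_isClosed_subset h3 inter_subset_left
    have h5 : {x | x ∈ Θ '' Ω ∧ ‖PD0.fD Ω Θ G x‖ ≤ R'} = Θ '' (K0 ∩ {p | ‖G p‖ ≤ R'}) := by
      ext x
      constructor
      · rintro ⟨⟨p, hp, rfl⟩, hx⟩
        rw [hf p hp] at hx
        obtain ⟨q, hq, hqp⟩ := hK p hp hx
        refine ⟨q, ⟨hq, ?_⟩, hqp⟩
        show ‖G q‖ ≤ R'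
        rw [h0.wd q (hsub hq) p hp hqp]
        exact hx
      · rintro ⟨q, ⟨hq, hqR⟩, rfl⟩
        refine ⟨⟨q, hsub hq, rfl⟩, ?_⟩
        rw [hf q (hsub hq)]
        exact hqR
    rw [h5]
    exact h2.image_of_continuousOn (h.cont.mono (inter_subset_left.trans hsub))
  · rintro i _ hi ⟨p, hp, rfl⟩ v
    obtain ⟨u, rfl⟩ := (h.bij p hp i hi).2 v
    rw [(h0.fD_deriv hp hi).2 u]
    exact h.q1 p hp i hi u
  · rintro _ ⟨p, hp, rfl⟩ _ ⟨q, hq, rfl⟩ hpq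
    rw [hf p hp, hf q hq] at hpq
    obtain ⟨g, hg, hg0, hg1⟩ := h.disc p hp q hq hpq
    refine ⟨g, ?_, hg0, hg1⟩
    have h6 : {y | ∃ p' ∈ Ω, Θ p' = y ∧ G p' = G p} =
        {y | y ∈ Θ '' Ω ∧ PD0.fD Ω Θ G y = PD0.fD Ω Θ G (Θ p)} := by
      ext y
      constructor
      · rintro ⟨p', hp', rfl, he⟩
        refine ⟨⟨p', hp', rfl⟩, ?_⟩
        rw [hf p' hp', hf p hp]
        exact he
      · rintro ⟨⟨p', hp', rfl⟩, he⟩
        rw [hf p' hp', hf p hp] at he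
        exact ⟨p', hp', rfl, he⟩
    rw [← h6]
    exact hg

end

end Crest.Agent.R281.Qt10_355
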