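import Mathlib
import Crest.Agent.R281.Poi_234

/-!
# R281 (S0424), QTUBE (helper922), part 2: Stokes on the strip between two curves

`strip_stokes` : for a `C^1` 1-form `μ` and two `C^1` curves `c0`, `c1 : [0,1] → U` whose linear
interpolation stays in `U`.
-/

set_option autoImplicit false
set_option maxSynthPendingDepth 3

open Set Metric Filter Topology MeasureTheory intervalIntegral
open scoped ContDiff

namespace Crest.Agent.R281.Qt_922

noncomputable section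

variable {E : Type*} [NormedAddCommGroup E] [NormedSpace ℝ E]

/-- data of a strip -/
structure Strip2 (U : Set E) (c0 c1 c0' c1' : ℝ → E) : Prop where
  d0 : ∀ t ∈ Icc (0 : ℝ) 1, HasDerivAt c0 (c0' t) t
  d1 : ∀ t ∈ Icc (0 : ℝ) 1, HasDerivAt c1 (c1' t) t
  k0 : ContinuousOn c0' (Icc 0 1)
  k1 : ContinuousOn c1' (Icc 0 1)
  mem : ∀ s ∈ Icc (0 : ℝ) 1, ∀ t ∈ Icc (0 : ℝ) 1, c0 t + s • (c1 t - c0 t) ∈ U

variable {U : Set E} {c0 c1 c0' c1' : ℝ → E}

theorem strip_stokes (hU : IsOpen U) {μ : E → E →L[ℝ] ℝ} (hμ : ContDiffOn ℝ 1 μ U)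
    (h : Strip2 U c0 c1 c0' c1') :
    (∫ t in (0:ℝ)..1, μ (c1 t) (c1' t)) - (∫ t in (0:ℝ)..1, μ (c0 t) (c0' t)) =
      (∫ s in (0:ℝ)..1, ∫ t in (0:ℝ)..1,
        (fderiv ℝ μ (c0 t + s • (c1 t - c0 t)) (c1 t - c0 t) (c0' t + s • (c1' t - c0' t)) -
          fderiv ℝ μ (c0 t + s • (c1 t - c0 t)) (c0' t + s • (c1' t - c0' t)) (c1 t - c0 t))) +
      ((∫ s in (0:ℝ)..1, μ (c0 1 + s • (c1 1 - c0 1)) (c1 1 - c0 1)) -
        ∫ s in (0:ℝ)..1, μ (c0 0 + s • (c1 0 - c0 0)) (c1 0 - c0 0)) := by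
  set c : ℝ → ℝ → E := fun s t => c0 t + s • (c1 t - c0 t) with hc
  set A : ℝ → ℝ → ℝ := fun s t =>
    fderiv ℝ μ (c s t) (c1 t - c0 t) (c0' t + s • (c1' t - c0' t)) + μ (c s t) (c1' t - c0' t)
    with hA
  set B : ℝ → ℝ → ℝ := fun s t =>
    fderiv ℝ μ (c s t) (c0' t + s • (c1' t - c0' t)) (c1 t - c0 t) + μ (c s t) (c1' t - c0' t)
    with hB
  have kc0 : ContinuousOn c0 (Icc 0 1) := fun t ht => (h.d0 t ht).continuousAt.continuousWithinAt
  have kc1 : ContinuousOn c1 (Icc 0 1) := fun t ht => (h.d1 t ht).continuousAt.continuousWithinAt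
  have f1 : ContinuousOn (fun p : ℝ × ℝ => p.1) (Icc (0 : ℝ) 1 ×ˢ Icc (0 : ℝ) 1) :=
    continuous_fst.continuousOn
  have g0 : ContinuousOn (fun p : ℝ × ℝ => c0 p.2) (Icc (0 : ℝ) 1 ×ˢ Icc (0 : ℝ) 1) :=
    kc0.comp continuous_snd.continuousOn fun p hp => hp.2
  have g1 : ContinuousOn (fun p : ℝ × ℝ => c1 p.2) (Icc (0 : ℝ) 1 ×ˢ Icc (0 : ℝ) 1) :=
    kc1.comp continuous_snd.continuousOn fun p hp => hp.2
  have g0' : ContinuousOn (fun p : ℝ × ℝ => c0' p.2) (Icc (0 : ℝ) 1 ×ˢ Icc (0 : ℝ) 1) :=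
    h.k0.comp continuous_snd.continuousOn fun p hp => hp.2
  have g1' : ContinuousOn (fun p : ℝ × ℝ => c1' p.2) (Icc (0 : ℝ) 1 ×ˢ Icc (0 : ℝ) 1) :=
    h.k1.comp continuous_snd.continuousOn fun p hp => hp.2
  have hcc : ContinuousOn (fun p : ℝ × ℝ => c p.1 p.2) (Icc (0 : ℝ) 1 ×ˢ Icc (0 : ℝ) 1) :=
    g0.add (f1.smul (g1.sub g0))
  have hmem : MapsTo (fun p : ℝ × ℝ => c p.1 p.2) (Icc (0 : ℝ) 1 ×ˢ Icc (0 : ℝ) 1) U :=
    fun p hp => h.mem p.1 hp.1 p.2 hp.2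
  have kμ : ContinuousOn μ U := hμ.continuousOn
  have kdμ : ContinuousOn (fderiv ℝ μ) U := hμ.continuousOn_fderiv_of_isOpen hU le_rfl
  have m1 : ContinuousOn (fun p : ℝ × ℝ => μ (c p.1 p.2)) (Icc (0 : ℝ) 1 ×ˢ Icc (0 : ℝ) 1) :=
    kμ.comp hcc hmem
  have m2 : ContinuousOn (fun p : ℝ × ℝ => fderiv ℝ μ (c p.1 p.2))
      (Icc (0 : ℝ) 1 ×ˢ Icc (0 : ℝ) 1) := kdμ.comp hcc hmem
  have vt : ContinuousOn (fun p : ℝ × ℝ => c0' p.2 + p.1 • (c1' p.2 - c0' p.2))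
      (Icc (0 : ℝ) 1 ×ˢ Icc (0 : ℝ) 1) := g0'.add (f1.smul (g1'.sub g0'))
  have hAc : ContinuousOn (fun p : ℝ × ℝ => A p.1 p.2) (Icc (0 : ℝ) 1 ×ˢ Icc (0 : ℝ) 1) :=
    ((m2.clm_apply (g1.sub g0)).clm_apply vt).add (m1.clm_apply (g1'.sub g0'))
  have hBc : ContinuousOn (fun p : ℝ × ℝ => B p.1 p.2) (Icc (0 : ℝ) 1 ×ˢ Icc (0 : ℝ) 1) :=
    ((m2.clm_apply vt).clm_apply (g1.sub g0)).add (m1.clm_apply (g1'.sub g0'))
  have hμd : ∀ z ∈ U, HasFDerivAt μ (fderiv ℝ μ z) z := fun z hz =>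
    ((hμ.contDiffAt (hU.mem_nhds hz)).differentiableAt (by simp)).hasFDerivAt
  -- derivative in `s`
  have hs : ∀ t ∈ Icc (0 : ℝ) 1, ∀ s ∈ Icc (0 : ℝ) 1,
      HasDerivAt (fun s => μ (c s t) (c0' t + s • (c1' t - c0' t))) (A s t) s := by
    intro t ht s hs
    have e1 : HasDerivAt (fun s : ℝ => c s t) (c1 t - c0 t) s := by
      have := ((hasDerivAt_id s).smul_const (c1 t - c0 t)).const_add (c0 t)
      simpa [hc] using this
    have e2 : HasDerivAt (fun s : ℝ => c0' t + s • (c1' t - c0' t)) (c1' t - c0' t) s := by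
      have := ((hasDerivAt_id s).smul_const (c1' t - c0' t)).const_add (c0' t)
      simpa using this
    have e3 : HasDerivAt (fun s : ℝ => μ (c s t)) (fderiv ℝ μ (c s t) (c1 t - c0 t)) s :=
      (hμd _ (h.mem s hs t ht)).comp_hasDerivAt s e1
    exact e3.clm_apply e2
  have ht : ∀ s ∈ Icc (0 : ℝ) 1, ∀ t ∈ Icc (0 : ℝ) 1,
      HasDerivAt (fun t => μ (c s t) (c1 t - c0 t)) (B s t) t := by
    intro s hs t ht
    have e1 : HasDerivAt (fun t : ℝ => c s t) (c0' t + s • (c1' t - c0' t)) t :=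
      (h.d0 t ht).add (((h.d1 t ht).sub (h.d0 t ht)).const_smul s)
    have e3 : HasDerivAt (fun t : ℝ => μ (c s t))
        (fderiv ℝ μ (c s t) (c0' t + s • (c1' t - c0' t))) t :=
      (hμd _ (h.mem s hs t ht)).comp_hasDerivAt t e1
    exact e3.clm_apply ((h.d1 t ht).sub (h.d0 t ht))
  have u01 : uIcc (0 : ℝ) 1 = Icc 0 1 := uIcc_of_le zero_le_one
  have iA : ∀ t ∈ Icc (0 : ℝ) 1, IntervalIntegrable (fun s => A s t) volume 0 1 := by
    intro t ht
    refine ContinuousOn.intervalIntegrable ?_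
    rw [u01]
    exact hAc.comp (f := fun s : ℝ => (s, t)) (by fun_prop) fun s hs => ⟨hs, ht⟩
  have iB : ∀ s ∈ Icc (0 : ℝ) 1, IntervalIntegrable (fun t => B s t) volume 0 1 := by
    intro s hs
    refine ContinuousOn.intervalIntegrable ?_
    rw [u01]
    exact hBc.comp (f := fun t : ℝ => (s, t)) (by fun_prop) fun t ht => ⟨hs, ht⟩
  have iA' : ∀ s ∈ Icc (0 : ℝ) 1, IntervalIntegrable (fun t => A s t) volume 0 1 := by
    intro s hs
    refine ContinuousOn.intervalIntegrable ?_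
    rw [u01]
    exact hAc.comp (f := fun t : ℝ => (s, t)) (by fun_prop) fun t ht => ⟨hs, ht⟩
  have F1 : ∀ t ∈ Icc (0 : ℝ) 1,
      (∫ s in (0:ℝ)..1, A s t) = μ (c1 t) (c1' t) - μ (c0 t) (c0' t) := by
    intro t ht
    rw [integral_eq_sub_of_hasDerivAt (f := fun s => μ (c s t) (c0' t + s • (c1' t - c0' t)))
      (fun s hs' => hs t ht s (by rwa [u01] at hs')) (iA t ht)]
    simp [hc]
  have F2 : ∀ s ∈ Icc (0 : ℝ) 1,
      (∫ t in (0:ℝ)..1, B s t) = μ (c s 1) (c1 1 - c0 1) - μ (c s 0) (c1 0 - c0 0) := by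
    intro s hs
    rw [integral_eq_sub_of_hasDerivAt (f := fun t => μ (c s t) (c1 t - c0 t))
      (fun t ht' => ht s hs t (by rwa [u01] at ht')) (iB s hs)]
  have sw : (∫ t in (0:ℝ)..1, ∫ s in (0:ℝ)..1, A s t) = ∫ s in (0:ℝ)..1, ∫ t in (0:ℝ)..1, A s t := by
    refine (intervalIntegral_intervalIntegral_swap ?_).symm
    have h1 : IntegrableOn (fun p : ℝ × ℝ => A p.1 p.2) (Icc (0 : ℝ) 1 ×ˢ Icc (0 : ℝ) 1) :=
      hAc.integrableOn_compact (isCompact_Icc.prod isCompact_Icc)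
    rw [uIoc_of_le zero_le_one]
    exact h1.mono_set (prod_mono Ioc_subset_Icc_self Ioc_subset_Icc_self)
  have hint1 : IntervalIntegrable (fun t => μ (c1 t) (c1' t)) volume 0 1 := by
    refine ContinuousOn.intervalIntegrable ?_
    rw [u01]
    have h2 : ContinuousOn (fun t => μ (c1 t)) (Icc (0 : ℝ) 1) := by
      refine kμ.comp kc1 fun t ht => ?_
      have := h.mem 1 ⟨zero_le_one, le_rfl⟩ t ht
      simpa using this
    exact h2.clm_apply h.k1
  have hint0 : IntervalIntegrable (fun t => μ (c0 t) (c0' t)) volume 0 1 := by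
    refine ContinuousOn.intervalIntegrable ?_
    rw [u01]
    have h2 : ContinuousOn (fun t => μ (c0 t)) (Icc (0 : ℝ) 1) := by
      refine kμ.comp kc0 fun t ht => ?_
      have := h.mem 0 ⟨le_rfl, zero_le_one⟩ t ht
      simpa using this
    exact h2.clm_apply h.k0
  have G1 : (∫ t in (0:ℝ)..1, μ (c1 t) (c1' t)) - (∫ t in (0:ℝ)..1, μ (c0 t) (c0' t)) =
      ∫ s in (0:ℝ)..1, ∫ t in (0:ℝ)..1, A s t := by
    rw [← sw, ← integral_sub hint1 hint0]
    refine integral_congr fun t ht' => ?_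
    rw [u01] at ht'
    exact (F1 t ht').symm
  have cB : ContinuousOn (fun s => ∫ t in (0:ℝ)..1, B s t) (Icc 0 1) := by
    have h3 : ContinuousOn (fun s => μ (c s 1) (c1 1 - c0 1) - μ (c s 0) (c1 0 - c0 0))
        (Icc (0 : ℝ) 1) := by
      refine ContinuousOn.sub ?_ ?_
      · exact (m1.comp (f := fun s : ℝ => (s, (1 : ℝ))) (by fun_prop)
          fun s hs => ⟨hs, ⟨zero_le_one, le_rfl⟩⟩).clm_apply continuousOn_const
      · exact (m1.comp (f := fun s : ℝ => (s, (0 : ℝ))) (by fun_prop)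
          fun s hs => ⟨hs, ⟨le_rfl, zero_le_one⟩⟩).clm_apply continuousOn_const
    exact h3.congr fun s hs => F2 s hs
  have e1i : IntervalIntegrable (fun s => μ (c s 1) (c1 1 - c0 1)) volume 0 1 := by
    refine ContinuousOn.intervalIntegrable ?_
    rw [u01]
    exact (m1.comp (f := fun s : ℝ => (s, (1 : ℝ))) (by fun_prop)
          fun s hs => ⟨hs, ⟨zero_le_one, le_rfl⟩⟩).clm_apply continuousOn_const
  have e0i : IntervalIntegrable (fun s => μ (c s 0) (c1 0 - c0 0)) volume 0 1 := by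
    refine ContinuousOn.intervalIntegrable ?_
    rw [u01]
    exact (m1.comp (f := fun s : ℝ => (s, (0 : ℝ))) (by fun_prop)
          fun s hs => ⟨hs, ⟨le_rfl, zero_le_one⟩⟩).clm_apply continuousOn_const
  have G2 : (∫ s in (0:ℝ)..1, ∫ t in (0:ℝ)..1, B s t) =
      (∫ s in (0:ℝ)..1, μ (c s 1) (c1 1 - c0 1)) - ∫ s in (0:ℝ)..1, μ (c s 0) (c1 0 - c0 0) := by
    rw [← integral_sub e1i e0i]
    refine integral_congr fun s hs' => ?_
    rw [u01] at hs'
    exact F2 s hs'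
  have hAB : ∀ s ∈ Icc (0 : ℝ) 1, (∫ t in (0:ℝ)..1, A s t) - (∫ t in (0:ℝ)..1, B s t) =
      ∫ t in (0:ℝ)..1,
        (fderiv ℝ μ (c s t) (c1 t - c0 t) (c0' t + s • (c1' t - c0' t)) -
          fderiv ℝ μ (c s t) (c0' t + s • (c1' t - c0' t)) (c1 t - c0 t)) := by
    intro s hs
    rw [← integral_sub (iA' s hs) (iB s hs)]
    refine integral_congr fun t _ => ?_
    simp only [hA, hB]; ring
  have cA : IntervalIntegrable (fun s => ∫ t in (0:ℝ)..1, A s t) volume 0 1 := by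
    have h1 : IntegrableOn (fun p : ℝ × ℝ => A p.1 p.2) (Icc (0 : ℝ) 1 ×ˢ Icc (0 : ℝ) 1) :=
      hAc.integrableOn_compact (isCompact_Icc.prod isCompact_Icc)
    have h2 : Integrable (fun p : ℝ × ℝ => A p.1 p.2)
        ((volume.restrict (Ioc (0 : ℝ) 1)).prod (volume.restrict (Ioc (0 : ℝ) 1))) := by
      rw [Measure.prod_restrict]
      exact h1.mono_set (prod_mono Ioc_subset_Icc_self Ioc_subset_Icc_self)
    rw [intervalIntegrable_iff_integrableOn_Ioc_of_le zero_le_one]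
    have h3 := h2.integral_prod_left
    show Integrable _ _
    simpa only [integral_of_le zero_le_one] using h3
  rw [G1, ← G2, ← sub_eq_iff_eq_add, ← intervalIntegral.integral_sub cA
    (ContinuousOn.intervalIntegrable (by rwa [u01]))]
  refine integral_congr fun s hs' => ?_
  rw [u01] at hs'
  exact hAB s hs'

end

end Crest.Agent.R281.Qt_922
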