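import Crest.Agent.R281.Qt2_922
import Crest.Agent.R281.Mc5_673

/-!
# R281 (S0424), QTUBE (helper922), part 3: the flux

`exists_flux` : for a closed periodic 2-form on the tube `|v| < r` there are functionals
`Fl k` on `C^1` periodic graphs whose differences are the integrals over the strips.
-/

set_option autoImplicit false
set_option maxSynthPendingDepth 3

open Set Metric Filter Topology MeasureTheory intervalIntegral
open scoped ContDiff

namespace Crest.Agent.R281.Qt_922

open Crest.Agent.R281.Mc673 Crest.Agent.R281.Poi_234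
open Crest.Agent.R238.Sch (ee norm_ee)

noncomputable section

variable {N : ℕ}

/-- a `C^1` periodic graph in the tube -/
structure Gr (r : ℝ) (b : V N → V N) : Prop where
  c1 : ContDiff ℝ 1 b
  per : Per b
  lt : ∀ θ, ‖b θ‖ < r

theorem kv_single (k : Fin N) : kv (Pi.single k 1) = ee k := by
  ext j
  show ((Pi.single k 1 : Fin N → ℤ) j : ℝ) = (EuclideanSpace.single k (1 : ℝ) : V N) j
  rw [PiLp.single_apply, Pi.single_apply]
  split <;> simp

theorem convex_tube (r : ℝ) : Convex ℝ (tube N r) := by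
  have : tube N r = (ContinuousLinearMap.snd ℝ (V N) (V N)) ⁻¹' ball 0 r := by
    ext p; simp [tube]
  rw [this]
  exact (convex_ball _ _).linear_preimage (ContinuousLinearMap.snd ℝ (V N) (V N)).toLinearMap

/-- the curve over the `k`-th circle -/
def cu (b : V N → V N) (k : Fin N) (t : ℝ) : W N := (t • ee k, b (t • ee k))

/-- its velocity -/
def cu' (b : V N → V N) (k : Fin N) (t : ℝ) : W N := (ee k, fderiv ℝ b (t • ee k) (ee k))

/-- the integrand of the strip -/
def st (w : Fo N) (b0 b1 : V N → V N) (k : Fin N) (s t : ℝ) : ℝ :=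
  w (t • ee k, b0 (t • ee k) + s • (b1 (t • ee k) - b0 (t • ee k)))
    (0, b1 (t • ee k) - b0 (t • ee k))
    (ee k, fderiv ℝ b0 (t • ee k) (ee k) +
      s • (fderiv ℝ b1 (t • ee k) (ee k) - fderiv ℝ b0 (t • ee k) (ee k)))

variable {r : ℝ} {w : Fo N} {b b0 b1 : V N → V N}

theorem hasDerivAt_cu (hb : ContDiff ℝ 1 b) (k : Fin N) (t : ℝ) :
    HasDerivAt (cu b k) (cu' b k t) t := by
  have h1 : HasDerivAt (fun t : ℝ => t • (ee k : V N)) (ee k) t := by
    simpa using (hasDerivAt_id t).smul_const (ee k : V N)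
  exact h1.prodMk (((hb.differentiable (by simp)) _).hasFDerivAt.comp_hasDerivAt t h1)

theorem continuous_cu' (hb : ContDiff ℝ 1 b) (k : Fin N) : Continuous (cu' b k) := by
  have h1 : Continuous fun t : ℝ => t • (ee k : V N) := by fun_prop
  exact continuous_const.prodMk
    (((hb.continuous_fderiv (by simp)).comp h1).clm_apply continuous_const)

theorem gr_seg (h0 : Gr r b0) (h1 : Gr r b1) {s : ℝ} (hs : s ∈ Icc (0 : ℝ) 1) (θ : V N) :
    ‖b0 θ + s • (b1 θ - b0 θ)‖ < r := by
  have h2 : b0 θ + s • (b1 θ - b0 θ) = (1 - s) • b0 θ + s • b1 θ := by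
    rw [smul_sub, sub_smul, one_smul]; abel
  have h3 : b0 θ + s • (b1 θ - b0 θ) ∈ ball (0 : V N) r := by
    rw [h2]
    exact (convex_ball (0 : V N) r) (by simpa using h0.lt θ) (by simpa using h1.lt θ)
      (by linarith [hs.2]) hs.1 (by ring)
  simpa using h3

theorem strip2 (h0 : Gr r b0) (h1 : Gr r b1) (k : Fin N) :
    Strip2 (tube N r) (cu b0 k) (cu b1 k) (cu' b0 k) (cu' b1 k) where
  d0 t _ := hasDerivAt_cu h0.c1 k t
  d1 t _ := hasDerivAt_cu h1.c1 k t
  k0 := (continuous_cu' h0.c1 k).continuousOn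
  k1 := (continuous_cu' h1.c1 k).continuousOn
  mem s hs t _ := by
    show ‖(cu b0 k t + s • (cu b1 k t - cu b0 k t)).2‖ < r
    exact gr_seg h0 h1 hs _

theorem exists_flux (hw : ClF r w) : ∃ Fl : Fin N → (V N → V N) → ℝ, ∀ k, ∀ b0 b1 : V N → V N,
    Gr r b0 → Gr r b1 →
    Fl k b1 - Fl k b0 = ∫ s in (0:ℝ)..1, ∫ t in (0:ℝ)..1, st w b0 b1 k s t := by
  obtain ⟨μ, hμs, hμ⟩ := poincare2 (isOpen_tube r) (convex_tube r) hw.sm
    (fun z hz v => by have := hw.alt z hz v v; linarith) hw.cl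
  have hμ1 : ContDiffOn ℝ 1 μ (tube N r) := hμs.of_le (by exact_mod_cast le_top)
  have hshift : ∀ k : Fin N, ∀ z ∈ tube N r, z + ((ee k, 0) : W N) ∈ tube N r := by
    intro k z hz
    show ‖(z + ((ee k, 0) : W N)).2‖ < r
    rw [Prod.snd_add, add_zero]
    exact hz
  have hper : ∀ k : Fin N, ∀ z ∈ tube N r, w (z + ((ee k, 0) : W N)) = w z := by
    intro k z hz
    have := hw.per (Pi.single k 1) z hz
    rw [kv_single] at this
    rw [← this]
    congr 1
    ext1 <;> simp
  have hd : ∀ z ∈ tube N r, DifferentiableAt ℝ μ z := fun z hz =>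
    (hμ1.contDiffAt ((isOpen_tube r).mem_nhds hz)).differentiableAt (by simp)
  have hν : ∀ k : Fin N, ∃ g : W N → ℝ, ∀ z ∈ tube N r,
      HasFDerivAt g (μ (z + ((ee k, 0) : W N)) - μ z) z := by
    intro k
    refine poincare1 (isOpen_tube r) (convex_tube r)
      (θ := fun z => μ (z + ((ee k, 0) : W N)) - μ z) ?_ ?_
    · exact (hμs.comp (contDiff_id.add contDiff_const).contDiffOn
        (fun z hz => hshift k z hz)).sub hμs
    · intro z hz v u
      have e1 : fderiv ℝ (fun z => μ (z + ((ee k, 0) : W N)) - μ z) z =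
          fderiv ℝ μ (z + ((ee k, 0) : W N)) - fderiv ℝ μ z := by
        have e2 : HasFDerivAt (fun z : W N => μ (z + ((ee k, 0) : W N)))
            (fderiv ℝ μ (z + ((ee k, 0) : W N))) z := by
          have := HasFDerivAt.comp (g := μ) (f := fun z : W N => z + ((ee k, 0) : W N)) z
            (hd _ (hshift k z hz)).hasFDerivAt ((hasFDerivAt_id z).add_const ((ee k, 0) : W N))
          rw [ContinuousLinearMap.comp_id] at this
          exact this
        exact (e2.sub (hd z hz).hasFDerivAt).fderiv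
      rw [e1]
      have e3 := hμ _ (hshift k z hz) v u
      have e4 := hμ z hz v u
      rw [hper k z hz, ← e4] at e3
      simp only [_root_.sub_apply]
      linarith
  choose g hg using hν
  refine ⟨fun k b => (∫ t in (0:ℝ)..1, μ (cu b k t) (cu' b k t)) - g k (0, b 0), ?_⟩
  intro k b0 b1 h0 h1
  have key := strip_stokes (isOpen_tube r) hμ1 (strip2 h0 h1 k)
  -- the boundary terms
  have hb : ∀ s ∈ Icc (0 : ℝ) 1,
      ((0 : V N), b0 0 + s • (b1 0 - b0 0)) ∈ tube N r := fun s hs => gr_seg h0 h1 hs 0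
  have hE : (∫ s in (0:ℝ)..1, μ (cu b0 k 1 + s • (cu b1 k 1 - cu b0 k 1))
        (cu b1 k 1 - cu b0 k 1)) -
      (∫ s in (0:ℝ)..1, μ (cu b0 k 0 + s • (cu b1 k 0 - cu b0 k 0)) (cu b1 k 0 - cu b0 k 0)) =
      g k (0, b1 0) - g k (0, b0 0) := by
    have p1 : ∀ {b : V N → V N}, Per b → b (ee k) = b 0 := by
      intro b hb
      have := hb (Pi.single k 1) 0
      rwa [kv_single, zero_add] at this
    have q1 : ∀ s : ℝ, cu b0 k 1 + s • (cu b1 k 1 - cu b0 k 1) =
        (((0 : V N), b0 0 + s • (b1 0 - b0 0)) : W N) + ((ee k, 0) : W N) := by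
      intro s
      simp only [cu, one_smul, p1 h0.per, p1 h1.per]
      ext1 <;> simp
    have q2 : ∀ s : ℝ, cu b0 k 0 + s • (cu b1 k 0 - cu b0 k 0) =
        (((0 : V N), b0 0 + s • (b1 0 - b0 0)) : W N) := by
      intro s
      simp only [cu, zero_smul]
      ext1 <;> simp
    have q3 : cu b1 k 1 - cu b0 k 1 = ((0, b1 0 - b0 0) : W N) := by
      simp only [cu, one_smul, p1 h0.per, p1 h1.per]
      ext1 <;> simp
    have q4 : cu b1 k 0 - cu b0 k 0 = ((0, b1 0 - b0 0) : W N) := by
      simp only [cu, zero_smul]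
      ext1 <;> simp
    have r1 : (∫ s in (0:ℝ)..1, μ (cu b0 k 1 + s • (cu b1 k 1 - cu b0 k 1))
        (cu b1 k 1 - cu b0 k 1)) = ∫ s in (0:ℝ)..1,
        μ ((((0 : V N), b0 0 + s • (b1 0 - b0 0)) : W N) + ((ee k, 0) : W N))
          ((0, b1 0 - b0 0) : W N) :=
      intervalIntegral.integral_congr fun s _ => by
        show μ (cu b0 k 1 + s • (cu b1 k 1 - cu b0 k 1)) (cu b1 k 1 - cu b0 k 1) = _
        rw [q1 s, q3]
    have r2 : (∫ s in (0:ℝ)..1, μ (cu b0 k 0 + s • (cu b1 k 0 - cu b0 k 0))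
        (cu b1 k 0 - cu b0 k 0)) = ∫ s in (0:ℝ)..1,
        μ ((((0 : V N), b0 0 + s • (b1 0 - b0 0)) : W N)) ((0, b1 0 - b0 0) : W N) :=
      intervalIntegral.integral_congr fun s _ => by
        show μ (cu b0 k 0 + s • (cu b1 k 0 - cu b0 k 0)) (cu b1 k 0 - cu b0 k 0) = _
        rw [q2 s, q4]
    rw [r1, r2]
    have hc : Continuous fun s : ℝ => (((0 : V N), b0 0 + s • (b1 0 - b0 0)) : W N) := by
      fun_prop
    have c1 : ContinuousOn (fun s : ℝ => μ ((((0 : V N), b0 0 + s • (b1 0 - b0 0)) : W N)))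
        (Icc 0 1) := hμ1.continuousOn.comp hc.continuousOn fun s hs => hb s hs
    have c2 : ContinuousOn (fun s : ℝ => μ ((((0 : V N), b0 0 + s • (b1 0 - b0 0)) : W N) +
        ((ee k, 0) : W N))) (Icc 0 1) :=
      hμ1.continuousOn.comp (hc.add continuous_const).continuousOn
        fun s hs => hshift k _ (hb s hs)
    have u01 : uIcc (0 : ℝ) 1 = Icc 0 1 := uIcc_of_le zero_le_one
    rw [← intervalIntegral.integral_sub
      (by rw [← u01] at c2; exact (c2.clm_apply continuousOn_const).intervalIntegrable)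
      (by rw [← u01] at c1; exact (c1.clm_apply continuousOn_const).intervalIntegrable)]
    have hder : ∀ s ∈ uIcc (0 : ℝ) 1,
        HasDerivAt (fun s : ℝ => g k (((0 : V N), b0 0 + s • (b1 0 - b0 0)) : W N))
          (μ ((((0 : V N), b0 0 + s • (b1 0 - b0 0)) : W N) + ((ee k, 0) : W N))
              ((0, b1 0 - b0 0) : W N) -
            μ ((((0 : V N), b0 0 + s • (b1 0 - b0 0)) : W N)) ((0, b1 0 - b0 0) : W N)) s := by
      intro s hs
      rw [u01] at hs
      have e1 : HasDerivAt (fun s : ℝ => (((0 : V N), b0 0 + s • (b1 0 - b0 0)) : W N))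
          ((0, b1 0 - b0 0) : W N) s := by
        refine (hasDerivAt_const s (0 : V N)).prodMk ?_
        simpa using ((hasDerivAt_id s).smul_const (b1 0 - b0 0)).const_add (b0 0)
      exact (hg k _ (hb s hs)).comp_hasDerivAt s e1
    rw [intervalIntegral.integral_eq_sub_of_hasDerivAt hder]
    · simp
    · rw [← u01] at c1 c2
      exact ((c2.clm_apply continuousOn_const).sub
        (c1.clm_apply continuousOn_const)).intervalIntegrable
  have hS : (∫ s in (0:ℝ)..1, ∫ t in (0:ℝ)..1,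
        (fderiv ℝ μ (cu b0 k t + s • (cu b1 k t - cu b0 k t)) (cu b1 k t - cu b0 k t)
            (cu' b0 k t + s • (cu' b1 k t - cu' b0 k t)) -
          fderiv ℝ μ (cu b0 k t + s • (cu b1 k t - cu b0 k t))
            (cu' b0 k t + s • (cu' b1 k t - cu' b0 k t)) (cu b1 k t - cu b0 k t))) =
      ∫ s in (0:ℝ)..1, ∫ t in (0:ℝ)..1, st w b0 b1 k s t := by
    refine intervalIntegral.integral_congr fun s hs => ?_
    refine intervalIntegral.integral_congr fun t _ => ?_
    rw [uIcc_of_le zero_le_one] at hs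
    have m1 := (strip2 h0 h1 k).mem
    have q5 : cu b0 k t + s • (cu b1 k t - cu b0 k t) =
        (t • ee k, b0 (t • ee k) + s • (b1 (t • ee k) - b0 (t • ee k))) := by
      simp only [cu]; ext1 <;> simp
    have q6 : cu b1 k t - cu b0 k t = ((0, b1 (t • ee k) - b0 (t • ee k)) : W N) := by
      simp only [cu]; ext1 <;> simp
    have q7 : cu' b0 k t + s • (cu' b1 k t - cu' b0 k t) = (ee k, fderiv ℝ b0 (t • ee k) (ee k) +
      s • (fderiv ℝ b1 (t • ee k) (ee k) - fderiv ℝ b0 (t • ee k) (ee k))) := by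
      simp only [cu']; ext1 <;> simp
    have hz : (cu b0 k t + s • (cu b1 k t - cu b0 k t)) ∈ tube N r := by
      rw [q5]; exact gr_seg h0 h1 hs _
    show _ = st w b0 b1 k s t
    rw [hμ _ hz, q5, q6, q7]
    rfl
  rw [hE, hS] at key
  linarith

end

end Crest.Agent.R281.Qt_922
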