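import Crest.Agent.R281.Tub6_57

/-!
# R281 (S0424), TUBE-HOL (helper57), part 7: the input of LAGT (helper673), the literal output
-/

set_option autoImplicit false
set_option linter.unusedSectionVars false

open Set Filter Topology
open scoped ContDiff NNReal

namespace Crest.Agent.R281.Tub_57

open Poi_234

noncomputable section

variable {N : ℕ}

variable {r : ℝ} {x y : Fo N} {I : VN N × VN N → (VN N × VN N) →L[ℝ] (VN N × VN N)}

theorem near_id_open {f : VN N → VN N} {B : Set (VN N)} (hB : IsOpen B)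
    (h : ∀ c ∈ B, ∀ c' ∈ B, ‖f c - f c' - (c - c')‖ ≤ 1 / 2 * ‖c - c'‖) : IsOpen (f '' B) := by
  have h1 : ApproximatesLinearOn f (ContinuousLinearMap.id ℝ (VN N)) B (1 / 2 : ℝ≥0) := by
    intro c hc c' hc'
    simpa using h c hc c' hc'
  refine h1.open_image ⟨id, 1, fun _ => by simp, fun _ => rfl⟩ hB (Or.inr ?_)
  show (1 / 2 : ℝ≥0) < (1 : ℝ≥0)⁻¹
  rw [inv_one]
  exact NNReal.half_lt_self one_ne_zero

/-- the input (helper673's LAGT): a near-identity family of isotropic graphs -/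
structure Inp (r : ℝ) (x y : Fo N) (B : Set (VN N)) (a : VN N → VN N → VN N) : Prop where
  Bo : IsOpen B
  leaf : ∀ c ∈ B, Leaf r x y (a c)
  near : ∀ c ∈ B, ∀ c' ∈ B, ∀ θ, ‖a c θ - a c' θ - (c - c')‖ ≤ 1 / 2 * ‖c - c'‖
  dnear : ∀ c ∈ B, ∀ c' ∈ B, ∀ θ, ‖fderiv ℝ (a c) θ - fderiv ℝ (a c') θ‖ ≤ ‖c - c'‖

namespace Inp

variable {B : Set (VN N)} {a : VN N → VN N → VN N} (H : Inp r x y B a)
include H

theorem up {c c' θ : VN N} (hc : c ∈ B) (hc' : c' ∈ B) : ‖a c θ - a c' θ‖ ≤ 3 / 2 * ‖c - c'‖ := by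
  have h1 := H.near c hc c' hc' θ
  calc ‖a c θ - a c' θ‖ = ‖(a c θ - a c' θ - (c - c')) + (c - c')‖ := by congr 1; abel
    _ ≤ _ := norm_add_le _ _
    _ ≤ 3 / 2 * ‖c - c'‖ := by linarith

theorem lo {c c' θ : VN N} (hc : c ∈ B) (hc' : c' ∈ B) : ‖c - c'‖ ≤ 2 * ‖a c θ - a c' θ‖ := by
  have h1 := H.near c hc c' hc' θ
  have h2 : ‖c - c'‖ ≤ ‖a c θ - a c' θ‖ + ‖a c θ - a c' θ - (c - c')‖ := by
    calc ‖c - c'‖ = ‖(a c θ - a c' θ) - (a c θ - a c' θ - (c - c'))‖ := by congr 1; abel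
      _ ≤ _ := norm_sub_le _ _
  linarith

theorem injc {c c' θ : VN N} (hc : c ∈ B) (hc' : c' ∈ B) (h : a c θ = a c' θ) : c = c' := by
  have h1 := H.lo (θ := θ) hc hc'
  rw [h, sub_self, norm_zero, mul_zero] at h1
  exact sub_eq_zero.1 (norm_le_zero_iff.1 h1)

/-- **reparametrisation by the value at `0`** -/
theorem toLF : ∃ cs : VN N → VN N, (∀ c ∈ B, cs (a c 0) = c) ∧
    (∀ s ∈ (fun c => a c 0) '' B, cs s ∈ B ∧ a (cs s) 0 = s) ∧
    LF r x y ((fun c => a c 0) '' B) (fun s => a (cs s)) 3 ∧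
    OS ((fun c => a c 0) '' B) (fun s => a (cs s)) = {p | ∃ c ∈ B, a c p.1 = p.2} := by
  set S := (fun c => a c 0) '' B with hS
  have h1 : ∀ s ∈ S, ∃ c ∈ B, a c 0 = s := fun s hs => hs
  choose! cs hcB hcs using h1
  have h2 : ∀ c ∈ B, cs (a c 0) = c := fun c hc =>
    H.injc (hcB _ ⟨c, hc, rfl⟩) hc (hcs _ ⟨c, hc, rfl⟩)
  refine ⟨cs, h2, fun s hs => ⟨hcB s hs, hcs s hs⟩, ?_, ?_⟩
  · have hlo : ∀ s ∈ S, ∀ s' ∈ S, ‖cs s - cs s'‖ ≤ 2 * ‖s - s'‖ := by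
      intro s hs s' hs'
      have := H.lo (θ := 0) (hcB s hs) (hcB s' hs')
      rwa [hcs s hs, hcs s' hs'] at this
    refine ⟨by norm_num, near_id_open H.Bo fun c hc c' hc' => H.near c hc c' hc' 0,
      fun s hs => H.leaf _ (hcB s hs), fun s hs => hcs s hs, ?_, ?_, ?_, ?_⟩
    · intro s hs s' hs' θ
      have h3 := hlo s hs s' hs'
      exact (H.up (hcB s hs) (hcB s' hs')).trans (by linarith)
    · intro s hs s' hs' θ
      have h3 := hlo s hs s' hs'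
      have h4 := norm_nonneg (s - s')
      exact (H.dnear _ (hcB s hs) _ (hcB s' hs') θ).trans (by linarith)
    · intro s hs s' hs' θ
      have h3 := H.up (θ := 0) (hcB s hs) (hcB s' hs')
      rw [hcs s hs, hcs s' hs'] at h3
      have h4 := H.lo (θ := θ) (hcB s hs) (hcB s' hs')
      linarith
    · intro s hs θ
      have h3 : IsOpen ((fun c => a c θ) '' B) :=
        near_id_open H.Bo fun c hc c' hc' => H.near c hc c' hc' θ
      filter_upwards [h3.mem_nhds ⟨cs s, hcB s hs, rfl⟩] with v hv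
      obtain ⟨c, hc, hcv⟩ := hv
      refine ⟨a c 0, ⟨c, hc, rfl⟩, ?_⟩
      simp only at hcv ⊢
      rw [h2 c hc, hcv]
  · ext p
    constructor
    · rintro ⟨s, hs, h⟩
      exact ⟨cs s, hcB s hs, h⟩
    · rintro ⟨c, hc, h⟩
      refine ⟨a c 0, ⟨c, hc, rfl⟩, ?_⟩
      simp only
      rw [h2 c hc, h]

end Inp

/-- **OUTPUT of (A)(B)(C), literal form.** `A s`, `s ∈ S`, is the family of leaves normalised by
`A s 0 = s`; `M s θ = ∂A/∂s (θ)`; `J s` is the complex structure of the parameter space. -/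
structure Out (r : ℝ) (x y : Fo N) (I : VN N × VN N → (VN N × VN N) →L[ℝ] (VN N × VN N))
    (S : Set (VN N)) (A : VN N → VN N → VN N) (k : VN N × VN N → VN N)
    (M : VN N → VN N → VN N ≃L[ℝ] VN N) (J : VN N → VN N →L[ℝ] VN N) : Prop where
  So : IsOpen S
  Oo : IsOpen {p : VN N × VN N | ∃ s ∈ S, A s p.1 = p.2}
  sub : ∀ s ∈ S, ∀ θ, (θ, A s θ) ∈ tub N r
  sm : ∀ s ∈ S, ContDiff ℝ ∞ (A s)
  per : ∀ s ∈ S, Per (A s)
  norm : ∀ s ∈ S, A s 0 = s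
  ix : ∀ s ∈ S, Iso x (A s)
  iy : ∀ s ∈ S, Iso y (A s)
  /-- the tangent planes are complex -/
  tan : ∀ s ∈ S, ∀ θ w, I (θ, A s θ) (w, fderiv ℝ (A s) θ w) =
    (JJ I (A s) θ w, fderiv ℝ (A s) θ (JJ I (A s) θ w))
  JJ2 : ∀ s ∈ S, ∀ θ w, JJ I (A s) θ (JJ I (A s) θ w) = -w
  coord : ∀ s ∈ S, ∀ θ, HCoord (JJ I (A s)) θ
  /-- the leaf function -/
  kmem : ∀ p : VN N × VN N, (∃ s ∈ S, A s p.1 = p.2) → k p ∈ S ∧ A (k p) p.1 = p.2
  kgr : ∀ s ∈ S, ∀ θ, k (θ, A s θ) = s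
  /-- uniform strict differentiability in the parameter -/
  unif : ∀ s ∈ S, ∀ ε > 0, ∃ δ > 0, ∀ p ∈ S, ∀ q ∈ S, ‖p - s‖ < δ → ‖q - s‖ < δ → ∀ θ,
    ‖A p θ - A q θ - M s θ (p - q)‖ ≤ ε * ‖p - q‖
  Mper : ∀ s ∈ S, ∀ u, Per fun θ => M s θ u
  Mc : ∀ s ∈ S, Continuous fun θ => (M s θ : VN N →L[ℝ] VN N)
  M0 : ∀ s ∈ S, ∀ u, M s 0 u = u
  /-- joint strict differentiability of `(θ, s) ↦ A s θ` -/
  dA : ∀ s ∈ S, ∀ θ, HasStrictFDerivAt (fun z : VN N × VN N => A z.2 z.1)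
      ((fderiv ℝ (A s) θ).comp (ContinuousLinearMap.fst ℝ (VN N) (VN N)) +
        (M s θ : VN N →L[ℝ] VN N).comp (ContinuousLinearMap.snd ℝ (VN N) (VN N))) (θ, s)
  /-- strict differentiability of the leaf function -/
  dk : ∀ s ∈ S, ∀ θ, ∃ k' : (VN N × VN N) →L[ℝ] VN N, HasStrictFDerivAt k k' (θ, A s θ) ∧
    (∀ w, k' w = (M s θ).symm (w.2 - fderiv ℝ (A s) θ w.1)) ∧
    ∀ w, k' (I (θ, A s θ) w) = J s (k' w)
  J2 : ∀ s ∈ S, ∀ u, J s (J s u) = -u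
  /-- the closed forms `β_u = σ((0, M u), ·)` on the leaf, `β_{J u} = i β_u` -/
  bx : ∀ s ∈ S, ∀ u, ∃ U : VN N → ℝ, ∀ θ, HasFDerivAt U (ctr x (A s) (fun θ => M s θ u) θ) θ
  bby : ∀ s ∈ S, ∀ u, ∃ U : VN N → ℝ, ∀ θ, HasFDerivAt U (ctr y (A s) (fun θ => M s θ u) θ) θ
  bJx : ∀ s ∈ S, ∀ u θ, ctr x (A s) (fun θ => M s θ (J s u)) θ =
    - ctr y (A s) (fun θ => M s θ u) θ
  bJy : ∀ s ∈ S, ∀ u θ, ctr y (A s) (fun θ => M s θ (J s u)) θ =
    ctr x (A s) (fun θ => M s θ u) θ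
  /-- (C): a vertical field with exact contractions and periodic real primitive is zero -/
  inj : ∀ s ∈ S, ∀ (D : VN N → VN N) (U U' : VN N → ℝ), (∀ θ, HasFDerivAt U (ctr x (A s) D θ) θ) →
    (∀ θ, HasFDerivAt U' (ctr y (A s) D θ) θ) → Per U → D = 0
  /-- (C): all vertical fields with exact contractions are `M u` -/
  all : ∀ s ∈ S, ∀ D : VN N → VN N, Continuous D → Per D →
    (∃ U : VN N → ℝ, ∀ θ, HasFDerivAt U (ctr x (A s) D θ) θ) →
    (∃ U : VN N → ℝ, ∀ θ, HasFDerivAt U (ctr y (A s) D θ) θ) → ∀ θ, D θ = M s θ (D 0)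

theorem LF.out (G : Geo r x y I) {S : Set (VN N)} {A : VN N → VN N → VN N} {K : ℝ}
    (F : LF r x y S A K) : ∃ (M : VN N → VN N → VN N ≃L[ℝ] VN N) (J : VN N → VN N →L[ℝ] VN N),
      Out r x y I S A (kap S A) M J := by
  classical
  set M : VN N → VN N → VN N ≃L[ℝ] VN N := fun s θ =>
    if hs : s ∈ S then Ms G F hs θ else ContinuousLinearEquiv.refl ℝ (VN N) with hM
  have hMs : ∀ s (hs : s ∈ S) θ, M s θ = Ms G F hs θ := fun s hs θ => dif_pos hs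
  have hJ : ∀ s : VN N, ∃ J : VN N →L[ℝ] VN N, s ∈ S → (∀ u, J (J u) = -u) ∧
      ∀ (hs : s ∈ S) θ w, kd G F hs θ (I (θ, A s θ) w) = J (kd G F hs θ w) := by
    intro s
    by_cases hs : s ∈ S
    · obtain ⟨J, h1, h2⟩ := exists_Js G F hs
      exact ⟨J, fun _ => ⟨h1, fun _ => h2⟩⟩
    · exact ⟨0, fun h => absurd h hs⟩
  choose J hJ using hJ
  have hM' : ∀ s (hs : s ∈ S), (fun θ => (M s θ : VN N →L[ℝ] VN N)) =
      fun θ => (Ms G F hs θ : VN N →L[ℝ] VN N) := fun s hs => by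
    funext θ
    rw [hMs s hs]
  have hfield : ∀ s (hs : s ∈ S) u, ∃ E ∈ Hs x y (A s), E 0 = u ∧ (fun θ => M s θ u) = E := by
    intro s hs u
    obtain ⟨E, hE, h0, h1⟩ := exists_field0 G F hs u
    exact ⟨E, hE, h0, funext fun θ => by rw [hMs s hs]; exact h1 θ⟩
  have hiD : ∀ s (hs : s ∈ S) (E : VN N → VN N), E ∈ Hs x y (A s) → iD I (A s) E 0 = J s (E 0) := by
    intro s hs E hE
    have h1 := (hJ s hs).2 hs 0 (0, E 0)
    rw [kd_field G F hs hE] at h1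
    rw [← h1]
    have h5 := kd_field G F hs (iD_mem G (F.leaf s hs) hE) 0
    rw [iD_eq, map_sub] at h5
    have h6 : kd G F hs 0 ((I (0, A s 0) (0, E 0)).1,
        fderiv ℝ (A s) 0 (I (0, A s 0) (0, E 0)).1) = 0 := by
      rw [kd_ker]
    rw [h6, sub_zero] at h5
    exact h5.symm
  have hMJ : ∀ s (hs : s ∈ S) u, (fun θ => M s θ (J s u)) = iD I (A s) (fun θ => M s θ u) := by
    intro s hs u
    obtain ⟨E, hE, h0, h1⟩ := hfield s hs u
    obtain ⟨E', hE', h0', h1'⟩ := hfield s hs (J s u)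
    rw [h1, h1']
    have h2 := iD_mem G (F.leaf s hs) hE
    have h3 : (⟨E', hE'⟩ : Hs x y (A s)) = ⟨_, h2⟩ := by
      apply (ev_bij G F hs 0).1
      show E' 0 = iD I (A s) E 0
      rw [h0', hiD s hs E hE, h0]
    exact congrArg Subtype.val h3
  refine ⟨M, J, ⟨F.So, isOpen_OS G F, fun s hs => (F.leaf s hs).tub,
    fun s hs => leaf_smooth G (F.leaf s hs), fun s hs => (F.leaf s hs).per, F.norm,
    fun s hs => (F.leaf s hs).ix, fun s hs => (F.leaf s hs).iy,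
    fun s hs => leaf_I G (F.leaf s hs), fun s hs => leaf_J2 G (F.leaf s hs),
    fun s hs => leaf_coord G (F.leaf s hs), fun p hp => ⟨kap_mem hp, kap_spec hp⟩,
    fun s hs θ => F.kap_graph hs θ, ?_, ?_, ?_, ?_, ?_, ?_, fun s hs => (hJ s hs).1, ?_, ?_, ?_,
    ?_, ?_, ?_⟩⟩
  · intro s hs ε hε
    obtain ⟨δ, hδ, h⟩ := strict_fam G F hs hε
    refine ⟨δ, hδ, fun p hp q hq h1 h2 θ => ?_⟩
    rw [hMs s hs]
    exact h p hp q hq h1 h2 θ
  · intro s hs u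
    obtain ⟨E, hE, -, h1⟩ := hfield s hs u
    rw [h1]
    exact hE.2.1
  · intro s hs
    rw [hM' s hs]
    exact Ms_cont G F hs
  · intro s hs u
    obtain ⟨E, hE, h0, h1⟩ := hfield s hs u
    exact (congrFun h1 0).trans h0
  · intro s hs θ
    rw [hMs s hs]
    exact strict_A G F hs θ
  · intro s hs θ
    refine ⟨kd G F hs θ, (kap_nhds G F hs θ).2, fun w => ?_, (hJ s hs).2 hs θ⟩
    rw [hMs s hs]
    rfl
  · intro s hs u
    obtain ⟨E, hE, -, h1⟩ := hfield s hs u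
    rw [h1]
    exact hE.2.2.1
  · intro s hs u
    obtain ⟨E, hE, -, h1⟩ := hfield s hs u
    rw [h1]
    exact hE.2.2.2
  · intro s hs u θ
    rw [hMJ s hs, ctr_iD_x G (F.leaf s hs)]
  · intro s hs u θ
    rw [hMJ s hs, ctr_iD_y G (F.leaf s hs)]
  · intro s hs D U U' hU hU' hp
    exact zero_of_per G (F.leaf s hs) hU hU' hp
  · intro s hs D h1 h2 h3 h4 θ
    rw [hMs s hs]
    exact (Ms_field G F hs ⟨h1, h2, h3, h4⟩ θ).symm

end

end Crest.Agent.R281.Tub_57
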