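import Crest.Agent.R281.Qt3_922
import Crest.Agent.R281.Tub7_57

/-!
# R281 (S0424), QTUBE (helper922), part 6: derivative of the flux

For the family of helper57 (`LF`, `Out`): the flux of the leaf `A s` is differentiable in `s`,
the derivative is the period of `β_u`; the complex flux `Φ = Fl_x + i Fl_y` satisfies
`DΦ (J u) = i DΦ u`.
-/

set_option autoImplicit false
set_option maxSynthPendingDepth 3

open Set Metric Filter Topology MeasureTheory intervalIntegral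
open scoped ContDiff

namespace Crest.Agent.R281.Qt_922

open Crest.Agent.R281.Mc673 (V W Fo tube ClF isOpen_tube)
open Crest.Agent.R281.Tub_57 (Out LF ctr)
open Crest.Agent.R238.Sch (ee norm_ee)

noncomputable section

variable {N : ℕ}

/-- the integrand of the derivative of the flux -/
def psi (w : Fo N) (b : V N → V N) (M : V N → V N →L[ℝ] V N) (k : Fin N) (t : ℝ) : V N →L[ℝ] ℝ :=
  ((w (cu b k t)).flip (cu' b k t)).comp ((ContinuousLinearMap.inr ℝ (V N) (V N)).comp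
    (M (t • ee k)))

theorem psi_apply (w : Fo N) (b : V N → V N) (M : V N → V N →L[ℝ] V N) (k : Fin N) (t : ℝ)
    (u : V N) : psi w b M k t u = ctr w b (fun θ => M θ u) (t • ee k) (ee k) := rfl

/-- the derivative of the flux -/
def dfl (w : Fo N) (b : V N → V N) (M : V N → V N →L[ℝ] V N) (k : Fin N) : V N →L[ℝ] ℝ :=
  ∫ t in (0:ℝ)..1, psi w b M k t

variable {r : ℝ} {w : Fo N} {b b' : V N → V N} {M : V N → V N →L[ℝ] V N}

theorem cu_mem (hb : Gr r b) (k : Fin N) (t : ℝ) : cu b k t ∈ tube N r := hb.lt _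

theorem continuous_cu (hb : ContDiff ℝ 1 b) (k : Fin N) : Continuous (cu b k) :=
  continuous_iff_continuousAt.2 fun t => (hasDerivAt_cu hb k t).continuousAt

theorem continuous_psi (hw : ContinuousOn w (tube N r)) (hb : Gr r b) (hM : Continuous M)
    (k : Fin N) : Continuous (psi w b M k) := by
  have h1 : Continuous fun t => w (cu b k t) :=
    hw.comp_continuous (continuous_cu hb.c1 k) fun t => cu_mem hb k t
  have h2 : Continuous fun t => (w (cu b k t)).flip (cu' b k t) :=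
    ((ContinuousLinearMap.flipₗᵢ ℝ (W N) (W N) ℝ).continuous.comp h1).clm_apply
      (continuous_cu' hb.c1 k)
  have h3 : Continuous fun t : ℝ => M (t • ee k) := hM.comp (by fun_prop)
  exact h2.clm_comp (continuous_const.clm_comp h3)

theorem dfl_apply (hw : ContinuousOn w (tube N r)) (hb : Gr r b) (hM : Continuous M)
    (k : Fin N) (u : V N) : dfl w b M k u = ∫ t in (0:ℝ)..1, psi w b M k t u :=
  ContinuousLinearMap.intervalIntegral_apply
    ((continuous_psi hw hb hM k).intervalIntegrable _ _) u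

theorem continuousOn_st (hw : ContinuousOn w (tube N r)) (hb : Gr r b) (hb' : Gr r b')
    (k : Fin N) : ContinuousOn (fun p : ℝ × ℝ => st w b b' k p.1 p.2)
      (Icc (0 : ℝ) 1 ×ˢ Icc (0 : ℝ) 1) := by
  have e1 : Continuous fun p : ℝ × ℝ => p.2 • (ee k : V N) := by fun_prop
  have e2 : Continuous fun p : ℝ × ℝ => b (p.2 • ee k) := hb.c1.continuous.comp e1
  have e3 : Continuous fun p : ℝ × ℝ => b' (p.2 • ee k) := hb'.c1.continuous.comp e1
  have e4 : Continuous fun p : ℝ × ℝ => fderiv ℝ b (p.2 • ee k) (ee k) :=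
    ((hb.c1.continuous_fderiv (by simp)).comp e1).clm_apply continuous_const
  have e5 : Continuous fun p : ℝ × ℝ => fderiv ℝ b' (p.2 • ee k) (ee k) :=
    ((hb'.c1.continuous_fderiv (by simp)).comp e1).clm_apply continuous_const
  have e6 : Continuous fun p : ℝ × ℝ =>
      ((p.2 • ee k, b (p.2 • ee k) + p.1 • (b' (p.2 • ee k) - b (p.2 • ee k))) : W N) :=
    e1.prodMk (e2.add (continuous_fst.smul (e3.sub e2)))
  have e7 : ContinuousOn (fun p : ℝ × ℝ =>
      w (p.2 • ee k, b (p.2 • ee k) + p.1 • (b' (p.2 • ee k) - b (p.2 • ee k))))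
      (Icc (0 : ℝ) 1 ×ˢ Icc (0 : ℝ) 1) :=
    hw.comp e6.continuousOn fun p hp => gr_seg hb hb' hp.1 _
  have e8 : Continuous fun p : ℝ × ℝ => ((0, b' (p.2 • ee k) - b (p.2 • ee k)) : W N) :=
    continuous_const.prodMk (e3.sub e2)
  have e9 : Continuous fun p : ℝ × ℝ => ((ee k, fderiv ℝ b (p.2 • ee k) (ee k) +
      p.1 • (fderiv ℝ b' (p.2 • ee k) (ee k) - fderiv ℝ b (p.2 • ee k) (ee k))) : W N) :=
    continuous_const.prodMk (e4.add (continuous_fst.smul (e5.sub e4)))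
  exact (e7.clm_apply e8.continuousOn).clm_apply e9.continuousOn

/-- comparison of a double integral with a function of `t` -/
theorem ii_le {f : ℝ → ℝ → ℝ} {g : ℝ → ℝ} {B : ℝ}
    (hf : ContinuousOn (fun p : ℝ × ℝ => f p.1 p.2) (Icc (0 : ℝ) 1 ×ˢ Icc (0 : ℝ) 1))
    (hg : ContinuousOn g (Icc (0 : ℝ) 1))
    (h : ∀ s ∈ Icc (0 : ℝ) 1, ∀ t ∈ Icc (0 : ℝ) 1, |f s t - g t| ≤ B) :
    |(∫ s in (0:ℝ)..1, ∫ t in (0:ℝ)..1, f s t) - ∫ t in (0:ℝ)..1, g t| ≤ B := by
  have u01 : uIcc (0 : ℝ) 1 = Icc 0 1 := uIcc_of_le zero_le_one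
  have ig : IntervalIntegrable g volume 0 1 := by
    refine ContinuousOn.intervalIntegrable ?_; rwa [u01]
  have if' : ∀ s ∈ Icc (0 : ℝ) 1, IntervalIntegrable (fun t => f s t) volume 0 1 := by
    intro s hs
    refine ContinuousOn.intervalIntegrable ?_
    rw [u01]
    exact hf.comp (f := fun t : ℝ => (s, t)) (by fun_prop) fun t ht => ⟨hs, ht⟩
  have iF : IntervalIntegrable (fun s => ∫ t in (0:ℝ)..1, f s t) volume 0 1 := by
    have h1 : IntegrableOn (fun p : ℝ × ℝ => f p.1 p.2) (Icc (0 : ℝ) 1 ×ˢ Icc (0 : ℝ) 1) :=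
      hf.integrableOn_compact (isCompact_Icc.prod isCompact_Icc)
    have h2 : Integrable (fun p : ℝ × ℝ => f p.1 p.2)
        ((volume.restrict (Ioc (0 : ℝ) 1)).prod (volume.restrict (Ioc (0 : ℝ) 1))) := by
      rw [Measure.prod_restrict]
      exact h1.mono_set (prod_mono Ioc_subset_Icc_self Ioc_subset_Icc_self)
    rw [intervalIntegrable_iff_integrableOn_Ioc_of_le zero_le_one]
    have h3 := h2.integral_prod_left
    show Integrable _ _
    simpa only [integral_of_le zero_le_one] using h3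
  have hin : ∀ s ∈ Icc (0 : ℝ) 1, |(∫ t in (0:ℝ)..1, f s t) - ∫ t in (0:ℝ)..1, g t| ≤ B := by
    intro s hs
    rw [← intervalIntegral.integral_sub (if' s hs) ig]
    have := intervalIntegral.norm_integral_le_of_norm_le_const (a := (0 : ℝ)) (b := 1) (C := B)
      (f := fun t => f s t - g t) (fun t ht => by
        rw [uIoc_of_le zero_le_one] at ht
        exact h s hs t ⟨ht.1.le, ht.2⟩)
    simpa using this
  have e1 : (∫ s in (0:ℝ)..1, ∫ t in (0:ℝ)..1, f s t) - ∫ t in (0:ℝ)..1, g t =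
      ∫ s in (0:ℝ)..1, ((∫ t in (0:ℝ)..1, f s t) - ∫ t in (0:ℝ)..1, g t) := by
    rw [intervalIntegral.integral_sub iF intervalIntegrable_const]
    simp
  rw [e1]
  have := intervalIntegral.norm_integral_le_of_norm_le_const (a := (0 : ℝ)) (b := 1) (C := B)
    (f := fun s => (∫ t in (0:ℝ)..1, f s t) - ∫ t in (0:ℝ)..1, g t) (fun s hs => by
      rw [uIoc_of_le zero_le_one] at hs
      exact hin s ⟨hs.1.le, hs.2⟩)
  simpa using this

/-- **derivative of the flux along a family** -/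
theorem flux_hasFDerivAt {Fl : (V N → V N) → ℝ} {k : Fin N} (hw : ContinuousOn w (tube N r))
    (hFl : ∀ b0 b1 : V N → V N, Gr r b0 → Gr r b1 →
      Fl b1 - Fl b0 = ∫ s in (0:ℝ)..1, ∫ t in (0:ℝ)..1, st w b0 b1 k s t)
    {S : Set (V N)} (hS : IsOpen S) {A : V N → V N → V N} (hA : ∀ s ∈ S, Gr r (A s)) {K : ℝ}
    (hK : 0 ≤ K) (hlip : ∀ s ∈ S, ∀ s' ∈ S, ∀ θ, ‖A s θ - A s' θ‖ ≤ K * ‖s - s'‖)
    (hlip' : ∀ s ∈ S, ∀ s' ∈ S, ∀ θ, ‖fderiv ℝ (A s) θ - fderiv ℝ (A s') θ‖ ≤ K * ‖s - s'‖)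
    {s : V N} (hs : s ∈ S) {M : V N → V N →L[ℝ] V N} (hM : Continuous M)
    (hu : ∀ ε > 0, ∃ δ > 0, ∀ p ∈ S, ‖p - s‖ < δ → ∀ θ,
      ‖A p θ - A s θ - M θ (p - s)‖ ≤ ε * ‖p - s‖) :
    HasFDerivAt (fun s => Fl (A s)) (dfl w (A s) M k) s := by
  have hb := hA s hs
  -- bounds on the curve
  have cG : Continuous (cu (A s) k) := continuous_cu hb.c1 k
  have cG' : Continuous (cu' (A s) k) := continuous_cu' hb.c1 k
  set Γ : Set (W N) := cu (A s) k '' Icc 0 1 with hΓ
  have hΓc : IsCompact Γ := isCompact_Icc.image cG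
  have hΓt : Γ ⊆ tube N r := by rintro _ ⟨t, -, rfl⟩; exact cu_mem hb k t
  obtain ⟨C1, hC1⟩ := (isCompact_Icc (a := (0 : ℝ)) (b := 1)).exists_bound_of_continuousOn
    (f := fun t => w (cu (A s) k t))
    (hw.comp cG.continuousOn fun t _ => cu_mem hb k t)
  obtain ⟨G0, hG0⟩ := (isCompact_Icc (a := (0 : ℝ)) (b := 1)).exists_bound_of_continuousOn
    (f := cu' (A s) k) cG'.continuousOn
  obtain ⟨Mb, hMb⟩ := (isCompact_Icc (a := (0 : ℝ)) (b := 1)).exists_bound_of_continuousOn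
    (f := fun t : ℝ => M (t • ee k)) (hM.comp (by fun_prop)).continuousOn
  have h0 : (0 : ℝ) ∈ Icc (0 : ℝ) 1 := ⟨le_rfl, zero_le_one⟩
  have C10 : 0 ≤ C1 := (norm_nonneg _).trans (hC1 0 h0)
  have G00 : 0 ≤ G0 := (norm_nonneg _).trans (hG0 0 h0)
  have Mb0 : 0 ≤ Mb := (norm_nonneg _).trans (hMb 0 h0)
  rw [hasFDerivAt_iff_isLittleO_nhds_zero, Asymptotics.isLittleO_iff]
  intro c hc
  -- the constants
  set Q : ℝ := 1 + K * (G0 + K) + (G0 + K) * C1 + C1 * Mb * K with hQ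
  have hQ1 : 1 ≤ Q := by
    have q1 := mul_nonneg hK (add_nonneg G00 hK)
    have q2 := mul_nonneg (add_nonneg G00 hK) C10
    have q3 := mul_nonneg (mul_nonneg C10 Mb0) hK
    rw [hQ]; linarith
  have hQ0 : 0 < Q := by linarith
  set η : ℝ := c / Q with hη
  have hη0 : 0 < η := by positivity
  obtain ⟨δ1, hδ1, H1⟩ := hu η hη0
  -- uniform continuity
  have huc := hΓc.uniformContinuousAt_of_continuousAt w
    (fun a ha => hw.continuousAt ((isOpen_tube r).mem_nhds (hΓt ha))) (dist_mem_uniformity hη0)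
  obtain ⟨δ2, hδ2, H2⟩ := mem_uniformity_dist.1 huc
  obtain ⟨δ3, hδ3, H3⟩ := Metric.isOpen_iff.1 hS s hs
  have hK1 : 0 < K + 1 := by linarith
  filter_upwards [ball_mem_nhds (0 : V N) (lt_min (lt_min hδ1 hδ3)
    (lt_min (div_pos hδ2 hK1) (lt_min hη0 one_pos)))] with h hh
  rw [mem_ball_zero_iff] at hh
  have n1 : ‖h‖ < δ1 := hh.trans_le ((min_le_left _ _).trans (min_le_left _ _))
  have n3 : ‖h‖ < δ3 := hh.trans_le ((min_le_left _ _).trans (min_le_right _ _))
  have n2 : ‖h‖ < δ2 / (K + 1) := hh.trans_le ((min_le_right _ _).trans (min_le_left _ _))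
  have n4 : ‖h‖ < η := hh.trans_le ((min_le_right _ _).trans
    ((min_le_right _ _).trans (min_le_left _ _)))
  have n5 : ‖h‖ < 1 := hh.trans_le ((min_le_right _ _).trans
    ((min_le_right _ _).trans (min_le_right _ _)))
  have hsh : s + h ∈ S := H3 (by simpa using n3)
  have hb' := hA _ hsh
  have hd := hFl _ _ hb hb'
  rw [hd, dfl_apply hw hb hM]
  refine (ii_le (continuousOn_st hw hb hb' k)
    ((continuous_psi hw hb hM k).clm_apply continuous_const).continuousOn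
    (B := c * ‖h‖) fun σ hσ t ht => ?_).trans le_rfl
  -- pointwise estimate
  have hsub : s + h - s = h := by abel
  set β : V N := A (s + h) (t • ee k) - A s (t • ee k) with hβ
  set dγ : V N := fderiv ℝ (A (s + h)) (t • ee k) (ee k) - fderiv ℝ (A s) (t • ee k) (ee k)
    with hdγ
  have b1 : ‖β‖ ≤ K * ‖h‖ := by
    have := hlip _ hsh _ hs (t • ee k)
    rwa [hsub] at this
  have b2 : ‖dγ‖ ≤ K * ‖h‖ := by
    have h4 := hlip' _ hsh _ hs (t • ee k)
    rw [hsub] at h4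
    calc ‖dγ‖ = ‖(fderiv ℝ (A (s + h)) (t • ee k) - fderiv ℝ (A s) (t • ee k)) (ee k)‖ := rfl
      _ ≤ ‖fderiv ℝ (A (s + h)) (t • ee k) - fderiv ℝ (A s) (t • ee k)‖ * ‖(ee k : V N)‖ :=
        ContinuousLinearMap.le_opNorm _ _
      _ ≤ _ := by rw [norm_ee, mul_one]; exact h4
  have b3 : ‖β - M (t • ee k) h‖ ≤ η * ‖h‖ := by
    have := H1 _ hsh (by rwa [hsub]) (t • ee k)
    rwa [hsub] at this
  set q : W N := (t • ee k, A s (t • ee k) + σ • β) with hq
  have b4 : ‖w q - w (cu (A s) k t)‖ ≤ η := by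
    have h4 : dist (cu (A s) k t) q < δ2 := by
      rw [dist_comm, dist_eq_norm]
      have : q - cu (A s) k t = (0, σ • β) := by
        rw [hq]; simp only [cu]; ext1 <;> simp
      rw [this]
      have h5 : ‖((0 : V N), σ • β)‖ = ‖σ • β‖ := by simp [Prod.norm_def]
      rw [h5, norm_smul, Real.norm_of_nonneg hσ.1]
      calc σ * ‖β‖ ≤ 1 * (K * ‖h‖) := mul_le_mul hσ.2 b1 (norm_nonneg _) zero_le_one
        _ ≤ (K + 1) * ‖h‖ := by nlinarith [norm_nonneg h]
        _ < (K + 1) * (δ2 / (K + 1)) := by gcongr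
        _ = δ2 := by field_simp
    have h6 := H2 h4 ⟨t, ht, rfl⟩
    rw [mem_ofPred_eq, dist_comm, dist_eq_norm] at h6
    exact h6.le
  have b5 : ‖cu' (A s) k t‖ ≤ G0 := hG0 t ht
  have b6 : ‖cu' (A s) k t + ((0, σ • dγ) : W N)‖ ≤ G0 + K := by
    refine (norm_add_le _ _).trans (add_le_add b5 ?_)
    have h5 : ‖((0 : V N), σ • dγ)‖ = ‖σ • dγ‖ := by simp [Prod.norm_def]
    rw [h5, norm_smul, Real.norm_of_nonneg hσ.1]
    calc σ * ‖dγ‖ ≤ 1 * (K * ‖h‖) := mul_le_mul hσ.2 b2 (norm_nonneg _) zero_le_one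
      _ ≤ K := by nlinarith [norm_nonneg h]
  have key : st w (A s) (A (s + h)) k σ t - psi w (A s) M k t h =
      (w q - w (cu (A s) k t)) (0, β) (cu' (A s) k t + ((0, σ • dγ) : W N)) +
      w (cu (A s) k t) (0, β - M (t • ee k) h) (cu' (A s) k t + ((0, σ • dγ) : W N)) +
      w (cu (A s) k t) (0, M (t • ee k) h) ((0, σ • dγ) : W N) := by
    have e1 : st w (A s) (A (s + h)) k σ t = w q (0, β) (cu' (A s) k t + ((0, σ • dγ) : W N)) := by
      have : cu' (A s) k t + ((0, σ • dγ) : W N) =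
          (ee k, fderiv ℝ (A s) (t • ee k) (ee k) + σ • dγ) := by
        simp only [cu']; ext1 <;> simp
      rw [this]; rfl
    have e2 : psi w (A s) M k t h = w (cu (A s) k t) (0, M (t • ee k) h) (cu' (A s) k t) := rfl
    have e3 : ((0, β - M (t • ee k) h) : W N) = ((0, β) : W N) - (0, M (t • ee k) h) := by
      ext1 <;> simp
    rw [e1, e2, e3]
    simp only [map_sub, map_add, _root_.sub_apply]
    ring
  have nn : ∀ v : V N, ‖((0, v) : W N)‖ = ‖v‖ := fun v => by simp [Prod.norm_def]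
  rw [key]
  have t1 : ‖(w q - w (cu (A s) k t)) (0, β) (cu' (A s) k t + ((0, σ • dγ) : W N))‖ ≤
      η * (K * ‖h‖) * (G0 + K) := by
    refine (ContinuousLinearMap.le_opNorm₂ _ _ _).trans ?_
    rw [nn]
    gcongr
  have t2 : ‖w (cu (A s) k t) (0, β - M (t • ee k) h) (cu' (A s) k t + ((0, σ • dγ) : W N))‖ ≤
      C1 * (η * ‖h‖) * (G0 + K) := by
    refine (ContinuousLinearMap.le_opNorm₂ _ _ _).trans ?_
    rw [nn]
    have := hC1 t ht
    gcongr
  have t3 : ‖w (cu (A s) k t) (0, M (t • ee k) h) ((0, σ • dγ) : W N)‖ ≤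
      C1 * (Mb * ‖h‖) * (K * η) := by
    refine (ContinuousLinearMap.le_opNorm₂ _ _ _).trans ?_
    rw [nn, nn]
    have h5 := hC1 t ht
    have h6 : ‖M (t • ee k) h‖ ≤ Mb * ‖h‖ :=
      ((M (t • ee k)).le_opNorm h).trans (mul_le_mul_of_nonneg_right (hMb t ht) (norm_nonneg _))
    have h7 : ‖σ • dγ‖ ≤ K * η := by
      rw [norm_smul, Real.norm_of_nonneg hσ.1]
      calc σ * ‖dγ‖ ≤ 1 * (K * ‖h‖) := mul_le_mul hσ.2 b2 (norm_nonneg _) zero_le_one
        _ ≤ K * η := by rw [one_mul]; gcongr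
    gcongr
  have t4 : |(w q - w (cu (A s) k t)) (0, β) (cu' (A s) k t + ((0, σ • dγ) : W N)) +
      w (cu (A s) k t) (0, β - M (t • ee k) h) (cu' (A s) k t + ((0, σ • dγ) : W N)) +
      w (cu (A s) k t) (0, M (t • ee k) h) ((0, σ • dγ) : W N)| ≤
      η * (K * ‖h‖) * (G0 + K) + C1 * (η * ‖h‖) * (G0 + K) + C1 * (Mb * ‖h‖) * (K * η) := by
    refine (abs_add_le _ _).trans (add_le_add ((abs_add_le _ _).trans (add_le_add ?_ ?_)) ?_)
    · exact t1
    · exact t2
    · exact t3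
  refine t4.trans ?_
  have e5 : η * (K * ‖h‖) * (G0 + K) + C1 * (η * ‖h‖) * (G0 + K) + C1 * (Mb * ‖h‖) * (K * η) =
      η * (Q - 1) * ‖h‖ := by rw [hQ]; ring
  rw [e5]
  have e6 : η * Q = c := by rw [hη]; field_simp
  nlinarith [norm_nonneg h, mul_nonneg hη0.le (norm_nonneg h)]

end

end Crest.Agent.R281.Qt_922
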