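import Crest.Agent.R281.Qt8_922

/-!
# R281 (S0424), QTUBE (helper922), part 9: the holomorphic function on the real tube
-/

set_option autoImplicit false
set_option maxSynthPendingDepth 3

open Set Metric Filter Topology MeasureTheory intervalIntegral
open scoped ContDiff

namespace Crest.Agent.R281.Qt_922

open Crest.Agent.R281.Mc673 (V W Fo tube ClF isOpen_tube kv)
open Crest.Agent.R281.Tub_57 (Out LF ctr Geo Leaf Inp OS kap)
open Crest.Agent.R275.Geo (Cn)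
open Crest.Agent.R238.Sch (ee norm_ee)

noncomputable section

variable {N : ℕ} {r : ℝ} {x y : Fo N} {I : W N → W N →L[ℝ] W N}

theorem clF_x (G : Geo r x y I) : ClF r x where
  sm := G.xs
  alt p hp u v := G.xa.swap hp u v
  cl p hp u v z := G.xc p hp u v z
  per k p hp := G.xp k p hp

theorem clF_y (G : Geo r x y I) : ClF r y where
  sm := G.ys
  alt p hp u v := G.ya.swap hp u v
  cl p hp u v z := G.yc p hp u v z
  per k p hp := G.yp k p hp

theorem gr_of_leaf {b : V N → V N} (h : Leaf r x y b) : Gr r b := ⟨h.c1, h.per, h.tub⟩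

/-- the derivative of the complex flux at the leaf `b` -/
def dPhi (x y : Fo N) (b : V N → V N) (M : V N → V N ≃L[ℝ] V N) : V N →L[ℝ] CE N :=
  mk2 (fun k => dfl x b (fun θ => (M θ : V N →L[ℝ] V N)) k)
    (fun k => dfl y b (fun θ => (M θ : V N →L[ℝ] V N)) k)

section

variable {S : Set (V N)} {A : V N → V N → V N} {K : ℝ} {kp : W N → V N}
  {M : V N → V N → V N ≃L[ℝ] V N} {J : V N → V N →L[ℝ] V N}
  {Flx Fly : Fin N → (V N → V N) → ℝ}

theorem phi_der (G : Geo r x y I) (F : LF r x y S A K) (O : Out r x y I S A kp M J)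
    (hFx : ∀ k, ∀ b0 b1 : V N → V N, Gr r b0 → Gr r b1 →
      Flx k b1 - Flx k b0 = ∫ s in (0:ℝ)..1, ∫ t in (0:ℝ)..1, st x b0 b1 k s t)
    (hFy : ∀ k, ∀ b0 b1 : V N → V N, Gr r b0 → Gr r b1 →
      Fly k b1 - Fly k b0 = ∫ s in (0:ℝ)..1, ∫ t in (0:ℝ)..1, st y b0 b1 k s t)
    {s : V N} (hs : s ∈ S) :
    HasFDerivAt (fun s => PhiC Flx Fly (A s)) (dPhi x y (A s) (M s)) s := by
  have hu : ∀ ε > 0, ∃ δ > 0, ∀ p ∈ S, ‖p - s‖ < δ → ∀ θ,
      ‖A p θ - A s θ - (M s θ : V N →L[ℝ] V N) (p - s)‖ ≤ ε * ‖p - s‖ := by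
    intro ε hε
    obtain ⟨δ, hδ, h⟩ := O.unif s hs ε hε
    exact ⟨δ, hδ, fun p hp h1 θ => h p hp s hs h1 (by simpa using hδ) θ⟩
  have hA : ∀ s ∈ S, Gr r (A s) := fun s hs => gr_of_leaf (F.leaf s hs)
  exact hasFDerivAt_mk2
    (fun k => flux_hasFDerivAt G.xs.continuousOn (hFx k) F.So hA F.K0 F.lip F.lip' hs
      (O.Mc s hs) hu)
    (fun k => flux_hasFDerivAt G.ys.continuousOn (hFy k) F.So hA F.K0 F.lip F.lip' hs
      (O.Mc s hs) hu)

theorem dPhi_J (G : Geo r x y I) (F : LF r x y S A K) (O : Out r x y I S A kp M J)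
    {s : V N} (hs : s ∈ S) (u : V N) :
    dPhi x y (A s) (M s) (J s u) = Complex.I • dPhi x y (A s) (M s) u := by
  have hA : Gr r (A s) := gr_of_leaf (F.leaf s hs)
  refine mk2_I (J := fun u => J s u) (fun k u => ?_) (fun k u => ?_) u
  · rw [dfl_apply G.xs.continuousOn hA (O.Mc s hs), dfl_apply G.ys.continuousOn hA (O.Mc s hs),
      ← intervalIntegral.integral_neg]
    refine intervalIntegral.integral_congr fun t _ => ?_
    show ctr x (A s) (fun θ => M s θ (J s u)) (t • ee k) (ee k) =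
      - ctr y (A s) (fun θ => M s θ u) (t • ee k) (ee k)
    rw [O.bJx s hs]; rfl
  · rw [dfl_apply G.xs.continuousOn hA (O.Mc s hs), dfl_apply G.ys.continuousOn hA (O.Mc s hs)]
    refine intervalIntegral.integral_congr fun t _ => ?_
    show ctr y (A s) (fun θ => M s θ (J s u)) (t • ee k) (ee k) =
      ctr x (A s) (fun θ => M s θ u) (t • ee k) (ee k)
    rw [O.bJy s hs]

theorem hasFDerivAt_As (O : Out r x y I S A kp M J) {s : V N} (hs : s ∈ S) (θ : V N) :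
    HasFDerivAt (fun s => A s θ) (M s θ : V N →L[ℝ] V N) s := by
  have h1 := (O.dA s hs θ).hasFDerivAt
  have h2 : HasFDerivAt (fun s : V N => ((θ, s) : W N))
      ((0 : V N →L[ℝ] V N).prod (ContinuousLinearMap.id ℝ (V N))) s :=
    (hasFDerivAt_const θ s).prodMk (hasFDerivAt_id s)
  have h3 := HasFDerivAt.comp (g := fun z : W N => A z.2 z.1) s h1 h2
  refine h3.congr_fderiv ?_
  ext u
  simp

end

/-- **the holomorphic function on the real tube** -/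
theorem real_tube {N n : ℕ} (hN : N = 2 * n) {Λ : ℝ} (hΛ : 1 ≤ Λ) : ∃ ε1 > 0, ∃ C > 0,
    ∀ (r R : ℝ) (x y : Fo N) (I : W N → W N →L[ℝ] W N) (a : V N → V N → V N), 0 < R →
    Geo r x y I → ‖x 0‖ ≤ Λ → ‖y 0‖ ≤ Λ → (∀ u, ‖u‖ ≤ Λ * ‖y 0 u‖) →
    (∀ u v : V N, |y 0 (u, 0) (v, 0)| ≤ ε1 * ‖u‖ * ‖v‖) →
    (∀ p ∈ tube N r, ‖p.1‖ ≤ 1 → ‖x p - x 0‖ ≤ ε1) →
    (∀ p ∈ tube N r, ‖p.1‖ ≤ 1 → ‖y p - y 0‖ ≤ ε1) →
    TFam r R ε1 x y a → ∃ (g : V N → Cn n) (G : W N → Cn n), RTube n C R I a g G := by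
  have hN0 : (0 : ℝ) ≤ N := Nat.cast_nonneg N
  have hΛ0 : 0 < Λ := by linarith
  set D : ℝ := 512 * (N + 1) * Λ ^ 2 with hD
  have hD0 : 0 < D := by positivity
  set ε : ℝ := 1 / D with hε
  have hε0 : 0 < ε := by positivity
  have hεD : ε * D = 1 := by rw [hε]; field_simp
  have hε1 : 512 * (ε * (N + 1) * Λ ^ 2) = 1 := by
    have h0 : 512 * (ε * (N + 1) * Λ ^ 2) = ε * D := by rw [hD]; ring
    rw [h0, hεD]
  have k1 : ε * Λ ≤ 1 / 512 := by
    have : ε * Λ ≤ ε * (N + 1) * Λ ^ 2 := by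
      have h1 : Λ ≤ (N + 1) * Λ ^ 2 := by nlinarith
      calc ε * Λ ≤ ε * ((N + 1) * Λ ^ 2) := by gcongr
        _ = _ := by ring
    linarith
  have k2 : ε ≤ 1 / 512 := by nlinarith
  have k3 : N * Λ ^ 2 * ε ≤ 1 / 512 := by
    have : N * Λ ^ 2 * ε ≤ ε * (N + 1) * Λ ^ 2 := by nlinarith [mul_pos hε0 (pow_pos hΛ0 2)]
    linarith
  refine ⟨ε, hε0, 16 * (N + 1) * Λ, by positivity, ?_⟩
  intro r R x y I a hR G hx0 hy0 hnd hhh hcx hcy T
  have hR0 : (0 : V N) ∈ ball (0 : V N) R := mem_ball_self hR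
  have hr0 : ‖(0 : V N)‖ < R := by simpa using hR
  obtain ⟨Flx, hFx⟩ := exists_flux (clF_x G)
  obtain ⟨Fly, hFy⟩ := exists_flux (clF_y G)
  have inp : Inp r x y (ball 0 R) a := by
    refine ⟨isOpen_ball, fun c hc => T.leaf c (by simpa using hc), ?_, ?_⟩
    · intro c hc c' hc' θ
      refine (T.lip c (by simpa using hc) c' (by simpa using hc') θ).trans ?_
      gcongr; linarith
    · intro c hc c' hc' θ
      refine (T.dlip c (by simpa using hc) c' (by simpa using hc') θ).trans ?_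
      nlinarith [norm_nonneg (c - c')]
  obtain ⟨cs, hcs, hcS, F, hOS⟩ := inp.toLF
  set S : Set (V N) := (fun c => a c 0) '' ball 0 R with hS
  set A : V N → V N → V N := fun s => a (cs s) with hA
  obtain ⟨M, J, O⟩ := F.out G
  have hsS : ∀ c ∈ ball (0 : V N) R, a c 0 ∈ S := fun c hc => ⟨c, hc, rfl⟩
  have hAa : ∀ c ∈ ball (0 : V N) R, A (a c 0) = a c := fun c hc => by rw [hA]; simp only [hcs c hc]
  have nb : ∀ c : V N, c ∈ ball (0 : V N) R ↔ ‖c‖ < R := fun c => by simp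
  -- comparison of the two parameters
  have par : ∀ s ∈ S, ∀ s' ∈ S, ‖(cs s - cs s') - (s - s')‖ ≤ ε * ‖cs s - cs s'‖ ∧
      ‖cs s - cs s'‖ ≤ 2 * ‖s - s'‖ := by
    intro s hs s' hs'
    have h1 := T.lip (cs s) ((nb _).1 (hcS s hs).1) (cs s') ((nb _).1 (hcS s' hs').1) 0
    rw [(hcS s hs).2, (hcS s' hs').2, norm_sub_rev] at h1
    refine ⟨h1, ?_⟩
    have h2 : ‖cs s - cs s'‖ ≤ ‖(cs s - cs s') - (s - s')‖ + ‖s - s'‖ := by
      calc ‖cs s - cs s'‖ = ‖((cs s - cs s') - (s - s')) + (s - s')‖ := by rw [sub_add_cancel]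
        _ ≤ _ := norm_add_le _ _
    nlinarith [norm_nonneg (cs s - cs s')]
  -- near-linearity in `c`
  set η0 : ℝ := N * (2 * ((2 + 2 * Λ) * ε)) with hη0
  have hη00 : 0 ≤ η0 := by positivity
  have near : ∀ c ∈ ball (0 : V N) R, ∀ c' ∈ ball (0 : V N) R,
      ‖PhiC Flx Fly (a c) - PhiC Flx Fly (a c') - P0 (x 0) (y 0) (c - c')‖ ≤ η0 * ‖c - c'‖ := by
    intro c hc c' hc'
    have h1 := phi_near G.xs.continuousOn G.ys.continuousOn hFx hFy hx0 hy0 hε0.le (by linarith)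
      hcx hcy (gr_of_leaf (T.leaf c' ((nb _).1 hc'))) (gr_of_leaf (T.leaf c ((nb _).1 hc)))
      (d := c - c') (T.lip c ((nb _).1 hc) c' ((nb _).1 hc')) (T.dnear c' ((nb _).1 hc'))
      (T.dnear c ((nb _).1 hc))
    calc _ ≤ _ := h1
      _ = η0 * ‖c - c'‖ := by rw [hη0]; ring
  -- the derivative is close to the model
  set η1 : ℝ := (η0 + N * (2 * Λ) * ε) * 2 with hη1
  have hη10 : 0 ≤ η1 := by positivity
  have dclose : ∀ s ∈ S, ∀ u, ‖dPhi x y (A s) (M s) u - P0 (x 0) (y 0) u‖ ≤ η1 * ‖u‖ := by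
    intro s hs u
    have h1 : HasFDerivAt (fun s => PhiC Flx Fly (A s) - P0 (x 0) (y 0) s)
        (dPhi x y (A s) (M s) - P0 (x 0) (y 0)) s :=
      (phi_der G F O hFx hFy hs).sub (P0 (x 0) (y 0)).hasFDerivAt
    have h2 : ‖dPhi x y (A s) (M s) - P0 (x 0) (y 0)‖ ≤ η1 := by
      refine h1.le_of_lip' hη10 ?_
      filter_upwards [F.So.mem_nhds hs] with s' hs'
      have h3 := near (cs s') (hcS s' hs').1 (cs s) (hcS s hs).1
      obtain ⟨h4, h5⟩ := par s' hs' s hs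
      have h6 := norm_P0_le hx0 hy0 ((cs s' - cs s) - (s' - s))
      have e1 : PhiC Flx Fly (A s') - P0 (x 0) (y 0) s' - (PhiC Flx Fly (A s) - P0 (x 0) (y 0) s) =
          (PhiC Flx Fly (a (cs s')) - PhiC Flx Fly (a (cs s)) -
            P0 (x 0) (y 0) (cs s' - cs s)) + P0 (x 0) (y 0) ((cs s' - cs s) - (s' - s)) := by
        simp only [hA, map_sub]; abel
      rw [e1]
      refine (norm_add_le _ _).trans ?_
      calc _ ≤ η0 * ‖cs s' - cs s‖ + N * (2 * Λ * (ε * ‖cs s' - cs s‖)) :=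
            add_le_add h3 (h6.trans (by gcongr))
        _ = (η0 + N * (2 * Λ) * ε) * ‖cs s' - cs s‖ := by ring
        _ ≤ (η0 + N * (2 * Λ) * ε) * (2 * ‖s' - s‖) := by gcongr
        _ = η1 * ‖s' - s‖ := by rw [hη1]; ring
    calc _ = ‖(dPhi x y (A s) (M s) - P0 (x 0) (y 0)) u‖ := rfl
      _ ≤ ‖dPhi x y (A s) (M s) - P0 (x 0) (y 0)‖ * ‖u‖ := ContinuousLinearMap.le_opNorm _ _
      _ ≤ η1 * ‖u‖ := by gcongr
  -- numerical bounds
  have hη1b : η1 * Λ ≤ 20 / 512 := by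
    have e1 : η1 * Λ = 2 * (N * (2 * ((2 + 2 * Λ) * ε)) * Λ + N * (2 * Λ) * ε * Λ) := by
      rw [hη1, hη0]; ring
    have e2 : N * (2 * ((2 + 2 * Λ) * ε)) * Λ ≤ 8 * (N * Λ ^ 2 * ε) := by
      have : (2 + 2 * Λ) ≤ 4 * Λ := by linarith
      calc N * (2 * ((2 + 2 * Λ) * ε)) * Λ ≤ N * (2 * ((4 * Λ) * ε)) * Λ := by gcongr
        _ = _ := by ring
    rw [e1]
    have e3 : N * (2 * Λ) * ε * Λ = 2 * (N * Λ ^ 2 * ε) := by ring
    rw [e3]
    linarith
  have hη0b : η0 * Λ ≤ 8 / 512 := by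
    have e2 : N * (2 * ((2 + 2 * Λ) * ε)) * Λ ≤ 8 * (N * Λ ^ 2 * ε) := by
      have : (2 + 2 * Λ) ≤ 4 * Λ := by linarith
      calc N * (2 * ((2 + 2 * Λ) * ε)) * Λ ≤ N * (2 * ((4 * Λ) * ε)) * Λ := by gcongr
        _ = _ := by ring
    rw [hη0]; linarith
  -- the selection
  set s0 : V N := a 0 0 with hs0
  have hs0S : s0 ∈ S := hsS 0 hR0
  set P : V N →L[ℝ] CE N := dPhi x y (A s0) (M s0) with hP
  have halt : ∀ u v, y 0 u v = - y 0 v u := by
    have h0 : (0 : W N) ∈ tube N r := by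
      show ‖(0 : V N)‖ < r
      have := (gr_of_leaf (T.leaf 0 hr0)).lt 0
      rw [norm_zero]; exact lt_of_le_of_lt (norm_nonneg _) this
    exact fun u v => (clF_y G).alt 0 h0 u v
  have P0l : ∀ c, ‖c‖ ≤ 2 * Λ * ‖P0 (x 0) (y 0) c‖ := fun c =>
    P0_low hΛ0.le halt hnd hhh hε0.le (by nlinarith) c
  have Pl : ∀ c, ‖c‖ ≤ 4 * Λ * ‖P c‖ := by
    intro c
    have h1 := P0l c
    have h2 := dclose s0 hs0S c
    have h3 : ‖P0 (x 0) (y 0) c‖ ≤ ‖P c‖ + η1 * ‖c‖ := by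
      calc ‖P0 (x 0) (y 0) c‖ = ‖P c - (P c - P0 (x 0) (y 0) c)‖ := by rw [sub_sub_cancel]
        _ ≤ ‖P c‖ + ‖P c - P0 (x 0) (y 0) c‖ := norm_sub_le _ _
        _ ≤ _ := by gcongr
    have h4 : 2 * Λ * ‖P0 (x 0) (y 0) c‖ ≤ 2 * Λ * ‖P c‖ + 2 * (η1 * Λ) * ‖c‖ := by
      calc _ ≤ 2 * Λ * (‖P c‖ + η1 * ‖c‖) := by gcongr
        _ = _ := by ring
    nlinarith [norm_nonneg c, norm_nonneg (P c)]
  obtain ⟨L, hL1, hL2, -, hL4⟩ := Qt4_877.sel hN (P := P) (J₀ := fun c => J s0 c)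
    (fun c => dPhi_J G F O hs0S c) (m := 4 * Λ) (by positivity) Pl
  have nearP : ∀ c ∈ ball (0 : V N) R, ∀ c' ∈ ball (0 : V N) R,
      ‖PhiC Flx Fly (a c) - PhiC Flx Fly (a c') - P (c - c')‖ ≤ (η0 + η1) * ‖c - c'‖ := by
    intro c hc c' hc'
    have h1 := near c hc c' hc'
    have h2 := dclose s0 hs0S (c - c')
    calc ‖PhiC Flx Fly (a c) - PhiC Flx Fly (a c') - P (c - c')‖ =
          ‖(PhiC Flx Fly (a c) - PhiC Flx Fly (a c') - P0 (x 0) (y 0) (c - c')) -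
            (P (c - c') - P0 (x 0) (y 0) (c - c'))‖ := by congr 1; abel
      _ ≤ _ := norm_sub_le _ _
      _ ≤ (η0 + η1) * ‖c - c'‖ := by rw [add_mul]; exact add_le_add h1 h2
  obtain ⟨hinj, hcont, -, honto, hcpt⟩ := hL4 (fun c => PhiC Flx Fly (a c)) (η0 + η1) R
    (by positivity) (by nlinarith) nearP
  have hCR : R / (16 * (N + 1) * Λ) ≤ R / (2 * (4 * Λ)) := by
    apply div_le_div_of_nonneg_left hR.le (by positivity)
    nlinarith [mul_nonneg hN0 hΛ0.le]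
  refine ⟨fun c => L (PhiC Flx Fly (a c)) - L (PhiC Flx Fly (a 0)),
    fun p => L (PhiC Flx Fly (A (kap S A p))) - L (PhiC Flx Fly (a 0)), ?_, ?_, ?_, ?_, ?_, ?_, ?_⟩
  · -- the region is open
    have e1 : reg a R = {p | ∃ s ∈ S, A s p.1 = p.2} := by
      have : OS S A = {p | ∃ c ∈ ball 0 R, a c p.1 = p.2} := hOS
      ext p
      constructor
      · rintro ⟨c, hc, h⟩
        exact ⟨a c 0, hsS c ((nb _).2 hc), by rw [hAa c ((nb _).2 hc)]; exact h⟩
      · rintro ⟨s, hs, h⟩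
        exact ⟨cs s, (nb _).1 (hcS s hs).1, h⟩
    rw [e1]
    exact O.Oo
  · intro c hc θ
    have h1 := O.kgr (a c 0) (hsS c ((nb _).2 hc)) θ
    rw [hAa c ((nb _).2 hc)] at h1
    show L (PhiC Flx Fly (A (kap S A (θ, a c θ)))) - _ = _
    rw [h1, hAa c ((nb _).2 hc)]
  · intro c hc c' hc' h
    exact hinj hc hc' (sub_left_injective h)
  · exact hcont.sub continuousOn_const
  · intro b hb
    have h1 : b + L (PhiC Flx Fly (a 0)) ∈ ball (L (PhiC Flx Fly (a 0))) (R / (2 * (4 * Λ))) := by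
      rw [mem_ball_iff_norm, add_sub_cancel_right]
      exact lt_of_lt_of_le (by simpa using hb) hCR
    obtain ⟨c, hc, h⟩ := honto h1
    refine ⟨c, hc, ?_⟩
    show L (PhiC Flx Fly (a c)) - _ = b
    have h' : L (PhiC Flx Fly (a c)) = b + L (PhiC Flx Fly (a 0)) := h
    rw [h', add_sub_cancel_right]
  · intro R' hR'
    exact hcpt R' (lt_of_lt_of_le hR' hCR)
  · rintro ⟨θ, v⟩ ⟨c, hc, h⟩
    simp only at h
    have hcb := (nb c).2 hc
    set s : V N := a c 0 with hs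
    have hsS' : s ∈ S := hsS c hcb
    have hAs : A s = a c := hAa c hcb
    obtain ⟨k', hk1, hk2, hk3⟩ := O.dk s hsS' θ
    have hpt : ((θ, v) : W N) = (θ, A s θ) := by rw [hAs, h]
    rw [hpt]
    have hks : kap S A (θ, A s θ) = s := O.kgr s hsS' θ
    set DP : V N →L[ℝ] CE N := dPhi x y (A s) (M s) with hDP
    have hd1 : HasFDerivAt (fun p => PhiC Flx Fly (A (kap S A p))) (DP.comp k') (θ, A s θ) := by
      have h1 := phi_der G F O hFx hFy hsS'
      have h2 : HasFDerivAt (fun s => PhiC Flx Fly (A s)) DP (kap S A (θ, A s θ)) := by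
        rw [hks]; exact h1
      exact HasFDerivAt.comp (g := fun s => PhiC Flx Fly (A s)) _ h2 hk1.hasFDerivAt
    have hd2 : HasFDerivAt (fun p => L (PhiC Flx Fly (A (kap S A p))) - L (PhiC Flx Fly (a 0)))
        ((L.restrictScalars ℝ).comp (DP.comp k')) (θ, A s θ) :=
      ((L.restrictScalars ℝ).hasFDerivAt.comp _ hd1).sub_const _
    -- bounds on `M`
    have hMb : ∀ u, ‖M s θ u - u‖ ≤ 1 / 2 * ‖u‖ := by
      intro u
      have h1 : HasFDerivAt (fun s => A s θ - s)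
          ((M s θ : V N →L[ℝ] V N) - ContinuousLinearMap.id ℝ (V N)) s :=
        (hasFDerivAt_As O hsS' θ).sub (hasFDerivAt_id s)
      have h2 : ‖(M s θ : V N →L[ℝ] V N) - ContinuousLinearMap.id ℝ (V N)‖ ≤ 1 / 2 := by
        refine h1.le_of_lip' (by norm_num) ?_
        filter_upwards [F.So.mem_nhds hsS'] with s' hs'
        have a1 := T.lip (cs s') ((nb _).1 (hcS s' hs').1) (cs s) ((nb _).1 (hcS s hsS').1) θ
        obtain ⟨a2, a3⟩ := par s' hs' s hsS'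
        have e1 : A s' θ - s' - (A s θ - s) =
            (a (cs s') θ - a (cs s) θ - (cs s' - cs s)) + ((cs s' - cs s) - (s' - s)) := by
          simp only [hA]; abel
        rw [e1]
        refine (norm_add_le _ _).trans ?_
        have a4 := norm_nonneg (s' - s)
        have a5 := norm_nonneg (cs s' - cs s)
        nlinarith
      calc _ = ‖((M s θ : V N →L[ℝ] V N) - ContinuousLinearMap.id ℝ (V N)) u‖ := rfl
        _ ≤ ‖(M s θ : V N →L[ℝ] V N) - ContinuousLinearMap.id ℝ (V N)‖ * ‖u‖ :=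
          ContinuousLinearMap.le_opNorm _ _
        _ ≤ _ := by gcongr
    have hMi : ∀ v, ‖(M s θ).symm v‖ ≤ 2 * ‖v‖ ∧ ‖v‖ ≤ 3 / 2 * ‖(M s θ).symm v‖ := by
      intro v
      have h1 := hMb ((M s θ).symm v)
      rw [ContinuousLinearEquiv.apply_symm_apply] at h1
      have h2 : ‖(M s θ).symm v‖ ≤ ‖v‖ + ‖v - (M s θ).symm v‖ := by
        calc _ = ‖v - (v - (M s θ).symm v)‖ := by rw [sub_sub_cancel]
          _ ≤ _ := norm_sub_le _ _
      have h3 : ‖v‖ ≤ ‖v - (M s θ).symm v‖ + ‖(M s θ).symm v‖ := by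
        calc _ = ‖(v - (M s θ).symm v) + (M s θ).symm v‖ := by rw [sub_add_cancel]
          _ ≤ _ := norm_add_le _ _
      constructor <;> linarith
    -- bounds on `DP`
    have hDu : ∀ u, ‖DP u‖ ≤ (2 * N * Λ + 1) * ‖u‖ := by
      intro u
      have h1 := dclose s hsS' u
      have h2 := norm_P0_le hx0 hy0 u
      have h3 : ‖DP u‖ ≤ ‖DP u - P0 (x 0) (y 0) u‖ + ‖P0 (x 0) (y 0) u‖ := by
        calc _ = ‖(DP u - P0 (x 0) (y 0) u) + P0 (x 0) (y 0) u‖ := by rw [sub_add_cancel]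
          _ ≤ _ := norm_add_le _ _
      have h4 : η1 ≤ 1 := by nlinarith
      nlinarith [norm_nonneg u]
    have hDl : ∀ u, ‖u‖ ≤ 8 * Λ * ‖L (DP u)‖ := by
      intro u
      have h1 := dclose s hsS' u
      have h2 := dclose s0 hs0S u
      have h3 := Pl u
      have h4 : ‖P u‖ ≤ ‖L (DP u)‖ + 2 * η1 * ‖u‖ := by
        calc ‖P u‖ = ‖L (P u)‖ := (hL2 u).symm
          _ = ‖L (DP u) - L (DP u - P u)‖ := by rw [← map_sub, sub_sub_cancel]
          _ ≤ ‖L (DP u)‖ + ‖L (DP u - P u)‖ := norm_sub_le _ _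
          _ ≤ ‖L (DP u)‖ + ‖DP u - P u‖ := by gcongr; exact hL1 _
          _ ≤ ‖L (DP u)‖ + (‖DP u - P0 (x 0) (y 0) u‖ + ‖P u - P0 (x 0) (y 0) u‖) := by
            gcongr
            calc ‖DP u - P u‖ = ‖(DP u - P0 (x 0) (y 0) u) - (P u - P0 (x 0) (y 0) u)‖ := by
                  congr 1; abel
              _ ≤ _ := norm_sub_le _ _
          _ ≤ ‖L (DP u)‖ + 2 * η1 * ‖u‖ := by linarith
      have h5 : 4 * Λ * ‖P u‖ ≤ 4 * Λ * ‖L (DP u)‖ + 8 * (η1 * Λ) * ‖u‖ := by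
        calc _ ≤ 4 * Λ * (‖L (DP u)‖ + 2 * η1 * ‖u‖) := by gcongr
          _ = _ := by ring
      nlinarith [norm_nonneg u, norm_nonneg (L (DP u))]
    refine ⟨(L.restrictScalars ℝ).comp (DP.comp k'), hd2, ?_, ?_, ?_⟩
    · refine ContinuousLinearMap.opNorm_le_bound _ (by positivity) fun w => ?_
      show ‖L (DP (k' w))‖ ≤ _
      have h1 : ‖k' w‖ ≤ 2 * (2 * ‖w‖) := by
        rw [hk2]
        refine (hMi _).1.trans ?_
        have h2 : ‖fderiv ℝ (A s) θ w.1‖ ≤ 1 * ‖w‖ := by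
          refine (ContinuousLinearMap.le_opNorm _ _).trans ?_
          have h3 : ‖fderiv ℝ (A s) θ‖ ≤ 1 := by
            rw [hAs]; exact (T.dnear c hc θ).trans (by linarith)
          gcongr
          exact norm_fst_le w
        have h4 := norm_sub_le w.2 (fderiv ℝ (A s) θ w.1)
        have h5 := norm_snd_le w
        linarith
      calc ‖L (DP (k' w))‖ ≤ ‖DP (k' w)‖ := hL1 _
        _ ≤ (2 * N * Λ + 1) * ‖k' w‖ := hDu _
        _ ≤ (2 * N * Λ + 1) * (2 * (2 * ‖w‖)) := by gcongr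
        _ ≤ 16 * (N + 1) * Λ * ‖w‖ := by
          have key : ∀ q : ℝ, 0 ≤ q → (2 * N * Λ + 1) * (2 * (2 * q)) ≤ 16 * (N + 1) * Λ * q := by
            intro q hq
            have e1 : 0 ≤ N * Λ * q := by positivity
            have e2 : q ≤ Λ * q := by nlinarith
            nlinarith
          exact key _ (norm_nonneg w)
    · intro w
      show ‖w‖ ≤ 16 * (N + 1) * Λ * ‖L (DP (k' (0, w)))‖
      have h1 : k' (0, w) = (M s θ).symm w := by rw [hk2]; simp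
      rw [h1]
      have h2 := (hMi w).2
      have h3 := hDl ((M s θ).symm w)
      have h4 := norm_nonneg (L (DP ((M s θ).symm w)))
      have h5 : 0 ≤ N * Λ * ‖L (DP ((M s θ).symm w))‖ := by positivity
      nlinarith
    · intro w
      show L (DP (k' (I (θ, A s θ) w))) = Complex.I • L (DP (k' w))
      rw [hk3, ← map_smul]
      congr 1
      exact dPhi_J G F O hsS' (k' w)

end

end Crest.Agent.R281.Qt_922
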