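import Crest.Agent.R281.Qt11_355
import Crest.Agent.R281.Cr1_808
import Crest.Agent.R281.Kd10_22
import Crest.Agent.R281.Ab2_729

/-!
# R281 (S0424), QTUBE (helper355): from `Mtub` (helper808, atlas of `J 0`) to the atlas of `J 1`

* `tubeD_swap`  : `TubeD C w w'` ==> `TubeD C w' w`
* `tubeD_congr` : `TubeD` depends only on the pull backs
* `hk_g`        : the metric of `h.hk H` in the charts
* `qf_hk`       : the Hermitian form of a Kähler metric with form `L om_1`
* `adapter`     : `TubeD`, `Geo`, `Push` in an atlas of `J 1`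
-/

set_option autoImplicit false
set_option maxSynthPendingDepth 3
set_option linter.unusedSectionVars false

open Set Metric Filter Topology
open scoped ContDiff

namespace Crest.Agent.R281.QtB_355

open Crest.Agent.R275.Geo Crest.Agent.R273.Defs_333 Crest.Agent.R273.Kah_333
open Crest.Agent.R260.ACM_580 Crest.Agent.R260.NNB_580
open Crest.Agent.R281.SAsm_790 Crest.Agent.R281.Qt_922 Crest.Agent.R281.Qt10_355
open Crest.Agent.R281.HkR_835 Crest.Agent.R281.Nef_252
open Crest.Agent.R281.Per_368 (SmI pull)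
open Crest.Agent.R281.Mc673 (V W Fo tube ClF isOpen_tube kv mn)
open Crest.Agent.R281.T5D_808 Crest.Agent.R281.T5F_808 Crest.Agent.R281.Cr_808
open Crest.Agent.R281.Sta2_684 (smulP)
open Crest.Agent.R238.Sch (ee)

noncomputable section

/-! ### `TubeD` -/

section tube

variable {V' X : Type} [NormedAddCommGroup V'] [NormedSpace ℝ V'] [TopologicalSpace X]
  {C : RCh V' X} {w w' : F2 C} {N : ℕ} {R Λ δ : ℝ} {Θ : W N → X}

theorem tubeD_swap (h : TubeD C w w' N R Λ δ Θ) (hΛ : 0 < Λ) :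
    TubeD C w' w N R (Λ + Λ ^ 3) δ Θ := by
  have hΛ3 : 0 < Λ ^ 3 := by positivity
  have key : ∀ p ∈ tube N R, ∃ I : W N → W N, (∀ u, I (I u) = -u) ∧
      (∀ u v, pull w' Θ p (I u) v = -pull w Θ p u v) ∧ ∀ u, ‖u‖ ≤ Λ ^ 3 * ‖pull w' Θ p u‖ := by
    intro p hp
    obtain ⟨I, h1, h2⟩ := h.cpx p hp
    have h3 : ∀ u, pull w Θ p (I u) = -pull w' Θ p u := fun u =>
      ContinuousLinearMap.ext fun v => h2 u v
    have hinj : ∀ u v, pull w Θ p u = pull w Θ p v → u = v := by
      intro u v huv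
      have h4 := h.nd p hp (u - v)
      rw [map_sub, huv, sub_self, norm_zero, mul_zero] at h4
      exact sub_eq_zero.1 (norm_le_zero_iff.1 h4)
    have hneg : ∀ u, I (-u) = -I u := by
      intro u
      apply hinj
      rw [map_neg, h3, h3, map_neg]
    refine ⟨fun u => -I u, fun u => ?_, fun u v => ?_, fun u => ?_⟩
    · show -I (-I u) = -u
      rw [hneg, neg_neg, h1]
    · have h4 : pull w' Θ p (I u) = pull w Θ p u := by
        have h5 := h3 (I u)
        rw [h1, map_neg, neg_inj] at h5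
        exact h5.symm
      show pull w' Θ p (-I u) v = _
      rw [map_neg, h4]
      rfl
    · have e1 : ‖I u‖ ≤ Λ * ‖pull w' Θ p u‖ := by
        have := h.nd p hp (I u)
        rwa [h3, norm_neg] at this
      have e2 : ‖u‖ ≤ Λ * ‖pull w' Θ p (I u)‖ := by
        have := h.nd p hp (I (I u))
        rwa [h3, norm_neg, h1, norm_neg] at this
      have e3 : ‖pull w' Θ p (I u)‖ ≤ Λ * ‖I u‖ :=
        ((pull w' Θ p).le_opNorm _).trans (by gcongr; exact (h.bd p hp).2)
      calc ‖u‖ ≤ Λ * ‖pull w' Θ p (I u)‖ := e2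
        _ ≤ Λ * (Λ * (Λ * ‖pull w' Θ p u‖)) := by
            gcongr
            exact e3.trans (by gcongr)
        _ = Λ ^ 3 * ‖pull w' Θ p u‖ := by ring
  exact
    { sm := h.sm
      bij := h.bij
      eq_iff := h.eq_iff
      cx := h.cy
      cy := h.cx
      bd := fun p hp => ⟨(h.bd p hp).2.trans (by linarith), (h.bd p hp).1.trans (by linarith)⟩
      nd := fun p hp u => by
        obtain ⟨I, -, -, h3⟩ := key p hp
        refine (h3 u).trans ?_
        gcongr
        linarith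
      dd := fun p hp => by
        obtain ⟨h1, h2, h3, h4⟩ := h.dd p hp
        exact ⟨h3, h4, h1, h2⟩
      cpx := fun p hp => by
        obtain ⟨I, h1, h2, -⟩ := key p hp
        exact ⟨I, h1, h2⟩
      per0 := fun j k => ⟨(h.per0 j k).2, (h.per0 j k).1⟩
      hh := fun p hp u v => ⟨(h.hh p hp u v).2, (h.hh p hp u v).1⟩
      vv := fun p hp u v => ⟨(h.vv p hp u v).2, (h.vv p hp u v).1⟩ }

theorem ClF.congr {x x' : Fo N} (h : ClF R x) (he : ∀ p ∈ tube N R, x' p = x p) : ClF R x' := by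
  have hev : ∀ p ∈ tube N R, x' =ᶠ[𝓝 p] x := fun p hp => by
    filter_upwards [(isOpen_tube R).mem_nhds hp] with q hq using he q hq
  refine ⟨h.sm.congr he, fun p hp u v => ?_, fun p hp u v z => ?_, fun k p hp => ?_⟩
  · rw [he p hp]
    exact h.alt p hp u v
  · rw [(hev p hp).fderiv_eq]
    exact h.cl p hp u v z
  · have hp' : ((p.1 + kv k, p.2) : W N) ∈ tube N R := hp
    rw [he p hp, he _ hp']
    exact h.per k p hp

variable {V1 : Type} [NormedAddCommGroup V1] [NormedSpace ℝ V1] {C1 : RCh V1 X} {w1 w1' : F2 C1}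

/-- `TubeD` depends only on the pull backs -/
theorem tubeD_congr (h : TubeD C w w' N R Λ δ Θ) (hR : 0 < R) (hs : SmI C1 (tube N R) Θ)
    (hb : ∀ p ∈ tube N R, ∀ i, Θ p ∈ (C1.e i).source →
      Function.Bijective (fderiv ℝ (fun q => C1.e i (Θ q)) p))
    (h1 : ∀ p ∈ tube N R, pull w1 Θ p = pull w Θ p)
    (h2 : ∀ p ∈ tube N R, pull w1' Θ p = pull w' Θ p) : TubeD C1 w1 w1' N R Λ δ Θ := by
  have hev : ∀ {x x' : Fo N}, (∀ p ∈ tube N R, x' p = x p) → ∀ p ∈ tube N R, x' =ᶠ[𝓝 p] x :=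
    fun he p hp => by
      filter_upwards [(isOpen_tube R).mem_nhds hp] with q hq using he q hq
  have hfd : ∀ {x x' : Fo N}, (∀ p ∈ tube N R, x' p = x p) → ∀ p ∈ tube N R,
      fderiv ℝ x' p = fderiv ℝ x p ∧ fderiv ℝ (fderiv ℝ x') p = fderiv ℝ (fderiv ℝ x) p :=
    fun he p hp => ⟨(hev he p hp).fderiv_eq, ((hev he p hp).fderiv (𝕜 := ℝ)).fderiv_eq⟩
  have hz : ∀ θ : V N, ((θ, 0) : W N) ∈ tube N R := fun θ => by
    show ‖(0 : V N)‖ < R
    rw [norm_zero]
    exact hR
  exact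
    { sm := hs
      bij := hb
      eq_iff := h.eq_iff
      cx := ClF.congr h.cx h1
      cy := ClF.congr h.cy h2
      bd := fun p hp => by
        rw [h1 p hp, h2 p hp]
        exact h.bd p hp
      nd := fun p hp u => by
        rw [h1 p hp]
        exact h.nd p hp u
      dd := fun p hp => by
        rw [(hfd h1 p hp).1, (hfd h1 p hp).2, (hfd h2 p hp).1, (hfd h2 p hp).2]
        exact h.dd p hp
      cpx := fun p hp => by
        rw [h1 p hp, h2 p hp]
        exact h.cpx p hp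
      per0 := fun j k => by
        have e1 : (fun θ => pull w1 Θ (θ, 0) (ee j, 0) (ee k, 0)) =
            fun θ => pull w Θ (θ, 0) (ee j, 0) (ee k, 0) := by
          funext θ
          rw [h1 _ (hz θ)]
        have e2 : (fun θ => pull w1' Θ (θ, 0) (ee j, 0) (ee k, 0)) =
            fun θ => pull w' Θ (θ, 0) (ee j, 0) (ee k, 0) := by
          funext θ
          rw [h2 _ (hz θ)]
        rw [e1, e2]
        exact h.per0 j k
      hh := fun p hp u v => by
        rw [h1 p hp, h2 p hp]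
        exact h.hh p hp u v
      vv := fun p hp u v => by
        rw [h1 p hp, h2 p hp]
        exact h.vv p hp u v }

end tube

/-! ### the metric in other charts -/

section metric

variable {V0 V' X : Type} [NormedAddCommGroup V0] [NormedSpace ℝ V0] [NormedAddCommGroup V']
  [NormedSpace ℝ V'] [TopologicalSpace X] {C : RCh V0 X} {C' : RCh V' X}
  {E : Type} [NormedAddCommGroup E] [NormedSpace ℝ E] {S : Set E} {Φ : E → X}

/-- the metric of `h.hk H` -/
theorem hk_g (H : HkT C) (h : Cmp C C') {i : C.ι} {j : C'.ι} {z : V'} (hz : z ∈ mov C C' i j)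
    (u v : V') : (h.hk H).g j z u v =
      H.g i (mt C C' i j z) (fderiv ℝ (mt C C' i j) z u) (fderiv ℝ (mt C C' i j) z v) := by
  rw [(h.hk H).g_eq 1 hz.1, Cmp.hk_om, h.F_w (H.om 1) hz, Cmp.hk_J H h 1 hz,
    H.g_eq 1 (Cmp.mt_mem hz).1]

/-- the metric of `h.hk H` on the image of a smooth map -/
theorem hk_g_map (H : HkT C) (h : Cmp C C') (hs : SmI C' S Φ) {ζ : E} (hζ : ζ ∈ S) {i : C.ι}
    {j : C'.ι} (hi : Φ ζ ∈ (C.e i).source) (hj : Φ ζ ∈ (C'.e j).source) (u v : E) :
    (h.hk H).g j (C'.e j (Φ ζ)) (fderiv ℝ (fun y => C'.e j (Φ y)) ζ u)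
        (fderiv ℝ (fun y => C'.e j (Φ y)) ζ v) =
      H.g i (C.e i (Φ ζ)) (fderiv ℝ (fun y => C.e i (Φ y)) ζ u)
        (fderiv ℝ (fun y => C.e i (Φ y)) ζ v) := by
  have hm : C'.e j (Φ ζ) ∈ mov C C' i j := by
    refine ⟨(C'.e j).map_source hj, ?_⟩
    rw [(C'.e j).left_inv hj]
    exact hi
  rw [hk_g H h hm, ← Crest.Agent.R281.Ab_729.fderiv_cmp h hs hζ hi hj,
    ← Crest.Agent.R281.Ab_729.fderiv_cmp h hs hζ hi hj]
  change H.g i (C.e i ((C'.e j).symm (C'.e j (Φ ζ)))) _ _ = _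
  rw [(C'.e j).left_inv hj]

/-- the derivative in other charts is still bijective -/
theorem bij_cmp (h : Cmp C C') (hs : SmI C' S Φ) {ζ : E} (hζ : ζ ∈ S) {i : C.ι} {j : C'.ι}
    (hi : Φ ζ ∈ (C.e i).source) (hj : Φ ζ ∈ (C'.e j).source)
    (hb : Function.Bijective (fderiv ℝ (fun y => C'.e j (Φ y)) ζ)) :
    Function.Bijective (fderiv ℝ (fun y => C.e i (Φ y)) ζ) := by
  have hm : C'.e j (Φ ζ) ∈ mov C C' i j := by
    refine ⟨(C'.e j).map_source hj, ?_⟩
    rw [(C'.e j).left_inv hj]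
    exact hi
  have h1 := Crest.Agent.R281.Ab_729.fderiv_cmp h hs hζ hi hj
  constructor
  · intro u v huv
    rw [h1, h1] at huv
    exact hb.1 (h.inj hm huv)
  · intro v
    obtain ⟨u, hu⟩ := hb.2 (fderiv ℝ (mt C' C j i) (mt C C' i j (C'.e j (Φ ζ))) v)
    refine ⟨u, ?_⟩
    rw [h1, hu]
    exact h.d_d' hm v

end metric

/-! ### Kähler metrics -/

section kah

variable {N : ℕ} {X : Type} [TopologicalSpace X] {A : Atl N X}

theorem qf_hb (K : Kah A) (i : A.ι) (x : X) (v : Cn N) : qf K i x v = (hb (K.g i x) v v).re := by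
  unfold qf hb
  congr 1
  simp only [dotProduct, Matrix.mulVec, Matrix.transpose_apply, Pi.star_apply, Finset.mul_sum]
  rw [Finset.sum_comm]
  refine Finset.sum_congr rfl fun a _ => Finset.sum_congr rfl fun b _ => ?_
  rw [RCLike.star_def]
  ring

theorem qf_f2 (K : Kah A) {i : A.ι} {x : X} (hx : x ∈ (A.e i).source) (v : Cn N) :
    qf K i x v = (ofKah K).f2.w i (A.e i x) v (Complex.I • v) := by
  rw [f2_self (ofKah K) ((A.e i).map_source hx), (A.e i).left_inv hx, qf_hb]
  rfl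

variable {V0 : Type} [NormedAddCommGroup V0] [NormedSpace ℝ V0] {C : RCh V0 X}

/-- the Hermitian form of a Kähler metric with form `L om_k` in an atlas of `J k` -/
theorem qf_hk {H : HkT C} {k : Fin 3} (hA : Cp (H.acm k) A) (K : Kah A) {L : ℝ}
    (hK : ∀ (i : A.ι), ∀ z ∈ (A.e i).target, ∀ u v : Cn N,
      (ofKah K).f2.w i z u v = (L • (cmp_of_cp hA).F (H.om k)).w i z u v) {i : A.ι} {x : X}
    (hx : x ∈ (A.e i).source) (v : Cn N) :
    qf K i x v = L * ((cmp_of_cp hA).hk H).g i (A.e i x) v v := by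
  have hz := (A.e i).map_source hx
  rw [qf_f2 K hx, hK i _ hz, ← hk_J_I hA i hz v]
  have h1 : (L • (cmp_of_cp hA).F (H.om k)).w i (A.e i x) v
      (((cmp_of_cp hA).hk H).J k i (A.e i x) v) =
      L * (((cmp_of_cp hA).hk H).om k).w i (A.e i x) v
        (((cmp_of_cp hA).hk H).J k i (A.e i x) v) := rfl
  rw [h1, ((cmp_of_cp hA).hk H).om_eq k i _ hz, ((cmp_of_cp hA).hk H).g_J k hz]

end kah

end

end Crest.Agent.R281.QtB_355
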