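import Crest.Agent.R281.QtB1_355

/-!
# R281 (S0424), QTUBE (helper355): the adapter

`adapter` : `Mtub` (helper808, atlas of `J 0`) ==> `TubeD`, `Geo` (helper57), `Push` (helper922) and
the periods in an atlas `A1` of `J 1`, with the forms `L om_2`, `L om_0`, the metric with form `L om_1`
and the complex structure `IT A1 Θ`
-/

set_option autoImplicit false
set_option maxSynthPendingDepth 3
set_option linter.unusedSectionVars false

open Set Metric Filter Topology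
open scoped ContDiff

namespace Crest.Agent.R281.QtB_355

open Crest.Agent.R275.Geo Crest.Agent.R273.Defs_333 Crest.Agent.R273.Kah_333
open Crest.Agent.R260.ACM_580 Crest.Agent.R260.NNB_580
open Crest.Agent.R281.SAsm_790 Crest.Agent.R281.Qt_922 Crest.Agent.R281.Qt10_355
open Crest.Agent.R281.HkR_835 Crest.Agent.R281.Nef_252
open Crest.Agent.R281.Per_368
open Crest.Agent.R281.Mc673 (V W Fo tube ClF isOpen_tube kv mn)
open Crest.Agent.R281.T5D_808 Crest.Agent.R281.T5F_808 Crest.Agent.R281.Cr_808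
open Crest.Agent.R281.Sta2_684 (smulP)
open Crest.Agent.R281.Tub_57 (Geo IT geo_of IT_spec)
open Crest.Agent.R238.Sch (ee)

noncomputable section

variable {N : ℕ} {X : Type} [TopologicalSpace X]
  {C : RCh (Cn N) X} {H : HkT C} {S : Set (F2 C)} {R Λ δ : ℝ} {A A1 : Atl N X}
  {hp : Cp (H.acm 0) A} {L : ℝ} {hL : 0 < L} {Θ : W N → X}

/-- smoothness in the charts of `C` -/
theorem m_smC (h : Mtub H S R Λ δ A hp L hL Θ) : SmI C (tube N R) Θ :=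
  Crest.Agent.R281.Ab_729.smI_cmp (cmp_of_cp hp) h.tub.sm

/-- smoothness in the charts of `A1` -/
theorem m_smA (h : Mtub H S R Λ δ A hp L hL Θ) {k : Fin 3} (hA1 : Cp (H.acm k) A1) :
    SmI (ofAtl A1) (tube N R) Θ :=
  Crest.Agent.R281.Ab_729.smI_cmp (cmp_of_cp hA1).symm (m_smC h)

/-- the pull backs are the same -/
theorem m_pull_eq (h : Mtub H S R Λ δ A hp L hL Θ) {k : Fin 3} (hA1 : Cp (H.acm k) A1)
    (w : F2 C) {p : W N} (hpt : p ∈ tube N R) :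
    pull ((cmp_of_cp hA1).F w) Θ p = pull ((cmp_of_cp hp).F w) Θ p := by
  rw [Crest.Agent.R281.Kd_22.pull_F (cmp_of_cp hA1) (m_smA h hA1) w hpt,
    Crest.Agent.R281.Kd_22.pull_F (cmp_of_cp hp) h.tub.sm w hpt]

theorem pull_smul {V' : Type} [NormedAddCommGroup V'] [NormedSpace ℝ V'] {C' : RCh V' X}
    (t : ℝ) (w : F2 C') (Θ : W N → X) (p : W N) : pull (t • w) Θ p = t • pull w Θ p := rfl

theorem m_bijA (h : Mtub H S R Λ δ A hp L hL Θ) {k : Fin 3} (hA1 : Cp (H.acm k) A1) {p : W N}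
    (hpt : p ∈ tube N R) (j : A1.ι) (hj : Θ p ∈ (A1.e j).source) :
    Function.Bijective (fderiv ℝ (fun q => A1.e j (Θ q)) p) := by
  obtain ⟨i, hi⟩ := C.cover (Θ p)
  obtain ⟨l, hl⟩ := A.cover (Θ p)
  have h1 := bij_cmp (cmp_of_cp hp) h.tub.sm hpt hi (j := l) hl (h.tub.bij p hpt l hl)
  exact bij_cmp (C := ofAtl A1) (cmp_of_cp hA1).symm (m_smC h) hpt (i := j) hj hi h1

/-- **`TubeD` in the atlas of `J 1`** -/
theorem m_tubeD1 (h : Mtub H S R Λ δ A hp L hL Θ) (hA1 : Cp (H.acm 1) A1) (hR : 0 < R)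
    (hΛ : 0 < Λ) : TubeD (ofAtl A1) (L • (cmp_of_cp hA1).F (H.om 2))
      (L • (cmp_of_cp hA1).F (H.om 0)) N R (Λ + Λ ^ 3) δ Θ := by
  refine tubeD_congr (tubeD_swap h.tub hΛ) hR (m_smA h hA1) (fun p hp j hj => m_bijA h hA1 hp j hj)
    (fun p hp => ?_) (fun p hp => ?_)
  · rw [pull_smul, pull_smul, m_pull_eq h hA1 _ hp]
  · rw [pull_smul, pull_smul, m_pull_eq h hA1 _ hp]

theorem hJ_12 (hA1 : Cp (H.acm 1) A1) (L : ℝ) (i : A1.ι) (z : Cn N) (hz : z ∈ (A1.e i).target)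
    (u v : Cn N) : (L • (cmp_of_cp hA1).F (H.om 2)).w i z (Complex.I • u) v =
      -(L • (cmp_of_cp hA1).F (H.om 0)).w i z u v := by
  have h1 := (((cmp_of_cp hA1).hk H).om_J (k := 1) (l := 2) (m := 0) (Or.inr (Or.inl rfl)) hz u v).1
  rw [hk_J_I hA1 i hz u] at h1
  have e1 : (L • (cmp_of_cp hA1).F (H.om 2)).w i z (Complex.I • u) v =
      L * (((cmp_of_cp hA1).hk H).om 2).w i z (Complex.I • u) v := rfl
  have e2 : (L • (cmp_of_cp hA1).F (H.om 0)).w i z u v =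
      L * (((cmp_of_cp hA1).hk H).om 0).w i z u v := rfl
  rw [e1, e2, h1]
  ring

/-- the metric in the coordinates `Θ` -/
theorem m_pinA (h : Mtub H S R Λ δ A hp L hL Θ) {k : Fin 3} (hA1 : Cp (H.acm k) A1) {p : W N}
    (hpt : p ∈ tube N R) (j : A1.ι) (hj : Θ p ∈ (A1.e j).source) (u : W N) :
    ‖u‖ ^ 2 ≤ Λ * (L * ((cmp_of_cp hA1).hk H).g j (A1.e j (Θ p))
        (fderiv ℝ (fun q => A1.e j (Θ q)) p u) (fderiv ℝ (fun q => A1.e j (Θ q)) p u)) ∧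
      L * ((cmp_of_cp hA1).hk H).g j (A1.e j (Θ p))
        (fderiv ℝ (fun q => A1.e j (Θ q)) p u) (fderiv ℝ (fun q => A1.e j (Θ q)) p u) ≤
        Λ * ‖u‖ ^ 2 := by
  obtain ⟨i, hi⟩ := C.cover (Θ p)
  obtain ⟨l, hl⟩ := A.cover (Θ p)
  have h1 := h.pin p hpt l hl u
  have e1 := hk_g_map H (cmp_of_cp hp) h.tub.sm hpt hi (j := l) hl u u
  have e2 := hk_g_map H (cmp_of_cp hA1) (m_smA h hA1) hpt hi (j := j) hj u u
  have e3 : (smulP L hL ((cmp_of_cp hp).hk H)).g l ((ofAtl A).e l (Θ p))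
      (fderiv ℝ (fun q => (ofAtl A).e l (Θ q)) p u)
      (fderiv ℝ (fun q => (ofAtl A).e l (Θ q)) p u) =
      L * ((cmp_of_cp hp).hk H).g l ((ofAtl A).e l (Θ p))
        (fderiv ℝ (fun q => (ofAtl A).e l (Θ q)) p u)
        (fderiv ℝ (fun q => (ofAtl A).e l (Θ q)) p u) := rfl
  rw [e3, e1, ← e2] at h1
  exact h1

/-- **`Push` in the atlas of `J 1`** -/
theorem m_push (h : Mtub H S R Λ δ A hp L hL Θ) (hA1 : Cp (H.acm 1) A1) (hR : 0 < R)
    (hΛ : 0 < Λ) (K : Kah A1) (hK : ∀ (i : A1.ι), ∀ z ∈ (A1.e i).target, ∀ u v : Cn N,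
      (ofKah K).f2.w i z u v = (L • (cmp_of_cp hA1).F (H.om 1)).w i z u v) :
    Push A1 K R Λ (IT A1 Θ) Θ := by
  have hT := m_tubeD1 h hA1 hR hΛ
  refine ⟨h.tub.sm.cont, fun p hp j hj => (m_smA h hA1).smAt hp (i := j) hj,
    fun p hp j hj => m_bijA h hA1 hp j hj, fun p hp j hj u => IT_spec hT hp hj u,
    fun p hp j hj u => ?_, fun p hp j hj u => ?_, fun p hp q hq => h.tub.eq_iff p hp q hq⟩
  · rw [qf_hk hA1 K hK hj]
    exact (m_pinA h hA1 hp j hj u).1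
  · rw [qf_hk hA1 K hK hj]
    exact (m_pinA h hA1 hp j hj u).2

/-- the periods in the atlas of `J 1` -/
theorem m_perA (h : Mtub H S R Λ δ A hp L hL Θ) {k : Fin 3} (hA1 : Cp (H.acm k) A1)
    {v : F2 C} (hv : v ∈ S) {p : W N} (hpt : p ∈ tube N R) (j l : Fin N) :
    per (pull ((cmp_of_cp hA1).F v) Θ) p ((ee j, 0) : W N) ((ee l, 0) : W N) = 0 := by
  rw [← h.per v hv p hpt j l]
  refine Crest.Agent.R281.Kd_22.per_congr fun s t => ?_
  rw [m_pull_eq h hA1 v]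
  show ‖(pt p ((ee j, 0) : W N) ((ee l, 0) : W N) s t).2‖ < R
  have e : (pt p ((ee j, 0) : W N) ((ee l, 0) : W N) s t).2 = p.2 := by
    simp [pt]
  rw [e]
  exact hpt

/-- **the adapter** -/
theorem adapter (h : Mtub H S R Λ δ A hp L hL Θ) (hA1 : Cp (H.acm 1) A1) (hR : 0 < R)
    (hΛ : 0 < Λ) (K : Kah A1) (hK : ∀ (i : A1.ι), ∀ z ∈ (A1.e i).target, ∀ u v : Cn N,
      (ofKah K).f2.w i z u v = (L • (cmp_of_cp hA1).F (H.om 1)).w i z u v) :
    TubeD (ofAtl A1) (L • (cmp_of_cp hA1).F (H.om 2)) (L • (cmp_of_cp hA1).F (H.om 0)) N R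
      (Λ + Λ ^ 3) δ Θ ∧
    Geo R (pull (L • (cmp_of_cp hA1).F (H.om 2)) Θ) (pull (L • (cmp_of_cp hA1).F (H.om 0)) Θ)
      (IT A1 Θ) ∧ Push A1 K R Λ (IT A1 Θ) Θ :=
  ⟨m_tubeD1 h hA1 hR hΛ, geo_of (m_tubeD1 h hA1 hR hΛ) (hJ_12 hA1 L), m_push h hA1 hR hΛ K hK⟩

end

end Crest.Agent.R281.QtB_355
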