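import Crest.Agent.R281.Qt8_922
import Crest.Agent.R281.Mc12_673

/-!
# R281, QTUBE (helper273): the tori of 673 / 40 / 156 as the family `TFam` of 922
-/

set_option autoImplicit false
set_option maxSynthPendingDepth 3

open Set Metric Filter Topology
open scoped ContDiff

namespace Crest.Agent.R281.QtF_273

open Crest.Agent.R281.Mc673 (V W Fo tube ClF isOpen_tube kv Tori)
open Crest.Agent.R281.Qt_922

/-- **`Tori` ⟹ `TFam`** -/
theorem tfam_of_tori {N : ℕ} {r ρ ε : ℝ} {x y : Fo N} {a : V N → V N → V N}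
    (h : Tori N r ρ ε x y a) : TFam r ρ ε x y a where
  leaf c hc :=
    { c1 := h.c1 c hc.le
      per := h.per c hc.le
      tub := fun θ => h.lt c hc.le θ
      ix := fun θ u v => h.x0 c hc.le θ u v
      iy := fun θ u v => h.y0 c hc.le θ u v }
  near c hc θ := h.near c hc.le θ
  dnear c hc θ := h.dnear c hc.le θ
  lip c hc c' hc' θ := h.lip c c' hc.le hc'.le θ
  dlip c hc c' hc' θ := h.dlip c c' hc.le hc'.le θ

end Crest.Agent.R281.QtF_273
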