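import Crest.Agent.R281.HkP3_508
import Crest.Agent.R281.KpK_487
import Crest.Agent.R273.FIlin_332
import Crest.Agent.R273.GreenG_5

/-!
# R281 (S0424), S6-RF (helper373), part 1: linear algebra of hyperkaehler pairs

* `tr_ge`, `eq_of_tr` : `tr (G⁻¹ S) ≥ n` for `det S = det G`, equality iff `S = G`;
* `qm_left`  : `qm S G H = tr (adj G H)` for `S G⁻ᵀ Sᴴ = G`;
* `qm_symm`, `qm_add`, `qm_smulS`
* `qm_pair`  : `N r² det G = N det G + 2 tr (adj G Θ) + qm S Θ Θ` for two pairs `(G, S)`,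
               `(G + Θ, r S)`
-/

set_option autoImplicit false
set_option linter.unusedSectionVars false

open Set Filter Topology Complex
open scoped ContDiff Matrix ComplexConjugate ComplexOrder

namespace Crest.Agent.R281.RF_373

open Crest.Agent.R281.Defs_273 (qm)
open Crest.Agent.R273.FIlin_332 (simd nd nd_pos det_nd tr_eq)

variable {n : ℕ}

/-- for positive definite `G`, positive semidefinite `S` with `det S = det G`: `tr (G⁻¹ S) ≥ n`, and
equality forces `S = G` -/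
theorem eq_of_tr {G S : Matrix (Fin n) (Fin n) ℂ} (hG : G.PosDef) (hS : S.PosSemidef)
    (hdet : S.det = G.det) (ht : ((G⁻¹ * S).trace).re ≤ n) : S = G := by
  obtain ⟨B, d, hB, hd, h1, h2⟩ := simd hG hS
  have hGd : G.det = (nd B : ℂ) := by
    rw [h1, Matrix.det_mul, det_nd]
  have hSd : S.det = ((nd B * ∏ i, d i : ℝ) : ℂ) := by
    rw [h2, Matrix.det_mul, Matrix.det_mul, Matrix.det_diagonal]
    push_cast
    rw [← det_nd]
    ring
  rw [tr_eq hB h1 h2, Complex.ofReal_re] at ht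
  rw [hSd, hGd] at hdet
  have hdet' : nd B * ∏ i, d i = nd B := by exact_mod_cast hdet
  have hprod : ∏ i, d i = 1 := by
    have := nd_pos hB
    exact mul_left_cancel₀ this.ne' (by rw [hdet', mul_one])
  have hdpos : ∀ i, 0 < d i := by
    intro i
    refine lt_of_le_of_ne (hd i) fun h0 => ?_
    have : ∏ i, d i = 0 := Finset.prod_eq_zero (Finset.mem_univ i) h0.symm
    rw [this] at hprod
    exact zero_ne_one hprod
  have hlog : ∑ i, Real.log (d i) = 0 := by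
    rw [← Real.log_prod fun i _ => (hdpos i).ne', hprod, Real.log_one]
  have hle : ∀ i ∈ Finset.univ, (0 : ℝ) ≤ d i - 1 - Real.log (d i) := fun i _ => by
    have := Real.log_le_sub_one_of_pos (hdpos i)
    linarith
  have hsum : ∑ i, (d i - 1 - Real.log (d i)) = 0 := by
    refine le_antisymm ?_ (Finset.sum_nonneg hle)
    rw [Finset.sum_sub_distrib, Finset.sum_sub_distrib, hlog]
    simp
    linarith
  have hall := (Finset.sum_eq_zero_iff_of_nonneg hle).1 hsum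
  have hd1 : ∀ i, d i = 1 := by
    intro i
    by_contra hne
    have h3 := Real.log_lt_sub_one_of_pos (hdpos i) hne
    have h4 := hall i (Finset.mem_univ i)
    linarith
  rw [h1, h2]
  simp [hd1]

theorem conjT_map {S : Matrix (Fin n) (Fin n) ℂ} (hS : Sᵀ = -S) : Sᴴ = - S.map conj := by
  ext a b
  have h1 := congrFun (congrFun hS a) b
  rw [Matrix.transpose_apply, Matrix.neg_apply] at h1
  rw [Matrix.conjTranspose_apply, Matrix.neg_apply, Matrix.map_apply, h1, star_neg]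
  rfl

/-- `S⁻¹ G (conj S)⁻¹ = - (Gᵀ)⁻¹` for a hyperkaehler pair -/
theorem pair_inv {S G : Matrix (Fin n) (Fin n) ℂ} (hS : Sᵀ = -S) (hd : S.det ≠ 0)
    (hR : S * (Gᵀ)⁻¹ * Sᴴ = G) : S⁻¹ * G * (S.map conj)⁻¹ = - (Gᵀ)⁻¹ := by
  have hu : IsUnit S.det := isUnit_iff_ne_zero.2 hd
  have hc : S.map conj = - Sᴴ := by rw [conjT_map hS, neg_neg]
  have hu' : IsUnit (Sᴴ).det := by
    rw [Matrix.det_conjTranspose]
    exact hu.star
  have h1 : (S.map conj)⁻¹ = - (Sᴴ)⁻¹ := by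
    rw [hc]
    refine Matrix.inv_eq_left_inv ?_
    rw [neg_mul_neg, Matrix.nonsing_inv_mul _ hu']
  rw [h1, Matrix.mul_neg]
  congr 1
  calc S⁻¹ * G * (Sᴴ)⁻¹ = S⁻¹ * (S * (Gᵀ)⁻¹ * Sᴴ) * (Sᴴ)⁻¹ := by rw [hR]
    _ = (S⁻¹ * S) * (Gᵀ)⁻¹ * (Sᴴ * (Sᴴ)⁻¹) := by simp only [Matrix.mul_assoc]
    _ = (Gᵀ)⁻¹ := by
      rw [Matrix.nonsing_inv_mul _ hu, Matrix.mul_nonsing_inv _ hu', one_mul, mul_one]

theorem qm_left {S G : Matrix (Fin n) (Fin n) ℂ} (hS : Sᵀ = -S) (hd : S.det ≠ 0)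
    (hR : S * (Gᵀ)⁻¹ * Sᴴ = G) (hG : G.PosDef) (hdet : G.det = ((‖S.det‖ : ℝ) : ℂ))
    (H : Matrix (Fin n) (Fin n) ℂ) : qm S G H = (G.adjugate * H).trace := by
  unfold qm
  rw [pair_inv hS hd hR, Matrix.neg_mul, Matrix.trace_neg, neg_mul_neg, ← hdet,
    Crest.Agent.R273.GreenG_5.adjugate_eq hG, Matrix.smul_mul, Matrix.trace_smul, smul_eq_mul]
  congr 1
  have h1 : (Gᵀ)⁻¹ * Hᵀ = (H * G⁻¹)ᵀ := by
    rw [Matrix.transpose_mul, Matrix.transpose_nonsing_inv]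
  rw [h1, Matrix.trace_transpose, Matrix.trace_mul_comm]

theorem qm_symm {S : Matrix (Fin n) (Fin n) ℂ} (hS : Sᵀ = -S) (hd : S.det ≠ 0)
    (G H : Matrix (Fin n) (Fin n) ℂ) : qm S H G = qm S G H := by
  have hu : IsUnit S.det := isUnit_iff_ne_zero.2 hd
  have hc : (S.map conj)ᵀ = - S.map conj := by
    ext a b
    have h1 := congrFun (congrFun hS a) b
    rw [Matrix.transpose_apply, Matrix.neg_apply] at h1
    rw [Matrix.transpose_apply, Matrix.neg_apply, Matrix.map_apply, Matrix.map_apply, h1, map_neg]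
  have hneg : ∀ X : Matrix (Fin n) (Fin n) ℂ, IsUnit X.det → (-X)⁻¹ = - X⁻¹ := by
    intro X hX
    refine Matrix.inv_eq_left_inv ?_
    rw [neg_mul_neg, Matrix.nonsing_inv_mul _ hX]
  have hcu : IsUnit (S.map conj).det := by
    have : (S.map conj).det = conj S.det := by
      rw [← RingHom.mapMatrix_apply, ← RingHom.map_det]
    rw [this]
    exact hu.map (starRingEnd ℂ)
  have h1 : (S⁻¹)ᵀ = - S⁻¹ := by
    rw [Matrix.transpose_nonsing_inv, hS, hneg _ hu]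
  have h2 : ((S.map conj)⁻¹)ᵀ = - (S.map conj)⁻¹ := by
    rw [Matrix.transpose_nonsing_inv, hc, hneg _ hcu]
  unfold qm
  congr 1
  have h3 : (S⁻¹ * H * (S.map conj)⁻¹ * Gᵀ)ᵀ = G * (S.map conj)⁻¹ * Hᵀ * S⁻¹ := by
    rw [Matrix.transpose_mul, Matrix.transpose_mul, Matrix.transpose_mul,
      Matrix.transpose_transpose, h1, h2]
    simp only [Matrix.mul_neg, Matrix.neg_mul, neg_neg, Matrix.mul_assoc]
  rw [← Matrix.trace_transpose, h3, Matrix.trace_mul_comm]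
  simp only [Matrix.mul_assoc]

theorem qm_add_right (S G H H' : Matrix (Fin n) (Fin n) ℂ) :
    qm S G (H + H') = qm S G H + qm S G H' := by
  unfold qm
  rw [Matrix.transpose_add, Matrix.mul_add, Matrix.trace_add, mul_add]

theorem qm_add_left (S G G' H : Matrix (Fin n) (Fin n) ℂ) :
    qm S (G + G') H = qm S G H + qm S G' H := by
  unfold qm
  rw [Matrix.mul_add, Matrix.add_mul, Matrix.add_mul, Matrix.trace_add, mul_add]

theorem qm_smulS {S : Matrix (Fin n) (Fin n) ℂ} (hd : S.det ≠ 0) {r : ℝ} (hr : 0 < r)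
    (G H : Matrix (Fin n) (Fin n) ℂ) :
    ((r ^ 2 : ℝ) : ℂ) * qm ((r : ℂ) • S) G H = ((r ^ n : ℝ) : ℂ) * qm S G H := by
  have hu : IsUnit S.det := isUnit_iff_ne_zero.2 hd
  have hrc : (r : ℂ) ≠ 0 := by exact_mod_cast hr.ne'
  have hinv : ∀ X : Matrix (Fin n) (Fin n) ℂ, IsUnit X.det → ((r : ℂ) • X)⁻¹ = (r : ℂ)⁻¹ • X⁻¹ := by
    intro X hX
    refine Matrix.inv_eq_left_inv ?_
    rw [Matrix.smul_mul, Matrix.mul_smul, smul_smul, inv_mul_cancel₀ hrc, one_smul,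
      Matrix.nonsing_inv_mul _ hX]
  have hcu : IsUnit (S.map conj).det := by
    have : (S.map conj).det = conj S.det := by
      rw [← RingHom.mapMatrix_apply, ← RingHom.map_det]
    rw [this]
    exact hu.map (starRingEnd ℂ)
  have hmap : ((r : ℂ) • S).map conj = (r : ℂ) • S.map conj := by
    ext a b
    simp
  unfold qm
  rw [hmap, hinv _ hu, hinv _ hcu, Matrix.det_smul, Fintype.card_fin, norm_mul, norm_pow,
    Complex.norm_real, Real.norm_eq_abs, abs_of_pos hr]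
  simp only [Matrix.smul_mul, Matrix.mul_smul, smul_smul, Matrix.trace_smul, smul_eq_mul]
  push_cast
  field_simp

/-- the identity behind `λ - 1 = c (ω, e)` -/
theorem qm_pair {S G Θ : Matrix (Fin n) (Fin n) ℂ} (hS : Sᵀ = -S) (hd : S.det ≠ 0)
    (hR : S * (Gᵀ)⁻¹ * Sᴴ = G) (hG : G.PosDef) (hdet : G.det = ((‖S.det‖ : ℝ) : ℂ))
    {r : ℝ} (hr : 0 < r)
    (hR' : ((r : ℂ) • S) * ((G + Θ)ᵀ)⁻¹ * ((r : ℂ) • S)ᴴ = G + Θ) (hG' : (G + Θ).PosDef)
    (hdet' : (G + Θ).det = ((‖((r : ℂ) • S).det‖ : ℝ) : ℂ)) :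
    (n : ℂ) * ((r ^ 2 : ℝ) : ℂ) * G.det =
      n * G.det + 2 * (G.adjugate * Θ).trace + qm S Θ Θ := by
  have hrc : (r : ℂ) ≠ 0 := by exact_mod_cast hr.ne'
  have hS' : ((r : ℂ) • S)ᵀ = - ((r : ℂ) • S) := by
    rw [Matrix.transpose_smul, hS, smul_neg]
  have hd' : ((r : ℂ) • S).det ≠ 0 := by
    rw [Matrix.det_smul]
    exact mul_ne_zero (pow_ne_zero _ hrc) hd
  have hself : ∀ X : Matrix (Fin n) (Fin n) ℂ, (X.adjugate * X).trace = n * X.det := by
    intro X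
    rw [Matrix.adjugate_mul, Matrix.trace_smul, Matrix.trace_one, Fintype.card_fin, smul_eq_mul,
      mul_comm]
  have h1 := qm_left hS hd hR hG hdet G
  have h2 := qm_left hS hd hR hG hdet Θ
  have h3 := qm_left hS' hd' hR' hG' hdet' (G + Θ)
  have h4 := qm_smulS hd hr (G + Θ) (G + Θ)
  rw [h3, hself] at h4
  rw [hself] at h1
  have h5 : (G + Θ).det = ((r ^ n : ℝ) : ℂ) * G.det := by
    rw [hdet', hdet, Matrix.det_smul, Fintype.card_fin, norm_mul, norm_pow, Complex.norm_real,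
      Real.norm_eq_abs, abs_of_pos hr]
    push_cast
    ring
  have h6 : qm S (G + Θ) (G + Θ) = n * G.det + 2 * (G.adjugate * Θ).trace + qm S Θ Θ := by
    rw [qm_add_right, qm_add_left, qm_add_left, h1, h2, qm_symm hS hd G Θ, h2]
    ring
  rw [h6, h5] at h4
  have hrn : ((r ^ n : ℝ) : ℂ) ≠ 0 := by
    exact_mod_cast (pow_pos hr n).ne'
  have h7 : ((r ^ n : ℝ) : ℂ) * ((n : ℂ) * ((r ^ 2 : ℝ) : ℂ) * G.det) =
      ((r ^ n : ℝ) : ℂ) * (n * G.det + 2 * (G.adjugate * Θ).trace + qm S Θ Θ) := by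
    rw [← h4]
    ring
  exact mul_left_cancel₀ hrn h7

end Crest.Agent.R281.RF_373
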