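import Crest.Agent.R281.RkE_902

/-!
# Row 281, ROADP (helper326), part 1: the Kaehler cone is open in the classes of type (1,1)

* `exists_pos2`, `exists_pos_sum` : positivity is open in finitely many directions
* `pr2`      : projection to the classes orthogonal to `om 1`, `om 2`
* `kcls_near`: classes near a positive multiple of `om 0`, orthogonal to `om 1`, `om 2`, are
               Kaehler classes for `J 0`
-/

set_option autoImplicit false
set_option linter.unusedSectionVars false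
set_option maxSynthPendingDepth 3

open Set Filter Topology
open scoped ContDiff

namespace Crest.Agent.R281.Rd_326

open Crest.Agent.R275.Geo Crest.Agent.R275.Core144
open Crest.Agent.R281.HkR_835 Crest.Agent.R281.Ti_846 Crest.Agent.R281.Cdr_234
open Crest.Agent.R281.Dif_268 Crest.Agent.R281.PL_713
open Crest.Agent.R281.NefO_476 Crest.Agent.R281.Nef_252
open Crest.Agent.R281.Alg_998 Crest.Agent.R281.RkD_902

noncomputable section

section gen

variable {V X : Type} [NormedAddCommGroup V] [NormedSpace ℝ V] [TopologicalSpace X]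
  {C : RCh V X} [FiniteDimensional ℝ V] [CompactSpace X]

/-- positivity is open: one direction -/
theorem exists_pos2 {J : AJ C} {om : F2 C} (h : Pos J om) (y : F2 C) :
    ∃ c : ℝ, 0 < c ∧ ∀ t : ℝ, |t| ≤ c → Pos J (om + t • y) := by
  obtain ⟨c1, h1, hp1⟩ := exists_pos_sub (om := y) h
  obtain ⟨c2, h2, hp2⟩ := exists_pos_sub (om := -y) h
  refine ⟨min c1 c2, lt_min h1 h2, fun t ht i z hz u hu => ?_⟩
  have e1 := hp1 i z hz u hu
  have e2 := hp2 i z hz u hu
  simp only [F2.add_w, F2.sub_w, F2.smul_w, F2.neg_w, add_apply, sub_apply, smul_apply, neg_apply,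
    smul_eq_mul] at e1 e2 ⊢
  obtain ⟨ht1, ht2⟩ := abs_le.1 ht
  have ht3 : -c1 ≤ t := by linarith [min_le_left c1 c2]
  have ht4 : t ≤ c2 := by linarith [min_le_right c1 c2]
  rcases le_total 0 (y.w i z u (J.J i z u)) with hb | hb
  · nlinarith [mul_le_mul_of_nonneg_right ht3 hb]
  · nlinarith [mul_le_mul_of_nonpos_right ht4 hb]

/-- positivity is open: finitely many directions -/
theorem exists_pos_sum {J : AJ C} {M : ℕ} : ∀ {om : F2 C} (_ : Pos J om) (y : Fin M → F2 C),
    ∃ c : ℝ, 0 < c ∧ ∀ t : Fin M → ℝ, (∀ k, |t k| ≤ c) → Pos J (om + ∑ k, t k • y k) := by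
  induction M with
  | zero =>
    intro om h y
    refine ⟨1, one_pos, fun t _ => ?_⟩
    rw [Fin.sum_univ_zero, add_zero]
    exact h
  | succ M ih =>
    intro om h y
    have hh : Pos J ((1 / 2 : ℝ) • om) := Pos.smul (by norm_num) h
    obtain ⟨c1, h1, hp1⟩ := ih hh fun k => y k.castSucc
    obtain ⟨c2, h2, hp2⟩ := exists_pos2 hh (y (Fin.last M))
    refine ⟨min c1 c2, lt_min h1 h2, fun t ht => ?_⟩
    have e1 := hp1 (fun k => t k.castSucc) fun k => (ht _).trans (min_le_left _ _)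
    have e2 := hp2 (t (Fin.last M)) ((ht _).trans (min_le_right _ _))
    have e3 := Pos.add e1 e2
    rw [Fin.sum_univ_castSucc]
    have e4 : (1 / 2 : ℝ) • om + ∑ k : Fin M, t k.castSucc • y k.castSucc +
        ((1 / 2 : ℝ) • om + t (Fin.last M) • y (Fin.last M)) =
        om + (∑ k : Fin M, t k.castSucc • y k.castSucc + t (Fin.last M) • y (Fin.last M)) := by
      have : om = (1 / 2 : ℝ) • om + (1 / 2 : ℝ) • om := by
        rw [← add_smul]; norm_num
      conv_rhs => rw [this]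
      abel
    rwa [e4] at e3

theorem T11.sum {J : AJ C} {M : ℕ} {y : Fin M → F2 C} (h : ∀ k, T11 J (y k)) (t : Fin M → ℝ) :
    T11 J (∑ k, t k • y k) := by
  induction M with
  | zero =>
    rw [Fin.sum_univ_zero]
    intro i z hz u v
    rfl
  | succ M ih =>
    rw [Fin.sum_univ_castSucc]
    exact (ih (fun k => h k.castSucc) fun k => t k.castSucc).add ((h _).smul _)

theorem cl_sum {M : ℕ} {y y' : Fin M → F2 C} (h : ∀ k, Cl (y k) (y' k)) (t : Fin M → ℝ) :
    Cl (∑ k, t k • y k) (∑ k, t k • y' k) := by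
  induction M with
  | zero =>
    rw [Fin.sum_univ_zero, Fin.sum_univ_zero]
    exact Cl.refl _
  | succ M ih =>
    rw [Fin.sum_univ_castSucc, Fin.sum_univ_castSucc]
    exact (ih (fun k => h k.castSucc) fun k => t k.castSucc).add ((h _).smul _)

/-- projection to the classes orthogonal to `om 1`, `om 2` -/
def pr2 (Q : F2 C →ₗ[ℝ] F2 C →ₗ[ℝ] ℝ) (H : HkT C) (x : F2 C) : F2 C :=
  x - (Q x (H.om 1) / Q (H.om 0) (H.om 0)) • H.om 1 -
    (Q x (H.om 2) / Q (H.om 0) (H.om 0)) • H.om 2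

/-- the projection as a linear map -/
def pr2L (Q : F2 C →ₗ[ℝ] F2 C →ₗ[ℝ] ℝ) (H : HkT C) : F2 C →ₗ[ℝ] F2 C where
  toFun := pr2 Q H
  map_add' x y := by
    simp only [pr2, map_add, LinearMap.add_apply, add_div]
    module
  map_smul' c x := by
    simp only [pr2, map_smul, LinearMap.smul_apply, smul_eq_mul, RingHom.id_apply, mul_div_assoc]
    module

theorem pr2_sum (Q : F2 C →ₗ[ℝ] F2 C →ₗ[ℝ] ℝ) (H : HkT C) {M : ℕ} (b : Fin M → F2 C)
    (t : Fin M → ℝ) : ∑ k, t k • pr2 Q H (b k) = pr2 Q H (lco b t) := by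
  have h : pr2L Q H (lco b t) = ∑ k, t k • pr2L Q H (b k) := by
    rw [lco, map_sum]
    exact Finset.sum_congr rfl fun k _ => by rw [map_smul]
  exact h.symm

end gen

section ctx

variable {n : ℕ} {X : Type} [TopologicalSpace X] [CompactSpace X] {C : RCh (Cn (2 * n)) X}
  {Q : F2 C →ₗ[ℝ] F2 C →ₗ[ℝ] ℝ}

/-- **the Kaehler cone is open** -/
theorem kcls_near (hc : Ctx n C Q) {H : HkT C} (hp : 0 < Q (H.om 0) (H.om 0)) {M : ℕ}
    (b : Fin M → F2 C) {p : ℝ} (hp0 : 0 < p) :
    ∃ δ : ℝ, 0 < δ ∧ ∀ t : Fin M → ℝ, (∀ k, |t k| ≤ δ) → Q (lco b t) (H.om 1) = 0 →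
      Q (lco b t) (H.om 2) = 0 → KCls (ofHk H 0) (p • H.om 0 + lco b t) := by
  have h11 : Q (H.om 1) (H.om 1) = Q (H.om 0) (H.om 0) := hc.eq H 1
  have h22 : Q (H.om 2) (H.om 2) = Q (H.om 0) (H.om 0) := hc.eq H 2
  have h12 : Q (H.om 1) (H.om 2) = 0 := hc.ort H 1 2 (by decide)
  have h21 : Q (H.om 2) (H.om 1) = 0 := hc.ort H 2 1 (by decide)
  have hy : ∀ k, ∃ y, Cl y (pr2 Q H (b k)) ∧ T11 (ofHk H 0) y := by
    intro k
    refine hc.t11 H hp _ ?_ ?_
    · simp only [pr2, map_sub, map_smul, LinearMap.sub_apply, LinearMap.smul_apply, smul_eq_mul,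
        h11, h21]
      field_simp
      ring
    · simp only [pr2, map_sub, map_smul, LinearMap.sub_apply, LinearMap.smul_apply, smul_eq_mul,
        h22, h12]
      field_simp
      ring
  choose y hy1 hy2 using hy
  have hpos : Pos (ofHk H 0) (p • H.om 0) := Pos.smul hp0 (Pos_hk H 0)
  obtain ⟨δ, hδ, hP⟩ := exists_pos_sum hpos y
  refine ⟨δ, hδ, fun t ht e1 e2 => ?_⟩
  have h1 := KCls.of ((((T11_hk H 0).smul p)).add (T11.sum hy2 t)) (hP t ht)
  refine h1.congr ?_
  have h2 : Cl (∑ k, t k • y k) (lco b t) := by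
    refine (cl_sum hy1 t).trans ?_
    rw [pr2_sum]
    have : pr2 Q H (lco b t) = lco b t := by
      simp only [pr2, e1, e2, zero_div, zero_smul, sub_zero]
    rw [this]
    exact Cl.refl _
  exact (Cl.refl (p • H.om 0)).add h2

end ctx

end

end Crest.Agent.R281.Rd_326
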