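import Crest.Agent.R281.Rd1_326
import Crest.Agent.R281.Pjx1_648

/-!
# Row 281, ROADP (helper326), part 2: rational choices

* `lco_add`, ...        : linear combinations
* `continuous_q1`, `q2` : continuity in coordinates
* `exists_rat2`         : rational `a`, `c` near `b0`, `c0` with `Q(a, c) = 0`
* `EVA Q e v A`         : `e` isotropic, `v`, `A` positive, pairwise orthogonal
* `w1`, `es`, `EVA.frm` : the frame of a class `w` with `Q(w, e) ≠ 0`
* `esC`                 : `es` in coordinates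
-/

set_option autoImplicit false
set_option linter.unusedSectionVars false
set_option maxSynthPendingDepth 3

open Set Filter Topology
open scoped ContDiff

namespace Crest.Agent.R281.Rd_326

open Crest.Agent.R275.Geo Crest.Agent.R275.Core144
open Crest.Agent.R281.HkR_835 Crest.Agent.R281.Ti_846 Crest.Agent.R281.Cdr_234
open Crest.Agent.R281.Dif_268 Crest.Agent.R281.PL_713
open Crest.Agent.R281.NefO_476 Crest.Agent.R281.Nef_252
open Crest.Agent.R281.Alg_998 Crest.Agent.R281.RkD_902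

noncomputable section

variable {V X : Type} [NormedAddCommGroup V] [NormedSpace ℝ V] [TopologicalSpace X]
  {C : RCh V X} {Q : F2 C →ₗ[ℝ] F2 C →ₗ[ℝ] ℝ}

theorem cl_sub {a a' b b' : F2 C} (h : Cl a a') (h' : Cl b b') : Cl (a - b) (a' - b') := by
  have h1 : Ex ((a - a') - (b - b')) := Ex.sub h h'
  unfold Cl
  rwa [show a - b - (a' - b') = (a - a') - (b - b') by abel]

/-! ### linear combinations -/

section lin

variable {m m' : ℕ} (bas : Fin m → F2 C) (bas' : Fin m' → F2 C)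

/-- linear combinations as a linear map -/
def lcoL : (Fin m → ℝ) →ₗ[ℝ] F2 C := Fintype.linearCombination ℝ bas

theorem lcoL_eq (t : Fin m → ℝ) : lcoL bas t = lco bas t := rfl

theorem lco_add (t s : Fin m → ℝ) : lco bas (t + s) = lco bas t + lco bas s :=
  map_add (lcoL bas) t s

theorem lco_sub (t s : Fin m → ℝ) : lco bas (t - s) = lco bas t - lco bas s :=
  map_sub (lcoL bas) t s

theorem lco_smul (r : ℝ) (t : Fin m → ℝ) : lco bas (r • t) = r • lco bas t :=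
  map_smul (lcoL bas) r t

theorem q_lco (t : Fin m → ℝ) (y : F2 C) : Q (lco bas t) y = ∑ k, t k * Q (bas k) y := by
  unfold lco
  simp only [map_sum, map_smul, LinearMap.sum_apply, LinearMap.smul_apply, smul_eq_mul]

theorem q_lco' (t : Fin m → ℝ) (y : F2 C) : Q y (lco bas t) = ∑ k, t k * Q y (bas k) := by
  unfold lco
  simp only [map_sum, map_smul, smul_eq_mul]

theorem continuous_q1 (y : F2 C) : Continuous fun t : Fin m → ℝ => Q (lco bas t) y := by
  simp only [q_lco]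
  exact continuous_finsetSum _ fun k _ => (continuous_apply k).mul continuous_const

theorem continuous_q2 : Continuous fun p : (Fin m → ℝ) × (Fin m' → ℝ) =>
    Q (lco bas p.1) (lco bas' p.2) := by
  simp only [q_lco, q_lco']
  fun_prop

theorem ratF_add {w w' : F2 C} (h : RatF w) (h' : RatF w') : RatF (w + w') :=
  (clsS C _).add_mem h h'

theorem ratF_sub {w w' : F2 C} (h : RatF w) (h' : RatF w') : RatF (w - w') :=
  (clsS C _).sub_mem h h'

theorem ratF_neg {w : F2 C} (h : RatF w) : RatF (-w) :=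
  (clsS C _).neg_mem h

theorem ratF_smul {w : F2 C} (h : RatF w) {r : ℝ} (hr : ∃ q : ℚ, r = q) : RatF (r • w) := by
  obtain ⟨q, rfl⟩ := hr
  exact h.smul q

/-- the vector of casts -/
def cst (q : Fin m → ℚ) : Fin m → ℝ := fun k => (q k : ℝ)

theorem ratF_lco (hb : ∀ j, RatF (bas j)) (q : Fin m → ℚ) : RatF (lco bas (cst q)) :=
  (clsS C _).sum_mem fun k _ => (hb k).smul (q k)

theorem dense_cst : DenseRange (cst (m := m)) :=
  DenseRange.piMap fun _ => Rat.denseRange_cast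

end lin

/-! ### a rational point of the quadric `Q(a, c) = 0` -/

theorem exists_rat2 {m : ℕ} {bas : Fin m → F2 C} (hb : ∀ j, RatF (bas j))
    (rat : ∀ x y : F2 C, RatF x → RatF y → ∃ r : ℚ, Q x y = r)
    {b0 c0 : Fin m → ℝ} {B D : Set (Fin m → ℝ)} (oB : IsOpen B) (oD : IsOpen D) (hb0 : b0 ∈ B)
    (hc0 : c0 ∈ D) (hq : Q (lco bas b0) (lco bas b0) ≠ 0)
    (h0 : Q (lco bas c0) (lco bas b0) = 0) :
    ∃ a c : Fin m → ℚ, cst a ∈ B ∧ cst c ∈ D ∧ Q (lco bas (cst c)) (lco bas (cst a)) = 0 := by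
  set Ψ : (Fin m → ℝ) × (Fin m → ℝ) → (Fin m → ℝ) := fun p =>
    p.2 - (Q (lco bas p.2) (lco bas p.1) / Q (lco bas p.1) (lco bas p.1)) • p.1 with hΨ
  have c1 : Continuous fun p : (Fin m → ℝ) × (Fin m → ℝ) => Q (lco bas p.2) (lco bas p.1) :=
    (continuous_q2 (Q := Q) bas bas).comp (continuous_snd.prodMk continuous_fst)
  have c2 : Continuous fun p : (Fin m → ℝ) × (Fin m → ℝ) => Q (lco bas p.1) (lco bas p.1) :=
    (continuous_q2 (Q := Q) bas bas).comp (continuous_fst.prodMk continuous_fst)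
  have c3 : ContinuousAt Ψ (b0, c0) :=
    continuous_snd.continuousAt.sub ((c1.continuousAt.div c2.continuousAt hq).smul
      continuous_fst.continuousAt)
  have e0 : Ψ (b0, c0) = c0 := by
    simp only [hΨ, h0, zero_div, zero_smul, sub_zero]
  have n1 : ∀ᶠ p in 𝓝 (b0, c0), Ψ p ∈ D := by
    refine c3 (IsOpen.mem_nhds oD ?_)
    rw [e0]
    exact hc0
  have n2 : ∀ᶠ p in 𝓝 ((b0, c0) : (Fin m → ℝ) × (Fin m → ℝ)), p.1 ∈ B :=
    continuous_fst.continuousAt (oB.mem_nhds hb0)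
  have n3 : ∀ᶠ p in 𝓝 ((b0, c0) : (Fin m → ℝ) × (Fin m → ℝ)),
      Q (lco bas p.1) (lco bas p.1) ≠ 0 := c2.continuousAt.eventually_ne hq
  have hd : DenseRange (Prod.map (cst (m := m)) (cst (m := m))) := dense_cst.prodMap dense_cst
  obtain ⟨⟨a, c⟩, ha1, ha2, ha3⟩ := hd.mem_nhds (n2.and (n1.and n3))
  simp only [Prod.map_apply] at ha1 ha2 ha3
  obtain ⟨r1, h1⟩ := rat _ _ (ratF_lco bas hb c) (ratF_lco bas hb a)
  obtain ⟨r2, h2⟩ := rat _ _ (ratF_lco bas hb a) (ratF_lco bas hb a)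
  have e1 : Ψ (cst a, cst c) = cst fun k => c k - r1 / r2 * a k := by
    simp only [hΨ, h1, h2]
    funext k
    simp [cst]
  refine ⟨a, fun k => c k - r1 / r2 * a k, ha1, ?_, ?_⟩
  · rw [← e1]
    exact ha2
  · rw [← e1]
    simp only [hΨ]
    rw [lco_sub, lco_smul, map_sub, LinearMap.sub_apply, map_smul, LinearMap.smul_apply,
      smul_eq_mul, div_mul_cancel₀ _ ha3, sub_self]

/-- avoiding a countable set -/
theorem exists_avoid {S U : Set ℝ} (hS : S.Countable) (hU : IsOpen U) {x : ℝ} (hx : x ∈ U) :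
    ∃ y ∈ U, y ∉ S := by
  obtain ⟨y, hy1, hy2⟩ := (hS.dense_compl ℝ).inter_open_nonempty U hU ⟨x, hx⟩
  exact ⟨y, hy1, hy2⟩

/-! ### frames -/

/-- `e` isotropic, `v`, `A` positive, pairwise orthogonal -/
structure EVA (Q : F2 C →ₗ[ℝ] F2 C →ₗ[ℝ] ℝ) (e v A : F2 C) : Prop where
  symm : ∀ x y, Q x y = Q y x
  ee : Q e e = 0
  ev : Q e v = 0
  vv : 0 < Q v v
  AA : 0 < Q A A
  Ae : Q A e = 0
  Av : Q A v = 0

/-- projection to the orthogonal complement of `A`, `v` -/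
def w1 (Q : F2 C →ₗ[ℝ] F2 C →ₗ[ℝ] ℝ) (v A w : F2 C) : F2 C :=
  w - (Q w A / Q A A) • A - (Q w v / Q v v) • v

/-- the isotropic class `e*` of `w` -/
def es (Q : F2 C →ₗ[ℝ] F2 C →ₗ[ℝ] ℝ) (e v A w : F2 C) : F2 C :=
  (Q w e)⁻¹ • w1 Q v A w - (Q (w1 Q v A w) w / (2 * Q w e ^ 2)) • e

namespace EVA

variable {e v A : F2 C} (h : EVA Q e v A)

include h

theorem ve : Q v e = 0 := by rw [h.symm]; exact h.ev
theorem eA : Q e A = 0 := by rw [h.symm]; exact h.Ae
theorem vA : Q v A = 0 := by rw [h.symm]; exact h.Av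

theorem w1_e (w : F2 C) : Q (w1 Q v A w) e = Q w e := by
  simp [w1, h.Ae, h.ve]

theorem w1_A (w : F2 C) : Q (w1 Q v A w) A = 0 := by
  have := h.AA.ne'
  simp [w1, h.vA, this]

theorem w1_v (w : F2 C) : Q (w1 Q v A w) v = 0 := by
  have := h.vv.ne'
  simp [w1, h.Av, this]

theorem w1_w1 (w : F2 C) : Q (w1 Q v A w) (w1 Q v A w) = Q (w1 Q v A w) w := by
  conv_lhs => rw [show Q (w1 Q v A w) (w1 Q v A w) = Q (w1 Q v A w)
    (w - (Q w A / Q A A) • A - (Q w v / Q v v) • v) from rfl]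
  rw [map_sub, map_sub, map_smul, map_smul, h.w1_A, h.w1_v]
  simp

theorem es_e {w : F2 C} (hw : Q w e ≠ 0) : Q (es Q e v A w) e = 1 := by
  simp [es, h.ee, h.w1_e, hw]

theorem es_v (w : F2 C) : Q (es Q e v A w) v = 0 := by
  simp [es, h.ev, h.w1_v]

theorem es_A (w : F2 C) : Q (es Q e v A w) A = 0 := by
  simp [es, h.eA, h.w1_A]

theorem es_es {w : F2 C} (hw : Q w e ≠ 0) : Q (es Q e v A w) (es Q e v A w) = 0 := by
  simp only [es, map_sub, map_smul, LinearMap.sub_apply, LinearMap.smul_apply, smul_eq_mul,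
    h.ee, h.w1_e, h.symm e (w1 Q v A w), h.w1_w1]
  field_simp
  ring

theorem es_rat (rat : ∀ x y : F2 C, RatF x → RatF y → ∃ r : ℚ, Q x y = r) (he : RatF e)
    (hv : RatF v) (hA : RatF A) {w : F2 C} (hw : RatF w) : RatF (es Q e v A w) := by
  obtain ⟨r1, e1⟩ := rat _ _ hw hA
  obtain ⟨r2, e2⟩ := rat _ _ hA hA
  obtain ⟨r3, e3⟩ := rat _ _ hw hv
  obtain ⟨r4, e4⟩ := rat _ _ hv hv
  obtain ⟨r5, e5⟩ := rat _ _ hw he
  have h1 : RatF (w1 Q v A w) := by
    unfold w1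
    rw [e1, e2, e3, e4]
    refine ratF_sub (ratF_sub hw (ratF_smul hA ⟨r1 / r2, ?_⟩)) (ratF_smul hv ⟨r3 / r4, ?_⟩)
    · push_cast; rfl
    · push_cast; rfl
  obtain ⟨r6, e6⟩ := rat _ _ h1 hw
  unfold es
  rw [e5, e6]
  refine ratF_sub (ratF_smul h1 ⟨r5⁻¹, ?_⟩) (ratF_smul he ⟨r6 / (2 * r5 ^ 2), ?_⟩)
  · push_cast; rfl
  · push_cast; rfl

/-- the frame -/
def frm (rat : ∀ x y : F2 C, RatF x → RatF y → ∃ r : ℚ, Q x y = r) (he : IntF e)
    (hv : RatF v) (hA : RatF A) {w : F2 C} (hw : RatF w) (h0 : Q w e ≠ 0) : Frm C Q where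
  e := e
  v := v
  es := es Q e v A w
  N := Q v v
  hN := h.vv
  e_e := h.ee
  e_v := h.ev
  es_e := h.es_e h0
  es_v := h.es_v w
  es_es := h.es_es h0
  v_v := rfl
  int_e := he
  rat_v := hv
  rat_es := h.es_rat rat he.rat hv hA hw

end EVA

/-! ### `es` in coordinates -/

section coord

variable {M : ℕ} (b : Fin M → F2 C) (e v A : F2 C) (γ β α : Fin M → ℝ)

/-- `w1` in coordinates -/
def w1C (Q : F2 C →ₗ[ℝ] F2 C →ₗ[ℝ] ℝ) (t : Fin M → ℝ) : Fin M → ℝ :=
  t - (Q (lco b t) A / Q A A) • α - (Q (lco b t) v / Q v v) • β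

/-- `es` in coordinates -/
def esC (Q : F2 C →ₗ[ℝ] F2 C →ₗ[ℝ] ℝ) (t : Fin M → ℝ) : Fin M → ℝ :=
  (Q (lco b t) e)⁻¹ • w1C b v A β α Q t -
    (Q (lco b (w1C b v A β α Q t)) (lco b t) / (2 * Q (lco b t) e ^ 2)) • γ

variable {b e v A γ β α}

theorem lco_w1C (hα : Cl A (lco b α)) (hβ : Cl v (lco b β)) (t : Fin M → ℝ) :
    Cl (w1 Q v A (lco b t)) (lco b (w1C b v A β α Q t)) := by
  unfold w1C w1
  rw [lco_sub, lco_sub, lco_smul, lco_smul]
  exact cl_sub (cl_sub (Cl.refl _) (hα.smul _)) (hβ.smul _)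

theorem w1_lco (ex : ∀ x y : F2 C, Ex x → Q x y = 0) (hα : Cl A (lco b α)) (hβ : Cl v (lco b β))
    (t : Fin M → ℝ) (y : F2 C) :
    Q (w1 Q v A (lco b t)) y = Q (lco b (w1C b v A β α Q t)) y := by
  have h1 := ex _ y (lco_w1C (Q := Q) hα hβ t)
  rw [map_sub, LinearMap.sub_apply, sub_eq_zero] at h1
  exact h1

theorem lco_esC (ex : ∀ x y : F2 C, Ex x → Q x y = 0) (hα : Cl A (lco b α)) (hβ : Cl v (lco b β))
    (hγ : Cl e (lco b γ)) (t : Fin M → ℝ) :
    Cl (es Q e v A (lco b t)) (lco b (esC b e v A γ β α Q t)) := by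
  unfold esC es
  rw [lco_sub, lco_smul, lco_smul, w1_lco ex hα hβ]
  exact cl_sub ((lco_w1C hα hβ t).smul _) (hγ.smul _)

theorem continuous_w1C : Continuous (w1C b v A β α Q) := by
  unfold w1C
  exact (continuous_id.sub (((continuous_q1 b A).div_const _).smul continuous_const)).sub
    (((continuous_q1 b v).div_const _).smul continuous_const)

theorem continuousAt_esC {θ : Fin M → ℝ} (h0 : Q (lco b θ) e ≠ 0) :
    ContinuousAt (esC b e v A γ β α Q) θ := by
  unfold esC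
  have c1 : ContinuousAt (fun t : Fin M → ℝ => Q (lco b t) e) θ := (continuous_q1 b e).continuousAt
  have c2 : ContinuousAt (fun t : Fin M → ℝ =>
      Q (lco b (w1C b v A β α Q t)) (lco b t)) θ :=
    ((continuous_q2 (Q := Q) b b).comp (continuous_w1C.prodMk continuous_id)).continuousAt
  refine ((c1.inv₀ h0).smul continuous_w1C.continuousAt).sub
    ((c2.div (continuousAt_const.mul (c1.pow 2)) ?_).smul continuousAt_const)
  exact mul_ne_zero two_ne_zero (pow_ne_zero 2 h0)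

theorem esC_fix {θ : Fin M → ℝ} (h1 : Q (lco b θ) e = 1) (h2 : Q (lco b θ) A = 0)
    (h3 : Q (lco b θ) v = 0) (h4 : Q (lco b θ) (lco b θ) = 0) : esC b e v A γ β α Q θ = θ := by
  have e1 : w1C b v A β α Q θ = θ := by
    unfold w1C
    rw [h2, h3]
    simp
  unfold esC
  rw [e1, h1, h4]
  simp

end coord

end

end Crest.Agent.R281.Rd_326
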