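import Crest.Agent.R281.Rd2_326

/-!
# Row 281, ROADP (helper326), part 3: the choice of `e*`

* `exists_es` : `H` a hyperkaehler structure with `om 1 ∼ s1 A`, `om 2 ∼ s2 (- v + N x e)`,
  `0 < Q(e, om 0)`: there are a rational class `w` and `y > 0` such that
  `Re σ_τ = es w + x v - N/2 (x² - y²) e` is a Kaehler class for `J 0`
-/

set_option autoImplicit false
set_option linter.unusedSectionVars false
set_option maxSynthPendingDepth 3

open Set Filter Topology
open scoped ContDiff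

namespace Crest.Agent.R281.Rd_326

open Crest.Agent.R275.Geo Crest.Agent.R275.Core144
open Crest.Agent.R281.HkR_835 Crest.Agent.R281.Ti_846 Crest.Agent.R281.Cdr_234
open Crest.Agent.R281.Dif_268 Crest.Agent.R281.PL_713
open Crest.Agent.R281.NefO_476 Crest.Agent.R281.Nef_252
open Crest.Agent.R281.Alg_998 Crest.Agent.R281.RkD_902

noncomputable section

variable {n : ℕ} {X : Type} [TopologicalSpace X] [CompactSpace X] {C : RCh (Cn (2 * n)) X}
  {Q : F2 C →ₗ[ℝ] F2 C →ₗ[ℝ] ℝ}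

theorem exists_es (hc : Ctx n C Q) {H : HkT C} (hp : 0 < Q (H.om 0) (H.om 0)) {e v A : F2 C}
    (h : EVA Q e v A) (he0 : 0 < Q e (H.om 0)) {x s1 s2 : ℝ} (hs1 : s1 ≠ 0) (hs2 : s2 ≠ 0)
    (h1 : Cl (H.om 1) (s1 • A)) (h2 : Cl (H.om 2) (s2 • (-v + (Q v v * x) • e)))
    {M : ℕ} {b : Fin M → F2 C} (hb : ∀ w, ∃ a, Cl w (lco b a)) :
    ∃ w : Fin M → ℚ, Q (lco b (cst w)) e ≠ 0 ∧ ∃ y : ℝ, 0 < y ∧
      KCls (ofHk H 0)
        (es Q e v A (lco b (cst w)) + x • v - (Q v v / 2 * (x ^ 2 - y ^ 2)) • e) := by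
  have hN := h.vv
  set N := Q v v with hNdef
  set p : ℝ := (Q e (H.om 0))⁻¹ with hpdef
  have hp0 : 0 < p := inv_pos.2 he0
  set κ : F2 C := p • H.om 0 with hκ
  -- pairings of `κ`
  have k_e : Q κ e = 1 := by
    rw [hκ, map_smul, LinearMap.smul_apply, smul_eq_mul, hc.symm, hpdef, inv_mul_cancel₀ he0.ne']
  have o_A : Q (H.om 0) A = 0 := by
    have := hc.ort H 0 1 (by decide)
    rw [hc.cl_right h1, map_smul, smul_eq_mul] at this
    exact (mul_eq_zero.1 this).resolve_left hs1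
  have o_b : Q (H.om 0) (-v + (N * x) • e) = 0 := by
    have := hc.ort H 0 2 (by decide)
    rw [hc.cl_right h2, map_smul, smul_eq_mul] at this
    exact (mul_eq_zero.1 this).resolve_left hs2
  have k_A : Q κ A = 0 := by
    rw [hκ, map_smul, LinearMap.smul_apply, o_A, smul_zero]
  have k_v : Q κ v = N * x := by
    have e1 : Q κ (-v + (N * x) • e) = 0 := by
      rw [hκ, map_smul, LinearMap.smul_apply, o_b, smul_zero]
    rw [(Q κ).map_add, (Q κ).map_neg, (Q κ).map_smul, k_e, smul_eq_mul, mul_one] at e1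
    linarith
  have k_k : 0 < Q κ κ := by
    rw [hκ]
    simp only [map_smul, LinearMap.smul_apply, smul_eq_mul]
    positivity
  obtain ⟨y, hy0, hy⟩ : ∃ y : ℝ, 0 < y ∧ N * y ^ 2 = Q κ κ := by
    refine ⟨Real.sqrt (Q κ κ / N), Real.sqrt_pos.2 (by positivity), ?_⟩
    rw [Real.sq_sqrt (by positivity)]
    field_simp
  obtain ⟨κc, hκc⟩ := hb κ
  obtain ⟨α, hα⟩ := hb A
  obtain ⟨β, hβ⟩ := hb v
  obtain ⟨γ, hγ⟩ := hb e
  set c : ℝ := N / 2 * (x ^ 2 - y ^ 2) with hcdef
  set θ : Fin M → ℝ := κc - x • β + c • γ with hθ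
  have hθz : ∀ z, Q (lco b θ) z = Q κ z - x * Q v z + c * Q e z := by
    intro z
    rw [hθ, lco_add, lco_sub, lco_smul, lco_smul]
    simp only [map_add, map_sub, map_smul, LinearMap.add_apply, LinearMap.sub_apply,
      LinearMap.smul_apply, smul_eq_mul]
    rw [← hc.cl_left hκc, ← hc.cl_left hβ, ← hc.cl_left hγ]
  have t_e : Q (lco b θ) e = 1 := by
    rw [hθz, k_e, h.ve, h.ee]
    ring
  have t_A : Q (lco b θ) A = 0 := by
    rw [hθz, k_A, h.vA, h.eA]
    ring
  have t_v : Q (lco b θ) v = 0 := by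
    rw [hθz, k_v, h.ev, ← hNdef]
    ring
  have t_t : Q (lco b θ) (lco b θ) = 0 := by
    rw [hθz, hc.symm κ, hc.symm v (lco b θ), hc.symm e (lco b θ), t_e, t_v, hθz, hc.symm v κ, k_v,
      hc.symm e κ, k_e, ← hy, hcdef]
    ring
  have t_e' : Q (lco b θ) e ≠ 0 := by rw [t_e]; exact one_ne_zero
  obtain ⟨δ, hδ, hK⟩ := kcls_near hc hp b hp0
  set G : (Fin M → ℝ) → (Fin M → ℝ) := fun t =>
    esC b e v A γ β α Q t + x • β - c • γ with hG
  have hGc : ContinuousAt G θ :=
    ((continuousAt_esC t_e').add continuousAt_const).sub continuousAt_const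
  have hGθ : G θ = κc := by
    rw [hG]
    simp only
    rw [esC_fix t_e t_A t_v t_t, hθ]
    abel
  have n1 : ∀ᶠ t in 𝓝 θ, dist (G t) κc < δ := by
    have := Metric.continuousAt_iff'.1 hGc δ hδ
    rwa [hGθ] at this
  have n2 : ∀ᶠ t in 𝓝 θ, Q (lco b t) e ≠ 0 :=
    (continuous_q1 b e).continuousAt.eventually_ne t_e'
  obtain ⟨w, hw1, hw2⟩ := dense_cst.mem_nhds (n1.and n2)
  refine ⟨w, hw2, y, hy0, ?_⟩
  set S : F2 C := es Q e v A (lco b (cst w)) + x • v - c • e with hS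
  have hSG : Cl S (lco b (G (cst w))) := by
    rw [hS, hG]
    simp only
    rw [lco_sub, lco_add, lco_smul, lco_smul]
    exact cl_sub (Cl.add (lco_esC hc.ex hα hβ hγ _) (hβ.smul x)) (hγ.smul c)
  have hD : Cl (lco b (G (cst w) - κc)) (S - κ) := by
    rw [lco_sub]
    exact cl_sub hSG.symm hκc.symm
  have S_A : Q S A = 0 := by
    rw [hS]
    simp only [map_add, map_sub, map_smul, LinearMap.add_apply, LinearMap.sub_apply,
      LinearMap.smul_apply, smul_eq_mul]
    rw [h.es_A, h.vA, h.eA]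
    ring
  have S_v : Q S v = N * x := by
    rw [hS]
    simp only [map_add, map_sub, map_smul, LinearMap.add_apply, LinearMap.sub_apply,
      LinearMap.smul_apply, smul_eq_mul]
    rw [h.es_v, h.ev, ← hNdef]
    ring
  have S_e : Q S e = 1 := by
    rw [hS]
    simp only [map_add, map_sub, map_smul, LinearMap.add_apply, LinearMap.sub_apply,
      LinearMap.smul_apply, smul_eq_mul]
    rw [h.es_e hw2, h.ve, h.ee]
    ring
  have h3 := hK (G (cst w) - κc) (fun k => ?_) ?_ ?_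
  · refine h3.congr ?_
    have e1 : Cl (κ + lco b (G (cst w) - κc)) (κ + (S - κ)) := (Cl.refl κ).add hD
    rwa [add_sub_cancel] at e1
  · have e1 : dist (G (cst w) k) (κc k) ≤ dist (G (cst w)) κc := dist_le_pi_dist _ _ k
    rw [Real.dist_eq] at e1
    exact e1.trans hw1.le
  · rw [hc.cl_left hD, hc.cl_right h1, map_smul, map_sub, LinearMap.sub_apply, S_A, k_A]
    simp
  · rw [hc.cl_left hD, hc.cl_right h2, map_smul, map_add, map_neg, map_smul, map_sub,
      LinearMap.sub_apply, LinearMap.sub_apply, S_v, k_v, S_e, k_e]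
    simp

end

end Crest.Agent.R281.Rd_326
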