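import Crest.Agent.R281.Sta3_684

/-!
# R281 (S0424), START (D14), part 4 (helper684)

* `turn2 H = (om₁, om₀, -om₂)`
* `start_a2`    : part (A) in the convention of `RkD_902` v2: `H'.om 0 = r om₁`, `H'.om 2 = -r om₂`,
                  classes `(A, z Re σ_τ, z Im σ_τ)`, `z > 0`
* `kcls_sre2`   : `Re σ_τ` is a Kaehler class if it is near a positive multiple of `om 0`
* `exists_kbasNF` : the basis of `W^⊥` by integral Kaehler classes with natural coefficients of `c A`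
-/

set_option autoImplicit false
set_option linter.unusedSectionVars false
set_option maxSynthPendingDepth 3

open Set Filter Topology Module
open scoped ContDiff

namespace Crest.Agent.R281.Sta4_684

open Crest.Agent.R281.HkR_835 Crest.Agent.R281.Cdr_234 Crest.Agent.R281.Sta1_684
open Crest.Agent.R281.Sta2_684 Crest.Agent.R281.Sta3_684 Crest.Agent.R281.W3a_698
open Crest.Agent.R281.Alg_998 Crest.Agent.R281.Dif_268 Crest.Agent.R260.ACM_580
open Crest.Agent.R281.Ti_846 (Ex)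
open Crest.Agent.R281.NefO_476 (ofHk Pos)
open Crest.Agent.R281.Nef_252 (T11 KCls)

noncomputable section

variable {V X : Type} [NormedAddCommGroup V] [NormedSpace ℝ V] [TopologicalSpace X]
  {C : RCh V X} {B : F2 C →ₗ[ℝ] F2 C →ₗ[ℝ] ℝ}

/-- the rotation `(om₁, om₀, -om₂)` -/
def RR2 : Fin 3 → Fin 3 → ℝ := ![![0, 1, 0], ![1, 0, 0], ![0, 0, -1]]

theorem frRR2 : HkT.Fr RR2 where
  nrm k := by fin_cases k <;> simp [RR2]
  ort := by simp [RR2]
  crs := by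
    funext k
    fin_cases k <;> simp [RR2]

/-- the rotated triple -/
def turn2 (H : HkT C) : HkT C := H.rot RR2 frRR2

theorem turn2_om0 (H : HkT C) : (turn2 H).om 0 = H.om 1 := by
  show F2.lin (RR2 0) H.om = _
  rw [F2.lin_eq, Fin.sum_univ_three]
  simp [RR2]

theorem turn2_om1 (H : HkT C) : (turn2 H).om 1 = H.om 0 := by
  show F2.lin (RR2 1) H.om = _
  rw [F2.lin_eq, Fin.sum_univ_three]
  simp [RR2]

theorem turn2_om2 (H : HkT C) : (turn2 H).om 2 = -H.om 2 := by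
  show F2.lin (RR2 2) H.om = _
  rw [F2.lin_eq, Fin.sum_univ_three]
  simp [RR2]

theorem turn2_J1 (H : HkT C) (i : C.ι) (z : V) : (turn2 H).J 1 i z = H.J 0 i z := by
  show H.Jv (RR2 1) i z = _
  ext v
  rw [HkT.Jv_apply]
  simp [RR2]

theorem eqv_smul' {w w' : F2 C} (c : ℝ) (h : Eqv w w') : Eqv (c • w) (c • w') := by
  intro i z hz u v
  rw [F2.smul_w, F2.smul_w]
  simp only [smul_apply, smul_eq_mul]
  rw [h i z hz]

/-- **START, part (A)**, in the convention of `RkD_902` v2 -/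
theorem start_a2 [FiniteDimensional ℝ V] [T2Space X] [CompactSpace X] [ConnectedSpace X] {d : ℕ}
    (hNN : NNat V d) (hB : QS B) (F : Frm C B) {A : F2 C} {H : HkT C} (hu : UniqT H)
    {τ : ℂ} (hτ : 0 < τ.im) {s1 s2 : ℝ} (hs1 : 0 < s1) (hs2 : 0 < s2)
    (h1 : Cl (H.om 1) (s1 • A)) (h2 : Cl (H.om 2) ((-s2) • F.sim τ))
    (hk : KCls (ofHk H 0) (F.sre τ)) :
    ∃ (H' : HkT C) (r z : ℝ), 0 < r ∧ 0 < z ∧ Eqv (H'.om 0) (r • H.om 1) ∧
      Eqv (H'.om 2) ((-r) • H.om 2) ∧ Cl (H'.om 0) A ∧ Cl (H'.om 1) (z • F.sre τ) ∧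
      Cl (H'.om 2) (z • F.sim τ) ∧ AtTau F A H' τ ∧
      ∀ i, ∀ p ∈ (C.e i).target, H'.J 1 i p = H.J 0 i p := by
  obtain ⟨A', hf, -, ⟨P⟩, -, -, hA'⟩ := exists_rot hNN H
  obtain ⟨H1, r, hr, hJ, e1, e2, e0⟩ := move1 P (Crest.Agent.R281.KpK_487.yau_kah A') H hA'
    (uniq_of_T P hA' hu) hk
  -- classes of `H1`
  have f1 : Cl (H1.om 1) ((r * s1) • A) := by
    rw [← smul_smul]
    exact Cl.trans (ex_sub_of_eqv e1) (Cl.smul r h1)
  have f2 : Cl (H1.om 2) (-((r * s2) • F.sim τ)) := by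
    have a1 := Cl.trans (ex_sub_of_eqv e2) (Cl.smul r h2)
    rwa [smul_smul, mul_neg, neg_smul] at a1
  have f0 : Cl (H1.om 0) (F.sre τ) := e0
  have hN := F.hN
  have hrs : r * s2 = 1 := by
    have a0 := hB.congr f0 f0
    have a2 := hB.congr f2 f2
    rw [hB.eq H1 2, a0, q_sre hB] at a2
    simp only [map_neg, LinearMap.neg_apply, map_smul, LinearMap.smul_apply, smul_eq_mul] at a2
    rw [q_sim hB] at a2
    have a3 : (r * s2) ^ 2 * (F.N * τ.im ^ 2) = 1 ^ 2 * (F.N * τ.im ^ 2) := by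
      rw [one_pow, one_mul]
      nlinarith [a2]
    have a4 := mul_right_cancel₀ (by positivity) a3
    exact (sq_eq_sq₀ (by positivity) (by norm_num)).1 a4
  rw [hrs, one_smul] at f2
  set t : ℝ := (r * s1)⁻¹ with ht
  have ht0 : 0 < t := by positivity
  have g0 : Cl ((turn2 (smulP t ht0 H1)).om 0) A := by
    rw [turn2_om0, smulP_om]
    have a1 := Cl.smul t f1
    rw [smul_smul] at a1
    have a2 : t * (r * s1) = 1 := by
      rw [ht]; field_simp
    rwa [a2, one_smul] at a1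
  have g1 : Cl ((turn2 (smulP t ht0 H1)).om 1) (t • F.sre τ) := by
    rw [turn2_om1, smulP_om]
    exact Cl.smul t f0
  have g2 : Cl ((turn2 (smulP t ht0 H1)).om 2) (t • F.sim τ) := by
    rw [turn2_om2, smulP_om]
    have a1 := Cl.smul (-t) f2
    have a2 : (-t) • H1.om 2 = -(t • H1.om 2) := neg_smul _ _
    have a3 : (-t) • -F.sim τ = t • F.sim τ := neg_smul_neg _ _
    rwa [a2, a3] at a1
  refine ⟨turn2 (smulP t ht0 H1), t * r, t, by positivity, ht0, ?_, ?_, g0, g1, g2,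
    ⟨hτ, g0, (t : ℂ), ?_, ?_, ?_⟩, ?_⟩
  · rw [turn2_om0, smulP_om, ← smul_smul]
    exact eqv_smul' t e1
  · have a1 := eqv_smul' (-t) e2
    have a2 : (-t) • H1.om 2 = -(t • H1.om 2) := neg_smul _ _
    have a3 : (-t) • r • H.om 2 = (-(t * r)) • H.om 2 := by rw [smul_smul, neg_mul]
    rw [a2, a3] at a1
    rw [turn2_om2, smulP_om]
    exact a1
  · exact_mod_cast ht0.ne'
  · simpa using g1
  · simpa using g2
  · intro i p hp
    rw [turn2_J1, smulP_J]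
    ext v
    exact hJ i p hp v

variable [FiniteDimensional ℝ V]

/-- the last two structures of the plane at a member -/
theorem b12_at (F : Frm C B) (hB : QS B) {A : F2 C} {H : HkT C} {τ : ℂ} (hH : AtTau F A H τ)
    {k : F2 C} (h1 : B k F.e = 0) (h2 : B k F.v = 0) (h3 : B k F.es = 0) :
    B k (H.om 1) = 0 ∧ B k (H.om 2) = 0 := by
  obtain ⟨z, hz, c1, c2⟩ := hH.om12
  constructor
  · rw [hB.congr (Cl.refl k) c1, map_sub, map_smul, map_smul, b_sre F h1 h2 h3, b_sim F h1 h2]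
    simp
  · rw [hB.congr (Cl.refl k) c2, map_add, map_smul, map_smul, b_sre F h1 h2 h3, b_sim F h1 h2]
    simp

/-- **a basis of `W^⊥` of integral Kaehler classes of `H.J 0`, natural coefficients of `A`**
(871's `exists_kbasN`, (R6') of 252) -/
theorem exists_kbasN [CompactSpace X] (hB : QR B) (hR : RatH C) {H : HkT C} {e A v w : F2 C}
    (h : Pos4 B e A v w) (he : RatF e) (hA : RatF A) (hv : RatF v) (hw : RatF w)
    (h0 : Cl (H.om 0) A) (b1 : ∀ k ∈ Wp B e v w, B k (H.om 1) = 0)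
    (b2 : ∀ k ∈ Wp B e v w, B k (H.om 2) = 0) :
    ∃ (ρ : ℕ) (b : Basis (Fin ρ) ℝ (Wp (Bq hB.toQS) (cl e) (cl v) (cl w))) (k : Fin ρ → F2 C)
      (a : Fin ρ → ℕ) (c : ℕ), 0 < ρ ∧
      (∀ i, IntF (k i) ∧ KCls (ofHk H 0) (k i) ∧ cl (k i) = b i) ∧
      (∀ i, 0 < a i) ∧ 0 < c ∧ Cl (∑ i, (a i : ℝ) • k i) ((c : ℝ) • A) := by
  have := hR.fin
  have hP := pos4_cl hB.toQS h
  have hQ := rat4_cl hB hR he hA hv hw
  set W := Wp (Bq hB.toQS) (cl e) (cl v) (cl w) with hW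
  have hs := span_rat hP hQ hR.span
  let R' : AddSubgroup W := (RatS hR).comap W.subtype.toAddMonoidHom
  let A' : W := ⟨cl A, A_mem hP⟩
  have hA0 : A' ≠ 0 := by
    intro h0
    have h1 : cl A = 0 := congrArg Subtype.val h0
    have h2 : B A A = 0 := by
      rw [← Bq_cl hB.toQS, h1, map_zero]
    exact h.AA.ne' h2
  let K : Set W := {ζ | ∃ k : F2 C, cl k = ζ ∧ KCls (ofHk H 0) k}
  have hK : ∀ ζ : W, ∃ ε > 0, ∀ t : ℝ, |t| < ε → A' + t • ζ ∈ K := by
    rintro ⟨ζ, hζ⟩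
    obtain ⟨k, rfl⟩ := cl_surj ζ
    obtain ⟨ε, hε, h1⟩ := kcls_near hB h.AA h0 (b1 k hζ) (b2 k hζ)
    refine ⟨ε, hε, fun t ht => ⟨A + t • k, ?_, h1 t ht⟩⟩
    rw [map_add, map_smul]
    rfl
  obtain ⟨b0, hb0, hsum⟩ := exists_bas R' (fun r x hx => hQ.q r _ hx) hs hQ.A hA0 K hK
  -- representatives
  have hrep : ∀ i, ∃ k : F2 C, RatF k ∧ KCls (ofHk H 0) k ∧ cl k = b0 i := by
    intro i
    obtain ⟨⟨k1, hk1, hk2⟩, ⟨k2, hk3, hk4⟩⟩ := hb0 i
    refine ⟨k1, hk1, hk4.congr ?_, hk2⟩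
    rw [← cl_eq, hk3]
    exact hk2.symm
  choose k hk1 hk2 hk3 using hrep
  choose m hm hmi using fun i => hR.int (hk1 i)
  have hm' : ∀ i, (0 : ℝ) < m i := fun i => by exact_mod_cast hm i
  have hρ : 0 < finrank ℝ W := by
    rw [Module.finrank_pos_iff_exists_ne_zero]
    exact ⟨A', hA0⟩
  let un : Fin (finrank ℝ W) → ℝˣ := fun i => Units.mk0 (m i : ℝ) (hm' i).ne'
  refine ⟨finrank ℝ W, b0.unitsSMul un, fun i => (m i : ℝ) • k i,
    fun i => ∏ j ∈ Finset.univ.erase i, m j, finrank ℝ W * ∏ j, m j, hρ,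
    fun i => ⟨hmi i, (hk2 i).smul (hm' i), ?_⟩, fun i => Finset.prod_pos fun j _ => hm j,
    Nat.mul_pos hρ (Finset.prod_pos fun j _ => hm j), ?_⟩
  · rw [map_smul, hk3, Basis.unitsSMul_apply]
    rfl
  · show Ex _
    rw [← cl_eq, map_sum, map_smul]
    have h1 : cl A = ((A' : W) : HdR C) := rfl
    rw [h1, hsum, Submodule.coe_sum, Finset.smul_sum]
    refine Finset.sum_congr rfl fun i _ => ?_
    rw [map_smul, map_smul, smul_smul, hk3]
    have h3 : (((finrank ℝ W : ℝ)⁻¹ • b0 i : W) : HdR C) =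
        (finrank ℝ W : ℝ)⁻¹ • ((b0 i : W) : HdR C) := rfl
    rw [h3, smul_smul]
    congr 1
    have h4 : (0 : ℝ) < finrank ℝ W := by exact_mod_cast hρ
    have h5 : (∏ j ∈ Finset.univ.erase i, m j) * m i = ∏ j, m j :=
      Finset.prod_erase_mul _ _ (Finset.mem_univ i)
    rw [← h5]
    push_cast
    field_simp

/-- **START, part (B1)** for a structure with `AtTau`, natural coefficients -/
theorem exists_kbasNF [CompactSpace X] (hB : QR B) (hR : RatH C) (F : Frm C B) {A : F2 C}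
    (hA : RatF A) (hAA : 0 < B A A) (h1 : B A F.e = 0) (h2 : B A F.v = 0) (h3 : B A F.es = 0)
    {H : HkT C} {τ : ℂ} (hH : AtTau F A H τ) :
    ∃ (ρ : ℕ) (b : Basis (Fin ρ) ℝ (WpF F hB.toQS)) (k : Fin ρ → F2 C) (a : Fin ρ → ℕ) (c : ℕ),
      0 < ρ ∧ (∀ i, IntF (k i) ∧ KCls (ofHk H 0) (k i) ∧ cl (k i) = b i) ∧
      (∀ i, 0 < a i) ∧ 0 < c ∧ Cl (∑ i, (a i : ℝ) • k i) ((c : ℝ) • A) := by
  have hk : ∀ k ∈ Wp B F.e F.v (F.es + F.e), B k (H.om 1) = 0 ∧ B k (H.om 2) = 0 := by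
    intro k hk
    obtain ⟨a1, a2, a3⟩ := (mem_WpF F hB.toQS).1 hk
    exact b12_at F hB.toQS hH a1 a2 a3
  exact exists_kbasN hB hR (pos4_frm F hB.toQS hAA h1 h2 h3) F.int_e.rat hA F.rat_v
    (Cls.add F.rat_es F.int_e.rat) hH.om0 (fun k h => (hk k h).1) fun k h => (hk k h).2

end

end Crest.Agent.R281.Sta4_684
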