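import Crest.Agent.R281.Rd3_326
import Crest.Agent.R281.Sta4_684
import Crest.Agent.R260.NN6_900

/-!
# Row 281, ROADP (helper326), part 4: the node `RoadP` of RANK281 (902)

* `Div2P Alg`     : the geometric output of DIV 2 (998) for every frame
* `road_of`       : the road in a box
* `roadP`         : **`Div2P Alg → RoadP Alg`**
-/

set_option autoImplicit false
set_option linter.unusedSectionVars false
set_option maxSynthPendingDepth 3

open Set Filter Topology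
open scoped ContDiff

namespace Crest.Agent.R281.Rd_326

open Crest.Agent.R275.Geo Crest.Agent.R275.Core144
open Crest.Agent.R260.ACM_580 Crest.Agent.R260.NNB_580
open Crest.Agent.R281.HkR_835 Crest.Agent.R281.Ti_846 Crest.Agent.R281.Cdr_234
open Crest.Agent.R281.Dif_268 Crest.Agent.R281.PL_713
open Crest.Agent.R281.NefO_476 Crest.Agent.R281.Nef_252
open Crest.Agent.R281.Alg_998 Crest.Agent.R281.RkD_902
open Crest.Agent.R281.Sta2_684 (QS)
open Crest.Agent.R281.Sta4_684 (start_a2)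

noncomputable section

variable {n : ℕ} {X : Type} [TopologicalSpace X] [CompactSpace X] {C : RCh (Cn (2 * n)) X}
  {Q : F2 C →ₗ[ℝ] F2 C →ₗ[ℝ] ℝ} {H0 : HkT C} {e : F2 C}

theorem qs_of (hc : Ctx n C Q) : QS Q := ⟨hc.symm, hc.ex, hc.eq⟩

/-! ### box members -/

theorem box_e (B : Box Q H0 e) (b : Fin B.m → ℝ) : Q (lco B.bas b) e = 0 := by
  rw [q_lco]
  exact Finset.sum_eq_zero fun k _ => by rw [B.orth k, mul_zero]

theorem box_pos1 (hc : Ctx n C Q) (B : Box Q H0 e) {b c : Fin B.m → ℝ} (hb : b ∈ B.B)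
    (hd : c ∈ B.D) : 0 < Q (lco B.bas b) (lco B.bas b) := by
  obtain ⟨s, hs, h1⟩ := B.cl1 b hb c hd
  have h2 := B.pos2 b hb c hd
  rw [← hc.eq _ 1, hc.cl_cl h1 h1] at h2
  simp only [map_smul, LinearMap.smul_apply, smul_eq_mul] at h2
  have h3 : s * (s * Q (lco B.bas b) (lco B.bas b)) = s ^ 2 * Q (lco B.bas b) (lco B.bas b) := by
    ring
  rw [h3] at h2
  exact (mul_pos_iff_of_pos_left (by positivity)).1 h2

theorem box_om2 (hc : Ctx n C Q) (B : Box Q H0 e) {b c : Fin B.m → ℝ} (hb : b ∈ B.B)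
    (hd : c ∈ B.D) (h0 : Q (lco B.bas c) (lco B.bas b) = 0) :
    ∃ s : ℝ, 0 < s ∧ Cl ((B.H b c).om 2) (s • lco B.bas c) ∧
      0 < Q (lco B.bas c) (lco B.bas c) := by
  obtain ⟨s1, hs1, h1⟩ := B.cl1 b hb c hd
  obtain ⟨s, t, hs, h2⟩ := B.cl2 b hb c hd
  have hp := box_pos1 hc B hb hd
  have h3 := hc.ort (B.H b c) 2 1 (by decide)
  rw [hc.cl_cl h2 h1] at h3
  simp only [map_add, map_smul, LinearMap.add_apply, LinearMap.smul_apply, smul_eq_mul, h0,
    mul_zero, zero_add] at h3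
  have ht : t = 0 := by
    rcases mul_eq_zero.1 h3 with h | h
    · exact absurd h hs1.ne'
    · rcases mul_eq_zero.1 h with h | h
      · exact h
      · exact absurd h hp.ne'
  subst ht
  rw [zero_smul, add_zero] at h2
  refine ⟨s, hs, h2, ?_⟩
  have h4 := B.pos2 b hb c hd
  rw [← hc.eq _ 2, hc.cl_cl h2 h2] at h4
  simp only [map_smul, LinearMap.smul_apply, smul_eq_mul] at h4
  have h5 : s * (s * Q (lco B.bas c) (lco B.bas c)) = s ^ 2 * Q (lco B.bas c) (lco B.bas c) := by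
    ring
  rw [h5] at h4
  exact (mul_pos_iff_of_pos_left (by positivity)).1 h4

/-- **the road in a box** -/
theorem road_of [T2Space X] [SimplyConnectedSpace X] (hc : Ctx n C Q) {L0 : PL C}
    (hG : Given Q H0 L0 e) (B : Box Q H0 e) (Alg : AlgT Q)
    (hd : ∀ F : Frm C Q, F.e = e → Div2Geo F (Alg F)) : Nonempty (Road Alg B) := by
  -- (1) `A` and `v`
  have hq0 := box_pos1 hc B B.b0B B.c0D
  obtain ⟨a, c, ha, hcD, hac⟩ := exists_rat2 B.rat hc.rat B.oB B.oD B.b0B B.c0D hq0.ne'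
    (by rw [hc.symm]; exact B.ort0)
  have haa := box_pos1 hc B ha hcD
  obtain ⟨-, -, -, hcc⟩ := box_om2 hc B ha hcD hac
  obtain ⟨m0, hm0, hA⟩ := Crest.Agent.R281.Pjx_648.RatF.exists_int (ratF_lco B.bas B.rat a)
  have hm0' : (0 : ℝ) < m0 := by exact_mod_cast hm0
  set A : F2 C := (m0 : ℝ) • lco B.bas (cst a) with hAdef
  set v : F2 C := -lco B.bas (cst c) with hvdef
  have hva : Q A v = 0 := by
    rw [hAdef, hvdef, map_smul, LinearMap.smul_apply, map_neg, hc.symm, hac]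
    simp
  have hvv : Q v v = Q (lco B.bas (cst c)) (lco B.bas (cst c)) := by
    rw [hvdef]
    simp only [map_neg, LinearMap.neg_apply, neg_neg]
  have h : EVA Q e v A := by
    refine ⟨hc.symm, hG.ee, ?_, ?_, ?_, ?_, hva⟩
    · rw [hvdef, map_neg, hc.symm, box_e, neg_zero]
    · rw [hvv]; exact hcc
    · rw [hAdef]
      simp only [map_smul, LinearMap.smul_apply, smul_eq_mul]
      positivity
    · rw [hAdef, map_smul, LinearMap.smul_apply, box_e, smul_zero]
  have hvR : RatF v := ratF_neg (ratF_lco B.bas B.rat c)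
  -- (2) `b_x`
  obtain ⟨ε, hε⟩ := B.span e hG.ee
  set N : ℝ := Q v v with hN
  set cx : ℝ → Fin B.m → ℝ := fun x => cst c + (N * x) • ε with hcx
  have hcont : Continuous cx := by
    rw [hcx]
    fun_prop
  have hcl : ∀ x, Cl (lco B.bas (cx x)) (-v + (N * x) • e) := by
    intro x
    rw [hcx]
    simp only
    rw [lco_add, lco_smul, hvdef, neg_neg]
    exact (Cl.refl _).add (hε.symm.smul _)
  -- (3) the bad real parts
  obtain ⟨M, b, hbR, hb⟩ := hc.span
  have hbs : ∀ w, ∃ t, Cl w (lco b t) := fun w => (hb w).exists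
  let fr : ∀ w : Fin M → ℚ, Q (lco b (cst w)) e ≠ 0 → Frm C Q := fun w hw =>
    h.frm hc.rat hG.int hvR hA.rat (ratF_lco b hbR w) hw
  have hfr : ∀ w hw, (fr w hw).e = e := fun _ _ => rfl
  set S : Set ℝ := ⋃ (w : Fin M → ℚ) (hw : Q (lco b (cst w)) e ≠ 0),
    Classical.choose (hd (fr w hw) (hfr w hw)) with hS
  have hSc : S.Countable := countable_iUnion fun w => countable_iUnion fun hw =>
    (Classical.choose_spec (hd (fr w hw) (hfr w hw))).1
  have hc0 : cx 0 = cst c := by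
    rw [hcx]
    simp
  obtain ⟨x1, hx1D, hx1S⟩ := exists_avoid hSc (B.oD.preimage hcont)
    (x := 0) (by rw [mem_preimage, hc0]; exact hcD)
  have hx1D' : cx x1 ∈ B.D := hx1D
  -- (4) the box member
  set H : HkT C := B.H (cst a) (cx x1) with hH
  have hp : 0 < Q (H.om 0) (H.om 0) := B.pos2 _ ha _ hx1D'
  obtain ⟨s, hs, h1⟩ := B.cl1 _ ha _ hx1D'
  have hAa : lco B.bas (cst a) = (m0 : ℝ)⁻¹ • A := by
    rw [hAdef, smul_smul, inv_mul_cancel₀ hm0'.ne', one_smul]
  have h1' : Cl (H.om 1) ((s * (m0 : ℝ)⁻¹) • A) := by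
    rw [← smul_smul, ← hAa]
    exact h1
  have hs1 : 0 < s * (m0 : ℝ)⁻¹ := by positivity
  have hortho : Q (lco B.bas (cx x1)) (lco B.bas (cst a)) = 0 := by
    rw [hc.cl_left (hcl x1), hAa]
    simp only [map_add, map_neg, map_smul, LinearMap.add_apply, LinearMap.neg_apply,
      LinearMap.smul_apply, smul_eq_mul, h.vA, h.eA]
    ring
  obtain ⟨s2, hs2, h2, -⟩ := box_om2 hc B ha hx1D' hortho
  have h2' : Cl (H.om 2) (s2 • (-v + (Q v v * x1) • e)) := h2.trans ((hcl x1).smul s2)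
  obtain ⟨w, hw, y, hy, hk⟩ := exists_es hc hp h (B.pos _ ha _ hx1D') hs1.ne' hs2.ne' h1' h2' hbs
  -- (5) the frame and the start
  set F : Frm C Q := fr w hw with hF
  have hsim : F.sim ⟨x1, y⟩ = (-y) • (-v + (N * x1) • e) := by
    show y • v - (N * (x1 * y)) • e = _
    module
  have h2'' : Cl (H.om 2) ((-(s2 / y)) • F.sim ⟨x1, y⟩) := by
    rw [hsim, smul_smul]
    have e1 : -(s2 / y) * -y = s2 := by
      field_simp
    rw [e1]
    exact h2'
  have hk' : KCls (ofHk H 0) (F.sre ⟨x1, y⟩) := hk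
  have hNN : NNat (Cn (2 * n)) (2 * n) := Crest.Agent.R260.NN6_900.nnat (2 * n) (Cn (2 * n)) (by
    rw [finrank_real_of_complex]
    simp)
  obtain ⟨H', r, z, hr, hz, e0, e2, g0, g1, g2, hat, -⟩ := start_a2 hNN (qs_of hc) F
    (hc.uniq H hp) (τ := ⟨x1, y⟩) hy hs1 (div_pos hs2 hy) h1' h2'' hk'
  -- (6) DIV 2
  have hbad : x1 ∉ Classical.choose (hd F (hfr w hw)) := fun hx =>
    hx1S (mem_iUnion.2 ⟨w, mem_iUnion.2 ⟨hw, hx⟩⟩)
  obtain ⟨K, H1, τ1, hAlg, hmem, hre, hleg⟩ := (Classical.choose_spec (hd F (hfr w hw))).2 A hA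
    h.Ae h.Av (by rw [hc.symm]; exact h.es_A _) H' ⟨x1, y⟩ hat hbad
  exact ⟨{
    A := A
    intA := hA
    AA := h.AA
    F := F
    Fe := rfl
    Ae := h.Ae
    Av := h.Av
    Aes := by rw [hc.symm]; exact h.es_A _
    a := cst a
    ha := ⟨(m0 : ℝ)⁻¹, inv_pos.2 hm0', by rw [← hAa]; exact Cl.refl _⟩
    aB := ha
    c := cx
    c_cont := hcont
    hc := hcl
    x1 := x1
    cD := hx1D'
    K := K
    alg := hAlg
    H' := H'
    st := ⟨r, hr, e0, e2⟩
    τ0 := ⟨x1, y⟩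
    re0 := rfl
    ph0 := ⟨hy, z, hz, g1, g2⟩
    H1 := H1
    τ1 := τ1
    re1 := hre
    mem := hmem
    leg := hleg }⟩

/-- the geometric output of DIV 2 (998), for every frame -/
def Div2P (Alg : AlgTT) : Prop :=
  ∀ (n : ℕ) (X : Type) [TopologicalSpace X] [CompactSpace X] [T2Space X]
    [SimplyConnectedSpace X] (C : RCh (Cn (2 * n)) X) (Q : F2 C →ₗ[ℝ] F2 C →ₗ[ℝ] ℝ), Ctx n C Q →
    ∀ F : Frm C Q, Div2Geo F (Alg n X C Q F)

/-- **the node `RoadP` of RANK281** -/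
theorem roadP (Alg : AlgTT) (h : Div2P Alg) : RoadP Alg := by
  intro n X _ _ _ _ C Q hc H0 L0 e hG B
  exact road_of hc hG B (Alg n X C Q) fun F _ => h n X C Q hc F

end

end Crest.Agent.R281.Rd_326
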