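import Mathlib

/-!
# Row 281, REP-VAR, part 1 (helper835): joint smoothness from averages

`joint_smooth` : `u p` of class `C¹` for each parameter `p`; if all the averages
`∫_[0,r]^n ∏ κ_j (t_j) u p (x + ∑ t_j v_j) dt`, `κ_j ∈ {-χ', -χ}`, are jointly smooth in `(p, x)`,
then `u` is jointly smooth.
-/

set_option autoImplicit false
set_option linter.unusedSectionVars false

open Set Filter Topology MeasureTheory
open scoped ContDiff

namespace Crest.Agent.R281.Rep_835

noncomputable section

/-! ### the kernels -/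

/-- smooth cut-off on the line: `1` at `0`, `0` at `r` -/
def chi (r : ℝ) (τ : ℝ) : ℝ := Real.smoothTransition (1 - τ / r)

theorem chi_sm (r : ℝ) : ContDiff ℝ ∞ (chi r) :=
  Real.smoothTransition.contDiff.comp (contDiff_const.sub (contDiff_id.div_const r))

theorem chi_zero (r : ℝ) : chi r 0 = 1 := by
  simp [chi, Real.smoothTransition.one_of_one_le]

theorem chi_r {r : ℝ} (hr : 0 < r) : chi r r = 0 := by
  rw [chi, div_self hr.ne', sub_self]
  exact Real.smoothTransition.zero_of_nonpos le_rfl

/-- the two kernels -/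
def ker (r : ℝ) (β : Bool) (τ : ℝ) : ℝ := if β then -chi r τ else -deriv (chi r) τ

theorem ker_cont (r : ℝ) (β : Bool) : Continuous (ker r β) := by
  cases β
  · have h : ker r false = fun τ => -deriv (chi r) τ := funext fun τ => by simp [ker]
    rw [h]
    exact ((chi_sm r).continuous_deriv (by simp)).neg
  · have h : ker r true = fun τ => -chi r τ := funext fun τ => by simp [ker]
    rw [h]
    exact (chi_sm r).continuous.neg

variable {V : Type*} [NormedAddCommGroup V] [NormedSpace ℝ V] [FiniteDimensional ℝ V]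

/-- the average in the direction `v` -/
def av (r : ℝ) (β : Bool) (v : V) (f : V → ℝ) (x : V) : ℝ :=
  ∫ τ in Icc (0 : ℝ) r, ker r β τ * f (x + τ • v)

theorem av_hasFDerivAt (r : ℝ) (β : Bool) (v : V) {f : V → ℝ} (hf : ContDiff ℝ 1 f) (x : V) :
    HasFDerivAt (av r β v f)
      (∫ τ in Icc (0 : ℝ) r, ker r β τ • fderiv ℝ f (x + τ • v)) x := by
  have hfd : Continuous (fderiv ℝ f) := hf.continuous_fderiv (by simp)
  have hdf : Differentiable ℝ f := hf.differentiable (by simp)
  have hprop : ProperSpace V := FiniteDimensional.proper_real V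
  have hc : Continuous fun q : V × ℝ => ker r β q.2 • fderiv ℝ f (q.1 + q.2 • v) :=
    ((ker_cont r β).comp continuous_snd).smul (hfd.comp (by fun_prop))
  obtain ⟨M, hM⟩ := ((isCompact_closedBall x 1).prod (isCompact_Icc (a := (0 : ℝ)) (b := r))
    ).bddAbove_image hc.norm.continuousOn
  have hc0 : ∀ y, Continuous fun τ : ℝ => ker r β τ * f (y + τ • v) := fun y =>
    (ker_cont r β).mul (hf.continuous.comp (by fun_prop))
  have h := hasFDerivAt_integral_of_dominated_of_fderiv_le (𝕜 := ℝ)
    (μ := volume.restrict (Icc (0 : ℝ) r)) (F := fun (y : V) (τ : ℝ) => ker r β τ * f (y + τ • v))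
    (F' := fun y τ => ker r β τ • fderiv ℝ f (y + τ • v)) (x₀ := x)
    (s := Metric.closedBall x 1) (bound := fun _ => M)
    (Metric.closedBall_mem_nhds x one_pos)
    (Eventually.of_forall fun y => (hc0 y).aestronglyMeasurable)
    ((hc0 x).integrableOn_Icc)
    ((hc.comp (by fun_prop : Continuous fun τ : ℝ => (x, τ))).aestronglyMeasurable)
    ?_ ?_ ?_
  · exact h
  · refine (ae_restrict_iff' measurableSet_Icc).2 (Eventually.of_forall fun τ hτ y hy => ?_)
    exact hM ⟨(y, τ), ⟨hy, hτ⟩, rfl⟩
  · exact integrable_const M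
  · refine Eventually.of_forall fun τ y _ => ?_
    have h1 : HasFDerivAt (fun y : V => f (y + τ • v)) (fderiv ℝ f (y + τ • v)) y := by
      have h2 : HasFDerivAt (fun y : V => y + τ • v) (ContinuousLinearMap.id ℝ V) y :=
        (hasFDerivAt_id y).add_const _
      have h3 := (hdf (y + τ • v)).hasFDerivAt.comp y h2
      rwa [ContinuousLinearMap.comp_id] at h3
    exact h1.const_mul (ker r β τ)

theorem av_c1 (r : ℝ) (β : Bool) (v : V) {f : V → ℝ} (hf : ContDiff ℝ 1 f) :
    ContDiff ℝ 1 (av r β v f) := by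
  have hprop : ProperSpace V := FiniteDimensional.proper_real V
  have hfd : Continuous (fderiv ℝ f) := hf.continuous_fderiv (by simp)
  refine contDiff_one_iff_hasFDerivAt.2 ⟨_, ?_, av_hasFDerivAt r β v hf⟩
  have hc : Continuous (Function.uncurry fun (x : V) (τ : ℝ) =>
      ker r β τ • fderiv ℝ f (x + τ • v)) :=
    ((ker_cont r β).comp continuous_snd).smul (hfd.comp (by fun_prop))
  exact continuous_parametric_integral_of_continuous hc isCompact_Icc

/-- the one dimensional identity -/
theorem av_id {r : ℝ} (hr : 0 < r) (v : V) {f : V → ℝ} (hf : ContDiff ℝ 1 f) (x : V) :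
    f x = av r false v f x + fderiv ℝ (av r true v f) x v := by
  have hfd : Continuous (fderiv ℝ f) := hf.continuous_fderiv (by simp)
  have hdf : Differentiable ℝ f := hf.differentiable (by simp)
  rw [(av_hasFDerivAt r true v hf x).fderiv]
  have hi : IntegrableOn (fun τ : ℝ => ker r true τ • fderiv ℝ f (x + τ • v)) (Icc (0 : ℝ) r) :=
    (((ker_cont r true).smul (hfd.comp (by fun_prop)))).integrableOn_Icc
  rw [ContinuousLinearMap.integral_apply hi]
  have hA : Continuous fun τ : ℝ => deriv (chi r) τ * f (x + τ • v) :=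
    ((chi_sm r).continuous_deriv (by simp)).mul (hf.continuous.comp (by fun_prop))
  have hB : Continuous fun τ : ℝ => chi r τ * fderiv ℝ f (x + τ • v) v :=
    (chi_sm r).continuous.mul ((hfd.comp (by fun_prop)).clm_apply continuous_const)
  have hd : ∀ τ ∈ uIcc (0 : ℝ) r, HasDerivAt (fun τ : ℝ => chi r τ * f (x + τ • v))
      (deriv (chi r) τ * f (x + τ • v) + chi r τ * fderiv ℝ f (x + τ • v) v) τ := by
    intro τ _
    have h1 : HasDerivAt (chi r) (deriv (chi r) τ) τ :=
      (((chi_sm r).differentiable (by simp)) τ).hasDerivAt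
    have h2 : HasDerivAt (fun τ : ℝ => x + τ • v) v τ := by
      simpa using ((hasDerivAt_id τ).smul_const v).const_add x
    have h3 : HasDerivAt (fun τ : ℝ => f (x + τ • v)) (fderiv ℝ f (x + τ • v) v) τ :=
      (hdf (x + τ • v)).hasFDerivAt.comp_hasDerivAt τ h2
    exact h1.mul h3
  have hF := intervalIntegral.integral_eq_sub_of_hasDerivAt hd
    ((hA.add hB).intervalIntegrable _ _)
  rw [chi_zero, chi_r hr, zero_mul, zero_smul, add_zero, one_mul, zero_sub,
    intervalIntegral.integral_add (hA.intervalIntegrable _ _) (hB.intervalIntegrable _ _),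
    intervalIntegral.integral_of_le hr.le, intervalIntegral.integral_of_le hr.le,
    ← integral_Icc_eq_integral_Ioc, ← integral_Icc_eq_integral_Ioc] at hF
  have e1 : av r false v f x = -∫ τ in Icc (0 : ℝ) r, deriv (chi r) τ * f (x + τ • v) := by
    rw [av, ← integral_neg]
    refine integral_congr_ae (Eventually.of_forall fun τ => ?_)
    simp [ker]
  have e2 : (∫ τ in Icc (0 : ℝ) r, (ker r true τ • fderiv ℝ f (x + τ • v)) v) =
      -∫ τ in Icc (0 : ℝ) r, chi r τ * fderiv ℝ f (x + τ • v) v := by
    rw [← integral_neg]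
    refine integral_congr_ae (Eventually.of_forall fun τ => ?_)
    simp [ker]
  rw [e1, e2]
  linarith

/-! ### Fubini on the cube -/

/-- the cube -/
def cube (r : ℝ) (n : ℕ) : Set (Fin n → ℝ) := Icc (0 : Fin n → ℝ) (fun _ => r)

theorem isCompact_cube (r : ℝ) (n : ℕ) : IsCompact (cube r n) := isCompact_Icc

theorem mem_cube {r : ℝ} {n : ℕ} {t : Fin n → ℝ} : t ∈ cube r n ↔ ∀ j, t j ∈ Icc (0 : ℝ) r := by
  simp only [cube, mem_Icc, Pi.le_def, Pi.zero_apply]
  exact ⟨fun h j => ⟨h.1 j, h.2 j⟩, fun h => ⟨fun j => (h j).1, fun j => (h j).2⟩⟩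

theorem int_cube_succ (r : ℝ) (n : ℕ) {F : (Fin (n + 1) → ℝ) → ℝ} (hF : Continuous F) :
    ∫ t in cube r (n + 1), F t = ∫ t in cube r n, ∫ τ in Icc (0 : ℝ) r, F (Fin.cons τ t) := by
  have hmp := (volume_preserving_piFinSuccAbove (fun _ : Fin (n + 1) => ℝ) 0).symm
  have hset : (MeasurableEquiv.piFinSuccAbove (fun _ : Fin (n + 1) => ℝ) 0).symm ⁻¹'
      (cube r (n + 1)) = Icc (0 : ℝ) r ×ˢ cube r n := by
    ext ⟨τ, t⟩
    simp only [mem_preimage, mem_cube, mem_prod]
    constructor
    · intro h
      refine ⟨?_, fun j => ?_⟩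
      · simpa using h 0
      · simpa using h j.succ
    · rintro ⟨h1, h2⟩ j
      refine Fin.cases ?_ (fun j => ?_) j
      · simpa using h1
      · simpa using h2 j
  have h1 := hmp.setIntegral_preimage_emb (MeasurableEquiv.measurableEmbedding _) F
    (cube r (n + 1))
  rw [← h1, hset]
  have hcons : ∀ q : ℝ × (Fin n → ℝ),
      (MeasurableEquiv.piFinSuccAbove (fun _ : Fin (n + 1) => ℝ) 0).symm q =
        Fin.cons q.1 q.2 := fun q => by
    ext j
    refine Fin.cases ?_ (fun j => ?_) j <;> simp
  simp only [hcons]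
  have hc : Continuous fun q : ℝ × (Fin n → ℝ) => F (Fin.cons q.1 q.2) := by
    refine hF.comp ?_
    refine continuous_pi fun j => ?_
    refine Fin.cases ?_ (fun j => ?_) j
    · simpa using continuous_fst
    · have h : Continuous fun q : ℝ × (Fin n → ℝ) => q.2 j := by fun_prop
      simpa using h
  have hint : IntegrableOn (fun q : ℝ × (Fin n → ℝ) => F (Fin.cons q.1 q.2))
      (Icc (0 : ℝ) r ×ˢ cube r n) :=
    hc.continuousOn.integrableOn_compact (isCompact_Icc.prod (isCompact_cube r n))
  show ∫ q in Icc (0 : ℝ) r ×ˢ cube r n, F (Fin.cons q.1 q.2) ∂(volume.prod volume) = _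
  rw [← Measure.prod_restrict]
  rw [integral_prod_symm]
  rw [Measure.prod_restrict]
  exact hint

/-! ### the theorem -/

/-- the average over the cube -/
def avn (r : ℝ) (n : ℕ) (k : Fin n → Bool) (v : Fin n → V) (f : V → ℝ) (x : V) : ℝ :=
  ∫ t in cube r n, (∏ j, ker r (k j) (t j)) * f (x + ∑ j, t j • v j)

theorem avn_succ (r : ℝ) (n : ℕ) (β : Bool) (k : Fin n → Bool) (v : Fin (n + 1) → V) {f : V → ℝ}
    (hf : Continuous f) (x : V) :
    avn r (n + 1) (Fin.cons β k) v f x = avn r n k (fun j => v j.succ) (av r β (v 0) f) x := by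
  unfold avn
  rw [int_cube_succ]
  · refine setIntegral_congr_fun isCompact_Icc.measurableSet fun t _ => ?_
    simp only [Fin.prod_univ_succ, Fin.cons_zero, Fin.cons_succ, Fin.sum_univ_succ]
    rw [av, ← integral_const_mul]
    refine integral_congr_ae (Eventually.of_forall fun τ => ?_)
    simp only
    rw [show x + (τ • v 0 + ∑ j, t j • v j.succ) = x + ∑ j, t j • v j.succ + τ • v 0 by abel]
    ring
  · refine Continuous.mul ?_ (hf.comp ?_)
    · exact continuous_finsetProd _ fun j _ => (ker_cont _ _).comp (continuous_apply j)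
    · exact continuous_const.add (continuous_finsetSum _ fun j _ =>
        (continuous_apply j).smul continuous_const)

variable {E : Type*} [NormedAddCommGroup E] [NormedSpace ℝ E]

/-- **joint smoothness from the averages** -/
theorem joint_smooth {r : ℝ} (hr : 0 < r) {N : Set E} {B : Set V} (hN : IsOpen N) (hB : IsOpen B)
    (n : ℕ) : ∀ (v : Fin n → V) (u : E → V → ℝ), (∀ p ∈ N, ContDiff ℝ 1 (u p)) →
    (∀ k : Fin n → Bool, ContDiffOn ℝ ∞ (fun q : E × V => avn r n k v (u q.1) q.2) (N ×ˢ B)) →
    ContDiffOn ℝ ∞ (fun q : E × V => u q.1 q.2) (N ×ˢ B) := by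
  induction n with
  | zero =>
    intro v u _ h
    refine (h Fin.elim0).congr fun q _ => ?_
    have h1 : cube r 0 = univ := by
      ext t
      simp [mem_cube]
    have h2 : (volume : Measure (Fin 0 → ℝ)) = Measure.dirac 0 := by
      rw [volume_pi]
      exact Measure.pi_of_empty _ _
    simp [avn, h1, h2]
  | succ n ih =>
    intro v u hu h
    have key : ∀ β : Bool, ContDiffOn ℝ ∞ (fun q : E × V => av r β (v 0) (u q.1) q.2) (N ×ˢ B) := by
      intro β
      refine ih (fun j => v j.succ) (fun p => av r β (v 0) (u p))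
        (fun p hp => av_c1 r β (v 0) (hu p hp)) fun k => ?_
      refine (h (Fin.cons β k)).congr fun q hq => ?_
      exact (avn_succ r n β k v (hu q.1 hq.1).continuous q.2).symm
    have h2 : ContDiffOn ℝ ∞ (fun q : E × V =>
        fderiv ℝ (fun q : E × V => av r true (v 0) (u q.1) q.2) q (0, v 0)) (N ×ˢ B) :=
      ((key true).fderiv_of_isOpen (hN.prod hB) (by simp)).clm_apply contDiffOn_const
    refine ((key false).add h2).congr fun q hq => ?_
    rw [av_id hr (v 0) (hu q.1 hq.1) q.2]
    congr 1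
    have h3 : HasFDerivAt (fun q : E × V => av r true (v 0) (u q.1) q.2)
        (fderiv ℝ (fun q : E × V => av r true (v 0) (u q.1) q.2) q) (q.1, q.2) :=
      (((key true).contDiffAt ((hN.prod hB).mem_nhds hq)).differentiableAt (by simp)).hasFDerivAt
    have h4 := h3.comp q.2 (hasFDerivAt_prodMk_right q.1 q.2)
    have h5 : (fun y => av r true (v 0) (u q.1) y) = av r true (v 0) (u q.1) := rfl
    have h6 := h4.fderiv
    have h7 : ((fun q : E × V => av r true (v 0) (u q.1) q.2) ∘ fun y => (q.1, y)) =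
        av r true (v 0) (u q.1) := rfl
    rw [h7] at h6
    rw [h6]
    simp

end

end Crest.Agent.R281.Rep_835
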