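import Crest.Agent.R281.Rep1_835
import Mathlib.MeasureTheory.Measure.Haar.Unique
import Mathlib.Analysis.Calculus.BumpFunction.FiniteDimension

/-!
# Row 281, REP-VAR, part 2 (helper835): joint smoothness from weak smoothness of the translates

`joint_at` : `u p` smooth on a ball for each `p`, and `(p, s) ↦ ∫ φ(z) u p (z + s)` smooth for every
bounded measurable `φ` with support in a small ball: then `u` is jointly smooth near the centre.
-/

set_option autoImplicit false
set_option linter.unusedSectionVars false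

open Set Filter Topology MeasureTheory Metric
open scoped ContDiff

namespace Crest.Agent.R281.Rep_835

noncomputable section

variable {V : Type*} [NormedAddCommGroup V] [NormedSpace ℝ V] [FiniteDimensional ℝ V]
  [MeasurableSpace V] [BorelSpace V] (μ : Measure V) [μ.IsAddHaarMeasure]

/-- integrals in coordinates -/
theorem exists_coord {n : ℕ} (b : Module.Basis (Fin n) ℝ V) : ∃ c : ℝ, 0 < c ∧
    ∀ g : (Fin n → ℝ) → ℝ, ∫ z, g (b.equivFun z) ∂μ = c * ∫ t, g t := by
  set L : V ≃L[ℝ] (Fin n → ℝ) := b.equivFun.toContinuousLinearEquiv with hL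
  have hh : (μ.map L).IsAddHaarMeasure := L.isAddHaarMeasure_map μ
  obtain ⟨a, ha, h1⟩ : ∃ a : NNReal, 0 < a ∧ μ.map L = a • volume :=
    ⟨_, Measure.addHaarScalarFactor_pos_of_isAddHaarMeasure (μ.map L) volume,
      Measure.isAddLeftInvariant_eq_smul _ _⟩
  refine ⟨a, by exact_mod_cast ha, fun g => ?_⟩
  · have h2 : ∫ z, g (b.equivFun z) ∂μ = ∫ t, g t ∂(μ.map L) :=
      (L.toHomeomorph.measurableEmbedding.integral_map g).symm
    rw [h2, h1, integral_smul_nnreal_measure]
    rfl

/-- the kernel on `V` -/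
def kerV {n : ℕ} (b : Module.Basis (Fin n) ℝ V) (r : ℝ) (k : Fin n → Bool) (y : V) : ℝ :=
  (cube r n).indicator (fun t => ∏ j, ker r (k j) (t j)) (b.equivFun y)

theorem kerV_meas {n : ℕ} (b : Module.Basis (Fin n) ℝ V) (r : ℝ) (k : Fin n → Bool) :
    Measurable (kerV b r k) := by
  have h1 : Measurable ((cube r n).indicator (fun t => ∏ j, ker r (k j) (t j))) := by
    refine Measurable.indicator ?_ (isCompact_cube r n).measurableSet
    exact (continuous_finsetProd _ fun j _ =>
      (ker_cont _ _).comp (continuous_apply j)).measurable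
  exact h1.comp (b.equivFun.toContinuousLinearEquiv.continuous.measurable)

theorem kerV_bdd {n : ℕ} (b : Module.Basis (Fin n) ℝ V) (r : ℝ) (k : Fin n → Bool) :
    ∃ M, ∀ y, |kerV b r k y| ≤ M := by
  have hc : Continuous fun t : Fin n → ℝ => ∏ j, ker r (k j) (t j) :=
    continuous_finsetProd _ fun j _ => (ker_cont _ _).comp (continuous_apply j)
  obtain ⟨M, hM⟩ := (isCompact_cube r n).bddAbove_image hc.norm.continuousOn
  refine ⟨max M 0, fun y => ?_⟩
  unfold kerV
  by_cases h : b.equivFun y ∈ cube r n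
  · rw [indicator_of_mem h]
    exact (hM ⟨_, h, rfl⟩).trans (le_max_left _ _)
  · rw [indicator_of_notMem h, abs_zero]
    exact le_max_right _ _

theorem norm_of_cube {n : ℕ} (b : Module.Basis (Fin n) ℝ V) {r : ℝ} {t : Fin n → ℝ}
    (ht : t ∈ cube r n) : ‖∑ j, t j • b j‖ ≤ r * ∑ j, ‖b j‖ := by
  rw [Finset.mul_sum]
  refine (norm_sum_le _ _).trans (Finset.sum_le_sum fun j _ => ?_)
  rw [norm_smul]
  refine mul_le_mul_of_nonneg_right ?_ (norm_nonneg _)
  have h := mem_cube.1 ht j
  rw [Real.norm_of_nonneg h.1]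
  exact h.2

theorem avn_eq {n : ℕ} (b : Module.Basis (Fin n) ℝ V) {c : ℝ}
    (hc : ∀ g : (Fin n → ℝ) → ℝ, ∫ z, g (b.equivFun z) ∂μ = c * ∫ t, g t) (r : ℝ)
    (k : Fin n → Bool) (f : V → ℝ) (x : V) :
    c * avn r n k (fun j => b j) f x = ∫ z, kerV b r k z * f (x + z) ∂μ := by
  have h := hc fun t => (cube r n).indicator (fun t => ∏ j, ker r (k j) (t j)) t *
    f (x + ∑ j, t j • b j)
  have h1 : ∀ z, ∑ j, b.equivFun z j • b j = z := fun z => b.sum_equivFun z
  simp only [h1] at h
  have h2 : (∫ t, (cube r n).indicator (fun t => ∏ j, ker r (k j) (t j)) t *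
      f (x + ∑ j, t j • b j)) = avn r n k (fun j => b j) f x := by
    unfold avn
    rw [← integral_indicator (isCompact_cube r n).measurableSet]
    refine integral_congr_ae (Eventually.of_forall fun t => ?_)
    by_cases ht : t ∈ cube r n
    · simp only [indicator_of_mem ht]
    · simp only [indicator_of_notMem ht, zero_mul]
  rw [h2] at h
  rw [← h]
  rfl

variable {E : Type*} [NormedAddCommGroup E] [NormedSpace ℝ E]

/-- **joint smoothness from weak smoothness of the translates** -/
theorem joint_at {N : Set E} (hN : IsOpen N) {z0 : V} {R ε ρ : ℝ} (hR : 0 < R) (hε : 0 < ε)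
    (hρ : 0 < ρ) {u : E → V → ℝ} (hu : ∀ p ∈ N, ContDiffOn ℝ ∞ (u p) (ball z0 R))
    (hφ : ∀ φ : V → ℝ, Measurable φ → (∃ M, ∀ z, |φ z| ≤ M) → (∀ z, z ∉ ball z0 ρ → φ z = 0) →
      ContDiffOn ℝ ∞ (fun q : E × V => ∫ z, φ z * u q.1 (z + q.2) ∂μ) (N ×ˢ ball 0 ε)) :
    ∃ δ, 0 < δ ∧ ContDiffOn ℝ ∞ (fun q : E × V => u q.1 q.2) (N ×ˢ ball z0 δ) := by
  obtain ⟨n, ⟨b⟩⟩ : ∃ n : ℕ, Nonempty (Module.Basis (Fin n) ℝ V) :=
    ⟨_, ⟨Module.finBasis ℝ V⟩⟩
  obtain ⟨c, hc0, hc⟩ := exists_coord μ b
  set M : ℝ := ∑ j, ‖b j‖ with hM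
  have hM0 : 0 ≤ M := Finset.sum_nonneg fun j _ => norm_nonneg _
  -- the sizes
  set m : ℝ := min (R / 4) ρ with hm
  have hm0 : 0 < m := lt_min (by positivity) hρ
  set r : ℝ := m / (2 * (M + 1)) with hr
  have hr0 : 0 < r := by positivity
  have hrM : r * M < m := by
    rw [hr, div_mul_eq_mul_div, div_lt_iff₀ (by positivity)]
    nlinarith
  set δ : ℝ := min ε (R / 4) with hδ
  have hδ0 : 0 < δ := lt_min hε (by positivity)
  let f : ContDiffBump z0 := ⟨R / 2, 3 * R / 4, by positivity, by linarith⟩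
  -- the cut off functions
  set v : E → V → ℝ := fun p x => f x * u p x with hv
  have hfsm : ContDiff ℝ ∞ f := f.contDiff
  have hv1 : ∀ p ∈ N, ContDiff ℝ 1 (v p) := by
    intro p hp
    rw [contDiff_iff_contDiffAt]
    intro x
    by_cases hx : x ∈ ball z0 R
    · exact ((hfsm.contDiffAt (x := x)).mul
        ((hu p hp).contDiffAt (isOpen_ball.mem_nhds hx))).of_le (by simp)
    · have h1 : v p =ᶠ[𝓝 x] fun _ => 0 := by
        have h2 : (closedBall z0 (3 * R / 4))ᶜ ∈ 𝓝 x := by
          refine isClosed_closedBall.isOpen_compl.mem_nhds fun h3 => hx ?_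
          exact closedBall_subset_ball (by linarith) h3
        filter_upwards [h2] with y hy
        have h4 : f y = 0 := f.zero_of_le_dist (by
          rw [mem_compl_iff, mem_closedBall, not_le] at hy
          exact hy.le)
        rw [hv]
        simp only
        rw [h4, zero_mul]
      exact contDiffAt_const.congr_of_eventuallyEq h1
  have hveq : ∀ p, ∀ x ∈ closedBall z0 (R / 2), v p x = u p x := by
    intro p x hx
    have h4 : f x = 1 := f.one_of_mem_closedBall hx
    rw [hv]
    simp only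
    rw [h4, one_mul]
  refine ⟨δ, hδ0, ?_⟩
  have hmain : ContDiffOn ℝ ∞ (fun q : E × V => v q.1 q.2) (N ×ˢ ball z0 δ) := by
    refine joint_smooth hr0 hN isOpen_ball n (fun j => b j) v hv1 fun k => ?_
    -- the kernel
    set φ : V → ℝ := fun z => kerV b r k (z - z0) with hφd
    have hφs : ∀ z, z ∉ ball z0 m → φ z = 0 := by
      intro z hz
      rw [hφd]
      unfold kerV
      simp only
      refine indicator_of_notMem (fun ht => hz ?_) _
      have h5 := norm_of_cube b ht
      rw [b.sum_equivFun] at h5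
      rw [mem_ball, dist_eq_norm]
      exact lt_of_le_of_lt h5 hrM
    have h1 := hφ φ ((kerV_meas b r k).comp (measurable_id.sub_const z0))
      (by
        obtain ⟨M', hM'⟩ := kerV_bdd b r k
        exact ⟨M', fun z => hM' _⟩)
      (fun z hz => hφs z fun h => hz (ball_subset_ball (min_le_right _ _) h))
    have h2 : ContDiffOn ℝ ∞ (fun q : E × V => ∫ z, φ z * u q.1 (z + (q.2 - z0)) ∂μ)
        (N ×ˢ ball z0 δ) := by
      refine ContDiffOn.comp (g := fun q : E × V => ∫ z, φ z * u q.1 (z + q.2) ∂μ)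
        (f := fun q : E × V => (q.1, q.2 - z0)) h1 ?_ ?_
      · exact (contDiff_fst.prodMk (contDiff_snd.sub contDiff_const)).contDiffOn
      · rintro ⟨p, x⟩ ⟨hp, hx⟩
        refine ⟨hp, ?_⟩
        rw [mem_ball, dist_zero_right]
        rw [mem_ball, dist_eq_norm] at hx
        exact lt_of_lt_of_le hx (min_le_left _ _)
    refine (h2.const_smul c⁻¹).congr ?_
    rintro ⟨p, x⟩ ⟨hp, hx⟩
    have h3 := avn_eq μ b hc r k (v p) x
    have h4 : avn r n k (fun j => b j) (v p) x = c⁻¹ * ∫ z, kerV b r k z * v p (x + z) ∂μ := by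
      rw [← h3, ← mul_assoc, inv_mul_cancel₀ hc0.ne', one_mul]
    simp only
    rw [h4, smul_eq_mul]
    congr 1
    rw [← integral_sub_right_eq_self (fun z => kerV b r k z * v p (x + z)) z0]
    refine integral_congr_ae (Eventually.of_forall fun z => ?_)
    simp only
    by_cases hz : z ∈ ball z0 m
    · have h5 : x + (z - z0) = z + (x - z0) := by abel
      rw [h5, hveq]
      rw [mem_closedBall]
      rw [mem_ball] at hz hx
      have h6 : m ≤ R / 4 := min_le_left _ _
      have h7 : δ ≤ R / 4 := min_le_right _ _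
      calc dist (z + (x - z0)) z0 ≤ dist (z + (x - z0)) z + dist z z0 := dist_triangle _ _ _
        _ = dist x z0 + dist z z0 := by
          rw [dist_eq_norm (z + (x - z0)), add_sub_cancel_left, dist_eq_norm x]
        _ ≤ R / 2 := by linarith
    · have h5 : kerV b r k (z - z0) = 0 := hφs z hz
      rw [hφd]
      simp only [h5, zero_mul]
  refine hmain.congr ?_
  rintro ⟨p, x⟩ ⟨hp, hx⟩
  refine (hveq p x ?_).symm
  rw [mem_ball] at hx
  rw [mem_closedBall]
  have h7 : δ ≤ R / 4 := min_le_right _ _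
  linarith

end

end Crest.Agent.R281.Rep_835
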