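import Crest.Agent.R281.Lv1_626
import Crest.Agent.R281.Lv2_626
import Mathlib.MeasureTheory.Function.Holder
import Mathlib.MeasureTheory.Function.L2Space

/-!
# Row 281, REP-VAR, part 3 (helper835): Lax-Milgram with parameters in `L²`

* `prL`        : `C(Y, F →L F →L ℝ) →L (L² →L L² →L ℝ)`, `(b, f, g) ↦ ∫ b(y) (f y) (g y)`
* `prL_coe`    : coercivity
* `sol_smooth` : `B_p (x p, y) = B_p (β p, y)` for `y ∈ W`, `x p ∈ W`: then `x` is smooth in `p`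
-/

set_option autoImplicit false
set_option linter.unusedSectionVars false
set_option maxSynthPendingDepth 3

open Set Filter Topology MeasureTheory
open scoped ContDiff ENNReal

namespace Crest.Agent.R281.Rep_835

noncomputable section

section one

variable {Y F : Type} [TopologicalSpace Y] [CompactSpace Y] [MeasurableSpace Y] [BorelSpace Y]
  [NormedAddCommGroup F] [InnerProductSpace ℝ F] [FiniteDimensional ℝ F]
  [SecondCountableTopologyEither Y F] (ν : Measure Y) [IsFiniteMeasure ν]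
  [SecondCountableTopologyEither Y (F →L[ℝ] F →L[ℝ] ℝ)]

/-- the Hilbert space -/
abbrev L2 (Y F : Type) [TopologicalSpace Y] [MeasurableSpace Y]
    [NormedAddCommGroup F] (ν : Measure Y) : Type := Lp F 2 ν

/-- evaluation of a bilinear form, as a bilinear map -/
def evB (F : Type) [NormedAddCommGroup F] [NormedSpace ℝ F] :
    (F →L[ℝ] F →L[ℝ] ℝ) →L[ℝ] F →L[ℝ] (F →L[ℝ] ℝ) := ContinuousLinearMap.id ℝ _

/-- the pairing -/
def prL : C(Y, F →L[ℝ] F →L[ℝ] ℝ) →L[ℝ] Lp F 2 ν →L[ℝ] Lp F 2 ν →L[ℝ] ℝ :=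
  (ContinuousLinearMap.compL ℝ (Lp F 2 ν) (Lp (F →L[ℝ] ℝ) 2 ν) (Lp F 2 ν →L[ℝ] ℝ)
    ((ContinuousLinearMap.id ℝ (F →L[ℝ] ℝ)).lpPairing ν 2 2)) ∘L
    ((evB F).holderL ν ∞ 2 2) ∘L (ContinuousMap.toLp ∞ ν ℝ)

theorem prL_int (b : C(Y, F →L[ℝ] F →L[ℝ] ℝ)) (f g : Lp F 2 ν) :
    prL ν b f g = ∫ y, b y (f y) (g y) ∂ν := by
  show (ContinuousLinearMap.id ℝ (F →L[ℝ] ℝ)).lpPairing ν 2 2
    ((evB F).holderL ν ∞ 2 2 (ContinuousMap.toLp ∞ ν ℝ b) f) g = _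
  rw [ContinuousLinearMap.lpPairing_eq_integral]
  refine integral_congr_ae ?_
  have h1 := (evB F).coeFn_holder (r := 2) (μ := ν) (ContinuousMap.toLp (p := ∞) ν (𝕜 := ℝ) b) f
  have h2 := ContinuousMap.coeFn_toLp (p := ∞) ν (𝕜 := ℝ) b
  filter_upwards [h1, h2] with y hy1 hy2
  simp only [ContinuousLinearMap.holderL_apply_apply, ContinuousLinearMap.id_apply]
  rw [hy1, hy2]
  rfl

theorem prL_toLp (b : C(Y, F →L[ℝ] F →L[ℝ] ℝ)) (f g : C(Y, F)) :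
    prL ν b (ContinuousMap.toLp 2 ν ℝ f) (ContinuousMap.toLp 2 ν ℝ g) =
      ∫ y, b y (f y) (g y) ∂ν := by
  rw [prL_int]
  refine integral_congr_ae ?_
  filter_upwards [ContinuousMap.coeFn_toLp (p := 2) ν (𝕜 := ℝ) f,
    ContinuousMap.coeFn_toLp (p := 2) ν (𝕜 := ℝ) g] with y h1 h2
  rw [h1, h2]

/-- coercivity -/
theorem prL_coe {b : C(Y, F →L[ℝ] F →L[ℝ] ℝ)} {c : ℝ} (hb : ∀ y v, c * ‖v‖ ^ 2 ≤ b y v v)
    (f : Lp F 2 ν) : c * ‖f‖ ^ 2 ≤ prL ν b f f := by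
  have h1 : ‖f‖ ^ 2 = ∫ y, ‖f y‖ ^ 2 ∂ν := by
    rw [← real_inner_self_eq_norm_sq, L2.inner_def]
    refine integral_congr_ae (Eventually.of_forall fun y => ?_)
    exact real_inner_self_eq_norm_sq _
  have hi1 : Integrable (fun y => ‖f y‖ ^ 2) ν := by
    have := L2.integrable_inner (𝕜 := ℝ) f f
    refine this.congr (Eventually.of_forall fun y => ?_)
    exact real_inner_self_eq_norm_sq _
  have hi2 : Integrable (fun y => b y (f y) (f y)) ν := by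
    have h3 := (ContinuousLinearMap.id ℝ (F →L[ℝ] ℝ)).memLp_of_bilin 1 (μ := ν)
      (Lp.memLp ((evB F).holder 2 (ContinuousMap.toLp (p := ∞) ν (𝕜 := ℝ) b) f)) (Lp.memLp f)
    rw [memLp_one_iff_integrable] at h3
    refine h3.congr ?_
    filter_upwards [(evB F).coeFn_holder (r := 2) (μ := ν)
      (ContinuousMap.toLp (p := ∞) ν (𝕜 := ℝ) b) f,
      ContinuousMap.coeFn_toLp (p := ∞) ν (𝕜 := ℝ) b] with y h4 h5
    rw [h4, h5]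
    rfl
  rw [prL_int, h1, ← integral_const_mul]
  exact integral_mono (hi1.const_mul c) hi2 fun y => hb y _

end one

/-! ### finitely many pieces -/

section fin

variable {σ : Type} [Fintype σ] {Y : σ → Type} {F : Type} [∀ k, TopologicalSpace (Y k)]
  [∀ k, CompactSpace (Y k)] [∀ k, MeasurableSpace (Y k)] [∀ k, BorelSpace (Y k)]
  [NormedAddCommGroup F] [InnerProductSpace ℝ F] [FiniteDimensional ℝ F]
  [∀ k, SecondCountableTopologyEither (Y k) F]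
  [∀ k, SecondCountableTopologyEither (Y k) (F →L[ℝ] F →L[ℝ] ℝ)]
  (ν : ∀ k, Measure (Y k)) [∀ k, IsFiniteMeasure (ν k)]

/-- the space -/
abbrev Gs (F : Type) [NormedAddCommGroup F] (ν : ∀ k, Measure (Y k)) : Type :=
  ∀ k, Lp F 2 (ν k)

/-- the bilinear form -/
def Bs : (∀ k, C(Y k, F →L[ℝ] F →L[ℝ] ℝ)) →L[ℝ] Gs F ν →L[ℝ] Gs F ν →L[ℝ] ℝ :=
  ∑ k, (((ContinuousLinearMap.compL ℝ (Gs F ν) (Lp F 2 (ν k)) (Gs F ν →L[ℝ] ℝ)).flip
      (ContinuousLinearMap.proj k)) ∘L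
    (ContinuousLinearMap.compL ℝ (Lp F 2 (ν k)) (Lp F 2 (ν k) →L[ℝ] ℝ) (Gs F ν →L[ℝ] ℝ)
      ((ContinuousLinearMap.compL ℝ (Gs F ν) (Lp F 2 (ν k)) ℝ).flip
        (ContinuousLinearMap.proj k)))) ∘L (prL (ν k)) ∘L (ContinuousLinearMap.proj k)

theorem Bs_apply (b : ∀ k, C(Y k, F →L[ℝ] F →L[ℝ] ℝ)) (x y : Gs F ν) :
    Bs ν b x y = ∑ k, prL (ν k) (b k) (x k) (y k) := by
  simp only [Bs, _root_.sum_apply]
  rfl

theorem Bs_coe {b : ∀ k, C(Y k, F →L[ℝ] F →L[ℝ] ℝ)} {c : ℝ} (hc : 0 ≤ c)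
    (hb : ∀ k y v, c * ‖v‖ ^ 2 ≤ b k y v v) (x : Gs F ν) : c * ‖x‖ ^ 2 ≤ Bs ν b x x := by
  rw [Bs_apply]
  have h1 : ‖x‖ ^ 2 ≤ ∑ k, ‖x k‖ ^ 2 := by
    have h0 : 0 ≤ ∑ k, ‖x k‖ ^ 2 := Finset.sum_nonneg fun k _ => by positivity
    have h2 : ‖x‖ ≤ Real.sqrt (∑ k, ‖x k‖ ^ 2) := by
      refine (pi_norm_le_iff_of_nonneg (Real.sqrt_nonneg _)).2 fun k => ?_
      refine Real.le_sqrt_of_sq_le ?_
      exact Finset.single_le_sum (f := fun k => ‖x k‖ ^ 2) (fun k _ => by positivity)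
        (Finset.mem_univ k)
    calc ‖x‖ ^ 2 ≤ (Real.sqrt (∑ k, ‖x k‖ ^ 2)) ^ 2 := by gcongr
      _ = _ := Real.sq_sqrt h0
  calc c * ‖x‖ ^ 2 ≤ c * ∑ k, ‖x k‖ ^ 2 := mul_le_mul_of_nonneg_left h1 hc
    _ = ∑ k, c * ‖x k‖ ^ 2 := Finset.mul_sum _ _ _
    _ ≤ _ := Finset.sum_le_sum fun k _ => prL_coe (ν k) (hb k) (x k)

/-- restriction of functionals -/
def resW (W : Submodule ℝ (Gs F ν)) : (Gs F ν →L[ℝ] ℝ) →L[ℝ] (W →L[ℝ] ℝ) :=
  (ContinuousLinearMap.compL ℝ W (Gs F ν) ℝ).flip W.subtypeL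

theorem resW_apply (W : Submodule ℝ (Gs F ν)) (L : Gs F ν →L[ℝ] ℝ) (w : W) :
    resW ν W L w = L w := rfl

variable {E : Type} [NormedAddCommGroup E] [NormedSpace ℝ E]

/-- **Lax-Milgram with parameters** -/
theorem sol_smooth {W : Submodule ℝ (Gs F ν)} (hW : IsClosed (W : Set (Gs F ν))) {U : Set E}
    (hU : IsOpen U) {b : E → ∀ k, C(Y k, F →L[ℝ] F →L[ℝ] ℝ)} (hb : ContDiffOn ℝ ∞ b U)
    {p0 : E} (hp0 : p0 ∈ U) {c : ℝ} (hc : 0 < c) (hpos : ∀ k y v, c * ‖v‖ ^ 2 ≤ b p0 k y v v)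
    {x β : E → Gs F ν} (hβ : ContDiffOn ℝ ∞ β U) (hx : ∀ p ∈ U, x p ∈ W)
    (heq : ∀ p ∈ U, ∀ y ∈ W, Bs ν (b p) (x p) y = Bs ν (b p) (β p) y) :
    ∃ U' : Set E, IsOpen U' ∧ p0 ∈ U' ∧ U' ⊆ U ∧ ContDiffOn ℝ ∞ x U' := by
  set A : E → Gs F ν →L[ℝ] (W →L[ℝ] ℝ) := fun p => (resW ν W) ∘L (Bs ν (b p)) with hA
  have hBs0 : ContDiff ℝ ∞ (fun b : ∀ k, C(Y k, F →L[ℝ] F →L[ℝ] ℝ) => Bs ν b) :=
    (Bs (F := F) ν).contDiff
  have hBs : ContDiffOn ℝ ∞ (fun p => Bs ν (b p)) U := hBs0.comp_contDiffOn hb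
  have hAs : ContDiffOn ℝ ∞ A U := contDiffOn_const.clm_comp hBs
  have hE0 : ∀ x ∈ W, ‖x‖ ≤ c⁻¹ * ‖A p0 x‖ := by
    intro x hx
    have h1 := Bs_coe ν hc.le hpos x
    have h2 : Bs ν (b p0) x x = A p0 x ⟨x, hx⟩ := rfl
    have h3 : A p0 x ⟨x, hx⟩ ≤ ‖A p0 x‖ * ‖x‖ :=
      (le_abs_self _).trans ((A p0 x).le_opNorm ⟨x, hx⟩)
    rcases (norm_nonneg x).eq_or_lt with h0 | h0
    · rw [← h0]
      positivity
    · have h4 : c * ‖x‖ ≤ ‖A p0 x‖ := by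
        have h5 : c * ‖x‖ * ‖x‖ ≤ ‖A p0 x‖ * ‖x‖ := by
          calc c * ‖x‖ * ‖x‖ = c * ‖x‖ ^ 2 := by ring
            _ ≤ Bs ν (b p0) x x := h1
            _ ≤ _ := by rw [h2]; exact h3
        exact le_of_mul_le_mul_right h5 h0
      rw [inv_mul_eq_div, le_div_iff₀ hc]
      linarith
  -- the estimate on a neighbourhood
  have hcont : ContinuousAt A p0 := hAs.continuousOn.continuousAt (hU.mem_nhds hp0)
  have hδ : (0 : ℝ) < c / 2 := by positivity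
  have h1 : ∀ᶠ p in 𝓝 p0, ‖A p - A p0‖ < c / 2 :=
    (tendsto_iff_norm_sub_tendsto_zero.1 hcont.tendsto).eventually (gt_mem_nhds hδ)
  obtain ⟨U', hU', hUo, hpU⟩ := mem_nhds_iff.1 (h1.and (hU.mem_nhds hp0))
  have hsub : U' ⊆ U := fun p hp => (hU' hp).2
  have hE : ∀ p ∈ U', ∀ x ∈ W, ‖x‖ ≤ 2 * c⁻¹ * ‖A p x‖ := by
    intro p hp x hx
    have e1 := hE0 x hx
    have e2 : A p0 x = A p x - (A p - A p0) x := by simp
    have e3 : ‖A p0 x‖ ≤ ‖A p x‖ + c / 2 * ‖x‖ := by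
      rw [e2]
      refine (norm_sub_le _ _).trans (add_le_add le_rfl ?_)
      exact ((A p - A p0).le_opNorm x).trans
        (mul_le_mul_of_nonneg_right (hU' hp).1.le (norm_nonneg _))
    have e4 : ‖x‖ ≤ c⁻¹ * ‖A p x‖ + 1 / 2 * ‖x‖ := by
      calc ‖x‖ ≤ c⁻¹ * ‖A p0 x‖ := e1
        _ ≤ c⁻¹ * (‖A p x‖ + c / 2 * ‖x‖) := mul_le_mul_of_nonneg_left e3 (by positivity)
        _ = _ := by field_simp
    linarith
  refine ⟨U', hUo, hpU, hsub, ?_⟩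
  refine Lv1_626.contDiffOn_of_apriori hW hUo (hAs.mono hsub) (by positivity) hE
    (fun p hp => hx p (hsub hp)) ?_
  have h5 : ContDiffOn ℝ ∞ (fun p => resW ν W (Bs ν (b p) (β p))) U' :=
    (resW ν W).contDiff.comp_contDiffOn ((hBs.mono hsub).clm_apply (hβ.mono hsub))
  refine h5.congr fun p hp => ?_
  ext y
  exact heq p (hsub hp) y y.2

end fin

end

end Crest.Agent.R281.Rep_835
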