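import Crest.Agent.R281.Fin2_426

/-!
# R281 (S0424), H0-OP (R) (helper676), part 1: `L²` limits of almost holomorphic functions

* `loc_lim` : `f m` smooth, Cauchy in `L²(K)`, `∂̄ (f m) → 0` in `L²(K)`: the `L²` limit on an open
  subset of `K` is holomorphic
-/

set_option autoImplicit false
set_option linter.unusedSectionVars false

open Set Filter Topology MeasureTheory Metric Complex
open scoped ContDiff ENNReal NNReal

namespace Crest.Agent.R281.Rg_676

open Crest.Agent.R271.Weyl399 Crest.Agent.R281.Fin_426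

noncomputable section

section gen

variable {α : Type*} [MeasurableSpace α] {μ : Measure α} {E : Type*} [NormedAddCommGroup E]

/-- the square of the `L²` norm -/
theorem sq2 (f : α → E) : eLpNorm f 2 μ ^ 2 = ∫⁻ z, ‖f z‖ₑ ^ 2 ∂μ := by
  have h := eLpNorm_nnreal_pow_eq_lintegral (μ := μ) (f := f) (p := 2) (by norm_num)
  have e : ((2 : ℝ≥0) : ℝ) = ((2 : ℕ) : ℝ) := by norm_num
  rw [e] at h
  simp only [ENNReal.rpow_natCast] at h
  exact_mod_cast h

theorem tend2 {ι : Type*} {l : Filter ι} {f : ι → α → E} :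
    Tendsto (fun m => ∫⁻ z, ‖f m z‖ₑ ^ 2 ∂μ) l (𝓝 0) ↔
      Tendsto (fun m => eLpNorm (f m) 2 μ) l (𝓝 0) := by
  simp only [← sq2]
  constructor
  · intro h
    have h1 := (ENNReal.continuous_rpow_const (y := (1 / 2 : ℝ))).tendsto 0 |>.comp h
    rw [ENNReal.zero_rpow_of_pos (by norm_num)] at h1
    refine h1.congr fun m => ?_
    show (eLpNorm (f m) 2 μ ^ 2) ^ (1 / 2 : ℝ) = _
    rw [← ENNReal.rpow_natCast, ← ENNReal.rpow_mul]
    norm_num
  · intro h
    have h1 := ((ENNReal.continuous_pow 2).tendsto (0 : ℝ≥0∞)).comp h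
    simpa [Function.comp_def] using h1

end gen

section fin

variable {α : Type*} [MeasurableSpace α] {μ : Measure α} [IsFiniteMeasure μ]

/-- integrals against a bounded function are continuous for the `L²` norm -/
theorem tend_int {a : ℕ → α → ℂ} {b h : α → ℂ} (ha : ∀ m, MemLp (a m) 2 μ) (hb : MemLp b 2 μ)
    (hh : AEStronglyMeasurable h μ) {D : ℝ} (hD : ∀ z, ‖h z‖ ≤ D)
    (hl : Tendsto (fun m => eLpNorm (a m - b) 2 μ) atTop (𝓝 0)) :
    Tendsto (fun m => ∫ z, a m z * h z ∂μ) atTop (𝓝 (∫ z, b z * h z ∂μ)) := by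
  have hi : ∀ c : α → ℂ, MemLp c 2 μ → Integrable (fun z => c z * h z) μ := fun c hc =>
    (hc.integrable (by norm_num)).mul_bdd hh (Eventually.of_forall hD)
  refine tendsto_integral_of_L1 _ (hi b hb).aestronglyMeasurable
    (Eventually.of_forall fun m => hi _ (ha m)) ?_
  have h1 : ∀ m, ∫⁻ z, ‖a m z * h z - b z * h z‖ₑ ∂μ ≤
      ENNReal.ofReal D * (μ univ ^ (1 / 2 : ℝ) * eLpNorm (a m - b) 2 μ) := by
    intro m
    have h2 : ∀ z, ‖a m z * h z - b z * h z‖ₑ ≤ ENNReal.ofReal D * ‖(a m - b) z‖ₑ := by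
      intro z
      rw [← sub_mul, enorm_mul, mul_comm]
      refine mul_le_mul' ?_ le_rfl
      rw [← ofReal_norm]
      exact ENNReal.ofReal_le_ofReal (hD z)
    refine (lintegral_mono h2).trans ?_
    rw [lintegral_const_mul' _ _ ENNReal.ofReal_ne_top, ← eLpNorm_one_eq_lintegral_enorm]
    refine mul_le_mul' le_rfl ?_
    have h3 := eLpNorm_le_eLpNorm_mul_rpow_measure_univ (p := 1) (q := 2) (μ := μ)
      (by norm_num) ((ha m).1.sub hb.1)
    refine h3.trans (le_of_eq ?_)
    rw [mul_comm]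
    congr 2
    norm_num
  refine tendsto_of_tendsto_of_tendsto_of_le_of_le tendsto_const_nhds ?_
    (fun m => zero_le) h1
  have h4 : Tendsto (fun m => ENNReal.ofReal D * (μ univ ^ (1 / 2 : ℝ) * eLpNorm (a m - b) 2 μ))
      atTop (𝓝 (ENNReal.ofReal D * (μ univ ^ (1 / 2 : ℝ) * 0))) := by
    refine ENNReal.Tendsto.const_mul (ENNReal.Tendsto.const_mul hl (Or.inr ?_))
      (Or.inr ENNReal.ofReal_ne_top)
    exact ENNReal.rpow_ne_top_of_nonneg (by norm_num) (measure_ne_top μ univ)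
  simpa using h4

/-- completeness -/
theorem exists_lim {a : ℕ → α → ℂ} (ha : ∀ m, MemLp (a m) 2 μ)
    (hc : ∀ ε : ℝ≥0∞, 0 < ε → ∃ N, ∀ m ≥ N, ∀ k ≥ N, ∫⁻ z, ‖a m z - a k z‖ₑ ^ 2 ∂μ < ε) :
    ∃ b, MemLp b 2 μ ∧ Tendsto (fun m => eLpNorm (a m - b) 2 μ) atTop (𝓝 0) := by
  set F : ℕ → Lp ℂ 2 μ := fun m => (ha m).toLp with hF
  have h1 : CauchySeq F := by
    rw [EMetric.cauchySeq_iff]
    intro ε hε
    obtain ⟨N, hN⟩ := hc (ε ^ 2) (ENNReal.pow_pos hε 2)
    refine ⟨N, fun m hm k hk => ?_⟩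
    rw [hF, Lp.edist_toLp_toLp]
    have h2 := hN m hm k hk
    have h3 : ∫⁻ z, ‖a m z - a k z‖ₑ ^ 2 ∂μ = eLpNorm (a m - a k) 2 μ ^ 2 := by
      rw [sq2]; rfl
    rw [h3] at h2
    exact lt_of_not_ge fun h => absurd (pow_le_pow_left' h 2) (not_le.2 h2)
  obtain ⟨G, hG⟩ := cauchySeq_tendsto_of_complete h1
  refine ⟨G, Lp.memLp G, ?_⟩
  rw [Lp.tendsto_Lp_iff_tendsto_eLpNorm'] at hG
  refine hG.congr fun m => ?_
  refine eLpNorm_congr_ae ?_
  filter_upwards [(ha m).coeFn_toLp] with z hz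
  rw [Pi.sub_apply, Pi.sub_apply, hz]

end fin

variable {n : ℕ}

theorem memLp_cont {E : Type*} [NormedAddCommGroup E] {K : Set (Fin n → ℂ)} (hK : IsCompact K)
    {f : (Fin n → ℂ) → E} (hf : ContinuousOn f K) : MemLp f 2 (volume.restrict K) := by
  have hfin : IsFiniteMeasure (volume.restrict K : Measure (Fin n → ℂ)) :=
    ⟨by rw [Measure.restrict_apply_univ]; exact hK.measure_lt_top⟩
  obtain ⟨D, hD⟩ := hK.exists_bound_of_continuousOn hf
  have h1 : AEStronglyMeasurable f (volume.restrict K) :=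
    hf.aestronglyMeasurable_of_isCompact hK hK.measurableSet
  refine MemLp.of_bound h1 D ?_
  exact (ae_restrict_mem hK.measurableSet).mono hD

theorem dbar_contOn {U : Set (Fin n → ℂ)} (hU : IsOpen U) {f : (Fin n → ℂ) → ℂ}
    (hf : ContDiffOn ℝ ∞ f U) (j : Fin n) : ContinuousOn (dbar j f) U := by
  have h1 : ContinuousOn (fderiv ℝ f) U := hf.continuousOn_fderiv_of_isOpen hU (by simp)
  have h2 : ∀ v, ContinuousOn (fun z => fderiv ℝ f z v) U := fun v => h1.clm_apply continuousOn_const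
  exact continuousOn_const.mul ((h2 _).add (continuousOn_const.mul (h2 _)))

/-- **local limits** -/
theorem loc_lim {U : Set (Fin n → ℂ)} (hU : IsOpen U) {K B : Set (Fin n → ℂ)} (hB : IsOpen B)
    (hK : IsCompact K) (hKU : K ⊆ U) (hBK : B ⊆ K) {f : ℕ → (Fin n → ℂ) → ℂ}
    (hf : ∀ m, ContDiffOn ℝ ∞ (f m) U)
    (hc : ∀ ε : ℝ≥0∞, 0 < ε → ∃ N, ∀ m ≥ N, ∀ k ≥ N, ∫⁻ z in K, ‖f m z - f k z‖ₑ ^ 2 < ε)
    (hd : ∀ j, Tendsto (fun m => ∫⁻ z in K, ‖dbar j (f m) z‖ₑ ^ 2) atTop (𝓝 0)) :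
    ∃ g, DifferentiableOn ℂ g B ∧
      Tendsto (fun m => ∫⁻ z in B, ‖f m z - g z‖ₑ ^ 2) atTop (𝓝 0) := by
  have hfin : IsFiniteMeasure (volume.restrict K : Measure (Fin n → ℂ)) :=
    ⟨by rw [Measure.restrict_apply_univ]; exact hK.measure_lt_top⟩
  have hm : ∀ m, MemLp (f m) 2 (volume.restrict K) := fun m =>
    memLp_cont hK ((hf m).continuousOn.mono hKU)
  obtain ⟨b, hb, hl⟩ := exists_lim hm hc
  have hbi : IntegrableOn b K := hb.integrable (by norm_num)
  -- test functions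
  have hw : WeakHol b B := by
    intro j φ h1 h2 h3
    have h4 : tsupport (dbar j φ) ⊆ tsupport φ := by
      refine closure_minimal (fun z hz => ?_) (isClosed_tsupport φ)
      by_contra h5
      have h6 : fderiv ℝ φ z = 0 := by
        by_contra h7
        exact h5 (support_fderiv_subset ℝ h7)
      exact hz (by simp [dbar, h6])
    have h5 : ∀ c : (Fin n → ℂ) → ℂ, ∫ z, c z * dbar j φ z = ∫ z in K, c z * dbar j φ z := by
      intro c
      rw [setIntegral_eq_integral_of_forall_compl_eq_zero]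
      intro z hz
      have h6 : dbar j φ z = 0 := by
        by_contra h7
        exact hz (hBK (h3 (h4 (subset_tsupport _ h7))))
      rw [h6, mul_zero]
    have h5' : ∀ c : (Fin n → ℂ) → ℂ, ∫ z, c z * φ z = ∫ z in K, c z * φ z := by
      intro c
      rw [setIntegral_eq_integral_of_forall_compl_eq_zero]
      intro z hz
      have h6 : φ z = 0 := by
        by_contra h7
        exact hz (hBK (h3 (subset_tsupport _ h7)))
      rw [h6, mul_zero]
    have h1' : ContDiff ℝ 1 φ := h1.of_le (by simp)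
    have hdc : Continuous (dbar j φ) := by
      have := dbar_contOn isOpen_univ h1.contDiffOn j
      exact continuousOn_univ.1 this
    have hdcs : HasCompactSupport (dbar j φ) := h2.of_isClosed_subset (isClosed_tsupport _) h4
    obtain ⟨D, hD⟩ := hdc.bounded_above_of_compact_support hdcs
    obtain ⟨D', hD'⟩ := h1.continuous.bounded_above_of_compact_support h2
    have h6 := tend_int hm hb hdc.aestronglyMeasurable hD hl
    have h7 : ∀ m, ∫ z in K, f m z * dbar j φ z = - ∫ z in K, dbar j (f m) z * φ z := by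
      intro m
      rw [← h5, ← h5', (ibp_dbar hU ((hf m).of_le (by simp)) h1' h2
        (h3.trans (hBK.trans hKU)) j).2.2]
    have h8 : Tendsto (fun m => ∫ z in K, dbar j (f m) z * φ z) atTop
        (𝓝 (∫ z in K, (0 : (Fin n → ℂ) → ℂ) z * φ z)) := by
      refine tend_int (fun m => memLp_cont hK ((dbar_contOn hU (hf m) j).mono hKU))
        (MemLp.zero' (p := 2)) h1.continuous.aestronglyMeasurable hD' ?_
      have := tend2.1 (hd j)
      simpa using this
    simp only [h7] at h6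
    have h9 := tendsto_nhds_unique h6 h8.neg
    rw [h5, h9]
    simp
  obtain ⟨g, hg, hbg⟩ := weyl hB (hbi.mono_set hBK).locallyIntegrableOn hw
  refine ⟨g, hg, ?_⟩
  rw [tend2 (f := fun m z => f m z - g z)]
  have h1 : ∀ m, eLpNorm (fun z => f m z - g z) 2 (volume.restrict B) ≤
      eLpNorm (f m - b) 2 (volume.restrict K) := by
    intro m
    have h2 : eLpNorm (fun z => f m z - g z) 2 (volume.restrict B) =
        eLpNorm (f m - b) 2 (volume.restrict B) := by
      refine eLpNorm_congr_ae ?_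
      filter_upwards [hbg] with z hz
      rw [Pi.sub_apply, hz]
    rw [h2]
    exact eLpNorm_mono_measure _ (Measure.restrict_mono hBK le_rfl)
  exact tendsto_of_tendsto_of_tendsto_of_le_of_le tendsto_const_nhds hl (fun _ => zero_le) h1

end

end Crest.Agent.R281.Rg_676
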