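import Crest.Agent.R281.Hz2_286
import Crest.Agent.R281.Hy5_409

/-!
# R281 (S0424), H0-OP (helper676), part 2: 409's estimates in 286's form

* `toBc` : cells of `Hz` as cells of `Hy`; the `ℝ≥0∞` norms of `Hy` are `ENNReal.ofReal` of real
  integrals
* `gard` : `Hz_286.Gard`, `rell` : `Hz_286.Rell`
* `ReguY` : the regularity statement in the form of `Hy`; `regu_of` : `ReguY → Hz_286.Regu`
-/

set_option autoImplicit false
set_option linter.unusedSectionVars false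
set_option maxSynthPendingDepth 3

open Set Filter Topology MeasureTheory Metric Complex
open scoped ContDiff ENNReal NNReal

namespace Crest.Agent.R281.Rg_676

open Crest.Agent.R281.HkR_835 Crest.Agent.R281.Ti_846 Crest.Agent.R281.PL_713

noncomputable section

variable {V X : Type} [NormedAddCommGroup V] [NormedSpace ℝ V] [FiniteDimensional ℝ V]
  [MeasurableSpace V] [BorelSpace V] [TopologicalSpace X] {C : RCh V X}
  (μ : Measure V) [μ.IsAddHaarMeasure] {σ' : Type} [Fintype σ'] (b : Module.Basis σ' ℝ V)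
  (Z : Hz_286.Cells C) {L : PL C}

/-- the cells of `Hz` as cells of `Hy` -/
def toBc (Z : Hz_286.Cells C) : Hy_409.Bc C := ⟨Z.σ, Z.fin, Z.i, Z.c, Z.r, Z.sub, Z.cover⟩

theorem cpt_B (k : Z.σ) : IsCompact (Z.B k) :=
  have := FiniteDimensional.proper_real V
  isCompact_closedBall _ _

theorem lint_eq {E : Type*} [NormedAddCommGroup E] {f : V → E} {K : Set V} (hK : IsCompact K)
    (hf : ContinuousOn f K) :
    ∫⁻ z in K, ‖f z‖ₑ ^ 2 ∂μ = ENNReal.ofReal (∫ z in K, ‖f z‖ ^ 2 ∂μ) := by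
  have i1 : IntegrableOn (fun z => ‖f z‖ ^ 2) K μ := (hf.norm.pow 2).integrableOn_compact hK
  rw [ofReal_integral_eq_lintegral_ofReal i1 (ae_of_all _ fun z => by positivity)]
  refine lintegral_congr fun z => ?_
  rw [ENNReal.ofReal_pow (norm_nonneg _), ofReal_norm]

theorem sum_eq {E : Type*} [NormedAddCommGroup E] {f : C.ι → V → E}
    (hf : ∀ i, ContinuousOn (f i) (C.e i).target) :
    ∑ k, ∫⁻ z in Z.B k, ‖f (Z.i k) z‖ₑ ^ 2 ∂μ =
      ENNReal.ofReal (∑ k, ∫ z in Z.B k, ‖f (Z.i k) z‖ ^ 2 ∂μ) := by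
  rw [ENNReal.ofReal_sum_of_nonneg fun k _ => integral_nonneg fun z => by positivity]
  exact Finset.sum_congr rfl fun k _ => lint_eq μ (cpt_B Z k) ((hf _).mono (Z.sub k))

/-- real form of `Hy_409.N1` -/
def n1 (s : Sec L) : ℝ := ∑ k, ∫ z in Z.B k, ‖Hy_409.DL s (Z.i k) z‖ ^ 2 ∂μ

/-- real form of `Hy_409.NJ` -/
def nj (J : C.ι → V → V →L[ℝ] V) (s : Sec L) : ℝ :=
  ∑ k, ∫ z in Z.B k, ‖Hy_409.dbJ (Hy_409.DL s (Z.i k) z) (J (Z.i k) z)‖ ^ 2 ∂μ

theorem N0_eq (s : Sec L) : Hy_409.N0 (toBc Z) μ s = ENNReal.ofReal (Hz_286.N0 μ Z s) :=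
  sum_eq μ Z (f := s.u) fun i => (s.sm i).continuousOn

theorem N1_eq (s : Sec L) : Hy_409.N1 (toBc Z) μ s = ENNReal.ofReal (n1 μ Z s) :=
  sum_eq μ Z (f := Hy_409.DL s) fun i => Hy_409.DL_cont s i

theorem NJ_eq {J : C.ι → V → V →L[ℝ] V} (hJ : ∀ i, ContinuousOn (J i) (C.e i).target)
    (s : Sec L) : Hy_409.NJ (toBc Z) μ J s = ENNReal.ofReal (nj μ Z J s) :=
  sum_eq μ Z (f := fun i z => Hy_409.dbJ (Hy_409.DL s i z) (J i z)) fun i =>
    Hy_409.dbJ_cont (Hy_409.DL_cont s i) (hJ i)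

theorem N0_nonneg (s : Sec L) : 0 ≤ Hz_286.N0 μ Z s :=
  Finset.sum_nonneg fun k _ => integral_nonneg fun z => by positivity

theorem n1_nonneg (s : Sec L) : 0 ≤ n1 μ Z s :=
  Finset.sum_nonneg fun k _ => integral_nonneg fun z => by positivity

theorem nj_nonneg (J : C.ι → V → V →L[ℝ] V) (s : Sec L) : 0 ≤ nj μ Z J s :=
  Finset.sum_nonneg fun k _ => integral_nonneg fun z => by positivity

theorem ND_nonneg (J : C.ι → V → V →L[ℝ] V) (s : Sec L) : 0 ≤ Hz_286.ND μ b Z J s :=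
  Finset.sum_nonneg fun k _ => Finset.sum_nonneg fun l _ => integral_nonneg fun z => by positivity

theorem N1_nonneg (s : Sec L) : 0 ≤ Hz_286.N1 μ b Z s :=
  add_nonneg (N0_nonneg μ Z s) (Finset.sum_nonneg fun k _ => Finset.sum_nonneg fun l _ =>
    integral_nonneg fun z => by positivity)

/-! ### norms of covectors by a basis -/

theorem basis_le : ∃ c : ℝ, 0 ≤ c ∧ ∀ T : V →L[ℝ] ℂ, ‖T‖ ^ 2 ≤ c * ∑ l, ‖T (b l)‖ ^ 2 := by
  obtain ⟨c, hc, h⟩ := b.exists_opNorm_le (F := ℂ)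
  refine ⟨c ^ 2, sq_nonneg _, fun T => ?_⟩
  have hM : 0 ≤ ∑ l, ‖T (b l)‖ ^ 2 := Finset.sum_nonneg fun l _ => by positivity
  have h1 := h (u := T) (M := √(∑ l, ‖T (b l)‖ ^ 2)) (Real.sqrt_nonneg _) fun l => by
    refine Real.le_sqrt_of_sq_le ?_
    exact Finset.single_le_sum (f := fun l => ‖T (b l)‖ ^ 2) (fun l _ => by positivity)
      (Finset.mem_univ l)
  calc ‖T‖ ^ 2 ≤ (c * √(∑ l, ‖T (b l)‖ ^ 2)) ^ 2 := pow_le_pow_left₀ (norm_nonneg _) h1 2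
    _ = c ^ 2 * ∑ l, ‖T (b l)‖ ^ 2 := by rw [mul_pow, Real.sq_sqrt hM]

theorem le_basis : ∃ c : ℝ, 0 ≤ c ∧ ∀ T : V →L[ℝ] ℂ, ∑ l, ‖T (b l)‖ ^ 2 ≤ c * ‖T‖ ^ 2 := by
  refine ⟨∑ l, ‖b l‖ ^ 2, Finset.sum_nonneg fun l _ => by positivity, fun T => ?_⟩
  rw [Finset.sum_mul]
  refine Finset.sum_le_sum fun l _ => ?_
  rw [← mul_pow, mul_comm]
  exact pow_le_pow_left₀ (norm_nonneg _) (T.le_opNorm _) 2

/-! ### comparison of integrals -/

theorem int_mono {f g : V → ℝ} {K : Set V} (hK : IsCompact K) (hf : ContinuousOn f K)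
    (hg : ContinuousOn g K) (h : ∀ z ∈ K, f z ≤ g z) : ∫ z in K, f z ∂μ ≤ ∫ z in K, g z ∂μ :=
  setIntegral_mono_on (hf.integrableOn_compact hK) (hg.integrableOn_compact hK)
    hK.isClosed.measurableSet h

theorem sum_int {E : Type*} [NormedAddCommGroup E] [NormedSpace ℝ E] {T : V → V →L[ℝ] E}
    {K : Set V} (hK : IsCompact K) (hT : ContinuousOn T K) :
    ∑ l, ∫ z in K, ‖T z (b l)‖ ^ 2 ∂μ = ∫ z in K, ∑ l, ‖T z (b l)‖ ^ 2 ∂μ := by
  rw [integral_finsetSum _ fun l _ => ?_]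
  exact ((hT.clm_apply continuousOn_const).norm.pow 2).integrableOn_compact hK

theorem nj_le {J : C.ι → V → V →L[ℝ] V} (hJ : ∀ i, ContinuousOn (J i) (C.e i).target) :
    ∃ c : ℝ, 0 ≤ c ∧ ∀ s : Sec L, nj μ Z J s ≤ c * Hz_286.ND μ b Z J s := by
  obtain ⟨c, hc, h⟩ := basis_le b
  refine ⟨c, hc, fun s => ?_⟩
  unfold nj Hz_286.ND
  rw [Finset.mul_sum]
  refine Finset.sum_le_sum fun k _ => ?_
  have hT : ContinuousOn (fun z => Hy_409.dbJ (Hy_409.DL s (Z.i k) z) (J (Z.i k) z)) (Z.B k) :=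
    (Hy_409.dbJ_cont (Hy_409.DL_cont s _) (hJ _)).mono (Z.sub k)
  have e : ∀ l, (fun z => ‖s.db J (Z.i k) z (b l)‖ ^ 2) =
      fun z => ‖(Hy_409.dbJ (Hy_409.DL s (Z.i k) z) (J (Z.i k) z)) (b l)‖ ^ 2 := fun l => by
    funext z; rw [Hy_409.db_eq]
  simp only [e]
  rw [sum_int μ b (cpt_B Z k) hT, ← integral_const_mul]
  refine int_mono μ (cpt_B Z k) (hT.norm.pow 2) (continuousOn_const.mul
    (continuousOn_finsetSum _ fun l _ => (hT.clm_apply continuousOn_const).norm.pow 2)) ?_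
  exact fun z _ => h _

theorem ND_le {J : C.ι → V → V →L[ℝ] V} (hJ : ∀ i, ContinuousOn (J i) (C.e i).target) :
    ∃ c : ℝ, 0 ≤ c ∧ ∀ s : Sec L, Hz_286.ND μ b Z J s ≤ c * nj μ Z J s := by
  obtain ⟨c, hc, h⟩ := le_basis b
  refine ⟨c, hc, fun s => ?_⟩
  unfold nj Hz_286.ND
  rw [Finset.mul_sum]
  refine Finset.sum_le_sum fun k _ => ?_
  have hT : ContinuousOn (fun z => Hy_409.dbJ (Hy_409.DL s (Z.i k) z) (J (Z.i k) z)) (Z.B k) :=
    (Hy_409.dbJ_cont (Hy_409.DL_cont s _) (hJ _)).mono (Z.sub k)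
  have e : ∀ l, (fun z => ‖s.db J (Z.i k) z (b l)‖ ^ 2) =
      fun z => ‖(Hy_409.dbJ (Hy_409.DL s (Z.i k) z) (J (Z.i k) z)) (b l)‖ ^ 2 := fun l => by
    funext z; rw [Hy_409.db_eq]
  simp only [e]
  rw [sum_int μ b (cpt_B Z k) hT, ← integral_const_mul]
  refine int_mono μ (cpt_B Z k) (continuousOn_finsetSum _ fun l _ =>
    (hT.clm_apply continuousOn_const).norm.pow 2) (continuousOn_const.mul (hT.norm.pow 2)) ?_
  exact fun z _ => h _

theorem th_bd (L : PL C) : ∃ M : ℝ, 0 ≤ M ∧ ∀ k, ∀ z ∈ Z.B k, ‖Hy_409.cof (L.th (Z.i k) z)‖ ≤ M := by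
  have h : ∀ k, ∃ M, ∀ z ∈ Z.B k, ‖Hy_409.cof (L.th (Z.i k) z)‖ ≤ M := fun k =>
    (cpt_B Z k).exists_bound_of_continuousOn
      ((Hy_409.cof_cont (L.th_sm (Z.i k)).continuousOn).mono (Z.sub k))
  choose M hM using h
  refine ⟨∑ k, |M k|, Finset.sum_nonneg fun k _ => abs_nonneg _, fun k z hz => ?_⟩
  exact (hM k z hz).trans ((le_abs_self _).trans
    (Finset.single_le_sum (f := fun k => |M k|) (fun k _ => abs_nonneg _) (Finset.mem_univ k)))

theorem fderiv_cont (s : Sec L) (i : C.ι) : ContinuousOn (fderiv ℝ (s.u i)) (C.e i).target :=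
  (s.sm i).continuousOn_fderiv_of_isOpen (C.e i).open_target (by simp)

theorem N1_le (L : PL C) : ∃ c : ℝ, 0 ≤ c ∧ ∀ s : Sec L,
    Hz_286.N1 μ b Z s ≤ c * (Hz_286.N0 μ Z s + n1 μ Z s) := by
  obtain ⟨c, hc, h⟩ := le_basis b
  obtain ⟨M, hM, hth⟩ := th_bd Z L
  refine ⟨1 + c * (2 + 2 * M ^ 2), by positivity, fun s => ?_⟩
  have h1 : ∑ k, ∑ l, ∫ z in Z.B k, ‖fderiv ℝ (s.u (Z.i k)) z (b l)‖ ^ 2 ∂μ ≤
      c * (2 * n1 μ Z s + 2 * M ^ 2 * Hz_286.N0 μ Z s) := by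
    unfold n1 Hz_286.N0
    rw [Finset.mul_sum, Finset.mul_sum, ← Finset.sum_add_distrib, Finset.mul_sum]
    refine Finset.sum_le_sum fun k _ => ?_
    have hT := (fderiv_cont s (Z.i k)).mono (Z.sub k)
    have hD := (Hy_409.DL_cont s (Z.i k)).mono (Z.sub k)
    have hu : ContinuousOn (s.u (Z.i k)) (Z.B k) := (s.sm (Z.i k)).continuousOn.mono (Z.sub k)
    have i1 : IntegrableOn (fun z => ‖Hy_409.DL s (Z.i k) z‖ ^ 2) (Z.B k) μ :=
      (hD.norm.pow 2).integrableOn_compact (cpt_B Z k)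
    have i2 : IntegrableOn (fun z => ‖s.u (Z.i k) z‖ ^ 2) (Z.B k) μ :=
      (hu.norm.pow 2).integrableOn_compact (cpt_B Z k)
    rw [sum_int μ b (cpt_B Z k) hT, ← integral_const_mul, ← integral_const_mul,
      ← integral_add (i1.const_mul _) (i2.const_mul _), ← integral_const_mul]
    refine int_mono μ (cpt_B Z k) (continuousOn_finsetSum _ fun l _ =>
      (hT.clm_apply continuousOn_const).norm.pow 2) (continuousOn_const.mul
        ((continuousOn_const.mul (hD.norm.pow 2)).add (continuousOn_const.mul (hu.norm.pow 2)))) ?_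
    intro z hz
    refine (h _).trans (mul_le_mul_of_nonneg_left ?_ hc)
    have e : fderiv ℝ (s.u (Z.i k)) z = Hy_409.DL s (Z.i k) z -
        (Complex.I * s.u (Z.i k) z) • Hy_409.cof (L.th (Z.i k) z) := by
      unfold Hy_409.DL; abel
    have h2 : ‖fderiv ℝ (s.u (Z.i k)) z‖ ≤ ‖Hy_409.DL s (Z.i k) z‖ + M * ‖s.u (Z.i k) z‖ := by
      rw [e]
      refine (norm_sub_le _ _).trans (add_le_add_right ?_ _)
      refine (norm_smul_le _ _).trans ?_
      rw [norm_mul, norm_I, one_mul, mul_comm]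
      exact mul_le_mul_of_nonneg_right (hth k z hz) (norm_nonneg _)
    have h3 := pow_le_pow_left₀ (norm_nonneg _) h2 2
    nlinarith [sq_nonneg (‖Hy_409.DL s (Z.i k) z‖ - M * ‖s.u (Z.i k) z‖)]
  have h2 := N0_nonneg μ Z s
  have h3 := n1_nonneg μ Z s
  unfold Hz_286.N1
  nlinarith [mul_nonneg hc h2, mul_nonneg hc h3, mul_nonneg (mul_nonneg hc (sq_nonneg M)) h3,
    mul_nonneg (mul_nonneg hc (sq_nonneg M)) h2]

theorem n1_le (L : PL C) : ∃ c : ℝ, 0 ≤ c ∧ ∀ s : Sec L, n1 μ Z s ≤ c * Hz_286.N1 μ b Z s := by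
  obtain ⟨c, hc, h⟩ := basis_le b
  obtain ⟨M, hM, hth⟩ := th_bd Z L
  refine ⟨2 * c + 2 * M ^ 2, by positivity, fun s => ?_⟩
  have h1 : n1 μ Z s ≤ 2 * c * ∑ k, ∑ l, ∫ z in Z.B k, ‖fderiv ℝ (s.u (Z.i k)) z (b l)‖ ^ 2 ∂μ +
      2 * M ^ 2 * Hz_286.N0 μ Z s := by
    unfold n1 Hz_286.N0
    rw [Finset.mul_sum, Finset.mul_sum, ← Finset.sum_add_distrib]
    refine Finset.sum_le_sum fun k _ => ?_
    have hT := (fderiv_cont s (Z.i k)).mono (Z.sub k)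
    have hD := (Hy_409.DL_cont s (Z.i k)).mono (Z.sub k)
    have hu : ContinuousOn (s.u (Z.i k)) (Z.B k) := (s.sm (Z.i k)).continuousOn.mono (Z.sub k)
    have hS : ContinuousOn (fun z => ∑ l, ‖fderiv ℝ (s.u (Z.i k)) z (b l)‖ ^ 2) (Z.B k) :=
      continuousOn_finsetSum _ fun l _ => (hT.clm_apply continuousOn_const).norm.pow 2
    have i1 : IntegrableOn (fun z => ∑ l, ‖fderiv ℝ (s.u (Z.i k)) z (b l)‖ ^ 2) (Z.B k) μ :=
      hS.integrableOn_compact (cpt_B Z k)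
    have i2 : IntegrableOn (fun z => ‖s.u (Z.i k) z‖ ^ 2) (Z.B k) μ :=
      (hu.norm.pow 2).integrableOn_compact (cpt_B Z k)
    rw [sum_int μ b (cpt_B Z k) hT, ← integral_const_mul, ← integral_const_mul,
      ← integral_add (i1.const_mul _) (i2.const_mul _)]
    refine int_mono μ (cpt_B Z k) (hD.norm.pow 2) ((continuousOn_const.mul hS).add
      (continuousOn_const.mul (hu.norm.pow 2))) ?_
    intro z hz
    have h2 : ‖Hy_409.DL s (Z.i k) z‖ ≤ ‖fderiv ℝ (s.u (Z.i k)) z‖ + M * ‖s.u (Z.i k) z‖ := by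
      unfold Hy_409.DL
      refine (norm_add_le _ _).trans (add_le_add_right ?_ _)
      refine (norm_smul_le _ _).trans ?_
      rw [norm_mul, norm_I, one_mul, mul_comm]
      exact mul_le_mul_of_nonneg_right (hth k z hz) (norm_nonneg _)
    have h3 := pow_le_pow_left₀ (norm_nonneg _) h2 2
    have h4 := h (fderiv ℝ (s.u (Z.i k)) z)
    nlinarith [sq_nonneg (‖fderiv ℝ (s.u (Z.i k)) z‖ - M * ‖s.u (Z.i k) z‖)]
  have h2 := N0_nonneg μ Z s
  have h3 : 0 ≤ ∑ k, ∑ l, ∫ z in Z.B k, ‖fderiv ℝ (s.u (Z.i k)) z (b l)‖ ^ 2 ∂μ :=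
    Finset.sum_nonneg fun k _ => Finset.sum_nonneg fun l _ => integral_nonneg fun z => by positivity
  unfold Hz_286.N1
  nlinarith [mul_nonneg hc h2, mul_nonneg hc h3, mul_nonneg (sq_nonneg M) h3]

/-! ### the three inputs of `Hz` -/

section main

variable [CompactSpace X] [T2Space X]

/-- **Garding in the form of `Hz`** -/
theorem gard (L : PL C) {J : C.ι → V → V →L[ℝ] V}
    (hJ : ∀ i, ContinuousOn (J i) (C.e i).target) : Hz_286.Gard μ b Z L J := by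
  obtain ⟨c, hc⟩ := Hy_409.garding μ (toBc Z) L hJ
  obtain ⟨c1, hc1, h1⟩ := nj_le μ b Z (L := L) hJ
  obtain ⟨c2, hc2, h2⟩ := N1_le μ b Z L
  refine ⟨c2 * (1 + c * (1 + c1)), fun u => ?_⟩
  have h3 := hc u
  rw [N1_eq, N0_eq, NJ_eq μ Z hJ, ← ENNReal.ofReal_add (nj_nonneg μ Z J u) (N0_nonneg μ Z u)] at h3
  have h4 : n1 μ Z u ≤ c * (nj μ Z J u + Hz_286.N0 μ Z u) := by
    have e : (c : ℝ≥0∞) * ENNReal.ofReal (nj μ Z J u + Hz_286.N0 μ Z u) =
        ENNReal.ofReal (c * (nj μ Z J u + Hz_286.N0 μ Z u)) := by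
      rw [ENNReal.ofReal_mul (p := (c : ℝ)) c.2, ENNReal.ofReal_coe_nnreal]
    rw [e] at h3
    exact (ENNReal.ofReal_le_ofReal_iff (mul_nonneg c.2
      (add_nonneg (nj_nonneg μ Z J u) (N0_nonneg μ Z u)))).1 h3
  have h5 := h1 u
  have h6 := N0_nonneg μ Z u
  have h7 := ND_nonneg μ b Z J u
  have h8 : n1 μ Z u ≤ c * ((1 + c1) * (Hz_286.ND μ b Z J u + Hz_286.N0 μ Z u)) := by
    refine h4.trans (mul_le_mul_of_nonneg_left ?_ c.2)
    nlinarith [mul_nonneg hc1 h6]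
  refine (h2 u).trans ?_
  have h9 : Hz_286.N0 μ Z u + n1 μ Z u ≤
      (1 + c * (1 + c1)) * (Hz_286.ND μ b Z J u + Hz_286.N0 μ Z u) := by nlinarith
  calc c2 * (Hz_286.N0 μ Z u + n1 μ Z u) ≤
      c2 * ((1 + c * (1 + c1)) * (Hz_286.ND μ b Z J u + Hz_286.N0 μ Z u)) :=
        mul_le_mul_of_nonneg_left h9 hc2
    _ = _ := by ring

/-- **Rellich in the form of `Hz`** -/
theorem rell (L : PL C) : Hz_286.Rell μ b Z L := by
  rintro u ⟨D, hD⟩
  obtain ⟨c, hc, h⟩ := n1_le μ b Z L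
  have hD0 : 0 ≤ D := (N1_nonneg μ b Z (u 0)).trans (hD 0)
  have hN : ∀ m, Hz_286.N0 μ Z (u m) ≤ D := fun m => by
    refine le_trans ?_ (hD m)
    unfold Hz_286.N1
    exact le_add_of_nonneg_right (Finset.sum_nonneg fun k _ => Finset.sum_nonneg fun l _ =>
      integral_nonneg fun z => by positivity)
  obtain ⟨φ, hφ, h1⟩ := Hy_409.rellich_S μ (toBc Z) (L := L) (u := u) (D := (D + c * D).toNNReal)
    (fun m => by
      rw [N0_eq]
      refine ENNReal.ofReal_le_ofReal ((hN m).trans ?_)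
      nlinarith [mul_nonneg hc hD0])
    (fun m => by
      rw [N1_eq]
      refine ENNReal.ofReal_le_ofReal ((h (u m)).trans ?_)
      nlinarith [mul_le_mul_of_nonneg_left (hD m) hc])
  refine ⟨φ, hφ, fun ε hε => ?_⟩
  obtain ⟨N, hN⟩ := h1 (ε / 2).toNNReal (Real.toNNReal_pos.2 (by positivity))
  refine ⟨N, fun m hm k hk => ?_⟩
  have h2 := hN m hm k hk
  rw [N0_eq] at h2
  have h3 : Hz_286.N0 μ Z (u (φ m) - u (φ k)) ≤ ε / 2 :=
    (ENNReal.ofReal_le_ofReal_iff (by positivity)).1 h2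
  linarith

/-- regularity of `L²` limits, in the form of `Hy` -/
def ReguY (L : PL C) (B : Hy_409.Bc C) (J : C.ι → V → V →L[ℝ] V) : Prop :=
  ∀ u : ℕ → Sec L, (∀ ε : ℝ≥0, 0 < ε → ∃ N, ∀ m ≥ N, ∀ k ≥ N, Hy_409.N0 B μ (u m - u k) ≤ ε) →
    Tendsto (fun m => Hy_409.NJ B μ J (u m)) atTop (𝓝 0) →
    ∃ w ∈ L.H0 J, Tendsto (fun m => Hy_409.N0 B μ (u m - w)) atTop (𝓝 0)

/-- **regularity in the form of `Hz` from the form of `Hy`** -/
theorem regu_of {L : PL C} {J : C.ι → V → V →L[ℝ] V}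
    (hJ : ∀ i, ContinuousOn (J i) (C.e i).target) (h : ReguY μ L (toBc Z) J) :
    Hz_286.Regu μ b Z L J := by
  intro u hC hD
  obtain ⟨c1, hc1, h1⟩ := nj_le μ b Z (L := L) hJ
  obtain ⟨w, hw, h2⟩ := h u (fun ε hε => by
    obtain ⟨N, hN⟩ := hC ε (by exact_mod_cast hε)
    refine ⟨N, fun m hm k hk => ?_⟩
    rw [N0_eq]
    refine (ENNReal.ofReal_le_ofReal (hN m hm k hk).le).trans ?_
    rw [ENNReal.ofReal_coe_nnreal]) (by
    have h3 : Tendsto (fun m => c1 * Hz_286.ND μ b Z J (u m)) atTop (𝓝 0) := by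
      simpa using hD.const_mul c1
    have h4 : Tendsto (fun m => nj μ Z J (u m)) atTop (𝓝 0) :=
      squeeze_zero (fun m => nj_nonneg μ Z J (u m)) (fun m => h1 (u m)) h3
    have h5 := ENNReal.tendsto_ofReal h4
    rw [ENNReal.ofReal_zero] at h5
    refine h5.congr fun m => ?_
    rw [NJ_eq μ Z hJ])
  refine ⟨w, hw, ?_⟩
  have h3 := (ENNReal.tendsto_toReal ENNReal.zero_ne_top).comp h2
  rw [ENNReal.toReal_zero] at h3
  refine h3.congr fun m => ?_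
  show (Hy_409.N0 (toBc Z) μ (u m - w)).toReal = _
  rw [N0_eq, ENNReal.toReal_ofReal (N0_nonneg μ Z _)]

end main

end

end Crest.Agent.R281.Rg_676
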