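import Crest.Agent.R281.Rg2_676
import Crest.Agent.R281.Hy8_409

/-!
# R281 (S0424), H0-OP (helper676), part 3: the three inputs of `Hz` from a holomorphic atlas

* `J_cont` : `JC C J A` ⟹ `J i` continuous on the target
* `gardJ`, `regu` : `Hz_286.Gard`, `Hz_286.Regu` from `JC C J A`, `F11 J L`
* `inputs` : all three
-/

set_option autoImplicit false
set_option linter.unusedSectionVars false
set_option maxSynthPendingDepth 3

open Set Filter Topology MeasureTheory Metric Complex
open scoped ContDiff ENNReal NNReal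

namespace Crest.Agent.R281.Rg_676

open Crest.Agent.R281.HkR_835 Crest.Agent.R281.Ti_846 Crest.Agent.R281.PL_713
open Crest.Agent.R275.Geo

noncomputable section

section cont

variable {V X : Type} [NormedAddCommGroup V] [NormedSpace ℝ V] [TopologicalSpace X]
  {C : RCh V X} {n : ℕ} {A : Atl n X} {J : C.ι → V → V →L[ℝ] V}

/-- `J` in the chart `i`, by a holomorphic chart -/
theorem J_eq (hJ : JC C J A) {i : C.ι} {a : A.ι} {z : V} (hz : z ∈ mov (ofAtl A) C a i) :
    J i z = (fderiv ℝ (mt C (ofAtl A) i a) (mt (ofAtl A) C a i z)).comp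
      ((iJ A a (mt (ofAtl A) C a i z)).comp (fderiv ℝ (mt (ofAtl A) C a i) z)) := by
  have h1 : mt (ofAtl A) C a i z ∈ mov C (ofAtl A) i a := Cmp.mt_mem (C := ofAtl A) (C' := C) hz
  have h2 : mt C (ofAtl A) i a (mt (ofAtl A) C a i z) = z :=
    Cmp.mt_mt (C := ofAtl A) (C' := C) hz
  refine ContinuousLinearMap.ext fun v => ?_
  rw [ContinuousLinearMap.comp_apply, ContinuousLinearMap.comp_apply, iJ_apply, hJ.lin i a _ h1,
    h2, hJ.cmp.symm.d_d hz]

theorem J_cont (hJ : JC C J A) (i : C.ι) : ContinuousOn (J i) (C.e i).target := by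
  intro z hz
  obtain ⟨a, ha⟩ := Cmp.exists_mov (C' := C) (ofAtl A) (j := i) hz
  have hO : IsOpen (mov (ofAtl A) C a i) := Cmp.isOpen_mov _ _ _ _
  have hO' : IsOpen (mov C (ofAtl A) i a) := Cmp.isOpen_mov _ _ _ _
  have c1 : ContinuousOn (fderiv ℝ (mt (ofAtl A) C a i)) (mov (ofAtl A) C a i) :=
    (hJ.cmp.s' i a).continuousOn_fderiv_of_isOpen hO (by simp)
  have c2 : ContinuousOn (fderiv ℝ (mt C (ofAtl A) i a)) (mov C (ofAtl A) i a) :=
    (hJ.cmp.s i a).continuousOn_fderiv_of_isOpen hO' (by simp)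
  have c3 : ContinuousOn (fun y => fderiv ℝ (mt C (ofAtl A) i a) (mt (ofAtl A) C a i y))
      (mov (ofAtl A) C a i) :=
    c2.comp (hJ.cmp.s' i a).continuousOn fun y hy => Cmp.mt_mem (C := ofAtl A) (C' := C) hy
  have c4 : ContinuousOn (fun y => (fderiv ℝ (mt C (ofAtl A) i a) (mt (ofAtl A) C a i y)).comp
      ((iJ A a (mt (ofAtl A) C a i y)).comp (fderiv ℝ (mt (ofAtl A) C a i) y)))
      (mov (ofAtl A) C a i) := by
    refine c3.clm_comp (ContinuousOn.clm_comp ?_ c1)
    have : (fun y => iJ A a (mt (ofAtl A) C a i y)) = fun _ => iJ A a 0 := by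
      funext y
      refine ContinuousLinearMap.ext fun v => ?_
      rw [iJ_apply, iJ_apply]
    rw [this]
    exact continuousOn_const
  have c5 : ContinuousOn (J i) (mov (ofAtl A) C a i) := c4.congr fun y hy => J_eq hJ hy
  exact (c5.continuousAt (hO.mem_nhds ha)).continuousWithinAt

end cont

variable {V X : Type} [NormedAddCommGroup V] [NormedSpace ℝ V] [FiniteDimensional ℝ V]
  [MeasurableSpace V] [BorelSpace V] [TopologicalSpace X] [CompactSpace X] [T2Space X]
  {C : RCh V X} (μ : Measure V) [μ.IsAddHaarMeasure] {σ' : Type} [Fintype σ']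
  (b : Module.Basis σ' ℝ V) (Z : Hz_286.Cells C) {n : ℕ} {A : Atl n X}
  {J : C.ι → V → V →L[ℝ] V}

/-- **Garding** -/
theorem gardJ (hJ : JC C J A) (L : PL C) : Hz_286.Gard μ b Z L J := gard μ b Z L (J_cont hJ)

/-- **regularity of `L²` limits** (helper409's `weyl_S`) -/
theorem regu (hJ : JC C J A) {L : PL C} (hF : F11 J L) : Hz_286.Regu μ b Z L J :=
  regu_of μ b Z (J_cont hJ) fun u hC hd => Hy_409.weyl_S μ hJ hF (toBc Z) u hC hd

/-- **the three analytic inputs of `Hz_286`** -/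
theorem inputs (hJ : JC C J A) {L : PL C} (hF : F11 J L) :
    Hz_286.Gard μ b Z L J ∧ Hz_286.Rell μ b Z L ∧ Hz_286.Regu μ b Z L J :=
  ⟨gardJ μ b Z hJ L, rell μ b Z L, regu μ b Z hJ hF⟩

end

end Crest.Agent.R281.Rg_676
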