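import Crest.Agent.R281.Mca4_365
import Crest.Agent.R281.Rg2_676
import Crest.Agent.R281.Rkd4_386

/-!
# R281 (S0424), SEMI-P (helper986): the final composition

* `MvP`     : 713's output `MvOut` for every move
* `ReguP`   : regularity of `L²` limits (409, 676)
* `HasNAn`  : 323's consumer form of H0-OP
* **`semiP_of`** : `MvP → ReguP → HasNAn → SemiP`
-/

set_option autoImplicit false
set_option linter.unusedSectionVars false
set_option maxSynthPendingDepth 3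

open Set Filter Topology Complex MeasureTheory
open scoped ContDiff

namespace Crest.Agent.R281.SmC_986

open Crest.Agent.R275.Geo Crest.Agent.R275.Core144 Crest.Agent.R275.GC293
open Crest.Agent.R273.Defs_333 Crest.Agent.R273.Kah_333
open Crest.Agent.R260.ACM_580 Crest.Agent.R260.NNB_580
open Crest.Agent.R281.HkR_835 Crest.Agent.R281.Ti_846 Crest.Agent.R281.NefO_476
open Crest.Agent.R281.Nef_252 Crest.Agent.R281.PL_713 Crest.Agent.R281.Dif_268
open Crest.Agent.R281.Alg_998 Crest.Agent.R281.RkD_902 Crest.Agent.R281.Cdr_234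
open Crest.Agent.R281.Mvs_713 Crest.Agent.R281.Hz_286 Crest.Agent.R281.Mca_365
open Crest.Agent.R281.Rkd_386

noncomputable section

/-- 713's output for every move -/
def MvP : Prop :=
  ∀ (n : ℕ) (X : Type) [TopologicalSpace X] [CompactSpace X] [T2Space X]
    [SimplyConnectedSpace X] (C : RCh (Cn (2 * n)) X) (Q : F2 C →ₗ[ℝ] F2 C →ₗ[ℝ] ℝ), Ctx n C Q →
    ∀ (L0 : PL C) (e : F2 C) (G H : ℝ → HkT C),
    Move G → (∀ s ∈ Icc (0 : ℝ) 1, SameTw (G s) (H s)) →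
    (∀ s ∈ Icc (0 : ℝ) 1, Given Q (H s) L0 e) → Nonempty (MvOut (d := 2 * n) C L0 H)

/-- regularity of `L²` limits -/
def ReguP : Prop :=
  ∀ (d : ℕ) (V X : Type) [NormedAddCommGroup V] [NormedSpace ℝ V] [FiniteDimensional ℝ V]
    [MeasurableSpace V] [BorelSpace V] (μ : Measure V) [μ.IsAddHaarMeasure]
    [TopologicalSpace X] [CompactSpace X] [T2Space X] (C : RCh V X) (A : Atl d X) [Finite A.ι]
    (_ : Part A) (J : C.ι → V → V →L[ℝ] V), JC C J A → ∀ (L : PL C), F11 J L →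
    ∀ Z : Cells C, Crest.Agent.R281.Rg_676.ReguY μ L (Crest.Agent.R281.Rg_676.toBc Z) J

/-- the semicontinuity along analytic families (323's consumer form) -/
def HasNAn : Prop :=
  ∀ (V X : Type) [NormedAddCommGroup V] [NormedSpace ℝ V] [FiniteDimensional ℝ V]
    [MeasurableSpace V] [BorelSpace V] (μ : Measure V) [μ.IsAddHaarMeasure]
    [TopologicalSpace X] (σ' : Type) [Fintype σ'] (b : Module.Basis σ' ℝ V) (C : RCh V X)
    (Z : Cells C) (L : PL C) (a : ℝ → F1 C) (J : ℝ → C.ι → V → V →L[ℝ] V)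
    (t : ℝ → ∀ k : Z.σ, C(Z.B k, V →L[ℝ] ℝ)) (T : ℝ → ∀ k : Z.σ, C(Z.B k, V →L[ℝ] V)),
    (∀ k, AnalyticOnNhd ℝ (fun s => t s k) (Icc 0 1)) →
    (∀ k, AnalyticOnNhd ℝ (fun s => T s k) (Icc 0 1)) →
    (∀ s ∈ Icc (0 : ℝ) 1, ∀ k (z : Z.B k), T s k z = J s (Z.i k) z) →
    (∀ s ∈ Icc (0 : ℝ) 1, ∀ k (z : Z.B k), t s k z = (L.add (a s)).th (Z.i k) z) →
    (∀ s ∈ Icc (0 : ℝ) 1, Gard μ b Z (L.add (a s)) (J s)) →
    (∀ s ∈ Icc (0 : ℝ) 1, Rell μ b Z (L.add (a s))) →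
    (∀ s ∈ Icc (0 : ℝ) 1, Regu μ b Z (L.add (a s)) (J s)) → ∀ N : ℕ,
    (∀ᶠ s in 𝓝[<] (1 : ℝ), (L.add (a s)).HasN (J s) N) →
    ∀ s ∈ Icc (0 : ℝ) 1, (L.add (a s)).HasN (J s) N

theorem semiP_of (mv : MvP) (rg : ReguP) (ha : HasNAn) : SemiP := by
  intro n X _ _ _ _ C Q hX L0 e G H hG hT hg m N hNN
  obtain ⟨O⟩ := mv n X C Q hX L0 e G H hG hT hg
  obtain ⟨th, J, han, hval⟩ := coef O
  obtain ⟨Z⟩ := Cells.exists_cells C
  have hd : 2 ≤ 2 * n := by have := hX.n1; omega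
  -- the connections
  have h1 : ∀ s : ℝ, ∃ b : F1 C, s ∈ Icc (0 : ℝ) 1 →
      (∀ i, ∀ z ∈ (C.e i).target, (L0.add b).th i z = th s i z) ∧
      T11 (ofHk (H s) 0) (L0.add b).F := by
    intro s
    by_cases hs : s ∈ Icc (0 : ℝ) 1
    · obtain ⟨b, hb⟩ := (hval s hs).2
      exact ⟨b, fun _ => hb⟩
    · exact ⟨0, fun h => absurd h hs⟩
  choose b hb using h1
  have hpow : ∀ s, (L0.pow m).add ((m : ℝ) • b s) = (L0.add (b s)).pow m := fun s =>
    (pow_add' L0 (b s) m).symm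
  have hT11 : ∀ s ∈ Icc (0 : ℝ) 1, T11 (ofHk (H s) 0) ((L0.pow m).add ((m : ℝ) • b s)).F := by
    intro s hs
    rw [hpow]
    exact T11.pow (hb s hs).2 m
  let bs : Module.Basis (Fin (Module.finrank ℝ (Cn (2 * n)))) ℝ (Cn (2 * n)) :=
    Module.finBasis ℝ (Cn (2 * n))
  have hJc : ∀ s, ∀ i, ContinuousOn ((H s).J 0 i) (C.e i).target := fun s i =>
    ((H s).J_sm 0 i).continuousOn
  have key := ha (Cn (2 * n)) X (MeasureTheory.volume : Measure (Cn (2 * n))) _ bs C Z (L0.pow m)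
    (fun s => (m : ℝ) • b s) (fun s => (H s).J 0)
    (fun s k => (m : ℝ) • toC (Z.B k) (th s (Z.i k))) (fun s k => toC (Z.B k) (J s (Z.i k)))
    (fun k s hs => ((han Z k s hs).1.const_smul (c := (m : ℝ)))) (fun k s hs => (han Z k s hs).2)
    (fun s hs k z => ?_) (fun s hs k z => ?_)
    (fun s hs => Crest.Agent.R281.Rg_676.gard _ _ _ _ (hJc s))
    (fun s hs => Crest.Agent.R281.Rg_676.rell _ _ _ _) (fun s hs => ?_) N ?_ 0
    ⟨le_rfl, zero_le_one⟩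
  · exact ⟨(m : ℝ) • b 0, hT11 0 ⟨le_rfl, zero_le_one⟩, key⟩
  · -- `J`
    have e : EqOn (J s (Z.i k)) ((H s).J 0 (Z.i k)) (Z.B k) := fun y hy =>
      (hval s hs).1 (Z.i k) y (Z.sub k hy)
    show toC (Z.B k) (J s (Z.i k)) z = _
    have hc : ContinuousOn ((H s).J 0 (Z.i k)) (Z.B k) := (hJc s (Z.i k)).mono (Z.sub k)
    rw [toC_congr e, toC_apply hc]
  · -- `th`
    have e : EqOn (th s (Z.i k)) ((L0.add (b s)).th (Z.i k)) (Z.B k) := fun y hy =>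
      ((hb s hs).1 (Z.i k) y (Z.sub k hy)).symm
    rw [hpow]
    show (m : ℝ) • toC (Z.B k) (th s (Z.i k)) z = (m : ℝ) • (L0.add (b s)).th (Z.i k) z
    have hc : ContinuousOn ((L0.add (b s)).th (Z.i k)) (Z.B k) :=
      ((L0.add (b s)).th_sm (Z.i k)).continuousOn.mono (Z.sub k)
    rw [toC_congr e, toC_apply hc]
  · -- regularity
    obtain ⟨p⟩ := presP n X C Q hX (H s) L0 e (hg s hs)
    have := p.fin
    have hjc : JC C ((H s).J 0) p.A := JC.of_cp p.cp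
    refine Crest.Agent.R281.Rg_676.regu_of _ _ _ (hJc s) (rg (2 * n) _ X _ C p.A p.P _ hjc _ ?_ Z)
    exact hT11 s hs
  · -- near `1`
    have h2 : ∀ᶠ s in 𝓝[<] (1 : ℝ), hN (L0.pow m) (ofHk (H s) 0) N :=
      hNN.filter_mono (nhdsWithin_mono (1 : ℝ) Iio_subset_Iic_self)
    have h3 : ∀ᶠ s in 𝓝[<] (1 : ℝ), s ∈ Icc (0 : ℝ) 1 := by
      filter_upwards [Ioo_mem_nhdsLT (show (0 : ℝ) < 1 by norm_num)] with s hs
      exact ⟨hs.1.le, hs.2.le⟩
    filter_upwards [h2, h3] with s h4 h5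
    exact hN_indep (nnatC (2 * n)) hd h4 (hT11 s h5)

end

end Crest.Agent.R281.SmC_986
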