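import Crest.Agent.R281.Rg3_676
import Crest.Agent.R281.SmC_986

/-!
# R281 (S0424), H0-OP (helper676), part 4: `ReguP` of `SmC_986`
-/

set_option autoImplicit false
set_option linter.unusedSectionVars false
set_option maxSynthPendingDepth 3

namespace Crest.Agent.R281.Rg_676

/-- **the regularity input of `SmC_986`** -/
theorem reguP : SmC_986.ReguP := by
  intro d V X _ _ _ _ _ μ _ _ _ _ C A _ _ J hJ L hF Z u hC hd
  exact Hy_409.weyl_S μ hJ hF (toBc Z) u hC hd

end Crest.Agent.R281.Rg_676
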