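import Crest.Agent.R281.Thn4_280
import Crest.Agent.R281.ThnM_280

/-!
# R281 (S0424), DIV 6, S6-RICH (helper710): traces of `σ`-thin sets on parallel lines

* `sth_ae_countable` : for every direction `v`, for a.e. `z`, `{c | z + c v ∈ S}` is countable.
-/

set_option autoImplicit false
set_option linter.unusedSectionVars false
set_option linter.unusedVariables false

open Set Filter Topology Metric Module MeasureTheory
open scoped ContDiff ENNReal

noncomputable section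

namespace Crest.Agent.R281.Rich_710

open Crest.Agent.R281.Thn_280

variable {V : Type*} [NormedAddCommGroup V] [NormedSpace ℂ V] [FiniteDimensional ℂ V]
  [MeasurableSpace V] [BorelSpace V]

theorem sth_ae_countable (μ : Measure V) [μ.IsAddHaarMeasure] {E : Set V} (hE : STh E) (v : V) :
    ∀ᵐ z ∂μ, {t : ℂ | z + t • v ∈ E}.Countable := by
  obtain ⟨U, g, h1, h2⟩ := hE
  obtain ⟨D, hDc, hDd⟩ := TopologicalSpace.exists_countable_dense ℂ
  have := hDc.to_subtype
  have hae : ∀ᵐ z ∂μ, ∀ j : ℕ, ∀ t : D,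
      z + (t : ℂ) • v ∉ {z | z ∈ U j ∧ g j z = 0 ∧ fderiv ℂ (g j) z ≠ 0} := by
    rw [ae_all_iff]; intro j
    rw [ae_all_iff]; intro t
    have h3 := measure_eq_zero_iff_ae_notMem.1 (piece_null μ (h1 j).1 (h1 j).2)
    exact (quasiMeasurePreserving_add_right μ ((t : ℂ) • v)).ae h3
  filter_upwards [hae] with z hz
  have hsub : {t : ℂ | z + t • v ∈ E} ⊆
      ⋃ j, {t : ℂ | z + t • v ∈ U j ∧ g j (z + t • v) = 0 ∧ fderiv ℂ (g j) (z + t • v) ≠ 0} := by
    intro t ht
    exact mem_iUnion.2 (h2 _ ht)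
  refine (countable_iUnion (fun j => ?_)).mono hsub
  refine countable_of_isolated (fun t ht => ?_)
  obtain ⟨ht1, ht2, ht3⟩ := ht
  have hline : Continuous (fun s : ℂ => z + s • v) := by fun_prop
  have hφ : AnalyticAt ℂ (fun s : ℂ => g j (z + s • v)) t := by
    have h4 : AnalyticAt ℂ (fun ζ : ℂ => z + ζ • v) t := by fun_prop
    exact AnalyticAt.comp (g := g j) (f := fun ζ : ℂ => z + ζ • v) ((h1 j).2 _ ht1) h4
  rcases hφ.eventually_eq_zero_or_eventually_ne_zero with h5 | h5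
  · exfalso
    have e1 : ∀ᶠ s in 𝓝 t, z + s • v ∈ U j := hline.continuousAt.eventually ((h1 j).1.mem_nhds ht1)
    have e2 : ∀ᶠ s in 𝓝 t, fderiv ℂ (g j) (z + s • v) ≠ 0 := by
      have c1 : ContinuousAt (fderiv ℂ (g j)) (z + t • v) := ((h1 j).2 _ ht1).fderiv.continuousAt
      have c2 : ContinuousAt (fun s : ℂ => fderiv ℂ (g j) (z + s • v)) t :=
        ContinuousAt.comp (f := fun s : ℂ => z + s • v) c1 hline.continuousAt
      exact c2.eventually_ne ht3
    have e3 : ∀ᶠ s in 𝓝 t, (z + s • v ∈ U j ∧ g j (z + s • v) = 0) ∧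
        fderiv ℂ (g j) (z + s • v) ≠ 0 := (e1.and h5).and e2
    obtain ⟨O, hO1, hO2, hO3⟩ := _root_.eventually_nhds_iff.1 e3
    obtain ⟨s, hsO, hsD⟩ := hDd.inter_open_nonempty O hO2 ⟨t, hO3⟩
    obtain ⟨⟨a1, a2⟩, a3⟩ := hO1 s hsO
    exact hz j ⟨s, hsD⟩ ⟨a1, a2, a3⟩
  · obtain ⟨N, hN, hN2⟩ := (eventually_nhdsWithin_iff.1 h5).exists_mem
    refine ⟨N, hN, ?_⟩
    rintro s ⟨hs, hs1, hs2, hs3⟩
    by_contra hne
    exact hN2 s hs hne hs2

end Crest.Agent.R281.Rich_710
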