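import Crest.Agent.R273.Sg2_101

/-!
# R281 (S0424), S6-RANK part 1 (helper599): local analysis

* `factor`   : `F` is constant along the fibres of the submersion `y` at `z` (infinitesimally:
               `ker Dy ⊆ ker DF`), `R` a right inverse of `Dy(z)`.  If `F` vanishes to order `K`
               along the slice `z + range R`, then `F` vanishes to order `K` at `z`.
* `isBigO_of_slices`, `slices_of_isBigO` : order of vanishing of an analytic function in terms of its
               diagonal Taylor coefficients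
* `schwarzS` : the Schwarz lemma of order `k` (R273, helper101) with slice hypotheses
-/

set_option autoImplicit false
set_option linter.unusedSectionVars false

open Set Filter Topology Complex Metric Asymptotics
open scoped NNReal ENNReal

namespace Crest.Agent.R281.Rk_599

open Crest.Agent.R275.Geo Crest.Agent.R273.Sg1_101

noncomputable section

section Factor

variable {E G : Type*} [NormedAddCommGroup E] [NormedSpace ℂ E] [CompleteSpace E]
  [NormedAddCommGroup G] [NormedSpace ℂ G]

theorem factor_aux {y : E → G} {F : E → ℂ} {z : E} (hy : ContDiffAt ℂ 1 y z) (R : G →L[ℂ] E)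
    (hR : ∀ t, fderiv ℂ y z (R t) = t) (hF : ∀ᶠ w in 𝓝 z, DifferentiableAt ℂ F w)
    (hker : ∀ᶠ w in 𝓝 z, ∀ v, fderiv ℂ y w v = 0 → fderiv ℂ F w v = 0) :
    ∃ t : E → G, DifferentiableAt ℂ t z ∧ t z = 0 ∧ ∀ᶠ w in 𝓝 z, F w = F (z + R (t w)) := by
  set Y : E →L[ℂ] G := fderiv ℂ y z with hY
  set Ψ : E → E := fun w => w - R (Y (w - z)) + R (y w - y z) with hΨ
  have hΨz : Ψ z = z := by simp [hΨ]
  have hΨc : ContDiffAt ℂ 1 Ψ z := by
    refine ContDiffAt.add (ContDiffAt.sub contDiffAt_id ?_) ?_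
    · exact (R.contDiff.contDiffAt).comp z ((Y.contDiff.contDiffAt).comp z
        (contDiffAt_id.sub contDiffAt_const))
    · exact (R.contDiff.contDiffAt).comp z (hy.sub contDiffAt_const)
  have hdΨ : ∀ w, DifferentiableAt ℂ y w →
      HasFDerivAt Ψ (ContinuousLinearMap.id ℂ E - R.comp Y + R.comp (fderiv ℂ y w)) w := by
    intro w hw
    have h1 : HasFDerivAt (fun w => R (Y (w - z))) (R.comp Y) w := by
      have h2 := (R.comp Y).hasFDerivAt.comp w ((hasFDerivAt_id w).sub_const z)
      rw [ContinuousLinearMap.comp_id] at h2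
      exact h2
    have h3 : HasFDerivAt (fun w => R (y w - y z)) (R.comp (fderiv ℂ y w)) w :=
      R.hasFDerivAt.comp w (hw.hasFDerivAt.sub_const (y z))
    exact ((hasFDerivAt_id w).sub h1).add h3
  have hΨ' : HasFDerivAt Ψ ((ContinuousLinearEquiv.refl ℂ E : E ≃L[ℂ] E) : E →L[ℂ] E) z := by
    have h1 := hdΨ z (hy.differentiableAt one_ne_zero)
    rw [← hY, sub_add_cancel] at h1
    exact h1
  set g : E → E := hΨc.localInverse hΨ' one_ne_zero with hg
  have hgc : ContDiffAt ℂ 1 g z := by
    have h1 := hΨc.to_localInverse hΨ' one_ne_zero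
    rwa [hΨz] at h1
  set Φ := hΨc.toOpenPartialHomeomorph Ψ hΨ' one_ne_zero with hΦ
  have hzs : z ∈ Φ.source := hΨc.mem_toOpenPartialHomeomorph_source hΨ' one_ne_zero
  have hzt : z ∈ Φ.target := by
    have h1 := hΨc.image_mem_toOpenPartialHomeomorph_target hΨ' one_ne_zero
    rwa [hΨz] at h1
  have hΦc : ∀ w, Φ w = Ψ w := fun w => rfl
  have hgΦ : ∀ p, g p = Φ.symm p := fun p => rfl
  have hgz : g z = z := by
    rw [hgΦ]
    have h1 := Φ.left_inv hzs
    rwa [hΦc, hΨz] at h1
  have hgt : Tendsto g (𝓝 z) (𝓝 z) := by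
    have h1 := hgc.continuousAt.tendsto
    rwa [hgz] at h1
  have hyd : ∀ᶠ w in 𝓝 z, DifferentiableAt ℂ y w := by
    filter_upwards [hy.eventually (by simp)] with w hw
    exact hw.differentiableAt one_ne_zero
  have hgd : ∀ᶠ p in 𝓝 z, DifferentiableAt ℂ g p := by
    filter_upwards [hgc.eventually (by simp)] with w hw
    exact hw.differentiableAt one_ne_zero
  have hev : ∀ᶠ p in 𝓝 z, p ∈ Φ.target ∧ DifferentiableAt ℂ g p ∧ DifferentiableAt ℂ y (g p) ∧
      DifferentiableAt ℂ F (g p) ∧ ∀ v, fderiv ℂ y (g p) v = 0 → fderiv ℂ F (g p) v = 0 := by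
    filter_upwards [Φ.open_target.mem_nhds hzt, hgd, hgt.eventually hyd, hgt.eventually hF,
      hgt.eventually hker] with p h1 h2 h3 h4 h5
    exact ⟨h1, h2, h3, h4, h5⟩
  obtain ⟨ε, hε, hball⟩ := Metric.eventually_nhds_iff_ball.1 hev
  -- the derivative of `F ∘ g` vanishes along `ker Y`
  have hder : ∀ p ∈ ball z ε, ∀ u, Y u = 0 → fderiv ℂ (fun p => F (g p)) p u = 0 := by
    intro p hp u hu
    obtain ⟨h1, h2, h3, h4, h5⟩ := hball p hp
    have h6 : fderiv ℂ (fun p => F (g p)) p = (fderiv ℂ F (g p)).comp (fderiv ℂ g p) :=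
      fderiv_comp p h4 h2
    rw [h6, ContinuousLinearMap.comp_apply]
    apply h5
    have h7 : HasFDerivAt (fun p => Ψ (g p)) ((ContinuousLinearMap.id ℂ E - R.comp Y +
      R.comp (fderiv ℂ y (g p))).comp (fderiv ℂ g p)) p := (hdΨ _ h3).comp p h2.hasFDerivAt
    have h8 : (fun p => Ψ (g p)) =ᶠ[𝓝 p] fun p => p := by
      filter_upwards [Φ.open_target.mem_nhds h1] with q hq
      rw [← hΦc, hgΦ]
      exact Φ.right_inv hq
    have h9 : HasFDerivAt (fun p : E => p) ((ContinuousLinearMap.id ℂ E - R.comp Y +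
      R.comp (fderiv ℂ y (g p))).comp (fderiv ℂ g p)) p := h7.congr_of_eventuallyEq h8.symm
    have h10 := h9.unique (hasFDerivAt_id p)
    have h11 := congrArg (fun T : E →L[ℂ] E => Y (T u)) h10
    simp only [ContinuousLinearMap.comp_apply, add_apply,
      sub_apply, ContinuousLinearMap.id_apply, map_add, map_sub, hR,
      hu] at h11
    simpa [hR] using h11
  -- constancy along segments
  have hconst : ∀ p p', p ∈ ball z ε → p' ∈ ball z ε → Y (p - p') = 0 → F (g p) = F (g p') := by
    intro p p' hp hp' hu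
    have hseg : ∀ s ∈ Icc (0 : ℝ) 1, p' + s • (p - p') ∈ ball z ε := fun s hs =>
      (convex_ball z ε).add_smul_sub_mem hp' hp hs
    have h1 : ∀ s ∈ Icc (0 : ℝ) 1, HasDerivWithinAt (fun s : ℝ => F (g (p' + s • (p - p')))) 0
        (Icc (0 : ℝ) 1) s := by
      intro s hs
      obtain ⟨-, h2, -, h4, -⟩ := hball _ (hseg s hs)
      have hdF : HasFDerivAt (fun p => F (g p)) (fderiv ℂ (fun p => F (g p)) (p' + s • (p - p')))
          (p' + s • (p - p')) :=
        (DifferentiableAt.comp (g := F) (f := g) _ h4 h2).hasFDerivAt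
      have h5 : HasDerivAt (fun s : ℝ => p' + s • (p - p')) (p - p') s := by
        have := ((hasDerivAt_id s).smul_const (p - p')).const_add p'
        simpa using this
      have h6 := (hdF.restrictScalars ℝ).comp_hasDerivAt s h5
      have h7 : (fderiv ℂ (fun p => F (g p)) (p' + s • (p - p'))) (p - p') = 0 :=
        hder _ (hseg s hs) _ hu
      simp only [ContinuousLinearMap.coe_restrictScalars'] at h6
      rw [h7] at h6
      exact h6.hasDerivWithinAt
    have h2 := (convex_Icc (0 : ℝ) 1).norm_image_sub_le_of_norm_hasDerivWithin_le (C := 0) h1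
      (fun s _ => by simp) (left_mem_Icc.2 zero_le_one) (right_mem_Icc.2 zero_le_one)
    simp only [one_smul, zero_smul, add_zero, zero_mul] at h2
    have h3 := sub_eq_zero.1 (norm_le_zero_iff.1 h2)
    rw [add_sub_cancel] at h3
    exact h3
  refine ⟨fun w => Y (g (z + R (y w - y z)) - z), ?_, ?_, ?_⟩
  · have h1 : DifferentiableAt ℂ (fun w => z + R (y w - y z)) z := by
      have := (R.differentiableAt).comp z ((hy.differentiableAt one_ne_zero).sub_const (y z))
      exact this.const_add z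
    have h2 : DifferentiableAt ℂ g (z + R (y z - y z)) := by
      rw [sub_self, map_zero, add_zero]
      exact hgc.differentiableAt one_ne_zero
    have h3 : DifferentiableAt ℂ (fun w => g (z + R (y w - y z))) z := h2.comp z h1
    exact Y.differentiableAt.comp z (h3.sub_const z)
  · simp [hgz]
  · have hΨt : Tendsto Ψ (𝓝 z) (𝓝 z) := by
      have := hΨc.continuousAt.tendsto
      rwa [hΨz] at this
    have ht : Tendsto (fun w => z + R (y w - y z)) (𝓝 z) (𝓝 z) := by
      have h1 : ContinuousAt (fun w => z + R (y w - y z)) z :=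
        continuousAt_const.add (R.continuous.continuousAt.comp
          (hy.continuousAt.sub continuousAt_const))
      have := h1.tendsto
      simpa using this
    filter_upwards [Φ.open_source.mem_nhds hzs, hΨt.eventually (ball_mem_nhds z hε),
      ht.eventually (ball_mem_nhds z hε)] with w hw h1 h2
    have h3 : g (Ψ w) = w := by
      rw [hgΦ, ← hΦc]
      exact Φ.left_inv hw
    have h4 : Y (Ψ w - (z + R (y w - y z))) = 0 := by
      have : Ψ w - (z + R (y w - y z)) = (w - z) - R (Y (w - z)) := by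
        simp only [hΨ]; abel
      rw [this, map_sub, hR, sub_self]
    have h5 := hconst _ _ h1 h2 h4
    rw [h3] at h5
    rw [h5]
    -- `g p'` lies in the slice
    obtain ⟨h6, -⟩ := hball _ h2
    have h7 : Ψ (g (z + R (y w - y z))) = z + R (y w - y z) := by
      rw [← hΦc, hgΦ]
      exact Φ.right_inv h6
    set w' := g (z + R (y w - y z)) with hw'
    have h8 : w' - z = R (Y (w' - z) - (y w' - y z) + (y w - y z)) := by
      simp only [hΨ] at h7
      rw [map_add, map_sub]
      have : w' = z + R (y w - y z) + R (Y (w' - z)) - R (y w' - y z) := by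
        rw [← h7]; abel
      calc w' - z = (z + R (y w - y z) + R (Y (w' - z)) - R (y w' - y z)) - z := by rw [← this]
        _ = _ := by abel
    have h9 : R (Y (w' - z)) = w' - z := by
      conv_lhs => rw [h8]
      rw [hR, ← h8]
    rw [h9, add_sub_cancel]

theorem factor {y : E → G} {F : E → ℂ} {z : E} (hy : ContDiffAt ℂ 1 y z) (R : G →L[ℂ] E)
    (hR : ∀ t, fderiv ℂ y z (R t) = t) (hF : ∀ᶠ w in 𝓝 z, DifferentiableAt ℂ F w)
    (hker : ∀ᶠ w in 𝓝 z, ∀ v, fderiv ℂ y w v = 0 → fderiv ℂ F w v = 0) {K : ℕ}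
    (hO : (fun t => F (z + R t)) =O[𝓝 0] fun t => ‖t‖ ^ K) :
    F =O[𝓝 z] fun w => ‖w - z‖ ^ K := by
  obtain ⟨t, ht, ht0, hev⟩ := factor_aux hy R hR hF hker
  have h1 : Tendsto t (𝓝 z) (𝓝 0) := by
    have := ht.continuousAt.tendsto
    rwa [ht0] at this
  have h2 := hO.comp_tendsto h1
  have h3 : (fun w => ‖t w‖ ^ K) =O[𝓝 z] fun w => ‖w - z‖ ^ K := by
    have h4 := ht.isBigO_sub
    simp only [ht0, sub_zero] at h4
    exact (h4.norm_left.norm_right).pow K
  refine (h2.trans h3).congr' ?_ EventuallyEq.rfl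
  filter_upwards [hev] with w hw
  exact hw.symm

end Factor

section Orders

variable {E : Type*} [NormedAddCommGroup E] [NormedSpace ℂ E]

theorem coeff_eq {f : E → ℂ} {z : E} {p : FormalMultilinearSeries ℂ E ℂ}
    (hp : HasFPowerSeriesAt f p z) (j : ℕ) (v : E) :
    iteratedFDeriv ℂ j f z (fun _ => v) = (j.factorial : ℂ) * p j (fun _ => v) := by
  obtain ⟨r, hr⟩ := hp
  have h2 := hr.factorial_smul v j
  rw [← h2, nsmul_eq_mul]

theorem isBigO_of_slices {f : E → ℂ} {z : E} (hf : AnalyticAt ℂ f z) {K : ℕ}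
    (h : ∀ j < K, ∀ v, iteratedFDeriv ℂ j f z (fun _ => v) = 0) :
    f =O[𝓝 z] fun w => ‖w - z‖ ^ K := by
  obtain ⟨p, hp⟩ := hf
  have h1 : ∀ j < K, ∀ v, p j (fun _ => v) = 0 := by
    intro j hj v
    have h2 := h j hj v
    rw [coeff_eq hp] at h2
    exact (mul_eq_zero.1 h2).resolve_left (Nat.cast_ne_zero.2 (Nat.factorial_ne_zero j))
  have h2 := hp.isBigO_sub_partialSum_pow K
  have h3 : ∀ w, p.partialSum K w = 0 := fun w =>
    Finset.sum_eq_zero fun j hj => h1 j (Finset.mem_range.1 hj) w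
  simp only [h3, sub_zero] at h2
  have h4 : Tendsto (fun w => w - z) (𝓝 z) (𝓝 0) := by
    have : ContinuousAt (fun w => w - z) z := by fun_prop
    simpa using this.tendsto
  have h5 := h2.comp_tendsto h4
  refine h5.congr_left fun w => ?_
  simp

theorem slices_of_isBigO {f : E → ℂ} {z : E} (hf : AnalyticAt ℂ f z) {K : ℕ}
    (h : f =O[𝓝 z] fun w => ‖w - z‖ ^ K) :
    ∀ j < K, ∀ v, iteratedFDeriv ℂ j f z (fun _ => v) = 0 := by
  obtain ⟨p, hp⟩ := hf
  have h4 : Tendsto (fun w : E => z + w) (𝓝 0) (𝓝 z) := by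
    have : ContinuousAt (fun w : E => z + w) 0 := by fun_prop
    simpa using this.tendsto
  have h0 : (fun w => f (z + w)) =O[𝓝 0] fun w => ‖w‖ ^ K := by
    have h5 := h.comp_tendsto h4
    refine h5.congr (fun w => rfl) fun w => ?_
    simp
  have key : ∀ j, j < K → ∀ v, p j (fun _ => v) = 0 := by
    intro j
    induction j using Nat.strong_induction_on with
    | _ j ih =>
      intro hj v
      have h1 := hp.isBigO_sub_partialSum_pow (j + 1)
      have h2 : ∀ w, p.partialSum (j + 1) w = p j (fun _ => w) := by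
        intro w
        unfold FormalMultilinearSeries.partialSum
        rw [Finset.sum_range_succ, Finset.sum_eq_zero, zero_add]
        intro i hi
        exact ih i (Finset.mem_range.1 hi) ((Finset.mem_range.1 hi).trans hj) w
      simp only [h2] at h1
      have h3 : (fun w : E => ‖w‖ ^ K) =O[𝓝 0] fun w => ‖w‖ ^ (j + 1) := by
        refine IsBigO.of_bound 1 ?_
        filter_upwards [ball_mem_nhds (0 : E) one_pos] with w hw
        rw [mem_ball_zero_iff] at hw
        rw [norm_pow, norm_pow, norm_norm, one_mul]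
        exact pow_le_pow_of_le_one (norm_nonneg _) hw.le hj
      have h5 : (fun w => p j (fun _ => w)) =O[𝓝 0] fun w : E => ‖w‖ ^ (j + 1) := by
        have h6 := (h0.trans h3).sub h1
        refine h6.congr_left fun w => ?_
        ring
      exact h5.continuousMultilinearMap_apply_eq_zero v
  intro j hj v
  rw [coeff_eq hp, key j hj v, mul_zero]

end Orders

/-- **Schwarz lemma of order `k`**, slice form -/
theorem schwarzS {n : ℕ} {f : Cn n → ℂ} {U : Set (Cn n)} (hU : IsOpen U)
    (hf : DifferentiableOn ℂ f U) {z : Cn n} {r m : ℝ} (hr : 0 < r) (hsub : closedBall z (2 * r) ⊆ U)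
    (hm : ∀ w ∈ closedBall z (2 * r), ‖f w‖ ≤ m) {k : ℕ}
    (hk : ∀ j < k, ∀ v, iteratedFDeriv ℂ j f z (fun _ => v) = 0) {w : Cn n}
    (hw : w ∈ closedBall z r) : ‖f w‖ ≤ m * (1 / 2) ^ k * 2 := by
  have hzU : z ∈ U := hsub (mem_closedBall_self (by positivity))
  have han : AnalyticAt ℂ f z :=
    Crest.Agent.R266.SCV.analyticOnNhd_of_differentiableOn hU hf z hzU
  have hmem : ∀ ζ ∈ closedBall (0 : ℂ) 2, z + ζ • (w - z) ∈ closedBall z (2 * r) := by
    intro ζ hζ
    rw [mem_closedBall, dist_eq_norm, add_sub_cancel_left, norm_smul]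
    rw [mem_closedBall, dist_zero_right] at hζ
    rw [mem_closedBall, dist_eq_norm] at hw
    gcongr
  have hd : DifferentiableOn ℂ (fun ζ : ℂ => f (z + ζ • (w - z))) (closedBall 0 2) := by
    refine hf.comp (f := fun ζ : ℂ => z + ζ • (w - z)) ?_ fun ζ hζ => hsub (hmem ζ hζ)
    fun_prop
  have h1 := schwarz1 (φ := fun ζ : ℂ => f (z + ζ • (w - z))) (k := k) hd
    (fun ζ hζ => hm _ (hmem ζ hζ)) fun j hj => by
      have h2 : HasFPowerSeriesOnBall (fun ζ : ℂ => f (z + ζ • (w - z)))
          (cauchyPowerSeries (fun ζ : ℂ => f (z + ζ • (w - z))) 0 ((2 : ℝ≥0) : ℝ)) 0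
          ((2 : ℝ≥0) : ℝ≥0∞) :=
        DifferentiableOn.hasFPowerSeriesOnBall (R := 2) (by simpa using hd) (by norm_num)
      exact slice_cps han h2.hasFPowerSeriesAt (hk j hj _)
  simpa using h1

end

end Crest.Agent.R281.Rk_599
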