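import Crest.Agent.R281.Rko1_396
import Crest.Agent.R281.HkR4_835

/-!
# Row 281, RK-OPEN (helper396), part 2: real criterion in the charts of `RCh V X` against
599's `Rk` in any holomorphic atlas `A` with `Cmp C (ofAtl A)`

`rk_iff`: `u j (C.e i y) = e (C.e i y) * s j a y` near `x`, `e ≠ 0` differentiable, `s j a`
holomorphic in the chart `a`:
`RkR r u (C.e i x) ↔ x ∈ (A.e a).source ∧ s 0 a x ≠ 0 ∧ LinearIndependent ℂ (fderiv ℂ (s_j/s_0))`.
-/

set_option autoImplicit false

open Set Filter Topology MeasureTheory Complex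
open scoped ContDiff

namespace Crest.Agent.R281.Rko_396

open Crest.Agent.R275.Geo Crest.Agent.R275.EDR890 Crest.Agent.R281.HkR_835

noncomputable section

variable {V X : Type} [NormedAddCommGroup V] [NormedSpace ℝ V] [TopologicalSpace X]
  {C : RCh V X} {d : ℕ} {A : Atl d X}

theorem rk_iff (h : Cmp C (ofAtl A)) {r : ℕ} {s : Fin (r + 1) → A.ι → X → ℂ}
    {a : A.ι} {i : C.ι} {x : X} (ha : x ∈ (A.e a).source) (hi : x ∈ (C.e i).source)
    (hs : ∀ j, DifferentiableAt ℂ (fun z => s j a ((A.e a).symm z)) (A.e a x))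
    {u : Fin (r + 1) → V → ℂ} {e : V → ℂ} (he : DifferentiableAt ℝ e (C.e i x))
    (he0 : e (C.e i x) ≠ 0)
    (hus : ∀ j, ∀ᶠ y in 𝓝 x, u j (C.e i y) = e (C.e i y) * s j a y) :
    RkR r u (C.e i x) ↔ x ∈ (A.e a).source ∧ s 0 a x ≠ 0 ∧
      LinearIndependent ℂ (fun j : Fin r => fderiv ℂ (fun z => s j.succ a ((A.e a).symm z) /
        s 0 a ((A.e a).symm z)) (A.e a x)) := by
  have hmov : C.e i x ∈ mov (ofAtl A) C a i := by
    refine ⟨(C.e i).map_source hi, ?_⟩
    rw [(C.e i).left_inv hi]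
    exact ha
  set φ : V → Cn d := mt (ofAtl A) C a i with hφ
  have hφx : φ (C.e i x) = A.e a x := by
    show A.e a ((C.e i).symm (C.e i x)) = A.e a x
    rw [(C.e i).left_inv hi]
  have hφd : DifferentiableAt ℝ φ (C.e i x) := h.symm.diff hmov
  have hφs : Function.Surjective (fderiv ℝ φ (C.e i x)) := fun w =>
    ⟨_, h.symm.d_d' hmov w⟩
  have hsR : ∀ j, DifferentiableAt ℝ (fun z => s j a ((A.e a).symm z)) (φ (C.e i x)) := fun j => by
    rw [hφx]
    exact (hs j).restrictScalars ℝ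
  have hc1 : ∀ j, u j =ᶠ[𝓝 (C.e i x)]
      fun y => e y * (fun z => s j a ((A.e a).symm z)) (φ y) := by
    intro j
    have h1 : ∀ᶠ y in 𝓝 (C.e i x), u j (C.e i ((C.e i).symm y)) =
        e (C.e i ((C.e i).symm y)) * s j a ((C.e i).symm y) := by
      have hc : Tendsto (C.e i).symm (𝓝 (C.e i x)) (𝓝 x) := by
        have := (C.e i).continuousAt_symm ((C.e i).map_source hi)
        rw [ContinuousAt, (C.e i).left_inv hi] at this
        exact this
      exact hc.eventually (hus j)
    filter_upwards [h1, (C.e i).open_target.mem_nhds ((C.e i).map_source hi),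
      (Cmp.isOpen_mov (ofAtl A) C a i).mem_nhds hmov] with y hy hyt hym
    rw [(C.e i).right_inv hyt] at hy
    rw [hy]
    congr 1
    show s j a ((C.e i).symm y) = s j a ((A.e a).symm (A.e a ((C.e i).symm y)))
    rw [(A.e a).left_inv hym.2]
  rw [RkR.congr hc1]
  rw [RkR.smul_iff (u := fun j y => (fun z => s j a ((A.e a).symm z)) (φ y))
    (fun j => (hsR j).comp (C.e i x) hφd) he he0]
  rw [RkR.comp_iff (u := fun j z => s j a ((A.e a).symm z)) hsR hφd hφs, hφx]
  rw [rkR_holo_iff hs, (A.e a).left_inv ha]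
  exact (and_iff_right ha).symm

end

end Crest.Agent.R281.Rko_396
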