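import Crest.Agent.R281.PL3_713
import Crest.Agent.R281.Sc3_413
import Crest.Agent.R281.Rko2_396
import Crest.Agent.R281.Rk4_599
import Crest.Agent.R281.Nef4_252
import Crest.Agent.R281.HkM1_835

/-!
# R281 (S0424), RANK281, lower end (helper386), part 1: sections of a class at a complex structure

Carrier: `C : RCh V X` (835), `AJ C` (476), `PL C` (713), `F1 C` (846).

* `HN L J m N`   : for some connection `L.add a` with curvature of type (1,1) for `J` the power `m`
                   has `N` independent holomorphic sections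
* `RN L J k n`   : same with `n + 1` sections of the power `k` whose ratios have rank `n` somewhere
* `MDict L J d`  : holomorphic atlas of `J` with potentials for all (1,1)-connections on `L`
* `MDict.indep`  : the section spaces do not depend on the (1,1)-connection (simply connected,
                   Kaehler)
* `MDict.growth` : `RN L J k n → HN L J (k * q) ((q + n).choose n)`
-/

set_option autoImplicit false
set_option linter.unusedSectionVars false
set_option maxSynthPendingDepth 3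

open Set Filter Topology Complex
open scoped ContDiff

namespace Crest.Agent.R281.Rkd_386

open Crest.Agent.R275.Geo Crest.Agent.R275.Core144 Crest.Agent.R275.GC293
open Crest.Agent.R275.EDR890
open Crest.Agent.R273.Defs_333 Crest.Agent.R273.Kah_333 Crest.Agent.R273.HM_333
open Crest.Agent.R281.HkR_835 Crest.Agent.R281.Ti_846 Crest.Agent.R281.PL_713
open Crest.Agent.R281.NefO_476 Crest.Agent.R281.Nef_252 Crest.Agent.R281.Rko_396
open Crest.Agent.R281.Dif_268
open Crest.Agent.R281.Rk_599 Crest.Agent.R273.Sg1_101 Crest.Agent.R273.Sg2_101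

noncomputable section

variable {V X : Type} [NormedAddCommGroup V] [NormedSpace ℝ V] [FiniteDimensional ℝ V]
  [MeasurableSpace V] [BorelSpace V] [TopologicalSpace X] {C : RCh V X}

/-- `N` independent holomorphic sections of the power `m` for some (1,1)-connection -/
def HN (L : PL C) (J : AJ C) (m N : ℕ) : Prop :=
  ∃ a : F1 C, T11 J (L.add a).F ∧ ((L.add a).pow m).HasN J.J N

/-- `n + 1` sections of the power `k` of rank `n` somewhere -/
def RN (L : PL C) (J : AJ C) (k n : ℕ) : Prop :=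
  ∃ a : F1 C, T11 J (L.add a).F ∧ ∃ u : Fin (n + 1) → Sec ((L.add a).pow k),
    (∀ j, u j ∈ ((L.add a).pow k).H0 J.J) ∧
      ∃ i, ∃ z ∈ (C.e i).target, RkR n (fun j => (u j).u i) z

/-- holomorphic atlas of `J` with potentials for all the (1,1)-connections on `L` -/
structure MDict (L : PL C) (J : AJ C) (d : ℕ) where
  A : Atl d X
  fin : Finite A.ι
  good : GoodA A
  part : Nonempty (Part A)
  kah : Nonempty (Kah A)
  jc : JC C J.J A
  κ : (ofAtl A).ι → C.ι
  sub : Sub C (ofAtl A) κ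
  pot : ∀ a : F1 C, T11 J (L.add a).F → Nonempty (Pot ((L.add a).chg jc.cmp κ sub))

theorem hasN_iff_finrank {W : Type} [NormedAddCommGroup W] [NormedSpace ℝ W] {D : RCh W X}
    {L : PL D} {J : D.ι → W → W →L[ℝ] W} [FiniteDimensional ℂ (L.H0 J)] {N : ℕ} :
    L.HasN J N ↔ N ≤ Module.finrank ℂ (L.H0 J) := by
  constructor
  · rintro ⟨f, hf, hm⟩
    let f' : Fin N → L.H0 J := fun i => ⟨f i, hm i⟩
    have hf' : LinearIndependent ℂ f' := by
      apply LinearIndependent.of_comp (L.H0 J).subtype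
      exact hf
    simpa using hf'.fintype_card_le_finrank
  · intro h
    obtain ⟨f, hf⟩ := exists_linearIndependent_of_le_finrank h
    exact ⟨fun i => (f i : Sec L), hf.map' (L.H0 J).subtype (by simp), fun i => (f i).2⟩

section hs

variable {n : ℕ} {A : Atl n X}

/-- finite dimension of the space of sections -/
theorem fin_hs [CompactSpace X] [T2Space X] (L : LB A) : FiniteDimensional ℂ (HS L univ) := by
  obtain ⟨T⟩ := exists_net A
  obtain ⟨c, hc⟩ := exists_Bd T L
  exact fin_HS hc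

theorem pfin [CompactSpace X] [T2Space X] {L : PL (ofAtl A)} (P : Pot L) :
    FiniteDimensional ℂ (L.H0 (iJ A)) := by
  have := fin_hs P.lb
  exact P.iso.symm.toLinearMap.finiteDimensional_of_surjective
    (LinearMap.range_eq_top.2 P.iso.symm.surjective)

theorem phasN [CompactSpace X] [T2Space X] {L : PL (ofAtl A)} (P : Pot L) {N : ℕ} :
    L.HasN (iJ A) N ↔ N ≤ Module.finrank ℂ (HS P.lb univ) := by
  have := pfin P
  rw [hasN_iff_finrank, P.iso.finrank_eq]

/-- the curvature form of the metric of a potential -/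
theorem pf2 {L : PL (ofAtl A)} (P : Pot L) {i : A.ι} {z : Cn n}
    (hz : z ∈ (A.e i).target) (u v : Cn n) :
    (Crest.Agent.R281.Sc_413.curK P.hm).f2.w i z u v = -(1 / 2) * L.F.w i z u v := by
  have hx := (A.e i).map_target hz
  have h1 := P.F_cur hx u v
  rw [(A.e i).right_inv hz] at h1
  rw [K11.f2_w _ hz, Crest.Agent.R281.Sc_413.curK_g, h1]
  ring

/-- two line bundles with cohomologous curvature -/
theorem pfinrank [CompactSpace X] [T2Space X] [SimplyConnectedSpace X] [Finite A.ι]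
    (hA : GoodA A) (R : Part A) (K : Kah A) {L L' : PL (ofAtl A)} (P : Pot L) (P' : Pot L')
    (he : Ex (L.F - L'.F)) :
    Module.finrank ℂ (HS P.lb univ) = Module.finrank ℂ (HS P'.lb univ) := by
  have h1 : Ex ((Crest.Agent.R281.Sc_413.curK P.hm).f2 -
      (Crest.Agent.R281.Sc_413.curK P'.hm).f2) := by
    refine Nef_252.ex_congr ?_ (ex_smul (-(1 / 2)) he)
    intro i z hz u v
    have e1 : ((-(1 / 2) : ℝ) • (L.F - L'.F)).w i z u v =
      -(1 / 2) * (L.F.w i z u v - L'.F.w i z u v) := rfl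
    have e2 : ((Crest.Agent.R281.Sc_413.curK P.hm).f2 -
      (Crest.Agent.R281.Sc_413.curK P'.hm).f2).w i z u v =
      (Crest.Agent.R281.Sc_413.curK P.hm).f2.w i z u v -
      (Crest.Agent.R281.Sc_413.curK P'.hm).f2.w i z u v := rfl
    rw [e1, e2, pf2 P hz, pf2 P' hz]
    ring
  have key : ∀ {L₁ L₂ : LB A}, Crest.Agent.R281.Sc_413.Triv (L₂ * L₁⁻¹) →
      Module.finrank ℂ (HS L₁ univ) ≤ Module.finrank ℂ (HS L₂ univ) := by
    intro L₁ L₂ ht
    have := fin_hs L₂
    obtain ⟨u, hu0, -, hu, -⟩ := ht.iso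
    let T : HS L₁ univ →ₗ[ℂ] HS L₂ univ :=
      { toFun := fun s => ⟨u * s.1, hu univ s.1 s.2⟩
        map_add' := fun s t => Subtype.ext (mul_add u s.1 t.1)
        map_smul' := fun c s => Subtype.ext (by
          funext i x
          show u i x * (c * s.1 i x) = c * (u i x * s.1 i x)
          ring) }
    refine LinearMap.finrank_le_finrank_of_injective (f := T) ?_
    rw [← LinearMap.ker_eq_bot, LinearMap.ker_eq_bot']
    intro s hs
    apply Subtype.ext
    funext i x
    have h2 : u i x * s.1 i x = 0 := congrFun (congrFun (congrArg Subtype.val hs) i) x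
    by_cases hx : x ∈ (A.e i).source
    · exact (mul_eq_zero.1 h2).resolve_left (hu0 i x hx)
    · exact s.2.off i x hx
  obtain ⟨s, hs, hs0⟩ := Crest.Agent.R281.Sc_413.triv_of_coh hA R K P.hm P'.hm h1
  have h3 : Crest.Agent.R281.Sc_413.Triv (P.lb * P'.lb⁻¹) := ⟨s, hs, hs0⟩
  have h4 := h3.inv
  rw [mul_inv, inv_inv, mul_comm] at h4
  exact le_antisymm (key h4) (key h3)

end hs

/-! ### the dictionary at one complex structure -/

namespace MDict

variable {L : PL C} {J : AJ C} {d : ℕ} (D : MDict L J d)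

include D

/-- the equivalence of the section spaces -/
def isoH0 (M : PL C) : M.H0 J.J ≃ₗ[ℂ] (M.chg D.jc.cmp D.κ D.sub).H0 (iJ D.A) :=
  LinearEquiv.ofSubmodules (chS D.jc.cmp D.κ D.sub) (M.H0 J.J) _ (by
    ext s
    constructor
    · rintro ⟨t, ht, rfl⟩
      exact (D.jc.mem_H0 D.κ D.sub t).2 ht
    · intro hs
      refine ⟨(chS D.jc.cmp D.κ D.sub).symm s, ?_, by simp⟩
      refine (D.jc.mem_H0 D.κ D.sub _).1 ?_
      have h1 : chF D.jc.cmp D.κ D.sub ((chS D.jc.cmp D.κ D.sub).symm s) = s :=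
        (chS D.jc.cmp D.κ D.sub).apply_symm_apply s
      rw [h1]
      exact hs)

theorem finH0 [CompactSpace X] [T2Space X] (a : F1 C) (ha : T11 J (L.add a).F) (m : ℕ) :
    FiniteDimensional ℂ (((L.add a).pow m).H0 J.J) := by
  obtain ⟨P⟩ := D.pot a ha
  have h1 : FiniteDimensional ℂ
      ((((L.add a).pow m).chg D.jc.cmp D.κ D.sub).H0 (iJ D.A)) := by
    rw [PL.chg_pow]
    exact pfin (P.pow m)
  exact (D.isoH0 _).symm.toLinearMap.finiteDimensional_of_surjective
    (LinearMap.range_eq_top.2 (D.isoH0 _).symm.surjective)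

theorem finrank_chg [CompactSpace X] [T2Space X] (a : F1 C)
    (P : Pot ((L.add a).chg D.jc.cmp D.κ D.sub)) (m : ℕ) :
    Module.finrank ℂ (((L.add a).pow m).H0 J.J) = Module.finrank ℂ (HS (P.lb ^ m) univ) := by
  rw [(D.isoH0 _).finrank_eq, PL.chg_pow, (P.pow m).iso.finrank_eq, Pot.lb_pow]

theorem hasN_iff [CompactSpace X] [T2Space X] {a : F1 C} (ha : T11 J (L.add a).F) {m N : ℕ} :
    ((L.add a).pow m).HasN J.J N ↔ N ≤ Module.finrank ℂ (((L.add a).pow m).H0 J.J) := by
  have := D.finH0 a ha m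
  exact hasN_iff_finrank

theorem chg_F_eqv (M : PL C) : Eqv (M.chg D.jc.cmp D.κ D.sub).F (D.jc.cmp.F M.F) := by
  intro j z hz u v
  have h1 := D.jc.cmp.F_w M.F (D.sub.mem hz) u v
  rw [h1]
  exact PL.chg_F D.jc.cmp D.κ D.sub M hz u v

/-- **the section spaces do not depend on the (1,1)-connection** -/
theorem indep [CompactSpace X] [T2Space X] [SimplyConnectedSpace X] {a a' : F1 C}
    (ha : T11 J (L.add a).F) (ha' : T11 J (L.add a').F) (m : ℕ) :
    Module.finrank ℂ (((L.add a).pow m).H0 J.J) =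
      Module.finrank ℂ (((L.add a').pow m).H0 J.J) := by
  have := D.fin
  obtain ⟨R⟩ := D.part
  obtain ⟨K⟩ := D.kah
  obtain ⟨P⟩ := D.pot a ha
  obtain ⟨P'⟩ := D.pot a' ha'
  rw [D.finrank_chg a P m, D.finrank_chg a' P' m, ← Pot.lb_pow, ← Pot.lb_pow]
  refine pfinrank D.good R K (P.pow m) (P'.pow m) ?_
  have h1 : Ex (((L.add a).pow m).F - ((L.add a').pow m).F) := by
    have h2 : Ex (a.d - a'.d) := ex_sub ⟨a, a.isD⟩ ⟨a', a'.isD⟩
    refine Nef_252.ex_congr ?_ (ex_smul (m : ℝ) h2)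
    intro i z hz u v
    have e1 : ((m : ℝ) • (a.d - a'.d)).w i z u v = (m : ℝ) * (a.d.w i z u v - a'.d.w i z u v) :=
      rfl
    have e2 : (((L.add a).pow m).F - ((L.add a').pow m).F).w i z u v =
      ((L.add a).pow m).F.w i z u v - ((L.add a').pow m).F.w i z u v := rfl
    rw [e1, e2, PL.pow_F _ _ hz, PL.pow_F _ _ hz, PL.add_F _ _ hz, PL.add_F _ _ hz]
    ring
  have h3 := (F_sub D.jc.cmp ((L.add a).pow m).F ((L.add a').pow m).F).ex
    (ex_F D.jc.cmp h1)
  refine Nef_252.ex_congr ?_ h3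
  intro j z hz u v
  have e1 := D.chg_F_eqv ((L.add a).pow m) j z hz u v
  have e2 := D.chg_F_eqv ((L.add a').pow m) j z hz u v
  have e3 : (D.jc.cmp.F ((L.add a).pow m).F - D.jc.cmp.F ((L.add a').pow m).F).w j z u v =
    (D.jc.cmp.F ((L.add a).pow m).F).w j z u v - (D.jc.cmp.F ((L.add a').pow m).F).w j z u v := rfl
  have e4 : (((L.add a).chg D.jc.cmp D.κ D.sub).pow m).F.w j z u v =
    (((L.add a).pow m).chg D.jc.cmp D.κ D.sub).F.w j z u v := by rw [PL.chg_pow]
  have e5 : (((L.add a').chg D.jc.cmp D.κ D.sub).pow m).F.w j z u v =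
    (((L.add a').pow m).chg D.jc.cmp D.κ D.sub).F.w j z u v := by rw [PL.chg_pow]
  have e6 : ((((L.add a).chg D.jc.cmp D.κ D.sub).pow m).F -
    (((L.add a').chg D.jc.cmp D.κ D.sub).pow m).F).w j z u v =
    (((L.add a).chg D.jc.cmp D.κ D.sub).pow m).F.w j z u v -
    (((L.add a').chg D.jc.cmp D.κ D.sub).pow m).F.w j z u v := rfl
  rw [e6, e4, e5, e1, e2, e3]

/-- `HN` for every (1,1)-connection -/
theorem hn_all [CompactSpace X] [T2Space X] [SimplyConnectedSpace X] {m N : ℕ}
    (h : HN L J m N) {a : F1 C} (ha : T11 J (L.add a).F) : ((L.add a).pow m).HasN J.J N := by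
  obtain ⟨a', ha', h'⟩ := h
  rw [D.hasN_iff ha] at *
  rw [D.hasN_iff ha'] at h'
  rwa [D.indep ha ha' m]

end MDict

theorem lb_eq_of {n : ℕ} {A : Atl n X} {L₁ L₂ : PL (ofAtl A)} (e : L₁ = L₂) (P₁ : Pot L₁)
    (P₂ : Pot L₂) (h : P₁.h = P₂.h) : P₁.lb = P₂.lb := by
  subst e
  cases P₁
  cases P₂
  simp only at h
  subst h
  rfl

namespace MDict

variable {L : PL C} {J : AJ C} {d : ℕ} (D : MDict L J d)

include D

/-- potentials of the powers, read in the holomorphic atlas -/
def potPow {M : PL C} (P : Pot (M.chg D.jc.cmp D.κ D.sub)) (k : ℕ) :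
    Pot ((M.pow k).chg D.jc.cmp D.κ D.sub) where
  h i z := (k : ℂ) * P.h i z
  sm i := (P.pow k).sm i
  eq i z hz v := by
    rw [PL.chg_pow]
    exact (P.pow k).eq i z hz v

theorem potPow_lb {M : PL C} (P : Pot (M.chg D.jc.cmp D.κ D.sub)) (k : ℕ) :
    (D.potPow P k).lb = P.lb ^ k := by
  rw [← Pot.lb_pow]
  exact lb_eq_of (PL.chg_pow _ _ _ _ _) _ _ rfl

/-- the sections in the holomorphic frames -/
theorem rk_of_rkR {M : PL C} (P : Pot (M.chg D.jc.cmp D.κ D.sub)) {n : ℕ}
    {u : Fin (n + 1) → Sec M} (hu : ∀ j, u j ∈ M.H0 J.J)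
    {i : C.ι} {z : V} (hz : z ∈ (C.e i).target) (hr : RkR n (fun j => (u j).u i) z) :
    ∃ b x, (∀ j, IsHS P.lb univ (P.sx (chF D.jc.cmp D.κ D.sub (u j)))) ∧
      Rk D.A (fun j => P.sx (chF D.jc.cmp D.κ D.sub (u j))) b x := by
  classical
  set x : X := (C.e i).symm z with hx
  have hxi : x ∈ (C.e i).source := (C.e i).map_target hz
  have hCx : C.e i x = z := (C.e i).right_inv hz
  obtain ⟨b, hb⟩ := D.A.cover x
  have hs : ∀ j, IsHS P.lb univ (P.sx (chF D.jc.cmp D.κ D.sub (u j))) := fun j =>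
    P.sx_hol ((D.jc.mem_H0 D.κ D.sub (u j)).2 (hu j))
  refine ⟨b, x, hs, ?_⟩
  set φ : V → Cn d := mt (ofAtl D.A) C b i with hφ
  have hmov : C.e i x ∈ mov (ofAtl D.A) C b i := by
    refine ⟨(C.e i).map_source hxi, ?_⟩
    rw [(C.e i).left_inv hxi]
    exact hb
  have hφx : φ (C.e i x) = D.A.e b x := by
    show D.A.e b ((C.e i).symm (C.e i x)) = D.A.e b x
    rw [(C.e i).left_inv hxi]
  have hφd : DifferentiableAt ℝ φ (C.e i x) := D.jc.cmp.symm.diff hmov
  have hκx : x ∈ (C.e (D.κ b)).source := D.sub b hb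
  have hov : C.e i x ∈ C.ov i (D.κ b) := ⟨(C.e i).map_source hxi, by
    rw [(C.e i).left_inv hxi]
    exact hκx⟩
  have hbt : D.A.e b x ∈ (D.A.e b).target := (D.A.e b).map_source hb
  have hsd : ∀ j, DifferentiableAt ℂ
      (fun y => P.sx (chF D.jc.cmp D.κ D.sub (u j)) b ((D.A.e b).symm y)) (D.A.e b x) := fun j =>
    (differentiableOn_rd (hs j) b).differentiableAt ((D.A.e b).open_target.mem_nhds hbt)
  set e : V → ℂ := fun y => M.g i (D.κ b) y * exp (-P.h b (φ y)) with he
  have hPd : DifferentiableAt ℝ (P.h b) (φ (C.e i x)) := by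
    rw [hφx]
    exact P.diffAt hbt
  have hed : DifferentiableAt ℝ e (C.e i x) :=
    (M.g_diff hov).mul ((hPd.comp (C.e i x) hφd).neg.cexp)
  have he0 : e (C.e i x) ≠ 0 := mul_ne_zero (M.g_ne hov) (exp_ne_zero _)
  have hus : ∀ j, ∀ᶠ y in 𝓝 x, (u j).u i (C.e i y) =
      e (C.e i y) * P.sx (chF D.jc.cmp D.κ D.sub (u j)) b y := by
    intro j
    filter_upwards [(C.e i).open_source.mem_nhds hxi, (D.A.e b).open_source.mem_nhds hb]
      with y hy hyb
    have h1 : C.e i y ∈ C.ov i (D.κ b) := ⟨(C.e i).map_source hy, by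
      rw [(C.e i).left_inv hy]
      exact D.sub b hyb⟩
    have h2 : D.A.e b y ∈ (D.A.e b).target := (D.A.e b).map_source hyb
    have h3 : (chF D.jc.cmp D.κ D.sub (u j)).u b (D.A.e b y) =
        (u j).u (D.κ b) (mt C (ofAtl D.A) (D.κ b) b (D.A.e b y)) :=
      chF_u D.jc.cmp D.κ D.sub (u j) h2
    have h4 : mt C (ofAtl D.A) (D.κ b) b (D.A.e b y) = C.e (D.κ b) y := by
      show C.e (D.κ b) ((D.A.e b).symm (D.A.e b y)) = C.e (D.κ b) y
      rw [(D.A.e b).left_inv hyb]
    have h5 : C.t i (D.κ b) (C.e i y) = C.e (D.κ b) y := by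
      show C.e (D.κ b) ((C.e i).symm (C.e i y)) = _
      rw [(C.e i).left_inv hy]
    have h6 : φ (C.e i y) = D.A.e b y := by
      show D.A.e b ((C.e i).symm (C.e i y)) = D.A.e b y
      rw [(C.e i).left_inv hy]
    rw [P.sx_of _ hyb, h3, h4, (u j).tr i (D.κ b) _ h1, h5, he]
    simp only [h6]
    have h7 : exp (-P.h b (D.A.e b y)) * exp (P.h b (D.A.e b y)) = 1 := by
      rw [← Complex.exp_add, neg_add_cancel, Complex.exp_zero]
    linear_combination (-(M.g i (D.κ b) (C.e i y) * (u j).u (D.κ b) (C.e (D.κ b) y))) * h7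
  have h8 := (rk_iff D.jc.cmp hb hxi hsd hed he0 hus).1 (by rw [hCx]; exact hr)
  exact h8

/-- **rank ⇒ growth at one complex structure** -/
theorem growth [CompactSpace X] [T2Space X] {k n : ℕ} (h : RN L J k n) (q : ℕ) :
    HN L J (k * q) ((q + n).choose n) := by
  obtain ⟨a, ha, u, hu, i, z, hz, hr⟩ := h
  obtain ⟨P⟩ := D.pot a ha
  obtain ⟨b, x, hs, hrk⟩ := D.rk_of_rkR (D.potPow P k) hu hz hr
  rw [D.potPow_lb P k] at hs
  refine ⟨a, ha, ?_⟩
  rw [D.hasN_iff ha, D.finrank_chg a P]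
  exact growth_of_rank hs hrk q

end MDict

end

end Crest.Agent.R281.Rkd_386
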