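import Crest.Agent.R281.Dsc1_340
import Crest.Agent.R281.Poi_234
import Crest.Agent.R281.NefO1_476

/-!
# R281 (S0424), RANK281, lower end (helper386), part 2: closed real 1-forms are exact

`closed_exact` : on a simply connected space with real charts every closed 1-form is `df` with a
smooth global function `f`.
-/

set_option autoImplicit false
set_option linter.unusedSectionVars false

open Set Filter Topology
open scoped ContDiff

namespace Crest.Agent.R281.Rkd_386

open Crest.Agent.R281.HkR_835 Crest.Agent.R281.Ti_846 Crest.Agent.R281.NefO_476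
open Crest.Agent.R281.Poi_234

noncomputable section

variable {V X : Type} [NormedAddCommGroup V] [NormedSpace ℝ V] [FiniteDimensional ℝ V]
  [MeasurableSpace V] [BorelSpace V] [TopologicalSpace X] {C : RCh V X}

/-- closed 1-forms -/
def Clo (η : F1 C) : Prop := ∀ i, ∀ z ∈ (C.e i).target, ∀ u v,
  fderiv ℝ (η.η i) z u v = fderiv ℝ (η.η i) z v u

/-- `f` is a primitive of `η` -/
def IsPr (η : F1 C) (f : X → ℝ) : Prop :=
  Sm C f ∧ ∀ i, ∀ z ∈ (C.e i).target, ∀ v, fderiv ℝ (uc C f i) z v = η.η i z v

/-- a space with real charts is locally path connected -/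
theorem lpcR (C : RCh V X) : LocallyPathConnectedSpace X := by
  let _ : ChartedSpace V X :=
    { atlas := range C.e
      chartAt := fun x => C.e (C.cover x).choose
      mem_chart_source := fun x => (C.cover x).choose_spec
      chart_mem_atlas := fun x => ⟨_, rfl⟩ }
  exact ChartedSpace.locallyPathConnectedSpace V X

/-- **closed 1-forms are exact** on a simply connected space -/
theorem closed_exact [SimplyConnectedSpace X] (η : F1 C) (h : Clo η) :
    ∃ f : X → ℝ, IsPr η f := by
  classical
  have := lpcR C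
  choose idx hidx using C.cover
  -- balls in the charts
  have h1 : ∀ x : X, ∃ r : ℝ, 0 < r ∧ Metric.ball (C.e (idx x) x) r ⊆ (C.e (idx x)).target := by
    intro x
    exact Metric.isOpen_iff.1 (C.e (idx x)).open_target _ ((C.e (idx x)).map_source (hidx x))
  choose r hr hball using h1
  -- primitives on the balls
  have h2 : ∀ x : X, ∃ f : V → ℝ, ContDiffOn ℝ ∞ f (Metric.ball (C.e (idx x) x) (r x)) ∧
      ∀ z ∈ Metric.ball (C.e (idx x) x) (r x), HasFDerivAt f (η.η (idx x) z) z := by
    intro x
    have hs : ContDiffOn ℝ ∞ (η.η (idx x)) (Metric.ball (C.e (idx x) x) (r x)) :=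
      (η.sm (idx x)).mono (hball x)
    obtain ⟨f, hf⟩ := poincare1 Metric.isOpen_ball (convex_ball _ _) hs
      fun z hz v w => h (idx x) z (hball x hz) v w
    exact ⟨f, contDiffOn_of_hasFDerivAt Metric.isOpen_ball hs hf, hf⟩
  choose g hgs hg using h2
  set U : X → Set X := fun x => (C.e (idx x)).source ∩
    (C.e (idx x)) ⁻¹' Metric.ball (C.e (idx x) x) (r x) with hU
  have hUo : ∀ x, IsOpen (U x) := fun x =>
    (C.e (idx x)).isOpen_inter_preimage Metric.isOpen_ball
  have hUx : ∀ x, x ∈ U x := fun x => ⟨hidx x, Metric.mem_ball_self (hr x)⟩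
  set F : X → X → ℝ := fun x y => g x (C.e (idx x) y) with hF
  -- derivative in any chart
  have hder : ∀ (x : X) (i : C.ι) (z : V), z ∈ (C.e i).target → (C.e i).symm z ∈ U x →
      ContDiffAt ℝ ∞ (uc C (F x) i) z ∧ HasFDerivAt (uc C (F x) i) (η.η i z) z := by
    intro x i z hz hzU
    have hov : z ∈ C.ov i (idx x) := ⟨hz, hzU.1⟩
    have h3 : uc C (F x) i = fun y => g x (C.t i (idx x) y) := rfl
    have h4 : HasFDerivAt (fun y => g x (C.t i (idx x) y))
        ((η.η (idx x) (C.t i (idx x) z)).comp (fderiv ℝ (C.t i (idx x)) z)) z :=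
      HasFDerivAt.comp (g := g x) (f := C.t i (idx x)) z (hg x _ hzU.2)
        (RCh.t_diff hov).hasFDerivAt
    have h5 : (η.η (idx x) (C.t i (idx x) z)).comp (fderiv ℝ (C.t i (idx x)) z) = η.η i z := by
      ext v
      exact (η.tr i (idx x) z hov v).symm
    refine ⟨?_, ?_⟩
    · have h6 : ContDiffAt ℝ ∞ (g x) (C.t i (idx x) z) :=
        (hgs x).contDiffAt (Metric.isOpen_ball.mem_nhds hzU.2)
      have h7 : ContDiffAt ℝ ∞ (C.t i (idx x)) z :=
        (RCh.t_smooth i (idx x)).contDiffAt ((RCh.isOpen_ov i (idx x)).mem_nhds hov)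
      exact h6.comp z h7
    · rw [h3, ← h5]
      exact h4
  -- the differences are locally constant
  have hloc : ∀ x x', ∀ y ∈ U x ∩ U x', ∀ᶠ w in 𝓝 y, F x' w - F x w = F x' y - F x y := by
    intro x x' y hy
    set i := idx x with hi
    set z := C.e i y with hz
    have hyi : y ∈ (C.e i).source := hy.1.1
    have hO : IsOpen ((C.e i).target ∩ (C.e i).symm ⁻¹' (U x ∩ U x')) :=
      (C.e i).isOpen_inter_preimage_symm ((hUo x).inter (hUo x'))
    have hzO : z ∈ (C.e i).target ∩ (C.e i).symm ⁻¹' (U x ∩ U x') :=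
      ⟨(C.e i).map_source hyi, by
        show (C.e i).symm (C.e i y) ∈ U x ∩ U x'
        rw [(C.e i).left_inv hyi]
        exact hy⟩
    obtain ⟨ρ, hρ, hρO⟩ := Metric.isOpen_iff.1 hO z hzO
    have h3 : ∀ w ∈ Metric.ball z ρ, uc C (F x') i w - uc C (F x) i w =
        uc C (F x') i z - uc C (F x) i z := by
      intro w hw
      have hd : ∀ p ∈ Metric.ball z ρ, HasFDerivWithinAt
          (fun q => uc C (F x') i q - uc C (F x) i q) (0 : V →L[ℝ] ℝ) (Metric.ball z ρ) p := by
        intro p hp
        have hp' := hρO hp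
        have h4 := ((hder x' i p hp'.1 hp'.2.2).2.sub (hder x i p hp'.1 hp'.2.1).2)
        rw [sub_self] at h4
        exact h4.hasFDerivWithinAt
      have h5 := (convex_ball z ρ).norm_image_sub_le_of_norm_hasFDerivWithin_le (C := 0) hd
        (fun p _ => by simp) (Metric.mem_ball_self hρ) hw
      rw [zero_mul, norm_le_zero_iff, sub_eq_zero] at h5
      exact h5
    have h6 : ∀ᶠ w in 𝓝 y, w ∈ (C.e i).source := (C.e i).open_source.mem_nhds hyi
    have h61 : ∀ᶠ w in 𝓝 y, C.e i w ∈ Metric.ball z ρ :=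
      ((C.e i).continuousAt hyi).preimage_mem_nhds (Metric.ball_mem_nhds _ hρ)
    filter_upwards [h6.and h61] with w hw
    have h7 := h3 _ hw.2
    have e1 : ∀ q, uc C (F q) i (C.e i w) = F q w := fun q => by
      show F q ((C.e i).symm (C.e i w)) = F q w
      rw [(C.e i).left_inv hw.1]
    have e2 : ∀ q, uc C (F q) i z = F q y := fun q => by
      show F q ((C.e i).symm (C.e i y)) = F q y
      rw [(C.e i).left_inv hyi]
    rw [e1, e1, e2, e2] at h7
    exact h7
  obtain ⟨a, ha, hac⟩ := Crest.Agent.R281.Dsc_340.coboundary U hUo (fun x => ⟨x, hUx x⟩)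
    (fun x x' y => F x' y - F x y) (fun x x' y hy => hloc x x' y hy)
    (fun x x' x'' y _ => by ring)
  set f : X → ℝ := fun y => F y y - a y y with hf
  have hfx : ∀ x, ∀ y ∈ U x, f y = F x y - a x y := by
    intro x y hy
    have h3 := hac x y y ⟨hy, hUx y⟩
    show F y y - a y y = F x y - a x y
    linarith
  have hfi : ∀ i, ∀ z ∈ (C.e i).target,
      ContDiffAt ℝ ∞ (uc C f i) z ∧ HasFDerivAt (uc C f i) (η.η i z) z := by
    intro i z hz
    set x := (C.e i).symm z with hx
    have hxi : x ∈ (C.e i).source := (C.e i).map_target hz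
    obtain ⟨h3, h4⟩ := hder x i z hz (hUx x)
    have h5 : ∀ᶠ y in 𝓝 x, f y = F x y - a x x := by
      filter_upwards [(hUo x).mem_nhds (hUx x), ha x x (hUx x)] with y hy hy'
      rw [hfx x y hy, hy']
    have h6 : uc C f i =ᶠ[𝓝 z] fun w => uc C (F x) i w - a x x := by
      have h7 : Tendsto (C.e i).symm (𝓝 z) (𝓝 x) := (C.e i).continuousAt_symm hz
      exact h7.eventually h5
    exact ⟨(h3.sub contDiffAt_const).congr_of_eventuallyEq h6,
      ((h4.sub_const (a x x)).congr_of_eventuallyEq h6)⟩
  exact ⟨f, fun i z hz => (hfi i z hz).1.contDiffWithinAt,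
    fun i z hz v => by rw [(hfi i z hz).2.fderiv]⟩

end

end Crest.Agent.R281.Rkd_386
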