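import Crest.Agent.R281.Rkd5_386
import Crest.Agent.R281.Rko2_396

/-!
# R281 (S0424), RANK281, lower end (helper386), part 6: transfer of sections with a common factor

* `fac_of_coh`  : line bundles `L`, `L'` on two holomorphic atlases of the same member with
                  cohomologous curvatures: a map `Φ` of sections with a common holomorphic factor
* `exists_fac`  : `p : Pres n H L0` ==> `Φ` from the sections of `p.L ^ m` to
                  `((L0.pow m).add a).H0 J`, `(Φ s).u i (C.e i y) = e (C.e i y) * s b y` near `x`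
                  (all charts `i`, `b` at `x`; `e ≠ 0` differentiable, the same for all `s`)
* `rk_transfer` : the rank hypothesis of `OpenP` in the form `RkR`
-/

set_option autoImplicit false
set_option linter.unusedSectionVars false
set_option maxSynthPendingDepth 3

open Set Filter Topology Complex
open scoped ContDiff Matrix

namespace Crest.Agent.R281.Rkd_386

open Crest.Agent.R275.Geo Crest.Agent.R275.Core144 Crest.Agent.R275.GC293
open Crest.Agent.R275.EDR890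
open Crest.Agent.R273
open Crest.Agent.R273.Defs_333 Crest.Agent.R273.Kah_333
open Crest.Agent.R273.Map_835 (HolMap dm Jp mem_dm holMap_id Jp_comp)
open Crest.Agent.R273.PB_835
open Crest.Agent.R260.ACM_580 Crest.Agent.R260.NNB_580
open Crest.Agent.R281.HkR_835 Crest.Agent.R281.Ti_846 Crest.Agent.R281.NefO_476
open Crest.Agent.R281.Nef_252 Crest.Agent.R281.PL_713 Crest.Agent.R281.Dif_268
open Crest.Agent.R281.Alg_998 Crest.Agent.R281.RkD_902
open Crest.Agent.R281.Pjx_648 Crest.Agent.R281.Kd_22 Crest.Agent.R281.Rk_599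
open Crest.Agent.R281.Rko_396

noncomputable section

variable {X V : Type} [TopologicalSpace X] [NormedAddCommGroup V] [NormedSpace ℝ V]
  {C : RCh V X} {d : ℕ} {A A' : Atl d X}

/-- **line bundles on two atlases with cohomologous curvature**: sections, common factor -/
theorem fac_of_coh [CompactSpace X] [T2Space X] [SimplyConnectedSpace X] {H : HkT C}
    (hA : Cp (H.acm 0) A) (hA' : Cp (H.acm 0) A') {w w' : F2 C} {L : LB A} {h : HM L}
    {L' : LB A'} {h' : HM L'} (hw : Eqv ((cmp_of_cp hA).F w) ((-2 : ℝ) • (curK h).f2))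
    (hw' : Eqv ((cmp_of_cp hA').F w') ((-2 : ℝ) • (curK h').f2)) (he : Ex (w - w')) :
    ∃ Φ : (A.ι → X → ℂ) → (A'.ι → X → ℂ), (∀ s, IsHS L univ s → IsHS L' univ (Φ s)) ∧
      ∀ (a : A.ι) (k : A'.ι) (x : X), x ∈ (A.e a).source → x ∈ (A'.e k).source →
        ∃ c : X → ℂ, Hm A' c x ∧ c x ≠ 0 ∧ ∀ s, IsHS L univ s →
          ∀ᶠ y in 𝓝 x, Φ s k y = c y * s a y := by
  obtain ⟨A₁, hfin, hgood, ⟨P⟩, hsub, ⟨R'⟩, h1, h2⟩ := Fam_835.exists_refine A'
    (fun i => (A.e i).source) (fun i => (A.e i).open_source) A.cover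
  choose r hr using hsub
  have R : Ref A₁ A id := ⟨r, hr⟩
  have hA₁ : Cp (H.acm 0) A₁ := cp_of_hol hA' h1.toHolMap h2.toHolMap
  have hid : HolMap A₁ A id := hol_of_cp hA hA₁
  have c1 := cur_tr_F hA hA₁ (PB.ref hid R L) hid hw
  have c2 := cur_tr_F hA' hA₁ (PB.ref h1.toHolMap R' L') h1.toHolMap hw'
  have hex := ex_cur hA₁ c1 c2 he
  obtain ⟨u, h0, hu, -, h3⟩ := Sc_413.Triv.iso
    (Sc_413.triv_of_coh hgood P (met H hA₁) _ _ hex)
  set T := PB.ref hid R L with hT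
  have hΦ : ∀ s, IsHS L univ s → IsHS (pullLB h1.toHolMap R' L') univ (u⁻¹ * T.pull s) :=
    fun s hs => h3 _ _ (T.pull_isHS hid isOpen_univ hs)
  refine ⟨fun s => unS R' L' (u⁻¹ * T.pull s), fun s hs => isHS_unS h2.toHolMap (hΦ s hs),
    fun a k x ha hk => ?_⟩
  obtain ⟨q, hq⟩ := A₁.cover x
  have g1 : Hm A' (L'.g k (R'.r q)) x :=
    hm_of_holAt (L'.hol k _) (A'.e _).open_source hk (R'.sub q x hq)
  have g2 : Hm A' (fun y => (u q y)⁻¹) x := by
    have : Hm A₁ (u q) x := hm_of_holAt (hu q) isOpen_univ hq (mem_univ x)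
    exact (hm_change h2.toHolMap this).inv (h0 q x hq)
  have g3 : Hm A' (T.c q a) x := by
    have : Hm A₁ (T.c q a) x := hm_of_holAt (U := id ⁻¹' (A.e a).source) (T.hol q a)
      ((A.e a).open_source.preimage continuous_id) hq ha
    exact hm_change h2.toHolMap this
  refine ⟨fun y => L'.g k (R'.r q) y * ((u q y)⁻¹ * T.c q a y), g1.mul (g2.mul g3),
    mul_ne_zero (L'.ne_zero _ _ _) (mul_ne_zero (inv_ne_zero (h0 q x hq)) (T.ne q a x hq ha)),
    fun s hs => ?_⟩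
  filter_upwards [(A.e a).open_source.mem_nhds ha, (A'.e k).open_source.mem_nhds hk,
    (A₁.e q).open_source.mem_nhds hq] with y hya hyk hyq
  rw [unS_eq (hΦ s hs) hyk hyq]
  show L'.g k (R'.r q) y * ((u q y)⁻¹ * T.pull s q y) = _
  rw [T.pull_eq hyq (j := a) hya hs (mem_univ _)]
  simp only [id]
  ring

/-- **the sections of a presentation on the real atlas**, common factor -/
theorem exists_fac [FiniteDimensional ℝ V] [CompactSpace X] [T2Space X] [SimplyConnectedSpace X]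
    {n : ℕ} {H : HkT C} {L0 : PL C} (p : Pres n H L0) (m : ℕ) {a : F1 C}
    (ha : T11 (ofHk H 0) ((L0.pow m).add a).F) :
    ∃ Φ : (p.A.ι → X → ℂ) → PL_713.Sec ((L0.pow m).add a),
      (∀ s, IsHS (p.L ^ m) univ s → Φ s ∈ ((L0.pow m).add a).H0 (ofHk H 0).J) ∧
      ∀ (x : X) (b : p.A.ι) (i : C.ι), x ∈ (p.A.e b).source → x ∈ (C.e i).source →
        ∃ e : V → ℂ, DifferentiableAt ℝ e (C.e i x) ∧ e (C.e i x) ≠ 0 ∧
          ∀ s, IsHS (p.L ^ m) univ s →
            ∀ᶠ y in 𝓝 x, (Φ s).u i (C.e i y) = e (C.e i y) * s b y := by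
  obtain ⟨A', -, -, -, -, -, ⟨D⟩⟩ := exists_dic (JC.of_cp p.cp) (L := (L0.pow m).add a) ha
  have hcp : Cp (H.acm 0) A' := cp_of_jc D.jc
  obtain ⟨Φ₀, hΦ, hc⟩ := fac_of_coh p.cp hcp (cur_pow_F p.cp p.cur m) (dic_cur hcp D)
    (pres_ex p m a)
  classical
  refine ⟨fun s => if hs : IsHS D.lb univ (Φ₀ s) then (D.iso.symm ⟨Φ₀ s, hs⟩).1 else 0,
    fun s hs => ?_, fun x b i hb hi => ?_⟩
  · simp only [dif_pos (hΦ s hs)]
    exact (D.iso.symm ⟨Φ₀ s, hΦ s hs⟩).2
  obtain ⟨k, hk⟩ := A'.cover x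
  obtain ⟨c, c1, c2, c3⟩ := hc b k x hb hk
  have hκ : x ∈ (C.e (D.κ k)).source := D.hκ k hk
  have hmov : C.e i x ∈ mov (ofAtl A') C k i := by
    refine ⟨(C.e i).map_source hi, ?_⟩
    rw [(C.e i).left_inv hi]
    exact hk
  have hmt : ∀ y ∈ (C.e i).source, mt (ofAtl A') C k i (C.e i y) = A'.e k y := by
    intro y hy
    show A'.e k ((C.e i).symm (C.e i y)) = A'.e k y
    rw [(C.e i).left_inv hy]
  have hov : ∀ y, y ∈ (C.e i).source → y ∈ (C.e (D.κ k)).source → C.e i y ∈ C.ov i (D.κ k) := by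
    intro y hy hy'
    refine ⟨(C.e i).map_source hy, ?_⟩
    show (C.e i).symm (C.e i y) ∈ _
    rw [(C.e i).left_inv hy]
    exact hy'
  have hcomp : Cmp C (ofAtl A') := cmp_of_cp hcp
  have d1 : DifferentiableAt ℝ (mt (ofAtl A') C k i) (C.e i x) := hcomp.symm.diff hmov
  have d2 : DifferentiableAt ℝ (fun w => exp (-(D.P.h k w)) * c ((A'.e k).symm w))
      (mt (ofAtl A') C k i (C.e i x)) := by
    rw [hmt x hi]
    have e1 : DifferentiableAt ℝ (D.P.h k) (A'.e k x) := D.P.diffAt ((A'.e k).map_source hk)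
    have e2 : DifferentiableAt ℝ (fun w => c ((A'.e k).symm w)) (A'.e k x) :=
      (c1 k hk).differentiableAt.restrictScalars ℝ
    exact (e1.neg.cexp).mul e2
  have d3 : DifferentiableAt ℝ (((L0.pow m).add a).g i (D.κ k)) (C.e i x) :=
    PL.g_diff _ (hov x hi hκ)
  refine ⟨fun z => ((L0.pow m).add a).g i (D.κ k) z *
    (fun w => exp (-(D.P.h k w)) * c ((A'.e k).symm w)) (mt (ofAtl A') C k i z),
    d3.mul (d2.comp _ d1), ?_, fun s hs => ?_⟩
  · simp only [hmt x hi, (A'.e k).left_inv hk]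
    exact mul_ne_zero (PL.g_ne _ (hov x hi hκ)) (mul_ne_zero (exp_ne_zero _) c2)
  filter_upwards [c3 s hs, (A'.e k).open_source.mem_nhds hk, (C.e i).open_source.mem_nhds hi]
    with y hy hyk hyi
  have hyκ : y ∈ (C.e (D.κ k)).source := D.hκ k hyk
  simp only [dif_pos (hΦ s hs)]
  have h1 := D.iso_apply (D.iso.symm ⟨Φ₀ s, hΦ s hs⟩) hyk
  rw [LinearEquiv.apply_symm_apply] at h1
  have h2 : Φ₀ s k y = (D.iso.symm ⟨Φ₀ s, hΦ s hs⟩).1.u (D.κ k) (C.e (D.κ k) y) *
    exp (D.P.h k (A'.e k y)) := h1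
  have h3 := (D.iso.symm ⟨Φ₀ s, hΦ s hs⟩).1.tr i (D.κ k) _ (hov y hyi hyκ)
  have h4 : C.t i (D.κ k) (C.e i y) = C.e (D.κ k) y := by
    show C.e (D.κ k) ((C.e i).symm (C.e i y)) = _
    rw [(C.e i).left_inv hyi]
  rw [h3, h4, hmt y hyi, (A'.e k).left_inv hyk]
  rw [hy] at h2
  have h5 : (D.iso.symm ⟨Φ₀ s, hΦ s hs⟩).1.u (D.κ k) (C.e (D.κ k) y) =
      exp (-(D.P.h k (A'.e k y))) * (c y * s b y) := by
    rw [h2, mul_comm _ (exp (D.P.h k (A'.e k y))), ← mul_assoc, ← exp_add, neg_add_cancel,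
      exp_zero, one_mul]
  rw [h5]
  ring

/-- **the rank is transferred** -/
theorem rk_transfer [FiniteDimensional ℝ V] [CompactSpace X] [T2Space X] [SimplyConnectedSpace X]
    {n : ℕ} {H : HkT C} {L0 : PL C} (p : Pres n H L0) {m r : ℕ}
    (hR : ∃ t : Fin (r + 1) → p.A.ι → X → ℂ, (∀ b, IsHS (p.L ^ m) univ (t b)) ∧
      ∃ i x, Rk p.A t i x) {a : F1 C} (ha : T11 (ofHk H 0) ((L0.pow m).add a).F) :
    ∃ u : Fin (r + 1) → PL_713.Sec ((L0.pow m).add a),
      (∀ j, u j ∈ ((L0.pow m).add a).H0 (ofHk H 0).J) ∧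
      ∃ i, ∃ z ∈ (C.e i).target, RkR r (fun j => (u j).u i) z := by
  obtain ⟨t, ht, b, x, hb, h0, hl⟩ := hR
  obtain ⟨Φ, h1, h2⟩ := exists_fac p m ha
  obtain ⟨i, hi⟩ := C.cover x
  obtain ⟨e, e1, e2, e3⟩ := h2 x b i hb hi
  refine ⟨fun j => Φ (t j), fun j => h1 _ (ht j), i, C.e i x, (C.e i).map_source hi, ?_⟩
  refine (Rko_396.rk_iff (cmp_of_cp p.cp) (s := t) (e := e) hb hi (fun j => ?_) e1 e2
    fun j => e3 _ (ht j)).2 ⟨hb, h0, hl⟩
  exact (analyticOnNhd_rd (ht j) b _ ((p.A.e b).map_source hb)).differentiableAt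

end

end Crest.Agent.R281.Rkd_386
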