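import Mathlib

/-!
# Row 281, RK-OPEN (helper396), part 1: the rank condition in real form, and its openness

`jetR u z = (u_j z, D u_j z)_j`, `G r` the set of 1-jets `(a, T)` with `a 0 ≠ 0` and
`v ↦ (a 0 * T (j+1) v - a (j+1) * T 0 v)_j` onto `ℂ^r` (real linear).

* `isOpen_G`      : `G r` is open
* `RkR r u z`     : `jetR u z ∈ G r`
* `RkR.ev`        : `C¹` convergence at the point `z` keeps `RkR` eventually
* `RkR.ev_meas`   : **`H¹` (L² of values and first derivatives) convergence on a compact set of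
                    positive measure** gives eventually a point with `RkR`
* `RkR.smul`      : invariance under multiplication of all sections by one function `e ≠ 0`
* `RkR.comp`      : invariance under local diffeomorphisms
-/

set_option autoImplicit false
set_option linter.unusedSectionVars false

open Set Filter Topology MeasureTheory Complex
open scoped ContDiff

namespace Crest.Agent.R281.Rko_396

noncomputable section

section lin

variable {V : Type*} [NormedAddCommGroup V] [NormedSpace ℝ V]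
  {W : Type*} [NormedAddCommGroup W] [NormedSpace ℝ W] [FiniteDimensional ℝ W]

/-- surjective continuous linear maps onto a finite dimensional space form an open set -/
theorem isOpen_surj : IsOpen {T : V →L[ℝ] W | Function.Surjective T} := by
  rw [isOpen_iff_mem_nhds]
  intro T hT
  obtain ⟨R, hR⟩ : ∃ R : W →ₗ[ℝ] V, (T : V →ₗ[ℝ] W).comp R = LinearMap.id :=
    LinearMap.exists_rightInverse_of_surjective _ (LinearMap.range_eq_top.2 hT)
  let R' : W →L[ℝ] V := R.toContinuousLinearMap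
  have hR' : T.comp R' = ContinuousLinearMap.id ℝ W := by
    ext w
    exact congrArg (fun f : W →ₗ[ℝ] W => f w) hR
  have hc : Continuous fun S : V →L[ℝ] W => S.comp R' :=
    (ContinuousLinearMap.compL ℝ W V W).flip R' |>.continuous
  have ho : IsOpen {S : V →L[ℝ] W | IsUnit (S.comp R' : W →L[ℝ] W)} :=
    (Units.isOpen (R := W →L[ℝ] W)).preimage hc
  have hmem : T ∈ {S : V →L[ℝ] W | IsUnit (S.comp R' : W →L[ℝ] W)} := by
    show IsUnit (T.comp R' : W →L[ℝ] W)
    rw [hR']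
    exact isUnit_one
  filter_upwards [ho.mem_nhds hmem] with S hS
  obtain ⟨U, hU⟩ := hS
  intro w
  refine ⟨R' ((U⁻¹ : (W →L[ℝ] W)ˣ).1 w), ?_⟩
  have h1 : (U.1 * U⁻¹.1 : W →L[ℝ] W) = 1 := by simp
  have h2 := congrArg (fun f : W →L[ℝ] W => f w) h1
  have h3 : U.1 (U⁻¹.1 w) = w := h2
  rw [hU] at h3
  exact h3

end lin

section jets

variable {V : Type*} [NormedAddCommGroup V] [NormedSpace ℝ V]

/-- 1-jets of `r+1` complex functions -/
abbrev Jet (r : ℕ) (V : Type*) [NormedAddCommGroup V] [NormedSpace ℝ V] : Type _ :=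
  (Fin (r + 1) → ℂ) × (Fin (r + 1) → (V →L[ℝ] ℂ))

/-- numerators of the differentials of the quotients -/
def wrv (r : ℕ) (q : Jet r V) : V →L[ℝ] (Fin r → ℂ) :=
  ContinuousLinearMap.pi fun j => q.1 0 • q.2 j.succ - q.1 j.succ • q.2 0

@[simp] theorem wrv_apply (r : ℕ) (q : Jet r V) (v : V) (j : Fin r) :
    wrv r q v j = q.1 0 * q.2 j.succ v - q.1 j.succ * q.2 0 v := by
  simp [wrv]

theorem continuous_wrv (r : ℕ) : Continuous (wrv r : Jet r V → (V →L[ℝ] (Fin r → ℂ))) := by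
  have : (wrv r : Jet r V → (V →L[ℝ] (Fin r → ℂ))) = fun q =>
      ∑ j : Fin r, (ContinuousLinearMap.single ℝ (fun _ : Fin r => ℂ) j).comp
        (q.1 0 • q.2 j.succ - q.1 j.succ • q.2 0) := by
    funext q
    ext v j
    simp only [wrv_apply, sum_apply, ContinuousLinearMap.comp_apply, Finset.sum_apply,
      ContinuousLinearMap.single_apply, Pi.single_apply]
    simp
  rw [this]
  refine continuous_finsetSum _ fun j _ => ?_
  have h1 : Continuous fun T : V →L[ℝ] ℂ =>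
      (ContinuousLinearMap.single ℝ (fun _ : Fin r => ℂ) j).comp T :=
    ((ContinuousLinearMap.compL ℝ V ℂ (Fin r → ℂ))
      (ContinuousLinearMap.single ℝ (fun _ : Fin r => ℂ) j)).continuous
  exact h1.comp (by fun_prop)

/-- the good jets -/
def G (r : ℕ) (V : Type*) [NormedAddCommGroup V] [NormedSpace ℝ V] : Set (Jet r V) :=
  {q | q.1 0 ≠ 0 ∧ Function.Surjective (wrv r q)}

theorem isOpen_G (r : ℕ) : IsOpen (G r V) := by
  refine IsOpen.inter ?_ ((isOpen_surj (V := V) (W := Fin r → ℂ)).preimage (continuous_wrv r))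
  exact isOpen_ne.preimage (by fun_prop : Continuous fun q : Jet r V => q.1 0)

/-- the 1-jet of a tuple -/
def jetR (r : ℕ) (u : Fin (r + 1) → V → ℂ) (z : V) : Jet r V :=
  (fun j => u j z, fun j => fderiv ℝ (u j) z)

/-- rank `r` of the quotients `u_j / u_0` at `z` -/
def RkR (r : ℕ) (u : Fin (r + 1) → V → ℂ) (z : V) : Prop := jetR r u z ∈ G r V

theorem rkR_iff {r : ℕ} {u : Fin (r + 1) → V → ℂ} {z : V} :
    RkR r u z ↔ u 0 z ≠ 0 ∧ Function.Surjective (wrv r (jetR r u z)) := Iff.rfl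

/-- **openness**, `C¹` convergence at one point -/
theorem RkR.ev {P : Type*} {l : Filter P} {r : ℕ} {u : Fin (r + 1) → V → ℂ}
    {up : P → Fin (r + 1) → V → ℂ} {z : V} (h : RkR r u z)
    (h0 : ∀ j, Tendsto (fun p => up p j z) l (𝓝 (u j z)))
    (h1 : ∀ j, Tendsto (fun p => fderiv ℝ (up p j) z) l (𝓝 (fderiv ℝ (u j) z))) :
    ∀ᶠ p in l, RkR r (up p) z := by
  have ht : Tendsto (fun p => jetR r (up p) z) l (𝓝 (jetR r u z)) :=
    (tendsto_pi_nhds.2 h0).prodMk_nhds (tendsto_pi_nhds.2 h1)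
  exact ht.eventually ((isOpen_G r).mem_nhds h)

/-- uniform openness on compact sets -/
theorem exists_delta {r : ℕ} {u : Fin (r + 1) → V → ℂ} {K : Set V} (hK : IsCompact K)
    (hc : ∀ j, ContinuousOn (u j) K) (hd : ∀ j, ContinuousOn (fderiv ℝ (u j)) K)
    (h : ∀ z ∈ K, RkR r u z) :
    ∃ δ > 0, ∀ z ∈ K, ∀ v : Fin (r + 1) → V → ℂ, (∀ j, ‖v j z - u j z‖ < δ) →
      (∀ j, ‖fderiv ℝ (v j) z - fderiv ℝ (u j) z‖ < δ) → RkR r v z := by
  have hcont : ContinuousOn (jetR r u) K :=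
    (continuousOn_pi.2 hc).prodMk (continuousOn_pi.2 hd)
  have himg : IsCompact (jetR r u '' K) := hK.image_of_continuousOn hcont
  have hsub : jetR r u '' K ⊆ G r V := by
    rintro _ ⟨z, hz, rfl⟩
    exact h z hz
  obtain ⟨δ, hδ, ht⟩ := himg.exists_thickening_subset_open (isOpen_G r) hsub
  refine ⟨δ, hδ, fun z hz v h0 h1 => ht ?_⟩
  rw [Metric.mem_thickening_iff]
  refine ⟨jetR r u z, mem_image_of_mem _ hz, ?_⟩
  rw [Prod.dist_eq, max_lt_iff]
  constructor
  · rw [dist_pi_lt_iff hδ]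
    intro j
    rw [dist_eq_norm]
    exact h0 j
  · rw [dist_pi_lt_iff hδ]
    intro j
    rw [dist_eq_norm]
    exact h1 j

/-- **openness, `H¹` version**: convergence in `L²(K)` of the values and of the first
derivatives, `K` compact of positive measure: eventually there is a point of `K` with rank `r` -/
theorem RkR.ev_meas [MeasurableSpace V] [BorelSpace V] [SecondCountableTopology V]
    {μ : Measure V} {P : Type*} {l : Filter P} {r : ℕ}
    {u : Fin (r + 1) → V → ℂ} {up : P → Fin (r + 1) → V → ℂ} {K : Set V} (hK : IsCompact K)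
    (hμ : μ K ≠ 0) (hc : ∀ j, ContinuousOn (u j) K) (hd : ∀ j, ContinuousOn (fderiv ℝ (u j)) K)
    (hcp : ∀ p j, ContinuousOn (up p j) K) (hdp : ∀ p j, ContinuousOn (fderiv ℝ (up p j)) K)
    (h : ∀ z ∈ K, RkR r u z)
    (h0 : ∀ j, Tendsto (fun p => ∫⁻ z in K, ‖up p j z - u j z‖ₑ ^ 2 ∂μ) l (𝓝 0))
    (h1 : ∀ j, Tendsto (fun p => ∫⁻ z in K, ‖fderiv ℝ (up p j) z - fderiv ℝ (u j) z‖ₑ ^ 2 ∂μ) l
      (𝓝 0)) :
    ∀ᶠ p in l, ∃ z ∈ K, RkR r (up p) z := by
  obtain ⟨δ, hδ, hgood⟩ := exists_delta hK hc hd h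
  have hKm : MeasurableSet K := hK.isClosed.measurableSet
  set δ' : ENNReal := ENNReal.ofReal δ with hδ'
  have hδ'0 : δ' ≠ 0 := by simpa [hδ'] using hδ
  have hpos : 0 < δ' ^ 2 * μ K :=
    pos_iff_ne_zero.2 (mul_ne_zero (pow_ne_zero 2 hδ'0) hμ)
  have hT : Tendsto (fun p => ∑ j, ((∫⁻ z in K, ‖up p j z - u j z‖ₑ ^ 2 ∂μ) +
      ∫⁻ z in K, ‖fderiv ℝ (up p j) z - fderiv ℝ (u j) z‖ₑ ^ 2 ∂μ)) l (𝓝 0) := by
    have := tendsto_finsetSum (Finset.univ : Finset (Fin (r + 1)))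
      fun j _ => (h0 j).add (h1 j)
    simpa using this
  filter_upwards [hT.eventually_lt_const hpos] with p hp
  by_contra hno
  push Not at hno
  have hb : ∀ z ∈ K, δ' ^ 2 ≤ ∑ j, (‖up p j z - u j z‖ₑ ^ 2 +
      ‖fderiv ℝ (up p j) z - fderiv ℝ (u j) z‖ₑ ^ 2) := by
    intro z hz
    by_contra hlt
    push Not at hlt
    refine hno z hz (hgood z hz (up p) (fun j => ?_) fun j => ?_)
    · have h2 : ‖up p j z - u j z‖ₑ ^ 2 < δ' ^ 2 :=
        lt_of_le_of_lt (le_trans le_self_add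
          (Finset.single_le_sum (f := fun j => ‖up p j z - u j z‖ₑ ^ 2 +
            ‖fderiv ℝ (up p j) z - fderiv ℝ (u j) z‖ₑ ^ 2) (fun _ _ => zero_le)
            (Finset.mem_univ j))) hlt
      have h3 : ‖up p j z - u j z‖ₑ < δ' :=
        lt_of_not_ge fun hge => absurd (pow_le_pow_left' hge 2) (not_le.2 h2)
      rw [← ofReal_norm, hδ', ENNReal.ofReal_lt_ofReal_iff hδ] at h3
      exact h3
    · have h2 : ‖fderiv ℝ (up p j) z - fderiv ℝ (u j) z‖ₑ ^ 2 < δ' ^ 2 :=
        lt_of_le_of_lt (le_trans le_add_self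
          (Finset.single_le_sum (f := fun j => ‖up p j z - u j z‖ₑ ^ 2 +
            ‖fderiv ℝ (up p j) z - fderiv ℝ (u j) z‖ₑ ^ 2) (fun _ _ => zero_le)
            (Finset.mem_univ j))) hlt
      have h3 : ‖fderiv ℝ (up p j) z - fderiv ℝ (u j) z‖ₑ < δ' :=
        lt_of_not_ge fun hge => absurd (pow_le_pow_left' hge 2) (not_le.2 h2)
      rw [← ofReal_norm, hδ', ENNReal.ofReal_lt_ofReal_iff hδ] at h3
      exact h3
  have hm0 : ∀ j, AEMeasurable (fun z => ‖up p j z - u j z‖ₑ ^ 2) (μ.restrict K) := fun j =>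
    (((hcp p j).sub (hc j)).aestronglyMeasurable hKm).enorm.pow_const 2
  have hm1 : ∀ j, AEMeasurable (fun z => ‖fderiv ℝ (up p j) z - fderiv ℝ (u j) z‖ₑ ^ 2)
      (μ.restrict K) := fun j =>
    (((hdp p j).sub (hd j)).aestronglyMeasurable_of_isCompact hK hKm).enorm.pow_const 2
  have h4 : δ' ^ 2 * μ K ≤ ∫⁻ z in K, ∑ j, (‖up p j z - u j z‖ₑ ^ 2 +
      ‖fderiv ℝ (up p j) z - fderiv ℝ (u j) z‖ₑ ^ 2) ∂μ := by
    rw [← setLIntegral_const]
    exact setLIntegral_mono' hKm hb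
  have h5 : ∫⁻ z in K, ∑ j, (‖up p j z - u j z‖ₑ ^ 2 +
      ‖fderiv ℝ (up p j) z - fderiv ℝ (u j) z‖ₑ ^ 2) ∂μ =
      ∑ j, ((∫⁻ z in K, ‖up p j z - u j z‖ₑ ^ 2 ∂μ) +
      ∫⁻ z in K, ‖fderiv ℝ (up p j) z - fderiv ℝ (u j) z‖ₑ ^ 2 ∂μ) := by
    rw [lintegral_finsetSum' (f := fun j z => ‖up p j z - u j z‖ₑ ^ 2 +
      ‖fderiv ℝ (up p j) z - fderiv ℝ (u j) z‖ₑ ^ 2) _ fun j _ => (hm0 j).add (hm1 j)]
    exact Finset.sum_congr rfl fun j _ => lintegral_add_left' (hm0 j) _
  rw [h5] at h4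
  exact absurd hp (not_lt.2 h4)

end jets

section alg

variable {V : Type*} [NormedAddCommGroup V] [NormedSpace ℝ V]

/-- multiplication of all the functions by one function `e ≠ 0` -/
theorem wrv_smul {r : ℕ} {u : Fin (r + 1) → V → ℂ} {e : V → ℂ} {z : V}
    (hu : ∀ j, DifferentiableAt ℝ (u j) z) (he : DifferentiableAt ℝ e z) (v : V) :
    wrv r (jetR r (fun j y => e y * u j y) z) v = (e z) ^ 2 • wrv r (jetR r u z) v := by
  have hd : ∀ j, fderiv ℝ (fun y => e y * u j y) z v =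
      e z * fderiv ℝ (u j) z v + u j z * fderiv ℝ e z v := by
    intro j
    have h := (he.hasFDerivAt.mul (hu j).hasFDerivAt).fderiv
    have h' : (fun y => e y * u j y) = (e * u j) := rfl
    rw [h', h]
    simp [smul_eq_mul]
  ext j
  simp only [wrv_apply, jetR, Pi.smul_apply, smul_eq_mul, hd]
  ring

theorem RkR.smul_iff {r : ℕ} {u : Fin (r + 1) → V → ℂ} {e : V → ℂ} {z : V}
    (hu : ∀ j, DifferentiableAt ℝ (u j) z) (he : DifferentiableAt ℝ e z) (h0 : e z ≠ 0) :
    RkR r (fun j y => e y * u j y) z ↔ RkR r u z := by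
  rw [rkR_iff, rkR_iff]
  refine and_congr ?_ ?_
  · constructor
    · intro h h1
      exact h (by simp [h1])
    · intro h
      exact mul_ne_zero h0 h
  · have h2 : (e z) ^ 2 ≠ 0 := pow_ne_zero 2 h0
    constructor
    · intro h w
      obtain ⟨v, hv⟩ := h ((e z) ^ 2 • w)
      refine ⟨v, ?_⟩
      rw [wrv_smul hu he] at hv
      exact smul_right_injective _ h2 hv
    · intro h w
      obtain ⟨v, hv⟩ := h (((e z) ^ 2)⁻¹ • w)
      refine ⟨v, ?_⟩
      rw [wrv_smul hu he, hv, smul_smul, mul_inv_cancel₀ h2, one_smul]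

/-- only the germs matter -/
theorem RkR.congr {r : ℕ} {u u' : Fin (r + 1) → V → ℂ} {z : V}
    (h : ∀ j, u j =ᶠ[𝓝 z] u' j) : RkR r u z ↔ RkR r u' z := by
  have : jetR r u z = jetR r u' z := by
    unfold jetR
    refine Prod.ext ?_ ?_
    · funext j
      exact (h j).eq_of_nhds
    · funext j
      exact (h j).fderiv_eq
  rw [RkR, RkR, this]

variable {V' : Type*} [NormedAddCommGroup V'] [NormedSpace ℝ V']

/-- local diffeomorphisms -/
theorem RkR.comp_iff {r : ℕ} {u : Fin (r + 1) → V → ℂ} {φ : V' → V} {z : V'}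
    (hu : ∀ j, DifferentiableAt ℝ (u j) (φ z)) (hφ : DifferentiableAt ℝ φ z)
    (hs : Function.Surjective (fderiv ℝ φ z)) :
    RkR r (fun j y => u j (φ y)) z ↔ RkR r u (φ z) := by
  have hd : ∀ j, fderiv ℝ (fun y => u j (φ y)) z = (fderiv ℝ (u j) (φ z)).comp (fderiv ℝ φ z) :=
    fun j => fderiv_comp z (hu j) hφ
  have he : ∀ v, wrv r (jetR r (fun j y => u j (φ y)) z) v =
      wrv r (jetR r u (φ z)) (fderiv ℝ φ z v) := by
    intro v
    ext j
    simp only [wrv_apply, jetR, hd, ContinuousLinearMap.comp_apply]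
  rw [rkR_iff, rkR_iff]
  refine and_congr Iff.rfl ?_
  constructor
  · intro h w
    obtain ⟨v, hv⟩ := h w
    exact ⟨fderiv ℝ φ z v, by rw [← he, hv]⟩
  · intro h w
    obtain ⟨v, hv⟩ := h w
    obtain ⟨v', hv'⟩ := hs v
    exact ⟨v', by rw [he, hv', hv]⟩

end alg

section cplx

variable {E : Type*} [NormedAddCommGroup E] [NormedSpace ℂ E]

/-- a tuple of linear forms is independent iff it is onto `ℂ^r` -/
theorem surj_iff_indep {r : ℕ} (φ : Fin r → (E →L[ℂ] ℂ)) :
    Function.Surjective (fun v => fun j => φ j v) ↔ LinearIndependent ℂ φ := by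
  constructor
  · intro h
    rw [Fintype.linearIndependent_iff]
    intro c hc k
    obtain ⟨v, hv⟩ := h (Pi.single k 1)
    have h1 := congrArg (fun T : E →L[ℂ] ℂ => T v) hc
    simp only [sum_apply, smul_apply, smul_eq_mul, zero_apply] at h1
    have h2 : ∀ j, φ j v = (Pi.single k 1 : Fin r → ℂ) j := fun j => congrFun hv j
    simp only [h2] at h1
    rw [Finset.sum_eq_single k] at h1
    · simpa using h1
    · intro j _ hj
      simp [hj]
    · intro hk
      exact absurd (Finset.mem_univ k) hk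
  · intro h
    let T : E →ₗ[ℂ] (Fin r → ℂ) := LinearMap.pi fun j => (φ j : E →ₗ[ℂ] ℂ)
    have hT : LinearMap.range T = ⊤ := by
      by_contra hne
      obtain ⟨f, hf, hle⟩ := Submodule.exists_le_ker_of_lt_top _ (lt_top_iff_ne_top.2 hne)
      apply hf
      have hc : ∑ j, f (Pi.single j 1) • φ j = 0 := by
        ext v
        have h1 : f (T v) = 0 := LinearMap.mem_ker.1 (hle (LinearMap.mem_range_self T v))
        have h2 : T v = ∑ j, φ j v • (Pi.single j 1 : Fin r → ℂ) := by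
          funext k
          simp [T, Finset.sum_apply, Pi.single_apply]
        rw [h2, map_sum] at h1
        simp only [map_smul, smul_eq_mul] at h1
        simp only [sum_apply, smul_apply, smul_eq_mul, zero_apply]
        rw [← h1]
        exact Finset.sum_congr rfl fun j _ => mul_comm _ _
      have h3 := Fintype.linearIndependent_iff.1 h _ hc
      refine LinearMap.pi_ext' fun j => ?_
      ext
      simpa using h3 j
    intro w
    obtain ⟨v, hv⟩ := LinearMap.range_eq_top.1 hT w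
    exact ⟨v, hv⟩

/-- **complex criterion** -/
theorem rkR_holo_iff [NormedSpace ℝ E] [IsScalarTower ℝ ℂ E] {r : ℕ}
    {s : Fin (r + 1) → E → ℂ} {z : E}
    (hs : ∀ j, DifferentiableAt ℂ (s j) z) :
    RkR r s z ↔ s 0 z ≠ 0 ∧
      LinearIndependent ℂ (fun j : Fin r => fderiv ℂ (fun y => s j.succ y / s 0 y) z) := by
  rw [rkR_iff]
  refine and_congr_right fun h0 => ?_
  replace h0 : s 0 z ≠ 0 := h0
  rw [← surj_iff_indep]
  have hr : ∀ j, fderiv ℝ (s j) z = (fderiv ℂ (s j) z).restrictScalars ℝ := fun j =>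
    ((hs j).hasFDerivAt.restrictScalars ℝ).fderiv
  have hq : ∀ (j : Fin r) v, fderiv ℂ (fun y => s j.succ y / s 0 y) z v =
      ((s 0 z) ^ 2)⁻¹ * (s 0 z * fderiv ℂ (s j.succ) z v - s j.succ z * fderiv ℂ (s 0) z v) := by
    intro j v
    have hqd : DifferentiableAt ℂ (fun y => s j.succ y / s 0 y) z := by
      have h5 : DifferentiableAt ℂ (fun y => (s 0 y)⁻¹) z := (hs 0).fun_inv h0
      simpa only [div_eq_mul_inv] using (hs j.succ).fun_mul h5
    have h1 : s j.succ =ᶠ[𝓝 z] fun y => (s j.succ y / s 0 y) * s 0 y := by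
      filter_upwards [(hs 0).continuousAt.eventually_ne h0] with y hy
      field_simp
    have h3 : HasFDerivAt (fun y => (s j.succ y / s 0 y) * s 0 y) _ z :=
      hqd.hasFDerivAt.mul (hs 0).hasFDerivAt
    have h2 := congrArg (fun T : E →L[ℂ] ℂ => T v) (h1.fderiv_eq.trans h3.fderiv)
    simp only [add_apply, smul_apply, smul_eq_mul] at h2
    rw [h2]
    field_simp
    ring
  have he : ∀ v, wrv r (jetR r s z) v =
      (s 0 z) ^ 2 • (fun j : Fin r => fderiv ℂ (fun y => s j.succ y / s 0 y) z v) := by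
    intro v
    funext j
    simp only [wrv_apply, jetR, hr, ContinuousLinearMap.coe_restrictScalars', Pi.smul_apply,
      smul_eq_mul, hq]
    field_simp
  have h2 : (s 0 z) ^ 2 ≠ 0 := pow_ne_zero 2 h0
  constructor
  · intro h w
    obtain ⟨v, hv⟩ := h ((s 0 z) ^ 2 • w)
    refine ⟨v, ?_⟩
    rw [he] at hv
    exact smul_right_injective _ h2 hv
  · intro h w
    obtain ⟨v, hv⟩ := h (((s 0 z) ^ 2)⁻¹ • w)
    refine ⟨v, ?_⟩
    rw [he]
    have : (fun j : Fin r => fderiv ℂ (fun y => s j.succ y / s 0 y) z v) =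
      ((s 0 z) ^ 2)⁻¹ • w := hv
    rw [this, smul_smul, mul_inv_cancel₀ h2, one_smul]

end cplx

section open_H1

variable {V : Type*} [NormedAddCommGroup V] [NormedSpace ℝ V]

theorem RkR.nhds {r : ℕ} {u : Fin (r + 1) → V → ℂ} {U : Set V} (hU : IsOpen U) {z₁ : V}
    (hz : z₁ ∈ U) (hu : ∀ j, ContDiffOn ℝ 1 (u j) U) (h : RkR r u z₁) :
    ∀ᶠ z in 𝓝 z₁, RkR r u z := by
  have hc : ContinuousAt (jetR r u) z₁ := by
    refine ContinuousAt.prodMk ?_ ?_
    · exact continuousAt_pi.2 fun j => ((hu j).continuousOn.continuousAt (hU.mem_nhds hz))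
    · exact continuousAt_pi.2 fun j =>
        ((hu j).continuousOn_fderiv_of_isOpen hU le_rfl).continuousAt (hU.mem_nhds hz)
  exact hc.eventually ((isOpen_G r).mem_nhds h)

/-- **rank `r` is open, final form on an open set of a chart**: `L²` convergence of values and
first derivatives on ONE neighbourhood `K₀` of `z₁` is enough -/
theorem RkR.open_H1 [FiniteDimensional ℝ V] [MeasurableSpace V] [BorelSpace V]
    (μ : Measure V) [μ.IsOpenPosMeasure] {P : Type*} {l : Filter P} {r : ℕ}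
    {u : Fin (r + 1) → V → ℂ} {up : P → Fin (r + 1) → V → ℂ} {U K₀ : Set V} (hU : IsOpen U)
    {z₁ : V} (hK₀ : K₀ ∈ 𝓝 z₁) (hKU : K₀ ⊆ U)
    (hu : ∀ j, ContDiffOn ℝ 1 (u j) U) (hup : ∀ p j, ContDiffOn ℝ 1 (up p j) U)
    (h : RkR r u z₁)
    (h0 : ∀ j, Tendsto (fun p => ∫⁻ z in K₀, ‖up p j z - u j z‖ₑ ^ 2 ∂μ) l (𝓝 0))
    (h1 : ∀ j, Tendsto (fun p => ∫⁻ z in K₀, ‖fderiv ℝ (up p j) z - fderiv ℝ (u j) z‖ₑ ^ 2 ∂μ) l
      (𝓝 0)) :
    ∀ᶠ p in l, ∃ z ∈ K₀, RkR r (up p) z := by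
  have hz₁ : z₁ ∈ U := hKU (mem_of_mem_nhds hK₀)
  have hn : {z | RkR r u z} ∩ K₀ ∈ 𝓝 z₁ := inter_mem (RkR.nhds hU hz₁ hu h) hK₀
  obtain ⟨K, hKn, hKs, hKc⟩ : ∃ K ∈ 𝓝 z₁, K ⊆ {z | RkR r u z} ∩ K₀ ∧ IsCompact K := by
    obtain ⟨K, h1, h2, h3⟩ := local_compact_nhds hn
    exact ⟨K, h1, h2, h3⟩
  have hKU' : K ⊆ U := fun z hz => hKU (hKs hz).2
  have hμ : μ K ≠ 0 := (Measure.measure_pos_of_mem_nhds μ hKn).ne'
  have hm : ∀ {f : P → ENNReal} {g : P → ENNReal}, (∀ p, f p ≤ g p) → Tendsto g l (𝓝 0) →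
      Tendsto f l (𝓝 0) := fun hfg hg =>
    tendsto_of_tendsto_of_tendsto_of_le_of_le tendsto_const_nhds hg (fun _ => zero_le) hfg
  have hsub : K ⊆ K₀ := fun z hz => (hKs hz).2
  have := RkR.ev_meas (μ := μ) (l := l) (up := up) hKc hμ
    (fun j => (hu j).continuousOn.mono hKU')
    (fun j => ((hu j).continuousOn_fderiv_of_isOpen hU le_rfl).mono hKU')
    (fun p j => (hup p j).continuousOn.mono hKU')
    (fun p j => ((hup p j).continuousOn_fderiv_of_isOpen hU le_rfl).mono hKU')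
    (fun z hz => (hKs hz).1)
    (fun j => hm (fun p => lintegral_mono_set hsub) (h0 j))
    (fun j => hm (fun p => lintegral_mono_set hsub) (h1 j))
  filter_upwards [this] with p hp
  obtain ⟨z, hz, hr⟩ := hp
  exact ⟨z, hsub hz, hr⟩

end open_H1

end

end Crest.Agent.R281.Rko_396
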