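import Crest.Agent.R281.Rko1_396
import Crest.Agent.R281.Rko3_396
import Mathlib.MeasureTheory.Function.LpSpace.Complete

/-!
# Row 281, RK-OPEN (helper396), part 4: from convergence in a Hilbert space `E` with continuous
linear evaluation maps into `L²` to `RkR.open_H1`

* `tendsto_lintegral_of_Lp` : convergence in `Lp _ 2 μ` of classes gives `∫⁻ ‖up p - u‖ₑ ^ 2 → 0`
* `rk_near`                 : **kernels of `D p`, `D p → D₁`, `dim ker (D p) ≥ dim K`, and rank `r`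
                              at one point for a tuple of `K` give rank `r` somewhere in the chart
                              ball for a tuple of `ker (D p)`, `p` near `p₁`**
-/

set_option autoImplicit false
set_option linter.unusedSectionVars false

open Set Filter Topology MeasureTheory Complex
open scoped ContDiff ENNReal

namespace Crest.Agent.R281.Rko_396

theorem tendsto_lintegral_of_Lp {α E' : Type*} {m : MeasurableSpace α} [NormedAddCommGroup E']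
    {μ : Measure α} {P : Type*} {l : Filter P} {f : P → Lp E' 2 μ} {f₀ : Lp E' 2 μ}
    (hf : Tendsto f l (𝓝 f₀)) {up : P → α → E'} {u : α → E'}
    (h : ∀ᶠ p in l, f p =ᵐ[μ] up p) (h₀ : f₀ =ᵐ[μ] u) :
    Tendsto (fun p => ∫⁻ z, ‖up p z - u z‖ₑ ^ 2 ∂μ) l (𝓝 0) := by
  have h1 := (Lp.tendsto_Lp_iff_tendsto_eLpNorm' f f₀).1 hf
  have h2 : Tendsto (fun p => (eLpNorm (⇑(f p) - ⇑f₀) 2 μ) ^ 2) l (𝓝 0) := by
    have h := ((ENNReal.continuous_pow 2).tendsto 0).comp h1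
    have h' : (0 : ℝ≥0∞) ^ 2 = 0 := by norm_num
    rw [h'] at h
    exact h
  refine h2.congr' ?_
  filter_upwards [h] with p hp
  have h3 : eLpNorm (⇑(f p) - ⇑f₀) 2 μ = eLpNorm (up p - u) 2 μ :=
    eLpNorm_congr_ae (hp.sub h₀)
  rw [h3]
  have h4 := eLpNorm_nnreal_pow_eq_lintegral (f := up p - u) (μ := μ) (p := 2) (by norm_num)
  have h5 : eLpNorm (up p - u) 2 μ ^ 2 = ∫⁻ z, ‖(up p - u) z‖ₑ ^ 2 ∂μ := by
    have h6 : ((2 : NNReal) : ℝ≥0∞) = 2 := rfl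
    rw [h6] at h4
    simpa using h4
  rw [h5]
  rfl

section near

variable {V : Type*} [NormedAddCommGroup V] [NormedSpace ℝ V] [FiniteDimensional ℝ V]
  [MeasurableSpace V] [BorelSpace V]
  {E F : Type*} [NormedAddCommGroup E] [NormedSpace ℂ E] [NormedAddCommGroup F] [NormedSpace ℂ F]

/-- **RK-OPEN, abstract final form.** `ev0`, `ev1`: values and first derivatives on `K₀`, as
continuous maps of `E` into `L²(K₀)`. `rep p w v`: the function `v` (`C¹` on `U ⊇ K₀`) represents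
`w ∈ E` on `K₀`. -/
theorem rk_near {P : Type*} {l : Filter P} (D : P → E →L[ℂ] F) (D₁ : E →L[ℂ] F)
    (hD : Tendsto D l (𝓝 D₁)) (K : Submodule ℂ E) [FiniteDimensional ℂ K]
    (hK : ∀ u ∈ K, D₁ u = 0) (π : E →ₗ[ℂ] K) (hπ : ∀ u : K, π u = u) {c : ℝ} (hc : 0 < c)
    (hbd : ∀ v : E, π v = 0 → c * ‖v‖ ≤ ‖D₁ v‖)
    (hJ : ∀ᶠ p in l, ∃ J : K →ₗ[ℂ] E, Function.Injective J ∧ ∀ u, D p (J u) = 0)
    (μ : Measure V) [μ.IsOpenPosMeasure] {U K₀ : Set V} (hU : IsOpen U) {z₁ : V}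
    (hK₀ : K₀ ∈ 𝓝 z₁) (hKU : K₀ ⊆ U)
    (ev0 : E → Lp ℂ 2 (μ.restrict K₀)) (hev0 : Continuous ev0)
    (ev1 : E → Lp (V →L[ℝ] ℂ) 2 (μ.restrict K₀)) (hev1 : Continuous ev1)
    {r : ℕ} (s : Fin (r + 1) → K) (u : Fin (r + 1) → V → ℂ)
    (hu : ∀ j, ContDiffOn ℝ 1 (u j) U)
    (hu0 : ∀ j, ev0 (s j) =ᵐ[μ.restrict K₀] u j)
    (hu1 : ∀ j, ev1 (s j) =ᵐ[μ.restrict K₀] fderiv ℝ (u j))
    (hrk : RkR r u z₁)
    (hrep : ∀ᶠ p in l, ∀ w : E, D p w = 0 → ∃ v : V → ℂ, ContDiffOn ℝ 1 v U ∧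
      ev0 w =ᵐ[μ.restrict K₀] v ∧ ev1 w =ᵐ[μ.restrict K₀] fderiv ℝ v) :
    ∀ᶠ p in l, ∃ w : Fin (r + 1) → E, (∀ j, D p (w j) = 0) ∧
      ∀ v : Fin (r + 1) → V → ℂ, (∀ j, ContDiffOn ℝ 1 (v j) U) →
        (∀ j, ev0 (w j) =ᵐ[μ.restrict K₀] v j) →
        (∀ j, ev1 (w j) =ᵐ[μ.restrict K₀] fderiv ℝ (v j)) → ∃ z ∈ K₀, RkR r v z := by
  obtain ⟨S, hS, hlim⟩ := lifts D D₁ hD K hK π hπ hc hbd hJ
  -- if the conclusion failed for `p`, choose a bad representative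
  classical
  have hbad : ∀ p, ∃ v : Fin (r + 1) → V → ℂ,
      ((∀ j, D p (S p (s j)) = 0) ∧ (∀ w : E, D p w = 0 → ∃ v : V → ℂ, ContDiffOn ℝ 1 v U ∧
        ev0 w =ᵐ[μ.restrict K₀] v ∧ ev1 w =ᵐ[μ.restrict K₀] fderiv ℝ v) →
        (∀ j, ContDiffOn ℝ 1 (v j) U) ∧
        (∀ j, ev0 (S p (s j)) =ᵐ[μ.restrict K₀] v j) ∧
        (∀ j, ev1 (S p (s j)) =ᵐ[μ.restrict K₀] fderiv ℝ (v j)) ∧
        ((∃ z ∈ K₀, RkR r v z) → ∀ v' : Fin (r + 1) → V → ℂ, (∀ j, ContDiffOn ℝ 1 (v' j) U) →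
          (∀ j, ev0 (S p (s j)) =ᵐ[μ.restrict K₀] v' j) →
          (∀ j, ev1 (S p (s j)) =ᵐ[μ.restrict K₀] fderiv ℝ (v' j)) → ∃ z ∈ K₀, RkR r v' z)) := by
    intro p
    by_cases hyp : (∀ j, D p (S p (s j)) = 0) ∧ (∀ w : E, D p w = 0 → ∃ v : V → ℂ,
        ContDiffOn ℝ 1 v U ∧ ev0 w =ᵐ[μ.restrict K₀] v ∧ ev1 w =ᵐ[μ.restrict K₀] fderiv ℝ v)
    · by_cases hex : ∃ v' : Fin (r + 1) → V → ℂ, (∀ j, ContDiffOn ℝ 1 (v' j) U) ∧
          (∀ j, ev0 (S p (s j)) =ᵐ[μ.restrict K₀] v' j) ∧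
          (∀ j, ev1 (S p (s j)) =ᵐ[μ.restrict K₀] fderiv ℝ (v' j)) ∧ ¬ ∃ z ∈ K₀, RkR r v' z
      · obtain ⟨v', h1, h2, h3, h4⟩ := hex
        exact ⟨v', fun _ => ⟨h1, h2, h3, fun h => absurd h h4⟩⟩
      · push Not at hex
        choose v hv1 hv2 hv3 using fun j => hyp.2 _ (hyp.1 j)
        refine ⟨v, fun _ => ⟨hv1, hv2, hv3, fun _ v' h1 h2 h3 => ?_⟩⟩
        exact hex v' h1 h2 h3
    · exact ⟨0, fun h => absurd h hyp⟩
  choose v hv using hbad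
  have hev : ∀ᶠ p in l, (∀ j, D p (S p (s j)) = 0) ∧ (∀ w : E, D p w = 0 → ∃ v : V → ℂ,
      ContDiffOn ℝ 1 v U ∧ ev0 w =ᵐ[μ.restrict K₀] v ∧
        ev1 w =ᵐ[μ.restrict K₀] fderiv ℝ v) :=
    (hS.mono fun p hp j => hp (s j)).and hrep
  -- a total family
  set up : P → Fin (r + 1) → V → ℂ := fun p =>
    if (∀ j, ContDiffOn ℝ 1 (v p j) U) then v p else u with hup
  have hupC : ∀ p j, ContDiffOn ℝ 1 (up p j) U := by
    intro p j
    by_cases h : ∀ j, ContDiffOn ℝ 1 (v p j) U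
    · simp only [hup, if_pos h]
      exact h j
    · simp only [hup, if_neg h]
      exact hu j
  have hupe : ∀ᶠ p in l, up p = v p := by
    filter_upwards [hev] with p hp
    have h := (hv p hp).1
    simp only [hup, if_pos h]
  have h0 : ∀ j, Tendsto (fun p => ∫⁻ z in K₀, ‖up p j z - u j z‖ₑ ^ 2 ∂μ) l (𝓝 0) := by
    intro j
    refine tendsto_lintegral_of_Lp (f := fun p => ev0 (S p (s j))) (f₀ := ev0 (s j))
      ((hev0.tendsto _).comp (hlim (s j))) ?_ (hu0 j)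
    filter_upwards [hev, hupe] with p hp hpe
    rw [hpe]
    exact (hv p hp).2.1 j
  have h1 : ∀ j, Tendsto (fun p => ∫⁻ z in K₀,
      ‖fderiv ℝ (up p j) z - fderiv ℝ (u j) z‖ₑ ^ 2 ∂μ) l (𝓝 0) := by
    intro j
    refine tendsto_lintegral_of_Lp (f := fun p => ev1 (S p (s j))) (f₀ := ev1 (s j))
      ((hev1.tendsto _).comp (hlim (s j))) ?_ (hu1 j)
    filter_upwards [hev, hupe] with p hp hpe
    rw [hpe]
    exact (hv p hp).2.2.1 j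
  have := RkR.open_H1 μ hU hK₀ hKU hu hupC hrk h0 h1
  filter_upwards [this, hev, hupe] with p hp hpv hpe
  rw [hpe] at hp
  refine ⟨fun j => S p (s j), hpv.1, ?_⟩
  exact (hv p hpv).2.2.2 hp

end near

end Crest.Agent.R281.Rko_396
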