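import Crest.Agent.R281.S6D_664
import Crest.Agent.R275.ProdAtl_363
import Crest.Agent.R275.GAtl_293
import Crest.Agent.R266.SCV

/-!
# R281 (S0424), S6-V part 1 (helper664): split charts on `M` adapted to a tube

* `exists_compl`  : `D : E → F` surjective, `dim E = d + dim F` ⟹ `(p, D)` is an isomorphism for some
  `p : E → ℂ^d`;
* `SpC τ`         : a local product chart `χ = (b, f) : M → ℂ^d × ℂ^k` of the tube `τ`;
* `exists_spC`    : there is one at every point of `τ.W`.
-/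

set_option autoImplicit false
set_option linter.unusedSectionVars false

open Set Filter Topology Complex Function Metric
open scoped ContDiff Matrix ComplexConjugate ComplexOrder

namespace Crest.Agent.R281.S6V_664

open Crest.Agent.R275.Geo Crest.Agent.R275.Core144 Crest.Agent.R275.GC293
open Crest.Agent.R275.Prod363 Crest.Agent.R273.Map_835 Crest.Agent.R281.S6D_664

noncomputable section

variable {N d k m : ℕ} {M : Type} [TopologicalSpace M]

/-- a complement of a surjective map -/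
theorem exists_compl (hN : N = d + k) (D : Cn N →L[ℂ] Cn k) (hD : Surjective D) :
    ∃ (p : Cn N →L[ℂ] Cn d) (e : Cn N ≃L[ℂ] Cn d × Cn k), ∀ z, e z = (p z, D z) := by
  have h1 : Module.finrank ℂ (LinearMap.ker D.toLinearMap) = d := by
    have h2 := LinearMap.finrank_range_add_finrank_ker D.toLinearMap
    have h3 : LinearMap.range D.toLinearMap = ⊤ := LinearMap.range_eq_top.2 hD
    rw [h3, finrank_top] at h2
    simp only [finrank_euclideanSpace, Fintype.card_fin] at h2
    omega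
  have h4 : Module.finrank ℂ (LinearMap.ker D.toLinearMap) = Module.finrank ℂ (Cn d) := by
    rw [h1]; simp
  let g : LinearMap.ker D.toLinearMap ≃ₗ[ℂ] Cn d := LinearEquiv.ofFinrankEq _ _ h4
  obtain ⟨q, hq⟩ := (LinearMap.ker D.toLinearMap).exists_isCompl
  let pr := Submodule.projectionOnto _ _ hq
  let p0 : Cn N →ₗ[ℂ] Cn d := g.toLinearMap ∘ₗ pr
  let p : Cn N →L[ℂ] Cn d := LinearMap.toContinuousLinearMap p0
  let e0 : Cn N →ₗ[ℂ] Cn d × Cn k := p0.prod D.toLinearMap
  have hinj : Injective e0 := by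
    rw [← LinearMap.ker_eq_bot, LinearMap.ker_eq_bot']
    intro z hz
    have h5 : p0 z = 0 := congrArg Prod.fst hz
    have h6 : D z = 0 := congrArg Prod.snd hz
    have h7 : pr z = 0 := by
      have h8 : g (pr z) = 0 := h5
      exact (LinearEquiv.map_eq_zero_iff g).1 h8
    have h9 : pr z = ⟨z, h6⟩ := by
      have := Submodule.projectionOnto_apply_left hq (⟨z, h6⟩ : LinearMap.ker D.toLinearMap)
      exact this
    rw [h7] at h9
    exact (congrArg Subtype.val h9).symm
  have hdim : Module.finrank ℂ (Cn N) = Module.finrank ℂ (Cn d × Cn k) := by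
    rw [Module.finrank_prod]
    simp [hN]
  let e1 : Cn N ≃ₗ[ℂ] Cn d × Cn k := LinearEquiv.ofInjectiveOfFinrankEq e0 hinj hdim
  refine ⟨p, e1.toContinuousLinearEquiv, fun z => ?_⟩
  have : e1 z = e0 z := rfl
  exact this

/-- a local product chart of a tube -/
structure SpC (A : Atl N M) {Tf : M → Set M} (τ : Tube A k Tf) (d : ℕ) where
  χ : OpenPartialHomeomorph M (Cn d × Cn k)
  sub : χ.source ⊆ τ.W
  snd : ∀ x ∈ χ.source, (χ x).2 = τ.f x
  cube : ∀ x ∈ χ.source, ∀ p, rc (χ x).1 p ∈ Ioo (0 : ℝ) 1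
  hol : ∀ i, DifferentiableOn ℂ (fun w => A.e i (χ.symm w))
    (χ.target ∩ χ.symm ⁻¹' (A.e i).source)
  hol' : ∀ i, DifferentiableOn ℂ (fun z => χ ((A.e i).symm z))
    ((A.e i).target ∩ (A.e i).symm ⁻¹' χ.source)

theorem exists_spC (hN : N = d + k) (A : Atl N M) {Tf : M → Set M} (τ : Tube A k Tf) {x0 : M}
    (hx0 : x0 ∈ τ.W) : ∃ S : SpC A τ d, x0 ∈ S.χ.source := by
  obtain ⟨i, hi⟩ := A.cover x0
  set z0 := A.e i x0 with hz0
  have hz0t : z0 ∈ (A.e i).target := (A.e i).map_source hi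
  set F : Cn N → Cn k := fun z => τ.f ((A.e i).symm z) with hF
  set O : Set (Cn N) := (A.e i).target ∩ (A.e i).symm ⁻¹' τ.W with hO
  have hOo : IsOpen O := (A.e i).isOpen_inter_preimage_symm τ.oW
  have hFd : DifferentiableOn ℂ F O := τ.hol i
  have hzO : z0 ∈ O := ⟨hz0t, by rw [mem_preimage, hz0, (A.e i).left_inv hi]; exact hx0⟩
  obtain ⟨p, e, he⟩ := exists_compl (d := d) hN (fderiv ℂ F z0) (τ.sub i x0 ⟨hi, hx0⟩)
  -- normalised first component
  set G : Cn N → Cn d × Cn k := fun z => (aff (p z0) 1 one_pos (p z), F z) with hG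
  have hpA : Differentiable ℂ (fun z : Cn N => aff (p z0) 1 one_pos (p z)) :=
    (differentiable_aff _ _ _).comp p.differentiable
  have hGd : DifferentiableOn ℂ G O := hpA.differentiableOn.prodMk hFd
  have hGa : AnalyticAt ℂ G z0 :=
    Crest.Agent.R266.SCV.analyticOnNhd_of_differentiableOn hOo hGd z0 hzO
  -- the derivative
  have h2 : (((2 * (1 : ℝ) : ℝ) : ℂ)⁻¹) ≠ 0 := by norm_num
  let sc : (Cn d × Cn k) ≃L[ℂ] (Cn d × Cn k) :=
    (ContinuousLinearEquiv.smulLeft (Units.mk0 (((2 * (1 : ℝ) : ℝ) : ℂ)⁻¹) h2)).prodCongr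
      (ContinuousLinearEquiv.refl ℂ (Cn k))
  have hder : HasFDerivAt G ((e.trans sc : Cn N ≃L[ℂ] Cn d × Cn k) : Cn N →L[ℂ] Cn d × Cn k)
      z0 := by
    have h3 : HasFDerivAt (fun z : Cn N => aff (p z0) 1 one_pos (p z))
        ((((2 * (1 : ℝ) : ℝ) : ℂ)⁻¹) • p) z0 := by
      have h4 : HasFDerivAt (fun z : Cn N => (((2 * (1 : ℝ) : ℝ) : ℂ)⁻¹) • (p z - p z0) + ctr d)
          ((((2 * (1 : ℝ) : ℝ) : ℂ)⁻¹) • p) z0 :=
        ((p.hasFDerivAt.sub_const (p z0)).fun_const_smul _).add_const _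
      exact h4
    have h5 : HasFDerivAt F (fderiv ℂ F z0) z0 :=
      (hFd.differentiableAt (hOo.mem_nhds hzO)).hasFDerivAt
    have h6 := h3.prodMk h5
    have h7 : (((((2 * (1 : ℝ) : ℝ) : ℂ)⁻¹) • p).prod (fderiv ℂ F z0)) =
        ((e.trans sc : Cn N ≃L[ℂ] Cn d × Cn k) : Cn N →L[ℂ] Cn d × Cn k) := by
      ext1 v
      have h8 := he v
      have h9 : sc (e v) = ((((2 * (1 : ℝ) : ℝ) : ℂ)⁻¹) • (e v).1, (e v).2) := rfl
      show (((((2 * (1 : ℝ) : ℝ) : ℂ)⁻¹) • p).prod (fderiv ℂ F z0)) v = sc (e v)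
      rw [h9, h8]
      rfl
    rw [← h7]
    exact h6
  -- the neighbourhood where the first component is in the cube
  set O' : Set (Cn N) := O ∩ {z | p z ∈ ball (p z0) 1} with hO'
  have hO'o : IsOpen O' := hOo.inter (isOpen_ball.preimage p.continuous)
  have hzO' : z0 ∈ O' := ⟨hzO, mem_ball_self one_pos⟩
  obtain ⟨Θ, hz, hsub, hΘ, han, hans⟩ :=
    Crest.Agent.R266.SCV.exists_analytic_openPartialHomeomorph hGa (e.trans sc) hder
      (hO'o.mem_nhds hzO')
  let χ : OpenPartialHomeomorph M (Cn d × Cn k) := (A.e i).trans Θ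
  have hχ : ∀ x, χ x = G (A.e i x) := fun x => hΘ _
  have hsrc : ∀ x ∈ χ.source, x ∈ (A.e i).source ∧ A.e i x ∈ Θ.source := by
    intro x hx
    rw [OpenPartialHomeomorph.trans_source] at hx
    exact hx
  have htgt : ∀ w ∈ χ.target, w ∈ Θ.target ∧ Θ.symm w ∈ (A.e i).target := by
    intro w hw
    rw [OpenPartialHomeomorph.trans_target] at hw
    exact hw
  refine ⟨⟨χ, ?_, ?_, ?_, ?_, ?_⟩, ?_⟩
  · intro x hx
    obtain ⟨h1, h3⟩ := hsrc x hx
    have h4 := (hsub h3).1.2
    rw [mem_preimage, (A.e i).left_inv h1] at h4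
    exact h4
  · intro x hx
    obtain ⟨h1, h3⟩ := hsrc x hx
    rw [hχ]
    show τ.f ((A.e i).symm (A.e i x)) = τ.f x
    rw [(A.e i).left_inv h1]
  · intro x hx q
    obtain ⟨h1, h3⟩ := hsrc x hx
    rw [hχ]
    have h4 : p (A.e i x) ∈ ball (p z0) 1 := (hsub h3).2
    refine rc_mem_of_ball (p z0) 1 one_pos (z := aff (p z0) 1 one_pos (p (A.e i x))) ?_ q
    rw [Homeomorph.symm_apply_apply]
    exact h4
  · intro j w hw
    obtain ⟨h1, h3⟩ := htgt w hw.1
    have h4 : χ.symm w = (A.e i).symm (Θ.symm w) := rfl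
    have h5 : DifferentiableAt ℂ (fun z => A.e j ((A.e i).symm z)) (Θ.symm w) := by
      refine (A.holo i j).differentiableAt ?_
      refine ((A.e i).isOpen_inter_preimage_symm (A.e j).open_source).mem_nhds ⟨h3, ?_⟩
      exact hw.2
    have h6 : DifferentiableAt ℂ Θ.symm w := (hans w h1).differentiableAt
    exact (DifferentiableAt.comp w h5 h6).differentiableWithinAt
  · intro j z hz
    have h1 := hsrc _ hz.2
    have h5 : DifferentiableAt ℂ (fun z => A.e i ((A.e j).symm z)) z := by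
      refine (A.holo j i).differentiableAt ?_
      exact ((A.e j).isOpen_inter_preimage_symm (A.e i).open_source).mem_nhds ⟨hz.1, h1.1⟩
    have h6 : DifferentiableAt ℂ Θ (A.e i ((A.e j).symm z)) := (han _ h1.2).differentiableAt
    exact (DifferentiableAt.comp z h6 h5).differentiableWithinAt
  · rw [OpenPartialHomeomorph.trans_source]
    exact ⟨hi, hz⟩

end

end Crest.Agent.R281.S6V_664
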