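import Crest.Agent.R281.S6V1_664

/-!
# R281 (S0424), S6-V part 2 (helper664): the family `V = {(u, x) : u ∈ U, x ∈ Tf (Γ u)}`

* `BM A Tf k m`   : a base map `Γ : U → M`, `U` open in the unit cube of `ℂ^m`, holomorphic, with values
  in tubes and transversal to the leaves;
* `BM.V`          : the total space, `vch` its adapted charts, `atl0` the (big) atlas;
* `holMap_i`, `imm_i`, `proper_y`, `conn_y`.
-/

set_option autoImplicit false
set_option linter.unusedSectionVars false

open Set Filter Topology Complex Function Metric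
open scoped ContDiff Matrix ComplexConjugate ComplexOrder

namespace Crest.Agent.R281.S6V_664

open Crest.Agent.R275.Geo Crest.Agent.R275.Core144 Crest.Agent.R275.GC293
open Crest.Agent.R275.Prod363 Crest.Agent.R273.Map_835 Crest.Agent.R281.S6D_664

noncomputable section

variable {N d k m : ℕ} {M : Type} [TopologicalSpace M]

/-- a base map -/
structure BM (A : Atl N M) (Tf : M → Set M) (k m : ℕ) where
  U : Set (Cn m)
  Γ : Cn m → M
  oU : IsOpen U
  cube : ∀ u ∈ U, ∀ p, rc u p ∈ Ioo (0 : ℝ) 1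
  cont : ContinuousOn Γ U
  hol : ∀ i, DifferentiableOn ℂ (fun u => A.e i (Γ u)) (U ∩ Γ ⁻¹' (A.e i).source)
  tb : ∀ u ∈ U, ∃ τ : Tube A k Tf, Γ u ∈ τ.W
  tr : ∀ u ∈ U, ∀ τ : Tube A k Tf, Γ u ∈ τ.W → Injective (fderiv ℂ (fun u => τ.f (Γ u)) u)

variable {A : Atl N M} {Tf : M → Set M}

namespace BM

variable (G : BM A Tf k m)

theorem isOpen_pre {O : Set M} (hO : IsOpen O) : IsOpen (G.U ∩ G.Γ ⁻¹' O) :=
  G.cont.isOpen_inter_preimage G.oU hO

/-- `τ.f ∘ Γ` is holomorphic -/
theorem diff_f (τ : Tube A k Tf) {u : Cn m} (hu : u ∈ G.U) (hW : G.Γ u ∈ τ.W) :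
    DifferentiableAt ℂ (fun u => τ.f (G.Γ u)) u := by
  obtain ⟨i, hi⟩ := A.cover (G.Γ u)
  have h1 : DifferentiableAt ℂ (fun u => A.e i (G.Γ u)) u :=
    (G.hol i).differentiableAt ((G.isOpen_pre (A.e i).open_source).mem_nhds ⟨hu, hi⟩)
  have h2 : DifferentiableAt ℂ (fun z => τ.f ((A.e i).symm z)) (A.e i (G.Γ u)) := by
    refine (τ.hol i).differentiableAt
      (((A.e i).isOpen_inter_preimage_symm τ.oW).mem_nhds ⟨(A.e i).map_source hi, ?_⟩)
    rw [mem_preimage, (A.e i).left_inv hi]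
    exact hW
  have h3 := DifferentiableAt.comp u (g := fun z => τ.f ((A.e i).symm z))
    (f := fun u => A.e i (G.Γ u)) h2 h1
  refine h3.congr_of_eventuallyEq ?_
  filter_upwards [(G.isOpen_pre (A.e i).open_source).mem_nhds ⟨hu, hi⟩] with w hw
  simp only [Function.comp]
  rw [(A.e i).left_inv hw.2]

theorem cont_f (τ : Tube A k Tf) :
    ContinuousOn (fun u => τ.f (G.Γ u)) (G.U ∩ G.Γ ⁻¹' τ.W) := fun _ hu =>
  (G.diff_f τ hu.1 hu.2).continuousAt.continuousWithinAt

/-- the total space -/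
@[ext] structure V where
  /-- the base coordinate -/
  yy : Cn m
  /-- the point of `M` -/
  ii : M
  yy_mem : yy ∈ G.U
  ii_mem : ii ∈ Tf (G.Γ yy)

variable {G}

open V (yy ii yy_mem ii_mem)

/-- the embedding -/
def pr (v : G.V) : Cn m × M := (yy v, ii v)

theorem pr_inj : Injective (pr : G.V → Cn m × M) := fun v w h => by
  have h1 := congrArg Prod.fst h
  have h2 := congrArg Prod.snd h
  exact V.ext h1 h2

instance : TopologicalSpace G.V := TopologicalSpace.induced pr inferInstance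

theorem isEmbedding_pr : IsEmbedding (pr : G.V → Cn m × M) := ⟨⟨rfl⟩, pr_inj⟩

instance [T2Space M] : T2Space G.V := isEmbedding_pr.t2Space

theorem continuous_pr : Continuous (pr : G.V → Cn m × M) := continuous_induced_dom

theorem continuous_yy : Continuous (yy : G.V → Cn m) := continuous_fst.comp continuous_pr

theorem continuous_ii : Continuous (ii : G.V → M) := continuous_snd.comp continuous_pr

theorem continuous_Γ : Continuous (fun v : G.V => G.Γ (yy v)) :=
  G.cont.comp_continuous continuous_yy yy_mem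

theorem ii_tube (τ : Tube A k Tf) {v : G.V} (hv : G.Γ (yy v) ∈ τ.W) :
    ii v ∈ τ.W ∧ τ.f (ii v) = τ.f (G.Γ (yy v)) := by
  have h := ii_mem v
  rw [τ.fib _ hv] at h
  exact h

theorem mem_of_tube (τ : Tube A k Tf) {u : Cn m} {x : M} (hu : u ∈ G.U) (hΓ : G.Γ u ∈ τ.W)
    (hx : x ∈ τ.W) (hf : τ.f x = τ.f (G.Γ u)) : u ∈ G.U ∧ x ∈ Tf (G.Γ u) := by
  refine ⟨hu, ?_⟩
  rw [τ.fib _ hΓ]
  exact ⟨hx, hf⟩

/-- the value of the inverse chart in `M` -/
def ix {τ : Tube A k Tf} (S : SpC A τ d) (w : Cn (d + m)) : M :=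
  S.χ.symm (fstL d m w, τ.f (G.Γ (sndL d m w)))

/-- the target of the chart -/
def tg (G : BM A Tf k m) {τ : Tube A k Tf} (S : SpC A τ d) : Set (Cn (d + m)) :=
  {w | (sndL d m w ∈ G.U ∧ G.Γ (sndL d m w) ∈ τ.W) ∧
    (fstL d m w, τ.f (G.Γ (sndL d m w))) ∈ S.χ.target}

theorem cont_pair (τ : Tube A k Tf) :
    ContinuousOn (fun w : Cn (d + m) => (fstL d m w, τ.f (G.Γ (sndL d m w))))
      {w | sndL d m w ∈ G.U ∧ G.Γ (sndL d m w) ∈ τ.W} :=
  (fstL d m).continuous.continuousOn.prodMk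
    ((G.cont_f τ).comp (sndL d m).continuous.continuousOn fun _ hw => hw)

theorem isOpen_dom (τ : Tube A k Tf) :
    IsOpen {w : Cn (d + m) | sndL d m w ∈ G.U ∧ G.Γ (sndL d m w) ∈ τ.W} :=
  (G.isOpen_pre τ.oW).preimage (sndL d m).continuous

theorem isOpen_tg {τ : Tube A k Tf} (S : SpC A τ d) : IsOpen (G.tg S) :=
  (cont_pair τ).isOpen_inter_preimage (isOpen_dom τ) S.χ.open_target

theorem ix_mem {τ : Tube A k Tf} (S : SpC A τ d) {w : Cn (d + m)} (hw : w ∈ G.tg S) :
    ix (G := G) S w ∈ S.χ.source := S.χ.map_target hw.2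

theorem χ_ix {τ : Tube A k Tf} (S : SpC A τ d) {w : Cn (d + m)} (hw : w ∈ G.tg S) :
    S.χ (ix (G := G) S w) = (fstL d m w, τ.f (G.Γ (sndL d m w))) := S.χ.right_inv hw.2

theorem ix_ok {τ : Tube A k Tf} (S : SpC A τ d) {w : Cn (d + m)} (hw : w ∈ G.tg S) :
    sndL d m w ∈ G.U ∧ ix (G := G) S w ∈ Tf (G.Γ (sndL d m w)) := by
  refine mem_of_tube τ hw.1.1 hw.1.2 (S.sub (ix_mem S hw)) ?_
  rw [← S.snd _ (ix_mem S hw), χ_ix S hw]

open Classical in
/-- the adapted chart -/
def vch [Nonempty G.V] {τ : Tube A k Tf} (S : SpC A τ d) :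
    OpenPartialHomeomorph G.V (Cn (d + m)) where
  toFun v := app (S.χ (ii v)).1 (yy v)
  invFun w := if h : w ∈ G.tg S then ⟨sndL d m w, ix (G := G) S w, (ix_ok S h).1, (ix_ok S h).2⟩
    else Classical.arbitrary _
  source := {v | ii v ∈ S.χ.source ∧ G.Γ (yy v) ∈ τ.W}
  target := G.tg S
  map_source' := by
    rintro v ⟨h1, h2⟩
    have h3 := ii_tube τ h2
    refine ⟨⟨?_, ?_⟩, ?_⟩
    · rw [sndL_app]; exact yy_mem v
    · rw [sndL_app]; exact h2
    · rw [sndL_app, fstL_app, ← h3.2, ← S.snd _ h1]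
      exact S.χ.map_source h1
  map_target' := by
    intro w hw
    simp only [hw, dite_true]
    exact ⟨ix_mem S hw, hw.1.2⟩
  left_inv' := by
    rintro v ⟨h1, h2⟩
    have h3 := ii_tube τ h2
    have hw : app (S.χ (ii v)).1 (yy v) ∈ G.tg S := by
      refine ⟨⟨?_, ?_⟩, ?_⟩
      · rw [sndL_app]; exact yy_mem v
      · rw [sndL_app]; exact h2
      · rw [sndL_app, fstL_app, ← h3.2, ← S.snd _ h1]
        exact S.χ.map_source h1
    simp only [hw, dite_true]
    refine V.ext ?_ ?_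
    · show sndL d m (app (S.χ (ii v)).1 (yy v)) = yy v
      rw [sndL_app]
    · show S.χ.symm (fstL d m (app (S.χ (ii v)).1 (yy v)),
        τ.f (G.Γ (sndL d m (app (S.χ (ii v)).1 (yy v))))) = ii v
      rw [sndL_app, fstL_app, ← h3.2, ← S.snd _ h1]
      exact S.χ.left_inv h1
  right_inv' := by
    intro w hw
    simp only [hw, dite_true]
    show app (S.χ (ix (G := G) S w)).1 (sndL d m w) = w
    rw [χ_ix S hw]
    exact app_fstL_sndL w
  open_source := by
    exact (S.χ.open_source.preimage continuous_ii).inter (τ.oW.preimage continuous_Γ)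
  open_target := isOpen_tg S
  continuousOn_toFun := by
    have h1 : ContinuousOn (fun v : G.V => (S.χ (ii v)).1)
        {v | ii v ∈ S.χ.source ∧ G.Γ (yy v) ∈ τ.W} :=
      continuous_fst.comp_continuousOn
        (S.χ.continuousOn.comp continuous_ii.continuousOn fun v hv => hv.1)
    have h2 := (appL d m).continuous.comp_continuousOn (h1.prodMk continuous_yy.continuousOn)
    exact h2
  continuousOn_invFun := by
    rw [isEmbedding_pr.isInducing.continuousOn_iff]
    have h2 : ContinuousOn (fun w => ix (G := G) S w) (G.tg S) :=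
      S.χ.symm.continuousOn.comp ((cont_pair τ).mono fun w hw => hw.1) fun w hw => hw.2
    refine ((sndL d m).continuous.continuousOn.prodMk h2).congr fun w hw => ?_
    simp only [Function.comp, hw, dite_true]
    rfl

variable [Nonempty G.V]

theorem vch_apply {τ : Tube A k Tf} (S : SpC A τ d) (v : G.V) :
    vch S v = app (S.χ (ii v)).1 (yy v) := rfl

theorem vch_symm {τ : Tube A k Tf} (S : SpC A τ d) {w : Cn (d + m)} (hw : w ∈ (vch (G := G) S).target) :
    ii ((vch (G := G) S).symm w) = ix (G := G) S w ∧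
      yy ((vch (G := G) S).symm w) = sndL d m w := by
  have hw' : w ∈ G.tg S := hw
  have h1 : (vch (G := G) S).symm w =
      ⟨sndL d m w, ix (G := G) S w, (ix_ok S hw').1, (ix_ok S hw').2⟩ := dif_pos hw'
  rw [h1]
  exact ⟨rfl, rfl⟩

theorem diff_pair (τ : Tube A k Tf) {w : Cn (d + m)}
    (hw : sndL d m w ∈ G.U ∧ G.Γ (sndL d m w) ∈ τ.W) :
    DifferentiableAt ℂ (fun w : Cn (d + m) => (fstL d m w, τ.f (G.Γ (sndL d m w)))) w := by
  refine (fstL d m).differentiableAt.prodMk ?_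
  exact DifferentiableAt.comp w (g := fun u => τ.f (G.Γ u)) (f := sndL d m)
    (G.diff_f τ hw.1 hw.2) (sndL d m).differentiableAt

/-- `ii` is holomorphic in the charts -/
theorem diff_ix {τ : Tube A k Tf} (S : SpC A τ d) {w : Cn (d + m)} (hw : w ∈ G.tg S) {i : A.ι}
    (hi : ix (G := G) S w ∈ (A.e i).source) :
    DifferentiableAt ℂ (fun w => A.e i (ix (G := G) S w)) w := by
  have h1 : DifferentiableAt ℂ (fun w => A.e i (S.χ.symm w))
      (fstL d m w, τ.f (G.Γ (sndL d m w))) :=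
    (S.hol i).differentiableAt
      ((S.χ.isOpen_inter_preimage_symm (A.e i).open_source).mem_nhds ⟨hw.2, hi⟩)
  exact DifferentiableAt.comp w (g := fun w => A.e i (S.χ.symm w))
    (f := fun w : Cn (d + m) => (fstL d m w, τ.f (G.Γ (sndL d m w)))) h1 (diff_pair τ hw.1)

theorem cont_ix {τ : Tube A k Tf} (S : SpC A τ d) : ContinuousOn (fun w => ix (G := G) S w) (G.tg S) :=
  S.χ.symm.continuousOn.comp ((cont_pair τ).mono fun w hw => hw.1) fun w hw => hw.2

/-- the indices of the big atlas -/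
def IX (A : Atl N M) (Tf : M → Set M) (k d : ℕ) : Type := Σ τ : Tube A k Tf, SpC A τ d

theorem holo_vch {τ τ' : Tube A k Tf} (S : SpC A τ d) (S' : SpC A τ' d) :
    DifferentiableOn ℂ (fun w => vch (G := G) S' ((vch (G := G) S).symm w))
      {w | w ∈ (vch (G := G) S).target ∧ (vch (G := G) S).symm w ∈ (vch (G := G) S').source} := by
  intro w hw
  have hwt : w ∈ G.tg S := hw.1
  obtain ⟨h1, h2⟩ := vch_symm (G := G) S hw.1
  have h3 : ix (G := G) S w ∈ S'.χ.source := by
    rw [← h1]; exact hw.2.1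
  obtain ⟨i, hi⟩ := A.cover (ix (G := G) S w)
  have h4 := diff_ix (G := G) S hwt hi
  have h5 : DifferentiableAt ℂ (fun z => S'.χ ((A.e i).symm z)) (A.e i (ix (G := G) S w)) := by
    refine (S'.hol' i).differentiableAt
      (((A.e i).isOpen_inter_preimage_symm S'.χ.open_source).mem_nhds
        ⟨(A.e i).map_source hi, ?_⟩)
    rw [mem_preimage, (A.e i).left_inv hi]
    exact h3
  have h6 := DifferentiableAt.comp w (g := fun z => S'.χ ((A.e i).symm z))
    (f := fun w => A.e i (ix (G := G) S w)) h5 h4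
  have h8 : DifferentiableAt ℂ (fun w : Cn (d + m) => appL d m
      ((((fun z => S'.χ ((A.e i).symm z)) ∘ (fun w => A.e i (ix (G := G) S w))) w).1,
        sndL d m w)) w :=
    (appL d m).differentiableAt.comp w (h6.fst.prodMk (sndL d m).differentiableAt)
  refine (h8.congr_of_eventuallyEq ?_).differentiableWithinAt
  have h9 : (G.tg S ∩ (fun w => ix (G := G) S w) ⁻¹' (A.e i).source) ∈ 𝓝 w :=
    ((cont_ix S).isOpen_inter_preimage (isOpen_tg S) (A.e i).open_source).mem_nhds ⟨hwt, hi⟩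
  filter_upwards [h9] with w' hw'
  obtain ⟨g1, g2⟩ := vch_symm (G := G) S (w := w') hw'.1
  rw [vch_apply, g1, g2]
  simp only [Function.comp, appL_apply]
  rw [(A.e i).left_inv hw'.2]

end BM

end

end Crest.Agent.R281.S6V_664
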