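import Crest.Agent.R266.SCV
import Crest.Agent.R275.Geo_509

/-!
# Row 281 (S0424), S-ASM (helper790): Cauchy estimates for all real derivatives

* `cauchy_iter` : `F` holomorphic, `‖F‖ ≤ B` on `ball z₀ R` ⟹ `‖D^j F(z₀)‖ ≤ C_j B / R^j`
* `log_iter`    : `ω` holomorphic on `ball z₀ R`, `a ≤ |ω|² ≤ b`, `0 < a` ⟹
                  `‖D^j log|ω|² (z₀)‖ ≤ K_j / R^j` for `j ≥ 1`
-/

set_option autoImplicit false
set_option linter.unusedSectionVars false

open Set Filter Topology Complex Metric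
open scoped ContDiff ComplexConjugate

namespace Crest.Agent.R281.SCau_790

open Crest.Agent.R266.SCV Crest.Agent.R275.Geo

noncomputable section

universe u

variable {n : ℕ}

theorem norm_restrictScalarsL_le {G : Type u} [NormedAddCommGroup G] [NormedSpace ℂ G] :
    ‖ContinuousLinearMap.restrictScalarsL ℂ (Cn n) G ℝ ℝ‖ ≤ 1 :=
  ContinuousLinearMap.opNorm_le_bound _ zero_le_one fun L => by
    rw [one_mul]
    exact le_of_eq (ContinuousLinearMap.norm_restrictScalars L)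

/-- Cauchy estimates for the real derivatives, at the centre -/
theorem cauchy_iter (n j : ℕ) : ∃ C : ℝ, 0 ≤ C ∧ ∀ {G : Type u} [NormedAddCommGroup G]
    [NormedSpace ℂ G] [CompleteSpace G] (F : Cn n → G) (z₀ : Cn n) (R B : ℝ), 0 < R →
    DifferentiableOn ℂ F (ball z₀ R) → (∀ z ∈ ball z₀ R, ‖F z‖ ≤ B) →
    ‖iteratedFDeriv ℝ j F z₀‖ ≤ C * B / R ^ j := by
  induction j with
  | zero =>
    refine ⟨1, zero_le_one, fun F z₀ R B hR hF hB => ?_⟩
    rw [norm_iteratedFDeriv_zero, pow_zero, div_one, one_mul]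
    exact hB z₀ (mem_ball_self hR)
  | succ j ih =>
    obtain ⟨C, hC, h⟩ := ih
    refine ⟨2 ^ (j + 1) * C, by positivity, fun {G} _ _ _ F z₀ R B hR hF hB => ?_⟩
    have hR2 : 0 < R / 2 := by positivity
    have hsub : ball z₀ (R / 2) ⊆ ball z₀ R := ball_subset_ball (by linarith)
    have h1 : DifferentiableOn ℂ (fderiv ℂ F) (ball z₀ (R / 2)) :=
      ((analyticOnNhd_of_differentiableOn isOpen_ball hF).fderiv.differentiableOn).mono hsub
    have h2 : ∀ z ∈ ball z₀ (R / 2), ‖fderiv ℂ F z‖ ≤ B / (R / 2) := by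
      intro z hz
      have h3 : ball z (R / 2) ⊆ ball z₀ R := by
        refine ball_subset_ball' ?_
        rw [mem_ball] at hz
        linarith
      exact norm_fderiv_le_of_ball hR2 (hF.mono h3) fun y hy => hB y (h3 hy)
    have h4 := h (fderiv ℂ F) z₀ (R / 2) (B / (R / 2)) hR2 h1 h2
    have h5 : fderiv ℝ F =ᶠ[𝓝 z₀]
        (ContinuousLinearMap.restrictScalarsL ℂ (Cn n) G ℝ ℝ) ∘ (fderiv ℂ F) := by
      filter_upwards [isOpen_ball.mem_nhds (mem_ball_self hR)] with z hz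
      exact (hF.differentiableAt (isOpen_ball.mem_nhds hz)).fderiv_restrictScalars ℝ
    rw [← norm_iteratedFDeriv_fderiv, (h5.iteratedFDeriv ℝ j).eq_of_nhds]
    have h6 : ContDiffAt ℝ j (fderiv ℂ F) z₀ :=
      (((contDiffOn_omega_of_differentiableOn isOpen_ball h1).restrict_scalars ℝ).contDiffAt
        (isOpen_ball.mem_nhds (mem_ball_self hR2))).of_le le_top
    have h7 := ContinuousLinearMap.norm_iteratedFDeriv_comp_left
      (ContinuousLinearMap.restrictScalarsL ℂ (Cn n) G ℝ ℝ) h6 le_rfl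
    refine h7.trans ?_
    calc ‖ContinuousLinearMap.restrictScalarsL ℂ (Cn n) G ℝ ℝ‖ * ‖iteratedFDeriv ℝ j (fderiv ℂ F) z₀‖
        ≤ 1 * (C * (B / (R / 2)) / (R / 2) ^ j) := by
          gcongr
          exact norm_restrictScalarsL_le
      _ = 2 ^ (j + 1) * C * B / R ^ (j + 1) := by
          rw [div_pow]
          field_simp
          ring

/-- Cauchy estimates on the half ball -/
theorem cauchy_half (n j : ℕ) : ∃ C : ℝ, 0 ≤ C ∧ ∀ {G : Type u} [NormedAddCommGroup G]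
    [NormedSpace ℂ G] [CompleteSpace G] (F : Cn n → G) (z₀ : Cn n) (R B : ℝ), 0 < R →
    DifferentiableOn ℂ F (ball z₀ R) → (∀ z ∈ ball z₀ R, ‖F z‖ ≤ B) →
    ∀ z ∈ ball z₀ (R / 2), ‖iteratedFDeriv ℝ j F z‖ ≤ C * B / R ^ j := by
  obtain ⟨C, hC, h⟩ := cauchy_iter.{u} n j
  refine ⟨2 ^ j * C, by positivity, fun F z₀ R B hR hF hB z hz => ?_⟩
  have h3 : ball z (R / 2) ⊆ ball z₀ R := by
    refine ball_subset_ball' ?_
    rw [mem_ball] at hz
    linarith
  refine (h F z (R / 2) B (by positivity) (hF.mono h3) fun y hy => hB y (h3 hy)).trans ?_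
  rw [div_pow]
  apply le_of_eq
  field_simp

/-- the linear map `L ↦ 2 Re L` -/
def twoRe (n : ℕ) : (Cn n →L[ℂ] ℂ) →L[ℝ] (Cn n →L[ℝ] ℝ) :=
  (2 : ℝ) • ((ContinuousLinearMap.compL ℝ (Cn n) ℂ ℝ Complex.reCLM).comp
    (ContinuousLinearMap.restrictScalarsL ℂ (Cn n) ℂ ℝ ℝ))

theorem twoRe_apply (L : Cn n →L[ℂ] ℂ) (v : Cn n) : twoRe n L v = 2 * (L v).re := rfl

theorem fderiv_log_norm {om : Cn n → ℂ} {z : Cn n} (hom : DifferentiableAt ℂ om z) (h0 : om z ≠ 0) :
    fderiv ℝ (fun w => Real.log (‖om w‖ ^ 2)) z = twoRe n ((om z)⁻¹ • fderiv ℂ om z) := by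
  have h1 : HasFDerivAt om ((fderiv ℂ om z).restrictScalars ℝ) z := hom.hasFDerivAt.restrictScalars ℝ
  have h2 := h1.norm_sq
  have hne : ‖om z‖ ^ 2 ≠ 0 := by positivity
  have h3 := h2.log hne
  rw [h3.fderiv]
  ext v
  rw [twoRe_apply]
  simp only [_root_.smul_apply, ContinuousLinearMap.comp_apply, innerSL_apply_apply,
    ContinuousLinearMap.coe_restrictScalars', smul_eq_mul]
  have h4 : ((om z)⁻¹ * (fderiv ℂ om z) v).re = (‖om z‖ ^ 2)⁻¹ * (conj (om z) * (fderiv ℂ om z) v).re := by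
    rw [Complex.inv_def, Complex.normSq_eq_norm_sq]
    rw [mul_comm (conj (om z)) _, mul_assoc, Complex.re_ofReal_mul]
  rw [h4]
  have h5 : inner ℝ (om z) ((fderiv ℂ om z) v) = (conj (om z) * (fderiv ℂ om z) v).re := by
    rw [Complex.inner, mul_comm]
  rw [h5, nsmul_eq_mul]
  push_cast
  ring

/-- all derivatives of `log |om|²` -/
theorem log_iter (n j : ℕ) (a b : ℝ) (ha : 0 < a) : ∃ C : ℝ, 0 ≤ C ∧
    ∀ (om : Cn n → ℂ) (z₀ : Cn n) (R : ℝ), 0 < R → DifferentiableOn ℂ om (ball z₀ R) →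
    (∀ z ∈ ball z₀ R, a ≤ ‖om z‖ ^ 2 ∧ ‖om z‖ ^ 2 ≤ b) →
    ∀ z ∈ ball z₀ (R / 2), ‖iteratedFDeriv ℝ (j + 1) (fun w => Real.log (‖om w‖ ^ 2)) z‖ ≤
      C / R ^ (j + 1) := by
  obtain ⟨C, hC, h⟩ := cauchy_iter.{0} n j
  refine ⟨‖twoRe n‖ * (C * (4 * Real.sqrt b / Real.sqrt a) * 4 ^ j), by positivity,
    fun om z₀ R hR hom hab z hz => ?_⟩
  have hb : 0 ≤ b := (ha.le.trans (hab z₀ (mem_ball_self hR)).1).trans (hab z₀ (mem_ball_self hR)).2
  have hR4 : 0 < R / 4 := by positivity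
  have h3 : ball z (R / 2) ⊆ ball z₀ R := by
    refine ball_subset_ball' ?_
    rw [mem_ball] at hz
    linarith
  have h3' : ball z (R / 4) ⊆ ball z (R / 2) := ball_subset_ball (by linarith)
  have hne : ∀ y ∈ ball z₀ R, om y ≠ 0 := by
    intro y hy h0
    have := (hab y hy).1
    rw [h0, norm_zero] at this
    norm_num at this
    linarith
  set Θ : Cn n → (Cn n →L[ℂ] ℂ) := fun y => (om y)⁻¹ • fderiv ℂ om y with hΘ
  have hΘd : DifferentiableOn ℂ Θ (ball z (R / 4)) := by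
    have h1 : DifferentiableOn ℂ (fderiv ℂ om) (ball z₀ R) :=
      (analyticOnNhd_of_differentiableOn isOpen_ball hom).fderiv.differentiableOn
    exact ((hom.inv hne).smul h1).mono (h3'.trans h3)
  have hΘb : ∀ y ∈ ball z (R / 4), ‖Θ y‖ ≤ 4 * Real.sqrt b / Real.sqrt a / R := by
    intro y hy
    have h5 : ball y (R / 4) ⊆ ball z (R / 2) := by
      refine ball_subset_ball' ?_
      rw [mem_ball] at hy
      linarith
    have h6 := norm_fderiv_le_of_ball hR4 (hom.mono (h5.trans h3)) (M := Real.sqrt b) fun x hx => by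
      exact Real.le_sqrt_of_sq_le (hab x (h3 (h5 hx))).2
    have h7 : Real.sqrt a ≤ ‖om y‖ := by
      rw [← Real.sqrt_sq (norm_nonneg (om y))]
      exact Real.sqrt_le_sqrt (hab y (h3 (h3' hy))).1
    have hsa : 0 < Real.sqrt a := Real.sqrt_pos.2 ha
    rw [hΘ]
    simp only
    rw [norm_smul, norm_inv]
    calc ‖om y‖⁻¹ * ‖fderiv ℂ om y‖ ≤ (Real.sqrt a)⁻¹ * (Real.sqrt b / (R / 4)) := by
          gcongr
      _ = 4 * Real.sqrt b / Real.sqrt a / R := by
          field_simp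
  have h8 := h Θ z (R / 4) _ hR4 hΘd hΘb
  have h9 : fderiv ℝ (fun w => Real.log (‖om w‖ ^ 2)) =ᶠ[𝓝 z] (twoRe n) ∘ Θ := by
    filter_upwards [isOpen_ball.mem_nhds (mem_ball_self (x := z) hR4)] with y hy
    have hy' := h3 (h3' hy)
    exact fderiv_log_norm (hom.differentiableAt (isOpen_ball.mem_nhds hy')) (hne y hy')
  rw [← norm_iteratedFDeriv_fderiv, (h9.iteratedFDeriv ℝ j).eq_of_nhds]
  have h10 : ContDiffAt ℝ j Θ z :=
    (((contDiffOn_omega_of_differentiableOn isOpen_ball hΘd).restrict_scalars ℝ).contDiffAt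
      (isOpen_ball.mem_nhds (mem_ball_self hR4))).of_le le_top
  have h11 := ContinuousLinearMap.norm_iteratedFDeriv_comp_left (twoRe n) h10 le_rfl
  refine h11.trans ?_
  calc ‖twoRe n‖ * ‖iteratedFDeriv ℝ j Θ z‖
      ≤ ‖twoRe n‖ * (C * (4 * Real.sqrt b / Real.sqrt a / R) / (R / 4) ^ j) := by gcongr
    _ = ‖twoRe n‖ * (C * (4 * Real.sqrt b / Real.sqrt a) * 4 ^ j) / R ^ (j + 1) := by
        rw [div_pow]
        field_simp
        ring

end

end Crest.Agent.R281.SCau_790
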