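import Crest.Agent.R281.Nme1_989
import Crest.Agent.R281.As3_957
import Crest.Agent.R281.AlgDefs_998

/-!
# R281 (S0424), SDAT-RAY (helper273), part 1: the coordinate of the end and the period

* `NF Y r h k C` : normal form `τ = r z + h (q z)` of the period at the end, inverse `k` on `{Y < Im τ}`
* `NF.k_per`     : `k (r z + h (q z)) = z` for high `z`
* `NF.im_per`, `NF.im_k` : `Im τ` and `L = 2π Im z` are comparable
* `mem_all`      : a cusp has members over every `τ` with `Y < Im τ`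
-/

set_option autoImplicit false
set_option linter.unusedSectionVars false
set_option linter.style.haveILetI false

open Set Filter Topology Complex
open scoped ContDiff

noncomputable section

namespace Crest.Agent.R281.SDR_273

open Crest.Agent.R281.Esc1_989 Crest.Agent.R281.Ends2_989 Crest.Agent.R281.Ends3_989
open Crest.Agent.R281.Ends4_989 Crest.Agent.R281.As_957 Crest.Agent.R281.Nme_989
open Crest.Agent.R281.Alg_998 Crest.Agent.R281.HkR_835

/-- normal form of the period at the end -/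
structure NF (Y r : ℝ) (h k : ℂ → ℂ) (C : ℝ) : Prop where
  r_pos : 0 < r
  h_diff : DifferentiableOn ℂ h (Metric.ball 0 (Real.exp (-(2 * Real.pi))))
  k_im : ∀ τ : ℂ, Y < τ.im → 1 < (k τ).im
  k_inv : ∀ τ : ℂ, Y < τ.im → (r : ℂ) * k τ + h (qq (k τ)) = τ
  k_bd : ∀ τ : ℂ, Y < τ.im → ‖(r : ℂ) * k τ - τ‖ ≤ C

/-- the period as a function of the coordinate of the end -/
def per (r : ℝ) (h : ℂ → ℂ) (z : ℂ) : ℂ := (r : ℂ) * z + h (qq z)

namespace NF

variable {Y r C : ℝ} {h k : ℂ → ℂ} (F : NF Y r h k C)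
include F

theorem C_nonneg : 0 ≤ C := by
  have h1 := F.k_bd (((Y + 1 : ℝ) : ℂ) * I) (by simp)
  exact (norm_nonneg _).trans h1

theorem bound : ∃ B T : ℝ, 0 ≤ B ∧ ∀ z : ℂ, T < z.im → ‖h (qq z)‖ ≤ B := by
  have hnhds : Metric.ball (0 : ℂ) (Real.exp (-(2 * Real.pi))) ∈ 𝓝 (0 : ℂ) :=
    Metric.ball_mem_nhds _ (Real.exp_pos _)
  have hcont : ContinuousAt h 0 := (F.h_diff.differentiableAt hnhds).continuousAt
  have hev : ∀ᶠ q in 𝓝 (0 : ℂ), ‖h q‖ < ‖h 0‖ + 1 :=
    hcont.norm.eventually (gt_mem_nhds (by linarith))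
  obtain ⟨ρ, hρ, hb⟩ := Metric.eventually_nhds_iff.1 hev
  obtain ⟨T, hT⟩ := norm_qq_lt_of hρ
  exact ⟨‖h 0‖ + 1, T, by positivity, fun z hz => (hb (by simpa using hT z hz)).le⟩

theorem abs_im_k {τ : ℂ} (hτ : Y < τ.im) : |r * (k τ).im - τ.im| ≤ C := by
  have h1 := F.k_bd τ hτ
  have h2 : ((r : ℂ) * k τ - τ).im = r * (k τ).im - τ.im := by simp
  rw [← h2]
  exact (Complex.abs_im_le_norm _).trans h1

theorem abs_im_per : ∃ B T : ℝ, 0 ≤ B ∧ ∀ z : ℂ, T < z.im → |(per r h z).im - r * z.im| ≤ B := by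
  obtain ⟨B, T, hB, hT⟩ := F.bound
  refine ⟨B, T, hB, fun z hz => ?_⟩
  have h2 : (per r h z).im - r * z.im = (h (qq z)).im := by simp [per]
  rw [h2]
  exact (Complex.abs_im_le_norm _).trans (hT z hz)

/-- `k` inverts the period high up -/
theorem k_per : ∃ T : ℝ, ∀ z : ℂ, T < z.im → Y < (per r h z).im ∧ k (per r h z) = z := by
  obtain ⟨T₀, hinj, -⟩ := exists_inv F.r_pos (Real.exp_pos _) F.h_diff
  obtain ⟨B, T₁, hB, hT₁⟩ := F.abs_im_per
  have hr := F.r_pos
  have hC := F.C_nonneg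
  refine ⟨max (max T₀ T₁) (max ((Y + B) / r) (T₀ + (B + C) / r)), fun z hz => ?_⟩
  have z0 : T₀ < z.im := ((le_max_left _ _).trans (le_max_left _ _)).trans_lt hz
  have z1 : T₁ < z.im := ((le_max_right _ _).trans (le_max_left _ _)).trans_lt hz
  have z2 : (Y + B) / r < z.im := ((le_max_left _ _).trans (le_max_right _ _)).trans_lt hz
  have z3 : T₀ + (B + C) / r < z.im := ((le_max_right _ _).trans (le_max_right _ _)).trans_lt hz
  have h1 := abs_le.1 (hT₁ z z1)
  rw [div_lt_iff₀ hr] at z2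
  have hY : Y < (per r h z).im := by
    have := h1.1
    nlinarith [mul_comm z.im r]
  refine ⟨hY, ?_⟩
  have h2 := abs_le.1 (F.abs_im_k hY)
  have h3 : T₀ < (k (per r h z)).im := by
    have h4 : r * T₀ + (B + C) < r * z.im := by
      have h5 := mul_lt_mul_of_pos_left z3 hr
      rwa [mul_add, mul_div_cancel₀ _ hr.ne'] at h5
    have h6 : r * T₀ < r * (k (per r h z)).im := by linarith [h2.1, h1.1]
    exact lt_of_mul_lt_mul_left h6 hr.le
  refine hinj _ _ h3 z0 ?_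
  exact F.k_inv _ hY

/-- `Im τ ~ L` at the points of the end -/
theorem im_per : ∃ c0 C0 : ℝ, 0 < c0 ∧ ∀ᶠ z in lEnd,
    c0 * Ls z ≤ (per r h z.1).im ∧ (per r h z.1).im ≤ C0 * Ls z := by
  obtain ⟨B, T, hB, hT⟩ := F.abs_im_per
  have hr := F.r_pos
  have hpi := Real.pi_pos
  refine ⟨r / (4 * Real.pi), r / Real.pi, by positivity, eventually_lEnd.2
    ⟨max T (2 * B / r), fun z hz => ?_⟩⟩
  have z1 : T < z.1.im := (le_max_left _ _).trans_lt hz
  have z2 : 2 * B / r < z.1.im := (le_max_right _ _).trans_lt hz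
  rw [div_lt_iff₀ hr] at z2
  have h1 := abs_le.1 (hT z.1 z1)
  have e1 : r / (4 * Real.pi) * Ls z = r * z.1.im / 2 := by
    unfold Ls
    field_simp
    ring
  have e2 : r / Real.pi * Ls z = 2 * (r * z.1.im) := by
    unfold Ls
    field_simp
  rw [e1, e2]
  constructor <;> nlinarith [h1.1, h1.2, mul_comm z.1.im r]

/-- `Im τ ~ L` for high `τ` -/
theorem im_k : ∃ c0 C0 y0 : ℝ, 0 < c0 ∧ ∀ τ : ℂ, y0 < τ.im → Y < τ.im ∧
    c0 * (2 * Real.pi * (k τ).im) ≤ τ.im ∧ τ.im ≤ C0 * (2 * Real.pi * (k τ).im) := by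
  have hr := F.r_pos
  have hpi := Real.pi_pos
  refine ⟨r / (4 * Real.pi), r / Real.pi, max Y (2 * C), by positivity, fun τ hτ => ?_⟩
  have z1 : Y < τ.im := (le_max_left _ _).trans_lt hτ
  have z2 : 2 * C < τ.im := (le_max_right _ _).trans_lt hτ
  have h1 := abs_le.1 (F.abs_im_k z1)
  have hC := F.C_nonneg
  have e1 : r / (4 * Real.pi) * (2 * Real.pi * (k τ).im) = r * (k τ).im / 2 := by
    field_simp
    ring
  have e2 : r / Real.pi * (2 * Real.pi * (k τ).im) = 2 * (r * (k τ).im) := by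
    field_simp
  rw [e1, e2]
  refine ⟨z1, ?_, ?_⟩ <;> linarith [h1.1, h1.2]

/-- the points over high `τ` are high -/
theorem k_high (T : ℝ) : ∃ y0 : ℝ, ∀ τ : ℂ, y0 < τ.im → Y < τ.im ∧ T < (k τ).im := by
  have hr := F.r_pos
  refine ⟨max Y (r * T + C), fun τ hτ => ?_⟩
  have z1 : Y < τ.im := (le_max_left _ _).trans_lt hτ
  have z2 : r * T + C < τ.im := (le_max_right _ _).trans_lt hτ
  have h1 := abs_le.1 (F.abs_im_k z1)
  exact ⟨z1, lt_of_mul_lt_mul_left (by linarith [h1.1]) hr.le⟩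

end NF

/-! ### members over every point of the half plane -/

section cusp

variable {V X : Type} [NormedAddCommGroup V] [NormedSpace ℝ V] [TopologicalSpace X]
  {C : RCh V X} {Q : F2 C →ₗ[ℝ] F2 C →ₗ[ℝ] ℝ} {F : Frm C Q} {A : F2 C}

/-- a cusp with one member has members over every point of its half plane -/
theorem mem_all (K : Cusp F A) {τ₁ : ℂ} {H₁ : HkT C} (h₁ : K.Mem τ₁ H₁) {τ : ℂ} (hτ : K.Y < τ.im) :
    ∃ H, K.Mem τ H := by
  have h0 := K.mem_im τ₁ H₁ h₁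
  have hst : ContDiff ℝ ∞ stp := stp_contDiff
  have hsm : ContDiff ℝ ∞ fun t : ℝ => τ₁ + ((stp t : ℝ) : ℂ) * (τ - τ₁) := by
    have h1 : ContDiff ℝ ∞ fun t : ℝ => ((stp t : ℝ) : ℂ) := Complex.ofRealCLM.contDiff.comp hst
    exact contDiff_const.add (h1.mul contDiff_const)
  obtain ⟨G, -, -, hG⟩ := K.lift τ₁ H₁ h₁ (fun t => τ₁ + ((stp t : ℝ) : ℂ) * (τ - τ₁)) hsm (by
    intro t
    have h2 : 0 ≤ stp t := Real.smoothTransition.nonneg _
    have h3 : stp t ≤ 1 := Real.smoothTransition.le_one _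
    have h4 : (τ₁ + ((stp t : ℝ) : ℂ) * (τ - τ₁)).im = (1 - stp t) * τ₁.im + stp t * τ.im := by
      simp
      ring
    rw [h4]
    rcases h2.lt_or_eq with h5 | h5
    · nlinarith
    · rw [← h5]
      linarith) (by
    show τ₁ + ((stp 0 : ℝ) : ℂ) * (τ - τ₁) = τ₁
    rw [stp_zero (by norm_num)]
    simp)
  refine ⟨G 1, ?_⟩
  have h5 := hG 1
  have h6 : τ₁ + ((stp 1 : ℝ) : ℂ) * (τ - τ₁) = τ := by
    rw [stp_one (by norm_num)]
    simp
  simp only [h6] at h5
  exact h5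

end cusp

end Crest.Agent.R281.SDR_273
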