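import Crest.Agent.R281.GT14_639
import Crest.Agent.R281.Pfa2_69
import Crest.Agent.R281.Md2_252

/-!
# R281, SDAT-ASM (helper249): members along a scale ==> the literal input `SDat` of Theorem S

`MemS` : one member: `MbV` (639: coordinates `U`, form `sigma`, mass of size `e^{kL} L^n`), metric
`K0` with `|det sigma| = mu det K0`, a metric of `O` with `cur h = kap K0`, volume in `[V1, V2]`.
`sdat_of` : constants `m v C0 c d` such that for every member far out and `K = L K0` the fields of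
`SIn_14.SDat` hold for sections `s_0 .. s_n` of `O^m`, `h^m`.
-/

set_option autoImplicit false
set_option linter.unusedSectionVars false

open Set Filter Topology Complex MeasureTheory
open scoped ContDiff Matrix ComplexConjugate ComplexOrder ENNReal

noncomputable section

namespace Crest.Agent.R281.SDb_249

open Crest.Agent.R275.Geo Crest.Agent.R275.Core144 Crest.Agent.R275.EDR890
open Crest.Agent.R273.Defs_333 Crest.Agent.R273.Kah_333 Crest.Agent.R273.HM_333
open Crest.Agent.R273.SerA_945 (Fn)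
open Crest.Agent.R273.Chow_313 (evF)
open Crest.Agent.R273.Vm_333 Crest.Agent.R273.Vol_333
open Crest.Agent.R281.Defs_273
open Crest.Agent.R281.SIn_14 Crest.Agent.R281.GT_639
open Crest.Agent.R281.TrU_249 (Scale)

variable {n r : ℕ} {R : Type*} [CommRing R] {M : Type} [TopologicalSpace M]

/-- one member -/
structure MemS [MeasurableSpace M] [BorelSpace M] (𝔭 : PrD n r R) (𝔰 : FmD r R) (e : R →+* ℂ)
    (A : Atl n M) [Countable A.ι] (O : LB A) (U : Fin r → Fn A) (σ : HSymp A) (K0 : Kah A)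
    (h : HM O) (κ V1 V2 k c1 C1 L : ℝ) : Prop where
  mbv : MbV 𝔭 𝔰 e A O U σ k c1 C1 L
  curv : ∀ i, ∀ x ∈ (A.e i).source, cur h i x = (κ : ℂ) • K0.g i x
  mu : ∃ mu : ℝ, 0 < mu ∧ ∀ i, ∀ x ∈ (A.e i).source,
    ‖(σ.s i x).det‖ = mu * (K0.g i x).det.re
  v1 : V1 ≤ (vm (volK K0)).real univ
  v2 : (vm (volK K0)).real univ ≤ V2

variable [IsDomain R] [CharZero R] [MeasurableSpace M] [BorelSpace M] [ConnectedSpace M]
  [CompactSpace M] [T2Space M] {𝔭 : PrD n r R} {𝔰 : FmD r R} {T : Type*} {l : Filter T}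
  {ev : T → R →+* ℂ} {L : T → ℝ}

/-- volume of the rescaled metric -/
theorem vol_scale {A : Atl n M} [Countable A.ι] {K0 K : Kah A} {l : ℝ} (hl : 0 ≤ l)
    (hK : ∀ i, ∀ x ∈ (A.e i).source, K.g i x = (l : ℂ) • K0.g i x) :
    (vm (volK K)).real univ = l ^ n * (vm (volK K0)).real univ := by
  have h1 : vm (volK K) = ENNReal.ofReal (l ^ n) • vm (volK K0) := by
    refine Pfa_69.vm_ratio (by positivity) fun i x hx => ?_
    show (K.g i x).det.re = l ^ n * (K0.g i x).det.re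
    rw [hK i x hx, Matrix.det_smul, Fintype.card_fin, ← Complex.ofReal_pow, Complex.re_ofReal_mul]
  rw [h1, measureReal_ennreal_smul_apply, ENNReal.toReal_ofReal (by positivity)]

/-- **SDAT-ASM** -/
theorem sdat_of [l.NeBot] (hS : Scale l ev L) (hD : AlgD 𝔭 𝔰) {κ V1 V2 k c1 C1 : ℝ}
    (hV1 : 0 < V1) (hc1 : 0 < c1)
    (H : ∀ᶠ t in l, ∃ (A : Atl n M) (_ : Countable A.ι) (O : LB A) (U : Fin r → Fn A)
      (σ : HSymp A) (K0 : Kah A) (h : HM O),
      MemS 𝔭 𝔰 (ev t) A O U σ K0 h κ V1 V2 k c1 C1 (L t)) :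
    ∃ (m : ℕ) (v C0 c : ℝ) (d : ℕ), 0 < m ∧ 0 < v ∧ 0 < C0 ∧ 0 < c ∧
      ∀ᶠ t in l, ∀ (A : Atl n M) [Countable A.ι] (O : LB A) (U : Fin r → Fn A)
        (σ : HSymp A) (K0 : Kah A) (h : HM O),
        MemS 𝔭 𝔰 (ev t) A O U σ K0 h κ V1 V2 k c1 C1 (L t) → ∀ K : Kah A,
          (∀ i, ∀ x ∈ (A.e i).source, K.g i x = (L t : ℂ) • K0.g i x) →
          ∃ (s : Fin (n + 1) → A.ι → M → ℂ) (om : A.ι → M → ℂ),
            SDat A K (O ^ m) (pow h m) s om (m * κ) v C0 c d (L t) := by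
  have H' : ∀ᶠ t in l, ∃ (A : Atl n M) (_ : Countable A.ι) (O : LB A) (U : Fin r → Fn A)
      (σ : HSymp A), MbV 𝔭 𝔰 (ev t) A O U σ k c1 C1 (L t) := by
    filter_upwards [H] with t ht
    obtain ⟨A, i, O, U, σ, K0, h, hm⟩ := ht
    exact ⟨A, i, O, U, σ, hm.mbv⟩
  obtain ⟨m, sp, C0, d, hm, hC0, -, hv⟩ := glue23 hS hD hc1 H'
  set v : ℝ := |V2| + V1⁻¹ with hvdef
  have hvpos : 0 < v := by positivity
  obtain ⟨c, hc, hct⟩ := hv v hvpos
  refine ⟨m, v, C0, c, d, hm, hvpos, hC0, hc, ?_⟩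
  filter_upwards [hct, hS.tendsto.eventually_ge_atTop 1] with t h1 hL A _ O U σ K0 h hM K hK
  have hL0 : 0 < L t := by linarith
  obtain ⟨mu, hmu, hdet⟩ := hM.mu
  have hvol := vol_scale hL0.le hK
  have hLn : 0 < L t ^ n := by positivity
  have hlow : v⁻¹ ≤ V1 := by
    rw [inv_le_comm₀ hvpos hV1]
    linarith [abs_nonneg V2]
  have hge : v⁻¹ * L t ^ n ≤ (vm (volK K)).real univ := by
    rw [hvol, mul_comm]
    exact mul_le_mul_of_nonneg_left (hlow.trans hM.v1) hLn.le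
  have hle : (vm (volK K)).real univ ≤ v * L t ^ n := by
    rw [hvol, mul_comm]
    refine mul_le_mul_of_nonneg_right (hM.v2.trans ?_) hLn.le
    have := le_abs_self V2
    have h3 : 0 < V1⁻¹ := inv_pos.2 hV1
    linarith
  have hρ : ∀ i, ∀ x ∈ (A.e i).source,
      (K.g i x).det.re = (L t ^ n * mu⁻¹) * ‖(σ.s i x).det‖ := by
    intro i x hx
    rw [hK i x hx, Matrix.det_smul, Fintype.card_fin, ← Complex.ofReal_pow,
      Complex.re_ofReal_mul, hdet i x hx]
    field_simp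
  have hF := h1 A O U σ hM.mbv K (L t ^ n * mu⁻¹) hρ hle
  obtain ⟨om, ho1, ho2⟩ := Pfa_69.exists_omK σ K0 hmu hL0.le hdet hK
  exact ⟨fun j => evF U ((sp j).map (ev t)), om,
    { hol := hF.hol
      curv := Md_252.hm_curv hL0.ne' hM.curv hK m
      omh := ho1
      omn := ho2
      vol_ge := hge
      vol_le := hle
      deg := hF.deg
      cov := hF.cov
      mass := hF.mass }⟩

end Crest.Agent.R281.SDb_249
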