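import Crest.Agent.R281.SIn_14
import Crest.Agent.R281.Fra3_922

/-!
# Row 281 (S0424), S-ASM (helper790): frame bounds on a ball give the strip of `SIn_14`

`F : M → (Fin n → ℂ)` chartwise holomorphic without zeros on `bX K y R`,
`qf v ≤ (C |dlog F v|)²`, `|dlog F_j v|² ≤ C'² qf v` there, fibres of at most `d` points:
`StripOut K F y C C' R r d ζ0 Lam Φ` (Strip of SIn_14, pinching, the image contains balls).
-/

set_option autoImplicit false
set_option linter.unusedSectionVars false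

open Set Filter Topology Complex Metric Manifold Bundle
open scoped ContDiff Matrix ComplexConjugate Manifold Bundle ComplexOrder

namespace Crest.Agent.R281.SG2_790

open Crest.Agent.R275.Geo
open Crest.Agent.R273.Defs_333
open Crest.Agent.R273.Kah_333
open Crest.Agent.R273.Ric_798 Crest.Agent.R273.RMan_798 Crest.Agent.R273.RMan4_798
open Crest.Agent.R281.Tor_922 Crest.Agent.R281.SAsm_790 Crest.Agent.R281.Fra_922
open Crest.Agent.R281.SIn_14

noncomputable section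

variable {n : ℕ} {M : Type} [TopologicalSpace M] {A : Atl n M}

theorem hasFDerivAt_expPi (z : Fin n → ℂ) :
    HasFDerivAt (expPi : (Fin n → ℂ) → Fin n → ℂ) (ContinuousLinearMap.pi fun j =>
      Complex.exp (z j) • (ContinuousLinearMap.proj j : (Fin n → ℂ) →L[ℂ] ℂ)) z := by
  rw [hasFDerivAt_pi]
  intro j
  have h3 : HasDerivAt Complex.exp (Complex.exp (z j)) (z j) := Complex.hasDerivAt_exp _
  have h4 : HasFDerivAt (fun w : Fin n → ℂ => w j)
    (ContinuousLinearMap.proj j : (Fin n → ℂ) →L[ℂ] ℂ) z :=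
    (ContinuousLinearMap.proj j : (Fin n → ℂ) →L[ℂ] ℂ).hasFDerivAt
  exact h3.comp_hasFDerivAt z h4

theorem fderiv_expPi (z v : Fin n → ℂ) (j : Fin n) :
    fderiv ℂ (expPi : (Fin n → ℂ) → Fin n → ℂ) z v j = Complex.exp (z j) * v j := by
  rw [(hasFDerivAt_expPi z).fderiv]
  simp

theorem jac_mulVec (Φ : (Fin n → ℂ) → M) (i : A.ι) (ζ v : Fin n → ℂ) (b : Fin n) :
    (jac A Φ i ζ *ᵥ v) b = (fderiv ℂ (fun w => A.e i (Φ w)) ζ v) b := by
  have hv : v = ∑ c, v c • (Pi.single c (1 : ℂ) : Fin n → ℂ) := by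
    ext b
    simp [Finset.sum_apply, Pi.single_apply]
  conv_rhs => rw [hv]
  simp only [map_sum, map_smul]
  simp [Matrix.mulVec, dotProduct, jac, mul_comm]

/-- the strip of `SIn_14` over a ball of the manifold -/
structure StripOut [T2Space M] [ConnectedSpace M] (K : Kah A) (F : M → Fin n → ℂ)
    (y : (ofKah K).M) (C C' R r : ℝ) (d : ℕ) (ζ0 : Fin n → ℂ) (Lam : AddSubgroup (Fin n → ℂ))
    (Φ : (Fin n → ℂ) → M) : Prop where
  str : Strip A F d ζ0 r Lam Φ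
  base : Φ ζ0 = y
  mem : ∀ ζ ∈ strip ζ0 r, Φ ζ ∈ bX K y R
  up : ∀ ζ ∈ strip ζ0 r, ∀ i, Φ ζ ∈ (A.e i).source → ∀ v : Fin n → ℂ,
    qf K i (Φ ζ) (fderiv ℂ (fun w => A.e i (Φ w)) ζ v) ≤ C ^ 2 * ∑ j, ‖v j‖ ^ 2
  lo : ∀ ζ ∈ strip ζ0 r, ∀ i, Φ ζ ∈ (A.e i).source → ∀ v : Fin n → ℂ,
    ∑ j, ‖v j‖ ^ 2 ≤ n * C' ^ 2 * qf K i (Φ ζ) (fderiv ℂ (fun w => A.e i (Φ w)) ζ v)
  ball_sub : ∀ ρ : ℝ, C' * ρ ≤ r → ρ ≤ R → bX K y ρ ⊆ Φ '' strip ζ0 r

/-- **frame bounds give the strip** -/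
theorem strip_of_frame [T2Space M] [ConnectedSpace M] [CompactSpace M] (K : Kah A)
    {F : M → Fin n → ℂ} {y : (ofKah K).M} {C C' R r : ℝ} {d : ℕ} (hC : 0 < C) (hC' : 0 ≤ C')
    (hr : 0 < r) (hR : C * (2 * (r + Real.pi * d.factorial)) < R)
    (hF : HolW A (bX K y R) F) (hne : ∀ p ∈ bX K y R, ∀ j, F p j ≠ 0)
    (hb : ∀ i, ∀ x ∈ (A.e i).source, x ∈ bX K y R → ∀ v : Cn n,
      qf K i x v ≤ (C * ‖dlg A F i (A.e i x) v‖) ^ 2)
    (hb' : ∀ i, ∀ x ∈ (A.e i).source, x ∈ bX K y R → ∀ (v : Cn n) j,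
      ‖dlg A F i (A.e i x) v j‖ ^ 2 ≤ C' ^ 2 * qf K i x v)
    (hd : ∀ s : Finset M, (∀ x ∈ s, x ∈ bX K y R) → (∀ a ∈ s, ∀ b ∈ s, F a = F b) →
      s.card ≤ d) :
    ∃ ζ0 Lam Φ, StripOut K F y C C' R r d ζ0 Lam Φ := by
  have hR0 : 0 < R := lt_of_le_of_lt (by positivity) hR
  have hW : IsOpen (ball y R : Set (ofKah K).M) := isOpen_ball
  have hWM : IsOpen (bX K y R) := isOpen_bX K y R
  have hFr : FrameBd (E := EE (2 * n)) (onX K F) (ball y R) C := by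
    refine frameBd K hWM hF hne hC.le fun i z hz hzW v => ?_
    have h1 := hb i ((A.e i).symm z) ((A.e i).map_target hz) hzW v
    rw [qf_eq_G K ((A.e i).map_target hz), (A.e i).right_inv hz] at h1
    exact h1
  have hloc := hFr.isLocalHomeomorphOn hW (finrank_EE n)
  have hlcx := hFr.lcx hC.le hW (finrank_EE n)
  have hy : y ∈ ball y R := mem_ball_self hR0
  have : CompactSpace (ofKah K).M := inferInstanceAs (CompactSpace M)
  set ζ0 : Fin n → ℂ := fun j => Complex.log (F y j) with hζ0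
  have hy0 : expPi ζ0 = onX K F y := funext fun j => Complex.exp_log (hne y hy j)
  obtain ⟨R', hR', hR'R⟩ := exists_between hR
  obtain ⟨Lam, Φ, h⟩ := exists_torusStrip (W := (ball y R : Set (ofKah K).M)) (F := onX K F) hW hloc
    (d := d) (fun s hs hs' => hd s (fun x hx => hs hx) hs') hC.le hlcx (y := y) (ζ0 := ζ0) hy0 hr
    (R := R') hR'.le isClosed_closedBall.isComplete (closedBall_subset_ball hR'R)
  have hx : ∀ ζ ∈ strip ζ0 r, (Φ ζ : M) ∈ bX K y R := fun ζ hζ => h.mem_W ζ hζ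
  have hinj : ∀ ζ ∈ strip ζ0 r, ∀ i, (Φ ζ : M) ∈ (A.e i).source →
      Function.Injective (fderiv ℂ (fun w => F ((A.e i).symm w)) (A.e i (Φ ζ))) :=
    fun ζ hζ i hi => inj_of_bound K hi (hb i (Φ ζ) hi (hx ζ hζ))
  have hkey : ∀ ζ ∈ strip ζ0 r, ∀ i, (Φ ζ : M) ∈ (A.e i).source →
      DifferentiableAt ℂ (fun w => A.e i (Φ w)) ζ ∧
      ∀ v : Fin n → ℂ, dlg A F i (A.e i (Φ ζ)) (fderiv ℂ (fun w => A.e i (Φ w)) ζ v) = v := by
    intro ζ hζ i hi
    have hl : ∀ z ∈ strip ζ0 r, F (Φ z) = expPi z := fun z hz => h.lift z hz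
    obtain ⟨h1, h2⟩ := lift_holo (Ψ := (Φ : (Fin n → ℂ) → M)) (E := expPi) hWM hF
      (isOpen_strip ζ0 r) h.cont (fun z hz => hx z hz) hl hζ
      (hasFDerivAt_expPi ζ).differentiableAt hi (hinj ζ hζ i hi)
    refine ⟨h1, fun v => ?_⟩
    funext j
    unfold dlg
    rw [h2, fderiv_expPi, (A.e i).left_inv hi, hl ζ hζ]
    change Complex.exp (ζ j) * v j / Complex.exp (ζ j) = v j
    rw [mul_comm, mul_div_assoc, div_self (Complex.exp_ne_zero _), mul_one]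
  refine ⟨ζ0, Lam, Φ, ⟨h.le_lat, h.factorial_mem, h.cont, h.lift, h.eq_iff,
    fun ζ hζ i hi => ⟨(hkey ζ hζ i hi).1, fun h0 => ?_⟩⟩, h.base, hx, fun ζ hζ i hi v => ?_,
    fun ζ hζ i hi v => ?_, fun ρ hρ hρR => ?_⟩
  · obtain ⟨v, hv, hv0⟩ := Matrix.exists_mulVec_eq_zero_iff.2 h0
    have h1 : fderiv ℂ (fun w => A.e i (Φ w)) ζ v = 0 := by
      ext b
      have hb2 := jac_mulVec (A := A) (show (Fin n → ℂ) → M from Φ) i ζ v b
      refine hb2.symm.trans ?_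
      rw [hv0]
      rfl
    have h2 := (hkey ζ hζ i hi).2 v
    rw [h1] at h2
    apply hv
    rw [← h2]
    funext j
    simp [dlg]
  · have h2 := (hkey ζ hζ i hi).2 v
    exact (pinch (WithLp.toLp 2 v) _ (hb i (Φ ζ) hi (hx ζ hζ)) (hb' i (Φ ζ) hi (hx ζ hζ))
      (by rw [h2])).1.trans (le_of_eq (by rw [EuclideanSpace.norm_sq_eq]))
  · have h2 := (hkey ζ hζ i hi).2 v
    have h3 := (pinch (WithLp.toLp 2 v) _ (hb i (Φ ζ) hi (hx ζ hζ)) (hb' i (Φ ζ) hi (hx ζ hζ))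
      (by rw [h2])).2
    rw [EuclideanSpace.norm_sq_eq] at h3
    exact h3
  · have h1 := h.ball_subset_image hFr hW hC' (fun p hp v j => up_bound K hWM hF hC'
      (fun i z hz hzW v j => ?_) p hp v j) hr hρ (ball_subset_ball hρR)
    · exact h1
    · have h1 := hb' i ((A.e i).symm z) ((A.e i).map_target hz) hzW v j
      rw [qf_eq_G K ((A.e i).map_target hz), (A.e i).right_inv hz] at h1
      exact h1

end

end Crest.Agent.R281.SG2_790
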