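import Crest.Agent.R281.Glob1_484
import Crest.Agent.R281.LioC3_346
import Crest.Agent.R273.YauMax_635

/-!
# Row 281 (S0424), S-ASM (helper790): the potential on the strip

`Ψ : U ⊆ ℂⁿ → M` continuous, holomorphic in the charts (`HolM A U Ψ`), `s` a section of `L` without
zeros on `Ψ(U)`, `cur h = c⁻¹ K.g`.

* `Jc A Ψ i z`     : Jacobian matrix of `e_i ∘ Ψ`
* `pot h s c Ψ`    : `- c log |s|²_h ∘ Ψ`, smooth on `U` (`pot_smooth`)
* `hess_pot`       : `∂∂̄ pot = Jᵀ g J̄`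
-/

set_option autoImplicit false
set_option linter.unusedSectionVars false

open Set Filter Topology Complex Metric
open scoped ContDiff Matrix ComplexConjugate ComplexOrder

namespace Crest.Agent.R281.SPot_790

open Crest.Agent.R275 Crest.Agent.R275.Geo Crest.Agent.R275.Core144 Crest.Agent.R275.EDR890
open Crest.Agent.R273.Defs_333 Crest.Agent.R273.Hess_333 Crest.Agent.R273.HessB_333
open Crest.Agent.R273.HM_333 Crest.Agent.R273.Kah_333 Crest.Agent.R273.Vol_333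
open Crest.Agent.R281.Glob1_484 (nsM nsM_eq nsM_nonneg sm_nsM hol_at cd_at)

noncomputable section

variable {n : ℕ} {M : Type} [TopologicalSpace M] {A : Atl n M} {L : LB A}

/-- continuous and holomorphic in the charts -/
structure HolM (A : Atl n M) (U : Set (Cn n)) (Ψ : Cn n → M) : Prop where
  cont : ContinuousOn Ψ U
  hol : ∀ i, DifferentiableOn ℂ (fun z => A.e i (Ψ z)) (U ∩ Ψ ⁻¹' (A.e i).source)

/-- Jacobian matrix of `e_i ∘ Ψ` -/
def Jc (A : Atl n M) (Ψ : Cn n → M) (i : A.ι) (z : Cn n) : Matrix (Fin n) (Fin n) ℂ :=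
  Matrix.of fun c a => (fderiv ℂ (fun w => A.e i (Ψ w)) z (EuclideanSpace.single a 1)) c

variable {U : Set (Cn n)} {Ψ : Cn n → M}

theorem HolM.isOpen (h : HolM A U Ψ) (hU : IsOpen U) (i : A.ι) :
    IsOpen (U ∩ Ψ ⁻¹' (A.e i).source) :=
  h.cont.isOpen_inter_preimage hU (A.e i).open_source

theorem HolM.diffAt (h : HolM A U Ψ) (hU : IsOpen U) {i : A.ι} {z : Cn n} (hz : z ∈ U)
    (hi : Ψ z ∈ (A.e i).source) : ∀ᶠ w in 𝓝 z, DifferentiableAt ℂ (fun w => A.e i (Ψ w)) w := by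
  filter_upwards [(h.isOpen hU i).mem_nhds ⟨hz, hi⟩] with w hw
  exact (h.hol i).differentiableAt ((h.isOpen hU i).mem_nhds hw)

theorem HolM.contDiffOn (h : HolM A U Ψ) (hU : IsOpen U) (i : A.ι) :
    ContDiffOn ℝ ∞ (fun z => A.e i (Ψ z)) (U ∩ Ψ ⁻¹' (A.e i).source) :=
  ((Crest.Agent.R266.SCV.contDiffOn_omega_of_differentiableOn (h.isOpen hU i)
    (h.hol i)).restrict_scalars ℝ).of_le le_top

theorem hsf_log_nsM (h : HM L) {s : A.ι → M → ℂ} (hs : IsHS L univ s) {i : A.ι}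
    {x : M} (hx : x ∈ (A.e i).source) (hp : 0 < nsM h s x) :
    hsf A (fun y => Real.log (nsM h s y)) i x = - cur h i x := by
  have hz := (A.e i).map_source hx
  have h0 : s i x ≠ 0 := by
    intro h0
    rw [nsM_eq h hs hx, nsq, h0] at hp
    simp at hp
  have h0' : (fun w => s i ((A.e i).symm w)) (A.e i x) ≠ 0 := by
    show s i ((A.e i).symm (A.e i x)) ≠ 0
    rw [(A.e i).left_inv hx]; exact h0
  have hhol := hol_at hs i hz
  have h1 : (fun z => Real.log (nsM h s ((A.e i).symm z))) =ᶠ[𝓝 (A.e i x)]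
      fun z => Real.log (‖s i ((A.e i).symm z)‖ ^ 2) - h.wt i z := by
    have hc : ContinuousAt (fun w => s i ((A.e i).symm w)) (A.e i x) :=
      hhol.self_of_nhds.continuousAt
    filter_upwards [hc.eventually_ne h0', (A.e i).open_target.mem_nhds hz] with z hz1 hz2
    have hz3 := (A.e i).map_target hz2
    rw [nsM_eq h hs hz3, nsq, HM.wt, Real.log_mul _ (h.pos i _ hz3).ne', sub_neg_eq_add]
    exact pow_ne_zero 2 (norm_ne_zero_iff.2 hz1)
  have hw : ContDiffAt ℝ ∞ (h.wt i) (A.e i x) :=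
    (wt_smooth h i).contDiffAt ((A.e i).open_target.mem_nhds hz)
  have hs2 : ContDiffAt ℝ ∞ (fun z => Real.log (‖s i ((A.e i).symm z)‖ ^ 2)) (A.e i x) := by
    have h3 := ((cd_at hs i).norm_sq ℝ).contDiffAt ((A.e i).open_target.mem_nhds hz)
    exact h3.log (pow_ne_zero 2 (norm_ne_zero_iff.2 h0'))
  show hess (fun z => Real.log (nsM h s ((A.e i).symm z))) (A.e i x) = _
  rw [hess_congr h1, hess_sub hs2 hw, hess_log_norm hhol h0', zero_sub]
  rfl

/-- the potential -/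
def pot (h : HM L) (s : A.ι → M → ℂ) (c : ℝ) (Ψ : Cn n → M) (z : Cn n) : ℝ :=
  -c * Real.log (nsM h s (Ψ z))

theorem log_nsM_smooth (h : HM L) {s : A.ι → M → ℂ} (hs : IsHS L univ s) {i : A.ι} {x : M}
    (hx : x ∈ (A.e i).source) (hp : 0 < nsM h s x) :
    ContDiffAt ℝ ∞ (fun w => Real.log (nsM h s ((A.e i).symm w))) (A.e i x) := by
  have h1 : ContDiffAt ℝ ∞ (fun w => nsM h s ((A.e i).symm w)) (A.e i x) :=
    (sm_nsM h hs i).contDiffAt ((A.e i).open_target.mem_nhds ((A.e i).map_source hx))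
  refine h1.log ?_
  rw [(A.e i).left_inv hx]
  exact hp.ne'

theorem pot_ev (h : HM L) (s : A.ι → M → ℂ) (c : ℝ) (hΨ : HolM A U Ψ) (hU : IsOpen U) {i : A.ι}
    {z : Cn n} (hz : z ∈ U) (hi : Ψ z ∈ (A.e i).source) :
    pot h s c Ψ =ᶠ[𝓝 z] fun w => (fun y => -c * Real.log (nsM h s ((A.e i).symm y)))
      (A.e i (Ψ w)) := by
  filter_upwards [(hΨ.isOpen hU i).mem_nhds ⟨hz, hi⟩] with w hw
  have : (A.e i).symm (A.e i (Ψ w)) = Ψ w := (A.e i).left_inv hw.2
  simp only [pot, this]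

theorem pot_smooth (h : HM L) {s : A.ι → M → ℂ} (hs : IsHS L univ s) (c : ℝ) (hΨ : HolM A U Ψ)
    (hU : IsOpen U) (hne : ∀ z ∈ U, 0 < nsM h s (Ψ z)) : ContDiffOn ℝ ∞ (pot h s c Ψ) U := by
  intro z hz
  obtain ⟨i, hi⟩ := A.cover (Ψ z)
  refine ContDiffAt.contDiffWithinAt ?_
  refine ContDiffAt.congr_of_eventuallyEq ?_ (pot_ev h s c hΨ hU hz hi)
  have h1 : ContDiffAt ℝ ∞ (fun w => A.e i (Ψ w)) z :=
    (hΨ.contDiffOn hU i).contDiffAt ((hΨ.isOpen hU i).mem_nhds ⟨hz, hi⟩)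
  have h2 : ContDiffAt ℝ ∞ (fun y => -c * Real.log (nsM h s ((A.e i).symm y))) (A.e i (Ψ z)) :=
    contDiffAt_const.mul (log_nsM_smooth h hs hi (hne z hz))
  exact ContDiffAt.comp (g := fun y => -c * Real.log (nsM h s ((A.e i).symm y)))
    (f := fun w => A.e i (Ψ w)) z h2 h1

/-- **the Hessian of the potential is the pull-back of the metric** -/
theorem hess_pot (K : Kah A) (h : HM L) {s : A.ι → M → ℂ} (hs : IsHS L univ s) {c : ℝ}
    (hc : c ≠ 0) (hΨ : HolM A U Ψ) (hU : IsOpen U) {z : Cn n} (hz : z ∈ U)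
    (hne : 0 < nsM h s (Ψ z)) {i : A.ι} (hi : Ψ z ∈ (A.e i).source)
    (hcur : cur h i (Ψ z) = (c⁻¹ : ℂ) • K.g i (Ψ z)) :
    hess (pot h s c Ψ) z = (Jc A Ψ i z)ᵀ * K.g i (Ψ z) * (Jc A Ψ i z).map conj := by
  have h2 := log_nsM_smooth h hs hi hne
  have h3 : ContDiffAt ℝ ∞ (fun y => -c * Real.log (nsM h s ((A.e i).symm y))) (A.e i (Ψ z)) :=
    contDiffAt_const.mul h2
  have h4 : hess (fun y => -c * Real.log (nsM h s ((A.e i).symm y))) (A.e i (Ψ z)) =
      K.g i (Ψ z) := by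
    have h5 := hsf_log_nsM h hs hi hne
    have h6 : hess (fun y => -c * Real.log (nsM h s ((A.e i).symm y))) (A.e i (Ψ z)) =
        ((-c : ℝ) : ℂ) • hess (fun y => Real.log (nsM h s ((A.e i).symm y))) (A.e i (Ψ z)) :=
      hess_const_mul (-c) h2
    rw [h6]
    have h7 : hess (fun y => Real.log (nsM h s ((A.e i).symm y))) (A.e i (Ψ z)) =
      - cur h i (Ψ z) := h5
    rw [h7, hcur, smul_neg, smul_smul]
    have hc' : (c : ℂ) ≠ 0 := by exact_mod_cast hc
    push_cast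
    rw [neg_mul, mul_inv_cancel₀ hc', neg_smul, one_smul, neg_neg]
  rw [hess_congr (pot_ev h s c hΨ hU hz hi)]
  ext a b
  rw [hess_comp (u := fun y => -c * Real.log (nsM h s ((A.e i).symm y)))
    (T := fun w => A.e i (Ψ w)) h3 (hΨ.diffAt hU hz hi), h4]
  simp only [Matrix.mul_apply, Matrix.transpose_apply, Matrix.map_apply, Finset.sum_mul]
  rw [Finset.sum_comm]
  rfl

end

end Crest.Agent.R281.SPot_790
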