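import Crest.Agent.R281.SIn_14
import Crest.Agent.R281.SPot1_790

/-!
# Row 281 (S0424), S-ASM (helper790): potential and determinant of the metric on the strip

`Ψ : U ⊆ ℂⁿ → M` holomorphic in charts.
* `Jc_tr`    : `Jc j = Jm i j * Jc i`
* `omJ`      : `det (Jc i z) * om_i (Ψ z)`, independent of `i` (`omJ_eq`), holomorphic (`omJ_diff`)
* `det_pull` : `det (Jᵀ g J̄) = |omJ|²` if `det g = |om|²`
* `pu K Ψ z` : the pulled back metric (chart `ch A (Ψ z)`), `pu_eq`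
-/

set_option autoImplicit false
set_option linter.unusedSectionVars false

open Set Filter Topology Complex Metric
open scoped ContDiff Matrix ComplexConjugate ComplexOrder

namespace Crest.Agent.R281.SPot_790

open Crest.Agent.R275 Crest.Agent.R275.Geo Crest.Agent.R275.Core144 Crest.Agent.R275.EDR890
open Crest.Agent.R273.Defs_333 Crest.Agent.R273.Hess_333 Crest.Agent.R273.HessB_333
open Crest.Agent.R273.HM_333 Crest.Agent.R273.Kah_333 Crest.Agent.R273.Vol_333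
open Crest.Agent.R273.FIb0_597
open Crest.Agent.R281.Glob1_484 (nsM nsM_eq nsM_nonneg sm_nsM hol_at cd_at)

noncomputable section

variable {n : ℕ} {M : Type} [TopologicalSpace M] {A : Atl n M} {L : LB A}
  {U : Set (Cn n)} {Ψ : Cn n → M}

theorem lin_sum (T : Cn n →L[ℂ] Cn n) (v : Cn n) (b : Fin n) :
    (T v) b = ∑ c, (T (EuclideanSpace.single c 1)) b * v c := by
  have hv : v = ∑ c, v c • EuclideanSpace.single c (1 : ℂ) := by
    ext b
    simp [Finset.sum_apply, Pi.single_apply]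
  conv_lhs => rw [hv]
  simp only [map_sum, map_smul]
  simp [Finset.sum_apply, mul_comm]

theorem Jc_tr (hΨ : HolM A U Ψ) (hU : IsOpen U) {i j : A.ι} {z : Cn n} (hz : z ∈ U)
    (hi : Ψ z ∈ (A.e i).source) (hj : Ψ z ∈ (A.e j).source) :
    Jc A Ψ j z = Jm A i j (Ψ z) * Jc A Ψ i z := by
  have h1 : (fun w => A.e j (Ψ w)) =ᶠ[𝓝 z]
      (fun y => A.e j ((A.e i).symm y)) ∘ fun w => A.e i (Ψ w) := by
    filter_upwards [(hΨ.isOpen hU i).mem_nhds ⟨hz, hi⟩] with w hw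
    have : (A.e i).symm (A.e i (Ψ w)) = Ψ w := (A.e i).left_inv hw.2
    simp only [Function.comp, this]
  have h2 : DifferentiableAt ℂ (fun y => A.e j ((A.e i).symm y)) (A.e i (Ψ z)) := by
    have ho : IsOpen (A.ov i j) := isOpen_ov i j
    exact (A.holo i j).differentiableAt (ho.mem_nhds (mem_ov ⟨hi, hj⟩))
  have h3 : DifferentiableAt ℂ (fun w => A.e i (Ψ w)) z := (hΨ.diffAt hU hz hi).self_of_nhds
  have h4 : fderiv ℂ (fun w => A.e j (Ψ w)) z =
      (fderiv ℂ (fun y => A.e j ((A.e i).symm y)) (A.e i (Ψ z))).comp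
        (fderiv ℂ (fun w => A.e i (Ψ w)) z) := by
    rw [h1.fderiv_eq]
    exact fderiv_comp z h2 h3
  ext b a
  rw [Matrix.mul_apply]
  simp only [Jc, Matrix.of_apply, h4, ContinuousLinearMap.comp_apply]
  rw [lin_sum]
  rfl

/-- the pulled back metric -/
def pu (K : Kah A) (Ψ : Cn n → M) (z : Cn n) : Matrix (Fin n) (Fin n) ℂ :=
  (Jc A Ψ (ch A (Ψ z)) z)ᵀ * K.g (ch A (Ψ z)) (Ψ z) * (Jc A Ψ (ch A (Ψ z)) z).map conj

theorem pu_eq (K : Kah A) (hΨ : HolM A U Ψ) (hU : IsOpen U) {i : A.ι} {z : Cn n} (hz : z ∈ U)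
    (hi : Ψ z ∈ (A.e i).source) :
    pu K Ψ z = (Jc A Ψ i z)ᵀ * K.g i (Ψ z) * (Jc A Ψ i z).map conj := by
  have hc := mem_ch A (Ψ z)
  rw [pu, Jc_tr hΨ hU hz hi hc, K.tr i (ch A (Ψ z)) (Ψ z) ⟨hi, hc⟩, Matrix.transpose_mul,
    Matrix.map_mul]
  simp only [mul_assoc]

/-- `det (Jc) * om` -/
def omJ (om : A.ι → M → ℂ) (Ψ : Cn n → M) (z : Cn n) : ℂ :=
  (Jc A Ψ (ch A (Ψ z)) z).det * om (ch A (Ψ z)) (Ψ z)

theorem omJ_eq {om : A.ι → M → ℂ} (hom : IsHS (KB A) univ om) (hΨ : HolM A U Ψ) (hU : IsOpen U)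
    {i : A.ι} {z : Cn n} (hz : z ∈ U) (hi : Ψ z ∈ (A.e i).source) :
    omJ om Ψ z = (Jc A Ψ i z).det * om i (Ψ z) := by
  have hc := mem_ch A (Ψ z)
  rw [omJ, Jc_tr hΨ hU hz hi hc, Matrix.det_mul, hom.tr i (ch A (Ψ z)) (Ψ z) ⟨hi, hc⟩
    (mem_univ _), KB_g ⟨hi, hc⟩]
  ring

theorem Jc_diff (hΨ : HolM A U Ψ) (hU : IsOpen U) {i : A.ι} (c a : Fin n) :
    DifferentiableOn ℂ (fun z => Jc A Ψ i z c a) (U ∩ Ψ ⁻¹' (A.e i).source) := by
  have h1 : DifferentiableOn ℂ (fderiv ℂ (fun w => A.e i (Ψ w))) (U ∩ Ψ ⁻¹' (A.e i).source) :=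
    ((Crest.Agent.R266.SCV.analyticOnNhd_of_differentiableOn (hΨ.isOpen hU i)
      (hΨ.hol i)).fderiv).differentiableOn
  have h2 : DifferentiableOn ℂ (fun z => fderiv ℂ (fun w => A.e i (Ψ w)) z
      (EuclideanSpace.single a 1)) (U ∩ Ψ ⁻¹' (A.e i).source) :=
    h1.clm_apply (differentiableOn_const _)
  exact ((EuclideanSpace.proj c : Cn n →L[ℂ] ℂ).differentiable).comp_differentiableOn h2

theorem omJ_diff {om : A.ι → M → ℂ} (hom : IsHS (KB A) univ om) (hΨ : HolM A U Ψ) (hU : IsOpen U) :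
    DifferentiableOn ℂ (omJ om Ψ) U := by
  intro z hz
  obtain ⟨i, hi⟩ := A.cover (Ψ z)
  have hO := (hΨ.isOpen hU i).mem_nhds ⟨hz, hi⟩
  have h1 : omJ om Ψ =ᶠ[𝓝 z] fun w => (Jc A Ψ i w).det * om i (Ψ w) := by
    filter_upwards [hO] with w hw
    exact omJ_eq hom hΨ hU hw.1 hw.2
  refine DifferentiableAt.differentiableWithinAt ?_
  refine DifferentiableAt.congr_of_eventuallyEq ?_ h1
  have h2 : DifferentiableAt ℂ (fun w => (Jc A Ψ i w).det) z := by
    simp only [Matrix.det_apply]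
    refine DifferentiableAt.fun_sum fun σ _ => ?_
    refine DifferentiableAt.const_smul ?_ _
    have hp : ∀ S : Finset (Fin n), DifferentiableAt ℂ
        (fun w => ∏ b ∈ S, Jc A Ψ i w (σ b) b) z := by
      intro S
      induction S using Finset.induction_on with
      | empty => simp
      | insert b S hb ih =>
        simp only [Finset.prod_insert hb]
        exact ((Jc_diff hΨ hU (σ b) b).differentiableAt hO).mul ih
    exact hp _
  have h3 : DifferentiableAt ℂ (fun w => om i (Ψ w)) z := by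
    have h4 : DifferentiableAt ℂ (fun y => om i ((A.e i).symm y)) (A.e i (Ψ z)) :=
      (hom.hol i).diffAt isOpen_univ hi (mem_univ _)
    have h5 : DifferentiableAt ℂ (fun w => A.e i (Ψ w)) z := (hΨ.diffAt hU hz hi).self_of_nhds
    have h6 := DifferentiableAt.comp (g := fun y => om i ((A.e i).symm y))
      (f := fun w => A.e i (Ψ w)) z h4 h5
    refine h6.congr_of_eventuallyEq ?_
    filter_upwards [hO] with w hw
    have : (A.e i).symm (A.e i (Ψ w)) = Ψ w := (A.e i).left_inv hw.2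
    simp only [Function.comp, this]
  exact h2.mul h3

/-- **determinant of the pulled back metric** -/
theorem det_pu (K : Kah A) {om : A.ι → M → ℂ}
    (homn : ∀ i, ∀ x ∈ (A.e i).source, ‖om i x‖ ^ 2 = (K.g i x).det.re) (z : Cn n) :
    (pu K Ψ z).det = ((‖omJ om Ψ z‖ ^ 2 : ℝ) : ℂ) := by
  have hc := mem_ch A (Ψ z)
  have h1 : (((K.g (ch A (Ψ z)) (Ψ z)).det.re : ℝ) : ℂ) = (K.g (ch A (Ψ z)) (Ψ z)).det :=
    det_real (K.pos _ _ hc).1
  rw [pu, Matrix.det_mul, Matrix.det_mul, Matrix.det_transpose, ← h1, ← homn _ _ hc, omJ, norm_mul,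
    mul_pow]
  have h2 : ((Jc A Ψ (ch A (Ψ z)) z).map conj).det = conj (Jc A Ψ (ch A (Ψ z)) z).det := by
    rw [← RingHom.mapMatrix_apply, ← RingHom.map_det]
  rw [h2]
  push_cast
  rw [← Complex.mul_conj' (Jc A Ψ (ch A (Ψ z)) z).det]
  ring

/-- **the Hessian of the potential is the pulled back metric** -/
theorem hess_pot_pu (K : Kah A) (h : HM L) {s : A.ι → M → ℂ} (hs : IsHS L univ s) {c : ℝ}
    (hc : c ≠ 0) (hΨ : HolM A U Ψ) (hU : IsOpen U)
    (hcur : ∀ i, ∀ x ∈ (A.e i).source, cur h i x = (c⁻¹ : ℂ) • K.g i x) {z : Cn n} (hz : z ∈ U)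
    (hne : 0 < nsM h s (Ψ z)) : hess (pot h s c Ψ) z = pu K Ψ z :=
  hess_pot K h hs hc hΨ hU hz hne (mem_ch A (Ψ z)) (hcur _ _ (mem_ch A (Ψ z)))

end

end Crest.Agent.R281.SPot_790
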