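import Crest.Agent.R281.SG2_790
import Crest.Agent.R281.SPot2_790
import Crest.Agent.R281.LioH_346

/-!
# Row 281 (S0424), S-ASM (helper790): the metric of the strip as a Hermitian form; change of language

* `pbg_dot`, `pbg_herm`, `psd_lo`, `psd_hi` : `pbg K Φ ζ` as a Hermitian matrix, pinching
* `Ps Φ : Cn n → M`, `holM_Ps`, `Jc_Ps`, `pu_Ps` : from `(Fin n → ℂ)` to `Cn n`
* `iter_norm_le` : iterated derivatives on `(Fin n → ℂ)` from those on `Cn n`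
* `pbg_add`      : periodicity
-/

set_option autoImplicit false
set_option linter.unusedSectionVars false

open Set Filter Topology Complex Metric
open scoped ContDiff Matrix ComplexConjugate ComplexOrder

namespace Crest.Agent.R281.SG3_790

open Crest.Agent.R275.Geo Crest.Agent.R275.Core144 Crest.Agent.R275.EDR890
open Crest.Agent.R273.Defs_333 Crest.Agent.R273.Hess_333 Crest.Agent.R273.HessB_333
open Crest.Agent.R273.HM_333 Crest.Agent.R273.Kah_333 Crest.Agent.R273.Vol_333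
open Crest.Agent.R273.FIb0_597 Crest.Agent.R273.YauDefs_635
open Crest.Agent.R281.Tor_922 Crest.Agent.R281.SAsm_790 Crest.Agent.R281.SIn_14
open Crest.Agent.R281.SG2_790 Crest.Agent.R281.SPot_790
open Crest.Agent.R281.Glob1_484 (nsM)

noncomputable section

variable {n : ℕ} {M : Type} [TopologicalSpace M] {A : Atl n M}

/-! ### the pulled back metric as a Hermitian form -/

theorem form_eq (J g : Matrix (Fin n) (Fin n) ℂ) (x : Fin n → ℂ) :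
    star x ⬝ᵥ ((Jᵀ * g * J.map conj) *ᵥ x) = (star (J *ᵥ star x)) ⬝ᵥ (gᵀ *ᵥ (J *ᵥ star x)) := by
  have h1 : (J.map conj) *ᵥ x = star (J *ᵥ star x) := by
    funext b
    simp [Matrix.mulVec, dotProduct]
  rw [← Matrix.mulVec_mulVec, h1, ← Matrix.mulVec_mulVec, Matrix.dotProduct_mulVec,
    Matrix.vecMul_transpose, Matrix.mulVec_transpose, Matrix.dotProduct_mulVec, dotProduct_comm]

theorem pbg_dot (K : Kah A) (Φ : (Fin n → ℂ) → M) (ζ x : Fin n → ℂ) :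
    (star x ⬝ᵥ (pbg K Φ ζ *ᵥ x)).re = qf K (ch A (Φ ζ)) (Φ ζ)
      (fderiv ℂ (fun w => A.e (ch A (Φ ζ)) (Φ w)) ζ (star x)) := by
  have h1 : (fderiv ℂ (fun w => A.e (ch A (Φ ζ)) (Φ w)) ζ (star x)).ofLp =
      jac A Φ (ch A (Φ ζ)) ζ *ᵥ star x := by
    funext b
    exact (jac_mulVec Φ (ch A (Φ ζ)) ζ (star x) b).symm
  rw [pbg, form_eq, qf, h1]

theorem pbg_herm (K : Kah A) (Φ : (Fin n → ℂ) → M) (ζ : Fin n → ℂ) : (pbg K Φ ζ).IsHermitian := by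
  have h1 := (K.pos (ch A (Φ ζ)) (Φ ζ) (mem_ch A (Φ ζ))).1
  have h2 := Matrix.isHermitian_mul_mul_conjTranspose ((jac A Φ (ch A (Φ ζ)) ζ)ᵀ) h1
  have h3 : ((jac A Φ (ch A (Φ ζ)) ζ)ᵀ)ᴴ = (jac A Φ (ch A (Φ ζ)) ζ).map conj := by
    ext a b
    simp [Matrix.conjTranspose_apply]
  rw [h3] at h2
  exact h2

theorem dot_self (x : Fin n → ℂ) : star x ⬝ᵥ x = ((∑ j, ‖x j‖ ^ 2 : ℝ) : ℂ) := by
  simp only [dotProduct, Pi.star_apply, RCLike.star_def]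
  push_cast
  exact Finset.sum_congr rfl fun j _ => Complex.conj_mul' (x j)

theorem herm_dot_real {G : Matrix (Fin n) (Fin n) ℂ} (hG : G.IsHermitian) (x : Fin n → ℂ) :
    star x ⬝ᵥ (G *ᵥ x) = (((star x ⬝ᵥ (G *ᵥ x)).re : ℝ) : ℂ) := by
  have h1 := hG.im_star_dotProduct_mulVec_self x
  apply Complex.ext
  · simp
  · simpa using h1

/-- lower bound of a Hermitian matrix -/
theorem psd_lo {G : Matrix (Fin n) (Fin n) ℂ} (hG : G.IsHermitian) {lo : ℝ}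
    (h : ∀ x : Fin n → ℂ, lo * ∑ j, ‖x j‖ ^ 2 ≤ (star x ⬝ᵥ (G *ᵥ x)).re) :
    (G - ((lo : ℝ) : ℂ) • (1 : Matrix (Fin n) (Fin n) ℂ)).PosSemidef := by
  have h1 : (((lo : ℝ) : ℂ) • (1 : Matrix (Fin n) (Fin n) ℂ)).IsHermitian := by
    rw [Matrix.IsHermitian, Matrix.conjTranspose_smul]
    simp
  refine Matrix.PosSemidef.of_dotProduct_mulVec_nonneg (hG.sub h1) fun x => ?_
  rw [Matrix.sub_mulVec, Matrix.smul_mulVec, Matrix.one_mulVec, dotProduct_sub, dotProduct_smul,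
    herm_dot_real hG, dot_self, smul_eq_mul, ← Complex.ofReal_mul, ← Complex.ofReal_sub]
  have := h x
  exact_mod_cast sub_nonneg.2 this

/-- upper bound of a Hermitian matrix -/
theorem psd_hi {G : Matrix (Fin n) (Fin n) ℂ} (hG : G.IsHermitian) {hi : ℝ}
    (h : ∀ x : Fin n → ℂ, (star x ⬝ᵥ (G *ᵥ x)).re ≤ hi * ∑ j, ‖x j‖ ^ 2) :
    (((hi : ℝ) : ℂ) • (1 : Matrix (Fin n) (Fin n) ℂ) - G).PosSemidef := by
  have h1 : (((hi : ℝ) : ℂ) • (1 : Matrix (Fin n) (Fin n) ℂ)).IsHermitian := by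
    rw [Matrix.IsHermitian, Matrix.conjTranspose_smul]
    simp
  refine Matrix.PosSemidef.of_dotProduct_mulVec_nonneg (h1.sub hG) fun x => ?_
  rw [Matrix.sub_mulVec, Matrix.smul_mulVec, Matrix.one_mulVec, dotProduct_sub, dotProduct_smul,
    herm_dot_real hG, dot_self, smul_eq_mul, ← Complex.ofReal_mul, ← Complex.ofReal_sub]
  have := h x
  exact_mod_cast sub_nonneg.2 this

theorem sum_star (x : Fin n → ℂ) : ∑ j, ‖(star x) j‖ ^ 2 = ∑ j, ‖x j‖ ^ 2 := by simp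

/-- pinching of `pbg` as matrices -/
theorem pbg_lo (K : Kah A) (Φ : (Fin n → ℂ) → M) {ζ : Fin n → ℂ} {lo : ℝ}
    (h : ∀ i, Φ ζ ∈ (A.e i).source → ∀ v : Fin n → ℂ,
      lo * ∑ j, ‖v j‖ ^ 2 ≤ qf K i (Φ ζ) (fderiv ℂ (fun w => A.e i (Φ w)) ζ v)) :
    (pbg K Φ ζ - ((lo : ℝ) : ℂ) • (1 : Matrix (Fin n) (Fin n) ℂ)).PosSemidef :=
  psd_lo (pbg_herm K Φ ζ) fun x => by
    rw [pbg_dot, ← sum_star]
    exact h _ (mem_ch A (Φ ζ)) _

theorem pbg_hi (K : Kah A) (Φ : (Fin n → ℂ) → M) {ζ : Fin n → ℂ} {hi : ℝ}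
    (h : ∀ i, Φ ζ ∈ (A.e i).source → ∀ v : Fin n → ℂ,
      qf K i (Φ ζ) (fderiv ℂ (fun w => A.e i (Φ w)) ζ v) ≤ hi * ∑ j, ‖v j‖ ^ 2) :
    (((hi : ℝ) : ℂ) • (1 : Matrix (Fin n) (Fin n) ℂ) - pbg K Φ ζ).PosSemidef :=
  psd_hi (pbg_herm K Φ ζ) fun x => by
    rw [pbg_dot, ← sum_star]
    exact h _ (mem_ch A (Φ ζ)) _

/-! ### change of language -/

/-- `Cn n ≃ (Fin n → ℂ)` -/
def eN (n : ℕ) : Cn n ≃L[ℂ] (Fin n → ℂ) := EuclideanSpace.equiv (Fin n) ℂ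

theorem eN_apply (z : Cn n) : eN n z = z.ofLp := rfl

theorem eN_symm_apply (ζ : Fin n → ℂ) : (eN n).symm ζ = WithLp.toLp 2 ζ := rfl

theorem eN_single (a : Fin n) : eN n (EuclideanSpace.single a 1) = Pi.single a 1 := by
  funext b
  simp [eN_apply, Pi.single_apply]

/-- the map read on `Cn n` -/
def Ps (Φ : (Fin n → ℂ) → M) (z : Cn n) : M := Φ (eN n z)

theorem fderiv_Ps (Φ : (Fin n → ℂ) → M) (i : A.ι) (z : Cn n) :
    fderiv ℂ (fun w => A.e i (Ps Φ w)) z =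
      (fderiv ℂ (fun w => A.e i (Φ w)) (eN n z)).comp (eN n : Cn n →L[ℂ] (Fin n → ℂ)) :=
  (eN n).comp_right_fderiv (f := fun w => A.e i (Φ w)) (x := z)

theorem Jc_Ps (Φ : (Fin n → ℂ) → M) (i : A.ι) (z : Cn n) :
    Jc A (Ps Φ) i z = jac A Φ i (eN n z) := by
  ext c a
  simp only [Jc, jac, Matrix.of_apply]
  rw [fderiv_Ps, ContinuousLinearMap.comp_apply]
  change (fderiv ℂ (fun w => A.e i (Φ w)) (eN n z) (eN n (EuclideanSpace.single a 1))) c = _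
  rw [eN_single]

theorem pu_Ps (K : Kah A) (Φ : (Fin n → ℂ) → M) (z : Cn n) :
    pu K (Ps Φ) z = pbg K Φ (eN n z) := by
  unfold pu pbg
  rw [Jc_Ps]
  rfl

/-- the strip in `Cn n` -/
def US (ζ0 : Fin n → ℂ) (r : ℝ) : Set (Cn n) := eN n ⁻¹' strip ζ0 r

theorem isOpen_US (ζ0 : Fin n → ℂ) (r : ℝ) : IsOpen (US ζ0 r) :=
  (isOpen_strip ζ0 r).preimage (eN n).continuous

theorem ball_sub_US (ζ0 : Fin n → ℂ) (r : ℝ) : ball ((eN n).symm ζ0) r ⊆ US ζ0 r := by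
  intro z hz
  change ∀ j, |(z j).re - (ζ0 j).re| < r
  intro j
  rw [mem_ball, dist_eq_norm] at hz
  have h1 := PiLp.norm_apply_le (z - (eN n).symm ζ0) j
  have h2 : (z - (eN n).symm ζ0) j = z j - ζ0 j := rfl
  rw [h2] at h1
  rw [← Complex.sub_re]
  exact ((Complex.abs_re_le_norm _).trans h1).trans_lt hz

variable {F : M → Fin n → ℂ} {d : ℕ} {ζ0 : Fin n → ℂ} {r : ℝ} {Lam : AddSubgroup (Fin n → ℂ)}
  {Φ : (Fin n → ℂ) → M}

theorem holM_Ps (h : Strip A F d ζ0 r Lam Φ) : HolM A (US ζ0 r) (Ps Φ) where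
  cont := h.cont.comp (eN n).continuous.continuousOn fun z hz => hz
  hol := by
    intro i z hz
    have h1 := (h.hol (eN n z) hz.1 i hz.2).1
    exact (h1.comp z (eN n).differentiableAt).differentiableWithinAt

theorem Strip.mono' {r' : ℝ} (hr : r' ≤ r) (h : Strip A F d ζ0 r Lam Φ) :
    Strip A F d ζ0 r' Lam Φ := by
  have hs : strip ζ0 r' ⊆ strip ζ0 r := fun ζ hζ j => (hζ j).trans_le hr
  exact ⟨h.le_lat, h.factorial_mem, h.cont.mono hs, fun ζ hζ => h.lift ζ (hs hζ),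
    fun ζ hζ ζ' hζ' => h.eq_iff ζ (hs hζ) ζ' (hs hζ'), fun ζ hζ => h.hol ζ (hs hζ)⟩

/-! ### periodicity -/

theorem map_add (h : Strip A F d ζ0 r Lam Φ) {ζ lam : Fin n → ℂ} (hζ : ζ ∈ strip ζ0 r)
    (hlam : lam ∈ Lam) : Φ (ζ + lam) = Φ ζ := by
  refine (h.eq_iff _ (strip_add_lat hζ (h.le_lat hlam)) _ hζ).2 ?_
  rw [add_sub_cancel_left]
  exact hlam

theorem jac_add (h : Strip A F d ζ0 r Lam Φ) {ζ lam : Fin n → ℂ} (hζ : ζ ∈ strip ζ0 r)
    (hlam : lam ∈ Lam) (i : A.ι) : jac A Φ i (ζ + lam) = jac A Φ i ζ := by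
  have h1 : (fun w => A.e i (Φ (w + lam))) =ᶠ[𝓝 ζ] fun w => A.e i (Φ w) := by
    filter_upwards [(isOpen_strip ζ0 r).mem_nhds hζ] with w hw
    rw [map_add h hw hlam]
  have h2 : fderiv ℂ (fun w => A.e i (Φ w)) (ζ + lam) =
      fderiv ℂ (fun w => A.e i (Φ (w + lam))) ζ :=
    (fderiv_comp_add_right (f := fun w => A.e i (Φ w)) (x := ζ) lam).symm
  unfold jac
  rw [h2, h1.fderiv_eq]

theorem pbg_add (K : Kah A) (h : Strip A F d ζ0 r Lam Φ) {ζ lam : Fin n → ℂ}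
    (hζ : ζ ∈ strip ζ0 r) (hlam : lam ∈ Lam) : pbg K Φ (ζ + lam) = pbg K Φ ζ := by
  unfold pbg
  rw [map_add h hζ hlam, jac_add h hζ hlam]

theorem iter_add (K : Kah A) (h : Strip A F d ζ0 r Lam Φ) {ζ lam : Fin n → ℂ}
    (hζ : ζ ∈ strip ζ0 r) (hlam : lam ∈ Lam) (a b : Fin n) (k : ℕ) :
    iteratedFDeriv ℝ k (fun ζ => pbg K Φ ζ a b) (ζ + lam) =
      iteratedFDeriv ℝ k (fun ζ => pbg K Φ ζ a b) ζ := by
  rw [← iteratedFDeriv_comp_add_right]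
  have h1 : (fun w => pbg K Φ (w + lam) a b) =ᶠ[𝓝 ζ] fun w => pbg K Φ w a b := by
    filter_upwards [(isOpen_strip ζ0 r).mem_nhds hζ] with w hw
    rw [pbg_add K h hw hlam]
  exact (h1.iteratedFDeriv ℝ k).eq_of_nhds

/-! ### iterated derivatives -/

/-- real form of `eN` -/
def eR' (n : ℕ) : Cn n ≃L[ℝ] (Fin n → ℂ) := PiLp.continuousLinearEquiv 2 ℝ (fun _ : Fin n => ℂ)

/-- operator norm of the inverse, at least `1` -/
def Bn (n : ℕ) : ℝ := max 1 ‖((eR' n).symm : (Fin n → ℂ) →L[ℝ] Cn n)‖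

theorem Bn_ge (n : ℕ) : 1 ≤ Bn n := le_max_left _ _

theorem norm_symm_le (ζ : Fin n → ℂ) : ‖(eN n).symm ζ‖ ≤ Bn n * ‖ζ‖ :=
  (((eR' n).symm : (Fin n → ℂ) →L[ℝ] Cn n).le_opNorm ζ).trans
    (mul_le_mul_of_nonneg_right (le_max_right _ _) (norm_nonneg _))

theorem iter_norm_le (g : (Fin n → ℂ) → ℂ) (ζ : Fin n → ℂ) (k : ℕ) :
    ‖iteratedFDeriv ℝ k g ζ‖ ≤
      ‖iteratedFDeriv ℝ k (fun z : Cn n => g (eN n z)) ((eN n).symm ζ)‖ * Bn n ^ k := by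
  have h1 : g = (fun z : Cn n => g (eN n z)) ∘ (eR' n).symm := by
    funext w
    change g w = g (eN n ((eN n).symm w))
    rw [(eN n).apply_symm_apply]
  have h2 := (eR' n).symm.iteratedFDerivWithin_comp_right (fun z : Cn n => g (eN n z))
    (s := univ) uniqueDiffOn_univ (x := ζ) (mem_univ _) k
  rw [preimage_univ, iteratedFDerivWithin_univ, iteratedFDerivWithin_univ, ← h1] at h2
  rw [h2]
  refine (ContinuousMultilinearMap.norm_compContinuousLinearMap_le _ _).trans ?_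
  refine mul_le_mul_of_nonneg_left ?_ (norm_nonneg _)
  rw [Finset.prod_const, Finset.card_univ, Fintype.card_fin]
  exact pow_le_pow_left₀ (norm_nonneg _) (le_max_right _ _) k

end

end Crest.Agent.R281.SG3_790
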