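import Crest.Agent.R273.GreenG_5
import Crest.Agent.R273.StokesV_332

/-!
# R281 (S0424), S6-SK (helper507), part 1: relative closed fields on a family `V → U`

`B : Atl (d + m) V` an atlas in adapted charts (fibre coordinates first, base coordinates last).

* `Ada B y`      : the charts are adapted to `y : V → Cn m`
* `Jf`           : fibre block of the Jacobian matrix; `J_base`, `det_Jm`
* `RCF B C`      : relative closed field of Hermitian type (`d × d` matrices, closed along the fibres)
* `RCF.piola`    : the cofactor matrix is divergence free along the fibres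
* `fib g`        : the fibre block; `rcf_fib : CF B g → RCF B (fib g)`
-/

set_option autoImplicit false
set_option linter.unusedSectionVars false

open Set Filter Topology Complex
open scoped ContDiff Matrix ComplexConjugate

namespace Crest.Agent.R281.SK1_507

open Crest.Agent.R275 Crest.Agent.R275.Geo Crest.Agent.R275.Core144 Crest.Agent.R275.EDR890
open Crest.Agent.R275.Pai323 Crest.Agent.R275.C1d194
open Crest.Agent.R275.SerG398 (lint dens OffZ)
open Crest.Agent.R275.OmT75 (dj dl dl_chain dl_mul db_chain dj_sum dj_congr dbj_congr dj_comp)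
open Crest.Agent.R273.Defs_333 Crest.Agent.R273.Hess_333 Crest.Agent.R273.HessB_333
open Crest.Agent.R273.HM_333 Crest.Agent.R273.Kah_333 Crest.Agent.R273.Vol_333
open Crest.Agent.R273.Piola_5 Crest.Agent.R273.Green_5

noncomputable section

variable {d m : ℕ} {V : Type} [TopologicalSpace V] {B : Atl (d + m) V}

/-- fibre index -/
abbrev fi {d m : ℕ} (a : Fin d) : Fin (d + m) := Fin.castAdd m a
/-- base index -/
abbrev bi {d m : ℕ} (c : Fin m) : Fin (d + m) := Fin.natAdd d c

/-- the charts of `B` are adapted to `y` -/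
structure Ada (B : Atl (d + m) V) (y : V → Cn m) where
  r : B.ι → ℂ
  b : B.ι → Cn m
  r_ne : ∀ i, r i ≠ 0
  eq : ∀ i, ∀ x ∈ (B.e i).source, ∀ c, y x c = r i * (B.e i x) (bi c) + b i c

variable {y : V → Cn m}

/-- fibre block of the Jacobian matrix -/
def Jf (B : Atl (d + m) V) (i j : B.ι) (x : V) : Matrix (Fin d) (Fin d) ℂ :=
  Matrix.of fun a b => B.J i j x (fi a) (fi b)

theorem Jf_apply (i j : B.ι) (x : V) (a b : Fin d) : Jf B i j x a b = B.J i j x (fi a) (fi b) := rfl

theorem single_bi (a : Fin d) (c : Fin m) :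
    (EuclideanSpace.single (fi a) (1 : ℂ) : Cn (d + m)) (bi c) = 0 := by
  rw [PiLp.single_apply, if_neg]
  intro h
  have := congrArg Fin.val h
  simp at this
  omega

theorem mem_ov' {n : ℕ} {A : Atl n V} {i j : A.ι} {x : V}
    (h : x ∈ (A.e i).source ∩ (A.e j).source) : A.e i x ∈ A.ov i j :=
  ⟨(A.e i).map_source h.1, by rw [(A.e i).left_inv h.1]; exact h.2⟩

theorem isOpen_ov' {n : ℕ} {A : Atl n V} (i j : A.ι) : IsOpen (A.ov i j) :=
  (A.e i).isOpen_inter_preimage_symm (A.e j).open_source

theorem J_row (D : Ada B y) {i j : B.ι} {x : V} (hx : x ∈ (B.e i).source ∩ (B.e j).source)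
    (c : Fin m) (k : Fin (d + m)) :
    B.J i j x (bi c) k = D.r i / D.r j * (EuclideanSpace.single k (1 : ℂ) : Cn (d + m)) (bi c) := by
  unfold Atl.J
  have hov : B.e i x ∈ B.ov i j := mem_ov' hx
  have hd : DifferentiableAt ℂ (fun z => B.e j ((B.e i).symm z)) (B.e i x) :=
    (B.holo i j).differentiableAt ((isOpen_ov' i j).mem_nhds hov)
  have h1 : (fun z => (B.e j ((B.e i).symm z)) (bi c)) =ᶠ[𝓝 (B.e i x)]
      fun z => (D.r i * z (bi c) + D.b i c - D.b j c) / D.r j := by
    filter_upwards [(isOpen_ov' i j).mem_nhds hov] with z hz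
    have e1 := D.eq i _ ((B.e i).map_target hz.1) c
    have e2 := D.eq j _ hz.2 c
    rw [(B.e i).right_inv hz.1] at e1
    rw [e1] at e2
    rw [e2]
    field_simp [D.r_ne j]
    ring
  have h2 : HasFDerivAt (fun z : Cn (d + m) => (D.r i * z (bi c) + D.b i c - D.b j c) / D.r j)
      ((D.r i / D.r j) • (EuclideanSpace.proj (bi c) : Cn (d + m) →L[ℂ] ℂ)) (B.e i x) := by
    have e : (fun z : Cn (d + m) => (D.r i * z (bi c) + D.b i c - D.b j c) / D.r j) =
        fun z => ((D.r i / D.r j) • (EuclideanSpace.proj (bi c) : Cn (d + m) →L[ℂ] ℂ)) z +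
          (D.b i c - D.b j c) / D.r j := by
      funext z
      show _ = (D.r i / D.r j) * z (bi c) + _
      field_simp [D.r_ne j]
      ring
    rw [e]
    exact ((D.r i / D.r j) • (EuclideanSpace.proj (bi c) : Cn (d + m) →L[ℂ] ℂ)).hasFDerivAt.add_const
      ((D.b i c - D.b j c) / D.r j)
  have h3 : HasFDerivAt (fun z => (B.e j ((B.e i).symm z)) (bi c))
      ((EuclideanSpace.proj (bi c) : Cn (d + m) →L[ℂ] ℂ).comp
        (fderiv ℂ (fun z => B.e j ((B.e i).symm z)) (B.e i x))) (B.e i x) :=
    (EuclideanSpace.proj (bi c) : Cn (d + m) →L[ℂ] ℂ).hasFDerivAt.comp _ hd.hasFDerivAt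
  have h4 := (h2.congr_of_eventuallyEq h1).unique h3
  have h5 := congrArg (fun T : Cn (d + m) →L[ℂ] ℂ => T (EuclideanSpace.single k 1)) h4
  simpa using h5.symm

theorem J_base (D : Ada B y) {i j : B.ι} {x : V} (hx : x ∈ (B.e i).source ∩ (B.e j).source)
    (c : Fin m) (a : Fin d) : B.J i j x (bi c) (fi a) = 0 := by
  rw [J_row D hx, single_bi, mul_zero]

theorem J_bb (D : Ada B y) {i j : B.ι} {x : V} (hx : x ∈ (B.e i).source ∩ (B.e j).source)
    (c e : Fin m) : B.J i j x (bi c) (bi e) = if c = e then D.r i / D.r j else 0 := by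
  rw [J_row D hx, PiLp.single_apply]
  by_cases h : c = e
  · subst h; simp
  · rw [if_neg h, if_neg, mul_zero]
    intro h'
    exact h (Fin.natAdd_injective m d h')

theorem det_Jm (D : Ada B y) {i j : B.ι} {x : V} (hx : x ∈ (B.e i).source ∩ (B.e j).source) :
    (Jm B i j x).det = (Jf B i j x).det * (D.r i / D.r j) ^ m := by
  rw [← Matrix.det_submatrix_equiv_self finSumFinEquiv (Jm B i j x)]
  have h : (Jm B i j x).submatrix finSumFinEquiv finSumFinEquiv =
      Matrix.fromBlocks (Jf B i j x) (Matrix.of fun a c => B.J i j x (fi a) (bi c)) 0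
        ((D.r i / D.r j) • (1 : Matrix (Fin m) (Fin m) ℂ)) := by
    ext a b
    rcases a with a | a <;> rcases b with b | b
    · simp [Jf]
    · simp
    · simp [J_base D hx]
    · simp only [Matrix.submatrix_apply, finSumFinEquiv_apply_right, Jm_apply,
        Matrix.fromBlocks_apply₂₂, Matrix.smul_apply, Matrix.one_apply, smul_eq_mul]
      rw [J_bb D hx]
      split_ifs <;> simp
  rw [h, Matrix.det_fromBlocks_zero₂₁, Matrix.det_smul, Matrix.det_one, mul_one, Fintype.card_fin]

/-! ### restriction to slices -/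

/-- the slice through `z` in the fibre direction -/
def sl (z : Cn (d + m)) (w : Cn d) : Cn (d + m) :=
  WithLp.toLp 2 (Fin.addCases (fun a => w a) (fun c => z (bi c)))

/-- the fibre coordinates -/
def pr (z : Cn (d + m)) : Cn d := WithLp.toLp 2 fun a => z (fi a)

theorem sl_fi (z : Cn (d + m)) (w : Cn d) (a : Fin d) : sl z w (fi a) = w a := by
  simp [sl, fi]

theorem sl_bi (z : Cn (d + m)) (w : Cn d) (c : Fin m) : sl z w (bi c) = z (bi c) := by
  simp [sl, bi]

theorem sl_pr (z : Cn (d + m)) : sl z (pr z) = z := by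
  ext k
  refine Fin.addCases (fun a => ?_) (fun c => ?_) k
  · rw [sl_fi]; rfl
  · rw [sl_bi]

theorem hasFDerivAt_sl (z : Cn (d + m)) (w : Cn d) :
    ∃ L : Cn d →L[ℂ] Cn (d + m), HasFDerivAt (sl z) L w ∧
      ∀ a b, L (EuclideanSpace.single a 1) b = (EuclideanSpace.single (fi a) (1 : ℂ) : Cn (d + m)) b := by
  have h : ∀ k, ∃ l : Cn d →L[ℂ] ℂ, HasStrictFDerivAt (fun w => sl z w k) l w ∧
      ∀ a, l (EuclideanSpace.single a 1) = (EuclideanSpace.single (fi a) (1 : ℂ) : Cn (d + m)) k := by
    intro k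
    refine Fin.addCases (fun a => ?_) (fun c => ?_) k
    · refine ⟨EuclideanSpace.proj a, ?_, fun e => ?_⟩
      · have : (fun w => sl z w (fi a)) = fun w : Cn d => (EuclideanSpace.proj a : Cn d →L[ℂ] ℂ) w := by
          funext w; rw [sl_fi]; rfl
        show HasStrictFDerivAt (fun w => sl z w (fi a)) _ w
        rw [this]
        exact (EuclideanSpace.proj a : Cn d →L[ℂ] ℂ).hasStrictFDerivAt
      · show (EuclideanSpace.single e (1 : ℂ) : Cn d) a = _
        rw [PiLp.single_apply, PiLp.single_apply]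
        by_cases h : a = e
        · subst h; simp
        · rw [if_neg h, if_neg]
          intro h'
          exact h (Fin.castAdd_injective d m h')
    · refine ⟨0, ?_, fun e => ?_⟩
      · have : (fun w => sl z w (bi c)) = fun _ : Cn d => z (bi c) := by
          funext w; rw [sl_bi]
        show HasStrictFDerivAt (fun w => sl z w (bi c)) _ w
        rw [this]
        exact hasStrictFDerivAt_const _ _
      · exact (single_bi e c).symm
  choose l hl hl' using h
  refine ⟨(EuclideanSpace.equiv (Fin (d + m)) ℂ).symm.toContinuousLinearMap.comp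
    (ContinuousLinearMap.pi l), ?_, fun a b => ?_⟩
  · refine (hasStrictFDerivAt_euclidean.2 fun k => ?_).hasFDerivAt
    exact (hl k).congr_fderiv (by ext v; rfl)
  · rw [← hl' b a]
    rfl

theorem dj_sl {W : Type*} [NormedAddCommGroup W] [NormedSpace ℂ W] {F : Cn (d + m) → W}
    {z : Cn (d + m)} (hF : DifferentiableAt ℝ F z) (a : Fin d) :
    dj a (fun w => F (sl z w)) (pr z) = dj (fi a) F z := by
  obtain ⟨L, hL, hL'⟩ := hasFDerivAt_sl z (pr z)
  have hz := sl_pr z
  have hF' : DifferentiableAt ℝ F (sl z (pr z)) := by rw [hz]; exact hF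
  rw [dj_comp (F := F) (T := sl z) hF' hL.differentiableAt a, hL.fderiv, hz]
  rw [Finset.sum_eq_single (fi a)]
  · rw [hL', PiLp.single_apply, if_pos rfl, one_smul]
  · intro b _ hb
    rw [hL', PiLp.single_apply, if_neg hb, zero_smul]
  · intro h; exact absurd (Finset.mem_univ _) h

theorem wd_sl {W : Type*} [NormedAddCommGroup W] [NormedSpace ℂ W] {F : Cn (d + m) → W}
    {z : Cn (d + m)} (hF : DifferentiableAt ℝ F z) (a : Fin d) :
    wd (false, a) (fun w => F (sl z w)) (pr z) = wd (false, fi a) F z := by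
  rw [← dj_eq_wd, ← dj_eq_wd, dj_sl hF]

/-! ### relative closed fields -/

/-- relative closed field of Hermitian type -/
structure RCF (B : Atl (d + m) V) (C : B.ι → V → Matrix (Fin d) (Fin d) ℂ) : Prop where
  sm : ∀ i a b, B.SmAt i (fun x => C i x a b)
  tr : ∀ i j, ∀ x ∈ (B.e i).source ∩ (B.e j).source,
    C i x = (Jf B i j x)ᵀ * C j x * (Jf B i j x).map conj
  closed : ∀ i, ∀ z ∈ (B.e i).target, ∀ a b c,
    wd (false, fi c) (fun w => C i ((B.e i).symm w) a b) z =
      wd (false, fi a) (fun w => C i ((B.e i).symm w) c b) z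

namespace RCF

variable {C C' : B.ι → V → Matrix (Fin d) (Fin d) ℂ}

theorem diffAt (h : RCF B C) {i : B.ι} {z : Cn (d + m)} (hz : z ∈ (B.e i).target) (a b : Fin d) :
    DifferentiableAt ℝ (fun w => C i ((B.e i).symm w) a b) z :=
  ((h.sm i a b).contDiffAt ((B.e i).open_target.mem_nhds hz)).differentiableAt (by simp)

theorem add (h : RCF B C) (h' : RCF B C') : RCF B (fun i x => C i x + C' i x) where
  sm i a b := (h.sm i a b).add (h'.sm i a b)
  tr i j x hx := by rw [h.tr i j x hx, h'.tr i j x hx, Matrix.mul_add, Matrix.add_mul]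
  closed i z hz a b c := by
    have e : ∀ a c, wd (false, fi c) (fun w => (C i ((B.e i).symm w) + C' i ((B.e i).symm w)) a b) z =
        wd (false, fi c) (fun w => C i ((B.e i).symm w) a b) z +
          wd (false, fi c) (fun w => C' i ((B.e i).symm w) a b) z := fun a c =>
      wd_add (h.diffAt hz a b) (h'.diffAt hz a b) _
    rw [e a c, e c a, h.closed i z hz, h'.closed i z hz]

theorem smul (h : RCF B C) (t : ℂ) : RCF B (fun i x => t • C i x) where
  sm i a b := (contDiffOn_const (c := t)).mul (h.sm i a b)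
  tr i j x hx := by rw [h.tr i j x hx, Matrix.mul_smul, Matrix.smul_mul]
  closed i z hz a b c := by
    have e : ∀ a c, wd (false, fi c) (fun w => (t • C i ((B.e i).symm w)) a b) z =
        t • wd (false, fi c) (fun w => C i ((B.e i).symm w) a b) z := fun a c =>
      wd_const_smul t (h.diffAt hz a b) _
    rw [e a c, e c a, h.closed i z hz]

theorem smAt_adj (h : RCF B C) (i : B.ι) (a b : Fin d) :
    B.SmAt i (fun x => (C i x).adjugate b a) := by
  have h1 : (fun x => (C i x).adjugate b a) =
      fun x => ((C i x).updateRow a (Pi.single b 1)).det := by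
    funext x
    rw [Matrix.adjugate_apply]
  rw [h1]
  have h2 : ∀ c e, B.SmAt i (fun x => (C i x).updateRow a (Pi.single b 1) c e) := by
    intro c e
    by_cases hc : c = a
    · subst hc
      simp only [Matrix.updateRow_self]
      exact contDiffOn_const
    · simp only [Matrix.updateRow_ne hc]
      exact h.sm i c e
  have h3 : ContDiffOn ℝ ∞ (fun z => ((C i ((B.e i).symm z)).updateRow a (Pi.single b 1)).det)
      (B.e i).target := by
    simp only [Matrix.det_apply]
    refine ContDiffOn.sum fun σ _ => ?_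
    refine ContDiffOn.const_smul _ ?_
    exact contDiffOn_prod fun e _ => h2 (σ e) e
  exact h3

/-- Piola identity along the fibres -/
theorem piola (h : RCF B C) {i : B.ι} {z : Cn (d + m)} (hz : z ∈ (B.e i).target) (b : Fin d) :
    ∑ a, wd (false, fi a) (fun w => (C i ((B.e i).symm w)).adjugate b a) z = 0 := by
  have hs : ∀ a b : Fin d, wd (false, a) (fun w => (C i ((B.e i).symm (sl z w))).adjugate b a) (pr z) =
      wd (false, fi a) (fun w => (C i ((B.e i).symm w)).adjugate b a) z := fun a b =>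
    wd_sl (F := fun w => (C i ((B.e i).symm w)).adjugate b a)
      (((h.smAt_adj i a b).contDiffAt ((B.e i).open_target.mem_nhds hz)).differentiableAt (by simp)) a
  have hz' : sl z (pr z) ∈ (B.e i).target := by rw [sl_pr]; exact hz
  obtain ⟨L, hL, _⟩ := hasFDerivAt_sl z (pr z)
  have hd : ∀ a b : Fin d, DifferentiableAt ℝ (fun w => C i ((B.e i).symm (sl z w)) a b) (pr z) :=
    fun a b => DifferentiableAt.comp (pr z) (g := fun w => C i ((B.e i).symm w) a b) (f := sl z)
      (h.diffAt hz' a b) (hL.differentiableAt.restrictScalars ℝ)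
  have hc : ∀ a b c : Fin d, wd (false, c) (fun w => C i ((B.e i).symm (sl z w)) a b) (pr z) =
      wd (false, a) (fun w => C i ((B.e i).symm (sl z w)) c b) (pr z) := by
    intro a b c
    rw [wd_sl (F := fun w => C i ((B.e i).symm w) a b) (h.diffAt hz a b),
      wd_sl (F := fun w => C i ((B.e i).symm w) c b) (h.diffAt hz c b), h.closed i z hz]
  have := Crest.Agent.R273.Piola_5.piola (m := fun w => C i ((B.e i).symm (sl z w))) (z := pr z) hd hc b
  rw [← this]
  exact Finset.sum_congr rfl fun a _ => (hs a b).symm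

end RCF

/-! ### fibre blocks -/

/-- the fibre block of a field -/
def fib (g : B.ι → V → Matrix (Fin (d + m)) (Fin (d + m)) ℂ) (i : B.ι) (x : V) :
    Matrix (Fin d) (Fin d) ℂ := (g i x).submatrix fi fi

theorem fib_apply (g : B.ι → V → Matrix (Fin (d + m)) (Fin (d + m)) ℂ) (i : B.ι) (x : V)
    (a b : Fin d) : fib g i x a b = g i x (fi a) (fi b) := rfl

theorem fib_tr (D : Ada B y) {g : B.ι → V → Matrix (Fin (d + m)) (Fin (d + m)) ℂ} {i j : B.ι}
    {x : V} (hx : x ∈ (B.e i).source ∩ (B.e j).source)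
    (h : g i x = (Jm B i j x)ᵀ * g j x * (Jm B i j x).map conj) :
    fib g i x = (Jf B i j x)ᵀ * fib g j x * (Jf B i j x).map conj := by
  ext a b
  rw [fib_apply, h]
  simp only [Matrix.mul_apply, Matrix.transpose_apply, Matrix.map_apply, Jm_apply, fib_apply,
    Jf_apply]
  rw [Fin.sum_univ_add]
  have h0 : ∀ c : Fin m, (∑ k, B.J i j x k (fi a) * g j x k (bi c)) *
      conj (B.J i j x (bi c) (fi b)) = 0 := fun c => by
    rw [J_base D hx, map_zero, mul_zero]
  rw [Finset.sum_congr rfl (fun c _ => h0 c), Finset.sum_const_zero, add_zero]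
  refine Finset.sum_congr rfl fun e _ => ?_
  congr 1
  rw [Fin.sum_univ_add]
  have h1 : ∀ c : Fin m, B.J i j x (bi c) (fi a) * g j x (bi c) (fi e) = 0 := fun c => by
    rw [J_base D hx, zero_mul]
  rw [Finset.sum_congr rfl (fun c _ => h1 c), Finset.sum_const_zero, add_zero]

theorem rcf_fib (D : Ada B y) {g : B.ι → V → Matrix (Fin (d + m)) (Fin (d + m)) ℂ} (hg : CF B g) :
    RCF B (fib g) where
  sm i a b := hg.sm i _ _
  tr i j x hx := fib_tr D hx (hg.tr i j x hx)
  closed i z hz a b c := hg.closed i z hz _ _ _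

theorem fib_add (g g' : B.ι → V → Matrix (Fin (d + m)) (Fin (d + m)) ℂ) :
    fib (fun i x => g i x + g' i x) = fun i x => fib g i x + fib g' i x := rfl

end

end Crest.Agent.R281.SK1_507
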