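import Crest.Agent.R281.SK2_507
import Crest.Agent.R281.S6D_664

/-!
# R281 (S0424), S6-SK (helper507), part 3: mixed relative invariance; pull-back of the 2-form

* `rmixed` : `∫ φ |r|^(2m) tr (adj (C + ∂_f∂̄_f u) S) = ∫ φ |r|^(2m) tr (adj C S)`, `C`, `S` relative
  closed fields
* `ps`     : local expression of the pulled back holomorphic 2-form; `ps_hol`, `ps_closed`
* `ada F`  : the charts of a `Fam` are adapted
* `sV F σ` : the pulled back 2-form on `F.V`; `xi F σ c`: the relative 1-forms `σ(∂_a, ∂_{y_c})`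
* `rcf_xi` : `ξ ξ*` is a relative closed field when the fibres are isotropic
-/

set_option autoImplicit false
set_option linter.unusedSectionVars false

open Set Filter Topology Complex Function
open scoped ContDiff Matrix ComplexConjugate Polynomial

namespace Crest.Agent.R281.SK3_507

open Crest.Agent.R275 Crest.Agent.R275.Geo Crest.Agent.R275.Core144 Crest.Agent.R275.EDR890
open Crest.Agent.R275.Pai323 Crest.Agent.R275.C1d194
open Crest.Agent.R275.SerG398 (lint dens OffZ)
open Crest.Agent.R275.OmT75 (dj dl dl_chain dl_mul db_chain dj_sum dj_congr dbj_congr dj_comp)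
open Crest.Agent.R273.Defs_333 Crest.Agent.R273.Hess_333 Crest.Agent.R273.HessB_333
open Crest.Agent.R273.HM_333 Crest.Agent.R273.Kah_333 Crest.Agent.R273.Vol_333
open Crest.Agent.R273.Piola_5 Crest.Agent.R273.Green_5
open Crest.Agent.R273.VolInv_5 (dp eval_dp natDegree_dp contDiffOn_coeff_prod eval_derivative_dp)
open Crest.Agent.R273.GreenG_5 (coeff_one_dp)
open Crest.Agent.R273.StokesV_332
open Crest.Agent.R273.Map_835 Crest.Agent.R273.KahI_645
open Crest.Agent.R281.SK1_507 Crest.Agent.R281.SK2_507 Crest.Agent.R281.S6D_664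
open Crest.Agent.R281.Defs_273

noncomputable section

section mixed_

variable {d m : ℕ} {V : Type} [TopologicalSpace V] {B : Atl (d + m) V} {y : V → Cn m} [T2Space V]

/-- **mixed relative invariance** -/
theorem rmixed (P : Part B) (D : Ada B y) {C S : B.ι → V → Matrix (Fin d) (Fin d) ℂ}
    (hC : RCF B C) (hS : RCF B S) {φ : V → ℂ} (hφ : Bas B φ) {u : V → ℝ} (hu : B.Sm u) {K : Set V}
    (hK : IsCompact K) (h0 : ∀ x ∉ K, φ x = 0) :
    intD P (fun i x => φ x * wt D i * ((C i x + fib (hsf B u) i x).adjugate * S i x).trace) =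
      intD P (fun i x => φ x * wt D i * ((C i x).adjugate * S i x).trace) := by
  have hCu : RCF B (fun i x => C i x + fib (hsf B u) i x) := hC.add (rcf_fib D (hsf_cf hu))
  set Q : (B.ι → V → Matrix (Fin d) (Fin d) ℂ) → ℂ[X] := fun g =>
    ∑ k ∈ Finset.range (d + 2), Polynomial.monomial k
      (intD P (fun i x => φ x * wt D i * (dp (g i x) (S i x)).coeff k)) with hQ
  have hev : ∀ g, RCF B g → ∀ t : ℂ, (Q g).eval t =
      intD P (fun i x => φ x * wt D i * (g i x + t • S i x).det) := by
    intro g hg t
    rw [int_dp P D hg.sm hS.sm hφ.sm hK h0, hQ]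
    simp only [Polynomial.eval_finsetSum, Polynomial.eval_monomial]
    exact Finset.sum_congr rfl fun k _ => mul_comm _ _
  have hco : ∀ g, (Q g).coeff 1 =
      intD P (fun i x => φ x * wt D i * ((g i x).adjugate * S i x).trace) := by
    intro g
    rw [hQ]
    simp only [Polynomial.finsetSum_coeff, Polynomial.coeff_monomial]
    rw [Finset.sum_ite_eq' (Finset.range (d + 2)) 1, if_pos (Finset.mem_range.2 (by omega))]
    simp only [coeff_one_dp]
  rw [← hco (fun i x => C i x + fib (hsf B u) i x), ← hco C]
  congr 1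
  refine Polynomial.eq_of_infinite_eval_eq _ _ ?_
  refine Set.infinite_of_injective_forall_mem (f := fun t : ℝ => (t : ℂ)) ofReal_injective ?_
  intro t
  change (Q fun i x => C i x + fib (hsf B u) i x).eval (t : ℂ) = (Q C).eval (t : ℂ)
  rw [hev _ hCu, hev _ hC, ← rvol P D (hC.add (hS.smul (t : ℂ))) hφ hu hK h0]
  refine intD_congr P fun i x _ => ?_
  congr 2
  abel

end mixed_

/-! ### the local expression of a pulled back 2-form -/

section calc_

variable {n m : ℕ} {F : Cn m → Cn n} {z : Cn m} {G : Fin n → Fin n → Cn n → ℂ}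

/-- the local expression of the pulled back 2-form -/
def ps (F : Cn m → Cn n) (G : Fin n → Fin n → Cn n → ℂ) (a b : Fin m) (w : Cn m) : ℂ :=
  ∑ a', ∑ b', Je F a a' w * G a' b' (F w) * Je F b b' w

theorem ps_hol (hF : ∀ᶠ w in 𝓝 z, DifferentiableAt ℂ F w)
    (hG : ∀ a b, DifferentiableAt ℂ (G a b) (F z)) (a b : Fin m) :
    DifferentiableAt ℂ (ps F G a b) z := by
  have hFz : DifferentiableAt ℂ F z := hF.self_of_nhds
  refine DifferentiableAt.fun_sum fun a' _ => DifferentiableAt.fun_sum fun b' _ => ?_
  exact ((je_diff hF a a').fun_mul ((hG a' b').comp z hFz)).fun_mul (je_diff hF b b')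

theorem ps_closed (hF : ∀ᶠ w in 𝓝 z, DifferentiableAt ℂ F w)
    (hG : ∀ a b, DifferentiableAt ℂ (G a b) (F z))
    (hsk : ∀ a b, G a b (F z) = - G b a (F z))
    (hcl : ∀ a b c, wd (false, c) (G a b) (F z) + wd (false, a) (G b c) (F z) +
      wd (false, b) (G c a) (F z) = 0) (a b c : Fin m) :
    wd (false, c) (ps F G a b) z + wd (false, a) (ps F G b c) z +
      wd (false, b) (ps F G c a) z = 0 := by
  have hFz : DifferentiableAt ℂ F z := hF.self_of_nhds
  have dJ : ∀ a b', DifferentiableAt ℝ (Je F a b') z := fun a b' =>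
    (je_diff hF a b').restrictScalars ℝ
  have dG0 : ∀ a' b', DifferentiableAt ℝ (G a' b') (F z) := fun a' b' =>
    (hG a' b').restrictScalars ℝ
  have dG : ∀ a' b', DifferentiableAt ℝ (fun w => G a' b' (F w)) z := fun a' b' =>
    (dG0 a' b').comp z (hFz.restrictScalars ℝ)
  have key : ∀ a b c, wd (false, c) (ps F G a b) z = ∑ a', ∑ b',
      (wd (false, c) (Je F a a') z * G a' b' (F z) * Je F b b' z +
        Je F a a' z * G a' b' (F z) * wd (false, c) (Je F b b') z +
        ∑ e, Je F a a' z * Je F c e z * wd (false, e) (G a' b') (F z) * Je F b b' z) := by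
    intro a b c
    have h1 : wd (false, c) (ps F G a b) z = ∑ a', wd (false, c) (fun w => ∑ b',
        Je F a a' w * G a' b' (F w) * Je F b b' w) z :=
      wd_sum Finset.univ (fun a' _ => DifferentiableAt.fun_sum fun b' _ =>
        ((dJ a a').fun_mul (dG a' b')).fun_mul (dJ b b')) (false, c)
    rw [h1]
    refine Finset.sum_congr rfl fun a' _ => ?_
    rw [wd_sum Finset.univ (fun b' _ => ((dJ a a').fun_mul (dG a' b')).fun_mul (dJ b b')) (false, c)]
    refine Finset.sum_congr rfl fun b' _ => ?_
    rw [wd_mul ((dJ a a').fun_mul (dG a' b')) (dJ b b'),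
      wd_mul (dJ a a') (dG a' b'), wd_comp' (dG0 a' b') hFz (false, c)]
    have h2 : (∑ e, cj (false, c).1 ((fderiv ℂ F z (EuclideanSpace.single (false, c).2 1)) e) •
        wd ((false, c).1, e) (G a' b') (F z)) = ∑ e, Je F c e z * wd (false, e) (G a' b') (F z) :=
      Finset.sum_congr rfl fun e _ => by simp only [cj_false, smul_eq_mul]; rfl
    rw [h2]
    have h3 : Je F a a' z * ∑ e, Je F c e z * wd (false, e) (G a' b') (F z) =
        ∑ e, Je F a a' z * Je F c e z * wd (false, e) (G a' b') (F z) := by
      rw [Finset.mul_sum]; exact Finset.sum_congr rfl fun e _ => by ring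
    rw [h3, add_mul, Finset.sum_mul]
    ring
  -- names for the three kinds of terms
  set X : Fin m → Fin m → Fin m → ℂ := fun p q r =>
    ∑ a', ∑ b', wd (false, q) (Je F p a') z * G a' b' (F z) * Je F r b' z with hX
  set Y : Fin m → Fin m → Fin m → ℂ := fun p q r => ∑ a', ∑ b', ∑ e,
    Je F p a' z * Je F r e z * wd (false, e) (G a' b') (F z) * Je F q b' z with hY
  have hX2 : ∀ p q r, X p q r = X q p r := by
    intro p q r
    simp only [hX]
    refine Finset.sum_congr rfl fun a' _ => Finset.sum_congr rfl fun b' _ => ?_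
    rw [je_symm hF]
  have hX3 : ∀ a b c, ∑ a', ∑ b', Je F a a' z * G a' b' (F z) * wd (false, c) (Je F b b') z =
      - X b c a := by
    intro a b c
    simp only [hX]
    rw [Finset.sum_comm, ← Finset.sum_neg_distrib]
    refine Finset.sum_congr rfl fun b' _ => ?_
    rw [← Finset.sum_neg_distrib]
    refine Finset.sum_congr rfl fun a' _ => ?_
    rw [hsk a' b']
    ring
  have key2 : ∀ a b c, wd (false, c) (ps F G a b) z = X a c b - X b c a + Y a b c := by
    intro a b c
    rw [key]
    simp only [Finset.sum_add_distrib]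
    rw [hX3 a b c]
    simp only [hX, hY]
    ring
  have hYc : Y a b c + Y b c a + Y c a b = 0 := by
    have e1 : Y b c a = ∑ a', ∑ b', ∑ e,
        Je F a a' z * Je F c e z * wd (false, a') (G b' e) (F z) * Je F b b' z := by
      simp only [hY]
      -- `Y b c a = ∑ p q r, J b p * J a r * ∂_r G p q * J c q`
      rw [show (∑ a', ∑ b', ∑ e, Je F b a' z * Je F a e z * wd (false, e) (G a' b') (F z) *
          Je F c b' z) = ∑ e, ∑ a', ∑ b', Je F b a' z * Je F a e z *
            wd (false, e) (G a' b') (F z) * Je F c b' z by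
        rw [Finset.sum_congr rfl fun a' _ => Finset.sum_comm, Finset.sum_comm]]
      refine Finset.sum_congr rfl fun e _ => Finset.sum_congr rfl fun p _ =>
        Finset.sum_congr rfl fun q _ => by ring
    have e2 : Y c a b = ∑ a', ∑ b', ∑ e,
        Je F a a' z * Je F c e z * wd (false, b') (G e a') (F z) * Je F b b' z := by
      simp only [hY]
      -- `Y c a b = ∑ p q r, J c p * J b r * ∂_r G p q * J a q`
      rw [show (∑ a', ∑ b', ∑ e, Je F c a' z * Je F b e z * wd (false, e) (G a' b') (F z) *
          Je F a b' z) = ∑ b', ∑ e, ∑ a', Je F c a' z * Je F b e z *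
            wd (false, e) (G a' b') (F z) * Je F a b' z by
        rw [Finset.sum_comm]
        refine Finset.sum_congr rfl fun b' _ => ?_
        rw [Finset.sum_comm]]
      refine Finset.sum_congr rfl fun q _ => Finset.sum_congr rfl fun r _ =>
        Finset.sum_congr rfl fun p _ => by ring
    rw [e1, e2]
    simp only [hY]
    rw [← Finset.sum_add_distrib, ← Finset.sum_add_distrib]
    refine Finset.sum_eq_zero fun a' _ => ?_
    rw [← Finset.sum_add_distrib, ← Finset.sum_add_distrib]
    refine Finset.sum_eq_zero fun b' _ => ?_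
    rw [← Finset.sum_add_distrib, ← Finset.sum_add_distrib]
    refine Finset.sum_eq_zero fun e _ => ?_
    linear_combination (Je F a a' z * Je F c e z * Je F b b' z) * hcl a' b' e
  rw [key2 a b c, key2 b c a, key2 c a b]
  linear_combination hYc + hX2 a c b + hX2 b a c + hX2 c b a

end calc_

end

end Crest.Agent.R281.SK3_507
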