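import Crest.Agent.R281.SK3_507

/-!
# R281 (S0424), S6-SK (helper507), part 4: the pulled back 2-form on a family

* `sm2`, `sV`   : the matrix of `f^* σ`; `sV_eq`, `sV_tr`, `sV_alt`, `sV_hol`, `sV_closed`
* `ada F`       : the charts of a `Fam` are adapted
* `xi F σ c`    : the relative 1-forms `σ(∂_a, ∂_{y_c})`; `xi_tr`, `xi_hol`, `xi_closed`
* `rcf_xi`      : `ξ ξ*` is a relative closed field when the fibres are isotropic
-/

set_option autoImplicit false
set_option linter.unusedSectionVars false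

open Set Filter Topology Complex Function
open scoped ContDiff Matrix ComplexConjugate

namespace Crest.Agent.R281.SK4_507

open Crest.Agent.R275 Crest.Agent.R275.Geo Crest.Agent.R275.Core144 Crest.Agent.R275.EDR890
open Crest.Agent.R275.Pai323 Crest.Agent.R275.C1d194
open Crest.Agent.R273.Defs_333 Crest.Agent.R273.Hess_333 Crest.Agent.R273.HessB_333
open Crest.Agent.R273.HM_333 Crest.Agent.R273.Kah_333 Crest.Agent.R273.Vol_333
open Crest.Agent.R273.StokesV_332
open Crest.Agent.R273.Map_835 Crest.Agent.R273.KahI_645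
open Crest.Agent.R281.SK1_507 Crest.Agent.R281.SK2_507 Crest.Agent.R281.SK3_507
open Crest.Agent.R281.S6D_664 Crest.Agent.R281.Defs_273

noncomputable section

/-! ### pull-back of a holomorphic 2-form -/

section pull_

variable {n m : ℕ} {M V : Type} [TopologicalSpace M] [TopologicalSpace V] {A : Atl n M}
  {B : Atl m V} {f : V → M}

/-- closed holomorphic 2-forms (in the form of `HkP3_508.HK.closed`) -/
def ClH2 (σ : H2 A) : Prop :=
  ∀ i, ∀ z ∈ (A.e i).target, ∀ a b c : Fin n,
    wd (false, c) (fun w => σ.s i ((A.e i).symm w) a b) z +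
      wd (false, a) (fun w => σ.s i ((A.e i).symm w) b c) z +
      wd (false, b) (fun w => σ.s i ((A.e i).symm w) c a) z = 0

/-- the matrix of `f^* σ` in the charts `j`, `i` -/
def sm2 (σ : H2 A) (B : Atl m V) (f : V → M) (j : B.ι) (i : A.ι) (y : V) :
    Matrix (Fin m) (Fin m) ℂ :=
  (Jp B A f j i y)ᵀ * σ.s i (f y) * Jp B A f j i y

theorem sm2_eq (σ : H2 A) (hf : HolMap B A f) {j : B.ι} {i i' : A.ι} {y : V}
    (hy : y ∈ (B.e j).source) (hi : f y ∈ (A.e i).source) (hi' : f y ∈ (A.e i').source) :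
    sm2 σ B f j i y = sm2 σ B f j i' y := by
  unfold sm2
  rw [← hf.Jp_right hy ⟨hi, hi'⟩, Matrix.transpose_mul, σ.tr i i' (f y) ⟨hi, hi'⟩]
  simp only [Matrix.mul_assoc]

theorem sm2_apply (σ : H2 A) (j : B.ι) (i : A.ι) (y : V) (a b : Fin m) :
    sm2 σ B f j i y a b = ∑ a', ∑ b', Jp B A f j i y a' a * σ.s i (f y) a' b' *
      Jp B A f j i y b' b := by
  simp only [sm2, Matrix.mul_apply, Matrix.transpose_apply, Finset.sum_mul]
  rw [Finset.sum_comm]

theorem sm2_read (σ : H2 A) {j : B.ι} {i : A.ι} {z : Cn m}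
    (hz : z ∈ dm B A f j i) (a b : Fin m) :
    sm2 σ B f j i ((B.e j).symm z) a b =
      ps (rd B A f j i) (fun a' b' w => σ.s i ((A.e i).symm w) a' b') a b z := by
  rw [sm2_apply, ps]
  refine Finset.sum_congr rfl fun a' _ => Finset.sum_congr rfl fun b' _ => ?_
  simp only [Jp, Matrix.of_apply, (B.e j).right_inv hz.1, Je, Crest.Agent.R273.Map_835.rd]
  rw [(A.e i).left_inv hz.2]

/-- the matrix of `f^* σ` in the chart `j` -/
def sV (σ : H2 A) (B : Atl m V) (f : V → M) (j : B.ι) (y : V) : Matrix (Fin m) (Fin m) ℂ :=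
  sm2 σ B f j (A.cover (f y)).choose y

theorem sV_eq (σ : H2 A) (hf : HolMap B A f) {j : B.ι} {i : A.ι} {y : V}
    (hy : y ∈ (B.e j).source) (hi : f y ∈ (A.e i).source) : sV σ B f j y = sm2 σ B f j i y :=
  sm2_eq σ hf hy (A.cover (f y)).choose_spec hi

theorem sV_tr (σ : H2 A) (hf : HolMap B A f) {j j' : B.ι} {y : V}
    (hy : y ∈ (B.e j).source ∩ (B.e j').source) :
    sV σ B f j y = (Jm B j j' y)ᵀ * sV σ B f j' y * Jm B j j' y := by
  set i := (A.cover (f y)).choose with hi
  have hi' : f y ∈ (A.e i).source := (A.cover (f y)).choose_spec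
  change sm2 σ B f j i y = (Jm B j j' y)ᵀ * sm2 σ B f j' i y * Jm B j j' y
  unfold sm2
  rw [← hf.Jp_left hy hi', Matrix.transpose_mul]
  simp only [Matrix.mul_assoc]

theorem sV_alt (σ : H2 A) {j : B.ι} {y : V} : (sV σ B f j y)ᵀ = - sV σ B f j y := by
  have hi' : f y ∈ (A.e (A.cover (f y)).choose).source := (A.cover (f y)).choose_spec
  unfold sV sm2
  rw [Matrix.transpose_mul, Matrix.transpose_mul, Matrix.transpose_transpose, σ.alt _ _ hi']
  rw [Matrix.neg_mul, Matrix.mul_neg, Matrix.mul_assoc]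

theorem sV_near (σ : H2 A) (hf : HolMap B A f) {j : B.ι} {i : A.ι} {z : Cn m}
    (hz : z ∈ dm B A f j i) (a b : Fin m) :
    (fun w => sV σ B f j ((B.e j).symm w) a b) =ᶠ[𝓝 z]
      ps (rd B A f j i) (fun a' b' w => σ.s i ((A.e i).symm w) a' b') a b := by
  filter_upwards [(hf.isOpen_dm j i).mem_nhds hz] with w hw
  rw [← sm2_read σ hw]
  exact congrFun (congrFun (sV_eq σ hf ((B.e j).map_target hw.1) hw.2) a) b

theorem s_diff (σ : H2 A) {i : A.ι} {z : Cn n} (hz : z ∈ (A.e i).target) (a b : Fin n) :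
    DifferentiableAt ℂ (fun w => σ.s i ((A.e i).symm w) a b) z := by
  have h := (σ.hol i a b).diffAt isOpen_univ ((A.e i).map_target hz) (mem_univ _)
  rwa [(A.e i).right_inv hz] at h

theorem sV_hol (σ : H2 A) (hf : HolMap B A f) (j : B.ι) {z : Cn m} (hz : z ∈ (B.e j).target)
    (a b : Fin m) : DifferentiableAt ℂ (fun w => sV σ B f j ((B.e j).symm w) a b) z := by
  obtain ⟨i, hi⟩ := A.cover (f ((B.e j).symm z))
  have hzd : z ∈ dm B A f j i := ⟨hz, hi⟩
  have hFz : rd B A f j i z ∈ (A.e i).target := (A.e i).map_source hi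
  refine (ps_hol ?_ (fun a' b' => s_diff σ hFz a' b') a b).congr_of_eventuallyEq
    (sV_near σ hf hzd a b)
  filter_upwards [(hf.isOpen_dm j i).mem_nhds hzd] with w hw
  exact hf.diffAt hw

theorem sV_closed {σ : H2 A} (hσ : ClH2 σ) (hf : HolMap B A f) (j : B.ι) {z : Cn m}
    (hz : z ∈ (B.e j).target) (a b c : Fin m) :
    wd (false, c) (fun w => sV σ B f j ((B.e j).symm w) a b) z +
      wd (false, a) (fun w => sV σ B f j ((B.e j).symm w) b c) z +
      wd (false, b) (fun w => sV σ B f j ((B.e j).symm w) c a) z = 0 := by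
  obtain ⟨i, hi⟩ := A.cover (f ((B.e j).symm z))
  have hzd : z ∈ dm B A f j i := ⟨hz, hi⟩
  have hFz : rd B A f j i z ∈ (A.e i).target := (A.e i).map_source hi
  rw [wd_congr (sV_near σ hf hzd a b), wd_congr (sV_near σ hf hzd b c),
    wd_congr (sV_near σ hf hzd c a)]
  refine ps_closed ?_ (fun a' b' => s_diff σ hFz a' b') (fun a' b' => ?_) (fun a' b' c' => ?_) a b c
  · filter_upwards [(hf.isOpen_dm j i).mem_nhds hzd] with w hw
    exact hf.diffAt hw
  · have h := congrFun (congrFun (σ.alt i _ ((A.e i).map_target hFz)) b') a'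
    exact h
  · exact hσ i _ hFz a' b' c'

end pull_

/-! ### families -/

section fam_

variable {N d m : ℕ} {M : Type} [TopologicalSpace M] {A : Atl N M} {U : Set (Cn m)}

/-- the charts of a family are adapted -/
def ada (F : Fam A d m U) : Ada F.B F.y where
  r _ := 1
  b _ := 0
  r_ne _ := one_ne_zero
  eq i x hx c := by
    rw [one_mul]
    show F.y x c = F.B.e i x (Fin.natAdd d c) + 0
    rw [add_zero]
    exact (F.last i x hx c).symm

theorem wt_ada (F : Fam A d m U) (i : F.B.ι) : wt (ada F) i = 1 := by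
  show ((‖(1 : ℂ)‖ ^ (2 * m) : ℝ) : ℂ) = 1
  simp

/-- the relative 1-forms `σ(∂_a, ∂_{y_c})` -/
def xi (F : Fam A d m U) (σ : H2 A) (c : Fin m) (k : F.B.ι) (v : F.V) : Fin d → ℂ :=
  fun a => sV σ F.B F.i k v (fi a) (bi c)

theorem sV_lag {F : Fam A d m U} {σ : H2 A} (hL : F.Lag σ) {k : F.B.ι} {v : F.V}
    (hv : v ∈ (F.B.e k).source) (a b : Fin d) : sV σ F.B F.i k v (fi a) (fi b) = 0 := by
  have h := hL k _ v hv (A.cover (F.i v)).choose_spec
  exact congrFun (congrFun h a) b

theorem xi_tr {F : Fam A d m U} {σ : H2 A} (hL : F.Lag σ) (c : Fin m) {k k' : F.B.ι} {v : F.V}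
    (hv : v ∈ (F.B.e k).source ∩ (F.B.e k').source) :
    xi F σ c k v = (Jf F.B k k' v)ᵀ *ᵥ xi F σ c k' v := by
  funext a
  show sV σ F.B F.i k v (fi a) (bi c) = _
  rw [sV_tr σ F.hol hv]
  simp only [Matrix.mul_apply, Matrix.transpose_apply, Jm_apply, Matrix.mulVec, dotProduct,
    Jf_apply]
  rw [Fin.sum_univ_add]
  have e1 : ∀ b : Fin d, (∑ p, F.B.J k k' v p (fi a) * sV σ F.B F.i k' v p (fi b)) *
      F.B.J k k' v (fi b) (bi c) = 0 := by
    intro b
    rw [Fin.sum_univ_add]
    have h1 : ∀ p : Fin d, F.B.J k k' v (fi p) (fi a) * sV σ F.B F.i k' v (fi p) (fi b) = 0 :=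
      fun p => by rw [sV_lag hL hv.2, mul_zero]
    have h2 : ∀ p : Fin m, F.B.J k k' v (bi p) (fi a) * sV σ F.B F.i k' v (bi p) (fi b) = 0 :=
      fun p => by rw [J_base (ada F) hv, zero_mul]
    rw [Finset.sum_congr rfl fun p _ => h1 p, Finset.sum_congr rfl fun p _ => h2 p]
    simp
  have e2 : ∀ e : Fin m, (∑ p, F.B.J k k' v p (fi a) * sV σ F.B F.i k' v p (bi e)) *
      F.B.J k k' v (bi e) (bi c) = if e = c then
        ∑ p : Fin d, F.B.J k k' v (fi p) (fi a) * sV σ F.B F.i k' v (fi p) (bi c) else 0 := by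
    intro e
    rw [J_bb (ada F) hv]
    by_cases hec : e = c
    · subst hec
      rw [if_pos rfl, if_pos rfl, Fin.sum_univ_add]
      have h2 : ∀ p : Fin m, F.B.J k k' v (bi p) (fi a) * sV σ F.B F.i k' v (bi p) (bi e) = 0 :=
        fun p => by rw [J_base (ada F) hv, zero_mul]
      rw [Finset.sum_congr rfl fun p _ => h2 p, Finset.sum_const_zero, add_zero]
      show _ * ((1 : ℂ) / 1) = _
      rw [div_one, mul_one]
    · rw [if_neg hec, if_neg hec, mul_zero]
  rw [Finset.sum_congr rfl fun b _ => e1 b, Finset.sum_const_zero, zero_add,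
    Finset.sum_congr rfl fun e _ => e2 e, Finset.sum_ite_eq' Finset.univ c, if_pos (Finset.mem_univ _)]
  rfl

theorem xi_hol (F : Fam A d m U) (σ : H2 A) (c : Fin m) (k : F.B.ι) {z : Cn (d + m)}
    (hz : z ∈ (F.B.e k).target) (a : Fin d) :
    DifferentiableAt ℂ (fun w => xi F σ c k ((F.B.e k).symm w) a) z :=
  sV_hol σ F.hol k hz _ _

theorem xi_sm (F : Fam A d m U) (σ : H2 A) (c : Fin m) (k : F.B.ι) (a : Fin d) :
    F.B.SmAt k (fun v => xi F σ c k v a) := by
  have h : DifferentiableOn ℂ (fun w => xi F σ c k ((F.B.e k).symm w) a) (F.B.e k).target :=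
    fun z hz => (xi_hol F σ c k hz a).differentiableWithinAt
  exact ((Crest.Agent.R266.SCV.contDiffOn_omega_of_differentiableOn (F.B.e k).open_target
    h).restrict_scalars ℝ).of_le le_top

theorem xi_closed {F : Fam A d m U} {σ : H2 A} (hσ : ClH2 σ) (hL : F.Lag σ) (c : Fin m)
    (k : F.B.ι) {z : Cn (d + m)} (hz : z ∈ (F.B.e k).target) (a b : Fin d) :
    wd (false, fi b) (fun w => xi F σ c k ((F.B.e k).symm w) a) z =
      wd (false, fi a) (fun w => xi F σ c k ((F.B.e k).symm w) b) z := by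
  have h := sV_closed hσ F.hol k hz (fi a) (bi c) (fi b)
  have h3 : (fun w => sV σ F.B F.i k ((F.B.e k).symm w) (fi b) (fi a)) =ᶠ[𝓝 z] fun _ => 0 := by
    filter_upwards [(F.B.e k).open_target.mem_nhds hz] with w hw
    exact sV_lag hL ((F.B.e k).map_target hw) b a
  have h4 : wd (false, bi c) (fun w => sV σ F.B F.i k ((F.B.e k).symm w) (fi b) (fi a)) z = 0 := by
    rw [wd_congr h3]
    exact wd_const _ _ _
  have h5 : (fun w => sV σ F.B F.i k ((F.B.e k).symm w) (bi c) (fi b)) =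
      fun w => (-1 : ℂ) • xi F σ c k ((F.B.e k).symm w) b := by
    funext w
    have := congrFun (congrFun (sV_alt (B := F.B) (f := F.i) σ (j := k)
      (y := (F.B.e k).symm w)) (fi b)) (bi c)
    rw [Matrix.transpose_apply, Matrix.neg_apply] at this
    rw [this, smul_eq_mul, neg_one_mul]
    rfl
  rw [h4, add_zero, h5, wd_const_smul (-1 : ℂ) ((xi_hol F σ c k hz b).restrictScalars ℝ) _,
    smul_eq_mul, neg_one_mul, ← sub_eq_add_neg, sub_eq_zero] at h
  exact h

/-- **`ξ ξ*` is a relative closed field** -/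
theorem rcf_xi {F : Fam A d m U} {σ : H2 A} (hσ : ClH2 σ) (hL : F.Lag σ) (c : Fin m) :
    RCF F.B (fun k v => Matrix.vecMulVec (xi F σ c k v) (star (xi F σ c k v))) where
  sm k a b := by
    have h1 := xi_sm F σ c k a
    have h2 : F.B.SmAt k (fun v => conj (xi F σ c k v b)) :=
      (conjCLE : ℂ →L[ℝ] ℂ).contDiff.comp_contDiffOn (xi_sm F σ c k b)
    exact h1.mul h2
  tr k k' v hv := by
    rw [xi_tr hL c hv]
    ext a b
    simp only [Matrix.vecMulVec_apply, Matrix.mul_apply, Matrix.transpose_apply, Matrix.mulVec,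
      dotProduct, Matrix.map_apply, Pi.star_apply, star_sum, star_mul', RCLike.star_def]
    rw [Finset.sum_mul_sum]
    rw [Finset.sum_comm]
    refine Finset.sum_congr rfl fun e _ => ?_
    rw [Finset.sum_mul]
    refine Finset.sum_congr rfl fun p _ => ?_
    ring
  closed k z hz a b e := by
    have hd : ∀ a, DifferentiableAt ℝ (fun w => xi F σ c k ((F.B.e k).symm w) a) z := fun a =>
      (xi_hol F σ c k hz a).restrictScalars ℝ
    have hc : DifferentiableAt ℝ (fun w => conj (xi F σ c k ((F.B.e k).symm w) b)) z :=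
      (conjCLE : ℂ →L[ℝ] ℂ).differentiableAt.comp z (hd b)
    have key : ∀ a e, wd (false, fi e) (fun w => Matrix.vecMulVec (xi F σ c k ((F.B.e k).symm w))
        (star (xi F σ c k ((F.B.e k).symm w))) a b) z =
        wd (false, fi e) (fun w => xi F σ c k ((F.B.e k).symm w) a) z *
          conj (xi F σ c k ((F.B.e k).symm z) b) := by
      intro a e
      have h1 := wd_mul (s := (false, fi e)) (hd a) hc
      rw [wd_conj_hol (xi_hol F σ c k hz b), mul_zero, add_zero] at h1
      exact h1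
    rw [key a e, key e a, xi_closed hσ hL c k hz a e]

end fam_

end

end Crest.Agent.R281.SK4_507
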