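import Crest.Agent.R281.SK4_507
import Crest.Agent.R281.Lag1_479
import Crest.Agent.R281.Har4_331

/-!
# R281 (S0424), S6-SK (helper507), part 5: the two-Yau identity on disc families

* `det_kah`    : `det K_V = c⁻¹ tr (adj (K_F) ξ ξ*)` for a Lagrangian family over a disc,
  `σ (Kᵀ)⁻¹ σ* = c K`
* `two_vol`    : `c' ∫ χ(y) det K'_V = c ∫ χ(y) det K_V` when `K'_V = K_V + ∂∂̄ H`
-/

set_option autoImplicit false
set_option linter.unusedSectionVars false

open Set Filter Topology Complex Function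
open scoped ContDiff Matrix ComplexConjugate ComplexOrder

namespace Crest.Agent.R281.SK5_507

open Crest.Agent.R275 Crest.Agent.R275.Geo Crest.Agent.R275.Core144 Crest.Agent.R275.EDR890
open Crest.Agent.R275.C1d194
open Crest.Agent.R273.Defs_333 Crest.Agent.R273.Hess_333 Crest.Agent.R273.HessB_333
open Crest.Agent.R273.HM_333 Crest.Agent.R273.Kah_333 Crest.Agent.R273.Vol_333
open Crest.Agent.R273.StokesV_332
open Crest.Agent.R273.Map_835 Crest.Agent.R273.KahI_645
open Crest.Agent.R281.SK1_507 Crest.Agent.R281.SK2_507 Crest.Agent.R281.SK3_507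
open Crest.Agent.R281.SK4_507
open Crest.Agent.R281.S6D_664 Crest.Agent.R281.Defs_273 Crest.Agent.R281.Lag_479

noncomputable section

/-! ### linear algebra -/

section alg_

variable {N n : ℕ}

/-- the equivalence `Fin n ⊕ Unit ≃ Fin (n + 1)` -/
def eU (n : ℕ) : Fin n ⊕ Unit ≃ Fin (n + 1) :=
  (Equiv.sumCongr (Equiv.refl _) (Equiv.equivPUnit (Fin 1)).symm).trans finSumFinEquiv

theorem eU_inl (a : Fin n) : eU n (Sum.inl a) = fi (m := 1) a := rfl

theorem eU_inr (u : Unit) : eU n (Sum.inr u) = bi (d := n) (0 : Fin 1) := by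
  show finSumFinEquiv (Sum.inr _) = _
  rw [finSumFinEquiv_apply_right]
  congr 1

/-- `det (Jᵀ G J̄) = c⁻¹ tr (adj (J_fᵀ G J̄_f) ξ ξ*)` -/
theorem det_pull_eq {G S : Matrix (Fin (2 * n)) (Fin (2 * n)) ℂ}
    {J : Matrix (Fin (2 * n)) (Fin (n + 1)) ℂ} {c : ℝ} (hG : G.PosDef) (hc : 0 < c)
    (hR : S * (Gᵀ)⁻¹ * Sᴴ = (c : ℂ) • G) (hJ : Injective J.mulVec)
    (hL : ∀ a b : Fin n, (Jᵀ * S * J) (fi a) (fi b) = 0) :
    (Jᵀ * G * J.map conj).det = (c : ℂ)⁻¹ *
      (((Jᵀ * G * J.map conj).submatrix fi fi).adjugate *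
        Matrix.vecMulVec (fun a => (Jᵀ * S * J) (fi a) (bi 0))
          (star fun a => (Jᵀ * S * J) (fi a) (bi 0))).trace := by
  have hmc : J.map conj = (Jᵀ)ᴴ := by
    ext a b
    simp [Matrix.conjTranspose_apply]
  set A0 : Matrix (Fin (2 * n)) (Fin n) ℂ := J.submatrix id fi with hA0
  set v : Fin (2 * n) → ℂ := fun a => J a (bi 0) with hv
  have e1 : Matrix.fromCols A0 (Matrix.replicateCol Unit v) = J.submatrix id (eU n) := by
    ext a b
    rcases b with b | b
    · rfl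
    · show v a = J a (eU n (Sum.inr b))
      rw [eU_inr]
  have e2 : (Jᵀ * G * J.map conj).det = (gr G (Matrix.fromCols A0 (Matrix.replicateCol Unit v))).det := by
    rw [← Matrix.det_submatrix_equiv_self (eU n) (Jᵀ * G * J.map conj)]
    congr 1
    rw [e1, gr, hmc]
    ext a b
    simp only [Matrix.submatrix_apply, Matrix.mul_apply, Matrix.transpose_apply,
      Matrix.conjTranspose_apply, id_eq]
  have hA : Injective A0.mulVec := by
    intro x x' hxx
    have h1 : ∀ x : Fin n → ℂ, A0 *ᵥ x = J *ᵥ (Fin.addCases x (fun _ => 0) : Fin (n + 1) → ℂ) := by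
      intro x
      funext a
      simp only [Matrix.mulVec, dotProduct]
      rw [Fin.sum_univ_add]
      simp [hA0, fi]
    have h1' : (A0.mulVec x : Fin (2 * n) → ℂ) = A0.mulVec x' := hxx
    rw [h1, h1] at h1'
    have h2 := hJ h1'
    funext a
    have h3 := congrFun h2 (fi a)
    simpa [fi] using h3
  have hL' : A0ᵀ * S * A0 = 0 := by
    ext a b
    have := hL a b
    simpa [Matrix.mul_apply, hA0] using this
  have hcard : Fintype.card (Fin (2 * n)) = 2 * Fintype.card (Fin n) := by simp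
  have hbeta : (A0ᵀ * S) *ᵥ v = fun a => (Jᵀ * S * J) (fi a) (bi 0) := by
    funext a
    simp only [Matrix.mulVec, dotProduct, Matrix.mul_apply, Matrix.transpose_apply, hA0,
      Matrix.submatrix_apply, id_eq, hv]
  have hgr : gr G A0 = (Jᵀ * G * J.map conj).submatrix fi fi := by
    rw [gr, hmc]
    ext a b
    simp only [Matrix.submatrix_apply, Matrix.mul_apply, Matrix.transpose_apply,
      Matrix.conjTranspose_apply, id_eq, hA0]
  rw [e2, det_one hG hc hR hA hL' hcard v, hbeta, hgr]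
  congr 1
  set C := ((Jᵀ * G * J.map conj).submatrix (fi (d := n) (m := 1)) fi).adjugate with hC
  set ξ : Fin n → ℂ := fun a => (Jᵀ * S * J) (fi a) (bi 0) with hξ
  simp only [Matrix.trace, Matrix.diag_apply, Matrix.mul_apply, Matrix.vecMulVec_apply,
    dotProduct, Matrix.mulVec]
  refine Finset.sum_congr rfl fun a _ => ?_
  rw [Finset.mul_sum]
  refine Finset.sum_congr rfl fun b _ => ?_
  ring

end alg_

section fam_

variable {n : ℕ} {M : Type} [TopologicalSpace M] {A : Atl (2 * n) M} {U : Set (Cn 1)}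

/-- **(S1)** on a Lagrangian family over a disc -/
theorem det_kah {F : Fam A n 1 U} {σ : H2 A} (hL : F.Lag σ) (K : Kah A) {c : ℝ} (hc : 0 < c)
    (hR : ∀ i, ∀ x ∈ (A.e i).source, σ.s i x * ((K.g i x)ᵀ)⁻¹ * (σ.s i x)ᴴ = (c : ℂ) • K.g i x)
    {k : F.B.ι} {v : F.V} (hv : v ∈ (F.B.e k).source) :
    ((F.kah K).g k v).det = (c : ℂ)⁻¹ * ((fib (F.kah K).g k v).adjugate *
      Matrix.vecMulVec (xi F σ 0 k v) (star (xi F σ 0 k v))).trace := by
  obtain ⟨i, hi⟩ := A.cover (F.i v)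
  have hg : (F.kah K).g k v = (Jp F.B A F.i k i v)ᵀ * K.g i (F.i v) * (Jp F.B A F.i k i v).map conj :=
    pullI_g K F.hol F.imm hv hi
  have hx : xi F σ 0 k v = fun a =>
      ((Jp F.B A F.i k i v)ᵀ * σ.s i (F.i v) * Jp F.B A F.i k i v) (fi a) (bi 0) := by
    funext a
    show sV σ F.B F.i k v (fi a) (bi 0) = _
    rw [sV_eq σ F.hol hv hi]
    rfl
  have hJ : Injective (Jp F.B A F.i k i v).mulVec := by
    intro w w' hww
    have h3 := F.imm k i v hv hi
    have h4 : ∀ w : Fin (n + 1) → ℂ, (Jp F.B A F.i k i v) *ᵥ w =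
        (fderiv ℂ (Crest.Agent.R273.Map_835.rd F.B A F.i k i) (F.B.e k v) (WithLp.toLp 2 w) :
          Fin (2 * n) → ℂ) := by
      intro w
      funext b
      rw [mt_apply]
      rfl
    have h5 : fderiv ℂ (Crest.Agent.R273.Map_835.rd F.B A F.i k i) (F.B.e k v) (WithLp.toLp 2 w) =
        fderiv ℂ (Crest.Agent.R273.Map_835.rd F.B A F.i k i) (F.B.e k v) (WithLp.toLp 2 w') := by
      ext b
      exact congrFun ((h4 w).symm.trans (Eq.trans hww (h4 w'))) b
    exact congrArg (WithLp.ofLp) (h3 h5)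
  have hLag : ∀ a b : Fin n,
      ((Jp F.B A F.i k i v)ᵀ * σ.s i (F.i v) * Jp F.B A F.i k i v) (fi a) (fi b) = 0 := fun a b =>
    congrFun (congrFun (hL k i v hv hi) a) b
  have h := det_pull_eq (K.pos i _ hi) hc (hR i _ hi) hJ hLag
  have hf : fib (F.kah K).g k v = ((Jp F.B A F.i k i v)ᵀ * K.g i (F.i v) *
      (Jp F.B A F.i k i v).map conj).submatrix fi fi := by
    unfold fib
    rw [hg]
  rw [hf, hg, hx]
  exact h

/-- **(S3), the two-Yau identity on a disc family**, tested against `χ(y)` -/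
theorem two_vol {F : Fam A n 1 U} {σ : H2 A} (hσ : ClH2 σ) (hL : F.Lag σ) {K K' : Kah A} {c c' : ℝ}
    (hc : 0 < c) (hc' : 0 < c')
    (hR : ∀ i, ∀ x ∈ (A.e i).source, σ.s i x * ((K.g i x)ᵀ)⁻¹ * (σ.s i x)ᴴ = (c : ℂ) • K.g i x)
    (hR' : ∀ i, ∀ x ∈ (A.e i).source, σ.s i x * ((K'.g i x)ᵀ)⁻¹ * (σ.s i x)ᴴ = (c' : ℂ) • K'.g i x)
    {H : F.V → ℝ} (hH : F.B.Sm H)
    (he : ∀ k, ∀ v ∈ (F.B.e k).source, (F.kah K').g k v = (F.kah K).g k v + hsf F.B H k v)
    {χ : Cn 1 → ℂ} (hχ : ContDiff ℝ ∞ χ) {C : Set F.V} (hC : IsCompact C)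
    (h0 : ∀ v ∉ C, χ (F.y v) = 0) :
    intD F.P (fun k v => χ (F.y v) * ((F.kah K').g k v).det) =
      ((c / c' : ℝ) : ℂ) * intD F.P (fun k v => χ (F.y v) * ((F.kah K).g k v).det) := by
  have hS := rcf_xi hσ hL (0 : Fin 1)
  have hg : RCF F.B (fib (F.kah K).g) := rcf_fib (ada F) (Crest.Agent.R273.Green_5.kah_cf (F.kah K))
  have hm := rmixed F.P (ada F) hg hS (bas_comp (ada F) hχ) hH hC h0
  simp only [wt_ada, mul_one] at hm
  have h1 : intD F.P (fun k v => χ (F.y v) * ((F.kah K').g k v).det) =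
      (c' : ℂ)⁻¹ * intD F.P (fun k v => χ (F.y v) * ((fib (F.kah K).g k v +
        fib (hsf F.B H) k v).adjugate *
          Matrix.vecMulVec (xi F σ 0 k v) (star (xi F σ 0 k v))).trace) := by
    rw [← intD_smul F.P (c' : ℂ)⁻¹ hC (fun k v _ hvC => by
      show χ (F.y v) * _ = 0
      rw [h0 v hvC, zero_mul])]
    refine intD_congr F.P fun k v hv => ?_
    have e : fib (F.kah K').g k v = fib (F.kah K).g k v + fib (hsf F.B H) k v := by
      unfold fib
      rw [he k v hv]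
      rfl
    rw [det_kah hL K' hc' hR' hv, e]
    ring
  have h2 : intD F.P (fun k v => χ (F.y v) * ((F.kah K).g k v).det) =
      (c : ℂ)⁻¹ * intD F.P (fun k v => χ (F.y v) * ((fib (F.kah K).g k v).adjugate *
          Matrix.vecMulVec (xi F σ 0 k v) (star (xi F σ 0 k v))).trace) := by
    rw [← intD_smul F.P (c : ℂ)⁻¹ hC (fun k v _ hvC => by
      show χ (F.y v) * _ = 0
      rw [h0 v hvC, zero_mul])]
    refine intD_congr F.P fun k v hv => ?_
    rw [det_kah hL K hc hR hv]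
    ring
  rw [h1, h2, hm]
  have hc0 : (c : ℂ) ≠ 0 := by exact_mod_cast hc.ne'
  have hc0' : (c' : ℂ) ≠ 0 := by exact_mod_cast hc'.ne'
  push_cast
  field_simp

end fam_

end

end Crest.Agent.R281.SK5_507
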