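import Crest.Agent.R281.SK5_507
import Crest.Agent.R281.D6f_986
import Crest.Agent.R281.HkP3_508

/-!
# R281 (S0424), S6-SK (helper507), part 6: the literal output `SKOut`

* `lag_of_leafy` : families whose fibres are leaves of an `LFib` are Lagrangian
* `relH`, `sm_relH`, `kah_relH` : on a leafy family `K'_V = K_V + ∂∂̄ H`, `H = φ - ρ/k`
* `skOut`        : two hyperkaehler metrics `K`, `K' = K + θ` for `σ`, `r σ` ⟹ `SKOut K o h`
-/

set_option autoImplicit false
set_option linter.unusedSectionVars false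

open Set Filter Topology Complex Function
open scoped ContDiff Matrix ComplexConjugate ComplexOrder

namespace Crest.Agent.R281.SK6_507

open Crest.Agent.R275 Crest.Agent.R275.Geo Crest.Agent.R275.Core144 Crest.Agent.R275.EDR890
open Crest.Agent.R275.GC293 Crest.Agent.R275.C1d194
open Crest.Agent.R273.Defs_333 Crest.Agent.R273.Hess_333 Crest.Agent.R273.HessB_333
open Crest.Agent.R273.HM_333 Crest.Agent.R273.Kah_333 Crest.Agent.R273.Vol_333
open Crest.Agent.R273.StokesV_332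
open Crest.Agent.R273.Map_835 Crest.Agent.R273.KahI_645
open Crest.Agent.R281.SK4_507 Crest.Agent.R281.SK5_507
open Crest.Agent.R281.S6D_664 Crest.Agent.R281.Defs_273 Crest.Agent.R281.D6_986
open Crest.Agent.R281.Har_331 (hsf_pull hsf_log_nsM sm_pull)
open Crest.Agent.R281.Glob1_484 (nsM nsM_eq sm_nsM)
open Crest.Agent.R281.HkP3_508 Crest.Agent.R281.HkP2_508
open Crest.Agent.R281.Fib4_425 (Tst)

noncomputable section

variable {n : ℕ} {M : Type} [TopologicalSpace M] {A : Atl (2 * n) M} {σ : HSymp A}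

/-- **leafy families are Lagrangian** -/
theorem lag_of_leafy {F0 : LFib A σ} {m : ℕ} {D : Set (Cn m)} {F : Fam A n m D}
    (h : Leafy F0 F) : F.Lag σ.toH2 := by
  intro j i v hj hi
  obtain ⟨hv, hT⟩ := h v
  obtain ⟨τ, hτ, -, hlag⟩ := F0.tube (F.i v) hv
  set w0 := F.B.e j v with hw0
  have hw0t : w0 ∈ (F.B.e j).target := (F.B.e j).map_source hj
  have hsy : (F.B.e j).symm w0 = v := (F.B.e j).left_inv hj
  have hdm : w0 ∈ dm F.B A F.i j i := mem_dm hj hi
  have h1 : DifferentiableAt ℂ (Crest.Agent.R273.Map_835.rd F.B A F.i j i) w0 := F.hol.diffAt hdm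
  have hrd0 : Crest.Agent.R273.Map_835.rd F.B A F.i j i w0 = A.e i (F.i v) := by
    show A.e i (F.i ((F.B.e j).symm w0)) = _
    rw [hsy]
  have h3 : DifferentiableAt ℂ (fun z => τ.f ((A.e i).symm z))
      (Crest.Agent.R273.Map_835.rd F.B A F.i j i w0) := by
    rw [hrd0]
    have ho : IsOpen ((A.e i).target ∩ (A.e i).symm ⁻¹' τ.W) :=
      (A.e i).isOpen_inter_preimage_symm τ.oW
    refine (τ.hol i).differentiableAt (ho.mem_nhds ⟨(A.e i).map_source hi, ?_⟩)
    rw [mem_preimage, (A.e i).left_inv hi]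
    exact hτ
  -- the differential of `τ.f ∘ i` vanishes in the fibre directions
  have hker : ∀ a : Fin n, fderiv ℂ (fun z => τ.f ((A.e i).symm z)) (A.e i (F.i v))
      (fderiv ℂ (Crest.Agent.R273.Map_835.rd F.B A F.i j i) w0
        (EuclideanSpace.single (Fin.castAdd m a) 1)) = 0 := by
    intro a
    set e : Cn (n + m) := EuclideanSpace.single (Fin.castAdd m a) 1 with he
    set g : Cn (n + m) → Cn n := fun w => τ.f ((A.e i).symm
      (Crest.Agent.R273.Map_835.rd F.B A F.i j i w)) with hg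
    have hgd : HasFDerivAt g ((fderiv ℂ (fun z => τ.f ((A.e i).symm z)) (A.e i (F.i v))).comp
        (fderiv ℂ (Crest.Agent.R273.Map_835.rd F.B A F.i j i) w0)) w0 := by
      have := HasFDerivAt.comp w0 (g := fun z => τ.f ((A.e i).symm z)) h3.hasFDerivAt h1.hasFDerivAt
      rwa [hrd0] at this
    have hline : HasDerivAt (fun c : ℂ => w0 + c • e) e 0 := by
      simpa using ((hasDerivAt_id (0 : ℂ)).smul_const e).const_add w0
    have hcomp : HasDerivAt (fun c : ℂ => g (w0 + c • e)) ((fderiv ℂ (fun z => τ.f ((A.e i).symm z))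
        (A.e i (F.i v))) (fderiv ℂ (Crest.Agent.R273.Map_835.rd F.B A F.i j i) w0 e)) 0 := by
      have h5 : HasFDerivAt g ((fderiv ℂ (fun z => τ.f ((A.e i).symm z)) (A.e i (F.i v))).comp
        (fderiv ℂ (Crest.Agent.R273.Map_835.rd F.B A F.i j i) w0)) (w0 + (0 : ℂ) • e) := by
        rw [zero_smul, add_zero]; exact hgd
      exact h5.comp_hasDerivAt (0 : ℂ) hline
    have hconst : (fun c : ℂ => g (w0 + c • e)) =ᶠ[𝓝 0] fun _ => τ.f (F.i v) := by
      have hc : ContinuousAt (fun c : ℂ => w0 + c • e) 0 := hline.continuousAt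
      have hc0 : dm F.B A F.i j i ∈ 𝓝 (w0 + (0 : ℂ) • e) := by
        rw [zero_smul, add_zero]
        exact (F.hol.isOpen_dm j i).mem_nhds hdm
      filter_upwards [hc.preimage_mem_nhds hc0] with c hcd
      have hcd' : w0 + c • e ∈ dm F.B A F.i j i := hcd
      set v' := (F.B.e j).symm (w0 + c • e) with hv'
      have hs' : v' ∈ (F.B.e j).source := (F.B.e j).map_target hcd'.1
      have hy : F.y v' = F.y v := by
        ext b
        rw [← F.last j v' hs' b, ← F.last j v hj b, hv', (F.B.e j).right_inv hcd'.1]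
        show (w0 + c • e) (Fin.natAdd n b) = w0 (Fin.natAdd n b)
        have : e (Fin.natAdd n b) = 0 := by
          rw [he, PiLp.single_apply, if_neg]
          intro hh
          have := congrArg Fin.val hh
          simp at this
          omega
        rw [PiLp.add_apply, PiLp.smul_apply, this, smul_zero, add_zero]
      have hmem : F.i v' ∈ F0.Tf (F.i v) := by
        rw [hT]
        exact ⟨v', hy, rfl⟩
      rw [τ.fib _ hτ] at hmem
      show τ.f ((A.e i).symm (A.e i (F.i v'))) = _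
      rw [(A.e i).left_inv hcd'.2]
      exact hmem.2
    exact (hcomp.congr_of_eventuallyEq hconst.symm).unique (hasDerivAt_const _ _)
  ext a b
  have h5 := hlag i (F.i v) ⟨hi, hτ⟩ _ _ (hker a) (hker b)
  have h6 : (fb ((Jp F.B A F.i j i v)ᵀ * σ.s i (F.i v) * Jp F.B A F.i j i v)) a b =
      ∑ p, ∑ q, (fderiv ℂ (Crest.Agent.R273.Map_835.rd F.B A F.i j i) (F.B.e j v)
        (EuclideanSpace.single (Fin.castAdd m a) 1)) p * σ.s i (F.i v) p q *
        (fderiv ℂ (Crest.Agent.R273.Map_835.rd F.B A F.i j i) (F.B.e j v)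
        (EuclideanSpace.single (Fin.castAdd m b) 1)) q := by
    simp only [fb, Matrix.submatrix_apply, Matrix.mul_apply, Matrix.transpose_apply, Jp,
      Matrix.of_apply, Finset.sum_mul]
    rw [Finset.sum_comm]
  rw [h6, h5]
  rfl

/-! ### the potential of `K' - K` on a leafy family -/

section relH_

variable {L : LB A} {d m : ℕ} {U : Set (Cn m)}

/-- `- log |s|²_{h^k} / k` on a family -/
def relH (h : HM L) (k : ℕ) (s : A.ι → M → ℂ) {V : Type} (i : V → M) (v : V) : ℝ :=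
  (-(1 / (k : ℝ))) * Real.log (nsM (pow h k) s (i v))

variable {h : HM L} {k : ℕ} {s : A.ι → M → ℂ}

theorem nsM_pos' (h : HM L) {s : A.ι → M → ℂ} {x : M}
    (h0 : ∀ i, x ∈ (A.e i).source → s i x ≠ 0) : 0 < nsM h s x := by
  obtain hx := Crest.Agent.R273.FIb0_597.mem_ch A x
  have h1 := h0 _ hx
  have h2 := h.pos _ x hx
  have h3 : 0 < ‖s (Crest.Agent.R273.FIb0_597.ch A x) x‖ := norm_pos_iff.2 h1
  show 0 < ‖s (Crest.Agent.R273.FIb0_597.ch A x) x‖ ^ 2 * h.w (Crest.Agent.R273.FIb0_597.ch A x) x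
  positivity

theorem sm_relH (hs : IsHS (L ^ k) univ s) (F : Fam A d m U)
    (hp : ∀ v, 0 < nsM (pow h k) s (F.i v)) : F.B.Sm (relH h k s F.i) := by
  intro j
  have h1 := sm_pull F.hol (sm_nsM (pow h k) hs) j
  exact contDiffOn_const.mul (ContDiffOn.log h1 fun z hz => (hp _).ne')

theorem hsf_relH (hk : 0 < k) (hs : IsHS (L ^ k) univ s) (F : Fam A d m U)
    (hp : ∀ v, 0 < nsM (pow h k) s (F.i v)) {j : F.B.ι} {i : A.ι} {v : F.V}
    (hj : v ∈ (F.B.e j).source) (hi : F.i v ∈ (A.e i).source) :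
    hsf F.B (relH h k s F.i) j v =
      (Jp F.B A F.i j i v)ᵀ * cur h i (F.i v) * (Jp F.B A F.i j i v).map conj := by
  have hz := (F.B.e j).map_source hj
  have hsm : ContDiffAt ℝ ∞ (fun w => Real.log (nsM (pow h k) s (F.i ((F.B.e j).symm w))))
      (F.B.e j v) :=
    ((ContDiffOn.log (sm_pull F.hol (sm_nsM (pow h k) hs) j) fun z hz => (hp _).ne').contDiffAt
      ((F.B.e j).open_target.mem_nhds hz))
  have h1 : hsf F.B (relH h k s F.i) j v =
      ((-(1 / (k : ℝ)) : ℝ) : ℂ) • hsf F.B (fun v => Real.log (nsM (pow h k) s (F.i v))) j v := by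
    show hess (fun w => (-(1 / (k : ℝ))) * Real.log (nsM (pow h k) s (F.i ((F.B.e j).symm w))))
      (F.B.e j v) = _
    exact hess_const_mul _ hsm
  have hu : ContDiffAt ℝ ∞ (fun z => Real.log (nsM (pow h k) s ((A.e i).symm z)))
      (A.e i (F.i v)) := by
    refine ContDiffAt.log (((sm_nsM (pow h k) hs) i).contDiffAt
      ((A.e i).open_target.mem_nhds ((A.e i).map_source hi))) ?_
    rw [(A.e i).left_inv hi]; exact (hp v).ne'
  rw [h1, hsf_pull F.hol (u := fun x => Real.log (nsM (pow h k) s x)) hj hi hu,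
    hsf_log_nsM (pow h k) hs hi (hp v), cur_pow h k i hi]
  have hk0 : (k : ℂ) ≠ 0 := by exact_mod_cast hk.ne'
  rw [Matrix.mul_neg, Matrix.neg_mul, Matrix.mul_smul, Matrix.smul_mul, smul_neg, smul_smul,
    ← neg_smul]
  have : -(((-(1 / (k : ℝ)) : ℝ) : ℂ) * (k : ℂ)) = 1 := by
    push_cast
    field_simp
  rw [this, one_smul]

/-- **on a leafy family `K'_V = K_V + ∂∂̄ H`** -/
theorem kah_relH {K K' : Kah A} {φ : M → ℝ} (hφ : A.Sm φ)
    (he : ∀ i, ∀ x ∈ (A.e i).source, K'.g i x = K.g i x + cur h i x + hsf A φ i x)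
    (hk : 0 < k) (hs : IsHS (L ^ k) univ s) (F : Fam A d m U)
    (hp : ∀ v, 0 < nsM (pow h k) s (F.i v)) {j : F.B.ι} {v : F.V}
    (hj : v ∈ (F.B.e j).source) :
    (F.kah K').g j v = (F.kah K).g j v +
      hsf F.B (fun v => φ (F.i v) + relH h k s F.i v) j v := by
  obtain ⟨i, hi⟩ := A.cover (F.i v)
  have h1 : (F.kah K').g j v = (Jp F.B A F.i j i v)ᵀ * K'.g i (F.i v) * (Jp F.B A F.i j i v).map conj :=
    pullI_g K' F.hol F.imm hj hi
  have h2 : (F.kah K).g j v = (Jp F.B A F.i j i v)ᵀ * K.g i (F.i v) * (Jp F.B A F.i j i v).map conj :=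
    pullI_g K F.hol F.imm hj hi
  have hz := (F.B.e j).map_source hj
  have h3 : hsf F.B (fun v => φ (F.i v) + relH h k s F.i v) j v =
      hsf F.B (fun v => φ (F.i v)) j v + hsf F.B (relH h k s F.i) j v :=
    hess_add (((sm_pull F.hol hφ) j).contDiffAt ((F.B.e j).open_target.mem_nhds hz))
      (((sm_relH hs F hp) j).contDiffAt ((F.B.e j).open_target.mem_nhds hz))
  have h4 := hsf_pull F.hol hj hi ((hφ i).contDiffAt
      ((A.e i).open_target.mem_nhds ((A.e i).map_source hi)))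
  rw [h1, h2, h3, h4, hsf_relH hk hs F hp hj hi, he i _ hi]
  simp only [Matrix.mul_add, Matrix.add_mul]
  abel

theorem sm_relH' {φ : M → ℝ} (hφ : A.Sm φ) (hs : IsHS (L ^ k) univ s) (F : Fam A d m U)
    (hp : ∀ v, 0 < nsM (pow h k) s (F.i v)) :
    F.B.Sm (fun v => φ (F.i v) + relH h k s F.i v) := fun j =>
  ((sm_pull F.hol hφ) j).add ((sm_relH hs F hp) j)

end relH_

/-! ### the output -/

variable {L : LB A}

theorem nz_leafy {o : OmOut σ L} (h : HM L) {m : ℕ} {D : Set (Cn m)} {F : Fam A n m D}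
    (hF : Leafy o.F F) (v : F.V) : 0 < nsM (pow h o.k) o.s (F.i v) :=
  nsM_pos' _ fun i hi => o.nz _ (hF v).1 i hi

/-- the two-Yau identity on leafy disc families -/
theorem two_vol_leafy {K K' : Kah A} {h : HM L} {φ : M → ℝ} (hφ : A.Sm φ)
    (he : ∀ i, ∀ x ∈ (A.e i).source, K'.g i x = K.g i x + cur h i x + hsf A φ i x)
    (hσ : ClH2 σ.toH2) {c c' : ℝ} (hc : 0 < c) (hc' : 0 < c')
    (hR : ∀ i, ∀ x ∈ (A.e i).source, σ.s i x * ((K.g i x)ᵀ)⁻¹ * (σ.s i x)ᴴ = (c : ℂ) • K.g i x)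
    (hR' : ∀ i, ∀ x ∈ (A.e i).source, σ.s i x * ((K'.g i x)ᵀ)⁻¹ * (σ.s i x)ᴴ = (c' : ℂ) • K'.g i x)
    (o : OmOut σ L) {D : Set (Cn 1)} {F : Fam A n 1 D} (hF : Leafy o.F F) {χ : Cn 1 → ℝ}
    (hχ : Tst D χ) :
    intD F.P (fun k v => (χ (F.y v) : ℂ) * ((F.kah K').g k v).det) =
      ((c / c' : ℝ) : ℂ) * intD F.P (fun k v => (χ (F.y v) : ℂ) * ((F.kah K).g k v).det) := by
  have hp := nz_leafy h hF
  refine two_vol (U := D) hσ (lag_of_leafy hF) hc hc' hR hR' (sm_relH' hφ o.hs F hp)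
    (fun k v hv => kah_relH hφ he o.k_pos o.hs F hp hv) (χ := fun z => (χ z : ℂ)) hχ.smC
    (F.proper _ hχ.sub hχ.cpt) fun v hv => ?_
  show ((χ (F.y v) : ℝ) : ℂ) = 0
  rw [image_eq_zero_of_notMem_tsupport hv, ofReal_zero]

/-- **the output of S6-SK**, from the two hyperkaehler metrics of `RF_373.two_yau` -/
def skOut {K : Kah A} {h : HM L} (hK : HK K σ) (K' : Kah A) {r : ℝ} {hr : (r : ℂ) ≠ 0}
    (h1 : 1 < r) (hK' : HK K' (smulHS (r : ℂ) hr σ))
    (he : ∀ i, ∀ x ∈ (A.e i).source, K'.g i x = K.g i x + cur h i x) (o : OmOut σ L) :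
    SKOut K o h where
  K' := K'
  φ := fun _ => 0
  sm := fun _ => contDiffOn_const
  eq := fun i x hx => by
    have h0 : hsf A (fun _ => (0 : ℝ)) i x = 0 := hess_zero' _
    rw [he i x hx, h0, add_zero]
  lam := r ^ 2
  one_lt := by nlinarith
  vol := fun D _ F hF χ hχ => by
    have hr0 : 0 < r := by linarith
    have hR : ∀ i, ∀ x ∈ (A.e i).source,
        σ.s i x * ((K.g i x)ᵀ)⁻¹ * (σ.s i x)ᴴ = ((1 : ℝ) : ℂ) • K.g i x := fun i x hx => by
      rw [ofReal_one, one_smul]; exact hK.rel i x hx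
    have hR' : ∀ i, ∀ x ∈ (A.e i).source,
        σ.s i x * ((K'.g i x)ᵀ)⁻¹ * (σ.s i x)ᴴ = (((r ^ 2)⁻¹ : ℝ) : ℂ) • K'.g i x := fun i x hx => by
      have h3 := hK'.rel i x hx
      change ((r : ℂ) • σ.s i x) * ((K'.g i x)ᵀ)⁻¹ * ((r : ℂ) • σ.s i x)ᴴ = K'.g i x at h3
      rw [Matrix.conjTranspose_smul, Matrix.smul_mul, Matrix.mul_smul, Matrix.smul_mul, smul_smul,
        RCLike.star_def, Complex.conj_ofReal] at h3
      have : (((r ^ 2)⁻¹ : ℝ) : ℂ) * ((r : ℂ) * (r : ℂ)) = 1 := by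
        have h5 : (r : ℂ) ≠ 0 := hr
        push_cast
        field_simp
      conv_rhs => rw [← h3, smul_smul, this, one_smul]
    have he' : ∀ i, ∀ x ∈ (A.e i).source,
        K'.g i x = K.g i x + cur h i x + hsf A (fun _ => (0 : ℝ)) i x := fun i x hx => by
      have h0 : hsf A (fun _ => (0 : ℝ)) i x = 0 := hess_zero' _
      rw [he i x hx, h0, add_zero]
    have h2 := two_vol_leafy (K := K) (K' := K') (φ := fun _ => (0 : ℝ)) (fun _ => contDiffOn_const)
      he' (fun i z hz a b c => hK.closed i hz a b c) one_pos (inv_pos.2 (pow_pos hr0 2)) hR hR' o hF hχ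
    rw [h2, one_div, inv_inv]

end

end Crest.Agent.R281.SK6_507
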