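import Crest.Agent.R281.SK6_507
import Crest.Agent.R281.D6y_986

/-!
# R281 (S0424), S6-SK (helper507), part 7: the literal node `SKStmt` of D6y_986
-/

set_option autoImplicit false
set_option linter.unusedSectionVars false

namespace Crest.Agent.R281.SK7_507

open Crest.Agent.R281.SK6_507

theorem skStmt : Crest.Agent.R281.D6_986.SKStmt :=
  fun _ _ _ _ _ _ _ _ _ _ _ _ hK _ _ K' _ _ h1 he hK' o => ⟨skOut hK K' h1 hK' he o⟩

end Crest.Agent.R281.SK7_507
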