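import Crest.Agent.R281.SIn_14
import Crest.Agent.R281.Fra3_922

/-!
# R281, S-ASM (helper615), part 0: the interface between the analytic and the geometric half of
Theorem S

* `GoodPt K s f y R lo hi lam` : `y` is a good point (analytic half: helper593)
* `GeoHalf`                    : good point ⟹ `SOut` (geometric half: helper615)
-/

set_option autoImplicit false
set_option linter.unusedSectionVars false

open Set Filter Topology Complex MeasureTheory Metric
open scoped ContDiff Matrix ComplexConjugate ComplexOrder ENNReal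

namespace Crest.Agent.R281.Sbs_615

open Crest.Agent.R275.Geo Crest.Agent.R275.Core144 Crest.Agent.R275.EDR890
open Crest.Agent.R273.Defs_333 Crest.Agent.R273.Hess_333 Crest.Agent.R273.HessB_333
open Crest.Agent.R273.HM_333 Crest.Agent.R273.Kah_333 Crest.Agent.R273.Vol_333
open Crest.Agent.R273.Vm_333 Crest.Agent.R273.FIb0_597
open Crest.Agent.R273.RMan_798 Crest.Agent.R273.RMan4_798
open Crest.Agent.R281.SIn_14
open Crest.Agent.R281.SAsm_790 (qf)
open Crest.Agent.R281.Fra_922 (bX onX)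

noncomputable section

variable {N : ℕ} {M : Type} [TopologicalSpace M] {A : Atl N M} [T2Space M] [ConnectedSpace M]

/-- **good point** : on the `g'`-ball `ball y R` no section vanishes and the Gram matrix of
`η_j = dlog F_j` is pinched between `lo` and `hi` (as `lo |v|² ≤ Σ_j |η_j(v)|² ≤ hi |v|²`); the
means of `f` over all balls around `y` are `≤ lam`. -/
structure GoodPt [Countable A.ι] [MeasurableSpace M] [BorelSpace M] (K : Kah A)
    (s : Fin (N + 1) → A.ι → M → ℂ) (f : M → ℝ≥0∞)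
    (y : (ofKah K).M) (R lo hi lam : ℝ) : Prop where
  nz : ∀ x : M, x ∈ bX K y R → NZ s x
  lo : ∀ i, ∀ x ∈ (A.e i).source, x ∈ bX K y R → ∀ v : Cn N,
    lo * qf K i x v ≤ ∑ j, ‖(eta s i x *ᵥ v.ofLp) j‖ ^ 2
  hi : ∀ i, ∀ x ∈ (A.e i).source, x ∈ bX K y R → ∀ v : Cn N,
    ∑ j, ‖(eta s i x *ᵥ v.ofLp) j‖ ^ 2 ≤ hi * qf K i x v
  mean : ∀ ρ : ℝ, 0 < ρ → ∫⁻ x in bX K y ρ, f x ∂(vm (volK K)) ≤
    ENNReal.ofReal lam * vm (volK K) (bX K y ρ)

/-- **geometric half of Theorem S** -/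
def GeoHalf : Prop :=
  ∀ (N d : ℕ) (lo hi lam R1 : ℝ), 1 ≤ N → 0 < lo → 0 < hi → 0 ≤ lam → ∃ K1 : ℝ, 0 < K1 ∧
    ∀ r ε : ℝ, R1 ≤ r → 0 < r → 0 < ε → ∃ R : ℝ, 0 < R ∧
    ∀ (M : Type) [TopologicalSpace M] [T2Space M] [CompactSpace M] [ConnectedSpace M]
      [MeasurableSpace M] [BorelSpace M] (A : Atl N M) [Finite A.ι]
      (K : Kah A) (Lb : LB A) (h : HM Lb) (s : Fin (N + 1) → A.ι → M → ℂ) (om : A.ι → M → ℂ)
      (m v C0 c L : ℝ), 0 < m → 0 < L → SDat A K Lb h s om m v C0 c d L →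
    ∀ f : M → ℝ≥0∞, Measurable f → ∀ y : (ofKah K).M, GoodPt K s f y R lo hi lam →
      SOut A K (quo s) d K1 R1 r ε f

end

end Crest.Agent.R281.Sbs_615
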