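import Crest.Agent.R281.SGP_790
import Crest.Agent.R281.Sbs0_615

/-!
# Row 281 (S0424), S-ASM (helper790): Theorem S from `HalfA` (593) and `GeoHalf` (615)
-/

set_option autoImplicit false
set_option linter.unusedSectionVars false

open Set Filter Topology Complex MeasureTheory
open scoped ContDiff Matrix ComplexConjugate ComplexOrder ENNReal

namespace Crest.Agent.R281.SThm_790

open Crest.Agent.R275.Geo Crest.Agent.R275.Core144 Crest.Agent.R275.EDR890
open Crest.Agent.R273.Defs_333 Crest.Agent.R273.Hess_333 Crest.Agent.R273.HessB_333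
open Crest.Agent.R273.HM_333 Crest.Agent.R273.Kah_333 Crest.Agent.R273.Vol_333
open Crest.Agent.R273.Vm_333 Crest.Agent.R273.FIb0_597
open Crest.Agent.R273.Ric_798 Crest.Agent.R273.RMan_798 Crest.Agent.R273.RMan4_798
open Crest.Agent.R281.Tor_922 Crest.Agent.R281.SIn_14
open Crest.Agent.R281.SAsm_790 Crest.Agent.R281.Fra_922 Crest.Agent.R281.SGP_790

noncomputable section

variable {N : ℕ} {M : Type} [TopologicalSpace M] {A : Atl N M}

/-- closed balls to open balls -/
theorem mean_open [T2Space M] [ConnectedSpace M] [MeasurableSpace M] (K : Kah A)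
    (μ : Measure M) {f : M → ℝ≥0∞} {y : (ofKah K).M} {lam : ℝ≥0∞}
    (h : ∀ ρ : ℝ, 0 < ρ → ∫⁻ x in cbX K y ρ, f x ∂μ ≤ lam * μ (cbX K y ρ)) {ρ : ℝ} (hρ : 0 < ρ) :
    ∫⁻ x in bX K y ρ, f x ∂μ ≤ lam * μ (bX K y ρ) := by
  set t : ℕ → ℝ := fun k => ρ * (k + 1) / (k + 2) with ht
  have ht0 : ∀ k, 0 < t k := fun k => by
    rw [ht]
    positivity
  have htρ : ∀ k, t k < ρ := fun k => by
    rw [ht]
    simp only
    rw [div_lt_iff₀ (by positivity)]
    nlinarith
  have htm : Monotone t := by
    refine monotone_nat_of_le_succ fun k => ?_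
    rw [ht]
    simp only
    rw [div_le_div_iff₀ (by positivity) (by positivity)]
    push_cast
    nlinarith
  have hsub : ∀ k, cbX K y (t k) ⊆ bX K y ρ := fun k x hx =>
    lt_of_le_of_lt (show dist (show (ofKah K).M from x) y ≤ t k from hx) (htρ k)
  have hU : bX K y ρ = ⋃ k, cbX K y (t k) := by
    apply subset_antisymm
    · intro x hx
      have hx' : dist (show (ofKah K).M from x) y < ρ := hx
      have hlim : Tendsto t atTop (𝓝 ρ) := by
        have h1 : Tendsto (fun k : ℕ => ρ - ρ / ((k : ℝ) + 2)) atTop (𝓝 (ρ - 0)) := by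
          refine tendsto_const_nhds.sub ?_
          refine Tendsto.div_atTop tendsto_const_nhds ?_
          exact tendsto_atTop_add_const_right _ _ tendsto_natCast_atTop_atTop
        rw [sub_zero] at h1
        refine h1.congr fun k => ?_
        rw [ht]
        simp only
        have : (k : ℝ) + 2 ≠ 0 := by positivity
        field_simp
        ring
      obtain ⟨k, hk⟩ := (hlim.eventually (lt_mem_nhds hx')).exists
      exact mem_iUnion.2 ⟨k, hk.le⟩
    · exact iUnion_subset hsub
  have hdir : Directed (· ⊆ ·) fun k => cbX K y (t k) := by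
    refine Monotone.directed_le fun k l hkl x hx => ?_
    exact le_trans (show dist (show (ofKah K).M from x) y ≤ t k from hx) (htm hkl)
  conv_lhs => rw [hU]
  rw [setLIntegral_iUnion_of_directed f hdir]
  refine iSup_le fun k => (h (t k) (ht0 k)).trans ?_
  exact mul_le_mul_right (measure_mono (hsub k)) lam

theorem goodPt_615 [T2Space M] [ConnectedSpace M] [Countable A.ι] [MeasurableSpace M]
    [BorelSpace M] {K : Kah A} {s : Fin (N + 1) → A.ι → M → ℂ} {y : (ofKah K).M}
    {R lo hi lam : ℝ} {f : M → ℝ≥0∞} (h : GoodPt K s y R lo hi lam f) :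
    Crest.Agent.R281.Sbs_615.GoodPt K s f y R lo hi lam where
  nz := h.nz
  lo := h.lo
  hi := h.hi
  mean := fun _ρ hρ => mean_open K _ h.avg hρ

/-- **Theorem S from its two halves** -/
theorem theoremS_of' (hA : HalfA) (hG : Crest.Agent.R281.Sbs_615.GeoHalf) : TheoremS := by
  intro N m v C0 c R1 d hN hm hv hc
  obtain ⟨lo, hi, lam, hlo, hhi, hlam, hA'⟩ := hA N m v C0 c d hN hm hv hc
  obtain ⟨K1, hK1, hG'⟩ := hG N d lo hi lam R1 hN hlo hhi hlam.le
  refine ⟨K1, hK1, fun r ε hr1 hr hε => ?_⟩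
  obtain ⟨R, hR, hG''⟩ := hG' r ε hr1 hr hε
  obtain ⟨L0, hL0, hA''⟩ := hA' R hR
  refine ⟨L0, hL0, fun L hL M _ _ _ _ _ _ A _ P K Lb h s om hS f hf hf1 => ?_⟩
  obtain ⟨y, hy⟩ := hA'' L hL M A P K Lb h s om hS f hf hf1
  exact hG'' M A K Lb h s om m v C0 c L hm (by linarith) hS f hf y (goodPt_615 hy)

end

end Crest.Agent.R281.SThm_790
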