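import Crest.Agent.R281.HfA3_593
import Crest.Agent.R281.HfG3_615

/-!
# Row 281 (S0424), S-ASM (helper790): Theorem S from the diameter bound (`DiamStmt`, 612)
-/

set_option autoImplicit false

namespace Crest.Agent.R281.SThm_790

open Crest.Agent.R281.SIn_14

/-- **Theorem S** from the diameter bound -/
theorem theoremS_of_diam (hD : Crest.Agent.R281.HfA_593.DiamStmt) : TheoremS :=
  Crest.Agent.R281.SGP_790.theoremS_of (Crest.Agent.R281.HfA_593.halfA_of hD)
    Crest.Agent.R281.HfG_615.halfG

end Crest.Agent.R281.SThm_790
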