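import Crest.Agent.R281.Hdg3_850
import Crest.Agent.R273.AlbA_645
import Crest.Agent.R273.FlatSec_534
import Crest.Agent.R275.FmP_96

/-!
# Row 281, SC-PIC, part 1 (helper413): simply connected compact Kaehler manifolds

* `bOf_mem`   : holomorphic 1-forms are closed (`Om A 1 → H1 A`), every compact Kaehler metric
* `om1_zero`  : on a simply connected compact Kaehler manifold every holomorphic 1-form is zero
* `h1O`       : every smooth `∂̄`-closed `(0,1)`-form is `∂̄ f`
* `vf_zero`   : no holomorphic vector fields, if there is a holomorphic symplectic form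
-/

set_option autoImplicit false
set_option linter.unusedSectionVars false

open Set Filter Topology Complex
open scoped ContDiff Matrix ComplexConjugate

namespace Crest.Agent.R281.Sc_413

open Crest.Agent.R275 Crest.Agent.R275.Geo Crest.Agent.R275.Core144 Crest.Agent.R275.EDR890
open Crest.Agent.R275.Kos798 (sgn)
open Crest.Agent.R275.GC293
open Crest.Agent.R273.Fock_243 (FI Gam eW iW ep Gam_eq Gam_of_ne)
open Crest.Agent.R273.HFlow3_376 (HVF)
open Crest.Agent.R273.Calc_243 (dV)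
open Crest.Agent.R273 Crest.Agent.R273.Kah_333 Crest.Agent.R273.LamN127 Crest.Agent.R273.DMet_733
open Crest.Agent.R273.DVec_733 Crest.Agent.R273.HolF_578 Crest.Agent.R273.HPair_578
open Crest.Agent.R281.Defs_273 (H2 HSymp)
open Crest.Agent.R281.Hdg_850

noncomputable section

variable {n : ℕ} {M : Type} [TopologicalSpace M] {A : Atl n M}

/-- a covector as a linear form -/
def cl (u : Fin n → ℂ) : Cn n →L[ℂ] ℂ := ∑ a, u a • (EuclideanSpace.proj a : Cn n →L[ℂ] ℂ)

theorem cl_apply (u : Fin n → ℂ) (v : Cn n) : cl u v = ∑ a, u a * v a := by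
  simp [cl]

theorem cl_single (u : Fin n → ℂ) (a : Fin n) : cl u (EuclideanSpace.single a 1) = u a := by
  rw [cl_apply]
  simp

/-- the form of type `(1,0)` of a holomorphic 1-form in the Fock picture -/
def bOf (β : A.ι → M → FI n → ℂ) (i : A.ι) (x : M) : Cn n →L[ℂ] ℂ := cl (DegOne_376.c1 (β i x))

theorem y1_cjS (β : Om A 1) (i : A.ι) (x : M) (a : Fin n) : y1 (cjS β) i x a = conj (β.1 i x {a}) :=
  rfl

/-- **holomorphic 1-forms are closed** -/
theorem d_symm [CompactSpace M] [T2Space M] [Finite A.ι] (P : Part A) (K : Kah A) (β : Om A 1)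
    {i : A.ι} {z : Cn n} (hz : z ∈ (A.e i).target) (p q : Fin n) :
    fderiv ℂ (fun z => β.1 i ((A.e i).symm z) {q}) z (EuclideanSpace.single p 1) =
      fderiv ℂ (fun z => β.1 i ((A.e i).symm z) {p}) z (EuclideanSpace.single q 1) := by
  have hx := (A.e i).map_target hz
  have h1 := c2_nab (cjS β) hx p q
  have h2 : (nabL (BN (1 : LB A))) (cjS β) = 0 := HodgeP_578.closed_cjS P K β
  rw [h2] at h1
  have h3 : c2 (oB ((0 : Sec (BN (1 : LB A))).1 i ((A.e i).symm z))) p q = 0 := by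
    show c2 (0 : FI n → ℂ) p q = 0
    have := c2_sub (0 : FI n → ℂ) 0
    rw [sub_self, sub_self] at this
    rw [this]
    rfl
  rw [h3] at h1
  have h4 : ∀ a b : Fin n, A.db i a (fun x => y1 (cjS β) i x b) ((A.e i).symm z) =
      conj (fderiv ℂ (fun z => β.1 i ((A.e i).symm z) {b}) z (EuclideanSpace.single a 1)) := by
    intro a b
    have h5 : DifferentiableAt ℂ (fun z => β.1 i ((A.e i).symm z) {b}) z := by
      have h6 : DifferentiableOn ℂ (fun z => β.1 i ((A.e i).symm z) {b}) (A.e i).target := by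
        have := β.2.1 i {b}
        exact DifferentiableOn.mono this fun z hz => ⟨hz, mem_univ _⟩
      exact h6.differentiableAt ((A.e i).open_target.mem_nhds hz)
    show dbj a (fun w => conj (β.1 i ((A.e i).symm w) {b})) (A.e i ((A.e i).symm z)) = _
    rw [(A.e i).right_inv hz]
    exact Fm96.dbj_conj h5
  rw [h4, h4, ← map_sub] at h1
  exact sub_eq_zero.1 ((map_eq_zero (starRingEnd ℂ)).1 h1.symm)

theorem om_hol (β : Om A 1) (i : A.ι) (b : Fin n) :
    DifferentiableOn ℂ (fun z => β.1 i ((A.e i).symm z) {b}) (A.e i).target :=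
  DifferentiableOn.mono (β.2.1 i {b}) fun _ hz => ⟨hz, mem_univ _⟩

theorem clm_sum (T : Cn n →L[ℂ] ℂ) (v : Cn n) :
    T v = ∑ a, T (EuclideanSpace.single a 1) * v a := DegOne_376.clm_apply T v

theorem cl_add (u v : Fin n → ℂ) : cl (u + v) = cl u + cl v := by
  ext w
  simp [cl_apply, add_mul, Finset.sum_add_distrib]

/-- `cl` as a linear map -/
def clL : (Fin n → ℂ) →ₗ[ℂ] (Cn n →L[ℂ] ℂ) where
  toFun := cl
  map_add' := cl_add
  map_smul' c u := by
    ext w
    simp [cl_apply, Finset.mul_sum, mul_assoc]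

/-- `cl` as a continuous linear map -/
def clC : (Fin n → ℂ) →L[ℂ] (Cn n →L[ℂ] ℂ) := LinearMap.toContinuousLinearMap clL

theorem clC_apply (u : Fin n → ℂ) : clC u = cl u := rfl

theorem c1_hol (β : Om A 1) (i : A.ι) :
    DifferentiableOn ℂ (fun z => DegOne_376.c1 (β.1 i ((A.e i).symm z))) (A.e i).target :=
  differentiableOn_pi.2 fun a => om_hol β i a

/-- **holomorphic 1-forms are closed** -/
theorem bOf_mem [CompactSpace M] [T2Space M] [Finite A.ι] (P : Part A) (K : Kah A) (β : Om A 1) :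
    bOf β.1 ∈ Alb645.H1 A := by
  refine ⟨fun i => ?_, fun i x hx => ?_, fun i j x hx => ?_, fun i z hz v w => ?_⟩
  · exact clC.differentiable.comp_differentiableOn (c1_hol β i)
  · have h1 : β.1 i x = 0 := β.2.2.1 i x hx
    ext v
    simp [bOf, cl_apply, DegOne_376.c1, h1]
  · have h1 : β.1 i x = _ := β.2.2.2.2 i j x hx
    have h2 : DegOne_376.c1 (β.1 i x) = (Jm A i j x)ᵀ *ᵥ DegOne_376.c1 (β.1 j x) := by
      rw [h1, DegOne_376.c1_Gam]
    refine DegOne_376.clm_ext fun a => ?_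
    rw [bOf, cl_single, h2, ContinuousLinearMap.comp_apply, bOf, cl_apply]
    change ∑ c, (Jm A i j x) c a * _ = _
    exact Finset.sum_congr rfl fun c _ => mul_comm _ _
  · have hd : DifferentiableAt ℂ (fun z => DegOne_376.c1 (β.1 i ((A.e i).symm z))) z :=
      (c1_hol β i).differentiableAt ((A.e i).open_target.mem_nhds hz)
    have h1 : ∀ v : Cn n, fderiv ℂ (fun z => bOf β.1 i ((A.e i).symm z)) z v =
        cl (fderiv ℂ (fun z => DegOne_376.c1 (β.1 i ((A.e i).symm z))) z v) := by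
      intro v
      have h2 : HasFDerivAt (fun z => bOf β.1 i ((A.e i).symm z))
          (clC.comp (fderiv ℂ (fun z => DegOne_376.c1 (β.1 i ((A.e i).symm z))) z)) z :=
        clC.hasFDerivAt.comp z hd.hasFDerivAt
      rw [h2.fderiv]
      rfl
    have h3 : ∀ (v : Cn n) (q : Fin n),
        fderiv ℂ (fun z => DegOne_376.c1 (β.1 i ((A.e i).symm z))) z v q =
        ∑ p, fderiv ℂ (fun z => β.1 i ((A.e i).symm z) {q}) z (EuclideanSpace.single p 1) *
          v p := by
      intro v q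
      rw [← clm_sum]
      have h4 := hasFDerivAt_pi'.1 hd.hasFDerivAt q
      have h5 : fderiv ℂ (fun z => β.1 i ((A.e i).symm z) {q}) z = _ := h4.fderiv
      rw [h5]
      rfl
    rw [h1, h1, cl_apply, cl_apply]
    simp only [h3, Finset.sum_mul]
    rw [Finset.sum_comm]
    refine Finset.sum_congr rfl fun p _ => Finset.sum_congr rfl fun q _ => ?_
    rw [d_symm P K β hz p q]
    ring

/-- **no holomorphic 1-forms** on simply connected compact Kaehler manifolds -/
theorem om1_zero [CompactSpace M] [T2Space M] [SimplyConnectedSpace M] [Finite A.ι]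
    (hA : GoodA A) (P : Part A) (K : Kah A) (β : Om A 1) : β = 0 := by
  obtain ⟨x0⟩ : Nonempty M := inferInstance
  obtain ⟨a, -, ha⟩ := Alb645.exists_prim hA (bOf_mem P K β) x0
  have : PathConnectedSpace M := inferInstance
  have : ConnectedSpace M := inferInstance
  have hc : ∀ x, a x = a x0 := fun x => hol_const (fun i => ha.holAt i) x x0
  apply Subtype.ext
  funext i x S
  show β.1 i x S = 0
  by_cases hx : x ∈ (A.e i).source
  · by_cases hS : S.card = 1
    · obtain ⟨q, rfl⟩ := Finset.card_eq_one.1 hS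
      have h1 := ha i x hx
      have h2 : (fun z => a ((A.e i).symm z)) = fun _ => a x0 := funext fun z => hc _
      rw [h2] at h1
      have h3 := h1.unique (hasFDerivAt_const (a x0) (A.e i x))
      have h4 := congrArg (fun T : Cn n →L[ℂ] ℂ => T (EuclideanSpace.single q 1)) h3
      simp only [bOf, cl_single] at h4
      exact h4
    · exact β.2.2.2.1 i x S hS
  · rw [β.2.2.1 i x hx]
    rfl

/-! ### `∂̄`-closed `(0,1)`-forms -/

open Classical in
/-- the Fock vector of a `(0,1)`-form -/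
def fn1 (y : A.ι → M → Fin n → ℂ) (i : A.ι) (x : M) : FI n → ℂ :=
  if x ∈ (A.e i).source then DegOne_376.v1 (y i x) else 0

theorem fn1_in (y : A.ι → M → Fin n → ℂ) {i : A.ι} {x : M} (hx : x ∈ (A.e i).source) :
    fn1 y i x = DegOne_376.v1 (y i x) := if_pos hx

theorem fn1_out (y : A.ι → M → Fin n → ℂ) {i : A.ι} {x : M} (hx : x ∉ (A.e i).source) :
    fn1 y i x = 0 := if_neg hx

theorem fn1_deg (y : A.ι → M → Fin n → ℂ) (i : A.ι) (x : M) (S : FI n) (hS : S.card ≠ 1) :
    fn1 y i x S = 0 := by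
  by_cases hx : x ∈ (A.e i).source
  · rw [fn1_in y hx, DegOne_376.v1_card hS]
  · rw [fn1_out y hx]
    rfl

theorem fn1_sm {y : A.ι → M → Fin n → ℂ} (hy : ∀ i a, A.SmAt i (fun x => y i x a)) (i : A.ι)
    (S : FI n) : A.SmAt i (fun x => fn1 y i x S) := by
  by_cases hS : S.card = 1
  · obtain ⟨q, rfl⟩ := Finset.card_eq_one.1 hS
    refine (hy i q).congr fun z hz => ?_
    show fn1 y i ((A.e i).symm z) {q} = _
    rw [fn1_in y ((A.e i).map_target hz), DegOne_376.v1_single]
  · refine (contDiffOn_const (c := (0 : ℂ))).congr fun z hz => ?_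
    exact fn1_deg y i _ S hS

/-- the section of a `(0,1)`-form -/
def sec1 (y : A.ι → M → Fin n → ℂ) (hy : ∀ i a, A.SmAt i (fun x => y i x a)) (ht : Tr01 A y) :
    Sec (BN (1 : LB A)) :=
  ⟨fun i x => iB 1 (fn1 y i x), by
    refine ⟨fun i k => ?_, fun i x hx => ?_, fun i j x hx => ?_⟩
    · exact fn1_sm hy i k.1
    · show iB 1 (fn1 y i x) = 0
      rw [fn1_out y hx, iB_zero]
    · show iB 1 (fn1 y i x) = (BN (1 : LB A)).τ i j x *ᵥ iB 1 (fn1 y j x)
      rw [fn1_in y hx.1, fn1_in y hx.2, BN_τ, kB_iB, LB.one_g, one_smul]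
      congr 1
      rw [ht i j x hx]
      exact (DegOne_376.Gam_v1 _ _).symm⟩

theorem y1_sec1 {y : A.ι → M → Fin n → ℂ} (hy : ∀ i a, A.SmAt i (fun x => y i x a))
    (ht : Tr01 A y) {i : A.ι} {x : M} (hx : x ∈ (A.e i).source) :
    y1 (sec1 y hy ht) i x = y i x := by
  funext a
  show fn1 y i x {a} = _
  rw [fn1_in y hx, DegOne_376.v1_single]

theorem pq_sec1 {y : A.ι → M → Fin n → ℂ} (hy : ∀ i a, A.SmAt i (fun x => y i x a))
    (ht : Tr01 A y) : pqL (BN (1 : LB A)) 1 (sec1 y hy ht) = sec1 y hy ht := by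
  apply Subtype.ext
  funext i x k
  rw [pqL_coe, pq_apply]
  obtain ⟨T, u⟩ := k
  have h5 : (BN (1 : LB A)).deg (T, u) = Finset.card (α := Fin n) T := rfl
  rw [h5]
  split_ifs with h
  · rfl
  · exact (fn1_deg y i x T h).symm

/-- closed `(0,1)`-forms: symmetric antiholomorphic derivatives -/
def Cl01 (A : Atl n M) (y : A.ι → M → Fin n → ℂ) : Prop :=
  ∀ i, ∀ x ∈ (A.e i).source, ∀ a b,
    A.db i a (fun x => y i x b) x = A.db i b (fun x => y i x a) x

theorem nab_sec1 {y : A.ι → M → Fin n → ℂ} (hy : ∀ i a, A.SmAt i (fun x => y i x a))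
    (ht : Tr01 A y) (hc : Cl01 A y) : nabL (BN (1 : LB A)) (sec1 y hy ht) = 0 := by
  apply Subtype.ext
  funext i x
  by_cases hx : x ∈ (A.e i).source
  · have h0 : nabL (BN (1 : LB A)) (sec1 y hy ht) =
        pqL (BN (1 : LB A)) 2 (nabL (BN (1 : LB A)) (sec1 y hy ht)) := by
      have := LinearMap.congr_fun (nabL_pqL (B := BN (1 : LB A)) 1) (sec1 y hy ht)
      rw [LinearMap.comp_apply, LinearMap.comp_apply, pq_sec1] at this
      exact this
    have h1 : oB ((nabL (BN (1 : LB A)) (sec1 y hy ht)).1 i x) = 0 := by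
      refine eq_zero_of_c2 (fun S hS => ?_) ?_
      · rw [h0]
        have h5 : ∀ k : (BN (1 : LB A)).κ, (BN (1 : LB A)).deg k ≠ 2 →
            (pqL (BN (1 : LB A)) 2 (nabL (BN (1 : LB A)) (sec1 y hy ht))).1 i x k = 0 := by
          intro k hk
          rw [pqL_coe, pq_apply, if_neg hk]
        exact h5 (S, ()) hS
      · ext a b
        rw [c2_nab _ hx]
        have h2 : ∀ a b, A.db i a (fun x => y1 (sec1 y hy ht) i x b) x =
            A.db i a (fun x => y i x b) x := by
          intro a b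
          refine Fm96.db_congr hx ?_
          filter_upwards [(A.e i).open_source.mem_nhds hx] with w hw
          exact congrFun (y1_sec1 hy ht hw) b
        rw [h2, h2, hc i x hx a b, sub_self]
        rfl
    have h3 : iB (1 : LB A) (oB ((nabL (BN (1 : LB A)) (sec1 y hy ht)).1 i x)) = 0 := by
      rw [h1]
      rfl
    rw [iB_oB] at h3
    exact h3
  · exact nab_off _ hx

theorem Gam_vac0 (m : Matrix (Fin n) (Fin n) ℂ) (v : FI n → ℂ) : (Gam m *ᵥ v) ∅ = v ∅ := by
  change ∑ S, Gam m ∅ S * v S = _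
  rw [Finset.sum_eq_single ∅]
  · rw [Gam_eq m (k := 0) rfl rfl, Matrix.det_fin_zero, one_mul]
  · intro S _ hS
    rw [Gam_of_ne, zero_mul]
    intro h
    rw [Finset.card_empty] at h
    exact hS (Finset.card_eq_zero.1 h.symm)
  · intro h
    exact absurd (Finset.mem_univ _) h

/-- the part of degree zero of a section -/
def f0 (y : Sec (BN (1 : LB A))) (x : M) : ℂ := oB (y.1 (A.cover x).choose x) ∅

theorem f0_eq (y : Sec (BN (1 : LB A))) {i : A.ι} {x : M} (hx : x ∈ (A.e i).source) :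
    f0 y x = oB (y.1 i x) ∅ := by
  have h1 := sec_tr y.2 ⟨(A.cover x).choose_spec, hx⟩
  rw [LB.one_g, one_smul] at h1
  rw [f0, h1]
  exact Gam_vac0 _ _

theorem f0_sm (y : Sec (BN (1 : LB A))) : A.Sm (f0 y) := by
  intro i
  have h1 : A.SmAt i (fun x => y.1 i x ((∅ : FI n), ())) := y.2.1 i ((∅ : FI n), ())
  refine h1.congr fun z hz => ?_
  exact f0_eq y ((A.e i).map_target hz)

theorem db_f0 (y : Sec (BN (1 : LB A))) {i : A.ι} {x : M} (hx : x ∈ (A.e i).source)
    (b : Fin n) : A.db i b (f0 y) x = oB ((nabL (BN (1 : LB A)) y).1 i x) {b} := by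
  have h1 : oB ((nabL (BN (1 : LB A)) y).1 i x) = _ :=
    DMetB_733.oB_nab (N := (1 : LB A)) y.2.1 hx
  rw [h1, Finset.sum_apply, Finset.sum_eq_single b]
  · rw [DegOne_376.eW_single_apply, if_pos rfl]
    show _ = dbj b (fun z => oB (y.1 i ((A.e i).symm z)) ∅) (A.e i x)
    refine dbj_congr ?_ _
    filter_upwards [(A.e i).open_target.mem_nhds ((A.e i).map_source hx)] with z hz
    exact f0_eq y ((A.e i).map_target hz)
  · intro c _ hc
    rw [DegOne_376.eW_single_apply, if_neg hc]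
  · intro h
    exact absurd (Finset.mem_univ _) h

/-- `∂̄`-closed `(0,1)`-forms on a compact Kaehler manifold -/
theorem h1_split [CompactSpace M] [T2Space M] [Finite A.ι] (P : Part A) (K : Kah A)
    {y : A.ι → M → Fin n → ℂ} (hy : ∀ i a, A.SmAt i (fun x => y i x a)) (ht : Tr01 A y)
    (hc : Cl01 A y) : ∃ (β : Om A 1) (f : M → ℂ), A.Sm f ∧ ∀ i, ∀ x ∈ (A.e i).source, ∀ a,
      y i x a = conj (β.1 i x {a}) + A.db i a f x := by
  by_cases hn : 1 ≤ n
  · obtain ⟨β, u, hu⟩ := HodgeP_578.form_ex P (D13_505.d2Ex P K) hn (nab_sec1 hy ht hc)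
      (pq_sec1 hy ht)
    refine ⟨β, f0 u, f0_sm u, fun i x hx a => ?_⟩
    rw [db_f0 u hx a, hu]
    have h1 : oB ((sec1 y hy ht - cjS β : Sec (BN (1 : LB A))).1 i x) {a} =
        y1 (sec1 y hy ht) i x a - conj (β.1 i x {a}) := rfl
    rw [h1, y1_sec1 hy ht hx]
    ring
  · refine ⟨0, 0, fun i => contDiffOn_const, fun i x hx a => ?_⟩
    exact absurd a.2 (by omega)

/-- **`H¹(O) = 0`** on simply connected compact Kaehler manifolds -/
theorem h1O [CompactSpace M] [T2Space M] [SimplyConnectedSpace M] [Finite A.ι] (hA : GoodA A)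
    (P : Part A) (K : Kah A)
    {y : A.ι → M → Fin n → ℂ} (hy : ∀ i a, A.SmAt i (fun x => y i x a)) (ht : Tr01 A y)
    (hc : Cl01 A y) : ∃ f : M → ℂ, A.Sm f ∧ ∀ i, ∀ x ∈ (A.e i).source, ∀ a,
      y i x a = A.db i a f x := by
  obtain ⟨β, f, hf, h⟩ := h1_split P K hy ht hc
  refine ⟨f, hf, fun i x hx a => ?_⟩
  rw [h i x hx a, om1_zero hA P K β]
  show conj (0 : ℂ) + _ = _
  rw [map_zero, zero_add]

/-! ### covectors and vector fields -/

open Classical in
/-- the Fock form of a family of holomorphic covectors -/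
def covOm (u : A.ι → M → Fin n → ℂ) (hu : ∀ i a, HolAt A i univ (fun x => u i x a))
    (ht : ∀ i j, ∀ x ∈ (A.e i).source ∩ (A.e j).source, u i x = (Jm A i j x)ᵀ *ᵥ u j x) :
    Om A 1 :=
  ⟨fn1 u, by
    refine ⟨fun i T => ?_, fun i x hx => fn1_out u hx, fun i x T hT => fn1_deg u i x T hT,
      fun i j x hx => ?_⟩
    · by_cases hT : T.card = 1
      · obtain ⟨q, rfl⟩ := Finset.card_eq_one.1 hT
        refine (hu i q).congr fun x hx _ => ?_
        rw [fn1_in u hx, DegOne_376.v1_single]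
      · refine (holAt_const 0).congr fun x _ _ => ?_
        rw [fn1_deg u i x T hT]
    · rw [fn1_in u hx.1, fn1_in u hx.2, ht i j x hx, DegOne_376.Gam_v1]⟩

/-- holomorphic 1-forms in coordinates vanish -/
theorem cov_zero [CompactSpace M] [T2Space M] [SimplyConnectedSpace M] [Finite A.ι] (hA : GoodA A)
    (P : Part A) (K : Kah A) (u : A.ι → M → Fin n → ℂ)
    (hu : ∀ i a, HolAt A i univ (fun x => u i x a))
    (ht : ∀ i j, ∀ x ∈ (A.e i).source ∩ (A.e j).source, u i x = (Jm A i j x)ᵀ *ᵥ u j x)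
    (i : A.ι) {x : M} (hx : x ∈ (A.e i).source) : u i x = 0 := by
  have h1 := om1_zero hA P K (covOm u hu ht)
  have h2 : fn1 u i x = 0 := congrFun (congrFun (congrArg Subtype.val h1) i) x
  rw [fn1_in u hx] at h2
  have h3 := congrArg DegOne_376.c1 h2
  rw [DegOne_376.c1_v1] at h3
  exact h3

/-- **no holomorphic vector fields**, coordinates -/
theorem vec_zero [CompactSpace M] [T2Space M] [SimplyConnectedSpace M] [Finite A.ι] (hA : GoodA A)
    (P : Part A) (K : Kah A) (σ : HSymp A) (w : A.ι → M → Fin n → ℂ)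
    (hw : ∀ i a, HolAt A i univ (fun x => w i x a))
    (ht : ∀ i j, ∀ x ∈ (A.e i).source ∩ (A.e j).source, w j x = Jm A i j x *ᵥ w i x)
    (i : A.ι) {x : M} (hx : x ∈ (A.e i).source) : w i x = 0 := by
  have h1 := cov_zero hA P K (fun i x => (σ.s i x)ᵀ *ᵥ w i x) (fun i a => ?_)
    (fun i j x hx => ?_) i hx
  · have h2 : IsUnit (σ.s i x)ᵀ.det := by
      rw [Matrix.det_transpose]
      exact (σ.nd i x hx).isUnit
    have h3 : ((σ.s i x)ᵀ)⁻¹ *ᵥ ((σ.s i x)ᵀ *ᵥ w i x) = 0 := by
      rw [show (σ.s i x)ᵀ *ᵥ w i x = 0 from h1, Matrix.mulVec_zero]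
    rwa [Matrix.mulVec_mulVec, Matrix.nonsing_inv_mul _ h2, Matrix.one_mulVec] at h3
  · have h2 : HolAt A i univ (fun x => ∑ b, σ.s i x b a * w i x b) :=
      HolAt.sum _ fun b _ => (σ.hol i b a).mul (hw i b)
    exact h2
  · show (σ.s i x)ᵀ *ᵥ w i x = (Jm A i j x)ᵀ *ᵥ ((σ.s j x)ᵀ *ᵥ w j x)
    rw [σ.tr i j x hx, ht i j x hx, Matrix.mulVec_mulVec, Matrix.mulVec_mulVec]
    congr 1
    rw [Matrix.transpose_mul, Matrix.transpose_mul, Matrix.transpose_transpose, Matrix.mul_assoc]

/-- **no holomorphic vector fields** -/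
theorem hvf_zero [CompactSpace M] [T2Space M] [SimplyConnectedSpace M] [Finite A.ι] (hA : GoodA A)
    (P : Part A) (K : Kah A) (σ : HSymp A) (V : HVF A) (i : A.ι) {x : M}
    (hx : x ∈ (A.e i).source) : V.X i x = 0 := by
  have h1 := vec_zero hA P K σ (fun i x => (V.X i x).ofLp) (fun i a => ?_) (fun i j x hx => ?_) i hx
  · ext a
    exact congrFun h1 a
  · have h2 : DifferentiableOn ℂ (fun z => V.X i ((A.e i).symm z) a) (A.e i).target :=
      (differentiableOn_euclidean.1 (V.hol i)) a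
    exact h2.mono inter_subset_left
  · show (V.X j x).ofLp = Jm A i j x *ᵥ (V.X i x).ofLp
    rw [V.tr i j x hx]
    exact HFlow7_376.tm_eq_Tm A A id i j x (V.X i x)

end

end Crest.Agent.R281.Sc_413
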