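import Crest.Agent.R281.Sc3_413
import Crest.Agent.R275.Pic_293
import Crest.Agent.R275.Del_75

/-!
# Row 281, SC-PIC, part 4 (helper413): `H¹(M, O) = 0` in Cech form

`cech_O` : on a simply connected compact Kaehler manifold every additive cocycle of holomorphic
functions on the chart cover is a coboundary.
-/

set_option autoImplicit false
set_option linter.unusedSectionVars false

open Set Filter Topology Complex
open scoped ContDiff Matrix ComplexConjugate InnerProductSpace

namespace Crest.Agent.R281.Sc_413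

open Crest.Agent.R275 Crest.Agent.R275.Geo Crest.Agent.R275.Core144 Crest.Agent.R275.EDR890
open Crest.Agent.R275.GC293
open Crest.Agent.R273 Crest.Agent.R273.Defs_333 Crest.Agent.R273.Kah_333
open Crest.Agent.R273.LamN127
open Crest.Agent.R281.Hdg_850

noncomputable section

variable {n : ℕ} {M : Type} [TopologicalSpace M] {A : Atl n M}

/-- additive cocycles of holomorphic functions -/
structure OCoc (A : Atl n M) where
  f : A.ι → A.ι → M → ℂ
  hol : ∀ i j, HolAt A i (A.e j).source (f i j)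
  coc : ∀ i j k, ∀ x ∈ U3 A i j k, f j k x - f i k x + f i j x = 0

variable (Λ : OCoc A) (P : Part A)

/-- smooth splitting -/
def OCoc.th (i : A.ι) : M → ℂ := glue P (fun l => Λ.f i l)

theorem OCoc.th_sm (i : A.ι) : SmOn A (A.e i).source (Λ.th P i) :=
  smOn_glue P fun l => (smOn_inter_iff i l).2 ((Λ.hol i l).contDiffOn (A.e l).open_source)

theorem OCoc.th_sub {i j : A.ι} {x : M} (hx : x ∈ U2 A i j) :
    Λ.th P i x - Λ.th P j x = Λ.f i j x := by
  unfold OCoc.th
  rw [glue_sub]
  apply glue_const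
  intro l hl
  have := Λ.coc i j l x ⟨hx, hl⟩
  linear_combination (-1 : ℂ) * this

/-- the `(0,1)`-form -/
def OCoc.y (i : A.ι) (x : M) (a : Fin n) : ℂ := A.db i a (Λ.th P i) x

theorem OCoc.y_sm (i : A.ι) (a : Fin n) : A.SmAt i (fun x => Λ.y P i x a) := by
  have h1 : ContDiffOn ℝ ∞ (fun z => Λ.th P i ((A.e i).symm z)) (A.e i).target :=
    (smOn_source_iff i).1 (Λ.th_sm P i)
  refine (contDiffOn_wd (A.e i).open_target h1 (true, a)).congr fun z hz => ?_
  show dbj a _ (A.e i ((A.e i).symm z)) = dbj a _ z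
  rw [(A.e i).right_inv hz]

theorem OCoc.th_diff {i : A.ι} {x : M} (hx : x ∈ (A.e i).source) :
    ContDiffAt ℝ ∞ (fun z => Λ.th P i ((A.e i).symm z)) (A.e i x) :=
  Λ.th_sm P i x hx i hx

theorem OCoc.y_tr : Tr01 A (Λ.y P) := by
  intro i j x hx
  funext a
  have h1 : Λ.th P i =ᶠ[𝓝 x] fun y => Λ.th P j y + Λ.f i j y := by
    filter_upwards [((A.e i).open_source.inter (A.e j).open_source).mem_nhds hx] with y hy
    linear_combination Λ.th_sub P hy
  have hj : ContDiffAt ℝ ∞ (fun z => Λ.th P j ((A.e i).symm z)) (A.e i x) :=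
    Λ.th_sm P j x hx.2 i hx.1
  have hf : DifferentiableAt ℂ (fun z => Λ.f i j ((A.e i).symm z)) (A.e i x) :=
    (Λ.hol i j).diffAt (A.e j).open_source hx.1 hx.2
  have h2 : A.db i a (Λ.th P i) x = A.db i a (Λ.th P j) x := by
    rw [Fm96.db_congr hx.1 h1]
    have h3 : A.db i a (fun y => Λ.th P j y + Λ.f i j y) x =
        A.db i a (Λ.th P j) x + A.db i a (Λ.f i j) x :=
      dbj_add (hj.differentiableAt (by simp)) (hf.restrictScalars ℝ) a
    rw [h3, (Λ.hol i j).db_zero (A.e j).open_source hx.1 hx.2 a, add_zero]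
  show A.db i a (Λ.th P i) x = _
  rw [h2, OmT75.db_chain ((Λ.th_diff P hx.2).differentiableAt (by simp)) hx a]
  rfl

theorem OCoc.y_cl : Cl01 A (Λ.y P) := by
  intro i x hx a b
  have hz := (A.e i).map_source hx
  have h1 : ∀ b, (fun z => Λ.y P i ((A.e i).symm z) b) =ᶠ[𝓝 (A.e i x)]
      wd (true, b) (fun z => Λ.th P i ((A.e i).symm z)) := by
    intro b
    filter_upwards [(A.e i).open_target.mem_nhds hz] with z hz
    show dbj b _ (A.e i ((A.e i).symm z)) = dbj b _ z
    rw [(A.e i).right_inv hz]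
  have h2 : ∀ a b, A.db i a (fun x => Λ.y P i x b) x =
      wd (true, a) (wd (true, b) (fun z => Λ.th P i ((A.e i).symm z))) (A.e i x) :=
    fun a b => wd_congr (h1 b) (true, a)
  rw [h2, h2]
  exact wd_comm (Λ.th_diff P hx) _ _

/-- **`H¹(M, O) = 0`**, Cech form -/
theorem cech_O [CompactSpace M] [T2Space M] [SimplyConnectedSpace M] [Finite A.ι] (hA : GoodA A)
    (P : Part A) (K : Kah A) (Λ : OCoc A) : ∃ σ : A.ι → M → ℂ, (∀ i, HolAt A i univ (σ i)) ∧
      ∀ i j, ∀ x ∈ U2 A i j, σ i x - σ j x = Λ.f i j x := by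
  obtain ⟨f, hf, hy⟩ := h1O hA P K (Λ.y_sm P) (Λ.y_tr P) (Λ.y_cl P)
  refine ⟨fun i x => Λ.th P i x - f x, fun i => ?_, fun i j x hx => ?_⟩
  · intro z hz
    have hz' := hz.1
    apply DifferentiableAt.differentiableWithinAt
    have hx := (A.e i).map_target hz'
    have h1 := Λ.th_diff P hx
    rw [(A.e i).right_inv hz'] at h1
    have h2 : ContDiffAt ℝ ∞ (fun z => f ((A.e i).symm z)) z :=
      (hf i).contDiffAt ((A.e i).open_target.mem_nhds hz')
    have h1' := h1.differentiableAt (n := ∞) (by simp)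
    have h2' := h2.differentiableAt (n := ∞) (by simp)
    refine Fm96.differentiableAt_of_dbj (h1'.sub h2') fun a => ?_
    have h3 : dbj a (fun z => Λ.th P i ((A.e i).symm z) - f ((A.e i).symm z)) z =
        dbj a (fun z => Λ.th P i ((A.e i).symm z)) z - dbj a (fun z => f ((A.e i).symm z)) z :=
      Fm96.dbj_sub h1' h2'
    have h4 := hy i _ hx a
    unfold OCoc.y Atl.db at h4
    rw [(A.e i).right_inv hz'] at h4
    rw [h3, h4, sub_self]
  · have := Λ.th_sub P hx
    show Λ.th P i x - f x - (Λ.th P j x - f x) = _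
    linear_combination this

end

end Crest.Agent.R281.Sc_413
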