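import Crest.Agent.R281.Sc4_413
import Crest.Agent.R275.Cz1_632

/-!
# Row 281, SC-PIC, part 5 (helper413): rationality

`rat_main` : a real relation `∑ t_j c_1(L_j) = 0` between line bundles on a simply connected compact
Kaehler manifold gives, for every `f : ℝ →ₗ[ℚ] ℚ`, `D > 0` and `m_j = D f(t_j) ∈ ℤ` such that
`∏ L_j ^ m_j` has a nowhere zero section.
-/

set_option autoImplicit false
set_option linter.unusedSectionVars false

open Set Filter Topology Complex
open scoped ContDiff Matrix ComplexConjugate InnerProductSpace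

namespace Crest.Agent.R281.Sc_413

open Crest.Agent.R275 Crest.Agent.R275.Geo Crest.Agent.R275.Core144 Crest.Agent.R275.EDR890
open Crest.Agent.R275.GC293
open Crest.Agent.R273 Crest.Agent.R273.Defs_333 Crest.Agent.R273.Kah_333 Crest.Agent.R273.HM_333
open Crest.Agent.R273.Hess_333 Crest.Agent.R273.HessB_333
open Crest.Agent.R273.LamN127
open Crest.Agent.R281.Hdg_850

noncomputable section

section Local

variable {n : ℕ}

/-- a holomorphic function with real part zero is constant -/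
theorem const_of_re {U : Set (Cn n)} (hU : IsOpen U) (hc : Convex ℝ U) {G : Cn n → ℂ}
    (hG : DifferentiableOn ℂ G U) (h0 : ∀ z ∈ U, (G z).re = 0) {z w : Cn n} (hz : z ∈ U)
    (hw : w ∈ U) : G z = G w := by
  refine hc.is_const_of_fderivWithin_eq_zero (𝕜 := ℂ) hG (fun y hy => ?_) hz hw
  rw [fderivWithin_of_isOpen hU hy]
  have hd := hG.differentiableAt (hU.mem_nhds hy)
  have h1 : ∀ v, (fderiv ℂ G y v).re = 0 := by
    intro v
    have h2 : HasFDerivAt (fun z => (G z).re)
        (Complex.reCLM.comp ((fderiv ℂ G y).restrictScalars ℝ)) y :=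
      (Complex.reCLM.hasFDerivAt).comp y (hd.hasFDerivAt.restrictScalars ℝ)
    have h3 : (fun z => (G z).re) =ᶠ[𝓝 y] fun _ => (0 : ℝ) := by
      filter_upwards [hU.mem_nhds hy] with z hz
      exact h0 z hz
    have h4 := (h2.congr_of_eventuallyEq h3.symm).unique (hasFDerivAt_const (0 : ℝ) y)
    exact congrArg (fun T : Cn n →L[ℝ] ℝ => T v) h4
  ext v
  have h2 := h1 v
  have h3 := h1 (I • v)
  rw [map_smul, smul_eq_mul, mul_re, I_re, I_im, zero_mul, one_mul, zero_sub, neg_eq_zero] at h3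
  exact Complex.ext h2 h3

end Local

/-- common denominators -/
theorem exists_den {κ : Type} [Finite κ] (q : κ → ℚ) :
    ∃ D : ℕ, 0 < D ∧ ∀ k, ∃ m : ℤ, (m : ℚ) = D * q k := by
  have : Fintype κ := Fintype.ofFinite κ
  refine ⟨∏ k, (q k).den, Finset.prod_pos fun k _ => (q k).den_pos, fun k => ?_⟩
  obtain ⟨c, hc⟩ := Finset.dvd_prod_of_mem (fun k => (q k).den) (Finset.mem_univ k)
  refine ⟨c * (q k).num, ?_⟩
  rw [hc]
  push_cast
  have h1 : ((q k).den : ℚ) * q k = (q k).num := by
    rw [mul_comm]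
    exact Rat.mul_den_eq_num (q k)
  linear_combination (-(c : ℚ)) * h1

variable {n : ℕ} {M : Type} [TopologicalSpace M] {A : Atl n M}

/-- holomorphic logarithms of the transition functions -/
theorem exists_hlog (hA : GoodA A) (L : LB A) : ∃ φ : A.ι → A.ι → M → ℂ,
    (∀ i j, HolAt A i (A.e j).source (φ i j)) ∧
    ∀ i j, ∀ x ∈ U2 A i j, Complex.exp (2 * Real.pi * I * φ i j x) = L.g i j x := by
  have h1 : ∀ i j, ∃ v : Cn n → ℂ, DifferentiableOn ℂ v (A.ov i j) ∧
      ∀ q ∈ A.ov i j, Complex.exp (v q) = L.g i j ((A.e i).symm q) := fun i j =>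
    Cz1632.exists_log (hA i j) (isOpen_ov A i j) (L.hol i j) fun q _ => L.ne_zero i j _
  choose v hv hv' using h1
  have hpi : (2 * Real.pi * I : ℂ) ≠ 0 := Complex.two_pi_I_ne_zero
  refine ⟨fun i j x => (2 * Real.pi * I)⁻¹ * v i j (A.e i x), fun i j => ?_, fun i j x hx => ?_⟩
  · have h2 : DifferentiableOn ℂ (fun z => (2 * Real.pi * I)⁻¹ * v i j z) (A.ov i j) :=
      (hv i j).const_mul _
    refine h2.congr fun z hz => ?_
    show _ * v i j (A.e i ((A.e i).symm z)) = _
    rw [(A.e i).right_inv hz.1]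
  · have hm : A.e i x ∈ A.ov i j := by
      refine ⟨(A.e i).map_source hx.1, ?_⟩
      show (A.e i).symm (A.e i x) ∈ _
      rw [(A.e i).left_inv hx.1]
      exact hx.2
    show Complex.exp (2 * Real.pi * I * ((2 * Real.pi * I)⁻¹ * v i j (A.e i x))) = _
    rw [mul_inv_cancel_left₀ hpi, hv' i j _ hm, (A.e i).left_inv hx.1]

/-- evaluation of the transition function -/
def gH (i j : A.ι) (x : M) : LB A →* ℂ where
  toFun L := L.g i j x
  map_one' := rfl
  map_mul' _ _ := rfl

theorem prod_zpow_g {J : Type} [Fintype J] (L : J → LB A) (m : J → ℤ) (i j : A.ι) (x : M) :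
    (∏ k, L k ^ m k).g i j x = ∏ k, (L k).g i j x ^ m k := by
  show gH i j x (∏ k, L k ^ m k) = _
  rw [map_prod]
  exact Finset.prod_congr rfl fun k _ => map_zpow (gH i j x) (L k) (m k)

/-- a line bundle whose transition functions have an additive logarithm -/
theorem triv_of_log [CompactSpace M] [T2Space M] [SimplyConnectedSpace M] [Finite A.ι]
    (hA : GoodA A) (P : Part A) (K : Kah A) (T : LB A) (Λ : OCoc A)
    (h : ∀ i j, ∀ x ∈ U2 A i j, Complex.exp (2 * Real.pi * I * Λ.f i j x) = T.g i j x) :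
    Triv T := by
  classical
  obtain ⟨σ, hσ, h1⟩ := cech_O hA P K Λ
  refine ⟨fun i x => if x ∈ (A.e i).source then Complex.exp (2 * Real.pi * I * σ i x) else 0,
    ⟨fun i => ?_, fun i x hx => if_neg hx, fun i j x hx _ => ?_⟩, fun i x hx => ?_⟩
  · have h2 : HolAt A i univ (fun x => Complex.exp (2 * Real.pi * I * σ i x)) :=
      (((holAt_const (2 * Real.pi * I)).mul (hσ i) : HolAt A i univ _) : DifferentiableOn ℂ _ _).cexp
    refine h2.congr fun x hx _ => ?_
    rw [if_pos hx]
  · simp only [if_pos hx.1, if_pos hx.2]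
    rw [← h i j x hx, ← Complex.exp_add]
    congr 1
    have := h1 i j x hx
    linear_combination (2 * Real.pi * I) * this
  · simp only [if_pos hx]
    exact Complex.exp_ne_zero _

/-! ### real relations -/

section rel

variable {J : Type} [Fintype J] (L : J → LB A) (h : ∀ j, HM (L j)) (t : J → ℝ) (u : M → ℝ)

/-- local potential of a real relation -/
def psi (i : A.ι) (z : Cn n) : ℝ := ∑ j, t j * (h j).wt i z - u ((A.e i).symm z)

variable {L} {u}

theorem psi_smooth (hu : A.Sm u) (i : A.ι) : ContDiffOn ℝ ∞ (psi L h t u i) (A.e i).target :=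
  (ContDiffOn.sum fun j _ => contDiffOn_const.mul (wt_smooth (h j) i)).sub (hu i)

theorem hess_sum {κ : Type} (S : Finset κ) (c : κ → ℝ) {f : κ → Cn n → ℝ} {z : Cn n}
    (hf : ∀ k ∈ S, ContDiffAt ℝ ∞ (f k) z) :
    hess (fun w => ∑ k ∈ S, c k * f k w) z = ∑ k ∈ S, (c k : ℂ) • hess (f k) z := by
  classical
  induction S using Finset.induction_on with
  | empty =>
    simp only [Finset.sum_empty]
    ext a b
    rw [hess_apply]
    have h4 : wd (true, b) (cu fun _ : Cn n => (0 : ℝ)) = fun _ => 0 := by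
      funext w
      exact wd_const _ _ _
    rw [h4, wd_const]
    rfl
  | insert a S ha ih =>
    have h1 : ∀ k ∈ S, ContDiffAt ℝ ∞ (f k) z := fun k hk => hf k (Finset.mem_insert_of_mem hk)
    have h2 := hf a (Finset.mem_insert_self a S)
    simp only [Finset.sum_insert ha]
    rw [hess_add (contDiffAt_const.mul h2)
      (ContDiffAt.sum fun k hk => contDiffAt_const.mul (h1 k hk)), ih h1, hess_const_mul _ h2]

theorem psi_lev (hu : A.Sm u)
    (hc : ∀ i, ∀ x ∈ (A.e i).source, ∑ j, (t j : ℂ) • cur (h j) i x = hsf A u i x)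
    (i : A.ι) {z : Cn n} (hz : z ∈ (A.e i).target) (v : Cn n) : lev (psi L h t u i) z v = 0 := by
  have hs : ContDiffAt ℝ ∞ (psi L h t u i) z :=
    (psi_smooth h t hu i).contDiffAt ((A.e i).open_target.mem_nhds hz)
  have h0 : hess (psi L h t u i) z = 0 := by
    have h1 := hc i _ ((A.e i).map_target hz)
    rw [hsf_read u i hz] at h1
    have h2 : ∀ j ∈ (Finset.univ : Finset J), ContDiffAt ℝ ∞ ((h j).wt i) z :=
      fun j _ => wt_contDiffAt (h j) i hz
    have h3 : hess (psi L h t u i) z = hess (fun w => ∑ j, t j * (h j).wt i w) z -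
        hess (fun z => u ((A.e i).symm z)) z :=
      hess_sub (ContDiffAt.sum fun j hj => contDiffAt_const.mul (h2 j hj))
        (sm_contDiffAt hu i hz)
    rw [h3, hess_sum _ _ h2, ← h1]
    simp only [cur_read _ i hz]
    exact sub_self _
  have h1 := lev_eq hs v
  have h3 : hq (psi L h t u i) z v = 0 := by
    rw [hq]
    refine Finset.sum_eq_zero fun a _ => Finset.sum_eq_zero fun b _ => ?_
    rw [h0, Matrix.zero_apply, zero_mul, zero_mul]
  rw [h3, mul_zero] at h1
  exact_mod_cast h1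

theorem target_convex (hA : GoodA A) (i : A.ι) : Convex ℝ (A.e i).target := by
  have h1 := hA i i
  have h2 : A.ov i i = (A.e i).target := by
    ext z
    exact ⟨fun h => h.1, fun h => ⟨h, (A.e i).map_target h⟩⟩
  rwa [h2] at h1

/-- transition of the potentials -/
theorem psi_tr (φ : J → A.ι → A.ι → M → ℂ)
    (hφ : ∀ k i j, ∀ x ∈ U2 A i j, Complex.exp (2 * Real.pi * I * φ k i j x) = (L k).g i j x)
    {i j : A.ι} {z : Cn n} (hz : z ∈ A.ov i j) :
    psi L h t u j (A.e j ((A.e i).symm z)) - psi L h t u i z =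
      4 * Real.pi * ∑ k, t k * (φ k i j ((A.e i).symm z)).im := by
  have hx : (A.e i).symm z ∈ U2 A i j := ⟨(A.e i).map_target hz.1, hz.2⟩
  have h1 : ∀ k, (h k).wt j (A.e j ((A.e i).symm z)) = (h k).wt i z +
      4 * Real.pi * (φ k i j ((A.e i).symm z)).im := by
    intro k
    rw [wt_tr (h k) hz, ← hφ k i j _ hx, Complex.norm_exp, Real.log_pow, Real.log_exp]
    have h2 : (2 * Real.pi * I * φ k i j ((A.e i).symm z)).re =
        -(2 * Real.pi * (φ k i j ((A.e i).symm z)).im) := by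
      simp [Complex.mul_re, Complex.mul_im]
    rw [h2]
    push_cast
    ring
  unfold psi
  rw [(A.e j).left_inv hz.2]
  simp only [h1, mul_add, Finset.sum_add_distrib, Finset.mul_sum]
  have h3 : ∀ k, t k * (4 * Real.pi * (φ k i j ((A.e i).symm z)).im) =
      4 * Real.pi * (t k * (φ k i j ((A.e i).symm z)).im) := fun k => by ring
  simp only [h3]
  ring

/-- the real constants of a real relation -/
theorem exists_beta (hA : GoodA A) (hu : A.Sm u)
    (hc : ∀ i, ∀ x ∈ (A.e i).source, ∑ j, (t j : ℂ) • cur (h j) i x = hsf A u i x)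
    (φ : J → A.ι → A.ι → M → ℂ) (hφh : ∀ k i j, HolAt A i (A.e j).source (φ k i j))
    (hφ : ∀ k i j, ∀ x ∈ U2 A i j, Complex.exp (2 * Real.pi * I * φ k i j x) = (L k).g i j x) :
    ∃ (F : A.ι → M → ℂ) (β : A.ι → A.ι → ℝ), ∀ i j, ∀ x ∈ U2 A i j,
      F j x - F i x + ∑ k, (t k : ℂ) * φ k i j x = β i j := by
  choose F hF hre using fun i => FlatSec_534.exists_re (A.e i).open_target (target_convex hA i)
    (psi_smooth h t hu i) (fun z hz v => psi_lev h t hu hc i hz v)
  have hpi : (4 * Real.pi * I : ℂ) ≠ 0 := by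
    simp [Real.pi_ne_zero]
  set G : A.ι → A.ι → Cn n → ℂ := fun i j z => F j (A.e j ((A.e i).symm z)) - F i z +
    4 * Real.pi * I * ∑ k, (t k : ℂ) * φ k i j ((A.e i).symm z) with hG
  have h1 : ∀ i j, DifferentiableOn ℂ (G i j) (A.ov i j) := by
    intro i j
    have e1 : DifferentiableOn ℂ (fun z => F j (A.e j ((A.e i).symm z))) (A.ov i j) :=
      (hF j).comp (A.holo i j) fun z hz => (A.e j).map_source hz.2
    have e2 : DifferentiableOn ℂ (F i) (A.ov i j) := (hF i).mono fun z hz => hz.1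
    have e3 : DifferentiableOn ℂ (fun z => 4 * Real.pi * I *
        ∑ k, (t k : ℂ) * φ k i j ((A.e i).symm z)) (A.ov i j) :=
      (DifferentiableOn.fun_sum fun k _ => (hφh k i j).const_mul (t k : ℂ)).const_mul _
    exact (e1.sub e2).add e3
  have h2 : ∀ i j, ∀ z ∈ A.ov i j, (G i j z).re = 0 := by
    intro i j z hz
    have e1 := psi_tr h t (u := u) φ hφ hz
    rw [← hre i z hz.1, ← hre j _ ((A.e j).map_source hz.2)] at e1
    have e2 : (4 * Real.pi * I * ∑ k, (t k : ℂ) * φ k i j ((A.e i).symm z)).re =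
        -(4 * Real.pi * ∑ k, t k * (φ k i j ((A.e i).symm z)).im) := by
      have e3 : (∑ k, (t k : ℂ) * φ k i j ((A.e i).symm z)).im =
          ∑ k, t k * (φ k i j ((A.e i).symm z)).im := by
        rw [Complex.im_sum]
        exact Finset.sum_congr rfl fun k _ => by simp
      rw [← e3]
      simp [Complex.mul_re, Complex.mul_im]
    simp only [hG, Complex.add_re, Complex.sub_re, e2]
    linarith
  have h3 : ∀ i j, ∃ b : ℝ, ∀ z ∈ A.ov i j, G i j z = 4 * Real.pi * I * b := by
    intro i j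
    rcases (A.ov i j).eq_empty_or_nonempty with he | ⟨z0, hz0⟩
    · exact ⟨0, fun z hz => absurd hz (by rw [he]; exact notMem_empty z)⟩
    · have e2 : (4 * Real.pi : ℝ) ≠ 0 := by positivity
      obtain ⟨b, hb⟩ : ∃ b : ℝ, 4 * Real.pi * b = (G i j z0).im :=
        ⟨(G i j z0).im / (4 * Real.pi), by field_simp⟩
      refine ⟨b, fun z hz => ?_⟩
      rw [const_of_re (isOpen_ov A i j) (hA i j) (h1 i j) (h2 i j) hz hz0]
      have e1 := h2 i j z0 hz0
      apply Complex.ext
      · rw [e1]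
        simp
      · rw [← hb]
        simp
  choose β hβ using h3
  refine ⟨fun i x => (4 * Real.pi * I)⁻¹ * F i (A.e i x), β, fun i j x hx => ?_⟩
  have hm : A.e i x ∈ A.ov i j := by
    refine ⟨(A.e i).map_source hx.1, ?_⟩
    show (A.e i).symm (A.e i x) ∈ _
    rw [(A.e i).left_inv hx.1]
    exact hx.2
  have h4 := hβ i j _ hm
  simp only [hG, (A.e i).left_inv hx.1] at h4
  apply mul_left_cancel₀ hpi
  rw [← h4, mul_add, mul_sub, mul_inv_cancel_left₀ hpi, mul_inv_cancel_left₀ hpi]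

/-- **real relations are spanned by integral ones** -/
theorem rat_main [CompactSpace M] [T2Space M] [SimplyConnectedSpace M] [Finite A.ι]
    (hA : GoodA A) (P : Part A) (K : Kah A) (hu : A.Sm u)
    (hc : ∀ i, ∀ x ∈ (A.e i).source, ∑ j, (t j : ℂ) • cur (h j) i x = hsf A u i x)
    (f : ℝ →ₗ[ℚ] ℚ) : ∃ (D : ℕ) (m : J → ℤ), 0 < D ∧ (∀ j, (m j : ℚ) = D * f (t j)) ∧
      Triv (∏ j, L j ^ m j) := by
  choose φ hφh hφ using fun k => exists_hlog hA (L k)
  obtain ⟨F, β, hβ⟩ := exists_beta h t hA hu hc φ hφh hφ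
  obtain ⟨D, hD, hm⟩ := exists_den (κ := J ⊕ (A.ι × A.ι))
    (Sum.elim (fun j => f (t j)) fun p => f (β p.1 p.2))
  choose m hm using hm
  have hmt : ∀ j, (m (Sum.inl j) : ℚ) = D * f (t j) := fun j => hm (Sum.inl j)
  have hmb : ∀ i j, (m (Sum.inr (i, j)) : ℚ) = D * f (β i j) := fun i j => hm (Sum.inr (i, j))
  refine ⟨D, fun j => m (Sum.inl j), hD, hmt, ?_⟩
  -- the integral relation
  have key : ∀ i j k, ∀ x ∈ U3 A i j k, ∑ l, (m (Sum.inl l) : ℂ) *
      (φ l j k x - φ l i k x + φ l i j x) =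
      (m (Sum.inr (j, k)) : ℂ) - m (Sum.inr (i, k)) + m (Sum.inr (i, j)) := by
    rintro i j k x ⟨⟨hi, hj⟩, hk⟩
    have h1 : ∀ l, ∃ c : ℤ, φ l j k x - φ l i k x + φ l i j x = c := by
      intro l
      rw [← exp_eq_one_iff_int]
      have e1 := hφ l j k x ⟨hj, hk⟩
      have e2 := hφ l i k x ⟨hi, hk⟩
      have e3 := hφ l i j x ⟨hi, hj⟩
      have e4 : 2 * Real.pi * Complex.I * (φ l j k x - φ l i k x + φ l i j x) =
          2 * Real.pi * Complex.I * φ l j k x - 2 * Real.pi * Complex.I * φ l i k x +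
          2 * Real.pi * Complex.I * φ l i j x := by ring
      rw [e4, Complex.exp_add, Complex.exp_sub, e1, e2, e3, ← (L l).mul i j k x ⟨⟨hi, hj⟩, hk⟩]
      have n1 := (L l).ne_zero i j x
      have n2 := (L l).ne_zero j k x
      field_simp
    choose c hc' using h1
    have b1 := hβ j k x ⟨hj, hk⟩
    have b2 := hβ i k x ⟨hi, hk⟩
    have b3 := hβ i j x ⟨hi, hj⟩
    have h2 : ∑ l, (t l : ℂ) * (φ l j k x - φ l i k x + φ l i j x) =
        (β j k : ℂ) - β i k + β i j := by
      rw [← b1, ← b2, ← b3]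
      simp only [mul_add, mul_sub, Finset.sum_add_distrib, Finset.sum_sub_distrib]
      ring
    simp only [hc'] at h2 ⊢
    have h3 : ∑ l, t l * (c l : ℝ) = β j k - β i k + β i j := by
      exact_mod_cast h2
    have h4 : ∑ l, f (t l) * (c l : ℚ) = f (β j k) - f (β i k) + f (β i j) := by
      rw [← map_sub, ← map_add, ← h3, map_sum]
      refine Finset.sum_congr rfl fun l _ => ?_
      have e1 : t l * (c l : ℝ) = (c l : ℚ) • t l := by
        rw [Rat.smul_def, Rat.cast_intCast, mul_comm]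
      rw [e1, map_smul, smul_eq_mul, mul_comm]
    have h5 : ∑ l, (m (Sum.inl l) : ℚ) * (c l : ℚ) =
        (m (Sum.inr (j, k)) : ℚ) - m (Sum.inr (i, k)) + m (Sum.inr (i, j)) := by
      rw [hmb, hmb, hmb]
      have e1 : ∀ l, (m (Sum.inl l) : ℚ) * (c l : ℚ) = D * (f (t l) * (c l : ℚ)) := by
        intro l
        rw [hmt]
        ring
      simp only [e1]
      rw [← Finset.mul_sum, h4]
      ring
    exact_mod_cast h5
  refine triv_of_log hA P K _ ⟨fun i j x => ∑ l, (m (Sum.inl l) : ℂ) * φ l i j x -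
    m (Sum.inr (i, j)), fun i j => ?_, fun i j k x hx => ?_⟩ fun i j x hx => ?_
  · exact (HolAt.sum _ fun l _ => (hφh l i j).const_mul _).sub (holAt_const _)
  · have h1 := key i j k x hx
    simp only [mul_add, mul_sub, Finset.sum_add_distrib, Finset.sum_sub_distrib] at h1
    linear_combination h1
  · rw [prod_zpow_g, mul_sub, Complex.exp_sub, Finset.mul_sum, Complex.exp_sum]
    have h1 : Complex.exp (2 * Real.pi * I * (m (Sum.inr (i, j)) : ℂ)) = 1 :=
      (exp_eq_one_iff_int _).2 ⟨_, rfl⟩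
    rw [h1, div_one]
    refine Finset.prod_congr rfl fun l _ => ?_
    rw [← hφ l i j x hx, ← Complex.exp_int_mul]
    congr 1
    ring

end rel

end

end Crest.Agent.R281.Sc_413
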