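import Crest.Agent.R281.Sem3_323
import Crest.Agent.R281.Mca3_365
import Crest.Agent.R281.MvsD_713
import Crest.Agent.R281.Hz1_286

/-!
# R281 (S0424), SEMI-P (helper323), part 4: analytic families of the coefficients on the cells

* `an_forms` : analytic families of the Kaehler forms and of `d (f s)` on the cells
* **`MvOut.an`** : the complex structures `(H s).J 0` and the connections `(L0.add b_s).th` are
  restrictions of families analytic near `[0,1]` with values in `C(Z.B k, ·)`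
-/

set_option autoImplicit false
set_option linter.unusedSectionVars false
set_option maxSynthPendingDepth 3

open Set Filter Topology Complex Metric
open scoped ContDiff

namespace Crest.Agent.R281.Sem_323

open Crest.Agent.R275.Geo Crest.Agent.R275.Core144 Crest.Agent.R275.GC293
open Crest.Agent.R273.Kah_333
open Crest.Agent.R273.SchF_152
open Crest.Agent.R260.ACM_580 Crest.Agent.R260.NNB_580
open Crest.Agent.R281.HkR_835 Crest.Agent.R281.Ti_846 Crest.Agent.R281.Dif_268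
open Crest.Agent.R281.Cdr_234 Crest.Agent.R281.NefO_476 Crest.Agent.R281.Nef_252
open Crest.Agent.R281.PL_713 Crest.Agent.R281.Mvs_713 Crest.Agent.R281.HKMov_478
open Crest.Agent.R281.Hz_286 Crest.Agent.R281.Mca_365

noncomputable section

variable {d : ℕ} {V X : Type} [NormedAddCommGroup V] [NormedSpace ℝ V] [FiniteDimensional ℝ V]
  [TopologicalSpace X] {C : RCh V X} {A : Atl d X}

/-- **analytic families on the cells** -/
theorem an_forms [T2Space X] [CompactSpace X] [ConnectedSpace X] [Finite A.ι] (P : Part A)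
    (h : Cmp C (ofAtl A)) (Z : Cells C) {K0 : Kah A} {B E : K11 A} {x0 : X} {K : ℝ → Kah A}
    {u f : ℝ → X → ℝ} (hK : SegK K0 B x0 (Icc 0 1) K u) (hf : SegF K E x0 (Icc 0 1) f) :
    ∃ (K' : ℝ → Kah A) (f' : ℝ → X → ℝ), (∀ s ∈ Icc (0 : ℝ) 1, K' s = K s ∧ f' s = f s) ∧
      (∀ s, A.Sm (f' s)) ∧
      (∀ k, AnalyticOnNhd ℝ (fun s => toC (Z.B k) ((h.symm.F (ofKah (K' s)).f2).w (Z.i k)))
        (Icc 0 1)) ∧
      ∀ k, AnalyticOnNhd ℝ (fun s => toC (Z.B k) (dfn C (f' s) (Z.i k))) (Icc 0 1) := by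
  obtain ⟨Bc⟩ := Cb.nonempty A
  obtain ⟨δ, K', u', hδ, hK', he⟩ := hK.extend P Bc
  obtain ⟨f', hf'⟩ := SegF.exists_all P K' E x0
  have hsub : ∀ s ∈ Icc (0 : ℝ) 1, s ∈ Ioo (-δ) (1 + δ) := fun s hs =>
    ⟨by linarith [hs.1], by linarith [hs.2]⟩
  have key : ∀ s0 ∈ Icc (0 : ℝ) 1, ∃ (r : ℝ) (φ ψ : ℕ → X → ℝ) (Y : ℕ → K11 A) (b b' : ℕ → ℝ),
      PsF Bc u' s0 r φ b ∧ Ps11 Bc (fun s => ofKah (K' s)) s0 r Y b ∧ PsF Bc f' s0 r ψ b' := by
    intro s0 hs0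
    obtain ⟨r, φ, ψ, Y, b, b', -, h1, h2, h3⟩ :=
      SegF.ps P Bc hK' (hf'.mono (subset_univ _)) isOpen_Ioo (hsub s0 hs0)
    exact ⟨r, φ, ψ, Y, b, b', h1, h2, h3⟩
  refine ⟨K', f', fun s hs => ⟨(he s hs).1, ?_⟩, fun s => hf'.sm s (mem_univ s), fun k s0 hs0 => ?_,
    fun k s0 hs0 => ?_⟩
  · exact SegF.eq P Bc hf hf' hs (mem_univ s) (he s hs).1
  · obtain ⟨r, φ, ψ, Y, b, b', h1, h2, h3⟩ := key s0 hs0
    obtain ⟨a', ha'⟩ := ps_form h Bc Z h2
    exact CSer.analyticAt k ha'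
  · obtain ⟨r, φ, ψ, Y, b, b', h1, h2, h3⟩ := key s0 hs0
    obtain ⟨a', ha'⟩ := ps_dfun h Bc Z h3 fun s _ => hf'.sm s (mem_univ s)
    exact CSer.analyticAt k ha'

/-- nondegeneracy -/
theorem om0_inj (H : HkT C) {i : C.ι} {z : V} (hz : z ∈ (C.e i).target) {v : V}
    (hv : (H.om 0).w i z v = 0) : v = 0 := by
  have h1 : (H.om 0).w i z v (H.J 0 i z v) = 0 := by rw [hv]; rfl
  rw [H.om_eq 0 i z hz] at h1
  by_contra hne
  have h2 : H.J 0 i z v ≠ 0 := by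
    intro h0
    have h3 := H.J_sq 0 i z hz v
    rw [h0, map_zero] at h3
    exact hne (neg_eq_zero.1 h3.symm)
  exact (H.g_pos i z hz _ h2).ne' h1

theorem om0_J1 (H : HkT C) {i : C.ι} {z : V} (hz : z ∈ (C.e i).target) (v : V) :
    (H.om 0).w i z (H.J 1 i z v) = (H.om 2).w i z v := by
  ext w
  rw [H.om_eq 0 i z hz, H.om_eq 2 i z hz, H.J_01 i z hz]

theorem om0_J2 (H : HkT C) {i : C.ι} {z : V} (hz : z ∈ (C.e i).target) (v : V) :
    (H.om 0).w i z (H.J 2 i z v) = -(H.om 1).w i z v := by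
  ext w
  rw [neg_apply, H.om_eq 0 i z hz, H.om_eq 1 i z hz, H.J_02 hz, map_neg, neg_apply]

theorem contOn_J (H : HkT C) (Z : Cells C) (q : Fin 3) (k : Z.σ) :
    ContinuousOn (H.J q (Z.i k)) (Z.B k) :=
  (H.J_sm q (Z.i k)).continuousOn.mono (Z.sub k)

theorem contOn_w (w : F2 C) (Z : Cells C) (k : Z.σ) : ContinuousOn (w.w (Z.i k)) (Z.B k) :=
  (w.sm (Z.i k)).continuousOn.mono (Z.sub k)

/-- **the coefficients are analytic on the cells** -/
theorem MvOut.an [T2Space X] [CompactSpace X] [ConnectedSpace X] {L0 : PL C}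
    {H : ℝ → HkT C} [MeasurableSpace V] [BorelSpace V] (m : MvOut (d := d) C L0 H) (Z : Cells C) :
    ∃ (t : ℝ → ∀ k : Z.σ, C(Z.B k, V →L[ℝ] ℝ)) (T : ℝ → ∀ k : Z.σ, C(Z.B k, V →L[ℝ] V)),
      (∀ k, AnalyticOnNhd ℝ (fun s => t s k) (Icc 0 1)) ∧
      (∀ k, AnalyticOnNhd ℝ (fun s => T s k) (Icc 0 1)) ∧
      (∀ s ∈ Icc (0 : ℝ) 1, ∀ k (z : Z.B k), T s k z = (H s).J 0 (Z.i k) z) ∧
      ∀ s ∈ Icc (0 : ℝ) 1, ∃ b : F1 C, T11 (ofHk (H s) 0) (L0.add b).F ∧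
        ∀ k (z : Z.B k), t s k z = (L0.add b).th (Z.i k) z := by
  have := m.fin
  set h := cmp_of_cp m.hA with hh
  obtain ⟨K', f', he, hsm, hW, hf⟩ := an_forms m.P h Z m.segK m.segF
  set M0 := m.M 0 with hM0
  set j0 : ∀ k : Z.σ, C(Z.B k, V →L[ℝ] V) := fun k => toC (Z.B k) (M0.J 0 (Z.i k)) with hj0
  set W : ℝ → ∀ k : Z.σ, C(Z.B k, V →L[ℝ] V →L[ℝ] ℝ) :=
    fun s k => toC (Z.B k) ((h.symm.F (ofKah (K' s)).f2).w (Z.i k)) with hWd
  set x1 : ∀ k : Z.σ, C(Z.B k, V →L[ℝ] V →L[ℝ] ℝ) := fun k => toC (Z.B k) ((M0.om 1).w (Z.i k))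
    with hx1
  set x2 : ∀ k : Z.σ, C(Z.B k, V →L[ℝ] V →L[ℝ] ℝ) := fun k => toC (Z.B k) ((M0.om 2).w (Z.i k))
    with hx2
  -- values
  have hWv : ∀ s ∈ Icc (0 : ℝ) 1, ∀ k (z : Z.B k), W s k z = ((m.M s).om 0).w (Z.i k) z := by
    intro s hs k z
    rw [hWd]
    show toC (Z.B k) ((h.symm.F (ofKah (K' s)).f2).w (Z.i k)) z = _
    rw [toC_apply (contOn_w _ Z k), (he s hs).1]
    ext u v
    exact (m.om0 s hs (Z.i k) z (Z.sub k z.2) u v).symm
  have hinj : ∀ s ∈ Icc (0 : ℝ) 1, ∀ k (z : Z.B k) v, W s k z v = 0 → v = 0 := by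
    intro s hs k z v hv
    rw [hWv s hs] at hv
    exact om0_inj (m.M s) (Z.sub k z.2) hv
  have hj0v : ∀ s ∈ Icc (0 : ℝ) 1, ∀ k (z : Z.B k), j0 k z = (m.M s).J 0 (Z.i k) z := by
    intro s hs k z
    rw [hj0]
    show toC (Z.B k) (M0.J 0 (Z.i k)) z = _
    rw [toC_apply (contOn_J _ Z 0 k)]
    ext v
    exact (m.J0 s hs (Z.i k) z (Z.sub k z.2) v).symm
  have hxv : ∀ s ∈ Icc (0 : ℝ) 1, ∀ q : Fin 3, q ≠ 0 → ∀ k (z : Z.B k),
      (m.r s • toC (Z.B k) ((M0.om q).w (Z.i k))) z = ((m.M s).om q).w (Z.i k) z := by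
    intro s hs q hq k z
    rw [ContinuousMap.smul_apply, toC_apply (contOn_w _ Z k)]
    ext u v
    exact (m.om12 s hs q hq (Z.i k) z (Z.sub k z.2) u v).symm
  have hJ1 : ∀ s ∈ Icc (0 : ℝ) 1, ∀ k (z : Z.B k),
      sol (W s k) (m.r s • x2 k) z = (m.M s).J 1 (Z.i k) z := by
    intro s hs k z
    refine sol_eq (hinj s hs k) fun v => ?_
    rw [hWv s hs, om0_J1 (m.M s) (Z.sub k z.2), hxv s hs 2 (by decide)]
  have hJ2 : ∀ s ∈ Icc (0 : ℝ) 1, ∀ k (z : Z.B k),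
      sol (W s k) (-(m.r s • x1 k)) z = (m.M s).J 2 (Z.i k) z := by
    intro s hs k z
    refine sol_eq (hinj s hs k) fun v => ?_
    rw [hWv s hs, om0_J2 (m.M s) (Z.sub k z.2), ContinuousMap.neg_apply,
      hxv s hs 1 (by decide)]
    rfl
  refine ⟨fun s k => toC (Z.B k) (L0.th (Z.i k)) + toC (Z.B k) (m.η.η (Z.i k)) +
      (Real.pi / 2) • bC (Z.B k) (ContinuousLinearMap.compL ℝ V V ℝ)
        (toC (Z.B k) (dfn C (f' s) (Z.i k))) (j0 k),
    fun s k => m.a 0 s • j0 k + m.a 1 s • sol (W s k) (m.r s • x2 k) +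
      m.a 2 s • sol (W s k) (-(m.r s • x1 k)), fun k s0 hs0 => ?_, fun k s0 hs0 => ?_,
    fun s hs k z => ?_, fun s hs => ?_⟩
  · exact (analyticAt_const.add analyticAt_const).add
      ((an_bC _ (hf k s0 hs0) analyticAt_const).const_smul (c := Real.pi / 2))
  · have hr := m.r_an s0 hs0
    have hw := hW k s0 hs0
    have hx2' : AnalyticAt ℝ (fun s => m.r s • x2 k) s0 := hr.smul analyticAt_const
    have hx1' : AnalyticAt ℝ (fun s => -(m.r s • x1 k)) s0 := (hr.smul analyticAt_const).neg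
    exact (((m.a_an 0 s0 hs0).smul analyticAt_const).add
      ((m.a_an 1 s0 hs0).smul (an_sol hw hx2' (hinj s0 hs0 k)))).add
      ((m.a_an 2 s0 hs0).smul (an_sol hw hx1' (hinj s0 hs0 k)))
  · ext v
    rw [m.JH s hs (Z.i k) z (Z.sub k z.2) v, Fin.sum_univ_three]
    simp only [ContinuousMap.add_apply, ContinuousMap.smul_apply, add_apply, smul_apply]
    rw [hj0v s hs, hJ1 s hs, hJ2 s hs]
  · obtain ⟨b, hb, hb'⟩ := m.conn s hs
    refine ⟨b, hb', fun k z => ?_⟩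
    ext v
    have e0 : (L0.add b).th (Z.i k) z v = L0.th (Z.i k) z v + b.η (Z.i k) z v := rfl
    rw [e0, hb (Z.i k) z (Z.sub k z.2) v]
    simp only [ContinuousMap.add_apply, ContinuousMap.smul_apply, add_apply, smul_apply, bC_apply]
    have c1 : ContinuousOn (L0.th (Z.i k)) (Z.B k) :=
      (L0.th_sm (Z.i k)).continuousOn.mono (Z.sub k)
    have c2 : ContinuousOn (m.η.η (Z.i k)) (Z.B k) :=
      (m.η.sm (Z.i k)).continuousOn.mono (Z.sub k)
    have c3 : ContinuousOn (dfn C (f' s) (Z.i k)) (Z.B k) := dfn_cont h (hsm s) Z k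
    rw [toC_apply c1, toC_apply c2, toC_apply c3, hj0v 0 ⟨le_rfl, zero_le_one⟩]
    rw [(he s hs).2]
    simp only [ContinuousLinearMap.compL_apply, smul_eq_mul, add_assoc]
    rfl

end

end Crest.Agent.R281.Sem_323
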