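import Crest.Agent.R281.Sem4_323
import Crest.Agent.R281.Sem5_323
import Crest.Agent.R281.Rkd4_386

/-!
# R281 (S0424), SEMI-P (helper323), part 6: semicontinuity along one move

* `GKR μ b Z`   : Garding, Rellich, regularity for every hyperkaehler structure and every line
  bundle of type (1,1)
* **`semi_of`** : `MvOut C L0 H` + `GKR` ⟹ `hN` near `s = 1` gives `hN` at `s = 0`
* **`semiP_of`** : the node `SemiP` of `RkD_902` from `MvOut` and `GKR`
-/

set_option autoImplicit false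
set_option linter.unusedSectionVars false
set_option maxSynthPendingDepth 3

open Set Filter Topology Complex MeasureTheory Metric
open scoped ContDiff ENNReal

namespace Crest.Agent.R281.Sem_323

open Crest.Agent.R275.Geo Crest.Agent.R275.Core144 Crest.Agent.R275.GC293
open Crest.Agent.R260.ACM_580 Crest.Agent.R260.NNB_580 Crest.Agent.R281.Dif_268
open Crest.Agent.R281.HkR_835 Crest.Agent.R281.Ti_846 Crest.Agent.R281.PL_713
open Crest.Agent.R281.NefO_476 Crest.Agent.R281.Nef_252 Crest.Agent.R281.RkD_902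
open Crest.Agent.R281.Rkd_386 Crest.Agent.R281.Mvs_713
open Crest.Agent.R281.Semi_450 Crest.Agent.R281.Hz_286

noncomputable section

variable {V X : Type} [NormedAddCommGroup V] [NormedSpace ℝ V] [TopologicalSpace X]
  {C : RCh V X} [FiniteDimensional ℝ V] [MeasurableSpace V] [BorelSpace V]
  (μ : Measure V) [μ.IsAddHaarMeasure] {σ' : Type} [Fintype σ'] (b : Module.Basis σ' ℝ V)
  (Z : Cells C)

/-- the three analytic inputs -/
def GKR : Prop :=
  ∀ (L : PL C) (H : HkT C), T11 (ofHk H 0) L.F →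
    Gard μ b Z L (H.J 0) ∧ Rell μ b Z L ∧ Regu μ b Z L (H.J 0)

/-- **semicontinuity along one move** -/
theorem semi_of {d : ℕ} [CompactSpace X] [T2Space X] [SimplyConnectedSpace X] (hNN : NNat V d)
    (hd : 2 ≤ d) (hin : GKR μ b Z) {L0 : PL C} {H : ℝ → HkT C} (m : MvOut (d := d) C L0 H)
    (p N : ℕ) (h : ∀ᶠ s in 𝓝[≤] (1 : ℝ), hN (L0.pow p) (ofHk (H s) 0) N) :
    hN (L0.pow p) (ofHk (H 0) 0) N := by
  classical
  obtain ⟨t, T, ht, hT, hTv, hb⟩ := MvOut.an m Z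
  choose! β hβ hβt using hb
  set a : ℝ → F1 C := fun s => (p : ℝ) • β s with ha
  have hpow : ∀ s, (L0.pow p).add (a s) = (L0.add (β s)).pow p := fun s =>
    (pow_add' L0 (β s) p).symm
  have h11 : ∀ s ∈ Icc (0 : ℝ) 1, T11 (ofHk (H s) 0) ((L0.pow p).add (a s)).F := by
    intro s hs
    rw [hpow]
    exact T11.pow (hβ s hs) p
  have hfr : ∃ᶠ s in 𝓝[≠] (1 : ℝ), s ∈ Icc (0 : ℝ) 1 ∧
      ((L0.pow p).add (a s)).HasN ((H s).J 0) N := by
    have h1 : ∀ᶠ s in 𝓝[<] (1 : ℝ), hN (L0.pow p) (ofHk (H s) 0) N :=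
      h.filter_mono (nhdsWithin_mono _ Iio_subset_Iic_self)
    have h2 : ∀ᶠ s in 𝓝[<] (1 : ℝ), s ∈ Icc (0 : ℝ) 1 := by
      filter_upwards [Ioo_mem_nhdsLT (zero_lt_one : (0 : ℝ) < 1)] with s hs
      exact ⟨hs.1.le, hs.2.le⟩
    have h3 : ∀ᶠ s in 𝓝[<] (1 : ℝ), s ∈ Icc (0 : ℝ) 1 ∧
        ((L0.pow p).add (a s)).HasN ((H s).J 0) N := by
      filter_upwards [h1, h2] with s hs1 hs2
      exact ⟨hs2, hN_indep hNN hd hs1 (h11 s hs2)⟩
    exact h3.frequently.filter_mono (nhdsWithin_mono _ fun s hs => ne_of_lt hs)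
  have key := hasN_an b μ Z (L0.pow p) (a := a) (J := fun s => (H s).J 0)
    (t := fun s k => (p : ℝ) • t s k) (T := T)
    (fun k s hs => (analyticAt_const (v := (p : ℝ))).smul (ht k s hs)) hT (fun s hs k z => ?_) hTv
    (fun s hs => (hin _ (H s) (h11 s hs)).1) (fun s hs => (hin _ (H s) (h11 s hs)).2.1)
    (fun s hs => (hin _ (H s) (h11 s hs)).2.2) hfr
  · have h0 : (0 : ℝ) ∈ Icc (0 : ℝ) 1 := ⟨le_rfl, zero_le_one⟩
    exact ⟨a 0, h11 0 h0, key 0 h0⟩
  · rw [ContinuousMap.smul_apply, hβt s hs k z, hpow]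
    rfl

/-- output of the algebra (713) -/
def MvOutP : Prop :=
  ∀ (n : ℕ) (X : Type) [TopologicalSpace X] [CompactSpace X] [T2Space X]
    [SimplyConnectedSpace X] (C : RCh (Cn (2 * n)) X) (Q : F2 C →ₗ[ℝ] F2 C →ₗ[ℝ] ℝ), Ctx n C Q →
    ∀ (L0 : PL C) (e : F2 C) (G H : ℝ → HkT C),
    Move G → (∀ s ∈ Icc (0 : ℝ) 1, SameTw (G s) (H s)) →
    (∀ s ∈ Icc (0 : ℝ) 1, Given Q (H s) L0 e) → Nonempty (MvOut (d := 2 * n) C L0 H)

/-- Garding, Rellich, regularity (286, 409) -/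
def GKRP : Prop :=
  ∀ (n : ℕ) (X : Type) [TopologicalSpace X] [CompactSpace X] [T2Space X]
    [SimplyConnectedSpace X] (C : RCh (Cn (2 * n)) X), 1 ≤ n →
    ∃ (μ : Measure (Cn (2 * n))) (_ : μ.IsAddHaarMeasure) (σ' : Type) (_ : Fintype σ')
      (b : Module.Basis σ' ℝ (Cn (2 * n))) (Z : Cells C), GKR μ b Z

/-- **the node `SemiP`** -/
theorem semiP_of (h1 : MvOutP) (h2 : GKRP) : SemiP := by
  intro n X _ _ _ _ C Q hQ L0 e G H hG hGH hg p N h
  obtain ⟨m⟩ := h1 n X C Q hQ L0 e G H hG hGH hg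
  obtain ⟨μ, hμ, σ', hσ, b, Z, hin⟩ := h2 n X C hQ.n1
  have hd : 2 ≤ 2 * n := by have := hQ.n1; omega
  exact semi_of μ b Z (nnatC (2 * n)) hd hin m p N h

end

end Crest.Agent.R281.Sem_323
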