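import Crest.Agent.R281.Sem6_323
import Crest.Agent.R281.Rg3_676

/-!
# R281 (S0424), SEMI-P (helper323), part 7: `GKRP` is proved, `SemiP` from `MvOutP` alone
-/

set_option autoImplicit false
set_option linter.unusedSectionVars false
set_option maxSynthPendingDepth 3

open Set Filter Topology Complex MeasureTheory Metric
open scoped ContDiff ENNReal

namespace Crest.Agent.R281.Sem_323

open Crest.Agent.R275.Geo Crest.Agent.R275.Core144 Crest.Agent.R275.GC293
open Crest.Agent.R260.ACM_580 Crest.Agent.R260.NNB_580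
open Crest.Agent.R281.HkR_835 Crest.Agent.R281.Ti_846 Crest.Agent.R281.PL_713
open Crest.Agent.R281.NefO_476 Crest.Agent.R281.Nef_252 Crest.Agent.R281.RkD_902
open Crest.Agent.R281.Rkd_386 Crest.Agent.R281.Hz_286 Crest.Agent.R281.Dif_268

noncomputable section

variable {V X : Type} [NormedAddCommGroup V] [NormedSpace ℝ V] [TopologicalSpace X]
  {C : RCh V X} [FiniteDimensional ℝ V] [MeasurableSpace V] [BorelSpace V]
  (μ : Measure V) [μ.IsAddHaarMeasure] {σ' : Type} [Fintype σ'] (b : Module.Basis σ' ℝ V)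
  (Z : Cells C)

/-- **Garding, Rellich, regularity** -/
theorem gkr {d : ℕ} [CompactSpace X] [T2Space X] (hNN : NNat V d) : GKR μ b Z := by
  intro L H h11
  obtain ⟨A, -, -, -, -, -, hA⟩ := exists_atl hNN (H.acm_int 0) (κ := Unit)
    (fun _ => (univ : Set X)) (fun _ => isOpen_univ) (fun x => ⟨(), mem_univ x⟩)
  have hJ : JC C (H.J 0) A := JC.of_cp hA
  exact Crest.Agent.R281.Rg_676.inputs μ b Z hJ h11

theorem gkrP : GKRP := by
  intro n X _ _ _ _ C hn
  obtain ⟨Z⟩ := Cells.exists_cells C
  exact ⟨Measure.addHaar, inferInstance, _, inferInstance,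
    Module.finBasis ℝ (Cn (2 * n)), Z, gkr _ _ Z (nnatC (2 * n))⟩

/-- **`SemiP` from the algebra of 713** -/
theorem semiP_of_mv (h : MvOutP) : SemiP := semiP_of h gkrP

end

end Crest.Agent.R281.Sem_323
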