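import Crest.Agent.R281.Rg5_676
import Crest.Agent.R281.Mvs5_713

/-!
# R281 (S0424): the node `SemiP` (helper548)

`semiP : RkD_902.SemiP`, without hypotheses: the composition of 676's `semiP_of_mv`
(323, 286, 409, 365, 386, 450, 986) and 713's `nonempty_mvOut` (478, 457).
-/

set_option autoImplicit false

namespace Crest.Agent.R281.SemF_548

open Crest.Agent.R281

/-- **the node `SemiP`** -/
theorem semiP : RkD_902.SemiP := Rg_676.semiP_of_mv (by
  intro n X _ _ _ _ C Q hC L0 e G H hG hT hg
  exact Mvs_713.nonempty_mvOut hC hG hT hg)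

end Crest.Agent.R281.SemF_548
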