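import Mathlib

/-!
# Analytic families of left semi-Fredholm operators (row 281, task 1654, (4c) of 210 #6263)

`E`, `F` complex normed spaces, `E` complete.  `LP P`: the operator `P : E →L[ℂ] F` has a left
parametrix modulo finite rank.  `Ker P N`: `P` has `N` linearly independent kernel vectors.

Local form (`local_form`): if `P : 𝕜 → E →L[ℂ] F` (`𝕜 = ℝ` or `ℂ`) is analytic at `s₀` and
`LP (P s₀)`, then near `s₀` the kernel of `P s` is the injective image under an analytic family
`M s` of `{w ∈ W | P s (M s w) = 0}`, `W` a fixed finite dimensional subspace.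
-/

set_option autoImplicit false

open Filter Topology Set

namespace Crest.Agent.R281.Semi_450

variable {E F : Type*} [NormedAddCommGroup E] [NormedSpace ℂ E]
  [NormedAddCommGroup F] [NormedSpace ℂ F]

/-- `P` has a left parametrix modulo operators of finite rank. -/
def LP (P : E →L[ℂ] F) : Prop :=
  ∃ G : F →L[ℂ] E, FiniteDimensional ℂ (LinearMap.range ((G.comp P - 1 : E →L[ℂ] E) : E →ₗ[ℂ] E))

/-- `P` has `N` linearly independent vectors in its kernel. -/
def Ker (P : E →L[ℂ] F) (N : ℕ) : Prop :=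
  ∃ v : Fin N → E, LinearIndependent ℂ v ∧ ∀ i, P (v i) = 0

theorem Ker.mono {P : E →L[ℂ] F} {N M : ℕ} (h : Ker P N) (hM : M ≤ N) : Ker P M := by
  obtain ⟨v, hv, h0⟩ := h
  exact ⟨fun i => v (Fin.castLE hM i), hv.comp _ (Fin.castLE_injective hM), fun i => h0 _⟩

/-! ### Linear algebra: minors -/

section Minors

variable {W : Type*} [AddCommGroup W] [Module ℂ W] [FiniteDimensional ℂ W]

open Module

theorem exists_dual_family {r : ℕ} (y : Fin r → F) (hy : LinearIndependent ℂ y) :
    ∃ φ : Fin r → F →L[ℂ] ℂ, ∀ i j, φ j (y i) = if i = j then 1 else 0 := by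
  classical
  set S : Submodule ℂ F := Submodule.span ℂ (Set.range y) with hS
  have hfin : FiniteDimensional ℂ S := FiniteDimensional.span_of_finite ℂ (Set.finite_range y)
  set b : Basis (Fin r) ℂ S := Basis.span hy with hb
  have h1 : ∀ j : Fin r, ∃ g : F →L[ℂ] ℂ, ∀ x : S, g x = b.coord j x := by
    intro j
    obtain ⟨g, hg, -⟩ := exists_extension_norm_eq S (LinearMap.toContinuousLinearMap (b.coord j))
    exact ⟨g, fun x => by simpa using hg x⟩
  choose g hg using h1
  refine ⟨g, fun i j => ?_⟩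
  have h2 := hg j ⟨y i, Submodule.subset_span ⟨i, rfl⟩⟩
  have h3 : (⟨y i, Submodule.subset_span ⟨i, rfl⟩⟩ : S) = b i := by
    apply Subtype.ext
    rw [hb, Basis.span_apply]
  rw [h3] at h2
  have h4 : (b i : F) = y i := by rw [hb, Basis.span_apply]
  rw [h4] at h2
  rw [h2, Basis.coord_apply, Basis.repr_self, Finsupp.single_apply]

/-- `N` independent kernel vectors of `T` on a finite dimensional space = vanishing minors. -/
theorem ker_iff_minors (T : W →ₗ[ℂ] F) (N : ℕ) :
    (∃ v : Fin N → W, LinearIndependent ℂ v ∧ ∀ i, T (v i) = 0) ↔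
      (N ≤ finrank ℂ W ∧ ∀ (w : Fin (finrank ℂ W - N + 1) → W)
        (φ : Fin (finrank ℂ W - N + 1) → F →L[ℂ] ℂ),
        (Matrix.of fun i j => φ j (T (w i))).det = 0) := by
  classical
  have hrn : finrank ℂ (LinearMap.range T) + finrank ℂ (LinearMap.ker T) = finrank ℂ W :=
    LinearMap.finrank_range_add_finrank_ker T
  have hker : (∃ v : Fin N → W, LinearIndependent ℂ v ∧ ∀ i, T (v i) = 0) ↔
      N ≤ finrank ℂ (LinearMap.ker T) := by
    constructor
    · rintro ⟨v, hv, h0⟩
      let v' : Fin N → LinearMap.ker T := fun i => ⟨v i, by simpa using h0 i⟩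
      have hv' : LinearIndependent ℂ v' := by
        apply LinearIndependent.of_comp (LinearMap.ker T).subtype
        exact hv
      simpa using hv'.fintype_card_le_finrank
    · intro h
      obtain ⟨f, hf⟩ := exists_linearIndependent_of_le_finrank h
      exact ⟨fun i => (f i : W), hf.map' (LinearMap.ker T).subtype
        (by simp), fun i => (f i).2⟩
  rw [hker]
  constructor
  · intro h
    refine ⟨by omega, fun w φ => ?_⟩
    by_contra hdet
    have hind : LinearIndependent ℂ (fun i => T (w i)) := by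
      rw [Fintype.linearIndependent_iff]
      intro g hg
      have h1 : Matrix.vecMul g (Matrix.of fun i j => φ j (T (w i))) = 0 := by
        ext j
        have h2 := congrArg (φ j) hg
        rw [map_sum, map_zero] at h2
        simp only [Matrix.vecMul, dotProduct, Matrix.of_apply, Pi.zero_apply]
        rw [← h2]
        exact Finset.sum_congr rfl fun i _ => by rw [map_smul, smul_eq_mul]
      have h3 := Matrix.eq_zero_of_vecMul_eq_zero hdet h1
      exact fun i => congrFun h3 i
    let y' : Fin (finrank ℂ W - N + 1) → LinearMap.range T := fun i => ⟨T (w i), ⟨w i, rfl⟩⟩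
    have hy' : LinearIndependent ℂ y' := by
      apply LinearIndependent.of_comp (LinearMap.range T).subtype
      exact hind
    have h4 : finrank ℂ W - N + 1 ≤ finrank ℂ (LinearMap.range T) := by
      simpa using hy'.fintype_card_le_finrank
    omega
  · rintro ⟨hN, h⟩
    by_contra hlt
    have h1 : finrank ℂ W - N + 1 ≤ finrank ℂ (LinearMap.range T) := by omega
    obtain ⟨f, hf⟩ := exists_linearIndependent_of_le_finrank h1
    choose w hw using fun i => (f i).2
    have hy : LinearIndependent ℂ (fun i => T (w i)) := by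
      have : (fun i => T (w i)) = fun i => ((f i : LinearMap.range T) : F) := funext hw
      rw [this]
      exact hf.map' (LinearMap.range T).subtype (by simp)
    obtain ⟨φ, hφ⟩ := exists_dual_family _ hy
    have h2 := h w φ
    have h3 : (Matrix.of fun i j => φ j (T (w i))) = (1 : Matrix _ _ ℂ) := by
      ext i j
      rw [Matrix.of_apply, hφ, Matrix.one_apply]
    rw [h3, Matrix.det_one] at h2
    exact one_ne_zero h2

end Minors

/-! ### Local form -/

section Loc

variable {𝕜 : Type*} [RCLike 𝕜] [NormedAlgebra 𝕜 ℂ]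
  [NormedSpace 𝕜 E] [IsScalarTower 𝕜 ℂ E] [NormedSpace 𝕜 F] [IsScalarTower 𝕜 ℂ F]
  {S : Type*} [NormedAddCommGroup S] [NormedSpace 𝕜 S]

theorem analyticAt_comp {E₁ E₂ E₃ : Type*} [NormedAddCommGroup E₁] [NormedSpace ℂ E₁]
    [NormedAddCommGroup E₂] [NormedSpace ℂ E₂] [NormedAddCommGroup E₃] [NormedSpace ℂ E₃]
    [NormedSpace 𝕜 E₂] [IsScalarTower 𝕜 ℂ E₂] [NormedSpace 𝕜 E₃] [IsScalarTower 𝕜 ℂ E₃]
    {A : S → E₂ →L[ℂ] E₃} {B : S → E₁ →L[ℂ] E₂} {s : S}
    (hA : AnalyticAt 𝕜 A s) (hB : AnalyticAt 𝕜 B s) :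
    AnalyticAt 𝕜 (fun z => (A z).comp (B z)) s := by
  have h := ((ContinuousLinearMap.compL ℂ E₁ E₂ E₃).analyticAt_bilinear (A s, B s)).restrictScalars
    (𝕜 := 𝕜)
  exact h.comp₂ hA hB

theorem analyticAt_apply {E₂ E₃ : Type*}
    [NormedAddCommGroup E₂] [NormedSpace ℂ E₂] [NormedAddCommGroup E₃] [NormedSpace ℂ E₃]
    [NormedSpace 𝕜 E₃] [IsScalarTower 𝕜 ℂ E₃]
    {A : S → E₂ →L[ℂ] E₃} {s : S} (hA : AnalyticAt 𝕜 A s) (x : E₂) :
    AnalyticAt 𝕜 (fun z => A z x) s := by
  have h := ((ContinuousLinearMap.apply ℂ E₃ x).analyticAt (A s)).restrictScalars (𝕜 := 𝕜)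
  exact h.comp hA

/-- Local Lyapunov-Schmidt form.  The parameter lives in any normed space `S` over `𝕜`. -/
theorem local_form [CompleteSpace E] {P : S → E →L[ℂ] F} {s₀ : S} (hP : AnalyticAt 𝕜 P s₀)
    (h : LP (P s₀)) :
    ∃ (W : Submodule ℂ E) (M : S → E →L[ℂ] E), FiniteDimensional ℂ W ∧ AnalyticAt 𝕜 M s₀ ∧
      ∀ᶠ s in 𝓝 s₀, Function.Injective (M s) ∧
        ∀ u, P s u = 0 → ∃ w ∈ W, u = M s w := by
  obtain ⟨G, hG⟩ := h
  set R : E →L[ℂ] E := G.comp (P s₀) - 1 with hR
  set D : S → E →L[ℂ] E := fun s => G.comp (P s) - R with hD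
  have hDan : AnalyticAt 𝕜 D s₀ := by
    have h1 : AnalyticAt 𝕜 (fun s => G.comp (P s)) s₀ := by
      have h := (((ContinuousLinearMap.compL ℂ E F E) G).analyticAt (P s₀)).restrictScalars
        (𝕜 := 𝕜)
      exact h.comp hP
    exact h1.sub analyticAt_const
  have hD0 : D s₀ = 1 := by simp only [hD, hR]; abel
  have hinv : AnalyticAt 𝕜 (fun s => Ring.inverse (D s)) s₀ := by
    have h := (analyticAt_inverse (𝕜 := ℂ) (1 : (E →L[ℂ] E)ˣ)).restrictScalars (𝕜 := 𝕜)
    have h2 : AnalyticAt 𝕜 Ring.inverse (D s₀) := by rw [hD0]; exact h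
    exact h2.comp hDan
  have hunit : ∀ᶠ s in 𝓝 s₀, IsUnit (D s) := by
    have h1 : {A : E →L[ℂ] E | IsUnit A} ∈ 𝓝 (D s₀) := by
      rw [hD0]
      exact Units.isOpen.mem_nhds isUnit_one
    exact hDan.continuousAt h1
  refine ⟨LinearMap.range (R : E →ₗ[ℂ] E), fun s => Ring.inverse (D s), hG, hinv, ?_⟩
  filter_upwards [hunit] with s hs
  have hl : Ring.inverse (D s) * D s = 1 := Ring.inverse_mul_cancel _ hs
  have hr : D s * Ring.inverse (D s) = 1 := Ring.mul_inverse_cancel _ hs
  constructor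
  · intro x y hxy
    have h1 := congrArg (D s) hxy
    have h2 : ∀ z, D s (Ring.inverse (D s) z) = z := fun z => by
      have := congrArg (fun T : E →L[ℂ] E => T z) hr
      simpa using this
    rwa [h2, h2] at h1
  · intro u hu
    refine ⟨-R u, ⟨-u, by simp⟩, ?_⟩
    have h1 : D s u = -R u := by
      simp only [hD, sub_apply, ContinuousLinearMap.comp_apply, hu, map_zero,
        zero_sub]
    rw [← h1]
    have := congrArg (fun T : E →L[ℂ] E => T u) hl
    simpa using this.symm

end Loc

end Crest.Agent.R281.Semi_450
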