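import Crest.Agent.R281.Semi1_450

/-!
# Analytic families of left semi-Fredholm operators: global dichotomy (row 281, task 1654)

`𝕜 = ℝ` or `ℂ`; `P : S → E →L[ℂ] F` analytic on `U ⊆ S`, `S` a normed space over `𝕜`.

* `ker_closed`: `{s | Ker (P s) N}` is closed in `U`.
* `ker_of_accum` (`S = 𝕜`): an accumulation point in `U` (preconnected) gives all of `U`.
* `ker_of_interior`: a nonempty interior gives all of `U` (`U` open preconnected).
-/

set_option autoImplicit false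

open Filter Topology Set

namespace Crest.Agent.R281.Semi_450

variable {E F : Type*} [NormedAddCommGroup E] [NormedSpace ℂ E]
  [NormedAddCommGroup F] [NormedSpace ℂ F]

open Module

theorem ker_iff {P : E →L[ℂ] F} {M : E →L[ℂ] E} {W : Submodule ℂ E} [FiniteDimensional ℂ W]
    (hM : Function.Injective M) (hW : ∀ u, P u = 0 → ∃ w ∈ W, u = M w) (N : ℕ) :
    Ker P N ↔ (N ≤ finrank ℂ W ∧ ∀ (w : Fin (finrank ℂ W - N + 1) → W)
        (φ : Fin (finrank ℂ W - N + 1) → F →L[ℂ] ℂ),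
        (Matrix.of fun i j => φ j (P (M (w i : E)))).det = 0) := by
  have h := ker_iff_minors (((P.comp M : E →L[ℂ] F) : E →ₗ[ℂ] F) ∘ₗ W.subtype) N
  have h2 : Ker P N ↔ ∃ v : Fin N → W, LinearIndependent ℂ v ∧
      ∀ i, (((P.comp M : E →L[ℂ] F) : E →ₗ[ℂ] F) ∘ₗ W.subtype) (v i) = 0 := by
    constructor
    · rintro ⟨v, hv, h0⟩
      choose w hw hvw using fun i => hW (v i) (h0 i)
      refine ⟨fun i => ⟨w i, hw i⟩, ?_, fun i => ?_⟩
      · apply LinearIndependent.of_comp ((M : E →ₗ[ℂ] E) ∘ₗ W.subtype)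
        have h3 : (((M : E →ₗ[ℂ] E) ∘ₗ W.subtype : W →ₗ[ℂ] E) : W → E) ∘
            (fun i => (⟨w i, hw i⟩ : W)) = v := funext fun i => (hvw i).symm
        rw [h3]
        exact hv
      · have h3 := h0 i
        rw [hvw i] at h3
        exact h3
    · rintro ⟨w, hw, h0⟩
      refine ⟨fun i => M (w i : E), ?_, fun i => h0 i⟩
      have h3 := hw.map' ((M : E →ₗ[ℂ] E) ∘ₗ W.subtype) (by
        rw [LinearMap.ker_eq_bot]
        exact hM.comp Subtype.val_injective)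
      exact h3
  rw [h2, h]
  rfl

section Glob

variable {𝕜 : Type*} [RCLike 𝕜] [NormedAlgebra 𝕜 ℂ]
  [NormedSpace 𝕜 E] [IsScalarTower 𝕜 ℂ E] [NormedSpace 𝕜 F] [IsScalarTower 𝕜 ℂ F]
  {S : Type*} [NormedAddCommGroup S] [NormedSpace 𝕜 S]

theorem analyticAt_det {n : ℕ} {A : S → Matrix (Fin n) (Fin n) ℂ} {s : S}
    (h : ∀ i j, AnalyticAt 𝕜 (fun z => A z i j) s) : AnalyticAt 𝕜 (fun z => (A z).det) s := by
  have h1 : (fun z => (A z).det) =
      fun z => ∑ σ : Equiv.Perm (Fin n), ((Equiv.Perm.sign σ : ℤ) : ℂ) * ∏ i, A z (σ i) i := by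
    funext z
    rw [Matrix.det_apply']
  rw [h1]
  refine Finset.analyticAt_fun_sum _ fun σ _ => ?_
  refine analyticAt_const.mul ?_
  exact Finset.analyticAt_fun_prod _ fun i _ => h _ _

/-- the minor functions are analytic -/
theorem analyticAt_minor {n : ℕ} {P : S → E →L[ℂ] F} {M : S → E →L[ℂ] E} {s : S}
    (hP : AnalyticAt 𝕜 P s) (hM : AnalyticAt 𝕜 M s) (w : Fin n → E) (φ : Fin n → F →L[ℂ] ℂ) :
    AnalyticAt 𝕜 (fun z => (Matrix.of fun i j => φ j (P z (M z (w i)))).det) s := by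
  refine analyticAt_det fun i j => ?_
  have h1 := analyticAt_apply (𝕜 := 𝕜) (analyticAt_comp (𝕜 := 𝕜) hP hM) (w i)
  have h2 := ((φ j).analyticAt (P s (M s (w i)))).restrictScalars (𝕜 := 𝕜)
  exact AnalyticAt.fun_comp (g := φ j) (f := fun z => ((P z).comp (M z)) (w i)) h2 h1

/-- `{s | Ker (P s) N}` is closed (upper semicontinuity of the kernel dimension). -/
theorem ker_closed [CompleteSpace E] {P : S → E →L[ℂ] F} {s₀ : S} (hP : AnalyticAt 𝕜 P s₀)
    (h : LP (P s₀)) {N : ℕ} (hfr : ∃ᶠ s in 𝓝 s₀, Ker (P s) N) : Ker (P s₀) N := by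
  obtain ⟨W, M, hWf, hM, hev⟩ := local_form hP h
  have h0 := hev.self_of_nhds
  rw [ker_iff h0.1 h0.2]
  have hfr' : ∃ᶠ s in 𝓝 s₀, (N ≤ finrank ℂ W ∧ ∀ (w : Fin (finrank ℂ W - N + 1) → W)
        (φ : Fin (finrank ℂ W - N + 1) → F →L[ℂ] ℂ),
        (Matrix.of fun i j => φ j (P s (M s (w i : E)))).det = 0) := by
    refine (hfr.and_eventually hev).mono ?_
    rintro s ⟨hs, hs2⟩
    exact (ker_iff hs2.1 hs2.2 N).1 hs
  obtain ⟨_, h1⟩ := hfr'.exists
  refine ⟨h1.1, fun w φ => ?_⟩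
  have hc := (analyticAt_minor (𝕜 := 𝕜) hP hM (fun i => (w i : E)) φ).continuousAt
  by_contra hne
  have h2 : ∀ᶠ z in 𝓝 s₀, (Matrix.of fun i j => φ j (P z (M z (w i : E)))).det ≠ 0 :=
    hc.eventually_ne hne
  obtain ⟨z, hz⟩ := (hfr'.and_eventually h2).exists
  exact hz.2 (hz.1.2 w φ)

/-- Local dichotomy, one parameter. -/
theorem local_dichotomy [CompleteSpace E] [CompleteSpace F] {P : 𝕜 → E →L[ℂ] F} {s₀ : 𝕜}
    (hP : AnalyticAt 𝕜 P s₀) (h : LP (P s₀)) :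
    ∃ r > 0, ∀ N : ℕ, ∀ s₁ ∈ Metric.ball s₀ r, (∃ᶠ s in 𝓝[≠] s₁, Ker (P s) N) →
      ∀ s ∈ Metric.ball s₀ r, Ker (P s) N := by
  obtain ⟨W, M, hWf, hM, hev⟩ := local_form hP h
  obtain ⟨r, hr, hball⟩ := Metric.eventually_nhds_iff_ball.1
    ((hev.and hP.eventually_analyticAt).and hM.eventually_analyticAt)
  refine ⟨r, hr, fun N s₁ hs₁ hfr s hs => ?_⟩
  rw [ker_iff (hball s hs).1.1.1 (hball s hs).1.1.2]
  have hfr' : ∃ᶠ s in 𝓝[≠] s₁, (N ≤ finrank ℂ W ∧ ∀ (w : Fin (finrank ℂ W - N + 1) → W)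
        (φ : Fin (finrank ℂ W - N + 1) → F →L[ℂ] ℂ),
        (Matrix.of fun i j => φ j (P s (M s (w i : E)))).det = 0) := by
    have h1 : ∀ᶠ z in 𝓝[≠] s₁, z ∈ Metric.ball s₀ r :=
      nhdsWithin_le_nhds (Metric.isOpen_ball.mem_nhds hs₁)
    refine (hfr.and_eventually h1).mono ?_
    rintro z ⟨hz, hz2⟩
    exact (ker_iff (hball z hz2).1.1.1 (hball z hz2).1.1.2 N).1 hz
  obtain ⟨_, h1⟩ := hfr'.exists
  refine ⟨h1.1, fun w φ => ?_⟩
  have han : AnalyticOnNhd 𝕜 (fun z => (Matrix.of fun i j => φ j (P z (M z (w i : E)))).det)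
      (Metric.ball s₀ r) := fun z hz =>
    analyticAt_minor (𝕜 := 𝕜) (hball z hz).1.2 (hball z hz).2 (fun i => (w i : E)) φ
  exact han.eqOn_zero_of_preconnected_of_frequently_eq_zero
    (convex_ball s₀ r).isPreconnected hs₁ (hfr'.mono fun z hz => hz.2 w φ) hs

/-- **One parameter**: if `N` independent kernel vectors exist on a set with an accumulation point
in the preconnected set `U`, they exist on all of `U`. -/
theorem ker_of_accum [CompleteSpace E] [CompleteSpace F] {P : 𝕜 → E →L[ℂ] F} {U : Set 𝕜} (hU : IsPreconnected U)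
    (hP : AnalyticOnNhd 𝕜 P U) (h : ∀ s ∈ U, LP (P s)) {N : ℕ} {s₁ : 𝕜} (hs₁ : s₁ ∈ U)
    (hfr : ∃ᶠ s in 𝓝[≠] s₁, Ker (P s) N) : ∀ s ∈ U, Ker (P s) N := by
  set V : Set 𝕜 := interior {s | Ker (P s) N} with hV
  have hVo : IsOpen V := isOpen_interior
  have hVs : ∀ s ∈ V, Ker (P s) N := fun s hs => interior_subset (s := {s | Ker (P s) N}) hs
  have key : ∀ s ∈ U, (∃ᶠ z in 𝓝[≠] s, Ker (P z) N) → s ∈ V := by
    intro s hs hfr
    obtain ⟨r, hr, hd⟩ := local_dichotomy (hP s hs) (h s hs)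
    have h1 := hd N s (Metric.mem_ball_self hr) hfr
    exact mem_interior.2 ⟨Metric.ball s r, h1, Metric.isOpen_ball, Metric.mem_ball_self hr⟩
  have hsub : U ⊆ V := by
    refine hU.subset_of_closure_inter_subset hVo ⟨s₁, hs₁, key s₁ hs₁ hfr⟩ ?_
    rintro s ⟨hsc, hs⟩
    refine key s hs ?_
    rw [frequently_iff]
    intro O hO
    rw [mem_nhdsWithin] at hO
    obtain ⟨O', hO'o, hsO', hO'⟩ := hO
    obtain ⟨z, hz, hzV⟩ := mem_closure_iff.1 hsc O' hO'o hsO'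
    -- the nonempty open set `O' ∩ V` has a point different from `s`
    have h2 : (O' ∩ V) ∈ 𝓝 z := (hO'o.inter hVo).mem_nhds ⟨hz, hzV⟩
    have h3 : ∃ y ∈ O' ∩ V, y ≠ s := by
      by_cases hzs : z = s
      · have h4 : (𝓝[≠] z).NeBot := inferInstance
        have h5 : ∀ᶠ y in 𝓝[≠] z, y ∈ O' ∩ V := nhdsWithin_le_nhds h2
        obtain ⟨y, hy, hyz⟩ := (h5.and (eventually_mem_nhdsWithin)).exists
        exact ⟨y, hy, hzs ▸ hyz⟩
      · exact ⟨z, ⟨hz, hzV⟩, hzs⟩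
    obtain ⟨y, hy, hys⟩ := h3
    exact ⟨y, hO' ⟨hy.1, hys⟩, hVs y hy.2⟩
  exact fun s hs => hVs s (hsub hs)

/-- **Any number of parameters**: if `{s | Ker (P s) N}` has an interior point in the open
preconnected set `U`, it contains `U`. -/
theorem ker_of_interior [CompleteSpace E] [CompleteSpace F] {P : S → E →L[ℂ] F} {U : Set S}
    (hUo : IsOpen U) (hU : IsPreconnected U) (hP : AnalyticOnNhd 𝕜 P U) (h : ∀ s ∈ U, LP (P s)) {N : ℕ} {s₁ : S}
    (hs₁ : s₁ ∈ U) (hint : ∀ᶠ s in 𝓝 s₁, Ker (P s) N) : ∀ s ∈ U, Ker (P s) N := by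
  let _ : NormedSpace ℝ S := NormedSpace.restrictScalars ℝ 𝕜 S
  set V : Set S := interior {s | Ker (P s) N} with hV
  have hVo : IsOpen V := isOpen_interior
  have hVs : ∀ s ∈ V, Ker (P s) N := fun s hs => interior_subset (s := {s | Ker (P s) N}) hs
  have hsub : U ⊆ V := by
    refine hU.subset_of_closure_inter_subset hVo ⟨s₁, hs₁, mem_interior_iff_mem_nhds.2 hint⟩ ?_
    rintro s ⟨hsc, hs⟩
    obtain ⟨r, hr, hball⟩ := Metric.isOpen_iff.1 hUo s hs
    obtain ⟨a, ha, haV⟩ := mem_closure_iff.1 hsc (Metric.ball s r) Metric.isOpen_ball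
      (Metric.mem_ball_self hr)
    refine mem_interior.2 ⟨Metric.ball s r, fun z hz => ?_, Metric.isOpen_ball,
      Metric.mem_ball_self hr⟩
    -- the line from `a` to `z`
    set ℓ : 𝕜 → S := fun t => a + t • (z - a) with hℓ
    have hℓan : ∀ t, AnalyticAt 𝕜 ℓ t := fun t =>
      analyticAt_const.add (analyticAt_id.smul analyticAt_const)
    have hℓc : Continuous ℓ := by
      rw [hℓ]; fun_prop
    set T : Set 𝕜 := ℓ ⁻¹' Metric.ball s r with hT
    have hTc : Convex ℝ T := by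
      intro x hx y hy p q hp hq hpq
      have h1 : ℓ (p • x + q • y) = p • ℓ x + q • ℓ y := by
        have h2 : (p • x : 𝕜) • (z - a) = p • (x • (z - a)) := smul_assoc _ _ _
        have h3 : (q • y : 𝕜) • (z - a) = q • (y • (z - a)) := smul_assoc _ _ _
        have h4 : a = p • a + q • a := by rw [← add_smul, hpq, one_smul]
        simp only [hℓ]
        rw [add_smul, h2, h3, smul_add, smul_add]
        nth_rw 1 [h4]
        abel
      show ℓ (p • x + q • y) ∈ Metric.ball s r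
      rw [h1]
      exact convex_ball s r hx hy hp hq hpq
    have hTU : ∀ t ∈ T, ℓ t ∈ U := fun t ht => hball ht
    have h0T : (0 : 𝕜) ∈ T := by
      show ℓ 0 ∈ Metric.ball s r
      simpa [hℓ] using ha
    have h1T : (1 : 𝕜) ∈ T := by
      show ℓ 1 ∈ Metric.ball s r
      simpa [hℓ] using hz
    have hQ : AnalyticOnNhd 𝕜 (fun t => P (ℓ t)) T := fun t ht =>
      (hP (ℓ t) (hTU t ht)).comp (hℓan t)
    have hfr : ∃ᶠ t in 𝓝[≠] (0 : 𝕜), Ker (P (ℓ t)) N := by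
      have h5 : ∀ᶠ t in 𝓝 (0 : 𝕜), ℓ t ∈ V := by
        apply hℓc.continuousAt
        have h6 : ℓ 0 = a := by simp [hℓ]
        rw [h6]
        exact hVo.mem_nhds haV
      have h7 : ∀ᶠ t in 𝓝[≠] (0 : 𝕜), Ker (P (ℓ t)) N :=
        (h5.filter_mono nhdsWithin_le_nhds).mono fun t ht => hVs _ ht
      exact h7.frequently
    have h8 := ker_of_accum (𝕜 := 𝕜) hTc.isPreconnected hQ (fun t ht => h _ (hTU t ht)) h0T hfr 1
      h1T
    have h9 : ℓ 1 = z := by simp [hℓ]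
    rw [h9] at h8
    exact h8
  exact fun s hs => hVs s (hsub hs)

/-- If `{s | Ker (P s) N}` misses a point of the preconnected set `U`, it is countable in `U`
(one parameter). -/
theorem ker_countable [CompleteSpace E] [CompleteSpace F] {P : 𝕜 → E →L[ℂ] F} {U : Set 𝕜} (hU : IsPreconnected U)
    (hP : AnalyticOnNhd 𝕜 P U) (h : ∀ s ∈ U, LP (P s)) {N : ℕ} {s₁ : 𝕜} (hs₁ : s₁ ∈ U)
    (hn : ¬ Ker (P s₁) N) : {s ∈ U | Ker (P s) N}.Countable := by
  have h1 : ∀ s ∈ {s ∈ U | Ker (P s) N}, ∃ O ∈ 𝓝 s, O ∩ {s ∈ U | Ker (P s) N} ⊆ {s} := by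
    rintro s ⟨hs, hsK⟩
    have h2 : ¬ ∃ᶠ z in 𝓝[≠] s, Ker (P z) N := fun hfr =>
      hn (ker_of_accum hU hP h hs hfr s₁ hs₁)
    rw [not_frequently] at h2
    have h3 := eventually_nhdsWithin_iff.1 h2
    refine ⟨{z | z ∈ ({s}ᶜ : Set 𝕜) → ¬ Ker (P z) N}, h3, ?_⟩
    rintro z ⟨hz, hzU, hzK⟩
    by_contra hne
    exact hz hne hzK
  choose! O hO hOs using h1
  obtain ⟨t, hts, htc, hcov⟩ := TopologicalSpace.countable_cover_nhdsWithin
    (s := {s ∈ U | Ker (P s) N}) (f := O) fun s hs => mem_nhdsWithin_of_mem_nhds (hO s hs)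
  refine htc.mono fun s hs => ?_
  obtain ⟨x, hx, hsx⟩ := mem_iUnion₂.1 (hcov hs)
  have := hOs x (hts hx) ⟨hsx, hs⟩
  rw [mem_singleton_iff] at this
  exact this ▸ hx

end Glob

end Crest.Agent.R281.Semi_450
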