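import Crest.Agent.R281.Al3_830
import Crest.Agent.R281.Fuj8_207
import Crest.Agent.R281.Ti8_846
import Crest.Agent.R281.HkM5_835
import Crest.Agent.R281.Nef3_252

/-!
# R281 (S0424), SIG-MEM (helper474), part 1: algebra

* `quad_eq`, `line_eq` : comparison of quadratic forms along a line
* `FL h`     : `Cmp.F` as a linear map
* `sig_back` : transport of `FujSig_358.Sig` along a linear map which is an isomorphism modulo
               exact forms
-/

set_option autoImplicit false
set_option linter.unusedSectionVars false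
set_option maxSynthPendingDepth 3

open Set Filter Topology Function MeasureTheory Complex
open scoped ContDiff Matrix ComplexConjugate ComplexOrder

namespace Crest.Agent.R281.SkM_474

open Crest.Agent.R281.FujP_513 (Symm mixv)
open Crest.Agent.R281.FujSig_358

noncomputable section

/-! ### quadratic forms along a line -/

theorem quad_eq {a b c a' b' c' : ℝ}
    (h : ∀ᶠ t in 𝓝 (0 : ℝ), a + t * b + t ^ 2 * c = a' + t * b' + t ^ 2 * c') :
    a = a' ∧ b = b' ∧ c = c' := by
  rw [Metric.eventually_nhds_iff] at h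
  obtain ⟨ε, hε, h⟩ := h
  have h0 := h (y := 0) (by simpa using hε)
  have h1 := h (y := ε / 2) (by rw [dist_zero_right, Real.norm_eq_abs, abs_of_pos] <;> linarith)
  have h2 := h (y := -(ε / 2)) (by
    rw [dist_zero_right, Real.norm_eq_abs, abs_neg, abs_of_pos] <;> linarith)
  have ha : a = a' := by simpa using h0
  subst ha
  have hb : b = b' := by
    have h3 : ε * (b - b') = 0 := by nlinarith
    rcases mul_eq_zero.1 h3 with h4 | h4 <;> linarith
  subst hb
  refine ⟨rfl, rfl, ?_⟩
  have h3 : (ε / 2) ^ 2 * (c - c') = 0 := by nlinarith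
  have h4 : (ε / 2) ^ 2 ≠ 0 := by positivity
  rcases mul_eq_zero.1 h3 with h5 | h5
  · exact absurd h5 h4
  · linarith

section line

variable {H H' : Type*} [AddCommGroup H] [Module ℝ H] [AddCommGroup H'] [Module ℝ H']

theorem ev_pos_line (q : QuadraticForm ℝ H) {x : H} (y : H) (hx : 0 < q x) :
    ∀ᶠ t : ℝ in 𝓝 0, 0 < q (x + t • y) := by
  have h1 : Continuous fun t : ℝ => q (x + t • y) := by
    simp only [q_line]
    fun_prop
  have h2 := h1.tendsto 0
  rw [zero_smul, add_zero] at h2
  exact h2.eventually (lt_mem_nhds hx)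

theorem line_eq (q : QuadraticForm ℝ H) (q' : QuadraticForm ℝ H') {x y : H} {x' y' : H'} {n : ℕ}
    (hn : 0 < n) (hx : 0 < q x) (hx' : 0 < q' x')
    (h : ∀ t : ℝ, q (x + t • y) ^ n = q' (x' + t • y') ^ n) :
    q x = q' x' ∧ QuadraticMap.polar q x y = QuadraticMap.polar q' x' y' ∧ q y = q' y' := by
  refine quad_eq ?_
  filter_upwards [ev_pos_line q y hx, ev_pos_line q' y' hx'] with t h1 h2
  have h3 := (pow_left_inj₀ h1.le h2.le hn.ne').1 (h t)
  rwa [q_line, q_line] at h3

end line

/-! ### transport of the signature package -/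

section back

variable {H H' : Type*} [AddCommGroup H] [Module ℝ H] [AddCommGroup H'] [Module ℝ H'] {n : ℕ}
  {T : MultilinearMap ℝ (fun _ : Fin (n + n) => H) ℝ} {q : QuadraticForm ℝ H}
  {Ex E11 : Submodule ℝ H} {r s K : H}
  {T' : MultilinearMap ℝ (fun _ : Fin (n + n) => H') ℝ} {q' : QuadraticForm ℝ H'}
  {Ex' E11' : Submodule ℝ H'} {r' s' K' : H'}

theorem polar_eq (q : QuadraticForm ℝ H) (x y : H) :
    QuadraticMap.polar q x y = q (x + y) - q x - q y := rfl

/-- `q` does not see exact forms -/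
theorem sq_congr (h : Sig T q Ex E11 r s K) {x y : H} (he : x - y ∈ Ex) : q x = q y := by
  have h1 : x = y + (x - y) := by abel
  rw [h1, Sig.q_add, h.ex y _ he, h.qex _ he]
  ring

theorem spolar_congr (h : Sig T q Ex E11 r s K) {x y z w : H} (he : x - y ∈ Ex)
    (he' : z - w ∈ Ex) : QuadraticMap.polar q x z = QuadraticMap.polar q y w := by
  rw [polar_eq, polar_eq, sq_congr h he, sq_congr h he']
  congr 2
  refine sq_congr h ?_
  have : x + z - (y + w) = (x - y) + (z - w) := by abel
  rw [this]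
  exact Ex.add_mem he he'

theorem mixv_map (F : H → H') (a : ℕ) (x y : H) :
    (fun k => F (mixv (n + n) a x y k)) = mixv (n + n) a (F x) (F y) := by
  funext k
  unfold mixv
  split_ifs <;> rfl

theorem sig_back (F : H →ₗ[ℝ] H') (hT : ∀ v : Fin (n + n) → H, T' (fun k => F (v k)) = T v)
    (hq : ∀ x, q' (F x) = q x) (hEx : ∀ x, F x ∈ Ex' ↔ x ∈ Ex) (hE : ∀ x, F x ∈ E11' ↔ x ∈ E11)
    (hsur : ∀ y', ∃ y, F y - y' ∈ Ex' ⊓ E11') (hr : F r - r' ∈ Ex') (hs : F s - s' ∈ Ex')
    (hK : F K - K' ∈ Ex' ⊓ E11') (h : Sig T' q' Ex' E11' r' s' K') :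
    Sig T q Ex E11 r s K := by
  have hpol : ∀ x y, QuadraticMap.polar q x y = QuadraticMap.polar q' (F x) (F y) := by
    intro x y
    rw [polar_eq, polar_eq, hq, hq, ← map_add, hq]
  have hsym : Symm T := by
    intro σ v
    rw [← hT, ← hT v]
    exact h.symm σ fun k => F (v k)
  have hfuj : ∀ x, T (fun _ => x) = q x ^ n := by
    intro x
    rw [← hT, ← hq]
    exact h.fuj (F x)
  have hKE : F K ∈ E11' := by
    have := E11'.add_mem hK.2 h.K11
    rwa [sub_add_cancel] at this
  have hK0 : 0 < q K := by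
    rw [← hq, sq_congr h hK.1]
    exact h.qK
  refine ⟨h.pos, hsym, hfuj, ?_, ?_, ?_, ?_, ?_, ?_, ?_, ?_, ?_, hK0, ?_⟩
  · intro x e he
    rw [hpol]
    exact h.ex _ _ ((hEx e).2 he)
  · intro e he
    rw [← hq]
    exact h.qex _ ((hEx e).2 he)
  · intro x
    obtain ⟨a, b, y', hy', e', he', hx⟩ := h.dec (F x)
    obtain ⟨y, hy⟩ := hsur y'
    refine ⟨a, b, y, ?_, x - a • r - b • s - y, ?_, by abel⟩
    · rw [← hE]
      have := E11'.add_mem hy.2 hy'
      rwa [sub_add_cancel] at this
    · rw [← hEx]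
      have e1 : F (x - a • r - b • s - y) =
          -(a • (F r - r')) - b • (F s - s') - (F y - y') + e' := by
        simp only [map_sub, map_smul, hx, smul_sub]
        abel
      rw [e1]
      exact Ex'.add_mem (Ex'.sub_mem (Ex'.sub_mem (Ex'.neg_mem (Ex'.smul_mem _ hr))
        (Ex'.smul_mem _ hs)) hy.1) he'
  · rw [← hq, sq_congr h hr]
    exact h.qr
  · rw [← hq, ← hq, sq_congr h hr, sq_congr h hs]
    exact h.qs
  · rw [hpol, spolar_congr h hr hs]
    exact h.rs
  · intro y hy
    rw [hpol, spolar_congr h hr (z := F y) (w := F y) (by rw [sub_self]; exact Ex'.zero_mem)]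
    exact h.r11 _ ((hE y).2 hy)
  · intro y hy
    rw [hpol, spolar_congr h hs (z := F y) (w := F y) (by rw [sub_self]; exact Ex'.zero_mem)]
    exact h.s11 _ ((hE y).2 hy)
  · rw [← hE]
    exact hKE
  · intro y hy h1
    have hn := h.pos
    have hKy : QuadraticMap.polar q' K' (F y) = QuadraticMap.polar q K y := by
      rw [hpol]
      exact (spolar_congr h hK.1 (by rw [sub_self]; exact Ex'.zero_mem)).symm
    have hKq : q' K' = q K := by rw [← hq, sq_congr h hK.1]
    have e1 : T' (mixv (n + n) 1 K' (F y)) = T (mixv (n + n) 1 K y) := by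
      have a1 := first_polar' hn h.symm h.fuj K' (F y)
      have a2 := first_polar' hn hsym hfuj K y
      rw [hKy, hKq] at a1
      linarith
    have e2 : T' (mixv (n + n) 2 K' (F y)) = T (mixv (n + n) 2 K y) := by
      have a1 := second_polar hn h.symm h.fuj K' (F y)
      have a2 := second_polar hn hsym hfuj K y
      rw [hKy, hKq, hq] at a1
      rw [← a2] at a1
      have h3 : (2 * (2 * (n : ℝ) - 1)) ≠ 0 := by
        have : (1 : ℝ) ≤ n := by exact_mod_cast hn
        have : 0 < 2 * (2 * (n : ℝ) - 1) := by linarith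
        exact this.ne'
      exact mul_left_cancel₀ h3 a1
    have h2 := h.hodge (F y) ((hE y).2 hy) (by rw [e1]; exact h1)
    rw [e2] at h2
    exact ⟨h2.1, fun h3 => (hEx y).1 (h2.2 h3)⟩

end back

/-! ### `Cmp.F` as a linear map -/

section FL

open Crest.Agent.R281.HkR_835 Crest.Agent.R281.HkR_835.Cmp

variable {X V V' : Type} [TopologicalSpace X] [NormedAddCommGroup V] [NormedSpace ℝ V]
  [NormedAddCommGroup V'] [NormedSpace ℝ V'] {C : RCh V X} {C' : RCh V' X}

/-- `Cmp.F` as a linear map -/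
def FL (h : Cmp C C') : F2 C →ₗ[ℝ] F2 C' where
  toFun := h.F
  map_add' a b := by
    refine F2.ext ?_
    funext j z
    ext u v
    rfl
  map_smul' c a := by
    refine F2.ext ?_
    funext j z
    ext u v
    rfl

@[simp] theorem FL_apply (h : Cmp C C') (w : F2 C) : FL h w = h.F w := rfl

end FL

end

end Crest.Agent.R281.SkM_474
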