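import Mathlib

/-!
# R281 / Sl1 (helper957): spreading out along a line, the algebra

`exists_model`: finitely many elements `c` of a field `Ω` over a field `k₀` of characteristic zero are
rational functions of algebraically independent elements `z` and one element `b`, integral over
`k₀[z]`, with denominators depending on `z` only.
-/

set_option autoImplicit false
set_option linter.style.haveILetI false

namespace Crest.Agent.R281.Sl_957

open Polynomial

/-- a common denominator -/
theorem exists_denom {B K : Type*} [CommRing B] [IsDomain B] [Field K] [Algebra B K]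
    [IsFractionRing B K] (q : K[X]) :
    ∃ d : B, d ≠ 0 ∧ ∃ p : B[X], p.map (algebraMap B K) = C (algebraMap B K d) * q := by
  obtain ⟨d, hd, h⟩ := IsLocalization.integerNormalization_spec (nonZeroDivisors B) q
  refine ⟨d, nonZeroDivisors.ne_zero hd, _, h.trans ?_⟩
  rw [← algebraMap_smul K d q, smul_eq_C_mul]

/-- a common denominator for a finite family -/
theorem exists_denoms {B K : Type*} [CommRing B] [IsDomain B] [Field K] [Algebra B K]
    [IsFractionRing B K] {R : Type*} [Finite R] (q : R → K[X]) :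
    ∃ d : B, d ≠ 0 ∧ ∃ p : R → B[X], ∀ i, (p i).map (algebraMap B K) =
      C (algebraMap B K d) * q i := by
  classical
  haveI := Fintype.ofFinite R
  choose d hd p hp using fun i => exists_denom (B := B) (q i)
  refine ⟨∏ i, d i, Finset.prod_ne_zero_iff.2 fun i _ => hd i,
    fun i => C (∏ j ∈ Finset.univ.erase i, d j) * p i, fun i => ?_⟩
  rw [Polynomial.map_mul, map_C, hp, ← mul_assoc, ← C_mul, ← map_mul,
    Finset.prod_erase_mul _ _ (Finset.mem_univ i)]

/-- evaluation at `z` -/
noncomputable def ez {k₀ Ω : Type*} [Field k₀] [Field Ω] [Algebra k₀ Ω] {m : ℕ} (z : Fin m → Ω) :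
    MvPolynomial (Fin m) k₀ →+* Ω :=
  ((MvPolynomial.aeval z : MvPolynomial (Fin m) k₀ →ₐ[k₀] Ω) : MvPolynomial (Fin m) k₀ →+* Ω)

theorem ez_apply {k₀ Ω : Type*} [Field k₀] [Field Ω] [Algebra k₀ Ω] {m : ℕ} (z : Fin m → Ω)
    (p : MvPolynomial (Fin m) k₀) : ez z p = MvPolynomial.aeval z p := rfl

theorem exists_model {k₀ Ω : Type*} [Field k₀] [CharZero k₀] [Field Ω] [Algebra k₀ Ω]
    {R : Type*} [Finite R] (c : R → Ω) :
    ∃ (m : ℕ) (z : Fin m → Ω) (b : Ω) (F : (MvPolynomial (Fin m) k₀)[X])
      (D : MvPolynomial (Fin m) k₀) (P : R → (MvPolynomial (Fin m) k₀)[X])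
      (U V : (MvPolynomial (Fin m) k₀)[X]),
      AlgebraicIndependent k₀ z ∧ F.Monic ∧ D ≠ 0 ∧
      (∀ p : (MvPolynomial (Fin m) k₀)[X],
        p.eval₂ (ez z) b = 0 → F ∣ p) ∧
      F.eval₂ (ez z) b = 0 ∧
      (∀ i, ez z D * c i = (P i).eval₂ (ez z) b) ∧
      U * F + V * derivative F = C D := by
  classical
  let A := Algebra.adjoin k₀ (Set.range c)
  have hfg : A.FG := Subalgebra.fg_adjoin_finset (Set.finite_range c).toFinset |> fun h => by
    rwa [Set.Finite.coe_toFinset] at h
  haveI : Algebra.FiniteType k₀ A := A.fg_iff_finiteType.1 hfg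
  obtain ⟨m, g, hg, hint⟩ := exists_integral_inj_algHom_of_fg k₀ A
  let B := MvPolynomial (Fin m) k₀
  let z : Fin m → Ω := fun j => (g (MvPolynomial.X j) : Ω)
  have hz : (MvPolynomial.aeval z : B →ₐ[k₀] Ω) = A.val.comp g := by
    refine MvPolynomial.algHom_ext fun j => ?_
    rw [MvPolynomial.aeval_X]
    rfl
  have hzinj : Function.Injective (MvPolynomial.aeval z : B →ₐ[k₀] Ω) := by
    rw [hz]
    exact Subtype.val_injective.comp hg
  letI a1 : Algebra B Ω := (MvPolynomial.aeval z : B →ₐ[k₀] Ω).toRingHom.toAlgebra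
  have ha1 : ∀ x : B, algebraMap B Ω x = MvPolynomial.aeval z x := fun _ => rfl
  haveI : FaithfulSMul B Ω := (faithfulSMul_iff_algebraMap_injective B Ω).2 hzinj
  haveI : Module.IsTorsionFree B Ω := inferInstance
  let K := FractionRing B
  letI a2 : Algebra K Ω := FractionRing.liftAlgebra B Ω
  haveI : IsScalarTower B K Ω := FractionRing.isScalarTower_liftAlgebra B Ω
  haveI : CharZero K := charZero_of_injective_algebraMap (R := B)
    (IsFractionRing.injective B K)
  have hci : ∀ i, IsIntegral B (c i) := fun i => by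
    have h1 : g.toRingHom.IsIntegralElem (⟨c i, Algebra.subset_adjoin ⟨i, rfl⟩⟩ : A) := hint _
    obtain ⟨p, hp, hp0⟩ := h1
    refine ⟨p, hp, ?_⟩
    have h2 := congrArg A.val hp0
    rw [map_zero] at h2
    rw [← h2]
    change eval₂ (algebraMap B Ω) (c i) p = (A.val : A →+* Ω) _
    rw [Polynomial.hom_eval₂]
    have h3 : algebraMap B Ω = (A.val : A →+* Ω).comp (g : B →+* A) := by
      ext x
      · change MvPolynomial.aeval z (MvPolynomial.C x) = A.val (g (MvPolynomial.C x))
        rw [hz]; rfl
      · change MvPolynomial.aeval z (MvPolynomial.X x) = A.val (g (MvPolynomial.X x))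
        rw [hz]; rfl
    rw [h3]
    rfl
  have hcK : ∀ x ∈ Set.range c, IsIntegral K x := by
    rintro _ ⟨i, rfl⟩
    exact (hci i).tower_top
  haveI : Finite (Set.range c) := (Set.finite_range c).to_subtype
  let L := IntermediateField.adjoin K (Set.range c)
  haveI : FiniteDimensional K L := IntermediateField.finiteDimensional_adjoin hcK
  let pb := Field.powerBasisOfFiniteOfSeparable K L
  have hb₀ : IsIntegral K (pb.gen : L) := Algebra.IsIntegral.isIntegral _
  have hb₀' : IsIntegral K ((pb.gen : L) : Ω) := hb₀.map L.val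
  obtain ⟨⟨y, hy⟩, hyb⟩ := IsIntegral.exists_multiple_integral_of_isLocalization
    (nonZeroDivisors B) ((pb.gen : L) : Ω) hb₀'
  have hy0 : y ≠ 0 := nonZeroDivisors.ne_zero hy
  set b : Ω := algebraMap B Ω y * ((pb.gen : L) : Ω) with hb
  have hbint : IsIntegral B b := by
    have : ((⟨y, hy⟩ : nonZeroDivisors B) • ((pb.gen : L) : Ω)) = b := by
      rw [Submonoid.mk_smul, Algebra.smul_def]
    rwa [this] at hyb
  have hyΩ : algebraMap B Ω y ≠ 0 := (map_ne_zero_iff _ hzinj).2 hy0
  have hc : ∀ i, ∃ q : K[X], c i = aeval b q := fun i => by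
    obtain ⟨q, hq⟩ := pb.exists_eq_aeval' ⟨c i, IntermediateField.subset_adjoin K _ ⟨i, rfl⟩⟩
    have h1 := congrArg L.val hq
    rw [← Polynomial.aeval_algHom_apply] at h1
    refine ⟨q.comp (C (algebraMap B K y)⁻¹ * X), ?_⟩
    rw [aeval_comp, map_mul, aeval_C, aeval_X, map_inv₀, ← IsScalarTower.algebraMap_apply B K Ω, hb,
      inv_mul_cancel_left₀ hyΩ]
    exact h1
  choose q hq using hc
  -- minimal polynomial
  let F : B[X] := minpoly B b
  have hF : F.Monic := minpoly.monic hbint
  have hFK : minpoly K b = F.map (algebraMap B K) :=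
    minpoly.isIntegrallyClosed_eq_field_fractions' K hbint
  have hsep : (F.map (algebraMap B K)).Separable := by
    rw [← hFK]
    exact (minpoly.irreducible (hbint.tower_top (A := K))).separable
  obtain ⟨U₀, V₀, hUV⟩ := hsep
  obtain ⟨d₁, hd₁, P₁, hP₁⟩ := exists_denoms (B := B) q
  obtain ⟨d₂, hd₂, P₂, hP₂⟩ := exists_denoms (B := B) (fun i : Bool => cond i U₀ V₀)
  have hU := hP₂ true
  have hV := hP₂ false
  simp only [cond_true, cond_false] at hU hV
  have hmapinj : Function.Injective (Polynomial.map (algebraMap B K)) :=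
    Polynomial.map_injective _ (IsFractionRing.injective B K)
  have hev : ∀ p : B[X], p.eval₂ (ez z) b =
      aeval b (p.map (algebraMap B K)) := fun p => by
    rw [aeval_map_algebraMap]
    rfl
  refine ⟨m, z, b, F, d₁ * d₂, fun i => C d₂ * P₁ i, C d₁ * P₂ true, C d₁ * P₂ false, hzinj, hF,
    mul_ne_zero hd₁ hd₂, fun p hp => ?_, ?_, fun i => ?_, ?_⟩
  · refine minpoly.isIntegrallyClosed_dvd hbint ?_
    exact hp
  · exact minpoly.aeval B b
  · have h5 : aeval b (C (algebraMap B K d₂ * algebraMap B K d₁) * q i) =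
        ez z d₂ * ez z d₁ * c i := by
      rw [map_mul, aeval_C, map_mul, ← IsScalarTower.algebraMap_apply B K Ω,
        ← IsScalarTower.algebraMap_apply B K Ω, ← hq]
      rfl
    rw [hev, Polynomial.map_mul, hP₁, map_C, ← mul_assoc, ← C_mul, h5, map_mul,
      mul_comm (ez z d₁)]
  · apply hmapinj
    rw [Polynomial.map_add, Polynomial.map_mul, Polynomial.map_mul, Polynomial.map_mul,
      Polynomial.map_mul, hU, hV, map_C, map_C, ← Polynomial.derivative_map, map_mul, C_mul]
    have : C (algebraMap B K d₁) * C (algebraMap B K d₂) =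
        C (algebraMap B K d₁) * C (algebraMap B K d₂) *
          (U₀ * F.map (algebraMap B K) + V₀ * derivative (F.map (algebraMap B K))) := by
      rw [hUV, mul_one]
    rw [this]
    ring

end Crest.Agent.R281.Sl_957
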