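import Crest.Agent.R281.Sl1_957

/-!
# R281 / Sl2 (helper957): **the line lemma** (spreading out of a coefficient vector)

`k₀` algebraically closed of characteristic zero (`ℚbar`), `K` a field over `k₀` (`ℂ`), `c` a finite
family of elements of `K`, `r` a polynomial over `k₀` with `r(c) ≠ 0`. There is a finite covering
`f(u, w) = 0` of the line minus `δ = 0` and rational functions `pt u w i = P i (u, w) / δ u` on it:
`pt 1 w₁ = c`, `pt 0 w` has entries in `k₀`, all `pt u w` are specialisations of `c` over `k₀` with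
`r ≠ 0`.
-/

set_option autoImplicit false
set_option linter.style.haveILetI false

namespace Crest.Agent.R281.Sl_957

open Polynomial

section homog

variable {k₀ K : Type*} [Field k₀] [Field K] [Algebra k₀ K] {m : ℕ} {R : Type*}

/-- homogenisation of a polynomial relation between fractions `P i / D` -/
theorem exists_homog (D : MvPolynomial (Fin m) k₀) (P : R → (MvPolynomial (Fin m) k₀)[X])
    (G : MvPolynomial R k₀) :
    ∃ (N : ℕ) (G' : (MvPolynomial (Fin m) k₀)[X]), ∀ φ : (MvPolynomial (Fin m) k₀)[X] →+* K,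
      (∀ a : k₀, φ (C (MvPolynomial.C a)) = algebraMap k₀ K a) → φ (C D) ≠ 0 →
      φ G' = φ (C D) ^ N * MvPolynomial.aeval (fun i => φ (P i) / φ (C D)) G := by
  induction G using MvPolynomial.induction_on with
  | C a =>
    refine ⟨0, C (MvPolynomial.C a), fun φ h1 _ => ?_⟩
    rw [h1, pow_zero, one_mul, MvPolynomial.aeval_C]
  | add p q hp hq =>
    obtain ⟨N₁, G₁, h₁⟩ := hp
    obtain ⟨N₂, G₂, h₂⟩ := hq
    refine ⟨N₁ + N₂, G₁ * C D ^ N₂ + G₂ * C D ^ N₁, fun φ h h0 => ?_⟩
    rw [map_add, map_mul, map_mul, map_pow, map_pow, h₁ φ h h0, h₂ φ h h0, map_add]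
    ring
  | mul_X p i hp =>
    obtain ⟨N₁, G₁, h₁⟩ := hp
    refine ⟨N₁ + 1, G₁ * P i, fun φ h h0 => ?_⟩
    rw [map_mul, h₁ φ h h0, map_mul, MvPolynomial.aeval_X, pow_succ]
    field_simp

end homog

section line

variable (k₀ : Type*) {K : Type*} [Field k₀] [Field K] [Algebra k₀ K] {R : Type*}

/-- spreading out of the coefficient vector `c` over the covering `f = 0` of a line -/
structure Line (c : R → K) (r : MvPolynomial R k₀) where
  /-- equation of the covering -/
  f : K[X][X]
  /-- discriminant and denominator -/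
  δ : K[X]
  /-- numerators of the coordinates -/
  P : R → K[X][X]
  /-- the point over `u = 1` -/
  w₁ : K
  monic : f.Monic
  δ_zero : δ.eval 0 ≠ 0
  δ_one : δ.eval 1 ≠ 0
  sep : ∀ u, δ.eval u ≠ 0 → (f.map (evalRingHom u)).Separable
  root : evalEval 1 w₁ f = 0
  eq : ∀ i, evalEval 1 w₁ (P i) / δ.eval 1 = c i
  alg : ∀ w, evalEval 0 w f = 0 → ∀ i, ∃ a : k₀, algebraMap k₀ K a = evalEval 0 w (P i) / δ.eval 0
  spec : ∀ u w, evalEval u w f = 0 → δ.eval u ≠ 0 → ∀ G : MvPolynomial R k₀,
    MvPolynomial.aeval c G = 0 → MvPolynomial.aeval (fun i => evalEval u w (P i) / δ.eval u) G = 0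
  ne : ∀ u w, evalEval u w f = 0 → δ.eval u ≠ 0 →
    MvPolynomial.aeval (fun i => evalEval u w (P i) / δ.eval u) r ≠ 0

variable {k₀}

/-- coordinates of the point over `(u, w)` -/
noncomputable def Line.pt {c : R → K} {r : MvPolynomial R k₀} (L : Line k₀ c r) (u w : K) (i : R) :
    K := evalEval u w (L.P i) / L.δ.eval u

/-- the line through `z'` (at `0`) and `z` (at `1`) -/
noncomputable def lam {m : ℕ} (z' : Fin m → k₀) (z : Fin m → K) :
    MvPolynomial (Fin m) k₀ →ₐ[k₀] K[X] :=
  MvPolynomial.aeval fun j => C (algebraMap k₀ K (z' j)) + X * C (z j - algebraMap k₀ K (z' j))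

theorem eval_lam {m : ℕ} (z' : Fin m → k₀) (z : Fin m → K) (u : K) (p : MvPolynomial (Fin m) k₀) :
    (lam z' z p).eval u =
      ez (fun j => algebraMap k₀ K (z' j) + u * (z j - algebraMap k₀ K (z' j))) p := by
  have h : ((Polynomial.aeval u : K[X] →ₐ[K] K).restrictScalars k₀).comp (lam z' z) =
      MvPolynomial.aeval (fun j => algebraMap k₀ K (z' j) + u * (z j - algebraMap k₀ K (z' j))) := by
    refine MvPolynomial.algHom_ext fun j => ?_
    rw [MvPolynomial.aeval_X, AlgHom.comp_apply, lam, MvPolynomial.aeval_X]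
    change Polynomial.aeval u _ = _
    rw [map_add, map_mul, aeval_C, aeval_X, aeval_C]
    rfl
  have h1 := congrArg (fun g => g p) h
  rw [ez_apply, ← h1, ← Polynomial.coe_aeval_eq_eval]
  rfl

theorem evalEval_lam {m : ℕ} (z' : Fin m → k₀) (z : Fin m → K) (u w : K)
    (p : (MvPolynomial (Fin m) k₀)[X]) :
    evalEval u w (p.map (lam z' z : MvPolynomial (Fin m) k₀ →+* K[X])) =
      p.eval₂ (ez (fun j => algebraMap k₀ K (z' j) + u * (z j - algebraMap k₀ K (z' j)))) w := by
  induction p using Polynomial.induction_on' with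
  | add p q hp hq => rw [Polynomial.map_add, evalEval_add, hp, hq, eval₂_add]
  | monomial n a =>
    rw [map_monomial, eval₂_monomial, ← C_mul_X_pow_eq_monomial, evalEval_mul, evalEval_C,
      evalEval_pow, evalEval_X]
    congr 1
    exact eval_lam z' z u a

theorem exists_line [IsAlgClosed k₀] [CharZero k₀] [Finite R] (c : R → K)
    (r : MvPolynomial R k₀) (hr : MvPolynomial.aeval c r ≠ 0) : Nonempty (Line k₀ c r) := by
  classical
  obtain ⟨m, z, b, F, D, P, U, V, hz, hF, hD, hmin, hFb, hP, hUV⟩ :=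
    exists_model (k₀ := k₀) (fun i : Option R => i.elim (MvPolynomial.aeval c r)⁻¹ c)
  haveI : Infinite k₀ := IsAlgClosed.instInfinite
  obtain ⟨z', hz'⟩ : ∃ z' : Fin m → k₀, MvPolynomial.eval z' D ≠ 0 := by
    by_contra hcon
    push Not at hcon
    exact hD (MvPolynomial.funext fun x => by rw [hcon, map_zero])
  have hzD : ez z D ≠ 0 := fun h => hD (hz (by rw [map_zero]; exact h))
  let ev : K → K → (MvPolynomial (Fin m) k₀)[X] →+* K := fun u w =>
    eval₂RingHom (ez (fun j => algebraMap k₀ K (z' j) + u * (z j - algebraMap k₀ K (z' j)))) w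
  have hev : ∀ u w p, evalEval u w (p.map (lam z' z : MvPolynomial (Fin m) k₀ →+* K[X])) =
      ev u w p := fun u w p => evalEval_lam z' z u w p
  have hevC : ∀ u w a, ev u w (C a) = (lam z' z a).eval u := fun u w a => by
    rw [eval_lam]
    exact eval₂_C _ _
  have hev1 : ∀ w, ev 1 w = eval₂RingHom (ez z) w := fun w => by
    have : (fun j => algebraMap k₀ K (z' j) + 1 * (z j - algebraMap k₀ K (z' j))) = z := by
      funext j
      ring
    simp only [ev, this]
  have hev0 : ∀ w p, ev 0 w p = (p.map (MvPolynomial.eval z')).eval₂ (algebraMap k₀ K) w := by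
    intro w p
    change p.eval₂ _ w = _
    rw [eval₂_map]
    congr 1
    refine MvPolynomial.ringHom_ext (fun a => ?_) fun j => ?_
    · rw [ez_apply, MvPolynomial.aeval_C, RingHom.comp_apply, MvPolynomial.eval_C]
    · rw [ez_apply, MvPolynomial.aeval_X, RingHom.comp_apply, MvPolynomial.eval_X, zero_mul,
        add_zero]
  have hD0 : (lam z' z D).eval 0 = algebraMap k₀ K (MvPolynomial.eval z' D) := by
    have h1 := hev0 0 (C D)
    rw [hevC, map_C, eval₂_C] at h1
    exact h1
  have hD1 : (lam z' z D).eval 1 = ez z D := by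
    have h1 := hevC 1 0 D
    rw [hev1] at h1
    rw [← h1]
    exact eval₂_C _ _
  -- specialisation
  have hspec : ∀ u w, ev u w F = 0 → (lam z' z D).eval u ≠ 0 → ∀ G : MvPolynomial (Option R) k₀,
      MvPolynomial.aeval (fun i : Option R => i.elim (MvPolynomial.aeval c r)⁻¹ c) G = 0 →
      MvPolynomial.aeval (fun i => ev u w (P i) / (lam z' z D).eval u) G = 0 := by
    intro u w h0 hδ G hG
    obtain ⟨N, G', hG'⟩ := exists_homog (K := K) D P G
    have h1 := hG' (eval₂RingHom (ez z) b) (fun a => by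
      change eval₂ (ez z) b (C (MvPolynomial.C a)) = _
      rw [eval₂_C, ez_apply, MvPolynomial.aeval_C]) (by
      change eval₂ (ez z) b (C D) ≠ 0
      rw [eval₂_C]
      exact hzD)
    have h2 : (fun i : Option R => eval₂RingHom (ez z) b (P i) / eval₂RingHom (ez z) b (C D)) =
        fun i : Option R => i.elim (MvPolynomial.aeval c r)⁻¹ c := by
      funext i
      change eval₂ (ez z) b (P i) / eval₂ (ez z) b (C D) = _
      rw [eval₂_C, ← hP, mul_div_cancel_left₀ _ hzD]
    rw [h2, hG, mul_zero] at h1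
    obtain ⟨q, hq⟩ := hmin G' h1
    have h3 := hG' (ev u w) (fun a => by
      rw [hevC, eval_lam, ez_apply, MvPolynomial.aeval_C]) (by rw [hevC]; exact hδ)
    rw [hq, map_mul, h0, zero_mul, hevC] at h3
    exact (mul_eq_zero.1 h3.symm).resolve_left (pow_ne_zero _ hδ)
  refine ⟨{
    f := F.map (lam z' z : MvPolynomial (Fin m) k₀ →+* K[X])
    δ := lam z' z D
    P := fun i => (P (some i)).map (lam z' z : MvPolynomial (Fin m) k₀ →+* K[X])
    w₁ := b
    monic := hF.map _
    δ_zero := by
      rw [hD0]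
      exact (map_ne_zero_iff _ (algebraMap k₀ K).injective).2 hz'
    δ_one := by rw [hD1]; exact hzD
    sep := fun u hu => ?_
    root := by
      rw [hev, hev1]
      exact hFb
    eq := fun i => by
      rw [hev, hev1, hD1]
      change eval₂ (ez z) b (P (some i)) / _ = _
      rw [← hP, mul_div_cancel_left₀ _ hzD]
      rfl
    alg := fun w hw i => ?_
    spec := fun u w h0 hδ G hG => ?_
    ne := fun u w h0 hδ => ?_ }⟩
  · have h1 := congrArg (Polynomial.map ((evalRingHom u).comp
      (lam z' z : MvPolynomial (Fin m) k₀ →+* K[X]))) hUV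
    rw [Polynomial.map_add, Polynomial.map_mul, Polynomial.map_mul, map_C,
      ← Polynomial.derivative_map] at h1
    rw [Polynomial.map_map]
    refine ⟨C ((lam z' z D).eval u)⁻¹ * U.map ((evalRingHom u).comp
      (lam z' z : MvPolynomial (Fin m) k₀ →+* K[X])), C ((lam z' z D).eval u)⁻¹ *
      V.map ((evalRingHom u).comp (lam z' z : MvPolynomial (Fin m) k₀ →+* K[X])), ?_⟩
    rw [mul_assoc, mul_assoc, ← mul_add, h1, ← C_mul]
    change C (((lam z' z D).eval u)⁻¹ * (lam z' z D).eval u) = 1
    rw [inv_mul_cancel₀ hu, C_1]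
  · rw [hev, hev0] at hw
    have h1 : IsIntegral k₀ w := ⟨F.map (MvPolynomial.eval z'), hF.map _, hw⟩
    obtain ⟨a, rfl⟩ : ∃ a : k₀, algebraMap k₀ K a = w := by
      have h2 := (minpoly.degree_eq_one_iff (A := k₀) (x := w)).1
        (IsAlgClosed.degree_eq_one_of_irreducible k₀ (minpoly.irreducible h1))
      exact h2
    refine ⟨((P (some i)).map (MvPolynomial.eval z')).eval a / MvPolynomial.eval z' D, ?_⟩
    rw [hev, hev0, hD0, map_div₀, eval₂_at_apply]
  · have h1 := hspec u w (by rw [← hev]; exact h0) hδ (MvPolynomial.rename some G) (by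
      rw [MvPolynomial.aeval_rename]
      exact hG)
    rw [MvPolynomial.aeval_rename] at h1
    simp only [hev]
    exact h1
  · have h1 := hspec u w (by rw [← hev]; exact h0) hδ
      (MvPolynomial.rename some r * MvPolynomial.X none - 1) (by
      rw [map_sub, map_mul, MvPolynomial.aeval_rename, MvPolynomial.aeval_X, map_one]
      change MvPolynomial.aeval c r * (MvPolynomial.aeval c r)⁻¹ - 1 = 0
      rw [mul_inv_cancel₀ hr, sub_self])
    rw [map_sub, map_mul, MvPolynomial.aeval_rename, MvPolynomial.aeval_X, map_one] at h1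
    simp only [hev]
    intro h2
    have h3 : MvPolynomial.aeval ((fun i => ev u w (P i) / (lam z' z D).eval u) ∘ some) r = 0 := h2
    rw [h3, zero_mul, zero_sub, neg_eq_zero] at h1
    exact one_ne_zero h1

end line

end Crest.Agent.R281.Sl_957
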