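import Mathlib

/-!
# R281 (S-SUBMV, helper593), part 1: Faber–Krahn inequality from doubling and Poincaré

`Dbl n μ` : `μ (ball x R) ≤ (R/r)ⁿ μ (ball x r)`; no lower bound of the volume (collapsing allowed).

`fk` : `∫_E f² ≤ (μ E / μ B)^(1/n) (2^(n+1) ∫_{2B} f² + 48·8ⁿ P ρ² ∫_{3B} G²)` for `E ⊆ B = ball x0 ρ`
if `∫_B (f - f_B)² ≤ P r² ∫_{2B} G²` on all balls.
-/

set_option autoImplicit false
open MeasureTheory Set Filter Topology Metric
open scoped ENNReal NNReal

noncomputable section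
namespace Crest.Agent.R281.Sm1_593

variable {X : Type*} [MetricSpace X] [MeasurableSpace X] [BorelSpace X]

/-- Bishop–Gromov volume comparison. -/
def Dbl (n : ℕ) (μ : Measure X) : Prop :=
  ∀ (x : X) (r R : ℝ), 0 < r → r ≤ R → μ.real (ball x R) ≤ (R / r) ^ n * μ.real (ball x r)

/-- Poincaré inequality on all balls for the pair `(f, G)`. -/
def Poi (P : ℝ) (μ : Measure X) (f G : X → ℝ) : Prop :=
  ∀ (x : X) (r : ℝ), 0 < r → ∫ y in ball x r, (f y - ⨍ z in ball x r, f z ∂μ) ^ 2 ∂μ ≤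
    P * r ^ 2 * ∫ y in ball x (2 * r), G y ^ 2 ∂μ

section num

/-- Cauchy–Schwarz with geometric weights. -/
lemma geo_cs (m : ℕ → ℝ) (c : ℕ → ℝ) (ρ : ℝ) (hc : ∀ k, 0 ≤ c k)
    (h : ∀ k, (m (k + 1) - m k) ^ 2 ≤ (ρ * (1 / 2) ^ k) ^ 2 * c k) (K : ℕ) :
    (m K - m 0) ^ 2 ≤ 4 * ρ ^ 2 * ∑ k ∈ Finset.range K, (1 / 3 : ℝ) ^ k * c k := by
  have e1 : m K - m 0 = ∑ k ∈ Finset.range K, (m (k + 1) - m k) := by
    rw [Finset.sum_range_sub]
  have h1 : (∑ k ∈ Finset.range K, |m (k + 1) - m k|) ^ 2 ≤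
      (∑ k ∈ Finset.range K, (3 / 4 : ℝ) ^ k) *
        ∑ k ∈ Finset.range K, (4 / 3 : ℝ) ^ k * (m (k + 1) - m k) ^ 2 := by
    apply Finset.sum_sq_le_sum_mul_sum_of_sq_le_mul
    · intro k _; positivity
    · intro k _; positivity
    · intro k _
      rw [sq_abs, ← mul_assoc, ← mul_pow]
      norm_num
  have h2 : ∑ k ∈ Finset.range K, (3 / 4 : ℝ) ^ k ≤ 4 := by
    have := geom_sum_eq (x := (3 / 4 : ℝ)) (by norm_num) K
    rw [this]
    have h3 : 0 ≤ (3 / 4 : ℝ) ^ K := by positivity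
    rw [div_le_iff_of_neg (by norm_num)]
    linarith
  have h3 : ∑ k ∈ Finset.range K, (4 / 3 : ℝ) ^ k * (m (k + 1) - m k) ^ 2 ≤
      ρ ^ 2 * ∑ k ∈ Finset.range K, (1 / 3 : ℝ) ^ k * c k := by
    rw [Finset.mul_sum]
    apply Finset.sum_le_sum
    intro k _
    calc (4 / 3 : ℝ) ^ k * (m (k + 1) - m k) ^ 2 ≤ (4 / 3 : ℝ) ^ k * ((ρ * (1 / 2) ^ k) ^ 2 * c k) := by
          gcongr; exact h k
      _ = ρ ^ 2 * (((4 / 3 : ℝ) * (1 / 2) * (1 / 2)) ^ k * c k) := by
          rw [mul_pow, mul_pow, mul_pow]; ring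
      _ = _ := by norm_num
  have h4 : |m K - m 0| ≤ ∑ k ∈ Finset.range K, |m (k + 1) - m k| := by
    rw [e1]; exact Finset.abs_sum_le_sum_abs _ _
  have h5 : 0 ≤ ∑ k ∈ Finset.range K, (1 / 3 : ℝ) ^ k * c k :=
    Finset.sum_nonneg fun k _ => mul_nonneg (by positivity) (hc k)
  calc (m K - m 0) ^ 2 = |m K - m 0| ^ 2 := (sq_abs _).symm
    _ ≤ (∑ k ∈ Finset.range K, |m (k + 1) - m k|) ^ 2 := by gcongr
    _ ≤ _ := h1
    _ ≤ 4 * (ρ ^ 2 * ∑ k ∈ Finset.range K, (1 / 3 : ℝ) ^ k * c k) := by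
        apply mul_le_mul h2 h3 _ (by norm_num)
        exact Finset.sum_nonneg fun k _ => by positivity
    _ = _ := by ring

/-- `min(1, 2^(n k) t) ≤ 2^k t^(1/n)`. -/
lemma min_le_rpow {n : ℕ} (hn : 1 ≤ n) {a t : ℝ} (ha : 1 ≤ a) (ht : 0 ≤ t) :
    min 1 (a ^ n * t) ≤ a * t ^ (1 / (n : ℝ)) := by
  have hn0 : (0:ℝ) < n := by exact_mod_cast hn
  have h0 : 0 ≤ min 1 (a ^ n * t) := le_min zero_le_one (by positivity)
  have h1 : min 1 (a ^ n * t) ≤ (min 1 (a ^ n * t)) ^ (1 / (n : ℝ)) := by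
    have h2 : min 1 (a ^ n * t) ≤ 1 := min_le_left _ _
    have h3 : 1 / (n : ℝ) ≤ 1 := by
      rw [div_le_one hn0]; exact_mod_cast hn
    calc min 1 (a ^ n * t) = (min 1 (a ^ n * t)) ^ (1 : ℝ) := (Real.rpow_one _).symm
      _ ≤ _ := by
        rcases h0.eq_or_lt with h | h
        · rw [← h, Real.zero_rpow one_ne_zero]
          exact Real.rpow_nonneg le_rfl _
        · exact Real.rpow_le_rpow_of_exponent_ge h h2 h3
  refine h1.trans ?_
  have h4 : (min 1 (a ^ n * t)) ^ (1 / (n : ℝ)) ≤ (a ^ n * t) ^ (1 / (n : ℝ)) :=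
    Real.rpow_le_rpow h0 (min_le_right _ _) (by positivity)
  refine h4.trans (le_of_eq ?_)
  rw [Real.mul_rpow (by positivity) ht, ← Real.rpow_natCast, ← Real.rpow_mul (by linarith)]
  rw [mul_one_div_cancel hn0.ne', Real.rpow_one]

end num

section avg
variable {μ : Measure X}

lemma measurable_mu_ball [SecondCountableTopology X] [SFinite μ] (s : ℝ) :
    Measurable fun x => μ (ball x s) := by
  have hs : MeasurableSet {p : X × X | dist p.2 p.1 < s} :=
    measurableSet_lt (measurable_snd.dist measurable_fst) measurable_const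
  have := measurable_measure_prodMk_left (ν := μ) hs
  exact this

variable [SecondCountableTopology X] [SFinite μ]

lemma measurable_lint {g : X → ℝ≥0∞} (hg : Measurable g) (s : ℝ) :
    Measurable fun x => ∫⁻ y in ball x s, g y ∂μ := by
  have hS : MeasurableSet {p : X × X | dist p.2 p.1 < s} :=
    measurableSet_lt (measurable_snd.dist measurable_fst) measurable_const
  have h3 : Measurable (Function.uncurry fun (x y : X) =>
      {p : X × X | dist p.2 p.1 < s}.indicator (fun p => g p.2) (x, y)) :=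
    (hg.comp measurable_snd).indicator hS
  have h4 := h3.lintegral_prod_right (ν := μ)
  have e : (fun x => ∫⁻ y in ball x s, g y ∂μ) = fun x => ∫⁻ y,
      {p : X × X | dist p.2 p.1 < s}.indicator (fun p => g p.2) (x, y) ∂μ := by
    funext x
    rw [← lintegral_indicator isOpen_ball.measurableSet]
    apply lintegral_congr
    intro y
    by_cases hy : dist y x < s
    · rw [indicator_of_mem (show y ∈ ball x s from hy),
        indicator_of_mem (show (x, y) ∈ {p : X × X | dist p.2 p.1 < s} from hy)]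
    · rw [indicator_of_notMem (show y ∉ ball x s from hy),
        indicator_of_notMem (show (x, y) ∉ {p : X × X | dist p.2 p.1 < s} from hy)]
  rw [e]
  exact h4

/-- Tonelli for the averages of `g` over the balls `ball x (2 s)`, `x ∈ E`. -/
lemma avg_swap {n : ℕ} {x0 : X} {ρ s : ℝ} (hs : 0 < s) (hsρ : s ≤ ρ)
    (hpos : ∀ (x : X) (r : ℝ), 0 < r → 0 < μ.real (ball x r))
    (hD : Dbl n μ) {E : Set X} (hE : MeasurableSet E) (hEB : E ⊆ ball x0 ρ)
    {g : X → ℝ≥0∞} (hg : Measurable g) :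
    ∫⁻ x in E, (μ (ball x s))⁻¹ * ∫⁻ y in ball x (2 * s), g y ∂μ ∂μ ≤
      ENNReal.ofReal (4 ^ n * min 1 ((2 * ρ / s) ^ n * (μ.real E / μ.real (ball x0 ρ)))) *
        ∫⁻ y in ball x0 (3 * ρ), g y ∂μ := by
  have hρ : 0 < ρ := hs.trans_le hsρ
  have hfin : ∀ (x : X) (r : ℝ), 0 < r → μ (ball x r) ≠ ∞ := by
    intro x r hr h
    have := hpos x r hr
    rw [measureReal_def, h, ENNReal.toReal_top] at this
    exact lt_irrefl _ this
  have hne : ∀ (x : X) (r : ℝ), 0 < r → μ (ball x r) ≠ 0 := by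
    intro x r hr h
    have := hpos x r hr
    rw [measureReal_def, h, ENNReal.toReal_zero] at this
    exact lt_irrefl _ this
  have hS : MeasurableSet {p : X × X | dist p.2 p.1 < 2 * s} :=
    measurableSet_lt (measurable_snd.dist measurable_fst) measurable_const
  set F : X → X → ℝ≥0∞ := fun x y =>
    {p : X × X | dist p.2 p.1 < 2 * s}.indicator (fun p => (μ (ball p.1 s))⁻¹ * g p.2) (x, y) with hF
  have hFm : Measurable (Function.uncurry F) := by
    have h1 : Measurable fun p : X × X => (μ (ball p.1 s))⁻¹ * g p.2 :=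
      ((measurable_mu_ball s).comp measurable_fst).inv.mul (hg.comp measurable_snd)
    exact h1.indicator hS
  have h1 : ∀ x, (μ (ball x s))⁻¹ * ∫⁻ y in ball x (2 * s), g y ∂μ = ∫⁻ y, F x y ∂μ := by
    intro x
    rw [← lintegral_const_mul _ hg, ← lintegral_indicator isOpen_ball.measurableSet]
    apply lintegral_congr
    intro y
    simp only [hF]
    by_cases hy : dist y x < 2 * s
    · rw [indicator_of_mem (show y ∈ ball x (2 * s) from hy),
        indicator_of_mem (show (x, y) ∈ {p : X × X | dist p.2 p.1 < 2 * s} from hy)]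
    · rw [indicator_of_notMem (show y ∉ ball x (2 * s) from hy),
        indicator_of_notMem (show (x, y) ∉ {p : X × X | dist p.2 p.1 < 2 * s} from hy)]
  simp_rw [h1]
  rw [lintegral_lintegral_swap hFm.aemeasurable]
  set τ : ℝ := μ.real E / μ.real (ball x0 ρ) with hτ
  have hEfin : μ E ≠ ∞ := ne_top_of_le_ne_top (hfin x0 ρ hρ) (measure_mono hEB)
  have h2 : ∀ y, ∫⁻ x in E, F x y ∂μ ≤ (ball x0 (3 * ρ)).indicator (fun y =>
      ENNReal.ofReal (4 ^ n * min 1 ((2 * ρ / s) ^ n * τ)) * g y) y := by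
    intro y
    by_cases hy : y ∈ ball x0 (3 * ρ)
    · rw [indicator_of_mem hy]
      have hVy := hpos y (2 * s) (by positivity)
      -- pointwise bound
      have h3 : ∀ x ∈ E, F x y ≤ (ball y (2 * s)).indicator (fun _ =>
          ENNReal.ofReal (4 ^ n * (μ.real (ball y (2 * s)))⁻¹) * g y) x := by
        intro x _
        simp only [hF]
        by_cases hxy : dist y x < 2 * s
        · rw [indicator_of_mem (show (x, y) ∈ {p : X × X | dist p.2 p.1 < 2 * s} from hxy),
            indicator_of_mem (show x ∈ ball y (2 * s) from by rw [mem_ball, dist_comm]; exact hxy)]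
          gcongr
          have hVx := hpos x s hs
          have h4 : μ.real (ball y (2 * s)) ≤ 4 ^ n * μ.real (ball x s) := by
            calc μ.real (ball y (2 * s)) ≤ μ.real (ball x (4 * s)) := by
                  refine measureReal_mono ?_ (hfin x _ (by positivity))
                  intro z hz
                  rw [mem_ball] at hz ⊢
                  have := dist_triangle z y x
                  linarith
              _ ≤ (4 * s / s) ^ n * μ.real (ball x s) := hD x s (4 * s) hs (by linarith)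
              _ = _ := by rw [mul_div_assoc, div_self hs.ne', mul_one]
          have e1 : μ (ball x s) = ENNReal.ofReal (μ.real (ball x s)) :=
            (ofReal_measureReal (hfin x s hs)).symm
          show (μ (ball x s))⁻¹ ≤ _
          rw [e1, ← ENNReal.ofReal_inv_of_pos hVx]
          apply ENNReal.ofReal_le_ofReal
          rw [← div_eq_mul_inv, le_div_iff₀ hVy, inv_mul_le_iff₀ hVx]
          linarith
        · rw [indicator_of_notMem (show (x, y) ∉ {p : X × X | dist p.2 p.1 < 2 * s} from hxy)]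
          exact bot_le
      calc ∫⁻ x in E, F x y ∂μ ≤ ∫⁻ x in E, (ball y (2 * s)).indicator (fun _ =>
            ENNReal.ofReal (4 ^ n * (μ.real (ball y (2 * s)))⁻¹) * g y) x ∂μ :=
            setLIntegral_mono' hE h3
        _ = ENNReal.ofReal (4 ^ n * (μ.real (ball y (2 * s)))⁻¹) * g y * μ (E ∩ ball y (2 * s)) := by
            rw [lintegral_indicator isOpen_ball.measurableSet, Measure.restrict_restrict
              isOpen_ball.measurableSet, lintegral_const, Measure.restrict_apply_univ, inter_comm]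
        _ = (ENNReal.ofReal (4 ^ n * (μ.real (ball y (2 * s)))⁻¹) * μ (E ∩ ball y (2 * s))) * g y := by
            ring
        _ ≤ _ := by
            gcongr
            have e2 : μ (E ∩ ball y (2 * s)) = ENNReal.ofReal (μ.real (E ∩ ball y (2 * s))) :=
              (ofReal_measureReal (ne_top_of_le_ne_top hEfin (measure_mono inter_subset_left))).symm
            rw [e2, ← ENNReal.ofReal_mul (by positivity)]
            apply ENNReal.ofReal_le_ofReal
            rw [mul_assoc]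
            gcongr
            rw [inv_mul_le_iff₀ hVy]
            have h5 : μ.real (E ∩ ball y (2 * s)) ≤ μ.real (ball y (2 * s)) :=
              measureReal_mono inter_subset_right (hfin y _ (by positivity))
            have h6 : μ.real (E ∩ ball y (2 * s)) ≤ μ.real E :=
              measureReal_mono inter_subset_left hEfin
            rcases le_total 1 ((2 * ρ / s) ^ n * τ) with h | h
            · rw [min_eq_left h, mul_one]; exact h5
            · rw [min_eq_right h]
              refine h6.trans ?_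
              have hV0 := hpos x0 ρ hρ
              have h7 : μ.real (ball x0 ρ) ≤ (2 * ρ / s) ^ n * μ.real (ball y (2 * s)) := by
                calc μ.real (ball x0 ρ) ≤ μ.real (ball y (4 * ρ)) := by
                      refine measureReal_mono ?_ (hfin y _ (by positivity))
                      intro z hz
                      rw [mem_ball] at hz hy ⊢
                      have := dist_triangle z x0 y
                      rw [dist_comm x0 y] at this
                      linarith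
                  _ ≤ (4 * ρ / (2 * s)) ^ n * μ.real (ball y (2 * s)) :=
                      hD y (2 * s) (4 * ρ) (by positivity) (by linarith)
                  _ = _ := by
                      congr 2
                      field_simp
                      ring
              have h8 : μ.real E = τ * μ.real (ball x0 ρ) := by
                rw [hτ, div_mul_cancel₀ _ hV0.ne']
              have hτ0 : 0 ≤ τ := by positivity
              calc μ.real E = τ * μ.real (ball x0 ρ) := h8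
                _ ≤ τ * ((2 * ρ / s) ^ n * μ.real (ball y (2 * s))) := by gcongr
                _ = _ := by ring
    · rw [indicator_of_notMem hy]
      have h3 : ∀ x ∈ E, F x y = 0 := by
        intro x hx
        simp only [hF]
        apply indicator_of_notMem
        intro h
        apply hy
        have hx' := hEB hx
        rw [mem_ball] at hx' ⊢
        have h' : dist y x < 2 * s := h
        have := dist_triangle y x x0
        linarith
      rw [setLIntegral_congr_fun hE h3]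
      simp
  calc ∫⁻ y, ∫⁻ x in E, F x y ∂μ ∂μ ≤ ∫⁻ y, (ball x0 (3 * ρ)).indicator (fun y =>
      ENNReal.ofReal (4 ^ n * min 1 ((2 * ρ / s) ^ n * τ)) * g y) y ∂μ := lintegral_mono h2
    _ = _ := by
      rw [lintegral_indicator isOpen_ball.measurableSet, lintegral_const_mul _ hg]

end avg

section chain
variable {μ : Measure X} [ProperSpace X] [IsFiniteMeasureOnCompacts μ]

omit [BorelSpace X] in
lemma ball_ne_top (x : X) (r : ℝ) : μ (ball x r) ≠ ∞ := measure_ball_lt_top.ne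

lemma intOn {f : X → ℝ} (hf : Continuous f) (x : X) (r : ℝ) : IntegrableOn f (ball x r) μ :=
  (hf.continuousOn.integrableOn_compact (isCompact_closedBall x r)).mono_set ball_subset_closedBall

/-- `V (mean g)² ≤ ∫ g²`. -/
lemma sq_avg_le {g : X → ℝ} (hg : Continuous g) {x : X} {r : ℝ} (h : 0 < μ.real (ball x r)) :
    μ.real (ball x r) * (⨍ y in ball x r, g y ∂μ) ^ 2 ≤ ∫ y in ball x r, g y ^ 2 ∂μ := by
  set a := ⨍ y in ball x r, g y ∂μ with ha
  set V := μ.real (ball x r) with hV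
  have hI : ∫ y in ball x r, g y ∂μ = V * a := by
    rw [ha, setAverage_eq, smul_eq_mul, mul_inv_cancel_left₀ h.ne']
  have h1 : 0 ≤ ∫ y in ball x r, (g y - a) ^ 2 ∂μ := integral_nonneg fun _ => sq_nonneg _
  have h2 : ∫ y in ball x r, (g y - a) ^ 2 ∂μ =
      (∫ y in ball x r, g y ^ 2 ∂μ) - 2 * a * (V * a) + V * a ^ 2 := by
    have e : ∀ y, (g y - a) ^ 2 = g y ^ 2 - 2 * a * g y + a ^ 2 := fun y => by ring
    simp_rw [e]
    rw [integral_add, integral_sub, integral_const_mul, hI, setIntegral_const, smul_eq_mul]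
    · exact intOn (hg.pow 2) x r
    · exact (intOn hg x r).const_mul _
    · exact (intOn (hg.pow 2) x r).sub ((intOn hg x r).const_mul _)
    · exact integrableOn_const (hs := ball_ne_top x r)
  nlinarith

/-- one step of the chain of balls -/
lemma step_avg {n : ℕ} (hD : Dbl n μ) (hpos : ∀ (x : X) (r : ℝ), 0 < r → 0 < μ.real (ball x r))
    {f G : X → ℝ} (hf : Continuous f) {P : ℝ} (hP : Poi P μ f G) (x : X) {r : ℝ} (hr : 0 < r) :
    ((⨍ y in ball x (r / 2), f y ∂μ) - ⨍ y in ball x r, f y ∂μ) ^ 2 ≤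
      r ^ 2 * (2 ^ n * P * (μ.real (ball x r))⁻¹ * ∫ y in ball x (2 * r), G y ^ 2 ∂μ) := by
  set m := ⨍ y in ball x r, f y ∂μ with hm
  have h2 : 0 < r / 2 := by positivity
  have hV := hpos x (r / 2) h2
  have hV1 := hpos x r hr
  have e1 : (⨍ y in ball x (r / 2), f y ∂μ) - m = ⨍ y in ball x (r / 2), (f y - m) ∂μ := by
    rw [setAverage_eq, setAverage_eq, integral_sub (intOn hf x _)
      (integrableOn_const (hs := ball_ne_top x _)), setIntegral_const, smul_sub, smul_smul,
      inv_mul_cancel₀ hV.ne', one_smul]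
  rw [e1]
  have h3 := sq_avg_le (μ := μ) (hf.sub continuous_const : Continuous fun y => f y - m) (x := x) hV
  have h4 : ∫ y in ball x (r / 2), (f y - m) ^ 2 ∂μ ≤ ∫ y in ball x r, (f y - m) ^ 2 ∂μ := by
    apply setIntegral_mono_set (intOn ((hf.sub continuous_const).pow 2) x r)
      (Eventually.of_forall fun y => sq_nonneg _)
    exact (ball_subset_ball (by linarith)).eventuallyLE
  have h5 := hP x r hr
  have h6 : μ.real (ball x r) ≤ 2 ^ n * μ.real (ball x (r / 2)) := by
    have := hD x (r / 2) r h2 (by linarith)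
    rwa [show r / (r / 2) = 2 by field_simp] at this
  set A := ⨍ y in ball x (r / 2), (f y - m) ∂μ with hA
  set I := ∫ y in ball x (2 * r), G y ^ 2 ∂μ with hI
  have h7 : μ.real (ball x (r / 2)) * A ^ 2 ≤ P * r ^ 2 * I := h3.trans (h4.trans h5)
  have h8 : μ.real (ball x r) * A ^ 2 ≤ 2 ^ n * (P * r ^ 2 * I) := by
    calc μ.real (ball x r) * A ^ 2 ≤ (2 ^ n * μ.real (ball x (r / 2))) * A ^ 2 := by gcongr
      _ = 2 ^ n * (μ.real (ball x (r / 2)) * A ^ 2) := by ring
      _ ≤ _ := by gcongr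
  have e2 : r ^ 2 * (2 ^ n * P * (μ.real (ball x r))⁻¹ * I) =
      (2 ^ n * (P * r ^ 2 * I)) / μ.real (ball x r) := by
    field_simp
  rw [e2, le_div_iff₀ hV1]
  linarith

/-- Averages over small balls converge. -/
lemma tendsto_avg (hpos : ∀ (x : X) (r : ℝ), 0 < r → 0 < μ.real (ball x r))
    {f : X → ℝ} (hf : Continuous f) (x : X) {ρ : ℝ} (hρ : 0 < ρ) :
    Tendsto (fun k : ℕ => ⨍ y in ball x (ρ * (1 / 2) ^ k), f y ∂μ) atTop (𝓝 (f x)) := by
  rw [Metric.tendsto_atTop]
  intro ε hε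
  obtain ⟨δ, hδ, h⟩ := Metric.continuousAt_iff.1 (hf.continuousAt (x := x)) (ε / 2) (by positivity)
  have h1 : Tendsto (fun k : ℕ => ρ * (1 / 2 : ℝ) ^ k) atTop (𝓝 (ρ * 0)) :=
    (tendsto_pow_atTop_nhds_zero_of_lt_one (by norm_num) (by norm_num)).const_mul ρ
  rw [mul_zero] at h1
  obtain ⟨N, hN⟩ := (h1.eventually (gt_mem_nhds hδ)).exists_forall_of_atTop
  refine ⟨N, fun k hk => ?_⟩
  have hr : 0 < ρ * (1 / 2 : ℝ) ^ k := by positivity
  have hV := hpos x _ hr
  have hrδ := hN k hk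
  set r := ρ * (1 / 2 : ℝ) ^ k with hrdef
  have e1 : (⨍ y in ball x r, f y ∂μ) - f x = ⨍ y in ball x r, (f y - f x) ∂μ := by
    rw [setAverage_eq, setAverage_eq, integral_sub (intOn hf x _)
      (integrableOn_const (hs := ball_ne_top x _)), setIntegral_const, smul_sub, smul_smul,
      inv_mul_cancel₀ hV.ne', one_smul]
  rw [Real.dist_eq, e1]
  have h2 : ‖∫ y in ball x r, (f y - f x) ∂μ‖ ≤ ε / 2 * μ.real (ball x r) := by
    apply norm_setIntegral_le_of_norm_le_const
    · exact (ball_ne_top x r).lt_top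
    · intro y hy
      have := h (lt_trans (mem_ball.1 hy) hrδ)
      rw [Real.dist_eq] at this
      exact this.le
  rw [setAverage_eq, smul_eq_mul, abs_mul, abs_of_pos (inv_pos.2 hV)]
  rw [Real.norm_eq_abs] at h2
  calc (μ.real (ball x r))⁻¹ * |∫ y in ball x r, (f y - f x) ∂μ| ≤
      (μ.real (ball x r))⁻¹ * (ε / 2 * μ.real (ball x r)) := by gcongr
    _ = ε / 2 := by field_simp
    _ < ε := by linarith

/-- Pointwise bound by averages, in `ℝ≥0∞`. -/
lemma pointwise {n : ℕ} (hD : Dbl n μ)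
    (hpos : ∀ (x : X) (r : ℝ), 0 < r → 0 < μ.real (ball x r))
    {f G : X → ℝ} (hf : Continuous f) (hG : Continuous G) {P : ℝ} (hP0 : 0 ≤ P) (hP : Poi P μ f G)
    (x : X) {ρ : ℝ} (hρ : 0 < ρ) :
    ENNReal.ofReal (f x ^ 2) ≤ ENNReal.ofReal (2 * (μ.real (ball x ρ))⁻¹) *
        ∫⁻ y in ball x ρ, ENNReal.ofReal (f y ^ 2) ∂μ +
      ENNReal.ofReal (8 * ρ ^ 2 * (2 ^ n * P)) * ∑' k : ℕ, ENNReal.ofReal ((1 / 3 : ℝ) ^ k) *
        ((μ (ball x (ρ * (1 / 2) ^ k)))⁻¹ *
          ∫⁻ y in ball x (2 * (ρ * (1 / 2) ^ k)), ENNReal.ofReal (G y ^ 2) ∂μ) := by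
  set r : ℕ → ℝ := fun k => ρ * (1 / 2) ^ k with hr
  have hr0 : ∀ k, 0 < r k := fun k => by simp only [hr]; positivity
  set m : ℕ → ℝ := fun k => ⨍ y in ball x (r k), f y ∂μ with hm
  set c : ℕ → ℝ := fun k => 2 ^ n * P * (μ.real (ball x (r k)))⁻¹ *
    ∫ y in ball x (2 * r k), G y ^ 2 ∂μ with hc
  have hc0 : ∀ k, 0 ≤ c k := fun k => by
    have h1 := hpos x (r k) (hr0 k)
    have h2 : 0 ≤ ∫ y in ball x (2 * r k), G y ^ 2 ∂μ := integral_nonneg fun _ => sq_nonneg _
    simp only [hc]; positivity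
  have hstep : ∀ k, (m (k + 1) - m k) ^ 2 ≤ (ρ * (1 / 2) ^ k) ^ 2 * c k := by
    intro k
    have h := step_avg hD hpos hf hP x (hr0 k)
    have e : r k / 2 = r (k + 1) := by simp only [hr, pow_succ]; ring
    rw [e] at h
    exact h
  have hcs := geo_cs m c ρ hc0 hstep
  set b : ℕ → ℝ≥0∞ := fun k => ENNReal.ofReal ((1 / 3 : ℝ) ^ k) *
        ((μ (ball x (r k)))⁻¹ * ∫⁻ y in ball x (2 * r k), ENNReal.ofReal (G y ^ 2) ∂μ) with hb
  have hbc : ∀ k, ENNReal.ofReal ((1 / 3 : ℝ) ^ k * c k) = ENNReal.ofReal (2 ^ n * P) * b k := by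
    intro k
    have h1 := hpos x (r k) (hr0 k)
    have e1 : μ (ball x (r k)) = ENNReal.ofReal (μ.real (ball x (r k))) :=
      (ofReal_measureReal (ball_ne_top x _)).symm
    have e2 : ∫⁻ y in ball x (2 * r k), ENNReal.ofReal (G y ^ 2) ∂μ =
        ENNReal.ofReal (∫ y in ball x (2 * r k), G y ^ 2 ∂μ) :=
      (ofReal_integral_eq_lintegral_ofReal (intOn (hG.pow 2) x _)
        (Eventually.of_forall fun _ => sq_nonneg _)).symm
    simp only [hb, hc]
    rw [e1, e2, ← ENNReal.ofReal_inv_of_pos h1, ← ENNReal.ofReal_mul (by positivity),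
      ← ENNReal.ofReal_mul (by positivity), ← ENNReal.ofReal_mul (by positivity)]
    congr 1
    ring
  -- bound for each `K`
  have hK : ∀ K, ENNReal.ofReal (m K ^ 2) ≤ ENNReal.ofReal (2 * m 0 ^ 2) +
      ENNReal.ofReal (8 * ρ ^ 2 * (2 ^ n * P)) * ∑' k, b k := by
    intro K
    have h1 : m K ^ 2 ≤ 2 * m 0 ^ 2 + 8 * ρ ^ 2 * ∑ k ∈ Finset.range K, (1 / 3 : ℝ) ^ k * c k := by
      have := hcs K
      nlinarith [sq_nonneg (m K - 2 * m 0)]
    calc ENNReal.ofReal (m K ^ 2)
        ≤ ENNReal.ofReal (2 * m 0 ^ 2 + 8 * ρ ^ 2 * ∑ k ∈ Finset.range K, (1 / 3 : ℝ) ^ k * c k) :=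
          ENNReal.ofReal_le_ofReal h1
      _ = ENNReal.ofReal (2 * m 0 ^ 2) +
          ENNReal.ofReal (8 * ρ ^ 2) * ∑ k ∈ Finset.range K, ENNReal.ofReal (2 ^ n * P) * b k := by
          have hs0 : 0 ≤ ∑ k ∈ Finset.range K, (1 / 3 : ℝ) ^ k * c k :=
            Finset.sum_nonneg fun k _ => mul_nonneg (by positivity) (hc0 k)
          rw [ENNReal.ofReal_add (by positivity) (by positivity),
            ENNReal.ofReal_mul (p := 8 * ρ ^ 2) (by positivity), ENNReal.ofReal_sum_of_nonneg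
              (fun k _ => mul_nonneg (by positivity) (hc0 k))]
          congr 2
          apply Finset.sum_congr rfl
          intro k _
          exact hbc k
      _ = ENNReal.ofReal (2 * m 0 ^ 2) +
          ENNReal.ofReal (8 * ρ ^ 2 * (2 ^ n * P)) * ∑ k ∈ Finset.range K, b k := by
          rw [← Finset.mul_sum, ← mul_assoc, ← ENNReal.ofReal_mul (by positivity)]
      _ ≤ _ := by
          gcongr
          exact ENNReal.sum_le_tsum _
  -- limit
  have hlim : Tendsto (fun K => ENNReal.ofReal (m K ^ 2)) atTop (𝓝 (ENNReal.ofReal (f x ^ 2))) :=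
    (ENNReal.continuous_ofReal.tendsto _).comp ((tendsto_avg hpos hf x hρ).pow 2)
  refine (le_of_tendsto' hlim hK).trans ?_
  gcongr
  -- `m 0`
  have hr00 : r 0 = ρ := by simp [hr]
  have h1 := sq_avg_le (μ := μ) hf (x := x) (hpos x ρ hρ)
  have e3 : ∫⁻ y in ball x ρ, ENNReal.ofReal (f y ^ 2) ∂μ =
      ENNReal.ofReal (∫ y in ball x ρ, f y ^ 2 ∂μ) :=
    (ofReal_integral_eq_lintegral_ofReal (intOn (hf.pow 2) x _)
      (Eventually.of_forall fun _ => sq_nonneg _)).symm
  have hV := hpos x ρ hρ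
  rw [e3, ← ENNReal.ofReal_mul (by positivity)]
  apply ENNReal.ofReal_le_ofReal
  have e4 : m 0 = ⨍ y in ball x ρ, f y ∂μ := by simp only [hm, hr00]
  rw [e4, mul_assoc]
  gcongr
  rw [← div_eq_inv_mul, le_div_iff₀ hV]
  linarith

end chain

section fk
variable {μ : Measure X} [SecondCountableTopology X] [ProperSpace X] [IsFiniteMeasureOnCompacts μ]
  [SFinite μ]

/-- **Faber–Krahn inequality** (lower integral form). -/
theorem fk' {n : ℕ} (hn : 1 ≤ n) (hD : Dbl n μ)
    (hpos : ∀ (x : X) (r : ℝ), 0 < r → 0 < μ.real (ball x r))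
    {f G : X → ℝ} (hf : Continuous f) (hG : Continuous G) {P : ℝ} (hP0 : 0 ≤ P) (hP : Poi P μ f G)
    {x0 : X} {ρ : ℝ} (hρ : 0 < ρ) {E : Set X} (hE : MeasurableSet E) (hEB : E ⊆ ball x0 ρ) :
    ∫⁻ x in E, ENNReal.ofReal (f x ^ 2) ∂μ ≤
      ENNReal.ofReal ((μ.real E / μ.real (ball x0 ρ)) ^ (1 / (n : ℝ))) *
      (ENNReal.ofReal (2 ^ (n + 1)) * ∫⁻ y in ball x0 (2 * ρ), ENNReal.ofReal (f y ^ 2) ∂μ +
       ENNReal.ofReal (48 * 8 ^ n * P * ρ ^ 2) *
        ∫⁻ y in ball x0 (3 * ρ), ENNReal.ofReal (G y ^ 2) ∂μ) := by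
  set τ := μ.real E / μ.real (ball x0 ρ) with hτ
  have hV0 := hpos x0 ρ hρ
  have hEfin : μ E ≠ ∞ := ne_top_of_le_ne_top (ball_ne_top x0 ρ) (measure_mono hEB)
  have hτ0 : 0 ≤ τ := by positivity
  have hτ1 : τ ≤ 1 := by
    rw [hτ, div_le_one hV0]
    exact measureReal_mono hEB (ball_ne_top x0 ρ)
  have hn0 : (0:ℝ) < n := by exact_mod_cast hn
  have hττ : τ ≤ τ ^ (1 / (n : ℝ)) := by
    have := min_le_rpow hn (a := 1) le_rfl hτ0
    rwa [one_pow, one_mul, one_mul, min_eq_right hτ1] at this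
  have hg : Measurable fun y => ENNReal.ofReal (G y ^ 2) :=
    ENNReal.measurable_ofReal.comp (hG.measurable.pow_const 2)
  have hfm : Measurable fun y => ENNReal.ofReal (f y ^ 2) :=
    ENNReal.measurable_ofReal.comp (hf.measurable.pow_const 2)
  set I1 := ∫⁻ y in ball x0 (2 * ρ), ENNReal.ofReal (f y ^ 2) ∂μ with hI1
  set I2 := ∫⁻ y in ball x0 (3 * ρ), ENNReal.ofReal (G y ^ 2) ∂μ with hI2
  set r : ℕ → ℝ := fun k => ρ * (1 / 2) ^ k with hr
  have hr0 : ∀ k, 0 < r k := fun k => by simp only [hr]; positivity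
  have hrρ : ∀ k, r k ≤ ρ := fun k => by
    simp only [hr]
    have : (1 / 2 : ℝ) ^ k ≤ 1 := pow_le_one₀ (by norm_num) (by norm_num)
    nlinarith
  set b : ℕ → X → ℝ≥0∞ := fun k x => (μ (ball x (r k)))⁻¹ *
        ∫⁻ y in ball x (2 * r k), ENNReal.ofReal (G y ^ 2) ∂μ with hb
  -- first term: pointwise
  have h1 : ∀ x ∈ E, ENNReal.ofReal (2 * (μ.real (ball x ρ))⁻¹) *
        ∫⁻ y in ball x ρ, ENNReal.ofReal (f y ^ 2) ∂μ ≤
      ENNReal.ofReal (2 ^ (n + 1) * (μ.real (ball x0 ρ))⁻¹) * I1 := by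
    intro x hx
    have hx' := mem_ball.1 (hEB hx)
    have hVx := hpos x ρ hρ
    have h2 : μ.real (ball x0 ρ) ≤ 2 ^ n * μ.real (ball x ρ) := by
      calc μ.real (ball x0 ρ) ≤ μ.real (ball x (2 * ρ)) := by
            refine measureReal_mono ?_ (ball_ne_top x _)
            intro z hz
            rw [mem_ball] at hz ⊢
            have := dist_triangle z x0 x
            rw [dist_comm x0 x] at this
            linarith
        _ ≤ (2 * ρ / ρ) ^ n * μ.real (ball x ρ) := hD x ρ (2 * ρ) hρ (by linarith)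
        _ = _ := by rw [mul_div_assoc, div_self hρ.ne', mul_one]
    have h3 : (μ.real (ball x ρ))⁻¹ ≤ 2 ^ n * (μ.real (ball x0 ρ))⁻¹ := by
      rw [← div_eq_mul_inv, le_div_iff₀ hV0, inv_mul_le_iff₀ hVx]
      linarith
    have h4 : 2 * (μ.real (ball x ρ))⁻¹ ≤ 2 ^ (n + 1) * (μ.real (ball x0 ρ))⁻¹ := by
      rw [pow_succ', mul_assoc]
      linarith
    have h5 : ball x ρ ⊆ ball x0 (2 * ρ) := ball_subset_ball' (by linarith)
    exact mul_le_mul' (ENNReal.ofReal_le_ofReal h4) (lintegral_mono_set h5)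
  -- second term
  have h2 : ∀ k, ∫⁻ x in E, b k x ∂μ ≤
      ENNReal.ofReal (4 ^ n * (2 * 2 ^ k * τ ^ (1 / (n : ℝ)))) * I2 := by
    intro k
    refine (avg_swap (hr0 k) (hrρ k) hpos hD hE hEB hg).trans ?_
    gcongr
    have e : 2 * ρ / r k = 2 * 2 ^ k := by
      simp only [hr, one_div, inv_pow]
      field_simp
    rw [e]
    apply min_le_rpow hn _ hτ0
    have : (1:ℝ) ≤ 2 ^ k := one_le_pow₀ (by norm_num)
    linarith
  have hbm : ∀ k, Measurable (b k) := fun k =>
    (measurable_mu_ball _).inv.mul (measurable_lint hg _)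
  have hgeo : ∑' k : ℕ, ENNReal.ofReal ((1 / 3 : ℝ) ^ k) *
      ENNReal.ofReal (4 ^ n * (2 * 2 ^ k * τ ^ (1 / (n : ℝ)))) =
      ENNReal.ofReal (6 * 4 ^ n * τ ^ (1 / (n : ℝ))) := by
    have e1 : ∀ k : ℕ, ENNReal.ofReal ((1 / 3 : ℝ) ^ k) *
      ENNReal.ofReal (4 ^ n * (2 * 2 ^ k * τ ^ (1 / (n : ℝ)))) =
      ENNReal.ofReal ((2 * 4 ^ n * τ ^ (1 / (n : ℝ))) * (2 / 3 : ℝ) ^ k) := by
      intro k
      rw [← ENNReal.ofReal_mul (by positivity)]
      congr 1
      rw [div_pow, div_pow, one_pow]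
      ring
    simp_rw [e1]
    rw [← ENNReal.ofReal_tsum_of_nonneg (fun k => by positivity)
      ((summable_geometric_of_lt_one (by norm_num) (by norm_num)).mul_left _)]
    congr 1
    rw [tsum_mul_left, tsum_geometric_of_lt_one (by norm_num) (by norm_num)]
    ring
  calc ∫⁻ x in E, ENNReal.ofReal (f x ^ 2) ∂μ
      ≤ ∫⁻ x in E, (ENNReal.ofReal (2 ^ (n + 1) * (μ.real (ball x0 ρ))⁻¹) * I1 +
          ENNReal.ofReal (8 * ρ ^ 2 * (2 ^ n * P)) *
            ∑' k : ℕ, ENNReal.ofReal ((1 / 3 : ℝ) ^ k) * b k x) ∂μ := by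
        apply setLIntegral_mono' hE
        intro x hx
        exact (pointwise hD hpos hf hG hP0 hP x hρ).trans (add_le_add (h1 x hx) le_rfl)
    _ = ENNReal.ofReal (2 ^ (n + 1) * (μ.real (ball x0 ρ))⁻¹) * I1 * μ E +
          ENNReal.ofReal (8 * ρ ^ 2 * (2 ^ n * P)) *
            ∑' k : ℕ, ENNReal.ofReal ((1 / 3 : ℝ) ^ k) * ∫⁻ x in E, b k x ∂μ := by
        rw [lintegral_add_left measurable_const, lintegral_const, Measure.restrict_apply_univ,
          lintegral_const_mul' _ _ ENNReal.ofReal_ne_top, lintegral_tsum]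
        · congr 3
          funext k
          rw [lintegral_const_mul' _ _ ENNReal.ofReal_ne_top]
        · intro k
          exact ((hbm k).const_mul _).aemeasurable
    _ ≤ ENNReal.ofReal (2 ^ (n + 1) * (μ.real (ball x0 ρ))⁻¹) * I1 * μ E +
          ENNReal.ofReal (8 * ρ ^ 2 * (2 ^ n * P)) *
            ∑' k : ℕ, ENNReal.ofReal ((1 / 3 : ℝ) ^ k) *
              (ENNReal.ofReal (4 ^ n * (2 * 2 ^ k * τ ^ (1 / (n : ℝ)))) * I2) := by
        gcongr with k
        exact h2 k
    _ = ENNReal.ofReal (2 ^ (n + 1) * τ) * I1 +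
          ENNReal.ofReal (8 * ρ ^ 2 * (2 ^ n * P)) *
            (ENNReal.ofReal (6 * 4 ^ n * τ ^ (1 / (n : ℝ))) * I2) := by
        congr 1
        · have e1 : μ E = ENNReal.ofReal (μ.real E) := (ofReal_measureReal hEfin).symm
          rw [mul_right_comm, e1, ← ENNReal.ofReal_mul (by positivity)]
          congr 2
          rw [hτ]
          ring
        · congr 1
          rw [← hgeo, ← ENNReal.tsum_mul_right]
          congr 1
          funext k
          ring
    _ ≤ ENNReal.ofReal (2 ^ (n + 1) * τ ^ (1 / (n : ℝ))) * I1 +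
          ENNReal.ofReal (8 * ρ ^ 2 * (2 ^ n * P)) *
            (ENNReal.ofReal (6 * 4 ^ n * τ ^ (1 / (n : ℝ))) * I2) := by
        gcongr
    _ = _ := by
        rw [mul_add]
        congr 1
        · rw [← mul_assoc, ← ENNReal.ofReal_mul (by positivity)]
          congr 2
          ring
        · rw [← mul_assoc (ENNReal.ofReal (8 * ρ ^ 2 * (2 ^ n * P))),
            ← mul_assoc (ENNReal.ofReal (τ ^ (1 / (n : ℝ)))),
            ← ENNReal.ofReal_mul (by positivity), ← ENNReal.ofReal_mul (by positivity)]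
          congr 2
          rw [show (8:ℝ) ^ n = 2 ^ n * 4 ^ n by rw [← mul_pow]; norm_num]
          ring

/-- **Faber–Krahn inequality**. -/
theorem fk {n : ℕ} (hn : 1 ≤ n) (hD : Dbl n μ)
    (hpos : ∀ (x : X) (r : ℝ), 0 < r → 0 < μ.real (ball x r))
    {f G : X → ℝ} (hf : Continuous f) (hG : Continuous G) {P : ℝ} (hP0 : 0 ≤ P) (hP : Poi P μ f G)
    {x0 : X} {ρ : ℝ} (hρ : 0 < ρ) {E : Set X} (hE : MeasurableSet E) (hEB : E ⊆ ball x0 ρ) :
    ∫ x in E, f x ^ 2 ∂μ ≤ (μ.real E / μ.real (ball x0 ρ)) ^ (1 / (n : ℝ)) *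
      (2 ^ (n + 1) * (∫ y in ball x0 (2 * ρ), f y ^ 2 ∂μ) +
       48 * 8 ^ n * P * ρ ^ 2 * ∫ y in ball x0 (3 * ρ), G y ^ 2 ∂μ) := by
  have h := fk' hn hD hpos hf hG hP0 hP hρ hE hEB
  have e1 : ∫⁻ x in E, ENNReal.ofReal (f x ^ 2) ∂μ = ENNReal.ofReal (∫ x in E, f x ^ 2 ∂μ) :=
    (ofReal_integral_eq_lintegral_ofReal ((intOn (hf.pow 2) x0 ρ).mono_set hEB)
      (Eventually.of_forall fun _ => sq_nonneg _)).symm
  have e2 : ∫⁻ y in ball x0 (2 * ρ), ENNReal.ofReal (f y ^ 2) ∂μ =
      ENNReal.ofReal (∫ y in ball x0 (2 * ρ), f y ^ 2 ∂μ) :=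
    (ofReal_integral_eq_lintegral_ofReal (intOn (hf.pow 2) x0 _)
      (Eventually.of_forall fun _ => sq_nonneg _)).symm
  have e3 : ∫⁻ y in ball x0 (3 * ρ), ENNReal.ofReal (G y ^ 2) ∂μ =
      ENNReal.ofReal (∫ y in ball x0 (3 * ρ), G y ^ 2 ∂μ) :=
    (ofReal_integral_eq_lintegral_ofReal (intOn (hG.pow 2) x0 _)
      (Eventually.of_forall fun _ => sq_nonneg _)).symm
  have i1 : 0 ≤ ∫ y in ball x0 (2 * ρ), f y ^ 2 ∂μ := integral_nonneg fun _ => sq_nonneg _
  have i2 : 0 ≤ ∫ y in ball x0 (3 * ρ), G y ^ 2 ∂μ := integral_nonneg fun _ => sq_nonneg _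
  have hτ0 : 0 ≤ μ.real E / μ.real (ball x0 ρ) := by positivity
  rw [e1, e2, e3, ← ENNReal.ofReal_mul (by positivity), ← ENNReal.ofReal_mul (by positivity),
    ← ENNReal.ofReal_add (by positivity) (by positivity), ← ENNReal.ofReal_mul (by positivity)] at h
  exact (ENNReal.ofReal_le_ofReal_iff (by positivity)).1 h

end fk

end Crest.Agent.R281.Sm1_593
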