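import Crest.Agent.R249.SobH_982
import Crest.Agent.R281.Sm1_593

/-!
# R281 (S-SUBMV, helper593), part 2: truncations, Caccioppoli inequality, one De Giorgi step

`s k t = max (t - k) 0`; `w = (f - k)₊²`; `-Δ f ≤ A + B f` on `U`:

* `cacc4` : `∫ η² ‖∇w‖² ≤ 2 ∫ η² (A + B f) (f-k)₊³ + 2 ∫ w² ‖∇η‖²`;
* `step`  : `Y(k',a) ≤ τ^(1/n) K Y(k,b)`, `Y(k,ρ) = ∫_{B_ρ} (f-k)₊⁴`.
-/

set_option autoImplicit false
set_option maxSynthPendingDepth 3
set_option linter.unusedSectionVars false
open Bundle Set MeasureTheory Manifold Filter Metric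
open scoped ENNReal ContDiff Topology NNReal
open Crest.GeometryTopology.CoordMetric Crest.GeometryTopology.ChartCurvature
open Crest.Agent.R249.SobA_982 Crest.Agent.R249.SobC_982 Crest.Agent.R249.SobD_982
  Crest.Agent.R249.SobE_982 Crest.Agent.R249.SobG_982 Crest.Agent.R249.SobH_982
open Crest.Agent.R247 Crest.Agent.R247.Ms322 Crest.Agent.R247.Mcp688

noncomputable section
namespace Crest.Agent.R281.Sm2_593

open Crest.Agent.R281.Sm1_593

section tr

/-- truncation -/
def s (k t : ℝ) : ℝ := max (t - k) 0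

lemma s_nonneg (k t : ℝ) : 0 ≤ s k t := le_max_right _ _

lemma s_of_le {k t : ℝ} (h : t ≤ k) : s k t = 0 := max_eq_right (by linarith)

lemma s_of_ge {k t : ℝ} (h : k ≤ t) : s k t = t - k := max_eq_left (by linarith)

lemma continuous_s (k : ℝ) : Continuous (s k) := by unfold s; fun_prop

lemma s_mono (k : ℝ) {t t' : ℝ} (h : t ≤ t') : s k t ≤ s k t' := by
  unfold s; exact max_le_max (by linarith) le_rfl

lemma s_anti {k k' : ℝ} (h : k ≤ k') (t : ℝ) : s k' t ≤ s k t := by
  unfold s; exact max_le_max (by linarith) le_rfl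

lemma lip_s (k : ℝ) : LocallyLipschitz (s k) := by
  have h : LipschitzWith 1 (s k) := by
    have h1 : LipschitzWith 1 (fun t : ℝ => t - k) := by
      apply LipschitzWith.of_dist_le_mul
      intro x y
      simp [Real.dist_eq]
    exact h1.max_const 0
  exact h.locallyLipschitz

/-- derivative of the powers of the truncation -/
lemma hasDerivAt_s (k : ℝ) (m : ℕ) (t : ℝ) :
    HasDerivAt (fun t => s k t ^ (m + 2)) ((m + 2 : ℝ) * s k t ^ (m + 1)) t := by
  rcases lt_trichotomy t k with h | h | h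
  · have e : (fun t => s k t ^ (m + 2)) =ᶠ[𝓝 t] fun _ => 0 := by
      filter_upwards [gt_mem_nhds h] with u hu
      rw [s_of_le hu.le]; simp
    rw [s_of_le h.le]
    simpa using (hasDerivAt_const t (0:ℝ)).congr_of_eventuallyEq e
  · subst h
    rw [s_of_le le_rfl]
    have h0 : ((m + 2 : ℝ) * 0 ^ (m + 1)) = 0 := by simp
    rw [h0]
    rw [hasDerivAt_iff_isLittleO_nhds_zero]
    simp only [s_of_le (le_refl t)]
    have h1 : (fun h : ℝ => s t (t + h) ^ (m + 2) - 0 ^ (m + 2) - h • (0:ℝ)) =O[𝓝 0]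
        fun h : ℝ => h ^ 2 := by
      rw [Asymptotics.isBigO_iff]
      refine ⟨1, ?_⟩
      filter_upwards [Metric.ball_mem_nhds (0:ℝ) one_pos] with h hh
      rw [Metric.mem_ball, dist_zero_right, Real.norm_eq_abs] at hh
      have h2 : 0 ≤ s t (t + h) := s_nonneg _ _
      have h3 : s t (t + h) ≤ |h| := by
        unfold s
        rw [add_sub_cancel_left]
        exact max_le (le_abs_self h) (abs_nonneg h)
      rw [zero_pow (by omega), sub_zero, smul_zero, sub_zero, norm_pow, Real.norm_eq_abs,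
        abs_of_nonneg h2, one_mul, norm_pow, Real.norm_eq_abs]
      calc s t (t + h) ^ (m + 2) ≤ |h| ^ (m + 2) := by gcongr
        _ = |h| ^ m * |h| ^ 2 := by rw [pow_add]
        _ ≤ 1 * |h| ^ 2 := by
            gcongr
            exact pow_le_one₀ (abs_nonneg h) hh.le
        _ = _ := one_mul _
    refine h1.trans_isLittleO ?_
    have : (fun h : ℝ => h ^ 2) = fun h : ℝ => h ^ (1 + 1) := by norm_num
    rw [this]
    have h4 := Asymptotics.isLittleO_pow_pow (𝕜 := ℝ) (m := 1) (n := 2) (by norm_num)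
    simpa using h4
  · have e : (fun t => s k t ^ (m + 2)) =ᶠ[𝓝 t] fun t => (t - k) ^ (m + 2) := by
      filter_upwards [lt_mem_nhds h] with u hu
      rw [s_of_ge hu.le]
    rw [s_of_ge h.le]
    have h1 : HasDerivAt (fun t : ℝ => (t - k) ^ (m + 2)) ((m + 2 : ℝ) * (t - k) ^ (m + 1)) t := by
      have h2 : HasDerivAt (fun t : ℝ => t - k) 1 t := (hasDerivAt_id t).sub_const k
      have h3 := h2.pow (m + 2)
      have e3 : (fun t : ℝ => t - k) ^ (m + 2) = fun t : ℝ => (t - k) ^ (m + 2) := rfl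
      rw [e3] at h3
      simpa using h3
    exact h1.congr_of_eventuallyEq e

lemma contDiff_s (k : ℝ) (m : ℕ) : ContDiff ℝ 1 (fun t => s k t ^ (m + 2)) := by
  rw [contDiff_one_iff_deriv]
  refine ⟨fun t => (hasDerivAt_s k m t).differentiableAt, ?_⟩
  have e : deriv (fun t => s k t ^ (m + 2)) = fun t => (m + 2 : ℝ) * s k t ^ (m + 1) :=
    funext fun t => (hasDerivAt_s k m t).deriv
  rw [e]
  exact continuous_const.mul ((continuous_s k).pow _)

end tr

section M
variable {n : ℕ} {M : Type*} [MetricSpace M] [ChartedSpace (EuclideanSpace ℝ (Fin n)) M]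
  [IsManifold (𝓡 n) ∞ M]
  [RiemannianBundle (fun p : M => TangentSpace (𝓡 n) p)]
  [IsContMDiffRiemannianBundle (𝓡 n) ∞ (EuclideanSpace ℝ (Fin n)) (fun p : M => TangentSpace (𝓡 n) p)]
  [SecondCountableTopology M] [Nonempty M] [IsRiemannianManifold (𝓡 n) M]
  [MeasurableSpace M] [BorelSpace M]

lemma Gr_s {f : M → ℝ} {z : M} (hf : MDifferentiableAt (𝓡 n) 𝓘(ℝ) f z) (k : ℝ) (m : ℕ) :
    Gr (n := n) (fun y => s k (f y) ^ (m + 2)) z = ((m + 2 : ℝ) * s k (f z) ^ (m + 1)) • Gr f z := by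
  have h := Gr_comp (n := n) (χ := fun t => s k t ^ (m + 2)) hf (hasDerivAt_s k m (f z)).differentiableAt
  rw [(hasDerivAt_s k m (f z)).deriv] at h
  exact h

/-- **Caccioppoli inequality for truncations.** -/
theorem cacc4 {U : Set M} (hU : IsOpen U) {f η : M → ℝ}
    (hf : ∀ z ∈ U, ContMDiffAt (𝓡 n) 𝓘(ℝ, ℝ) 2 f z) {A B k : ℝ}
    (hL : ∀ z ∈ U, -(A + B * f z) ≤ Bo84.mLap n f z) (hη : LocallyLipschitz η)
    (hc : HasCompactSupport η) (hs : tsupport η ⊆ U) :
    ∫ z, η z ^ 2 * ‖Gr (n := n) (fun y => s k (f y) ^ 2) z‖ ^ 2 ∂(μHE[n] : Measure M) ≤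
      2 * (∫ z, η z ^ 2 * ((A + B * f z) * s k (f z) ^ 3) ∂(μHE[n] : Measure M)) +
      2 * ∫ z, (s k (f z) ^ 2) ^ 2 * ‖Gr (n := n) η z‖ ^ 2 ∂(μHE[n] : Measure M) := by
  have hfL : LLo U f := LLo.of_contMDiffAt fun z hz => (hf z hz).of_le (by norm_num)
  have hfc : ContinuousOn f U := hfL.continuousOn
  have hηc : Continuous η := hη.continuous
  have hsL : LLo U (fun z => s k (f z)) := hfL.comp₁ (lip_s k)
  have hs3L : LLo U (fun z => s k (f z) ^ 3) := by
    have h1 := (hsL.mul (hsL.mul hsL))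
    refine h1.congr fun z _ => Eventually.of_forall fun y => ?_
    show s k (f y) * (s k (f y) * s k (f y)) = s k (f y) ^ 3
    ring
  have hsc : ContinuousOn (fun z => s k (f z)) U := (continuous_s k).comp_continuousOn hfc
  -- test function `φ = η (η s³)`
  have h1 : LocallyLipschitz (fun z => η z * s k (f z) ^ 3) := LLo.mul_supp hη hs3L hs
  have hφL : LocallyLipschitz (fun z => η z * (η z * s k (f z) ^ 3)) :=
    LLo.mul_supp hη (LLo.of_loc h1 (U := U)) hs
  have hsub : Function.support (fun z => η z * (η z * s k (f z) ^ 3)) ⊆ Function.support η := by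
    intro z hz h
    apply hz
    show η z * (η z * s k (f z) ^ 3) = 0
    rw [h, zero_mul]
  have hφs : tsupport (fun z => η z * (η z * s k (f z) ^ 3)) ⊆ U := (closure_mono hsub).trans hs
  have hφc : HasCompactSupport (fun z => η z * (η z * s k (f z) ^ 3)) := hc.mono hsub
  have hibp := ibp_mLap hU hf hφL hφc hφs
  set w : M → ℝ := fun y => s k (f y) ^ 2 with hw
  -- the gradient of the test function
  have hgr : ∀ᵐ z ∂(μHE[n] : Measure M),
      inner ℝ (Gr (n := n) f z) (Gr (n := n) (fun z => η z * (η z * s k (f z) ^ 3)) z) =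
        (3 / 4) * (η z ^ 2 * ‖Gr (n := n) w z‖ ^ 2) +
          (η z * w z) * inner ℝ (Gr (n := n) w z) (Gr (n := n) η z) := by
    filter_upwards [ae_mdifferentiableAt (n := n) hη] with z hz
    by_cases hzU : z ∈ U
    · have hfz : MDifferentiableAt (𝓡 n) 𝓘(ℝ) f z := (hf z hzU).mdifferentiableAt (by norm_num)
      have hgw : Gr (n := n) w z = (2 * s k (f z)) • Gr f z := by
        have := Gr_s (n := n) hfz k 0
        simpa using this
      have hg3 : Gr (n := n) (fun y => s k (f y) ^ 3) z = (3 * s k (f z) ^ 2) • Gr f z := by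
        have := Gr_s (n := n) hfz k 1
        norm_num at this
        exact this
      have hs3z : MDifferentiableAt (𝓡 n) 𝓘(ℝ) (fun y => s k (f y) ^ 3) z := by
        have h3 : ContMDiffAt (𝓡 n) 𝓘(ℝ, ℝ) 1 (fun y => s k (f y) ^ 3) z :=
          ((contDiff_s k 1).contDiffAt.contMDiffAt).comp z ((hf z hzU).of_le (by norm_num))
        exact h3.mdifferentiableAt (by norm_num)
      have e1 : Gr (n := n) (fun z => η z * s k (f z) ^ 3) z =
          η z • Gr (fun y => s k (f y) ^ 3) z + s k (f z) ^ 3 • Gr η z := Gr_mul hz hs3z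
      have hηs : MDifferentiableAt (𝓡 n) 𝓘(ℝ) (fun z => η z * s k (f z) ^ 3) z := hz.mul hs3z
      rw [Gr_mul hz hηs, e1, hg3, hgw, inner_add_right, inner_smul_right, inner_smul_right,
        inner_add_right, inner_smul_right, inner_smul_right, inner_smul_right, inner_smul_left,
        norm_smul, real_inner_self_eq_norm_sq]
      have e2 : (‖2 * s k (f z)‖ * ‖Gr (n := n) f z‖) ^ 2 = 4 * s k (f z) ^ 2 * ‖Gr (n := n) f z‖ ^ 2 := by
        rw [mul_pow, Real.norm_eq_abs, sq_abs]; ring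
      rw [e2]
      simp only [hw, conj_trivial]
      ring
    · have h0 : η z = 0 := image_eq_zero_of_notMem_tsupport fun h => hzU (hs h)
      have h2 : Gr (n := n) (fun z => η z * (η z * s k (f z) ^ 3)) z = 0 :=
        Gr_zero_off fun h => hzU (hφs h)
      rw [h2, inner_zero_right, h0]
      ring
  rw [integral_congr_ae hgr] at hibp
  have hwL : LLo U w := by
    refine (hsL.mul hsL).congr fun z _ => Eventually.of_forall fun y => ?_
    show s k (f y) * s k (f y) = s k (f y) ^ 2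
    ring
  have hwc : ContinuousOn w U := hwL.continuousOn
  -- integrability
  obtain ⟨Cf, hCf0, hCf⟩ := hwL.exists_bound_Gr (n := n) hc.isCompact hs
  obtain ⟨Cη, hCη0, hCη⟩ := exists_bound_Gr (n := n) hη hc
  obtain ⟨Bf, hBf⟩ := hc.isCompact.exists_bound_of_continuousOn (hwc.mono hs)
  obtain ⟨Bη, hBη⟩ := hc.isCompact.exists_bound_of_continuousOn hηc.continuousOn
  have hwm : AEStronglyMeasurable w ((μHE[n] : Measure M).restrict (tsupport η)) :=
    (hwc.mono hs).aestronglyMeasurable hc.isCompact.measurableSet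
  have hηm : AEStronglyMeasurable η ((μHE[n] : Measure M).restrict (tsupport η)) :=
    hηc.aestronglyMeasurable
  have hGf : AEStronglyMeasurable (Gr (n := n) w) ((μHE[n] : Measure M).restrict (tsupport η)) :=
    (measurable_Gr w).aestronglyMeasurable
  have hGη : AEStronglyMeasurable (Gr (n := n) η) ((μHE[n] : Measure M).restrict (tsupport η)) :=
    (measurable_Gr η).aestronglyMeasurable
  have i1 : Integrable (fun z => η z ^ 2 * ‖Gr (n := n) w z‖ ^ 2) (μHE[n] : Measure M) := by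
    refine integrable_of_compact_M hc.isCompact (C := Bη ^ 2 * Cf ^ 2) ?_ ?_ ?_
    · exact (hηm.pow 2).mul (hGf.norm.pow 2)
    · intro z hz
      have a1 := hBη z hz
      have a2 := hCf z hz
      rw [norm_mul, norm_pow, norm_pow, norm_norm]
      gcongr
    · intro z hz
      rw [image_eq_zero_of_notMem_tsupport hz]
      ring
  have i2 : Integrable (fun z => (η z * w z) * inner ℝ (Gr (n := n) w z) (Gr (n := n) η z))
      (μHE[n] : Measure M) := by
    refine integrable_of_compact_M hc.isCompact (C := (Bη * Bf) * (Cf * Cη)) ?_ ?_ ?_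
    · exact (hηm.mul hwm).mul (hGf.inner hGη)
    · intro z hz
      have a1 := hBη z hz
      have a2 := hCf z hz
      have a3 := hBf z hz
      have a4 := hCη z
      have a5 : ‖(inner ℝ (Gr (n := n) w z) (Gr (n := n) η z) : ℝ)‖ ≤ Cf * Cη :=
        (norm_inner_le_norm _ _).trans (mul_le_mul a2 a4 (norm_nonneg _) hCf0)
      rw [norm_mul, norm_mul]
      have a6 : 0 ≤ Bη := (norm_nonneg _).trans a1
      have a8 : ‖η z‖ * ‖w z‖ ≤ Bη * Bf := mul_le_mul a1 a3 (norm_nonneg _) a6
      exact mul_le_mul a8 a5 (norm_nonneg _) (mul_nonneg a6 ((norm_nonneg _).trans a3))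
    · intro z hz
      rw [image_eq_zero_of_notMem_tsupport hz]
      ring
  have i3 : Integrable (fun z => w z ^ 2 * ‖Gr (n := n) η z‖ ^ 2) (μHE[n] : Measure M) := by
    refine integrable_of_compact_M hc.isCompact (C := Bf ^ 2 * Cη ^ 2) ?_ ?_ ?_
    · exact (hwm.pow 2).mul (hGη.norm.pow 2)
    · intro z hz
      have a3 := hBf z hz
      have a4 := hCη z
      rw [norm_mul, norm_pow (w z), norm_pow ‖Gr (n := n) η z‖, norm_norm]
      gcongr
    · intro z hz
      rw [Gr_zero_off hz, norm_zero]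
      ring
  have hLc : ContinuousOn (Bo84.mLap n f) U := continuousOn_mLap hf
  have hs3c : ContinuousOn (fun z => s k (f z) ^ 3) U := hs3L.continuousOn
  have i4 : Integrable (fun z => η z ^ 2 * ((A + B * f z) * s k (f z) ^ 3)) (μHE[n] : Measure M) := by
    have hcont : ContinuousOn (fun z => η z ^ 2 * ((A + B * f z) * s k (f z) ^ 3)) (tsupport η) :=
      ((hηc.continuousOn.pow 2).mul (((continuousOn_const.add (continuousOn_const.mul hfc)).mul
        hs3c).mono hs))
    obtain ⟨C, hC⟩ := hc.isCompact.exists_bound_of_continuousOn hcont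
    refine integrable_of_compact_M hc.isCompact (C := C)
      (hcont.aestronglyMeasurable hc.isCompact.measurableSet) hC fun z hz => ?_
    rw [image_eq_zero_of_notMem_tsupport hz]
    ring
  have i5 : Integrable (fun z => η z * (η z * s k (f z) ^ 3) * Bo84.mLap n f z)
      (μHE[n] : Measure M) := by
    have hcont : ContinuousOn (fun z => η z * (η z * s k (f z) ^ 3) * Bo84.mLap n f z) (tsupport η) :=
      (hηc.continuousOn.mul (hηc.continuousOn.mul (hs3c.mono hs))).mul (hLc.mono hs)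
    obtain ⟨C, hC⟩ := hc.isCompact.exists_bound_of_continuousOn hcont
    refine integrable_of_compact_M hc.isCompact (C := C)
      (hcont.aestronglyMeasurable hc.isCompact.measurableSet) hC fun z hz => ?_
    rw [image_eq_zero_of_notMem_tsupport hz]
    ring
  rw [integral_add (i1.const_mul _) i2, integral_const_mul] at hibp
  have hup : -∫ z, η z * (η z * s k (f z) ^ 3) * Bo84.mLap n f z ∂(μHE[n] : Measure M) ≤
      ∫ z, η z ^ 2 * ((A + B * f z) * s k (f z) ^ 3) ∂(μHE[n] : Measure M) := by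
    rw [← integral_neg]
    apply integral_mono i5.neg i4
    intro z
    show -(η z * (η z * s k (f z) ^ 3) * Bo84.mLap n f z) ≤ η z ^ 2 * ((A + B * f z) * s k (f z) ^ 3)
    by_cases hzU : z ∈ U
    · have h3 := hL z hzU
      have h4 : 0 ≤ η z ^ 2 * s k (f z) ^ 3 :=
        mul_nonneg (sq_nonneg _) (pow_nonneg (s_nonneg _ _) _)
      nlinarith [mul_le_mul_of_nonneg_left h3 h4]
    · rw [image_eq_zero_of_notMem_tsupport (f := η) fun h => hzU (hs h)]
      simp
  -- `η w ⟨Gr w, Gr η⟩ ≥ - (η² |Gr w|²/4 + w² |Gr η|²)`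
  have hlow : -((1/4) * (∫ z, η z ^ 2 * ‖Gr (n := n) w z‖ ^ 2 ∂(μHE[n] : Measure M)) +
      ∫ z, w z ^ 2 * ‖Gr (n := n) η z‖ ^ 2 ∂(μHE[n] : Measure M)) ≤
      ∫ z, (η z * w z) * inner ℝ (Gr (n := n) w z) (Gr (n := n) η z) ∂(μHE[n] : Measure M) := by
    rw [← integral_const_mul, ← integral_add (i1.const_mul _) i3, ← integral_neg]
    apply integral_mono ((i1.const_mul _).add i3).neg i2
    intro z
    show -((1/4) * (η z ^ 2 * ‖Gr (n := n) w z‖ ^ 2) + (w z ^ 2 * ‖Gr (n := n) η z‖ ^ 2)) ≤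
      (η z * w z) * inner ℝ (Gr (n := n) w z) (Gr (n := n) η z)
    have h3 : |(inner ℝ (Gr (n := n) w z) (Gr (n := n) η z) : ℝ)| ≤
        ‖Gr (n := n) w z‖ * ‖Gr (n := n) η z‖ := abs_real_inner_le_norm _ _
    have h4 : |(η z * w z) * (inner ℝ (Gr (n := n) w z) (Gr (n := n) η z) : ℝ)| ≤
        (|η z| * |w z|) * (‖Gr (n := n) w z‖ * ‖Gr (n := n) η z‖) := by
      rw [abs_mul, abs_mul]
      gcongr
    have h5 : (|η z| * |w z|) * (‖Gr (n := n) w z‖ * ‖Gr (n := n) η z‖) ≤
        (1/4) * (η z ^ 2 * ‖Gr (n := n) w z‖ ^ 2) + (w z ^ 2 * ‖Gr (n := n) η z‖ ^ 2) := by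
      rw [← sq_abs (η z), ← sq_abs (w z)]
      nlinarith [sq_nonneg ((1/2) * (|η z| * ‖Gr (n := n) w z‖) - (|w z| * ‖Gr (n := n) η z‖))]
    have h6 := neg_abs_le ((η z * w z) * (inner ℝ (Gr (n := n) w z) (Gr (n := n) η z) : ℝ))
    linarith
  linarith

end M

end Crest.Agent.R281.Sm2_593
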