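import Crest.Agent.R281.Sm2_593

/-!
# R281 (S-SUBMV, helper593), part 3: one De Giorgi step on a manifold with `Ric ≥ 0`

`Y k ρ = ∫_{closedBall x0 ρ} (f - k)₊⁴`, `-(A + B f) ≤ Δ f`, `0 ≤ k < k'`, `a < b ≤ r`:

`Y k' a ≤ (Y k b / ((k'-k)⁴ μ (ball x0 r)))^(1/n) * K * Y k b`.
-/

set_option autoImplicit false
set_option maxSynthPendingDepth 3
set_option linter.unusedSectionVars false
open Bundle Set MeasureTheory Manifold Filter Metric
open scoped ENNReal ContDiff Topology NNReal
open Crest.GeometryTopology.CoordMetric Crest.GeometryTopology.ChartCurvature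
open Crest.Agent.R249.SobA_982 Crest.Agent.R249.SobC_982 Crest.Agent.R249.SobD_982
  Crest.Agent.R249.SobE_982 Crest.Agent.R249.SobG_982 Crest.Agent.R249.SobH_982
open Crest.Agent.R247 Crest.Agent.R247.Ms322 Crest.Agent.R247.Mcp688

noncomputable section
namespace Crest.Agent.R281.Sm3_593

open Crest.Agent.R281.Sm1_593 Crest.Agent.R281.Sm2_593

section rad
variable {n : ℕ} {X : Type*} [MetricSpace X] [MeasurableSpace X] [BorelSpace X] [ProperSpace X]
  {μ : Measure X} [IsFiniteMeasureOnCompacts μ] [SFinite μ]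

lemma dbl_of_rad (C : Rad n 0 X μ) : Dbl n μ := by
  intro x r R hr hR
  have h := C.mu_ball_le le_rfl x hr hR
  rw [zero_mul, zero_div, Real.exp_zero, one_mul] at h
  have e1 : μ (ball x R) = ENNReal.ofReal (μ.real (ball x R)) :=
    (ofReal_measureReal (ball_ne_top x R)).symm
  have e2 : μ (ball x r) = ENNReal.ofReal (μ.real (ball x r)) :=
    (ofReal_measureReal (ball_ne_top x r)).symm
  have h0 : 0 ≤ R / r := div_nonneg (hr.le.trans hR) hr.le
  rw [e1, e2, ← ENNReal.ofReal_mul (by positivity)] at h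
  exact (ENNReal.ofReal_le_ofReal_iff (by positivity)).1 h

lemma poi_of_rad (C : Rad n 0 X μ) {f G : X → ℝ} (h : LG f G) : Poi (8 * 2 ^ n) μ f G := by
  intro x r hr
  have := poincR C le_rfl (LGOn.of_lg (U := univ) h) h.contG.measurable (x0 := x) hr (subset_univ _)
  simp only [mul_zero, zero_mul, Real.exp_zero, one_mul] at this
  calc _ ≤ _ := this
    _ = _ := by ring

lemma pos_of_open [μ.IsOpenPosMeasure] (x : X) (r : ℝ) (hr : 0 < r) : 0 < μ.real (ball x r) :=
  ENNReal.toReal_pos (measure_ball_pos μ x hr).ne' (ball_ne_top x r)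

end rad

/-- the constant of the step -/
def Kst (n : ℕ) (r c d : ℝ) : ℝ :=
  2 ^ (n + 1) + 48 * 8 ^ n * (8 * 2 ^ n) * r ^ 2 * (4 * c + 6 * d ^ 2)

section M
variable {n : ℕ} {M : Type*} [MetricSpace M] [ChartedSpace (EuclideanSpace ℝ (Fin n)) M]
  [IsManifold (𝓡 n) ∞ M]
  [RiemannianBundle (fun p : M => TangentSpace (𝓡 n) p)]
  [IsContMDiffRiemannianBundle (𝓡 n) ∞ (EuclideanSpace ℝ (Fin n)) (fun p : M => TangentSpace (𝓡 n) p)]
  [IsRiemannianManifold (𝓡 n) M] [CompleteSpace M]
  [MeasurableSpace M] [BorelSpace M]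

/-- **one De Giorgi step** -/
theorem step (C : Rad n 0 M (μHE[n] : Measure M)) (hn : 1 ≤ n) {x0 : M} {r a b : ℝ} (hr : 0 < r)
    (hab : a < b) (hb : b ≤ r) {U : Set M} (hU : IsOpen U) (hbU : closedBall x0 b ⊆ U)
    {f : M → ℝ} (hf : ∀ z ∈ U, ContMDiffAt (𝓡 n) 𝓘(ℝ, ℝ) 2 f z) {A B k k' : ℝ} (hA : 0 ≤ A)
    (hB : 0 ≤ B) (hk : 0 ≤ k) (hkk : k < k') (hL : ∀ z ∈ U, -(A + B * f z) ≤ Bo84.mLap n f z) :
    ∫ x in closedBall x0 a, s k' (f x) ^ 4 ∂(μHE[n] : Measure M) ≤
      ((∫ x in closedBall x0 b, s k (f x) ^ 4 ∂(μHE[n] : Measure M)) /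
        ((k' - k) ^ 4 * (μHE[n] : Measure M).real (ball x0 r))) ^ (1 / (n : ℝ)) *
      (Kst n r (A / (k' - k) + B * (1 + k / (k' - k))) (Cth / (b - a)) *
        ∫ x in closedBall x0 b, s k (f x) ^ 4 ∂(μHE[n] : Measure M)) := by
  have := HR216.properSpace_of_riemannian n M
  have := HR216.secondCountable_of_riemannian n M
  have := isLocallyFiniteMeasure n M
  have := isOpenPosMeasure n M
  have : Nonempty M := ⟨x0⟩
  have : SFinite (μHE[n] : Measure M) := inferInstance
  have hba : 0 < b - a := by linarith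
  have hkk' : 0 < k' - k := by linarith
  have hCth := Cth_pos
  set μ : Measure M := μHE[n] with hμ
  set V := μ.real (ball x0 r) with hV
  have hV0 : 0 < V := pos_of_open x0 r hr
  set c := A / (k' - k) + B * (1 + k / (k' - k)) with hc
  have hc0 : 0 ≤ c := by positivity
  set η := cut2 x0 a b with hη
  set F := dcut2 x0 a b with hF
  set w : M → ℝ := fun y => s k' (f y) ^ 2 with hw
  set G : M → ℝ := fun z => ‖Gr (n := n) w z‖ with hG
  have hwC : ∀ z ∈ U, ContMDiffAt (𝓡 n) 𝓘(ℝ, ℝ) 1 w z := fun z hz =>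
    ((contDiff_s k' 0).contDiffAt.contMDiffAt).comp z ((hf z hz).of_le (by norm_num))
  have hwL : LGOn U w G := lgOn_of_contMDiffAt hU hwC
  have hLG : LG (fun y => η y * w y) (fun y => |η y| * G y + |w y| * F y) :=
    hwL.cut (LG_cut2 hab) ((tsupport_cut2 hab).trans hbU) ((tsupport_dcut2 hab).trans hbU)
  set H : M → ℝ := fun y => |η y| * G y + |w y| * F y with hH
  have hH0 : ∀ x, b ≤ dist x x0 → H x = 0 := by
    intro x hx
    simp only [hH, hη, hF]
    rw [cut2_zero hab hx, dcut2_zero hab hx]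
    simp
  have hη0 : ∀ x, b ≤ dist x x0 → η x = 0 := fun x hx => cut2_zero hab hx
  have hHi : Integrable (fun y => H y ^ 2) μ :=
    integrable_of_zero_off (hLG.contG.pow 2) (fun x hx => by rw [hH0 x hx.le]; norm_num) (x0 := x0)
      (R := b)
  have hψi : Integrable (fun y => (η y * w y) ^ 2) μ :=
    integrable_of_zero_off (hLG.continuous.pow 2) (fun x hx => by
      rw [hη0 x hx.le, zero_mul]; norm_num) (x0 := x0) (R := b)
  -- the set `E`
  set E : Set M := ball x0 r ∩ {x | η x * w x ≠ 0} with hE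
  have hEo : IsOpen E := isOpen_ball.inter (isOpen_ne_fun hLG.continuous continuous_const)
  have hEb : ∀ x ∈ E, x ∈ closedBall x0 b := by
    intro x hx
    rw [mem_closedBall]
    by_contra h
    exact hx.2 (by rw [hη0 x (not_le.1 h).le, zero_mul])
  have hEk : ∀ x ∈ E, k' < f x := by
    intro x hx
    by_contra h
    apply hx.2
    simp only [hw]
    rw [s_of_le (not_lt.1 h)]
    simp
  have hfk := fk hn (dbl_of_rad C) (fun x r hr => pos_of_open x r hr) hLG.continuous hLG.contG
    (by positivity) (poi_of_rad C hLG) hr hEo.measurableSet (inter_subset_left : E ⊆ ball x0 r)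
  -- continuity facts on the closed ball
  have hfc : ContinuousOn f (closedBall x0 b) := fun y hy =>
    (hf y (hbU hy)).continuousAt.continuousWithinAt
  have hs4 : ∀ t : ℝ, IntegrableOn (fun x => s t (f x) ^ 4) (closedBall x0 b) μ := fun t =>
    (((continuous_s t).comp_continuousOn hfc).pow 4).integrableOn_compact (isCompact_closedBall x0 b)
  set Y := ∫ x in closedBall x0 b, s k (f x) ^ 4 ∂μ with hY
  have hY0 : 0 ≤ Y := integral_nonneg fun x => pow_nonneg (s_nonneg _ _) _
  -- `μ E`
  have hμE : μ.real E * (k' - k) ^ 4 ≤ Y := by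
    have hEfin : μ E ≠ ⊤ := ne_top_of_le_ne_top (ball_ne_top x0 r) (measure_mono inter_subset_left)
    calc μ.real E * (k' - k) ^ 4 = ∫ x in E, (k' - k) ^ 4 ∂μ := by
          rw [setIntegral_const, smul_eq_mul]
      _ ≤ ∫ x in E, s k (f x) ^ 4 ∂μ := by
          apply setIntegral_mono_on (integrableOn_const (hs := hEfin)) ((hs4 k).mono_set hEb)
            hEo.measurableSet
          intro x hx
          have := hEk x hx
          rw [s_of_ge (by linarith)]
          gcongr
      _ ≤ Y := setIntegral_mono_set (hs4 k) (Eventually.of_forall fun x =>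
          pow_nonneg (s_nonneg _ _) _) (show E ⊆ closedBall x0 b from hEb).eventuallyLE
  -- left side
  have hlhs : ∫ x in closedBall x0 a, s k' (f x) ^ 4 ∂μ ≤ ∫ x in E, (η x * w x) ^ 2 ∂μ := by
    have e1 : ∫ x in E, (η x * w x) ^ 2 ∂μ = ∫ x in ball x0 r, (η x * w x) ^ 2 ∂μ := by
      symm
      apply setIntegral_eq_of_subset_of_forall_sdiff_eq_zero isOpen_ball.measurableSet
        inter_subset_left
      intro x hx
      by_contra h
      exact hx.2 ⟨hx.1, fun h' => h (by rw [h']; norm_num)⟩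
    rw [e1]
    calc ∫ x in closedBall x0 a, s k' (f x) ^ 4 ∂μ = ∫ x in closedBall x0 a, (η x * w x) ^ 2 ∂μ := by
          apply setIntegral_congr_fun isClosed_closedBall.measurableSet
          intro x hx
          simp only [hη, hw]
          rw [cut2_one hab hx, one_mul]
          ring
      _ ≤ _ := setIntegral_mono_set hψi.integrableOn (Eventually.of_forall fun x => sq_nonneg _)
          (closedBall_subset_ball (by linarith)).eventuallyLE
  -- `∫ ψ²`
  have hwY : ∀ x, w x ^ 2 ≤ s k (f x) ^ 4 := by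
    intro x
    simp only [hw]
    have h1 := s_anti hkk.le (f x)
    have h2 := s_nonneg k' (f x)
    calc (s k' (f x) ^ 2) ^ 2 = s k' (f x) ^ 4 := by ring
      _ ≤ _ := by gcongr
  have hI1 : ∫ y in ball x0 (2 * r), (η y * w y) ^ 2 ∂μ ≤ Y := by
    have e : ∫ y in ball x0 (2 * r), (η y * w y) ^ 2 ∂μ ≤ ∫ y, (η y * w y) ^ 2 ∂μ :=
      setIntegral_le_integral hψi (Eventually.of_forall fun x => sq_nonneg _)
    have e2 : ∫ y, (η y * w y) ^ 2 ∂μ = ∫ y in closedBall x0 b, (η y * w y) ^ 2 ∂μ := by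
      symm
      apply setIntegral_eq_integral_of_forall_compl_eq_zero
      intro x hx
      rw [hη0 x (by
        have : ¬ dist x x0 ≤ b := hx
        linarith)]
      norm_num
    refine e.trans (e2.le.trans ?_)
    apply integral_mono hψi.integrableOn (hs4 k)
    intro x
    show (η x * w x) ^ 2 ≤ s k (f x) ^ 4
    have h1 := cut2_le_one x0 a b x
    have h2 := cut2_nonneg x0 a b x
    rw [mul_pow]
    calc η x ^ 2 * w x ^ 2 ≤ 1 * w x ^ 2 := by
          gcongr
          exact pow_le_one₀ h2 h1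
      _ ≤ _ := by rw [one_mul]; exact hwY x
  -- Caccioppoli
  have hηlip : LipschitzWith (Real.toNNReal (Cth / (b - a))) η :=
    LipschitzWith.of_dist_le_mul fun x y => by
      rw [Real.dist_eq, Real.coe_toNNReal _ (by positivity)]
      exact cut2_lip hab x y
  have hηc : HasCompactSupport η :=
    HasCompactSupport.intro (isCompact_closedBall x0 b) fun x hx => hη0 x (by
      have : ¬ dist x x0 ≤ b := hx
      linarith)
  have hcacc := cacc4 hU hf (k := k') hL hηlip.locallyLipschitz hηc ((tsupport_cut2 hab).trans hbU)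
  have hGη : ∀ z, ‖Gr (n := n) η z‖ ≤ Cth / (b - a) := by
    intro z
    have := norm_Gr_le_of_lipschitzOn (n := n) (z := z) (U := univ) univ_mem hηlip.lipschitzOnWith
    rwa [Real.coe_toNNReal _ (by positivity)] at this
  set d := Cth / (b - a) with hd
  have hd0 : 0 ≤ d := by positivity
  have hGc : ContinuousOn G (closedBall x0 b) := fun y hy =>
    (hwL.contG y (hbU hy)).continuousWithinAt
  have hwc : ContinuousOn w (closedBall x0 b) := fun y hy =>
    (hwL.continuousAt (hbU hy)).continuousWithinAt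
  have hηcont : ContinuousOn η (closedBall x0 b) := hηlip.continuous.continuousOn
  have hiη : IntegrableOn (fun x => η x ^ 2 * G x ^ 2) (closedBall x0 b) μ :=
    ((hηcont.pow 2).mul (hGc.pow 2)).integrableOn_compact (isCompact_closedBall x0 b)
  have hc1 : ∫ z, η z ^ 2 * ((A + B * f z) * s k' (f z) ^ 3) ∂μ ≤ c * Y := by
    have e : ∫ z, η z ^ 2 * ((A + B * f z) * s k' (f z) ^ 3) ∂μ =
        ∫ z in closedBall x0 b, η z ^ 2 * ((A + B * f z) * s k' (f z) ^ 3) ∂μ := by
      symm
      apply setIntegral_eq_integral_of_forall_compl_eq_zero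
      intro x hx
      rw [hη0 x (by
        have : ¬ dist x x0 ≤ b := hx
        linarith)]
      norm_num
    rw [e, hY, ← integral_const_mul]
    apply setIntegral_mono_on _ ((hs4 k).const_mul _) isClosed_closedBall.measurableSet
    · intro x hx
      show η x ^ 2 * ((A + B * f x) * s k' (f x) ^ 3) ≤ c * s k (f x) ^ 4
      have h1 := cut2_le_one x0 a b x
      have h2 := cut2_nonneg x0 a b x
      have h3 : η x ^ 2 ≤ 1 := pow_le_one₀ h2 h1
      rcases le_total (f x) k' with h | h
      · rw [s_of_le h]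
        have := s_nonneg k (f x)
        simp only [ne_eq, OfNat.ofNat_ne_zero, not_false_eq_true, zero_pow, mul_zero]
        positivity
      · have hs1 : s k (f x) = f x - k := s_of_ge (by linarith)
        have hs2 : s k' (f x) = f x - k' := s_of_ge h
        have hs3 : s k' (f x) ≤ s k (f x) := s_anti hkk.le _
        have hs0 : 0 ≤ s k' (f x) := s_nonneg _ _
        set S := s k (f x) with hS
        have hSk : k' - k ≤ S := by rw [hs1]; linarith
        have hS0 : 0 < S := hkk'.trans_le hSk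
        have hfx : f x = S + k := by rw [hs1]; ring
        have h5 : A + B * f x ≤ c * S := by
          have q1 : 1 ≤ S / (k' - k) := by rwa [one_le_div hkk']
          have q2 : A ≤ A / (k' - k) * S := by
            have := mul_le_mul_of_nonneg_left q1 hA
            calc A = A * 1 := (mul_one A).symm
              _ ≤ _ := this
              _ = _ := by ring
          have q3 : k ≤ k / (k' - k) * S := by
            have := mul_le_mul_of_nonneg_left q1 hk
            calc k = k * 1 := (mul_one k).symm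
              _ ≤ _ := this
              _ = _ := by ring
          have q4 : B * f x ≤ B * (1 + k / (k' - k)) * S := by
            rw [hfx, mul_assoc]
            gcongr
            linarith
          rw [hc]
          linarith
        have h6 : 0 ≤ A + B * f x := by
          have : 0 ≤ f x := by linarith
          positivity
        calc η x ^ 2 * ((A + B * f x) * s k' (f x) ^ 3) ≤ 1 * ((c * S) * S ^ 3) := by
              gcongr
          _ = c * S ^ 4 := by ring
    · have hcont : ContinuousOn (fun z => η z ^ 2 * ((A + B * f z) * s k' (f z) ^ 3))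
          (closedBall x0 b) := (hηcont.pow 2).mul ((continuousOn_const.add
            (continuousOn_const.mul hfc)).mul (((continuous_s k').comp_continuousOn hfc).pow 3))
      exact hcont.integrableOn_compact (isCompact_closedBall x0 b)
  have hc2 : ∫ z, (s k' (f z) ^ 2) ^ 2 * ‖Gr (n := n) η z‖ ^ 2 ∂μ ≤ d ^ 2 * Y := by
    have e : ∫ z, (s k' (f z) ^ 2) ^ 2 * ‖Gr (n := n) η z‖ ^ 2 ∂μ =
        ∫ z in closedBall x0 b, (s k' (f z) ^ 2) ^ 2 * ‖Gr (n := n) η z‖ ^ 2 ∂μ := by
      symm
      apply setIntegral_eq_integral_of_forall_compl_eq_zero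
      intro x hx
      rw [Gr_zero_off fun h => hx (tsupport_cut2 hab h), norm_zero]
      norm_num
    rw [e, hY, ← integral_const_mul]
    apply integral_mono_of_nonneg (Eventually.of_forall fun x => by positivity)
      ((hs4 k).const_mul _)
    refine Eventually.of_forall fun x => ?_
    show (s k' (f x) ^ 2) ^ 2 * ‖Gr (n := n) η x‖ ^ 2 ≤ d ^ 2 * s k (f x) ^ 4
    rw [mul_comm]
    have := hwY x
    simp only [hw] at this
    gcongr
    exact hGη x
  have h4 : ∫ x in closedBall x0 b, η x ^ 2 * G x ^ 2 ∂μ = ∫ x, η x ^ 2 * G x ^ 2 ∂μ := by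
    apply setIntegral_eq_integral_of_forall_compl_eq_zero
    intro x hx
    rw [hη0 x (by
      have : ¬ dist x x0 ≤ b := hx
      linarith)]
    norm_num
  have h3 : ∫ x, H x ^ 2 ∂μ ≤ 2 * (∫ x, η x ^ 2 * G x ^ 2 ∂μ) + 2 * (d ^ 2 * Y) := by
    have e : ∫ x, H x ^ 2 ∂μ = ∫ x in closedBall x0 b, H x ^ 2 ∂μ := by
      symm
      apply setIntegral_eq_integral_of_forall_compl_eq_zero
      intro x hx
      rw [hH0 x (by
        have : ¬ dist x x0 ≤ b := hx
        linarith)]
      norm_num
    rw [e, ← h4, hY, ← integral_const_mul, ← integral_const_mul, ← integral_const_mul,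
      ← integral_add (hiη.const_mul _) (((hs4 k).const_mul _).const_mul _)]
    apply integral_mono hHi.integrableOn ((hiη.const_mul _).add (((hs4 k).const_mul _).const_mul _))
    intro x
    show H x ^ 2 ≤ 2 * (η x ^ 2 * G x ^ 2) + 2 * (d ^ 2 * s k (f x) ^ 4)
    have a2 : F x ≤ d := dcut2_le hab
    have a3 : 0 ≤ F x := dcut2_nonneg hab
    have a4 : H x ^ 2 ≤ 2 * (|η x| * G x) ^ 2 + 2 * (|w x| * F x) ^ 2 := by
      simp only [hH]
      nlinarith [sq_nonneg (|η x| * G x - |w x| * F x)]
    have a5 : (|η x| * G x) ^ 2 = η x ^ 2 * G x ^ 2 := by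
      rw [mul_pow, sq_abs]
    have a6 : (|w x| * F x) ^ 2 ≤ d ^ 2 * s k (f x) ^ 4 := by
      rw [mul_pow, sq_abs, mul_comm]
      have := hwY x
      gcongr
    linarith
  have hI2 : ∫ y in ball x0 (3 * r), H y ^ 2 ∂μ ≤ (4 * c + 6 * d ^ 2) * Y := by
    have e : ∫ y in ball x0 (3 * r), H y ^ 2 ∂μ ≤ ∫ y, H y ^ 2 ∂μ :=
      setIntegral_le_integral hHi (Eventually.of_forall fun x => sq_nonneg _)
    have h7 : ∫ x, η x ^ 2 * G x ^ 2 ∂μ ≤ 2 * (c * Y) + 2 * (d ^ 2 * Y) := by
      refine hcacc.trans ?_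
      linarith
    linarith
  -- conclusion
  have hτ : μ.real E / V ≤ Y / ((k' - k) ^ 4 * V) := by
    rw [div_le_div_iff₀ hV0 (by positivity)]
    calc μ.real E * ((k' - k) ^ 4 * V) = (μ.real E * (k' - k) ^ 4) * V := by ring
      _ ≤ Y * V := by gcongr
  calc ∫ x in closedBall x0 a, s k' (f x) ^ 4 ∂μ ≤ ∫ x in E, (η x * w x) ^ 2 ∂μ := hlhs
    _ ≤ _ := hfk
    _ ≤ (Y / ((k' - k) ^ 4 * V)) ^ (1 / (n : ℝ)) *
        (2 ^ (n + 1) * Y + 48 * 8 ^ n * (8 * 2 ^ n) * r ^ 2 * ((4 * c + 6 * d ^ 2) * Y)) := by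
        have i1 : 0 ≤ ∫ y in ball x0 (2 * r), (η y * w y) ^ 2 ∂μ := integral_nonneg fun _ => sq_nonneg _
        have i2 : 0 ≤ ∫ y in ball x0 (3 * r), H y ^ 2 ∂μ := integral_nonneg fun _ => sq_nonneg _
        apply mul_le_mul _ _ (by positivity) (by positivity)
        · exact Real.rpow_le_rpow (by positivity) hτ (by positivity)
        · gcongr
    _ = _ := by
        rw [Kst]
        ring

end M

end Crest.Agent.R281.Sm3_593
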