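import Crest.Agent.R281.Sm3_593

/-!
# R281 (S-SUBMV, helper593), part 4: De Giorgi iteration; the sub-mean value inequality (DG1)

`M` complete with `Ric ≥ 0` (`C : Rad n 0 M μHE[n]`), any dimension, any volume growth.

* `dg4` : `L⁴` version;
* `dg1` : `-(A + B f) ≤ Δ f` on a neighbourhood of `closedBall x0 r`, `B r² ≤ 1` ⟹
  `f ≤ CDG n * (mean_{ball x0 r} f⁺ + A r²)` on `closedBall x0 (r/2)`.
-/

set_option autoImplicit false
set_option maxSynthPendingDepth 3
set_option linter.unusedSectionVars false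
open Bundle Set MeasureTheory Manifold Filter Metric
open scoped ENNReal ContDiff Topology NNReal
open Crest.GeometryTopology.CoordMetric Crest.GeometryTopology.ChartCurvature
open Crest.Agent.R249.SobA_982 Crest.Agent.R249.SobC_982 Crest.Agent.R249.SobD_982
  Crest.Agent.R249.SobE_982 Crest.Agent.R249.SobG_982 Crest.Agent.R249.SobH_982
open Crest.Agent.R247 Crest.Agent.R247.Ms322 Crest.Agent.R247.Mcp688

noncomputable section
namespace Crest.Agent.R281.Sm4_593

open Crest.Agent.R281.Sm1_593 Crest.Agent.R281.Sm2_593 Crest.Agent.R281.Sm3_593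

section num

lemma iterZ {n : ℕ} (hn : 1 ≤ n) {K : ℝ} (hK : 0 < K) {Z : ℕ → ℝ} (hZ : ∀ j, 0 ≤ Z j)
    (h : ∀ j, Z (j + 1) ≤ K * 64 ^ j * (Z j * (Z j) ^ (1 / (n : ℝ))))
    (h0 : Z 0 ≤ ((K * 64 ^ n)⁻¹) ^ n) (j : ℕ) : Z j ≤ Z 0 * (((64:ℝ) ^ n)⁻¹) ^ j := by
  have hn0 : (0:ℝ) < n := by exact_mod_cast hn
  have hroot : ∀ x : ℝ, 0 ≤ x → (x ^ n) ^ (1 / (n : ℝ)) = x := by
    intro x hx
    rw [← Real.rpow_natCast, ← Real.rpow_mul hx, mul_one_div_cancel hn0.ne', Real.rpow_one]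
  have hZ0 : (Z 0) ^ (1 / (n : ℝ)) ≤ (K * 64 ^ n)⁻¹ := by
    have h1 := Real.rpow_le_rpow (hZ 0) h0 (z := 1 / (n : ℝ)) (by positivity)
    rwa [hroot _ (by positivity)] at h1
  induction j with
  | zero => simp
  | succ j ih =>
    have h1 : (Z j) ^ (1 / (n : ℝ)) ≤ (K * 64 ^ n)⁻¹ * ((64:ℝ)⁻¹) ^ j := by
      have h2 := Real.rpow_le_rpow (hZ j) ih (z := 1 / (n : ℝ)) (by positivity)
      refine h2.trans ?_
      rw [Real.mul_rpow (hZ 0) (by positivity)]
      have e : ((((64:ℝ) ^ n)⁻¹) ^ j) ^ (1 / (n : ℝ)) = ((64:ℝ)⁻¹) ^ j := by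
        rw [← inv_pow, ← pow_mul, mul_comm n j, pow_mul]
        exact hroot _ (by positivity)
      rw [e]
      gcongr
    calc Z (j + 1) ≤ K * 64 ^ j * (Z j * (Z j) ^ (1 / (n : ℝ))) := h j
      _ ≤ K * 64 ^ j * ((Z 0 * (((64:ℝ) ^ n)⁻¹) ^ j) * ((K * 64 ^ n)⁻¹ * ((64:ℝ)⁻¹) ^ j)) := by
          have := hZ j
          have := hZ 0
          gcongr
      _ = Z 0 * (((64:ℝ) ^ n)⁻¹) ^ (j + 1) * (K * K⁻¹) * (64 ^ j * ((64:ℝ)⁻¹) ^ j) := by
          rw [pow_succ, mul_inv]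
          ring
      _ = _ := by
          rw [mul_inv_cancel₀ hK.ne', ← mul_pow, mul_inv_cancel₀ (by norm_num), one_pow, mul_one,
            mul_one]

lemma rpow_le_self {n : ℕ} (hn : 1 ≤ n) {a : ℝ} (ha : 1 ≤ a) : a ^ (1 / (n : ℝ)) ≤ a := by
  have hn0 : (1:ℝ) ≤ n := by exact_mod_cast hn
  calc a ^ (1 / (n : ℝ)) ≤ a ^ (1 : ℝ) := by
        apply Real.rpow_le_rpow_of_exponent_le ha
        rw [div_le_one (by linarith)]; exact hn0
    _ = a := Real.rpow_one a

/-- constant of one step -/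
def K1 (n : ℕ) : ℝ := 2 ^ (n + 1) + 384 * 16 ^ n * (20 + 1536 * Cth ^ 2)

lemma K1_pos (n : ℕ) : 0 < K1 n := by unfold K1; positivity

/-- smallness constant -/
def eps (n : ℕ) : ℝ := ((16 * K1 n * 64 ^ n)⁻¹) ^ n

lemma eps_pos (n : ℕ) : 0 < eps n := by
  have := K1_pos n
  unfold eps; positivity

/-- the constant of the sub-mean value inequality -/
def CDG (n : ℕ) : ℝ := 2 ^ (n + 1) + 16 * 64 ^ n / eps n

lemma CDG_pos (n : ℕ) : 0 < CDG n := by
  have := eps_pos n
  unfold CDG; positivity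

lemma Kst_le {n j : ℕ} {r A B H : ℝ} (hr : 0 < r) (_hA : 0 ≤ A) (_hB : 0 ≤ B) (hH : 0 < H)
    (hAr : A * r ^ 2 ≤ H) (hBr : B * r ^ 2 ≤ 1) {c d : ℝ}
    (hc : c ≤ A / (H * (1 / 2) ^ (j + 1)) + B * (1 + H / (H * (1 / 2) ^ (j + 1))))
    (hd0 : 0 ≤ d) (hd : d ≤ Cth / (r / 16 * (1 / 2) ^ j)) :
    Kst n r c d ≤ 4 ^ j * K1 n := by
  have hC := Cth_pos
  have h2 : (1:ℝ) ≤ 2 ^ j := one_le_pow₀ (by norm_num)
  have h4 : (2:ℝ) ^ j ≤ 4 ^ j := pow_le_pow_left₀ (by norm_num) (by norm_num) j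
  have h41 : (1:ℝ) ≤ 4 ^ j := h2.trans h4
  have e1 : A / (H * (1 / 2) ^ (j + 1)) = A / H * (2 * 2 ^ j) := by
    rw [one_div, inv_pow, pow_succ]
    field_simp
  have e2 : H / (H * (1 / 2) ^ (j + 1)) = 2 * 2 ^ j := by
    rw [one_div, inv_pow, pow_succ]
    field_simp
  have hrc : r ^ 2 * c ≤ 5 * 4 ^ j := by
    have h5 : r ^ 2 * c ≤ r ^ 2 * (A / H * (2 * 2 ^ j) + B * (1 + 2 * 2 ^ j)) := by
      rw [← e1, ← e2]; gcongr
    have h6 : r ^ 2 * (A / H * (2 * 2 ^ j) + B * (1 + 2 * 2 ^ j)) =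
        (A * r ^ 2) / H * (2 * 2 ^ j) + (B * r ^ 2) * (1 + 2 * 2 ^ j) := by ring
    have h7 : (A * r ^ 2) / H ≤ 1 := by rwa [div_le_one hH]
    have h8 : (A * r ^ 2) / H * (2 * 2 ^ j) ≤ 1 * (2 * 2 ^ j) := by gcongr
    have h9 : (B * r ^ 2) * (1 + 2 * 2 ^ j) ≤ 1 * (1 + 2 * 2 ^ j) := by gcongr
    linarith
  have hrd : r ^ 2 * d ^ 2 ≤ 256 * Cth ^ 2 * 4 ^ j := by
    have h5 : d ^ 2 ≤ (Cth / (r / 16 * (1 / 2) ^ j)) ^ 2 := by gcongr
    have h6 : r ^ 2 * (Cth / (r / 16 * (1 / 2) ^ j)) ^ 2 = 256 * Cth ^ 2 * 4 ^ j := by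
      rw [show (4:ℝ) ^ j = 2 ^ j * 2 ^ j by rw [← mul_pow]; norm_num, one_div, inv_pow]
      field_simp
      norm_num
    calc r ^ 2 * d ^ 2 ≤ r ^ 2 * (Cth / (r / 16 * (1 / 2) ^ j)) ^ 2 := by gcongr
      _ = _ := h6
  have h16 : (8:ℝ) ^ n * (8 * 2 ^ n) = 8 * 16 ^ n := by
    rw [show (16:ℝ) ^ n = 8 ^ n * 2 ^ n by rw [← mul_pow]; norm_num]; ring
  have e3 : Kst n r c d = 2 ^ (n + 1) + 384 * 16 ^ n * (4 * (r ^ 2 * c) + 6 * (r ^ 2 * d ^ 2)) := by
    rw [Kst, mul_assoc (48:ℝ), h16]; ring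
  rw [e3, K1]
  have h10 : (2:ℝ) ^ (n + 1) ≤ 4 ^ j * 2 ^ (n + 1) := by
    have : (0:ℝ) < 2 ^ (n + 1) := by positivity
    nlinarith
  have h11 : 384 * 16 ^ n * (4 * (r ^ 2 * c) + 6 * (r ^ 2 * d ^ 2)) ≤
      384 * 16 ^ n * (4 * (5 * 4 ^ j) + 6 * (256 * Cth ^ 2 * 4 ^ j)) := by gcongr
  calc _ ≤ 4 ^ j * 2 ^ (n + 1) + 384 * 16 ^ n * (4 * (5 * 4 ^ j) + 6 * (256 * Cth ^ 2 * 4 ^ j)) :=
        add_le_add h10 h11
    _ = _ := by ring

end num

section M
variable {n : ℕ} {M : Type*} [MetricSpace M] [ChartedSpace (EuclideanSpace ℝ (Fin n)) M]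
  [IsManifold (𝓡 n) ∞ M]
  [RiemannianBundle (fun p : M => TangentSpace (𝓡 n) p)]
  [IsContMDiffRiemannianBundle (𝓡 n) ∞ (EuclideanSpace ℝ (Fin n)) (fun p : M => TangentSpace (𝓡 n) p)]
  [IsRiemannianManifold (𝓡 n) M] [CompleteSpace M]
  [MeasurableSpace M] [BorelSpace M]

/-- **De Giorgi iteration**, `L⁴` version. -/
theorem dg4 (C : Rad n 0 M (μHE[n] : Measure M)) (hn : 1 ≤ n) {x0 : M} {r : ℝ} (hr : 0 < r)
    {U : Set M} (hU : IsOpen U) (hrU : closedBall x0 (3 * r / 4) ⊆ U)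
    {f : M → ℝ} (hf : ∀ z ∈ U, ContMDiffAt (𝓡 n) 𝓘(ℝ, ℝ) 2 f z) {A B H : ℝ} (hA : 0 ≤ A)
    (hB : 0 ≤ B) (hH : 0 < H) (hAr : A * r ^ 2 ≤ H) (hBr : B * r ^ 2 ≤ 1)
    (hL : ∀ z ∈ U, -(A + B * f z) ≤ Bo84.mLap n f z)
    (h0 : ∫ x in closedBall x0 (3 * r / 4), s 0 (f x) ^ 4 ∂(μHE[n] : Measure M) ≤
      eps n * (H ^ 4 * (μHE[n] : Measure M).real (ball x0 r))) {x : M}
    (hx : x ∈ closedBall x0 (r / 2)) : f x ≤ H := by
  have := HR216.properSpace_of_riemannian n M
  have := HR216.secondCountable_of_riemannian n M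
  have := isLocallyFiniteMeasure n M
  have := isOpenPosMeasure n M
  have : Nonempty M := ⟨x0⟩
  set μ : Measure M := μHE[n] with hμ
  set V := μ.real (ball x0 r) with hV
  have hV0 : 0 < V := pos_of_open x0 r hr
  have hHV : 0 < H ^ 4 * V := by positivity
  set ρ : ℕ → ℝ := fun j => 5 * r / 8 + r / 8 * (1 / 2) ^ j with hρ
  set k : ℕ → ℝ := fun j => H * (1 - (1 / 2) ^ j) with hk
  have hp1 : ∀ j : ℕ, (1 / 2 : ℝ) ^ j ≤ 1 := fun j => pow_le_one₀ (by norm_num) (by norm_num)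
  have hp0 : ∀ j : ℕ, 0 < (1 / 2 : ℝ) ^ j := fun j => by positivity
  have hρle : ∀ j, ρ j ≤ 3 * r / 4 := fun j => by
    have := hp1 j
    simp only [hρ]
    nlinarith
  have hρge : ∀ j, 5 * r / 8 ≤ ρ j := fun j => by
    have := hp0 j
    simp only [hρ]
    have : 0 < r / 8 * (1 / 2) ^ j := by positivity
    linarith
  have hρs : ∀ j, ρ j - ρ (j + 1) = r / 16 * (1 / 2) ^ j := fun j => by
    simp only [hρ, pow_succ]; ring
  have hks : ∀ j, k (j + 1) - k j = H * (1 / 2) ^ (j + 1) := fun j => by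
    simp only [hk, pow_succ]; ring
  have hk0 : ∀ j, 0 ≤ k j := fun j => by
    simp only [hk]
    exact mul_nonneg hH.le (by linarith [hp1 j])
  have hkH : ∀ j, k j ≤ H := fun j => by
    simp only [hk]
    have := hp0 j
    nlinarith
  set Y : ℕ → ℝ := fun j => ∫ x in closedBall x0 (ρ j), s (k j) (f x) ^ 4 ∂μ with hY
  have hY0 : ∀ j, 0 ≤ Y j := fun j => integral_nonneg fun x => pow_nonneg (s_nonneg _ _) _
  have hρU : ∀ j, closedBall x0 (ρ j) ⊆ U := fun j =>
    (closedBall_subset_closedBall (hρle j)).trans hrU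
  have hfc : ∀ j, ContinuousOn f (closedBall x0 (ρ j)) := fun j y hy =>
    (hf y (hρU j hy)).continuousAt.continuousWithinAt
  set Z : ℕ → ℝ := fun j => Y j / (H ^ 4 * V) with hZ
  have hZ0 : ∀ j, 0 ≤ Z j := fun j => div_nonneg (hY0 j) hHV.le
  have hstep : ∀ j, Z (j + 1) ≤ (16 * K1 n) * 64 ^ j * (Z j * (Z j) ^ (1 / (n : ℝ))) := by
    intro j
    have hab : ρ (j + 1) < ρ j := by
      have := hρs j
      have : 0 < r / 16 * (1 / 2) ^ j := by positivity
      linarith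
    have hkk : k j < k (j + 1) := by
      have := hks j
      have : 0 < H * (1 / 2) ^ (j + 1) := by positivity
      linarith
    have h := step C hn hr hab (by linarith [hρle j]) hU (hρU j) hf hA hB (hk0 j) hkk hL
    rw [hks j, hρs j] at h
    have hKst : Kst n r (A / (H * (1 / 2) ^ (j + 1)) + B * (1 + k j / (H * (1 / 2) ^ (j + 1))))
        (Cth / (r / 16 * (1 / 2) ^ j)) ≤ 4 ^ j * K1 n := by
      apply Kst_le hr hA hB hH hAr hBr _ (by have := Cth_pos; positivity) le_rfl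
      gcongr
      exact hkH j
    have e1 : Y j / ((H * (1 / 2) ^ (j + 1)) ^ 4 * V) = 16 ^ (j + 1) * Z j := by
      simp only [hZ]
      rw [mul_pow, ← pow_mul, mul_comm (j + 1) 4, pow_mul]
      rw [show ((1:ℝ) / 2) ^ 4 = (16:ℝ)⁻¹ by norm_num, inv_pow]
      field_simp
    have h1 : Y (j + 1) ≤ (16 ^ (j + 1) * Z j) ^ (1 / (n : ℝ)) * ((4 ^ j * K1 n) * Y j) := by
      rw [← e1]
      refine h.trans ?_
      have : 0 ≤ Y j := hY0 j
      have : 0 ≤ Y j / ((H * (1 / 2) ^ (j + 1)) ^ 4 * V) := by positivity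
      gcongr
    have h2 : (16 ^ (j + 1) * Z j) ^ (1 / (n : ℝ)) ≤ 16 ^ (j + 1) * (Z j) ^ (1 / (n : ℝ)) := by
      rw [Real.mul_rpow (by positivity) (hZ0 j)]
      have := rpow_le_self hn (a := (16:ℝ) ^ (j + 1)) (one_le_pow₀ (by norm_num))
      have h3 : 0 ≤ (Z j) ^ (1 / (n : ℝ)) := Real.rpow_nonneg (hZ0 j) _
      gcongr
    have hK := K1_pos n
    calc Z (j + 1) = Y (j + 1) / (H ^ 4 * V) := rfl
      _ ≤ (16 ^ (j + 1) * (Z j) ^ (1 / (n : ℝ)) * ((4 ^ j * K1 n) * Y j)) / (H ^ 4 * V) := by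
          have := hY0 j
          gcongr
          exact h1.trans (by gcongr)
      _ = 16 ^ (j + 1) * (Z j) ^ (1 / (n : ℝ)) * (4 ^ j * K1 n) * Z j := by
          simp only [hZ]; ring
      _ = _ := by
          rw [show (64:ℝ) ^ j = 16 ^ j * 4 ^ j by rw [← mul_pow]; norm_num, pow_succ]
          ring
  have hρ0 : ρ 0 = 3 * r / 4 := by simp only [hρ]; ring
  have hk00 : k 0 = 0 := by simp [hk]
  have hZ00 : Z 0 ≤ ((16 * K1 n * 64 ^ n)⁻¹) ^ n := by
    simp only [hZ, hY]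
    rw [div_le_iff₀ hHV, hρ0, hk00]
    exact h0
  have hit := iterZ hn (by have := K1_pos n; positivity) hZ0 hstep hZ00
  -- conclusion
  by_contra hlt
  rw [not_le] at hlt
  have hxr : dist x x0 ≤ r / 2 := hx
  have hxU : x ∈ U := hrU (mem_closedBall.2 (by linarith))
  have hev : ∀ᶠ y in 𝓝 x, (H + f x) / 2 < f y ∧ y ∈ ball x (r / 8) :=
    ((hf x hxU).continuousAt.eventually_const_lt (by linarith)).and (ball_mem_nhds x (by positivity))
  obtain ⟨δ, hδ, hδB⟩ := Metric.eventually_nhds_iff_ball.1 hev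
  have hm : 0 < μ.real (ball x δ) := pos_of_open x δ hδ
  set e := (f x - H) / 2 with he
  have he0 : 0 < e := by simp only [he]; linarith
  have hlow : ∀ j, μ.real (ball x δ) * e ^ 4 ≤ Y j := by
    intro j
    have hsub : ball x δ ⊆ closedBall x0 (ρ j) := by
      intro y hy
      have h1 := mem_ball.1 (hδB y hy).2
      have h2 := dist_triangle y x x0
      have h3 := hρge j
      rw [mem_closedBall]
      linarith
    have hi : IntegrableOn (fun y => s (k j) (f y) ^ 4) (closedBall x0 (ρ j)) μ :=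
      (((continuous_s _).comp_continuousOn (hfc j)).pow 4).integrableOn_compact
        (isCompact_closedBall _ _)
    calc μ.real (ball x δ) * e ^ 4 = ∫ y in ball x δ, e ^ 4 ∂μ := by
          rw [setIntegral_const, smul_eq_mul]
      _ ≤ ∫ y in ball x δ, s (k j) (f y) ^ 4 ∂μ := by
          apply setIntegral_mono_on (integrableOn_const (hs := ball_ne_top x δ)) (hi.mono_set hsub)
            isOpen_ball.measurableSet
          intro y hy
          have h1 := (hδB y hy).1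
          have h2 := hkH j
          rw [s_of_ge (by linarith)]
          have : e ≤ f y - k j := by simp only [he]; linarith
          gcongr
      _ ≤ Y j := setIntegral_mono_set hi (Eventually.of_forall fun y =>
          pow_nonneg (s_nonneg _ _) _) hsub.eventuallyLE
  have hlim : Tendsto (fun j => (H ^ 4 * V) * (Z 0 * (((64:ℝ) ^ n)⁻¹) ^ j)) atTop
      (𝓝 ((H ^ 4 * V) * (Z 0 * 0))) := by
    apply Tendsto.const_mul
    apply Tendsto.const_mul
    apply tendsto_pow_atTop_nhds_zero_of_lt_one (by positivity)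
    apply inv_lt_one_of_one_lt₀
    exact one_lt_pow₀ (by norm_num) (by omega)
  rw [mul_zero, mul_zero] at hlim
  have hle : μ.real (ball x δ) * e ^ 4 ≤ 0 := by
    refine ge_of_tendsto' hlim fun j => ?_
    have h1 : Y j = (H ^ 4 * V) * Z j := by
      simp only [hZ]
      field_simp
    calc _ ≤ Y j := hlow j
      _ = (H ^ 4 * V) * Z j := h1
      _ ≤ _ := by gcongr; exact hit j
  have : 0 < μ.real (ball x δ) * e ^ 4 := by positivity
  linarith

/-- **Sub-mean value inequality** (DG1). -/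
theorem dg1 (C : Rad n 0 M (μHE[n] : Measure M)) (hn : 1 ≤ n) {x0 : M} {r : ℝ} (hr : 0 < r)
    {U : Set M} (hU : IsOpen U) (hrU : closedBall x0 r ⊆ U)
    {f : M → ℝ} (hf : ∀ z ∈ U, ContMDiffAt (𝓡 n) 𝓘(ℝ, ℝ) 2 f z) {A B : ℝ} (hA : 0 ≤ A)
    (hB : 0 ≤ B) (hBr : B * r ^ 2 ≤ 1)
    (hL : ∀ z ∈ U, -(A + B * f z) ≤ Bo84.mLap n f z) {x : M} (hx : x ∈ closedBall x0 (r / 2)) :
    f x ≤ CDG n * (((μHE[n] : Measure M).real (ball x0 r))⁻¹ *
      (∫ y in ball x0 r, max (f y) 0 ∂(μHE[n] : Measure M)) + A * r ^ 2) := by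
  have := HR216.properSpace_of_riemannian n M
  have := HR216.secondCountable_of_riemannian n M
  have := isLocallyFiniteMeasure n M
  have := isOpenPosMeasure n M
  have : Nonempty M := ⟨x0⟩
  set μ : Measure M := μHE[n] with hμ
  set V := μ.real (ball x0 r) with hV
  have hV0 : 0 < V := pos_of_open x0 r hr
  set I := ∫ y in ball x0 r, max (f y) 0 ∂μ with hI
  have hI0 : 0 ≤ I := integral_nonneg fun y => le_max_right _ _
  have heps := eps_pos n
  have hfc : ContinuousOn f (closedBall x0 r) := fun y hy =>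
    (hf y (hrU hy)).continuousAt.continuousWithinAt
  have hsmax : ∀ t : ℝ, s 0 t = max t 0 := fun t => by unfold s; rw [sub_zero]
  -- the maximum point
  set g : M → ℝ := fun y => (r - dist y x0) ^ n * s 0 (f y) with hg
  have hgc : ContinuousOn g (closedBall x0 r) := by
    apply ContinuousOn.mul
    · exact (Continuous.pow (by fun_prop) n).continuousOn
    · exact (continuous_s 0).comp_continuousOn hfc
  obtain ⟨x1, hx1, hmax⟩ := (isCompact_closedBall x0 r).exists_isMaxOn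
    ⟨x0, mem_closedBall_self hr.le⟩ hgc
  have hxr : dist x x0 ≤ r / 2 := hx
  have hxb : x ∈ closedBall x0 r := mem_closedBall.2 (by linarith)
  have hgx : (r / 2) ^ n * s 0 (f x) ≤ g x1 := by
    refine le_trans ?_ (hmax hxb)
    simp only [hg]
    have := s_nonneg 0 (f x)
    gcongr
    linarith
  have hfs : f x ≤ s 0 (f x) := by rw [hsmax]; exact le_max_left _ _
  have hRHS : 0 ≤ V⁻¹ * I + A * r ^ 2 := by positivity
  rcases (s_nonneg 0 (f x1)).eq_or_lt with hS | hS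
  · have h1 : g x1 = 0 := by simp only [hg]; rw [← hS, mul_zero]
    rw [h1] at hgx
    have h2 : 0 < (r / 2) ^ n := by positivity
    have h3 : s 0 (f x) ≤ 0 := by
      by_contra h
      have := mul_pos h2 (not_le.1 h)
      linarith
    have := mul_nonneg (CDG_pos n).le hRHS
    linarith
  set S := s 0 (f x1) with hSdef
  have hx1r : dist x1 x0 ≤ r := hx1
  rcases hx1r.eq_or_lt with hd | hd
  · have h1 : g x1 = 0 := by
      simp only [hg]
      rw [hd, sub_self, zero_pow (by omega), zero_mul]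
    rw [h1] at hgx
    have h2 : 0 < (r / 2) ^ n := by positivity
    have h3 : s 0 (f x) ≤ 0 := by
      by_contra h
      have := mul_pos h2 (not_le.1 h)
      linarith
    have := mul_nonneg (CDG_pos n).le hRHS
    linarith
  have hfx1 : f x1 = S := by
    have hS' : 0 < max (f x1) 0 := by rw [← hsmax]; exact hS
    rw [hSdef, hsmax]
    rcases max_choice (f x1) 0 with h | h
    · exact h.symm
    · rw [h] at hS'; exact absurd hS' (lt_irrefl _)
  set δ := (r - dist x1 x0) / 2 with hδ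
  have hδ0 : 0 < δ := by simp only [hδ]; linarith
  have hδr : 2 * δ ≤ r := by
    have := dist_nonneg (x := x1) (y := x0)
    simp only [hδ]; linarith
  have hg1 : g x1 = (2 * δ) ^ n * S := by
    simp only [hg, hδ, hSdef]
    congr 2
    ring
  have hball : closedBall x1 δ ⊆ closedBall x0 r := by
    intro y hy
    have h1 := mem_closedBall.1 hy
    have h2 := dist_triangle y x1 x0
    have h3 : dist x1 x0 = r - 2 * δ := by simp only [hδ]; ring
    rw [mem_closedBall]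
    linarith
  have hsb : ∀ y ∈ closedBall x1 δ, s 0 (f y) ≤ 2 ^ n * S := by
    intro y hy
    have h1 : g y ≤ g x1 := hmax (hball hy)
    rw [hg1] at h1
    have h2 : δ ≤ r - dist y x0 := by
      have h1 := mem_closedBall.1 hy
      have h2 := dist_triangle y x1 x0
      have h3 : dist x1 x0 = r - 2 * δ := by simp only [hδ]; ring
      linarith
    have h3 : δ ^ n * s 0 (f y) ≤ g y := by
      simp only [hg]
      have := s_nonneg 0 (f y)
      gcongr
    have h4 : δ ^ n * s 0 (f y) ≤ δ ^ n * (2 ^ n * S) := by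
      refine h3.trans (h1.trans (le_of_eq ?_))
      rw [mul_pow]; ring
    exact le_of_mul_le_mul_left h4 (by positivity)
  set V1 := μ.real (ball x1 δ) with hV1
  have hV10 : 0 < V1 := pos_of_open x1 δ hδ0
  have hVV : V ≤ (2 * r / δ) ^ n * V1 := by
    calc V ≤ μ.real (ball x1 (2 * r)) := by
          refine measureReal_mono ?_ (ball_ne_top x1 _)
          intro z hz
          rw [mem_ball] at hz ⊢
          have := dist_triangle z x0 x1
          rw [dist_comm x0 x1] at this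
          linarith
      _ ≤ _ := dbl_of_rad C x1 δ (2 * r) hδ0 (by linarith)
  -- bound of `S`
  have hSle : S ≤ 2 * A * δ ^ 2 + 16 * 8 ^ n / eps n * (V1⁻¹ * I) := by
    by_contra hcon
    rw [not_le] at hcon
    have hq : 0 ≤ 16 * 8 ^ n / eps n * (V1⁻¹ * I) := by positivity
    have hAδ : 0 ≤ 2 * A * δ ^ 2 := by positivity
    have h1 : A * δ ^ 2 ≤ S / 2 := by linarith
    have hBδ : B * δ ^ 2 ≤ 1 := by
      refine le_trans ?_ hBr
      gcongr
      linarith
    have hi4 : IntegrableOn (fun y => s 0 (f y) ^ 4) (closedBall x1 (3 * δ / 4)) μ :=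
      (((continuous_s 0).comp_continuousOn (hfc.mono ((closedBall_subset_closedBall
        (by linarith)).trans hball))).pow 4).integrableOn_compact (isCompact_closedBall _ _)
    have hi1 : IntegrableOn (fun y => max (f y) 0) (closedBall x0 r) μ :=
      (hfc.sup continuousOn_const).integrableOn_compact (isCompact_closedBall _ _)
    have hsub : closedBall x1 (3 * δ / 4) ⊆ ball x0 r := by
      intro y hy
      have h1 := mem_closedBall.1 hy
      have h2 := dist_triangle y x1 x0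
      have h3 : dist x1 x0 = r - 2 * δ := by simp only [hδ]; ring
      rw [mem_ball]
      linarith
    have h2 : ∫ y in closedBall x1 (3 * δ / 4), s 0 (f y) ^ 4 ∂μ ≤ (2 ^ n * S) ^ 3 * I := by
      calc ∫ y in closedBall x1 (3 * δ / 4), s 0 (f y) ^ 4 ∂μ ≤
          ∫ y in closedBall x1 (3 * δ / 4), (2 ^ n * S) ^ 3 * max (f y) 0 ∂μ := by
            apply setIntegral_mono_on hi4 ((hi1.mono_set (hsub.trans ball_subset_closedBall)).const_mul _)
              isClosed_closedBall.measurableSet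
            intro y hy
            have h3 := hsb y (closedBall_subset_closedBall (by linarith) hy)
            have h4 := s_nonneg 0 (f y)
            rw [← hsmax]
            calc s 0 (f y) ^ 4 = s 0 (f y) ^ 3 * s 0 (f y) := by ring
              _ ≤ _ := by gcongr
        _ = (2 ^ n * S) ^ 3 * ∫ y in closedBall x1 (3 * δ / 4), max (f y) 0 ∂μ :=
            integral_const_mul _ _
        _ ≤ _ := by
            gcongr
            exact setIntegral_mono_set (hi1.mono_set ball_subset_closedBall)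
              (Eventually.of_forall fun y => le_max_right _ _) hsub.eventuallyLE
    have h3 : (2 ^ n * S) ^ 3 * I ≤ eps n * ((S / 2) ^ 4 * V1) := by
      have h4 : 16 * 8 ^ n / eps n * (V1⁻¹ * I) ≤ S := by linarith
      have h5 : 16 * 8 ^ n * I ≤ S * (eps n * V1) := by
        have e : 16 * 8 ^ n / eps n * (V1⁻¹ * I) = (16 * 8 ^ n * I) / (eps n * V1) := by
          field_simp
        rw [e, div_le_iff₀ (by positivity)] at h4
        exact h4
      have e8 : (2 ^ n : ℝ) ^ 3 = 8 ^ n := by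
        rw [← pow_mul, mul_comm, pow_mul]; norm_num
      calc (2 ^ n * S) ^ 3 * I = (S ^ 3 / 16) * (16 * 8 ^ n * I) := by
            rw [mul_pow, e8]; ring
        _ ≤ (S ^ 3 / 16) * (S * (eps n * V1)) := by gcongr
        _ = _ := by ring
    have h5 := dg4 C hn hδ0 hU ((closedBall_subset_closedBall (by linarith)).trans
      (hball.trans hrU)) hf hA hB (H := S / 2) (by positivity) h1 hBδ hL (h2.trans h3)
      (x := x1) (mem_closedBall_self (by positivity))
    rw [hfx1] at h5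
    linarith
  -- conclusion
  have hV1inv : V1⁻¹ ≤ (2 * r / δ) ^ n * V⁻¹ := by
    rw [← div_eq_mul_inv, le_div_iff₀ hV0, inv_mul_le_iff₀ hV10]
    linarith
  have h6 : (r / 2) ^ n * s 0 (f x) ≤ r ^ n * (2 * A * r ^ 2 + 16 * 8 ^ n / eps n * 4 ^ n *
      (V⁻¹ * I)) := by
    calc (r / 2) ^ n * s 0 (f x) ≤ (2 * δ) ^ n * S := by rw [← hg1]; exact hgx
      _ ≤ (2 * δ) ^ n * (2 * A * δ ^ 2 + 16 * 8 ^ n / eps n * (((2 * r / δ) ^ n * V⁻¹) * I)) := by
          gcongr
          refine hSle.trans ?_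
          gcongr
      _ = (2 * δ) ^ n * (2 * A * δ ^ 2) + 16 * 8 ^ n / eps n *
            (((2 * δ) ^ n * (2 * r / δ) ^ n) * (V⁻¹ * I)) := by ring
      _ = (2 * δ) ^ n * (2 * A * δ ^ 2) + 16 * 8 ^ n / eps n * ((4 ^ n * r ^ n) * (V⁻¹ * I)) := by
          congr 3
          rw [← mul_pow, ← mul_pow]
          congr 1
          field_simp
          ring
      _ ≤ r ^ n * (2 * A * r ^ 2) + 16 * 8 ^ n / eps n * ((4 ^ n * r ^ n) * (V⁻¹ * I)) := by
          gcongr
          linarith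
      _ = _ := by ring
  have h7 : s 0 (f x) ≤ 2 ^ n * (2 * A * r ^ 2 + 16 * 8 ^ n / eps n * 4 ^ n * (V⁻¹ * I)) := by
    have h8 : (r / 2) ^ n = r ^ n * (2 ^ n)⁻¹ := by rw [div_pow]; rfl
    rw [h8, mul_assoc] at h6
    have h9 := le_of_mul_le_mul_left h6 (by positivity)
    rwa [inv_mul_le_iff₀ (by positivity)] at h9
  refine hfs.trans (h7.trans ?_)
  rw [CDG]
  have e64 : (2:ℝ) ^ n * (8 ^ n * 4 ^ n) = 64 ^ n := by rw [← mul_pow, ← mul_pow]; norm_num
  have e9 : 2 ^ n * (2 * A * r ^ 2 + 16 * 8 ^ n / eps n * 4 ^ n * (V⁻¹ * I)) =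
      2 ^ (n + 1) * (A * r ^ 2) + 16 * 64 ^ n / eps n * (V⁻¹ * I) := by
    rw [← e64]; ring
  rw [e9]
  have q1 : 0 ≤ A * r ^ 2 := by positivity
  have q2 : 0 ≤ V⁻¹ * I := by positivity
  have q3 : 0 ≤ 16 * 64 ^ n / eps n := by positivity
  have q4 : (0:ℝ) ≤ 2 ^ (n + 1) := by positivity
  nlinarith [mul_nonneg q3 q1, mul_nonneg q4 q2]

end M

end Crest.Agent.R281.Sm4_593
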