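import Crest.Agent.R281.Sm4_593

/-!
# R281 (S-SUBMV, helper593), part 5: closed-ball forms for `St1_405.Sp`

* `cac_int` : `0 ≤ f ≤ A`, `0 ≤ h ≤ Δ f + B` on `U` ⟹ `∫ η² h ≤ 2 B ∫ η² + 4 A ∫ ‖∇η‖²`;
* `cac` : averaged version (`Sp.CAC`);
* `dg1c` : `DG1` with the mean over the closed ball (`Sp.DG1`).
-/

set_option autoImplicit false
set_option maxSynthPendingDepth 3
set_option linter.unusedSectionVars false
open Bundle Set MeasureTheory Manifold Filter Metric
open scoped ENNReal ContDiff Topology NNReal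
open Crest.GeometryTopology.CoordMetric Crest.GeometryTopology.ChartCurvature
open Crest.Agent.R249.SobA_982 Crest.Agent.R249.SobC_982 Crest.Agent.R249.SobD_982
  Crest.Agent.R249.SobE_982 Crest.Agent.R249.SobG_982 Crest.Agent.R249.SobH_982
open Crest.Agent.R247 Crest.Agent.R247.Ms322 Crest.Agent.R247.Mcp688

noncomputable section
namespace Crest.Agent.R281.Sm5_593

open Crest.Agent.R281.Sm1_593 Crest.Agent.R281.Sm2_593 Crest.Agent.R281.Sm3_593
  Crest.Agent.R281.Sm4_593

section M0
variable {n : ℕ} {M : Type*} [MetricSpace M] [ChartedSpace (EuclideanSpace ℝ (Fin n)) M]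
  [IsManifold (𝓡 n) ∞ M]
  [RiemannianBundle (fun p : M => TangentSpace (𝓡 n) p)]
  [IsContMDiffRiemannianBundle (𝓡 n) ∞ (EuclideanSpace ℝ (Fin n)) (fun p : M => TangentSpace (𝓡 n) p)]
  [SecondCountableTopology M] [Nonempty M] [IsRiemannianManifold (𝓡 n) M]
  [MeasurableSpace M] [BorelSpace M]

/-- test function `η² (A + f)`. -/
theorem cac_int {U : Set M} (hU : IsOpen U) {f h η : M → ℝ}
    (hf : ∀ z ∈ U, ContMDiffAt (𝓡 n) 𝓘(ℝ, ℝ) 2 f z) {A B : ℝ} (hA : 0 < A) (hB : 0 ≤ B)
    (hf0 : ∀ z ∈ U, 0 ≤ f z) (hfA : ∀ z ∈ U, f z ≤ A) (hh : ContinuousOn h U)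
    (hh0 : ∀ z ∈ U, 0 ≤ h z) (hL : ∀ z ∈ U, h z ≤ Bo84.mLap n f z + B)
    (hη : LocallyLipschitz η) (hc : HasCompactSupport η) (hs : tsupport η ⊆ U) :
    ∫ z, η z ^ 2 * h z ∂(μHE[n] : Measure M) ≤
      2 * B * (∫ z, η z ^ 2 ∂(μHE[n] : Measure M)) +
      4 * A * ∫ z, ‖Gr (n := n) η z‖ ^ 2 ∂(μHE[n] : Measure M) := by
  have hfL : LLo U f := LLo.of_contMDiffAt fun z hz => (hf z hz).of_le (by norm_num)
  have hfc : ContinuousOn f U := hfL.continuousOn
  have hηc : Continuous η := hη.continuous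
  have hgL : LLo U (fun z => A + f z) :=
    LLo.of_contMDiffAt fun z hz => contMDiffAt_const.add ((hf z hz).of_le (by norm_num))
  have hgc : ContinuousOn (fun z => A + f z) U := hgL.continuousOn
  -- test function `φ = η (η (A + f))`
  have h1 : LocallyLipschitz (fun z => η z * (A + f z)) := LLo.mul_supp hη hgL hs
  have hφL : LocallyLipschitz (fun z => η z * (η z * (A + f z))) :=
    LLo.mul_supp hη (LLo.of_loc h1 (U := U)) hs
  have hsub : Function.support (fun z => η z * (η z * (A + f z))) ⊆ Function.support η := by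
    intro z hz h
    apply hz
    show η z * (η z * (A + f z)) = 0
    rw [h, zero_mul]
  have hφs : tsupport (fun z => η z * (η z * (A + f z))) ⊆ U := (closure_mono hsub).trans hs
  have hφc : HasCompactSupport (fun z => η z * (η z * (A + f z))) := hc.mono hsub
  have hibp := ibp_mLap hU hf hφL hφc hφs
  -- the gradient of the test function
  have hgr : ∀ᵐ z ∂(μHE[n] : Measure M),
      inner ℝ (Gr (n := n) f z) (Gr (n := n) (fun z => η z * (η z * (A + f z))) z) =
        η z ^ 2 * ‖Gr (n := n) f z‖ ^ 2 +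
          2 * (η z * (A + f z)) * inner ℝ (Gr (n := n) f z) (Gr (n := n) η z) := by
    filter_upwards [ae_mdifferentiableAt (n := n) hη] with z hz
    by_cases hzU : z ∈ U
    · have hfz : MDifferentiableAt (𝓡 n) 𝓘(ℝ) f z := (hf z hzU).mdifferentiableAt (by norm_num)
      have hgz : MDifferentiableAt (𝓡 n) 𝓘(ℝ) (fun z => A + f z) z :=
        (contMDiffAt_const.add (hf z hzU)).mdifferentiableAt (by norm_num)
      have hgg : Gr (n := n) (fun z => A + f z) z = Gr f z := by
        have hχ : HasDerivAt (fun t : ℝ => A + t) 1 (f z) := by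
          simpa using (hasDerivAt_id (f z)).const_add A
        have := Gr_comp (n := n) (χ := fun t => A + t) hfz hχ.differentiableAt
        rw [hχ.deriv, one_smul] at this
        exact this
      have e1 : Gr (n := n) (fun z => η z * (A + f z)) z = η z • Gr f z + (A + f z) • Gr η z := by
        rw [← hgg]; exact Gr_mul hz hgz
      have hηf : MDifferentiableAt (𝓡 n) 𝓘(ℝ) (fun z => η z * (A + f z)) z := hz.mul hgz
      rw [Gr_mul hz hηf, e1, inner_add_right, inner_smul_right, inner_smul_right, inner_add_right,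
        inner_smul_right, inner_smul_right, real_inner_self_eq_norm_sq]
      ring
    · have h0 : η z = 0 := image_eq_zero_of_notMem_tsupport fun h => hzU (hs h)
      have h2 : Gr (n := n) (fun z => η z * (η z * (A + f z))) z = 0 :=
        Gr_zero_off fun h => hzU (hφs h)
      rw [h2, inner_zero_right, h0]
      ring
  rw [integral_congr_ae hgr] at hibp
  -- integrability
  obtain ⟨Cf, hCf0, hCf⟩ := hfL.exists_bound_Gr (n := n) hc.isCompact hs
  obtain ⟨Cη, hCη0, hCη⟩ := exists_bound_Gr (n := n) hη hc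
  obtain ⟨Bf, hBf⟩ := hc.isCompact.exists_bound_of_continuousOn (hgc.mono hs)
  obtain ⟨Bη, hBη⟩ := hc.isCompact.exists_bound_of_continuousOn hηc.continuousOn
  have hfm : AEStronglyMeasurable (fun z => A + f z)
      ((μHE[n] : Measure M).restrict (tsupport η)) :=
    (hgc.mono hs).aestronglyMeasurable hc.isCompact.measurableSet
  have hηm : AEStronglyMeasurable η ((μHE[n] : Measure M).restrict (tsupport η)) :=
    hηc.aestronglyMeasurable
  have hGf : AEStronglyMeasurable (Gr (n := n) f) ((μHE[n] : Measure M).restrict (tsupport η)) :=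
    (measurable_Gr f).aestronglyMeasurable
  have hGη : AEStronglyMeasurable (Gr (n := n) η) ((μHE[n] : Measure M).restrict (tsupport η)) :=
    (measurable_Gr η).aestronglyMeasurable
  have i1 : Integrable (fun z => η z ^ 2 * ‖Gr (n := n) f z‖ ^ 2) (μHE[n] : Measure M) := by
    refine integrable_of_compact_M hc.isCompact (C := Bη ^ 2 * Cf ^ 2) ?_ ?_ ?_
    · exact (hηm.pow 2).mul (hGf.norm.pow 2)
    · intro z hz
      have a1 := hBη z hz
      have a2 := hCf z hz
      rw [norm_mul, norm_pow, norm_pow, norm_norm]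
      gcongr
    · intro z hz
      rw [image_eq_zero_of_notMem_tsupport hz]
      ring
  have i2 : Integrable (fun z => 2 * (η z * (A + f z)) *
      inner ℝ (Gr (n := n) f z) (Gr (n := n) η z)) (μHE[n] : Measure M) := by
    refine integrable_of_compact_M hc.isCompact (C := 2 * (Bη * Bf) * (Cf * Cη)) ?_ ?_ ?_
    · exact ((hηm.mul hfm).const_mul 2).mul (hGf.inner hGη)
    · intro z hz
      have a1 := hBη z hz
      have a2 := hCf z hz
      have a3 := hBf z hz
      have a4 := hCη z
      have a5 : ‖(inner ℝ (Gr (n := n) f z) (Gr (n := n) η z) : ℝ)‖ ≤ Cf * Cη :=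
        (norm_inner_le_norm _ _).trans (mul_le_mul a2 a4 (norm_nonneg _) hCf0)
      rw [norm_mul, norm_mul, norm_mul]
      have e2 : ‖(2:ℝ)‖ = 2 := by norm_num
      rw [e2]
      have a6 : 0 ≤ Bη := (norm_nonneg _).trans a1
      have a7 : 0 ≤ Bf := (norm_nonneg _).trans a3
      have a8 : ‖η z‖ * ‖A + f z‖ ≤ Bη * Bf := mul_le_mul a1 a3 (norm_nonneg _) a6
      exact mul_le_mul (mul_le_mul_of_nonneg_left a8 (by norm_num)) a5 (norm_nonneg _) (by positivity)
    · intro z hz
      rw [image_eq_zero_of_notMem_tsupport hz]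
      ring
  have i3 : Integrable (fun z => ‖Gr (n := n) η z‖ ^ 2) (μHE[n] : Measure M) := by
    refine integrable_of_compact_M hc.isCompact (C := Cη ^ 2) ?_ ?_ ?_
    · exact (hGη.norm.pow 2)
    · intro z hz
      have a4 := hCη z
      rw [norm_pow, norm_norm]
      gcongr
    · intro z hz
      rw [Gr_zero_off hz, norm_zero]
      ring
  have hLc : ContinuousOn (Bo84.mLap n f) U := continuousOn_mLap hf
  have i4 : Integrable (fun z => η z ^ 2 * h z) (μHE[n] : Measure M) := by
    have hcont : ContinuousOn (fun z => η z ^ 2 * h z) (tsupport η) :=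
      (hηc.continuousOn.pow 2).mul (hh.mono hs)
    obtain ⟨C, hC⟩ := hc.isCompact.exists_bound_of_continuousOn hcont
    refine integrable_of_compact_M hc.isCompact (C := C)
      (hcont.aestronglyMeasurable hc.isCompact.measurableSet) hC fun z hz => ?_
    rw [image_eq_zero_of_notMem_tsupport hz]
    ring
  have i6 : Integrable (fun z => η z ^ 2) (μHE[n] : Measure M) := by
    have hcont : ContinuousOn (fun z => η z ^ 2) (tsupport η) := hηc.continuousOn.pow 2
    obtain ⟨C, hC⟩ := hc.isCompact.exists_bound_of_continuousOn hcont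
    refine integrable_of_compact_M hc.isCompact (C := C)
      (hcont.aestronglyMeasurable hc.isCompact.measurableSet) hC fun z hz => ?_
    rw [image_eq_zero_of_notMem_tsupport hz]
    ring
  have i5 : Integrable (fun z => η z * (η z * (A + f z)) * Bo84.mLap n f z)
      (μHE[n] : Measure M) := by
    have hcont : ContinuousOn (fun z => η z * (η z * (A + f z)) * Bo84.mLap n f z)
        (tsupport η) :=
      (hηc.continuousOn.mul (hηc.continuousOn.mul (hgc.mono hs))).mul (hLc.mono hs)
    obtain ⟨C, hC⟩ := hc.isCompact.exists_bound_of_continuousOn hcont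
    refine integrable_of_compact_M hc.isCompact (C := C)
      (hcont.aestronglyMeasurable hc.isCompact.measurableSet) hC fun z hz => ?_
    rw [image_eq_zero_of_notMem_tsupport hz]
    ring
  have hup : A * (∫ z, η z ^ 2 * h z ∂(μHE[n] : Measure M)) -
      2 * A * B * (∫ z, η z ^ 2 ∂(μHE[n] : Measure M)) ≤
      ∫ z, η z * (η z * (A + f z)) * Bo84.mLap n f z ∂(μHE[n] : Measure M) := by
    rw [← integral_const_mul, ← integral_const_mul, ← integral_sub (i4.const_mul _) (i6.const_mul _)]
    apply integral_mono ((i4.const_mul _).sub (i6.const_mul _)) i5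
    intro z
    show A * (η z ^ 2 * h z) - 2 * A * B * η z ^ 2 ≤ η z * (η z * (A + f z)) * Bo84.mLap n f z
    by_cases hzU : z ∈ U
    · have h3 := hL z hzU
      have h4 := hf0 z hzU
      have h5 := hfA z hzU
      have h6 := hh0 z hzU
      have h7 : (A + f z) * (h z - B) ≤ (A + f z) * Bo84.mLap n f z := by
        apply mul_le_mul_of_nonneg_left (by linarith) (by linarith)
      have h8 : A * h z - 2 * A * B ≤ (A + f z) * (h z - B) := by
        nlinarith [mul_nonneg h4 h6, mul_nonneg (sub_nonneg.2 h5) hB]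
      have h9 := mul_le_mul_of_nonneg_left (h8.trans h7) (sq_nonneg (η z))
      nlinarith [h9]
    · rw [image_eq_zero_of_notMem_tsupport (f := η) fun h => hzU (hs h)]
      simp
  rw [integral_add i1 i2] at hibp
  have hlow : -(4 * A ^ 2 * ∫ z, ‖Gr (n := n) η z‖ ^ 2 ∂(μHE[n] : Measure M)) ≤
      (∫ z, η z ^ 2 * ‖Gr (n := n) f z‖ ^ 2 ∂(μHE[n] : Measure M)) +
      ∫ z, 2 * (η z * (A + f z)) * inner ℝ (Gr (n := n) f z) (Gr (n := n) η z)
        ∂(μHE[n] : Measure M) := by
    rw [← integral_const_mul, ← integral_neg, ← integral_add i1 i2]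
    apply integral_mono (i3.const_mul _).neg (i1.add i2)
    intro z
    show -(4 * A ^ 2 * ‖Gr (n := n) η z‖ ^ 2) ≤ η z ^ 2 * ‖Gr (n := n) f z‖ ^ 2 +
      2 * (η z * (A + f z)) * inner ℝ (Gr (n := n) f z) (Gr (n := n) η z)
    by_cases hzU : z ∈ U
    · have h4 := hf0 z hzU
      have h5 := hfA z hzU
      have h3 : |(inner ℝ (Gr (n := n) f z) (Gr (n := n) η z) : ℝ)| ≤
          ‖Gr (n := n) f z‖ * ‖Gr (n := n) η z‖ := abs_real_inner_le_norm _ _
      have h6 : |2 * (η z * (A + f z)) * (inner ℝ (Gr (n := n) f z) (Gr (n := n) η z) : ℝ)| ≤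
          2 * (|η z| * (2 * A)) * (‖Gr (n := n) f z‖ * ‖Gr (n := n) η z‖) := by
        have : |A + f z| ≤ 2 * A := by rw [abs_of_nonneg (by linarith)]; linarith
        rw [abs_mul, abs_mul, abs_mul, abs_two]
        gcongr
      have h7 : 2 * (|η z| * (2 * A)) * (‖Gr (n := n) f z‖ * ‖Gr (n := n) η z‖) ≤
          η z ^ 2 * ‖Gr (n := n) f z‖ ^ 2 + 4 * A ^ 2 * ‖Gr (n := n) η z‖ ^ 2 := by
        rw [← sq_abs (η z)]
        nlinarith [sq_nonneg (|η z| * ‖Gr (n := n) f z‖ - 2 * A * ‖Gr (n := n) η z‖)]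
      have h8 := neg_abs_le (2 * (η z * (A + f z)) * (inner ℝ (Gr (n := n) f z) (Gr (n := n) η z) : ℝ))
      linarith
    · rw [image_eq_zero_of_notMem_tsupport (f := η) fun h => hzU (hs h)]
      have := mul_nonneg (mul_nonneg (by norm_num : (0:ℝ) ≤ 4) (sq_nonneg A))
        (sq_nonneg ‖Gr (n := n) η z‖)
      simp only [ne_eq, OfNat.ofNat_ne_zero, not_false_eq_true, zero_pow, zero_mul, mul_zero,
        add_zero]
      linarith
  have hfin : A * (∫ z, η z ^ 2 * h z ∂(μHE[n] : Measure M)) ≤
      A * (2 * B * (∫ z, η z ^ 2 ∂(μHE[n] : Measure M)) +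
        4 * A * ∫ z, ‖Gr (n := n) η z‖ ^ 2 ∂(μHE[n] : Measure M)) := by
    nlinarith [hup, hlow, hibp]
  exact le_of_mul_le_mul_left hfin hA

end M0

section M
variable {n : ℕ} {M : Type*} [MetricSpace M] [ChartedSpace (EuclideanSpace ℝ (Fin n)) M]
  [IsManifold (𝓡 n) ∞ M]
  [RiemannianBundle (fun p : M => TangentSpace (𝓡 n) p)]
  [IsContMDiffRiemannianBundle (𝓡 n) ∞ (EuclideanSpace ℝ (Fin n)) (fun p : M => TangentSpace (𝓡 n) p)]
  [IsRiemannianManifold (𝓡 n) M] [CompleteSpace M]
  [MeasurableSpace M] [BorelSpace M]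

/-- the constant of `cac` -/
def CCA (n : ℕ) : ℝ := 2 ^ n * (2 + 64 * Cth ^ 2)

lemma CCA_pos (n : ℕ) : 0 < CCA n := by unfold CCA; positivity

/-- **Caccioppoli in mean** (`Sp.CAC`). -/
theorem cac (C : Rad n 0 M (μHE[n] : Measure M)) {y : M} {r : ℝ} (hr : 0 < r)
    {f h : M → ℝ} (hf : ∀ z ∈ ball y r, ContMDiffAt (𝓡 n) 𝓘(ℝ, ℝ) 2 f z) {A B : ℝ} (hA : 0 ≤ A)
    (hB : 0 ≤ B) (hf0 : ∀ z ∈ ball y r, 0 ≤ f z) (hfA : ∀ z ∈ ball y r, f z ≤ A)
    (hh : ContinuousOn h (ball y r)) (hh0 : ∀ z ∈ ball y r, 0 ≤ h z)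
    (hL : ∀ z ∈ ball y r, h z ≤ Bo84.mLap n f z + B) :
    ⨍ x in closedBall y (r / 2), h x ∂(μHE[n] : Measure M) ≤ CCA n * (A / r ^ 2 + B) := by
  have := HR216.properSpace_of_riemannian n M
  have := HR216.secondCountable_of_riemannian n M
  have := isLocallyFiniteMeasure n M
  have := isOpenPosMeasure n M
  have : Nonempty M := ⟨y⟩
  set μ : Measure M := μHE[n] with hμ
  have hCth := Cth_pos
  have hab : r / 2 < 3 * r / 4 := by linarith
  set η := cut2 y (r / 2) (3 * r / 4) with hη
  set d := Cth / (3 * r / 4 - r / 2) with hd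
  have hd0 : 0 ≤ d := by
    have : 0 < 3 * r / 4 - r / 2 := by linarith
    positivity
  have hde : d = 4 * Cth / r := by
    rw [hd, show 3 * r / 4 - r / 2 = r / 4 by ring]
    field_simp
  have hη0 : ∀ x, 3 * r / 4 ≤ dist x y → η x = 0 := fun x hx => cut2_zero hab hx
  have hηlip : LipschitzWith (Real.toNNReal d) η :=
    LipschitzWith.of_dist_le_mul fun x z => by
      rw [Real.dist_eq, Real.coe_toNNReal _ hd0]
      exact cut2_lip hab x z
  have hηc : HasCompactSupport η :=
    HasCompactSupport.intro (isCompact_closedBall y (3 * r / 4)) fun x hx => hη0 x (by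
      have : ¬ dist x y ≤ 3 * r / 4 := hx
      linarith)
  have hts : tsupport η ⊆ closedBall y (3 * r / 4) := tsupport_cut2 hab
  have hsU : tsupport η ⊆ ball y r := hts.trans (closedBall_subset_ball (by linarith))
  have hGη : ∀ z, ‖Gr (n := n) η z‖ ≤ d := by
    intro z
    have := norm_Gr_le_of_lipschitzOn (n := n) (z := z) (U := univ) univ_mem hηlip.lipschitzOnWith
    rwa [Real.coe_toNNReal _ hd0] at this
  set V := μ.real (ball y r) with hV
  have hV0 : 0 < V := pos_of_open y r hr
  set W := μ.real (closedBall y (r / 2)) with hW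
  have hVW : V ≤ 2 ^ n * W := by
    have h1 := dbl_of_rad C y (r / 2) r (by linarith) (by linarith)
    have h2 : r / (r / 2) = 2 := by field_simp
    rw [h2] at h1
    refine h1.trans ?_
    gcongr
    exact measureReal_mono ball_subset_closedBall (isCompact_closedBall _ _).measure_lt_top.ne
  have hW0 : 0 < W := by
    by_contra hcon
    have : 2 ^ n * W ≤ 0 := mul_nonpos_of_nonneg_of_nonpos (by positivity) (not_lt.1 hcon)
    linarith
  -- volume bounds
  have hbfin : μ (closedBall y (3 * r / 4)) ≠ ⊤ := (isCompact_closedBall _ _).measure_lt_top.ne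
  have hV' : μ.real (closedBall y (3 * r / 4)) ≤ V :=
    measureReal_mono (closedBall_subset_ball (by linarith)) (ball_ne_top y r)
  have hI1 : ∫ z, η z ^ 2 ∂μ ≤ V := by
    have e : ∫ z, η z ^ 2 ∂μ = ∫ z in closedBall y (3 * r / 4), η z ^ 2 ∂μ := by
      symm
      apply setIntegral_eq_integral_of_forall_compl_eq_zero
      intro x hx
      rw [hη0 x (by
        have : ¬ dist x y ≤ 3 * r / 4 := hx
        linarith)]
      norm_num
    rw [e]
    calc ∫ z in closedBall y (3 * r / 4), η z ^ 2 ∂μ ≤ ∫ z in closedBall y (3 * r / 4), (1:ℝ) ∂μ := by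
          apply setIntegral_mono_on
            ((hηlip.continuous.pow 2).continuousOn.integrableOn_compact (isCompact_closedBall _ _))
            (integrableOn_const (hs := hbfin)) isClosed_closedBall.measurableSet
          intro x _
          exact pow_le_one₀ (cut2_nonneg _ _ _ x) (cut2_le_one _ _ _ x)
      _ ≤ V := by
          rw [setIntegral_const, smul_eq_mul, mul_one]
          exact hV'
  have hI2 : ∫ z, ‖Gr (n := n) η z‖ ^ 2 ∂μ ≤ d ^ 2 * V := by
    have e : ∫ z, ‖Gr (n := n) η z‖ ^ 2 ∂μ =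
        ∫ z in closedBall y (3 * r / 4), ‖Gr (n := n) η z‖ ^ 2 ∂μ := by
      symm
      apply setIntegral_eq_integral_of_forall_compl_eq_zero
      intro x hx
      rw [Gr_zero_off fun h => hx (hts h), norm_zero]
      norm_num
    rw [e]
    calc ∫ z in closedBall y (3 * r / 4), ‖Gr (n := n) η z‖ ^ 2 ∂μ ≤
        ∫ z in closedBall y (3 * r / 4), d ^ 2 ∂μ := by
          have hci : Integrable (fun _ : M => d ^ 2) (μ.restrict (closedBall y (3 * r / 4))) :=
            integrableOn_const (hs := hbfin)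
          apply integral_mono_of_nonneg (Eventually.of_forall fun x => sq_nonneg _) hci
          refine Eventually.of_forall fun x => ?_
          show ‖Gr (n := n) η x‖ ^ 2 ≤ d ^ 2
          have := hGη x
          gcongr
      _ ≤ d ^ 2 * V := by
          rw [setIntegral_const, smul_eq_mul, mul_comm]
          gcongr
  -- the integral of `h`
  have hhi : IntegrableOn (fun x => η x ^ 2 * h x) (closedBall y (3 * r / 4)) μ :=
    ((hηlip.continuous.pow 2).continuousOn.mul (hh.mono (closedBall_subset_ball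
      (by linarith)))).integrableOn_compact (isCompact_closedBall _ _)
  have hlow : ∫ x in closedBall y (r / 2), h x ∂μ ≤ ∫ x, η x ^ 2 * h x ∂μ := by
    have e : ∫ x, η x ^ 2 * h x ∂μ = ∫ x in closedBall y (3 * r / 4), η x ^ 2 * h x ∂μ := by
      symm
      apply setIntegral_eq_integral_of_forall_compl_eq_zero
      intro x hx
      rw [hη0 x (by
        have : ¬ dist x y ≤ 3 * r / 4 := hx
        linarith)]
      norm_num
    rw [e]
    calc ∫ x in closedBall y (r / 2), h x ∂μ = ∫ x in closedBall y (r / 2), η x ^ 2 * h x ∂μ := by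
          apply setIntegral_congr_fun isClosed_closedBall.measurableSet
          intro x hx
          show h x = η x ^ 2 * h x
          rw [hη, cut2_one hab hx, one_pow, one_mul]
      _ ≤ _ := by
          apply setIntegral_mono_set hhi
          · refine (ae_restrict_iff' isClosed_closedBall.measurableSet).2
              (Eventually.of_forall fun x hx => ?_)
            exact mul_nonneg (sq_nonneg _) (hh0 x (closedBall_subset_ball (by linarith) hx))
          · exact (closedBall_subset_closedBall (by linarith)).eventuallyLE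
  have key : ∀ A' : ℝ, A < A' → ∫ x in closedBall y (r / 2), h x ∂μ ≤
      2 * B * V + 4 * A' * (d ^ 2 * V) := by
    intro A' hA'
    have hA'0 : 0 < A' := hA.trans_lt hA'
    have h1 := cac_int isOpen_ball hf hA'0 hB hf0 (fun z hz => (hfA z hz).trans hA'.le) hh hh0 hL
      hηlip.locallyLipschitz hηc hsU
    calc _ ≤ _ := hlow
      _ ≤ _ := h1
      _ ≤ _ := by gcongr
  have key2 : ∫ x in closedBall y (r / 2), h x ∂μ ≤ 2 * B * V + 4 * A * (d ^ 2 * V) := by
    have hlim : Tendsto (fun A' : ℝ => 2 * B * V + 4 * A' * (d ^ 2 * V)) (𝓝[>] A)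
        (𝓝 (2 * B * V + 4 * A * (d ^ 2 * V))) := by
      have hcont : Continuous fun A' : ℝ => 2 * B * V + 4 * A' * (d ^ 2 * V) := by fun_prop
      exact (hcont.tendsto A).mono_left nhdsWithin_le_nhds
    refine ge_of_tendsto hlim ?_
    filter_upwards [self_mem_nhdsWithin] with A' hA'
    exact key A' hA'
  rw [setAverage_eq, smul_eq_mul, inv_mul_le_iff₀ hW0]
  refine key2.trans ?_
  have e1 : 2 * B * V + 4 * A * (d ^ 2 * V) = V * (2 * B + 64 * Cth ^ 2 * (A / r ^ 2)) := by
    rw [hde]; field_simp; ring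
  rw [e1, CCA]
  have q1 : 0 ≤ A / r ^ 2 := by positivity
  have q2 : 2 * B + 64 * Cth ^ 2 * (A / r ^ 2) ≤ (2 + 64 * Cth ^ 2) * (A / r ^ 2 + B) := by
    nlinarith [mul_nonneg (sq_nonneg Cth) hB]
  calc V * (2 * B + 64 * Cth ^ 2 * (A / r ^ 2)) ≤ (2 ^ n * W) * ((2 + 64 * Cth ^ 2) * (A / r ^ 2 + B)) := by
        gcongr
    _ = _ := by ring

/-- **Sub-mean value inequality**, closed balls (`Sp.DG1`). -/
theorem dg1c (C : Rad n 0 M (μHE[n] : Measure M)) (hn : 1 ≤ n) {y : M} {r : ℝ} (hr : 0 < r)
    {f : M → ℝ} (hf : ∀ z ∈ ball y r, ContMDiffAt (𝓡 n) 𝓘(ℝ, ℝ) 2 f z)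
    (hfc : ContinuousOn f (closedBall y r)) (hf0 : ∀ z ∈ closedBall y r, 0 ≤ f z)
    {A B : ℝ} (hA : 0 ≤ A) (hB : 0 ≤ B) (hBr : B * r ^ 2 ≤ 16)
    (hL : ∀ z ∈ ball y r, -A - B * f z ≤ Bo84.mLap n f z) {x : M} (hx : x ∈ closedBall y (r / 2)) :
    f x ≤ (8 ^ n * CDG n) * ((⨍ z in closedBall y r, f z ∂(μHE[n] : Measure M)) + A * r ^ 2) := by
  have := HR216.properSpace_of_riemannian n M
  have := HR216.secondCountable_of_riemannian n M
  have := isLocallyFiniteMeasure n M
  have := isOpenPosMeasure n M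
  have : Nonempty M := ⟨y⟩
  set μ : Measure M := μHE[n] with hμ
  have hxd : dist x y ≤ r / 2 := hx
  have hsub : closedBall x (r / 4) ⊆ ball y r := by
    intro z hz
    have h1 := mem_closedBall.1 hz
    have h2 := dist_triangle z x y
    rw [mem_ball]; linarith
  have hBr' : B * (r / 4) ^ 2 ≤ 1 := by
    have : B * (r / 4) ^ 2 = B * r ^ 2 / 16 := by ring
    linarith
  have h1 := dg1 C hn (x0 := x) (r := r / 4) (by linarith) isOpen_ball hsub hf hA hB hBr'
    (fun z hz => by have := hL z hz; linarith) (x := x) (mem_closedBall_self (by positivity))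
  set V := μ.real (ball x (r / 4)) with hV
  have hV0 : 0 < V := pos_of_open x _ (by linarith)
  set W := μ.real (closedBall y r) with hW
  have hbfin : μ (closedBall y r) ≠ ⊤ := (isCompact_closedBall _ _).measure_lt_top.ne
  have hWV : W ≤ 8 ^ n * V := by
    have h2 := dbl_of_rad C x (r / 4) (2 * r) (by linarith) (by linarith)
    have h3 : 2 * r / (r / 4) = 8 := by field_simp; norm_num
    rw [h3] at h2
    refine le_trans ?_ h2
    refine measureReal_mono ?_ (ball_ne_top x _)
    intro z hz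
    have h4 := mem_closedBall.1 hz
    have h5 := dist_triangle z y x
    rw [dist_comm y x] at h5
    rw [mem_ball]; linarith
  have hW0 : 0 < W := (pos_of_open y r hr).trans_le
    (measureReal_mono ball_subset_closedBall hbfin)
  have hfi : IntegrableOn f (closedBall y r) μ :=
    hfc.integrableOn_compact (isCompact_closedBall _ _)
  have hI : ∫ z in ball x (r / 4), max (f z) 0 ∂μ ≤ ∫ z in closedBall y r, f z ∂μ := by
    have hs2 : ball x (r / 4) ⊆ closedBall y r :=
      (ball_subset_closedBall.trans hsub).trans ball_subset_closedBall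
    calc ∫ z in ball x (r / 4), max (f z) 0 ∂μ = ∫ z in ball x (r / 4), f z ∂μ := by
          apply setIntegral_congr_fun isOpen_ball.measurableSet
          intro z hz
          show max (f z) 0 = f z
          rw [max_eq_left (hf0 z (hs2 hz))]
      _ ≤ _ := by
          apply setIntegral_mono_set hfi
          · exact (ae_restrict_iff' isClosed_closedBall.measurableSet).2
              (Eventually.of_forall fun z hz => hf0 z hz)
          · exact hs2.eventuallyLE
  have hI0 : 0 ≤ ∫ z in closedBall y r, f z ∂μ := setIntegral_nonneg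
    isClosed_closedBall.measurableSet fun z hz => hf0 z hz
  have hVi : V⁻¹ ≤ 8 ^ n * W⁻¹ := by
    rw [← div_eq_mul_inv, le_div_iff₀ hW0, inv_mul_le_iff₀ hV0]
    linarith
  have hC := CDG_pos n
  rw [setAverage_eq, smul_eq_mul]
  refine h1.trans ?_
  have h8 : (1:ℝ) ≤ 8 ^ n := one_le_pow₀ (by norm_num)
  calc CDG n * (V⁻¹ * (∫ z in ball x (r / 4), max (f z) 0 ∂μ) + A * (r / 4) ^ 2)
      ≤ CDG n * ((8 ^ n * W⁻¹) * (∫ z in closedBall y r, f z ∂μ) + 8 ^ n * (A * r ^ 2)) := by
        have q : 0 ≤ A * r ^ 2 := by positivity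
        have q1 : A * (r / 4) ^ 2 ≤ 8 ^ n * (A * r ^ 2) := by
          have : A * (r / 4) ^ 2 = (A * r ^ 2) / 16 := by ring
          rw [this]
          nlinarith
        have q2 : V⁻¹ * (∫ z in ball x (r / 4), max (f z) 0 ∂μ) ≤
            (8 ^ n * W⁻¹) * (∫ z in closedBall y r, f z ∂μ) := by
          apply mul_le_mul hVi hI (integral_nonneg fun z => le_max_right _ _) (by positivity)
        gcongr
    _ = _ := by ring

end M

end Crest.Agent.R281.Sm5_593
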