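import Crest.Agent.R281.SmC_986
import Crest.Agent.R281.Hy9_409
import Crest.Agent.R281.Sem5_323

/-!
# R281 (S0424), SEMI-P (helper986): the node `SemiP` from 713's `MvOut` only

* `hasNAn`        : 323's `hasN_an` in the consumer form
* **`semiP_of_mv`** : `MvP → SemiP`
-/

set_option autoImplicit false
set_option linter.unusedSectionVars false
set_option maxSynthPendingDepth 3

open Set Filter Topology Complex MeasureTheory
open scoped ContDiff

namespace Crest.Agent.R281.SmC_986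

open Crest.Agent.R275.Geo Crest.Agent.R275.Core144 Crest.Agent.R275.GC293
open Crest.Agent.R273.Defs_333 Crest.Agent.R273.Kah_333
open Crest.Agent.R260.ACM_580 Crest.Agent.R260.NNB_580
open Crest.Agent.R281.HkR_835 Crest.Agent.R281.Ti_846 Crest.Agent.R281.NefO_476
open Crest.Agent.R281.Nef_252 Crest.Agent.R281.PL_713 Crest.Agent.R281.Dif_268
open Crest.Agent.R281.Alg_998 Crest.Agent.R281.RkD_902 Crest.Agent.R281.Cdr_234
open Crest.Agent.R281.Mvs_713 Crest.Agent.R281.Hz_286 Crest.Agent.R281.Mca_365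
open Crest.Agent.R281.Rkd_386

noncomputable section

theorem semiP_of_mv (mv : MvP) : SemiP := by
  intro n X _ _ _ _ C Q hX L0 e G H hG hT hg m N hNN
  obtain ⟨O⟩ := mv n X C Q hX L0 e G H hG hT hg
  obtain ⟨th, J, han, hval⟩ := coef O
  obtain ⟨Z⟩ := Cells.exists_cells C
  have hd : 2 ≤ 2 * n := by have := hX.n1; omega
  -- the connections
  have h1 : ∀ s : ℝ, ∃ b : F1 C, s ∈ Icc (0 : ℝ) 1 →
      (∀ i, ∀ z ∈ (C.e i).target, (L0.add b).th i z = th s i z) ∧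
      T11 (ofHk (H s) 0) (L0.add b).F := by
    intro s
    by_cases hs : s ∈ Icc (0 : ℝ) 1
    · obtain ⟨b, hb⟩ := (hval s hs).2
      exact ⟨b, fun _ => hb⟩
    · exact ⟨0, fun h => absurd h hs⟩
  choose b hb using h1
  have hpow : ∀ s, (L0.pow m).add ((m : ℝ) • b s) = (L0.add (b s)).pow m := fun s =>
    (pow_add' L0 (b s) m).symm
  have hT11 : ∀ s ∈ Icc (0 : ℝ) 1, T11 (ofHk (H s) 0) ((L0.pow m).add ((m : ℝ) • b s)).F := by
    intro s hs
    rw [hpow]
    exact T11.pow (hb s hs).2 m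
  let bs : Module.Basis (Fin (Module.finrank ℝ (Cn (2 * n)))) ℝ (Cn (2 * n)) :=
    Module.finBasis ℝ (Cn (2 * n))
  have hJc : ∀ s, ∀ i, ContinuousOn ((H s).J 0 i) (C.e i).target := fun s i =>
    ((H s).J_sm 0 i).continuousOn
  have key := Crest.Agent.R281.Sem_323.hasN_an bs
    (MeasureTheory.volume : Measure (Cn (2 * n))) Z (L0.pow m)
    (a := fun s => (m : ℝ) • b s) (J := fun s => (H s).J 0)
    (t := fun s k => (m : ℝ) • toC (Z.B k) (th s (Z.i k)))
    (T := fun s k => toC (Z.B k) (J s (Z.i k)))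
    (fun k s hs => ((han Z k s hs).1.const_smul (c := (m : ℝ)))) (fun k s hs => (han Z k s hs).2)
    (fun s hs k z => ?_) (fun s hs k z => ?_)
    (fun s hs => Crest.Agent.R281.Hy_409.gard_of_cont _ _ _ (hJc s) _)
    (fun s hs => Crest.Agent.R281.Hy_409.rell _ _ _ _) (fun s hs => ?_) (N := N) ?_ 0
    ⟨le_rfl, zero_le_one⟩
  · exact ⟨(m : ℝ) • b 0, hT11 0 ⟨le_rfl, zero_le_one⟩, key⟩
  · -- `th`
    have e : EqOn (th s (Z.i k)) ((L0.add (b s)).th (Z.i k)) (Z.B k) := fun y hy =>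
      ((hb s hs).1 (Z.i k) y (Z.sub k hy)).symm
    rw [hpow]
    show (m : ℝ) • toC (Z.B k) (th s (Z.i k)) z = (m : ℝ) • (L0.add (b s)).th (Z.i k) z
    have hc : ContinuousOn ((L0.add (b s)).th (Z.i k)) (Z.B k) :=
      ((L0.add (b s)).th_sm (Z.i k)).continuousOn.mono (Z.sub k)
    rw [toC_congr e, toC_apply hc]
  · -- `J`
    have e : EqOn (J s (Z.i k)) ((H s).J 0 (Z.i k)) (Z.B k) := fun y hy =>
      (hval s hs).1 (Z.i k) y (Z.sub k hy)
    show toC (Z.B k) (J s (Z.i k)) z = _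
    have hc : ContinuousOn ((H s).J 0 (Z.i k)) (Z.B k) := (hJc s (Z.i k)).mono (Z.sub k)
    rw [toC_congr e, toC_apply hc]
  · -- regularity
    obtain ⟨p⟩ := presP n X C Q hX (H s) L0 e (hg s hs)
    have hjc : JC C ((H s).J 0) p.A := JC.of_cp p.cp
    exact Crest.Agent.R281.Hy_409.regu _ _ _ hjc (hT11 s hs)
  · -- near `1`
    have h2 : ∀ᶠ s in 𝓝[<] (1 : ℝ), hN (L0.pow m) (ofHk (H s) 0) N :=
      hNN.filter_mono (nhdsWithin_mono (1 : ℝ) Iio_subset_Iic_self)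
    have h3 : ∀ᶠ s in 𝓝[<] (1 : ℝ), s ∈ Icc (0 : ℝ) 1 := by
      filter_upwards [Ioo_mem_nhdsLT (show (0 : ℝ) < 1 by norm_num)] with s hs
      exact ⟨hs.1.le, hs.2.le⟩
    have h4 : ∀ᶠ s in 𝓝[<] (1 : ℝ), s ∈ Icc (0 : ℝ) 1 ∧
        ((L0.pow m).add ((m : ℝ) • b s)).HasN ((H s).J 0) N := by
      filter_upwards [h2, h3] with s h4 h5
      exact ⟨h5, hN_indep (nnatC (2 * n)) hd h4 (hT11 s h5)⟩
    exact h4.frequently.filter_mono (nhdsWithin_mono (1 : ℝ) fun x hx => ne_of_lt hx)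

end

end Crest.Agent.R281.SmC_986
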