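import Crest.Agent.R281.Sm4_593

/-!
# R281, S-SPI (helper405), part 2: Caccioppoli type inequality with Lipschitz cut-offs on a
Riemannian manifold

* `cac_gen` : `h + q - B ≤ Δ F`, `‖∇F‖² ≤ E q` on `closedBall x0 b` ⟹
  `∫_{closedBall x0 a} h ≤ (B + E (Cth/(b-a))²) μ(closedBall x0 b)`.
* `dg_gen`  : sub-mean value inequality with closed balls and the hypothesis on a closed ball only.
-/

set_option autoImplicit false
set_option maxSynthPendingDepth 3
set_option linter.unusedSectionVars false
open Bundle Set MeasureTheory Manifold Filter Metric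
open scoped ENNReal ContDiff Topology NNReal
open Crest.GeometryTopology.CoordMetric Crest.GeometryTopology.ChartCurvature
open Crest.Agent.R249.SobA_982 Crest.Agent.R249.SobC_982 Crest.Agent.R249.SobD_982
  Crest.Agent.R249.SobE_982 Crest.Agent.R249.SobG_982 Crest.Agent.R249.SobH_982
open Crest.Agent.R247 Crest.Agent.R247.Ms322 Crest.Agent.R247.Mcp688

noncomputable section
namespace Crest.Agent.R281.Spi_405

open Crest.Agent.R281.Sm1_593 Crest.Agent.R281.Sm2_593 Crest.Agent.R281.Sm3_593
  Crest.Agent.R281.Sm4_593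

section M
variable {n : ℕ} {M : Type*} [MetricSpace M] [ChartedSpace (EuclideanSpace ℝ (Fin n)) M]
  [IsManifold (𝓡 n) ∞ M]
  [RiemannianBundle (fun p : M => TangentSpace (𝓡 n) p)]
  [IsContMDiffRiemannianBundle (𝓡 n) ∞ (EuclideanSpace ℝ (Fin n)) (fun p : M => TangentSpace (𝓡 n) p)]
  [SecondCountableTopology M] [Nonempty M] [IsRiemannianManifold (𝓡 n) M]
  [MeasurableSpace M] [BorelSpace M]

/-- **Caccioppoli type inequality.** -/
theorem cac_gen [CompactSpace M] {F h q : M → ℝ} (hF : ∀ z, ContMDiffAt (𝓡 n) 𝓘(ℝ, ℝ) 2 F z)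
    (hh : Continuous h) (hq : Continuous q) {x0 : M} {a b B E : ℝ} (hab : a < b)
    (hB : 0 ≤ B) (hE : 0 ≤ E) (h0 : ∀ x ∈ closedBall x0 b, 0 ≤ h x)
    (q0 : ∀ x ∈ closedBall x0 b, 0 ≤ q x)
    (hL : ∀ x ∈ closedBall x0 b, h x + q x - B ≤ Bo84.mLap n F x)
    (hG : ∀ x ∈ closedBall x0 b, ‖Gr (n := n) F x‖ ^ 2 ≤ E * q x) :
    ∫ x in closedBall x0 a, h x ∂(μHE[n] : Measure M) ≤
      (B + E * (Cth / (b - a)) ^ 2) * (μHE[n] : Measure M).real (closedBall x0 b) := by
  set μ : Measure M := μHE[n] with hμ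
  have := isLocallyFiniteMeasure n M
  have hba : 0 < b - a := by linarith
  set η : M → ℝ := cut2 x0 a b with hη
  have hd0 : 0 < Cth / (b - a) := div_pos Cth_pos hba
  set d : ℝ := Cth / (b - a) with hd
  have hLip : LipschitzWith d.toNNReal η := by
    refine LipschitzWith.of_dist_le_mul fun x y => ?_
    rw [Real.dist_eq, Real.coe_toNNReal _ hd0.le]
    exact cut2_lip hab x y
  have hηl : LocallyLipschitz η := hLip.locallyLipschitz
  have hηc : Continuous η := hLip.continuous
  have hηs : ∀ z, z ∉ closedBall x0 b → η z = 0 := fun z hz => by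
    rw [mem_closedBall, not_le] at hz
    exact cut2_zero hab hz.le
  have hGη : ∀ z, ‖Gr (n := n) η z‖ ≤ d := fun z => by
    have := norm_Gr_le_of_lipschitzOn (n := n) (K := d.toNNReal) (U := univ) (z := z) univ_mem
      (hLip.lipschitzOnWith (s := univ))
    rwa [Real.coe_toNNReal _ hd0.le] at this
  have hηη : LocallyLipschitz (fun z => η z * η z) := by
    refine (LipschitzWith.of_dist_le_mul (K := (2 * d).toNNReal) fun x y => ?_).locallyLipschitz
    rw [Real.dist_eq, Real.coe_toNNReal _ (by positivity)]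
    have e : η x * η x - η y * η y = (η x + η y) * (η x - η y) := by ring
    have h1 := cut2_lip (x0 := x0) hab x y
    have h2 : 0 ≤ η x := cut2_nonneg x0 a b x
    have h3 : 0 ≤ η y := cut2_nonneg x0 a b y
    have h4 : η x ≤ 1 := cut2_le_one x0 a b x
    have h5 : η y ≤ 1 := cut2_le_one x0 a b y
    have h6 : |η x + η y| ≤ 2 := by
      rw [abs_of_nonneg (add_nonneg h2 h3)]; linarith
    rw [e, abs_mul]
    calc |η x + η y| * |η x - η y| ≤ 2 * (d * dist x y) := by gcongr
      _ = _ := by ring
  have hcs : ∀ f : M → ℝ, HasCompactSupport f := fun f => HasCompactSupport.of_compactSpace f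
  have hibp := ibp_mLap (n := n) (U := univ) isOpen_univ (f := F) (φ := fun z => η z * η z)
    (fun z _ => hF z) hηη (hcs _) (subset_univ _)
  have hgr : ∀ᵐ z ∂μ, inner ℝ (Gr (n := n) F z) (Gr (n := n) (fun z => η z * η z) z) =
      2 * (η z * inner ℝ (Gr (n := n) F z) (Gr (n := n) η z)) := by
    filter_upwards [ae_mdifferentiableAt (n := n) hηl] with z hz
    rw [Gr_mul hz hz, inner_add_right, inner_smul_right]
    ring
  rw [integral_congr_ae hgr, integral_const_mul] at hibp
  -- integrability
  have hFL : LLo univ F := LLo.of_contMDiffAt fun z _ => (hF z).of_le (by norm_num)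
  obtain ⟨CF, hCF0, hCF⟩ := hFL.exists_bound_Gr (n := n) (hcs η).isCompact (subset_univ _)
  have hfin : IsFiniteMeasure μ := ⟨isCompact_univ.measure_lt_top⟩
  have icont : ∀ f : M → ℝ, Continuous f → Integrable f μ := fun f hf => by
    rw [← integrableOn_univ]
    exact hf.continuousOn.integrableOn_compact isCompact_univ
  have hmL : Continuous (Bo84.mLap n F) := by
    rw [← continuousOn_univ]
    exact continuousOn_mLap fun z _ => hF z
  have i1 : Integrable (fun z => η z * inner ℝ (Gr (n := n) F z) (Gr (n := n) η z)) μ := by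
    have h1 := integrable_inner_Gr (n := n) hFL hηl (hcs η) (subset_univ _)
    refine Integrable.mono h1 (hηc.aestronglyMeasurable.mul h1.aestronglyMeasurable) ?_
    filter_upwards with z
    rw [norm_mul]
    have h2 : ‖η z‖ ≤ 1 := by
      rw [Real.norm_eq_abs, abs_of_nonneg (cut2_nonneg _ _ _ _)]
      exact cut2_le_one _ _ _ _
    exact mul_le_of_le_one_left (norm_nonneg _) h2
  -- pointwise inequality
  have hpt : ∀ z, η z ^ 2 * h z ≤ (closedBall x0 b).indicator (fun _ => B + E * d ^ 2) z +
      (η z * η z * Bo84.mLap n F z + 2 * (η z * inner ℝ (Gr (n := n) F z) (Gr (n := n) η z))) := by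
    intro z
    by_cases hz : z ∈ closedBall x0 b
    · rw [indicator_of_mem hz]
      have h1 := hL z hz
      have h2 := hG z hz
      have h3 := q0 z hz
      have h4 : 0 ≤ η z := cut2_nonneg x0 a b z
      have h5 : η z ≤ 1 := cut2_le_one x0 a b z
      have h6 := hGη z
      have h7 : |inner ℝ (Gr (n := n) F z) (Gr (n := n) η z)| ≤
          ‖Gr (n := n) F z‖ * ‖Gr (n := n) η z‖ := abs_real_inner_le_norm _ _
      set G := ‖Gr (n := n) F z‖ with hGd
      set G' := ‖Gr (n := n) η z‖
      have hG0 : 0 ≤ G := norm_nonneg _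
      have hG'0 : 0 ≤ G' := norm_nonneg _
      set ip := (inner ℝ (Gr (n := n) F z) (Gr (n := n) η z) : ℝ)
      -- `2 η |ip| ≤ η² q + E d²`
      have h8 : 2 * (η z * |ip|) ≤ η z ^ 2 * q z + E * d ^ 2 := by
        have h9 : (2 * (η z * |ip|)) ^ 2 ≤ (η z ^ 2 * q z + E * d ^ 2) ^ 2 := by
          have h10 : |ip| ^ 2 ≤ (E * q z) * d ^ 2 := by
            calc |ip| ^ 2 ≤ (G * G') ^ 2 := by gcongr
              _ = G ^ 2 * G' ^ 2 := by ring
              _ ≤ (E * q z) * d ^ 2 := by gcongr
          have h11 : (2 * (η z * |ip|)) ^ 2 ≤ 4 * (η z ^ 2 * q z) * (E * d ^ 2) := by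
            calc (2 * (η z * |ip|)) ^ 2 = 4 * η z ^ 2 * |ip| ^ 2 := by ring
              _ ≤ 4 * η z ^ 2 * ((E * q z) * d ^ 2) := by gcongr
              _ = _ := by ring
          nlinarith [sq_nonneg (η z ^ 2 * q z - E * d ^ 2)]
        have h12 : 0 ≤ η z ^ 2 * q z + E * d ^ 2 := by positivity
        exact le_of_sq_le_sq h9 h12
      have h13 : -(η z * |ip|) ≤ η z * ip := by
        have := neg_abs_le ip
        nlinarith
      have h14 : η z ^ 2 * (h z + q z - B) ≤ η z * η z * Bo84.mLap n F z := by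
        rw [← sq]
        gcongr
      have h15 : η z ^ 2 * B ≤ B := by
        have : η z ^ 2 ≤ 1 := pow_le_one₀ h4 h5
        nlinarith
      nlinarith
    · rw [indicator_of_notMem hz, hηs z hz]
      simp
  have hint : ∫ z, η z ^ 2 * h z ∂μ ≤ (B + E * d ^ 2) * μ.real (closedBall x0 b) := by
    have j1 : Integrable (fun z => (closedBall x0 b).indicator (fun _ => B + E * d ^ 2) z) μ :=
      (integrable_const _).indicator measurableSet_closedBall
    have j2 : Integrable (fun z => η z * η z * Bo84.mLap n F z) μ :=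
      icont _ ((hηc.mul hηc).mul hmL)
    have j3 : Integrable (fun z => 2 * (η z * inner ℝ (Gr (n := n) F z) (Gr (n := n) η z))) μ :=
      i1.const_mul 2
    have j4 : Integrable (fun z => η z ^ 2 * h z) μ := icont _ ((hηc.pow 2).mul hh)
    have j23 : Integrable (fun z => η z * η z * Bo84.mLap n F z +
      2 * (η z * inner ℝ (Gr (n := n) F z) (Gr (n := n) η z))) μ := j2.add j3
    calc ∫ z, η z ^ 2 * h z ∂μ ≤ ∫ z, ((closedBall x0 b).indicator (fun _ => B + E * d ^ 2) z +
          (η z * η z * Bo84.mLap n F z +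
            2 * (η z * inner ℝ (Gr (n := n) F z) (Gr (n := n) η z)))) ∂μ :=
          integral_mono j4 (j1.add j23) hpt
      _ = ∫ z, (closedBall x0 b).indicator (fun _ => B + E * d ^ 2) z ∂μ := by
          rw [integral_add j1 j23, integral_add j2 j3, integral_const_mul]
          linarith
      _ = _ := by
          rw [integral_indicator measurableSet_closedBall, setIntegral_const, smul_eq_mul]
          ring
  refine le_trans ?_ hint
  have j4 : Integrable (fun z => η z ^ 2 * h z) μ := icont _ ((hηc.pow 2).mul hh)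
  have e1 : ∫ x in closedBall x0 a, h x ∂μ = ∫ x in closedBall x0 a, η x ^ 2 * h x ∂μ := by
    refine setIntegral_congr_fun measurableSet_closedBall fun x hx => ?_
    have : η x = 1 := cut2_one hab (mem_closedBall.1 hx)
    simp [this]
  rw [e1]
  refine setIntegral_le_integral j4 (Eventually.of_forall fun z => ?_)
  show 0 ≤ η z ^ 2 * h z
  by_cases hz : z ∈ closedBall x0 b
  · exact mul_nonneg (sq_nonneg _) (h0 z hz)
  · rw [hηs z hz]; simp

/-- **Sub-mean value inequality**, closed balls. -/
theorem dg_gen [CompactSpace M] (C : Rad n 0 M (μHE[n] : Measure M)) (hn : 1 ≤ n) {f : M → ℝ}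
    (hf : ∀ z, ContMDiffAt (𝓡 n) 𝓘(ℝ, ℝ) 2 f z) (hf0 : ∀ x, 0 ≤ f x) {y : M} {r A B : ℝ}
    (hr : 0 < r) (hA : 0 ≤ A) (hB : 0 ≤ B) (hBr : B * r ^ 2 ≤ 16)
    (hL : ∀ x ∈ closedBall y r, -(A + B * f x) ≤ Bo84.mLap n f x) {x : M}
    (hx : x ∈ closedBall y (r / 2)) :
    f x ≤ CDG n * (8 ^ n * (⨍ z in closedBall y r, f z ∂(μHE[n] : Measure M)) +
      A * (r / 4) ^ 2) := by
  set μ : Measure M := μHE[n] with hμ
  have := isLocallyFiniteMeasure n M
  have := isOpenPosMeasure n M
  have hfin : IsFiniteMeasure μ := ⟨isCompact_univ.measure_lt_top⟩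
  rw [mem_closedBall] at hx
  have hsub : closedBall x (r / 4) ⊆ ball y r := by
    intro z hz
    rw [mem_closedBall] at hz
    rw [mem_ball]
    have := dist_triangle z x y
    linarith
  have h := dg1 C hn (x0 := x) (r := r / 4) (by positivity) (U := ball y r) isOpen_ball hsub
    (fun z _ => hf z) hA hB (by nlinarith) (fun z hz => hL z (ball_subset_closedBall hz))
    (mem_closedBall_self (by positivity))
  refine h.trans ?_
  have hfc : Continuous f := continuous_iff_continuousAt.2 fun z => (hf z).continuousAt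
  have hint : Integrable f μ := by
    rw [← integrableOn_univ]
    exact hfc.continuousOn.integrableOn_compact isCompact_univ
  have e : ∫ z in ball x (r / 4), max (f z) 0 ∂μ = ∫ z in ball x (r / 4), f z ∂μ := by
    congr 1
    funext z
    exact max_eq_left (hf0 z)
  have h1 : ∫ z in ball x (r / 4), f z ∂μ ≤ ∫ z in closedBall y r, f z ∂μ :=
    setIntegral_mono_set hint.integrableOn (Eventually.of_forall hf0)
      (((ball_subset_closedBall.trans hsub).trans ball_subset_closedBall).eventuallyLE)
  have h10 : 0 ≤ ∫ z in closedBall y r, f z ∂μ := integral_nonneg hf0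
  have hV0 : 0 < μ.real (ball x (r / 4)) := pos_of_open x _ (by positivity)
  have hW0 : 0 < μ.real (closedBall y r) :=
    ENNReal.toReal_pos (measure_closedBall_pos μ y hr).ne' (measure_ne_top _ _)
  have h2 : μ.real (closedBall y r) ≤ 8 ^ n * μ.real (ball x (r / 4)) := by
    have h3 := dbl_of_rad C x (r / 4) (2 * r) (by positivity) (by linarith)
    have h4 : 2 * r / (r / 4) = 8 := by field_simp; norm_num
    rw [h4] at h3
    refine le_trans (measureReal_mono ?_) h3
    intro z hz
    rw [mem_closedBall] at hz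
    rw [mem_ball]
    have := dist_triangle_right z x y
    linarith
  have h3 : (μ.real (ball x (r / 4)))⁻¹ ≤ 8 ^ n * (μ.real (closedBall y r))⁻¹ := by
    rw [← div_eq_mul_inv, inv_eq_one_div, div_le_div_iff₀ hV0 hW0]
    linarith
  have hC := (CDG_pos n).le
  rw [e, setAverage_eq, smul_eq_mul, ← mul_assoc (8 ^ n)]
  have h11 : 0 ≤ ∫ z in ball x (r / 4), f z ∂μ := integral_nonneg hf0
  gcongr

end M

end Crest.Agent.R281.Spi_405
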