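import Mathlib

/-!
Row 281 (S0424), leaf SPREAD-ALG, part 1 (helper831): **spreading out without schemes**.

For a finite vector `c` of complex numbers there are `u₀ ∈ ℂ^d` algebraically independent over `ℚ`,
a monic `f ∈ ℚ[u][z]`, a root `z₀` of `f(u₀, ·)`, `h ∈ ℚ[u]` and `gᵢ ∈ ℚ[u][z]` with
`cᵢ = gᵢ(u₀,z₀)/h(u₀)`, such that for all `(u,z)` with `f(u,z) = 0`, `h(u) ≠ 0` the vector
`gᵢ(u,z)/h(u)` satisfies every polynomial relation over `ℚ` satisfied by `c`; and `f(u,·)` is
separable as soon as `h(u) ≠ 0`.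
-/

set_option autoImplicit false

open Polynomial

noncomputable section

namespace Crest.Agent.R281.Spr831

/-- evaluation of `ℚ[u][z]` at a point `(u,z)` of a `ℚ`-algebra -/
def ev {d : ℕ} {L : Type*} [CommRing L] [Algebra ℚ L] (u : Fin d → L) (z : L) :
    (MvPolynomial (Fin d) ℚ)[X] →ₐ[ℚ] L :=
  Polynomial.eval₂AlgHom (MvPolynomial.aeval u) z fun _ => Commute.all _ _

section ev

variable {d : ℕ} {L : Type*} [CommRing L] [Algebra ℚ L] (u : Fin d → L) (z : L)

lemma ev_apply (p : (MvPolynomial (Fin d) ℚ)[X]) :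
    ev u z p = Polynomial.eval₂ (MvPolynomial.aeval u : _ →ₐ[ℚ] L).toRingHom z p := rfl

@[simp] lemma ev_C (a : MvPolynomial (Fin d) ℚ) : ev u z (C a) = MvPolynomial.aeval u a := by
  rw [ev_apply, eval₂_C]; rfl

@[simp] lemma ev_X : ev u z X = z := by rw [ev_apply, eval₂_X]

lemma ev_map {L' : Type*} [CommRing L'] [Algebra ℚ L'] (φ : L →ₐ[ℚ] L')
    (p : (MvPolynomial (Fin d) ℚ)[X]) : φ (ev u z p) = ev (fun i => φ (u i)) (φ z) p := by
  have : φ.comp (ev u z) = ev (fun i => φ (u i)) (φ z) := by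
    refine Polynomial.algHom_ext' ?_ ?_
    · refine MvPolynomial.algHom_ext fun i => ?_
      simp [Polynomial.CAlgHom]
    · simp
  exact DFunLike.congr_fun this p

end ev

/-- homogenised substitution -/
def hsub {d : ℕ} {ι : Type*} (g : ι → (MvPolynomial (Fin d) ℚ)[X]) (h : MvPolynomial (Fin d) ℚ)
    (R : MvPolynomial ι ℚ) : (MvPolynomial (Fin d) ℚ)[X] :=
  ∑ m ∈ R.support, algebraMap ℚ _ (R.coeff m) * (∏ i ∈ m.support, g i ^ m i) *
    C h ^ (R.totalDegree - m.degree)

lemma hsub_eval {d : ℕ} {ι : Type*} {L : Type*} [Field L] [Algebra ℚ L]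
    (g : ι → (MvPolynomial (Fin d) ℚ)[X]) (h : MvPolynomial (Fin d) ℚ) (R : MvPolynomial ι ℚ)
    (φ : (MvPolynomial (Fin d) ℚ)[X] →ₐ[ℚ] L) (hφ : φ (C h) ≠ 0) :
    φ (hsub g h R) = φ (C h) ^ R.totalDegree *
      MvPolynomial.aeval (fun i => φ (g i) / φ (C h)) R := by
  rw [hsub, map_sum, MvPolynomial.aeval_def, MvPolynomial.eval₂_eq, Finset.mul_sum]
  refine Finset.sum_congr rfl fun m hm => ?_
  have hdeg : m.degree ≤ R.totalDegree := MvPolynomial.le_totalDegree hm
  rw [map_mul, map_mul, map_pow, map_prod, AlgHom.commutes]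
  have h1 : ∏ i ∈ m.support, (φ (g i) / φ (C h)) ^ m i =
      (∏ i ∈ m.support, φ (g i ^ m i)) / φ (C h) ^ m.degree := by
    have h0 : m.degree = ∑ i ∈ m.support, m i := rfl
    rw [h0, ← Finset.prod_pow_eq_pow_sum, ← Finset.prod_div_distrib]
    refine Finset.prod_congr rfl fun i _ => ?_
    rw [div_pow, map_pow]
  rw [h1]
  have h2 : φ (C h) ^ R.totalDegree = φ (C h) ^ (R.totalDegree - m.degree) * φ (C h) ^ m.degree := by
    rw [← pow_add, Nat.sub_add_cancel hdeg]
  rw [h2]
  field_simp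

/-- transfer of relations -/
lemma transfer {d : ℕ} {ι : Type*} {L L' : Type*} [Field L] [Algebra ℚ L] [Field L'] [Algebra ℚ L']
    {f : (MvPolynomial (Fin d) ℚ)[X]} {g : ι → (MvPolynomial (Fin d) ℚ)[X]}
    {h : MvPolynomial (Fin d) ℚ}
    (φ : (MvPolynomial (Fin d) ℚ)[X] →ₐ[ℚ] L) (hφ : φ (C h) ≠ 0)
    (hker : ∀ p, φ p = 0 → f ∣ p)
    (ψ : (MvPolynomial (Fin d) ℚ)[X] →ₐ[ℚ] L') (hψ : ψ (C h) ≠ 0) (hf : ψ f = 0)
    {R : MvPolynomial ι ℚ} (hR : MvPolynomial.aeval (fun i => φ (g i) / φ (C h)) R = 0) :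
    MvPolynomial.aeval (fun i => ψ (g i) / ψ (C h)) R = 0 := by
  have h1 : φ (hsub g h R) = 0 := by rw [hsub_eval g h R φ hφ, hR, mul_zero]
  obtain ⟨w, hw⟩ := hker _ h1
  have h2 : ψ (hsub g h R) = 0 := by rw [hw, map_mul, hf, zero_mul]
  rw [hsub_eval g h R ψ hψ] at h2
  exact (mul_eq_zero.1 h2).resolve_left (pow_ne_zero _ hψ)

/-- finitely many elements of a field of algebraic functions have a common denominator -/
lemma common_den {P F : Type*} [CommRing P] [IsDomain P] [Field F] [Algebra P F] [IsFractionRing P F]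
    {ι : Type*} [Finite ι] (q : ι → F[X]) :
    ∃ h : P, h ≠ 0 ∧ ∀ i, ∃ g : P[X], g.map (algebraMap P F) = C (algebraMap P F h) * q i := by
  classical
  have := Fintype.ofFinite ι
  let S : Finset F := Finset.univ.biUnion fun i => (q i).coeffs
  obtain ⟨b, hb⟩ := IsLocalization.exist_integer_multiples_of_finset (nonZeroDivisors P) S
  refine ⟨b, nonZeroDivisors.ne_zero b.2, fun i => ?_⟩
  have h1 : ∀ n, ∃ a : P, algebraMap P F a = algebraMap P F b * (q i).coeff n := by
    intro n
    by_cases hn : (q i).coeff n = 0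
    · exact ⟨0, by rw [hn, mul_zero, map_zero]⟩
    · obtain ⟨a, ha⟩ := hb ((q i).coeff n) (Finset.mem_biUnion.2 ⟨i, Finset.mem_univ _,
        coeff_mem_coeffs hn⟩)
      exact ⟨a, by rw [ha, Algebra.smul_def]⟩
  choose a ha using h1
  refine ⟨∑ n ∈ Finset.range ((q i).natDegree + 1), C (a n) * X ^ n, ?_⟩
  ext n
  rw [coeff_C_mul, ← ha, coeff_map, finsetSum_coeff]
  simp only [coeff_C_mul, coeff_X_pow, mul_ite, mul_one, mul_zero, Finset.sum_ite_eq,
    Finset.mem_range]
  split_ifs with hn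
  · rfl
  · have : (q i).coeff n = 0 := coeff_eq_zero_of_natDegree_lt (by omega)
    rw [ha, this, mul_zero, map_zero]

open IntermediateField in
/-- the field version -/
theorem spread_field {K : Type*} [Field K] [CharZero K] [Algebra ℚ K] {ι : Type*} [Finite ι]
    (c : ι → K) (hc : IntermediateField.adjoin ℚ (Set.range c) = ⊤) :
    ∃ (d : ℕ) (u₀ : Fin d → K) (f : (MvPolynomial (Fin d) ℚ)[X]) (z₀ : K)
      (h : MvPolynomial (Fin d) ℚ) (g : ι → (MvPolynomial (Fin d) ℚ)[X]),
      AlgebraicIndependent ℚ u₀ ∧ f.Monic ∧ ev u₀ z₀ f = 0 ∧ (∀ p, ev u₀ z₀ p = 0 → f ∣ p) ∧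
      h ≠ 0 ∧ (∀ i, c i * MvPolynomial.aeval u₀ h = ev u₀ z₀ (g i)) ∧
      ∃ a b : (MvPolynomial (Fin d) ℚ)[X], a * f + b * derivative f = C h := by
  classical
  -- step 1: `K` is algebraic over the algebra generated by `c`
  have halg : Algebra.IsAlgebraic (Algebra.adjoin ℚ (Set.range c)) K := by
    refine ⟨fun x => ?_⟩
    have hx : x ∈ IntermediateField.adjoin ℚ (Set.range c) := by rw [hc]; trivial
    obtain ⟨r, hr, s, hs, rfl⟩ := IntermediateField.mem_adjoin_iff_div.1 hx
    by_cases hs0 : s = 0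
    · rw [hs0, div_zero]; exact isAlgebraic_zero
    · refine ⟨C (⟨s, hs⟩ : Algebra.adjoin ℚ (Set.range c)) * X - C ⟨r, hr⟩, ?_, ?_⟩
      · intro h0
        have := congrArg (fun p => p.coeff 1) h0
        simp at this
        exact hs0 (congrArg Subtype.val this)
      · simp only [map_sub, map_mul, aeval_C, aeval_X]
        have h1 : algebraMap (Algebra.adjoin ℚ (Set.range c)) K ⟨s, hs⟩ = s := rfl
        have h2 : algebraMap (Algebra.adjoin ℚ (Set.range c)) K ⟨r, hr⟩ = r := rfl
        rw [h1, h2, mul_div_cancel₀ _ hs0, sub_self]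
  -- step 2: transcendence basis
  obtain ⟨t, ht, htb⟩ := exists_isTranscendenceBasis_subset (R := ℚ) (A := K) (Set.range c)
  have htf : t.Finite := (Set.finite_range c).subset ht
  have := htf.fintype
  let e : Fin (Fintype.card t) ≃ t := (Fintype.equivFin t).symm
  set d := Fintype.card t with hd
  let u₀ : Fin d → K := ((↑) : t → K) ∘ e
  have hub : IsTranscendenceBasis ℚ u₀ := htb.comp_equiv e
  have hu : AlgebraicIndependent ℚ u₀ := hub.1
  -- step 3: `K` as an algebra over `ℚ[u]`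
  let algPK : Algebra (MvPolynomial (Fin d) ℚ) K := (MvPolynomial.aeval u₀ : _ →ₐ[ℚ] K).toRingHom.toAlgebra
  have hmapP : ∀ p : MvPolynomial (Fin d) ℚ, algebraMap (MvPolynomial (Fin d) ℚ) K p =
    MvPolynomial.aeval u₀ p := fun p => rfl
  have hinj : Function.Injective (algebraMap (MvPolynomial (Fin d) ℚ) K) := hu
  have : FaithfulSMul (MvPolynomial (Fin d) ℚ) K := (faithfulSMul_iff_algebraMap_injective _ _).2 hinj
  have : IsScalarTower ℚ (MvPolynomial (Fin d) ℚ) K := IsScalarTower.of_algebraMap_eq fun q => by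
    rw [hmapP]; exact ((MvPolynomial.aeval u₀).commutes q).symm
  have hPK : Algebra.IsAlgebraic (MvPolynomial (Fin d) ℚ) K := by
    have h0 : Algebra.IsAlgebraic (Algebra.adjoin ℚ (Set.range u₀)) K := hub.isAlgebraic
    exact Algebra.IsAlgebraic.of_ringHom_of_comp_eq hu.aevalEquiv (RingHom.id K)
      hu.aevalEquiv.surjective Function.injective_id (RingHom.ext fun p => hu.algebraMap_aevalEquiv p)
  -- step 4: the field of fractions
  let F := FractionRing (MvPolynomial (Fin d) ℚ)
  let algFK : Algebra F K := FractionRing.liftAlgebra (MvPolynomial (Fin d) ℚ) K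
  have hinjF : Function.Injective (algebraMap (MvPolynomial (Fin d) ℚ) F) :=
    IsFractionRing.injective _ _
  have tow : IsScalarTower (MvPolynomial (Fin d) ℚ) F K :=
    FractionRing.isScalarTower_liftAlgebra (MvPolynomial (Fin d) ℚ) K
  have hFK : Algebra.IsAlgebraic F K := ⟨fun x => (hPK.isAlgebraic x).extendScalars hinjF⟩
  have : CharZero F := inferInstance
  -- step 5: finite dimensional
  have hadj : IntermediateField.adjoin F (Set.range c) = ⊤ := by
    rw [eq_top_iff]
    intro x _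
    have hx : x ∈ IntermediateField.adjoin ℚ (Set.range c) := by rw [hc]; trivial
    have hle : IntermediateField.adjoin ℚ (Set.range c) ≤
        (IntermediateField.adjoin F (Set.range c)).restrictScalars ℚ := by
      rw [IntermediateField.adjoin_le_iff]
      exact IntermediateField.subset_adjoin F (Set.range c)
    exact hle hx
  have hfd : FiniteDimensional F K := by
    have h1 : FiniteDimensional F (IntermediateField.adjoin F (Set.range c)) :=
      IntermediateField.finiteDimensional_adjoin fun x _ => Algebra.IsIntegral.isIntegral x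
    rw [hadj] at h1
    exact (IntermediateField.topEquiv (F := F) (E := K)).toLinearEquiv.finiteDimensional
  -- step 6: primitive element
  obtain ⟨α, hα⟩ := Field.exists_primitive_element F K
  -- step 7: integral multiple
  obtain ⟨y, hy0, hyint⟩ := (hPK.isAlgebraic α).exists_integral_multiple
  set z₀ : K := y • α with hz₀
  have hyK : algebraMap (MvPolynomial (Fin d) ℚ) K y ≠ 0 := fun h => hy0 (hinj (by rw [h, map_zero]))
  have hz₀' : z₀ = algebraMap (MvPolynomial (Fin d) ℚ) K y * α := by rw [hz₀, Algebra.smul_def]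
  have hgen : F⟮z₀⟯ = ⊤ := by
    rw [eq_top_iff, ← hα, IntermediateField.adjoin_simple_le_iff]
    have h1 : α = (algebraMap (MvPolynomial (Fin d) ℚ) K y)⁻¹ * z₀ := by
      rw [hz₀', inv_mul_cancel_left₀ hyK]
    rw [h1]
    refine mul_mem (inv_mem ?_) (IntermediateField.mem_adjoin_simple_self F z₀)
    rw [IsScalarTower.algebraMap_apply (MvPolynomial (Fin d) ℚ) F K]
    exact (F⟮z₀⟯).algebraMap_mem _
  -- step 8: the minimal polynomial
  set f := minpoly (MvPolynomial (Fin d) ℚ) z₀ with hf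
  have hev : ∀ p : (MvPolynomial (Fin d) ℚ)[X], ev u₀ z₀ p = Polynomial.aeval z₀ p := fun p => rfl
  have hdvd : ∀ p, ev u₀ z₀ p = 0 → f ∣ p := fun p hp =>
    minpoly.isIntegrallyClosed_dvd hyint (by rw [← hev]; exact hp)
  have hfF : minpoly F z₀ = f.map (algebraMap (MvPolynomial (Fin d) ℚ) F) :=
    minpoly.isIntegrallyClosed_eq_field_fractions' F hyint
  -- step 9: the `c i` as polynomials in `z₀`
  have hz₀F : IsIntegral F z₀ := Algebra.IsIntegral.isIntegral z₀
  have hq : ∀ i, ∃ q : F[X], Polynomial.aeval z₀ q = c i := by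
    intro i
    have h1 : c i ∈ F⟮z₀⟯ := by rw [hgen]; trivial
    have h2 : c i ∈ (F⟮z₀⟯).toSubalgebra := h1
    rw [IntermediateField.adjoin_simple_toSubalgebra_of_isAlgebraic hz₀F.isAlgebraic,
      Algebra.adjoin_singleton_eq_range_aeval] at h2
    exact h2
  choose q hq using hq
  obtain ⟨h₁, hh₁, hg⟩ := common_den (P := MvPolynomial (Fin d) ℚ) q
  choose G hG using hg
  -- step 10: separability
  have hsep : (f.map (algebraMap (MvPolynomial (Fin d) ℚ) F)).Separable := by
    rw [← hfF]; exact Algebra.IsSeparable.isSeparable F z₀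
  obtain ⟨a, b, hab⟩ := hsep
  obtain ⟨h₂, hh₂, hAB⟩ := common_den (P := MvPolynomial (Fin d) ℚ) ![a, b]
  obtain ⟨A, hA⟩ := hAB 0
  obtain ⟨B, hB⟩ := hAB 1
  simp only [Matrix.cons_val_zero, Matrix.cons_val_one] at hA hB
  have hABf : A * f + B * derivative f = C h₂ := by
    apply Polynomial.map_injective _ hinjF
    rw [Polynomial.map_add, Polynomial.map_mul, Polynomial.map_mul, hA, hB, map_C,
      ← derivative_map]
    linear_combination C (algebraMap (MvPolynomial (Fin d) ℚ) F h₂) * hab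
  refine ⟨d, u₀, f, z₀, h₁ * h₂, fun i => C h₂ * G i, hu, minpoly.monic hyint, ?_, hdvd,
    mul_ne_zero hh₁ hh₂, fun i => ?_, C h₁ * A, C h₁ * B, ?_⟩
  · rw [hev]; exact minpoly.aeval _ _
  · have h1 : Polynomial.aeval z₀ (G i) = algebraMap (MvPolynomial (Fin d) ℚ) K h₁ * c i := by
      rw [← Polynomial.aeval_map_algebraMap F, hG, map_mul, aeval_C, hq,
        ← IsScalarTower.algebraMap_apply]
    show c i * MvPolynomial.aeval u₀ (h₁ * h₂) = ev u₀ z₀ (C h₂ * G i)
    rw [map_mul, map_mul, ev_C, hev, h1, hmapP]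
    ring
  · rw [C_mul]
    linear_combination C h₁ * hABf

end Crest.Agent.R281.Spr831
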