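import Crest.Agent.R281.Spr1_831

/-!
Row 281 (S0424), leaf SPREAD-ALG, part 2 (helper831): the statement over `ℂ`, algebraic points,
restriction to a complex line.
-/

set_option autoImplicit false

open Polynomial

noncomputable section

namespace Crest.Agent.R281.Spr831

lemma adjoin_range_top {ι : Type*} (c : ι → ℂ) (K : IntermediateField ℚ ℂ)
    (hK : IntermediateField.adjoin ℚ (Set.range c) = K) (c' : ι → K) (hc' : ∀ i, (c' i : ℂ) = c i) :
    @IntermediateField.adjoin ℚ _ K _ K.algebra' (Set.range c') = ⊤ := by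
  apply IntermediateField.map_injective K.val
  rw [IntermediateField.adjoin_map, ← Set.range_comp]
  have h1 : (K.val ∘ c') = c := funext hc'
  rw [h1, hK]
  ext x
  constructor
  · intro hx
    exact ⟨⟨x, hx⟩, trivial, rfl⟩
  · rintro ⟨y, _, rfl⟩
    exact y.2

/-- the conclusion of `spread` -/
def Spr {ι : Type*} (c : ι → ℂ) : Prop :=
    ∃ (d : ℕ) (u₀ : Fin d → ℂ) (f : (MvPolynomial (Fin d) ℚ)[X]) (z₀ : ℂ)
      (h : MvPolynomial (Fin d) ℚ) (g : ι → (MvPolynomial (Fin d) ℚ)[X]),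
      AlgebraicIndependent ℚ u₀ ∧ f.Monic ∧ ev u₀ z₀ f = 0 ∧ MvPolynomial.aeval u₀ h ≠ 0 ∧
      (∀ i, ev u₀ z₀ (g i) / MvPolynomial.aeval u₀ h = c i) ∧
      (∃ a b : (MvPolynomial (Fin d) ℚ)[X], a * f + b * derivative f = C h) ∧
      ∀ (u : Fin d → ℂ) (z : ℂ), ev u z f = 0 → MvPolynomial.aeval u h ≠ 0 →
        ∀ R : MvPolynomial ι ℚ, MvPolynomial.aeval c R = 0 →
          MvPolynomial.aeval (fun i => ev u z (g i) / MvPolynomial.aeval u h) R = 0

theorem spr_of_field {K : Type*} [Field K] [CharZero K] [Algebra ℚ K] {ι : Type*} [Finite ι]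
    (φ : K →ₐ[ℚ] ℂ) (c' : ι → K) (htop : IntermediateField.adjoin ℚ (Set.range c') = ⊤)
    (c : ι → ℂ) (hcc : ∀ i, φ (c' i) = c i) : Spr c := by
  obtain ⟨d, u₀, f, z₀, h, g, hu, hf, hf0, hdvd, hh, hg, hab⟩ := spread_field c' htop
  have hinj : Function.Injective φ := φ.injective
  let u₁ : Fin d → ℂ := fun i => φ (u₀ i)
  have hu' : AlgebraicIndependent ℚ u₁ := hu.map' hinj
  have hev : ∀ p, φ (ev u₀ z₀ p) = ev u₁ (φ z₀) p := fun p => ev_map u₀ z₀ φ p
  have hval : ∀ p : MvPolynomial (Fin d) ℚ,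
      φ (MvPolynomial.aeval u₀ p) = MvPolynomial.aeval u₁ p := by
    intro p
    have := hev (C p)
    rwa [ev_C, ev_C] at this
  have hh0 : (MvPolynomial.aeval u₀ h : K) ≠ 0 := fun h0 => hh (hu (by
    rw [map_zero]; exact h0))
  have hh1 : MvPolynomial.aeval u₁ h ≠ 0 := by
    rw [← hval]
    exact fun h0 => hh0 (hinj (by rw [h0, map_zero]))
  have hc : ∀ i, ev u₁ (φ z₀) (g i) / MvPolynomial.aeval u₁ h = c i := by
    intro i
    rw [← hev, ← hg i, map_mul, hval, hcc, mul_div_cancel_right₀ _ hh1]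
  refine ⟨d, u₁, f, φ z₀, h, g, hu', hf, ?_, hh1, hc, hab, ?_⟩
  · rw [← hev, hf0, map_zero]
  · intro u z hz hhz R hR
    have h1 := transfer (f := f) (g := g) (h := h) (ev u₁ (φ z₀))
      (by rw [ev_C]; exact hh1) (fun p hp => hdvd p (hinj (by rw [hev, hp, map_zero])))
      (ev u z) (by rw [ev_C]; exact hhz) hz (R := R) (by
        simp only [ev_C]
        have : (fun i => ev u₁ (φ z₀) (g i) / MvPolynomial.aeval u₁ h) = c := funext hc
        rw [this]; exact hR)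
    simpa only [ev_C] using h1

/-- **Spreading out.** -/
theorem spread {ι : Type*} [Finite ι] (c : ι → ℂ) : Spr c := by
  obtain ⟨K, hK⟩ : ∃ K : IntermediateField ℚ ℂ, IntermediateField.adjoin ℚ (Set.range c) = K :=
    ⟨_, rfl⟩
  have hmem : ∀ i, c i ∈ K := fun i => by
    rw [← hK]; exact IntermediateField.subset_adjoin ℚ _ ⟨i, rfl⟩
  exact @spr_of_field K _ inferInstance K.algebra' ι _ K.val (fun i => ⟨c i, hmem i⟩)
    (adjoin_range_top c K hK _ fun i => rfl) c fun i => rfl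

/-! ### algebraic points -/

lemma isAlgebraic_aeval {d : ℕ} {u : Fin d → ℂ} (hu : ∀ i, IsAlgebraic ℚ (u i))
    (p : MvPolynomial (Fin d) ℚ) : IsAlgebraic ℚ (MvPolynomial.aeval u p) := by
  induction p using MvPolynomial.induction_on with
  | C a => rw [MvPolynomial.aeval_C]; exact isAlgebraic_algebraMap a
  | add p q hp hq => rw [map_add]; exact hp.add hq
  | mul_X p i hp => rw [map_mul, MvPolynomial.aeval_X]; exact hp.mul (hu i)

lemma isAlgebraic_ev {d : ℕ} {u : Fin d → ℂ} (hu : ∀ i, IsAlgebraic ℚ (u i)) {z : ℂ}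
    (hz : IsAlgebraic ℚ z) (p : (MvPolynomial (Fin d) ℚ)[X]) : IsAlgebraic ℚ (ev u z p) := by
  induction p using Polynomial.induction_on with
  | C a => rw [ev_C]; exact isAlgebraic_aeval hu a
  | add p q hp hq => rw [map_add]; exact hp.add hq
  | monomial n a _ =>
    rw [map_mul, map_pow, ev_C, ev_X]
    exact (isAlgebraic_aeval hu a).mul (hz.pow _)

lemma isAlgebraic_root {d : ℕ} {u : Fin d → ℂ} (hu : ∀ i, IsAlgebraic ℚ (u i)) {z : ℂ}
    {f : (MvPolynomial (Fin d) ℚ)[X]} (hf : f.Monic) (h0 : ev u z f = 0) : IsAlgebraic ℚ z := by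
  let A := integralClosure ℚ ℂ
  have hA : ∀ p : MvPolynomial (Fin d) ℚ, MvPolynomial.aeval u p ∈ A := fun p =>
    (isAlgebraic_aeval hu p).isIntegral
  let φ : MvPolynomial (Fin d) ℚ →+* A :=
    (MvPolynomial.aeval u : _ →ₐ[ℚ] ℂ).toRingHom.codRestrict A.toSubring hA
  have hzA : IsIntegral A z := by
    refine ⟨f.map φ, hf.map φ, ?_⟩
    rw [eval₂_map]
    exact h0
  have : IsIntegral ℚ z := isIntegral_trans z hzA
  exact this.isAlgebraic

lemma countable_algebraic (ι : Type*) [Finite ι] :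
    Set.Countable {x : ι → ℂ | ∀ i, IsAlgebraic ℚ (x i)} :=
  Set.countable_pi fun _ : ι => Algebraic.countable ℚ ℂ

/-! ### restriction to a line -/

/-- the substitution `u = u₀ + s w` -/
def lineHom {d : ℕ} (u₀ w : Fin d → ℂ) : MvPolynomial (Fin d) ℚ →ₐ[ℚ] ℂ[X] :=
  MvPolynomial.aeval fun i => C (u₀ i) + C (w i) * X

lemma eval_lineHom {d : ℕ} (u₀ w : Fin d → ℂ) (s : ℂ) (p : MvPolynomial (Fin d) ℚ) :
    (lineHom u₀ w p).eval s = MvPolynomial.aeval (fun i => u₀ i + s * w i) p := by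
  have : ((Polynomial.aeval s : ℂ[X] →ₐ[ℂ] ℂ).restrictScalars ℚ).comp (lineHom u₀ w) =
      MvPolynomial.aeval (fun i => u₀ i + s * w i) := by
    refine MvPolynomial.algHom_ext fun i => ?_
    simp [lineHom]
    ring
  have h2 := DFunLike.congr_fun this p
  simpa [Polynomial.coe_aeval_eq_eval] using h2

lemma evalEval_line {d : ℕ} (u₀ w : Fin d → ℂ) (s z : ℂ) (p : (MvPolynomial (Fin d) ℚ)[X]) :
    evalEval s z (p.map (lineHom u₀ w : _ →ₐ[ℚ] ℂ[X]).toRingHom) =
      ev (fun i => u₀ i + s * w i) z p := by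
  induction p using Polynomial.induction_on with
  | C a => rw [map_C, evalEval_C, ev_C, ← eval_lineHom]; rfl
  | add p q hp hq => rw [Polynomial.map_add, evalEval_add, hp, hq, map_add]
  | monomial n a _ =>
    rw [Polynomial.map_mul, Polynomial.map_pow, map_C, map_X, evalEval_mul, evalEval_pow,
      evalEval_C, evalEval_X, map_mul, map_pow, ev_C, ev_X, ← eval_lineHom]
    rfl

/-- **Spreading out over the complex line.**  For a finite vector `c ∈ ℂ^ι` there is a monic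
`F ∈ ℂ[s][z]`, `D ∈ ℂ[s]` with `D(0), D(1) ≠ 0`, a Bézout identity `a F + b F' = D`, and numerators
`Gᵢ ∈ ℂ[s][z]` such that `Gᵢ/D` at `(0,z₀)` is `cᵢ`, at every point of `{F = 0, D ≠ 0}` all
relations over `ℚ` of `c` persist, and at `s = 1` all values are algebraic numbers. -/
theorem spread_line {ι : Type*} [Finite ι] (c : ι → ℂ) :
    ∃ (F : ℂ[X][X]) (D : ℂ[X]) (G : ι → ℂ[X][X]) (z₀ : ℂ),
      F.Monic ∧ D.eval 0 ≠ 0 ∧ D.eval 1 ≠ 0 ∧ evalEval 0 z₀ F = 0 ∧
      (∀ i, evalEval 0 z₀ (G i) / D.eval 0 = c i) ∧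
      (∃ a b : ℂ[X][X], a * F + b * derivative F = C D) ∧
      (∀ s z : ℂ, evalEval s z F = 0 → D.eval s ≠ 0 →
        ∀ R : MvPolynomial ι ℚ, MvPolynomial.aeval c R = 0 →
          MvPolynomial.aeval (fun i => evalEval s z (G i) / D.eval s) R = 0) ∧
      ∀ z : ℂ, evalEval 1 z F = 0 → ∀ i, IsAlgebraic ℚ (evalEval 1 z (G i) / D.eval 1) := by
  obtain ⟨d, u₀, f, z₀, h, g, hu, hf, hf0, hh, hc, ⟨a, b, hab⟩, hrel⟩ := spread c
  have hh0 : h ≠ 0 := by
    rintro rfl
    exact hh (map_zero _)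
  obtain ⟨u₁, hu₁⟩ : ∃ u₁ : Fin d → ℚ, MvPolynomial.eval u₁ h ≠ 0 := by
    by_contra hcon
    push Not at hcon
    exact hh0 (MvPolynomial.funext fun x => by rw [hcon x, map_zero])
  let w : Fin d → ℂ := fun i => (u₁ i : ℂ) - u₀ i
  let φ : MvPolynomial (Fin d) ℚ →+* ℂ[X] := (lineHom u₀ w : _ →ₐ[ℚ] ℂ[X]).toRingHom
  have h0 : (fun i => u₀ i + 0 * w i) = u₀ := by funext i; ring
  have h1 : (fun i => u₀ i + 1 * w i) = fun i => (u₁ i : ℂ) := by funext i; simp [w]
  have hφ : ∀ s, (φ h).eval s = MvPolynomial.aeval (fun i => u₀ i + s * w i) h := fun s =>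
    eval_lineHom u₀ w s h
  have hev : ∀ s z p, evalEval s z (p.map φ) = ev (fun i => u₀ i + s * w i) z p := fun s z p =>
    evalEval_line u₀ w s z p
  have hu₁' : MvPolynomial.aeval (fun i => (u₁ i : ℂ)) h ≠ 0 := by
    have h2 : MvPolynomial.aeval (fun i => (u₁ i : ℂ)) h = ((MvPolynomial.eval u₁ h : ℚ) : ℂ) := by
      have : (fun i => (u₁ i : ℂ)) = fun i => algebraMap ℚ ℂ (u₁ i) := by funext i; simp
      rw [this]
      have h3 := MvPolynomial.aeval_algebraMap_apply ℂ u₁ h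
      rw [show (fun i => algebraMap ℚ ℂ (u₁ i)) = (algebraMap ℚ ℂ ∘ u₁) from rfl, h3,
        MvPolynomial.aeval_eq_eval]
      simp
    rw [h2]
    exact_mod_cast hu₁
  refine ⟨f.map φ, φ h, fun i => (g i).map φ, z₀, hf.map φ, ?_, ?_, ?_, ?_, ⟨a.map φ, b.map φ, ?_⟩,
    ?_, ?_⟩
  · rw [hφ, h0]; exact hh
  · rw [hφ, h1]; exact hu₁'
  · rw [hev, h0]; exact hf0
  · intro i
    rw [hev, hφ, h0]; exact hc i
  · rw [derivative_map, ← Polynomial.map_mul, ← Polynomial.map_mul, ← Polynomial.map_add, hab,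
      map_C]
  · intro s z hz hD R hR
    rw [hev] at hz
    rw [hφ] at hD
    simp only [hev, hφ]
    exact hrel _ z hz hD R hR
  · intro z hz i
    rw [hev, h1] at hz
    have halg : ∀ i, IsAlgebraic ℚ ((u₁ i : ℂ)) := fun i => by
      have := isAlgebraic_algebraMap (R := ℚ) (A := ℂ) (u₁ i)
      simpa using this
    rw [hev, hφ, h1, div_eq_mul_inv]
    exact (isAlgebraic_ev halg (isAlgebraic_root halg hf hz) _).mul
      (isAlgebraic_aeval halg h).inv

end Crest.Agent.R281.Spr831
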