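import Crest.Agent.R281.St1_405

/-! Row 281, S-T25 (helper405), part 2: integrability, energy, (T2). -/

set_option autoImplicit false
open MeasureTheory Metric Set Filter Topology
open scoped ENNReal NNReal ContDiff

namespace Crest.Agent.R281.St_405
open Crest.Agent.R281.Mx_405

variable {X : Type*} [PseudoMetricSpace X] [MeasurableSpace X] [BorelSpace X] [CompactSpace X]
  {μ : Measure X} {cal : Calc μ} {C : ℝ≥0}

lemma integrable_of_continuous [IsFiniteMeasure μ] {f : X → ℝ} (hf : Continuous f) :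
    Integrable f μ :=
  hf.integrable_of_hasCompactSupport (HasCompactSupport.of_compactSpace f)

lemma sq_mem {f : X → ℝ} (hf : f ∈ cal.Sm) : (fun x => (f x) ^ 2) ∈ cal.Sm :=
  cal.comp_mem f hf univ (fun t => t ^ 2) isOpen_univ (fun _ => mem_univ _)
    (contDiff_id.pow 2).contDiffOn

lemma Lap_sq {f : X → ℝ} (hf : f ∈ cal.Sm) (x : X) :
    cal.Lap (fun x => (f x) ^ 2) x = 2 * f x * cal.Lap f x + 2 * cal.Gam f x := by
  have hd : deriv (fun t : ℝ => t ^ 2) = fun t => 2 * t := by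
    funext t; simp
  have hd2 : deriv (fun t : ℝ => 2 * t) = fun _ => 2 := by
    funext t
    have := (hasDerivAt_id t).const_mul 2
    simpa using this.deriv
  have h := cal.Lap_comp f hf univ (fun t => t ^ 2) isOpen_univ (fun _ => mem_univ _)
    (contDiff_id.pow 2).contDiffOn x
  rw [hd, hd2] at h
  exact h

/-- energy bound: `∫ Γ f ≤ κ ∫ f` for `f ≥ 0`, `Δ f ≥ -κ`. -/
theorem energy_le [IsFiniteMeasure μ] {f : X → ℝ} (hf : f ∈ cal.Sm) (h0 : ∀ x, 0 ≤ f x)
    {kap : ℝ} (hL : ∀ x, - kap ≤ cal.Lap f x) :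
    ∫ x, cal.Gam f x ∂μ ≤ kap * ∫ x, f x ∂μ := by
  have h1 := cal.int_Lap _ (sq_mem hf)
  have hc := cal.cont f hf
  have hcL := cal.contLap f hf
  have hcG := cal.contGam f hf
  have h2 : ∫ x, cal.Lap (fun x => (f x) ^ 2) x ∂μ =
      ∫ x, (2 * f x * cal.Lap f x + 2 * cal.Gam f x) ∂μ := by
    congr 1; funext x; exact Lap_sq hf x
  rw [h2] at h1
  have hi1 : Integrable (fun x => 2 * f x * cal.Lap f x) μ :=
    integrable_of_continuous ((continuous_const.mul hc).mul hcL)
  have hi2 : Integrable (fun x => 2 * cal.Gam f x) μ :=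
    integrable_of_continuous (continuous_const.mul hcG)
  rw [integral_add hi1 hi2] at h1
  have h3 : ∫ x, -(2 * kap * f x) ∂μ ≤ ∫ x, 2 * f x * cal.Lap f x ∂μ := by
    refine integral_mono (integrable_of_continuous (by fun_prop)) hi1 fun x => ?_
    have := hL x
    have h5 := h0 x
    nlinarith
  have h4 : ∫ x, -(2 * kap * f x) ∂μ = -(2 * kap * ∫ x, f x ∂μ) := by
    rw [integral_neg, integral_const_mul]
  have h5 : ∫ x, 2 * cal.Gam f x ∂μ = 2 * ∫ x, cal.Gam f x ∂μ := integral_const_mul _ _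
  rw [h4] at h3
  rw [h5] at h1
  linarith

lemma average_univ_of_prob [IsProbabilityMeasure μ] {A : Set X} (hA : A = univ) (f : X → ℝ) :
    ⨍ x in A, f x ∂μ = ∫ x, f x ∂μ := by
  rw [hA, setAverage_eq, Measure.restrict_univ]
  simp

/-- Jensen/Cauchy-Schwarz: mean of `√g` is at most `√` of the mean. -/
lemma average_sqrt_le [IsFiniteMeasure μ] {A : Set X} (hA0 : 0 < μ.real A) {g : X → ℝ}
    (hg : ∀ x, 0 ≤ g x) (hc : Continuous g) :
    ⨍ x in A, Real.sqrt (g x) ∂μ ≤ Real.sqrt (⨍ x in A, g x ∂μ) := by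
  set m := ⨍ x in A, Real.sqrt (g x) ∂μ with hm
  have hi1 : IntegrableOn (fun x => Real.sqrt (g x)) A μ :=
    (integrable_of_continuous (by fun_prop)).integrableOn
  have hi2 : IntegrableOn g A μ := (integrable_of_continuous hc).integrableOn
  have hm0 : 0 ≤ m := by
    rw [hm, setAverage_eq, smul_eq_mul]
    have : 0 ≤ ∫ x in A, Real.sqrt (g x) ∂μ := integral_nonneg fun x => Real.sqrt_nonneg _
    positivity
  refine Real.le_sqrt_of_sq_le ?_
  have h1 : ∫ x in A, (2 * m * Real.sqrt (g x) - m ^ 2) ∂μ ≤ ∫ x in A, g x ∂μ := by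
    refine integral_mono ((hi1.const_mul _).sub (integrableOn_const (measure_ne_top μ A))) hi2
      fun x => ?_
    have := Real.sq_sqrt (hg x)
    have h5 : 0 ≤ (Real.sqrt (g x) - m) ^ 2 := sq_nonneg _
    show 2 * m * Real.sqrt (g x) - m ^ 2 ≤ g x
    nlinarith
  rw [integral_sub (hi1.const_mul _) (integrableOn_const (measure_ne_top μ A)),
    integral_const_mul, setIntegral_const, smul_eq_mul] at h1
  have h2 : ∫ x in A, Real.sqrt (g x) ∂μ = μ.real A * m := by
    rw [hm, setAverage_eq, smul_eq_mul]; field_simp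
  rw [h2] at h1
  rw [setAverage_eq, smul_eq_mul, ← div_eq_inv_mul, le_div_iff₀ hA0]
  nlinarith

/-- `L¹` Poincare turned into the square-root form. -/
lemma Sp.poi_sqrt [Nonempty X] (hS : Sp cal C) {f : X → ℝ} (hf : f ∈ cal.Sm) (y : X) {r : ℝ}
    (hr : 0 < r) :
    ⨍ z in closedBall y r, |f z - ⨍ z' in closedBall y r, f z' ∂μ| ∂μ ≤
      C * r * Real.sqrt (⨍ z in closedBall y (2 * r), cal.Gam f z ∂μ) := by
  have := hS.prob
  refine (hS.POI f hf y r hr).trans ?_
  have := average_sqrt_le (μ := μ) (A := closedBall y (2 * r)) (hS.dbl.real_pos y (by positivity))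
    (cal.Gam_nonneg f hf) (cal.contGam f hf)
  gcongr

/-- (T2), quantitative: `max f - mean f ≤ C (log 2 + C D √(κ T) + κ D²)`. -/
theorem sup_sub_mean_le [Nonempty X] (hS : Sp cal C) {f : X → ℝ} (hf : f ∈ cal.Sm)
    (h0 : ∀ x, 0 ≤ f x) {kap D T : ℝ} (hk : 0 ≤ kap) (hD : 0 < D)
    (hdiam : ∀ x y : X, dist x y ≤ D)
    (hL : ∀ x, - kap ≤ cal.Lap f x) (hT : ∀ x, f x ≤ T) (p : X) (hp : f p = T) :
    T - ∫ x, f x ∂μ ≤ C * (Real.log 2 + C * D * Real.sqrt (kap * T) + kap * D ^ 2) := by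
  have hprob := hS.prob
  set m := ∫ x, f x ∂μ with hm
  have hcf := cal.cont f hf
  have hu : ∀ r, D ≤ r → closedBall p r = univ := fun r hr =>
    eq_univ_of_forall fun x => mem_closedBall.2 ((hdiam x p).trans hr)
  have hmT : m ≤ T := by
    have : m ≤ ∫ _x : X, T ∂μ := integral_mono (integrable_of_continuous hcf)
      (integrable_const _) hT
    simpa using this
  have hE : ∫ x, cal.Gam f x ∂μ ≤ kap * T :=
    (energy_le hf h0 hL).trans (by gcongr)
  -- DG1 for g = sp (f - m)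
  have hg := sp_shift_mem hf m
  have h1 := hS.DG1 _ hg (fun x => sp_nonneg _) p D kap 0 hD hk le_rfl (by simp)
    (fun x _ => by
      have := Lap_sp_shift_ge hf m kap hk x (hL x)
      linarith) p (mem_closedBall_self (by positivity))
  rw [average_univ_of_prob (hu D le_rfl)] at h1
  have h2 : ∫ x, sp (f x - m) ∂μ ≤ Real.log 2 + ∫ x, |f x - m| ∂μ := by
    have : ∫ x, sp (f x - m) ∂μ ≤ ∫ x, (Real.log 2 + |f x - m|) ∂μ := by
      refine integral_mono (integrable_of_continuous (cal.cont _ hg))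
        (integrable_of_continuous (by fun_prop)) fun x => sp_le _
    rw [integral_add (integrable_const _) (integrable_of_continuous (by fun_prop))] at this
    simpa using this
  have h3 : ∫ x, |f x - m| ∂μ ≤ C * D * Real.sqrt (kap * T) := by
    have h4 := hS.poi_sqrt hf p hD
    rw [average_univ_of_prob (hu D le_rfl), average_univ_of_prob (hu (2 * D) (by linarith)),
      average_univ_of_prob (hu D le_rfl)] at h4
    have h5 : Real.sqrt (∫ x, cal.Gam f x ∂μ) ≤ Real.sqrt (kap * T) := Real.sqrt_le_sqrt hE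
    calc ∫ x, |f x - m| ∂μ ≤ C * D * Real.sqrt (∫ x, cal.Gam f x ∂μ) := h4
      _ ≤ _ := by gcongr
  have h6 : T - m ≤ sp (f p - m) := by rw [hp]; exact le_sp _
  calc T - m ≤ sp (f p - m) := h6
    _ ≤ C * ((∫ x, sp (f x - m) ∂μ) + kap * D ^ 2) := h1
    _ ≤ C * (Real.log 2 + C * D * Real.sqrt (kap * T) + kap * D ^ 2) := by
        gcongr
        linarith

/-- (T2), measure form: `μ {f < T/2} ≤ (2/T) C (...)`. -/
theorem meas_low_le [Nonempty X] (hS : Sp cal C) {f : X → ℝ} (hf : f ∈ cal.Sm)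
    (h0 : ∀ x, 0 ≤ f x) {kap D T : ℝ} (hk : 0 ≤ kap) (hD : 0 < D) (hT0 : 0 < T)
    (hdiam : ∀ x y : X, dist x y ≤ D)
    (hL : ∀ x, - kap ≤ cal.Lap f x) (hT : ∀ x, f x ≤ T) (p : X) (hp : f p = T) :
    μ.real {x | f x < T / 2} ≤
      2 / T * (C * (Real.log 2 + C * D * Real.sqrt (kap * T) + kap * D ^ 2)) := by
  have hprob := hS.prob
  have h1 := sup_sub_mean_le hS hf h0 hk hD hdiam hL hT p hp
  have hcf := cal.cont f hf
  have hi : Integrable (fun x => T - f x) μ := integrable_of_continuous (by fun_prop)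
  have h2 : (T / 2) * μ.real {x | T / 2 ≤ T - f x} ≤ ∫ x, (T - f x) ∂μ :=
    mul_meas_ge_le_integral_of_nonneg (ae_of_all _ fun x => by have := hT x; simpa using this) hi _
  have h3 : ∫ x, (T - f x) ∂μ = T - ∫ x, f x ∂μ := by
    rw [integral_sub (integrable_const _) (integrable_of_continuous hcf)]; simp
  have h4 : μ.real {x | f x < T / 2} ≤ μ.real {x | T / 2 ≤ T - f x} := by
    refine measureReal_mono fun x hx => ?_
    have : f x < T / 2 := hx
    show T / 2 ≤ T - f x
    linarith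
  have h5 : (T / 2) * μ.real {x | f x < T / 2} ≤
      C * (Real.log 2 + C * D * Real.sqrt (kap * T) + kap * D ^ 2) := by
    calc (T / 2) * μ.real {x | f x < T / 2} ≤ (T / 2) * μ.real {x | T / 2 ≤ T - f x} := by gcongr
      _ ≤ _ := h2.trans (h3.le.trans h1)
  rw [div_mul_eq_mul_div, le_div_iff₀ hT0]
  linarith

end Crest.Agent.R281.St_405
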