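import Crest.Agent.R281.St2_405

/-! Row 281, S-T25 (helper405), part 3: the local theorem (T4)+(T5) at a good point. -/

set_option autoImplicit false
open MeasureTheory Metric Set Filter Topology
open scoped ENNReal NNReal ContDiff

namespace Crest.Agent.R281.St_405
open Crest.Agent.R281.Mx_405

universe v

section
variable {X : Type v} [PseudoMetricSpace X] [MeasurableSpace X] [BorelSpace X] [CompactSpace X]
  {μ : Measure X} {cal : Calc μ} {C : ℝ≥0} {kap : ℝ} {u w : X → ℝ}

lemma Sp.one_le [Nonempty X] (hS : Sp cal C) : (1 : ℝ) ≤ C := by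
  exact_mod_cast hS.dbl.one_le

/-- (T4a) oscillation of `f` in the mean at a good point. -/
theorem osc_le [Nonempty X] (hS : Sp cal C) {f : X → ℝ} (hf : f ∈ cal.Sm) {y : X} {K : ℝ}
    (hK : 0 ≤ K) (hG : ∀ r, 0 < r → ⨍ x in closedBall y r, cal.Gam f x ∂μ ≤ K ^ 2) {r : ℝ}
    (hr : 0 < r) :
    ⨍ x in closedBall y r, |f x - f y| ∂μ ≤ (1 + 2 * C) * (C * K) * r := by
  have := hS.prob
  have hc := cal.cont f hf
  refine telescope hS.dbl hr (by positivity) (integrable_of_continuous hc).integrableOn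
    (fun s hs _ => ?_)
    (tendsto_average_of_continuousAt hS.dbl hr (integrable_of_continuous hc).integrableOn
      hc.continuousAt)
  have h1 := hS.poi_sqrt hf y hs
  have h2 : Real.sqrt (⨍ z in closedBall y (2 * s), cal.Gam f z ∂μ) ≤ K := by
    rw [← Real.sqrt_sq hK]
    exact Real.sqrt_le_sqrt (hG _ (by positivity))
  calc _ ≤ C * s * Real.sqrt (⨍ z in closedBall y (2 * s), cal.Gam f z ∂μ) := h1
    _ ≤ C * s * K := by gcongr
    _ = C * K * s := by ring

/-- (T4b) one-sided sup bound. -/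
theorem sup_le [Nonempty X] (hS : Sp cal C) {f : X → ℝ} (hf : f ∈ cal.Sm) {y : X} {a r : ℝ}
    (hk : 0 ≤ kap) (hr : 0 < r) (hkr : kap * r ^ 2 ≤ 1)
    (hL : ∀ x, - kap ≤ cal.Lap f x)
    (hosc : ⨍ x in closedBall y r, |f x - f y| ∂μ ≤ a) :
    ∀ x ∈ closedBall y (r / 2), f x - f y ≤ C * (Real.log 2 + a + 1) := by
  intro x hx
  have hprob := hS.prob
  have hg := sp_shift_mem hf (f y)
  have hcf := cal.cont f hf
  have hcg := cal.cont _ hg
  have h1 := hS.DG1 _ hg (fun x => sp_nonneg _) y r kap 0 hr hk le_rfl (by simp)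
    (fun z _ => by
      have := Lap_sp_shift_ge hf (f y) kap hk z (hL z)
      linarith) x hx
  have hpos := hS.dbl.real_pos y hr
  have h2 : ⨍ z in closedBall y r, sp (f z - f y) ∂μ ≤ Real.log 2 + a := by
    have h3 : ∫ z in closedBall y r, sp (f z - f y) ∂μ ≤
        ∫ z in closedBall y r, (Real.log 2 + |f z - f y|) ∂μ :=
      integral_mono (integrable_of_continuous hcg).integrableOn
        (integrable_of_continuous (by fun_prop)).integrableOn fun z => sp_le _
    have h4 : ∫ z in closedBall y r, (Real.log 2 + |f z - f y|) ∂μ =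
        μ.real (closedBall y r) * Real.log 2 + ∫ z in closedBall y r, |f z - f y| ∂μ := by
      have hi2 : IntegrableOn (fun z => |f z - f y|) (closedBall y r) μ :=
        (integrable_of_continuous (by fun_prop)).integrableOn
      rw [integral_add (integrable_const _) hi2, setIntegral_const, smul_eq_mul]
    rw [setAverage_eq, smul_eq_mul, inv_mul_le_iff₀ hpos] at hosc ⊢
    rw [h4] at h3
    nlinarith
  calc f x - f y ≤ sp (f x - f y) := le_sp _
    _ ≤ C * ((⨍ z in closedBall y r, sp (f z - f y) ∂μ) + kap * r ^ 2) := h1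
    _ ≤ C * (Real.log 2 + a + 1) := by gcongr

/-- the upper bound for `u` from the upper bound for `log (1+Mu)`. -/
lemma SecD.u_le (h : SecD cal C kap u w) {M G : ℝ} (hM : 0 < M) {x y : X}
    (hfg : lg M u x - lg M u y ≤ G) (hy : 1 ≤ M * u y) : u x ≤ 2 * Real.exp G * u y := by
  have hpx := h.pos hM.le x
  have hpy := h.pos hM.le y
  have h1 : 1 + M * u x ≤ Real.exp G * (1 + M * u y) := by
    have h2 : Real.log (1 + M * u x) ≤ G + Real.log (1 + M * u y) := by
      have : Real.log (1 + M * u x) - Real.log (1 + M * u y) ≤ G := hfg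
      linarith
    have h3 := Real.exp_le_exp.2 h2
    rwa [Real.exp_log hpx, Real.exp_add, Real.exp_log hpy] at h3
  have h4 : M * u x ≤ Real.exp G * (2 * (M * u y)) := by
    have h5 : Real.exp G * (1 + M * u y) ≤ Real.exp G * (2 * (M * u y)) := by gcongr; linarith
    linarith
  have h6 : M * u x ≤ M * (2 * Real.exp G * u y) := by linarith
  exact le_of_mul_le_mul_left h6 hM

/-- (T4d,e) gradient bound. -/
theorem SecD.w_le [Nonempty X] (hS : Sp cal C) (h : SecD cal C kap u w) {y : X} {r A : ℝ}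
    (hk : 0 ≤ kap) (hr : 0 < r) (hkr : C * kap * r ^ 2 ≤ 1) (hA : 0 ≤ A)
    (hu : ∀ x ∈ closedBall y (r / 2), u x ≤ A * u y) :
    ∀ x ∈ closedBall y (r / 8), w x ≤ 5 * C ^ 2 * A / r ^ 2 * u y := by
  have hC := hS.one_le
  have huy := h.u_nonneg y
  have hkr' : kap ≤ 1 / r ^ 2 := by
    rw [le_div_iff₀ (by positivity)]
    have : kap * r ^ 2 ≤ C * (kap * r ^ 2) := by
      have h0 : 0 ≤ kap * r ^ 2 := by positivity
      nlinarith
    linarith
  have h1 := hS.CAC u h.u_mem h.u_nonneg w (cal.cont w h.w_mem) h.w_nonneg y (r / 2) (A * u y)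
    (kap * (A * u y)) (by positivity) (by positivity) (by positivity) hu
    (fun x hx => by
      rw [h.Lap_u x]
      have h2 := hu x hx
      have h3 : kap * u x ≤ kap * (A * u y) := by gcongr
      linarith)
  have h2 : ⨍ x in closedBall y (r / 4), w x ∂μ ≤ 5 * C * A / r ^ 2 * u y := by
    have h3 : r / 2 / 2 = r / 4 := by ring
    rw [h3] at h1
    refine h1.trans ?_
    have h4 : A * u y / (r / 2) ^ 2 + kap * (A * u y) ≤ 5 * A / r ^ 2 * u y := by
      have h5 : A * u y / (r / 2) ^ 2 = 4 * A / r ^ 2 * u y := by field_simp; ring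
      have h6 : kap * (A * u y) ≤ 1 / r ^ 2 * (A * u y) := by gcongr
      have h7 : 1 / r ^ 2 * (A * u y) = A / r ^ 2 * u y := by ring
      have h8 : 5 * A / r ^ 2 * u y = 4 * A / r ^ 2 * u y + A / r ^ 2 * u y := by ring
      linarith
    calc C * (A * u y / (r / 2) ^ 2 + kap * (A * u y)) ≤ C * (5 * A / r ^ 2 * u y) := by gcongr
      _ = 5 * C * A / r ^ 2 * u y := by ring
  intro x hx
  have h3 := hS.DG1 w h.w_mem h.w_nonneg y (r / 4) 0 (C * kap) (by positivity) le_rfl
    (by positivity) (by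
      have h9 : C * kap * (r / 4) ^ 2 = C * kap * r ^ 2 / 16 := by ring
      rw [h9]; linarith [show 0 ≤ C * kap * r ^ 2 by positivity])
    (fun z _ => by
      have := h.Lap_w z
      linarith) x (by rwa [show r / 4 / 2 = r / 8 by ring])
  calc w x ≤ C * ((⨍ z in closedBall y (r / 4), w z ∂μ) + 0 * (r / 4) ^ 2) := h3
    _ = C * ⨍ z in closedBall y (r / 4), w z ∂μ := by ring
    _ ≤ C * (5 * C * A / r ^ 2 * u y) := by gcongr
    _ = _ := by ring

/-- the square-root function `√(u + ε)` is Lipschitz near `y`. -/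
theorem SecD.lip (hS : Sp cal C) (h : SecD cal C kap u w) {y : X} {r W ε : ℝ}
    (hr : 0 < r) (hW : 0 ≤ W) (hε : 0 < ε) (hw : ∀ x ∈ closedBall y r, w x ≤ W ^ 2) :
    ∀ p ∈ closedBall y (r / 3), ∀ q ∈ closedBall y (r / 3),
      |Real.sqrt (u p + ε) - Real.sqrt (u q + ε)| ≤ C * (W / 2) * dist p q := by
  have hU : IsOpen {t : ℝ | 0 < t + ε} := isOpen_lt continuous_const (by fun_prop)
  have hsm : ContDiffOn ℝ ∞ (fun t : ℝ => Real.sqrt (t + ε)) {t | 0 < t + ε} :=
    (contDiff_id.add contDiff_const).contDiffOn.sqrt fun t ht => ne_of_gt ht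
  have hp : ∀ x, u x ∈ {t : ℝ | 0 < t + ε} := fun x => by
    have := h.u_nonneg x
    show 0 < u x + ε
    linarith
  have hmem := cal.comp_mem u h.u_mem _ (fun t : ℝ => Real.sqrt (t + ε)) hU hp hsm
  refine hS.LIP _ hmem y r (W / 2) hr (by positivity) fun x hx => ?_
  rw [cal.Gam_comp u h.u_mem _ (fun t : ℝ => Real.sqrt (t + ε)) hU hp hsm x, h.Gam_u x]
  have hpx : 0 < u x + ε := hp x
  have hd : deriv (fun t : ℝ => Real.sqrt (t + ε)) (u x) = 1 / (2 * Real.sqrt (u x + ε)) := by
    have h1 : HasDerivAt (fun t : ℝ => t + ε) 1 (u x) := (hasDerivAt_id _).add_const ε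
    exact (h1.sqrt hpx.ne').deriv
  rw [hd, div_pow, mul_pow, Real.sq_sqrt hpx.le]
  have hux := h.u_nonneg x
  have hwx := h.w_nonneg x
  have h2 := hw x hx
  rw [div_mul_eq_mul_div, div_le_iff₀ (by positivity)]
  have h3 : u x * w x ≤ (u x + ε) * W ^ 2 := by
    calc u x * w x ≤ (u x + ε) * w x := by gcongr; linarith
      _ ≤ _ := by gcongr
  nlinarith

end

end Crest.Agent.R281.St_405
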