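import Crest.Agent.R281.St3_405
import Crest.Agent.R281.Nh1_790

/-! Row 281, S-T25 (helper405), part 4: the local theorem (T4)+(T5) at a good point. -/

set_option autoImplicit false
open MeasureTheory Metric Set Filter Topology
open scoped ENNReal NNReal ContDiff

namespace Crest.Agent.R281.St_405
open Crest.Agent.R281.Mx_405

universe v

/-- the one-jet function `u/(u+w+e)`. -/
noncomputable def jb {X : Type*} (u w : X → ℝ) (e : ℝ) (x : X) : ℝ := u x / (u x + w x + e)

section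
variable {X : Type v} [PseudoMetricSpace X] [MeasurableSpace X] [BorelSpace X] [CompactSpace X]
  {μ : Measure X} {cal : Calc μ} {C : ℝ≥0} {kap : ℝ} {u w : X → ℝ}

omit [BorelSpace X] [CompactSpace X] in
lemma SecD.Gam_mul_jb_le (h : SecD cal C kap u w) {M e : ℝ} (hM : 0 ≤ M) (he : 0 < e) (x : X) :
    cal.Gam (lg M u) x * jb u w e x ≤ 1 := by
  rw [h.Gam_lg hM x, h.Gam_u x]
  have hu := h.u_nonneg x
  have hw := h.w_nonneg x
  have hp := h.pos hM x
  have hq : 0 < u x + w x + e := by linarith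
  unfold jb
  have h1 : (M / (1 + M * u x)) ^ 2 * (u x * w x) * (u x / (u x + w x + e)) =
      (M * u x / (1 + M * u x)) ^ 2 * (w x / (u x + w x + e)) := by
    field_simp
  rw [h1]
  have h2 : M * u x / (1 + M * u x) ≤ 1 := by rw [div_le_one hp]; linarith
  have h3 : 0 ≤ M * u x / (1 + M * u x) := by positivity
  have h4 : w x / (u x + w x + e) ≤ 1 := by rw [div_le_one hq]; linarith
  have h5 : 0 ≤ w x / (u x + w x + e) := by positivity
  have h6 : (M * u x / (1 + M * u x)) ^ 2 ≤ 1 := pow_le_one₀ h3 h2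
  exact mul_le_one₀ h6 h5 h4

omit [BorelSpace X] [CompactSpace X] in
lemma SecD.jb_ge (h : SecD cal C kap u w) {M e t : ℝ} (hM : 0 < M) (he : 0 < e) (heM : e ≤ 1 / M)
    (ht : 0 ≤ t) {x : X} (hx : 1 ≤ M * u x) (hG : cal.Gam (lg M u) x ≤ t) :
    1 / (2 + 4 * t) ≤ jb u w e x := by
  rw [h.Gam_lg hM.le x, h.Gam_u x] at hG
  have hw := h.w_nonneg x
  have hp := h.pos hM.le x
  have hu : 0 < u x := by
    by_contra hcon
    have : M * u x ≤ 0 := mul_nonpos_of_nonneg_of_nonpos hM.le (not_lt.1 hcon)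
    linarith
  have h1 : 1 / (2 * u x) ≤ M / (1 + M * u x) := by
    rw [div_le_div_iff₀ (by positivity) hp]
    nlinarith
  have h2 : (1 / (2 * u x)) ^ 2 * (u x * w x) ≤ t := by
    refine le_trans ?_ hG
    gcongr
  have h3 : (1 / (2 * u x)) ^ 2 * (u x * w x) = w x / (4 * u x) := by field_simp; ring
  rw [h3, div_le_iff₀ (by positivity)] at h2
  have h4 : e ≤ u x := by
    refine heM.trans ?_
    rw [div_le_iff₀ hM]
    linarith [mul_comm M (u x)]
  unfold jb
  rw [div_le_div_iff₀ (by positivity) (by linarith)]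
  nlinarith

/-- half of the ball has `b ≥ c`. -/
theorem SecD.half_mass [Nonempty X] (hS : Sp cal C) (h : SecD cal C kap u w) {y : X}
    {M e T K a r : ℝ} (hM : 0 < M) (he : 0 < e) (heM : e ≤ 1 / M) (hr : 0 < r)
    (hT0 : 4 * Real.log 2 ≤ T) (hTa : 16 * a ≤ T) (ha : 0 ≤ a)
    (hy : T / 2 ≤ lg M u y) (hosc : ⨍ x in closedBall y r, |lg M u x - lg M u y| ∂μ ≤ a)
    (hG : ⨍ x in closedBall y r, cal.Gam (lg M u) x ∂μ ≤ K ^ 2) :
    μ.real (closedBall y r) ≤
      2 * μ.real {x | x ∈ closedBall y r ∧ 1 / (2 + 4 * (4 * K ^ 2 + 4)) ≤ jb u w e x} := by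
  have hprob := hS.prob
  have hf := h.lg_mem hM.le
  have hcf := cal.cont _ hf
  have hcG := cal.contGam _ hf
  have hl2 : 0 < Real.log 2 := Real.log_pos (by norm_num)
  have hT : 0 < T := by linarith
  have h1 := frac_le_of_average (μ := μ) hS.dbl (g := fun x => |lg M u x - lg M u y|)
    (fun _ => abs_nonneg _) (y := y) (r := r) (t := T / 4) (M := a) hr (by positivity)
    (integrable_of_continuous (by fun_prop)).integrableOn hosc
  have h2 := frac_le_of_average (μ := μ) hS.dbl (g := cal.Gam (lg M u))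
    (cal.Gam_nonneg _ hf) (y := y) (r := r) (t := 4 * K ^ 2 + 4) (M := K ^ 2) hr (by positivity)
    (integrable_of_continuous hcG).integrableOn hG
  have h3 : a / (T / 4) ≤ 1 / 4 := by
    rw [div_le_iff₀ (by positivity)]; linarith
  have h4 : K ^ 2 / (4 * K ^ 2 + 4) ≤ 1 / 4 := by
    rw [div_le_iff₀ (by positivity)]; linarith [sq_nonneg K]
  have hpos : 0 ≤ μ.real (closedBall y r) := measureReal_nonneg
  have hsub : closedBall y r ⊆
      ({x | x ∈ closedBall y r ∧ T / 4 ≤ |lg M u x - lg M u y|} ∪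
        {x | x ∈ closedBall y r ∧ 4 * K ^ 2 + 4 ≤ cal.Gam (lg M u) x}) ∪
        {x | x ∈ closedBall y r ∧ 1 / (2 + 4 * (4 * K ^ 2 + 4)) ≤ jb u w e x} := by
    intro x hx
    by_cases hx1 : T / 4 ≤ |lg M u x - lg M u y|
    · exact Or.inl (Or.inl ⟨hx, hx1⟩)
    by_cases hx2 : 4 * K ^ 2 + 4 ≤ cal.Gam (lg M u) x
    · exact Or.inl (Or.inr ⟨hx, hx2⟩)
    refine Or.inr ⟨hx, ?_⟩
    have h5 := abs_lt.1 (not_le.1 hx1)
    have h6 : Real.log 2 ≤ lg M u x := by linarith
    have h7 : 1 ≤ M * u x := by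
      have h8 := Real.exp_le_exp.2 h6
      rw [Real.exp_log (by norm_num), lg, Real.exp_log (h.pos hM.le x)] at h8
      linarith
    exact h.jb_ge hM he heM (by positivity) h7 (not_le.1 hx2).le
  have h5 : μ.real (closedBall y r) ≤
      μ.real {x | x ∈ closedBall y r ∧ T / 4 ≤ |lg M u x - lg M u y|} +
        μ.real {x | x ∈ closedBall y r ∧ 4 * K ^ 2 + 4 ≤ cal.Gam (lg M u) x} +
        μ.real {x | x ∈ closedBall y r ∧ 1 / (2 + 4 * (4 * K ^ 2 + 4)) ≤ jb u w e x} :=
    (measureReal_mono hsub).trans ((measureReal_union_le _ _).trans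
      (by gcongr; exact measureReal_union_le _ _))
  have h6 : a / (T / 4) * μ.real (closedBall y r) ≤ 1 / 4 * μ.real (closedBall y r) := by gcongr
  have h7 : K ^ 2 / (4 * K ^ 2 + 4) * μ.real (closedBall y r) ≤ 1 / 4 * μ.real (closedBall y r) := by
    gcongr
  linarith

end

set_option maxHeartbeats 1600000 in
/-- **(T4)+(T5)**: two-sided bounds of `u` and the bound of `w` on `B(y,R)` at a good point. -/
theorem local45 (C : ℝ≥0) (K R : ℝ) (hK : 0 ≤ K) (hR : 0 < R) :
    ∃ rho A T₀ kap₀ : ℝ, 0 < rho ∧ 0 < A ∧ 0 < kap₀ ∧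
      ∀ (X : Type v) [PseudoMetricSpace X] [MeasurableSpace X] [BorelSpace X] [CompactSpace X]
        (μ : Measure X) (cal : Calc μ) (kap M e : ℝ) (u w : X → ℝ) (y : X),
        Sp cal C → SecD cal C kap u w → 0 ≤ kap → kap ≤ kap₀ → 0 < M → T₀ ≤ Real.log (1 + M) →
        Real.log (1 + M) / 2 ≤ lg M u y → 0 < e → e ≤ 1 / M → jb u w e ∈ cal.Sm →
        (∀ r, 0 < r → ⨍ x in closedBall y r, cal.Gam (lg M u) x ∂μ ≤ K ^ 2) →
        (∀ r, 0 < r → ⨍ x in closedBall y r, cal.Gam (jb u w e) x ∂μ ≤ K ^ 2 * kap) →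
        ∀ x ∈ closedBall y R, rho * u y ≤ u x ∧ u x ≤ A * u y ∧ w x ≤ A * u y := by
  have hC0 : (0 : ℝ) ≤ C := C.2
  set r : ℝ := 72 * R with hr
  have hr0 : 0 < r := by positivity
  set a : ℝ := (1 + 2 * C) * (C * K) * r with ha
  have ha0 : 0 ≤ a := by positivity
  set A₁ : ℝ := 2 * Real.exp (C * (Real.log 2 + a + 1)) with hA₁
  have hA₁0 : 0 < A₁ := by positivity
  set W : ℝ := 5 * C ^ 2 * A₁ / r ^ 2 with hW
  have hW0 : 0 ≤ W := by positivity
  set c : ℝ := 1 / (2 + 4 * (4 * K ^ 2 + 4)) with hc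
  have hc0 : 0 < c := by positivity
  obtain ⟨Lam, hLam0, hLam⟩ := Nh_790.no_hole_lip.{v} C C (K ^ 2 + 1) c R hC0 (by positivity) hc0 hR
  set B : ℝ := C * (Real.sqrt W / 2) with hB
  set c₁ : ℝ := Real.exp (-Lam) / 2 with hc₁
  have hc₁0 : 0 < c₁ := by positivity
  obtain ⟨δ, hδ0, hδ⟩ := hLam B (Real.sqrt c₁) (by positivity) (Real.sqrt_pos.2 hc₁0)
  refine ⟨c₁ / 8, A₁ + W, max (max (4 * Real.log 2) (16 * a)) (2 * Real.log (1 + 2 * Real.exp Lam)),
    min (1 / ((C + 1) * r ^ 2)) (δ ^ 2 / (K ^ 2 + 1)), by positivity, by positivity, by positivity,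
    ?_⟩
  intro X _ _ _ _ μ cal kap M e u w y hS h hk hkap hM hT hy he heM hb hG hGb
  have hprob := hS.prob
  have : Nonempty X := ⟨y⟩
  have hC1 := hS.one_le
  set T := Real.log (1 + M) with hTdef
  have hT1 : 4 * Real.log 2 ≤ T := (le_max_left _ _).trans ((le_max_left _ _).trans hT)
  have hT2 : 16 * a ≤ T := (le_max_right _ _).trans ((le_max_left _ _).trans hT)
  have hT3 : 2 * Real.log (1 + 2 * Real.exp Lam) ≤ T := (le_max_right _ _).trans hT
  have hk1 : kap ≤ 1 / ((C + 1) * r ^ 2) := hkap.trans (min_le_left _ _)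
  have hk2 : kap ≤ δ ^ 2 / (K ^ 2 + 1) := hkap.trans (min_le_right _ _)
  have hkr : (C + 1) * (kap * r ^ 2) ≤ 1 := by
    rw [le_div_iff₀ (by positivity)] at hk1
    linarith
  have hkr0 : 0 ≤ kap * r ^ 2 := by positivity
  have hkrC : 0 ≤ C * (kap * r ^ 2) := by positivity
  have hkre : (C + 1) * (kap * r ^ 2) = C * (kap * r ^ 2) + kap * r ^ 2 := by ring
  have hkr1 : kap * r ^ 2 ≤ 1 := by linarith
  have hkr2 : C * kap * r ^ 2 ≤ 1 := by rw [mul_assoc]; linarith
  have hf := h.lg_mem hM.le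
  have hcf := cal.cont _ hf
  -- `M u(y) ≥ 2 e^Λ`
  have hMy : 2 * Real.exp Lam ≤ M * u y := by
    have h1 : Real.log (1 + 2 * Real.exp Lam) ≤ Real.log (1 + M * u y) := by
      have : T / 2 ≤ Real.log (1 + M * u y) := hy
      linarith
    have h2 := (Real.log_le_log_iff (by positivity) (h.pos hM.le y)).1 h1
    linarith
  have hexp : 1 ≤ Real.exp Lam := Real.one_le_exp hLam0
  have hMy1 : 1 ≤ M * u y := by linarith
  have huy : 0 < u y := by
    by_contra hcon
    have : M * u y ≤ 0 := mul_nonpos_of_nonneg_of_nonpos hM.le (not_lt.1 hcon)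
    linarith
  -- (T4)
  have hosc : ∀ s, 0 < s → ⨍ x in closedBall y s, |lg M u x - lg M u y| ∂μ ≤
      (1 + 2 * C) * (C * K) * s := fun s hs => osc_le hS hf hK hG hs
  have hsup := sup_le hS hf hk hr0 hkr1 (fun x => h.Lap_lg_ge hM.le hk x) (hosc r hr0)
  have hu : ∀ x ∈ closedBall y (r / 2), u x ≤ A₁ * u y := fun x hx =>
    h.u_le hM (hsup x hx) hMy1
  have hw : ∀ x ∈ closedBall y (r / 8), w x ≤ W * u y :=
    h.w_le hS hk hr0 hkr2 hA₁0.le hu
  -- Lipschitz function
  set ε : ℝ := c₁ / 8 * u y with hε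
  have hε0 : 0 < ε := by positivity
  have hsq : Real.sqrt (W * u y) ^ 2 = W * u y := Real.sq_sqrt (by positivity)
  have hlip := h.lip hS (y := y) (r := r / 8) (W := Real.sqrt (W * u y)) (ε := ε) (by positivity)
    (Real.sqrt_nonneg _) hε0 (fun x hx => by rw [hsq]; exact hw x hx)
  have hsy : 0 < Real.sqrt (u y) := Real.sqrt_pos.2 huy
  set S : X → ℝ := fun x => Real.sqrt (u x + ε) / Real.sqrt (u y) with hSdef
  have hSlip : ∀ p ∈ closedBall y (3 * R), ∀ q ∈ closedBall y (3 * R),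
      |S p - S q| ≤ B * dist p q := by
    intro p hp q hq
    have h3 : r / 8 / 3 = 3 * R := by rw [hr]; ring
    have h1 := hlip p (by rwa [h3]) q (by rwa [h3])
    have h2 : S p - S q = (Real.sqrt (u p + ε) - Real.sqrt (u q + ε)) / Real.sqrt (u y) := by
      rw [hSdef]; ring
    rw [h2, abs_div, abs_of_pos hsy, div_le_iff₀ hsy]
    calc _ ≤ C * (Real.sqrt (W * u y) / 2) * dist p q := h1
      _ = B * dist p q * Real.sqrt (u y) := by
          rw [hB, Real.sqrt_mul hW0]; ring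
  have hSf : ∀ x ∈ closedBall y (3 * R), lg M u y - Lam ≤ lg M u x → Real.sqrt c₁ ≤ S x := by
    intro x _ hx
    have h1 : Real.exp (-Lam) * (1 + M * u y) ≤ 1 + M * u x := by
      have h2 : Real.log (1 + M * u y) + -Lam ≤ Real.log (1 + M * u x) := by
        have : Real.log (1 + M * u y) - Lam ≤ Real.log (1 + M * u x) := hx
        linarith
      have h3 := Real.exp_le_exp.2 h2
      rw [Real.exp_add, Real.exp_log (h.pos hM.le y), Real.exp_log (h.pos hM.le x)] at h3
      linarith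
    have h4 : Real.exp (-Lam) * Real.exp Lam = 1 := by rw [← Real.exp_add]; simp
    have h5 : 2 ≤ Real.exp (-Lam) * (M * u y) := by
      calc (2 : ℝ) = 2 * (Real.exp (-Lam) * Real.exp Lam) := by rw [h4]; ring
        _ = Real.exp (-Lam) * (2 * Real.exp Lam) := by ring
        _ ≤ _ := by gcongr
    have h6 : c₁ * u y ≤ u x := by
      have h7 : M * (c₁ * u y) ≤ M * u x := by
        have h8 : M * (c₁ * u y) = Real.exp (-Lam) * (M * u y) / 2 := by rw [hc₁]; ring
        have h9 : Real.exp (-Lam) ≤ 1 := Real.exp_le_one_iff.2 (by linarith)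
        rw [h8]
        have h10 : Real.exp (-Lam) * (1 + M * u y) =
          Real.exp (-Lam) + Real.exp (-Lam) * (M * u y) := by ring
        have h11 := Real.exp_pos (-Lam)
        linarith
      exact le_of_mul_le_mul_left h7 hM
    rw [hSdef]
    show Real.sqrt c₁ ≤ Real.sqrt (u x + ε) / Real.sqrt (u y)
    rw [le_div_iff₀ hsy, ← Real.sqrt_mul hc₁0.le]
    exact Real.sqrt_le_sqrt (by linarith)
  -- no hole
  have hK2 : K ≤ K ^ 2 + 1 := by nlinarith [sq_nonneg (K - 1)]
  have hGs : ∀ x, Real.sqrt (cal.Gam (lg M u) x) ^ 2 = cal.Gam (lg M u) x := fun x =>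
    Real.sq_sqrt (cal.Gam_nonneg _ hf x)
  have hcG := cal.contGam _ hf
  have hcb := cal.cont _ hb
  have hcGb := cal.contGam _ hb
  have hfin := hδ X μ hS.dbl y (lg M u) (fun x => Real.sqrt (cal.Gam (lg M u) x)) (jb u w e)
    (fun x => Real.sqrt (cal.Gam (jb u w e) x)) S hcf (by fun_prop) hcb (by fun_prop)
    (fun x => Real.sqrt_nonneg _) (hS.POI _ hf) (hS.POI _ hb)
    (fun x _ => by
      show Real.sqrt (cal.Gam (lg M u) x) ^ 2 * jb u w e x ≤ 4
      rw [hGs]
      exact (h.Gam_mul_jb_le hM.le he x).trans (by norm_num))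
    (fun s hs _ => by
      have h1 := average_sqrt_le (μ := μ) (A := closedBall y s) (hS.dbl.real_pos y hs)
        (cal.Gam_nonneg _ hf) hcG
      have h2 : Real.sqrt (⨍ x in closedBall y s, cal.Gam (lg M u) x ∂μ) ≤ K := by
        rw [← Real.sqrt_sq hK]
        exact Real.sqrt_le_sqrt (hG s hs)
      exact h1.trans (h2.trans hK2))
    (by
      simp_rw [hGs]
      exact (hG _ (by positivity)).trans (by linarith))
    (by
      refine h.half_mass hS hM he heM (by positivity) hT1 ?_ (by positivity) hy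
        (hosc (8 * R) (by positivity)) (hG _ (by positivity))
      have h1 : (1 + 2 * C) * (C * K) * (8 * R) ≤ a := by
        rw [ha, hr]
        gcongr
        norm_num
      linarith)
    (by
      have h1 := average_sqrt_le (μ := μ) (A := closedBall y (16 * R))
        (hS.dbl.real_pos y (by positivity)) (cal.Gam_nonneg _ hb) hcGb
      have h2 : Real.sqrt (⨍ x in closedBall y (16 * R), cal.Gam (jb u w e) x ∂μ) ≤ δ := by
        rw [← Real.sqrt_sq hδ0.le]
        refine Real.sqrt_le_sqrt ((hGb _ (by positivity)).trans ?_)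
        rw [le_div_iff₀ (by positivity)] at hk2
        have h5 : kap * (K ^ 2 + 1) = K ^ 2 * kap + kap := by ring
        linarith
      exact h1.trans h2)
    hSlip hSf
  intro x hx
  have hxR : x ∈ closedBall y (2 * R) := closedBall_subset_closedBall (by linarith) hx
  have hx2 : x ∈ closedBall y (r / 2) := closedBall_subset_closedBall (by rw [hr]; linarith) hx
  have hx8 : x ∈ closedBall y (r / 8) := closedBall_subset_closedBall (by rw [hr]; linarith) hx
  have h1 := hfin x hxR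
  refine ⟨?_, (hu x hx2).trans ?_, (hw x hx8).trans ?_⟩
  · have h2 : Real.sqrt c₁ / 2 * Real.sqrt (u y) ≤ Real.sqrt (u x + ε) := by
      have : Real.sqrt c₁ / 2 ≤ Real.sqrt (u x + ε) / Real.sqrt (u y) := h1
      rwa [le_div_iff₀ hsy] at this
    have h3 : (Real.sqrt c₁ / 2 * Real.sqrt (u y)) ^ 2 ≤ u x + ε := by
      rw [← Real.sq_sqrt (show 0 ≤ u x + ε by have := h.u_nonneg x; linarith)]
      gcongr
    rw [mul_pow, div_pow, Real.sq_sqrt hc₁0.le, Real.sq_sqrt huy.le] at h3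
    have h4 : c₁ / 2 ^ 2 * u y = 2 * (c₁ / 8 * u y) := by ring
    rw [h4] at h3
    linarith
  · have h5 : 0 ≤ W * u y := by positivity
    rw [add_mul]; linarith
  · have h5 : 0 ≤ A₁ * u y := by positivity
    rw [add_mul]; linarith

end Crest.Agent.R281.St_405
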