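import Crest.Agent.R281.St4_405

/-! Row 281, S-T25 (helper405), part 5: the theorem T25 = (T2)-(T5) of Theorem S. -/

set_option autoImplicit false
open MeasureTheory Metric Set Filter Topology
open scoped ENNReal NNReal ContDiff

namespace Crest.Agent.R281.St_405
open Crest.Agent.R281.Mx_405

universe v

/-- Conclusion at a good point, for one section: level, two-sided bounds, energy on all scales,
oscillation on all scales. -/
structure GoodAt {X : Type v} [PseudoMetricSpace X] [MeasurableSpace X] {μ : Measure X}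
    (cal : Calc μ) (C : ℝ≥0) (M K R rho A : ℝ) (u w : X → ℝ) (y : X) : Prop where
  level : 1 / M ≤ u y
  lower : ∀ x ∈ closedBall y R, rho * u y ≤ u x
  upper : ∀ x ∈ closedBall y R, u x ≤ A * u y
  grad : ∀ x ∈ closedBall y R, w x ≤ A * u y
  energy : ∀ r, 0 < r → ⨍ x in closedBall y r, cal.Gam (lg M u) x ∂μ ≤ K ^ 2
  osc : ∀ r, 0 < r → ⨍ x in closedBall y r, |lg M u x - lg M u y| ∂μ ≤ (1 + 2 * C) * (C * K) * r
  half : Real.log (1 + M) / 2 ≤ lg M u y
  one_le : ∀ x ∈ closedBall y R, 1 ≤ M * u x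

section
variable {X : Type v} [PseudoMetricSpace X] [MeasurableSpace X] [BorelSpace X] [CompactSpace X]
  {μ : Measure X} {cal : Calc μ} {C : ℝ≥0}

/-- Markov bound for the maximal function of a continuous `g ≥ 0`, real form. -/
theorem meas_avg_bad (hS : Sp cal C) {g : X → ℝ} (hg : ∀ x, 0 ≤ g x) (hc : Continuous g)
    {c K₁ : ℝ} (hc0 : 0 < c) (hK₁ : 0 < K₁) (hint : ∫ x, g x ∂μ ≤ c) :
    μ {y | ¬ ∀ r, 0 < r → ⨍ x in closedBall y r, g x ∂μ ≤ K₁ * c} ≤
      ENNReal.ofReal ((C : ℝ) ^ 2 / K₁) := by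
  have hprob := hS.prob
  have h1 : ∫⁻ x, ENNReal.ofReal (g x) ∂μ ≤ ENNReal.ofReal c := by
    rw [← ofReal_integral_eq_lintegral_ofReal (integrable_of_continuous hc) (ae_of_all _ hg)]
    exact ENNReal.ofReal_le_ofReal hint
  have h2 := meas_bad_le hS.dbl (fun x => ENNReal.ofReal (g x)) (ENNReal.ofReal c)
    (ENNReal.ofReal K₁) (by simpa using hc0) ENNReal.ofReal_ne_top (by simpa using hK₁)
    ENNReal.ofReal_ne_top h1
  refine (measure_mono fun y hy => ?_).trans (h2.trans ?_)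
  · show ENNReal.ofReal K₁ * ENNReal.ofReal c < Mx μ (fun x => ENNReal.ofReal (g x)) y
    by_contra hcon
    refine hy fun r hr => ?_
    refine setAverage_le_of_Mx hS.dbl hg (by positivity) hr ?_
    rw [ENNReal.ofReal_mul hK₁.le]
    exact not_lt.1 hcon
  · rw [ENNReal.ofReal_div_of_pos hK₁, ENNReal.ofReal_pow (NNReal.coe_nonneg C),
      ENNReal.ofReal_coe_nnreal]

end

/-- numeric part of the low set bound -/
theorem low_num {C C1 kap0 Lam L T kap η' E : ℝ} (hC0 : 0 ≤ C) (hC1 : 0 < C1) (hkap0 : 0 < kap0)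
    (hLam1 : 1 ≤ Lam) (hL2 : 2 ≤ L) (hkap : kap = kap0 / L) (hT1 : Lam * L ≤ T)
    (hkT : kap * T ≤ kap0 * (Lam + 1))
    (hE : E = 2 * C * (1 + C * C1 * Real.sqrt (2 * kap0) + kap0 * C1 ^ 2))
    (hη'0 : 0 < η') (hEL : (E / η') ^ 2 ≤ Lam) :
    2 / T * (C * (Real.log 2 + C * (C1 * L) * Real.sqrt (kap * T) + kap * (C1 * L) ^ 2)) ≤ η' := by
  have hL0 : 0 < L := by linarith
  have hLam0 : 0 < Lam := by linarith
  have hl2 : Real.log 2 ≤ 1 := by have := Real.log_two_lt_d9; linarith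
  have hl20 : 0 ≤ Real.log 2 := Real.log_nonneg (by norm_num)
  have hkap00 : 0 < kap := by rw [hkap]; positivity
  have h2 : Real.sqrt (kap * T) ≤ Real.sqrt (2 * kap0) * Real.sqrt Lam := by
    rw [← Real.sqrt_mul (by positivity)]
    refine Real.sqrt_le_sqrt (hkT.trans ?_)
    nlinarith
  have hsL1 : 1 ≤ Real.sqrt Lam := by rw [Real.one_le_sqrt]; exact hLam1
  have hs0 : 0 ≤ Real.sqrt (2 * kap0) := Real.sqrt_nonneg _
  have h3 : Real.log 2 + C * (C1 * L) * Real.sqrt (kap * T) + kap * (C1 * L) ^ 2 ≤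
      (1 + C * C1 * Real.sqrt (2 * kap0) + kap0 * C1 ^ 2) * Real.sqrt Lam * L := by
    have h4 : kap * (C1 * L) ^ 2 = kap0 * C1 ^ 2 * L := by rw [hkap]; field_simp
    have h5 : C * (C1 * L) * Real.sqrt (kap * T) ≤
        C * (C1 * L) * (Real.sqrt (2 * kap0) * Real.sqrt Lam) := by gcongr
    have h6 : Real.log 2 ≤ Real.sqrt Lam * L := by
      calc Real.log 2 ≤ 1 := hl2
        _ ≤ 1 * L := by linarith
        _ ≤ Real.sqrt Lam * L := by gcongr
    have h7 : kap0 * C1 ^ 2 * L ≤ kap0 * C1 ^ 2 * L * Real.sqrt Lam :=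
      le_mul_of_one_le_right (by positivity) hsL1
    rw [h4]
    calc _ ≤ Real.sqrt Lam * L + C * (C1 * L) * (Real.sqrt (2 * kap0) * Real.sqrt Lam) +
          kap0 * C1 ^ 2 * L * Real.sqrt Lam := by linarith
      _ = _ := by ring
  have hsL : 0 < Real.sqrt Lam := by linarith
  have h8 : 2 / T * (C * (Real.log 2 + C * (C1 * L) * Real.sqrt (kap * T) + kap * (C1 * L) ^ 2)) ≤
      E / Real.sqrt Lam := by
    have h9 : 2 / T ≤ 2 / (Lam * L) := by gcongr
    have h10 : 0 ≤ C * (Real.log 2 + C * (C1 * L) * Real.sqrt (kap * T) + kap * (C1 * L) ^ 2) := by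
      positivity
    calc _ ≤ 2 / (Lam * L) * (C * ((1 + C * C1 * Real.sqrt (2 * kap0) + kap0 * C1 ^ 2) *
          Real.sqrt Lam * L)) := by gcongr
      _ = E * (Real.sqrt Lam / Lam) := by rw [hE]; field_simp
      _ = E / Real.sqrt Lam := by
          have : Real.sqrt Lam / Lam = 1 / Real.sqrt Lam := by
            rw [div_eq_div_iff hLam0.ne' hsL.ne', one_mul, Real.mul_self_sqrt hLam0.le]
          rw [this]; ring
  refine h8.trans ?_
  rw [div_le_iff₀ hsL]
  have h10 : E / η' ≤ Real.sqrt Lam := Real.le_sqrt_of_sq_le hEL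
  rw [div_le_iff₀ hη'0] at h10
  linarith [mul_comm (Real.sqrt Lam) η']

/-- from `half` and the lower bound to `1 ≤ M u x` -/
theorem one_le_num {M uy ux rho : ℝ} (hM : 0 < M) (huy : 0 ≤ uy) (hrho : 0 < rho)
    (hM2 : (1 + 1 / rho) ^ 2 ≤ M) (hh : Real.log (1 + M) / 2 ≤ Real.log (1 + M * uy))
    (hx : rho * uy ≤ ux) : 1 ≤ M * ux := by
  have h1 : Real.log (1 + M) ≤ Real.log ((1 + M * uy) ^ 2) := by
    rw [Real.log_pow]; push_cast; linarith
  have hp : 0 < 1 + M * uy := by positivity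
  have h2 : 1 + M ≤ (1 + M * uy) ^ 2 :=
    (Real.log_le_log_iff (by positivity) (by positivity)).1 h1
  have h3 : (1 + 1 / rho) ^ 2 ≤ (1 + M * uy) ^ 2 := by linarith
  have h4 : 1 + 1 / rho ≤ 1 + M * uy := le_of_sq_le_sq h3 hp.le
  have h5 : 1 / rho ≤ M * uy := by linarith
  rw [div_le_iff₀ hrho] at h5
  calc (1 : ℝ) ≤ M * uy * rho := h5
    _ = M * (rho * uy) := by ring
    _ ≤ _ := by gcongr

set_option maxHeartbeats 1600000 in
/-- **T25**: (T2)-(T5) of Theorem S as one abstract theorem. -/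
theorem T25 (C : ℝ≥0) (kap0 C1 : ℝ) (hkap0 : 0 < kap0) (hC1 : 0 < C1) (n : ℕ) (η : ℝ)
    (hη : 0 < η) :
    ∃ Lam K : ℝ, 0 < Lam ∧ 0 < K ∧ ∀ R : ℝ, 0 < R → ∃ rho A L₀ : ℝ, 0 < rho ∧ 0 < A ∧ 0 < L₀ ∧
      ∀ (X : Type v) [PseudoMetricSpace X] [MeasurableSpace X] [BorelSpace X] [CompactSpace X]
        (μ : Measure X) (cal : Calc μ) (_ : Sp cal C) (L : ℝ) (_ : L₀ ≤ L)
        (_ : ∀ x y : X, dist x y ≤ C1 * L) (ι : Type) [Fintype ι] (_ : Fintype.card ι ≤ n)
        (u w : ι → X → ℝ) (_ : ∀ i, SecD cal C (kap0 / L) (u i) (w i))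
        (_ : ∀ i, (∀ x, u i x ≤ 1) ∧ ∃ p, u i p = 1),
        μ {y | ¬ ∀ i, GoodAt cal C (Real.exp (Lam * L)) K R rho A (u i) (w i) y} ≤
          ENNReal.ofReal η := by
  have hC0 : (0 : ℝ) ≤ C := C.2
  have hn0 : (0 : ℝ) ≤ n := Nat.cast_nonneg n
  -- constants
  set η' : ℝ := η / (2 * (n + 1)) with hη'
  have hη'0 : 0 < η' := by positivity
  set E : ℝ := 2 * C * (1 + C * C1 * Real.sqrt (2 * kap0) + kap0 * C1 ^ 2) with hE
  have hE0 : 0 ≤ E := by positivity
  set Lam : ℝ := 1 + (E / η') ^ 2 with hLam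
  have hLam1 : 1 ≤ Lam := by have := sq_nonneg (E / η'); linarith
  have hLam0 : 0 < Lam := by linarith
  set c₁ : ℝ := kap0 * (Lam + 1) with hc₁
  have hc₁0 : 0 < c₁ := by positivity
  set K₁ : ℝ := 4 * (n + 1) * (C ^ 2 + 1) / η with hK₁
  have hK₁0 : 0 < K₁ := by positivity
  set K : ℝ := K₁ * (c₁ + C) + 1 with hK
  have hKC : 0 ≤ K₁ * (c₁ + C) := by positivity
  have hK0 : 0 < K := by linarith
  have hK2 : K₁ * (c₁ + C) ≤ K ^ 2 := by nlinarith
  have hK2a : K₁ * c₁ ≤ K ^ 2 := by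
    have : K₁ * c₁ ≤ K₁ * (c₁ + C) := by gcongr; linarith
    linarith
  have hK2b : K₁ * C ≤ K ^ 2 := by
    have : K₁ * C ≤ K₁ * (c₁ + C) := by gcongr; linarith
    linarith
  refine ⟨Lam, K, hLam0, hK0, fun R hR => ?_⟩
  obtain ⟨rho, A, T₀, kk, hrho, hA, hkk, hloc⟩ := local45.{v} C K R hK0.le hR
  refine ⟨rho, A, max (max (max 2 ((1 + 1 / rho) ^ 2)) (kap0 / kk)) (T₀ / Lam), hrho, hA,
    by positivity, ?_⟩
  intro X _ _ _ _ μ cal hS L hL hdiam ι _ hcard u w hsec hnorm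
  have hprob := hS.prob
  have hL2 : 2 ≤ L :=
    (le_max_left _ _).trans ((le_max_left _ _).trans ((le_max_left _ _).trans hL))
  have hLr : (1 + 1 / rho) ^ 2 ≤ L :=
    (le_max_right _ _).trans ((le_max_left _ _).trans ((le_max_left _ _).trans hL))
  have hLk : kap0 / kk ≤ L := (le_max_right _ _).trans ((le_max_left _ _).trans hL)
  have hLT : T₀ / Lam ≤ L := (le_max_right _ _).trans hL
  have hL0 : 0 < L := by linarith
  by_cases hX : IsEmpty X
  · have : {y : X | ¬ ∀ i, GoodAt cal C (Real.exp (Lam * L)) K R rho A (u i) (w i) y} = ∅ :=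
      eq_empty_of_forall_notMem fun y => (hX.false y).elim
    rw [this, measure_empty]; exact bot_le
  have : Nonempty X := not_isEmpty_iff.1 hX
  have hC1' := hS.one_le
  set kap : ℝ := kap0 / L with hkap
  have hkap00 : 0 < kap := by positivity
  have hkk1 : kap ≤ kk := by
    rw [hkap, div_le_iff₀ hL0]
    rw [div_le_iff₀ hkk] at hLk
    linarith [mul_comm L kk]
  set M : ℝ := Real.exp (Lam * L) with hM
  have hM0 : 0 < M := Real.exp_pos _
  set T : ℝ := Real.log (1 + M) with hT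
  have hT1 : Lam * L ≤ T := by
    have : Real.log (Real.exp (Lam * L)) ≤ Real.log (1 + M) :=
      Real.log_le_log (Real.exp_pos _) (by linarith)
    rwa [Real.log_exp] at this
  have hLL : 1 ≤ Lam * L := by nlinarith
  have hT0 : 0 < T := by linarith
  have hl2 : Real.log 2 ≤ 1 := by have := Real.log_two_lt_d9; linarith
  have hMr : (1 + 1 / rho) ^ 2 ≤ M := by
    have h1 := Real.add_one_le_exp (Lam * L)
    have h2 : L ≤ Lam * L := le_mul_of_one_le_left hL0.le hLam1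
    linarith
  have hT2 : T ≤ Lam * L + 1 := by
    have h1 : 1 + M ≤ 2 * M := by
      have : 1 ≤ M := Real.one_le_exp (by positivity)
      linarith
    have h2 : T ≤ Real.log (2 * M) := Real.log_le_log (by positivity) h1
    rw [Real.log_mul (by norm_num) hM0.ne', Real.log_exp] at h2
    linarith
  have hT₀ : T₀ ≤ T := by
    rw [div_le_iff₀ hLam0] at hLT
    linarith [mul_comm L Lam]
  have hkT : kap * T ≤ kap0 * (Lam + 1) := by
    have h1 : kap * T ≤ kap * (Lam * L + 1) := by gcongr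
    have h2 : kap * (Lam * L + 1) = kap0 * Lam + kap0 / L := by rw [hkap]; field_simp
    have h3 : kap0 / L ≤ kap0 := div_le_self hkap0.le (by linarith)
    linarith
  -- the function f
  have hfm : ∀ i, lg M (u i) ∈ cal.Sm := fun i => (hsec i).lg_mem hM0.le
  have hf0 : ∀ i x, 0 ≤ lg M (u i) x := fun i x =>
    Real.log_nonneg (by have := mul_nonneg hM0.le ((hsec i).u_nonneg x); linarith)
  have hfT : ∀ i x, lg M (u i) x ≤ T := fun i x => by
    have h1 := (hnorm i).1 x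
    refine Real.log_le_log ((hsec i).pos hM0.le x) ?_
    have : M * u i x ≤ M * 1 := by gcongr
    linarith
  have hfp : ∀ i, ∃ p, lg M (u i) p = T := fun i => by
    obtain ⟨p, hp⟩ := (hnorm i).2
    refine ⟨p, ?_⟩
    show Real.log (1 + M * u i p) = T
    rw [hp, mul_one]
  have hLf : ∀ i x, - kap ≤ cal.Lap (lg M (u i)) x := fun i x =>
    (hsec i).Lap_lg_ge hM0.le hkap00.le x
  -- low set
  have hlow : ∀ i, μ {x | lg M (u i) x < T / 2} ≤ ENNReal.ofReal η' := by
    intro i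
    obtain ⟨p, hp⟩ := hfp i
    have h1 := meas_low_le hS (hfm i) (hf0 i) hkap00.le (show 0 < C1 * L by positivity) hT0 hdiam
      (hLf i) (hfT i) p hp
    have h8 := low_num hC0 hC1 hkap0 hLam1 hL2 hkap hT1 hkT hE hη'0 (by rw [hLam]; linarith)
    have h10 : μ.real {x | lg M (u i) x < T / 2} ≤ η' := h1.trans h8
    rw [← ofReal_measureReal (measure_ne_top μ _)]
    exact ENNReal.ofReal_le_ofReal h10
  -- energies
  have hen : ∀ i, ∫ x, cal.Gam (lg M (u i)) x ∂μ ≤ c₁ := fun i => by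
    have h1 := energy_le (μ := μ) (hfm i) (hf0 i) (hLf i)
    have h2 : ∫ x, lg M (u i) x ∂μ ≤ T := by
      have : ∫ x, lg M (u i) x ∂μ ≤ ∫ _x : X, T ∂μ :=
        integral_mono (integrable_of_continuous (cal.cont _ (hfm i))) (integrable_const _) (hfT i)
      simpa using this
    have h3 : kap * ∫ x, lg M (u i) x ∂μ ≤ kap * T := by gcongr
    linarith
  choose e he0 heM hbm hbE using fun i => (hsec i).jet (1 / M) (by positivity)
  have hbad1 : ∀ i, μ {y | ¬ ∀ r, 0 < r → ⨍ x in closedBall y r, cal.Gam (lg M (u i)) x ∂μ ≤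
      K₁ * c₁} ≤ ENNReal.ofReal ((C : ℝ) ^ 2 / K₁) := fun i =>
    meas_avg_bad hS (cal.Gam_nonneg _ (hfm i)) (cal.contGam _ (hfm i)) hc₁0 hK₁0 (hen i)
  have hbad2 : ∀ i, μ {y | ¬ ∀ r, 0 < r → ⨍ x in closedBall y r,
      cal.Gam (jb (u i) (w i) (e i)) x ∂μ ≤ K₁ * (C * kap)} ≤ ENNReal.ofReal ((C : ℝ) ^ 2 / K₁) :=
    fun i => meas_avg_bad hS (cal.Gam_nonneg _ (hbm i)) (cal.contGam _ (hbm i))
      (by positivity) hK₁0 (hbE i)
  -- inclusion
  have hsub : {y | ¬ ∀ i, GoodAt cal C M K R rho A (u i) (w i) y} ⊆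
      ⋃ i, ({x | lg M (u i) x < T / 2} ∪
        ({y | ¬ ∀ r, 0 < r → ⨍ x in closedBall y r, cal.Gam (lg M (u i)) x ∂μ ≤ K₁ * c₁} ∪
          {y | ¬ ∀ r, 0 < r → ⨍ x in closedBall y r,
            cal.Gam (jb (u i) (w i) (e i)) x ∂μ ≤ K₁ * (C * kap)})) := by
    intro y hy
    by_contra hcon
    refine hy fun i => ?_
    have hcon' : ∀ i, y ∉ ({x | lg M (u i) x < T / 2} ∪
        ({y | ¬ ∀ r, 0 < r → ⨍ x in closedBall y r, cal.Gam (lg M (u i)) x ∂μ ≤ K₁ * c₁} ∪
          {y | ¬ ∀ r, 0 < r → ⨍ x in closedBall y r,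
            cal.Gam (jb (u i) (w i) (e i)) x ∂μ ≤ K₁ * (C * kap)})) := fun i hi =>
      hcon (mem_iUnion.2 ⟨i, hi⟩)
    have h1 : T / 2 ≤ lg M (u i) y := not_lt.1 fun h => hcon' i (Or.inl h)
    have h2 : ∀ r, 0 < r → ⨍ x in closedBall y r, cal.Gam (lg M (u i)) x ∂μ ≤ K ^ 2 := by
      intro r hr
      by_contra h
      refine hcon' i (Or.inr (Or.inl fun h' => h ((h' r hr).trans hK2a)))
    have h3 : ∀ r, 0 < r → ⨍ x in closedBall y r, cal.Gam (jb (u i) (w i) (e i)) x ∂μ ≤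
        K ^ 2 * kap := by
      intro r hr
      by_contra h
      refine hcon' i (Or.inr (Or.inr fun h' => h ((h' r hr).trans ?_)))
      calc K₁ * (C * kap) = (K₁ * C) * kap := by ring
        _ ≤ K ^ 2 * kap := by gcongr
    have h4 := hloc X μ cal kap M (e i) (u i) (w i) y hS (hsec i) hkap00.le hkk1 hM0 hT₀ h1
      (he0 i) (heM i) (hbm i) h2 h3
    refine ⟨?_, fun x hx => (h4 x hx).1, fun x hx => (h4 x hx).2.1, fun x hx => (h4 x hx).2.2,
      h2, fun r hr => osc_le hS (hfm i) hK0.le h2 hr, h1, fun x hx =>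
      one_le_num hM0 ((hsec i).u_nonneg y) hrho hMr h1 (h4 x hx).1⟩
    -- level
    have h5 : Real.log 2 ≤ lg M (u i) y := by
      have h6 : Real.log 4 ≤ T := by
        refine Real.log_le_log (by norm_num) ?_
        have h7 : Real.exp 2 ≤ M := Real.exp_le_exp.2 (by nlinarith)
        have h8 : (3 : ℝ) ≤ Real.exp 2 := by have := Real.add_one_le_exp (2 : ℝ); linarith
        linarith
      have h7 : Real.log 4 = 2 * Real.log 2 := by
        rw [show (4 : ℝ) = 2 ^ 2 by norm_num, Real.log_pow]; norm_num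
      linarith
    have h6 := Real.exp_le_exp.2 h5
    rw [Real.exp_log (by norm_num), lg, Real.exp_log ((hsec i).pos hM0.le y)] at h6
    rw [div_le_iff₀ hM0]
    linarith [mul_comm M (u i y)]
  refine (measure_mono hsub).trans ?_
  have hone : ∀ i, μ ({x | lg M (u i) x < T / 2} ∪
        ({y | ¬ ∀ r, 0 < r → ⨍ x in closedBall y r, cal.Gam (lg M (u i)) x ∂μ ≤ K₁ * c₁} ∪
          {y | ¬ ∀ r, 0 < r → ⨍ x in closedBall y r,
            cal.Gam (jb (u i) (w i) (e i)) x ∂μ ≤ K₁ * (C * kap)})) ≤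
      ENNReal.ofReal (η / (n + 1)) := by
    intro i
    have h1 : η' + ((C : ℝ) ^ 2 / K₁ + (C : ℝ) ^ 2 / K₁) ≤ η / (n + 1) := by
      have h2 : (C : ℝ) ^ 2 / K₁ ≤ η / (4 * (n + 1)) := by
        rw [hK₁, div_div_eq_mul_div, div_le_div_iff₀ (by positivity) (by positivity)]
        nlinarith [show 0 ≤ η * (4 * ((n : ℝ) + 1)) by positivity]
      have h3 : η / (2 * (n + 1)) + (η / (4 * (n + 1)) + η / (4 * (n + 1))) = η / ((n : ℝ) + 1) := by
        field_simp
        ring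
      rw [hη']
      linarith
    refine (measure_union_le _ _).trans ?_
    calc _ ≤ ENNReal.ofReal η' + (ENNReal.ofReal ((C : ℝ) ^ 2 / K₁) +
          ENNReal.ofReal ((C : ℝ) ^ 2 / K₁)) := by
          gcongr
          · exact hlow i
          · refine (measure_union_le _ _).trans ?_
            gcongr
            · exact hbad1 i
            · exact hbad2 i
      _ = ENNReal.ofReal (η' + ((C : ℝ) ^ 2 / K₁ + (C : ℝ) ^ 2 / K₁)) := by
          rw [ENNReal.ofReal_add hη'0.le (by positivity),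
            ENNReal.ofReal_add (by positivity) (by positivity)]
      _ ≤ _ := ENNReal.ofReal_le_ofReal h1
  calc μ (⋃ i, _) ≤ ∑ i, μ ({x | lg M (u i) x < T / 2} ∪
        ({y | ¬ ∀ r, 0 < r → ⨍ x in closedBall y r, cal.Gam (lg M (u i)) x ∂μ ≤ K₁ * c₁} ∪
          {y | ¬ ∀ r, 0 < r → ⨍ x in closedBall y r,
            cal.Gam (jb (u i) (w i) (e i)) x ∂μ ≤ K₁ * (C * kap)})) := measure_iUnion_fintype_le _ _
    _ ≤ ∑ _i : ι, ENNReal.ofReal (η / (n + 1)) := Finset.sum_le_sum fun i _ => hone i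
    _ = Fintype.card ι * ENNReal.ofReal (η / (n + 1)) := by
        rw [Finset.sum_const, Finset.card_univ, nsmul_eq_mul]
    _ = ENNReal.ofReal (Fintype.card ι * (η / (n + 1))) := by
        rw [ENNReal.ofReal_mul (by positivity), ENNReal.ofReal_natCast]
    _ ≤ ENNReal.ofReal η := by
        refine ENNReal.ofReal_le_ofReal ?_
        have h1 : (Fintype.card ι : ℝ) ≤ n + 1 := by
          have : (Fintype.card ι : ℝ) ≤ n := by exact_mod_cast hcard
          linarith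
        calc (Fintype.card ι : ℝ) * (η / (n + 1)) ≤ (n + 1) * (η / (n + 1)) := by gcongr
          _ = η := by field_simp

end Crest.Agent.R281.St_405
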