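import Crest.Agent.R281.Sta3_684

/-!
# R281 (S0424), START (D14), (R6′) of 252 #8360 / 829 #8380, (S2) of 565 #8448 (helper871)

`exists_kbasN`  : integral Kaehler classes `k i` of `H.J 0`, a basis of `W^⊥`, and natural numbers
                  `a i > 0`, `c > 0` with `∑ a i • k i` cohomologous to `c • A`, `A = [om 0]`
`exists_kbasNF` : the same for `AtTau F A H τ` (998)
-/

set_option autoImplicit false
set_option linter.unusedSectionVars false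
set_option maxSynthPendingDepth 3

open Set Filter Topology Module
open scoped ContDiff

namespace Crest.Agent.R281.StK_871

open Crest.Agent.R281.HkR_835 Crest.Agent.R281.Cdr_234 Crest.Agent.R281.Sta1_684
open Crest.Agent.R281.Sta2_684 Crest.Agent.R281.Sta3_684 Crest.Agent.R281.W3a_698
open Crest.Agent.R281.Alg_998
open Crest.Agent.R281.Ti_846 (Ex)
open Crest.Agent.R281.NefO_476 (ofHk Pos)
open Crest.Agent.R281.Nef_252 (T11 KCls)

noncomputable section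

variable {V X : Type} [NormedAddCommGroup V] [NormedSpace ℝ V] [FiniteDimensional ℝ V]
  [TopologicalSpace X] {C : RCh V X} {B : F2 C →ₗ[ℝ] F2 C →ₗ[ℝ] ℝ}

/-- **a basis of `W^⊥` of integral Kaehler classes of `H.J 0`, natural coefficients of `A`** -/
theorem exists_kbasN [CompactSpace X] (hB : QR B) (hR : RatH C) {H : HkT C} {e A v w : F2 C}
    (h : Pos4 B e A v w) (he : RatF e) (hA : RatF A) (hv : RatF v) (hw : RatF w)
    (h0 : Cl (H.om 0) A) (b1 : ∀ k ∈ Wp B e v w, B k (H.om 1) = 0)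
    (b2 : ∀ k ∈ Wp B e v w, B k (H.om 2) = 0) :
    ∃ (ρ : ℕ) (b : Basis (Fin ρ) ℝ (Wp (Bq hB.toQS) (cl e) (cl v) (cl w))) (k : Fin ρ → F2 C)
      (a : Fin ρ → ℕ) (c : ℕ), 0 < ρ ∧
      (∀ i, IntF (k i) ∧ KCls (ofHk H 0) (k i) ∧ cl (k i) = b i) ∧
      (∀ i, 0 < a i) ∧ 0 < c ∧ Cl (∑ i, (a i : ℝ) • k i) ((c : ℝ) • A) := by
  have := hR.fin
  have hP := pos4_cl hB.toQS h
  have hQ := rat4_cl hB hR he hA hv hw
  set W := Wp (Bq hB.toQS) (cl e) (cl v) (cl w) with hW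
  have hs := span_rat hP hQ hR.span
  let R' : AddSubgroup W := (RatS hR).comap W.subtype.toAddMonoidHom
  let A' : W := ⟨cl A, A_mem hP⟩
  have hA0 : A' ≠ 0 := by
    intro h0
    have h1 : cl A = 0 := congrArg Subtype.val h0
    have h2 : B A A = 0 := by
      rw [← Bq_cl hB.toQS, h1, map_zero]
    exact h.AA.ne' h2
  let K : Set W := {ζ | ∃ k : F2 C, cl k = ζ ∧ KCls (ofHk H 0) k}
  have hK : ∀ ζ : W, ∃ ε > 0, ∀ t : ℝ, |t| < ε → A' + t • ζ ∈ K := by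
    rintro ⟨ζ, hζ⟩
    obtain ⟨k, rfl⟩ := cl_surj ζ
    obtain ⟨ε, hε, h1⟩ := kcls_near hB h.AA h0 (b1 k hζ) (b2 k hζ)
    refine ⟨ε, hε, fun t ht => ⟨A + t • k, ?_, h1 t ht⟩⟩
    rw [map_add, map_smul]
    rfl
  obtain ⟨b0, hb0, hsum⟩ := exists_bas R' (fun r x hx => hQ.q r _ hx) hs hQ.A hA0 K hK
  -- representatives
  have hrep : ∀ i, ∃ k : F2 C, RatF k ∧ KCls (ofHk H 0) k ∧ cl k = b0 i := by
    intro i
    obtain ⟨⟨k1, hk1, hk2⟩, ⟨k2, hk3, hk4⟩⟩ := hb0 i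
    refine ⟨k1, hk1, hk4.congr ?_, hk2⟩
    rw [← cl_eq, hk3]
    exact hk2.symm
  choose k hk1 hk2 hk3 using hrep
  choose m hm hmi using fun i => hR.int (hk1 i)
  have hm' : ∀ i, (0 : ℝ) < m i := fun i => by exact_mod_cast hm i
  have hρ : 0 < finrank ℝ W := by
    rw [Module.finrank_pos_iff_exists_ne_zero]
    exact ⟨A', hA0⟩
  let un : Fin (finrank ℝ W) → ℝˣ := fun i => Units.mk0 (m i : ℝ) (hm' i).ne'
  refine ⟨finrank ℝ W, b0.unitsSMul un, fun i => (m i : ℝ) • k i,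
    fun i => ∏ j ∈ Finset.univ.erase i, m j, finrank ℝ W * ∏ j, m j, hρ,
    fun i => ⟨hmi i, (hk2 i).smul (hm' i), ?_⟩, fun i => Finset.prod_pos fun j _ => hm j,
    Nat.mul_pos hρ (Finset.prod_pos fun j _ => hm j), ?_⟩
  · rw [map_smul, hk3, Basis.unitsSMul_apply]
    rfl
  · show Ex _
    rw [← cl_eq, map_sum, map_smul]
    have h1 : cl A = ((A' : W) : HdR C) := rfl
    rw [h1, hsum, Submodule.coe_sum, Finset.smul_sum]
    refine Finset.sum_congr rfl fun i _ => ?_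
    rw [map_smul, map_smul, smul_smul, hk3]
    have h3 : (((finrank ℝ W : ℝ)⁻¹ • b0 i : W) : HdR C) =
        (finrank ℝ W : ℝ)⁻¹ • ((b0 i : W) : HdR C) := rfl
    rw [h3, smul_smul]
    congr 1
    have h4 : (0 : ℝ) < finrank ℝ W := by exact_mod_cast hρ
    have h5 : (∏ j ∈ Finset.univ.erase i, m j) * m i = ∏ j, m j :=
      Finset.prod_erase_mul _ _ (Finset.mem_univ i)
    rw [← h5]
    push_cast
    field_simp

/-- **(S2) of START: `exists_kbasN` for `AtTau F A H τ`** -/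
theorem exists_kbasNF [CompactSpace X] (F : Frm C B) (hB : QR B) (hR : RatH C) {A : F2 C}
    (hA : RatF A) (hAA : 0 < B A A) (h1 : B A F.e = 0) (h2 : B A F.v = 0) (h3 : B A F.es = 0)
    {H : HkT C} {τ : ℂ} (hH : AtTau F A H τ) :
    ∃ (ρ : ℕ) (b : Basis (Fin ρ) ℝ (WpF F hB.toQS)) (k : Fin ρ → F2 C) (a : Fin ρ → ℕ) (c : ℕ),
      0 < ρ ∧ (∀ i, IntF (k i) ∧ KCls (ofHk H 0) (k i) ∧ cl (k i) = b i) ∧
      (∀ i, 0 < a i) ∧ 0 < c ∧ Cl (∑ i, (a i : ℝ) • k i) ((c : ℝ) • A) := by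
  obtain ⟨z, hz, c1, c2⟩ := hH.om12
  have hk : ∀ k ∈ Wp B F.e F.v (F.es + F.e), B k F.e = 0 ∧ B k F.v = 0 ∧ B k F.es = 0 :=
    fun k hk => (mem_WpF F hB.toQS).1 hk
  refine exists_kbasN hB hR (pos4_frm F hB.toQS hAA h1 h2 h3) F.int_e.rat hA F.rat_v
    (Cls.add F.rat_es F.int_e.rat) hH.om0 (fun k hk' => ?_) fun k hk' => ?_
  · obtain ⟨a1, a2, a3⟩ := hk k hk'
    rw [hB.toQS.congr (Cl.refl k) c1, map_sub, map_smul, map_smul, b_sre F a1 a2 a3,
      b_sim F a1 a2]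
    simp
  · obtain ⟨a1, a2, a3⟩ := hk k hk'
    rw [hB.toQS.congr (Cl.refl k) c2, map_add, map_smul, map_smul, b_sre F a1 a2 a3,
      b_sim F a1 a2]
    simp

end

end Crest.Agent.R281.StK_871
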