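import Mathlib

/-!
# W3-ALG (a): rationality of the quadratic form

If `q ^ n` takes rational values on a `ℚ`-subspace, then so does `q / q x₀`.
-/

set_option autoImplicit false

open Polynomial

namespace Crest.Agent.R281.W3a_698

/-- A real number which is rational. -/
def IsQ (x : ℝ) : Prop := ∃ r : ℚ, x = r

theorem IsQ.rat (r : ℚ) : IsQ (r : ℝ) := ⟨r, rfl⟩
theorem IsQ.zero : IsQ 0 := ⟨0, by simp⟩
theorem IsQ.one : IsQ 1 := ⟨1, by simp⟩
theorem IsQ.nat (n : ℕ) : IsQ (n : ℝ) := ⟨n, by simp⟩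
theorem IsQ.add {x y : ℝ} (hx : IsQ x) (hy : IsQ y) : IsQ (x + y) := by
  obtain ⟨r, rfl⟩ := hx; obtain ⟨s, rfl⟩ := hy; exact ⟨r + s, by push_cast; rfl⟩
theorem IsQ.sub {x y : ℝ} (hx : IsQ x) (hy : IsQ y) : IsQ (x - y) := by
  obtain ⟨r, rfl⟩ := hx; obtain ⟨s, rfl⟩ := hy; exact ⟨r - s, by push_cast; rfl⟩
theorem IsQ.mul {x y : ℝ} (hx : IsQ x) (hy : IsQ y) : IsQ (x * y) := by
  obtain ⟨r, rfl⟩ := hx; obtain ⟨s, rfl⟩ := hy; exact ⟨r * s, by push_cast; rfl⟩
theorem IsQ.neg {x : ℝ} (hx : IsQ x) : IsQ (-x) := by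
  obtain ⟨r, rfl⟩ := hx; exact ⟨-r, by push_cast; rfl⟩
theorem IsQ.div {x y : ℝ} (hx : IsQ x) (hy : IsQ y) : IsQ (x / y) := by
  obtain ⟨r, rfl⟩ := hx; obtain ⟨s, rfl⟩ := hy; exact ⟨r / s, by push_cast; rfl⟩
theorem IsQ.inv {x : ℝ} (hx : IsQ x) : IsQ (x⁻¹) := by
  obtain ⟨r, rfl⟩ := hx; exact ⟨r⁻¹, by push_cast; rfl⟩
theorem IsQ.pow {x : ℝ} (hx : IsQ x) (n : ℕ) : IsQ (x ^ n) := by
  obtain ⟨r, rfl⟩ := hx; exact ⟨r ^ n, by push_cast; rfl⟩

/-- A real polynomial taking rational values at all natural numbers has rational coefficients. -/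
theorem exists_map_eq (p : ℝ[X]) (h : ∀ i : ℕ, IsQ (p.eval (i : ℝ))) :
    ∃ p' : ℚ[X], p'.map (algebraMap ℚ ℝ) = p := by
  choose r hr using h
  set N := p.natDegree + 1 with hN
  let s : Finset ℕ := Finset.range N
  let p' : ℚ[X] := Lagrange.interpolate s (fun i : ℕ => (i : ℚ)) r
  have inj : Set.InjOn (fun i : ℕ => (i : ℚ)) s := fun a _ b _ hab => by simpa using hab
  have inj' : Set.InjOn (fun i : ℕ => (i : ℝ)) s := fun a _ b _ hab => by simpa using hab
  have hcard : s.card = N := Finset.card_range N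
  refine ⟨p', ?_⟩
  refine Polynomial.eq_of_degrees_lt_of_eval_index_eq (s := s) (v := fun i : ℕ => (i : ℝ)) inj' ?_ ?_ ?_
  · rw [Polynomial.degree_map]
    exact Lagrange.degree_interpolate_lt _ inj
  · rw [hcard]
    calc p.degree ≤ (p.natDegree : WithBot ℕ) := Polynomial.degree_le_natDegree
      _ < (N : WithBot ℕ) := by rw [hN]; exact_mod_cast Nat.lt_succ_self _
  · intro i hi
    have h1 : p'.eval (i : ℚ) = r i := by
      have := Lagrange.eval_interpolate_at_node (s := s) (v := fun i : ℕ => (i : ℚ)) r inj hi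
      simpa [p'] using this
    have h2 : (p'.map (algebraMap ℚ ℝ)).eval ((i : ℕ) : ℝ) = algebraMap ℚ ℝ (p'.eval (i : ℚ)) := by
      have := Polynomial.eval_map_algebraMap p' ((i : ℕ) : ℝ)
      rw [Polynomial.eval_map]
      have h3 : ((i : ℕ) : ℝ) = algebraMap ℚ ℝ (i : ℚ) := by simp
      rw [h3, Polynomial.eval₂_at_apply]
    show (p'.map (algebraMap ℚ ℝ)).eval ((i : ℕ) : ℝ) = p.eval ((i : ℕ) : ℝ)
    rw [h2, h1, hr i]
    simp

theorem isQ_eval_zero {p : ℝ[X]} (h : ∃ p' : ℚ[X], p'.map (algebraMap ℚ ℝ) = p) :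
    IsQ (p.eval 0) := by
  obtain ⟨p', rfl⟩ := h
  refine ⟨p'.eval 0, ?_⟩
  rw [Polynomial.eval_map]
  have h3 : (0 : ℝ) = algebraMap ℚ ℝ (0 : ℚ) := by simp
  rw [h3, Polynomial.eval₂_at_apply]
  simp

theorem derivative_rat {p : ℝ[X]} (h : ∃ p' : ℚ[X], p'.map (algebraMap ℚ ℝ) = p) :
    ∃ p' : ℚ[X], p'.map (algebraMap ℚ ℝ) = derivative p := by
  obtain ⟨p', rfl⟩ := h
  exact ⟨derivative p', by rw [Polynomial.derivative_map]⟩

/-- If `(1 + 2 b t + d t²)^n` is rational for all natural `t`, then `b` and `d` are rational. -/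
theorem isQ_of_pow {n : ℕ} (hn : 1 ≤ n) {b d : ℝ}
    (h : ∀ i : ℕ, IsQ ((1 + 2 * b * i + d * (i : ℝ) ^ 2) ^ n)) : IsQ b ∧ IsQ d := by
  let u : ℝ[X] := 1 + C (2 * b) * X + C d * X ^ 2
  have hu : ∀ t : ℝ, (u ^ n).eval t = (1 + 2 * b * t + d * t ^ 2) ^ n := by
    intro t; simp [u]
  have h0 : ∃ p' : ℚ[X], p'.map (algebraMap ℚ ℝ) = u ^ n :=
    exists_map_eq _ (fun i => by rw [hu]; exact h i)
  have h1 := derivative_rat h0
  have h2 := derivative_rat h1
  have hn0 : (n : ℝ) ≠ 0 := by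
    have : n ≠ 0 := by omega
    exact_mod_cast this
  have hu0 : u.eval 0 = 1 := by simp [u]
  have du : derivative u = C (2 * b) + C (2 * d) * X := by
    simp [u, Polynomial.derivative_pow]
    ring_nf
    try simp only [← Polynomial.C_mul]
    try ring_nf
  have ddu : derivative (derivative u) = C (2 * d) := by
    rw [du]; simp
  have e1 : (derivative (u ^ n)).eval 0 = n * (2 * b) := by
    rw [Polynomial.derivative_pow, du]; simp [hu0]
  have hb : IsQ b := by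
    have := isQ_eval_zero h1
    rw [e1] at this
    have h3 := (this.div (IsQ.nat n)).div (IsQ.nat 2)
    have h4 : (n : ℝ) * (2 * b) / n / (2 : ℕ) = b := by
      push_cast
      field_simp
    rwa [h4] at h3
  refine ⟨hb, ?_⟩
  have e2 : (derivative (derivative (u ^ n))).eval 0
      = n * ((n - 1 : ℕ) * (2 * b) ^ 2 + 2 * d) := by
    rw [Polynomial.derivative_pow, Polynomial.derivative_mul, Polynomial.derivative_mul, ddu,
      Polynomial.derivative_pow, du]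
    simp [hu0]
    ring
  have h5 := isQ_eval_zero h2
  rw [e2] at h5
  have h6 := ((h5.div (IsQ.nat n)).sub
    ((IsQ.nat (n - 1)).mul (((IsQ.nat 2).mul hb).pow 2))).div (IsQ.nat 2)
  have h7 : ((n : ℝ) * (((n - 1 : ℕ) : ℝ) * (2 * b) ^ 2 + 2 * d) / n
      - ((n - 1 : ℕ) : ℝ) * (((2 : ℕ) : ℝ) * b) ^ 2) / ((2 : ℕ) : ℝ) = d := by
    rw [mul_div_cancel_left₀ _ hn0]
    push_cast
    ring
  rwa [h7] at h6

variable {V : Type*} [AddCommGroup V] [Module ℝ V]

/-- **(W1)** `q ^ n` rational on the rational classes implies `q / q x₀` rational on them. -/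
theorem isQ_div (B : V →ₗ[ℝ] V →ₗ[ℝ] ℝ) (symm : ∀ x y, B x y = B y x) (R : AddSubgroup V)
    {n : ℕ} (hn : 1 ≤ n) (hF : ∀ x ∈ R, IsQ ((B x x) ^ n)) {x0 : V} (h0 : x0 ∈ R)
    (hq : B x0 x0 ≠ 0) : ∀ x ∈ R, ∀ y ∈ R, IsQ (B x y / B x0 x0) := by
  have key : ∀ y ∈ R, IsQ (B y y / B x0 x0) := by
    intro y hy
    refine (isQ_of_pow hn (b := B x0 y / B x0 x0) (d := B y y / B x0 x0) ?_).2
    intro i
    have hmem : x0 + i • y ∈ R := R.add_mem h0 (R.nsmul_mem hy i)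
    have h1 := (hF _ hmem).div (hF _ h0)
    have h2 : (1 + 2 * (B x0 y / B x0 x0) * i + B y y / B x0 x0 * (i : ℝ) ^ 2) ^ n
        = (B (x0 + i • y) (x0 + i • y)) ^ n / (B x0 x0) ^ n := by
      rw [← div_pow]
      congr 1
      have h3 : (i • y : V) = (i : ℝ) • y := by rw [Nat.cast_smul_eq_nsmul]
      rw [h3]
      simp only [map_add, LinearMap.add_apply, map_smul, LinearMap.smul_apply, smul_eq_mul]
      rw [symm y x0]
      field_simp
      ring
    rw [h2]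
    exact h1
  intro x hx y hy
  have h1 := ((key _ (R.add_mem hx hy)).sub (key x hx)).sub (key y hy)
  have h2 := h1.div (IsQ.nat 2)
  have h3 : (B (x + y) (x + y) / B x0 x0 - B x x / B x0 x0 - B y y / B x0 x0) / ((2 : ℕ) : ℝ)
      = B x y / B x0 x0 := by
    simp only [map_add, LinearMap.add_apply]
    rw [symm y x]
    push_cast
    field_simp
    ring
  rwa [h3] at h2

end Crest.Agent.R281.W3a_698
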