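import Mathlib
import Crest.Agent.R281.W3a_698

/-!
# R281 (S0424), START (D14), part 1 (helper684): linear algebra

`V` a real vector space, `B` symmetric, `R` the rational classes, `e, A, v, w` as in #7176 of 998.

* `bv x = v - (x N) e`, `kap x = w + x B(w,e) bv x`, `est` (the isotropic vector of `w`),
  `sre x y`, `sim x y` : real and imaginary part of `sig (x + i y)`
* `sre_eq` : `sre x y = B(w,e)⁻¹ • kap x` if `N y² B(w,e)² = B(kap, kap)`
* `Wp` : orthogonal complement of `W = ⟨e, v, w⟩`, `span_rat` : rational classes span it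
* `exists_bas` : a rational basis inside a set `K` which is open at `A` in all directions, with
  `A = (1/ρ) ∑ b_i`
-/

set_option autoImplicit false

open Module

namespace Crest.Agent.R281.Sta1_684

open Crest.Agent.R281.W3a_698

noncomputable section

section form

variable {V : Type*} [AddCommGroup V] [Module ℝ V] (B : V →ₗ[ℝ] V →ₗ[ℝ] ℝ)

/-- `b = v - x N e` -/
def bv (e v : V) (x : ℝ) : V := v - (x * B v v) • e

/-- the Kaehler class `κ = w + x B(w,e) b` -/
def kap (e v w : V) (x : ℝ) : V := w + (x * B w e) • bv B e v x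

/-- the isotropic vector dual to `e` -/
def est (e w : V) : V := (B w e)⁻¹ • (w - (B w w / (2 * B w e)) • e)

/-- `Re sig (x + i y)` -/
def sre (e v w : V) (x y : ℝ) : V :=
  est B e w + x • v - (B v v / 2 * (x ^ 2 - y ^ 2)) • e

/-- `Im sig (x + i y)` -/
def sim (e v : V) (x y : ℝ) : V := y • bv B e v x

/-- the hypotheses on `e, A, v, w` -/
structure Pos4 (e A v w : V) : Prop where
  symm : ∀ x y, B x y = B y x
  ee : B e e = 0
  Ae : B A e = 0
  ve : B v e = 0
  we : 0 < B w e
  Av : B A v = 0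
  Aw : B A w = 0
  vw : B v w = 0
  AA : 0 < B A A
  vv : 0 < B v v
  ww : 0 < B w w

variable {B} {e A v w : V} (h : Pos4 B e A v w)

namespace Pos4

include h

theorem eA : B e A = 0 := by rw [h.symm]; exact h.Ae
theorem ev : B e v = 0 := by rw [h.symm]; exact h.ve
theorem ew : 0 < B e w := by rw [h.symm]; exact h.we
theorem vA : B v A = 0 := by rw [h.symm]; exact h.Av
theorem wA : B w A = 0 := by rw [h.symm]; exact h.Aw
theorem wv : B w v = 0 := by rw [h.symm]; exact h.vw

theorem bb (x : ℝ) : B (bv B e v x) (bv B e v x) = B v v := by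
  simp only [bv, map_sub, map_smul, LinearMap.sub_apply, LinearMap.smul_apply, smul_eq_mul,
    h.ee, h.ve, h.ev]
  ring

theorem be (x : ℝ) : B (bv B e v x) e = 0 := by
  simp [bv, h.ee, h.ve]

theorem bA (x : ℝ) : B (bv B e v x) A = 0 := by
  simp [bv, h.eA, h.vA]

theorem bw (x : ℝ) : B (bv B e v x) w = -(x * B v v * B w e) := by
  simp [bv, h.vw, h.symm e w]

theorem bv_v (x : ℝ) : B (bv B e v x) v = B v v := by
  simp [bv, h.ev]

theorem ke (x : ℝ) : B (kap B e v w x) e = B w e := by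
  simp [kap, h.be]

theorem kA (x : ℝ) : B (kap B e v w x) A = 0 := by
  simp [kap, h.bA, h.wA]

theorem kb (x : ℝ) : B (kap B e v w x) (bv B e v x) = 0 := by
  simp only [kap, map_add, map_smul, LinearMap.add_apply, LinearMap.smul_apply, smul_eq_mul,
    h.bb, h.symm w (bv B e v x), h.bw]
  ring

theorem kk (x : ℝ) : B (kap B e v w x) (kap B e v w x) = B w w - x ^ 2 * B v v * B w e ^ 2 := by
  have h1 : B (kap B e v w x) (kap B e v w x) = B (kap B e v w x) w +
      (x * B w e) * B (kap B e v w x) (bv B e v x) := by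
    conv_lhs => rw [show (B (kap B e v w x)) (kap B e v w x) =
      B (kap B e v w x) (w + (x * B w e) • bv B e v x) from rfl]
    rw [map_add, map_smul, smul_eq_mul]
  rw [h1, h.kb]
  simp only [kap, map_add, map_smul, LinearMap.add_apply, LinearMap.smul_apply, smul_eq_mul, h.bw]
  ring

theorem est_e : B (est B e w) e = 1 := by
  simp only [est, map_smul, map_sub, LinearMap.sub_apply, LinearMap.smul_apply, smul_eq_mul, h.ee]
  have := h.we.ne'
  field_simp
  ring

theorem est_v : B (est B e w) v = 0 := by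
  simp [est, h.wv, h.ev]

theorem est_A : B (est B e w) A = 0 := by
  simp [est, h.wA, h.eA]

theorem est_est : B (est B e w) (est B e w) = 0 := by
  simp only [est, map_smul, map_sub, LinearMap.sub_apply, LinearMap.smul_apply, smul_eq_mul, h.ee,
    h.symm e w]
  have := h.we.ne'
  field_simp
  ring

/-- the class of the Kaehler form is proportional to `Re sig` -/
theorem sre_eq {x y : ℝ} (hy : B v v * y ^ 2 * B w e ^ 2 = B (kap B e v w x) (kap B e v w x)) :
    sre B e v w x y = (B w e)⁻¹ • kap B e v w x := by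
  rw [h.kk] at hy
  have hwe := h.we.ne'
  have hy' : B v v * y ^ 2 = B w w / B w e ^ 2 - x ^ 2 * B v v := by
    field_simp
    linear_combination hy
  have e1 : (B w e)⁻¹ • kap B e v w x = (B w e)⁻¹ • w + x • v - (x ^ 2 * B v v) • e := by
    rw [kap, smul_add, smul_smul, bv, smul_sub, smul_smul]
    have e2 : (B w e)⁻¹ * (x * B w e) = x := by field_simp
    rw [e2]
    have e3 : x * (x * B v v) = x ^ 2 * B v v := by ring
    rw [e3]
    abel
  rw [e1, sre, est, smul_sub, smul_smul]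
  have e4 : B v v / 2 * (x ^ 2 - y ^ 2) =
      x ^ 2 * B v v - (B w e)⁻¹ * (B w w / (2 * B w e)) := by
    have e5 : (B w e)⁻¹ * (B w w / (2 * B w e)) = B w w / B w e ^ 2 / 2 := by
      field_simp
    rw [e5]
    linear_combination (-1 / 2 : ℝ) * hy'
  rw [e4, sub_smul]
  abel

theorem exists_y {x : ℝ} (hk : 0 < B (kap B e v w x) (kap B e v w x)) :
    ∃ y : ℝ, 0 < y ∧ B v v * y ^ 2 * B w e ^ 2 = B (kap B e v w x) (kap B e v w x) := by
  set k := B (kap B e v w x) (kap B e v w x)
  have h1 := h.vv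
  have h2 := h.we
  refine ⟨Real.sqrt (k / (B v v * B w e ^ 2)), Real.sqrt_pos.2 (by positivity), ?_⟩
  rw [Real.sq_sqrt (by positivity)]
  field_simp

theorem sre_sre (x y : ℝ) : B (sre B e v w x y) (sre B e v w x y) = B v v * y ^ 2 := by
  simp only [sre, map_sub, map_add, map_smul, LinearMap.sub_apply, LinearMap.add_apply,
    LinearMap.smul_apply, smul_eq_mul, h.est_est, h.est_v, h.est_e, h.symm v (est B e w),
    h.symm e (est B e w), h.ee, h.ev, h.ve]
  ring

theorem sim_sim (x y : ℝ) : B (sim B e v x y) (sim B e v x y) = B v v * y ^ 2 := by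
  simp only [sim, map_smul, LinearMap.smul_apply, smul_eq_mul, h.bb]
  ring

theorem sre_sim (x y : ℝ) : B (sre B e v w x y) (sim B e v x y) = 0 := by
  simp only [sre, sim, bv, map_sub, map_add, map_smul, LinearMap.sub_apply, LinearMap.add_apply,
    LinearMap.smul_apply, smul_eq_mul, h.est_v, h.est_e, h.ee, h.ev, h.ve]
  ring

theorem sre_A (x y : ℝ) : B (sre B e v w x y) A = 0 := by
  simp [sre, h.est_A, h.vA, h.eA]

theorem sim_A (x y : ℝ) : B (sim B e v x y) A = 0 := by
  simp [sim, h.bA]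

theorem sre_e (x y : ℝ) : B (sre B e v w x y) e = 1 := by
  simp [sre, h.est_e, h.ve, h.ee]

theorem sim_e (x y : ℝ) : B (sim B e v x y) e = 0 := by
  simp [sim, h.be]

end Pos4

/-! ### the orthogonal complement of `W` -/

variable (B e v w) in
/-- `W^⊥`, `W = ⟨e, v, w⟩` -/
def Wp : Submodule ℝ V where
  carrier := {z | B z e = 0 ∧ B z v = 0 ∧ B z w = 0}
  add_mem' := by
    rintro a b ⟨h1, h2, h3⟩ ⟨h4, h5, h6⟩
    simp [h1, h2, h3, h4, h5, h6]
  zero_mem' := by simp
  smul_mem' := by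
    rintro c a ⟨h1, h2, h3⟩
    simp [h1, h2, h3]

theorem mem_Wp {z : V} : z ∈ Wp B e v w ↔ B z e = 0 ∧ B z v = 0 ∧ B z w = 0 := Iff.rfl

include h in
theorem A_mem : A ∈ Wp B e v w := ⟨h.Ae, h.Av, h.Aw⟩

theorem Wp_est {z : V} (hz : z ∈ Wp B e v w) : B z (est B e w) = 0 := by
  obtain ⟨h1, -, h3⟩ := hz
  simp [est, h1, h3]

theorem Wp_bv {z : V} (hz : z ∈ Wp B e v w) (x : ℝ) : B z (bv B e v x) = 0 := by
  obtain ⟨h1, h2, -⟩ := hz
  simp [bv, h1, h2]

theorem Wp_kap {z : V} (hz : z ∈ Wp B e v w) (x : ℝ) : B z (kap B e v w x) = 0 := by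
  have := Wp_bv hz x
  obtain ⟨-, -, h3⟩ := hz
  simp [kap, h3, this]

theorem Wp_sre {z : V} (hz : z ∈ Wp B e v w) (x y : ℝ) : B z (sre B e v w x y) = 0 := by
  have := Wp_est hz
  obtain ⟨h1, h2, -⟩ := hz
  simp [sre, h1, h2, this]

theorem Wp_sim {z : V} (hz : z ∈ Wp B e v w) (x y : ℝ) : B z (sim B e v x y) = 0 := by
  have := Wp_bv hz x
  simp [sim, this]

variable (B e v w) in
/-- the orthogonal projection to `W^⊥` -/
def pr (z : V) : V := z - (B z e) • est B e w - (B z v / B v v) • v - (B z (est B e w)) • e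

include h in
theorem pr_mem (z : V) : pr B e v w z ∈ Wp B e v w := by
  have h1 := h.vv.ne'
  have h2 : B (pr B e v w z) e = 0 := by
    simp [pr, h.est_e, h.ve, h.ee]
  have h3 : B (pr B e v w z) v = 0 := by
    simp [pr, h.est_v, h.ev, h1]
  have h4 : B (pr B e v w z) (est B e w) = 0 := by
    simp [pr, h.est_est, h.symm v (est B e w), h.est_v, h.symm e (est B e w), h.est_e]
  refine ⟨h2, h3, ?_⟩
  have h5 : (B w e) • est B e w + (B w w / (2 * B w e)) • e = w := by
    rw [est, smul_smul, mul_inv_cancel₀ h.we.ne', one_smul]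
    abel
  have h6 : B (pr B e v w z) ((B w e) • est B e w + (B w w / (2 * B w e)) • e) = 0 := by
    rw [map_add, map_smul, map_smul, h4, h2]
    simp
  rwa [h5] at h6

theorem pr_eq {z : V} (hz : z ∈ Wp B e v w) : pr B e v w z = z := by
  have := Wp_est hz
  obtain ⟨h1, h2, -⟩ := hz
  simp [pr, h1, h2, this]

variable (B e v w) in
/-- the projection as a linear map -/
def prL : V →ₗ[ℝ] V where
  toFun := pr B e v w
  map_add' x y := by
    simp only [pr, map_add, LinearMap.add_apply]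
    rw [add_div]
    module
  map_smul' c x := by
    simp only [pr, map_smul, LinearMap.smul_apply, smul_eq_mul, RingHom.id_apply]
    rw [mul_div_assoc]
    module

/-- rational classes -/
structure Rat4 (B : V →ₗ[ℝ] V →ₗ[ℝ] ℝ) (R : AddSubgroup V) (e A v w : V) : Prop where
  q : ∀ (r : ℚ), ∀ x ∈ R, (r : ℝ) • x ∈ R
  B : ∀ x ∈ R, ∀ y ∈ R, IsQ (B x y)
  e : e ∈ R
  A : A ∈ R
  v : v ∈ R
  w : w ∈ R

namespace Rat4

variable {R : AddSubgroup V} (hR : Rat4 B R e A v w)

include hR

theorem smul {s : ℝ} {x : V} (hs : IsQ s) (hx : x ∈ R) : s • x ∈ R := by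
  obtain ⟨r, rfl⟩ := hs
  exact hR.q r x hx

theorem est_mem : est B e w ∈ R := by
  refine hR.smul (hR.B _ hR.w _ hR.e).inv (R.sub_mem hR.w (hR.smul ?_ hR.e))
  exact (hR.B _ hR.w _ hR.w).div ((IsQ.nat 2).mul (hR.B _ hR.w _ hR.e))

theorem pr_mem {z : V} (hz : z ∈ R) : pr B e v w z ∈ R := by
  refine R.sub_mem (R.sub_mem (R.sub_mem hz (hR.smul (hR.B _ hz _ hR.e) hR.est_mem))
    (hR.smul ((hR.B _ hz _ hR.v).div (hR.B _ hR.v _ hR.v)) hR.v))
    (hR.smul (hR.B _ hz _ hR.est_mem) hR.e)

end Rat4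

/-- the rational classes of `W^⊥` span it -/
theorem span_rat {R : AddSubgroup V} (h : Pos4 B e A v w) (hR : Rat4 B R e A v w)
    (hs : Submodule.span ℝ (R : Set V) = ⊤) :
    Submodule.span ℝ ((Wp B e v w).subtype ⁻¹' (R : Set V)) = ⊤ := by
  rw [eq_top_iff]
  rintro ⟨z, hz⟩ -
  -- the projection maps the span of `R` into the span
  have key : ∀ y ∈ Submodule.span ℝ (R : Set V), (⟨pr B e v w y, pr_mem h y⟩ : Wp B e v w) ∈
      Submodule.span ℝ ((Wp B e v w).subtype ⁻¹' (R : Set V)) := by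
    intro y hy
    have hp : ∀ a : V, (⟨pr B e v w a, pr_mem h a⟩ : Wp B e v w) =
        (prL B e v w).codRestrict (Wp B e v w) (fun a => pr_mem h a) a := fun a => rfl
    simp only [hp]
    refine Submodule.span_induction (p := fun y _ =>
      (prL B e v w).codRestrict (Wp B e v w) (fun a => pr_mem h a) y ∈
      Submodule.span ℝ ((Wp B e v w).subtype ⁻¹' (R : Set V))) ?_ ?_ ?_ ?_ hy
    · intro x hx
      refine Submodule.subset_span ?_
      exact hR.pr_mem hx
    · rw [map_zero]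
      exact Submodule.zero_mem _
    · intro x y _ _ h1 h2
      rw [map_add]
      exact Submodule.add_mem _ h1 h2
    · intro c x _ h1
      rw [map_smul]
      exact Submodule.smul_mem _ _ h1
  have h1 := key z (by rw [hs]; trivial)
  have h2 : (⟨pr B e v w z, pr_mem h z⟩ : Wp B e v w) = ⟨z, hz⟩ := Subtype.ext (pr_eq hz)
  rwa [h2] at h1

end form

/-! ### a rational basis whose cone contains `A` in its interior -/

section basis

variable {W : Type*} [AddCommGroup W] [Module ℝ W] [FiniteDimensional ℝ W]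

theorem exists_bas (R : AddSubgroup W) (hRQ : ∀ (r : ℚ), ∀ x ∈ R, (r : ℝ) • x ∈ R)
    (hs : Submodule.span ℝ (R : Set W) = ⊤) {A : W} (hA : A ∈ R) (hA0 : A ≠ 0) (K : Set W)
    (hK : ∀ z : W, ∃ ε > 0, ∀ t : ℝ, |t| < ε → A + t • z ∈ K) :
    ∃ b : Basis (Fin (finrank ℝ W)) ℝ W, (∀ i, b i ∈ R ∧ b i ∈ K) ∧
      A = ∑ i, ((finrank ℝ W : ℝ)⁻¹) • b i := by
  -- a basis in `R` containing `A`
  have hli : LinearIndepOn ℝ id ({A} : Set W) := by
    rw [linearIndepOn_singleton_iff]
    exact hA0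
  have hsub : ({A} : Set W) ⊆ (R : Set W) := by simpa using hA
  obtain ⟨T, hAT, hTR, hRT, hT⟩ : ∃ T : Set W, {A} ⊆ T ∧ T ⊆ (R : Set W) ∧
      (R : Set W) ⊆ Submodule.span ℝ T ∧ LinearIndepOn ℝ id T := by
    obtain ⟨T, h1, h2, h3, h4⟩ := exists_linearIndepOn_id_extension hli hsub
    exact ⟨T, h2, h1, h3, h4⟩
  have hTs : Submodule.span ℝ T = ⊤ := by
    rw [eq_top_iff, ← hs]
    exact Submodule.span_le.2 hRT
  let g : Basis T ℝ W := Basis.mk (v := fun t : T => (t : W)) hT (by
    rw [Subtype.range_coe]; exact hTs.ge)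
  have hg : ∀ t, g t = t := fun t => Basis.mk_apply hT _ t
  have : Fintype T := FiniteDimensional.fintypeBasisIndex g
  have hcard : Fintype.card T = finrank ℝ W := (finrank_eq_card_basis g).symm
  let a : T := ⟨A, hAT rfl⟩
  classical
  -- the directions
  let z : T → W := fun t => if t = a then - ∑ s ∈ Finset.univ.erase a, g s else g t
  have hz : ∀ t, z t ∈ R := by
    intro t
    by_cases ht : t = a
    · simp only [z, if_pos ht]
      refine R.neg_mem (R.sum_mem fun s _ => ?_)
      rw [hg]; exact hTR s.2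
    · simp only [z, if_neg ht]
      rw [hg]; exact hTR t.2
  choose ε hε hεK using fun t => hK (z t)
  obtain ⟨δ, hδ0, hδ⟩ : ∃ δ : ℚ, 0 < δ ∧ ∀ t, (δ : ℝ) < ε t := by
    have hne : (Finset.univ : Finset T).Nonempty := ⟨a, Finset.mem_univ _⟩
    set m := (Finset.univ : Finset T).inf' hne ε with hm
    have hm0 : 0 < m := by
      rw [hm, Finset.lt_inf'_iff]
      intro t _
      exact hε t
    obtain ⟨δ, h1, h2⟩ := exists_rat_btwn hm0
    refine ⟨δ, by exact_mod_cast h1, fun t => ?_⟩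
    exact h2.trans_le (Finset.inf'_le ε (Finset.mem_univ t))
  have hδr : (0 : ℝ) < δ := by exact_mod_cast hδ0
  let c : T → W := fun t => A + (δ : ℝ) • z t
  have hcR : ∀ t, c t ∈ R := fun t => R.add_mem hA (hRQ δ _ (hz t))
  have hcK : ∀ t, c t ∈ K := fun t => hεK t δ (by rw [abs_of_pos hδr]; exact hδ t)
  have hzs : ∑ t, z t = 0 := by
    rw [← Finset.add_sum_erase Finset.univ z (Finset.mem_univ a)]
    have h1 : z a = - ∑ s ∈ Finset.univ.erase a, g s := if_pos rfl
    have h2 : ∑ s ∈ Finset.univ.erase a, z s = ∑ s ∈ Finset.univ.erase a, g s :=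
      Finset.sum_congr rfl fun s hs => if_neg (Finset.ne_of_mem_erase hs)
    rw [h1, h2, neg_add_cancel]
  have hcs : ∑ t, c t = (finrank ℝ W : ℝ) • A := by
    simp only [c]
    rw [Finset.sum_add_distrib, ← Finset.smul_sum, hzs, smul_zero, add_zero, Finset.sum_const,
      Finset.card_univ, hcard, Nat.cast_smul_eq_nsmul]
  have hrank : 0 < finrank ℝ W := by
    rw [← hcard]
    exact Fintype.card_pos_iff.2 ⟨a⟩
  have hr : (finrank ℝ W : ℝ) ≠ 0 := by exact_mod_cast hrank.ne'
  have hAc : A = ∑ t, ((finrank ℝ W : ℝ)⁻¹) • c t := by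
    rw [← Finset.smul_sum, hcs, smul_smul, inv_mul_cancel₀ hr, one_smul]
  -- `c` spans
  have hspan : ⊤ ≤ Submodule.span ℝ (Set.range c) := by
    have hAm : A ∈ Submodule.span ℝ (Set.range c) := by
      rw [hAc]
      exact Submodule.sum_mem _ fun t _ => Submodule.smul_mem _ _
        (Submodule.subset_span ⟨t, rfl⟩)
    rw [← g.span_eq, Submodule.span_le]
    rintro _ ⟨t, rfl⟩
    by_cases ht : t = a
    · rw [ht, hg]
      exact hAm
    · have h1 : g t = (δ : ℝ)⁻¹ • (c t - A) := by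
        simp only [c, z, if_neg ht]
        rw [add_sub_cancel_left, smul_smul, inv_mul_cancel₀ hδr.ne', one_smul]
      rw [h1]
      exact Submodule.smul_mem _ _ (Submodule.sub_mem _ (Submodule.subset_span ⟨t, rfl⟩) hAm)
  let e : T ≃ Fin (finrank ℝ W) := Fintype.equivFinOfCardEq hcard
  let b0 : Basis T ℝ W := basisOfTopLeSpanOfCardEqFinrank c hspan hcard
  have hb0 : ∀ t, b0 t = c t := fun t => by simp [b0]
  refine ⟨b0.reindex e, fun i => ?_, ?_⟩
  · rw [Basis.reindex_apply, hb0]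
    exact ⟨hcR _, hcK _⟩
  · conv_lhs => rw [hAc]
    rw [← Equiv.sum_comp e.symm]
    refine Finset.sum_congr rfl fun i _ => ?_
    rw [Basis.reindex_apply, hb0]

end basis

end

end Crest.Agent.R281.Sta1_684
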