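import Crest.Agent.R281.Sta2_684

/-!
# R281 (S0424), START (D14), part 3 (helper684): a rational basis of Kaehler classes of `W^⊥`

* `exists_bound`, `pos_near` : `om₀ + t y` is positive for small `t`
* `Bq B hB`    : the form on `HdR C`
* `RatH C`     : finite dimension, rational classes (234)
* `QR B`       : rationality of `B`, representatives of type (1,1)
* `exists_kbas`: integral Kaehler classes of `H.J 0` which are a basis of `W^⊥`, with
                 `[om 0] = A = ∑ lam_i b_i`, `lam_i > 0`; `exists_kbasF` : for `AtTau F A H τ`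
-/

set_option autoImplicit false
set_option linter.unusedSectionVars false
set_option maxSynthPendingDepth 3

open Set Filter Topology Module
open scoped ContDiff

namespace Crest.Agent.R281.Sta3_684

open Crest.Agent.R281.HkR_835 Crest.Agent.R281.Cdr_234 Crest.Agent.R281.Sta1_684
open Crest.Agent.R281.Sta2_684 Crest.Agent.R281.W3a_698 Crest.Agent.R281.Alg_998
open Crest.Agent.R281.Ti_846 (Ex)
open Crest.Agent.R281.NefO_476 (ofHk Pos)
open Crest.Agent.R281.Nef_252 (T11 KCls)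

noncomputable section

section coer

variable {V : Type*} [NormedAddCommGroup V] [NormedSpace ℝ V] [FiniteDimensional ℝ V]

/-- a positive definite form on a finite dimensional space is coercive -/
theorem exists_coer (g : V →L[ℝ] V →L[ℝ] ℝ) (hg : ∀ v, v ≠ 0 → 0 < g v v) :
    ∃ c : ℝ, 0 < c ∧ ∀ v, c * ‖v‖ ^ 2 ≤ g v v := by
  have : ProperSpace V := FiniteDimensional.proper ℝ V
  have hcomp : IsCompact (Metric.sphere (0 : V) 1) := isCompact_sphere 0 1
  have hcont : Continuous fun v : V => g v v := by fun_prop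
  rcases (Metric.sphere (0 : V) 1).eq_empty_or_nonempty with he | hne
  · refine ⟨1, one_pos, fun v => ?_⟩
    have hv : v = 0 := by
      by_contra hv
      have : (‖v‖⁻¹ • v) ∈ Metric.sphere (0 : V) 1 := by
        rw [mem_sphere_zero_iff_norm, norm_smul, norm_inv, norm_norm,
          inv_mul_cancel₀ (norm_ne_zero_iff.2 hv)]
      rw [he] at this
      exact this
    rw [hv]; simp
  · obtain ⟨v0, hv0, hmin⟩ := hcomp.exists_isMinOn hne hcont.continuousOn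
    have hv0' : v0 ≠ 0 := by
      rintro rfl
      simp at hv0
    refine ⟨g v0 v0, hg v0 hv0', fun v => ?_⟩
    by_cases hv : v = 0
    · rw [hv]; simp
    · have hn : 0 < ‖v‖ := norm_pos_iff.2 hv
      have h1 : (‖v‖⁻¹ • v) ∈ Metric.sphere (0 : V) 1 := by
        rw [mem_sphere_zero_iff_norm, norm_smul, norm_inv, norm_norm,
          inv_mul_cancel₀ hn.ne']
      have h2 := isMinOn_iff.1 hmin _ h1
      have h3 : g (‖v‖⁻¹ • v) (‖v‖⁻¹ • v) = (‖v‖ ^ 2)⁻¹ * g v v := by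
        simp only [map_smul, smul_apply, smul_eq_mul]
        field_simp
      simp only [h3] at h2
      have h4 := mul_le_mul_of_nonneg_right h2 (sq_nonneg ‖v‖)
      rwa [mul_comm _ (g v v), mul_assoc, inv_mul_cancel₀ (by positivity), mul_one] at h4

end coer

variable {V X : Type} [NormedAddCommGroup V] [NormedSpace ℝ V] [FiniteDimensional ℝ V]
  [TopologicalSpace X] {C : RCh V X}

/-- the bound of a form by the metric, independent of the chart -/
theorem bound_tr (H : HkT C) (y : F2 C) {M : ℝ} {i j : C.ι} {z : V} (hz : z ∈ C.ov i j)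
    (h : ∀ u, |y.w j (C.t i j z) u (H.J 0 j (C.t i j z) u)| ≤
      M * H.g j (C.t i j z) u u) (u : V) :
    |y.w i z u (H.J 0 i z u)| ≤ M * H.g i z u u := by
  rw [y.tr i j z hz, H.J_tr 0 hz, H.g_tr hz]
  exact h _

theorem exists_bound [CompactSpace X] (H : HkT C) (y : F2 C) : ∃ M : ℝ, 0 < M ∧
    ∀ i, ∀ z ∈ (C.e i).target, ∀ u, |y.w i z u (H.J 0 i z u)| ≤ M * H.g i z u u := by
  have key : ∀ x : X, ∃ (M : ℝ) (i : C.ι) (U : Set X), 0 < M ∧ U ∈ 𝓝 x ∧ U ⊆ (C.e i).source ∧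
      ∀ p ∈ U, ∀ u, |y.w i (C.e i p) u (H.J 0 i (C.e i p) u)| ≤ M * H.g i (C.e i p) u u := by
    intro x
    obtain ⟨i, hi⟩ := C.cover x
    have hz := (C.e i).map_source hi
    have hnt := (C.e i).open_target.mem_nhds hz
    obtain ⟨c, hc, hg⟩ := exists_coer (H.g i (C.e i x)) (H.g_pos i _ hz)
    have c1 : ContinuousAt (H.g i) (C.e i x) := (H.g_sm i).continuousOn.continuousAt hnt
    have c2 : ContinuousAt (y.w i) (C.e i x) := (y.sm i).continuousOn.continuousAt hnt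
    have c3 : ContinuousAt (H.J 0 i) (C.e i x) := (H.J_sm 0 i).continuousOn.continuousAt hnt
    have e1 : ∀ᶠ z in 𝓝 (C.e i x), ‖H.g i z - H.g i (C.e i x)‖ < c / 2 := by
      have := Metric.tendsto_nhds.1 c1 (c / 2) (by positivity)
      simpa [dist_eq_norm] using this
    have e2 : ∀ᶠ z in 𝓝 (C.e i x), ‖y.w i z‖ < ‖y.w i (C.e i x)‖ + 1 :=
      c2.norm.eventually_lt continuousAt_const (by simp)
    have e3 : ∀ᶠ z in 𝓝 (C.e i x), ‖H.J 0 i z‖ < ‖H.J 0 i (C.e i x)‖ + 1 :=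
      c3.norm.eventually_lt continuousAt_const (by simp)
    set a := ‖y.w i (C.e i x)‖ + 1 with ha
    set b := ‖H.J 0 i (C.e i x)‖ + 1 with hb
    have ha0 : 0 < a := by positivity
    have hb0 : 0 < b := by positivity
    have ev := (e1.and e2).and e3
    have hpre : ∀ᶠ p in 𝓝 x, (‖H.g i (C.e i p) - H.g i (C.e i x)‖ < c / 2 ∧
        ‖y.w i (C.e i p)‖ < a) ∧ ‖H.J 0 i (C.e i p)‖ < b :=
      ((C.e i).continuousAt hi).eventually ev
    refine ⟨a * b * (2 / c), i, {p | p ∈ (C.e i).source ∧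
      ((‖H.g i (C.e i p) - H.g i (C.e i x)‖ < c / 2 ∧ ‖y.w i (C.e i p)‖ < a) ∧
        ‖H.J 0 i (C.e i p)‖ < b)}, by positivity,
      Filter.inter_mem ((C.e i).open_source.mem_nhds hi) hpre, fun p hp => hp.1, ?_⟩
    rintro p ⟨hp, ⟨h1, h2⟩, h3⟩ u
    have g1 : c / 2 * ‖u‖ ^ 2 ≤ H.g i (C.e i p) u u := by
      have h4 := hg u
      have h5 : |(H.g i (C.e i p) - H.g i (C.e i x)) u u| ≤ c / 2 * ‖u‖ ^ 2 := by
        have := (H.g i (C.e i p) - H.g i (C.e i x)).le_opNorm₂ u u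
        rw [Real.norm_eq_abs] at this
        refine this.trans ?_
        rw [mul_assoc, ← pow_two]
        exact mul_le_mul_of_nonneg_right h1.le (sq_nonneg _)
      have h6 := (abs_le.1 h5).1
      simp only [sub_apply] at h6
      linarith
    have g2 : |y.w i (C.e i p) u (H.J 0 i (C.e i p) u)| ≤ a * b * ‖u‖ ^ 2 := by
      have h4 := (y.w i (C.e i p)).le_opNorm₂ u (H.J 0 i (C.e i p) u)
      rw [Real.norm_eq_abs] at h4
      have h5 := (H.J 0 i (C.e i p)).le_opNorm u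
      calc _ ≤ ‖y.w i (C.e i p)‖ * ‖u‖ * ‖H.J 0 i (C.e i p) u‖ := h4
        _ ≤ a * ‖u‖ * (b * ‖u‖) := by
            refine mul_le_mul (mul_le_mul_of_nonneg_right h2.le (norm_nonneg _)) ?_
              (norm_nonneg _) (by positivity)
            exact h5.trans (mul_le_mul_of_nonneg_right h3.le (norm_nonneg _))
        _ = a * b * ‖u‖ ^ 2 := by ring
    refine g2.trans ?_
    have g3 : a * b * ‖u‖ ^ 2 = a * b * (2 / c) * (c / 2 * ‖u‖ ^ 2) := by
      field_simp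
    rw [g3]
    exact mul_le_mul_of_nonneg_left g1 (by positivity)
  choose M i U hM hU hUs hb using key
  obtain ⟨t, -, ht⟩ := isCompact_univ.elim_nhds_subcover U fun x _ => hU x
  refine ⟨∑ x ∈ t, M x + 1, ?_, fun j z hz u => ?_⟩
  · have : 0 ≤ ∑ x ∈ t, M x := Finset.sum_nonneg fun x _ => (hM x).le
    linarith
  · obtain ⟨x, hx, hxU⟩ := mem_iUnion₂.1 (ht (mem_univ ((C.e j).symm z)))
    have hov : z ∈ C.ov j (i x) := ⟨hz, hUs x hxU⟩
    have h1 := bound_tr H y hov (M := M x) (fun u => hb x _ hxU u) u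
    have hg0 : 0 ≤ H.g j z u u := by
      by_cases hu : u = 0
      · rw [hu]; simp
      · exact (H.g_pos j z hz u hu).le
    refine h1.trans (mul_le_mul_of_nonneg_right ?_ hg0)
    have := Finset.single_le_sum (f := M) (fun x _ => (hM x).le) hx
    linarith

/-- `om₀ + t y` is positive for small `t` -/
theorem pos_near [CompactSpace X] (H : HkT C) (y : F2 C) : ∃ ε : ℝ, 0 < ε ∧
    ∀ t : ℝ, |t| < ε → Pos (ofHk H 0) (H.om 0 + t • y) := by
  obtain ⟨M, hM, h⟩ := exists_bound H y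
  refine ⟨M⁻¹, inv_pos.2 hM, fun t ht i z hz u hu => ?_⟩
  have h1 := H.g_pos i z hz u hu
  have h2 : (H.om 0).w i z u (H.J 0 i z u) = H.g i z u u := by
    rw [H.om_eq 0 i z hz, H.g_J 0 hz]
  have h3 := h i z hz u
  have h4 : (H.om 0 + t • y).w i z u (H.J 0 i z u) =
      H.g i z u u + t * y.w i z u (H.J 0 i z u) := by
    rw [F2.add_w, F2.smul_w]
    simp only [add_apply, smul_apply, smul_eq_mul]
    rw [h2]
  show 0 < (H.om 0 + t • y).w i z u (H.J 0 i z u)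
  rw [h4]
  have h5 : |t * y.w i z u (H.J 0 i z u)| < H.g i z u u := by
    rw [abs_mul]
    calc |t| * |y.w i z u (H.J 0 i z u)| ≤ |t| * (M * H.g i z u u) :=
          mul_le_mul_of_nonneg_left h3 (abs_nonneg t)
      _ = (|t| * M) * H.g i z u u := by ring
      _ < 1 * H.g i z u u := by
          refine mul_lt_mul_of_pos_right ?_ h1
          have := mul_lt_mul_of_pos_right ht hM
          rwa [inv_mul_cancel₀ hM.ne'] at this
      _ = _ := one_mul _
  have h6 := neg_lt_of_abs_lt h5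
  linarith

/-! ### classes -/

/-- the class of a closed 2-form -/
abbrev cl : F2 C →ₗ[ℝ] HdR C := (exS C).mkQ

theorem cl_eq {w w' : F2 C} : cl w = cl w' ↔ Ex (w - w') := by
  rw [← sub_eq_zero, ← map_sub, Submodule.mkQ_apply, Submodule.Quotient.mk_eq_zero]
  rfl

theorem cl_surj (x : HdR C) : ∃ w : F2 C, cl w = x := Submodule.mkQ_surjective _ x

variable {B : F2 C →ₗ[ℝ] F2 C →ₗ[ℝ] ℝ}

/-- the form on classes -/
def Bq (hB : QS B) : HdR C →ₗ[ℝ] HdR C →ₗ[ℝ] ℝ :=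
  (exS C).liftQ ((LinearMap.flip ((exS C).liftQ B.flip (fun x hx => by
    rw [LinearMap.mem_ker]
    ext y
    rw [LinearMap.flip_apply, hB.symm]
    exact hB.ex x y hx)))) (fun x hx => by
    rw [LinearMap.mem_ker]
    ext y
    exact hB.ex x y hx)

@[simp] theorem Bq_cl (hB : QS B) (x y : F2 C) : Bq hB (cl x) (cl y) = B x y := rfl

theorem Bq_symm (hB : QS B) (x y : HdR C) : Bq hB x y = Bq hB y x := by
  obtain ⟨a, rfl⟩ := cl_surj x
  obtain ⟨b, rfl⟩ := cl_surj y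
  exact hB.symm a b

theorem pos4_cl (hB : QS B) {e A v w : F2 C} (h : Pos4 B e A v w) :
    Pos4 (Bq hB) (cl e) (cl A) (cl v) (cl w) :=
  ⟨Bq_symm hB, h.ee, h.Ae, h.ve, h.we, h.Av, h.Aw, h.vw, h.AA, h.vv, h.ww⟩

variable (C) in
/-- the rational classes (234) -/
structure RatH : Prop where
  fin : FiniteDimensional ℝ (HdR C)
  ex : ∀ {x y : F2 C}, Ex (x - y) → RatF x → RatF y
  zero : RatF (0 : F2 C)
  add : ∀ {x y : F2 C}, RatF x → RatF y → RatF (x + y)
  smul : ∀ (q : ℚ) {x : F2 C}, RatF x → RatF ((q : ℝ) • x)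
  span : Submodule.span ℝ (cl '' {x : F2 C | RatF x}) = ⊤
  int : ∀ {x : F2 C}, RatF x → ∃ m : ℕ, 0 < m ∧ IntF ((m : ℝ) • x)

/-- what is used of the Fujiki form, with rationality and (1,1)-representatives -/
structure QR (B : F2 C →ₗ[ℝ] F2 C →ₗ[ℝ] ℝ) : Prop extends QS B where
  rat : ∀ x y, RatF x → RatF y → IsQ (B x y)
  t11 : ∀ H : HkT C, 0 < B (H.om 0) (H.om 0) → ∀ x : F2 C, B x (H.om 1) = 0 →
    B x (H.om 2) = 0 → ∃ y, Cl y x ∧ T11 (ofHk H 0) y

/-- the rational classes as a subgroup -/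
def RatS (hR : RatH C) : AddSubgroup (HdR C) where
  carrier := cl '' {x : F2 C | RatF x}
  add_mem' := by
    rintro _ _ ⟨x, hx, rfl⟩ ⟨y, hy, rfl⟩
    exact ⟨x + y, hR.add hx hy, map_add _ _ _⟩
  zero_mem' := ⟨0, hR.zero, map_zero _⟩
  neg_mem' := by
    rintro _ ⟨x, hx, rfl⟩
    refine ⟨((-1 : ℚ) : ℝ) • x, hR.smul _ hx, ?_⟩
    rw [map_smul]
    simp

theorem mem_RatS (hR : RatH C) {x : HdR C} : x ∈ RatS hR ↔ ∃ w : F2 C, RatF w ∧ cl w = x :=
  Iff.rfl

theorem rat4_cl (hB : QR B) (hR : RatH C) {e A v w : F2 C} (he : RatF e) (hA : RatF A)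
    (hv : RatF v) (hw : RatF w) :
    Rat4 (Bq hB.toQS) (RatS hR) (cl e) (cl A) (cl v) (cl w) where
  q := by
    rintro r _ ⟨x, hx, rfl⟩
    exact ⟨(r : ℝ) • x, hR.smul r hx, map_smul _ _ _⟩
  B := by
    rintro _ ⟨x, hx, rfl⟩ _ ⟨y, hy, rfl⟩
    exact hB.rat x y hx hy
  e := ⟨e, he, rfl⟩
  A := ⟨A, hA, rfl⟩
  v := ⟨v, hv, rfl⟩
  w := ⟨w, hw, rfl⟩

/-- classes orthogonal to `om 1`, `om 2` near `om 0` are Kaehler classes of `J 0` -/
theorem kcls_near [CompactSpace X] (hB : QR B) {H : HkT C} {A k : F2 C} (hA : 0 < B A A)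
    (h0 : Cl (H.om 0) A) (b1 : B k (H.om 1) = 0) (b2 : B k (H.om 2) = 0) :
    ∃ ε > 0, ∀ t : ℝ, |t| < ε → KCls (ofHk H 0) (A + t • k) := by
  obtain ⟨k', hk1, hk2⟩ := hB.t11 H (by rw [hB.toQS.congr h0 h0]; exact hA) k b1 b2
  obtain ⟨ε, hε, h⟩ := pos_near H k'
  exact ⟨ε, hε, fun t ht => ⟨H.om 0 + t • k', h0.add (hk1.smul t),
    (t11_om0 H 0).add (hk2.smul t), h t ht⟩⟩

/-- **a basis of `W^⊥` of integral Kaehler classes of `H.J 0`, with `A` in the open cone**;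
`hA` is one sign, `A' = ± A` the class of `om 0` -/
theorem exists_kbas [CompactSpace X] (hB : QR B) (hR : RatH C) {H : HkT C} {e A v w : F2 C}
    (h : Pos4 B e A v w) (he : RatF e) (hA : RatF A) (hv : RatF v) (hw : RatF w)
    (h0 : Cl (H.om 0) A) (b1 : ∀ k ∈ Wp B e v w, B k (H.om 1) = 0)
    (b2 : ∀ k ∈ Wp B e v w, B k (H.om 2) = 0) :
    ∃ (ρ : ℕ) (b : Basis (Fin ρ) ℝ (Wp (Bq hB.toQS) (cl e) (cl v) (cl w))) (k : Fin ρ → F2 C)
      (lam : Fin ρ → ℝ), (∀ i, IntF (k i) ∧ KCls (ofHk H 0) (k i) ∧ cl (k i) = b i) ∧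
      (∀ i, 0 < lam i) ∧ Cl (∑ i, lam i • k i) A := by
  have := hR.fin
  have hP := pos4_cl hB.toQS h
  have hQ := rat4_cl hB hR he hA hv hw
  set W := Wp (Bq hB.toQS) (cl e) (cl v) (cl w) with hW
  have hs := span_rat hP hQ hR.span
  let R' : AddSubgroup W := (RatS hR).comap W.subtype.toAddMonoidHom
  let A' : W := ⟨cl A, A_mem hP⟩
  have hA0 : A' ≠ 0 := by
    intro h0
    have h1 : cl A = 0 := congrArg Subtype.val h0
    have h2 : B A A = 0 := by
      rw [← Bq_cl hB.toQS, h1, map_zero]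
    exact h.AA.ne' h2
  let K : Set W := {ζ | ∃ k : F2 C, cl k = ζ ∧ KCls (ofHk H 0) k}
  have hK : ∀ ζ : W, ∃ ε > 0, ∀ t : ℝ, |t| < ε → A' + t • ζ ∈ K := by
    rintro ⟨ζ, hζ⟩
    obtain ⟨k, rfl⟩ := cl_surj ζ
    obtain ⟨ε, hε, h1⟩ := kcls_near hB h.AA h0 (b1 k hζ) (b2 k hζ)
    refine ⟨ε, hε, fun t ht => ⟨A + t • k, ?_, h1 t ht⟩⟩
    rw [map_add, map_smul]
    rfl
  obtain ⟨b0, hb0, hsum⟩ := exists_bas R' (fun r x hx => hQ.q r _ hx) hs hQ.A hA0 K hK
  -- representatives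
  have hrep : ∀ i, ∃ k : F2 C, RatF k ∧ KCls (ofHk H 0) k ∧ cl k = b0 i := by
    intro i
    obtain ⟨⟨k1, hk1, hk2⟩, ⟨k2, hk3, hk4⟩⟩ := hb0 i
    refine ⟨k1, hk1, hk4.congr ?_, hk2⟩
    rw [← cl_eq, hk3]
    exact hk2.symm
  choose k hk1 hk2 hk3 using hrep
  choose m hm hmi using fun i => hR.int (hk1 i)
  have hm' : ∀ i, (0 : ℝ) < m i := fun i => by exact_mod_cast hm i
  let un : Fin (finrank ℝ W) → ℝˣ := fun i => Units.mk0 (m i : ℝ) (hm' i).ne'
  refine ⟨finrank ℝ W, b0.unitsSMul un, fun i => (m i : ℝ) • k i,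
    fun i => (finrank ℝ W : ℝ)⁻¹ * (m i : ℝ)⁻¹, fun i => ⟨hmi i, (hk2 i).smul (hm' i), ?_⟩,
    fun i => ?_, ?_⟩
  · rw [map_smul, hk3, Basis.unitsSMul_apply]
    rfl
  · have hpos : 0 < finrank ℝ W := lt_of_le_of_lt (Nat.zero_le _) i.2
    have : (0 : ℝ) < finrank ℝ W := by exact_mod_cast hpos
    have := hm' i
    positivity
  · show Ex _
    rw [← cl_eq, map_sum]
    have h1 : cl A = ((A' : W) : HdR C) := rfl
    rw [h1, hsum, Submodule.coe_sum]
    refine Finset.sum_congr rfl fun i _ => ?_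
    rw [map_smul, map_smul, smul_smul, mul_assoc, inv_mul_cancel₀ (hm' i).ne', mul_one, hk3]
    rfl

/-! ### the version for the frames of 998 -/

section frm

variable (F : Frm C B)

/-- `w = e* + e` : `W^⊥ = ⟨e, v, w⟩^⊥` -/
theorem pos4_frm (hB : QS B) {A : F2 C} (hA : 0 < B A A) (h1 : B A F.e = 0) (h2 : B A F.v = 0)
    (h3 : B A F.es = 0) : Pos4 B F.e A F.v (F.es + F.e) := by
  have e1 : B F.v F.es = 0 := by rw [hB.symm]; exact F.es_v
  have e2 : B F.e F.es = 1 := by rw [hB.symm]; exact F.es_e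
  have e3 : B F.v F.e = 0 := by rw [hB.symm]; exact F.e_v
  refine ⟨hB.symm, F.e_e, h1, e3, ?_, h2, ?_, ?_, hA, ?_, ?_⟩
  · rw [map_add, LinearMap.add_apply, F.es_e, F.e_e]; norm_num
  · rw [map_add, h3, h1, add_zero]
  · rw [map_add, e1, e3, add_zero]
  · rw [F.v_v]; exact F.hN
  · rw [map_add, map_add, LinearMap.add_apply, LinearMap.add_apply, F.es_es, F.e_e, e2, F.es_e]
    norm_num

/-- `W^⊥` for a frame -/
def WpF (hB : QS B) : Submodule ℝ (HdR C) :=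
  Wp (Bq hB) (cl F.e) (cl F.v) (cl (F.es + F.e))

theorem mem_WpF (hB : QS B) {k : F2 C} : cl k ∈ WpF F hB ↔
    B k F.e = 0 ∧ B k F.v = 0 ∧ B k F.es = 0 := by
  show (B k F.e = 0 ∧ B k F.v = 0 ∧ B k (F.es + F.e) = 0) ↔ _
  constructor
  · rintro ⟨h1, h2, h3⟩
    rw [map_add, h1, add_zero] at h3
    exact ⟨h1, h2, h3⟩
  · rintro ⟨h1, h2, h3⟩
    refine ⟨h1, h2, ?_⟩
    rw [map_add, h1, h3, add_zero]

theorem b_sre {k : F2 C} (h1 : B k F.e = 0) (h2 : B k F.v = 0) (h3 : B k F.es = 0) (τ : ℂ) :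
    B k (F.sre τ) = 0 := by
  simp [Frm.sre, h1, h2, h3]

theorem b_sim {k : F2 C} (h1 : B k F.e = 0) (h2 : B k F.v = 0) (τ : ℂ) :
    B k (F.sim τ) = 0 := by
  simp [Frm.sim, h1, h2]

/-- **START, part (B1)** for a structure with `AtTau` -/
theorem exists_kbasF [CompactSpace X] (hB : QR B) (hR : RatH C) {A : F2 C} (hA : RatF A)
    (hAA : 0 < B A A) (h1 : B A F.e = 0) (h2 : B A F.v = 0) (h3 : B A F.es = 0) {H : HkT C} {τ : ℂ}
    (hH : AtTau F A H τ) :
    ∃ (ρ : ℕ) (b : Basis (Fin ρ) ℝ (WpF F hB.toQS)) (k : Fin ρ → F2 C) (lam : Fin ρ → ℝ),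
      (∀ i, IntF (k i) ∧ KCls (ofHk H 0) (k i) ∧ cl (k i) = b i) ∧
      (∀ i, 0 < lam i) ∧ Cl (∑ i, lam i • k i) A := by
  obtain ⟨z, hz, c1, c2⟩ := hH.om12
  have hk : ∀ k ∈ Wp B F.e F.v (F.es + F.e), B k F.e = 0 ∧ B k F.v = 0 ∧ B k F.es = 0 :=
    fun k hk => (mem_WpF F hB.toQS).1 hk
  refine exists_kbas hB hR (pos4_frm F hB.toQS hAA h1 h2 h3) F.int_e.rat hA F.rat_v
    (Cls.add F.rat_es F.int_e.rat) hH.om0 (fun k hk' => ?_) fun k hk' => ?_
  · obtain ⟨a1, a2, a3⟩ := hk k hk'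
    rw [hB.toQS.congr (Cl.refl k) c1, map_sub, map_smul, map_smul, b_sre F a1 a2 a3,
      b_sim F a1 a2]
    simp
  · obtain ⟨a1, a2, a3⟩ := hk k hk'
    rw [hB.toQS.congr (Cl.refl k) c2, map_add, map_smul, map_smul, b_sre F a1 a2 a3,
      b_sim F a1 a2]
    simp

end frm

end

end Crest.Agent.R281.Sta3_684
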