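import Crest.Agent.R281.Sta4_684
import Crest.Agent.R281.RkD_902
import Crest.Agent.R281.Pjx1_648
import Crest.Agent.R281.Cdr10_234

/-!
# R281 (S0424), START (D14), part 5 (helper684): the hypotheses of Sta3, Sta4 from the context

* `ratH_of_span` : `RatH C` from a finite family of rational classes spanning the classes
* `ratH_of_hbas` : `RatH C` from 234's basis
* `qs_of_ctx`, `qr_of_ctx`, `ratH_of_ctx` : from 902's `Ctx`
* `exists_kbasC` : the basis of integral Kaehler classes in 902's context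
-/

set_option autoImplicit false
set_option linter.unusedSectionVars false
set_option maxSynthPendingDepth 3

open Set Filter Topology Module
open scoped ContDiff

namespace Crest.Agent.R281.Sta5_684

open Crest.Agent.R275.Geo Crest.Agent.R275.Core144 Crest.Agent.R275.GC293
open Crest.Agent.R275.EDR890
open Crest.Agent.R281.HkR_835 Crest.Agent.R281.Cdr_234 Crest.Agent.R281.Sta1_684
open Crest.Agent.R281.Sta2_684 Crest.Agent.R281.Sta3_684 Crest.Agent.R281.Sta4_684
open Crest.Agent.R281.W3a_698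
open Crest.Agent.R281.Alg_998 Crest.Agent.R281.Dif_268 Crest.Agent.R260.ACM_580
open Crest.Agent.R281.Ti_846 (Ex)
open Crest.Agent.R281.NefO_476 (ofHk Pos)
open Crest.Agent.R281.Nef_252 (T11 KCls)
open Crest.Agent.R281.RkD_902 (Ctx)

noncomputable section

variable {V X : Type} [NormedAddCommGroup V] [NormedSpace ℝ V] [FiniteDimensional ℝ V]
  [TopologicalSpace X] {C : RCh V X}

theorem ratH_of_span [CompactSpace X] [T2Space X]
    (h : ∃ (m : ℕ) (b : Fin m → F2 C), (∀ j, RatF (b j)) ∧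
      ∀ x : F2 C, ∃ a : Fin m → ℝ, Cl x (∑ j, a j • b j)) : RatH C := by
  obtain ⟨m, b, hb, hs⟩ := h
  have key : Submodule.span ℝ (Set.range fun j => cl (b j)) = (⊤ : Submodule ℝ (HdR C)) := by
    rw [eq_top_iff]
    rintro x -
    obtain ⟨w, rfl⟩ := cl_surj x
    obtain ⟨a, ha⟩ := hs w
    have h1 : cl w = ∑ j, a j • cl (b j) := by
      rw [cl_eq.2 ha, map_sum]
      exact Finset.sum_congr rfl fun j _ => map_smul _ _ _
    rw [h1]
    exact Submodule.sum_mem _ fun j _ => Submodule.smul_mem _ _ (Submodule.subset_span ⟨j, rfl⟩)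
  refine ⟨⟨?_⟩, fun {x y} hxy hx => Cls.of_sub_ex hx ?_, Cls.zero, fun hx hy => Cls.add hx hy,
    fun q x hx => hx.smul q, ?_, fun hx => Pjx_648.RatF.exists_int hx⟩
  · rw [← key]
    exact Submodule.fg_span (Set.finite_range _)
  · have := Ex.neg hxy
    rwa [neg_sub] at this
  · rw [eq_top_iff, ← key]
    refine Submodule.span_mono ?_
    rintro _ ⟨j, rfl⟩
    exact ⟨b j, hb j, rfl⟩

theorem ratH_of_hbas [CompactSpace X] [T2Space X] (b : HBas C) : RatH C :=
  ratH_of_span ⟨b.N, b.b, fun k => (b.int k).rat, fun w => ⟨b.co w, b.ex_co w⟩⟩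

section ctx

variable {n : ℕ} {X : Type} [TopologicalSpace X] [CompactSpace X] [T2Space X]
  {C : RCh (Cn (2 * n)) X} {Q : F2 C →ₗ[ℝ] F2 C →ₗ[ℝ] ℝ}

omit [T2Space X] in
theorem qs_of_ctx (h : Ctx n C Q) : QS Q := ⟨h.symm, h.ex, h.eq⟩

omit [T2Space X] in
theorem qr_of_ctx (h : Ctx n C Q) : QR Q where
  toQS := qs_of_ctx h
  rat x y hx hy := h.rat x y hx hy
  t11 := h.t11

theorem ratH_of_ctx (h : Ctx n C Q) : RatH C := by
  obtain ⟨m, b, h1, h2⟩ := h.span
  exact ratH_of_span ⟨m, b, h1, fun x => (h2 x).exists⟩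

/-- **a basis of `W^⊥` by integral Kaehler classes**, in the context of 902 -/
theorem exists_kbasC (h : Ctx n C Q) (F : Frm C Q) {A : F2 C} (hA : IntF A) (hAA : 0 < Q A A)
    (h1 : Q A F.e = 0) (h2 : Q A F.v = 0) (h3 : Q A F.es = 0) {H : HkT C} {τ : ℂ}
    (hH : AtTau F A H τ) :
    ∃ (ρ : ℕ) (b : Basis (Fin ρ) ℝ (WpF F (qs_of_ctx h))) (k : Fin ρ → F2 C) (a : Fin ρ → ℕ)
      (c : ℕ), 0 < ρ ∧ (∀ i, IntF (k i) ∧ KCls (ofHk H 0) (k i) ∧ cl (k i) = b i) ∧
      (∀ i, 0 < a i) ∧ 0 < c ∧ Cl (∑ i, (a i : ℝ) • k i) ((c : ℝ) • A) :=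
  exists_kbasNF (qr_of_ctx h) (ratH_of_ctx h) F hA.rat hAA h1 h2 h3 hH

end ctx

end

end Crest.Agent.R281.Sta5_684
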