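import Crest.Agent.R281.Dif1_268
import Crest.Agent.R281.Per1_368
import Crest.Agent.R281.F2Mod_358

/-!
# R281, T5-ASM (helper808), part 1: pull back of closed 2-forms to an open set of a vector space

* `SmIn C S Θ`   : `Θ : E → X` is smooth on the open set `S` (read in the real charts of `X`)
* `SmIn.pl w`    : the pull back `E → Bil E` of `w : F2 C`, `SmIn.pl1 η` of `η : F1 C`
* `pl_apply`     : its value in any chart
* `pl_smooth, pl_alt, pl_closed, cl` ; `pl_add, pl_smul, pl_shift, pl_d`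
-/

set_option autoImplicit false

open Set Filter Topology
open scoped ContDiff

namespace Crest.Agent.R281.T5A_808

open Crest.Agent.R281.HkR_835
open Crest.Agent.R281.Ti_846 (F1 IsD Ex)
open Crest.Agent.R281.Dif_268

noncomputable section

variable {E V X : Type} [NormedAddCommGroup E] [NormedSpace ℝ E] [NormedAddCommGroup V]
  [NormedSpace ℝ V] [TopologicalSpace X]

/-- an open set of a vector space as a space with one real chart -/
def oC (S : TopologicalSpace.Opens E) (hS : Nonempty S) : RCh E S where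
  ι := Unit
  e _ := S.openPartialHomeomorphSubtypeCoe hS
  cover x := ⟨(), by simp⟩
  sm _ _ := by
    refine contDiffOn_id.congr fun z hz => ?_
    exact (S.openPartialHomeomorphSubtypeCoe hS).right_inv hz.1

/-- `Θ` is smooth on the open set `S` -/
structure SmIn (C : RCh V X) (S : Set E) (Θ : E → X) : Prop where
  ne : S.Nonempty
  op : IsOpen S
  cont : ContinuousOn Θ S
  sm : ∀ z ∈ S, ∀ i, Θ z ∈ (C.e i).source → ContDiffAt ℝ ∞ (fun z' => C.e i (Θ z')) z

variable {C : RCh V X} {S : Set E} {Θ : E → X}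

namespace SmIn

/-- the open set -/
def opn (h : SmIn C S Θ) : TopologicalSpace.Opens E := ⟨S, h.op⟩

theorem nonempty (h : SmIn C S Θ) : Nonempty h.opn := h.ne.to_subtype

/-- the chart of `S` -/
def ch (h : SmIn C S Θ) : RCh E h.opn := oC h.opn h.nonempty

theorem ch_target (h : SmIn C S Θ) : (h.ch.e ()).target = S := by
  show (h.opn.openPartialHomeomorphSubtypeCoe h.nonempty).target = S
  rw [TopologicalSpace.Opens.openPartialHomeomorphSubtypeCoe_target]
  rfl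

theorem ch_symm (h : SmIn C S Θ) {z : E} (hz : z ∈ S) :
    (((h.ch.e ()).symm z : h.opn) : E) = z :=
  (h.opn.openPartialHomeomorphSubtypeCoe h.nonempty).right_inv (by
    rw [TopologicalSpace.Opens.openPartialHomeomorphSubtypeCoe_target]; exact hz)

theorem loc_eq (h : SmIn C S Θ) (i : C.ι) {z : E} (hz : z ∈ S) :
    loc C h.ch (fun x : h.opn => Θ x) i () z = C.e i (Θ z) := by
  show C.e i (Θ (((h.ch.e ()).symm z : h.opn) : E)) = _
  rw [h.ch_symm hz]

theorem mem_dom (h : SmIn C S Θ) {i : C.ι} {z : E} :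
    z ∈ dom C h.ch (fun x : h.opn => Θ x) i () ↔ z ∈ S ∧ Θ z ∈ (C.e i).source := by
  constructor
  · rintro ⟨h1, h2⟩
    rw [h.ch_target] at h1
    refine ⟨h1, ?_⟩
    have h3 : Θ (((h.ch.e ()).symm z : h.opn) : E) ∈ (C.e i).source := h2
    rwa [h.ch_symm h1] at h3
  · rintro ⟨h1, h2⟩
    refine ⟨by rw [h.ch_target]; exact h1, ?_⟩
    show Θ (((h.ch.e ()).symm z : h.opn) : E) ∈ (C.e i).source
    rwa [h.ch_symm h1]

theorem loc_ev (h : SmIn C S Θ) (i : C.ι) {z : E} (hz : z ∈ S) :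
    loc C h.ch (fun x : h.opn => Θ x) i () =ᶠ[𝓝 z] fun z' => C.e i (Θ z') := by
  filter_upwards [h.op.mem_nhds hz] with y hy using h.loc_eq i hy

/-- the smooth map `S → X` -/
def mp (h : SmIn C S Θ) : SMap h.ch C where
  f x := Θ x
  cont := continuousOn_iff_continuous_domRestrict.1 h.cont
  sm i j := by
    rintro z hz
    have hz' := (h.mem_dom (i := i) (z := z)).1 hz
    exact ((h.sm z hz'.1 i hz'.2).congr_of_eventuallyEq (h.loc_ev i hz'.1)).contDiffWithinAt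

theorem mem_dom' (h : SmIn C S Θ) {i : C.ι} {z : E} (hz : z ∈ S) (hi : Θ z ∈ (C.e i).source) :
    z ∈ dom C h.ch h.mp.f i () := h.mem_dom.2 ⟨hz, hi⟩

/-- **the pull back of a closed 2-form** -/
def pl (h : SmIn C S Θ) (w : F2 C) : E → Bil E := (h.mp.pull w).w ()

/-- the pull back of a 1-form -/
def pl1 (h : SmIn C S Θ) (η : F1 C) : E → E →L[ℝ] ℝ := (h.mp.pull1 η).η ()

theorem pl_apply (h : SmIn C S Θ) (w : F2 C) {i : C.ι} {z : E} (hz : z ∈ S)
    (hi : Θ z ∈ (C.e i).source) (u v : E) :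
    h.pl w z u v = w.w i (C.e i (Θ z)) (fderiv ℝ (fun z' => C.e i (Θ z')) z u)
      (fderiv ℝ (fun z' => C.e i (Θ z')) z v) := by
  have h1 := h.mp.pull_w w (h.mem_dom' hz hi) u v
  have h2 : loc C h.ch h.mp.f i () z = C.e i (Θ z) := h.loc_eq i hz
  have h3 : fderiv ℝ (loc C h.ch h.mp.f i ()) z = fderiv ℝ (fun z' => C.e i (Θ z')) z :=
    (h.loc_ev i hz).fderiv_eq
  rw [h2, h3] at h1
  exact h1

theorem pl1_apply (h : SmIn C S Θ) (η : F1 C) {i : C.ι} {z : E} (hz : z ∈ S)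
    (hi : Θ z ∈ (C.e i).source) (u : E) :
    h.pl1 η z u = η.η i (C.e i (Θ z)) (fderiv ℝ (fun z' => C.e i (Θ z')) z u) := by
  have h1 := h.mp.pull1_η η (h.mem_dom' hz hi) u
  have h2 : loc C h.ch h.mp.f i () z = C.e i (Θ z) := h.loc_eq i hz
  have h3 : fderiv ℝ (loc C h.ch h.mp.f i ()) z = fderiv ℝ (fun z' => C.e i (Θ z')) z :=
    (h.loc_ev i hz).fderiv_eq
  rw [h2, h3] at h1
  exact h1

theorem pl_smooth (h : SmIn C S Θ) (w : F2 C) : ContDiffOn ℝ ∞ (h.pl w) S := by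
  have := (h.mp.pull w).sm ()
  rwa [h.ch_target] at this

theorem pl1_smooth (h : SmIn C S Θ) (η : F1 C) : ContDiffOn ℝ ∞ (h.pl1 η) S := by
  have := (h.mp.pull1 η).sm ()
  rwa [h.ch_target] at this

theorem pl_alt (h : SmIn C S Θ) (w : F2 C) {z : E} (hz : z ∈ S) (u v : E) :
    h.pl w z u v = -h.pl w z v u :=
  (h.mp.pull w).alt () z (by rw [h.ch_target]; exact hz) u v

theorem pl_closed (h : SmIn C S Θ) (w : F2 C) {z : E} (hz : z ∈ S) (a b c : E) :
    fderiv ℝ (h.pl w) z a b c + fderiv ℝ (h.pl w) z b c a + fderiv ℝ (h.pl w) z c a b = 0 :=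
  (h.mp.pull w).closed () z (by rw [h.ch_target]; exact hz) a b c

/-- the form in the language of 368 -/
theorem cl (h : SmIn C S Θ) (w : F2 C) : Crest.Agent.R281.Per_368.Cl S (h.pl w) where
  sm := (h.pl_smooth w).of_le (by exact_mod_cast le_top)
  alt z hz v w' := h.pl_alt w hz v w'
  closed z hz a b c := h.pl_closed w hz a b c

theorem pl_d (h : SmIn C S Θ) {w : F2 C} {η : F1 C} (hd : IsD w η) {z : E} (hz : z ∈ S) (u v : E) :
    h.pl w z u v = fderiv ℝ (h.pl1 η) z u v - fderiv ℝ (h.pl1 η) z v u :=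
  h.mp.isD_pull hd () z (by rw [h.ch_target]; exact hz) u v

theorem pl_add (h : SmIn C S Θ) (w w' : F2 C) {z : E} (hz : z ∈ S) :
    h.pl (w + w') z = h.pl w z + h.pl w' z := by
  obtain ⟨i, hi⟩ := C.cover (Θ z)
  ext u v
  rw [add_apply, add_apply, h.pl_apply _ hz hi, h.pl_apply _ hz hi, h.pl_apply _ hz hi]
  rfl

theorem pl_smul (h : SmIn C S Θ) (r : ℝ) (w : F2 C) {z : E} (hz : z ∈ S) :
    h.pl (r • w) z = r • h.pl w z := by
  obtain ⟨i, hi⟩ := C.cover (Θ z)
  ext u v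
  rw [smul_apply, smul_apply, h.pl_apply _ hz hi, h.pl_apply _ hz hi]
  rfl

theorem pl_lin (h : SmIn C S Θ) {n : ℕ} (a : Fin n → ℝ) (w : Fin n → F2 C) {z : E} (hz : z ∈ S) :
    h.pl (F2.lin a w) z = ∑ k, a k • h.pl (w k) z := by
  obtain ⟨i, hi⟩ := C.cover (Θ z)
  ext u v
  simp only [sum_apply, smul_apply]
  rw [h.pl_apply _ hz hi, F2.lin_w]
  exact Finset.sum_congr rfl fun k _ => by rw [h.pl_apply _ hz hi, smul_eq_mul]

/-- `Θ (z + l) = Θ z` near `z`: the forms agree -/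
theorem pl_shift (h : SmIn C S Θ) (w : F2 C) {z l : E} (hz : z ∈ S) (hl : z + l ∈ S)
    (hp : ∀ᶠ y in 𝓝 z, Θ (y + l) = Θ y) : h.pl w (z + l) = h.pl w z := by
  obtain ⟨i, hi⟩ := C.cover (Θ z)
  have e0 : Θ (z + l) = Θ z := hp.self_of_nhds
  have hi' : Θ (z + l) ∈ (C.e i).source := by rw [e0]; exact hi
  have h1 : fderiv ℝ (fun y => C.e i (Θ (y + l))) z = fderiv ℝ (fun y => C.e i (Θ y)) z := by
    refine Filter.EventuallyEq.fderiv_eq ?_
    filter_upwards [hp] with y hy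
    rw [hy]
  have h2 : fderiv ℝ (fun y => C.e i (Θ (y + l))) z = fderiv ℝ (fun y => C.e i (Θ y)) (z + l) :=
    fderiv_comp_add_right (f := fun y => C.e i (Θ y)) l
  ext u v
  rw [h.pl_apply _ hl hi', h.pl_apply _ hz hi, ← h2, h1, e0]

theorem pl1_shift (h : SmIn C S Θ) (η : F1 C) {z l : E} (hz : z ∈ S) (hl : z + l ∈ S)
    (hp : ∀ᶠ y in 𝓝 z, Θ (y + l) = Θ y) : h.pl1 η (z + l) = h.pl1 η z := by
  obtain ⟨i, hi⟩ := C.cover (Θ z)
  have e0 : Θ (z + l) = Θ z := hp.self_of_nhds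
  have hi' : Θ (z + l) ∈ (C.e i).source := by rw [e0]; exact hi
  have h1 : fderiv ℝ (fun y => C.e i (Θ (y + l))) z = fderiv ℝ (fun y => C.e i (Θ y)) z := by
    refine Filter.EventuallyEq.fderiv_eq ?_
    filter_upwards [hp] with y hy
    rw [hy]
  have h2 : fderiv ℝ (fun y => C.e i (Θ (y + l))) z = fderiv ℝ (fun y => C.e i (Θ y)) (z + l) :=
    fderiv_comp_add_right (f := fun y => C.e i (Θ y)) l
  ext u
  rw [h.pl1_apply _ hl hi', h.pl1_apply _ hz hi, ← h2, h1, e0]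

theorem mono (h : SmIn C S Θ) {S' : Set E} (hS : S' ⊆ S) (ho : IsOpen S') (hn : S'.Nonempty) :
    SmIn C S' Θ :=
  ⟨hn, ho, h.cont.mono hS, fun z hz => h.sm z (hS hz)⟩

/-- composition with a smooth map of vector spaces -/
theorem comp (h : SmIn C S Θ) {E' : Type} [NormedAddCommGroup E'] [NormedSpace ℝ E']
    {S' : Set E'} {f : E' → E} (hf : ContDiff ℝ ∞ f) (hm : MapsTo f S' S) (ho : IsOpen S')
    (hn : S'.Nonempty) : SmIn C S' (Θ ∘ f) where
  ne := hn
  op := ho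
  cont := h.cont.comp hf.continuous.continuousOn hm
  sm z hz i hi := ContDiffAt.comp (g := fun z' => C.e i (Θ z')) (f := f) z
    (h.sm (f z) (hm hz) i hi) hf.contDiffAt

theorem pl_comp (h : SmIn C S Θ) {E' : Type} [NormedAddCommGroup E'] [NormedSpace ℝ E']
    {S' : Set E'} {f : E' → E} (h' : SmIn C S' (Θ ∘ f)) {z : E'} (hf : DifferentiableAt ℝ f z)
    (hz : z ∈ S') (hz' : f z ∈ S) (w : F2 C) (u v : E') :
    h'.pl w z u v = h.pl w (f z) (fderiv ℝ f z u) (fderiv ℝ f z v) := by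
  obtain ⟨i, hi⟩ := C.cover (Θ (f z))
  rw [h'.pl_apply w (i := i) hz hi, h.pl_apply w hz' hi]
  have h1 : fderiv ℝ (fun z' => C.e i ((Θ ∘ f) z')) z =
      (fderiv ℝ (fun z' => C.e i (Θ z')) (f z)).comp (fderiv ℝ f z) :=
    fderiv_comp z ((h.sm _ hz' i hi).differentiableAt (by simp)) hf
  rw [h1]
  rfl

end SmIn

end

end Crest.Agent.R281.T5A_808
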