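import Mathlib

/-!
# R281, T5-ASM (helper808), part 2: closed forms of type (2,0) have holomorphic coefficients; Cauchy

`W` complex normed space, `y₁ y₂ : W → W →L[ℝ] W →L[ℝ] ℝ` closed alternating, `y₁(iu,v) = -y₂(u,v)`,
`y₂(iu,v) = y₁(u,v)`: the function `y₁(u,v) + i y₂(u,v)` is holomorphic; bounds of the first two
derivatives of `y₂` on `ball z R` from a bound of the forms.
-/

set_option autoImplicit false
set_option maxSynthPendingDepth 3
set_option linter.unusedVariables false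

open Set Filter Topology Complex Metric
open scoped ContDiff

namespace Crest.Agent.R281.T5A_808

noncomputable section

variable {W : Type*} [NormedAddCommGroup W] [NormedSpace ℂ W]

/-- the complexified value -/
def cv (y₁ y₂ : W → W →L[ℝ] W →L[ℝ] ℝ) (u v : W) (z : W) : ℂ := (y₁ z u v : ℂ) + (y₂ z u v : ℂ) * I

/-- closed form of type (2,0) -/
structure T20 (S : Set W) (y₁ y₂ : W → W →L[ℝ] W →L[ℝ] ℝ) : Prop where
  op : IsOpen S
  s1 : ContDiffOn ℝ ∞ y₁ S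
  s2 : ContDiffOn ℝ ∞ y₂ S
  a1 : ∀ z ∈ S, ∀ u v, y₁ z u v = -y₁ z v u
  a2 : ∀ z ∈ S, ∀ u v, y₂ z u v = -y₂ z v u
  c1 : ∀ z ∈ S, ∀ a b c, fderiv ℝ y₁ z a b c + fderiv ℝ y₁ z b c a + fderiv ℝ y₁ z c a b = 0
  c2 : ∀ z ∈ S, ∀ a b c, fderiv ℝ y₂ z a b c + fderiv ℝ y₂ z b c a + fderiv ℝ y₂ z c a b = 0
  t1 : ∀ z ∈ S, ∀ u v, y₁ z (I • u) v = -y₂ z u v
  t2 : ∀ z ∈ S, ∀ u v, y₂ z (I • u) v = y₁ z u v

variable {S : Set W} {y₁ y₂ : W → W →L[ℝ] W →L[ℝ] ℝ}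

theorem fd_app {y : W → W →L[ℝ] W →L[ℝ] ℝ} {z : W} (hy : DifferentiableAt ℝ y z) (u v a : W) :
    fderiv ℝ (fun z' => y z' u v) z a = fderiv ℝ y z a u v := by
  rw [((hy.hasFDerivAt.clm_apply (hasFDerivAt_const u z)).clm_apply (hasFDerivAt_const v z)).fderiv]
  simp

namespace T20

theorem d1 (h : T20 S y₁ y₂) {z : W} (hz : z ∈ S) : DifferentiableAt ℝ y₁ z :=
  (h.s1.contDiffAt (h.op.mem_nhds hz)).differentiableAt (by simp)

theorem d2 (h : T20 S y₁ y₂) {z : W} (hz : z ∈ S) : DifferentiableAt ℝ y₂ z :=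
  (h.s2.contDiffAt (h.op.mem_nhds hz)).differentiableAt (by simp)

/-- derivative of an identity between values of the forms -/
theorem deq {S : Set W} (ho : IsOpen S) {y y' : W → W →L[ℝ] W →L[ℝ] ℝ} {z : W} (hz : z ∈ S)
    (hy : DifferentiableAt ℝ y z) (hy' : DifferentiableAt ℝ y' z) {u v u' v' : W} {r : ℝ}
    (h : ∀ z ∈ S, y z u v = r * y' z u' v') (a : W) :
    fderiv ℝ y z a u v = r * fderiv ℝ y' z a u' v' := by
  rw [← fd_app hy, ← fd_app hy']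
  have h1 : (fun z' => y z' u v) =ᶠ[𝓝 z] fun z' => r * y' z' u' v' := by
    filter_upwards [ho.mem_nhds hz] with z' hz' using h z' hz'
  have h2 : DifferentiableAt ℝ (fun z' => y' z' u' v') z :=
    ((hy'.hasFDerivAt.clm_apply (hasFDerivAt_const u' z)).clm_apply
      (hasFDerivAt_const v' z)).differentiableAt
  rw [h1.fderiv_eq, fderiv_const_mul h2]
  rfl

theorem hI1 (h : T20 S y₁ y₂) {z : W} (hz : z ∈ S) (a b c : W) :
    fderiv ℝ y₁ z (I • a) b c = -fderiv ℝ y₂ z a b c := by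
  have e1 : ∀ a b c, fderiv ℝ y₁ z a (I • b) c = -fderiv ℝ y₂ z a b c := by
    intro a b c
    rw [deq h.op hz (h.d1 hz) (h.d2 hz) (r := -1) (u' := b) (v' := c)
      (fun z' hz' => by rw [h.t1 z' hz']; ring) a]
    ring
  have e2 : ∀ a b c, fderiv ℝ y₁ z a b (I • c) = -fderiv ℝ y₂ z a b c := by
    intro a b c
    rw [deq h.op hz (h.d1 hz) (h.d2 hz) (r := -1) (u' := b) (v' := c)
      (fun z' hz' => by rw [h.a1 z' hz', h.t1 z' hz', h.a2 z' hz' c b]; ring) a]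
    ring
  have f1 := h.c1 z hz (I • a) b c
  have f2 := h.c2 z hz a b c
  rw [e2, e1] at f1
  linarith

theorem hI2 (h : T20 S y₁ y₂) {z : W} (hz : z ∈ S) (a b c : W) :
    fderiv ℝ y₂ z (I • a) b c = fderiv ℝ y₁ z a b c := by
  have e1 : ∀ a b c, fderiv ℝ y₂ z a (I • b) c = fderiv ℝ y₁ z a b c := by
    intro a b c
    rw [deq h.op hz (h.d2 hz) (h.d1 hz) (r := 1) (u' := b) (v' := c)
      (fun z' hz' => by rw [h.t2 z' hz']; ring) a]
    ring
  have e2 : ∀ a b c, fderiv ℝ y₂ z a b (I • c) = fderiv ℝ y₁ z a b c := by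
    intro a b c
    rw [deq h.op hz (h.d2 hz) (h.d1 hz) (r := 1) (u' := b) (v' := c)
      (fun z' hz' => by rw [h.a2 z' hz', h.t2 z' hz', h.a1 z' hz' c b]; ring) a]
    ring
  have f1 := h.c2 z hz (I • a) b c
  have f2 := h.c1 z hz a b c
  rw [e2, e1] at f1
  linarith

/-- the real derivative of the complexified value -/
def cvd (y₁ y₂ : W → W →L[ℝ] W →L[ℝ] ℝ) (u v z : W) : W →L[ℝ] ℂ :=
  ofRealCLM.comp (fderiv ℝ (fun z' => y₁ z' u v) z) +
    I • ofRealCLM.comp (fderiv ℝ (fun z' => y₂ z' u v) z)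

theorem cvd_apply (h : T20 S y₁ y₂) {z : W} (hz : z ∈ S) (u v a : W) :
    cvd y₁ y₂ u v z a = (fderiv ℝ y₁ z a u v : ℂ) + (fderiv ℝ y₂ z a u v : ℂ) * I := by
  simp only [cvd, add_apply, smul_apply, ContinuousLinearMap.comp_apply, ofRealCLM_apply,
    smul_eq_mul]
  rw [fd_app (h.d1 hz), fd_app (h.d2 hz)]
  ring

theorem hasR (h : T20 S y₁ y₂) {z : W} (hz : z ∈ S) (u v : W) :
    HasFDerivAt (cv y₁ y₂ u v) (cvd y₁ y₂ u v z) z := by
  have h1 : HasFDerivAt (fun z' => y₁ z' u v) (fderiv ℝ (fun z' => y₁ z' u v) z) z :=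
    (((h.d1 hz).hasFDerivAt.clm_apply (hasFDerivAt_const u z)).clm_apply
      (hasFDerivAt_const v z)).differentiableAt.hasFDerivAt
  have h2 : HasFDerivAt (fun z' => y₂ z' u v) (fderiv ℝ (fun z' => y₂ z' u v) z) z :=
    (((h.d2 hz).hasFDerivAt.clm_apply (hasFDerivAt_const u z)).clm_apply
      (hasFDerivAt_const v z)).differentiableAt.hasFDerivAt
  have h3 := (ofRealCLM.hasFDerivAt.comp z h1).add ((ofRealCLM.hasFDerivAt.comp z h2).const_smul I)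
  refine h3.congr_of_eventuallyEq (Eventually.of_forall fun z' => ?_)
  simp [cv, mul_comm]

theorem cvd_I (h : T20 S y₁ y₂) {z : W} (hz : z ∈ S) (u v a : W) :
    cvd y₁ y₂ u v z (I • a) = I * cvd y₁ y₂ u v z a := by
  rw [h.cvd_apply hz, h.cvd_apply hz, h.hI1 hz, h.hI2 hz]
  push_cast
  linear_combination (-(fderiv ℝ y₂ z a u v : ℂ)) * I_sq

/-- the complex derivative -/
def cvD (h : T20 S y₁ y₂) {z : W} (hz : z ∈ S) (u v : W) : W →L[ℂ] ℂ where
  toFun := cvd y₁ y₂ u v z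
  map_add' a b := map_add _ a b
  map_smul' c a := by
    have h1 : c • a = (c.re : ℝ) • a + (c.im : ℝ) • (I • a) := by
      rw [← Complex.coe_smul c.re a, ← Complex.coe_smul c.im (I • a), smul_smul, ← add_smul,
        Complex.re_add_im]
    rw [h1, map_add, map_smul, map_smul, h.cvd_I hz]
    simp only [real_smul, RingHom.id_apply, smul_eq_mul]
    rw [← mul_assoc, ← add_mul, Complex.re_add_im]
  cont := (cvd y₁ y₂ u v z).continuous

theorem hasC (h : T20 S y₁ y₂) {z : W} (hz : z ∈ S) (u v : W) :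
    HasFDerivAt (𝕜 := ℂ) (cv y₁ y₂ u v) (h.cvD hz u v) z := by
  refine hasFDerivAt_of_restrictScalars ℝ (h.hasR hz u v) ?_
  ext a
  rfl

/-- **holomorphy** -/
theorem hol (h : T20 S y₁ y₂) (u v : W) : DifferentiableOn ℂ (cv y₁ y₂ u v) S :=
  fun z hz => (h.hasC hz u v).differentiableAt.differentiableWithinAt

theorem fderiv_cv (h : T20 S y₁ y₂) {z : W} (hz : z ∈ S) (u v a : W) :
    fderiv ℂ (cv y₁ y₂ u v) z a =
      (fderiv ℝ y₁ z a u v : ℂ) + (fderiv ℝ y₂ z a u v : ℂ) * I := by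
  rw [(h.hasC hz u v).fderiv]
  exact h.cvd_apply hz u v a

end T20

/-- Cauchy's estimate for the directional derivative -/
theorem cauchy_dir {f : W → ℂ} {z : W} {R B : ℝ} (hR : 0 < R) (hf : DifferentiableOn ℂ f (ball z R))
    (hB : ∀ x ∈ ball z R, ‖f x‖ ≤ B) (a : W) : ‖fderiv ℂ f z a‖ ≤ B * ‖a‖ / R := by
  have hz : z ∈ ball z R := mem_ball_self hR
  have hB0 : 0 ≤ B := (norm_nonneg _).trans (hB z hz)
  have hd : DifferentiableAt ℂ f z := (hf z hz).differentiableAt (isOpen_ball.mem_nhds hz)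
  by_cases ha : a = 0
  · subst ha
    simp
  have ha' : 0 < ‖a‖ := norm_pos_iff.2 ha
  -- one variable
  let g : ℂ → ℂ := fun t => f (z + t • a)
  have hmem : ∀ t : ℂ, ‖t‖ < R / ‖a‖ → z + t • a ∈ ball z R := by
    intro t ht
    rw [mem_ball, dist_eq_norm, add_sub_cancel_left, norm_smul]
    rwa [lt_div_iff₀ ha'] at ht
  have hg0 : HasDerivAt g (fderiv ℂ f z a) 0 := by
    have h1 : HasDerivAt (fun t : ℂ => z + t • a) a 0 := by
      simpa using ((hasDerivAt_id (0 : ℂ)).smul_const a).const_add z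
    have h2 : HasFDerivAt f (fderiv ℂ f z) (z + (0 : ℂ) • a) := by
      simpa using hd.hasFDerivAt
    exact h2.comp_hasDerivAt (0 : ℂ) h1
  have hgd : DifferentiableOn ℂ g (ball 0 (R / ‖a‖)) := by
    intro t ht
    have ht' : ‖t‖ < R / ‖a‖ := by simpa using ht
    have h1 : DifferentiableAt ℂ f (z + t • a) :=
      (hf _ (hmem t ht')).differentiableAt (isOpen_ball.mem_nhds (hmem t ht'))
    have h2 : DifferentiableAt ℂ (fun t : ℂ => z + t • a) t := by fun_prop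
    exact (DifferentiableAt.comp (g := f) t h1 h2).differentiableWithinAt
  -- limit of radii
  have key : ∀ r : ℝ, 0 < r → r < R / ‖a‖ → ‖fderiv ℂ f z a‖ ≤ B / r := by
    intro r hr hrR
    have h1 := Complex.norm_deriv_le_of_forall_mem_sphere_norm_le (f := g) (c := 0) (C := B) hr
      (by
        refine (hgd.mono fun t ht => ?_).diffContOnCl
        rw [closure_ball (0 : ℂ) hr.ne'] at ht
        exact mem_ball.2 (lt_of_le_of_lt (mem_closedBall.1 ht) hrR))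
      (by
        intro t ht
        refine hB _ (hmem t ?_)
        have : ‖t‖ = r := by simpa using ht
        rw [this]
        exact hrR)
    rwa [hg0.deriv] at h1
  have hlim : Tendsto (fun r : ℝ => B / r) (𝓝[<] (R / ‖a‖)) (𝓝 (B / (R / ‖a‖))) :=
    (tendsto_const_nhds.div tendsto_id (by positivity)).mono_left nhdsWithin_le_nhds
  have h2 : ‖fderiv ℂ f z a‖ ≤ B / (R / ‖a‖) := by
    refine ge_of_tendsto hlim ?_
    have hpos : (0 : ℝ) < R / ‖a‖ := by positivity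
    filter_upwards [Ioo_mem_nhdsLT hpos] with r hr using key r hr.1 hr.2
  calc ‖fderiv ℂ f z a‖ ≤ B / (R / ‖a‖) := h2
    _ = B * ‖a‖ / R := by field_simp

/-- second derivative -/
theorem cauchy_dir2 {f : W → ℂ} {z : W} {R B : ℝ} (hR : 0 < R)
    (hf : DifferentiableOn ℂ f (ball z R)) (hB : ∀ x ∈ ball z R, ‖f x‖ ≤ B) (a b : W) {g : W → ℂ}
    (hg : ∀ x ∈ ball z R, g x = fderiv ℂ f x b) (hgd : DifferentiableOn ℂ g (ball z R)) :
    ‖fderiv ℂ g z a‖ ≤ 4 * B * ‖a‖ * ‖b‖ / R ^ 2 := by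
  have hsub : ball z (R / 2) ⊆ ball z R := ball_subset_ball (by linarith)
  have h1 : ∀ x ∈ ball z (R / 2), ‖g x‖ ≤ B * ‖b‖ / (R / 2) := by
    intro x hx
    have hxR : ball x (R / 2) ⊆ ball z R := by
      intro y hy
      rw [mem_ball] at *
      linarith [dist_triangle y x z]
    rw [hg x (hsub hx)]
    exact cauchy_dir (by linarith) (hf.mono hxR) (fun y hy => hB y (hxR hy)) b
  have h2 := cauchy_dir (by linarith : 0 < R / 2) (hgd.mono hsub) h1 a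
  calc ‖fderiv ℂ g z a‖ ≤ B * ‖b‖ / (R / 2) * ‖a‖ / (R / 2) := h2
    _ = 4 * B * ‖a‖ * ‖b‖ / R ^ 2 := by field_simp; ring

namespace T20

/-- symmetry of the second derivative -/
theorem symd {S : Set W} (ho : IsOpen S) {y : W → W →L[ℝ] W →L[ℝ] ℝ} (hy : ContDiffOn ℝ ∞ y S)
    {z : W} (hz : z ∈ S) (a b : W) :
    fderiv ℝ (fderiv ℝ y) z a b = fderiv ℝ (fderiv ℝ y) z b a :=
  ((hy.contDiffAt (ho.mem_nhds hz)).isSymmSndFDerivAt (by
      rw [minSmoothness_of_isRCLikeNormedField]; exact WithTop.coe_le_coe.2 le_top)) a b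

theorem dd (ho : IsOpen S) {y : W → W →L[ℝ] W →L[ℝ] ℝ} (hy : ContDiffOn ℝ ∞ y S)
    {z : W} (hz : z ∈ S) : DifferentiableAt ℝ (fderiv ℝ y) z :=
  ((hy.fderiv_of_isOpen ho (m := ∞) (by simp)).contDiffAt (ho.mem_nhds hz)).differentiableAt
    (by simp)

theorem fd_dir (ho : IsOpen S) {y : W → W →L[ℝ] W →L[ℝ] ℝ} (hy : ContDiffOn ℝ ∞ y S)
    {z : W} (hz : z ∈ S) (a b : W) :
    fderiv ℝ (fun z' => fderiv ℝ y z' b) z a = fderiv ℝ (fderiv ℝ y) z a b := by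
  rw [((dd ho hy hz).hasFDerivAt.clm_apply (hasFDerivAt_const b z)).fderiv]
  simp

theorem closed_dir (ho : IsOpen S) {y : W → W →L[ℝ] W →L[ℝ] ℝ} (hy : ContDiffOn ℝ ∞ y S)
    (hc : ∀ z ∈ S, ∀ a b c, fderiv ℝ y z a b c + fderiv ℝ y z b c a + fderiv ℝ y z c a b = 0)
    {z : W} (hz : z ∈ S) (b' a b c : W) :
    fderiv ℝ (fun z' => fderiv ℝ y z' b') z a b c + fderiv ℝ (fun z' => fderiv ℝ y z' b') z b c a
      + fderiv ℝ (fun z' => fderiv ℝ y z' b') z c a b = 0 := by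
  rw [fd_dir ho hy hz, fd_dir ho hy hz, fd_dir ho hy hz, symd ho hy hz a, symd ho hy hz b,
    symd ho hy hz c]
  have h1 : (fun z' => fderiv ℝ y z' a b c + fderiv ℝ y z' b c a + fderiv ℝ y z' c a b)
      =ᶠ[𝓝 z] fun _ => (0 : ℝ) := by
    filter_upwards [ho.mem_nhds hz] with z' hz' using hc z' hz' a b c
  have h2 : ∀ p q r : W, HasFDerivAt (fun z' => fderiv ℝ y z' p q r)
      (fderiv ℝ (fun z' => fderiv ℝ y z' p q r) z) z := fun p q r =>
    ((((dd ho hy hz).hasFDerivAt.clm_apply (hasFDerivAt_const p z)).clm_apply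
      (hasFDerivAt_const q z)).clm_apply (hasFDerivAt_const r z)).differentiableAt.hasFDerivAt
  have h3 : ∀ p q r : W, fderiv ℝ (fun z' => fderiv ℝ y z' p q r) z b' =
      fderiv ℝ (fderiv ℝ y) z b' p q r := by
    intro p q r
    rw [((((dd ho hy hz).hasFDerivAt.clm_apply (hasFDerivAt_const p z)).clm_apply
      (hasFDerivAt_const q z)).clm_apply (hasFDerivAt_const r z)).fderiv]
    simp
  have h4 := (((h2 a b c).add (h2 b c a)).add (h2 c a b)).fderiv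
  have h5 : fderiv ℝ (fun z' => fderiv ℝ y z' a b c + fderiv ℝ y z' b c a + fderiv ℝ y z' c a b) z
      b' = 0 := by
    rw [h1.fderiv_eq]
    simp
  have h6 : ((fun z' => fderiv ℝ y z' a b c) + (fun z' => fderiv ℝ y z' b c a) +
      (fun z' => fderiv ℝ y z' c a b)) = fun z' => fderiv ℝ y z' a b c + fderiv ℝ y z' b c a +
      fderiv ℝ y z' c a b := rfl
  rw [h6] at h4
  rw [h4] at h5
  simpa [h3] using h5

theorem dir (h : T20 S y₁ y₂) (b : W) :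
    T20 S (fun z => fderiv ℝ y₁ z b) (fun z => fderiv ℝ y₂ z b) where
  op := h.op
  s1 := (h.s1.fderiv_of_isOpen h.op (m := ∞) (by simp)).clm_apply contDiffOn_const
  s2 := (h.s2.fderiv_of_isOpen h.op (m := ∞) (by simp)).clm_apply contDiffOn_const
  a1 z hz u v := by
    rw [deq h.op hz (h.d1 hz) (h.d1 hz) (r := -1) (u' := v) (v' := u)
      (fun z' hz' => by rw [h.a1 z' hz']; ring) b]
    ring
  a2 z hz u v := by
    rw [deq h.op hz (h.d2 hz) (h.d2 hz) (r := -1) (u' := v) (v' := u)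
      (fun z' hz' => by rw [h.a2 z' hz']; ring) b]
    ring
  c1 z hz a b' c := closed_dir h.op h.s1 h.c1 hz b a b' c
  c2 z hz a b' c := closed_dir h.op h.s2 h.c2 hz b a b' c
  t1 z hz u v := by
    rw [deq h.op hz (h.d1 hz) (h.d2 hz) (r := -1) (u' := u) (v' := v)
      (fun z' hz' => by rw [h.t1 z' hz']; ring) b]
    ring
  t2 z hz u v := by
    rw [deq h.op hz (h.d2 hz) (h.d1 hz) (r := 1) (u' := u) (v' := v)
      (fun z' hz' => by rw [h.t2 z' hz']; ring) b]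
    ring

theorem cv_le {B : ℝ} {z : W} {u v : W} (h1 : |y₁ z u v| ≤ B) (h2 : |y₂ z u v| ≤ B) :
    ‖cv y₁ y₂ u v z‖ ≤ 2 * B := by
  calc ‖cv y₁ y₂ u v z‖ ≤ ‖(y₁ z u v : ℂ)‖ + ‖(y₂ z u v : ℂ) * I‖ := norm_add_le _ _
    _ = |y₁ z u v| + |y₂ z u v| := by simp
    _ ≤ 2 * B := by linarith

/-- **first derivative** -/
theorem bd1 (h : T20 S y₁ y₂) {z : W} {R B : ℝ} (hR : 0 < R) (hS : ball z R ⊆ S)
    (b1 : ∀ x ∈ ball z R, ∀ u v, |y₁ x u v| ≤ B * ‖u‖ * ‖v‖)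
    (b2 : ∀ x ∈ ball z R, ∀ u v, |y₂ x u v| ≤ B * ‖u‖ * ‖v‖) (a u v : W) :
    |fderiv ℝ y₁ z a u v| ≤ 2 * B / R * ‖a‖ * ‖u‖ * ‖v‖ ∧
      |fderiv ℝ y₂ z a u v| ≤ 2 * B / R * ‖a‖ * ‖u‖ * ‖v‖ := by
  have hz : z ∈ S := hS (mem_ball_self hR)
  have h1 := cauchy_dir hR ((h.hol u v).mono hS) (B := 2 * (B * ‖u‖ * ‖v‖))
    (fun x hx => cv_le (b1 x hx u v) (b2 x hx u v)) a
  rw [h.fderiv_cv hz] at h1
  have e : 2 * (B * ‖u‖ * ‖v‖) * ‖a‖ / R = 2 * B / R * ‖a‖ * ‖u‖ * ‖v‖ := by ring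
  rw [e] at h1
  constructor
  · refine le_trans ?_ h1
    have := Complex.abs_re_le_norm ((fderiv ℝ y₁ z a u v : ℂ) + (fderiv ℝ y₂ z a u v : ℂ) * I)
    simpa using this
  · refine le_trans ?_ h1
    have := Complex.abs_im_le_norm ((fderiv ℝ y₁ z a u v : ℂ) + (fderiv ℝ y₂ z a u v : ℂ) * I)
    simpa using this

/-- **second derivative** -/
theorem bd2 (h : T20 S y₁ y₂) {z : W} {R B : ℝ} (hR : 0 < R) (hS : ball z R ⊆ S)
    (b1 : ∀ x ∈ ball z R, ∀ u v, |y₁ x u v| ≤ B * ‖u‖ * ‖v‖)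
    (b2 : ∀ x ∈ ball z R, ∀ u v, |y₂ x u v| ≤ B * ‖u‖ * ‖v‖) (a b u v : W) :
    |fderiv ℝ (fderiv ℝ y₁) z a b u v| ≤ 8 * B / R ^ 2 * ‖a‖ * ‖b‖ * ‖u‖ * ‖v‖ ∧
      |fderiv ℝ (fderiv ℝ y₂) z a b u v| ≤ 8 * B / R ^ 2 * ‖a‖ * ‖b‖ * ‖u‖ * ‖v‖ := by
  have hz : z ∈ S := hS (mem_ball_self hR)
  have h1 := cauchy_dir2 hR ((h.hol u v).mono hS) (B := 2 * (B * ‖u‖ * ‖v‖))
    (fun x hx => cv_le (b1 x hx u v) (b2 x hx u v)) a b
    (g := cv (fun z => fderiv ℝ y₁ z b) (fun z => fderiv ℝ y₂ z b) u v)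
    (fun x hx => by rw [h.fderiv_cv (hS hx)]; rfl) (((h.dir b).hol u v).mono hS)
  rw [(h.dir b).fderiv_cv hz, fd_dir h.op h.s1 hz, fd_dir h.op h.s2 hz] at h1
  have e : 4 * (2 * (B * ‖u‖ * ‖v‖)) * ‖a‖ * ‖b‖ / R ^ 2 =
      8 * B / R ^ 2 * ‖a‖ * ‖b‖ * ‖u‖ * ‖v‖ := by ring
  rw [e] at h1
  constructor
  · refine le_trans ?_ h1
    have := Complex.abs_re_le_norm ((fderiv ℝ (fderiv ℝ y₁) z a b u v : ℂ) +
      (fderiv ℝ (fderiv ℝ y₂) z a b u v : ℂ) * I)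
    simpa using this
  · refine le_trans ?_ h1
    have := Complex.abs_im_le_norm ((fderiv ℝ (fderiv ℝ y₁) z a b u v : ℂ) +
      (fderiv ℝ (fderiv ℝ y₂) z a b u v : ℂ) * I)
    simpa using this

end T20

end

end Crest.Agent.R281.T5A_808
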