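import Crest.Agent.R281.T5A2_808

/-!
# R281, T5-ASM (helper808), part 3: estimates in coordinates (real normed spaces)

* `sum_d1`, `sum_d2`  : derivatives of `F ζ u v = Σ f_k ζ * c_k u v`
* `affine_bd`         : affine change of coordinates of a field of bilinear forms
-/

set_option autoImplicit false
set_option maxSynthPendingDepth 3

open Set Filter Topology Metric Complex
open scoped ContDiff ComplexConjugate

namespace Crest.Agent.R281.T5A_808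

noncomputable section

section der

variable {E : Type*} [NormedAddCommGroup E] [NormedSpace ℝ E] {S : Set E}

theorem fd_app' {y : E → E →L[ℝ] E →L[ℝ] ℝ} {z : E} (hy : DifferentiableAt ℝ y z) (u v a : E) :
    fderiv ℝ (fun z' => y z' u v) z a = fderiv ℝ y z a u v := by
  rw [((hy.hasFDerivAt.clm_apply (hasFDerivAt_const u z)).clm_apply (hasFDerivAt_const v z)).fderiv]
  simp

theorem dd' (ho : IsOpen S) {G : Type*} [NormedAddCommGroup G] [NormedSpace ℝ G] {y : E → G}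
    (hy : ContDiffOn ℝ ∞ y S) {z : E} (hz : z ∈ S) : DifferentiableAt ℝ (fderiv ℝ y) z :=
  ((hy.fderiv_of_isOpen ho (m := ∞) (by simp)).contDiffAt (ho.mem_nhds hz)).differentiableAt
    (by simp)

theorem fd_dir' (ho : IsOpen S) {G : Type*} [NormedAddCommGroup G] [NormedSpace ℝ G] {y : E → G}
    (hy : ContDiffOn ℝ ∞ y S) {z : E} (hz : z ∈ S) (a b : E) :
    fderiv ℝ (fun z' => fderiv ℝ y z' b) z a = fderiv ℝ (fderiv ℝ y) z a b := by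
  rw [((dd' ho hy hz).hasFDerivAt.clm_apply (hasFDerivAt_const b z)).fderiv]
  simp

variable {κ : Type*} (s : Finset κ)

theorem sum_d1 (ho : IsOpen S) {F : E → E →L[ℝ] E →L[ℝ] ℝ} {f : κ → E → ℝ} {c : κ → E → E → ℝ}
    (hF : ∀ z ∈ S, DifferentiableAt ℝ F z) (hf : ∀ k ∈ s, ∀ z ∈ S, DifferentiableAt ℝ (f k) z)
    (h : ∀ z ∈ S, ∀ u v, F z u v = ∑ k ∈ s, f k z * c k u v) {z : E} (hz : z ∈ S) (a u v : E) :
    fderiv ℝ F z a u v = ∑ k ∈ s, fderiv ℝ (f k) z a * c k u v := by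
  rw [← fd_app' (hF z hz)]
  have h1 : (fun z' => F z' u v) =ᶠ[𝓝 z] fun z' => ∑ k ∈ s, f k z' * c k u v := by
    filter_upwards [ho.mem_nhds hz] with z' hz' using h z' hz' u v
  rw [h1.fderiv_eq, (HasFDerivAt.fun_sum fun k hk =>
    (hf k hk z hz).hasFDerivAt.mul_const (c k u v)).fderiv]
  simp [sum_apply, mul_comm]

theorem sum_d2 (ho : IsOpen S) {F : E → E →L[ℝ] E →L[ℝ] ℝ} {f : κ → E → ℝ} {c : κ → E → E → ℝ}
    (hF : ContDiffOn ℝ ∞ F S) (hf : ∀ k ∈ s, ContDiffOn ℝ ∞ (f k) S)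
    (h : ∀ z ∈ S, ∀ u v, F z u v = ∑ k ∈ s, f k z * c k u v) {z : E} (hz : z ∈ S) (a b u v : E) :
    fderiv ℝ (fderiv ℝ F) z a b u v = ∑ k ∈ s, fderiv ℝ (fderiv ℝ (f k)) z a b * c k u v := by
  have hd2 : ∀ z ∈ S, DifferentiableAt ℝ (fun z' => fderiv ℝ F z' b) z := fun z hz =>
    ((dd' ho hF hz).hasFDerivAt.clm_apply (hasFDerivAt_const b z)).differentiableAt
  have hd3 : ∀ k ∈ s, ∀ z ∈ S, DifferentiableAt ℝ (fun z' => fderiv ℝ (f k) z' b) z :=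
    fun k hk z hz =>
      ((dd' ho (hf k hk) hz).hasFDerivAt.clm_apply (hasFDerivAt_const b z)).differentiableAt
  have h1 : ∀ z ∈ S, ∀ u v, fderiv ℝ F z b u v = ∑ k ∈ s, fderiv ℝ (f k) z b * c k u v :=
    fun z hz u v => sum_d1 s ho (fun z hz => (hF.contDiffAt (ho.mem_nhds hz)).differentiableAt
      (by simp)) (fun k hk z hz => ((hf k hk).contDiffAt (ho.mem_nhds hz)).differentiableAt
      (by simp)) h hz b u v
  have h2 := sum_d1 s ho hd2 hd3 h1 hz a u v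
  rw [fd_dir' ho hF hz] at h2
  rw [h2]
  exact Finset.sum_congr rfl fun k hk => by rw [fd_dir' ho (hf k hk) hz]

end der

section norms

variable {E F : Type*} [NormedAddCommGroup E] [NormedSpace ℝ E] [NormedAddCommGroup F]
  [NormedSpace ℝ F]

theorem norm2_le {B : E →L[ℝ] E →L[ℝ] ℝ} {C : ℝ} (hC : 0 ≤ C)
    (h : ∀ u v, |B u v| ≤ C * ‖u‖ * ‖v‖) : ‖B‖ ≤ C :=
  ContinuousLinearMap.opNorm_le_bound _ hC fun u =>
    ContinuousLinearMap.opNorm_le_bound _ (by positivity) fun v => by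
      rw [Real.norm_eq_abs]; exact h u v

theorem norm3_le {B : F →L[ℝ] E →L[ℝ] E →L[ℝ] ℝ} {C : ℝ} (hC : 0 ≤ C)
    (h : ∀ a u v, |B a u v| ≤ C * ‖a‖ * ‖u‖ * ‖v‖) : ‖B‖ ≤ C :=
  ContinuousLinearMap.opNorm_le_bound _ hC fun a => norm2_le (by positivity) fun u v => h a u v

theorem norm4_le {B : F →L[ℝ] F →L[ℝ] E →L[ℝ] E →L[ℝ] ℝ} {C : ℝ} (hC : 0 ≤ C)
    (h : ∀ a b u v, |B a b u v| ≤ C * ‖a‖ * ‖b‖ * ‖u‖ * ‖v‖) : ‖B‖ ≤ C :=
  ContinuousLinearMap.opNorm_le_bound _ hC fun a => norm3_le (by positivity) fun b u v => h a b u v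

theorem le_norm2 (B : E →L[ℝ] E →L[ℝ] ℝ) (u v : E) : |B u v| ≤ ‖B‖ * ‖u‖ * ‖v‖ := by
  rw [← Real.norm_eq_abs]
  exact B.le_opNorm₂ u v

theorem le_norm3 (B : F →L[ℝ] E →L[ℝ] E →L[ℝ] ℝ) (a : F) (u v : E) :
    |B a u v| ≤ ‖B‖ * ‖a‖ * ‖u‖ * ‖v‖ :=
  (le_norm2 (B a) u v).trans (by gcongr; exact B.le_opNorm a)

theorem le_norm4 (B : F →L[ℝ] F →L[ℝ] E →L[ℝ] E →L[ℝ] ℝ) (a b : F) (u v : E) :
    |B a b u v| ≤ ‖B‖ * ‖a‖ * ‖b‖ * ‖u‖ * ‖v‖ :=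
  (le_norm3 (B a) b u v).trans (by gcongr; exact B.le_opNorm a)

end norms

section affine

variable {E E' : Type*} [NormedAddCommGroup E] [NormedSpace ℝ E] [NormedAddCommGroup E']
  [NormedSpace ℝ E']

/-- **affine change of coordinates**: `x p u v = X (c + T p) (T u) (T v)` -/
theorem affine_bd {S : Set E} {S' : Set E'} (ho : IsOpen S) (ho' : IsOpen S') (T : E' →L[ℝ] E)
    (c : E) {X : E → E →L[ℝ] E →L[ℝ] ℝ} {x : E' → E' →L[ℝ] E' →L[ℝ] ℝ} (hX : ContDiffOn ℝ ∞ X S)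
    (hx : ContDiffOn ℝ ∞ x S') (hm : ∀ p ∈ S', c + T p ∈ S)
    (h : ∀ p ∈ S', ∀ u v, x p u v = X (c + T p) (T u) (T v)) {p : E'} (hp : p ∈ S') :
    ‖x p‖ ≤ ‖X (c + T p)‖ * ‖T‖ ^ 2 ∧
      ‖fderiv ℝ x p‖ ≤ ‖fderiv ℝ X (c + T p)‖ * ‖T‖ ^ 3 ∧
      ‖fderiv ℝ (fderiv ℝ x) p‖ ≤ ‖fderiv ℝ (fderiv ℝ X) (c + T p)‖ * ‖T‖ ^ 4 := by
  have dx : ∀ q ∈ S', DifferentiableAt ℝ x q := fun q hq =>
    (hx.contDiffAt (ho'.mem_nhds hq)).differentiableAt (by simp)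
  have dX : ∀ q ∈ S, DifferentiableAt ℝ X q := fun q hq =>
    (hX.contDiffAt (ho.mem_nhds hq)).differentiableAt (by simp)
  have hT : ∀ q : E', HasFDerivAt (fun q : E' => c + T q) T q := fun q =>
    T.hasFDerivAt.const_add c
  -- derivative of a composition
  have key : ∀ {Y : E → E →L[ℝ] E →L[ℝ] ℝ} {y : E' → E' →L[ℝ] E' →L[ℝ] ℝ}
      (_ : ∀ q ∈ S', DifferentiableAt ℝ y q) (_ : ∀ q ∈ S, DifferentiableAt ℝ Y q)
      (_ : ∀ p ∈ S', ∀ u v, y p u v = Y (c + T p) (T u) (T v)), ∀ q ∈ S', ∀ a u v,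
      fderiv ℝ y q a u v = fderiv ℝ Y (c + T q) (T a) (T u) (T v) := by
    intro Y y dy dY hy q hq a u v
    rw [← fd_app' (dy q hq), ← fd_app' (dY _ (hm q hq))]
    have h1 : (fun z' => y z' u v) =ᶠ[𝓝 q] fun z' => Y (c + T z') (T u) (T v) := by
      filter_upwards [ho'.mem_nhds hq] with z' hz' using hy z' hz' u v
    have h2 : HasFDerivAt (fun z' => Y z' (T u) (T v))
        (fderiv ℝ (fun z' => Y z' (T u) (T v)) (c + T q)) (c + T q) :=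
      ((((dY _ (hm q hq)).hasFDerivAt.clm_apply (hasFDerivAt_const (T u) _)).clm_apply
        (hasFDerivAt_const (T v) _))).differentiableAt.hasFDerivAt
    have h3 := HasFDerivAt.comp (g := fun z' => Y z' (T u) (T v)) (f := fun z' : E' => c + T z') q
      h2 (hT q)
    have h4 : ((fun z' => Y z' (T u) (T v)) ∘ fun z' : E' => c + T z') =
      fun z' => Y (c + T z') (T u) (T v) := rfl
    rw [h1.fderiv_eq, ← h4, h3.fderiv]
    rfl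
  have k1 := key dx dX h
  have k2 : ∀ q ∈ S', ∀ a b u v, fderiv ℝ (fderiv ℝ x) q a b u v =
      fderiv ℝ (fderiv ℝ X) (c + T q) (T a) (T b) (T u) (T v) := by
    intro q hq a b u v
    have e1 := key (Y := fun z => fderiv ℝ X z (T b)) (y := fun z => fderiv ℝ x z b)
      (fun q hq => ((dd' ho' hx hq).hasFDerivAt.clm_apply (hasFDerivAt_const b q)).differentiableAt)
      (fun q hq => ((dd' ho hX hq).hasFDerivAt.clm_apply
        (hasFDerivAt_const (T b) q)).differentiableAt)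
      (fun q hq u v => k1 q hq b u v) q hq a u v
    rwa [fd_dir' ho' hx hq, fd_dir' ho hX (hm q hq)] at e1
  refine ⟨norm2_le (by positivity) fun u v => ?_, norm3_le (by positivity) fun a u v => ?_,
    norm4_le (by positivity) fun a b u v => ?_⟩
  · rw [h p hp]
    refine (le_norm2 _ _ _).trans ?_
    calc ‖X (c + T p)‖ * ‖T u‖ * ‖T v‖ ≤ ‖X (c + T p)‖ * (‖T‖ * ‖u‖) * (‖T‖ * ‖v‖) := by
          gcongr <;> exact T.le_opNorm _
      _ = ‖X (c + T p)‖ * ‖T‖ ^ 2 * ‖u‖ * ‖v‖ := by ring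
  · rw [k1 p hp]
    refine (le_norm3 _ _ _ _).trans ?_
    calc ‖fderiv ℝ X (c + T p)‖ * ‖T a‖ * ‖T u‖ * ‖T v‖
        ≤ ‖fderiv ℝ X (c + T p)‖ * (‖T‖ * ‖a‖) * (‖T‖ * ‖u‖) * (‖T‖ * ‖v‖) := by
          gcongr <;> exact T.le_opNorm _
      _ = ‖fderiv ℝ X (c + T p)‖ * ‖T‖ ^ 3 * ‖a‖ * ‖u‖ * ‖v‖ := by ring
  · rw [k2 p hp]
    refine (le_norm4 _ _ _ _ _).trans ?_
    calc ‖fderiv ℝ (fderiv ℝ X) (c + T p)‖ * ‖T a‖ * ‖T b‖ * ‖T u‖ * ‖T v‖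
        ≤ ‖fderiv ℝ (fderiv ℝ X) (c + T p)‖ * (‖T‖ * ‖a‖) * (‖T‖ * ‖b‖) * (‖T‖ * ‖u‖) *
          (‖T‖ * ‖v‖) := by
          gcongr <;> exact T.le_opNorm _
      _ = ‖fderiv ℝ (fderiv ℝ X) (c + T p)‖ * ‖T‖ ^ 4 * ‖a‖ * ‖b‖ * ‖u‖ * ‖v‖ := by ring

end affine

end

end Crest.Agent.R281.T5A_808
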