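import Crest.Agent.R281.Per5_368
import Crest.Agent.R281.Mc5_673

/-!
# R281, T5-ASM (helper808), definitions

* `TubeD C w w' N R Λ δ Θ` : coordinates `Θ` on the tube of radius `R` in which the two closed
  2-forms `w`, `w'` of a space with real charts are nearly constant and have zero periods
-/

set_option autoImplicit false
set_option maxSynthPendingDepth 3

open Set Filter Topology Metric
open scoped ContDiff

namespace Crest.Agent.R281.T5D_808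

open Crest.Agent.R281.Mc673 Crest.Agent.R281.HkR_835
open Crest.Agent.R281.Per_368 (SmI pull)
open Crest.Agent.R238.Sch (ee)

noncomputable section

/-- coordinates on the tube of radius `R` in which `w`, `w'` are nearly constant -/
structure TubeD {V' X : Type} [NormedAddCommGroup V'] [NormedSpace ℝ V'] [TopologicalSpace X]
    (C : RCh V' X) (w w' : F2 C) (N : ℕ) (R Λ δ : ℝ) (Θ : W N → X) : Prop where
  sm : SmI C (tube N R) Θ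
  /-- local diffeomorphism -/
  bij : ∀ p ∈ tube N R, ∀ i, Θ p ∈ (C.e i).source →
    Function.Bijective (fderiv ℝ (fun q => C.e i (Θ q)) p)
  /-- injective modulo `ℤ^N` -/
  eq_iff : ∀ p ∈ tube N R, ∀ q ∈ tube N R, Θ p = Θ q ↔ ∃ k : Fin N → ℤ, p = (q.1 + kv k, q.2)
  cx : ClF R (pull w Θ)
  cy : ClF R (pull w' Θ)
  bd : ∀ p ∈ tube N R, ‖pull w Θ p‖ ≤ Λ ∧ ‖pull w' Θ p‖ ≤ Λ
  nd : ∀ p ∈ tube N R, ∀ u, ‖u‖ ≤ Λ * ‖pull w Θ p u‖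
  dd : ∀ p ∈ tube N R, ‖fderiv ℝ (pull w Θ) p‖ ≤ δ ∧ ‖fderiv ℝ (fderiv ℝ (pull w Θ)) p‖ ≤ δ ∧
    ‖fderiv ℝ (pull w' Θ) p‖ ≤ δ ∧ ‖fderiv ℝ (fderiv ℝ (pull w' Θ)) p‖ ≤ δ
  cpx : ∀ p ∈ tube N R, ∃ I : W N → W N, (∀ u, I (I u) = -u) ∧
    ∀ u v, pull w Θ p (I u) v = -pull w' Θ p u v
  per0 : ∀ j k, mn (fun θ => pull w Θ (θ, 0) (ee j, 0) (ee k, 0)) = 0 ∧
    mn (fun θ => pull w' Θ (θ, 0) (ee j, 0) (ee k, 0)) = 0
  hh : ∀ p ∈ tube N R, ∀ u v : V N, |pull w Θ p (u, 0) (v, 0)| ≤ δ * ‖u‖ * ‖v‖ ∧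
    |pull w' Θ p (u, 0) (v, 0)| ≤ δ * ‖u‖ * ‖v‖
  vv : ∀ p ∈ tube N R, ∀ u v : V N, |pull w Θ p (0, u) (0, v)| ≤ δ * ‖u‖ * ‖v‖ ∧
    |pull w' Θ p (0, u) (0, v)| ≤ δ * ‖u‖ * ‖v‖

end

end Crest.Agent.R281.T5D_808
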