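import Crest.Agent.R281.Tube2_242

/-!
# R281, S-TUBE part 3 (helper242): standard coordinates on the strip modulo its lattice
-/

set_option autoImplicit false
set_option linter.unusedSectionVars false

open Set Filter Topology Metric Complex

namespace Crest.Agent.R281.Tube_242

noncomputable section

variable {N : ℕ}

/-- `i y` for a real vector `y` -/
def iV (y : Fin N → ℝ) : Cn N := WithLp.toLp 2 (fun j => (y j : ℂ) * I)

@[simp] theorem iV_apply (y : Fin N → ℝ) (j : Fin N) : iV y j = (y j : ℂ) * I := rfl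

theorem iV_add (y y' : Fin N → ℝ) : iV (y + y') = iV y + iV y' := by
  ext j; simp [add_mul]

theorem iV_zsmul (n : ℤ) (y : Fin N → ℝ) : iV (n • y) = n • iV y := by
  ext j; simp [mul_assoc]

/-- the real lattice attached to `Λ` -/
def LL (Λ : AddSubgroup (Cn N)) : Submodule ℤ (Fin N → ℝ) where
  carrier := {y | iV y ∈ Λ}
  zero_mem' := by
    have : iV (0 : Fin N → ℝ) = 0 := by ext j; simp
    show iV (0 : Fin N → ℝ) ∈ Λ
    rw [this]; exact zero_mem _
  add_mem' := by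
    intro a b ha hb
    show iV (a + b) ∈ Λ
    rw [iV_add]; exact add_mem ha hb
  smul_mem' := by
    intro n a ha
    show iV (n • a) ∈ Λ
    rw [iV_zsmul]; exact Λ.zsmul_mem ha n

theorem mem_LL {Λ : AddSubgroup (Cn N)} {y : Fin N → ℝ} : y ∈ LL Λ ↔ iV y ∈ Λ := Iff.rfl

theorem discrete_LL {Λ : AddSubgroup (Cn N)} (h : Λ ≤ KL (fun _ => 1)) :
    DiscreteTopology (LL Λ) := by
  apply discreteTopology_of_isOpen_singleton_zero
  have h1 : ({0} : Set (LL Λ)) = {y : LL Λ | ‖(y : Fin N → ℝ)‖ < 1} := by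
    ext y
    simp only [mem_singleton_iff, mem_ofPred_eq]
    constructor
    · rintro rfl; simp
    · intro hy
      apply Subtype.ext
      funext j
      obtain ⟨n, hn⟩ := h y.2 j
      rw [iV_apply] at hn
      have h2 : ((y : Fin N → ℝ) j) = n * (2 * Real.pi) := by
        have h3 : (((y : Fin N → ℝ) j : ℂ) * I).im = ((n : ℂ) * ((1 : ℕ) * (2 * Real.pi * I))).im := by
          rw [hn]
        simpa using h3
      have h4 : |((y : Fin N → ℝ) j)| < 1 := by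
        rw [← Real.norm_eq_abs]
        exact (norm_le_pi_norm (y : Fin N → ℝ) j).trans_lt hy
      have h5 : n = 0 := by
        by_contra hne
        have h6 : (1 : ℝ) ≤ |(n : ℝ)| := by
          have := Int.one_le_abs hne
          exact_mod_cast this
        rw [h2, abs_mul, abs_of_pos (by positivity : (0 : ℝ) < 2 * Real.pi)] at h4
        nlinarith [Real.pi_gt_three]
      rw [h2, h5]; simp
  rw [h1]
  exact isOpen_lt (by fun_prop) continuous_const

theorem isZLattice_LL {Λ : AddSubgroup (Cn N)} {k : Fin N → ℕ} (hk : ∀ j, 1 ≤ k j)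
    (h : KL k ≤ Λ) : Submodule.span ℝ (LL Λ : Set (Fin N → ℝ)) = ⊤ := by
  classical
  rw [eq_top_iff, ← (Pi.basisFun ℝ (Fin N)).span_eq, Submodule.span_le]
  rintro _ ⟨j, rfl⟩
  rw [Pi.basisFun_apply]
  have h1 : (Pi.single j (2 * Real.pi * k j) : Fin N → ℝ) ∈ LL Λ := by
    rw [mem_LL]
    apply h
    intro i
    rw [iV_apply]
    by_cases hij : i = j
    · subst hij
      refine ⟨1, ?_⟩
      rw [Pi.single_eq_same]; push_cast; ring
    · refine ⟨0, ?_⟩
      rw [Pi.single_eq_of_ne hij]; simp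
  have hkj : (0 : ℝ) < k j := by
    have := hk j
    exact_mod_cast this
  have h2 : (Pi.single j 1 : Fin N → ℝ) =
      (2 * Real.pi * k j)⁻¹ • (Pi.single j (2 * Real.pi * k j) : Fin N → ℝ) := by
    funext i
    by_cases hij : i = j
    · subst hij
      rw [Pi.smul_apply, Pi.single_eq_same, Pi.single_eq_same, smul_eq_mul,
        inv_mul_cancel₀ (by positivity)]
    · rw [Pi.smul_apply, Pi.single_eq_of_ne hij, Pi.single_eq_of_ne hij, smul_zero]
  rw [h2]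
  exact Submodule.smul_mem _ _ (Submodule.subset_span h1)

/-- a basis of the lattice -/
theorem exists_basis {Λ : AddSubgroup (Cn N)} {k : Fin N → ℕ} (hk : ∀ j, 1 ≤ k j)
    (h : KL k ≤ Λ) (h' : Λ ≤ KL (fun _ => 1)) :
    ∃ A : (Fin N → ℝ) ≃L[ℝ] (Fin N → ℝ), ∀ θ : Fin N → ℝ,
      iV (A θ) ∈ Λ ↔ ∀ j, ∃ n : ℤ, θ j = n := by
  have h1 : DiscreteTopology (LL Λ) := discrete_LL h'
  have h2 : IsZLattice ℝ (LL Λ) := ⟨isZLattice_LL hk h⟩
  let b := IsZLattice.basis (LL Λ)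
  let B := b.ofZLatticeBasis ℝ (LL Λ)
  refine ⟨B.equivFunL.symm, ?_⟩
  intro θ
  rw [← mem_LL]
  have h3 : (B.equivFunL.symm θ ∈ LL Λ) ↔ B.equivFunL.symm θ ∈ Submodule.span ℤ (Set.range B) := by
    rw [b.ofZLatticeBasis_span ℝ]
  rw [h3, B.mem_span_iff_repr_mem ℤ]
  have h4 : ∀ i, B.repr (B.equivFunL.symm θ) i = θ i := by
    intro i
    have := congrFun (B.equivFunL.apply_symm_apply θ) i
    exact this
  simp only [h4]
  constructor
  · intro h5 j
    obtain ⟨n, hn⟩ := h5 j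
    exact ⟨n, by simpa using hn.symm⟩
  · intro h5 j
    obtain ⟨n, hn⟩ := h5 j
    exact ⟨n, by simpa using hn.symm⟩

/-- the admissible lattices -/
def Adm (N d : ℕ) : Set (AddSubgroup (Cn N)) :=
  {Λ | (∃ k : Fin N → ℕ, (∀ j, 1 ≤ k j ∧ k j ≤ d) ∧ KL k ≤ Λ) ∧ Λ ≤ KL (fun _ => 1)}

theorem finite_Adm (N d : ℕ) : (Adm N d).Finite := by
  classical
  let D : ℕ := d.factorial
  have hD : 0 < D := d.factorial_pos
  let S : AddSubgroup (Cn N) → Set (Fin N → Fin D) := fun Λ =>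
    {m | iV (fun j => 2 * Real.pi * ((m j : ℕ) : ℝ)) ∈ Λ}
  have hinj : InjOn S (Adm N d) := by
    have key : ∀ Λ ∈ Adm N d, ∀ Λ' ∈ Adm N d, S Λ ⊆ S Λ' → Λ ≤ Λ' := by
      rintro Λ ⟨⟨k, hk, hkL⟩, hL⟩ Λ' ⟨⟨k', hk', hkL'⟩, hL'⟩ hS l hl
      choose n hn using hL hl
      -- reduce modulo `D`
      have hK : ∀ (k : Fin N → ℕ), (∀ j, 1 ≤ k j ∧ k j ≤ d) → ∀ q : Fin N → ℤ,
          iV (fun j => 2 * Real.pi * ((D * q j : ℤ) : ℝ)) ∈ KL k := by
        intro k hk q j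
        obtain ⟨a, ha⟩ := Nat.dvd_factorial (hk j).1 (hk j).2
        refine ⟨a * q j, ?_⟩
        rw [iV_apply]
        have : (D : ℤ) = k j * a := by
          show ((d.factorial : ℕ) : ℤ) = _
          rw [ha]; push_cast; ring
        rw [this]; push_cast; ring
      let q : Fin N → ℤ := fun j => n j / D
      let m : Fin N → Fin D := fun j => ⟨(n j % D).toNat, by
        have h1 := Int.emod_lt_of_pos (n j) (by exact_mod_cast hD : (0 : ℤ) < D)
        have h2 := Int.emod_nonneg (n j) (by exact_mod_cast hD.ne' : (D : ℤ) ≠ 0)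
        omega⟩
      have hm : ∀ j, (((m j : ℕ) : ℤ)) = n j % D := by
        intro j
        show (((n j % D).toNat : ℕ) : ℤ) = _
        exact Int.toNat_of_nonneg (Int.emod_nonneg _ (by exact_mod_cast hD.ne'))
      have hdec : l = iV (fun j => 2 * Real.pi * ((m j : ℕ) : ℝ)) +
          iV (fun j => 2 * Real.pi * ((D * q j : ℤ) : ℝ)) := by
        ext j
        rw [PiLp.add_apply, iV_apply, iV_apply, hn j]
        have h3 : ((m j : ℕ) : ℝ) = ((n j % D : ℤ) : ℝ) := by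
          rw [← hm j]; push_cast; ring
        have h4 : n j = n j % D + D * q j := (Int.emod_add_mul_ediv (n j) D).symm
        rw [h3]
        have h5 : (n j : ℂ) = ((n j % D : ℤ) : ℂ) + ((D * q j : ℤ) : ℂ) := by
          rw [← Int.cast_add, ← h4]
        rw [h5]; push_cast; ring
      have h6 : iV (fun j => 2 * Real.pi * ((m j : ℕ) : ℝ)) ∈ Λ := by
        have h7 := Λ.sub_mem hl (hkL (hK k hk q))
        rw [hdec, add_sub_cancel_right] at h7
        exact h7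
      have h8 : m ∈ S Λ' := hS h6
      rw [hdec]
      exact Λ'.add_mem h8 (hkL' (hK k' hk' q))
    intro Λ hΛ Λ' hΛ' hS
    exact le_antisymm (key Λ hΛ Λ' hΛ' hS.subset) (key Λ' hΛ' Λ hΛ hS.symm.subset)
  exact Set.Finite.of_injOn (f := S) (mapsTo_univ _ _) hinj Set.finite_univ

/-- bases with uniform bounds -/
theorem exists_basis_bdd (N d : ℕ) : ∃ M : ℝ, 0 < M ∧ ∀ Λ ∈ Adm N d,
    ∃ A : (Fin N → ℝ) ≃L[ℝ] (Fin N → ℝ),
      ‖(A : (Fin N → ℝ) →L[ℝ] (Fin N → ℝ))‖ ≤ M ∧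
      ‖(A.symm : (Fin N → ℝ) →L[ℝ] (Fin N → ℝ))‖ ≤ M ∧
      ∀ θ : Fin N → ℝ, iV (A θ) ∈ Λ ↔ ∀ j, ∃ n : ℤ, θ j = n := by
  classical
  have h : ∀ Λ : AddSubgroup (Cn N), ∃ A : (Fin N → ℝ) ≃L[ℝ] (Fin N → ℝ), Λ ∈ Adm N d →
      ∀ θ : Fin N → ℝ, iV (A θ) ∈ Λ ↔ ∀ j, ∃ n : ℤ, θ j = n := by
    intro Λ
    by_cases hΛ : Λ ∈ Adm N d
    · obtain ⟨⟨k, hk, hkL⟩, hL⟩ := hΛ
      obtain ⟨A, hA⟩ := exists_basis (fun j => (hk j).1) hkL hL
      exact ⟨A, fun _ => hA⟩
    · exact ⟨ContinuousLinearEquiv.refl ℝ _, fun h => absurd h hΛ⟩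
  choose A hA using h
  obtain ⟨M₁, hM₁⟩ := ((finite_Adm N d).image fun Λ =>
    ‖(A Λ : (Fin N → ℝ) →L[ℝ] (Fin N → ℝ))‖).bddAbove
  obtain ⟨M₂, hM₂⟩ := ((finite_Adm N d).image fun Λ =>
    ‖((A Λ).symm : (Fin N → ℝ) →L[ℝ] (Fin N → ℝ))‖).bddAbove
  refine ⟨max 1 (max M₁ M₂), by positivity, ?_⟩
  intro Λ hΛ
  refine ⟨A Λ, ?_, ?_, hA Λ hΛ⟩
  · exact (hM₁ ⟨Λ, hΛ, rfl⟩).trans ((le_max_left _ _).trans (le_max_right _ _))
  · exact (hM₂ ⟨Λ, hΛ, rfl⟩).trans ((le_max_right _ _).trans (le_max_right _ _))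

end

end Crest.Agent.R281.Tube_242
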