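import Crest.Agent.R281.TorC_922
import Crest.Agent.R281.SIn_14
import Crest.Agent.R281.Tube3_242
import Crest.Agent.R281.Mc5_673

/-!
# R281, T5-ASM (helper808), part 4: the lattice and the real coordinates

* `exists_basisPi` : uniformly bounded bases of the lattices `d! 2πi ℤ^N ⊆ Lam ⊆ 2πi ℤ^N`
* `TT A`           : `(θ, v) ↦ v + i A θ`, `W N → ℂ^N`, with bounds of `TT A` and of its inverse
* `TT_sub_mem`     : `TT A p - TT A q ∈ Lam ↔ p = q` modulo `ℤ^N` in the first variable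
-/

set_option autoImplicit false
set_option maxSynthPendingDepth 3

open Set Filter Topology Metric Complex
open scoped ContDiff ComplexConjugate

namespace Crest.Agent.R281.T5L_808

open Crest.Agent.R281.Mc673 Crest.Agent.R281.Tor_922
open Crest.Agent.R281.Tube_242 (KL mem_KL Adm iV iV_apply exists_basis_bdd)
open Crest.Agent.R275.Geo (Cn)

noncomputable section

variable {N : ℕ}

/-- the lattice seen in `Cn N` -/
def cnLat (Lam : AddSubgroup (Fin N → ℂ)) : AddSubgroup (Cn N) where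
  carrier := {z | WithLp.ofLp z ∈ Lam}
  add_mem' {a b} ha hb := by
    show WithLp.ofLp (a + b) ∈ Lam
    rw [WithLp.ofLp_add]; exact Lam.add_mem ha hb
  zero_mem' := by
    show WithLp.ofLp (0 : Cn N) ∈ Lam
    rw [WithLp.ofLp_zero]; exact Lam.zero_mem
  neg_mem' {a} ha := by
    show WithLp.ofLp (-a) ∈ Lam
    rw [WithLp.ofLp_neg]; exact Lam.neg_mem ha

theorem mem_cnLat {Lam : AddSubgroup (Fin N → ℂ)} {z : Cn N} :
    z ∈ cnLat Lam ↔ WithLp.ofLp z ∈ Lam := Iff.rfl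

theorem cnLat_adm {Lam : AddSubgroup (Fin N → ℂ)} {d : ℕ} (h1 : Lam ≤ lat (Fin N))
    (h2 : ∀ lam ∈ lat (Fin N), d.factorial • lam ∈ Lam) : cnLat Lam ∈ Adm N d.factorial := by
  refine ⟨⟨fun _ => d.factorial, fun _ => ⟨Nat.factorial_pos d, le_refl _⟩, ?_⟩, ?_⟩
  · intro z hz
    rw [mem_KL] at hz
    rw [mem_cnLat]
    choose n hn using hz
    have h3 : (fun j => (n j : ℂ) * (2 * Real.pi * I)) ∈ lat (Fin N) := fun j => ⟨n j, rfl⟩
    have h4 := h2 _ h3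
    have h5 : WithLp.ofLp z = d.factorial • fun j => (n j : ℂ) * (2 * Real.pi * I) := by
      funext j
      rw [Pi.smul_apply, hn j, nsmul_eq_mul]
      ring
    rw [h5]; exact h4
  · intro z hz
    rw [mem_cnLat] at hz
    rw [mem_KL]
    intro j
    obtain ⟨k, hk⟩ := h1 hz j
    refine ⟨k, ?_⟩
    rw [Nat.cast_one, one_mul]
    exact hk

/-- **bases with uniform bounds** -/
theorem exists_basisPi (N d : ℕ) : ∃ M : ℝ, 0 < M ∧ ∀ Lam : AddSubgroup (Fin N → ℂ),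
    Lam ≤ lat (Fin N) → (∀ lam ∈ lat (Fin N), d.factorial • lam ∈ Lam) →
    ∃ A : (Fin N → ℝ) ≃L[ℝ] (Fin N → ℝ),
      ‖(A : (Fin N → ℝ) →L[ℝ] (Fin N → ℝ))‖ ≤ M ∧
      ‖(A.symm : (Fin N → ℝ) →L[ℝ] (Fin N → ℝ))‖ ≤ M ∧
      ∀ θ : Fin N → ℝ, (fun j => ((A θ j : ℝ) : ℂ) * I) ∈ Lam ↔ ∀ j, ∃ n : ℤ, θ j = n := by
  obtain ⟨M, hM, h⟩ := exists_basis_bdd N d.factorial
  refine ⟨M, hM, fun Lam h1 h2 => ?_⟩
  obtain ⟨A, hA1, hA2, hA3⟩ := h _ (cnLat_adm h1 h2)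
  refine ⟨A, hA1, hA2, fun θ => ?_⟩
  rw [← hA3 θ]
  exact Iff.rfl

/-- `(θ, v) ↦ v + i A θ` -/
def TT (A : (Fin N → ℝ) ≃L[ℝ] (Fin N → ℝ)) : W N →L[ℝ] (Fin N → ℂ) :=
  LinearMap.toContinuousLinearMap
    { toFun := fun p j => ((p.2 j : ℝ) : ℂ) + ((A (WithLp.ofLp p.1) j : ℝ) : ℂ) * I
      map_add' := by
        intro p q
        funext j
        simp only [Prod.snd_add, Prod.fst_add, WithLp.ofLp_add, map_add, Pi.add_apply,
          PiLp.add_apply]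
        push_cast; ring
      map_smul' := by
        intro c p
        funext j
        simp only [Prod.smul_snd, Prod.smul_fst, WithLp.ofLp_smul, map_smul, Pi.smul_apply,
          PiLp.smul_apply, smul_eq_mul, RingHom.id_apply, Complex.real_smul]
        push_cast; ring }

variable {A : (Fin N → ℝ) ≃L[ℝ] (Fin N → ℝ)}

theorem TT_apply (p : W N) (j : Fin N) :
    TT A p j = ((p.2 j : ℝ) : ℂ) + ((A (WithLp.ofLp p.1) j : ℝ) : ℂ) * I := rfl

theorem TT_re (p : W N) (j : Fin N) : (TT A p j).re = p.2 j := by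
  rw [TT_apply]; simp

theorem TT_im (p : W N) (j : Fin N) : (TT A p j).im = A (WithLp.ofLp p.1) j := by
  rw [TT_apply]; simp

/-- the inverse -/
def TI (A : (Fin N → ℝ) ≃L[ℝ] (Fin N → ℝ)) (z : Fin N → ℂ) : W N :=
  (WithLp.toLp 2 (A.symm fun j => (z j).im), WithLp.toLp 2 fun j => (z j).re)

theorem TT_TI (z : Fin N → ℂ) : TT A (TI A z) = z := by
  funext j
  apply Complex.ext
  · rw [TT_re]; rfl
  · rw [TT_im]
    show A (A.symm _) j = _
    rw [A.apply_symm_apply]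

theorem TI_TT (p : W N) : TI A (TT A p) = p := by
  refine Prod.ext ?_ ?_
  · show WithLp.toLp 2 (A.symm fun j => (TT A p j).im) = p.1
    have : (fun j => (TT A p j).im) = A (WithLp.ofLp p.1) := funext fun j => TT_im p j
    rw [this, A.symm_apply_apply]
  · show WithLp.toLp 2 (fun j => (TT A p j).re) = p.2
    have : (fun j => (TT A p j).re) = WithLp.ofLp p.2 := funext fun j => TT_re p j
    rw [this]

theorem norm_TT_le {M : ℝ} (hA : ‖(A : (Fin N → ℝ) →L[ℝ] (Fin N → ℝ))‖ ≤ M) :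
    ‖TT A‖ ≤ 1 + M := by
  have hM : 0 ≤ M := (norm_nonneg _).trans hA
  refine ContinuousLinearMap.opNorm_le_bound _ (by positivity) fun p => ?_
  refine (pi_norm_le_iff_of_nonneg (by positivity)).2 fun j => ?_
  rw [TT_apply]
  have h1 : ‖((p.2 j : ℝ) : ℂ)‖ ≤ ‖p‖ := by
    rw [Complex.norm_real]
    exact (PiLp.norm_apply_le p.2 j).trans (norm_snd_le p)
  have h2 : ‖((A (WithLp.ofLp p.1) j : ℝ) : ℂ) * I‖ ≤ M * ‖p‖ := by
    rw [norm_mul, Complex.norm_I, mul_one, Complex.norm_real]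
    have h3 : ‖A (WithLp.ofLp p.1)‖ ≤ M * ‖WithLp.ofLp p.1‖ :=
      ((A : (Fin N → ℝ) →L[ℝ] (Fin N → ℝ)).le_opNorm _).trans (by gcongr)
    have h4 : ‖WithLp.ofLp p.1‖ ≤ ‖p.1‖ :=
      (pi_norm_le_iff_of_nonneg (norm_nonneg _)).2 fun i => PiLp.norm_apply_le p.1 i
    calc ‖A (WithLp.ofLp p.1) j‖ ≤ ‖A (WithLp.ofLp p.1)‖ := norm_le_pi_norm _ j
      _ ≤ M * ‖WithLp.ofLp p.1‖ := h3
      _ ≤ M * ‖p‖ := by gcongr; exact h4.trans (norm_fst_le p)
  calc ‖((p.2 j : ℝ) : ℂ) + ((A (WithLp.ofLp p.1) j : ℝ) : ℂ) * I‖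
      ≤ ‖((p.2 j : ℝ) : ℂ)‖ + ‖((A (WithLp.ofLp p.1) j : ℝ) : ℂ) * I‖ := norm_add_le _ _
    _ ≤ (1 + M) * ‖p‖ := by linarith

/-- Euclidean norm and sup norm -/
theorem norm_toLp_le (v : Fin N → ℝ) : ‖(WithLp.toLp 2 v : V N)‖ ≤ N * ‖v‖ := by
  have h1 : (WithLp.toLp 2 v : V N) = ∑ j, v j • (EuclideanSpace.single j (1 : ℝ) : V N) := by
    ext i
    simp [Finset.sum_apply, Pi.single_apply]
  rw [h1]
  refine (norm_sum_le _ _).trans ?_
  calc ∑ j, ‖v j • (EuclideanSpace.single j (1 : ℝ) : V N)‖ ≤ ∑ _j : Fin N, ‖v‖ := by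
        refine Finset.sum_le_sum fun j _ => ?_
        rw [norm_smul, PiLp.norm_single, norm_one, mul_one]
        exact norm_le_pi_norm v j
    _ = N * ‖v‖ := by simp

theorem norm_TI_le {M : ℝ} (hA : ‖(A.symm : (Fin N → ℝ) →L[ℝ] (Fin N → ℝ))‖ ≤ M)
    (z : Fin N → ℂ) : ‖TI A z‖ ≤ N * (1 + M) * ‖z‖ := by
  have hM : 0 ≤ M := (norm_nonneg _).trans hA
  have him : ‖fun j => (z j).im‖ ≤ ‖z‖ :=
    (pi_norm_le_iff_of_nonneg (norm_nonneg _)).2 fun j =>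
      ((Complex.abs_im_le_norm (z j))).trans (norm_le_pi_norm z j)
  have hre : ‖fun j => (z j).re‖ ≤ ‖z‖ :=
    (pi_norm_le_iff_of_nonneg (norm_nonneg _)).2 fun j =>
      ((Complex.abs_re_le_norm (z j))).trans (norm_le_pi_norm z j)
  refine max_le ?_ ?_
  · show ‖(WithLp.toLp 2 (A.symm fun j => (z j).im) : V N)‖ ≤ _
    refine (norm_toLp_le _).trans ?_
    rw [mul_assoc]
    gcongr
    calc ‖A.symm fun j => (z j).im‖ ≤ M * ‖fun j => (z j).im‖ :=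
          ((A.symm : (Fin N → ℝ) →L[ℝ] (Fin N → ℝ)).le_opNorm _).trans (by gcongr)
      _ ≤ M * ‖z‖ := by gcongr
      _ ≤ (1 + M) * ‖z‖ := by gcongr; linarith
  · show ‖(WithLp.toLp 2 (fun j => (z j).re) : V N)‖ ≤ _
    refine (norm_toLp_le _).trans ?_
    rw [mul_assoc]
    gcongr
    calc ‖fun j => (z j).re‖ ≤ ‖z‖ := hre
      _ ≤ (1 + M) * ‖z‖ := by nlinarith [norm_nonneg z]

theorem norm_le_TT {M : ℝ} (hA : ‖(A.symm : (Fin N → ℝ) →L[ℝ] (Fin N → ℝ))‖ ≤ M) (p : W N) :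
    ‖p‖ ≤ N * (1 + M) * ‖TT A p‖ := by
  have := norm_TI_le hA (TT A p)
  rwa [TI_TT] at this

theorem TT_mem_strip {ζ0 : Fin N → ℂ} {r : ℝ} {p : W N} (hp : ‖p.2‖ < r) :
    ζ0 + TT A p ∈ strip ζ0 r := by
  intro j
  rw [Pi.add_apply, Complex.add_re, TT_re, add_sub_cancel_left]
  exact (PiLp.norm_apply_le p.2 j).trans_lt hp

theorem TT_kv (p : W N) (k : Fin N → ℤ) :
    TT A (p.1 + kv k, p.2) = TT A p + fun j => ((A (fun i => (k i : ℝ)) j : ℝ) : ℂ) * I := by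
  have h1 : ((p.1 + kv k, p.2) : W N) = p + (kv k, 0) := by
    refine Prod.ext rfl ?_
    show p.2 = p.2 + 0
    rw [add_zero]
  rw [h1, map_add]
  congr 1
  funext j
  rw [TT_apply]
  simp [kv]

/-- **injectivity modulo the lattices** -/
theorem TT_sub_mem {Lam : AddSubgroup (Fin N → ℂ)} (h1 : Lam ≤ lat (Fin N))
    (hA : ∀ θ : Fin N → ℝ, (fun j => ((A θ j : ℝ) : ℂ) * I) ∈ Lam ↔ ∀ j, ∃ n : ℤ, θ j = n)
    (p q : W N) : TT A p - TT A q ∈ Lam ↔ ∃ k : Fin N → ℤ, p = (q.1 + kv k, q.2) := by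
  constructor
  · intro h
    have h2 : p.2 = q.2 := by
      ext j
      obtain ⟨k, hk⟩ := h1 h j
      have h3 := congrArg Complex.re hk
      rw [Pi.sub_apply, Complex.sub_re, TT_re, TT_re] at h3
      simp at h3
      linarith
    have h4 : TT A p - TT A q =
        fun j => ((A (WithLp.ofLp p.1 - WithLp.ofLp q.1) j : ℝ) : ℂ) * I := by
      funext j
      rw [Pi.sub_apply, TT_apply, TT_apply, h2, map_sub, Pi.sub_apply]
      push_cast; ring
    rw [h4, hA] at h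
    choose k hk using h
    refine ⟨k, Prod.ext ?_ h2⟩
    ext j
    have := hk j
    rw [Pi.sub_apply] at this
    show p.1 j = q.1 j + (k j : ℝ)
    have h5 : (WithLp.ofLp p.1) j - (WithLp.ofLp q.1) j = k j := this
    linarith
  · rintro ⟨k, hk⟩
    rw [hk, TT_kv, add_sub_cancel_left, hA]
    exact fun j => ⟨k j, rfl⟩

end

end Crest.Agent.R281.T5L_808
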