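import Crest.Agent.R281.Per1_368
import Crest.Agent.R281.Mc5_673

/-!
# R281, T5-ASM (helper808), part 6: vanishing periods ==> vanishing mean values
-/

set_option autoImplicit false
set_option maxSynthPendingDepth 3

open MeasureTheory Set Filter Topology Metric
open scoped ContDiff

namespace Crest.Agent.R281.T5M_808

open Crest.Agent.R281.Mc673
open Crest.Agent.R238.Sch (ee)
open Crest.Agent.R275.Tor812 (box volume_box)
open Crest.Agent.R281.Per_368 (per pt)

noncomputable section

variable {N : ℕ}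

theorem mn_shift {f : V N → ℝ} (hf : SP f) (c : V N) : mn (fun x => f (x + c)) = mn f := by
  rw [mn_eq_box hf (WithLp.ofLp c)]
  unfold mn
  have h1 := (measurePreserving_add_right (volume : Measure (Fin N → ℝ))
    (WithLp.ofLp c)).setIntegral_preimage_emb (measurableEmbedding_addRight (WithLp.ofLp c))
    (fun x : Fin N → ℝ => f (WithLp.toLp 2 x)) (box (WithLp.ofLp c))
  have h2 : (fun x : Fin N → ℝ => x + WithLp.ofLp c) ⁻¹' box (WithLp.ofLp c) =
      box (0 : Fin N → ℝ) := by
    ext x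
    show (∀ i, x i + c i ∈ Ioc (c i) (c i + 1)) ↔ ∀ i, x i ∈ Ioc ((0 : Fin N → ℝ) i) (0 + 1)
    refine forall_congr' fun i => ?_
    simp only [mem_Ioc, Pi.zero_apply]
    constructor
    · rintro ⟨a, b⟩; constructor <;> linarith
    · rintro ⟨a, b⟩; constructor <;> linarith
  rw [h2] at h1
  exact h1

theorem mn_zero_of_per {f : V N → ℝ} (hf : SP f) {v w : V N}
    (h : ∀ x : V N, ∫ s in (0:ℝ)..1, ∫ t in (0:ℝ)..1, f (x + s • v + t • w) = 0) : mn f = 0 := by
  obtain ⟨x0, hx0⟩ := Per.exists_max (f := fun x => |f x|)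
    (fun k x => by show |f (x + kv k)| = |f x|; rw [hf.per k x]) hf.cont.abs
  set B : ℝ := |f x0|
  have hB : ∀ x, ‖f x‖ ≤ B := fun x => by rw [Real.norm_eq_abs]; exact hx0 x
  set μ : Measure (Fin N → ℝ) := volume.restrict (box (0 : Fin N → ℝ)) with hμ
  set ν : Measure ℝ := volume.restrict (Ioc (0:ℝ) 1) with hν
  have : IsFiniteMeasure μ := ⟨by
    rw [hμ, Measure.restrict_apply MeasurableSet.univ, univ_inter, volume_box]; simp⟩
  have : IsProbabilityMeasure ν := ⟨by
    rw [hν, Measure.restrict_apply MeasurableSet.univ, univ_inter, Real.volume_Ioc]; simp⟩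
  have hc : Continuous fun p : (Fin N → ℝ) × (ℝ × ℝ) =>
      f (WithLp.toLp 2 p.1 + p.2.1 • v + p.2.2 • w) := by
    refine hf.cont.comp ?_
    have h1 : Continuous fun p : (Fin N → ℝ) × (ℝ × ℝ) => (WithLp.toLp 2 p.1 : V N) :=
      (PiLp.continuous_toLp 2 _).comp continuous_fst
    fun_prop
  have hi : Integrable (Function.uncurry fun (x : Fin N → ℝ) (p : ℝ × ℝ) =>
      f (WithLp.toLp 2 x + p.1 • v + p.2 • w)) (μ.prod (ν.prod ν)) :=
    Integrable.of_bound hc.aestronglyMeasurable B (Eventually.of_forall fun p => hB _)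
  have hsw := integral_integral_swap hi
  -- left side
  have hl : ∫ x, ∫ p, f (WithLp.toLp 2 x + p.1 • v + p.2 • w) ∂(ν.prod ν) ∂μ = 0 := by
    have h1 : ∀ x : Fin N → ℝ, ∫ p, f (WithLp.toLp 2 x + p.1 • v + p.2 • w) ∂(ν.prod ν) = 0 := by
      intro x
      have hcx : Continuous fun p : ℝ × ℝ => f (WithLp.toLp 2 x + p.1 • v + p.2 • w) := by
        refine hf.cont.comp ?_
        fun_prop
      have h2 : Integrable (fun p : ℝ × ℝ => f (WithLp.toLp 2 x + p.1 • v + p.2 • w))
          (ν.prod ν) :=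
        Integrable.of_bound hcx.aestronglyMeasurable B (Eventually.of_forall fun p => hB _)
      rw [integral_prod _ h2]
      have h3 := h (WithLp.toLp 2 x)
      rw [intervalIntegral.integral_of_le zero_le_one] at h3
      rw [← h3]
      refine integral_congr_ae (Eventually.of_forall fun s => ?_)
      show _ = ∫ t in (0:ℝ)..1, f (WithLp.toLp 2 x + s • v + t • w)
      rw [intervalIntegral.integral_of_le zero_le_one]
    simp_rw [h1]
    simp
  have hr : ∫ p, ∫ x, f (WithLp.toLp 2 x + p.1 • v + p.2 • w) ∂μ ∂(ν.prod ν) = mn f := by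
    have h1 : ∀ p : ℝ × ℝ, ∫ x, f (WithLp.toLp 2 x + p.1 • v + p.2 • w) ∂μ = mn f := by
      intro p
      rw [← mn_shift hf (p.1 • v + p.2 • w)]
      unfold mn
      refine integral_congr_ae (Eventually.of_forall fun x => ?_)
      show f _ = f _
      rw [add_assoc]
    simp_rw [h1]
    simp
  rw [← hr, ← hsw, hl]

/-- the form in terms of `per` on the tube -/
theorem mn_zero {r : ℝ} (hr : 0 < r) {x : Fo N} (hx : ClF r x) (j k : Fin N)
    (h : ∀ θ : V N, per x ((θ, 0) : W N) (ee j, 0) (ee k, 0) = 0) :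
    mn (fun θ => x (θ, 0) (ee j, 0) (ee k, 0)) = 0 := by
  have hz : ∀ θ : V N, ((θ, 0) : W N) ∈ tube N r := fun θ => by
    show ‖(0 : V N)‖ < r
    rw [norm_zero]; exact hr
  have hsp : SP (fun θ : V N => x (θ, 0) (ee j, 0) (ee k, 0)) := by
    refine ⟨?_, fun m θ => ?_⟩
    · refine contDiff_iff_contDiffAt.2 fun θ => ?_
      have h1 : ContDiffAt ℝ ∞ (fun θ : V N => x (θ, 0)) θ :=
        ContDiffAt.comp θ (hx.cda (p := (θ, 0)) (hz θ)) (contDiffAt_id.prodMk contDiffAt_const)
      exact (h1.clm_apply contDiffAt_const).clm_apply contDiffAt_const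
    · show x (θ + kv m, 0) _ _ = _
      rw [hx.per m (θ, 0) (hz θ)]
  refine mn_zero_of_per hsp (v := ee j) (w := ee k) fun θ => ?_
  refine Eq.trans ?_ (h θ)
  unfold per pt
  refine intervalIntegral.integral_congr fun s _ => ?_
  refine intervalIntegral.integral_congr fun t _ => ?_
  have e : ((θ, 0) : W N) + s • ((ee j, 0) : W N) + t • ((ee k, 0) : W N) =
      ((θ + s • ee j + t • ee k, 0) : W N) := by
    refine Prod.ext rfl ?_
    simp
  show x (θ + s • ee j + t • ee k, 0) _ _ = x _ _ _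
  rw [e]

end

end Crest.Agent.R281.T5M_808
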