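import Crest.Agent.R281.Per7_368
import Crest.Agent.R281.T5A3_808

/-!
# R281, T5-ASM (helper808), part 5: the three forms on the strip

`Φ` holomorphic local biholomorphism on the open `S ⊆ ℂ^N` (`HolI`, 368).

* `dPhi`, `dPhi_I`, `dPhi_inj`, `dPhi_surj` : the differential in a chart
* `pull_kah`     : `Φ^*ω (u, v) = Re (i ∑ G_ab u_a conj v_b)`, `G = pbg K Φ`
* `pull_T20`     : `(Φ^*om_1, Φ^*om_2)` is a closed form of type (2,0) when `J_0 = i`
* `pull_le`      : `|Φ^*om_k (u, v)|² ≤ q(u) q(v)`, `q u = Φ^*om_0 (u, i u)`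
* `d_kah`        : derivatives of `Φ^*ω` from those of `G`
-/

set_option autoImplicit false
set_option linter.unusedSectionVars false
set_option maxSynthPendingDepth 3

open Set Filter Topology Complex Metric
open scoped ContDiff Matrix ComplexConjugate ComplexOrder

namespace Crest.Agent.R281.T5P_808

open Crest.Agent.R275.Geo Crest.Agent.R275.Core144 Crest.Agent.R275.EDR890
open Crest.Agent.R273.Defs_333 Crest.Agent.R273.Hess_333 Crest.Agent.R273.HessB_333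
open Crest.Agent.R273.HM_333 Crest.Agent.R273.Kah_333 Crest.Agent.R273.Vol_333
open Crest.Agent.R273.Vm_333 Crest.Agent.R273.FIb0_597
open Crest.Agent.R281.Tor_922 Crest.Agent.R281.SIn_14
open Crest.Agent.R281.HkR_835 Crest.Agent.R281.Per_368 Crest.Agent.R281.T5A_808

noncomputable section

variable {N : ℕ} {M : Type} [TopologicalSpace M] {A : Atl N M}
variable {S : Set (Fin N → ℂ)} {Φ : (Fin N → ℂ) → M}

/-! ### the differential -/

theorem fderiv_C (h : HolI A S Φ) {ζ : Fin N → ℂ} (hζ : ζ ∈ S) {i : A.ι}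
    (hi : Φ ζ ∈ (A.e i).source) (u : Fin N → ℂ) :
    fderiv ℝ (fun y => A.e i (Φ y)) ζ u = fderiv ℂ (fun y => A.e i (Φ y)) ζ u := by
  rw [((h.hol ζ hζ i hi).1).fderiv_restrictScalars ℝ]; rfl

theorem dPhi (h : HolI A S Φ) {ζ : Fin N → ℂ} (hζ : ζ ∈ S) {i : A.ι}
    (hi : Φ ζ ∈ (A.e i).source) (u : Fin N → ℂ) :
    (fderiv ℝ (fun y => A.e i (Φ y)) ζ u).ofLp = jac A Φ i ζ *ᵥ u := by
  rw [fderiv_C h hζ hi]
  set D := fderiv ℂ (fun y => A.e i (Φ y)) ζ with hD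
  have h3 : D u = ∑ a, u a • D (Pi.single a 1) := by
    conv_lhs => rw [pi_eq_sum_univ' u]
    rw [map_sum]
    refine Finset.sum_congr rfl fun a _ => ?_
    rw [map_smul]
  rw [h3]
  ext b
  simp only [WithLp.ofLp_sum, WithLp.ofLp_smul, Finset.sum_apply, Pi.smul_apply, smul_eq_mul,
    Matrix.mulVec, dotProduct]
  refine Finset.sum_congr rfl fun a _ => ?_
  rw [mul_comm]; rfl

theorem dPhi_I (h : HolI A S Φ) {ζ : Fin N → ℂ} (hζ : ζ ∈ S) {i : A.ι}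
    (hi : Φ ζ ∈ (A.e i).source) (u : Fin N → ℂ) :
    fderiv ℝ (fun y => A.e i (Φ y)) ζ (I • u) = I • fderiv ℝ (fun y => A.e i (Φ y)) ζ u := by
  rw [fderiv_C h hζ hi, fderiv_C h hζ hi, map_smul]

theorem dPhi_inj (h : HolI A S Φ) {ζ : Fin N → ℂ} (hζ : ζ ∈ S) {i : A.ι}
    (hi : Φ ζ ∈ (A.e i).source) {u : Fin N → ℂ}
    (hu : fderiv ℝ (fun y => A.e i (Φ y)) ζ u = 0) : u = 0 := by
  have h1 := dPhi h hζ hi u
  rw [hu] at h1
  exact Matrix.eq_zero_of_mulVec_eq_zero (h.hol ζ hζ i hi).2 h1.symm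

theorem dPhi_surj (h : HolI A S Φ) {ζ : Fin N → ℂ} (hζ : ζ ∈ S) {i : A.ι}
    (hi : Φ ζ ∈ (A.e i).source) (w : Cn N) :
    ∃ u, fderiv ℝ (fun y => A.e i (Φ y)) ζ u = w := by
  refine ⟨(jac A Φ i ζ)⁻¹ *ᵥ w.ofLp, ?_⟩
  have h1 := dPhi h hζ hi ((jac A Φ i ζ)⁻¹ *ᵥ w.ofLp)
  rw [Matrix.mulVec_mulVec, Matrix.mul_nonsing_inv _ (Ne.isUnit (h.hol ζ hζ i hi).2),
    Matrix.one_mulVec] at h1
  exact (WithLp.ofLp_injective 2) h1

/-! ### the Kaehler form -/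

theorem pull_kah (h : HolI A S Φ) (K : Kah A) {ζ : Fin N → ℂ} (hζ : ζ ∈ S) (u v : Fin N → ℂ) :
    pull (ofKah K).f2 Φ ζ u v =
      (I * hb (pbg K Φ ζ) (WithLp.toLp 2 u) (WithLp.toLp 2 v)).re := by
  have hi := mem_ch A (Φ ζ)
  rw [h.smI.pull_eq (ofKah K).f2 (i := ch A (Φ ζ)) hζ hi, pl_apply]
  have h1 := K11.f2_w (ofKah K) (i := ch A (Φ ζ)) ((A.e (ch A (Φ ζ))).map_source hi)
    (fderiv ℝ (fun y => A.e (ch A (Φ ζ)) (Φ y)) ζ u)
    (fderiv ℝ (fun y => A.e (ch A (Φ ζ)) (Φ y)) ζ v)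
  rw [(A.e (ch A (Φ ζ))).left_inv hi] at h1
  refine h1.trans ?_
  congr 2
  exact hb_mulVec (u := WithLp.toLp 2 u) (v := WithLp.toLp 2 v) _ _ (dPhi h hζ hi u)
    (dPhi h hζ hi v)

/-! ### the forms of a hyperkaehler triple -/

variable {V X : Type} [NormedAddCommGroup V] [NormedSpace ℝ V] [TopologicalSpace X] {C : RCh V X}

/-- Cauchy-Schwarz -/
theorem cs {B : Bil V} (hs : ∀ u v, B u v = B v u) (hp : ∀ v, 0 ≤ B v v) (u v : V) :
    (B u v) ^ 2 ≤ B u u * B v v := by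
  by_cases hv : B v v = 0
  · -- `B u v = 0`
    have h1 : ∀ t : ℝ, 0 ≤ B u u + 2 * t * B u v := by
      intro t
      have := hp (u + t • v)
      simp only [map_add, map_smul, add_apply, smul_apply, smul_eq_mul] at this
      rw [hs v u, hv] at this
      linarith
    have h2 : B u v = 0 := by
      by_contra hne
      have h3 := h1 (-(B u u + 1) / (2 * B u v))
      have h4 : 2 * (-(B u u + 1) / (2 * B u v)) * B u v = -(B u u + 1) := by
        field_simp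
      rw [h4] at h3
      linarith
    rw [h2, hv]; simp
  · have hv' : 0 < B v v := lt_of_le_of_ne (hp v) (Ne.symm hv)
    have := hp (B v v • u - B u v • v)
    simp only [map_sub, map_smul, sub_apply, smul_apply, smul_eq_mul] at this
    rw [hs v u] at this
    have h2 : 0 ≤ B v v * (B u u * B v v - (B u v) ^ 2) := by nlinarith
    have h3 := nonneg_of_mul_nonneg_right h2 hv'
    linarith

theorem om_le (H : HkT C) (k : Fin 3) {i : C.ι} {z : V} (hz : z ∈ (C.e i).target) (u v : V) :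
    ((H.om k).w i z u v) ^ 2 ≤
      (H.om 0).w i z u (H.J 0 i z u) * (H.om 0).w i z v (H.J 0 i z v) := by
  have hp : ∀ v, 0 ≤ H.g i z v v := by
    intro v
    by_cases hv : v = 0
    · rw [hv]; simp
    · exact (H.g_pos i z hz v hv).le
  rw [H.om_eq k i z hz, H.om_eq 0 i z hz, H.om_eq 0 i z hz, H.g_J 0 hz, H.g_J 0 hz,
    ← H.g_J k hz u u]
  exact cs (H.g_symm i z hz) hp _ _

variable (H : HkT (ofAtl A)) (hJ : ∀ (i : A.ι), ∀ z ∈ (A.e i).target, ∀ v : Cn N, H.J 0 i z v = I • v)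

include hJ in
theorem pull_T20 (h : HolI A S Φ) : T20 S (pull (H.om 1) Φ) (pull (H.om 2) Φ) := by
  have key : ∀ z ∈ S, ∀ u v, pull (H.om 1) Φ z (I • u) v = -pull (H.om 2) Φ z u v ∧
      pull (H.om 2) Φ z (I • u) v = pull (H.om 1) Φ z u v := by
    intro z hz u v
    have hi := mem_ch A (Φ z)
    have ht := (A.e (ch A (Φ z))).map_source hi
    rw [h.smI.pull_eq (H.om 1) (i := ch A (Φ z)) hz hi,
      h.smI.pull_eq (H.om 2) (i := ch A (Φ z)) hz hi, pl_apply, pl_apply, pl_apply, pl_apply]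
    have h1 := H.om_J (k := 0) (l := 1) (m := 2) (Or.inl rfl) (i := ch A (Φ z)) ht
      (fderiv ℝ (fun y => A.e (ch A (Φ z)) (Φ y)) z u)
      (fderiv ℝ (fun y => A.e (ch A (Φ z)) (Φ y)) z v)
    rw [hJ _ _ ht, ← dPhi_I h hz hi] at h1
    exact h1
  exact {
    op := h.op
    s1 := h.smI.pull_smooth _
    s2 := h.smI.pull_smooth _
    a1 := (h.smI.pull_cl _).alt
    a2 := (h.smI.pull_cl _).alt
    c1 := (h.smI.pull_cl _).closed
    c2 := (h.smI.pull_cl _).closed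
    t1 := fun z hz u v => (key z hz u v).1
    t2 := fun z hz u v => (key z hz u v).2 }

include hJ in
theorem pull_le (h : HolI A S Φ) (k : Fin 3) {ζ : Fin N → ℂ} (hζ : ζ ∈ S) (u v : Fin N → ℂ) :
    (pull (H.om k) Φ ζ u v) ^ 2 ≤
      pull (H.om 0) Φ ζ u (I • u) * pull (H.om 0) Φ ζ v (I • v) := by
  have hi := mem_ch A (Φ ζ)
  have ht := (A.e (ch A (Φ ζ))).map_source hi
  rw [h.smI.pull_eq (H.om k) (i := ch A (Φ ζ)) hζ hi,
      h.smI.pull_eq (H.om 0) (i := ch A (Φ ζ)) hζ hi, pl_apply, pl_apply, pl_apply]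
  have h1 := om_le H k (i := ch A (Φ ζ)) ht
    (fderiv ℝ (fun y => A.e (ch A (Φ ζ)) (Φ y)) ζ u)
    (fderiv ℝ (fun y => A.e (ch A (Φ ζ)) (Φ y)) ζ v)
  rw [hJ _ _ ht, hJ _ _ ht, ← dPhi_I h hζ hi, ← dPhi_I h hζ hi] at h1
  exact h1

/-! ### lower pinching -/

theorem hb_pinch_low {G G0 : Matrix (Fin N) (Fin N) ℂ} {c ε : ℝ} (hc : 0 ≤ c) (hε : 0 ≤ ε)
    (hup : (G0 - ((c : ℝ) : ℂ) • (1 : Matrix (Fin N) (Fin N) ℂ)).PosSemidef)
    (hcl : ∀ a b, ‖G a b - G0 a b‖ ≤ ε) (u : Fin N → ℂ) :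
    (c - ε * N ^ 2) * ‖u‖ ^ 2 ≤ (hb G (WithLp.toLp 2 u) (WithLp.toLp 2 u)).re := by
  have hle : ∀ a, ‖u a‖ ≤ ‖u‖ := fun a => norm_le_pi_norm u a
  have h1 : c * ∑ a, ‖u a‖ ^ 2 ≤ (hb G0 (WithLp.toLp 2 u) (WithLp.toLp 2 u)).re := by
    have h2 := hup.re_dotProduct_nonneg (fun a => conj (u a))
    have h3 : star (fun a => conj (u a)) = u := by funext a; simp
    rw [h3, Matrix.sub_mulVec, dotProduct_sub, Matrix.smul_mulVec, Matrix.one_mulVec,
      dotProduct_smul] at h2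
    have h4 : u ⬝ᵥ (fun a => conj (u a)) = ((∑ a, ‖u a‖ ^ 2 : ℝ) : ℂ) := by
      simp only [dotProduct]
      push_cast
      exact Finset.sum_congr rfl fun a _ => by
        rw [Complex.mul_conj, Complex.normSq_eq_norm_sq]; push_cast; rfl
    have h5 : u ⬝ᵥ (G0 *ᵥ fun a => conj (u a)) =
        hb G0 (WithLp.toLp 2 u) (WithLp.toLp 2 u) := (hb_eq_dot G0 _ _).symm
    rw [h4, h5] at h2
    simp only [RCLike.re_to_complex, Complex.sub_re, smul_eq_mul] at h2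
    rw [← Complex.ofReal_mul, Complex.ofReal_re] at h2
    linarith
  have h6 : ‖u‖ ^ 2 ≤ ∑ a, ‖u a‖ ^ 2 := by
    rcases isEmpty_or_nonempty (Fin N) with hN | hN
    · have : u = 0 := Subsingleton.elim _ _
      rw [this]; simp
    · obtain ⟨a, ha⟩ := Finite.exists_max fun a => ‖u a‖
      have h7 : ‖u‖ ≤ ‖u a‖ := (pi_norm_le_iff_of_nonneg (norm_nonneg _)).2 ha
      calc ‖u‖ ^ 2 ≤ ‖u a‖ ^ 2 := by gcongr
        _ ≤ ∑ a, ‖u a‖ ^ 2 := Finset.single_le_sum (f := fun a => ‖u a‖ ^ 2)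
            (fun i _ => by positivity) (Finset.mem_univ a)
  have h8 : ‖hb (G - G0) (WithLp.toLp 2 u) (WithLp.toLp 2 u)‖ ≤ ε * N ^ 2 * ‖u‖ ^ 2 := by
    unfold hb
    calc ‖∑ a, ∑ b, (G - G0) a b * (WithLp.toLp 2 u : Cn N) a * conj ((WithLp.toLp 2 u : Cn N) b)‖
        ≤ ∑ a, ∑ b, ‖(G - G0) a b * (WithLp.toLp 2 u : Cn N) a *
            conj ((WithLp.toLp 2 u : Cn N) b)‖ :=
          (norm_sum_le _ _).trans (Finset.sum_le_sum fun a _ => norm_sum_le _ _)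
      _ ≤ ∑ _a : Fin N, ∑ _b : Fin N, ε * ‖u‖ ^ 2 := by
          refine Finset.sum_le_sum fun a _ => Finset.sum_le_sum fun b _ => ?_
          rw [norm_mul, norm_mul, RCLike.norm_conj, Matrix.sub_apply]
          calc ‖G a b - G0 a b‖ * ‖u a‖ * ‖u b‖ ≤ ε * ‖u‖ * ‖u‖ := by
                gcongr
                · exact hcl a b
                · exact hle a
                · exact hle b
            _ = ε * ‖u‖ ^ 2 := by ring
      _ = ε * N ^ 2 * ‖u‖ ^ 2 := by simp; ring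
  have h9 : hb G (WithLp.toLp 2 u) (WithLp.toLp 2 u) =
      hb G0 (WithLp.toLp 2 u) (WithLp.toLp 2 u) +
        hb (G - G0) (WithLp.toLp 2 u) (WithLp.toLp 2 u) := by
    rw [← hbL_apply, ← hbL_apply, ← hbL_apply, ← map_add, add_sub_cancel]
  have h10 := (Complex.abs_re_le_norm _).trans h8
  have h11 := neg_abs_le (hb (G - G0) (WithLp.toLp 2 u) (WithLp.toLp 2 u)).re
  have h12 : c * ‖u‖ ^ 2 ≤ c * ∑ a, ‖u a‖ ^ 2 := by gcongr
  rw [h9, Complex.add_re]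
  nlinarith

theorem pull_kah_I (h : HolI A S Φ) (K : Kah A) {ζ : Fin N → ℂ} (hζ : ζ ∈ S) (u : Fin N → ℂ) :
    pull (ofKah K).f2 Φ ζ u (I • u) =
      (hb (pbg K Φ ζ) (WithLp.toLp 2 u) (WithLp.toLp 2 u)).re := by
  rw [pull_kah h K hζ, WithLp.toLp_smul, hb_I_right]
  congr 1
  linear_combination (-(hb (pbg K Φ ζ) (WithLp.toLp 2 u) (WithLp.toLp 2 u))) * Complex.I_sq

/-! ### derivatives -/

/-- index set of the coefficients -/
def fk (G : (Fin N → ℂ) → Matrix (Fin N) (Fin N) ℂ) (k : Fin N × Fin N × Bool) (ζ : Fin N → ℂ) :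
    ℝ :=
  if k.2.2 then (G ζ k.1 k.2.1).im else (G ζ k.1 k.2.1).re

def ck (k : Fin N × Fin N × Bool) (u v : Fin N → ℂ) : ℝ :=
  if k.2.2 then -(I * u k.1 * conj (v k.2.1)).im else (I * u k.1 * conj (v k.2.1)).re

theorem abs_ck_le (k : Fin N × Fin N × Bool) (u v : Fin N → ℂ) : |ck k u v| ≤ ‖u‖ * ‖v‖ := by
  have h1 : ‖I * u k.1 * conj (v k.2.1)‖ ≤ ‖u‖ * ‖v‖ := by
    rw [norm_mul, norm_mul, Complex.norm_I, one_mul, RCLike.norm_conj]
    gcongr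
    · exact norm_le_pi_norm u _
    · exact norm_le_pi_norm v _
  unfold ck
  split_ifs
  · rw [abs_neg]; exact (Complex.abs_im_le_norm _).trans h1
  · exact (Complex.abs_re_le_norm _).trans h1

theorem hb_sum (G : (Fin N → ℂ) → Matrix (Fin N) (Fin N) ℂ) (ζ u v : Fin N → ℂ) :
    (I * hb (G ζ) (WithLp.toLp 2 u) (WithLp.toLp 2 v)).re = ∑ k, fk G k ζ * ck k u v := by
  rw [Fintype.sum_prod_type]
  simp only [Fintype.sum_prod_type, Fintype.sum_bool]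
  unfold hb
  rw [Finset.mul_sum, Complex.re_sum]
  refine Finset.sum_congr rfl fun a _ => ?_
  rw [Finset.mul_sum, Complex.re_sum]
  refine Finset.sum_congr rfl fun b _ => ?_
  have h1 : I * (G ζ a b * (WithLp.toLp 2 u : Cn N) a * conj ((WithLp.toLp 2 v : Cn N) b)) =
      G ζ a b * (I * u a * conj (v b)) := by ring
  rw [h1, Complex.mul_re]
  simp only [fk, ck, if_true, Bool.false_eq_true, if_false]
  ring

variable {G : (Fin N → ℂ) → Matrix (Fin N) (Fin N) ℂ}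

theorem fk_sm (hG : ∀ a b, ContDiffOn ℝ ∞ (fun ζ => G ζ a b) S) (k : Fin N × Fin N × Bool) :
    ContDiffOn ℝ ∞ (fk G k) S := by
  rcases k with ⟨a, b, t⟩
  cases t
  · exact Complex.reCLM.contDiff.comp_contDiffOn (hG a b)
  · exact Complex.imCLM.contDiff.comp_contDiffOn (hG a b)

theorem fk_it (hS : IsOpen S) (hG : ∀ a b, ContDiffOn ℝ ∞ (fun ζ => G ζ a b) S) {ε : ℝ} {n : ℕ}
    {ζ : Fin N → ℂ} (hζ : ζ ∈ S) (hb : ∀ a b, ‖iteratedFDeriv ℝ n (fun ζ => G ζ a b) ζ‖ ≤ ε)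
    (k : Fin N × Fin N × Bool) : ‖iteratedFDeriv ℝ n (fk G k) ζ‖ ≤ ε := by
  have hr : ‖Complex.reCLM‖ ≤ 1 := by rw [Complex.reCLM_norm]
  have hi : ‖Complex.imCLM‖ ≤ 1 := by rw [Complex.imCLM_norm]
  rcases k with ⟨a, b, t⟩
  have hc : ContDiffAt ℝ n (fun ζ => G ζ a b) ζ :=
    ((hG a b).contDiffAt (hS.mem_nhds hζ)).of_le (by exact_mod_cast le_top)
  cases t
  · have h1 := Complex.reCLM.norm_iteratedFDeriv_comp_left hc (n := n) (le_refl _)
    calc ‖iteratedFDeriv ℝ n (fk G (a, b, false)) ζ‖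
        ≤ ‖Complex.reCLM‖ * ‖iteratedFDeriv ℝ n (fun ζ => G ζ a b) ζ‖ := h1
      _ ≤ 1 * ε := by gcongr; exact hb a b
      _ = ε := one_mul ε
  · have h1 := Complex.imCLM.norm_iteratedFDeriv_comp_left hc (n := n) (le_refl _)
    calc ‖iteratedFDeriv ℝ n (fk G (a, b, true)) ζ‖
        ≤ ‖Complex.imCLM‖ * ‖iteratedFDeriv ℝ n (fun ζ => G ζ a b) ζ‖ := h1
      _ ≤ 1 * ε := by gcongr; exact hb a b
      _ = ε := one_mul ε

/-- **derivatives of the Kaehler form** -/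
theorem d_kah (h : HolI A S Φ) (K : Kah A) {ε : ℝ} (hε : 0 ≤ ε)
    (hG : ∀ a b, ContDiffOn ℝ ∞ (fun ζ => pbg K Φ ζ a b) S) {ζ : Fin N → ℂ} (hζ : ζ ∈ S)
    (hb : ∀ a b, ∀ k : ℕ, 1 ≤ k → k ≤ 2 → ‖iteratedFDeriv ℝ k (fun ζ => pbg K Φ ζ a b) ζ‖ ≤ ε) :
    ‖fderiv ℝ (pull (ofKah K).f2 Φ) ζ‖ ≤ 2 * N ^ 2 * ε ∧
      ‖fderiv ℝ (fderiv ℝ (pull (ofKah K).f2 Φ)) ζ‖ ≤ 2 * N ^ 2 * ε := by
  have hF := h.smI.pull_smooth (ofKah K).f2
  have hf : ∀ k ∈ (Finset.univ : Finset (Fin N × Fin N × Bool)),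
      ContDiffOn ℝ ∞ (fk (pbg K Φ) k) S := fun k _ => fk_sm hG k
  have hh : ∀ z ∈ S, ∀ u v, pull (ofKah K).f2 Φ z u v =
      ∑ k, fk (pbg K Φ) k z * ck k u v := fun z hz u v => by
    rw [pull_kah h K hz, hb_sum]
  have hcard : ∀ c : ℝ, ∑ _k : Fin N × Fin N × Bool, c = 2 * N ^ 2 * c := by
    intro c
    rw [Finset.sum_const, Finset.card_univ, nsmul_eq_mul, Fintype.card_prod, Fintype.card_prod,
      Fintype.card_fin, Fintype.card_bool]
    push_cast; ring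
  have b1 : ∀ k a, |fderiv ℝ (fk (pbg K Φ) k) ζ a| ≤ ε * ‖a‖ := by
    intro k a
    have h1 := fk_it h.op hG hζ (fun a b => hb a b 1 (le_refl _) (by norm_num)) k
    rw [norm_iteratedFDeriv_one] at h1
    rw [← Real.norm_eq_abs]
    exact (ContinuousLinearMap.le_opNorm _ _).trans (by gcongr)
  have b2 : ∀ k a b, |fderiv ℝ (fderiv ℝ (fk (pbg K Φ) k)) ζ a b| ≤ ε * ‖a‖ * ‖b‖ := by
    intro k a b
    have h1 := fk_it h.op hG hζ (fun a b => hb a b 2 (by norm_num) (le_refl _)) k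
    rw [← norm_iteratedFDeriv_fderiv (n := 1), norm_iteratedFDeriv_one] at h1
    rw [← Real.norm_eq_abs]
    exact (ContinuousLinearMap.le_opNorm₂ _ _ _).trans (by gcongr)
  constructor
  · refine norm3_le (by positivity) fun a u v => ?_
    rw [sum_d1 Finset.univ h.op (fun z hz => (hF.contDiffAt (h.op.mem_nhds hz)).differentiableAt
      (by simp)) (fun k hk z hz => ((hf k hk).contDiffAt (h.op.mem_nhds hz)).differentiableAt
      (by simp)) hh hζ]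
    calc |∑ k, fderiv ℝ (fk (pbg K Φ) k) ζ a * ck k u v|
        ≤ ∑ k, |fderiv ℝ (fk (pbg K Φ) k) ζ a * ck k u v| := Finset.abs_sum_le_sum_abs _ _
      _ ≤ ∑ _k : Fin N × Fin N × Bool, ε * ‖a‖ * (‖u‖ * ‖v‖) := by
          refine Finset.sum_le_sum fun k _ => ?_
          rw [abs_mul]
          gcongr
          · exact b1 k a
          · exact abs_ck_le k u v
      _ = 2 * N ^ 2 * ε * ‖a‖ * ‖u‖ * ‖v‖ := by rw [hcard]; ring
  · refine norm4_le (by positivity) fun a b u v => ?_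
    rw [sum_d2 Finset.univ h.op hF hf hh hζ]
    calc |∑ k, fderiv ℝ (fderiv ℝ (fk (pbg K Φ) k)) ζ a b * ck k u v|
        ≤ ∑ k, |fderiv ℝ (fderiv ℝ (fk (pbg K Φ) k)) ζ a b * ck k u v| :=
          Finset.abs_sum_le_sum_abs _ _
      _ ≤ ∑ _k : Fin N × Fin N × Bool, ε * ‖a‖ * ‖b‖ * (‖u‖ * ‖v‖) := by
          refine Finset.sum_le_sum fun k _ => ?_
          rw [abs_mul]
          gcongr
          · exact b2 k a b
          · exact abs_ck_le k u v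
      _ = 2 * N ^ 2 * ε * ‖a‖ * ‖b‖ * ‖u‖ * ‖v‖ := by rw [hcard]; ring

end

end Crest.Agent.R281.T5P_808
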