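import Crest.Agent.R281.T5D_808
import Crest.Agent.R281.T5L_808
import Crest.Agent.R281.T5M_808
import Crest.Agent.R281.T5P_808

/-!
# R281, T5-ASM (helper808), part 7: from the strip of Theorem S to `TubeD`

* `SB`     : bounds of the forms on a strip, `strip_SB`
* `tubeD`  : `SB` + zero periods ==> `TubeD`
* `t5`     : the final statement with the constants
-/

set_option autoImplicit false
set_option linter.unusedSectionVars false
set_option maxSynthPendingDepth 3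

open Set Filter Topology Complex Metric
open scoped ContDiff Matrix ComplexConjugate ComplexOrder

namespace Crest.Agent.R281.T5F_808

open Crest.Agent.R275.Geo Crest.Agent.R275.Core144 Crest.Agent.R275.EDR890
open Crest.Agent.R273.Defs_333 Crest.Agent.R273.Hess_333 Crest.Agent.R273.HessB_333
open Crest.Agent.R273.HM_333 Crest.Agent.R273.Kah_333 Crest.Agent.R273.Vol_333
open Crest.Agent.R273.Vm_333 Crest.Agent.R273.FIb0_597
open Crest.Agent.R281.Tor_922 Crest.Agent.R281.SIn_14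
open Crest.Agent.R281.HkR_835 Crest.Agent.R281.Per_368 Crest.Agent.R281.T5A_808
open Crest.Agent.R281.T5P_808 Crest.Agent.R281.T5L_808 Crest.Agent.R281.T5M_808
open Crest.Agent.R281.T5D_808
open Crest.Agent.R281.Mc673 (V W tube ClF kv mn isOpen_tube mn_eq_box SP)
open Crest.Agent.R238.Sch (ee norm_ee)
open Crest.Agent.R275.Tor812 (box volume_box)

noncomputable section

variable {N : ℕ} {M : Type} [TopologicalSpace M] {A : Atl N M}

/-- bounds of the forms on the strip of radius `R` -/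
structure SB (H : HkT (ofAtl A)) (Φ : (Fin N → ℂ) → M) (ζ0 : Fin N → ℂ) (R c B δ : ℝ) : Prop where
  lo : ∀ ζ ∈ strip ζ0 R, ∀ u, c * ‖u‖ ^ 2 ≤ pull (H.om 0) Φ ζ u (I • u)
  hi : ∀ ζ ∈ strip ζ0 R, ∀ u, pull (H.om 0) Φ ζ u (I • u) ≤ B * ‖u‖ ^ 2
  bd : ∀ ζ ∈ strip ζ0 R, ∀ k u v, |pull (H.om k) Φ ζ u v| ≤ B * ‖u‖ * ‖v‖
  dx : ∀ ζ ∈ strip ζ0 R, ‖fderiv ℝ (pull (H.om 0) Φ) ζ‖ ≤ δ ∧
    ‖fderiv ℝ (fderiv ℝ (pull (H.om 0) Φ)) ζ‖ ≤ δ
  dy : ∀ ζ ∈ strip ζ0 R, ‖fderiv ℝ (pull (H.om 2) Φ) ζ‖ ≤ δ ∧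
    ‖fderiv ℝ (fderiv ℝ (pull (H.om 2) Φ)) ζ‖ ≤ δ
  inv : ∀ ζ ∈ strip ζ0 R, ∀ u v,
    pull (H.om 0) Φ ζ (I • u) (I • v) = pull (H.om 0) Φ ζ u v
  anti : ∀ ζ ∈ strip ζ0 R, ∀ u v,
    pull (H.om 2) Φ ζ (I • u) (I • v) = -pull (H.om 2) Φ ζ u v

theorem pull_congr {V X : Type} [NormedAddCommGroup V] [NormedSpace ℝ V] [TopologicalSpace X]
    {C : RCh V X} {E : Type*} [NormedAddCommGroup E] [NormedSpace ℝ E] {w w' : F2 C}
    (h : ∀ i, ∀ z ∈ (C.e i).target, ∀ u v, w.w i z u v = w'.w i z u v) (Φ : E → X) :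
    pull w Φ = pull w' Φ := by
  funext ζ
  refine ContinuousLinearMap.ext fun a => ContinuousLinearMap.ext fun b => ?_
  exact h _ _ ((C.e _).map_source (ci_mem C (Φ ζ))) _ _

theorem strip_mono {ζ0 : Fin N → ℂ} {R r : ℝ} (h : R ≤ r) : strip ζ0 R ⊆ strip ζ0 r :=
  fun _ hζ j => (hζ j).trans_le h

theorem ball_sub_strip {ζ0 ζ : Fin N → ℂ} {R r : ℝ} (hζ : ζ ∈ strip ζ0 R) :
    ball ζ (r - R) ⊆ strip ζ0 r := by
  intro z hz j
  rw [mem_ball, dist_eq_norm] at hz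
  have h1 : |(z j).re - (ζ j).re| ≤ ‖z - ζ‖ := by
    rw [← Complex.sub_re, ← Pi.sub_apply]
    exact (Complex.abs_re_le_norm _).trans (norm_le_pi_norm _ j)
  have h2 := hζ j
  calc |(z j).re - (ζ0 j).re| ≤ |(z j).re - (ζ j).re| + |(ζ j).re - (ζ0 j).re| :=
        abs_sub_le _ _ _
    _ < r := by linarith

/-- **bounds on the strip** -/
theorem strip_SB (K : Kah A) (H : HkT (ofAtl A)) {F : M → Fin N → ℂ} {d : ℕ} {ζ0 : Fin N → ℂ}
    {r R : ℝ} {Lam : AddSubgroup (Fin N → ℂ)} {Φ : (Fin N → ℂ) → M}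
    {G0 : Matrix (Fin N) (Fin N) ℂ} {e K1 δ : ℝ} (hK1 : 0 < K1) (he : 0 ≤ e) (he1 : e ≤ 1)
    (he2 : e * N ^ 2 ≤ K1⁻¹ / 2) (he3 : 2 * N ^ 2 * e ≤ δ) (hRr : R + 1 ≤ r)
    (hr : 8 * Bq N K1 ≤ δ * (r - R)) (h : Strip A F d ζ0 r Lam Φ)
    (hlo : (G0 - ((K1⁻¹ : ℝ) : ℂ) • (1 : Matrix (Fin N) (Fin N) ℂ)).PosSemidef)
    (hup : (((K1 : ℝ) : ℂ) • (1 : Matrix (Fin N) (Fin N) ℂ) - G0).PosSemidef)
    (hcl : CloseC2 (pbg K Φ) G0 (strip ζ0 r) e)
    (hom : ∀ (i : A.ι), ∀ z ∈ (A.e i).target, ∀ u v : Cn N,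
      (H.om 0).w i z u v = (ofKah K).f2.w i z u v)
    (hJ : ∀ (i : A.ι), ∀ z ∈ (A.e i).target, ∀ v : Cn N, H.J 0 i z v = I • v) :
    SB H Φ ζ0 R (K1⁻¹ / 2) (Bq N K1) δ := by
  have hh := strip_holI h
  have hX : pull (H.om 0) Φ = pull (ofKah K).f2 Φ := pull_congr hom Φ
  have hB : 0 ≤ Bq N K1 := by unfold Bq; positivity
  have hsub : strip ζ0 R ⊆ strip ζ0 r := strip_mono (by linarith)
  have hq : ∀ ζ ∈ strip ζ0 r, ∀ u, pull (H.om 0) Φ ζ u (I • u) ≤ Bq N K1 * ‖u‖ ^ 2 := by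
    intro ζ hζ u
    rw [hX, pull_kah_I hh K hζ]
    refine (hb_pinch hK1.le he hup (fun a b => (hcl.2 ζ hζ a b).1) u).trans ?_
    have : K1 * N + e * N ^ 2 ≤ Bq N K1 := by
      unfold Bq
      nlinarith [sq_nonneg (N : ℝ)]
    gcongr
  have hql : ∀ ζ ∈ strip ζ0 r, ∀ u, K1⁻¹ / 2 * ‖u‖ ^ 2 ≤ pull (H.om 0) Φ ζ u (I • u) := by
    intro ζ hζ u
    rw [hX, pull_kah_I hh K hζ]
    refine le_trans ?_ (hb_pinch_low (inv_nonneg.2 hK1.le) he hlo
      (fun a b => (hcl.2 ζ hζ a b).1) u)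
    have : K1⁻¹ / 2 ≤ K1⁻¹ - e * N ^ 2 := by linarith
    gcongr
  have hbd : ∀ ζ ∈ strip ζ0 r, ∀ k u v, |pull (H.om k) Φ ζ u v| ≤ Bq N K1 * ‖u‖ * ‖v‖ := by
    intro ζ hζ k u v
    have h1 := pull_le H hJ hh k hζ u v
    have h2 : 0 ≤ pull (H.om 0) Φ ζ u (I • u) :=
      le_trans (by positivity) (hql ζ hζ u)
    have h3 : (pull (H.om k) Φ ζ u v) ^ 2 ≤ (Bq N K1 * ‖u‖ * ‖v‖) ^ 2 := by
      calc (pull (H.om k) Φ ζ u v) ^ 2
          ≤ pull (H.om 0) Φ ζ u (I • u) * pull (H.om 0) Φ ζ v (I • v) := h1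
        _ ≤ (Bq N K1 * ‖u‖ ^ 2) * (Bq N K1 * ‖v‖ ^ 2) :=
            mul_le_mul (hq ζ hζ u) (hq ζ hζ v) (le_trans (by positivity) (hql ζ hζ v))
              (by positivity)
        _ = (Bq N K1 * ‖u‖ * ‖v‖) ^ 2 := by ring
    exact abs_le_of_sq_le_sq h3 (by positivity)
  have hT := pull_T20 H hJ hh
  have hrR : 0 < r - R := by linarith
  have hyb : ∀ ζ ∈ strip ζ0 R, (∀ a u v, |fderiv ℝ (pull (H.om 2) Φ) ζ a u v| ≤
      δ * ‖a‖ * ‖u‖ * ‖v‖) ∧ ∀ a b u v, |fderiv ℝ (fderiv ℝ (pull (H.om 2) Φ)) ζ a b u v| ≤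
      δ * ‖a‖ * ‖b‖ * ‖u‖ * ‖v‖ := by
    intro ζ hζ
    have hsb := ball_sub_strip (r := r) hζ
    have e1 : 2 * Bq N K1 / (r - R) ≤ δ := by
      rw [div_le_iff₀ hrR]; linarith
    have e2 : 8 * Bq N K1 / (r - R) ^ 2 ≤ δ := by
      rw [div_le_iff₀ (by positivity)]
      have h5 : δ * (r - R) ≤ δ * (r - R) ^ 2 := by
        have h6 : 0 ≤ δ := by
          have : 0 ≤ δ * (r - R) := le_trans (by positivity) hr
          exact nonneg_of_mul_nonneg_left this hrR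
        have h7 : r - R ≤ (r - R) ^ 2 := by nlinarith
        gcongr
      linarith
    refine ⟨fun a u v => ?_, fun a b u v => ?_⟩
    · have h5 := (hT.bd1 hrR hsb (fun x hx u v => hbd x (hsb hx) 1 u v)
        (fun x hx u v => hbd x (hsb hx) 2 u v) a u v).2
      refine h5.trans ?_
      gcongr
    · have h5 := (hT.bd2 hrR hsb (fun x hx u v => hbd x (hsb hx) 1 u v)
        (fun x hx u v => hbd x (hsb hx) 2 u v) a b u v).2
      refine h5.trans ?_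
      gcongr
  have hδ : 0 ≤ δ := by
    have : 0 ≤ δ * (r - R) := le_trans (by positivity) hr
    exact nonneg_of_mul_nonneg_left this hrR
  refine ⟨fun ζ hζ => hql ζ (hsub hζ), fun ζ hζ => hq ζ (hsub hζ), fun ζ hζ => hbd ζ (hsub hζ),
    fun ζ hζ => ?_, fun ζ hζ => ?_, fun ζ hζ u v => ?_, fun ζ hζ u v => ?_⟩
  · rw [hX]
    have h1 := d_kah hh K he hcl.1 (hsub hζ) (fun a b k hk hk' => (hcl.2 ζ (hsub hζ) a b).2 k hk hk')
    exact ⟨h1.1.trans he3, h1.2.trans he3⟩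
  · exact ⟨norm3_le hδ (hyb ζ hζ).1, norm4_le hδ (hyb ζ hζ).2⟩
  · rw [hX, pull_kah hh K (hsub hζ), pull_kah hh K (hsub hζ), WithLp.toLp_smul, WithLp.toLp_smul,
      hb_I_left, hb_I_right]
    congr 1
    have := Complex.I_sq
    linear_combination (-(I * hb (pbg K Φ ζ) (WithLp.toLp 2 u) (WithLp.toLp 2 v))) * Complex.I_sq
  · have h1 := hT.t2 ζ (hsub hζ) u (I • v)
    have h2 := hT.a1 ζ (hsub hζ) u (I • v)
    have h3 := hT.t1 ζ (hsub hζ) v u
    have h4 := hT.a2 ζ (hsub hζ) u v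
    rw [h1, h2, h3, h4]

/-- convexity of the tube -/
theorem convex_tube (N : ℕ) (R : ℝ) : Convex ℝ (tube N R) := by
  intro p hp q hq a b ha hb hab
  show ‖(a • p + b • q).2‖ < R
  have h1 : (a • p + b • q).2 = a • p.2 + b • q.2 := rfl
  have hp' : ‖p.2‖ < R := hp
  have hq' : ‖q.2‖ < R := hq
  rw [h1]
  calc ‖a • p.2 + b • q.2‖ ≤ a * ‖p.2‖ + b * ‖q.2‖ := by
        refine (norm_add_le _ _).trans ?_
        rw [norm_smul, norm_smul, Real.norm_of_nonneg ha, Real.norm_of_nonneg hb]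
    _ < R := by
        rcases eq_or_lt_of_le ha with h0 | h0
        · have hb1 : b = 1 := by linarith
          rw [← h0, hb1]; linarith
        · have h2 : a * ‖p.2‖ < a * R := by gcongr
          have h3 : b * ‖q.2‖ ≤ b * R := by gcongr
          have h4 : a * R + b * R = R := by rw [← add_mul, hab, one_mul]
          linarith

/-- a periodic form with zero mean values and small derivative is small on the `θ` directions -/
theorem small_hh {R δ : ℝ} (hR : 0 < R) {x : Crest.Agent.R281.Mc673.Fo N} (hx : ClF R x)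
    (hd : ∀ p ∈ tube N R, ‖fderiv ℝ x p‖ ≤ δ)
    (h0 : ∀ j k, mn (fun θ => x (θ, 0) (ee j, 0) (ee k, 0)) = 0) {p : W N} (hp : p ∈ tube N R)
    (u v : V N) : |x p (u, 0) (v, 0)| ≤ N ^ 2 * (N + R) * δ * ‖u‖ * ‖v‖ := by
  have hδ : 0 ≤ δ := (norm_nonneg _).trans (hd p hp)
  have hz : ∀ θ : V N, ((θ, 0) : W N) ∈ tube N R := fun θ => by
    show ‖(0 : V N)‖ < R
    rw [norm_zero]; exact hR
  have hlip : ∀ p ∈ tube N R, ∀ q ∈ tube N R, ‖x p - x q‖ ≤ δ * ‖p - q‖ := fun p hp q hq =>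
    (convex_tube N R).norm_image_sub_le_of_norm_fderiv_le (fun z hz => hx.da hz)
      (fun z hz => hd z hz) hq hp
  have ne : ∀ j : Fin N, ‖((ee j, 0) : W N)‖ = 1 := fun j => by
    rw [Prod.norm_mk, norm_zero, norm_ee, max_eq_left zero_le_one]
  have hsp : ∀ j k, SP (fun θ : V N => x (θ, 0) (ee j, 0) (ee k, 0)) := by
    intro j k
    refine ⟨?_, fun m θ => ?_⟩
    · refine contDiff_iff_contDiffAt.2 fun θ => ?_
      have h1 : ContDiffAt ℝ ∞ (fun θ : V N => x (θ, 0)) θ :=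
        ContDiffAt.comp θ (hx.cda (p := (θ, 0)) (hz θ)) (contDiffAt_id.prodMk contDiffAt_const)
      exact (h1.clm_apply contDiffAt_const).clm_apply contDiffAt_const
    · show x (θ + kv m, 0) _ _ = _
      rw [hx.per m (θ, 0) (hz θ)]
  -- the centre
  have hc : ∀ j k (θ : V N), |x (θ, 0) (ee j, 0) (ee k, 0)| ≤ δ * N := by
    intro j k θ
    set f : V N → ℝ := fun θ => x (θ, 0) (ee j, 0) (ee k, 0) with hf
    have h1 := mn_eq_box (hsp j k) (WithLp.ofLp θ)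
    rw [h0 j k] at h1
    have hfd : ∀ θ' : V N, |f θ - f θ'| ≤ δ * ‖θ - θ'‖ := by
      intro θ'
      have h2 : f θ - f θ' = (x (θ, 0) - x (θ', 0)) (ee j, 0) (ee k, 0) := rfl
      rw [h2]
      have h3 := le_norm2 (x (θ, 0) - x (θ', 0)) ((ee j, 0) : W N) ((ee k, 0) : W N)
      rw [ne, ne, mul_one, mul_one] at h3
      refine h3.trans ((hlip _ (hz θ) _ (hz θ')).trans ?_)
      have h4 : ‖((θ, 0) : W N) - (θ', 0)‖ = ‖θ - θ'‖ := by
        rw [Prod.mk_sub_mk, sub_self, Prod.norm_mk, norm_zero, max_eq_left (norm_nonneg _)]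
      rw [h4]
    set μ : MeasureTheory.Measure (Fin N → ℝ) :=
      MeasureTheory.volume.restrict (box (WithLp.ofLp θ)) with hμ
    have hμ1 : μ univ = 1 := by
      rw [hμ, MeasureTheory.Measure.restrict_apply MeasurableSet.univ, univ_inter, volume_box]
    have : MeasureTheory.IsProbabilityMeasure μ := ⟨hμ1⟩
    obtain ⟨B, -, hB⟩ := (hsp j k).per.bdd (hsp j k).cont
    have hint : MeasureTheory.Integrable (fun x : Fin N → ℝ => f (WithLp.toLp 2 x)) μ :=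
      MeasureTheory.Integrable.of_bound
        (((hsp j k).cont.comp (PiLp.continuous_toLp 2 _)).aestronglyMeasurable) B
        (Eventually.of_forall fun x => hB _)
    have h5 : f θ = ∫ y, (f θ - f (WithLp.toLp 2 y)) ∂μ := by
      rw [MeasureTheory.integral_sub (MeasureTheory.integrable_const _) hint,
        MeasureTheory.integral_const]
      rw [← h1, sub_zero, MeasureTheory.measureReal_def, hμ1]
      simp
    have h6 : ‖∫ y, (f θ - f (WithLp.toLp 2 y)) ∂μ‖ ≤ δ * N * μ.real univ := by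
      refine MeasureTheory.norm_integral_le_of_norm_le_const ?_
      rw [hμ]
      refine (MeasureTheory.ae_restrict_iff' ?_).2 (Eventually.of_forall fun y hy => ?_)
      · exact Crest.Agent.R275.Tor812.box_measurable _
      · rw [Real.norm_eq_abs]
        refine (hfd _).trans ?_
        have h7 : θ - WithLp.toLp 2 y = WithLp.toLp 2 (WithLp.ofLp θ - y) := rfl
        rw [h7]
        have h8 : ‖WithLp.ofLp θ - y‖ ≤ 1 := by
          refine (pi_norm_le_iff_of_nonneg zero_le_one).2 fun i => ?_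
          have h9 : y i ∈ Ioc (θ i) (θ i + 1) := hy i
          rw [Real.norm_eq_abs, abs_le]
          show -1 ≤ θ i - y i ∧ θ i - y i ≤ 1
          constructor
          · linarith [h9.2]
          · linarith [h9.1]
        have h10 := (norm_toLp_le (WithLp.ofLp θ - y)).trans
          (mul_le_mul_of_nonneg_left h8 (Nat.cast_nonneg N))
        rw [mul_one] at h10
        gcongr
    rw [← h5, MeasureTheory.measureReal_def, hμ1, Real.norm_eq_abs] at h6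
    simpa using h6
  -- everywhere
  have hj : ∀ j k, |x p (ee j, 0) (ee k, 0)| ≤ (N + R) * δ := by
    intro j k
    have h1 := hlip p hp (p.1, 0) (hz p.1)
    have h2 : ‖p - (p.1, 0)‖ ≤ R := by
      have h3 : p - (p.1, 0) = (0, p.2) := by
        refine Prod.ext ?_ ?_
        · show p.1 - p.1 = 0
          rw [sub_self]
        · show p.2 - 0 = p.2
          rw [sub_zero]
      rw [h3, Prod.norm_mk, norm_zero, max_eq_right (norm_nonneg _)]
      exact (show ‖p.2‖ < R from hp).le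
    have h4 := le_norm2 (x p - x (p.1, 0)) ((ee j, 0) : W N) ((ee k, 0) : W N)
    rw [ne, ne, mul_one, mul_one] at h4
    have h5 : (x p - x (p.1, 0)) (ee j, 0) (ee k, 0) =
      x p (ee j, 0) (ee k, 0) - x (p.1, 0) (ee j, 0) (ee k, 0) := rfl
    rw [h5] at h4
    have h6 := hc j k p.1
    have h7 : δ * ‖p - (p.1, 0)‖ ≤ δ * R := by gcongr
    have h8 := abs_sub_abs_le_abs_sub (x p (ee j, 0) (ee k, 0)) (x (p.1, 0) (ee j, 0) (ee k, 0))
    nlinarith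
  have hu : ∀ u : V N, ((u, 0) : W N) = ∑ j, u j • ((ee j, 0) : W N) := by
    intro u
    have h1 : (∑ j, u j • ((ee j, 0) : W N)).1 = u := by
      rw [Prod.fst_sum]
      have : ∀ j, (u j • ((ee j, 0) : W N)).1 = u j • (ee j : V N) := fun j => rfl
      simp_rw [this]
      ext i
      simp [ee, Pi.single_apply]
    have h2 : (∑ j, u j • ((ee j, 0) : W N)).2 = 0 := by
      rw [Prod.snd_sum]
      refine Finset.sum_eq_zero fun j _ => ?_
      show u j • (0 : V N) = 0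
      rw [smul_zero]
    exact Prod.ext h1.symm h2.symm
  rw [hu u, hu v]
  simp only [map_sum, map_smul, sum_apply, smul_apply, smul_eq_mul]
  calc |∑ j, v j * ∑ i, u i * x p (ee i, 0) (ee j, 0)|
      ≤ ∑ j, ‖v‖ * ∑ i : Fin N, ‖u‖ * ((N + R) * δ) := by
        refine (Finset.abs_sum_le_sum_abs _ _).trans (Finset.sum_le_sum fun j _ => ?_)
        rw [abs_mul]
        gcongr
        · exact PiLp.norm_apply_le v j
        · refine (Finset.abs_sum_le_sum_abs _ _).trans (Finset.sum_le_sum fun i _ => ?_)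
          rw [abs_mul]
          gcongr
          · exact PiLp.norm_apply_le u i
          · exact hj i j
    _ = N ^ 2 * (N + R) * δ * ‖u‖ * ‖v‖ := by
        simp only [Finset.sum_const, Finset.card_univ, Fintype.card_fin, nsmul_eq_mul]
        ring

/-- `T (0, v) = -i T (A⁻¹ v, 0)` -/
theorem TT_snd (A' : (Fin N → ℝ) ≃L[ℝ] (Fin N → ℝ)) (v : V N) :
    TT A' ((0, v) : W N) = -(I • TT A' ((WithLp.toLp 2 (A'.symm (WithLp.ofLp v)), 0) : W N)) := by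
  funext j
  rw [TT_apply, Pi.neg_apply, Pi.smul_apply, TT_apply]
  have h1 : A' (WithLp.ofLp (WithLp.toLp 2 (A'.symm (WithLp.ofLp v)) : V N)) = WithLp.ofLp v :=
    A'.apply_symm_apply _
  show ((v j : ℝ) : ℂ) + ((A' (WithLp.ofLp (0 : V N)) j : ℝ) : ℂ) * I =
    -(I * ((((0 : V N) j : ℝ) : ℂ) +
      ((A' (WithLp.ofLp (WithLp.toLp 2 (A'.symm (WithLp.ofLp v)) : V N)) j : ℝ) : ℂ) * I))
  rw [h1]
  have h2 : A' (WithLp.ofLp (0 : V N)) = 0 := by rw [WithLp.ofLp_zero, map_zero]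
  rw [h2]
  simp only [Pi.zero_apply, Complex.ofReal_zero, zero_mul, add_zero, PiLp.zero_apply, zero_add]
  linear_combination ((v j : ℝ) : ℂ) * Complex.I_sq

set_option maxHeartbeats 2000000 in
/-- **from the bounds on the strip to `TubeD`** -/
theorem tubeD (H : HkT (ofAtl A)) (hJ : ∀ (i : A.ι), ∀ z ∈ (A.e i).target, ∀ v : Cn N,
      H.J 0 i z v = I • v) {F : M → Fin N → ℂ} {d : ℕ} {ζ0 : Fin N → ℂ}
    {r R : ℝ} {Lam : AddSubgroup (Fin N → ℂ)} {Φ : (Fin N → ℂ) → M} {c B δ1 δ Λ M' : ℝ}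
    (h : Strip A F d ζ0 r Lam Φ) (hR : 0 < R) (hRr : R ≤ r) (hc : 0 < c) (hB : 0 ≤ B)
    (hb : SB H Φ ζ0 R c B δ1) (A' : (Fin N → ℝ) ≃L[ℝ] (Fin N → ℝ))
    (hA1 : ‖(A' : (Fin N → ℝ) →L[ℝ] (Fin N → ℝ))‖ ≤ M')
    (hA2 : ‖(A'.symm : (Fin N → ℝ) →L[ℝ] (Fin N → ℝ))‖ ≤ M')
    (hA : ∀ θ : Fin N → ℝ, (fun j => ((A' θ j : ℝ) : ℂ) * I) ∈ Lam ↔ ∀ j, ∃ n : ℤ, θ j = n)
    (hper : ∀ l ∈ Lam, ∀ l' ∈ Lam, ‖l‖ ≤ M' → ‖l'‖ ≤ M' → ∀ z ∈ strip ζ0 r,
      per (pull (H.om 0) Φ) z l l' = 0 ∧ per (pull (H.om 2) Φ) z l l' = 0)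
    (hΛ1 : B * (1 + M') ^ 2 ≤ Λ) (hΛ2 : c⁻¹ * (N * (1 + M')) ^ 2 ≤ Λ)
    (hδ : δ1 * (1 + M') ^ 4 * (N ^ 2 * (N + R) + 1) * (1 + (N * M') ^ 2) ≤ δ) :
    TubeD (ofAtl A) (H.om 0) (H.om 2) N R Λ δ (fun p => Φ (ζ0 + TT A' p)) := by
  have hM0 : 0 ≤ M' := (norm_nonneg _).trans hA1
  have hsi := strip_smI h
  have hh := strip_holI h
  have hT := norm_TT_le hA1
  have hmem : ∀ p ∈ tube N R, ζ0 + TT A' p ∈ strip ζ0 R := fun p hp => TT_mem_strip hp
  have hmem' : ∀ p ∈ tube N R, ζ0 + TT A' p ∈ strip ζ0 r := fun p hp =>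
    strip_mono hRr (hmem p hp)
  have hsm : SmI (ofAtl A) (tube N R) (fun p => Φ (ζ0 + TT A' p)) :=
    (hsi.comp_affine (TT A') ζ0).mono (fun p hp => hmem' p hp) (isOpen_tube R)
  have hpu : ∀ w : F2 (ofAtl A), ∀ p ∈ tube N R, ∀ u v,
      pull w (fun p => Φ (ζ0 + TT A' p)) p u v = pull w Φ (ζ0 + TT A' p) (TT A' u) (TT A' v) :=
    fun w p hp u v => hsi.pull_affine (TT A') ζ0 w (hmem' p hp) u v
  have hΘ : ∀ (k : Fin N → ℤ), ∀ p ∈ tube N R, (fun p => Φ (ζ0 + TT A' p)) (p.1 + kv k, p.2) =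
      (fun p => Φ (ζ0 + TT A' p)) p := by
    intro k p hp
    have hp' : ((p.1 + kv k, p.2) : W N) ∈ tube N R := hp
    refine (h.eq_iff _ (hmem' _ hp') _ (hmem' p hp)).2 ?_
    have h1 : ζ0 + TT A' (p.1 + kv k, p.2) - (ζ0 + TT A' p) =
        TT A' (p.1 + kv k, p.2) - TT A' p := by abel
    rw [h1, TT_sub_mem h.le_lat hA]
    exact ⟨k, rfl⟩
  have hcl : ∀ w : F2 (ofAtl A), ClF R (pull w (fun p => Φ (ζ0 + TT A' p))) := by
    intro w
    refine ⟨hsm.pull_smooth w, (hsm.pull_cl w).alt, (hsm.pull_cl w).closed, fun k p hp => ?_⟩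
    have h1 := hsm.pull_add w (l := ((kv k, 0) : W N)) (fun q hq => ?_) hp
    · have h2 : p + ((kv k, 0) : W N) = (p.1 + kv k, p.2) := by
        refine Prod.ext rfl ?_
        show p.2 + 0 = p.2
        rw [add_zero]
      rw [h2] at h1
      exact h1
    · have h2 : q + ((kv k, 0) : W N) = (q.1 + kv k, q.2) := by
        refine Prod.ext rfl ?_
        show q.2 + 0 = q.2
        rw [add_zero]
      rw [h2]
      exact ⟨hq, hΘ k q hq⟩
  have hδ1 : 0 ≤ δ1 := by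
    have h0 : ζ0 ∈ strip ζ0 R := fun j => by rw [sub_self, abs_zero]; exact hR
    exact (norm_nonneg _).trans (hb.dx ζ0 h0).1
  have hone : 1 ≤ 1 + M' := by linarith
  have hNR : (0 : ℝ) ≤ N ^ 2 * (N + R) := by positivity
  -- constants
  have k4 : δ1 * (1 + M') ^ 4 ≤ δ := by
    refine le_trans ?_ hδ
    have h1 : δ1 * (1 + M') ^ 4 * 1 * 1 ≤
        δ1 * (1 + M') ^ 4 * (N ^ 2 * (N + R) + 1) * (1 + (N * M') ^ 2) := by
      gcongr
      · linarith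
      · nlinarith [sq_nonneg ((N : ℝ) * M')]
    linarith
  have k3 : δ1 * (1 + M') ^ 3 ≤ δ := by
    refine le_trans ?_ k4
    exact mul_le_mul_of_nonneg_left (pow_le_pow_right₀ hone (by norm_num)) hδ1
  have ha : ∀ w : F2 (ofAtl A), ∀ p ∈ tube N R,
      ‖pull w (fun p => Φ (ζ0 + TT A' p)) p‖ ≤ ‖pull w Φ (ζ0 + TT A' p)‖ * ‖TT A'‖ ^ 2 ∧
      ‖fderiv ℝ (pull w (fun p => Φ (ζ0 + TT A' p))) p‖ ≤
        ‖fderiv ℝ (pull w Φ) (ζ0 + TT A' p)‖ * ‖TT A'‖ ^ 3 ∧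
      ‖fderiv ℝ (fderiv ℝ (pull w (fun p => Φ (ζ0 + TT A' p)))) p‖ ≤
        ‖fderiv ℝ (fderiv ℝ (pull w Φ)) (ζ0 + TT A' p)‖ * ‖TT A'‖ ^ 4 := fun w p hp =>
    affine_bd (isOpen_strip ζ0 r) (isOpen_tube R) (TT A') ζ0 (hsi.pull_smooth w)
      (hsm.pull_smooth w) hmem' (hpu w) hp
  have hbd : ∀ k : Fin 3, ∀ p ∈ tube N R, ‖pull (H.om k) (fun p => Φ (ζ0 + TT A' p)) p‖ ≤ Λ := by
    intro k p hp
    refine (ha (H.om k) p hp).1.trans (le_trans ?_ hΛ1)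
    have h1 : ‖pull (H.om k) Φ (ζ0 + TT A' p)‖ ≤ B :=
      norm2_le hB fun u v => hb.bd _ (hmem p hp) k u v
    gcongr
  have hd3 : ∀ w : F2 (ofAtl A), (∀ ζ ∈ strip ζ0 R, ‖fderiv ℝ (pull w Φ) ζ‖ ≤ δ1 ∧
      ‖fderiv ℝ (fderiv ℝ (pull w Φ)) ζ‖ ≤ δ1) → ∀ p ∈ tube N R,
      ‖fderiv ℝ (pull w (fun p => Φ (ζ0 + TT A' p))) p‖ ≤ δ1 * (1 + M') ^ 3 ∧
      ‖fderiv ℝ (fderiv ℝ (pull w (fun p => Φ (ζ0 + TT A' p)))) p‖ ≤ δ1 * (1 + M') ^ 4 := by
    intro w hw p hp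
    have h1 := (ha w p hp).2
    have h2 := hw _ (hmem p hp)
    refine ⟨h1.1.trans ?_, h1.2.trans ?_⟩
    · gcongr
      exact h2.1
    · gcongr
      exact h2.2
  have hx := hd3 (H.om 0) hb.dx
  have hy := hd3 (H.om 2) hb.dy
  -- periods
  have hee : ∀ j : Fin N, TT A' ((ee j, 0) : W N) ∈ Lam ∧ ‖TT A' ((ee j, 0) : W N)‖ ≤ M' := by
    intro j
    have h1 : TT A' ((ee j, 0) : W N) =
        fun i => ((A' (WithLp.ofLp (ee j : V N)) i : ℝ) : ℂ) * I := by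
      funext i
      rw [TT_apply]
      show (((0 : V N) i : ℝ) : ℂ) + _ = _
      simp
    constructor
    · rw [h1, hA]
      intro i
      by_cases hij : i = j
      · subst hij
        exact ⟨1, by simp [ee]⟩
      · exact ⟨0, by simp [ee, hij]⟩
    · rw [h1]
      refine (pi_norm_le_iff_of_nonneg hM0).2 fun i => ?_
      rw [norm_mul, Complex.norm_I, mul_one, Complex.norm_real]
      have h2 : ‖A' (WithLp.ofLp (ee j : V N))‖ ≤ M' * ‖WithLp.ofLp (ee j : V N)‖ :=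
        ((A' : (Fin N → ℝ) →L[ℝ] (Fin N → ℝ)).le_opNorm _).trans (by gcongr)
      have h3 : ‖WithLp.ofLp (ee j : V N)‖ ≤ 1 :=
        (pi_norm_le_iff_of_nonneg zero_le_one).2 fun i => by
          have := PiLp.norm_apply_le (ee j : V N) i
          rw [norm_ee] at this
          exact this
      calc ‖A' (WithLp.ofLp (ee j : V N)) i‖ ≤ ‖A' (WithLp.ofLp (ee j : V N))‖ :=
            norm_le_pi_norm _ i
        _ ≤ M' * ‖WithLp.ofLp (ee j : V N)‖ := h2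
        _ ≤ M' * 1 := by gcongr
        _ = M' := mul_one _
  have hp0 : ∀ w : F2 (ofAtl A), (∀ l ∈ Lam, ∀ l' ∈ Lam, ‖l‖ ≤ M' → ‖l'‖ ≤ M' →
      ∀ z ∈ strip ζ0 r, per (pull w Φ) z l l' = 0) → ∀ j k,
      mn (fun θ => pull w (fun p => Φ (ζ0 + TT A' p)) (θ, 0) (ee j, 0) (ee k, 0)) = 0 := by
    intro w hw j k
    refine mn_zero hR (hcl w) j k fun θ => ?_
    have hz : ∀ θ : V N, ((θ, 0) : W N) ∈ tube N R := fun θ => by
      show ‖(0 : V N)‖ < R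
      rw [norm_zero]; exact hR
    rw [hsi.per_pull_affine (TT A') ζ0 w (z := ((θ, 0) : W N)) (v := ((ee j, 0) : W N))
      (v' := ((ee k, 0) : W N)) (fun s _ t _ => ?_)]
    · exact hw _ (hee j).1 _ (hee k).1 (hee j).2 (hee k).2 _ (hmem' _ (hz θ))
    · refine hmem' _ ?_
      have e : pt ((θ, 0) : W N) ((ee j, 0) : W N) ((ee k, 0) : W N) s t =
          ((θ + s • ee j + t • ee k, 0) : W N) := by
        refine Prod.ext rfl ?_
        simp [pt]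
      rw [e]
      exact hz _
  have hp1 := hp0 (H.om 0) fun l hl l' hl' h1 h2 z hz => (hper l hl l' hl' h1 h2 z hz).1
  have hp2 := hp0 (H.om 2) fun l hl l' hl' h1 h2 z hz => (hper l hl l' hl' h1 h2 z hz).2
  -- smallness of the `θθ` part
  set sδ : ℝ := N ^ 2 * (N + R) * (δ1 * (1 + M') ^ 3) with hsδ
  have hs0 : 0 ≤ sδ := by positivity
  have hh1 : ∀ p ∈ tube N R, ∀ u v : V N,
      |pull (H.om 0) (fun p => Φ (ζ0 + TT A' p)) p (u, 0) (v, 0)| ≤ sδ * ‖u‖ * ‖v‖ :=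
    fun p hp u v => small_hh hR (hcl _) (fun q hq => (hx q hq).1) hp1 hp u v
  have hh2 : ∀ p ∈ tube N R, ∀ u v : V N,
      |pull (H.om 2) (fun p => Φ (ζ0 + TT A' p)) p (u, 0) (v, 0)| ≤ sδ * ‖u‖ * ‖v‖ :=
    fun p hp u v => small_hh hR (hcl _) (fun q hq => (hy q hq).1) hp2 hp u v
  have hsd : sδ * (1 + (N * M') ^ 2) ≤ δ := by
    refine le_trans ?_ hδ
    have h1 : sδ ≤ δ1 * (1 + M') ^ 4 * (N ^ 2 * (N + R) + 1) := by
      rw [hsδ]
      have h2 : δ1 * (1 + M') ^ 3 ≤ δ1 * (1 + M') ^ 4 :=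
        mul_le_mul_of_nonneg_left (pow_le_pow_right₀ hone (by norm_num)) hδ1
      have h3 : (0 : ℝ) ≤ δ1 * (1 + M') ^ 4 := by positivity
      calc (N : ℝ) ^ 2 * (N + R) * (δ1 * (1 + M') ^ 3)
          ≤ (N : ℝ) ^ 2 * (N + R) * (δ1 * (1 + M') ^ 4) := by gcongr
        _ ≤ δ1 * (1 + M') ^ 4 * (N ^ 2 * (N + R) + 1) := by nlinarith
    gcongr
  have hsd1 : sδ ≤ δ := by
    refine le_trans ?_ hsd
    nlinarith [sq_nonneg ((N : ℝ) * M')]
  have hinvn : ∀ u : V N, ‖(WithLp.toLp 2 (A'.symm (WithLp.ofLp u)) : V N)‖ ≤ N * M' * ‖u‖ := by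
    intro u
    refine (norm_toLp_le _).trans ?_
    rw [mul_assoc]
    gcongr
    calc ‖A'.symm (WithLp.ofLp u)‖ ≤ M' * ‖WithLp.ofLp u‖ :=
          ((A'.symm : (Fin N → ℝ) →L[ℝ] (Fin N → ℝ)).le_opNorm _).trans (by gcongr)
      _ ≤ M' * ‖u‖ := by
          gcongr
          exact (pi_norm_le_iff_of_nonneg (norm_nonneg _)).2 fun i => PiLp.norm_apply_le u i
  refine {
    sm := hsm
    bij := ?_
    eq_iff := ?_
    cx := hcl _
    cy := hcl _
    bd := fun p hp => ⟨hbd 0 p hp, hbd 2 p hp⟩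
    nd := ?_
    dd := fun p hp => ⟨(hx p hp).1.trans k3, (hx p hp).2.trans k4, (hy p hp).1.trans k3,
      (hy p hp).2.trans k4⟩
    cpx := ?_
    per0 := fun j k => ⟨hp1 j k, hp2 j k⟩
    hh := fun p hp u v => ⟨(hh1 p hp u v).trans (by gcongr), (hh2 p hp u v).trans (by gcongr)⟩
    vv := ?_ }
  · -- local diffeomorphism
    intro p hp i hi
    have hi' : Φ (ζ0 + TT A' p) ∈ (A.e i).source := hi
    have h1 : HasFDerivAt (fun p : W N => ζ0 + TT A' p) (TT A') p :=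
      (TT A').hasFDerivAt.const_add ζ0
    have h2 := HasFDerivAt.comp (g := fun y => (ofAtl A).e i (Φ y))
      (f := fun p : W N => ζ0 + TT A' p) p (hsi.diffAt (hmem' p hp) hi).hasFDerivAt h1
    have h3 : fderiv ℝ (fun q => (ofAtl A).e i (Φ (ζ0 + TT A' q))) p = _ := h2.fderiv
    rw [h3]
    constructor
    · rw [injective_iff_map_eq_zero]
      intro u hu
      have h4 : TT A' u = 0 := dPhi_inj hh (hmem' p hp) hi' hu
      have h5 := norm_le_TT hA2 u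
      rw [h4, norm_zero, mul_zero] at h5
      exact norm_le_zero_iff.1 h5
    · intro w
      obtain ⟨u, hu⟩ := dPhi_surj hh (hmem' p hp) hi' w
      refine ⟨TI A' u, ?_⟩
      show fderiv ℝ (fun y => (ofAtl A).e i (Φ y)) (ζ0 + TT A' p) (TT A' (TI A' u)) = w
      rw [TT_TI]
      exact hu
  · -- injectivity
    intro p hp q hq
    have h1 := h.eq_iff _ (hmem' p hp) _ (hmem' q hq)
    have h2 : ζ0 + TT A' p - (ζ0 + TT A' q) = TT A' p - TT A' q := by abel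
    rw [h2, TT_sub_mem h.le_lat hA] at h1
    exact h1
  · -- nondegeneracy
    intro p hp u
    by_cases hu : TT A' u = 0
    · have h5 := norm_le_TT hA2 u
      rw [hu, norm_zero, mul_zero] at h5
      rw [norm_le_zero_iff.1 h5]; simp
    have hu' : 0 < ‖TT A' u‖ := norm_pos_iff.2 hu
    have hk : ‖u‖ ≤ N * (1 + M') * ‖TT A' u‖ := norm_le_TT hA2 u
    have h1 := hb.lo _ (hmem p hp) (TT A' u)
    have h2 := hpu (H.om 0) p hp u (TI A' (I • TT A' u))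
    rw [TT_TI] at h2
    rw [← h2] at h1
    have h3 : pull (H.om 0) (fun p => Φ (ζ0 + TT A' p)) p u (TI A' (I • TT A' u)) ≤
        ‖pull (H.om 0) (fun p => Φ (ζ0 + TT A' p)) p u‖ * (N * (1 + M') * ‖TT A' u‖) := by
      refine (le_abs_self _).trans ?_
      rw [← Real.norm_eq_abs]
      refine (ContinuousLinearMap.le_opNorm _ _).trans ?_
      gcongr
      have h4 := norm_TI_le hA2 (I • TT A' u)
      rw [norm_smul, Complex.norm_I, one_mul] at h4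
      exact h4
    have h4 : c * ‖TT A' u‖ ≤
        ‖pull (H.om 0) (fun p => Φ (ζ0 + TT A' p)) p u‖ * (N * (1 + M')) := by
      have h5 : c * ‖TT A' u‖ ^ 2 ≤
          ‖pull (H.om 0) (fun p => Φ (ζ0 + TT A' p)) p u‖ * (N * (1 + M') * ‖TT A' u‖) :=
        h1.trans h3
      have h6 : (c * ‖TT A' u‖) * ‖TT A' u‖ ≤
          (‖pull (H.om 0) (fun p => Φ (ζ0 + TT A' p)) p u‖ * (N * (1 + M'))) * ‖TT A' u‖ := by
        linarith
      exact le_of_mul_le_mul_right h6 hu'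
    have h7 : ‖TT A' u‖ ≤ c⁻¹ * (‖pull (H.om 0) (fun p => Φ (ζ0 + TT A' p)) p u‖ *
        (N * (1 + M'))) := by
      rw [le_inv_mul_iff₀ hc]; exact h4
    calc ‖u‖ ≤ N * (1 + M') * ‖TT A' u‖ := hk
      _ ≤ N * (1 + M') * (c⁻¹ * (‖pull (H.om 0) (fun p => Φ (ζ0 + TT A' p)) p u‖ *
          (N * (1 + M')))) := by gcongr
      _ = c⁻¹ * (N * (1 + M')) ^ 2 * ‖pull (H.om 0) (fun p => Φ (ζ0 + TT A' p)) p u‖ := by ring
      _ ≤ Λ * ‖pull (H.om 0) (fun p => Φ (ζ0 + TT A' p)) p u‖ := by gcongr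
  · -- the complex structure
    intro p hp
    have hi := mem_ch A (Φ (ζ0 + TT A' p))
    have ht := (A.e (ch A (Φ (ζ0 + TT A' p)))).map_source hi
    set i := ch A (Φ (ζ0 + TT A' p)) with hidef
    set ζ := ζ0 + TT A' p with hζdef
    have hζ : ζ ∈ strip ζ0 r := hmem' p hp
    have hex : ∀ u : W N, ∃ u' : W N, fderiv ℝ (fun y => A.e i (Φ y)) ζ (TT A' u') =
        -H.J 1 i (A.e i (Φ ζ)) (fderiv ℝ (fun y => A.e i (Φ y)) ζ (TT A' u)) := by
      intro u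
      obtain ⟨w, hw⟩ := dPhi_surj hh hζ hi
        (-H.J 1 i (A.e i (Φ ζ)) (fderiv ℝ (fun y => A.e i (Φ y)) ζ (TT A' u)))
      exact ⟨TI A' w, by rw [TT_TI]; exact hw⟩
    choose J hJd using hex
    refine ⟨J, fun u => ?_, fun u v => ?_⟩
    · have h1 : fderiv ℝ (fun y => A.e i (Φ y)) ζ (TT A' (J (J u) + u)) = 0 := by
        rw [map_add, map_add, hJd (J u), hJd u, map_neg, H.J_sq 1 i _ ht]
        simp
      have h2 := dPhi_inj hh hζ hi h1
      have h3 := norm_le_TT hA2 (J (J u) + u)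
      rw [h2, norm_zero, mul_zero] at h3
      exact eq_neg_of_add_eq_zero_left (norm_le_zero_iff.1 h3)
    · rw [hpu (H.om 0) p hp, hpu (H.om 2) p hp]
      rw [hsi.pull_eq (H.om 0) (i := i) hζ hi, hsi.pull_eq (H.om 2) (i := i) hζ hi, pl_apply,
        pl_apply]
      have h1 := (H.om_J (k := 1) (l := 2) (m := 0) (Or.inr (Or.inl rfl)) (i := i) ht
        (fderiv ℝ (fun y => A.e i (Φ y)) ζ (TT A' u))
        (fderiv ℝ (fun y => A.e i (Φ y)) ζ (TT A' v))).2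
      have h2 := hJd u
      show (H.om 0).w i (A.e i (Φ ζ)) (fderiv ℝ (fun y => A.e i (Φ y)) ζ (TT A' (J u)))
        (fderiv ℝ (fun y => A.e i (Φ y)) ζ (TT A' v)) =
        -(H.om 2).w i (A.e i (Φ ζ)) (fderiv ℝ (fun y => A.e i (Φ y)) ζ (TT A' u))
        (fderiv ℝ (fun y => A.e i (Φ y)) ζ (TT A' v))
      rw [h2, map_neg, neg_apply]
      exact congrArg Neg.neg h1
  · -- the `vv` part
    intro p hp u v
    have e1 : ∀ w : F2 (ofAtl A), pull w (fun p => Φ (ζ0 + TT A' p)) p (0, u) (0, v) =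
        pull w Φ (ζ0 + TT A' p)
          (I • TT A' ((WithLp.toLp 2 (A'.symm (WithLp.ofLp u)), 0) : W N))
          (I • TT A' ((WithLp.toLp 2 (A'.symm (WithLp.ofLp v)), 0) : W N)) := by
      intro w
      rw [hpu w p hp, TT_snd, TT_snd, map_neg, map_neg, neg_apply, neg_neg]
    have e2 : ‖(WithLp.toLp 2 (A'.symm (WithLp.ofLp u)) : V N)‖ *
        ‖(WithLp.toLp 2 (A'.symm (WithLp.ofLp v)) : V N)‖ ≤ (N * M') ^ 2 * ‖u‖ * ‖v‖ := by
      calc ‖(WithLp.toLp 2 (A'.symm (WithLp.ofLp u)) : V N)‖ *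
          ‖(WithLp.toLp 2 (A'.symm (WithLp.ofLp v)) : V N)‖
          ≤ (N * M' * ‖u‖) * (N * M' * ‖v‖) := by
            gcongr
            · exact hinvn u
            · exact hinvn v
        _ = (N * M') ^ 2 * ‖u‖ * ‖v‖ := by ring
    have e3 : sδ * ((N * M') ^ 2 * ‖u‖ * ‖v‖) ≤ δ * ‖u‖ * ‖v‖ := by
      have : sδ * (N * M') ^ 2 ≤ δ := by
        refine le_trans ?_ hsd
        nlinarith
      calc sδ * ((N * M') ^ 2 * ‖u‖ * ‖v‖) = sδ * (N * M') ^ 2 * ‖u‖ * ‖v‖ := by ring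
        _ ≤ δ * ‖u‖ * ‖v‖ := by gcongr
    constructor
    · rw [e1, hb.inv _ (hmem p hp), ← hpu (H.om 0) p hp]
      refine (hh1 p hp _ _).trans (le_trans ?_ e3)
      rw [mul_assoc]
      gcongr
    · rw [e1, hb.anti _ (hmem p hp), abs_neg, ← hpu (H.om 2) p hp]
      refine (hh2 p hp _ _).trans (le_trans ?_ e3)
      rw [mul_assoc]
      gcongr

end

end Crest.Agent.R281.T5F_808
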