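import Crest.Agent.R281.T5F_808

/-!
# R281, T5-ASM (helper808), part 8: the final statement `t5`, pinching of the metric, scaling

* `pin`      : `Λ⁻¹ ‖u‖² ≤ g (dΘ u, dΘ u) ≤ Λ ‖u‖²`
* `t5`       : strip of Theorem S + vanishing periods ==> `TubeD` of radius `R` + pinching
* `HkT.scl`  : the triple `(c om, c g, J)`
-/

set_option autoImplicit false
set_option linter.unusedSectionVars false
set_option maxSynthPendingDepth 3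

open Set Filter Topology Complex Metric
open scoped ContDiff Matrix ComplexConjugate ComplexOrder

namespace Crest.Agent.R281.T5F_808

open Crest.Agent.R275.Geo Crest.Agent.R275.Core144 Crest.Agent.R275.EDR890
open Crest.Agent.R273.Defs_333 Crest.Agent.R273.Hess_333 Crest.Agent.R273.HessB_333
open Crest.Agent.R273.HM_333 Crest.Agent.R273.Kah_333 Crest.Agent.R273.Vol_333
open Crest.Agent.R273.Vm_333 Crest.Agent.R273.FIb0_597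
open Crest.Agent.R281.Tor_922 Crest.Agent.R281.SIn_14
open Crest.Agent.R281.HkR_835 Crest.Agent.R281.Per_368 Crest.Agent.R281.T5A_808
open Crest.Agent.R281.T5P_808 Crest.Agent.R281.T5L_808 Crest.Agent.R281.T5M_808
open Crest.Agent.R281.T5D_808
open Crest.Agent.R281.Mc673 (V W tube ClF kv mn isOpen_tube mn_eq_box SP)

noncomputable section

variable {N : ℕ} {M : Type} [TopologicalSpace M] {A : Atl N M}

/-- pinching of the metric in the coordinates `Θ` -/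
def Pin {V' X : Type} [NormedAddCommGroup V'] [NormedSpace ℝ V'] [TopologicalSpace X]
    {C : RCh V' X} (H : HkT C) (N : ℕ) (R Λ : ℝ) (Θ : W N → X) : Prop :=
  ∀ p ∈ tube N R, ∀ i, Θ p ∈ (C.e i).source → ∀ u,
    ‖u‖ ^ 2 ≤ Λ * H.g i (C.e i (Θ p)) (fderiv ℝ (fun q => C.e i (Θ q)) p u)
      (fderiv ℝ (fun q => C.e i (Θ q)) p u) ∧
    H.g i (C.e i (Θ p)) (fderiv ℝ (fun q => C.e i (Θ q)) p u)
      (fderiv ℝ (fun q => C.e i (Θ q)) p u) ≤ Λ * ‖u‖ ^ 2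

theorem pin (H : HkT (ofAtl A)) (hJ : ∀ (i : A.ι), ∀ z ∈ (A.e i).target, ∀ v : Cn N,
      H.J 0 i z v = I • v) {F : M → Fin N → ℂ} {d : ℕ} {ζ0 : Fin N → ℂ}
    {r R : ℝ} {Lam : AddSubgroup (Fin N → ℂ)} {Φ : (Fin N → ℂ) → M} {c B δ1 Λ M' : ℝ}
    (h : Strip A F d ζ0 r Lam Φ) (hRr : R ≤ r) (hc : 0 < c) (hB : 0 ≤ B)
    (hb : SB H Φ ζ0 R c B δ1) (A' : (Fin N → ℝ) ≃L[ℝ] (Fin N → ℝ))
    (hA1 : ‖(A' : (Fin N → ℝ) →L[ℝ] (Fin N → ℝ))‖ ≤ M')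
    (hA2 : ‖(A'.symm : (Fin N → ℝ) →L[ℝ] (Fin N → ℝ))‖ ≤ M')
    (hΛ1 : B * (1 + M') ^ 2 ≤ Λ) (hΛ2 : c⁻¹ * (N * (1 + M')) ^ 2 ≤ Λ) :
    Pin H N R Λ (fun p => Φ (ζ0 + TT A' p)) := by
  have hM0 : 0 ≤ M' := (norm_nonneg _).trans hA1
  have hsi := strip_smI h
  have hh := strip_holI h
  intro p hp i hi u
  have hi' : Φ (ζ0 + TT A' p) ∈ (A.e i).source := hi
  have hmR : ζ0 + TT A' p ∈ strip ζ0 R := TT_mem_strip hp
  have hm : ζ0 + TT A' p ∈ strip ζ0 r := strip_mono hRr hmR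
  have ht := (A.e i).map_source hi'
  have h1 : HasFDerivAt (fun p : W N => ζ0 + TT A' p) (TT A') p :=
    (TT A').hasFDerivAt.const_add ζ0
  have h2 := HasFDerivAt.comp (g := fun y => (ofAtl A).e i (Φ y))
    (f := fun p : W N => ζ0 + TT A' p) p (hsi.diffAt hm hi).hasFDerivAt h1
  have h3 : fderiv ℝ (fun q => (ofAtl A).e i (Φ (ζ0 + TT A' q))) p = _ := h2.fderiv
  rw [h3]
  set D := fderiv ℝ (fun y => A.e i (Φ y)) (ζ0 + TT A' p) with hD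
  have key : H.g i (A.e i (Φ (ζ0 + TT A' p))) (D (TT A' u)) (D (TT A' u)) =
      pull (H.om 0) Φ (ζ0 + TT A' p) (TT A' u) (I • TT A' u) := by
    rw [hsi.pull_eq (H.om 0) (i := i) hm hi, pl_apply]
    have e1 : fderiv ℝ (fun y => (ofAtl A).e i (Φ y)) (ζ0 + TT A' p) (I • TT A' u) =
        H.J 0 i (A.e i (Φ (ζ0 + TT A' p))) (D (TT A' u)) := by
      rw [hJ i _ ht]
      exact dPhi_I hh hm hi' _
    rw [e1]
    have e2 := H.om_eq 0 i _ ht (D (TT A' u)) (H.J 0 i (A.e i (Φ (ζ0 + TT A' p))) (D (TT A' u)))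
    have e3 := H.g_J 0 (i := i) ht (D (TT A' u)) (D (TT A' u))
    exact (e2.trans e3).symm
  have hlo := hb.lo _ hmR (TT A' u)
  have hhi := hb.hi _ hmR (TT A' u)
  rw [← key] at hlo hhi
  have hk : ‖u‖ ≤ N * (1 + M') * ‖TT A' u‖ := norm_le_TT hA2 u
  have hT : ‖TT A' u‖ ≤ (1 + M') * ‖u‖ :=
    ((TT A').le_opNorm u).trans (by gcongr; exact norm_TT_le hA1)
  have hg0 : 0 ≤ H.g i (A.e i (Φ (ζ0 + TT A' p))) (D (TT A' u)) (D (TT A' u)) :=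
    le_trans (by positivity) hlo
  show ‖u‖ ^ 2 ≤ Λ * H.g i (A.e i (Φ (ζ0 + TT A' p))) (D (TT A' u)) (D (TT A' u)) ∧
    H.g i (A.e i (Φ (ζ0 + TT A' p))) (D (TT A' u)) (D (TT A' u)) ≤ Λ * ‖u‖ ^ 2
  constructor
  · calc ‖u‖ ^ 2 ≤ (N * (1 + M') * ‖TT A' u‖) ^ 2 := by gcongr
      _ = c⁻¹ * (N * (1 + M')) ^ 2 * (c * ‖TT A' u‖ ^ 2) := by field_simp
      _ ≤ c⁻¹ * (N * (1 + M')) ^ 2 *
          H.g i (A.e i (Φ (ζ0 + TT A' p))) (D (TT A' u)) (D (TT A' u)) := by gcongr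
      _ ≤ _ := by gcongr
  · calc H.g i (A.e i (Φ (ζ0 + TT A' p))) (D (TT A' u)) (D (TT A' u)) ≤ B * ‖TT A' u‖ ^ 2 := hhi
      _ ≤ B * ((1 + M') * ‖u‖) ^ 2 := by gcongr
      _ = B * (1 + M') ^ 2 * ‖u‖ ^ 2 := by ring
      _ ≤ Λ * ‖u‖ ^ 2 := by gcongr

/-- the bound of the bases of the lattices -/
def Mb (N d : ℕ) : ℝ := (exists_basisPi N d).choose

theorem Mb_pos (N d : ℕ) : 0 < Mb N d := (exists_basisPi N d).choose_spec.1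

theorem Mb_spec (N d : ℕ) {Lam : AddSubgroup (Fin N → ℂ)} (h1 : Lam ≤ lat (Fin N))
    (h2 : ∀ lam ∈ lat (Fin N), d.factorial • lam ∈ Lam) :
    ∃ A : (Fin N → ℝ) ≃L[ℝ] (Fin N → ℝ),
      ‖(A : (Fin N → ℝ) →L[ℝ] (Fin N → ℝ))‖ ≤ Mb N d ∧
      ‖(A.symm : (Fin N → ℝ) →L[ℝ] (Fin N → ℝ))‖ ≤ Mb N d ∧
      ∀ θ : Fin N → ℝ, (fun j => ((A θ j : ℝ) : ℂ) * I) ∈ Lam ↔ ∀ j, ∃ n : ℤ, θ j = n :=
  (exists_basisPi N d).choose_spec.2 Lam h1 h2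

/-- **T5** -/
theorem t5 (N d : ℕ) {K1 : ℝ} (hK1 : 0 < K1) : ∃ Λ : ℝ, 0 < Λ ∧ ∀ R δ : ℝ, 0 < R → 0 < δ →
    ∃ r0 e0 : ℝ, R < r0 ∧ 0 < e0 ∧ e0 ≤ 1 ∧
    ∀ (M : Type) [TopologicalSpace M] (A : Atl N M) (K : Kah A) (H : HkT (ofAtl A))
      (F : M → Fin N → ℂ) (ζ0 : Fin N → ℂ) (r : ℝ) (Lam : AddSubgroup (Fin N → ℂ))
      (Φ : (Fin N → ℂ) → M) (G0 : Matrix (Fin N) (Fin N) ℂ) (e : ℝ),
      r0 ≤ r → 0 ≤ e → e ≤ e0 → Strip A F d ζ0 r Lam Φ →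
      (G0 - ((K1⁻¹ : ℝ) : ℂ) • (1 : Matrix (Fin N) (Fin N) ℂ)).PosSemidef →
      (((K1 : ℝ) : ℂ) • (1 : Matrix (Fin N) (Fin N) ℂ) - G0).PosSemidef →
      CloseC2 (pbg K Φ) G0 (strip ζ0 r) e →
      (∀ (i : A.ι), ∀ z ∈ (A.e i).target, ∀ u v : Cn N,
        (H.om 0).w i z u v = (ofKah K).f2.w i z u v) →
      (∀ (i : A.ι), ∀ z ∈ (A.e i).target, ∀ v : Cn N, H.J 0 i z v = I • v) →
      (∀ l ∈ Lam, ∀ l' ∈ Lam, ‖l‖ ≤ Mb N d → ‖l'‖ ≤ Mb N d → ∀ z ∈ strip ζ0 r,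
        per (pull (H.om 0) Φ) z l l' = 0 ∧ per (pull (H.om 2) Φ) z l l' = 0) →
      ∃ Θ : W N → M, TubeD (ofAtl A) (H.om 0) (H.om 2) N R Λ δ Θ ∧ Pin H N R Λ Θ := by
  have hM := Mb_pos N d
  have hB : 0 ≤ Bq N K1 := by unfold Bq; positivity
  have hc : 0 < K1⁻¹ / 2 := by positivity
  refine ⟨Bq N K1 * (1 + Mb N d) ^ 2 + (K1⁻¹ / 2)⁻¹ * (N * (1 + Mb N d)) ^ 2 + 1, by positivity,
    fun R δ hR hδ => ?_⟩
  set D : ℝ := (1 + Mb N d) ^ 4 * (N ^ 2 * (N + R) + 1) * (1 + (N * Mb N d) ^ 2) with hD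
  have hDpos : 0 < D := by positivity
  set δ1 : ℝ := δ / D with hδ1
  have hδ1pos : 0 < δ1 := by positivity
  refine ⟨R + 1 + 8 * Bq N K1 / δ1,
    min 1 (min (K1⁻¹ / 2 / (N ^ 2 + 1)) (δ1 / (2 * N ^ 2 + 1))), ?_, ?_, min_le_left _ _, ?_⟩
  · have : 0 ≤ 8 * Bq N K1 / δ1 := by positivity
    linarith
  · refine lt_min one_pos (lt_min ?_ ?_) <;> positivity
  intro M _ A K H F ζ0 r Lam Φ G0 e hr he he0 hS hlo hup hcl hom hJ hper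
  have he1 : e ≤ 1 := he0.trans (min_le_left _ _)
  have he2 : e ≤ K1⁻¹ / 2 / (N ^ 2 + 1) :=
    he0.trans ((min_le_right _ _).trans (min_le_left _ _))
  have he3 : e ≤ δ1 / (2 * N ^ 2 + 1) :=
    he0.trans ((min_le_right _ _).trans (min_le_right _ _))
  rw [le_div_iff₀ (by positivity)] at he2 he3
  have hRr : R + 1 ≤ r := by
    have : 0 ≤ 8 * Bq N K1 / δ1 := by positivity
    linarith
  have hr8 : 8 * Bq N K1 ≤ δ1 * (r - R) := by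
    have h1 : 8 * Bq N K1 / δ1 ≤ r - R := by linarith
    rw [div_le_iff₀ hδ1pos] at h1
    linarith
  have hSB := strip_SB (δ := δ1) K H hK1 he he1 (by linarith) (by linarith) hRr hr8 hS hlo hup hcl
    hom hJ
  obtain ⟨A', hA1, hA2, hA⟩ := Mb_spec N d hS.le_lat hS.factorial_mem
  have h1 : (0:ℝ) ≤ Bq N K1 * (1 + Mb N d) ^ 2 := by positivity
  have h2 : (0:ℝ) ≤ (K1⁻¹ / 2)⁻¹ * (N * (1 + Mb N d)) ^ 2 := by positivity
  refine ⟨fun p => Φ (ζ0 + TT A' p), ?_, ?_⟩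
  · refine tubeD H hJ hS hR (by linarith) hc hB hSB A' hA1 hA2 hA hper (by linarith)
      (by linarith) ?_
    have h3 : δ1 * (1 + Mb N d) ^ 4 * (N ^ 2 * (N + R) + 1) * (1 + (N * Mb N d) ^ 2) =
        δ1 * D := by rw [hD]; ring
    rw [h3, hδ1, div_mul_cancel₀ _ hDpos.ne']
  · exact pin H hJ hS (by linarith) hc hB hSB A' hA1 hA2 (by linarith) (by linarith)

end

end Crest.Agent.R281.T5F_808
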