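import Crest.Agent.R281.T5G_808
import Crest.Agent.R281.F2Mod_358

/-!
# R281 (helper808): composition TheoremS + PER-FIN (368) + T5

`core` : polarised data at the scale `L ≥ L0` + a hyperkaehler triple whose classes `[om_0]`, `[om_2]`
are real combinations of integral classes with small representatives ==> `TubeD` of radius `R`
-/

set_option autoImplicit false
set_option linter.unusedSectionVars false
set_option maxSynthPendingDepth 3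

open Set Filter Topology Complex Metric MeasureTheory
open scoped ContDiff Matrix ComplexConjugate ComplexOrder ENNReal

namespace Crest.Agent.R281.T5F_808

open Crest.Agent.R275.Geo Crest.Agent.R275.Core144 Crest.Agent.R275.EDR890
open Crest.Agent.R273.Defs_333 Crest.Agent.R273.Hess_333 Crest.Agent.R273.HessB_333
open Crest.Agent.R273.HM_333 Crest.Agent.R273.Kah_333 Crest.Agent.R273.Vol_333
open Crest.Agent.R273.Vm_333 Crest.Agent.R273.FIb0_597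
open Crest.Agent.R281.Tor_922 Crest.Agent.R281.SIn_14
open Crest.Agent.R281.HkR_835 Crest.Agent.R281.Per_368
open Crest.Agent.R281.T5L_808 Crest.Agent.R281.T5D_808
open Crest.Agent.R281.Cdr_234 (IntF)
open Crest.Agent.R281.Ti_846 (Ex)
open Crest.Agent.R281.Mc673 (V W tube ClF kv mn isOpen_tube)
open Crest.Agent.R238.Sch (ee norm_ee)

noncomputable section

variable {N : ℕ} {M : Type} [TopologicalSpace M] {A : Atl N M}

/-- the lattice vectors of the basis -/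
theorem TT_ee {Lam : AddSubgroup (Fin N → ℂ)} {M' : ℝ} (A' : (Fin N → ℝ) ≃L[ℝ] (Fin N → ℝ))
    (hA1 : ‖(A' : (Fin N → ℝ) →L[ℝ] (Fin N → ℝ))‖ ≤ M')
    (hA : ∀ θ : Fin N → ℝ, (fun j => ((A' θ j : ℝ) : ℂ) * I) ∈ Lam ↔ ∀ j, ∃ n : ℤ, θ j = n)
    (j : Fin N) : TT A' ((ee j, 0) : W N) ∈ Lam ∧ ‖TT A' ((ee j, 0) : W N)‖ ≤ M' := by
  have hM0 : 0 ≤ M' := (norm_nonneg _).trans hA1
  have h1 : TT A' ((ee j, 0) : W N) =
      fun i => ((A' (WithLp.ofLp (ee j : V N)) i : ℝ) : ℂ) * I := by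
    funext i
    rw [TT_apply]
    show (((0 : V N) i : ℝ) : ℂ) + _ = _
    simp
  constructor
  · rw [h1, hA]
    intro i
    by_cases hij : i = j
    · subst hij
      exact ⟨1, by simp [ee]⟩
    · exact ⟨0, by simp [ee, hij]⟩
  · rw [h1]
    refine (pi_norm_le_iff_of_nonneg hM0).2 fun i => ?_
    rw [norm_mul, Complex.norm_I, mul_one, Complex.norm_real]
    have h2 : ‖A' (WithLp.ofLp (ee j : V N))‖ ≤ M' * ‖WithLp.ofLp (ee j : V N)‖ :=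
      ((A' : (Fin N → ℝ) →L[ℝ] (Fin N → ℝ)).le_opNorm _).trans (by gcongr)
    have h3 : ‖WithLp.ofLp (ee j : V N)‖ ≤ 1 :=
      (pi_norm_le_iff_of_nonneg zero_le_one).2 fun i => by
        have := PiLp.norm_apply_le (ee j : V N) i
        rw [norm_ee] at this
        exact this
    calc ‖A' (WithLp.ofLp (ee j : V N)) i‖ ≤ ‖A' (WithLp.ofLp (ee j : V N))‖ :=
          norm_le_pi_norm _ i
      _ ≤ M' * ‖WithLp.ofLp (ee j : V N)‖ := h2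
      _ ≤ M' * 1 := by gcongr
      _ = M' := mul_one _

/-- zero periods in the coordinates of the tube -/
theorem tube_per {F : M → Fin N → ℂ} {d : ℕ} {ζ0 : Fin N → ℂ} {r R : ℝ}
    {Lam : AddSubgroup (Fin N → ℂ)} {Φ : (Fin N → ℂ) → M} {M' : ℝ}
    (h : Strip A F d ζ0 r Lam Φ) (hRr : R ≤ r) (A' : (Fin N → ℝ) ≃L[ℝ] (Fin N → ℝ))
    (hA1 : ‖(A' : (Fin N → ℝ) →L[ℝ] (Fin N → ℝ))‖ ≤ M')
    (hA : ∀ θ : Fin N → ℝ, (fun j => ((A' θ j : ℝ) : ℂ) * I) ∈ Lam ↔ ∀ j, ∃ n : ℤ, θ j = n)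
    (w : F2 (ofAtl A)) (hw : ∀ l ∈ Lam, ∀ l' ∈ Lam, ‖l‖ ≤ M' → ‖l'‖ ≤ M' → ∀ z ∈ strip ζ0 r,
      per (pull w Φ) z l l' = 0) {p : W N} (hp : p ∈ tube N R) (j k : Fin N) :
    per (pull w (fun p => Φ (ζ0 + TT A' p))) p ((ee j, 0) : W N) ((ee k, 0) : W N) = 0 := by
  have hsi := strip_smI h
  have hmem' : ∀ p ∈ tube N R, ζ0 + TT A' p ∈ strip ζ0 r := fun p hp =>
    strip_mono hRr (TT_mem_strip hp)
  have hj := TT_ee A' hA1 hA j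
  have hk := TT_ee A' hA1 hA k
  rw [hsi.per_pull_affine (TT A') ζ0 w (z := p) (v := ((ee j, 0) : W N))
    (v' := ((ee k, 0) : W N)) (fun s _ t _ => ?_)]
  · exact hw _ hj.1 _ hk.1 hj.2 hk.2 _ (hmem' p hp)
  · refine hmem' _ ?_
    show ‖(pt p ((ee j, 0) : W N) ((ee k, 0) : W N) s t).2‖ < R
    have e : (pt p ((ee j, 0) : W N) ((ee k, 0) : W N) s t).2 = p.2 := by
      simp [pt]
    rw [e]
    exact hp

/-- `t5` with the periods of all forms -/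
theorem t5b (N d : ℕ) {K1 : ℝ} (hK1 : 0 < K1) : ∃ Λ : ℝ, 0 < Λ ∧ ∀ R δ : ℝ, 0 < R → 0 < δ →
    ∃ r0 e0 : ℝ, R < r0 ∧ 0 < e0 ∧ e0 ≤ 1 ∧
    ∀ (M : Type) [TopologicalSpace M] (A : Atl N M) (K : Kah A) (H : HkT (ofAtl A))
      (F : M → Fin N → ℂ) (ζ0 : Fin N → ℂ) (r : ℝ) (Lam : AddSubgroup (Fin N → ℂ))
      (Φ : (Fin N → ℂ) → M) (G0 : Matrix (Fin N) (Fin N) ℂ) (e : ℝ),
      r0 ≤ r → 0 ≤ e → e ≤ e0 → Strip A F d ζ0 r Lam Φ →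
      (G0 - ((K1⁻¹ : ℝ) : ℂ) • (1 : Matrix (Fin N) (Fin N) ℂ)).PosSemidef →
      (((K1 : ℝ) : ℂ) • (1 : Matrix (Fin N) (Fin N) ℂ) - G0).PosSemidef →
      CloseC2 (pbg K Φ) G0 (strip ζ0 r) e →
      (∀ (i : A.ι), ∀ z ∈ (A.e i).target, ∀ u v : Cn N,
        (H.om 0).w i z u v = (ofKah K).f2.w i z u v) →
      (∀ (i : A.ι), ∀ z ∈ (A.e i).target, ∀ v : Cn N, H.J 0 i z v = I • v) →
      (∀ l ∈ Lam, ∀ l' ∈ Lam, ‖l‖ ≤ Mb N d → ‖l'‖ ≤ Mb N d → ∀ z ∈ strip ζ0 r,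
        per (pull (H.om 0) Φ) z l l' = 0 ∧ per (pull (H.om 2) Φ) z l l' = 0) →
      ∃ Θ : W N → M, TubeD (ofAtl A) (H.om 0) (H.om 2) N R Λ δ Θ ∧ Pin H N R Λ Θ ∧
        ∀ w : F2 (ofAtl A), (∀ l ∈ Lam, ∀ l' ∈ Lam, ‖l‖ ≤ Mb N d → ‖l'‖ ≤ Mb N d →
          ∀ z ∈ strip ζ0 r, per (pull w Φ) z l l' = 0) →
          ∀ p ∈ tube N R, ∀ j k, per (pull w Θ) p ((ee j, 0) : W N) ((ee k, 0) : W N) = 0 := by
  have hM := Mb_pos N d
  have hB : 0 ≤ Bq N K1 := by unfold Bq; positivity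
  have hc : 0 < K1⁻¹ / 2 := by positivity
  refine ⟨Bq N K1 * (1 + Mb N d) ^ 2 + (K1⁻¹ / 2)⁻¹ * (N * (1 + Mb N d)) ^ 2 + 1, by positivity,
    fun R δ hR hδ => ?_⟩
  set D : ℝ := (1 + Mb N d) ^ 4 * (N ^ 2 * (N + R) + 1) * (1 + (N * Mb N d) ^ 2) with hD
  have hDpos : 0 < D := by positivity
  set δ1 : ℝ := δ / D with hδ1
  have hδ1pos : 0 < δ1 := by positivity
  refine ⟨R + 1 + 8 * Bq N K1 / δ1,
    min 1 (min (K1⁻¹ / 2 / (N ^ 2 + 1)) (δ1 / (2 * N ^ 2 + 1))), ?_, ?_, min_le_left _ _, ?_⟩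
  · have : 0 ≤ 8 * Bq N K1 / δ1 := by positivity
    linarith
  · refine lt_min one_pos (lt_min ?_ ?_) <;> positivity
  intro M _ A K H F ζ0 r Lam Φ G0 e hr he he0 hS hlo hup hcl hom hJ hper
  have he1 : e ≤ 1 := he0.trans (min_le_left _ _)
  have he2 : e ≤ K1⁻¹ / 2 / (N ^ 2 + 1) :=
    he0.trans ((min_le_right _ _).trans (min_le_left _ _))
  have he3 : e ≤ δ1 / (2 * N ^ 2 + 1) :=
    he0.trans ((min_le_right _ _).trans (min_le_right _ _))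
  rw [le_div_iff₀ (by positivity)] at he2 he3
  have hRr : R + 1 ≤ r := by
    have : 0 ≤ 8 * Bq N K1 / δ1 := by positivity
    linarith
  have hr8 : 8 * Bq N K1 ≤ δ1 * (r - R) := by
    have h1 : 8 * Bq N K1 / δ1 ≤ r - R := by linarith
    rw [div_le_iff₀ hδ1pos] at h1
    linarith
  have hSB := strip_SB (δ := δ1) K H hK1 he he1 (by linarith) (by linarith) hRr hr8 hS hlo hup hcl
    hom hJ
  obtain ⟨A', hA1, hA2, hA⟩ := Mb_spec N d hS.le_lat hS.factorial_mem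
  have h1 : (0:ℝ) ≤ Bq N K1 * (1 + Mb N d) ^ 2 := by positivity
  have h2 : (0:ℝ) ≤ (K1⁻¹ / 2)⁻¹ * (N * (1 + Mb N d)) ^ 2 := by positivity
  refine ⟨fun p => Φ (ζ0 + TT A' p), ?_, ?_, ?_⟩
  · refine tubeD H hJ hS hR (by linarith) hc hB hSB A' hA1 hA2 hA hper (by linarith)
      (by linarith) ?_
    have h3 : δ1 * (1 + Mb N d) ^ 4 * (N ^ 2 * (N + R) + 1) * (1 + (N * Mb N d) ^ 2) =
        δ1 * D := by rw [hD]; ring
    rw [h3, hδ1, div_mul_cancel₀ _ hDpos.ne']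
  · exact pin H hJ hS (by linarith) hc hB hSB A' hA1 hA2 (by linarith) (by linarith)
  · intro w hw p hp j k
    exact tube_per hS (by linarith) A' hA1 hA w hw hp j k

/-- **composition of Theorem S, PER-FIN and T5** -/
theorem core (hS : TheoremS) (N d : ℕ) (m v C0 c : ℝ) (hN : 1 ≤ N) (hm : 0 < m) (hv : 0 < v)
    (hc : 0 < c) : ∃ Λ : ℝ, 0 < Λ ∧ ∃ δ0 : ℝ, 0 < δ0 ∧ ∀ R δ : ℝ, 0 < R → 0 < δ →
    ∃ L0 : ℝ, 1 ≤ L0 ∧ ∀ L : ℝ, L0 ≤ L →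
    ∀ (M : Type) [TopologicalSpace M] [T2Space M] [CompactSpace M] [ConnectedSpace M]
      [MeasurableSpace M] [BorelSpace M] (A : Atl N M) [Finite A.ι], Part A →
    ∀ (K : Kah A) (Lb : LB A) (h : HM Lb) (s : Fin (N + 1) → A.ι → M → ℂ) (om : A.ι → M → ℂ),
      SDat A K Lb h s om m v C0 c d L →
    ∀ H : HkT (ofAtl A),
      (∀ (i : A.ι), ∀ z ∈ (A.e i).target, ∀ u v : Cn N,
        (H.om 0).w i z u v = (ofKah K).f2.w i z u v) →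
      (∀ (i : A.ι), ∀ z ∈ (A.e i).target, ∀ v : Cn N, H.J 0 i z v = I • v) →
    ∀ {κ : Type} [Fintype κ] (b : κ → F2 (ofAtl A)) (t0 t2 : κ → ℝ), (∀ k, IntF (b k)) →
      Ex (H.om 0 - ∑ k, t0 k • b k) → Ex (H.om 2 - ∑ k, t2 k • b k) →
    ∀ f : M → ℝ≥0∞, Measurable f → ∫⁻ x, f x ∂(vm (volK K)) ≤ vm (volK K) univ →
      (∀ k i, ∀ x ∈ (A.e i).source, ∀ u v : Cn N,
        ENNReal.ofReal (((b k).w i (A.e i x) u v) ^ 2) ≤
          ENNReal.ofReal δ0 * f x * ENNReal.ofReal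
            ((hb (K.g i x) u u).re * (hb (K.g i x) v v).re)) →
      ∃ Θ : W N → M, TubeD (ofAtl A) (H.om 0) (H.om 2) N R Λ δ Θ ∧ Pin H N R Λ Θ ∧
        ∀ w : F2 (ofAtl A), (∃ τ : κ → ℝ, Ex (w - ∑ k, τ k • b k)) →
          ∀ p ∈ tube N R, ∀ j k, per (pull w Θ) p ((ee j, 0) : W N) ((ee k, 0) : W N) = 0 := by
  have hM := Mb_pos N d
  obtain ⟨K1, hK1, hS1⟩ := hS N m v C0 c (4 * Mb N d) d hN hm hv hc
  obtain ⟨δ0, hδ0, hper⟩ := per_fin N (B0 := Mb N d) hK1 le_rfl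
    (by positivity : (0:ℝ) < 4 * Mb N d)
  obtain ⟨Λ, hΛ, ht5⟩ := t5b N d hK1
  refine ⟨Λ, hΛ, δ0, hδ0, fun R δ hR hδ => ?_⟩
  obtain ⟨r0, e0, hr0, he0, he01, ht⟩ := ht5 R δ hR hδ
  obtain ⟨L0, hL0, hS2⟩ := hS1 (max r0 (4 * Mb N d)) e0 (le_max_right _ _)
    (lt_max_of_lt_left (hR.trans hr0)) he0
  refine ⟨L0, hL0, fun L hL => ?_⟩
  intro M _ _ _ _ _ _ A _ P K Lb h s om hSD H hom hJ κ _ b t0 t2 hI hE0 hE2 f hf hmean hbd
  obtain ⟨ζ0, Lam, Φ, G0, hst, hlo, hup, hcl, hint⟩ :=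
    hS2 L hL M A P K Lb h s om hSD f hf hmean
  have hpk : ∀ k, ∀ l ∈ Lam, ∀ l' ∈ Lam, ‖l‖ ≤ Mb N d → ‖l'‖ ≤ Mb N d →
      ∀ z ∈ strip ζ0 (max r0 (4 * Mb N d)), per (pull (b k) Φ) z l l' = 0 := fun k l hl l' hl'
      h1 h2 z hz => hper M A K (quo s) d ζ0 _ Lam Φ G0 e0 f hst (le_max_right _ _) he0.le he01 hup
        hcl hf hint (b k) (hI k) (hbd k) l hl l' hl' h1 h2 z hz
  have hpw : ∀ w : F2 (ofAtl A), (∃ τ : κ → ℝ, Ex (w - ∑ k, τ k • b k)) → ∀ l ∈ Lam, ∀ l' ∈ Lam,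
      ‖l‖ ≤ Mb N d → ‖l'‖ ≤ Mb N d →
      ∀ z ∈ strip ζ0 (max r0 (4 * Mb N d)), per (pull w Φ) z l l' = 0 := by
    rintro w ⟨τ, hτ⟩ l hl l' hl' h1 h2 z hz
    exact strip_comb hst hτ hz hl hl' fun k => hpk k l hl l' hl' h1 h2 z hz
  obtain ⟨Θ, hΘ1, hΘ2, hΘ3⟩ := ht M A K H (quo s) ζ0 _ Lam Φ G0 e0 (le_max_left _ _) he0.le le_rfl
    hst hlo hup hcl hom hJ (fun l hl l' hl' h1 h2 z hz =>
      ⟨hpw _ ⟨t0, hE0⟩ l hl l' hl' h1 h2 z hz, hpw _ ⟨t2, hE2⟩ l hl l' hl' h1 h2 z hz⟩)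
  exact ⟨Θ, hΘ1, hΘ2, fun w hw p hp j k => hΘ3 w (hpw w hw) p hp j k⟩

end

end Crest.Agent.R281.T5F_808
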