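import Crest.Agent.R281.St1_405

/-! Row 281, S-T6 (helper16), part 1: abstract half of (T6') ("det is free").

`T = ∑ |η_j|²`, `q = |J|²`, `P = |∂J|²`, `a + i b = J`, all cut off outside the ball, on
405's calculus `Calc` / `Sp`. -/

set_option autoImplicit false
open MeasureTheory Metric Set Filter Topology
open scoped ENNReal NNReal ContDiff

namespace Crest.Agent.R281.T6_16
open Crest.Agent.R281.Mx_405 Crest.Agent.R281.St_405

noncomputable section

/-- the data of (T6') on one ball -/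
structure T6D {X : Type*} [PseudoMetricSpace X] [MeasurableSpace X] {μ : Measure X}
    (cal : Calc μ) (N : ℕ) (y : X) (R K : ℝ) (T P q a b : X → ℝ) : Prop where
  T_mem : T ∈ cal.Sm
  P_mem : P ∈ cal.Sm
  q_mem : q ∈ cal.Sm
  a_mem : a ∈ cal.Sm
  b_mem : b ∈ cal.Sm
  T_nonneg : ∀ x, 0 ≤ T x
  P_nonneg : ∀ x, 0 ≤ P x
  q_nonneg : ∀ x, 0 ≤ q x
  Lap_T : ∀ x ∈ closedBall y R, 0 ≤ cal.Lap T x
  Lap_P : ∀ x ∈ closedBall y R, 0 ≤ cal.Lap P x
  Lap_q : ∀ x ∈ closedBall y R, P x ≤ cal.Lap q x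
  q_eq : ∀ x ∈ closedBall y R, q x = a x ^ 2 + b x ^ 2
  q_le : ∀ x ∈ closedBall y R, q x ≤ T x ^ N
  Gam_a : ∀ x ∈ closedBall y R, cal.Gam a x ≤ P x
  Gam_b : ∀ x ∈ closedBall y R, cal.Gam b x ≤ P x
  mean_T : ⨍ z in closedBall y R, T z ∂μ ≤ K

/-- the constant in `P ≤ CP / R²` -/
def CP (C K : ℝ) (N : ℕ) : ℝ := 4 * C ^ 2 * (C * K) ^ N

/-- the constant in `|J p - J q| ≤ CJ / R * dist p q` -/
def CJ (C K : ℝ) (N : ℕ) : ℝ := C * Real.sqrt (CP C K N)

variable {X : Type*} [PseudoMetricSpace X] [MeasurableSpace X] {μ : Measure X}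
  {cal : Calc μ} {C : ℝ≥0} {N : ℕ} {y : X} {R K : ℝ} {T P q a b : X → ℝ}

theorem T6D.mean_nonneg (h : T6D cal N y R K T P q a b) : 0 ≤ K :=
  le_trans (integral_nonneg fun x => h.T_nonneg x) h.mean_T

/-- `T ≤ C K` on the half ball -/
theorem T6D.T_le (S : Sp cal C) (h : T6D cal N y R K T P q a b) (hR : 0 < R) :
    ∀ x ∈ closedBall y (R / 2), T x ≤ C * K := by
  intro x hx
  have h1 := S.DG1 T h.T_mem h.T_nonneg y R 0 0 hR le_rfl le_rfl (by simp)
    (fun z hz => by simpa using h.Lap_T z hz) x hx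
  simp only [zero_mul, add_zero] at h1
  exact h1.trans (mul_le_mul_of_nonneg_left h.mean_T (NNReal.coe_nonneg C))

theorem T6D.q_le' (S : Sp cal C) (h : T6D cal N y R K T P q a b) (hR : 0 < R) :
    ∀ x ∈ closedBall y (R / 2), q x ≤ (C * K) ^ N := by
  intro x hx
  have hx' : x ∈ closedBall y R := closedBall_subset_closedBall (by linarith) hx
  exact (h.q_le x hx').trans (pow_le_pow_left₀ (h.T_nonneg x) (h.T_le S hR x hx) N)

/-- mean of `P` on the quarter ball -/
theorem T6D.mean_P (S : Sp cal C) (h : T6D cal N y R K T P q a b) (hR : 0 < R) :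
    ⨍ x in closedBall y (R / 4), P x ∂μ ≤ 4 * C * (C * K) ^ N / R ^ 2 := by
  have hK := h.mean_nonneg
  have hA : 0 ≤ ((C : ℝ) * K) ^ N := by positivity
  have hc : Continuous P := cal.cont P h.P_mem
  have h1 := S.CAC q h.q_mem h.q_nonneg P hc h.P_nonneg y (R / 2) (((C : ℝ) * K) ^ N) 0
    (by linarith) hA le_rfl (h.q_le' S hR)
    (fun x hx => by
      have hx' : x ∈ closedBall y R := closedBall_subset_closedBall (by linarith) hx
      simpa using h.Lap_q x hx')
  have e1 : R / 2 / 2 = R / 4 := by ring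
  rw [e1] at h1
  refine h1.trans (le_of_eq ?_)
  field_simp
  ring

/-- `P ≤ CP / R²` on the ball of radius `R / 8` -/
theorem T6D.P_le (S : Sp cal C) (h : T6D cal N y R K T P q a b) (hR : 0 < R) :
    ∀ x ∈ closedBall y (R / 8), P x ≤ CP C K N / R ^ 2 := by
  intro x hx
  have hK := h.mean_nonneg
  have h1 := S.DG1 P h.P_mem h.P_nonneg y (R / 4) 0 0 (by linarith) le_rfl le_rfl (by simp)
    (fun z hz => by
      have hz' : z ∈ closedBall y R := closedBall_subset_closedBall (by linarith) hz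
      simpa using h.Lap_P z hz') x (by
        have e1 : R / 4 / 2 = R / 8 := by ring
        rw [e1]; exact hx)
  simp only [zero_mul, add_zero] at h1
  refine h1.trans ((mul_le_mul_of_nonneg_left (h.mean_P S hR) (NNReal.coe_nonneg C)).trans ?_)
  have hA : 0 ≤ ((C : ℝ) * K) ^ N := by positivity
  have hC : (0 : ℝ) ≤ C := NNReal.coe_nonneg C
  unfold CP
  rw [← mul_div_assoc]
  refine div_le_div_of_nonneg_right (le_of_eq ?_) (by positivity)
  ring

theorem CP_nonneg {C K : ℝ} (hC : 0 ≤ C) (hK : 0 ≤ K) (N : ℕ) : 0 ≤ CP C K N := by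
  unfold CP; positivity

theorem CJ_nonneg {C K : ℝ} (hC : 0 ≤ C) (N : ℕ) : 0 ≤ CJ C K N := by
  unfold CJ; positivity

theorem T6D.lip_of (S : Sp cal C) (h : T6D cal N y R K T P q a b) (hR : 0 < R) {f : X → ℝ}
    (hf : f ∈ cal.Sm) (hG : ∀ x ∈ closedBall y R, cal.Gam f x ≤ P x) :
    ∀ p ∈ closedBall y (R / 24), ∀ p' ∈ closedBall y (R / 24),
      |f p - f p'| ≤ CJ C K N / R * dist p p' := by
  intro p hp p' hp'
  have hK := h.mean_nonneg
  have hC : (0 : ℝ) ≤ C := NNReal.coe_nonneg C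
  have hCP := CP_nonneg hC hK N
  have h1 := S.LIP f hf y (R / 8) (Real.sqrt (CP C K N) / R) (by linarith) (by positivity)
    (fun x hx => by
      have hx' : x ∈ closedBall y R := closedBall_subset_closedBall (by linarith) hx
      rw [div_pow, Real.sq_sqrt hCP]
      exact (hG x hx').trans (h.P_le S hR x hx)) p (by
        have e1 : R / 8 / 3 = R / 24 := by ring
        rw [e1]; exact hp) p' (by
        have e1 : R / 8 / 3 = R / 24 := by ring
        rw [e1]; exact hp')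
  refine h1.trans (le_of_eq ?_)
  unfold CJ
  ring

/-- **(T6'), first part** -/
theorem T6D.main (S : Sp cal C) (h : T6D cal N y R K T P q a b) (hR : 0 < R) :
    (∀ x ∈ closedBall y (R / 2), T x ≤ C * K) ∧
    (∀ x ∈ closedBall y (R / 8), P x ≤ CP C K N / R ^ 2) ∧
    (∀ p ∈ closedBall y (R / 24), ∀ p' ∈ closedBall y (R / 24),
      |a p - a p'| ≤ CJ C K N / R * dist p p') ∧
    (∀ p ∈ closedBall y (R / 24), ∀ p' ∈ closedBall y (R / 24),
      |b p - b p'| ≤ CJ C K N / R * dist p p') :=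
  ⟨h.T_le S hR, h.P_le S hR, h.lip_of S hR h.a_mem h.Gam_a, h.lip_of S hR h.b_mem h.Gam_b⟩

/-- the radius factor `θ` -/
def th (C K : ℝ) (N : ℕ) (c : ℝ) : ℝ := min (1 / 24) (c / (4 * CJ C K N + 1))

theorem th_pos {C K : ℝ} (hC : 0 ≤ C) (N : ℕ) {c : ℝ} (hc : 0 < c) : 0 < th C K N c := by
  unfold th
  have := CJ_nonneg (K := K) hC N
  refine lt_min (by norm_num) (div_pos hc (by positivity))

theorem th_le (C K : ℝ) (N : ℕ) (c : ℝ) : th C K N c ≤ 1 / 24 := min_le_left _ _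

/-- elementary: a vector of length `≥ c` moved by at most `c/4` in each coordinate -/
theorem sq_ge {a b a' b' c : ℝ} (h : c ^ 2 ≤ a ^ 2 + b ^ 2) (ha : |a' - a| ≤ c / 4)
    (hb : |b' - b| ≤ c / 4) : c ^ 2 / 4 ≤ a' ^ 2 + b' ^ 2 := by
  have h1 := abs_le.1 ha
  have h2 := abs_le.1 hb
  have e1 : (a' - a) ^ 2 ≤ (c / 4) ^ 2 := sq_le_sq' (by linarith [h1.1]) h1.2
  have e2 : (b' - b) ^ 2 ≤ (c / 4) ^ 2 := sq_le_sq' (by linarith [h2.1]) h2.2
  -- a² ≤ 2 a'² + 2 (a' - a)²
  have e3 : a ^ 2 ≤ 2 * a' ^ 2 + 2 * (a' - a) ^ 2 := by nlinarith [sq_nonneg (2 * a' - a)]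
  have e4 : b ^ 2 ≤ 2 * b' ^ 2 + 2 * (b' - b) ^ 2 := by nlinarith [sq_nonneg (2 * b' - b)]
  nlinarith [sq_nonneg c]

/-- **(T6'), second part**: `|J|² ≥ c²/4` on the ball of radius `θ R` -/
theorem T6D.pinch (S : Sp cal C) (h : T6D cal N y R K T P q a b) (hR : 0 < R) {c : ℝ}
    (hc : 0 < c) (hq : c ^ 2 ≤ q y) :
    ∀ x ∈ closedBall y (th C K N c * R), c ^ 2 / 4 ≤ q x := by
  intro x hx
  have hC : (0 : ℝ) ≤ C := NNReal.coe_nonneg C
  have hCJ := CJ_nonneg (K := K) hC N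
  have hth := th_le C K N c
  have hx1 : dist x y ≤ th C K N c * R := hx
  have hx2 : x ∈ closedBall y (R / 24) := by
    refine closedBall_subset_closedBall ?_ hx
    calc th C K N c * R ≤ 1 / 24 * R := mul_le_mul_of_nonneg_right hth hR.le
      _ = R / 24 := by ring
  have hxR : x ∈ closedBall y R := closedBall_subset_closedBall (by linarith) hx2
  have hyR : y ∈ closedBall y R := mem_closedBall_self hR.le
  have hy2 : y ∈ closedBall y (R / 24) := mem_closedBall_self (by linarith)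
  have hb : CJ C K N / R * dist x y ≤ c / 4 := by
    have h1 : dist x y ≤ c / (4 * CJ C K N + 1) * R :=
      hx1.trans (mul_le_mul_of_nonneg_right (min_le_right _ _) hR.le)
    calc CJ C K N / R * dist x y ≤ CJ C K N / R * (c / (4 * CJ C K N + 1) * R) :=
          mul_le_mul_of_nonneg_left h1 (by positivity)
      _ = CJ C K N * c / (4 * CJ C K N + 1) := by field_simp
      _ ≤ c / 4 := by
        rw [div_le_div_iff₀ (by positivity) (by norm_num)]
        nlinarith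
  rw [h.q_eq x hxR]
  rw [h.q_eq y hyR] at hq
  exact sq_ge hq ((h.lip_of S hR h.a_mem h.Gam_a x hx2 y hy2).trans hb)
    ((h.lip_of S hR h.b_mem h.Gam_b x hx2 y hy2).trans hb)

end

end Crest.Agent.R281.T6_16
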