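import Crest.Agent.R281.Bo2_815
import Crest.Agent.R281.Glob2_484
import Crest.Agent.R275.QN2b_734

/-!
# R281 (S0424), leaf S-T6-INST (helper671), part 1: norms of tuples of holomorphic 1-forms

`O : Set M` open, `V i x : Matrix (Fin n) ρ ℂ` = coefficients in the chart `i` of holomorphic
1-forms `η_r` (`r : ρ`) on `O`.

* `HF O V`      : holomorphic on `O`, transformation law;
* `gm K V i x`  : the Gram matrix `(⟨η_r, η_s⟩)`, `gM K V x`, `gM_eq` (chart independent);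
* `T0 K V x`    : `∑ |η_r|²` (trace of the Gram matrix); `T0_smP` (smooth on `O`);
* `lap_T0`      : `RicFlat K → 0 ≤ tr g⁻¹ ∂∂̄ T0` on `O`;
* `trC_eq_lap`, `gq_eq_gsq` : dictionary with the pointwise calculus of `Bo1_815`.
-/

set_option autoImplicit false
set_option linter.unusedSectionVars false

open Set Filter Topology Complex MeasureTheory
open scoped ContDiff Matrix ComplexConjugate ComplexOrder

namespace Crest.Agent.R281.TI_671

open Crest.Agent.R275 Crest.Agent.R275.Geo Crest.Agent.R275.Core144 Crest.Agent.R275.EDR890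
open Crest.Agent.R273.Defs_333 Crest.Agent.R273.Hess_333 Crest.Agent.R273.HessB_333
open Crest.Agent.R273.HM_333 hiding nsq
open Crest.Agent.R273.Kah_333 Crest.Agent.R273.Vol_333
open Crest.Agent.R273.Calc_243 Crest.Agent.R273.Bkn_243 Crest.Agent.R273.BKNa_37
open Crest.Agent.R273.BochA_101 Crest.Agent.R273.BochB_101 Crest.Agent.R273.BochC_101
open Crest.Agent.R273.BochD_101 Crest.Agent.R273.BochF_101
open Crest.Agent.R273.FIa0_597 Crest.Agent.R273.FIb0_597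
open Crest.Agent.R275.QN2b734 (SmP smP_of sm_iff)
open Crest.Agent.R281.Bo1_815 Crest.Agent.R281.Bo2_815 Crest.Agent.R281.Glob1_484

noncomputable section

variable {n : ℕ} {M : Type} [TopologicalSpace M] {A : Atl n M} {ρ : Type} [Fintype ρ]
  [DecidableEq ρ] {O : Set M}

/-- tuples of holomorphic 1-forms on the open set `O` -/
structure HF (A : Atl n M) (O : Set M) (V : A.ι → M → Matrix (Fin n) ρ ℂ) : Prop where
  hol : ∀ i a r, HolAt A i O (fun x => V i x a r)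
  tr : ∀ i j, ∀ x ∈ (A.e i).source ∩ (A.e j).source, x ∈ O → V i x = (Jm A i j x)ᵀ * V j x

/-- the Gram matrix in the chart `i` -/
def gm (K : Kah A) (V : A.ι → M → Matrix (Fin n) ρ ℂ) (i : A.ι) (x : M) : Matrix ρ ρ ℂ :=
  (V i x)ᴴ * (K.g i x)⁻¹ * V i x

/-- the Gram matrix -/
def gM (K : Kah A) (V : A.ι → M → Matrix (Fin n) ρ ℂ) (x : M) : Matrix ρ ρ ℂ :=
  gm K V (ch A x) x

theorem gm_indep (K : Kah A) {V : A.ι → M → Matrix (Fin n) ρ ℂ} (hV : HF A O V) {i j : A.ι}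
    {x : M} (hx : x ∈ (A.e i).source ∩ (A.e j).source) (hO : x ∈ O) :
    gm K V i x = gm K V j x := by
  unfold gm
  rw [K.tr i j x hx, hV.tr i j x hx hO]
  set J := Jm A i j x with hJ
  have h1 : IsUnit (Jᵀ).det := by
    rw [Matrix.det_transpose]; exact (det_Jm_ne hx).isUnit
  have h2 : IsUnit (J.map conj).det := (det_conj_ne hx).isUnit
  have h3 : (Jᵀ * V j x)ᴴ = (V j x)ᴴ * J.map conj := by
    rw [Matrix.conjTranspose_mul]
    rfl
  rw [Matrix.mul_inv_rev, Matrix.mul_inv_rev, h3]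
  calc (V j x)ᴴ * J.map conj * ((J.map conj)⁻¹ * ((K.g j x)⁻¹ * (Jᵀ)⁻¹)) * (Jᵀ * V j x)
      = (V j x)ᴴ * (J.map conj * (J.map conj)⁻¹) * (K.g j x)⁻¹ * (((Jᵀ)⁻¹ * Jᵀ) * V j x) := by
        simp only [Matrix.mul_assoc]
    _ = _ := by rw [Matrix.mul_nonsing_inv _ h2, Matrix.nonsing_inv_mul _ h1, Matrix.mul_one,
        Matrix.one_mul]

theorem gM_eq (K : Kah A) {V : A.ι → M → Matrix (Fin n) ρ ℂ} (hV : HF A O V) {i : A.ι}
    {x : M} (hx : x ∈ (A.e i).source) (hO : x ∈ O) : gM K V x = gm K V i x :=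
  gm_indep K hV ⟨mem_ch A x, hx⟩ hO

theorem gm_posSemidef (K : Kah A) (V : A.ι → M → Matrix (Fin n) ρ ℂ) {i : A.ι} {x : M}
    (hx : x ∈ (A.e i).source) : (gm K V i x).PosSemidef :=
  (K.pos i x hx).inv.posSemidef.conjTranspose_mul_mul_same (V i x)

theorem gM_posSemidef (K : Kah A) (V : A.ι → M → Matrix (Fin n) ρ ℂ) (x : M) :
    (gM K V x).PosSemidef := gm_posSemidef K V (mem_ch A x)

/-- `∑ |η_r|²` -/
def T0 (K : Kah A) (V : A.ι → M → Matrix (Fin n) ρ ℂ) (x : M) : ℝ := (gM K V x).trace.re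

theorem T0_nonneg (K : Kah A) (V : A.ι → M → Matrix (Fin n) ρ ℂ) (x : M) : 0 ≤ T0 K V x :=
  (Complex.le_def.1 (gM_posSemidef K V x).trace_nonneg).1

/-- the coefficients read in the chart `i` -/
def rdM (V : A.ι → M → Matrix (Fin n) ρ ℂ) (i : A.ι) (z : Cn n) : Matrix (Fin n) ρ ℂ :=
  V i ((A.e i).symm z)

theorem Kd_Kr (K : Kah A) (i : A.ι) (z : Cn n) : Kd (Kr K i) z = (K.g i ((A.e i).symm z))⁻¹ := by
  show (((K.g i ((A.e i).symm z))ᵀ)⁻¹)ᵀ = _
  rw [← Matrix.transpose_nonsing_inv, Matrix.transpose_transpose]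

theorem nsq_rd (K : Kah A) (V : A.ι → M → Matrix (Fin n) ρ ℂ) (i : A.ι) (z : Cn n) :
    nsq (Kd (Kr K i)) (rdM V i) z = (gm K V i ((A.e i).symm z)).trace.re := by
  unfold nsq
  rw [Kd_Kr]
  rfl

theorem ev_target (i : A.ι) {x : M} (hx : x ∈ (A.e i).source) :
    ∀ᶠ z in 𝓝 (A.e i x), z ∈ (A.e i).target :=
  (A.e i).open_target.mem_nhds ((A.e i).map_source hx)

theorem ev_O (hO : IsOpen O) (i : A.ι) {x : M} (hx : x ∈ (A.e i).source) (hxO : x ∈ O) :
    ∀ᶠ z in 𝓝 (A.e i x), z ∈ (A.e i).target ∩ (A.e i).symm ⁻¹' O :=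
  (isOpen_ti (A := A) hO).mem_nhds
    ⟨(A.e i).map_source hx, by rw [mem_preimage, (A.e i).left_inv hx]; exact hxO⟩

theorem T0_read (K : Kah A) {V : A.ι → M → Matrix (Fin n) ρ ℂ} (hO : IsOpen O) (hV : HF A O V)
    {i : A.ι} {x : M} (hx : x ∈ (A.e i).source) (hxO : x ∈ O) :
    (fun z => T0 K V ((A.e i).symm z)) =ᶠ[𝓝 (A.e i x)] nsq (Kd (Kr K i)) (rdM V i) := by
  filter_upwards [ev_O hO i hx hxO] with z hz
  rw [nsq_rd]
  unfold T0
  rw [gM_eq K hV ((A.e i).map_target hz.1) hz.2]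

theorem holM_rd {V : A.ι → M → Matrix (Fin n) ρ ℂ} (hO : IsOpen O) (hV : HF A O V)
    {i : A.ι} {x : M} (hx : x ∈ (A.e i).source) (hxO : x ∈ O) : HolM (A.e i x) (rdM V i) := by
  intro a r
  filter_upwards [ev_O hO i hx hxO] with z hz
  exact DifferentiableOn.differentiableAt (hV.hol i a r) ((isOpen_ti hO).mem_nhds hz)

theorem smE_Kr (K : Kah A) {i : A.ι} {x : M} (hx : x ∈ (A.e i).source) :
    ∀ᶠ y in 𝓝 (A.e i x), SmM y (Kr K i) := by
  filter_upwards [ev_target i hx] with z hz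
  exact smM_Kr K i hz

theorem pE_Kr (K : Kah A) {i : A.ι} {x : M} (hx : x ∈ (A.e i).source) :
    ∀ᶠ y in 𝓝 (A.e i x), (Kr K i y).PosDef := by
  filter_upwards [ev_target i hx] with z hz
  exact Kr_posDef K i hz

theorem kE_Kr (K : Kah A) {i : A.ι} {x : M} (hx : x ∈ (A.e i).source) :
    ∀ᶠ y in 𝓝 (A.e i x), KahAt (Kr K i) y := by
  filter_upwards [ev_target i hx] with z hz
  exact kahAt K i hz

theorem T0_smP (K : Kah A) {V : A.ι → M → Matrix (Fin n) ρ ℂ} (hO : IsOpen O) (hV : HF A O V)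
    {x : M} (hxO : x ∈ O) : SmP A (T0 K V) x := by
  intro i hx
  have h1 : ContDiffAt ℝ ∞ (nsq (Kd (Kr K i)) (rdM V i)) (A.e i x) :=
    sm_nsq (smE_Kd (smE_Kr K hx) (pE_Kr K hx)).self_of_nhds (holM_rd hO hV hx hxO).sm
  exact h1.congr_of_eventuallyEq (T0_read K hO hV hx hxO)

/-! ### dictionary -/

theorem trC_eq_tk (K : Kah A) (S : A.ι → M → Matrix (Fin n) (Fin n) ℂ) {i : A.ι} {x : M}
    (hx : x ∈ (A.e i).source) : trC K S i x = tk (Kr K i) (A.e i x) (fun c d => S i x c d) := by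
  unfold trC tk
  have h1 : (Kr K i (A.e i x))⁻¹ = ((K.g i x)⁻¹)ᵀ := by
    show ((K.g i ((A.e i).symm (A.e i x)))ᵀ)⁻¹ = _
    rw [(A.e i).left_inv hx, Matrix.transpose_nonsing_inv]
  rw [h1]
  simp only [Matrix.trace, Matrix.diag, Matrix.mul_apply, Matrix.transpose_apply]
  rw [Finset.sum_comm]

theorem trC_eq_lap (K : Kah A) (f : M → ℝ) {i : A.ι} {x : M} (hx : x ∈ (A.e i).source) :
    (trC K (hsf A f) i x).re = lap (Kr K i) (fun z => f ((A.e i).symm z)) (A.e i x) := by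
  rw [trC_eq_tk K _ hx]
  rfl

theorem gq_eq_gsq (K : Kah A) {f : M → ℝ} {i : A.ι} {x : M} (hx : x ∈ (A.e i).source)
    (hf : DifferentiableAt ℝ (fun z => f ((A.e i).symm z)) (A.e i x)) :
    gq K f i x = gsq (Kr K i) (fun z => f ((A.e i).symm z)) (A.e i x) := by
  have h1 : gq K f i x = (trC K (fun i x =>
      Matrix.vecMulVec (gr (fun z => f ((A.e i).symm z)) (A.e i x))
        (star (gr (fun z => f ((A.e i).symm z)) (A.e i x)))) i x).re := rfl
  rw [h1, trC_eq_tk K _ hx]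
  unfold gsq
  congr 2
  funext c d
  rw [Matrix.vecMulVec_apply, star_gr hf, wd_eq_dS']
  unfold gr
  rw [wd_eq_dS]

/-- `Ric = 0` -/
def Rf (K : Kah A) : Prop := ∀ i, ∀ x ∈ (A.e i).source, cur (volK K) i x = 0

theorem ric_zero {K : Kah A} (hK : Rf K) {i : A.ι} {x : M} (hx : x ∈ (A.e i).source) :
    Matrix.of (ric (Kr K i) (A.e i x)) = 0 := by
  rw [ric_eq K i hx, hK i x hx]

/-- **Bochner**: `∑ |η_r|²` is subharmonic -/
theorem lap_T0 {K : Kah A} (hK : Rf K) {V : A.ι → M → Matrix (Fin n) ρ ℂ} (hO : IsOpen O)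
    (hV : HF A O V) {i : A.ι} {x : M} (hx : x ∈ (A.e i).source) (hxO : x ∈ O) :
    0 ≤ (trC K (hsf A (T0 K V)) i x).re := by
  rw [trC_eq_lap K _ hx, lap_congr (T0_read K hO hV hx hxO)]
  exact lap_form_nonneg (smE_Kr K hx) (pE_Kr K hx) (kE_Kr K hx) (ric_zero hK hx)
    (holM_rd hO hV hx hxO)

end

end Crest.Agent.R281.TI_671
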