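import Crest.Agent.R281.TI1_671

/-!
# R281 (S0424), leaf S-T6-INST (helper671), part 2: `dF`, `dlog F_r`, `J = det (dlog F) / Ω`

* `dF A F i x a`   : `∂_a F` in the chart `i`; `dF_hol`, `dF_tr`;
* `Vl A F`         : the log-differentials `dlog F_r`, `hf_Vl : HF A O (Vl A F)`;
* `V1 A F`         : the 1-form `dF` as a one-column matrix, `hf_V1`;
* `Jf V Om`        : `det V / Ω`; `Jf_eq`, `Jf_hol`;
* `lap_normSq`     : `tr g⁻¹ ∂∂̄ |F|² = |∂F|²` for `F` holomorphic;
* `gq_re`, `gq_im` : `|∂ Re F|² = |∂ Im F|² = |∂F|² / 4`.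
-/

set_option autoImplicit false
set_option linter.unusedSectionVars false

open Set Filter Topology Complex MeasureTheory
open scoped ContDiff Matrix ComplexConjugate ComplexOrder

namespace Crest.Agent.R281.TI_671

open Crest.Agent.R275 Crest.Agent.R275.Geo Crest.Agent.R275.Core144 Crest.Agent.R275.EDR890
open Crest.Agent.R273.Defs_333 Crest.Agent.R273.Hess_333 Crest.Agent.R273.HessB_333
open Crest.Agent.R273.HM_333 hiding nsq
open Crest.Agent.R273.Kah_333 Crest.Agent.R273.Vol_333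
open Crest.Agent.R273.Calc_243 Crest.Agent.R273.Bkn_243 Crest.Agent.R273.BKNa_37
open Crest.Agent.R273.BochA_101 Crest.Agent.R273.BochB_101 Crest.Agent.R273.BochC_101
open Crest.Agent.R273.BochD_101 Crest.Agent.R273.BochF_101
open Crest.Agent.R273.FIa0_597 Crest.Agent.R273.FIb0_597
open Crest.Agent.R275.QN2b734 (SmP smP_of sm_iff)
open Crest.Agent.R281.Bo1_815 Crest.Agent.R281.Bo2_815 Crest.Agent.R281.Glob1_484

noncomputable section

variable {n : ℕ} {M : Type} [TopologicalSpace M] {A : Atl n M} {ρ : Type} [Fintype ρ]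
  [DecidableEq ρ] {O : Set M}

/-- `∂_a F` in the chart `i` -/
def dF (A : Atl n M) (F : M → ℂ) (i : A.ι) (x : M) (a : Fin n) : ℂ :=
  fderiv ℂ (fun z => F ((A.e i).symm z)) (A.e i x) (EuclideanSpace.single a 1)

theorem dF_hol (hO : IsOpen O) {F : M → ℂ} {i : A.ι} (hF : HolAt A i O F) (a : Fin n) :
    HolAt A i O (fun x => dF A F i x a) := by
  have ho := isOpen_ti (A := A) (i := i) hO
  have h1 : DifferentiableOn ℂ (fderiv ℂ (fun z => F ((A.e i).symm z)))
      ((A.e i).target ∩ (A.e i).symm ⁻¹' O) :=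
    ((Crest.Agent.R266.SCV.analyticOnNhd_of_differentiableOn ho hF).fderiv).differentiableOn
  have h3 : DifferentiableOn ℂ (fun z => (fderiv ℂ (fun z => F ((A.e i).symm z)) z
      (EuclideanSpace.single a 1))) ((A.e i).target ∩ (A.e i).symm ⁻¹' O) :=
    h1.clm_apply (differentiableOn_const _)
  refine DifferentiableOn.congr h3 fun z hz => ?_
  simp only [dF, (A.e i).right_inv hz.1]

theorem dF_tr (hO : IsOpen O) {F : M → ℂ} (hF : ∀ i, HolAt A i O F) {i j : A.ι} {x : M}
    (hx : x ∈ (A.e i).source ∩ (A.e j).source) (hxO : x ∈ O) (a : Fin n) :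
    dF A F i x a = ∑ b, Jm A i j x b a * dF A F j x b := by
  have hij : DifferentiableAt ℂ (fun z => A.e j ((A.e i).symm z)) (A.e i x) :=
    (A.holo i j).differentiableAt ((isOpen_ov (A := A) i j).mem_nhds (mem_ov hx))
  have hj : DifferentiableAt ℂ (fun z => F ((A.e j).symm z)) (A.e j x) :=
    (hF j).diffAt hO hx.2 hxO
  have he : (fun z => F ((A.e i).symm z)) =ᶠ[𝓝 (A.e i x)]
      (fun z => F ((A.e j).symm z)) ∘ (fun z => A.e j ((A.e i).symm z)) := by
    filter_upwards [(isOpen_ov (A := A) i j).mem_nhds (mem_ov hx)] with z hz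
    simp [(A.e j).left_inv hz.2]
  have hval : A.e j ((A.e i).symm (A.e i x)) = A.e j x := by rw [(A.e i).left_inv hx.1]
  have hch : fderiv ℂ (fun z => F ((A.e i).symm z)) (A.e i x) =
      (fderiv ℂ (fun z => F ((A.e j).symm z)) (A.e j x)).comp
        (fderiv ℂ (fun z => A.e j ((A.e i).symm z)) (A.e i x)) := by
    rw [he.fderiv_eq, fderiv_comp _ (by rw [hval]; exact hj) hij, hval]
  unfold dF
  rw [hch, ContinuousLinearMap.comp_apply]
  set v := (fderiv ℂ (fun z => A.e j ((A.e i).symm z)) (A.e i x)) (EuclideanSpace.single a 1)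
    with hvd
  have hv : v = ∑ c, v c • (EuclideanSpace.single c (1 : ℂ) : Cn n) := by
    ext d
    simp [Finset.sum_apply, Pi.single_apply]
  conv_lhs => rw [hv, map_sum]
  refine Finset.sum_congr rfl fun b _ => ?_
  rw [map_smul, smul_eq_mul]
  rfl

/-- the log-differentials `dlog F_r` -/
def Vl (A : Atl n M) (F : ρ → M → ℂ) (i : A.ι) (x : M) : Matrix (Fin n) ρ ℂ :=
  Matrix.of fun a r => dF A (F r) i x a / F r x

theorem hf_Vl (hO : IsOpen O) {F : ρ → M → ℂ} (hF : ∀ r i, HolAt A i O (F r))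
    (h0 : ∀ r, ∀ x ∈ O, F r x ≠ 0) : HF A O (Vl A F) where
  hol i a r := by
    have h1 := (dF_hol hO (hF r i) a).mul ((hF r i).inv fun x _ hx => h0 r x hx)
    exact h1.congr fun x _ _ => by rw [Vl, Matrix.of_apply, div_eq_mul_inv]
  tr i j x hx hxO := by
    ext a r
    rw [Vl, Matrix.of_apply, dF_tr hO (hF r) hx hxO a, Matrix.mul_apply, Finset.sum_div]
    refine Finset.sum_congr rfl fun b _ => ?_
    rw [Matrix.transpose_apply, Vl, Matrix.of_apply, mul_div_assoc]

/-- the 1-form `dF` -/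
def V1 (A : Atl n M) (F : M → ℂ) (i : A.ι) (x : M) : Matrix (Fin n) Unit ℂ :=
  Matrix.of fun a _ => dF A F i x a

theorem hf_V1 (hO : IsOpen O) {F : M → ℂ} (hF : ∀ i, HolAt A i O F) : HF A O (V1 A F) where
  hol i a _ := dF_hol hO (hF i) a
  tr i j x hx hxO := by
    ext a r
    rw [V1, Matrix.of_apply, dF_tr hO hF hx hxO a, Matrix.mul_apply]
    rfl

/-! ### the function `J` -/

/-- `det V / Ω` -/
def Jf (V : A.ι → M → Matrix (Fin n) (Fin n) ℂ) (Om : A.ι → M → ℂ) (x : M) : ℂ :=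
  (V (ch A x) x).det / Om (ch A x) x

theorem Jf_eq {V : A.ι → M → Matrix (Fin n) (Fin n) ℂ} (hV : HF A O V) {Om : A.ι → M → ℂ}
    (hOm : IsHS (KB A) univ Om) {i : A.ι} {x : M} (hx : x ∈ (A.e i).source) (hxO : x ∈ O) :
    Jf V Om x = (V i x).det / Om i x := by
  unfold Jf
  have hx' : x ∈ (A.e (ch A x)).source ∩ (A.e i).source := ⟨mem_ch A x, hx⟩
  rw [hV.tr _ i x hx' hxO, hOm.tr _ i x hx' (mem_univ x), KB_g hx', Matrix.det_mul,
    Matrix.det_transpose, mul_div_mul_left _ _ (det_Jm_ne hx')]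

theorem holAt_det {i : A.ι} {V : M → Matrix (Fin n) (Fin n) ℂ}
    (h : ∀ a b, HolAt A i O (fun x => V x a b)) : HolAt A i O (fun x => (V x).det) := by
  simp only [Matrix.det_apply]
  refine HolAt.sum _ fun σ _ => ?_
  have h2 : HolAt A i O fun x => ∏ b, V x (σ b) b := HolAt.prod _ fun b _ => h (σ b) b
  simp only [Units.smul_def, zsmul_eq_mul]
  exact h2.const_mul _

theorem Jf_hol {V : A.ι → M → Matrix (Fin n) (Fin n) ℂ} (hV : HF A O V) {Om : A.ι → M → ℂ}
    (hOm : IsHS (KB A) univ Om) (h0 : ∀ i, ∀ x ∈ (A.e i).source, Om i x ≠ 0) (i : A.ι) :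
    HolAt A i O (Jf V Om) := by
  have h1 : HolAt A i O (fun x => (V i x).det) := holAt_det (hV.hol i)
  have h2 : HolAt A i O (Om i) := (hOm.hol i).mono (subset_univ O)
  exact (h1.mul (h2.inv fun x hx _ => h0 i x hx)).congr fun x hx hxO => by
    rw [Jf_eq hV hOm hx hxO, div_eq_mul_inv]

theorem normSq_Jf (K : Kah A) (V : A.ι → M → Matrix (Fin n) (Fin n) ℂ)
    {Om : A.ι → M → ℂ}
    (hdet : ∀ i, ∀ x ∈ (A.e i).source, (K.g i x).det = ((‖Om i x‖ ^ 2 : ℝ) : ℂ))
    (x : M) : ((‖Jf V Om x‖ ^ 2 : ℝ) : ℂ) = (gM K V x).det := by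
  have hx := mem_ch A x
  unfold gM gm
  rw [Matrix.det_mul, Matrix.det_mul, Matrix.det_conjTranspose, Matrix.det_nonsing_inv,
    Ring.inverse_eq_inv', hdet _ x hx, Jf, norm_div, div_pow]
  push_cast
  have h1 : (starRingEnd ℂ) (V (ch A x) x).det * (V (ch A x) x).det =
      ((‖(V (ch A x) x).det‖ ^ 2 : ℝ) : ℂ) := by
    rw [Complex.conj_mul']
    norm_cast
  rw [mul_right_comm]
  have h2 : star (V (ch A x) x).det * (V (ch A x) x).det =
      ((‖(V (ch A x) x).det‖ ^ 2 : ℝ) : ℂ) := h1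
  rw [h2]
  push_cast
  rw [div_eq_mul_inv]

/-! ### Laplacian of `|F|²`, gradients of `Re F`, `Im F` -/

theorem dM_V1 {F : M → ℂ} (hO : IsOpen O) (hF : ∀ i, HolAt A i O F) {i : A.ι} {x : M}
    (hx : x ∈ (A.e i).source) (hxO : x ∈ O) (c : Fin n) :
    dS (-I) c (fun z => F ((A.e i).symm z)) (A.e i x) = dF A F i x c := by
  have h1 : DifferentiableAt ℂ (fun z => F ((A.e i).symm z)) (A.e i x) := (hF i).diffAt hO hx hxO
  rw [← wd_eq_dS, wd_hol' h1]
  rfl

/-- `T0` of one form -/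
theorem T0_V1 (K : Kah A) {F : M → ℂ} (hO : IsOpen O) (hF : ∀ i, HolAt A i O F) {i : A.ι}
    {x : M} (hx : x ∈ (A.e i).source) (hxO : x ∈ O) :
    T0 K (V1 A F) x = (tk (Kr K i) (A.e i x) (fun c d => dF A F i x c * conj (dF A F i x d))).re := by
  have h0 := trC_eq_tk K (fun i x => Matrix.of fun c d => dF A F i x c * conj (dF A F i x d)) hx
  simp only [Matrix.of_apply] at h0
  unfold T0
  rw [gM_eq K (hf_V1 hO hF) hx hxO, ← h0]
  unfold gm trC
  rw [Matrix.mul_assoc, Matrix.trace_mul_comm, Matrix.mul_assoc]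
  congr 3
  ext c d
  rw [Matrix.mul_apply]
  simp [V1]

theorem lap_normSq (K : Kah A) {F : M → ℂ} (hO : IsOpen O) (hF : ∀ i, HolAt A i O F) {i : A.ι}
    {x : M} (hx : x ∈ (A.e i).source) (hxO : x ∈ O) :
    (trC K (hsf A fun y => ‖F y‖ ^ 2) i x).re = T0 K (V1 A F) x := by
  set V : Cn n → Matrix Unit Unit ℂ := fun z => Matrix.of fun _ _ => F ((A.e i).symm z) with hVdef
  have hV : HolM (A.e i x) V := by
    intro _ _
    filter_upwards [ev_O hO i hx hxO] with z hz
    exact DifferentiableOn.differentiableAt (hF i) ((isOpen_ti hO).mem_nhds hz)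
  have hdc : ∀ (s : ℂ) (a : Fin n) (z : Cn n),
      dM s a (fun _ : Cn n => (1 : Matrix Unit Unit ℂ)) z = 0 := by
    intro s a z
    ext S T
    exact dS_const
  have hrm : ∀ c d, rm (fun _ : Cn n => (1 : Matrix Unit Unit ℂ)) (A.e i x) c d = 0 := by
    intro c d
    unfold rm
    have h1 : dM I d (fun _ : Cn n => (1 : Matrix Unit Unit ℂ)) = fun _ => 0 := by
      funext z
      exact hdc _ _ z
    rw [h1]
    have h2 : dM (-I) c (fun _ : Cn n => (0 : Matrix Unit Unit ℂ)) (A.e i x) = 0 := by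
      ext S T
      exact dS_const
    rw [h2]
    simp
  have h1 : (fun z => ‖F ((A.e i).symm z)‖ ^ 2) =
      nsq (fun _ : Cn n => (1 : Matrix Unit Unit ℂ)) V := by
    funext z
    unfold nsq
    rw [Matrix.mul_one]
    simp only [Matrix.trace, Matrix.diag, Matrix.mul_apply, Matrix.conjTranspose_apply, hVdef,
      Matrix.of_apply, Finset.univ_unique, Finset.sum_singleton]
    rw [RCLike.star_def, Complex.conj_mul']
    norm_cast
  rw [T0_V1 K hO hF hx hxO, trC_eq_lap K _ hx, h1]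
  unfold lap
  congr 2
  funext c d
  have hh := hess_nsq (G := fun _ : Cn n => (1 : Matrix Unit Unit ℂ)) (V := V)
    (z := A.e i x) (Eventually.of_forall fun y S T => contDiffAt_const)
    (Eventually.of_forall fun y => Matrix.isHermitian_one) (by simp) hV c d
  rw [hh, hrm]
  simp only [Matrix.mul_zero, Matrix.zero_mul, Matrix.trace_zero, sub_zero]
  unfold Dp
  rw [hdc, hdc]
  simp only [Matrix.mul_zero, Matrix.zero_mul, add_zero, Matrix.mul_one]
  simp only [Matrix.trace, Matrix.diag, Matrix.mul_apply, Matrix.conjTranspose_apply,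
    Finset.univ_unique, Finset.sum_singleton]
  have h3 : ∀ c, dM (-I) c V (A.e i x) () () = dF A F i x c := fun c => dM_V1 hO hF hx hxO c
  have h4 : ∀ c, dM (-I) c V (A.e i x) default default = dF A F i x c := fun c => h3 c
  rw [h4, h4, RCLike.star_def, mul_comm]

theorem fderiv_cu_re {f : Cn n → ℂ} {z : Cn n} (hf : DifferentiableAt ℂ f z) (v : Cn n) :
    fderiv ℝ (cu fun w => (f w).re) z v = (((fderiv ℂ f z v).re : ℝ) : ℂ) := by
  have h1 : HasFDerivAt f ((fderiv ℂ f z).restrictScalars ℝ) z :=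
    hf.hasFDerivAt.restrictScalars ℝ
  have h2 : HasFDerivAt (fun w => ((f w).re : ℂ)) _ z :=
    (Complex.ofRealCLM.comp Complex.reCLM).hasFDerivAt.comp z h1
  have h3 : fderiv ℝ (cu fun w => (f w).re) z = _ := h2.fderiv
  rw [h3]
  rfl

theorem fderiv_cu_im {f : Cn n → ℂ} {z : Cn n} (hf : DifferentiableAt ℂ f z) (v : Cn n) :
    fderiv ℝ (cu fun w => (f w).im) z v = (((fderiv ℂ f z v).im : ℝ) : ℂ) := by
  have h1 : HasFDerivAt f ((fderiv ℂ f z).restrictScalars ℝ) z :=
    hf.hasFDerivAt.restrictScalars ℝ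
  have h2 : HasFDerivAt (fun w => ((f w).im : ℂ)) _ z :=
    (Complex.ofRealCLM.comp Complex.imCLM).hasFDerivAt.comp z h1
  have h3 : fderiv ℝ (cu fun w => (f w).im) z = _ := h2.fderiv
  rw [h3]
  rfl

theorem single_I (a : Fin n) : (EuclideanSpace.single a I : Cn n) =
    I • EuclideanSpace.single a (1 : ℂ) := by
  ext b
  by_cases hb : b = a <;> simp [hb]

theorem dS_re {f : Cn n → ℂ} {z : Cn n} (hf : DifferentiableAt ℂ f z) (c : Fin n) :
    dS (-I) c (cu fun w => (f w).re) z =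
      (1 / 2) * fderiv ℂ f z (EuclideanSpace.single c 1) := by
  unfold dS
  rw [fderiv_cu_re hf, fderiv_cu_re hf, single_I, map_smul, smul_eq_mul]
  set w := fderiv ℂ f z (EuclideanSpace.single c 1)
  apply Complex.ext <;> simp

theorem dS_im {f : Cn n → ℂ} {z : Cn n} (hf : DifferentiableAt ℂ f z) (c : Fin n) :
    dS (-I) c (cu fun w => (f w).im) z =
      -(I / 2) * fderiv ℂ f z (EuclideanSpace.single c 1) := by
  unfold dS
  rw [fderiv_cu_im hf, fderiv_cu_im hf, single_I, map_smul, smul_eq_mul]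
  set w := fderiv ℂ f z (EuclideanSpace.single c 1)
  apply Complex.ext <;> simp

theorem gq_re (K : Kah A) {F : M → ℂ} (hO : IsOpen O) (hF : ∀ i, HolAt A i O F) {i : A.ι}
    {x : M} (hx : x ∈ (A.e i).source) (hxO : x ∈ O) :
    gq K (fun y => (F y).re) i x = T0 K (V1 A F) x / 4 := by
  have h1 : DifferentiableAt ℂ (fun z => F ((A.e i).symm z)) (A.e i x) := (hF i).diffAt hO hx hxO
  have h2 : DifferentiableAt ℝ (fun z => (F ((A.e i).symm z)).re) (A.e i x) :=
    Complex.reCLM.differentiableAt.comp _ (h1.restrictScalars ℝ)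
  rw [gq_eq_gsq K hx h2, T0_V1 K hO hF hx hxO]
  unfold gsq
  rw [tk_congr (F' := fun c d => (1 / 4 : ℂ) * (dF A F i x c * conj (dF A F i x d)))
    (fun c d => by
      rw [dS_bar h2, dS_re h1, dS_re h1, map_mul]
      have : conj (1 / 2 : ℂ) = 1 / 2 := by rw [map_div₀, map_one, map_ofNat]
      rw [this]
      unfold dF
      ring), tk_smul]
  have h4 : (1 / 4 : ℂ) = ((1 / 4 : ℝ) : ℂ) := by push_cast; rfl
  rw [h4, Complex.re_ofReal_mul]
  ring

theorem gq_im (K : Kah A) {F : M → ℂ} (hO : IsOpen O) (hF : ∀ i, HolAt A i O F) {i : A.ι}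
    {x : M} (hx : x ∈ (A.e i).source) (hxO : x ∈ O) :
    gq K (fun y => (F y).im) i x = T0 K (V1 A F) x / 4 := by
  have h1 : DifferentiableAt ℂ (fun z => F ((A.e i).symm z)) (A.e i x) := (hF i).diffAt hO hx hxO
  have h2 : DifferentiableAt ℝ (fun z => (F ((A.e i).symm z)).im) (A.e i x) :=
    Complex.imCLM.differentiableAt.comp _ (h1.restrictScalars ℝ)
  rw [gq_eq_gsq K hx h2, T0_V1 K hO hF hx hxO]
  unfold gsq
  rw [tk_congr (F' := fun c d => (1 / 4 : ℂ) * (dF A F i x c * conj (dF A F i x d)))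
    (fun c d => by
      rw [dS_bar h2, dS_im h1, dS_im h1, map_mul]
      have : conj (-(I / 2) : ℂ) = I / 2 := by
        rw [map_neg, map_div₀, Complex.conj_I, map_ofNat]; ring
      rw [this]
      unfold dF
      linear_combination (-(1 / 4) * (fderiv ℂ (fun z => F ((A.e i).symm z)) (A.e i x)
        (EuclideanSpace.single c 1)) * conj (fderiv ℂ (fun z => F ((A.e i).symm z)) (A.e i x)
        (EuclideanSpace.single d 1))) * Complex.I_mul_I), tk_smul]
  have h4 : (1 / 4 : ℂ) = ((1 / 4 : ℝ) : ℂ) := by push_cast; rfl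
  rw [h4, Complex.re_ofReal_mul]
  ring

end

end Crest.Agent.R281.TI_671
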