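import Crest.Agent.R281.TI2_671
import Crest.Agent.R281.T6b_16

/-!
# R281 (S0424), leaf S-T6-INST (helper671), part 3: the global fields of (T6')

* `rf_of_Om`   : `det g = |Ω|²`, `Ω` holomorphic without zeros ⟹ `Ric = 0`;
* `cut_sm`, `Lap_germ`, `Dg_germ` : cut-off of functions smooth on an open set;
* `T6F`, `exists_T6F` : `V` an `n`-tuple of holomorphic 1-forms on the open set `O`, `B ⊆ O` compact:
  global smooth functions `T, P, q, a, b` with (on `B`) `T = ∑|η_j|²`, `q = |J|² = a² + b²`,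
  `P = |∂J|²`, `J = a + i b = det V / Ω`, `0 ≤ Lap T`, `0 ≤ Lap P`, `Lap q = P`,
  `Dg a = Dg b = P / 4`, `q ≤ T ^ n`, `det Gram = q`, `tr Gram = T`.
-/

set_option autoImplicit false
set_option linter.unusedSectionVars false

open Set Filter Topology Complex MeasureTheory
open scoped ContDiff Matrix ComplexConjugate ComplexOrder

namespace Crest.Agent.R281.TI_671

open Crest.Agent.R275 Crest.Agent.R275.Geo Crest.Agent.R275.Core144 Crest.Agent.R275.EDR890
open Crest.Agent.R273.Defs_333 Crest.Agent.R273.Hess_333 Crest.Agent.R273.HessB_333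
open Crest.Agent.R273.HM_333 hiding nsq
open Crest.Agent.R273.Kah_333 Crest.Agent.R273.Vol_333
open Crest.Agent.R273.Calc_243 Crest.Agent.R273.Bkn_243 Crest.Agent.R273.BKNa_37
open Crest.Agent.R273.BochA_101 Crest.Agent.R273.BochB_101 Crest.Agent.R273.BochC_101
open Crest.Agent.R273.BochD_101 Crest.Agent.R273.BochF_101
open Crest.Agent.R273.FIa0_597 Crest.Agent.R273.FIb0_597
open Crest.Agent.R273.SchI_152 (Dg)
open Crest.Agent.R275.QN2b734 (SmP smP_of sm_iff tendsto_symm)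
open Crest.Agent.R281.Bo1_815 Crest.Agent.R281.Bo2_815 Crest.Agent.R281.Glob1_484

noncomputable section

variable {n : ℕ} {M : Type} [TopologicalSpace M] {A : Atl n M} {ρ : Type} [Fintype ρ]
  [DecidableEq ρ] {O : Set M}

/-! ### Ricci flatness -/

theorem rf_of_Om {K : Kah A} {Om : A.ι → M → ℂ} (hOm : IsHS (KB A) univ Om)
    (hdet : ∀ i, ∀ x ∈ (A.e i).source, (K.g i x).det = ((‖Om i x‖ ^ 2 : ℝ) : ℂ)) : Rf K := by
  intro i x hx
  have hne : ∀ y ∈ (A.e i).source, Om i y ≠ 0 := by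
    intro y hy h0
    have h1 := (K.pos i y hy).det_pos
    rw [hdet i y hy, h0] at h1
    simp at h1
  have hz := (A.e i).map_source hx
  have hz' := (A.e i).left_inv hx
  rw [← hz', cur_read _ i hz]
  have e1 : (volK K).wt i =ᶠ[𝓝 (A.e i x)] fun w =>
      (-1 : ℝ) * Real.log (‖Om i ((A.e i).symm w)‖ ^ 2) := by
    filter_upwards [(A.e i).open_target.mem_nhds hz] with w hw
    have h1 := hdet i _ ((A.e i).map_target hw)
    change - Real.log ((K.g i ((A.e i).symm w)).det.re) = _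
    rw [h1, Complex.ofReal_re]
    ring
  have hd := hol_at hOm i hz
  have h0 : Om i ((A.e i).symm (A.e i x)) ≠ 0 := by rw [hz']; exact hne x hx
  have hsm : ContDiffAt ℝ ∞ (fun w => Real.log (‖Om i ((A.e i).symm w)‖ ^ 2)) (A.e i x) := by
    have h3 := ((cd_at hOm i).norm_sq ℝ).contDiffAt ((A.e i).open_target.mem_nhds hz)
    exact h3.log (pow_ne_zero 2 (norm_ne_zero_iff.2 h0))
  rw [hess_congr e1, hess_const_mul _ hsm, hess_log_norm hd h0, smul_zero]

/-! ### cut-offs -/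

theorem cut_sm {χ f : M → ℝ} (hχ : ∀ y, SmP A χ y) (hs : tsupport χ ⊆ O)
    (hf : ∀ x ∈ O, SmP A f x) : A.Sm (fun y => χ y * f y) := by
  rw [sm_iff]
  intro y
  by_cases hy : y ∈ tsupport χ
  · exact (hχ y).mul (hf y (hs hy))
  · have h1 : (fun _ : M => (0 : ℝ)) =ᶠ[𝓝 y] fun y => χ y * f y := by
      filter_upwards [(isClosed_tsupport χ).isOpen_compl.mem_nhds hy] with z hz
      rw [image_eq_zero_of_notMem_tsupport hz, zero_mul]
    have h0 : SmP A (fun _ : M => (0 : ℝ)) y := fun i _ => contDiffAt_const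
    exact h0.congr h1

theorem Lap_germ (K : Kah A) {u f : M → ℝ} (hu : A.Sm u) {i : A.ι} {x : M}
    (hx : x ∈ (A.e i).source) (he : u =ᶠ[𝓝 x] f) :
    Lap K u x = (trC K (hsf A f) i x).re := by
  rw [Lap_read K hu hx]
  have h1 : hsf A u i x = hsf A f i x := by
    show hess (fun z => u ((A.e i).symm z)) (A.e i x) = hess (fun z => f ((A.e i).symm z)) (A.e i x)
    exact hess_congr ((tendsto_symm hx).eventually he)
  unfold trC
  rw [h1]

theorem Dg_germ (K : Kah A) {u f : M → ℝ} (hu : A.Sm u) {i : A.ι} {x : M}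
    (hx : x ∈ (A.e i).source) (he : u =ᶠ[𝓝 x] f) : Dg K u x = gq K f i x := by
  rw [Dg_eq K hu hx]
  have h1 : gr (fun z => u ((A.e i).symm z)) (A.e i x) =
      gr (fun z => f ((A.e i).symm z)) (A.e i x) := by
    have h2 : cu (fun z => u ((A.e i).symm z)) =ᶠ[𝓝 (A.e i x)]
        cu (fun z => f ((A.e i).symm z)) := by
      filter_upwards [(tendsto_symm hx).eventually he] with z hz
      show ((u ((A.e i).symm z) : ℝ) : ℂ) = ((f ((A.e i).symm z) : ℝ) : ℂ)
      rw [hz]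
    funext a
    exact wd_congr h2 (false, a)
  unfold gq
  rw [h1]

/-! ### the fields -/

/-- the global functions of (T6') on the compact set `B` -/
structure T6F (K : Kah A) (B : Set M) (V : A.ι → M → Matrix (Fin n) (Fin n) ℂ) (Om : A.ι → M → ℂ)
    (T P q a b : M → ℝ) : Prop where
  T_sm : A.Sm T
  P_sm : A.Sm P
  q_sm : A.Sm q
  a_sm : A.Sm a
  b_sm : A.Sm b
  T_nonneg : ∀ x, 0 ≤ T x
  P_nonneg : ∀ x, 0 ≤ P x
  q_nonneg : ∀ x, 0 ≤ q x
  Lap_T : ∀ x ∈ B, 0 ≤ Lap K T x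
  Lap_P : ∀ x ∈ B, 0 ≤ Lap K P x
  Lap_q : ∀ x ∈ B, P x = Lap K q x
  q_eq : ∀ x ∈ B, q x = a x ^ 2 + b x ^ 2
  q_le : ∀ x ∈ B, q x ≤ T x ^ n
  Dg_a : ∀ x ∈ B, Dg K a x = P x / 4
  Dg_b : ∀ x ∈ B, Dg K b x = P x / 4
  T_tr : ∀ x ∈ B, (gM K V x).trace.re = T x
  q_det : ∀ x ∈ B, (gM K V x).det.re = q x
  q_J : ∀ x ∈ B, q x = ‖Jf V Om x‖ ^ 2
  a_J : ∀ x ∈ B, a x = (Jf V Om x).re
  b_J : ∀ x ∈ B, b x = (Jf V Om x).im

theorem exists_T6F [T2Space M] {K : Kah A} {V : A.ι → M → Matrix (Fin n) (Fin n) ℂ}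
    {Om : A.ι → M → ℂ} (hO : IsOpen O) (hV : HF A O V) (hOm : IsHS (KB A) univ Om)
    (hdet : ∀ i, ∀ x ∈ (A.e i).source, (K.g i x).det = ((‖Om i x‖ ^ 2 : ℝ) : ℂ))
    {B : Set M} (hB : IsCompact B) (hBO : B ⊆ O) :
    ∃ T P q a b : M → ℝ, T6F K B V Om T P q a b := by
  have hRf : Rf K := rf_of_Om hOm hdet
  have hOm0 : ∀ i, ∀ x ∈ (A.e i).source, Om i x ≠ 0 := by
    intro i y hy h0
    have h1 := (K.pos i y hy).det_pos
    rw [hdet i y hy, h0] at h1
    simp at h1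
  obtain ⟨χ, hχ, h01, h1, -, hs⟩ := Crest.Agent.R275.QN2b734.exists_bump A hB hO hBO
  have h1' : ∀ x ∈ B, ∀ᶠ y in 𝓝 x, χ y = 1 := fun x hx =>
    (eventually_nhdsSet_iff_forall.1 h1) x hx
  set J : M → ℂ := Jf V Om with hJdef
  have hJ : ∀ i, HolAt A i O J := fun i => Jf_hol hV hOm hOm0 i
  have hJs : ∀ x ∈ O, SmP A J x := by
    intro x hxO i hx
    exact sm_of_hol (by
      filter_upwards [ev_O hO i hx hxO] with z hz
      exact DifferentiableOn.differentiableAt (hJ i) ((isOpen_ti hO).mem_nhds hz))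
  -- the local functions
  set P0 : M → ℝ := T0 K (V1 A J) with hP0
  have hV1 := hf_V1 (A := A) hO hJ
  have sT : ∀ x ∈ O, SmP A (T0 K V) x := fun x hx => T0_smP K hO hV hx
  have sP : ∀ x ∈ O, SmP A P0 x := fun x hx => T0_smP K hO hV1 hx
  have sq : ∀ x ∈ O, SmP A (fun y => ‖J y‖ ^ 2) x := fun x hx i hi =>
    (hJs x hx i hi).norm_sq ℝ
  have sa : ∀ x ∈ O, SmP A (fun y => (J y).re) x := fun x hx => (hJs x hx).re
  have sb : ∀ x ∈ O, SmP A (fun y => (J y).im) x := fun x hx =>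
    SmP.comp (F := fun t : ℂ => t.im) Complex.imCLM.contDiff.contDiffAt (hJs x hx)
  have cT := cut_sm hχ hs sT
  have cP := cut_sm hχ hs sP
  have cq := cut_sm hχ hs sq
  have ca := cut_sm hχ hs sa
  have cb := cut_sm hχ hs sb
  have ge : ∀ (f : M → ℝ), ∀ x ∈ B, (fun y => χ y * f y) =ᶠ[𝓝 x] f := by
    intro f x hx
    filter_upwards [h1' x hx] with y hy
    rw [hy, one_mul]
  have gx : ∀ (f : M → ℝ), ∀ x ∈ B, χ x * f x = f x := fun f x hx => (ge f x hx).self_of_nhds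
  refine ⟨fun y => χ y * T0 K V y, fun y => χ y * P0 y, fun y => χ y * ‖J y‖ ^ 2,
    fun y => χ y * (J y).re, fun y => χ y * (J y).im,
    { T_sm := cT, P_sm := cP, q_sm := cq, a_sm := ca, b_sm := cb
      T_nonneg := fun x => mul_nonneg (h01 x).1 (T0_nonneg K V x)
      P_nonneg := fun x => mul_nonneg (h01 x).1 (T0_nonneg K _ x)
      q_nonneg := fun x => mul_nonneg (h01 x).1 (by positivity)
      Lap_T := fun x hx => ?_
      Lap_P := fun x hx => ?_
      Lap_q := fun x hx => ?_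
      q_eq := fun x hx => ?_
      q_le := fun x hx => ?_
      Dg_a := fun x hx => ?_
      Dg_b := fun x hx => ?_
      T_tr := fun x hx => ?_
      q_det := fun x hx => ?_
      q_J := fun x hx => gx (fun y => ‖J y‖ ^ 2) x hx
      a_J := fun x hx => gx (fun y => (J y).re) x hx
      b_J := fun x hx => gx (fun y => (J y).im) x hx }⟩
  · rw [Lap_germ K cT (mem_ch A x) (ge _ x hx)]
    exact lap_T0 hRf hO hV (mem_ch A x) (hBO hx)
  · rw [Lap_germ K cP (mem_ch A x) (ge _ x hx)]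
    exact lap_T0 hRf hO hV1 (mem_ch A x) (hBO hx)
  · show χ x * P0 x = _
    rw [gx P0 x hx, Lap_germ K cq (mem_ch A x) (ge (fun y => ‖J y‖ ^ 2) x hx),
      lap_normSq K hO hJ (mem_ch A x) (hBO hx)]
  · show χ x * ‖J x‖ ^ 2 = (χ x * (J x).re) ^ 2 + (χ x * (J x).im) ^ 2
    rw [(h1' x hx).self_of_nhds, one_mul, one_mul, one_mul, ← Complex.normSq_eq_norm_sq,
      Complex.normSq_apply]
    ring
  · show χ x * ‖J x‖ ^ 2 ≤ (χ x * T0 K V x) ^ n
    rw [(h1' x hx).self_of_nhds, one_mul, one_mul]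
    have h2 := normSq_Jf K V hdet x
    have h3 := Crest.Agent.R281.T6_16.det_le_tr_pow (gM_posSemidef K V x)
    rw [← h2, Complex.ofReal_re, Fintype.card_fin] at h3
    exact h3
  · rw [Dg_germ K ca (mem_ch A x) (ge _ x hx)]
    show _ = χ x * P0 x / 4
    rw [gx P0 x hx]
    exact gq_re K hO hJ (mem_ch A x) (hBO hx)
  · rw [Dg_germ K cb (mem_ch A x) (ge _ x hx)]
    show _ = χ x * P0 x / 4
    rw [gx P0 x hx]
    exact gq_im K hO hJ (mem_ch A x) (hBO hx)
  · show _ = χ x * T0 K V x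
    rw [gx (T0 K V) x hx]
    rfl
  · show _ = χ x * ‖J x‖ ^ 2
    rw [gx (fun y => ‖J y‖ ^ 2) x hx, ← normSq_Jf K V hdet x]
    rfl

end

end Crest.Agent.R281.TI_671
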