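import Crest.Agent.R281.TI4_671
import Crest.Agent.R281.Fra3_922
import Crest.Agent.R281.Insp1_615
import Crest.Agent.R281.St5_405

/-!
# R281 (S0424), leaf S-T6-INST (helper671), part 5: T6D at good points, pinched frames

Carrier `X = (ofKah K).M`, calculus `calcX P K`, `u_j = |s_j|²_h / c_j`.
* `exists_T6D` : `1 ≤ Mm u_j` on `closedBall y R`, mean of `Gam (lg Mm u_j)` at most `K0²` ⟹ no `s_j`
  vanishes on the ball and `T6D (calcX P K) n y R (16 n K0²) ..`;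
* `gram_good`  : `c² ≤ Jsq K s y` ⟹ the Gram matrix is pinched on `closedBall y (θ R)`, constants
  independent of `R`;
* `frame_good` : the hypotheses `hb`, `hb'` of `Fra3_922.frame_tube`.
-/

set_option autoImplicit false
set_option linter.unusedSectionVars false

open Set Filter Topology Complex MeasureTheory Metric
open scoped ContDiff Matrix ComplexConjugate ComplexOrder NNReal

namespace Crest.Agent.R281.TI_671

open Crest.Agent.R275 Crest.Agent.R275.Geo Crest.Agent.R275.Core144 Crest.Agent.R275.EDR890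
open Crest.Agent.R273.Defs_333 Crest.Agent.R273.Kah_333 Crest.Agent.R273.Vol_333
open Crest.Agent.R273.FIb0_597 Crest.Agent.R273.RMan_798 Crest.Agent.R273.RMan4_798
open Crest.Agent.R273.SchI_152 (Dg)
open Crest.Agent.R281.Glob1_484 Crest.Agent.R281.SIn_14 Crest.Agent.R281.St_405
open Crest.Agent.R281.T6_16 Crest.Agent.R281.Ins_615 Crest.Agent.R281.SAsm_790
open Crest.Agent.R281.Fra_922 (dlg HolW onX)

noncomputable section

/-! ### averages -/

section avg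

variable {X : Type*} [PseudoMetricSpace X] [MeasurableSpace X] [BorelSpace X] [CompactSpace X]
  {μ : Measure X} [IsFiniteMeasure μ]

theorem avg_mono {f g : X → ℝ} (hf : Continuous f) (hg : Continuous g) {S : Set X}
    (hS : MeasurableSet S) (h : ∀ x ∈ S, f x ≤ g x) : ⨍ x in S, f x ∂μ ≤ ⨍ x in S, g x ∂μ := by
  rw [setAverage_eq, setAverage_eq]
  refine smul_le_smul_of_nonneg_left ?_ (inv_nonneg.2 measureReal_nonneg)
  exact setIntegral_mono_on (integrable_of_continuous hf).integrableOn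
    (integrable_of_continuous hg).integrableOn hS h

theorem avg_sum {ι : Type*} (t : Finset ι) {f : ι → X → ℝ} (hf : ∀ i, Continuous (f i))
    (S : Set X) : ⨍ x in S, ∑ i ∈ t, f i x ∂μ = ∑ i ∈ t, ⨍ x in S, f i x ∂μ := by
  simp only [setAverage_eq]
  rw [integral_finsetSum t fun i _ => (integrable_of_continuous (hf i)).integrableOn,
    Finset.smul_sum]

theorem avg_add {f g : X → ℝ} (hf : Continuous f) (hg : Continuous g) (S : Set X) :
    ⨍ x in S, (f x + g x) ∂μ = ⨍ x in S, f x ∂μ + ⨍ x in S, g x ∂μ := by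
  simp only [setAverage_eq]
  rw [integral_add (integrable_of_continuous hf).integrableOn
    (integrable_of_continuous hg).integrableOn, smul_add]

theorem avg_mul (c : ℝ) (f : X → ℝ) (S : Set X) :
    ⨍ x in S, c * f x ∂μ = c * ⨍ x in S, f x ∂μ := by
  simp only [setAverage_eq]
  rw [integral_const_mul, smul_eq_mul, smul_eq_mul]
  ring

end avg

/-! ### linear algebra -/

section lin

variable {n : ℕ}

theorem re_sum_sq (ξ : Fin n → ℂ) : (star ξ ⬝ᵥ ξ).re = ∑ j, ‖ξ j‖ ^ 2 := by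
  rw [dotProduct, Complex.re_sum]
  refine Finset.sum_congr rfl fun i _ => ?_
  rw [Pi.star_apply, Complex.star_def, ← Complex.normSq_eq_conj_mul_self, Complex.ofReal_re,
    Complex.normSq_eq_norm_sq]

/-- Cauchy–Schwarz for a positive definite matrix and its inverse: `|aᴴ b|² ≤ (aᴴ G⁻¹ a)(bᴴ G b)` -/
theorem cs_inv {G : Matrix (Fin n) (Fin n) ℂ} (hG : G.PosDef) (a b : Fin n → ℂ) :
    ‖star a ⬝ᵥ b‖ ^ 2 ≤ (star a ⬝ᵥ (G⁻¹ *ᵥ a)).re * (star b ⬝ᵥ (G *ᵥ b)).re := by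
  -- `t = aᴴ b`; apply positivity of `G` to `b - s • G⁻¹ a`
  set t : ℂ := star a ⬝ᵥ b with ht
  set α : ℝ := (star a ⬝ᵥ (G⁻¹ *ᵥ a)).re with hα
  set β : ℝ := (star b ⬝ᵥ (G *ᵥ b)).re with hβ
  have hdet : IsUnit G.det := isUnit_iff_ne_zero.2 hG.det_pos.ne'
  have h1 : G * G⁻¹ = 1 := Matrix.mul_nonsing_inv _ hdet
  have hα0 : 0 ≤ α := hG.inv.posSemidef.re_dotProduct_nonneg a
  have hβ0 : 0 ≤ β := hG.posSemidef.re_dotProduct_nonneg b
  have hαC : star a ⬝ᵥ (G⁻¹ *ᵥ a) = (α : ℂ) :=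
    Complex.ext rfl (by
      have := (Complex.le_def.1 (hG.inv.posSemidef.dotProduct_mulVec_nonneg a)).2
      simpa using this.symm)
  have hGi : (G⁻¹)ᴴ = G⁻¹ := hG.inv.isHermitian.eq
  have key : ∀ s : ℂ, 0 ≤ β - 2 * (s * conj t).re + ‖s‖ ^ 2 * α := by
    intro s
    have h2 := hG.posSemidef.re_dotProduct_nonneg (b - s • (G⁻¹ *ᵥ a))
    have e1 : G *ᵥ (b - s • (G⁻¹ *ᵥ a)) = G *ᵥ b - s • a := by
      rw [Matrix.mulVec_sub, Matrix.mulVec_smul, Matrix.mulVec_mulVec, h1, Matrix.one_mulVec]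
    have e2 : star (G⁻¹ *ᵥ a) ⬝ᵥ (G *ᵥ b) = t := by
      rw [Matrix.star_mulVec, hGi, ← Matrix.dotProduct_mulVec, Matrix.mulVec_mulVec,
        Matrix.nonsing_inv_mul _ hdet, Matrix.one_mulVec]
    have e3 : star (G⁻¹ *ᵥ a) ⬝ᵥ a = (α : ℂ) := by
      rw [Matrix.star_mulVec, hGi, ← Matrix.dotProduct_mulVec, hαC]
    have e4 : star b ⬝ᵥ a = conj t := by
      rw [ht]
      simp only [dotProduct, map_sum, Pi.star_apply, map_mul, Complex.star_def, Complex.conj_conj]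
      exact Finset.sum_congr rfl fun j _ => mul_comm _ _
    have e5 : star (b - s • (G⁻¹ *ᵥ a)) ⬝ᵥ (G *ᵥ (b - s • (G⁻¹ *ᵥ a))) =
        star b ⬝ᵥ (G *ᵥ b) - s * conj t - conj s * t + (‖s‖ ^ 2 : ℝ) * α := by
      rw [e1, star_sub, star_smul, sub_dotProduct, dotProduct_sub,
        dotProduct_sub, dotProduct_smul, smul_dotProduct,
        smul_dotProduct, dotProduct_smul, e2, e3, e4]
      have h5 : conj s * s = ((‖s‖ ^ 2 : ℝ) : ℂ) := by
        rw [Complex.conj_mul']; push_cast; rfl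
      simp only [smul_eq_mul, RCLike.star_def]
      linear_combination (α : ℂ) * h5
    have h2' : 0 ≤ (star (b - s • (G⁻¹ *ᵥ a)) ⬝ᵥ (G *ᵥ (b - s • (G⁻¹ *ᵥ a)))).re := h2
    rw [e5] at h2'
    have e6 : (conj s * t).re = (s * conj t).re := by
      have : conj s * t = conj (s * conj t) := by rw [map_mul, Complex.conj_conj]
      rw [this, Complex.conj_re]
    simp only [Complex.add_re, Complex.sub_re, e6, Complex.re_ofReal_mul, Complex.ofReal_re]
      at h2'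
    linarith
  by_cases h0 : α = 0
  · -- then `a = 0`
    have ha : a = 0 := by
      by_contra hne
      have := hG.inv.re_dotProduct_pos hne
      have h3 : 0 < α := this
      exact h3.ne' h0
    have : t = 0 := by rw [ht, ha]; simp
    rw [this, h0]
    simp
  · have hα1 : 0 < α := lt_of_le_of_ne hα0 (Ne.symm h0)
    have h4 := key (t / α)
    have e7 : (t / α * conj t).re = ‖t‖ ^ 2 / α := by
      have : t / α * conj t = ((‖t‖ ^ 2 / α : ℝ) : ℂ) := by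
        rw [div_mul_eq_mul_div, Complex.mul_conj']; push_cast; rfl
      rw [this, Complex.ofReal_re]
    have e8 : ‖t / (α : ℂ)‖ ^ 2 * α = ‖t‖ ^ 2 / α := by
      rw [norm_div, Complex.norm_real, Real.norm_of_nonneg hα0]
      field_simp
    rw [e7, e8] at h4
    have h5 : ‖t‖ ^ 2 / α ≤ β := by linarith
    rw [div_le_iff₀ hα1] at h5
    linarith [mul_comm α β]

/-- a pinched Gram matrix `Vᴴ G⁻¹ V` gives a pinched metric in the dual frame -/
theorem frame_pinch {G V : Matrix (Fin n) (Fin n) ℂ} (hG : G.PosDef) {lo hi : ℝ} (hlo : 0 < lo)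
    (h1 : (Vᴴ * G⁻¹ * V - (lo : ℂ) • (1 : Matrix (Fin n) (Fin n) ℂ)).PosSemidef)
    (h2 : ((hi : ℂ) • (1 : Matrix (Fin n) (Fin n) ℂ) - Vᴴ * G⁻¹ * V).PosSemidef)
    (u : Fin n → ℂ) :
    lo * (star u ⬝ᵥ (G *ᵥ u)).re ≤ ∑ j, ‖(Vᴴ *ᵥ u) j‖ ^ 2 ∧
      ∑ j, ‖(Vᴴ *ᵥ u) j‖ ^ 2 ≤ hi * (star u ⬝ᵥ (G *ᵥ u)).re := by
  have hdet : IsUnit G.det := isUnit_iff_ne_zero.2 hG.det_pos.ne'
  have hGG : G⁻¹ * G = 1 := Matrix.nonsing_inv_mul _ hdet
  set ξ : Fin n → ℂ := Vᴴ *ᵥ u with hξ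
  set S : ℝ := ∑ j, ‖ξ j‖ ^ 2 with hS
  set β : ℝ := (star u ⬝ᵥ (G *ᵥ u)).re with hβ
  have hβ0 : 0 ≤ β := hG.posSemidef.re_dotProduct_nonneg u
  have hS0 : 0 ≤ S := Finset.sum_nonneg fun j _ => by positivity
  have hSC : star ξ ⬝ᵥ ξ = (S : ℂ) := by
    rw [hS, dotProduct]
    push_cast
    refine Finset.sum_congr rfl fun j _ => ?_
    rw [Pi.star_apply, Complex.star_def, Complex.conj_mul']
  -- the Gram form
  have hq : ∀ ζ : Fin n → ℂ, star (V *ᵥ ζ) ⬝ᵥ (G⁻¹ *ᵥ (V *ᵥ ζ)) =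
      star ζ ⬝ᵥ ((Vᴴ * G⁻¹ * V) *ᵥ ζ) := by
    intro ζ
    rw [Matrix.star_mulVec, ← Matrix.dotProduct_mulVec, Matrix.mulVec_mulVec,
      Matrix.mulVec_mulVec, Matrix.mul_assoc]
  have hlow : ∀ ζ : Fin n → ℂ, lo * ∑ j, ‖ζ j‖ ^ 2 ≤ (star (V *ᵥ ζ) ⬝ᵥ (G⁻¹ *ᵥ (V *ᵥ ζ))).re := by
    intro ζ
    have h := h1.re_dotProduct_nonneg ζ
    rw [Matrix.sub_mulVec, dotProduct_sub] at h
    have h' : 0 ≤ (star ζ ⬝ᵥ ((Vᴴ * G⁻¹ * V) *ᵥ ζ)).re -
        (star ζ ⬝ᵥ (((lo : ℂ) • (1 : Matrix (Fin n) (Fin n) ℂ)) *ᵥ ζ)).re := by simpa using h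
    rw [re_dot_one] at h'
    rw [hq]
    linarith
  have hupp : ∀ ζ : Fin n → ℂ, (star (V *ᵥ ζ) ⬝ᵥ (G⁻¹ *ᵥ (V *ᵥ ζ))).re ≤ hi * ∑ j, ‖ζ j‖ ^ 2 := by
    intro ζ
    have h := h2.re_dotProduct_nonneg ζ
    rw [Matrix.sub_mulVec, dotProduct_sub] at h
    have h' : 0 ≤ (star ζ ⬝ᵥ (((hi : ℂ) • (1 : Matrix (Fin n) (Fin n) ℂ)) *ᵥ ζ)).re -
        (star ζ ⬝ᵥ ((Vᴴ * G⁻¹ * V) *ᵥ ζ)).re := by simpa using h
    rw [re_dot_one] at h'
    rw [hq]
    linarith
  constructor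
  · -- lower bound
    have hVdet : IsUnit V.det := by
      rw [isUnit_iff_ne_zero]
      intro h0
      obtain ⟨ζ, hζ0, hζ⟩ := Matrix.exists_mulVec_eq_zero_iff.2 h0
      have h3 := hlow ζ
      rw [hζ] at h3
      have h4 : 0 < ∑ j, ‖ζ j‖ ^ 2 := by
        obtain ⟨j, hj⟩ := Function.ne_iff.1 hζ0
        exact Finset.sum_pos' (fun j _ => by positivity)
          ⟨j, Finset.mem_univ j, by have := norm_pos_iff.2 hj; positivity⟩
      simp only [star_zero, zero_dotProduct, Complex.zero_re] at h3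
      nlinarith
    set ζ : Fin n → ℂ := V⁻¹ *ᵥ (G *ᵥ u) with hζ
    have hVζ : V *ᵥ ζ = G *ᵥ u := by
      rw [hζ, Matrix.mulVec_mulVec, Matrix.mul_nonsing_inv _ hVdet, Matrix.one_mulVec]
    have e1 : (star (V *ᵥ ζ) ⬝ᵥ (G⁻¹ *ᵥ (V *ᵥ ζ))).re = β := by
      rw [hVζ, Matrix.mulVec_mulVec, hGG, Matrix.one_mulVec, Matrix.star_mulVec,
        ← Matrix.dotProduct_mulVec, hG.isHermitian.eq]
    have h3 := hlow ζ
    rw [e1] at h3
    -- `β = re (ξᴴ ζ)`
    have e2 : star ξ ⬝ᵥ ζ = star u ⬝ᵥ (G *ᵥ u) := by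
      rw [hξ, Matrix.star_mulVec, Matrix.conjTranspose_conjTranspose, ← Matrix.dotProduct_mulVec,
        hVζ]
    have h4 := cs_inv (Matrix.PosDef.one : (1 : Matrix (Fin n) (Fin n) ℂ).PosDef) ξ ζ
    rw [inv_one, Matrix.one_mulVec, Matrix.one_mulVec, re_sum_sq, re_sum_sq, e2] at h4
    have h5 : β ^ 2 ≤ ‖star u ⬝ᵥ (G *ᵥ u)‖ ^ 2 := by
      have := Complex.abs_re_le_norm (star u ⬝ᵥ (G *ᵥ u))
      have h6 : β ≤ ‖star u ⬝ᵥ (G *ᵥ u)‖ := (le_abs_self _).trans this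
      exact pow_le_pow_left₀ hβ0 h6 2
    by_cases hb : β = 0
    · rw [hb, mul_zero]; exact hS0
    · have hb1 : 0 < β := lt_of_le_of_ne hβ0 (Ne.symm hb)
      have h7 : lo * β ^ 2 ≤ S * β := by
        calc lo * β ^ 2 ≤ lo * (S * ∑ j, ‖ζ j‖ ^ 2) := by
              exact mul_le_mul_of_nonneg_left (h5.trans h4) hlo.le
          _ = S * (lo * ∑ j, ‖ζ j‖ ^ 2) := by ring
          _ ≤ S * β := mul_le_mul_of_nonneg_left h3 hS0
      nlinarith
  · -- upper bound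
    have h3 := hupp ξ
    have h4 := cs_inv hG (V *ᵥ ξ) u
    have e1 : star (V *ᵥ ξ) ⬝ᵥ u = (S : ℂ) := by
      rw [Matrix.star_mulVec, ← Matrix.dotProduct_mulVec, ← hξ, hSC]
    rw [e1, Complex.norm_real, Real.norm_of_nonneg hS0] at h4
    by_cases hs : S = 0
    · rw [hs]
      by_cases hb : β = 0
      · rw [hb, mul_zero]
      · have hi0 : 0 ≤ hi := by
          have h9 := h2.re_dotProduct_nonneg
          have h10 := hG.inv.posSemidef
          by_contra hneg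
          push Not at hneg
          have h11 := hupp u
          have h12 : 0 ≤ (star (V *ᵥ u) ⬝ᵥ (G⁻¹ *ᵥ (V *ᵥ u))).re := h10.re_dotProduct_nonneg _
          have h13 : ∑ j, ‖u j‖ ^ 2 = 0 := by
            have h14 : 0 ≤ ∑ j, ‖u j‖ ^ 2 := Finset.sum_nonneg fun j _ => by positivity
            nlinarith
          have h15 : u = 0 := by
            funext j
            have := (Finset.sum_eq_zero_iff_of_nonneg (fun j _ => by positivity)).1 h13 j
              (Finset.mem_univ j)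
            simpa using this
          apply hb
          rw [hβ, h15]
          simp
        positivity
    · have hs1 : 0 < S := lt_of_le_of_ne hS0 (Ne.symm hs)
      have h7 : S ^ 2 ≤ hi * S * β := h4.trans (mul_le_mul_of_nonneg_right h3 hβ0)
      nlinarith

end lin

/-! ### sections -/

theorem gam_le {X : Type*} [PseudoMetricSpace X] [MeasurableSpace X] {μ : Measure X}
    {cal : Calc μ} {C : ℝ≥0} {kap : ℝ} {u w : X → ℝ} (h : SecD cal C kap u w) {Mm : ℝ}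
    (hM : 0 ≤ Mm) {x : X} (hx : 1 ≤ Mm * u x) :
    cal.Gam u x / u x ^ 2 ≤ 4 * cal.Gam (lg Mm u) x := by
  have hu : 0 < u x := by
    rcases (h.u_nonneg x).lt_or_eq with h0 | h0
    · exact h0
    · rw [← h0] at hx; linarith
  have hG := cal.Gam_nonneg u h.u_mem x
  rw [h.Gam_lg hM x]
  have h1 : 1 / (4 * u x ^ 2) ≤ (Mm / (1 + Mm * u x)) ^ 2 := by
    have h2 : 1 / (2 * u x) ≤ Mm / (1 + Mm * u x) := by
      rw [div_le_div_iff₀ (by positivity) (by linarith)]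
      linarith
    calc 1 / (4 * u x ^ 2) = (1 / (2 * u x)) ^ 2 := by field_simp; norm_num
      _ ≤ _ := pow_le_pow_left₀ (by positivity) h2 2
  calc cal.Gam u x / u x ^ 2 = 4 * (1 / (4 * u x ^ 2) * cal.Gam u x) := by field_simp
    _ ≤ 4 * ((Mm / (1 + Mm * u x)) ^ 2 * cal.Gam u x) := by gcongr

section inst

variable {n : ℕ} {M : Type} [TopologicalSpace M] {A : Atl n M} [T2Space M] [ConnectedSpace M]
  [CompactSpace M] [Fintype A.ι] {Lb : LB A} {s : Fin (n + 1) → A.ι → M → ℂ}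

theorem gam_scale (P : Part A) {K : Kah A} {f g : (ofKah K).M → ℝ} (hf : f ∈ (calcX P K).Sm)
    {c : ℝ} (hc : 0 < c) (hg : ∀ x, g x = f x / c) (x : (ofKah K).M) :
    (calcX P K).Gam g x / g x ^ 2 = (calcX P K).Gam f x / f x ^ 2 := by
  have e : g = fun x => (fun t : ℝ => t / c) (f x) := funext hg
  have h1 := (calcX P K).Gam_comp f hf univ (fun t : ℝ => t / c) isOpen_univ (fun _ => mem_univ _)
    (contDiff_id.div_const c).contDiffOn x
  have h2 : deriv (fun t : ℝ => t / c) (f x) = 1 / c := by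
    rw [deriv_div_const, deriv_id'']
  rw [h2] at h1
  rw [e, h1]
  simp only []
  field_simp

theorem exists_T6D (P : Part A) {K : Kah A} (h : HM Lb) (hs : ∀ j, IsHS Lb univ (s j))
    {om : A.ι → M → ℂ} (homh : IsHS (KB A) univ om)
    (homn : ∀ i, ∀ x ∈ (A.e i).source, ‖om i x‖ ^ 2 = (K.g i x).det.re)
    {C : ℝ≥0} {kap Mm K0 : ℝ} (hMm : 0 ≤ Mm) {cc : Fin (n + 1) → ℝ} (hcc : ∀ j, 0 < cc j)
    {u w : Fin (n + 1) → (ofKah K).M → ℝ}
    (hu : ∀ j (x : (ofKah K).M), u j x = nsM (M := M) h (s j) x / cc j)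
    (hsec : ∀ j, SecD (calcX P K) C kap (u j) (w j)) {y : (ofKah K).M} {R : ℝ}
    (big : ∀ j, ∀ x ∈ closedBall y R, 1 ≤ Mm * u j x)
    (en : ∀ j, ⨍ x in closedBall y R, (calcX P K).Gam (lg Mm (u j)) x ∂(muX K) ≤ K0 ^ 2) :
    (∀ x ∈ closedBall y R, NZ (M := M) s x) ∧
    ∃ T Pf q a b : (ofKah K).M → ℝ, T6D (calcX P K) n y R (16 * n * K0 ^ 2) T Pf q a b ∧
      (∀ x ∈ closedBall y R, q x = Jsq (M := M) K s x) ∧
      (∀ x ∈ closedBall y R, (gM (M := M) K (VS s) x).det.re = q x) ∧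
      (∀ x ∈ closedBall y R, (gM (M := M) K (VS s) x).trace.re = T x) := by
  have hX : CompactSpace (ofKah K).M := inferInstanceAs (CompactSpace M)
  have hprob := prob_muX K
  have hu0 : ∀ j, ∀ x ∈ closedBall y R, 0 < u j x := by
    intro j x hx
    rcases ((hsec j).u_nonneg x).lt_or_eq with h0 | h0
    · exact h0
    · have := big j x hx
      rw [← h0] at this
      linarith
  have hNZ : ∀ x ∈ closedBall y R, NZ (M := M) s x := by
    intro x hx
    rw [NZ_iff_pos h]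
    intro j
    have h1 := hu0 j x hx
    rw [hu j x] at h1
    exact (div_pos_iff_of_pos_right (hcc j)).1 h1
  refine ⟨hNZ, ?_⟩
  set B : Set M := show Set (ofKah K).M from closedBall y R with hBdef
  have hB : IsCompact B := by
    have : IsCompact (closedBall y R) := isClosed_closedBall.isCompact
    exact this
  obtain ⟨T, Pf, q, a, b, hT, hq, hTle⟩ := exists_fields h hs homh homn hB hNZ
  refine ⟨T, Pf, q, a, b, ?_, hq, hT.q_det, hT.T_tr⟩
  have hcont : ∀ j, Continuous ((calcX P K).Gam (lg Mm (u j))) := fun j =>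
    (calcX P K).contGam _ ((hsec j).lg_mem hMm)
  refine
    { T_mem := hT.T_sm, P_mem := hT.P_sm, q_mem := hT.q_sm, a_mem := hT.a_sm, b_mem := hT.b_sm
      T_nonneg := hT.T_nonneg, P_nonneg := hT.P_nonneg, q_nonneg := hT.q_nonneg
      Lap_T := hT.Lap_T, Lap_P := hT.Lap_P, Lap_q := fun x hx => (hT.Lap_q x hx).le
      q_eq := hT.q_eq, q_le := hT.q_le
      Gam_a := fun x hx => ?_, Gam_b := fun x hx => ?_, mean_T := ?_ }
  · have h1 := hT.Dg_a x hx
    have h2 := hT.P_nonneg x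
    rw [calcX_Gam]
    exact h1.le.trans (by linarith)
  · have h1 := hT.Dg_b x hx
    have h2 := hT.P_nonneg x
    rw [calcX_Gam]
    exact h1.le.trans (by linarith)
  · obtain ⟨G, hG⟩ : ∃ G : Fin (n + 1) → (ofKah K).M → ℝ,
        G = fun j => (calcX P K).Gam (lg Mm (u j)) := ⟨_, rfl⟩
    have hGc : ∀ j, Continuous (G j) := by rw [hG]; exact hcont
    have hG1 : ∀ r : Fin n, Continuous (fun x => 8 * G r.succ x + 8 * G 0 x) := fun r =>
      ((hGc r.succ).const_mul 8).add ((hGc 0).const_mul 8)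
    have hGe : ∀ j, ⨍ x in closedBall y R, G j x ∂(muX K) ≤ K0 ^ 2 := by rw [hG]; exact en
    have h1 : ∀ x ∈ closedBall y R, T x ≤ ∑ r : Fin n, (8 * G r.succ x + 8 * G 0 x) := by
      intro x hx
      refine (hTle x hx).trans (Finset.sum_le_sum fun r _ => ?_)
      have h2 : ∀ j, Dg K (nsM (M := M) h (s j)) x / nsM (M := M) h (s j) x ^ 2 ≤
          4 * G j x := by
        intro j
        have h3 := gam_le (hsec j) hMm (big j x hx)
        rw [gam_scale P (f := nsM (M := M) h (s j)) (sm_nsM h (hs j)) (hcc j) (hu j) x] at h3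
        rw [hG]
        exact h3
      have h4 := h2 r.succ
      have h5 := h2 0
      linarith
    have hTc : Continuous T := (calcX P K).cont T hT.T_sm
    have h2 : ⨍ x in closedBall y R, T x ∂(muX K) ≤
        ⨍ x in closedBall y R, (∑ r : Fin n, (8 * G r.succ x + 8 * G 0 x)) ∂(muX K) :=
      avg_mono hTc (continuous_finsetSum _ fun r _ => hG1 r) measurableSet_closedBall h1
    have h3 : ⨍ x in closedBall y R, (∑ r : Fin n, (8 * G r.succ x + 8 * G 0 x)) ∂(muX K) =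
        ∑ r : Fin n, ⨍ x in closedBall y R, (8 * G r.succ x + 8 * G 0 x) ∂(muX K) :=
      avg_sum (f := fun (r : Fin n) x => 8 * G r.succ x + 8 * G 0 x) Finset.univ hG1 _
    have h4 : ∀ r : Fin n, ⨍ x in closedBall y R, (8 * G r.succ x + 8 * G 0 x) ∂(muX K) ≤
        16 * K0 ^ 2 := by
      intro r
      have e1 : ⨍ x in closedBall y R, (8 * G r.succ x + 8 * G 0 x) ∂(muX K) =
          ⨍ x in closedBall y R, (8 * G r.succ x) ∂(muX K) +
            ⨍ x in closedBall y R, (8 * G 0 x) ∂(muX K) :=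
        avg_add ((hGc r.succ).const_mul 8) ((hGc 0).const_mul 8) _
      have e2 : ∀ j, ⨍ x in closedBall y R, (8 * G j x) ∂(muX K) =
          8 * ⨍ x in closedBall y R, G j x ∂(muX K) := fun j => avg_mul 8 (G j) _
      rw [e1, e2, e2]
      have h6 := hGe r.succ
      have h7 := hGe 0
      linarith
    refine h2.trans (h3.le.trans ((Finset.sum_le_sum fun r _ => h4 r).trans (le_of_eq ?_)))
    rw [Finset.sum_const, Finset.card_univ, Fintype.card_fin, nsmul_eq_mul]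
    ring

/-- the lower pinching constant -/
def loC (n : ℕ) (C K0 c : ℝ) : ℝ := c ^ 2 / 4 / (C * (16 * n * K0 ^ 2)) ^ (n - 1)

/-- the upper pinching constant -/
def hiC (n : ℕ) (C K0 : ℝ) : ℝ := C * (16 * n * K0 ^ 2)

/-- the radius factor -/
def thC (n : ℕ) (C K0 c : ℝ) : ℝ := th C (16 * n * K0 ^ 2) n c

theorem thC_pos {n : ℕ} {C K0 c : ℝ} (hC : 0 ≤ C) (hc : 0 < c) : 0 < thC n C K0 c :=
  th_pos hC n hc

theorem thC_le (n : ℕ) (C K0 c : ℝ) : thC n C K0 c ≤ 1 / 24 := th_le _ _ _ _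

theorem hiC_pos {n : ℕ} (hn : 1 ≤ n) {C K0 : ℝ} (hC : 0 < C) (hK : 0 < K0) : 0 < hiC n C K0 := by
  have : (0 : ℝ) < n := by exact_mod_cast hn
  unfold hiC
  positivity

theorem loC_pos {n : ℕ} (hn : 1 ≤ n) {C K0 c : ℝ} (hC : 0 < C) (hK : 0 < K0) (hc : 0 < c) :
    0 < loC n C K0 c := by
  have := hiC_pos hn hC hK
  unfold hiC at this
  unfold loC
  positivity

/-- **the Gram matrix is pinched** -/
theorem gram_good (P : Part A) {K : Kah A} (h : HM Lb) (hs : ∀ j, IsHS Lb univ (s j))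
    {om : A.ι → M → ℂ} (homh : IsHS (KB A) univ om)
    (homn : ∀ i, ∀ x ∈ (A.e i).source, ‖om i x‖ ^ 2 = (K.g i x).det.re)
    {C : ℝ≥0} {kap Mm K0 : ℝ} (hMm : 0 ≤ Mm) {cc : Fin (n + 1) → ℝ} (hcc : ∀ j, 0 < cc j)
    {u w : Fin (n + 1) → (ofKah K).M → ℝ}
    (hu : ∀ j (x : (ofKah K).M), u j x = nsM (M := M) h (s j) x / cc j)
    (hsec : ∀ j, SecD (calcX P K) C kap (u j) (w j)) (S : Sp (calcX P K) C)
    {y : (ofKah K).M} {R : ℝ} (hR : 0 < R)
    (big : ∀ j, ∀ x ∈ closedBall y R, 1 ≤ Mm * u j x)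
    (en : ∀ j, ⨍ x in closedBall y R, (calcX P K).Gam (lg Mm (u j)) x ∂(muX K) ≤ K0 ^ 2)
    {c : ℝ} (hc : 0 < c) (hJ : c ^ 2 ≤ Jsq (M := M) K s y) :
    ∀ x ∈ closedBall y (thC n C K0 c * R), NZ (M := M) s x ∧
      (gM (M := M) K (VS s) x - ((loC n C K0 c : ℝ) : ℂ) • (1 : Matrix (Fin n) (Fin n) ℂ)).PosSemidef
      ∧ (((hiC n C K0 : ℝ) : ℂ) • (1 : Matrix (Fin n) (Fin n) ℂ) - gM (M := M) K (VS s) x).PosSemidef
      ∧ c ^ 2 / 4 ≤ Jsq (M := M) K s x := by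
  obtain ⟨hNZ, T, Pf, q, a, b, hT, hq, hdet, htr⟩ :=
    exists_T6D P h hs homh homn hMm hcc hu hsec big en
  have h1 := hT.gram S hR hc (by rw [hq y (mem_closedBall_self hR.le)]; exact hJ)
    (Gm := fun x => gM (M := M) K (VS s) x) (fun x _ => gM_posSemidef K (VS s) x) hdet htr
  intro x hx
  have hxR : x ∈ closedBall y R := by
    refine closedBall_subset_closedBall ?_ hx
    have := thC_le n C K0 c
    nlinarith
  refine ⟨hNZ x hxR, (h1 x hx).1, (h1 x hx).2, ?_⟩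
  rw [← hq x hxR]
  exact hT.pinch S hR hc (by rw [hq y (mem_closedBall_self hR.le)]; exact hJ) x hx

theorem holW_quo (_h : HM Lb) (hs : ∀ j, IsHS Lb univ (s j)) {W : Set M}
    (hW : ∀ x ∈ W, NZ s x) : HolW A W (quo s) := by
  intro i
  have h1 : ∀ r, DifferentiableOn ℂ (fun z => quo s ((A.e i).symm z) r)
      {z | z ∈ (A.e i).target ∧ (A.e i).symm z ∈ W} := fun r =>
    (quo_hol hs r i).mono fun z hz => hW z hz
  exact differentiableOn_pi.2 h1

theorem dlg_eq (h : HM Lb) (hs : ∀ j, IsHS Lb univ (s j)) {i : A.ι} {x : M}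
    (hx : x ∈ (A.e i).source) (hO : NZ s x) (v : Cn n) :
    dlg A (quo s) i (A.e i x) v = (VS s i x)ᵀ *ᵥ v.ofLp := by
  funext j
  have hF : ∀ r, DifferentiableAt ℂ (fun z => quo s ((A.e i).symm z) r) (A.e i x) := fun r =>
    (quo_hol hs r i).diffAt (isOpen_NZ h hs) hx hO
  have hF' : DifferentiableAt ℂ (fun z => quo s ((A.e i).symm z)) (A.e i x) :=
    differentiableAt_pi.2 hF
  have e1 : (fderiv ℂ (fun w => quo s ((A.e i).symm w)) (A.e i x) v) j =
      fderiv ℂ (fun w => quo s ((A.e i).symm w) j) (A.e i x) v := by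
    have h1 := (hasFDerivAt_pi'.1 hF'.hasFDerivAt) j
    rw [h1.fderiv]
    rfl
  have e2 : v = ∑ a, v a • (EuclideanSpace.single a 1 : Cn n) := by
    ext b
    simp [Finset.sum_apply, Pi.single_apply]
  unfold dlg
  rw [e1, (A.e i).left_inv hx]
  conv_lhs => rw [e2]
  rw [map_sum, Finset.sum_div, Matrix.mulVec, dotProduct]
  refine Finset.sum_congr rfl fun a _ => ?_
  rw [map_smul, smul_eq_mul, Matrix.transpose_apply]
  show v a * _ / quo s x j = dF A (fun x => quo s x j) i x a / quo s x j * v a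
  unfold dF
  ring

theorem qf_star (K : Kah A) (i : A.ι) (x : M) (v : Cn n) :
    (star (star v.ofLp) ⬝ᵥ (K.g i x *ᵥ star v.ofLp)).re = qf K i x v := by
  unfold qf
  rw [star_star, Matrix.dotProduct_mulVec, ← Matrix.mulVec_transpose, dotProduct_comm]

theorem norm_dlg (h : HM Lb) (hs : ∀ j, IsHS Lb univ (s j)) {i : A.ι} {x : M}
    (hx : x ∈ (A.e i).source) (hO : NZ s x) (v : Cn n) (j : Fin n) :
    ‖((VS s i x)ᴴ *ᵥ star v.ofLp) j‖ = ‖dlg A (quo s) i (A.e i x) v j‖ := by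
  rw [dlg_eq h hs hx hO, ← norm_star (((VS s i x)ᵀ *ᵥ v.ofLp) j)]
  congr 1
  simp only [Matrix.mulVec, dotProduct, star_sum, star_mul', Matrix.transpose_apply,
    Matrix.conjTranspose_apply, Pi.star_apply]

/-- pinched Gram matrix ⟹ frame bounds -/
theorem frame_of_gram {K : Kah A} (h : HM Lb) (hs : ∀ j, IsHS Lb univ (s j)) {lo hi : ℝ}
    (hlo : 0 < lo) {x : M} (hO : NZ s x)
    (h1 : (gM K (VS s) x - (lo : ℂ) • (1 : Matrix (Fin n) (Fin n) ℂ)).PosSemidef)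
    (h2 : ((hi : ℂ) • (1 : Matrix (Fin n) (Fin n) ℂ) - gM K (VS s) x).PosSemidef)
    {i : A.ι} (hx : x ∈ (A.e i).source) (v : Cn n) :
    qf K i x v ≤ (Real.sqrt (n / lo) * ‖dlg A (quo s) i (A.e i x) v‖) ^ 2 ∧
    ∀ j, ‖dlg A (quo s) i (A.e i x) v j‖ ^ 2 ≤ hi * qf K i x v := by
  rw [gM_eq K (hf_VS h hs) hx hO] at h1 h2
  obtain ⟨h3, h4⟩ := frame_pinch (K.pos i x hx) hlo h1 h2 (star v.ofLp)
  rw [qf_star] at h3 h4
  simp only [norm_dlg h hs hx hO] at h3 h4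
  constructor
  · have h5 : ∑ j, ‖dlg A (quo s) i (A.e i x) v j‖ ^ 2 ≤
        n * ‖dlg A (quo s) i (A.e i x) v‖ ^ 2 := by
      calc ∑ j, ‖dlg A (quo s) i (A.e i x) v j‖ ^ 2 ≤
          ∑ _j : Fin n, ‖dlg A (quo s) i (A.e i x) v‖ ^ 2 := by
            refine Finset.sum_le_sum fun j _ => ?_
            exact pow_le_pow_left₀ (norm_nonneg _) (norm_le_pi_norm _ j) 2
        _ = _ := by rw [Finset.sum_const, Finset.card_univ, Fintype.card_fin, nsmul_eq_mul]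
    rw [mul_pow, Real.sq_sqrt (by positivity), div_mul_eq_mul_div, le_div_iff₀ hlo]
    linarith
  · intro j
    refine le_trans ?_ h4
    exact Finset.single_le_sum (f := fun j => ‖dlg A (quo s) i (A.e i x) v j‖ ^ 2)
      (fun j _ => by positivity) (Finset.mem_univ j)

/-- **frame bounds at a good point**: the hypotheses `hF`, `hne`, `hb`, `hb'` of
`Fra3_922.frame_tube` (`F = quo s`, `W` = the ball of radius `θ R`), and `Jsq ≥ c²/4` -/
theorem frame_good (P : Part A) {K : Kah A} (h : HM Lb) (hs : ∀ j, IsHS Lb univ (s j))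
    {om : A.ι → M → ℂ} (homh : IsHS (KB A) univ om)
    (homn : ∀ i, ∀ x ∈ (A.e i).source, ‖om i x‖ ^ 2 = (K.g i x).det.re)
    {C : ℝ≥0} {kap Mm K0 : ℝ} (hn : 1 ≤ n) (hC : 0 < C) (hK0 : 0 < K0) (hMm : 0 ≤ Mm)
    {cc : Fin (n + 1) → ℝ} (hcc : ∀ j, 0 < cc j)
    {u w : Fin (n + 1) → (ofKah K).M → ℝ}
    (hu : ∀ j (x : (ofKah K).M), u j x = nsM (M := M) h (s j) x / cc j)
    (hsec : ∀ j, SecD (calcX P K) C kap (u j) (w j)) (S : Sp (calcX P K) C)
    {y : (ofKah K).M} {R : ℝ} (hR : 0 < R)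
    (big : ∀ j, ∀ x ∈ closedBall y R, 1 ≤ Mm * u j x)
    (en : ∀ j, ⨍ x in closedBall y R, (calcX P K).Gam (lg Mm (u j)) x ∂(muX K) ≤ K0 ^ 2)
    {c : ℝ} (hc : 0 < c) (hJ : c ^ 2 ≤ Jsq (M := M) K s y) {R' : ℝ}
    (hR' : R' ≤ thC n C K0 c * R) :
    HolW A (Crest.Agent.R281.Fra_922.bX K y R') (quo s) ∧
    (∀ p ∈ Crest.Agent.R281.Fra_922.bX K y R', NZ s p ∧ c ^ 2 / 4 ≤ Jsq K s p) ∧
    (∀ p ∈ Crest.Agent.R281.Fra_922.bX K y R', ∀ j, quo s p j ≠ 0) ∧
    (∀ i, ∀ x ∈ (A.e i).source, x ∈ Crest.Agent.R281.Fra_922.bX K y R' → ∀ v : Cn n,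
      qf K i x v ≤ (Real.sqrt (n / loC n C K0 c) * ‖dlg A (quo s) i (A.e i x) v‖) ^ 2) ∧
    (∀ i, ∀ x ∈ (A.e i).source, x ∈ Crest.Agent.R281.Fra_922.bX K y R' → ∀ (v : Cn n) j,
      ‖dlg A (quo s) i (A.e i x) v j‖ ^ 2 ≤ Real.sqrt (hiC n C K0) ^ 2 * qf K i x v) := by
  have hC' : (0 : ℝ) < C := hC
  have hlo := loC_pos hn hC' hK0 hc
  have hhi := hiC_pos hn hC' hK0
  have h1 := gram_good P h hs homh homn hMm hcc hu hsec S hR big en hc hJ
  have hin : ∀ p ∈ Crest.Agent.R281.Fra_922.bX K y R',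
      (show (ofKah K).M from p) ∈ closedBall y (thC n C K0 c * R) := fun p hp =>
    (ball_subset_closedBall.trans (closedBall_subset_closedBall hR')) hp
  refine ⟨holW_quo h hs fun p hp => (h1 p (hin p hp)).1,
    fun p hp => ⟨(h1 p (hin p hp)).1, (h1 p (hin p hp)).2.2.2⟩,
    fun p hp j => quo_ne (h1 p (hin p hp)).1 j, fun i x hx hxB v => ?_, fun i x hx hxB v j => ?_⟩
  · obtain ⟨g0, g1, g2, -⟩ := h1 x (hin x hxB)
    exact (frame_of_gram h hs hlo g0 g1 g2 hx v).1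
  · obtain ⟨g0, g1, g2, -⟩ := h1 x (hin x hxB)
    rw [Real.sq_sqrt hhi.le]
    exact (frame_of_gram h hs hlo g0 g1 g2 hx v).2 j

end inst

end

end Crest.Agent.R281.TI_671
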