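import Crest.Agent.R281.Tc3_941

/-!
# R281 (S0424), S6-FRAME, part 4 (helper941): limit atoms, the separating map `w`
-/

set_option autoImplicit false
set_option linter.unusedSectionVars false

open Set Filter Topology Complex
open scoped ContDiff Matrix ComplexConjugate Manifold ComplexOrder ENNReal

namespace Crest.Agent.R281.Tc_941

open Crest.Agent.R275.Geo Crest.Agent.R275.Core144 Crest.Agent.R275.GC293
open Crest.Agent.R273.Defs_333 Crest.Agent.R273.Kah_333 Crest.Agent.R273.HM_333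
open Crest.Agent.R281.Defs_273 Crest.Agent.R281.D6_986
open Crest.Agent.R281.S6D_664 (LFib)
open Crest.Agent.R281.Thn_280 Crest.Agent.R281.ThnM_280
open Crest.Agent.R273.FIb0_597 (ch mem_ch)

noncomputable section

variable {n : ℕ} {M : Type} [TopologicalSpace M] {A : Atl (2 * n) M}
variable {σ : HSymp A} {L : LB A} {F : LFib A σ} {c : ContOut F} {x0 : M}

/-- limit atoms at a point of `U` -/
theorem SliceAt.exists_atoms [T2Space M] (S : SliceAt F c x0) {x : M} (hx : x ∈ S.U) :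
    ∃ a : Fin S.d → Cn (2 * n), (∀ j, a j ∈ Metric.closedBall (A.e S.i x0) S.r) ∧
      (∀ j, (A.e S.i).symm (a j) ∈ c.Z x) ∧
      ∀ (h : Cn (2 * n) → ℂ) (_ : Continuous h) (T : M → ℂ) (w : ℂ),
        (∀ y ∈ S.R, T y = ∑ z ∈ S.P y, h z) → Tendsto T (𝓝[S.U ∩ F.Om] x) (𝓝 w) →
          w = ∑ j, h (a j) := by
  classical
  have hNB : (𝓝[S.R] x).NeBot := mem_closure_iff_nhdsWithin_neBot.mp (S.R_dns hx)
  let l : Ultrafilter M := Ultrafilter.of (𝓝[S.R] x)
  have hl : (l : Filter M) ≤ 𝓝[S.R] x := Ultrafilter.of_le _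
  have hlR : ∀ᶠ y in (l : Filter M), y ∈ S.R := hl self_mem_nhdsWithin
  have hy : ∀ y : M, ∃ v : Fin S.d → Cn (2 * n), y ∈ S.R →
      ((∀ j, v j ∈ S.P y) ∧ ∀ h : Cn (2 * n) → ℂ, ∑ z ∈ S.P y, h z = ∑ j, h (v j)) := by
    intro y
    by_cases hyR : y ∈ S.R
    · let e := (S.P y).equivFinOfCardEq (S.card y hyR)
      refine ⟨fun j => (e.symm j : Cn (2 * n)), fun _ => ⟨fun j => (e.symm j).2, fun h => ?_⟩⟩
      rw [← Finset.sum_coe_sort (S.P y) h]
      exact (Equiv.sum_comp e.symm (fun z => h (z : Cn (2 * n)))).symm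
    · exact ⟨fun _ => 0, fun h => absurd h hyR⟩
  choose v hv using hy
  -- the limit of the tuples
  have hK : IsCompact (Set.pi (univ : Set (Fin S.d)) fun _ =>
      Metric.closedBall (A.e S.i x0) S.r) :=
    isCompact_univ_pi fun _ => isCompact_closedBall _ _
  have hvK : ∀ᶠ y in (l : Filter M), v y ∈ Set.pi (univ : Set (Fin S.d)) fun _ =>
      Metric.closedBall (A.e S.i x0) S.r := by
    filter_upwards [hlR] with y hyR j _
    exact Metric.ball_subset_closedBall (S.P_mem y hyR _ ((hv y hyR).1 j)).1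
  obtain ⟨a, haK, ha⟩ := hK.ultrafilter_le_nhds (l.map v)
    (by rw [Filter.le_principal_iff]; exact hvK)
  have hta : Tendsto v (l : Filter M) (𝓝 a) := ha
  have htj : ∀ j, Tendsto (fun y => v y j) (l : Filter M) (𝓝 (a j)) := fun j =>
    (tendsto_pi_nhds.mp hta) j
  refine ⟨a, fun j => haK j (mem_univ j), fun j => ?_, fun h hh T w hT hw => ?_⟩
  · refine mem_Z_of_tendsto c (l := (l : Filter M)) (hl.trans nhdsWithin_le_nhds)
      (p := fun y => (A.e S.i).symm (v y j)) ?_ ?_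
    · filter_upwards [hlR] with y hyR
      have h1 := (S.P_mem y hyR _ ((hv y hyR).1 j)).2
      rw [c.eq y (S.R_sub hyR).2]
      exact h1
    · have h2 : a j ∈ (A.e S.i).target := S.ball (haK j (mem_univ j))
      exact ((A.e S.i).continuousAt_symm h2).tendsto.comp (htj j)
  · have h1 : Tendsto (fun y => ∑ j, h (v y j)) (l : Filter M) (𝓝 (∑ j, h (a j))) :=
      tendsto_finsetSum _ fun j _ => (hh.tendsto (a j)).comp (htj j)
    have h2 : (l : Filter M) ≤ 𝓝[S.U ∩ F.Om] x := hl.trans (nhdsWithin_mono x S.R_sub)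
    have h3 : Tendsto T (l : Filter M) (𝓝 w) := hw.mono_left h2
    refine tendsto_nhds_unique (h3.congr' ?_) h1
    filter_upwards [hlR] with y hyR
    rw [hT y hyR, (hv y hyR).2]

/-- monomials -/
def mon {m d : ℕ} (μ : Fin m → Fin (2 * d + 1)) (z : Cn m) : ℂ := ∏ k, (z k) ^ (μ k : ℕ)

theorem diff_prod {m : ℕ} {κ : Type*} (s : Finset κ) {f : κ → Cn m → ℂ}
    (hf : ∀ k, Differentiable ℂ (f k)) : Differentiable ℂ fun z => ∏ k ∈ s, f k z := by
  classical
  induction s using Finset.induction_on with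
  | empty => simp only [Finset.prod_empty]; exact differentiable_const _
  | insert k s hk ih =>
    simp only [Finset.prod_insert hk]
    exact (hf k).mul ih

theorem diff_mon {m d : ℕ} (μ : Fin m → Fin (2 * d + 1)) : Differentiable ℂ (mon μ) := by
  unfold mon
  have h1 : ∀ k : Fin m, Differentiable ℂ fun z : Cn m => (z k) ^ (μ k : ℕ) := fun k =>
    ((EuclideanSpace.proj k : Cn m →L[ℂ] ℂ).differentiable).pow _
  exact diff_prod Finset.univ h1

/-- **the separating map.** -/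
theorem SliceAt.exists_w [T2Space M] (hS : SThM A F.Omᶜ) (S : SliceAt F c x0)
    (hsep : SepMono (2 * n) S.d) :
    ∃ (r : ℕ) (w : M → Fin r → ℂ), (∀ i k, HolAt A i S.U (fun x => w x k)) ∧
      (∀ x ∈ S.U, ∀ y ∈ c.Z x, w y = w x) ∧ w x0 = 0 ∧ ∀ x ∈ S.U, w x = 0 → x ∈ c.Z x0 := by
  classical
  have hRem := rem_of_sth F.op hS
  have hx0 : x0 ∈ S.U := S.sub (c.mem x0)
  have h1 : ∀ μ : Fin (2 * n) → Fin (2 * S.d + 1), ∃ G : M → ℂ, (∀ i, HolAt A i S.U G) ∧
      (∀ x ∈ S.U, ∀ y ∈ c.Z x, G y = G x) ∧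
      ∀ x ∈ S.U, ∀ a : Fin S.d → Cn (2 * n),
        (∀ (h : Cn (2 * n) → ℂ) (_ : Continuous h) (T : M → ℂ) (w : ℂ),
          (∀ y ∈ S.R, T y = ∑ z ∈ S.P y, h z) → Tendsto T (𝓝[S.U ∩ F.Om] x) (𝓝 w) →
          w = ∑ j, h (a j)) → G x = ∑ j, mon μ (a j) := by
    intro μ
    obtain ⟨T, hT1, hT2, hT3, hT4⟩ := S.trace (mon μ) (diff_mon μ).differentiableOn
    obtain ⟨C, hC⟩ : ∃ C : ℝ, ∀ z ∈ Metric.closedBall (A.e S.i x0) S.r, ‖mon μ z‖ ≤ C :=
      (isCompact_closedBall _ _).exists_bound_of_continuousOn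
        ((diff_mon μ).continuous.continuousOn)
    obtain ⟨G, hG1, hG2, hG3⟩ := ext_fun hRem F.dns S.op hT1 (fun x _ => ⟨S.d * C, by
      filter_upwards [self_mem_nhdsWithin] with y hy
      exact hT3 C (fun z hz => hC z (Metric.ball_subset_closedBall hz)) y hy⟩)
    refine ⟨G, hG1, ext_const c S.op S.sat hG1 fun x hx y hy => ?_, fun x hx a ha => ?_⟩
    · have hyO : y ∈ F.Om := Tf_sub_Om hx.2 hy
      have hyU : y ∈ S.U := S.sat x hx.1 (by rw [c.eq x hx.2]; exact hy)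
      rw [hG2 y ⟨hyU, hyO⟩, hG2 x hx]
      exact hT2 x hx y hy
    · exact ha (mon μ) (diff_mon μ).continuous T (G x) hT4 (hG3 x hx)
  choose G hG1 hG2 hG3 using h1
  let e : Fin (Fintype.card (Fin (2 * n) → Fin (2 * S.d + 1))) ≃
      (Fin (2 * n) → Fin (2 * S.d + 1)) := (Fintype.equivFin _).symm
  refine ⟨_, fun x k => G (e k) x - G (e k) x0, fun i k => (hG1 (e k) i).sub (holAt_const _),
    fun x hx y hy => ?_, ?_, fun x hx hwx => ?_⟩
  · funext k
    show G (e k) y - G (e k) x0 = G (e k) x - G (e k) x0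
    rw [hG2 (e k) x hx y hy]
  · funext k
    exact sub_self _
  · obtain ⟨a, -, haZ, ha⟩ := S.exists_atoms hx
    obtain ⟨b, -, hbZ, hb⟩ := S.exists_atoms hx0
    have h2 : ∀ μ : Fin (2 * n) → Fin (2 * S.d + 1), ∑ j, mon μ (a j) = ∑ j, mon μ (b j) := by
      intro μ
      rw [← hG3 μ x hx a ha, ← hG3 μ x0 hx0 b hb]
      have h3 : G (e (e.symm μ)) x - G (e (e.symm μ)) x0 = 0 := congrFun hwx (e.symm μ)
      rw [Equiv.apply_symm_apply] at h3
      exact sub_eq_zero.mp h3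
    obtain ⟨j, hj⟩ := hsep a b h2 ⟨0, S.d_pos⟩
    have h4 := haZ ⟨0, S.d_pos⟩
    have h5 := hbZ j
    rw [← hj] at h5
    have h6 := c.part x _ h4
    have h7 := c.part x0 _ h5
    rw [← h7, h6]
    exact c.mem x

end

end Crest.Agent.R281.Tc_941
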