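import Mathlib

/-!
# R281 (S0424), TRI-COV (helper311): algebraic covering lemma for triangular tuples of polynomials

`f_i ∈ ℂ[y_j : r j ≤ r i]` with `∂_i f_i ≠ 0` (any rank function `r`, so both orders of the tower).
Every polynomial `g` is algebraic over `ℂ[f]`; hence there is `P ≠ 0` with `P(f y) ≠ 0` implying
`g y ≠ 0` for finitely many given `g ≠ 0`, and `f` is proper over `{P ≠ 0}`
(lemma (cov) of helper14, post 7474).
-/

set_option autoImplicit false

open Set Filter Topology MvPolynomial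

namespace Crest.Agent.R281.Tcov_311

noncomputable section

variable {σ : Type*}

/-- the subring `ℂ[f]` -/
abbrev RR (f : σ → MvPolynomial σ ℂ) : Subalgebra ℂ (MvPolynomial σ ℂ) := (bind₁ f).range

/-- the tuple is triangular with respect to the rank function `r` -/
def Tri (f : σ → MvPolynomial σ ℂ) (r : σ → ℕ) : Prop :=
  ∀ i, ∀ j ∈ (f i).vars, j = i ∨ r j < r i

/-- put `y_i = 0` -/
def e0 [DecidableEq σ] (i : σ) : MvPolynomial σ ℂ →ₐ[ℂ] MvPolynomial σ ℂ :=
  aeval fun j => if j = i then 0 else X j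

theorem pderiv_e0 [DecidableEq σ] (i : σ) (p : MvPolynomial σ ℂ) : pderiv i (e0 i p) = 0 := by
  induction p using MvPolynomial.induction_on with
  | C a => simp [e0]
  | add p q hp hq => rw [map_add, map_add, hp, hq, add_zero]
  | mul_X p j hp =>
    rw [map_mul, Derivation.leibniz, hp]
    have : pderiv i (e0 i (X j : MvPolynomial σ ℂ)) = 0 := by
      rw [e0, aeval_X]
      split_ifs with h
      · exact map_zero _
      · rw [pderiv_X_of_ne h]
    rw [this]
    simp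

/-- one step of the tower -/
theorem isAlgebraic_step {T : Type*} [CommRing T] [Algebra T (MvPolynomial σ ℂ)] [Algebra ℂ T]
    [IsScalarTower ℂ T (MvPolynomial σ ℂ)] (i : σ) (p : MvPolynomial σ ℂ)
    (hX : ∀ j ∈ p.vars, j ≠ i → ∃ t : T, algebraMap T (MvPolynomial σ ℂ) t = X j)
    (hp : ∃ t : T, algebraMap T (MvPolynomial σ ℂ) t = p) (hd : pderiv i p ≠ 0) :
    IsAlgebraic T (X i : MvPolynomial σ ℂ) := by
  classical
  obtain ⟨t0, ht0⟩ := hp
  let g : σ → Polynomial T := fun j => if j = i then Polynomial.X else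
    if h : ∃ t : T, algebraMap T (MvPolynomial σ ℂ) t = X j then Polynomial.C h.choose else 0
  let Q : Polynomial T := aeval g p
  have hval : ∀ s : MvPolynomial σ ℂ, Polynomial.aeval s Q =
      aeval (fun j => if j = i then s else X j) p := by
    intro s
    have := hom_congr_vars (p₁ := p) (p₂ := p)
      (f₁ := ((Polynomial.aeval s : Polynomial T →ₐ[T] MvPolynomial σ ℂ) : Polynomial T →+* _).comp
        ((aeval g : MvPolynomial σ ℂ →ₐ[ℂ] Polynomial T) : MvPolynomial σ ℂ →+* _))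
      (f₂ := ((aeval (fun j => if j = i then s else X j) :
        MvPolynomial σ ℂ →ₐ[ℂ] MvPolynomial σ ℂ) : MvPolynomial σ ℂ →+* MvPolynomial σ ℂ))
      ?_ ?_ rfl
    · exact this
    · refine RingHom.ext fun a => ?_
      simp only [RingHom.comp_apply, RingHom.coe_coe, algHom_C]
      rw [IsScalarTower.algebraMap_apply ℂ T (Polynomial T), Polynomial.algebraMap_eq,
        Polynomial.aeval_C, ← IsScalarTower.algebraMap_apply ℂ T (MvPolynomial σ ℂ)]
    · intro j hj _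
      simp only [RingHom.comp_apply, RingHom.coe_coe, aeval_X, g]
      split_ifs with h1 h2
      · simp
      · rw [Polynomial.aeval_C]
        exact h2.choose_spec
      · exact absurd (hX j hj h1) h2
  refine ⟨Q - Polynomial.C t0, ?_, ?_⟩
  · intro h
    have h1 := hval 0
    have h2 : Polynomial.aeval (0 : MvPolynomial σ ℂ) (Q - Polynomial.C t0) = 0 := by
      rw [h, map_zero]
    rw [map_sub, h1, Polynomial.aeval_C, ht0] at h2
    have h3 : e0 i p = p := sub_eq_zero.1 h2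
    exact hd (by rw [← h3]; exact pderiv_e0 i _)
  · have h1 := hval (X i)
    have h2 : (fun j => if j = i then (X i : MvPolynomial σ ℂ) else X j) = X := by
      funext j
      split_ifs with h
      · rw [h]
      · rfl
    rw [h2, aeval_X_left_apply] at h1
    rw [map_sub, h1, Polynomial.aeval_C, ht0, sub_self]

theorem isAlgebraic_restr {R S : Type*} [CommRing R] [CommRing S] [IsDomain R] [IsDomain S]
    [Algebra R S] {a : S} (h : IsAlgebraic (Subalgebra.algebraicClosure R S) a) :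
    IsAlgebraic R a := h.restrictScalars R

theorem isAlgebraic_X (f : σ → MvPolynomial σ ℂ) (r : σ → ℕ) (hf : Tri f r)
    (hd : ∀ i, pderiv i (f i) ≠ 0) (i : σ) : IsAlgebraic (RR f) (X i : MvPolynomial σ ℂ) := by
  classical
  induction hn : r i using Nat.strong_induction_on generalizing i with
  | _ n ih =>
    have ih' : ∀ j, r j < r i → IsAlgebraic (RR f) (X j : MvPolynomial σ ℂ) := fun j hj =>
      ih (r j) (hn ▸ hj) j rfl
    have hTi : IsAlgebraic (Subalgebra.algebraicClosure (RR f) (MvPolynomial σ ℂ))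
        (X i : MvPolynomial σ ℂ) := by
      refine isAlgebraic_step i (f i) (fun j hj hji => ?_) ?_ (hd i)
      · exact ⟨⟨X j, ih' j ((hf i j hj).resolve_left hji)⟩, rfl⟩
      · exact ⟨⟨f i, isAlgebraic_algebraMap (⟨f i, ⟨X i, bind₁_X_right f i⟩⟩ : RR f)⟩, rfl⟩
    exact isAlgebraic_restr hTi

/-- every polynomial is algebraic over `ℂ[f]` -/
theorem isAlgebraic_all (f : σ → MvPolynomial σ ℂ) (r : σ → ℕ) (hf : Tri f r)
    (hd : ∀ i, pderiv i (f i) ≠ 0) (g : MvPolynomial σ ℂ) : IsAlgebraic (RR f) g := by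
  induction g using MvPolynomial.induction_on with
  | C a => exact isAlgebraic_algebraMap (algebraMap ℂ (RR f) a)
  | add p q hp hq => exact hp.add hq
  | mul_X p j hp => exact hp.mul (isAlgebraic_X f r hf hd j)

theorem eval_bind₁' (f : σ → MvPolynomial σ ℂ) (y : σ → ℂ) (q : MvPolynomial σ ℂ) :
    eval y (bind₁ f q) = eval (fun i => eval y (f i)) q := by
  have := aeval_bind₁ (S := ℂ) y f q
  simpa [aeval_eq_eval] using this

/-- `g ≠ 0`: a polynomial `P` with `P(f) ≠ 0` and `P(f y) ≠ 0 → g y ≠ 0` -/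
theorem exists_nz (f : σ → MvPolynomial σ ℂ) {g : MvPolynomial σ ℂ} (hg : IsAlgebraic (RR f) g)
    (h0 : g ≠ 0) : ∃ P : MvPolynomial σ ℂ, bind₁ f P ≠ 0 ∧
      ∀ y, eval (fun i => eval y (f i)) P ≠ 0 → eval y g ≠ 0 := by
  obtain ⟨⟨_, P, rfl⟩, hr0, hr⟩ := hg.exists_nonzero_dvd (mem_nonZeroDivisors_of_ne_zero h0)
  obtain ⟨c, hc⟩ := hr
  refine ⟨P, fun h => hr0 (Subtype.ext h), fun y hy h => hy ?_⟩
  rw [← eval_bind₁']
  have h1 : bind₁ f P = g * c := hc
  rw [h1, map_mul, h, zero_mul]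

/-- the bound of the roots -/
theorem norm_root_le {n : ℕ} {a : ℕ → ℂ} {z : ℂ}
    (h : ∑ k ∈ Finset.range (n + 1), a k * z ^ k = 0) (hn : a n ≠ 0) :
    ‖z‖ ≤ 1 + (∑ k ∈ Finset.range n, ‖a k‖) / ‖a n‖ := by
  have hpos : 0 < ‖a n‖ := norm_pos_iff.2 hn
  have hS : 0 ≤ ∑ k ∈ Finset.range n, ‖a k‖ := Finset.sum_nonneg fun _ _ => norm_nonneg _
  rcases le_or_gt ‖z‖ 1 with h1 | h1
  · have : 0 ≤ (∑ k ∈ Finset.range n, ‖a k‖) / ‖a n‖ := by positivity
    linarith
  rcases Nat.eq_zero_or_pos n with rfl | hnpos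
  · simp at h
    exact absurd h hn
  obtain ⟨m, rfl⟩ := Nat.exists_eq_succ_of_ne_zero hnpos.ne'
  have h2 : a (m + 1) * z ^ (m + 1) = - ∑ k ∈ Finset.range (m + 1), a k * z ^ k := by
    rw [Finset.sum_range_succ] at h
    linear_combination h
  have h3 : ‖a (m + 1)‖ * ‖z‖ ^ (m + 1) ≤ (∑ k ∈ Finset.range (m + 1), ‖a k‖) * ‖z‖ ^ m := by
    calc ‖a (m + 1)‖ * ‖z‖ ^ (m + 1) = ‖∑ k ∈ Finset.range (m + 1), a k * z ^ k‖ := by
          rw [← norm_pow, ← norm_mul, h2, norm_neg]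
      _ ≤ ∑ k ∈ Finset.range (m + 1), ‖a k * z ^ k‖ := norm_sum_le _ _
      _ ≤ ∑ k ∈ Finset.range (m + 1), ‖a k‖ * ‖z‖ ^ m := by
          refine Finset.sum_le_sum fun k hk => ?_
          rw [norm_mul, norm_pow]
          exact mul_le_mul_of_nonneg_left
            (pow_le_pow_right₀ h1.le (Nat.lt_succ_iff.1 (Finset.mem_range.1 hk))) (norm_nonneg _)
      _ = _ := by rw [Finset.sum_mul]
  have h4 : ‖a (m + 1)‖ * ‖z‖ ≤ ∑ k ∈ Finset.range (m + 1), ‖a k‖ := by
    have hz : 0 < ‖z‖ ^ m := by positivity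
    refine le_of_mul_le_mul_right ?_ hz
    calc ‖a (m + 1)‖ * ‖z‖ * ‖z‖ ^ m = ‖a (m + 1)‖ * ‖z‖ ^ (m + 1) := by ring
      _ ≤ _ := h3
  have h5 : ‖z‖ ≤ (∑ k ∈ Finset.range (m + 1), ‖a k‖) / ‖a (m + 1)‖ := by
    rw [le_div_iff₀ hpos]
    linarith
  linarith

/-- any algebraic `g`: bounded over the compact subsets of `{P ≠ 0}` -/
theorem exists_bd (f : σ → MvPolynomial σ ℂ) {g : MvPolynomial σ ℂ} (hg : IsAlgebraic (RR f) g) :
    ∃ P : MvPolynomial σ ℂ, bind₁ f P ≠ 0 ∧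
      ∀ K : Set (σ → ℂ), IsCompact K → (∀ w ∈ K, eval w P ≠ 0) →
        ∃ B : ℝ, ∀ y, (fun i => eval y (f i)) ∈ K → ‖eval y g‖ ≤ B := by
  obtain ⟨p, hp0, hp⟩ := hg
  choose c hc using fun k => (p.coeff k).2
  set n := p.natDegree with hn
  have hcn : bind₁ f (c n) ≠ 0 := by
    intro h
    apply hp0
    rw [← Polynomial.leadingCoeff_eq_zero]
    refine Subtype.ext ?_
    have h' : bind₁ f (c n) = p.coeff n := hc n
    rw [Polynomial.leadingCoeff, ← h', h]
    rfl
  have hrel : ∀ y : σ → ℂ, ∑ k ∈ Finset.range (n + 1),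
      eval (fun i => eval y (f i)) (c k) * (eval y g) ^ k = 0 := by
    intro y
    have h1 := congrArg (eval y) hp
    rw [Polynomial.aeval_eq_sum_range, map_sum, map_zero] at h1
    rw [← h1]
    refine Finset.sum_congr rfl fun k _ => ?_
    rw [← eval_bind₁']
    have h2 : (p.coeff k • g ^ k : MvPolynomial σ ℂ) = bind₁ f (c k) * g ^ k := by
      rw [Algebra.smul_def]
      congr 1
      exact (hc k).symm
    rw [h2, map_mul, map_pow]
  refine ⟨c n, hcn, fun K hK hne => ?_⟩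
  have hcont : ContinuousOn (fun w : σ → ℂ => 1 + (∑ k ∈ Finset.range n, ‖eval w (c k)‖) /
      ‖eval w (c n)‖) K := by
    refine continuousOn_const.add (ContinuousOn.div ?_ ?_ fun w hw => norm_ne_zero_iff.2 (hne w hw))
    · exact (continuous_finsetSum _ fun k _ => (continuous_eval (c k)).norm).continuousOn
    · exact (continuous_eval (c n)).norm.continuousOn
  obtain ⟨B, hB⟩ := hK.bddAbove_image hcont
  refine ⟨B, fun y hy => ?_⟩
  have h1 := norm_root_le (n := n) (a := fun k => eval (fun i => eval y (f i)) (c k)) (hrel y)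
    (hne _ hy)
  exact h1.trans (hB ⟨_, hy, rfl⟩)

/-- **(cov)**: finitely many nonzero polynomials `D_a`, finitely many polynomials `g_b` -/
theorem exists_cov (f : σ → MvPolynomial σ ℂ) (r : σ → ℕ) (hf : Tri f r)
    (hd : ∀ i, pderiv i (f i) ≠ 0) {α β : Type*} [Finite α] [Finite β]
    (D : α → MvPolynomial σ ℂ) (hD : ∀ a, D a ≠ 0) (g : β → MvPolynomial σ ℂ) :
    ∃ P : MvPolynomial σ ℂ, P ≠ 0 ∧ bind₁ f P ≠ 0 ∧
      (∀ y, eval (fun i => eval y (f i)) P ≠ 0 → ∀ a, eval y (D a) ≠ 0) ∧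
      ∀ K : Set (σ → ℂ), IsCompact K → (∀ w ∈ K, eval w P ≠ 0) →
        ∃ B : ℝ, ∀ y, (fun i => eval y (f i)) ∈ K → ∀ b, ‖eval y (g b)‖ ≤ B := by
  have := Fintype.ofFinite α
  have := Fintype.ofFinite β
  choose P1 h1 h1' using fun a => exists_nz f (isAlgebraic_all f r hf hd (D a)) (hD a)
  choose P2 h2 h2' using fun b => exists_bd f (isAlgebraic_all f r hf hd (g b))
  have hb : bind₁ f ((∏ a, P1 a) * ∏ b, P2 b) ≠ 0 := by
    rw [map_mul, map_prod, map_prod]
    exact mul_ne_zero (Finset.prod_ne_zero_iff.2 fun a _ => h1 a)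
      (Finset.prod_ne_zero_iff.2 fun b _ => h2 b)
  have hsplit : ∀ w : σ → ℂ, eval w ((∏ a, P1 a) * ∏ b, P2 b) ≠ 0 →
      (∀ a, eval w (P1 a) ≠ 0) ∧ ∀ b, eval w (P2 b) ≠ 0 := by
    intro w hw
    rw [map_mul, map_prod, map_prod] at hw
    exact ⟨fun a => Finset.prod_ne_zero_iff.1 (left_ne_zero_of_mul hw) a (Finset.mem_univ a),
      fun b => Finset.prod_ne_zero_iff.1 (right_ne_zero_of_mul hw) b (Finset.mem_univ b)⟩
  refine ⟨(∏ a, P1 a) * ∏ b, P2 b, fun h => hb (by rw [h, map_zero]), hb,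
    fun y hy a => h1' a y ((hsplit _ hy).1 a), fun K hK hne => ?_⟩
  choose B hB using fun b => h2' b K hK fun w hw => (hsplit w (hne w hw)).2 b
  refine ⟨∑ b, |B b|, fun y hy b => ?_⟩
  exact ((hB b y hy).trans (le_abs_self _)).trans
    (Finset.single_le_sum (f := fun b => |B b|) (fun _ _ => abs_nonneg _) (Finset.mem_univ b))

/-- **(cov)** of post 7474 -/
theorem tri_cov [Finite σ] (f : σ → MvPolynomial σ ℂ) (r : σ → ℕ) (hf : Tri f r)
    (hd : ∀ i, pderiv i (f i) ≠ 0) (D : MvPolynomial σ ℂ) (hD : D ≠ 0) :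
    ∃ P : MvPolynomial σ ℂ, P ≠ 0 ∧
      (∀ y, eval (fun i => eval y (f i)) P ≠ 0 →
        eval y D ≠ 0 ∧ ∀ i, eval y (pderiv i (f i)) ≠ 0) ∧
      ∀ K : Set (σ → ℂ), IsCompact K → (∀ w ∈ K, eval w P ≠ 0) →
        ∃ B : ℝ, ∀ y, (fun i => eval y (f i)) ∈ K → ∀ i, ‖y i‖ ≤ B := by
  obtain ⟨P, h1, -, h2, h3⟩ := exists_cov f r hf hd
    (fun a : Option σ => a.elim D fun i => pderiv i (f i))
    (fun a => by cases a; exacts [hD, hd _]) (X : σ → MvPolynomial σ ℂ)
  refine ⟨P, h1, fun y hy => ⟨h2 y hy none, fun i => h2 y hy (some i)⟩, fun K hK hne => ?_⟩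
  obtain ⟨B, hB⟩ := h3 K hK hne
  exact ⟨B, fun y hy i => by simpa using hB y hy i⟩

/-- the preimage of a compact subset of `{P ≠ 0}` is compact -/
theorem isCompact_preimage [Finite σ] {f : σ → MvPolynomial σ ℂ} {K : Set (σ → ℂ)}
    (hK : IsCompact K) {B : ℝ} (hB : ∀ y, (fun i => eval y (f i)) ∈ K → ∀ i, ‖y i‖ ≤ B) :
    IsCompact {y : σ → ℂ | (fun i => eval y (f i)) ∈ K} := by
  have := Fintype.ofFinite σ
  refine Metric.isCompact_of_isClosed_isBounded ?_ ?_
  · exact hK.isClosed.preimage (continuous_pi fun i => continuous_eval (f i))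
  · refine (Metric.isBounded_closedBall (x := (0 : σ → ℂ)) (r := |B|)).subset fun y hy => ?_
    rw [mem_closedBall_zero_iff, pi_norm_le_iff_of_nonneg (abs_nonneg B)]
    exact fun i => (hB y hy i).trans (le_abs_self B)

/-- both orders of the tower on `Fin N` -/
theorem tri_of_le {N : ℕ} {f : Fin N → MvPolynomial (Fin N) ℂ}
    (h : ∀ i, ((f i).vars : Set (Fin N)) ⊆ {j | j ≤ i}) : Tri f (fun i => (i : ℕ)) := by
  intro i j hj
  have h0 : j ≤ i := h i hj
  rcases h0.lt_or_eq with h1 | h1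
  · exact Or.inr h1
  · exact Or.inl h1

theorem tri_of_ge {N : ℕ} {f : Fin N → MvPolynomial (Fin N) ℂ}
    (h : ∀ i, ((f i).vars : Set (Fin N)) ⊆ {j | i ≤ j}) : Tri f (fun i => N - (i : ℕ)) := by
  intro i j hj
  have h0 : i ≤ j := h i hj
  rcases h0.lt_or_eq with h1 | h1
  · right
    have := j.2
    have : (i : ℕ) < j := h1
    show N - (j : ℕ) < N - (i : ℕ)
    omega
  · exact Or.inl h1.symm

end

end Crest.Agent.R281.Tcov_311
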