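import Mathlib

/-!
# R281 (S0424), DIV 3/4: TRI-COV (helper282), algebraic part

`f : σ → k[y]` triangular (`j ∈ vars (f i)` implies `j = i` or `r j < r i`) with `∂_i f_i ≠ 0`:
every polynomial is algebraic over `k[f]`.
-/

set_option autoImplicit false

open MvPolynomial

namespace Crest.Agent.R281.Tcv_282

variable {σ : Type*} {k : Type*} [Field k]

/-- triangular tuple: `f i` depends on `y i` and on variables of smaller rank; `∂_i f_i ≠ 0` -/
structure Tri (r : σ → ℕ) (f : σ → MvPolynomial σ k) : Prop where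
  tri : ∀ i, ∀ j ∈ (f i).vars, j = i ∨ r j < r i
  ne : ∀ i, pderiv i (f i) ≠ 0

/-- chain rule for the derivative in `T` of `q(g)`. -/
lemma derivative_aeval [Fintype σ] {A : Type*} [CommRing A] [Algebra k A]
    (g : σ → Polynomial A) (q : MvPolynomial σ k) :
    Polynomial.derivative (aeval g q) =
      ∑ j, aeval g (pderiv j q) * Polynomial.derivative (g j) := by
  classical
  induction q using MvPolynomial.induction_on with
  | C a =>
    simp [Polynomial.algebraMap_apply]
  | add p q hp hq =>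
    simp only [map_add, hp, hq, add_mul, Finset.sum_add_distrib]
  | mul_X p n hp =>
    simp only [map_mul, aeval_X, Polynomial.derivative_mul, hp, Derivation.leibniz, smul_eq_mul,
      pderiv_X, map_add, add_mul, Finset.sum_add_distrib]
    rw [add_comm]
    congr 1
    · rw [Finset.sum_eq_single n]
      · simp
      · intro j _ hj
        simp [hj.symm]
      · simp
    · rw [Finset.sum_mul]
      refine Finset.sum_congr rfl fun j _ => ?_
      ring

lemma vars_pderiv_subset' {i : σ} {q : MvPolynomial σ k} : (pderiv i q).vars ⊆ q.vars := by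
  intro j hj
  obtain ⟨m, hm, hjm⟩ := (mem_vars_iff_mem_support j).mp hj
  refine (mem_vars_iff_mem_support j).mpr ⟨m + Finsupp.single i 1, ?_, ?_⟩
  · rw [mem_support_iff] at hm ⊢
    intro h0
    rw [coeff_pderiv, h0, zero_mul] at hm
    exact hm rfl
  · rw [Finsupp.mem_support_iff] at hjm ⊢
    simp only [Finsupp.coe_add, Pi.add_apply]
    omega

/-- `X i` is algebraic over the algebra generated by the `X j` of smaller rank and the `f j`. -/
lemma isAlgebraic_step [Fintype σ] {r : σ → ℕ} {f : σ → MvPolynomial σ k} (h : Tri r f) (i : σ) :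
    IsAlgebraic (Algebra.adjoin k ({q | ∃ j, r j < r i ∧ X j = q} ∪ Set.range f))
      (X i : MvPolynomial σ k) := by
  classical
  set s : Set (MvPolynomial σ k) := {q | ∃ j, r j < r i ∧ X j = q} ∪ Set.range f with hs
  let A := Algebra.adjoin k s
  have hXj : ∀ j, r j < r i → (X j : MvPolynomial σ k) ∈ A := fun j hj =>
    Algebra.subset_adjoin (Or.inl ⟨j, hj, rfl⟩)
  have hfi : f i ∈ A := Algebra.subset_adjoin (Or.inr ⟨i, rfl⟩)
  let g : σ → Polynomial A := fun j =>
    if hj : r j < r i then Polynomial.C ⟨X j, hXj j hj⟩ else Polynomial.X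
  have hev : ∀ q : MvPolynomial σ k, (∀ j ∈ q.vars, j = i ∨ r j < r i) →
      Polynomial.aeval (X i : MvPolynomial σ k) (aeval g q) = q := by
    intro q hq
    have h1 : Polynomial.aeval (X i : MvPolynomial σ k) (aeval g q) =
        aeval (fun j => Polynomial.aeval (X i : MvPolynomial σ k) (g j)) q :=
      MvPolynomial.comp_aeval_apply (f := g)
        ((Polynomial.aeval (X i : MvPolynomial σ k) :
          Polynomial A →ₐ[A] MvPolynomial σ k).restrictScalars k) q
    rw [h1]
    conv_rhs => rw [← MvPolynomial.aeval_X_left_apply q]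
    refine MvPolynomial.eval₂Hom_congr' rfl ?_ rfl
    intro j hj _
    by_cases hji : r j < r i
    · simp only [g, dif_pos hji, Polynomial.aeval_C]
      rfl
    · have : j = i := (hq j hj).resolve_right hji
      subst this
      simp only [g, dif_neg hji, Polynomial.aeval_X]
  refine ⟨aeval g (f i) - Polynomial.C ⟨f i, hfi⟩, ?_, ?_⟩
  · intro h0
    have h1 : Polynomial.derivative (aeval g (f i)) = 0 := by
      have := congrArg Polynomial.derivative h0
      simpa using this
    rw [derivative_aeval, Finset.sum_eq_single i] at h1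
    · have h2 : Polynomial.derivative (g i) = 1 := by
        simp [g]
      rw [h2, mul_one] at h1
      have h3 := hev (pderiv i (f i)) (fun j hj => h.tri i j (by
        by_contra hn
        have h4 : pderiv i (f i) ≠ 0 := h.ne i
        exact hn (vars_pderiv_subset' hj)))
      rw [h1, map_zero] at h3
      exact h.ne i h3.symm
    · intro j _ hj
      by_cases hjv : j ∈ (f i).vars
      · have hlt : r j < r i := (h.tri i j hjv).resolve_left hj
        simp [g, dif_pos hlt]
      · rw [pderiv_eq_zero_of_notMem_vars hjv]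
        simp
    · simp
  · rw [map_sub, hev (f i) (h.tri i), Polynomial.aeval_C]
    exact sub_self _

/-- every variable is algebraic over `k[f]` -/
lemma isAlgebraic_X [Fintype σ] {r : σ → ℕ} {f : σ → MvPolynomial σ k} (h : Tri r f) (i : σ) :
    IsAlgebraic (Algebra.adjoin k (Set.range f)) (X i : MvPolynomial σ k) := by
  suffices H : ∀ n : ℕ, ∀ i, r i = n →
      IsAlgebraic (Algebra.adjoin k (Set.range f)) (X i : MvPolynomial σ k) from H _ i rfl
  intro n
  induction n using Nat.strong_induction_on with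
  | _ n ih =>
    intro i hi
    refine IsAlgebraic.adjoin_of_forall_isAlgebraic (s := {q | ∃ j, r j < r i ∧ X j = q} ∪
      Set.range f) ?_ (isAlgebraic_step h i)
    rintro x ⟨hx | hx, hx'⟩
    · obtain ⟨j, hj, rfl⟩ := hx
      exact ih (r j) (hi ▸ hj) j rfl
    · exact absurd hx hx'

/-- **every polynomial is algebraic over `k[f]`** -/
theorem isAlgebraic [Fintype σ] {r : σ → ℕ} {f : σ → MvPolynomial σ k} (h : Tri r f)
    (g : MvPolynomial σ k) : IsAlgebraic (Algebra.adjoin k (Set.range f)) g := by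
  induction g using MvPolynomial.induction_on with
  | C a =>
    exact isAlgebraic_algebraMap (⟨C a, Subalgebra.algebraMap_mem _ a⟩ :
      Algebra.adjoin k (Set.range f))
  | add p q hp hq => exact hp.add hq
  | mul_X p n hp => exact hp.mul (isAlgebraic_X h n)

lemma exists_aeval {f : σ → MvPolynomial σ k} {x : MvPolynomial σ k}
    (hx : x ∈ Algebra.adjoin k (Set.range f)) : ∃ q : MvPolynomial σ k, aeval f q = x := by
  rw [Algebra.adjoin_range_eq_range_aeval] at hx
  exact hx

/-- relation with nonzero LEADING coefficient: `∑_{j ≤ n} a_j(f) g^j = 0`, `1 ≤ n`, `a_n ≠ 0`. -/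
theorem exists_lead {f : σ → MvPolynomial σ k} {g : MvPolynomial σ k}
    (h : IsAlgebraic (Algebra.adjoin k (Set.range f)) g) :
    ∃ (n : ℕ) (a : ℕ → MvPolynomial σ k), 1 ≤ n ∧ aeval f (a n) ≠ 0 ∧
      ∑ j ∈ Finset.range (n + 1), aeval f (a j) * g ^ j = 0 := by
  obtain ⟨p, hp0, hp⟩ := h
  have hmem : ∀ x : Algebra.adjoin k (Set.range f), ∃ q : MvPolynomial σ k,
      aeval f q = (x : MvPolynomial σ k) := fun x => exists_aeval x.2
  choose! q hq using hmem
  refine ⟨p.natDegree, fun j => q (p.coeff j), ?_, ?_, ?_⟩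
  · by_contra hn
    have h0 : p.natDegree = 0 := by omega
    rw [Polynomial.eq_C_of_natDegree_eq_zero h0, Polynomial.aeval_C] at hp
    have h1 : p.coeff 0 = 0 := by
      apply Subtype.ext
      exact hp
    apply hp0
    rw [Polynomial.eq_C_of_natDegree_eq_zero h0, h1, Polynomial.C_0]
  · simp only [hq]
    intro h0
    apply hp0
    have : p.coeff p.natDegree = 0 := Subtype.ext h0
    exact Polynomial.leadingCoeff_eq_zero.mp this
  · rw [Polynomial.aeval_eq_sum_range] at hp
    rw [← hp]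
    refine Finset.sum_congr rfl fun j _ => ?_
    rw [hq, Algebra.smul_def]
    rfl

/-- relation with nonzero CONSTANT coefficient: `b(f) = g * q`, `b ≠ 0`. -/
theorem exists_const {f : σ → MvPolynomial σ k} {g : MvPolynomial σ k} (hg : g ≠ 0)
    (h : IsAlgebraic (Algebra.adjoin k (Set.range f)) g) :
    ∃ b q : MvPolynomial σ k, aeval f b ≠ 0 ∧ aeval f b = g * q := by
  obtain ⟨p, hp0, hp⟩ := h.exists_nonzero_coeff_and_aeval_eq_zero
    (mem_nonZeroDivisors_of_ne_zero hg)
  obtain ⟨b, hb⟩ := exists_aeval (p.coeff 0).2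
  have h2 : Polynomial.aeval g p = (p.coeff 0 : MvPolynomial σ k) +
      g * Polynomial.aeval g p.divX := by
    conv_lhs => rw [← Polynomial.divX_mul_X_add p]
    rw [map_add, map_mul, Polynomial.aeval_X, Polynomial.aeval_C, add_comm, mul_comm]
    rfl
  refine ⟨b, - Polynomial.aeval g p.divX, ?_, ?_⟩
  · intro h0
    apply hp0
    apply Subtype.ext
    exact hb.symm.trans h0
  · have h3 : aeval f b = (p.coeff 0 : MvPolynomial σ k) := hb
    rw [h3]
    have h4 : (p.coeff 0 : MvPolynomial σ k) = - (g * Polynomial.aeval g p.divX) := by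
      rw [hp] at h2
      exact eq_neg_of_add_eq_zero_left h2.symm
    rw [h4]
    ring

/-! ### over `ℂ` -/

section Cpx

variable {f : σ → MvPolynomial σ ℂ}

/-- the value of the tuple -/
noncomputable def ev (f : σ → MvPolynomial σ ℂ) (y : σ → ℂ) : σ → ℂ := fun i => eval y (f i)

lemma eval_aeval (f : σ → MvPolynomial σ ℂ) (q : MvPolynomial σ ℂ) (y : σ → ℂ) :
    eval y (aeval f q) = eval (ev f y) q := by
  induction q using MvPolynomial.induction_on with
  | C a => simp
  | add p q hp hq => simp only [map_add, hp, hq]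
  | mul_X p n hp => simp only [map_mul, hp, aeval_X, eval_X]; rfl

lemma ne_zero_of_aeval {q : MvPolynomial σ ℂ} (h : aeval f q ≠ 0) : q ≠ 0 := by
  rintro rfl
  exact h (map_zero _)

/-- a nonzero `g` does not vanish over `{P ≠ 0}` -/
theorem exists_ne {g : MvPolynomial σ ℂ} (hg : g ≠ 0)
    (h : IsAlgebraic (Algebra.adjoin ℂ (Set.range f)) g) :
    ∃ P : MvPolynomial σ ℂ, P ≠ 0 ∧ ∀ y, eval (ev f y) P ≠ 0 → eval y g ≠ 0 := by
  obtain ⟨b, q, hb, he⟩ := exists_const hg h
  refine ⟨b, ne_zero_of_aeval hb, fun y hy h0 => hy ?_⟩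
  rw [← eval_aeval, he, map_mul, h0, zero_mul]

/-- elementary root bound -/
lemma root_bound {n : ℕ} (hn : 1 ≤ n) {a : ℕ → ℂ} {z : ℂ} {δ M : ℝ} (hδ : 0 < δ)
    (hM : ∀ j ≤ n, ‖a j‖ ≤ M) (hl : δ ≤ ‖a n‖)
    (h0 : ∑ j ∈ Finset.range (n + 1), a j * z ^ j = 0) : ‖z‖ ≤ 1 + n * M / δ := by
  have hM0 : 0 ≤ M := (norm_nonneg _).trans (hM 0 (Nat.zero_le _))
  rcases le_or_gt ‖z‖ 1 with h1 | h1
  · have : 0 ≤ n * M / δ := by positivity
    linarith
  rw [Finset.sum_range_succ] at h0
  have h2 : a n * z ^ n = - ∑ j ∈ Finset.range n, a j * z ^ j :=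
    eq_neg_of_add_eq_zero_right h0
  have h3 : ‖∑ j ∈ Finset.range n, a j * z ^ j‖ ≤ n * (M * ‖z‖ ^ (n - 1)) := by
    refine (norm_sum_le _ _).trans ?_
    have : ∀ j ∈ Finset.range n, ‖a j * z ^ j‖ ≤ M * ‖z‖ ^ (n - 1) := by
      intro j hj
      have hj' := Finset.mem_range.mp hj
      rw [norm_mul, norm_pow]
      refine mul_le_mul (hM j hj'.le) (pow_le_pow_right₀ h1.le (by omega)) (by positivity) hM0
    refine (Finset.sum_le_sum this).trans ?_
    simp
  have h4 : δ * ‖z‖ ^ n ≤ n * (M * ‖z‖ ^ (n - 1)) := by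
    calc δ * ‖z‖ ^ n ≤ ‖a n‖ * ‖z‖ ^ n := by gcongr
      _ = ‖a n * z ^ n‖ := by rw [norm_mul, norm_pow]
      _ ≤ _ := by rw [h2, norm_neg]; exact h3
  have h5 : ‖z‖ ^ n = ‖z‖ ^ (n - 1) * ‖z‖ := by
    rw [← pow_succ]; congr 1; omega
  have hp : 0 < ‖z‖ ^ (n - 1) := by positivity
  have h6 : δ * ‖z‖ ≤ n * M := by
    rw [h5] at h4
    have : ‖z‖ ^ (n - 1) * (δ * ‖z‖) ≤ ‖z‖ ^ (n - 1) * (n * M) := by linarith
    exact le_of_mul_le_mul_left this hp
  have h7 : ‖z‖ ≤ n * M / δ := by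
    rw [le_div_iff₀ hδ]; linarith
  linarith

/-- every `g` is bounded over the compact subsets of `{P ≠ 0}` -/
theorem exists_bound [Finite σ] (g : MvPolynomial σ ℂ)
    (h : IsAlgebraic (Algebra.adjoin ℂ (Set.range f)) g) :
    ∃ P : MvPolynomial σ ℂ, P ≠ 0 ∧ ∀ K : Set (σ → ℂ), IsCompact K → (∀ w ∈ K, eval w P ≠ 0) →
      ∃ B : ℝ, ∀ y, ev f y ∈ K → ‖eval y g‖ ≤ B := by
  have := Fintype.ofFinite σ
  obtain ⟨n, a, hn, hl, hsum⟩ := exists_lead h
  refine ⟨a n, ne_zero_of_aeval hl, fun K hK hKP => ?_⟩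
  rcases K.eq_empty_or_nonempty with rfl | hne
  · exact ⟨0, fun y hy => absurd hy (Set.notMem_empty _)⟩
  have hc : ∀ q : MvPolynomial σ ℂ, ContinuousOn (fun w => ‖eval w q‖) K := fun q =>
    (MvPolynomial.continuous_eval q).norm.continuousOn
  obtain ⟨w0, hw0, hmin⟩ := hK.exists_isMinOn hne (hc (a n))
  have hδ : 0 < ‖eval w0 (a n)‖ := norm_pos_iff.mpr (hKP w0 hw0)
  have hM : ∀ j, ∃ M : ℝ, ∀ w ∈ K, ‖eval w (a j)‖ ≤ M := by
    intro j
    obtain ⟨w1, hw1, hmax⟩ := hK.exists_isMaxOn hne (hc (a j))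
    exact ⟨_, fun w hw => hmax hw⟩
  choose M hM using hM
  refine ⟨1 + n * (∑ j ∈ Finset.range (n + 1), |M j|) / ‖eval w0 (a n)‖, fun y hy => ?_⟩
  refine root_bound (a := fun j => eval (ev f y) (a j)) hn hδ ?_ (hmin hy) ?_
  · intro j hj
    calc ‖eval (ev f y) (a j)‖ ≤ M j := hM j _ hy
      _ ≤ |M j| := le_abs_self _
      _ ≤ _ := Finset.single_le_sum (f := fun j => |M j|) (fun _ _ => abs_nonneg _)
        (Finset.mem_range.mpr (by omega))
  · have := congrArg (eval y) hsum
    simpa only [map_sum, map_mul, map_pow, eval_aeval, map_zero] using this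

/-- finitely many `g`'s bounded, finitely many nonzero `D`'s without zeros -/
theorem exists_all [Finite σ] (hf : ∀ g : MvPolynomial σ ℂ, IsAlgebraic (Algebra.adjoin ℂ (Set.range f)) g)
    (G D : Finset (MvPolynomial σ ℂ)) (hD : ∀ q ∈ D, q ≠ 0) :
    ∃ P : MvPolynomial σ ℂ, P ≠ 0 ∧
      (∀ y, eval (ev f y) P ≠ 0 → ∀ q ∈ D, eval y q ≠ 0) ∧
      ∀ K : Set (σ → ℂ), IsCompact K → (∀ w ∈ K, eval w P ≠ 0) →
        ∃ B : ℝ, ∀ y, ev f y ∈ K → ∀ g ∈ G, ‖eval y g‖ ≤ B := by
  classical
  have h1 : ∀ g : MvPolynomial σ ℂ, ∃ P : MvPolynomial σ ℂ, P ≠ 0 ∧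
      (g ≠ 0 → ∀ y, eval (ev f y) P ≠ 0 → eval y g ≠ 0) := by
    intro g
    by_cases hg : g = 0
    · exact ⟨1, one_ne_zero, fun h => absurd hg h⟩
    · obtain ⟨P, hP, h⟩ := exists_ne hg (hf g)
      exact ⟨P, hP, fun _ => h⟩
  choose P1 hP1 h1 using h1
  choose P2 hP2 h2 using fun g => exists_bound g (hf g)
  refine ⟨(∏ q ∈ D, P1 q) * ∏ g ∈ G, P2 g,
    mul_ne_zero (Finset.prod_ne_zero_iff.mpr fun q _ => hP1 q)
      (Finset.prod_ne_zero_iff.mpr fun q _ => hP2 q), ?_, ?_⟩
  · intro y hy q hq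
    rw [map_mul, map_prod, map_prod] at hy
    have := Finset.prod_ne_zero_iff.mp (left_ne_zero_of_mul hy) q hq
    exact h1 q (hD q hq) y this
  · intro K hK hKP
    have h3 : ∀ g ∈ G, ∃ B : ℝ, ∀ y, ev f y ∈ K → ‖eval y g‖ ≤ B := by
      intro g hg
      refine h2 g K hK fun w hw => ?_
      have := hKP w hw
      rw [map_mul, map_prod, map_prod] at this
      exact Finset.prod_ne_zero_iff.mp (right_ne_zero_of_mul this) g hg
    choose! B hB using h3
    refine ⟨∑ g ∈ G, |B g|, fun y hy g hg => ?_⟩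
    exact (hB g hg y hy).trans ((le_abs_self _).trans
      (Finset.single_le_sum (f := fun g => |B g|) (fun _ _ => abs_nonneg _) hg))

/-- **TRI-COV** (the lemma of 14 #7474): for a triangular tuple and `D ≠ 0` there is `P ≠ 0` such
that over `{P ≠ 0}` `D` and all `∂_i f_i` have no zeros, and `y` is bounded over the compact
subsets of `{P ≠ 0}`. -/
theorem exists_cov [Fintype σ] {r : σ → ℕ} (h : Tri r f) {D : MvPolynomial σ ℂ} (hD : D ≠ 0) :
    ∃ P : MvPolynomial σ ℂ, P ≠ 0 ∧
      (∀ y, eval (ev f y) P ≠ 0 → eval y D ≠ 0 ∧ ∀ i, eval y (pderiv i (f i)) ≠ 0) ∧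
      ∀ K : Set (σ → ℂ), IsCompact K → (∀ w ∈ K, eval w P ≠ 0) →
        ∃ B : ℝ, ∀ y, ev f y ∈ K → ∀ i, ‖y i‖ ≤ B := by
  classical
  obtain ⟨P, hP, h1, h2⟩ := exists_all (isAlgebraic h) (Finset.univ.image X)
    (insert D (Finset.univ.image fun i => pderiv i (f i))) (by
      intro q hq
      rcases Finset.mem_insert.mp hq with rfl | hq
      · exact hD
      · obtain ⟨i, _, rfl⟩ := Finset.mem_image.mp hq
        exact h.ne i)
  refine ⟨P, hP, fun y hy => ⟨h1 y hy D (Finset.mem_insert_self _ _), fun i => h1 y hy _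
    (Finset.mem_insert_of_mem (Finset.mem_image_of_mem _ (Finset.mem_univ i)))⟩, ?_⟩
  intro K hK hKP
  obtain ⟨B, hB⟩ := h2 K hK hKP
  refine ⟨B, fun y hy i => ?_⟩
  simpa using hB y hy (X i) (Finset.mem_image_of_mem _ (Finset.mem_univ i))

/-- the set `{y | f y ∈ K}` is compact -/
theorem isCompact_preimage [Fintype σ] {K : Set (σ → ℂ)} (hK : IsCompact K)
    {B : ℝ} (hB : ∀ y, ev f y ∈ K → ∀ i, ‖y i‖ ≤ B) : IsCompact {y | ev f y ∈ K} := by
  have hc : Continuous (ev f) := continuous_pi fun i => MvPolynomial.continuous_eval (f i)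
  refine Metric.isCompact_of_isClosed_isBounded (hK.isClosed.preimage hc) ?_
  rw [isBounded_iff_forall_norm_le]
  refine ⟨max B 0, fun y hy => ?_⟩
  rw [pi_norm_le_iff_of_nonneg (le_max_right _ _)]
  exact fun i => (hB y hy i).trans (le_max_left _ _)

end Cpx

end Crest.Agent.R281.Tcv_282
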