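import Crest.Agent.R281.Yv5_900
import Crest.Agent.R281.HkR9_835
import Crest.Agent.R281.Nef2_252

/-!
# Row 281, YAU-VAR, leaf (L4) T-FORMULA (helper355)

* `kahT`  : the Kähler metric of `om + dd^c u0` at `p0` (the complex structure of `D p0` is `i`)
* `tSt`   : `TH b D u0 k0 T p0 → TSt b B D u0 k0 p0`, the derivative of the operator of the
            Monge-Ampère equation is `8` times the Laplacian
-/

set_option autoImplicit false
set_option maxSynthPendingDepth 3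
set_option linter.unusedSectionVars false

open Set Filter Topology Metric
open scoped ContDiff Matrix ComplexConjugate ComplexOrder

namespace Crest.Agent.R281.Tf_355

open Crest.Agent.R275.Geo Crest.Agent.R275.Core144 Crest.Agent.R275.EDR890
open Crest.Agent.R273.Defs_333 Crest.Agent.R273.Kah_333
open Crest.Agent.R273.YauDefs_635 Crest.Agent.R273.SchF_152 Crest.Agent.R273.SchG_152
open Crest.Agent.R273.SchH_152
open Crest.Agent.R260.ACM_580 Crest.Agent.R281.HkR_835 Crest.Agent.R281.NefO_476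
open Crest.Agent.R281.Nef_252 Crest.Agent.R281.Hjs_680 Crest.Agent.R281.Tt_476
open Crest.Agent.R281.Yv_900 Crest.Agent.R281.Uq_250

noncomputable section

variable {n : ℕ} {X : Type} [TopologicalSpace X] {A : Atl n X}

variable {ι : Type} [Fintype ι] [DecidableEq ι] {b : Module.Basis ι ℝ (Cn n)} (B : Cb A)
  {P : Type} [NormedAddCommGroup P] [NormedSpace ℝ P] {D : P → Dat (ofAtl A)} {u0 : X → ℝ}
  {k0 : ℝ} {T : Set P} {p0 : P}

/-- the form `om + dd^c u0` at `p0` -/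
def fT (h : TH b D u0 k0 T p0) : F2 (ofAtl A) := (D p0).om + ddc (D p0).J u0 h.sol.sm

theorem fT_11 (h : TH b D u0 k0 T p0) (i : A.ι) (z : Cn n) (hz : z ∈ (A.e i).target)
    (u v : Cn n) : (fT h).w i z (Complex.I • u) (Complex.I • v) = (fT h).w i z u v := by
  have h1 : T11 (D p0).J (fT h) := h.sol.t11.add (ddc_T11 h.sol.cx _ _)
  have h2 := h1 i z hz u v
  rwa [h.hJ i z hz u, h.hJ i z hz v] at h2

theorem fT_pos (h : TH b D u0 k0 T p0) : Pos (jA A) (fT h) := by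
  intro i z hz v hv
  have h1 := h.sol.pos i z hz v hv
  rw [h.hJ i z hz v] at h1
  exact h1

/-- the Kähler metric of `om + dd^c u0` -/
def kahT (h : TH b D u0 k0 T p0) : Kah A :=
  ((fT h).k11 (fT_11 h)).kah ((pos_f2 _).1 fun i z hz v hv => by
    rw [F2.k11_f2 (fT h) (fT_11 h) hz]
    exact fT_pos h i z hz v hv)

theorem kahT_w (h : TH b D u0 k0 T p0) {i : A.ι} {z : Cn n} (hz : z ∈ (A.e i).target)
    (u v : Cn n) : (fT h).w i z u v =
      (Complex.I * hb ((kahT h).g i ((A.e i).symm z)) u v).re := by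
  rw [← F2.k11_f2 (fT h) (fT_11 h) hz]
  exact K11.f2_w _ hz u v

theorem re_I_hb' (G : Matrix (Fin n) (Fin n) ℂ) (u v : Cn n) :
    (Complex.I * hb G u (Complex.I • v)).re = (hb G u v).re := by
  rw [hb_I_right]
  have : Complex.I * (-Complex.I * hb G u v) = hb G u v := by
    linear_combination (-hb G u v) * Complex.I_mul_I
  rw [this]

theorem bt_hb (h : TH b D u0 k0 T p0) {i : A.ι} {z : Cn n} (hz : z ∈ (A.e i).target)
    (u v : Cn n) : bt D u0 i p0 z u v = (hb ((kahT h).g i ((A.e i).symm z)) u v).re := by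
  rw [← re_I_hb', ← kahT_w h hz, ← h.hJ i z hz v]
  show _ = (D p0).om.w i z u ((D p0).J.J i z v) +
    (ddc (D p0).J u0 h.sol.sm).w i z u ((D p0).J.J i z v)
  rw [ddc_w (D p0).J u0 h.sol.sm (i := i) hz]
  rfl

/-- the part linear in the jet -/
theorem lin_hb (h : TH b D u0 k0 T p0) {i : A.ι} {z : Cn n} (hz : z ∈ (A.e i).target)
    {g : Cn n → ℝ} (hg : ContDiffAt ℝ 2 g z) (u v : Cn n) :
    c2 ((D p0).J.J i) u v z (fderiv ℝ (fderiv ℝ g) z) + c1 ((D p0).J.J i) u v z (fderiv ℝ g z) =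
      (hb ((4 : ℂ) • cH g z) u v).re := by
  have hJ0 : (D p0).J.J i =ᶠ[𝓝 z] fun _ => (iL : Cn n →L[ℝ] Cn n) := by
    filter_upwards [(A.e i).open_target.mem_nhds hz] with y hy
    ext1 v
    exact h.hJ i y hy v
  have h1 : ddcF g ((D p0).J.J i) z u ((D p0).J.J i z v) =
      ddcF g (fun _ => (iL : Cn n →L[ℝ] Cn n)) z u (Complex.I • v) := by
    unfold ddcF
    rw [hJ0.fderiv_eq, hJ0.eq_of_nhds]
    rfl
  rw [← Yv_900.ddcF_eq, h1, ddcF_iL hg, re_I_hb']

/-- the matrix of the operator along a line -/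
theorem MM_line (h : TH b D u0 k0 T p0) {i : A.ι} {z : Cn n} (hz : z ∈ (A.e i).target)
    {g : Cn n → ℝ} (hg : ContDiffAt ℝ 2 g z) (s : ℝ) :
    MM b D u0 i p0 z (s • fderiv ℝ g z) (s • fderiv ℝ (fderiv ℝ g) z) =
      RM b ((kahT h).g i ((A.e i).symm z)) + s • RM b ((4 : ℂ) • cH g z) := by
  ext a c
  show bt D u0 i p0 z (b a) (b c) + (c2 ((D p0).J.J i) (b a) (b c) z
      (s • fderiv ℝ (fderiv ℝ g) z) + c1 ((D p0).J.J i) (b a) (b c) z (s • fderiv ℝ g z)) =
    (hb ((kahT h).g i ((A.e i).symm z)) (b a) (b c)).re +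
      s * (hb ((4 : ℂ) • cH g z) (b a) (b c)).re
  rw [bt_hb h hz, map_smul, map_smul, ← lin_hb h hz hg, smul_eq_mul, smul_eq_mul, mul_add]

/-- the operator along a line -/
theorem GG_line (h : TH b D u0 k0 T p0) (w : SmE A) (k : B.κ) {z : Cn n} (hz : z ∈ KK B k)
    (s : ℝ) : Hol.fn (GG b B D u0 k0 p0 (s • jj B w) k) z =
      (RM b ((kahT h).g (B.i k) ((A.e (B.i k)).symm z)) +
        s • RM b ((4 : ℂ) • cH (inC A (B.i k) w) z)).det /
      (RM b ((kahT h).g (B.i k) ((A.e (B.i k)).symm z))).det := by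
  have hzt := KK_sub B k hz
  have hg : ContDiffAt ℝ 2 (inC A (B.i k) w) z :=
    ((SmE.cd w (B.i k)).contDiffAt ((A.e (B.i k)).open_target.mem_nhds hzt)).of_le
      ENat.LEInfty.out
  rw [fn_GG b B u0 k0 h.hT h.hD h.sol.sm h.hr k h.hp _ hz]
  have e1 : HF.fn ((s • jj B w) k).2.1 z = s • fderiv ℝ (inC A (B.i k) w) z := by
    rw [← fn_jj1 B w k hz]
    exact HF.fn_smul _ _ _
  have e2 : HF.fn ((s • jj B w) k).2.2 z = s • fderiv ℝ (fderiv ℝ (inC A (B.i k) w)) z := by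
    rw [← fn_jj2 B w k hz]
    exact HF.fn_smul _ _ _
  have e3 := MM_line h hzt hg 0
  rw [zero_smul, zero_smul, zero_smul, add_zero] at e3
  rw [e1, e2, MM_line h hzt hg, ← h.eq (B.i k) z hzt, e3, div_eq_mul_inv]

/-- **(L4) T-FORMULA** -/
theorem tSt (h : TH b D u0 k0 T p0) : TSt b B D u0 k0 p0 := by
  refine ⟨kahT h, fun w f hwf => ?_⟩
  have hd : DifferentiableAt ℝ (GG b B D u0 k0 p0) 0 := by
    have h1 : ContDiffOn ℝ ∞ (GG b B D u0 k0 p0) univ :=
      slice_sm (a := fun p x => GG b B D u0 k0 p x) u0 h.hT h.hD h.sol.sm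
        (contDiffOn_GG b B u0 k0 h.hT h.hD h.sol.sm h.hr) h.hp
    exact (h1.contDiffAt univ_mem).differentiableAt (by simp)
  have hl : HasDerivAt (fun s : ℝ => s • jj B w) (jj B w) 0 := by
    simpa using (hasDerivAt_id (0 : ℝ)).smul_const (jj B w)
  have h2 : HasDerivAt (fun s : ℝ => GG b B D u0 k0 p0 (s • jj B w))
      (fderiv ℝ (GG b B D u0 k0 p0) 0 (jj B w)) 0 := by
    have h3 : HasFDerivAt (GG b B D u0 k0 p0) (fderiv ℝ (GG b B D u0 k0 p0) 0)
        ((fun s : ℝ => s • jj B w) 0) := by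
      simpa using hd.hasFDerivAt
    exact h3.comp_hasDerivAt (0 : ℝ) hl
  funext k
  refine Hol.ext fun z hz => ?_
  have hzt := KK_sub B k hz
  have h4 : HasDerivAt (fun s : ℝ => Hol.fn (GG b B D u0 k0 p0 (s • jj B w) k) z)
      (Hol.fn (fderiv ℝ (GG b B D u0 k0 p0) 0 (jj B w) k) z) 0 :=
    ((Hol.valL z).comp (ContinuousLinearMap.proj (R := ℝ)
      (φ := fun k : B.κ => Hol (KK B k)) k)).hasFDerivAt.comp_hasDerivAt (0 : ℝ) h2
  have hG : ((kahT h).g (B.i k) ((A.e (B.i k)).symm z)).det ≠ 0 :=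
    ((kahT h).pos _ _ ((A.e (B.i k)).map_target hzt)).det_pos.ne'
  have h5 := (hasDerivAt_RM b hG ((4 : ℂ) • cH (inC A (B.i k) w) z)).congr_of_eventuallyEq
    (Eventually.of_forall fun s => GG_line B h w k hz s)
  rw [h4.unique h5, fn_hh B _ k hz]
  have h6 := hwf (B.i k) z hzt
  have h7 : (gi (kahT h) (B.i k) z * cH (inC A (B.i k) w) z).trace.re =
      (((kahT h).g (B.i k) ((A.e (B.i k)).symm z))⁻¹ * cH (inC A (B.i k) w) z).trace.re := rfl
  have h8 : inC A (B.i k) ((8 : ℝ) • f : SmE A) z = 8 * inC A (B.i k) f.1 z := rfl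
  rw [h8, ← h6, h7, Matrix.mul_smul, Matrix.trace_smul, smul_eq_mul, Complex.mul_re]
  norm_num
  ring

end

end Crest.Agent.R281.Tf_355
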