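import Crest.Agent.R281.Glob1_484
import Crest.Agent.R281.SIn_14
import Crest.Agent.R273.YauMax_635
import Crest.Agent.R273.VolInv_5

/-!
# R281 (S0424), DIV 4, THETA part 1 (helper484): the pointwise bound

* `flat` : `∂∂̄ log(|f₀|² + |f₁|² + ε e^φ) ≥ W W^* / q²`, `W = f₀ ∂f₁ - f₁ ∂f₀`
* `psi2 h s0 s1 ε = log(|s0|²_h + |s1|²_h + ε)`
* `theta2` : `cur h + ∂∂̄ psi2 ≥ (u₀u₁/(u₀+u₁+ε)²) η η^*`, `η = dlog(s1/s0)`
-/

set_option autoImplicit false
set_option linter.unusedSectionVars false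

open Set Filter Topology Complex MeasureTheory
open scoped ContDiff Matrix ComplexConjugate ComplexOrder

namespace Crest.Agent.R281.Th1_484

open Crest.Agent.R275 Crest.Agent.R275.Geo Crest.Agent.R275.Core144 Crest.Agent.R275.EDR890
open Crest.Agent.R273.Defs_333 Crest.Agent.R273.Hess_333 Crest.Agent.R273.HessB_333
open Crest.Agent.R273.HM_333 Crest.Agent.R273.Kah_333 Crest.Agent.R273.Vol_333
open Crest.Agent.R273.Vm_333
open Crest.Agent.R273.FIa0_597 Crest.Agent.R273.FIb0_597 Crest.Agent.R273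
open Crest.Agent.R273.FS_333 (sq wd_sq wd_sq' hess_sq contDiffAt_of_hol)
open Crest.Agent.R281.Glob1_484 Crest.Agent.R281.SIn_14

noncomputable section

variable {n : ℕ}

/-! ### linear algebra -/

/-- Lagrange identity for three vectors -/
theorem lag3 (f0 f1 : ℂ) (D0 D1 g : Fin n → ℂ) (E : ℝ) :
    ((‖f0‖ ^ 2 + ‖f1‖ ^ 2 + E : ℝ) : ℂ) • (Matrix.vecMulVec D0 (star D0) +
        Matrix.vecMulVec D1 (star D1) + (E : ℂ) • Matrix.vecMulVec g (star g)) -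
      Matrix.vecMulVec (conj f0 • D0 + conj f1 • D1 + (E : ℂ) • g)
        (star (conj f0 • D0 + conj f1 • D1 + (E : ℂ) • g)) =
    Matrix.vecMulVec (f0 • D1 - f1 • D0) (star (f0 • D1 - f1 • D0)) +
      ((E : ℂ) • Matrix.vecMulVec (D0 - f0 • g) (star (D0 - f0 • g)) +
      (E : ℂ) • Matrix.vecMulVec (D1 - f1 • g) (star (D1 - f1 • g))) := by
  have e0 : ((‖f0‖ ^ 2 : ℝ) : ℂ) = f0 * conj f0 := by
    rw [Complex.mul_conj, Complex.normSq_eq_norm_sq]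
  have e1 : ((‖f1‖ ^ 2 : ℝ) : ℂ) = f1 * conj f1 := by
    rw [Complex.mul_conj, Complex.normSq_eq_norm_sq]
  ext a b
  simp only [Matrix.sub_apply, Matrix.add_apply, Matrix.smul_apply, Matrix.vecMulVec_apply,
    Pi.add_apply, Pi.sub_apply, Pi.smul_apply, Pi.star_apply, RCLike.star_def, smul_eq_mul,
    map_add, map_sub, map_mul, Complex.conj_conj, Complex.conj_ofReal]
  rw [Complex.ofReal_add, Complex.ofReal_add, e0, e1]
  ring

theorem vmv_smul (c : ℂ) (v : Fin n → ℂ) :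
    Matrix.vecMulVec (c • v) (star (c • v)) =
      ((‖c‖ ^ 2 : ℝ) : ℂ) • Matrix.vecMulVec v (star v) := by
  have e0 : ((‖c‖ ^ 2 : ℝ) : ℂ) = c * conj c := by
    rw [Complex.mul_conj, Complex.normSq_eq_norm_sq]
  ext a b
  simp only [Matrix.smul_apply, Matrix.vecMulVec_apply, Pi.smul_apply, Pi.star_apply,
    RCLike.star_def, smul_eq_mul, map_mul, e0]
  ring

/-! ### the flat computation -/

/-- the vector `∂f` -/
def dv (f : Cn n → ℂ) (z : Cn n) : Fin n → ℂ := fun a => fderiv ℂ f z (EuclideanSpace.single a 1)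

section flat

variable {f0 f1 : Cn n → ℂ} {φ : Cn n → ℝ} {U : Set (Cn n)} {z : Cn n}

theorem sq2 (f0 f1 : Cn n → ℂ) :
    (FS_333.sq fun w => ![f0 w, f1 w]) = fun w => ‖f0 w‖ ^ 2 + ‖f1 w‖ ^ 2 := by
  funext w
  simp [FS_333.sq, Fin.sum_univ_two]

theorem hol2 (h0 : DifferentiableOn ℂ f0 U) (h1 : DifferentiableOn ℂ f1 U) :
    ∀ k, DifferentiableOn ℂ (fun w => (fun w => ![f0 w, f1 w]) w k) U := by
  intro k
  fin_cases k
  · exact h0
  · exact h1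

theorem hess2 (hU : IsOpen U) (h0 : DifferentiableOn ℂ f0 U) (h1 : DifferentiableOn ℂ f1 U)
    (hz : z ∈ U) : hess (fun w => ‖f0 w‖ ^ 2 + ‖f1 w‖ ^ 2) z =
      Matrix.vecMulVec (dv f0 z) (star (dv f0 z)) + Matrix.vecMulVec (dv f1 z) (star (dv f1 z)) := by
  rw [← sq2]
  ext a b
  rw [hess_sq hU (hol2 h0 h1) hz, Fin.sum_univ_two]
  rfl

theorem gr2 (hU : IsOpen U) (h0 : DifferentiableOn ℂ f0 U) (h1 : DifferentiableOn ℂ f1 U)
    (hz : z ∈ U) : gr (fun w => ‖f0 w‖ ^ 2 + ‖f1 w‖ ^ 2) z =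
      conj (f0 z) • dv f0 z + conj (f1 z) • dv f1 z := by
  rw [← sq2]
  funext a
  rw [gr, wd_sq' hU (hol2 h0 h1) hz, Fin.sum_univ_two]
  exact congrArg₂ (· + ·) (mul_comm _ _) (mul_comm _ _)

theorem sm2 (hU : IsOpen U) (h0 : DifferentiableOn ℂ f0 U) (h1 : DifferentiableOn ℂ f1 U)
    (hz : z ∈ U) : ContDiffAt ℝ ∞ (fun w => ‖f0 w‖ ^ 2 + ‖f1 w‖ ^ 2) z :=
  ((contDiffAt_of_hol hU h0 hz).norm_sq ℝ).add ((contDiffAt_of_hol hU h1 hz).norm_sq ℝ)

theorem gr_add' {u v : Cn n → ℝ} (hu : DifferentiableAt ℝ u z) (hv : DifferentiableAt ℝ v z) :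
    gr (fun w => u w + v w) z = gr u z + gr v z := by
  funext a
  have h1 : cu (fun w => u w + v w) = fun w => cu u w + cu v w := by
    funext w; simp [cu]
  have hu' : DifferentiableAt ℝ (cu u) z := Complex.ofRealCLM.differentiableAt.comp z hu
  have hv' : DifferentiableAt ℝ (cu v) z := Complex.ofRealCLM.differentiableAt.comp z hv
  show wd (false, a) (cu fun w => u w + v w) z = wd (false, a) (cu u) z + wd (false, a) (cu v) z
  rw [h1, wd_add hu' hv']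

theorem flat (hU : IsOpen U) (h0 : DifferentiableOn ℂ f0 U) (h1 : DifferentiableOn ℂ f1 U)
    (hz : z ∈ U) (hφ : ContDiffAt ℝ ∞ φ z) (hp : (hess φ z).PosSemidef) {ε : ℝ} (hε : 0 < ε) :
    (hess (fun w => Real.log (‖f0 w‖ ^ 2 + ‖f1 w‖ ^ 2 + ε * Real.exp (φ w))) z -
      ((((‖f0 z‖ ^ 2 + ‖f1 z‖ ^ 2 + ε * Real.exp (φ z)) ^ 2)⁻¹ : ℝ) : ℂ) •
        Matrix.vecMulVec (f0 z • dv f1 z - f1 z • dv f0 z)
          (star (f0 z • dv f1 z - f1 z • dv f0 z))).PosSemidef := by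
  set E : ℝ := ε * Real.exp (φ z) with hE
  have hE0 : 0 < E := by positivity
  set q : ℝ := ‖f0 z‖ ^ 2 + ‖f1 z‖ ^ 2 + E with hq
  have hq0 : 0 < q := by positivity
  -- the third summand
  have hex : ContDiffAt ℝ ∞ (fun w => ε * Real.exp (φ w)) z := contDiffAt_const.mul hφ.exp
  have e1 : hess (fun w => ε * Real.exp (φ w)) z = (E : ℂ) • hess φ z +
      (E : ℂ) • Matrix.vecMulVec (gr φ z) (star (gr φ z)) := by
    have := hess_comp_mat (φ := fun s => ε * Real.exp s) (φ' := fun s => ε * Real.exp s)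
      (d2 := ε * Real.exp (φ z)) hφ
      (Eventually.of_forall fun s => (Real.hasDerivAt_exp s).const_mul ε)
      ((Real.hasDerivAt_exp _).const_mul ε)
    rw [this]
    rfl
  have e2 : gr (fun w => ε * Real.exp (φ w)) z = (E : ℂ) • gr φ z := by
    funext a
    exact wd_comp_real (φ := fun s => ε * Real.exp s) (false, a) (hφ.differentiableAt (by simp))
      ((Real.hasDerivAt_exp _).const_mul ε)
  have hs := sm2 hU h0 h1 hz
  have e3 : hess (fun w => ‖f0 w‖ ^ 2 + ‖f1 w‖ ^ 2 + ε * Real.exp (φ w)) z =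
      Matrix.vecMulVec (dv f0 z) (star (dv f0 z)) + Matrix.vecMulVec (dv f1 z) (star (dv f1 z)) +
        ((E : ℂ) • hess φ z + (E : ℂ) • Matrix.vecMulVec (gr φ z) (star (gr φ z))) := by
    rw [hess_add hs hex, hess2 hU h0 h1 hz, e1]
  have e4 : gr (fun w => ‖f0 w‖ ^ 2 + ‖f1 w‖ ^ 2 + ε * Real.exp (φ w)) z =
      conj (f0 z) • dv f0 z + conj (f1 z) • dv f1 z + (E : ℂ) • gr φ z := by
    rw [gr_add' (hs.differentiableAt (by simp)) (hex.differentiableAt (by simp)),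
      gr2 hU h0 h1 hz, e2]
  have hU' : ContDiffAt ℝ ∞ (fun w => ‖f0 w‖ ^ 2 + ‖f1 w‖ ^ 2 + ε * Real.exp (φ w)) z :=
    hs.add hex
  have h3 := hess_log_add_mat 0 hU' (by simpa using hq0)
  simp only [add_zero] at h3
  rw [h3, e3, e4]
  have h4 := lag3 (f0 z) (f1 z) (dv f0 z) (dv f1 z) (gr φ z) E
  set W := f0 z • dv f1 z - f1 z • dv f0 z with hW
  set S := Matrix.vecMulVec (dv f0 z) (star (dv f0 z)) +
    Matrix.vecMulVec (dv f1 z) (star (dv f1 z)) with hS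
  set V := conj (f0 z) • dv f0 z + conj (f1 z) • dv f1 z + (E : ℂ) • gr φ z with hV
  set R := (E : ℂ) • Matrix.vecMulVec (dv f0 z - f0 z • gr φ z) (star (dv f0 z - f0 z • gr φ z)) +
      (E : ℂ) • Matrix.vecMulVec (dv f1 z - f1 z • gr φ z) (star (dv f1 z - f1 z • gr φ z)) with hR
  have hRp : R.PosSemidef := by
    have hE' : (0 : ℂ) ≤ (E : ℂ) := by exact_mod_cast hE0.le
    exact ((Matrix.posSemidef_vecMulVec_self_star _).smul hE').add
      ((Matrix.posSemidef_vecMulVec_self_star _).smul hE')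
  have hqc : ((q : ℝ) : ℂ) ≠ 0 := by exact_mod_cast hq0.ne'
  have key : ((q⁻¹ : ℝ) • (S + ((E : ℂ) • hess φ z +
      (E : ℂ) • Matrix.vecMulVec (gr φ z) (star (gr φ z)))) -
      (((q ^ 2)⁻¹ : ℝ)) • Matrix.vecMulVec V (star V)) -
      ((((q ^ 2)⁻¹ : ℝ)) : ℂ) • Matrix.vecMulVec W (star W) =
      (((q ^ 2)⁻¹ : ℝ) : ℂ) • R + ((q⁻¹ * E : ℝ) : ℂ) • hess φ z := by
    have h5 : R = (q : ℂ) • (S + (E : ℂ) • Matrix.vecMulVec (gr φ z) (star (gr φ z))) -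
        Matrix.vecMulVec V (star V) - Matrix.vecMulVec W (star W) := by
      rw [hS, h4]
      abel
    rw [h5]
    have r1 : ∀ (t : ℝ) (X : Matrix (Fin n) (Fin n) ℂ), t • X = (t : ℂ) • X := fun t X => by
      ext a b; simp [Complex.real_smul]
    rw [r1, r1]
    simp only [smul_sub, smul_add, smul_smul]
    have r2 : (((q ^ 2)⁻¹ : ℝ) : ℂ) * (q : ℂ) = ((q⁻¹ : ℝ) : ℂ) := by
      push_cast
      field_simp
    simp only [← mul_assoc, r2, Complex.ofReal_mul]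
    abel
  have hgoal : (hess φ z).PosSemidef := hp
  change ((q⁻¹ : ℝ) • (S + ((E : ℂ) • hess φ z +
      (E : ℂ) • Matrix.vecMulVec (gr φ z) (star (gr φ z)))) -
      (((q ^ 2)⁻¹ : ℝ)) • Matrix.vecMulVec V (star V) -
      ((((q ^ 2)⁻¹ : ℝ)) : ℂ) • Matrix.vecMulVec W (star W)).PosSemidef
  rw [key]
  refine (hRp.smul ?_).add (hp.smul ?_)
  · have : 0 ≤ (q ^ 2)⁻¹ := by positivity
    exact_mod_cast this
  · have : 0 ≤ q⁻¹ * E := by positivity
    exact_mod_cast this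

end flat

/-! ### on the manifold -/

variable {M : Type} [TopologicalSpace M] {A : Atl n M} {L : LB A}

/-- `log(|s0|²_h + |s1|²_h + ε)` -/
def psi2 (h : HM L) (s0 s1 : A.ι → M → ℂ) (ε : ℝ) (x : M) : ℝ :=
  Real.log (nsM h s0 x + nsM h s1 x + ε)

theorem sm_psi2 (h : HM L) {s0 s1 : A.ι → M → ℂ} (h0 : IsHS L univ s0) (h1 : IsHS L univ s1)
    {ε : ℝ} (hε : 0 < ε) : A.Sm (psi2 h s0 s1 ε) := by
  intro i
  refine ContDiffOn.log (((sm_nsM h h0 i).add (sm_nsM h h1 i)).add contDiffOn_const) ?_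
  intro z _
  have h2 := nsM_nonneg h s0 ((A.e i).symm z)
  have h3 := nsM_nonneg h s1 ((A.e i).symm z)
  show nsM h s0 _ + nsM h s1 _ + ε ≠ 0
  positivity

/-- `∂s` in the chart `i` -/
def pdv (A : Atl n M) (i : A.ι) (s : A.ι → M → ℂ) (x : M) : Fin n → ℂ :=
  dv (fun z => s i ((A.e i).symm z)) (A.e i x)

theorem pdv_eq (i : A.ι) (s : A.ι → M → ℂ) (x : M) (a : Fin n) :
    pdv A i s x a = pd A i (s i) x a := rfl

theorem theta1 (h : HM L) {s0 s1 : A.ι → M → ℂ} (h0 : IsHS L univ s0) (h1 : IsHS L univ s1)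
    {ε : ℝ} (hε : 0 < ε) {i : A.ι} {x : M} (hx : x ∈ (A.e i).source)
    (hc : (cur h i x).PosSemidef) :
    (cur h i x + hsf A (psi2 h s0 s1 ε) i x -
      ((((‖s0 i x‖ ^ 2 + ‖s1 i x‖ ^ 2 + ε * (h.w i x)⁻¹) ^ 2)⁻¹ : ℝ) : ℂ) •
        Matrix.vecMulVec (s0 i x • pdv A i s1 x - s1 i x • pdv A i s0 x)
          (star (s0 i x • pdv A i s1 x - s1 i x • pdv A i s0 x))).PosSemidef := by
  have hz := (A.e i).map_source hx
  have hd : ∀ s : A.ι → M → ℂ, IsHS L univ s →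
      DifferentiableOn ℂ (fun z => s i ((A.e i).symm z)) (A.e i).target := by
    intro s hs
    have h1 : DifferentiableOn ℂ (fun z => s i ((A.e i).symm z))
      ((A.e i).target ∩ (A.e i).symm ⁻¹' univ) := hs.hol i
    rwa [preimage_univ, inter_univ] at h1
  have hw : ContDiffAt ℝ ∞ (h.wt i) (A.e i x) :=
    (wt_smooth h i).contDiffAt ((A.e i).open_target.mem_nhds hz)
  have hcur : hess (h.wt i) (A.e i x) = cur h i x := rfl
  have hexp : ∀ z ∈ (A.e i).target, Real.exp (h.wt i z) = (h.w i ((A.e i).symm z))⁻¹ := by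
    intro z hz
    have h3 := h.pos i _ ((A.e i).map_target hz)
    rw [HM.wt, Real.exp_neg, Real.exp_log h3]
  have hf := flat (f0 := fun z => s0 i ((A.e i).symm z)) (f1 := fun z => s1 i ((A.e i).symm z))
    (φ := h.wt i) (A.e i).open_target (hd s0 h0) (hd s1 h1) hz hw (by rw [hcur]; exact hc) hε
  have e1 : (fun z => psi2 h s0 s1 ε ((A.e i).symm z)) =ᶠ[𝓝 (A.e i x)]
      fun z => Real.log (‖s0 i ((A.e i).symm z)‖ ^ 2 + ‖s1 i ((A.e i).symm z)‖ ^ 2 +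
        ε * Real.exp (h.wt i z)) - h.wt i z := by
    filter_upwards [(A.e i).open_target.mem_nhds hz] with z hz2
    have hz3 := (A.e i).map_target hz2
    have h3 := h.pos i _ hz3
    rw [psi2, nsM_eq h h0 hz3, nsM_eq h h1 hz3, nsq, nsq, hexp z hz2, HM.wt, sub_neg_eq_add,
      ← Real.log_mul _ h3.ne']
    · congr 1
      field_simp
    · positivity
  have e2 : hsf A (psi2 h s0 s1 ε) i x = hess (fun z => Real.log (‖s0 i ((A.e i).symm z)‖ ^ 2 +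
      ‖s1 i ((A.e i).symm z)‖ ^ 2 + ε * Real.exp (h.wt i z))) (A.e i x) - cur h i x := by
    show hess (fun z => psi2 h s0 s1 ε ((A.e i).symm z)) (A.e i x) = _
    rw [hess_congr e1, hess_sub _ hw]
    · rfl
    · have hs := sm2 (A.e i).open_target (hd s0 h0) (hd s1 h1) hz
      refine (hs.add (contDiffAt_const.mul hw.exp)).log ?_
      positivity
  rw [e2, add_sub_cancel]
  have e3 : (A.e i).symm (A.e i x) = x := (A.e i).left_inv hx
  rw [hexp _ hz] at hf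
  simp only [e3] at hf
  exact hf

/-- `dlog(s1/s0)` -/
def etaV (A : Atl n M) (i : A.ι) (s0 s1 : A.ι → M → ℂ) (x : M) : Fin n → ℂ :=
  fun a => pd A i (s1 i) x a / s1 i x - pd A i (s0 i) x a / s0 i x

theorem theta2 (h : HM L) {s0 s1 : A.ι → M → ℂ} (h0 : IsHS L univ s0) (h1 : IsHS L univ s1)
    {ε : ℝ} (hε : 0 < ε) {i : A.ι} {x : M} (hx : x ∈ (A.e i).source)
    (hc : (cur h i x).PosSemidef) (n0 : s0 i x ≠ 0) (n1 : s1 i x ≠ 0) :
    (cur h i x + hsf A (psi2 h s0 s1 ε) i x -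
      ((nsM h s0 x * nsM h s1 x / (nsM h s0 x + nsM h s1 x + ε) ^ 2 : ℝ) : ℂ) •
        Matrix.vecMulVec (etaV A i s0 s1 x) (star (etaV A i s0 s1 x))).PosSemidef := by
  have h2 := theta1 h h0 h1 hε hx hc
  have h3 : s0 i x • pdv A i s1 x - s1 i x • pdv A i s0 x =
      (s0 i x * s1 i x) • etaV A i s0 s1 x := by
    funext a
    simp only [Pi.sub_apply, Pi.smul_apply, smul_eq_mul, etaV, pdv_eq]
    field_simp
  rw [h3, vmv_smul, smul_smul, ← Complex.ofReal_mul] at h2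
  have h4 := h.pos i _ hx
  have h5 : ((‖s0 i x‖ ^ 2 + ‖s1 i x‖ ^ 2 + ε * (h.w i x)⁻¹) ^ 2)⁻¹ * ‖s0 i x * s1 i x‖ ^ 2 =
      nsM h s0 x * nsM h s1 x / (nsM h s0 x + nsM h s1 x + ε) ^ 2 := by
    rw [nsM_eq h h0 hx, nsM_eq h h1 hx, nsq, nsq, norm_mul]
    have h6 : ‖s0 i x‖ ^ 2 * h.w i x + ‖s1 i x‖ ^ 2 * h.w i x + ε =
        (‖s0 i x‖ ^ 2 + ‖s1 i x‖ ^ 2 + ε * (h.w i x)⁻¹) * h.w i x := by
      field_simp
    rw [h6, mul_pow]
    have h7 : 0 < ‖s0 i x‖ ^ 2 + ‖s1 i x‖ ^ 2 + ε * (h.w i x)⁻¹ := by positivity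
    field_simp
  rwa [h5] at h2

/-- `cur h + ∂∂̄ psi2 ≥ 0` -/
theorem theta0 (h : HM L) {s0 s1 : A.ι → M → ℂ} (h0 : IsHS L univ s0) (h1 : IsHS L univ s1)
    {ε : ℝ} (hε : 0 < ε) {i : A.ι} {x : M} (hx : x ∈ (A.e i).source)
    (hc : (cur h i x).PosSemidef) :
    (cur h i x + hsf A (psi2 h s0 s1 ε) i x).PosSemidef := by
  have h2 := theta1 h h0 h1 hε hx hc
  have h3 : (0 : ℂ) ≤
      ((((‖s0 i x‖ ^ 2 + ‖s1 i x‖ ^ 2 + ε * (h.w i x)⁻¹) ^ 2)⁻¹ : ℝ) : ℂ) := by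
    exact_mod_cast inv_nonneg.2 (sq_nonneg _)
  have h4 := h2.add ((Matrix.posSemidef_vecMulVec_self_star
    (s0 i x • pdv A i s1 x - s1 i x • pdv A i s0 x)).smul h3)
  rwa [sub_add_cancel] at h4

end

end Crest.Agent.R281.Th1_484
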