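import Mathlib

/-!
# Row 281, THETA (helper799), part 1: test functions, the functional `S w v χ = ∫ w L_v χ`

`dv v f` : directional derivative; `L v χ = (D²χ(v,v) + D²χ(iv,iv))/4 = ∂_v ∂̄_v χ`;
`exists_cut` : cut-off functions; integration by parts; `L¹` limits of functions with
`L_v w_k ≥ -ε_k |v|²` (positivity), vanishing of the mixed forms, translation invariance.
-/

set_option autoImplicit false
set_option linter.unusedSectionVars false
set_option linter.style.longLine false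

open MeasureTheory Set Filter Metric Topology Complex
open scoped ContDiff Manifold

namespace Crest.Agent.R281.Th_799

noncomputable section

section Basic

variable {E : Type*} [NormedAddCommGroup E] [NormedSpace ℂ E]

/-- directional derivative -/
def dv (v : E) (f : E → ℝ) : E → ℝ := fun p => fderiv ℝ f p v

/-- `∂_v ∂̄_v` -/
def L (v : E) (f : E → ℝ) : E → ℝ := fun p => (dv v (dv v f) p + dv (I • v) (dv (I • v) f) p) / 4

/-- smooth with compact support -/
structure TF (f : E → ℝ) : Prop where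
  sm : ContDiff ℝ ∞ f
  cs : HasCompactSupport f

theorem contDiff_dv {f : E → ℝ} (hf : ContDiff ℝ ∞ f) (v : E) : ContDiff ℝ ∞ (dv v f) :=
  (hf.fderiv_right (m := ∞) (by simp)).clm_apply contDiff_const

theorem TF.dv {f : E → ℝ} (hf : TF f) (v : E) : TF (dv v f) :=
  ⟨contDiff_dv hf.sm v, hf.cs.fderiv_apply (𝕜 := ℝ) v⟩

theorem dv_zero (f : E → ℝ) : dv 0 f = 0 := by
  funext p; simp [dv]

theorem dv_add_left (u v : E) (f : E → ℝ) : dv (u + v) f = dv u f + dv v f := by
  funext p; simp [dv]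

theorem dv_smul_left (c : ℝ) (v : E) (f : E → ℝ) : dv (c • v) f = c • dv v f := by
  funext p; simp [dv]

theorem dv_neg_left (v : E) (f : E → ℝ) : dv (-v) f = - dv v f := by
  funext p; simp [dv]

theorem dv_add {f g : E → ℝ} (hf : ContDiff ℝ ∞ f) (hg : ContDiff ℝ ∞ g) (v : E) :
    dv v (f + g) = dv v f + dv v g := by
  funext p
  have h1 := (hf.differentiable (by simp)) p
  have h2 := (hg.differentiable (by simp)) p
  simp only [dv, Pi.add_apply]
  rw [fderiv_add h1 h2]
  rfl

theorem dv_smul {f : E → ℝ} (hf : ContDiff ℝ ∞ f) (c : ℝ) (v : E) :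
    dv v (c • f) = c • dv v f := by
  funext p
  have h1 := (hf.differentiable (by simp)) p
  simp only [dv, Pi.smul_apply]
  rw [fderiv_const_smul h1]
  rfl

theorem dv_neg {f : E → ℝ} (v : E) : dv v (-f) = - dv v f := by
  funext p
  simp only [dv, Pi.neg_apply]
  rw [fderiv_neg]
  rfl

theorem dv_comm {f : E → ℝ} (hf : ContDiff ℝ ∞ f) (u v : E) : dv u (dv v f) = dv v (dv u f) := by
  funext p
  have h1 : ∀ w z : E, dv w (dv z f) p = fderiv ℝ (fderiv ℝ f) p w z := by
    intro w z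
    have h2 : DifferentiableAt ℝ (fderiv ℝ f) p :=
      ((hf.fderiv_right (m := ∞) (by simp)).differentiable (by simp)) p
    have h3 : HasFDerivAt (fun q => fderiv ℝ f q z)
        ((ContinuousLinearMap.apply ℝ ℝ z).comp (fderiv ℝ (fderiv ℝ f) p)) p :=
      (ContinuousLinearMap.apply ℝ ℝ z).hasFDerivAt.comp p h2.hasFDerivAt
    show fderiv ℝ (fun q => fderiv ℝ f q z) p w = _
    rw [h3.fderiv]
    rfl
  rw [h1, h1]
  have h3 : IsSymmSndFDerivAt ℝ f p := hf.contDiffAt.isSymmSndFDerivAt (by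
    simp only [minSmoothness_of_isRCLikeNormedField]
    norm_cast)
  exact h3 u v

theorem contDiff_L {f : E → ℝ} (hf : ContDiff ℝ ∞ f) (v : E) : ContDiff ℝ ∞ (L v f) := by
  have h : ∀ w : E, ContDiff ℝ ∞ (dv w (dv w f)) := fun w => contDiff_dv (contDiff_dv hf w) w
  exact ((h v).add (h (I • v))).div_const 4

theorem TF.L {f : E → ℝ} (hf : TF f) (v : E) : TF (L v f) := by
  refine ⟨contDiff_L hf.sm v, ?_⟩
  have h1 : ∀ w : E, HasCompactSupport (Th_799.dv w (Th_799.dv w f)) := fun w => ((hf.dv w).dv w).cs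
  have h2 := (h1 v).add (h1 (I • v))
  refine h2.mono ?_
  intro p hp
  simp only [Th_799.L, Function.mem_support, ne_eq, div_eq_zero_iff, Pi.add_apply] at hp ⊢
  intro h
  exact hp (Or.inl h)

theorem TF.add {f g : E → ℝ} (hf : TF f) (hg : TF g) : TF (f + g) := ⟨hf.sm.add hg.sm, hf.cs.add hg.cs⟩

theorem TF.smul {f : E → ℝ} (hf : TF f) (c : ℝ) : TF (c • f) :=
  ⟨hf.sm.const_smul c, hf.cs.mono fun p hp h => hp (by simp [h])⟩

theorem TF.neg {f : E → ℝ} (hf : TF f) : TF (-f) :=
  ⟨hf.sm.neg, hf.cs.mono fun p hp h => hp (by simp [h])⟩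

theorem TF.bdd {f : E → ℝ} (hf : TF f) : ∃ C, 0 ≤ C ∧ ∀ p, |f p| ≤ C := by
  obtain ⟨C, hC⟩ := hf.cs.exists_bound_of_continuous hf.sm.continuous
  exact ⟨C, (norm_nonneg _).trans (hC 0), hC⟩

theorem tsupport_dv_subset (v : E) (f : E → ℝ) : tsupport (dv v f) ⊆ tsupport f :=
  tsupport_fderiv_apply_subset ℝ v

theorem tsupport_L_subset (v : E) (f : E → ℝ) : tsupport (L v f) ⊆ tsupport f := by
  refine closure_minimal ?_ (isClosed_tsupport f)
  intro p hp
  by_contra h
  apply hp
  have h1 : ∀ w : E, dv w (dv w f) p = 0 := fun w =>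
    image_eq_zero_of_notMem_tsupport fun h' =>
      h (tsupport_dv_subset w f (tsupport_dv_subset w (dv w f) h'))
  simp [L, h1]

/-- cut-off functions -/
theorem exists_cut [FiniteDimensional ℝ E] {K U : Set E} (hK : IsCompact K) (hU : IsOpen U)
    (hKU : K ⊆ U) : ∃ η : E → ℝ, TF η ∧ tsupport η ⊆ U ∧ (∀ p, 0 ≤ η p) ∧ (∀ p, η p ≤ 1) ∧
      ∃ V : Set E, IsOpen V ∧ K ⊆ V ∧ ∀ p ∈ V, η p = 1 := by
  have : ProperSpace E := FiniteDimensional.proper ℝ E
  obtain ⟨K', hK', hKK', hK'U⟩ := exists_compact_between hK hU hKU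
  obtain ⟨K'', hK'', hKK'', hK''K'⟩ := exists_compact_between hK isOpen_interior hKK'
  obtain ⟨f, hf0, hf1, hf⟩ := exists_contMDiffMap_zero_one_of_isClosed (n := ⊤) (𝓘(ℝ, E))
    (s := (interior K')ᶜ) (t := K'') isOpen_interior.isClosed_compl hK''.isClosed
    (by
      rw [Set.disjoint_left]
      intro x hx hx'
      exact hx (hK''K' hx'))
  have hs : tsupport (f : E → ℝ) ⊆ K' := by
    refine (closure_mono ?_).trans (closure_minimal interior_subset hK'.isClosed)
    intro p hp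
    by_contra h
    exact hp (hf0 h)
  refine ⟨f, ⟨f.contMDiff.contDiff, HasCompactSupport.of_support_subset_isCompact hK'
    ((subset_tsupport _).trans hs)⟩, hs.trans hK'U, fun p => (hf p).1, fun p => (hf p).2,
    interior K'', isOpen_interior, hKK'', fun p hp => hf1 (interior_subset hp)⟩

end Basic

section Int

variable {E : Type*} [NormedAddCommGroup E] [NormedSpace ℂ E] [FiniteDimensional ℝ E]
  [MeasurableSpace E] [BorelSpace E] {μ : Measure E} [μ.IsAddHaarMeasure]

theorem TF.integrable {f : E → ℝ} (hf : TF f) : Integrable f μ :=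
  hf.sm.continuous.integrable_of_hasCompactSupport hf.cs

theorem integrable_mul_right {w f : E → ℝ} (hw : Integrable w μ) (hf : TF f) :
    Integrable (fun p => w p * f p) μ := by
  obtain ⟨C, -, hC⟩ := hf.bdd
  exact hw.mul_bdd hf.sm.continuous.aestronglyMeasurable (Eventually.of_forall hC)

theorem int_dv {w f : E → ℝ} (hw : ContDiff ℝ ∞ w) (hf : TF f) (v : E) :
    ∫ p, w p * dv v f p ∂μ = - ∫ p, dv v w p * f p ∂μ := by
  have hc : ∀ {g h : E → ℝ}, Continuous g → TF h → Integrable (fun p => g p * h p) μ := by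
    intro g h hg hh
    refine (hg.mul hh.sm.continuous).integrable_of_hasCompactSupport ?_
    exact hh.cs.mul_left
  exact integral_mul_fderiv_eq_neg_fderiv_mul_of_integrable
    (hc (contDiff_dv hw v).continuous hf) (hc hw.continuous (hf.dv v)) (hc hw.continuous hf)
    (fun p _ => (hw.differentiable (by simp)) p) (fun p _ => (hf.sm.differentiable (by simp)) p)

/-- integration by parts -/
theorem int_L {w f : E → ℝ} (hw : ContDiff ℝ ∞ w) (hf : TF f) (v : E) :
    ∫ p, w p * L v f p ∂μ = ∫ p, L v w p * f p ∂μ := by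
  have h1 : ∀ u : E, ∫ p, w p * dv u (dv u f) p ∂μ = ∫ p, dv u (dv u w) p * f p ∂μ := by
    intro u
    rw [int_dv hw (hf.dv u) u, int_dv (contDiff_dv hw u) hf u, neg_neg]
  have hc : ∀ {g h : E → ℝ}, Continuous g → TF h → Integrable (fun p => g p * h p) μ := by
    intro g h hg hh
    exact (hg.mul hh.sm.continuous).integrable_of_hasCompactSupport hh.cs.mul_left
  have h2 : ∀ u, Integrable (fun p => w p * dv u (dv u f) p) μ := fun u =>
    hc hw.continuous ((hf.dv u).dv u)
  have h3 : ∀ u, Integrable (fun p => dv u (dv u w) p * f p) μ := fun u =>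
    hc (contDiff_dv (contDiff_dv hw u) u).continuous hf
  have h4 : (fun p => w p * L v f p) = fun p => (w p * dv v (dv v f) p +
      w p * dv (I • v) (dv (I • v) f) p) / 4 := by
    funext p; simp only [L]; ring
  have h5 : (fun p => L v w p * f p) = fun p => (dv v (dv v w) p * f p +
      dv (I • v) (dv (I • v) w) p * f p) / 4 := by
    funext p; simp only [L]; ring
  rw [h4, h5, integral_div, integral_div, integral_add (h2 _) (h2 _),
    integral_add (h3 _) (h3 _), h1, h1]

/-! ### limits -/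

/-- `w_k → w` in `L¹` -/
def L1 (μ : Measure E) (w : ℕ → E → ℝ) (w₀ : E → ℝ) : Prop :=
  (∀ k, Integrable (w k) μ) ∧ Integrable w₀ μ ∧ Tendsto (fun k => ∫ p, |w k p - w₀ p| ∂μ) atTop (𝓝 0)

theorem abs_sub_le {w w₀ f : E → ℝ} (hw : Integrable w μ) (h0 : Integrable w₀ μ) (hf : TF f)
    {C : ℝ} (hC : ∀ p, |f p| ≤ C) :
    |(∫ p, w p * f p ∂μ) - ∫ p, w₀ p * f p ∂μ| ≤ C * ∫ p, |w p - w₀ p| ∂μ := by
  rw [← integral_sub (integrable_mul_right hw hf) (integrable_mul_right h0 hf)]
  refine (abs_integral_le_integral_abs).trans ?_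
  rw [← integral_const_mul]
  refine integral_mono_of_nonneg (Eventually.of_forall fun p => abs_nonneg _)
    ((hw.sub h0).abs.const_mul C) (Eventually.of_forall fun p => ?_)
  show |w p * f p - w₀ p * f p| ≤ C * |w p - w₀ p|
  rw [← sub_mul, abs_mul, mul_comm]
  exact mul_le_mul_of_nonneg_right (hC p) (abs_nonneg _)

theorem L1.tendsto {w : ℕ → E → ℝ} {w₀ : E → ℝ} (h : L1 μ w w₀) {f : E → ℝ} (hf : TF f) :
    Tendsto (fun k => ∫ p, w k p * f p ∂μ) atTop (𝓝 (∫ p, w₀ p * f p ∂μ)) := by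
  obtain ⟨C, -, hC⟩ := hf.bdd
  rw [tendsto_iff_dist_tendsto_zero]
  have h1 : Tendsto (fun k => C * ∫ p, |w k p - w₀ p| ∂μ) atTop (𝓝 0) := by
    simpa using h.2.2.const_mul C
  refine squeeze_zero (fun _ => dist_nonneg) (fun k => ?_) h1
  rw [Real.dist_eq]
  exact abs_sub_le (h.1 k) h.2.1 hf hC

/-- the mixed form -/
def Q (μ : Measure E) (w : E → ℝ) (u v : E) (f : E → ℝ) : ℝ :=
  ∫ p, w p * ((dv u (dv v f) p + dv (I • u) (dv (I • v) f) p) / 4) ∂μ

theorem TF.mix {f : E → ℝ} (hf : TF f) (u v : E) :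
    TF (fun p => (Th_799.dv u (Th_799.dv v f) p + Th_799.dv (I • u) (Th_799.dv (I • v) f) p) / 4) := by
  have h1 := (((hf.dv v).dv u).add ((hf.dv (I • v)).dv (I • u))).smul (1 / 4 : ℝ)
  have h2 : (fun p => (Th_799.dv u (Th_799.dv v f) p + Th_799.dv (I • u) (Th_799.dv (I • v) f) p) / 4) =
      (1 / 4 : ℝ) • (Th_799.dv u (Th_799.dv v f) + Th_799.dv (I • u) (Th_799.dv (I • v) f)) := by
    funext p; simp only [Pi.smul_apply, Pi.add_apply, smul_eq_mul]; ring
  rw [h2]; exact h1

theorem Q_self (w : E → ℝ) (v : E) (f : E → ℝ) : Q μ w v v f = ∫ p, w p * L v f p ∂μ := rfl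

theorem Q_comm (w : E → ℝ) (u v : E) {f : E → ℝ} (hf : TF f) : Q μ w u v f = Q μ w v u f := by
  unfold Q
  congr 1
  funext p
  rw [dv_comm hf.sm u v, dv_comm hf.sm (I • u) (I • v)]

theorem Q_add_left {w : E → ℝ} (hw : Integrable w μ) (u u' v : E) {f : E → ℝ} (hf : TF f) :
    Q μ w (u + u') v f = Q μ w u v f + Q μ w u' v f := by
  unfold Q
  rw [← integral_add (integrable_mul_right hw (hf.mix u v)) (integrable_mul_right hw (hf.mix u' v))]
  congr 1
  funext p
  rw [smul_add, dv_add_left, dv_add_left]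
  simp only [Pi.add_apply]
  ring

theorem Q_smul_left (w : E → ℝ) (c : ℝ) (u v : E) (f : E → ℝ) :
    Q μ w (c • u) v f = c * Q μ w u v f := by
  unfold Q
  rw [← integral_const_mul]
  congr 1
  funext p
  rw [smul_comm I c u, dv_smul_left, dv_smul_left]
  simp only [Pi.smul_apply, smul_eq_mul]
  ring

theorem Q_add {w : E → ℝ} (hw : Integrable w μ) (u v : E) {f g : E → ℝ} (hf : TF f) (hg : TF g) :
    Q μ w u v (f + g) = Q μ w u v f + Q μ w u v g := by
  unfold Q
  rw [← integral_add (integrable_mul_right hw (hf.mix u v)) (integrable_mul_right hw (hg.mix u v))]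
  congr 1
  funext p
  rw [dv_add hf.sm hg.sm, dv_add hf.sm hg.sm, dv_add (contDiff_dv hf.sm v) (contDiff_dv hg.sm v),
    dv_add (contDiff_dv hf.sm _) (contDiff_dv hg.sm _)]
  simp only [Pi.add_apply]
  ring

theorem Q_smul (w : E → ℝ) (c : ℝ) (u v : E) {f : E → ℝ} (hf : TF f) :
    Q μ w u v (c • f) = c * Q μ w u v f := by
  unfold Q
  rw [← integral_const_mul]
  congr 1
  funext p
  rw [dv_smul hf.sm, dv_smul hf.sm, dv_smul (contDiff_dv hf.sm v), dv_smul (contDiff_dv hf.sm _)]
  simp only [Pi.smul_apply, smul_eq_mul]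
  ring

theorem Q_sum {w : E → ℝ} (hw : Integrable w μ) (u v : E) (s : ℝ) {f : E → ℝ} (hf : TF f) :
    Q μ w (u + s • v) (u + s • v) f = Q μ w u u f + s * (2 * Q μ w u v f) + s ^ 2 * Q μ w v v f := by
  rw [Q_add_left hw _ _ _ hf, Q_smul_left, Q_comm w u _ hf, Q_comm w v _ hf, Q_add_left hw _ _ _ hf,
    Q_add_left hw _ _ _ hf, Q_smul_left, Q_smul_left, Q_comm w v u hf]
  ring

/-- a linear function of a real variable which is bounded below is constant -/
theorem lin_zero {a b : ℝ} (h : ∀ s : ℝ, 0 ≤ a + s * b) : b = 0 := by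
  by_contra hb
  have h1 := h (-(a + 1) / b)
  have h2 : -(a + 1) / b * b = -(a + 1) := by field_simp
  rw [h2] at h1
  linarith

end Int

end

end Crest.Agent.R281.Th_799
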