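import Crest.Agent.R281.Th1_484
import Crest.Agent.R273.FId0_597

/-!
# R281 (S0424), DIV 4, THETA part 2 (helper484): the averaged potential and its mass

Over the fields `hol`, `curv` of `SIn_14.SDat`:
* `Hm s i x = ∑_j η_j η_j^*` (`η_j = dlog F_j`)
* `dR K s c x = det(K + c Hm)/det K`
* **`mass_le`** : `∫_R det(K + c₁ Hm)/det K ≤ (1+m)^N vol`, `c₁ = 1/(8 N (2 C0 + 3))`, for every set
  `R` on which no `s_j` vanishes and all `|log|F_j|| ≤ C0 L` (`L ≥ 1`)
-/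

set_option autoImplicit false
set_option linter.unusedSectionVars false

open Set Filter Topology Complex MeasureTheory
open scoped ContDiff Matrix ComplexConjugate ComplexOrder ENNReal

namespace Crest.Agent.R281.Th2_484

open Crest.Agent.R275 Crest.Agent.R275.Geo Crest.Agent.R275.Core144 Crest.Agent.R275.EDR890
open Crest.Agent.R273.Defs_333 Crest.Agent.R273.Hess_333 Crest.Agent.R273.HessB_333
open Crest.Agent.R273.HM_333 Crest.Agent.R273.Kah_333 Crest.Agent.R273.Vol_333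
open Crest.Agent.R273.Vm_333 Crest.Agent.R273.Green_5 Crest.Agent.R273.VolInv_5
open Crest.Agent.R273.StV_37 Crest.Agent.R273.Piola_5
open Crest.Agent.R273.FIa0_597 Crest.Agent.R273.FIb0_597 Crest.Agent.R273.FId0_597
open Crest.Agent.R273
open Crest.Agent.R281.Glob1_484 Crest.Agent.R281.SIn_14 Crest.Agent.R281.Th1_484

noncomputable section

variable {N : ℕ} {M : Type} [TopologicalSpace M] {A : Atl N M} {Lb : LB A}

/-! ### the sections `e^k s_0` -/

/-- `e^k s_0` -/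
def sk (s : Fin (N + 1) → A.ι → M → ℂ) (k : ℤ) : A.ι → M → ℂ := ((Real.exp k : ℝ) : ℂ) • s 0

variable {s : Fin (N + 1) → A.ι → M → ℂ}

theorem isHS_sk (hs : ∀ j, IsHS Lb univ (s j)) (k : ℤ) : IsHS Lb univ (sk s k) :=
  (hs 0).smul _

theorem nsM_sk (h : HM Lb) (s : Fin (N + 1) → A.ι → M → ℂ) (k : ℤ) (x : M) :
    nsM h (sk s k) x = Real.exp (2 * k) * nsM h (s 0) x := by
  unfold nsM nsq sk
  rw [Pi.smul_apply, Pi.smul_apply, smul_eq_mul, norm_mul, Complex.norm_real, Real.norm_eq_abs,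
    abs_of_pos (Real.exp_pos _), mul_pow, ← Real.exp_nat_mul]
  push_cast
  ring

theorem sk_ne {k : ℤ} {i : A.ι} {x : M} (h0 : s 0 i x ≠ 0) : sk s k i x ≠ 0 := by
  unfold sk
  rw [Pi.smul_apply, Pi.smul_apply, smul_eq_mul]
  exact mul_ne_zero (by exact_mod_cast (Real.exp_pos _).ne') h0

theorem etaV_sk (hs : ∀ j, IsHS Lb univ (s j)) (k : ℤ) (j : Fin N) {i : A.ι} {x : M}
    (hx : x ∈ (A.e i).source) : etaV A i (sk s k) (s j.succ) x = fun a => eta s i x j a := by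
  funext a
  have hd : DifferentiableAt ℂ (fun z => s 0 i ((A.e i).symm z)) (A.e i x) :=
    (hol_at (hs 0) i ((A.e i).map_source hx)).self_of_nhds
  have h1 : pd A i (sk s k i) x a = ((Real.exp k : ℝ) : ℂ) * pd A i (s 0 i) x a := by
    unfold pd sk
    have h2 : (fun z => (((Real.exp k : ℝ) : ℂ) • s 0) i ((A.e i).symm z)) =
        fun z => ((Real.exp k : ℝ) : ℂ) * s 0 i ((A.e i).symm z) := rfl
    rw [h2, fderiv_const_mul hd]
    rfl
  have h3 : ((Real.exp k : ℝ) : ℂ) ≠ 0 := by exact_mod_cast (Real.exp_pos _).ne'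
  show pd A i (s j.succ i) x a / s j.succ i x - pd A i (sk s k i) x a / sk s k i x = _
  rw [h1]
  have h4 : sk s k i x = ((Real.exp k : ℝ) : ℂ) * s 0 i x := rfl
  rw [h4, mul_div_mul_left _ _ h3]
  rfl

/-- `∑_j η_j η_j^*` -/
def Hm (s : Fin (N + 1) → A.ι → M → ℂ) (i : A.ι) (x : M) : Matrix (Fin N) (Fin N) ℂ :=
  ∑ j : Fin N, Matrix.vecMulVec (eta s i x j) (star (eta s i x j))

theorem Hm_eq (s : Fin (N + 1) → A.ι → M → ℂ) (i : A.ι) (x : M) :
    Hm s i x = (eta s i x)ᵀ * (eta s i x).map conj := by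
  ext a b
  rw [Hm, Matrix.sum_apply, Matrix.mul_apply]
  rfl

theorem Hm_psd (s : Fin (N + 1) → A.ι → M → ℂ) (i : A.ι) (x : M) : (Hm s i x).PosSemidef :=
  Matrix.posSemidef_sum _ fun _ _ => Matrix.posSemidef_vecMulVec_self_star _

/-- `det(K + c Hm)/det K` -/
def dR (K : Kah A) (s : Fin (N + 1) → A.ι → M → ℂ) (c : ℝ) (x : M) : ℝ :=
  (K.g (ch A x) x + (c : ℂ) • Hm s (ch A x) x).det.re / (K.g (ch A x) x).det.re

/-! ### the averaged potential -/

/-- integers of absolute value at most `a` -/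
def Ks (a : ℕ) : Finset ℤ := Finset.Icc (-(a : ℤ)) a

theorem card_Ks (a : ℕ) : (Ks a).card = 2 * a + 1 := by
  rw [Ks, Int.card_Icc]
  omega

def Psi (h : HM Lb) (s : Fin (N + 1) → A.ι → M → ℂ) (a : ℕ) (ε : ℝ) (x : M) : ℝ :=
  ∑ p ∈ (Finset.univ : Finset (Fin N)) ×ˢ Ks a, psi2 h (sk s p.2) (s p.1.succ) ε x

theorem sm_sum {ι : Type*} (T : Finset ι) {u : ι → M → ℝ} (hu : ∀ t ∈ T, A.Sm (u t)) :
    A.Sm (fun x => ∑ t ∈ T, u t x) := fun i => ContDiffOn.sum fun t ht => hu t ht i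

theorem hsf_sum {ι : Type*} (T : Finset ι) {u : ι → M → ℝ} (hu : ∀ t ∈ T, A.Sm (u t)) {i : A.ι}
    {x : M} (hx : x ∈ (A.e i).source) :
    hsf A (fun y => ∑ t ∈ T, u t y) i x = ∑ t ∈ T, hsf A (u t) i x := by
  classical
  induction T using Finset.induction_on with
  | empty =>
    simp only [Finset.sum_empty]
    show hess (fun _ => (0 : ℝ)) (A.e i x) = 0
    ext a b
    rw [hess_apply]
    have h4 : wd (true, b) (cu fun _ : Cn N => (0 : ℝ)) = fun _ => 0 := by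
      funext w
      exact wd_const _ _ _
    rw [h4, wd_const]
    rfl
  | insert t T ht ih =>
    simp only [Finset.sum_insert ht]
    have h1 := hess_add (sm_at (hu t (by simp)) hx)
      (sm_at (sm_sum T fun t' h' => hu t' (by simp [h'])) hx)
    rw [← ih fun t' h' => hu t' (by simp [h'])]
    exact h1

theorem sm_Psi (h : HM Lb) (hs : ∀ j, IsHS Lb univ (s j)) (a : ℕ) {ε : ℝ} (hε : 0 < ε) :
    A.Sm (Psi h s a ε) := sm_sum _ fun p _ => sm_psi2 h (isHS_sk hs _) (hs _) hε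

/-- the form `K + β ∑ (cur h + ∂∂̄ ψ_{jk})` -/
def Tm (K : Kah A) (h : HM Lb) (s : Fin (N + 1) → A.ι → M → ℂ) (a : ℕ) (β ε : ℝ) (i : A.ι)
    (x : M) : Matrix (Fin N) (Fin N) ℂ :=
  K.g i x + (β : ℂ) • ∑ p ∈ (Finset.univ : Finset (Fin N)) ×ˢ Ks a,
    (cur h i x + hsf A (psi2 h (sk s p.2) (s p.1.succ) ε) i x)

theorem Tm_eq (K : Kah A) (h : HM Lb) (hs : ∀ j, IsHS Lb univ (s j)) {t : ℝ}
    (hc : ∀ i, ∀ x ∈ (A.e i).source, cur h i x = (t : ℂ) • K.g i x) (a : ℕ) (β : ℝ) {ε : ℝ}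
    (hε : 0 < ε) {i : A.ι} {x : M} (hx : x ∈ (A.e i).source) :
    Tm K h s a β ε i x = ((1 + β * (N * (2 * a + 1)) * t : ℝ) : ℂ) • K.g i x +
      hsf A (fun y => β * Psi h s a ε y) i x := by
  have h1 : hsf A (fun y => β * Psi h s a ε y) i x = (β : ℂ) • hsf A (Psi h s a ε) i x :=
    hess_const_mul β (sm_at (sm_Psi h hs a hε) hx)
  have h2 : hsf A (Psi h s a ε) i x = ∑ p ∈ (Finset.univ : Finset (Fin N)) ×ˢ Ks a,
      hsf A (psi2 h (sk s p.2) (s p.1.succ) ε) i x :=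
    hsf_sum _ (fun p _ => sm_psi2 h (isHS_sk hs _) (hs _) hε) hx
  rw [Tm, Finset.sum_add_distrib, Finset.sum_const, Finset.card_product, Finset.card_univ,
    Fintype.card_fin, card_Ks, h1, h2, hc i x hx, smul_add, ← add_assoc]
  congr 1
  rw [← Nat.cast_smul_eq_nsmul ℂ, smul_smul, smul_smul]
  conv_lhs => rw [← one_smul ℂ (K.g i x)]
  rw [smul_smul, ← add_smul]
  congr 1
  push_cast
  ring

theorem Tm_pd (K : Kah A) (h : HM Lb) (hs : ∀ j, IsHS Lb univ (s j))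
    {β : ℝ} (hβ : 0 ≤ β) (a : ℕ) {ε : ℝ} (hε : 0 < ε) {i : A.ι} {x : M}
    (hx : x ∈ (A.e i).source) (hc : (cur h i x).PosSemidef) : (Tm K h s a β ε i x).PosDef := by
  have hβ' : (0 : ℂ) ≤ (β : ℂ) := by exact_mod_cast hβ
  exact (K.pos i x hx).add_posSemidef ((Matrix.posSemidef_sum _ fun p _ =>
    theta0 h (isHS_sk hs _) (hs _) hε hx hc).smul hβ')

/-- lower bound: one `k_j` for every `j` -/
theorem Tm_ge (K : Kah A) (h : HM Lb) (hs : ∀ j, IsHS Lb univ (s j))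
    {β : ℝ} (hβ : 0 ≤ β) (a : ℕ) {ε : ℝ} (hε : 0 < ε) {i : A.ι} {x : M}
    (hx : x ∈ (A.e i).source) (hc : (cur h i x).PosSemidef) (hn : ∀ j, s j i x ≠ 0)
    (kk : Fin N → ℤ) (hk : ∀ j, kk j ∈ Ks a) :
    (K.g i x + (β : ℂ) • ∑ j : Fin N, ((nsM h (sk s (kk j)) x * nsM h (s j.succ) x /
      (nsM h (sk s (kk j)) x + nsM h (s j.succ) x + ε) ^ 2 : ℝ) : ℂ) •
        Matrix.vecMulVec (eta s i x j) (star (eta s i x j))).det.re ≤
      (Tm K h s a β ε i x).det.re := by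
  have hβ' : (0 : ℂ) ≤ (β : ℂ) := by exact_mod_cast hβ
  set Q : Fin N → Matrix (Fin N) (Fin N) ℂ := fun j => ((nsM h (sk s (kk j)) x *
    nsM h (s j.succ) x / (nsM h (sk s (kk j)) x + nsM h (s j.succ) x + ε) ^ 2 : ℝ) : ℂ) •
        Matrix.vecMulVec (eta s i x j) (star (eta s i x j)) with hQ
  set G : Fin N × ℤ → Matrix (Fin N) (Fin N) ℂ := fun p =>
    cur h i x + hsf A (psi2 h (sk s p.2) (s p.1.succ) ε) i x with hG
  have hG0 : ∀ p, (G p).PosSemidef := fun p => theta0 h (isHS_sk hs _) (hs _) hε hx hc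
  have hQ0 : ∀ j, (Q j).PosSemidef := by
    intro j
    refine (Matrix.posSemidef_vecMulVec_self_star _).smul ?_
    have h1 := nsM_nonneg h (sk s (kk j)) x
    have h2 := nsM_nonneg h (s j.succ) x
    exact_mod_cast (by positivity : 0 ≤ nsM h (sk s (kk j)) x * nsM h (s j.succ) x /
      (nsM h (sk s (kk j)) x + nsM h (s j.succ) x + ε) ^ 2)
  have hGQ : ∀ j, (G (j, kk j) - Q j).PosSemidef := by
    intro j
    have h1 := theta2 h (isHS_sk hs (kk j)) (hs j.succ) hε hx hc (sk_ne (hn 0)) (hn _)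
    rw [etaV_sk hs (kk j) j hx] at h1
    exact h1
  have h1 : (∑ p ∈ (Finset.univ : Finset (Fin N)) ×ˢ Ks a, G p - ∑ j, Q j).PosSemidef := by
    rw [Finset.sum_product, ← Finset.sum_sub_distrib]
    refine Matrix.posSemidef_sum _ fun j _ => ?_
    rw [← Finset.add_sum_erase _ _ (hk j), add_sub_right_comm]
    exact (hGQ j).add (Matrix.posSemidef_sum _ fun k _ => hG0 _)
  have h2 : (K.g i x + (β : ℂ) • ∑ j, Q j).PosDef :=
    (K.pos i x hx).add_posSemidef ((Matrix.posSemidef_sum _ fun j _ => hQ0 j).smul hβ')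
  have h3 := YauMax_635.det_le_det_add h2 (h1.smul hβ')
  have h4 : K.g i x + (β : ℂ) • ∑ j, Q j + (β : ℂ) •
      (∑ p ∈ (Finset.univ : Finset (Fin N)) ×ˢ Ks a, G p - ∑ j, Q j) = Tm K h s a β ε i x := by
    rw [smul_sub, Tm]
    abel
  rw [h4] at h3
  exact (Complex.le_def.1 h3).1

/-! ### the mass of `Tm` -/

section int

variable [T2Space M] [CompactSpace M] [Fintype A.ι] [MeasurableSpace M] [BorelSpace M]

/-- the density of `Tm` as a function -/
def DT (K : Kah A) (h : HM Lb) (s : Fin (N + 1) → A.ι → M → ℂ) (a : ℕ) (β ε : ℝ) (x : M) : ℝ :=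
  (Tm K h s a β ε (ch A x) x).det.re / (K.g (ch A x) x).det.re

theorem DT_nonneg (K : Kah A) (h : HM Lb) (hs : ∀ j, IsHS Lb univ (s j))
    (hp : ∀ i, ∀ x ∈ (A.e i).source, (cur h i x).PosSemidef)
    {β : ℝ} (hβ : 0 ≤ β) (a : ℕ) {ε : ℝ} (hε : 0 < ε) (x : M) : 0 ≤ DT K h s a β ε x := by
  have hx := mem_ch A x
  have h1 := (Complex.lt_def.1 (Tm_pd K h hs hβ a hε hx (hp _ x hx)).det_pos).1
  have h2 := (Complex.lt_def.1 (K.pos _ x hx).det_pos).1
  simp only [Complex.zero_re] at h1 h2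
  unfold DT
  positivity

theorem DT_eq (K : Kah A) (h : HM Lb) (hs : ∀ j, IsHS Lb univ (s j)) {t : ℝ}
    (hc : ∀ i, ∀ x ∈ (A.e i).source, cur h i x = (t : ℂ) • K.g i x) (a : ℕ) (β : ℝ) {ε : ℝ}
    (hε : 0 < ε) (x : M) : DT K h s a β ε x = dtM (volK K) (fun i x =>
      ((1 + β * (N * (2 * a + 1)) * t : ℝ) : ℂ) • K.g i x +
      hsf A (fun y => β * Psi h s a ε y) i x) x := by
  have hx := mem_ch A x
  unfold DT dtM
  rw [Tm_eq K h hs hc a β hε hx]
  congr 1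

theorem sm_bPsi (h : HM Lb) (hs : ∀ j, IsHS Lb univ (s j)) (a : ℕ) (β : ℝ) {ε : ℝ}
    (hε : 0 < ε) : A.Sm (fun y => β * Psi h s a ε y) := fun i =>
  contDiffOn_const.mul (sm_Psi h hs a hε i)

theorem cont_DT (K : Kah A) (h : HM Lb) (hs : ∀ j, IsHS Lb univ (s j)) {t : ℝ}
    (hc : ∀ i, ∀ x ∈ (A.e i).source, cur h i x = (t : ℂ) • K.g i x) (a : ℕ) (β : ℝ) {ε : ℝ}
    (hε : 0 < ε) : Continuous (DT K h s a β ε) := by
  have h1 : DT K h s a β ε = dtM (volK K) (fun i x =>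
      ((1 + β * (N * (2 * a + 1)) * t : ℝ) : ℂ) • K.g i x +
      hsf A (fun y => β * Psi h s a ε y) i x) := funext fun x => DT_eq K h hs hc a β hε x
  rw [h1]
  exact cont_dtM _ (((tf_kah K).smul _).add (tf_hsf (sm_bPsi h hs a β hε)))

theorem int_DT (P : Part A) (K : Kah A) (h : HM Lb) (hs : ∀ j, IsHS Lb univ (s j)) {t : ℝ}
    (hc : ∀ i, ∀ x ∈ (A.e i).source, cur h i x = (t : ℂ) • K.g i x) (a : ℕ) (β : ℝ) {ε : ℝ}
    (hε : 0 < ε) : ∫ x, DT K h s a β ε x ∂(vm (volK K)) =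
      (1 + β * (N * (2 * a + 1)) * t) ^ N * (vm (volK K)).real univ := by
  set c : ℝ := 1 + β * (N * (2 * a + 1)) * t with hcdef
  have h1 : ∀ x, DT K h s a β ε x = dtM (volK K) (fun i x =>
      (c : ℂ) • K.g i x + hsf A (fun y => β * Psi h s a ε y) i x) x :=
    fun x => DT_eq K h hs hc a β hε x
  simp only [h1]
  have hcf : CF A (fun i x => (c : ℂ) • K.g i x) := (kah_cf K).smul c
  rw [int_dtM P (volK K) (((tf_kah K).smul _).add (tf_hsf (sm_bPsi h hs a β hε))),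
    volinv P hcf (sm_bPsi h hs a β hε)]
  have h2 : totc P (fun i x => ((c : ℂ) • K.g i x).det) =
      (c : ℂ) ^ N * totc P (fun i x => (K.g i x).det) := by
    rw [← totc_smul]
    refine totc_congr P fun i x _ => ?_
    rw [Matrix.det_smul, Fintype.card_fin]
  have h3 : (totc P (fun i x => (K.g i x).det)).re = (vm (volK K)).real univ := by
    rw [← int_dtM P (volK K) (tf_kah K)]
    have h4 : ∀ x, dtM (volK K) K.g x = 1 := by
      intro x
      have hx := mem_ch A x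
      unfold dtM
      have h5 := volK_w K (ch A x) hx
      rw [← h5, Complex.ofReal_re, div_self ((volK K).pos _ _ hx).ne']
    simp only [h4]
    rw [integral_const, smul_eq_mul, mul_one]
  rw [h2, ← Complex.ofReal_pow, Complex.re_ofReal_mul, h3]

theorem lint_DT (P : Part A) (K : Kah A) (h : HM Lb) (hs : ∀ j, IsHS Lb univ (s j)) {t : ℝ}
    (ht : 0 ≤ t) (hc : ∀ i, ∀ x ∈ (A.e i).source, cur h i x = (t : ℂ) • K.g i x) (a : ℕ) {β : ℝ}
    (hβ : 0 ≤ β) {ε : ℝ} (hε : 0 < ε) :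
    ∫⁻ x, ENNReal.ofReal (DT K h s a β ε x) ∂(vm (volK K)) =
      ENNReal.ofReal ((1 + β * (N * (2 * a + 1)) * t) ^ N) * vm (volK K) univ := by
  have := isFinite_vm (volK K)
  have hp : ∀ i, ∀ x ∈ (A.e i).source, (cur h i x).PosSemidef := by
    intro i x hx
    rw [hc i x hx]
    exact (K.pos i x hx).posSemidef.smul (by exact_mod_cast ht)
  have hcont := cont_DT K h hs hc a β hε
  have hi : Integrable (DT K h s a β ε) (vm (volK K)) := by
    obtain ⟨C, hC⟩ := isCompact_univ.exists_bound_of_continuousOn hcont.continuousOn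
    exact Integrable.of_bound hcont.measurable.aestronglyMeasurable C
      (Eventually.of_forall fun x => hC x (mem_univ x))
  rw [← ofReal_integral_eq_lintegral_ofReal hi
    (Eventually.of_forall fun x => DT_nonneg K h hs hp hβ a hε x), int_DT P K h hs hc a β hε,
    ENNReal.ofReal_mul (by positivity), ofReal_measureReal]

end int

end

end Crest.Agent.R281.Th2_484
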