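import Crest.Agent.R281.Th1_799

/-!
# Row 281, THETA (helper799), part 2: the core theorem

`Hyp` : smooth functions `w_k` on a product of balls with `L_v w_k ≥ -δ_k |v|²`, vertical Levi form
`≤ δ_k t_k |ξ|²`, `∫ t_k ≤ C1` on the vertical balls and `c1 |v|² ≤ (L_(v,0) w_k + δ_k |v|²) t_k`.
`core` : every `L¹` limit `w₀` satisfies `c |v.1|² ∫ χ ≤ ∫ w₀ L_v χ` for test functions `χ ≥ 0`.
-/

set_option autoImplicit false
set_option linter.unusedSectionVars false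
set_option linter.style.longLine false

open MeasureTheory Set Filter Metric Topology Complex
open scoped ContDiff Manifold

namespace Crest.Agent.R281.Th_799

noncomputable section

section Trans

variable {E : Type*} [NormedAddCommGroup E] [NormedSpace ℂ E]

/-- translate -/
def tr (b : E) (f : E → ℝ) : E → ℝ := fun p => f (p + b)

theorem dv_tr (v b : E) (f : E → ℝ) : dv v (tr b f) = tr b (dv v f) := by
  funext p
  show fderiv ℝ (fun q => f (q + b)) p v = fderiv ℝ f (p + b) v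
  rw [fderiv_comp_add_right]

theorem L_tr (v b : E) (f : E → ℝ) : L v (tr b f) = tr b (L v f) := by
  funext p
  simp only [L, dv_tr]
  rfl

theorem TF.tr {f : E → ℝ} (hf : TF f) (b : E) : TF (tr b f) :=
  ⟨hf.sm.comp (contDiff_id.add contDiff_const), hf.cs.comp_homeomorph (Homeomorph.addRight b)⟩

theorem tsupport_tr (b : E) (f : E → ℝ) : tsupport (tr b f) = (fun p => p + b) ⁻¹' tsupport f := by
  have h : tr b f = f ∘ (Homeomorph.addRight b) := rfl
  rw [h, tsupport, Function.support_comp_eq_preimage, tsupport, ← Homeomorph.preimage_closure]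
  rfl

theorem dv_L {f : E → ℝ} (hf : ContDiff ℝ ∞ f) (b v : E) : dv b (L v f) = L v (dv b f) := by
  have h1 : ∀ u : E, dv b (dv u (dv u f)) = dv u (dv u (dv b f)) := by
    intro u
    rw [dv_comm (contDiff_dv hf u) b u, dv_comm hf b u]
  have h2 : L v f = (1 / 4 : ℝ) • (dv v (dv v f) + dv (I • v) (dv (I • v) f)) := by
    funext p; simp only [L, Pi.smul_apply, Pi.add_apply, smul_eq_mul]; ring
  have hs : ∀ u : E, ContDiff ℝ ∞ (dv u (dv u f)) := fun u => contDiff_dv (contDiff_dv hf u) u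
  have ha : ContDiff ℝ ∞ (dv v (dv v f) + dv (I • v) (dv (I • v) f)) := (hs v).add (hs _)
  rw [h2, dv_smul ha, dv_add (hs v) (hs _), h1, h1]
  funext p; simp only [L, Pi.smul_apply, Pi.add_apply, smul_eq_mul]; ring

end Trans

section Core

variable {Y X : Type*} [NormedAddCommGroup Y] [NormedSpace ℂ Y] [FiniteDimensional ℝ Y]
  [MeasurableSpace Y] [BorelSpace Y] [SecondCountableTopology Y]
  [NormedAddCommGroup X] [NormedSpace ℂ X] [FiniteDimensional ℝ X]
  [MeasurableSpace X] [BorelSpace X] [SecondCountableTopology X]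
  {μY : Measure Y} [μY.IsAddHaarMeasure] {μX : Measure X} [μX.IsAddHaarMeasure]

/-- the hypotheses of THETA in the coordinates of the tube -/
structure Hyp (μX : Measure X) (y0 : Y) (x0 : X) (ρ R : ℝ) (w t : ℕ → Y × X → ℝ) (δ : ℕ → ℝ)
    (c1 C1 : ℝ) : Prop where
  sm : ∀ k, ContDiff ℝ ∞ (w k)
  tc : ∀ k, Continuous (t k)
  t0 : ∀ k p, 0 ≤ t k p
  δ0 : ∀ k, 0 ≤ δ k
  δt : Tendsto δ atTop (𝓝 0)
  psh : ∀ k, ∀ p ∈ ball y0 ρ ×ˢ ball x0 (3 * R), ∀ v, -(δ k * ‖v‖ ^ 2) ≤ L v (w k) p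
  ver : ∀ k, ∀ p ∈ ball y0 ρ ×ˢ ball x0 (3 * R), ∀ ξ : X,
    L ((0, ξ) : Y × X) (w k) p ≤ δ k * t k p * ‖ξ‖ ^ 2
  cell : ∀ k, ∀ y ∈ ball y0 ρ, ∫ x in ball x0 (3 * R), t k (y, x) ∂μX ≤ C1
  str : ∀ k, ∀ p ∈ ball y0 ρ ×ˢ ball x0 (3 * R), ∀ v : Y,
    c1 * ‖v‖ ^ 2 ≤ (L ((v, 0) : Y × X) (w k) p + δ k * ‖v‖ ^ 2) * t k p

variable {y0 : Y} {x0 : X} {ρ R : ℝ} {w t : ℕ → Y × X → ℝ} {δ : ℕ → ℝ} {c1 C1 : ℝ}
  {w₀ : Y × X → ℝ}

theorem integrableOn_U (f : Y × X → ℝ) (hf : Continuous f) (y0 : Y) (x0 : X) (a b : ℝ) :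
    IntegrableOn f (ball y0 a ×ˢ ball x0 b) (μY.prod μX) := by
  have : ProperSpace Y := FiniteDimensional.proper ℝ Y
  have : ProperSpace X := FiniteDimensional.proper ℝ X
  have h1 : IntegrableOn f (closedBall y0 a ×ˢ closedBall x0 b) (μY.prod μX) :=
    hf.continuousOn.integrableOn_compact
      ((isCompact_closedBall y0 a).prod (isCompact_closedBall x0 b))
  exact h1.mono_set (Set.prod_mono ball_subset_closedBall ball_subset_closedBall)

/-- positivity of the limit -/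
theorem limit_nonneg (H : Hyp μX y0 x0 ρ R w t δ c1 C1) (hL : L1 (μY.prod μX) w w₀) {f : Y × X → ℝ}
    (hf : TF f) (hs : tsupport f ⊆ ball y0 ρ ×ˢ ball x0 (3 * R)) (h0 : ∀ p, 0 ≤ f p) (v : Y × X) :
    0 ≤ ∫ p, w₀ p * L v f p ∂(μY.prod μX) := by
  have h1 := hL.tendsto (hf.L v)
  have h2 : Tendsto (fun k => -(δ k * ‖v‖ ^ 2) * ∫ p, f p ∂(μY.prod μX)) atTop (𝓝 0) := by
    have := ((H.δt.mul_const (‖v‖ ^ 2)).neg).mul_const (∫ p, f p ∂(μY.prod μX))
    simpa using this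
  refine le_of_tendsto_of_tendsto h2 h1 (Eventually.of_forall fun k => ?_)
  show -(δ k * ‖v‖ ^ 2) * ∫ p, f p ∂(μY.prod μX) ≤ ∫ p, w k p * L v f p ∂(μY.prod μX)
  rw [int_L (H.sm k) hf v, ← integral_const_mul]
  have hc : Continuous (L v (w k)) := (contDiff_L (H.sm k) v).continuous
  refine integral_mono (hf.integrable.const_mul _)
    ((hc.mul hf.sm.continuous).integrable_of_hasCompactSupport hf.cs.mul_left) fun p => ?_
  show -(δ k * ‖v‖ ^ 2) * f p ≤ L v (w k) p * f p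
  by_cases hp : p ∈ tsupport f
  · exact mul_le_mul_of_nonneg_right (H.psh k p (hs hp) v) (h0 p)
  · rw [image_eq_zero_of_notMem_tsupport hp]; simp

/-- the vertical form of the limit is zero -/
theorem limit_ver (H : Hyp μX y0 x0 ρ R w t δ c1 C1) (hL : L1 (μY.prod μX) w w₀) {f : Y × X → ℝ}
    (hf : TF f) (hs : tsupport f ⊆ ball y0 ρ ×ˢ ball x0 (3 * R)) (h0 : ∀ p, 0 ≤ f p) (ξ : X) :
    ∫ p, w₀ p * L ((0, ξ) : Y × X) f p ∂(μY.prod μX) = 0 := by
  refine le_antisymm ?_ (limit_nonneg H hL hf hs h0 _)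
  obtain ⟨C, hC0, hC⟩ := hf.bdd
  have h1 := hL.tendsto (hf.L ((0, ξ) : Y × X))
  set B : ℝ := μY.real (ball y0 ρ) * C1 with hB
  have h2 : Tendsto (fun k => δ k * (‖ξ‖ ^ 2 * (C * B))) atTop (𝓝 0) := by
    have := H.δt.mul_const (‖ξ‖ ^ 2 * (C * B))
    simpa using this
  refine le_of_tendsto_of_tendsto h1 h2 (Eventually.of_forall fun k => ?_)
  show ∫ p, w k p * L ((0, ξ) : Y × X) f p ∂(μY.prod μX) ≤ δ k * (‖ξ‖ ^ 2 * (C * B))
  rw [int_L (H.sm k) hf]
  set U : Set (Y × X) := ball y0 ρ ×ˢ ball x0 (3 * R) with hU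
  have hUm : MeasurableSet U := (isOpen_ball.prod isOpen_ball).measurableSet
  have hc : Continuous (L ((0, ξ) : Y × X) (w k)) := (contDiff_L (H.sm k) _).continuous
  have h3 : ∫ p, L ((0, ξ) : Y × X) (w k) p * f p ∂(μY.prod μX) ≤
      ∫ p, U.indicator (fun p => δ k * ‖ξ‖ ^ 2 * C * t k p) p ∂(μY.prod μX) := by
    refine integral_mono ((hc.mul hf.sm.continuous).integrable_of_hasCompactSupport hf.cs.mul_left)
      ((integrableOn_U _ (continuous_const.mul (H.tc k)) y0 x0 ρ (3 * R)).integrable_indicator hUm)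
      fun p => ?_
    show L ((0, ξ) : Y × X) (w k) p * f p ≤ U.indicator (fun p => δ k * ‖ξ‖ ^ 2 * C * t k p) p
    by_cases hp : p ∈ U
    · rw [indicator_of_mem hp]
      have h4 := H.ver k p hp ξ
      have h5 : f p ≤ C := (le_abs_self _).trans (hC p)
      calc L ((0, ξ) : Y × X) (w k) p * f p ≤ (δ k * t k p * ‖ξ‖ ^ 2) * f p :=
            mul_le_mul_of_nonneg_right h4 (h0 p)
        _ ≤ (δ k * t k p * ‖ξ‖ ^ 2) * C := mul_le_mul_of_nonneg_left h5
            (mul_nonneg (mul_nonneg (H.δ0 k) (H.t0 k p)) (sq_nonneg _))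
        _ = δ k * ‖ξ‖ ^ 2 * C * t k p := by ring
    · rw [indicator_of_notMem hp, image_eq_zero_of_notMem_tsupport fun h => hp (hs h), mul_zero]
  refine h3.trans ?_
  rw [integral_indicator hUm, integral_const_mul]
  have h6 : ∫ p in U, t k p ∂(μY.prod μX) ≤ B := by
    rw [hU, setIntegral_prod _ (integrableOn_U _ (H.tc k) y0 x0 ρ (3 * R)), hB]
    have h7 : ∫ _ in ball y0 ρ, C1 ∂μY = μY.real (ball y0 ρ) * C1 := by
      rw [setIntegral_const, smul_eq_mul]
    rw [← h7]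
    have hfin : μY (ball y0 ρ) < ⊤ := by
      have : ProperSpace Y := FiniteDimensional.proper ℝ Y
      exact measure_ball_lt_top
    refine setIntegral_mono_on ?_ (integrableOn_const hfin.ne) measurableSet_ball
      fun y hy => H.cell k y hy
    have h8 := integrableOn_U (μY := μY) (μX := μX) _ (H.tc k) y0 x0 ρ (3 * R)
    rw [IntegrableOn, ← Measure.prod_restrict] at h8
    exact h8.integral_prod_left
  calc δ k * ‖ξ‖ ^ 2 * C * ∫ p in U, t k p ∂(μY.prod μX) ≤ δ k * ‖ξ‖ ^ 2 * C * B :=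
        mul_le_mul_of_nonneg_left h6 (mul_nonneg (mul_nonneg (H.δ0 k) (sq_nonneg _)) hC0)
    _ = δ k * (‖ξ‖ ^ 2 * (C * B)) := by ring

/-- the mixed form of the limit is zero (nonnegative test functions) -/
theorem limit_mix0 (H : Hyp μX y0 x0 ρ R w t δ c1 C1) (hL : L1 (μY.prod μX) w w₀) {f : Y × X → ℝ}
    (hf : TF f) (hs : tsupport f ⊆ ball y0 ρ ×ˢ ball x0 (3 * R)) (h0 : ∀ p, 0 ≤ f p) (v : Y)
    (ξ : X) : Q (μY.prod μX) w₀ (v, 0) (0, ξ) f = 0 := by
  have h1 : ∀ s : ℝ, 0 ≤ Q (μY.prod μX) w₀ ((v, 0) : Y × X) (v, 0) f +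
      s * (2 * Q (μY.prod μX) w₀ (v, 0) (0, ξ) f) := by
    intro s
    have h2 := limit_nonneg H hL hf hs h0 (((v, 0) : Y × X) + s • ((0, ξ) : Y × X))
    rw [← Q_self, Q_sum hL.2.1 _ _ _ hf] at h2
    have h3 : Q (μY.prod μX) w₀ ((0, ξ) : Y × X) (0, ξ) f = 0 := limit_ver H hL hf hs h0 ξ
    rw [h3] at h2
    linarith
  have := lin_zero h1
  linarith

/-- the mixed form of the limit is zero -/
theorem limit_mix (H : Hyp μX y0 x0 ρ R w t δ c1 C1) (hL : L1 (μY.prod μX) w w₀) {f : Y × X → ℝ}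
    (hf : TF f) (hs : tsupport f ⊆ ball y0 ρ ×ˢ ball x0 (3 * R)) (v : Y)
    (ξ : X) : Q (μY.prod μX) w₀ (v, 0) (0, ξ) f = 0 := by
  obtain ⟨η, hη, hηs, hη0, -, V, -, hV, hV1⟩ := exists_cut (K := tsupport f) hf.cs.isCompact
    (isOpen_ball.prod isOpen_ball) hs
  obtain ⟨C, hC0, hC⟩ := hf.bdd
  have hg : TF (f + C • η) := hf.add (hη.smul C)
  have hg0 : ∀ p, 0 ≤ (f + C • η) p := by
    intro p
    simp only [Pi.add_apply, Pi.smul_apply, smul_eq_mul]
    by_cases hp : p ∈ tsupport f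
    · rw [hV1 p (hV hp), mul_one]
      have := neg_le_of_abs_le (hC p)
      linarith
    · rw [image_eq_zero_of_notMem_tsupport hp, zero_add]
      exact mul_nonneg hC0 (hη0 p)
  have hgs : tsupport (f + C • η) ⊆ ball y0 ρ ×ˢ ball x0 (3 * R) := by
    refine (tsupport_add f (C • η)).trans (union_subset hs ?_)
    refine subset_trans ?_ hηs
    refine closure_mono ?_
    intro p hp h
    apply hp
    simp [h]
  have h1 := limit_mix0 H hL hg hgs hg0 v ξ
  have h2 := limit_mix0 H hL hη hηs hη0 v ξ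
  rw [Q_add hL.2.1 _ _ hf (hη.smul C), Q_smul _ _ _ _ hη, h2, mul_zero, add_zero] at h1
  exact h1

/-- closedness: the horizontal form does not see vertical derivatives -/
theorem limit_closed (H : Hyp μX y0 x0 ρ R w t δ c1 C1) (hL : L1 (μY.prod μX) w w₀)
    {f : Y × X → ℝ} (hf : TF f) (hs : tsupport f ⊆ ball y0 ρ ×ˢ ball x0 (3 * R)) (v : Y) (ξ : X) :
    ∫ p, w₀ p * L ((v, 0) : Y × X) (dv ((0, ξ) : Y × X) f) p ∂(μY.prod μX) = 0 := by
  set a : Y × X := (v, 0) with ha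
  set b : Y × X := (0, ξ) with hb
  have hJ : I • a = (I • v, 0) := by rw [ha]; ext <;> simp
  have h1 := limit_mix H hL (hf.dv a) ((tsupport_dv_subset a f).trans hs) v ξ
  have h2 := limit_mix H hL (hf.dv (I • a)) ((tsupport_dv_subset (I • a) f).trans hs) (I • v) ξ
  rw [← hJ, ← hb] at h2
  rw [← ha, ← hb] at h1
  have h3 : Q (μY.prod μX) w₀ a b (dv a f) + Q (μY.prod μX) w₀ (I • a) b (dv (I • a) f) = 0 := by
    rw [h1, h2, add_zero]
  rw [← h3]
  unfold Q
  rw [← integral_add (integrable_mul_right hL.2.1 ((hf.dv a).mix a b))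
    (integrable_mul_right hL.2.1 ((hf.dv (I • a)).mix (I • a) b))]
  congr 1
  funext p
  have hII : I • I • a = -a := by rw [smul_smul, I_mul_I, neg_smul, one_smul]
  -- commutations
  have e1 : dv a (dv a (dv b f)) = dv a (dv b (dv a f)) := by rw [dv_comm hf.sm a b]
  have e2 : dv (I • a) (dv (I • a) (dv b f)) = dv (I • a) (dv b (dv (I • a) f)) := by
    rw [dv_comm hf.sm (I • a) b]
  have e3 : dv (I • a) (dv (I • b) (dv a f)) = dv a (dv (I • b) (dv (I • a) f)) := by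
    rw [dv_comm hf.sm (I • b) a, dv_comm (contDiff_dv hf.sm (I • b)) (I • a) a,
      dv_comm hf.sm (I • a) (I • b)]
  rw [hII]
  simp only [L, e1, e2, e3, dv_neg_left, Pi.neg_apply]
  ring

end Core

end

end Crest.Agent.R281.Th_799
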