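import Crest.Agent.R281.Th2_799

/-!
# Row 281, THETA (helper799), part 3: the core theorem (translation invariance, strictness)
-/

set_option autoImplicit false
set_option linter.unusedSectionVars false
set_option linter.style.longLine false

open MeasureTheory Set Filter Metric Topology Complex
open scoped ContDiff Manifold

namespace Crest.Agent.R281.Th_799

noncomputable section

section Deriv

variable {E : Type*} [NormedAddCommGroup E] [NormedSpace ℂ E] [FiniteDimensional ℝ E]
  [MeasurableSpace E] [BorelSpace E] {μ : Measure E} [μ.IsAddHaarMeasure]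

/-- derivative of `s ↦ ∫ w(p) f(p + s b)` -/
theorem hasDerivAt_tr {w f : E → ℝ} (hw : Integrable w μ) (hf : TF f) (b : E) (s : ℝ) :
    HasDerivAt (fun s : ℝ => ∫ p, w p * f (p + s • b) ∂μ) (∫ p, w p * dv b f (p + s • b) ∂μ) s := by
  obtain ⟨C, hC0, hC⟩ := (hf.dv b).bdd
  have h1 := hasDerivAt_integral_of_dominated_loc_of_deriv_le (μ := μ)
    (F := fun (s : ℝ) p => w p * f (p + s • b)) (F' := fun (s : ℝ) p => w p * dv b f (p + s • b))
    (x₀ := s) (s := univ) (bound := fun p => |w p| * C) univ_mem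
    (Eventually.of_forall fun s => (integrable_mul_right hw (hf.tr (s • b))).aestronglyMeasurable)
    (integrable_mul_right hw (hf.tr (s • b)))
    ((integrable_mul_right hw ((hf.dv b).tr (s • b))).aestronglyMeasurable)
    (Eventually.of_forall fun p s _ => by
      rw [norm_mul, Real.norm_eq_abs, Real.norm_eq_abs]
      exact mul_le_mul_of_nonneg_left (hC _) (abs_nonneg _))
    (hw.abs.mul_const C)
    (Eventually.of_forall fun p s _ => by
      have h2 : HasDerivAt (fun s : ℝ => p + s • b) b s := by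
        simpa using ((hasDerivAt_id s).smul_const b).const_add p
      have h3 : HasFDerivAt f (fderiv ℝ f (p + s • b)) (p + s • b) :=
        ((hf.sm.differentiable (by simp)) _).hasFDerivAt
      exact (h3.comp_hasDerivAt s h2).const_mul (w p))
  exact h1.2

end Deriv

section Core

variable {Y X : Type*} [NormedAddCommGroup Y] [NormedSpace ℂ Y] [FiniteDimensional ℝ Y]
  [MeasurableSpace Y] [BorelSpace Y] [SecondCountableTopology Y]
  [NormedAddCommGroup X] [NormedSpace ℂ X] [FiniteDimensional ℝ X]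
  [MeasurableSpace X] [BorelSpace X] [SecondCountableTopology X]
  {μY : Measure Y} [μY.IsAddHaarMeasure] {μX : Measure X} [μX.IsAddHaarMeasure]
  {y0 : Y} {x0 : X} {ρ R : ℝ} {w t : ℕ → Y × X → ℝ} {δ : ℕ → ℝ} {c1 C1 : ℝ}
  {w₀ : Y × X → ℝ}

theorem supp_tr {f : Y × X → ℝ} (hR : 0 < R) (hs : tsupport f ⊆ ball y0 ρ ×ˢ ball x0 R) {a : X}
    (ha : ‖a‖ < R) : tsupport (tr ((0, a) : Y × X) f) ⊆ ball y0 ρ ×ˢ ball x0 (3 * R) := by
  rw [tsupport_tr]
  intro p hp
  obtain ⟨h1, h2⟩ := hs hp
  simp only [Prod.fst_add, add_zero, Prod.snd_add] at h1 h2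
  refine ⟨h1, ?_⟩
  rw [mem_ball, dist_eq_norm] at h2 ⊢
  calc ‖p.2 - x0‖ = ‖(p.2 + a - x0) - a‖ := by congr 1; abel
    _ ≤ ‖p.2 + a - x0‖ + ‖a‖ := norm_sub_le _ _
    _ < 3 * R := by linarith

/-- translation invariance -/
theorem limit_tr (H : Hyp μX y0 x0 ρ R w t δ c1 C1) (hL : L1 (μY.prod μX) w w₀) (hR : 0 < R)
    {f : Y × X → ℝ} (hf : TF f) (hs : tsupport f ⊆ ball y0 ρ ×ˢ ball x0 R) (v : Y) {a : X}
    (ha : ‖a‖ < R) :
    ∫ p, w₀ p * L ((v, 0) : Y × X) (tr ((0, a) : Y × X) f) p ∂(μY.prod μX) =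
      ∫ p, w₀ p * L ((v, 0) : Y × X) f p ∂(μY.prod μX) := by
  set b : Y × X := (0, a) with hb
  set g : ℝ → ℝ := fun s => ∫ p, w₀ p * L ((v, 0) : Y × X) f (p + s • b) ∂(μY.prod μX) with hg
  have hd : ∀ s ∈ Icc (0 : ℝ) 1, HasDerivAt g 0 s := by
    intro s hs'
    have h1 := hasDerivAt_tr hL.2.1 (hf.L ((v, 0) : Y × X)) b s
    have hsb : s • b = ((0, s • a) : Y × X) := by rw [hb]; ext <;> simp
    have h2 : ∫ p, w₀ p * dv b (L ((v, 0) : Y × X) f) (p + s • b) ∂(μY.prod μX) = 0 := by
      rw [← limit_closed H hL (hf.tr (s • b)) (f := tr (s • b) f) (by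
        rw [hsb]
        refine supp_tr hR hs ?_
        rw [norm_smul, Real.norm_eq_abs, abs_of_nonneg hs'.1]
        exact (mul_le_of_le_one_left (norm_nonneg _) hs'.2).trans_lt ha) v a]
      congr 1
      funext p
      rw [← hb, dv_tr, L_tr, dv_L hf.sm]
      rfl
    rw [h2] at h1
    exact h1
  obtain ⟨c, hc, hc'⟩ := exists_hasDerivAt_eq_slope g (fun _ => 0) zero_lt_one
    (fun s hs' => (hd s hs').continuousAt.continuousWithinAt)
    (fun s hs' => hd s (Ioo_subset_Icc_self hs'))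
  have h3 : g 1 = g 0 := by
    have : (0 : ℝ) = (g 1 - g 0) / (1 - 0) := hc'
    rw [sub_zero, div_one] at this
    linarith
  have h4 : g 0 = ∫ p, w₀ p * L ((v, 0) : Y × X) f p ∂(μY.prod μX) := by
    simp only [hg, zero_smul, add_zero]
  rw [← h4, ← h3]
  simp only [hg, one_smul]
  rw [L_tr]
  rfl

/-- mean of the vertical trace over translations -/
theorem int_tr_le (H : Hyp μX y0 x0 ρ R w t δ c1 C1) (hR : 0 < R)
    {f : Y × X → ℝ} (hf : TF f) (hs : tsupport f ⊆ ball y0 ρ ×ˢ ball x0 R) (h0 : ∀ p, 0 ≤ f p)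
    (k : ℕ) :
    IntegrableOn (fun a => ∫ p, t k p * tr ((0, a) : Y × X) f p ∂(μY.prod μX)) (ball 0 R) μX ∧
    ∫ a in ball (0 : X) R, (∫ p, t k p * tr ((0, a) : Y × X) f p ∂(μY.prod μX)) ∂μX ≤
      C1 * ∫ p, f p ∂(μY.prod μX) := by
  have hpX : ProperSpace X := FiniteDimensional.proper ℝ X
  set K : Set (Y × X) := tsupport f with hK
  have hKc : IsCompact K := hf.cs.isCompact
  set G : X × (Y × X) → ℝ := fun z => t k (z.2 - (0, z.1)) * f z.2 with hG
  have hGc : Continuous G := by
    have h1 : Continuous fun z : X × (Y × X) => z.2 - ((0 : Y), z.1) := by fun_prop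
    exact ((H.tc k).comp h1).mul (hf.sm.continuous.comp continuous_snd)
  have hJ : ∀ a : X, ∫ p, t k p * tr ((0, a) : Y × X) f p ∂(μY.prod μX) =
      ∫ p, G (a, p) ∂(μY.prod μX) := by
    intro a
    have h1 := integral_sub_right_eq_self (μ := μY.prod μX)
      (fun p => t k p * tr ((0, a) : Y × X) f p) ((0, a) : Y × X)
    rw [← h1]
    congr 1
    funext p
    simp only [hG, tr, sub_add_cancel]
  have hint : Integrable G ((μX.restrict (ball 0 R)).prod (μY.prod μX)) := by
    have h1 : IntegrableOn G (closedBall 0 R ×ˢ K) (μX.prod (μY.prod μX)) :=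
      hGc.continuousOn.integrableOn_compact ((isCompact_closedBall _ _).prod hKc)
    have h2 : IntegrableOn G (ball 0 R ×ˢ univ) (μX.prod (μY.prod μX)) := by
      have h3 : IntegrableOn G (ball 0 R ×ˢ K) (μX.prod (μY.prod μX)) :=
        h1.mono_set (Set.prod_mono ball_subset_closedBall subset_rfl)
      refine h3.of_forall_sdiff_eq_zero (measurableSet_ball.prod MeasurableSet.univ) ?_
      rintro z ⟨⟨hz1, -⟩, hz⟩
      have hz2 : z.2 ∉ K := fun h => hz ⟨hz1, h⟩
      simp only [hG]
      rw [image_eq_zero_of_notMem_tsupport hz2, mul_zero]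
    rw [IntegrableOn, ← Measure.prod_restrict, Measure.restrict_univ] at h2
    exact h2
  have e1 : (fun a => ∫ p, t k p * tr ((0, a) : Y × X) f p ∂(μY.prod μX)) =
      fun a => ∫ p, G (a, p) ∂(μY.prod μX) := funext hJ
  rw [e1]
  refine ⟨hint.integral_prod_left, ?_⟩
  rw [integral_integral_swap hint, ← integral_const_mul]
  refine integral_mono hint.integral_prod_right (hf.integrable.const_mul _) fun p => ?_
  show ∫ a in ball (0 : X) R, t k (p - (0, a)) * f p ∂μX ≤ C1 * f p
  by_cases hp : p ∈ K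
  · obtain ⟨hp1, hp2⟩ := hs hp
    rw [integral_mul_const]
    refine mul_le_mul_of_nonneg_right ?_ (h0 p)
    refine le_trans ?_ (H.cell k p.1 hp1)
    have h5 : ∫ a in ball (0 : X) R, t k (p - (0, a)) ∂μX =
        ∫ x, (ball (0 : X) R).indicator (fun _ => (1 : ℝ)) (p.2 - x) * t k (p.1, x) ∂μX := by
      rw [← integral_indicator measurableSet_ball,
        ← integral_sub_left_eq_self (fun a => (ball (0 : X) R).indicator
          (fun a => t k (p - (0, a))) a) μX p.2]
      congr 1
      funext x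
      by_cases hx : p.2 - x ∈ ball (0 : X) R
      · rw [indicator_of_mem hx, indicator_of_mem hx, one_mul]
        congr 1
        ext <;> simp
      · rw [indicator_of_notMem hx, indicator_of_notMem hx, zero_mul]
    rw [h5, ← integral_indicator measurableSet_ball]
    have htc : Continuous fun x => t k (p.1, x) := (H.tc k).comp (by fun_prop)
    have hi1 : Integrable ((ball x0 (3 * R)).indicator fun x => t k (p.1, x)) μX := by
      rw [integrable_indicator_iff measurableSet_ball]
      exact (htc.continuousOn.integrableOn_compact (isCompact_closedBall x0 (3 * R))).mono_set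
        ball_subset_closedBall
    have hle : ∀ x, (ball (0 : X) R).indicator (fun _ => (1 : ℝ)) (p.2 - x) * t k (p.1, x) ≤
        (ball x0 (3 * R)).indicator (fun x => t k (p.1, x)) x := by
      intro x
      by_cases hx : p.2 - x ∈ ball (0 : X) R
      · rw [indicator_of_mem hx, one_mul, indicator_of_mem]
        rw [mem_ball, dist_eq_norm] at hp2 ⊢
        rw [mem_ball_zero_iff] at hx
        calc ‖x - x0‖ = ‖(p.2 - x0) - (p.2 - x)‖ := by congr 1; abel
          _ ≤ ‖p.2 - x0‖ + ‖p.2 - x‖ := norm_sub_le _ _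
          _ < 3 * R := by linarith
      · rw [indicator_of_notMem hx, zero_mul]
        exact indicator_nonneg (fun x _ => H.t0 k _) x
    refine integral_mono_of_nonneg (Eventually.of_forall fun x => ?_) hi1
      (Eventually.of_forall hle)
    exact mul_nonneg (indicator_nonneg (fun _ _ => zero_le_one) _) (H.t0 k _)
  · rw [image_eq_zero_of_notMem_tsupport hp]; simp

/-- tangent line of `1 / t` -/
theorem lin_inv {x t c m : ℝ} (hm : 0 < m) (hc : 0 ≤ c) (ht : 0 ≤ t) (hx : 0 ≤ x)
    (h : c ≤ x * t) : c * (2 / m) - c / m ^ 2 * t ≤ x := by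
  by_cases ht0 : t = 0
  · have hc0 : c = 0 := by
      rw [ht0, mul_zero] at h
      exact le_antisymm h hc
    rw [hc0]; simpa using hx
  · have htp : 0 < t := lt_of_le_of_ne ht (Ne.symm ht0)
    have h1 : c / t ≤ x := by rwa [div_le_iff₀ htp]
    refine le_trans ?_ h1
    rw [le_div_iff₀ htp]
    have h2 : c * (2 / m) * t - c / m ^ 2 * t * t = c * (1 - (1 - t / m) ^ 2) := by
      field_simp; ring
    have h3 : (c * (2 / m) - c / m ^ 2 * t) * t = c * (2 / m) * t - c / m ^ 2 * t * t := by ring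
    rw [h3, h2]
    nlinarith [sq_nonneg (1 - t / m)]

/-- **THETA, core** -/
theorem core (H : Hyp μX y0 x0 ρ R w t δ c1 C1) (hL : L1 (μY.prod μX) w w₀) (hR : 0 < R)
    (hc1 : 0 ≤ c1) (hC1 : 0 < C1) {f : Y × X → ℝ} (hf : TF f)
    (hs : tsupport f ⊆ ball y0 ρ ×ˢ ball x0 R) (h0 : ∀ p, 0 ≤ f p) (v : Y × X) :
    c1 * (μX.real (ball 0 R) / C1) * ‖v.1‖ ^ 2 * ∫ p, f p ∂(μY.prod μX) ≤
      ∫ p, w₀ p * L v f p ∂(μY.prod μX) := by
  have hpX : ProperSpace X := FiniteDimensional.proper ℝ X
  have hs3 : tsupport f ⊆ ball y0 ρ ×ˢ ball x0 (3 * R) :=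
    hs.trans (Set.prod_mono subset_rfl (ball_subset_ball (by linarith)))
  set a : Y × X := (v.1, 0) with ha
  -- reduction to a horizontal vector
  have hred : ∫ p, w₀ p * L v f p ∂(μY.prod μX) = ∫ p, w₀ p * L a f p ∂(μY.prod μX) := by
    have h1 : v = a + (1 : ℝ) • ((0, v.2) : Y × X) := by rw [ha]; ext <;> simp
    have h2 := Q_sum (μ := μY.prod μX) hL.2.1 a ((0, v.2) : Y × X) 1 hf
    rw [← h1] at h2
    have h3 : Q (μY.prod μX) w₀ a ((0, v.2) : Y × X) f = 0 := limit_mix H hL hf hs3 v.1 v.2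
    have h4 : Q (μY.prod μX) w₀ ((0, v.2) : Y × X) (0, v.2) f = 0 := limit_ver H hL hf hs3 h0 v.2
    rw [h3, h4, Q_self, Q_self] at h2
    rw [h2]; ring
  rw [hred]
  set σ : ℝ := ∫ p, w₀ p * L a f p ∂(μY.prod μX) with hσ
  set X0 : ℝ := ∫ p, f p ∂(μY.prod μX) with hX0
  have hX0' : 0 ≤ X0 := integral_nonneg h0
  obtain ⟨C, hC0, hC⟩ := (hf.L a).bdd
  set V : ℝ := μX.real (ball 0 R) with hV
  have hVp : 0 < V := by
    rw [hV, Measure.real]
    exact ENNReal.toReal_pos (measure_ball_pos μX 0 hR).ne' measure_ball_lt_top.ne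
  set c : ℝ := c1 * ‖v.1‖ ^ 2 with hc
  have hc0 : 0 ≤ c := mul_nonneg hc1 (sq_nonneg _)
  set m : ℝ := C1 / V with hm
  have hmp : 0 < m := div_pos hC1 hVp
  set e : ℕ → ℝ := fun k => C * ∫ p, |w k p - w₀ p| ∂(μY.prod μX) with he
  have he0 : Tendsto e atTop (𝓝 0) := by simpa [he] using hL.2.2.const_mul C
  have key : ∀ k, c / m * X0 - δ k * ‖v.1‖ ^ 2 * X0 - e k ≤ σ := by
    intro k
    obtain ⟨hJi, hJ⟩ := int_tr_le (μY := μY) H hR hf hs h0 k
    set J : X → ℝ := fun b => ∫ p, t k p * tr ((0, b) : Y × X) f p ∂(μY.prod μX) with hJdef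
    have hpt : ∀ b ∈ ball (0 : X) R,
        c * (2 / m) * X0 - δ k * ‖v.1‖ ^ 2 * X0 - σ - e k ≤ c / m ^ 2 * J b := by
      intro b hb
      have hbR : ‖b‖ < R := mem_ball_zero_iff.1 hb
      set g : Y × X → ℝ := tr ((0, b) : Y × X) f with hg
      have hgT : TF g := hf.tr _
      have hgs : tsupport g ⊆ ball y0 ρ ×ˢ ball x0 (3 * R) := supp_tr hR hs hbR
      have hg0 : ∀ p, 0 ≤ g p := fun p => h0 _
      have hgX : ∫ p, g p ∂(μY.prod μX) = X0 :=
        integral_add_right_eq_self (μ := μY.prod μX) f ((0, b) : Y × X)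
      have h1 : ∫ p, w₀ p * L a g p ∂(μY.prod μX) = σ := limit_tr H hL hR hf hs v.1 hbR
      have h2 : ∀ p, |L a g p| ≤ C := by
        intro p
        rw [hg, L_tr]
        exact hC _
      have h3 := abs_sub_le (hL.1 k) hL.2.1 (hgT.L a) h2
      rw [h1] at h3
      have h4 : ∫ p, w k p * L a g p ∂(μY.prod μX) ≤ σ + e k := by
        have := (abs_le.1 h3).2
        linarith
      rw [int_L (H.sm k) hgT a] at h4
      have hcont : Continuous (L a (w k)) := (contDiff_L (H.sm k) a).continuous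
      have hci : ∀ {q : Y × X → ℝ}, Continuous q → Integrable (fun p => q p * g p) (μY.prod μX) :=
        fun hq => (hq.mul hgT.sm.continuous).integrable_of_hasCompactSupport hgT.cs.mul_left
      have h5 : ∫ p, (c * (2 / m) * g p - c / m ^ 2 * (t k p * g p) - δ k * ‖v.1‖ ^ 2 * g p)
          ∂(μY.prod μX) ≤ ∫ p, L a (w k) p * g p ∂(μY.prod μX) := by
        refine integral_mono (((hgT.integrable.const_mul _).sub ((hci (H.tc k)).const_mul _)).sub
          (hgT.integrable.const_mul _)) (hci hcont) fun p => ?_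
        show c * (2 / m) * g p - c / m ^ 2 * (t k p * g p) - δ k * ‖v.1‖ ^ 2 * g p ≤
          L a (w k) p * g p
        by_cases hp : p ∈ tsupport g
        · have hpU := hgs hp
          have h6 := H.str k p hpU v.1
          have h7 : 0 ≤ L a (w k) p + δ k * ‖v.1‖ ^ 2 := by
            have h8 := H.psh k p hpU a
            have h9 : ‖a‖ = ‖v.1‖ := by
              rw [ha, Prod.norm_mk, norm_zero, max_eq_left (norm_nonneg _)]
            rw [h9] at h8
            linarith
          have h10 := lin_inv hmp hc0 (H.t0 k p) h7 h6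
          have h11 : c * (2 / m) - c / m ^ 2 * t k p - δ k * ‖v.1‖ ^ 2 ≤ L a (w k) p := by
            linarith
          calc _ = (c * (2 / m) - c / m ^ 2 * t k p - δ k * ‖v.1‖ ^ 2) * g p := by ring
            _ ≤ L a (w k) p * g p := mul_le_mul_of_nonneg_right h11 (hg0 p)
        · rw [image_eq_zero_of_notMem_tsupport hp]; simp
      rw [integral_sub, integral_sub, integral_const_mul, integral_const_mul, integral_const_mul,
        hgX] at h5
      · have h12 : (∫ p, t k p * g p ∂(μY.prod μX)) = J b := rfl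
        rw [h12] at h5
        linarith
      · exact hgT.integrable.const_mul _
      · exact (hci (H.tc k)).const_mul _
      · exact (hgT.integrable.const_mul _).sub ((hci (H.tc k)).const_mul _)
      · exact hgT.integrable.const_mul _
    have hfin : μX (ball 0 R) ≠ ⊤ := measure_ball_lt_top.ne
    have h13 : V * (c * (2 / m) * X0 - δ k * ‖v.1‖ ^ 2 * X0 - σ - e k) ≤
        c / m ^ 2 * ∫ b in ball (0 : X) R, J b ∂μX := by
      have h14 : ∫ _ in ball (0 : X) R, (c * (2 / m) * X0 - δ k * ‖v.1‖ ^ 2 * X0 - σ - e k) ∂μX =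
          V * (c * (2 / m) * X0 - δ k * ‖v.1‖ ^ 2 * X0 - σ - e k) := by
        rw [setIntegral_const, smul_eq_mul]
      have h15 : c / m ^ 2 * ∫ b in ball (0 : X) R, J b ∂μX =
          ∫ b in ball (0 : X) R, c / m ^ 2 * J b ∂μX := (integral_const_mul _ _).symm
      rw [← h14, h15]
      exact setIntegral_mono_on (integrableOn_const hfin) (hJi.const_mul _) measurableSet_ball hpt
    have h15 : c / m ^ 2 * ∫ b in ball (0 : X) R, J b ∂μX ≤ c / m ^ 2 * (C1 * X0) :=
      mul_le_mul_of_nonneg_left hJ (by positivity)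
    have h16 : c / m ^ 2 * (C1 * X0) = V * (c / m * X0) := by
      rw [hm]; field_simp
    rw [h16] at h15
    have h17 : c * (2 / m) * X0 - δ k * ‖v.1‖ ^ 2 * X0 - σ - e k ≤ c / m * X0 :=
      le_of_mul_le_mul_left (h13.trans h15) hVp
    have h18 : c * (2 / m) * X0 = c / m * X0 + c / m * X0 := by ring
    linarith
  have hlim : Tendsto (fun k => c / m * X0 - δ k * ‖v.1‖ ^ 2 * X0 - e k) atTop
      (𝓝 (c / m * X0)) := by
    have h1 := ((H.δt.mul_const (‖v.1‖ ^ 2)).mul_const X0)
    have h2 := (tendsto_const_nhds (x := c / m * X0)).sub h1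
    have h3 := h2.sub he0
    simpa using h3
  have h19 : c / m * X0 ≤ σ := le_of_tendsto' hlim key
  have h20 : c1 * (V / C1) * ‖v.1‖ ^ 2 * X0 = c / m * X0 := by
    rw [hc, hm]; field_simp
  rw [h20]
  exact h19

end Core

end

end Crest.Agent.R281.Th_799
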