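import Crest.Agent.R281.Th3_799
import Crest.Agent.R281.Nef2_252

/-!
# Row 281, THETA (helper799), part 4: `L_v` of a composition with a holomorphic map;
Cauchy--Schwarz for Hermitian forms and for the holomorphic symplectic form
-/

set_option autoImplicit false
set_option linter.unusedSectionVars false
set_option linter.style.longLine false

open MeasureTheory Set Filter Metric Topology Complex
open scoped ContDiff Manifold ComplexConjugate Matrix ComplexOrder

namespace Crest.Agent.R281.Th_799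

open Crest.Agent.R275.Geo Crest.Agent.R275.Core144
open Crest.Agent.R273.Defs_333 Crest.Agent.R273.Hess_333
open Crest.Agent.R281.HkR_835
open Crest.Agent.R281.Nef_252 (hb_add hb_smul hb_nonneg)

noncomputable section

section Comp

variable {E : Type*} [NormedAddCommGroup E] [NormedSpace ℂ E]

theorem dv_congr {f g : E → ℝ} {p : E} (h : f =ᶠ[𝓝 p] g) (v : E) : dv v f =ᶠ[𝓝 p] dv v g := by
  have h1 := h.fderiv (𝕜 := ℝ)
  filter_upwards [h1] with q hq
  simp only [dv]
  rw [hq]

theorem L_congr {f g : E → ℝ} {p : E} (h : f =ᶠ[𝓝 p] g) (v : E) : L v f p = L v g p := by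
  have h1 := (dv_congr (dv_congr h v) v).eq_of_nhds
  have h2 := (dv_congr (dv_congr h (I • v)) (I • v)).eq_of_nhds
  simp only [L]
  rw [h1, h2]

variable [FiniteDimensional ℂ E] {N : ℕ}

/-- regularity of a holomorphic map near a point -/
theorem hol_sm {T : E → Cn N} {p : E} (hT : ∀ᶠ q in 𝓝 p, DifferentiableAt ℂ T q) :
    ContDiffAt ℝ ∞ T p := by
  obtain ⟨U, hU, hUo, hUz⟩ := _root_.eventually_nhds_iff.1 hT
  have h1 : DifferentiableOn ℂ T U := fun w hw => (hU w hw).differentiableWithinAt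
  exact (((Crest.Agent.R266.SCV.contDiffOn_omega_of_differentiableOn hUo h1).restrict_scalars
    ℝ).of_le le_top).contDiffAt (hUo.mem_nhds hUz)

theorem hol_dv {T : E → Cn N} {p : E} (hT : ∀ᶠ q in 𝓝 p, DifferentiableAt ℂ T q) (v : E) :
    ∀ᶠ q in 𝓝 p, DifferentiableAt ℂ (fun q => fderiv ℂ T q v) q := by
  obtain ⟨U, hU, hUo, hUz⟩ := _root_.eventually_nhds_iff.1 hT
  have h2 : DifferentiableOn ℂ T U := fun w hw => (hU w hw).differentiableWithinAt
  have h3 : AnalyticOnNhd ℂ (fderiv ℂ T) U :=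
    (Crest.Agent.R266.SCV.analyticOnNhd_of_differentiableOn hUo h2).fderiv
  have h4 : DifferentiableOn ℂ (fun q => fderiv ℂ T q v) U :=
    h3.differentiableOn.clm_apply (differentiableOn_const _)
  filter_upwards [hUo.mem_nhds hUz] with q hq
  exact h4.differentiableAt (hUo.mem_nhds hq)

theorem fd_I {F : Type*} [NormedAddCommGroup F] [NormedSpace ℂ F] {T : E → F} {p : E}
    (hT : DifferentiableAt ℂ T p) (v : E) : fderiv ℝ T p (I • v) = I • fderiv ℝ T p v := by
  rw [hT.fderiv_restrictScalars ℝ]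
  simp

/-- **`L_v (u ∘ T) = ` the Hermitian form of the Hessian of `u` at `T' v`** -/
theorem L_comp {T : E → Cn N} {u : Cn N → ℝ} {p : E} (hT : ∀ᶠ q in 𝓝 p, DifferentiableAt ℂ T q)
    (hu : ContDiffAt ℝ ∞ u (T p)) (v : E) :
    L v (fun q => u (T q)) p = (hb (hess u (T p)) (fderiv ℝ T p v) (fderiv ℝ T p v)).re := by
  have hTs := hol_sm hT
  have hTp : DifferentiableAt ℂ T p := hT.self_of_nhds
  have hud : ∀ᶠ q in 𝓝 p, DifferentiableAt ℝ u (T q) := by
    have h1 : ∀ᶠ y in 𝓝 (T p), DifferentiableAt ℝ u y := by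
      have := (hu.of_le (m := 1) (by exact_mod_cast le_top)).eventually (by simp)
      filter_upwards [this] with y hy
      exact hy.differentiableAt (by simp)
    exact hTp.continuousAt.eventually h1
  -- first derivative near p
  have h1 : ∀ w : E, dv w (fun q => u (T q)) =ᶠ[𝓝 p] fun q => fderiv ℝ u (T q) (fderiv ℝ T q w) := by
    intro w
    filter_upwards [hT, hud] with q hq hq'
    simp only [dv]
    have := (hq'.hasFDerivAt.comp q (hq.restrictScalars ℝ).hasFDerivAt).fderiv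
    have e : fderiv ℝ (fun q => u (T q)) q = (fderiv ℝ u (T q)).comp (fderiv ℝ T q) := this
    rw [e]
    rfl
  have hfu : DifferentiableAt ℝ (fderiv ℝ u) (T p) :=
    (hu.fderiv_right (m := ∞) (by simp)).differentiableAt (by simp)
  have hfT : ∀ w : E, DifferentiableAt ℝ (fun q => fderiv ℝ T q w) p := fun w =>
    (((hTs.fderiv_right (m := ∞) (by simp)).differentiableAt (by simp)).clm_apply
      (differentiableAt_const w))
  -- second derivative
  have h2 : ∀ w : E, dv w (dv w (fun q => u (T q))) p =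
      fderiv ℝ (fderiv ℝ u) (T p) (fderiv ℝ T p w) (fderiv ℝ T p w) +
        fderiv ℝ u (T p) (fderiv ℝ (fun q => fderiv ℝ T q w) p w) := by
    intro w
    have h3 := (dv_congr (h1 w) w).eq_of_nhds
    rw [h3]
    have h4 : HasFDerivAt (fun q => fderiv ℝ u (T q)) ((fderiv ℝ (fderiv ℝ u) (T p)).comp (fderiv ℝ T p)) p :=
      hfu.hasFDerivAt.comp p (hTp.restrictScalars ℝ).hasFDerivAt
    have h5 := (h4.clm_apply (hfT w).hasFDerivAt).fderiv
    simp only [dv]
    rw [h5]
    simp only [add_apply, ContinuousLinearMap.comp_apply,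
      ContinuousLinearMap.flip_apply]
    ring
  -- the derivative of `T' (i v)` in the direction `i v`
  have h6 : fderiv ℝ (fun q => fderiv ℝ T q (I • v)) p (I • v) =
      - fderiv ℝ (fun q => fderiv ℝ T q v) p v := by
    have e1 : (fun q => fderiv ℝ T q (I • v)) =ᶠ[𝓝 p] fun q => I • fderiv ℂ T q v := by
      filter_upwards [hT] with q hq
      rw [hq.fderiv_restrictScalars ℝ]
      simp
    have e2 : (fun q => fderiv ℝ T q v) =ᶠ[𝓝 p] fun q => fderiv ℂ T q v := by
      filter_upwards [hT] with q hq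
      rw [hq.fderiv_restrictScalars ℝ]
      simp
    have hd : DifferentiableAt ℂ (fun q => fderiv ℂ T q v) p := (hol_dv hT v).self_of_nhds
    have hd' : HasFDerivAt (fun q => I • fderiv ℂ T q v)
        (I • fderiv ℝ (fun q => fderiv ℂ T q v) p) p :=
      (hd.restrictScalars ℝ).hasFDerivAt.const_smul I
    have hdI : DifferentiableAt ℂ (fun q => I • fderiv ℂ T q v) p := hd.const_smul I
    rw [e1.fderiv_eq, e2.fderiv_eq, fd_I hdI, hd'.fderiv]
    simp only [smul_apply, smul_smul, I_mul_I, neg_smul, one_smul]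
  have h7 := lev_eq hu (fderiv ℝ T p v)
  have h8 : lev u (T p) (fderiv ℝ T p v) =
      fderiv ℝ (fderiv ℝ u) (T p) (fderiv ℝ T p v) (fderiv ℝ T p v) +
      fderiv ℝ (fderiv ℝ u) (T p) (I • fderiv ℝ T p v) (I • fderiv ℝ T p v) := by
    unfold lev
    rw [iteratedFDeriv_two_apply, iteratedFDeriv_two_apply]
    rfl
  have h9 : ((lev u (T p) (fderiv ℝ T p v) : ℝ) : ℂ) =
      4 * hb (hess u (T p)) (fderiv ℝ T p v) (fderiv ℝ T p v) := h7
  have h10 : (hb (hess u (T p)) (fderiv ℝ T p v) (fderiv ℝ T p v)).re =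
      lev u (T p) (fderiv ℝ T p v) / 4 := by
    have : hb (hess u (T p)) (fderiv ℝ T p v) (fderiv ℝ T p v) =
        ((lev u (T p) (fderiv ℝ T p v) / 4 : ℝ) : ℂ) := by
      push_cast
      rw [h9]; ring
    rw [this, ofReal_re]
  rw [h10, h8]
  simp only [L]
  rw [h2, h2, h6, fd_I hTp, map_neg]
  ring

end Comp

/-! ### Cauchy--Schwarz -/

section CS

variable {N n : ℕ} {G : Matrix (Fin N) (Fin N) ℂ}

theorem hb_addv (G : Matrix (Fin N) (Fin N) ℂ) (u v w : Cn N) : hb G (u + v) w = hb G u w + hb G v w := by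
  simp only [hb, PiLp.add_apply, ← Finset.sum_add_distrib]
  exact Finset.sum_congr rfl fun a _ => Finset.sum_congr rfl fun b _ => by ring

theorem hb_addr (G : Matrix (Fin N) (Fin N) ℂ) (u v w : Cn N) : hb G w (u + v) = hb G w u + hb G w v := by
  simp only [hb, PiLp.add_apply, ← Finset.sum_add_distrib, map_add]
  exact Finset.sum_congr rfl fun a _ => Finset.sum_congr rfl fun b _ => by ring

theorem hb_smulv (G : Matrix (Fin N) (Fin N) ℂ) (c : ℂ) (u v : Cn N) : hb G (c • u) v = c * hb G u v := by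
  simp only [hb, PiLp.smul_apply, smul_eq_mul, Finset.mul_sum]
  exact Finset.sum_congr rfl fun a _ => Finset.sum_congr rfl fun b _ => by ring

theorem hb_smulr (G : Matrix (Fin N) (Fin N) ℂ) (c : ℂ) (u v : Cn N) :
    hb G u (c • v) = conj c * hb G u v := by
  simp only [hb, PiLp.smul_apply, smul_eq_mul, map_mul, Finset.mul_sum]
  exact Finset.sum_congr rfl fun a _ => Finset.sum_congr rfl fun b _ => by ring

theorem hb_cs (hG : G.PosSemidef) (x y : Cn N) :
    ‖hb G x y‖ ^ 2 ≤ (hb G x x).re * (hb G y y).re := by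
  set h := hb G x y with hh
  have hA := hb_nonneg hG x
  have hD := hb_nonneg hG y
  by_cases h0 : h = 0
  · rw [h0, norm_zero]
    simpa using mul_nonneg hA hD
  have hs : ∀ t : ℝ, 0 ≤ (‖h‖ ^ 2 * (hb G y y).re) * (t * t) + (2 * ‖h‖ ^ 2) * t + (hb G x x).re := by
    intro t
    have h1 := hb_nonneg hG (x + ((t : ℂ) * h) • y)
    rw [hb_addv, hb_addr, hb_addr, hb_smulr, hb_smulv, hb_smulv, hb_smulr, ← hh,
      ← hb_conj hG.1 x y, ← hh] at h1
    have e1 : conj ((t : ℂ) * h) * h = ((t * ‖h‖ ^ 2 : ℝ) : ℂ) := by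
      rw [map_mul, conj_ofReal, mul_assoc, mul_comm (conj h), mul_conj, normSq_eq_norm_sq]
      push_cast; ring
    have e2 : ((t : ℂ) * h) * conj h = ((t * ‖h‖ ^ 2 : ℝ) : ℂ) := by
      rw [mul_assoc, mul_conj, normSq_eq_norm_sq]
      push_cast; ring
    have e3 : (t : ℂ) * h * (conj ((t : ℂ) * h) * hb G y y) =
        ((t * t * ‖h‖ ^ 2 : ℝ) : ℂ) * hb G y y := by
      rw [map_mul, conj_ofReal]
      have : h * conj h = (‖h‖ : ℂ) ^ 2 := by
        rw [mul_conj, normSq_eq_norm_sq]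
        push_cast; rfl
      push_cast
      linear_combination ((t : ℂ) * t * hb G y y) * this
    rw [e1, e2, e3] at h1
    simp only [add_re, ofReal_re, re_ofReal_mul] at h1
    linarith
  have h2 := discrim_le_zero hs
  rw [discrim] at h2
  have h3 : 0 < ‖h‖ ^ 2 := by positivity
  by_contra hcon
  push Not at hcon
  nlinarith [mul_pos h3 (sub_pos.2 hcon)]

theorem hb_sum_left (G : Matrix (Fin N) (Fin N) ℂ) {ι : Type*} (s : Finset ι) (f : ι → Cn N) (v : Cn N) :
    hb G (∑ a ∈ s, f a) v = ∑ a ∈ s, hb G (f a) v := by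
  classical
  induction s using Finset.induction_on with
  | empty => simp [hb]
  | insert a s ha ih => rw [Finset.sum_insert ha, Finset.sum_insert ha, hb_addv, ih]

theorem hb_sum_right (G : Matrix (Fin N) (Fin N) ℂ) {ι : Type*} (s : Finset ι) (f : ι → Cn N) (v : Cn N) :
    hb G v (∑ a ∈ s, f a) = ∑ a ∈ s, hb G v (f a) := by
  classical
  induction s using Finset.induction_on with
  | empty => simp [hb]
  | insert a s ha ih => rw [Finset.sum_insert ha, Finset.sum_insert ha, hb_addr, ih]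

/-- the trace bounds the form -/
theorem hb_tr (hG : G.PosSemidef) (x : Fin n → Cn N) (ξ : Cn n) :
    (hb G (∑ a, ξ a • x a) (∑ a, ξ a • x a)).re ≤ (∑ a, (hb G (x a) (x a)).re) * ‖ξ‖ ^ 2 := by
  set q : Fin n → ℝ := fun a => Real.sqrt (hb G (x a) (x a)).re with hq
  have hq2 : ∀ a, q a ^ 2 = (hb G (x a) (x a)).re := fun a => Real.sq_sqrt (hb_nonneg hG _)
  have h1 : ∀ a b, ‖hb G (x a) (x b)‖ ≤ q a * q b := by
    intro a b
    refine le_of_sq_le_sq ?_ (by positivity)
    rw [mul_pow, hq2, hq2]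
    exact hb_cs hG _ _
  calc (hb G (∑ a, ξ a • x a) (∑ a, ξ a • x a)).re ≤ ‖hb G (∑ a, ξ a • x a) (∑ a, ξ a • x a)‖ :=
        Complex.re_le_norm _
    _ = ‖∑ a, ∑ b, ξ a * (conj (ξ b) * hb G (x a) (x b))‖ := by
        rw [hb_sum_left]
        congr 1
        refine Finset.sum_congr rfl fun a _ => ?_
        rw [hb_smulv, hb_sum_right, Finset.mul_sum]
        exact Finset.sum_congr rfl fun b _ => by rw [hb_smulr]
    _ ≤ ∑ a, ∑ b, (‖ξ a‖ * q a) * (‖ξ b‖ * q b) := by
        refine (norm_sum_le _ _).trans (Finset.sum_le_sum fun a _ => ?_)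
        refine (norm_sum_le _ _).trans (Finset.sum_le_sum fun b _ => ?_)
        rw [norm_mul, norm_mul, RCLike.norm_conj]
        calc ‖ξ a‖ * (‖ξ b‖ * ‖hb G (x a) (x b)‖) ≤ ‖ξ a‖ * (‖ξ b‖ * (q a * q b)) := by
              gcongr; exact h1 a b
          _ = _ := by ring
    _ = (∑ a, ‖ξ a‖ * q a) ^ 2 := by
        rw [sq, Finset.sum_mul_sum]
    _ ≤ (∑ a, ‖ξ a‖ ^ 2) * ∑ a, q a ^ 2 := Finset.sum_mul_sq_le_sq_mul_sq _ _ _
    _ = (∑ a, (hb G (x a) (x a)).re) * ‖ξ‖ ^ 2 := by
        rw [EuclideanSpace.norm_sq_eq, mul_comm]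
        congr 1
        exact Finset.sum_congr rfl fun a _ => hq2 a

/-- Cauchy--Schwarz for the symplectic form -/
theorem sb_cs {S : Matrix (Fin N) (Fin N) ℂ} (hG : G.PosDef) (hR : Sᴴ * G⁻¹ * S = Gᵀ) (u v : Cn N) :
    ‖sb S u v‖ ^ 2 ≤ (hb G u u).re * (hb G v v).re := by
  have hGu : IsUnit G.det := (Matrix.isUnit_iff_isUnit_det _).1 hG.isUnit
  -- w = S v, b = G⁻¹ w ; y = conj b
  set w : Fin N → ℂ := S *ᵥ v.ofLp with hw
  set b : Fin N → ℂ := G⁻¹ *ᵥ w with hb'
  set y : Cn N := WithLp.toLp 2 fun a => conj (b a) with hy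
  have hGb : G *ᵥ b = w := by
    rw [hb', Matrix.mulVec_mulVec, Matrix.mul_nonsing_inv _ hGu, Matrix.one_mulVec]
  have e1 : sb S u v = hb G u y := by
    have h1 : hb G u y = ∑ a, u a * (G *ᵥ b) a := by
      simp only [hb, hy, Matrix.mulVec, dotProduct, Complex.conj_conj, Finset.mul_sum]
      exact Finset.sum_congr rfl fun a _ => Finset.sum_congr rfl fun c _ => by ring
    rw [h1, hGb, hw]
    simp only [sb, Matrix.mulVec, dotProduct, Finset.mul_sum]
    exact Finset.sum_congr rfl fun a _ => Finset.sum_congr rfl fun c _ => by ring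
  have e2 : hb G y y = hb G v v := by
    have h1 : hb G y y = star b ⬝ᵥ (G *ᵥ b) := by
      simp only [hb, hy, Matrix.mulVec, dotProduct, Complex.conj_conj, Finset.mul_sum,
        Pi.star_apply, RCLike.star_def]
      exact Finset.sum_congr rfl fun a _ => Finset.sum_congr rfl fun c _ => by ring
    have h2 : hb G v v = star v.ofLp ⬝ᵥ (Gᵀ *ᵥ v.ofLp) := by
      simp only [hb, Matrix.mulVec, dotProduct, Finset.mul_sum, Matrix.transpose_apply,
        Pi.star_apply, RCLike.star_def]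
      rw [Finset.sum_comm]
      exact Finset.sum_congr rfl fun a _ => Finset.sum_congr rfl fun c _ => by ring
    rw [h1, h2, hGb, ← hR, hb', hw]
    rw [Matrix.star_mulVec, Matrix.star_mulVec, (hG.1.inv).eq]
    rw [← Matrix.dotProduct_mulVec, ← Matrix.dotProduct_mulVec]
    rw [Matrix.mulVec_mulVec, Matrix.mulVec_mulVec, Matrix.mul_assoc]
  rw [e1, ← e2]
  exact hb_cs hG.posSemidef u y

end CS

end

end Crest.Agent.R281.Th_799
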