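import Crest.Agent.R281.Th4_799
import Crest.Agent.R281.Per5_368
import Crest.Agent.R281.T5M_808

/-!
# Row 281, THETA (helper799), part 5: integrals over the fibre tori

* `cell_le`   : `∫_{ball x0 r} g ≤ C mean(g)` for a periodic `g ≥ 0`
* `mean_zero` : the mean of a closed form with vanishing periods over a torus vanishes
* `lamE`      : the linear isomorphism `θ ↦ ∑ θ_j l_j`, uniform bounds
-/

set_option autoImplicit false
set_option linter.unusedSectionVars false
set_option linter.style.longLine false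
set_option maxSynthPendingDepth 3

open MeasureTheory Set Filter Metric Topology Complex
open scoped ContDiff Manifold ComplexConjugate Matrix NNReal ENNReal

namespace Crest.Agent.R281.Th_799

open Crest.Agent.R281.Mc673
open Crest.Agent.R275.Tor812 (box volume_box)
open Crest.Agent.R238.Sch (ee)
open Crest.Agent.R281.Per_368
open Crest.Agent.R281.HkR_835
open Crest.Agent.R281.T5M_808 (mn_zero_of_per)
open Crest.Agent.R281.Ti_846 (Ex)

noncomputable section

section Cell

variable {N : ℕ} {X : Type*} [NormedAddCommGroup X] [NormedSpace ℝ X] [FiniteDimensional ℝ X]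
  [MeasurableSpace X] [BorelSpace X] (μX : Measure X) [μX.IsAddHaarMeasure]

/-- volume of the Euclidean unit ball in the standard measure of `Fin N → ℝ` -/
def v1 (N : ℕ) : ℝ := (volume : Measure (Fin N → ℝ)).real ((WithLp.toLp 2) ⁻¹' ball (0 : V N) 1)

theorem toLp_cont (N : ℕ) : Continuous (fun x : Fin N → ℝ => (WithLp.toLp 2 x : V N)) :=
  PiLp.continuous_toLp 2 _

theorem isOpen_v1 (N : ℕ) : IsOpen ((WithLp.toLp 2 : (Fin N → ℝ) → V N) ⁻¹' ball (0 : V N) 1) :=
  isOpen_ball.preimage (toLp_cont N)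

theorem subset_v1 (N : ℕ) : ((WithLp.toLp 2 : (Fin N → ℝ) → V N) ⁻¹' ball (0 : V N) 1) ⊆
    closedBall 0 1 := by
  intro x hx
  have h1 : ‖(WithLp.toLp 2 x : V N)‖ < 1 := by simpa [mem_ball] using hx
  rw [mem_closedBall, dist_zero_right, pi_norm_le_iff_of_nonneg zero_le_one]
  intro i
  exact (PiLp.norm_apply_le (WithLp.toLp 2 x : V N) i).trans h1.le

theorem v1_pos (N : ℕ) : 0 < v1 N := by
  rw [v1, Measure.real]
  refine ENNReal.toReal_pos (IsOpen.measure_pos _ (isOpen_v1 N) ⟨0, by simp⟩).ne' ?_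
  exact ((measure_mono (subset_v1 N)).trans_lt (isCompact_closedBall _ _).measure_lt_top).ne

/-- integral over a small ball, mean over the torus -/
theorem cell_le (Λ : V N ≃L[ℝ] X) {M r : ℝ} (hM0 : 0 < M) (hM : ∀ θ, ‖Λ θ‖ ≤ M * ‖θ‖)
    (hr : ∀ θ, ‖Λ θ‖ < r → ∀ j, |θ j| < 1 / 2) {x0 : X} {g : X → ℝ} (g0 : ∀ x, 0 ≤ g x)
    (gc : Continuous g) (hg : SP (fun θ : V N => g (x0 + Λ θ))) :
    ∫ x in ball x0 r, g x ∂μX ≤
      (μX.real (ball 0 M) / v1 N) * mn (fun θ : V N => g (x0 + Λ θ)) := by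
  have hpX : ProperSpace X := FiniteDimensional.proper ℝ X
  set Λ' : (Fin N → ℝ) ≃L[ℝ] X := (EuclideanSpace.equiv (Fin N) ℝ).symm.trans Λ with hΛ'
  have hΛe : ∀ x, Λ' x = Λ (WithLp.toLp 2 x) := fun x => rfl
  set ν : Measure X := (volume : Measure (Fin N → ℝ)).map Λ' with hν
  have hνH : ν.IsAddHaarMeasure := Λ'.isAddHaarMeasure_map volume
  set c : ℝ≥0 := Measure.addHaarScalarFactor ν μX with hc
  have hνμ : ν = c • μX := Measure.isAddLeftInvariant_eq_smul ν μX
  have hme : MeasurableEmbedding Λ' := Λ'.toHomeomorph.measurableEmbedding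
  -- lower bound of `c`
  have hcb : v1 N ≤ (c : ℝ) * μX.real (ball 0 M) := by
    have h1 : ν (ball 0 M) = (c : ℝ≥0∞) * μX (ball 0 M) := by
      rw [hνμ]; rfl
    have h2 : (volume : Measure (Fin N → ℝ)) ((WithLp.toLp 2) ⁻¹' ball (0 : V N) 1) ≤ ν (ball 0 M) := by
      rw [hν, hme.map_apply]
      refine measure_mono fun x hx => ?_
      have h3 : ‖(WithLp.toLp 2 x : V N)‖ < 1 := by simpa [mem_ball] using hx
      show Λ' x ∈ ball (0 : X) M
      rw [mem_ball, dist_zero_right, hΛe]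
      refine (hM _).trans_lt ?_
      nlinarith
    rw [h1] at h2
    have h4 := ENNReal.toReal_mono (ENNReal.mul_ne_top ENNReal.coe_ne_top
      (measure_ball_lt_top (μ := μX)).ne) h2
    rw [ENNReal.toReal_mul] at h4
    exact h4
  have hc0 : 0 < (c : ℝ) := by
    rcases (NNReal.coe_nonneg c).lt_or_eq with h | h
    · exact h
    · rw [← h, zero_mul] at hcb
      exact absurd hcb (not_le.2 (v1_pos N))
  -- the integrals
  have hA : ∫ x in ball x0 r, g x ∂μX = ∫ x in ball 0 r, g (x0 + x) ∂μX := by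
    have h1 := (measurePreserving_add_left μX x0).setIntegral_preimage_emb
      (measurableEmbedding_addLeft x0) g (ball x0 r)
    rw [← h1]
    congr 2
    ext x
    simp [mem_ball, dist_eq_norm]
  have hB : ∫ x in ball 0 r, g (x0 + x) ∂ν = (c : ℝ) * ∫ x in ball 0 r, g (x0 + x) ∂μX := by
    rw [hνμ, Measure.restrict_smul, integral_smul_nnreal_measure]
    rfl
  have hC : ∫ x in ball 0 r, g (x0 + x) ∂ν = ∫ θ in Λ' ⁻¹' ball 0 r, g (x0 + Λ' θ) := by
    rw [hν, hme.setIntegral_map]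
  have hD : ∫ θ in Λ' ⁻¹' ball 0 r, g (x0 + Λ' θ) ≤
      ∫ θ in box (fun _ : Fin N => (-(1 / 2) : ℝ)), g (x0 + Λ' θ) := by
    have hcont : Continuous fun θ => g (x0 + Λ' θ) := by fun_prop
    refine setIntegral_mono_set ?_ (Eventually.of_forall fun θ => g0 _) ?_
    · refine (hcont.continuousOn.integrableOn_compact
        (isCompact_closedBall (0 : Fin N → ℝ) 1)).mono_set fun x hx => ?_
      rw [mem_closedBall, dist_zero_right, pi_norm_le_iff_of_nonneg zero_le_one]
      intro i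
      have h1 : x i ∈ Ioc (-(1 / 2) : ℝ) (-(1 / 2) + 1) := hx i
      rw [Real.norm_eq_abs, abs_le]
      constructor <;> linarith [h1.1, h1.2]
    · refine LE.le.eventuallyLE fun x hx => ?_
      have h1 : ‖Λ (WithLp.toLp 2 x)‖ < r := by
        have : Λ' x ∈ ball (0 : X) r := hx
        rwa [mem_ball, dist_zero_right] at this
      intro i
      have h2 := abs_lt.1 (hr _ h1 i)
      show x i ∈ Ioc (-(1 / 2) : ℝ) (-(1 / 2) + 1)
      have h3 : (WithLp.toLp 2 x : V N) i = x i := rfl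
      rw [h3] at h2
      constructor <;> linarith [h2.1, h2.2]
  have hE : ∫ θ in box (fun _ : Fin N => (-(1 / 2) : ℝ)), g (x0 + Λ' θ) =
      mn (fun θ : V N => g (x0 + Λ θ)) := (mn_eq_box hg _).symm
  rw [hC] at hB
  rw [hE, hB] at hD
  rw [hA]
  set I0 := ∫ x in ball 0 r, g (x0 + x) ∂μX
  set m := mn (fun θ : V N => g (x0 + Λ θ))
  have hI0 : 0 ≤ I0 := integral_nonneg fun x => g0 _
  have hv := v1_pos N
  rw [div_mul_eq_mul_div, le_div_iff₀ hv]
  have hμ0 : 0 ≤ μX.real (ball 0 M) := measureReal_nonneg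
  calc I0 * v1 N ≤ I0 * ((c : ℝ) * μX.real (ball 0 M)) := by gcongr
    _ = (c * I0) * μX.real (ball 0 M) := by ring
    _ ≤ m * μX.real (ball 0 M) := by gcongr
    _ = μX.real (ball 0 M) * m := by ring

end Cell

/-! ### periods and means -/

section Mean

variable {V' X : Type} [NormedAddCommGroup V'] [NormedSpace ℝ V'] [TopologicalSpace X]
  {C : RCh V' X} {N : ℕ} {F : V N → X}

theorem ee_sum (u : V N) : u = ∑ j, u j • (ee j : V N) := by
  ext i
  simp [ee, Finset.sum_apply, Pi.single_apply]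

theorem sp_pull (hF : SmI C univ F) (hper : ∀ (k : Fin N → ℤ) (θ : V N), F (θ + kv k) = F θ)
    (w : F2 C) (u v : V N) : SP (fun θ => pull w F θ u v) where
  sm := by
    have h1 := hF.pull_smooth w
    rw [contDiffOn_univ] at h1
    exact (h1.clm_apply contDiff_const).clm_apply contDiff_const
  per := fun k θ => by
    show pull w F (θ + kv k) u v = _
    rw [hF.pull_add w (l := kv k) (fun ζ _ => ⟨mem_univ _, hper k ζ⟩) (mem_univ θ)]

/-- vanishing periods ==> vanishing means -/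
theorem mean_zero (hF : SmI C univ F) (hper : ∀ (k : Fin N → ℤ) (θ : V N), F (θ + kv k) = F θ)
    {w : F2 C} (hw : ∀ θ j k, per (pull w F) θ (ee j) (ee k) = 0) (u v : V N) :
    mn (fun θ => pull w F θ u v) = 0 := by
  have h1 : ∀ j k, mn (fun θ => pull w F θ (ee j) (ee k)) = 0 := fun j k =>
    mn_zero_of_per (sp_pull hF hper w _ _) (v := ee j) (w := ee k) fun θ => hw θ j k
  have h2 : (fun θ => pull w F θ u v) =
      fun θ => ∑ j, ∑ k, (u j * v k) * pull w F θ (ee j) (ee k) := by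
    funext θ
    conv_lhs => rw [ee_sum u, ee_sum v]
    simp only [map_sum, map_smul, sum_apply, smul_apply,
      smul_eq_mul, Finset.mul_sum]
    rw [Finset.sum_comm]
    refine Finset.sum_congr rfl fun j _ => Finset.sum_congr rfl fun k _ => ?_
    ring
  rw [h2, mn_sum]
  · refine Finset.sum_eq_zero fun j _ => ?_
    rw [mn_sum]
    · refine Finset.sum_eq_zero fun k _ => ?_
      rw [mn_mul, h1, mul_zero]
    · exact fun k _ => (sp_pull hF hper w _ _).smul _
  · intro j _
    exact SP.sum _ fun k _ => (sp_pull hF hper w _ _).smul _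

theorem mean_eq (hF : SmI C univ F) (hper : ∀ (k : Fin N → ℤ) (θ : V N), F (θ + kv k) = F θ)
    {w w0 b : F2 C} {t : ℝ} (hb : ∀ θ j k, per (pull b F) θ (ee j) (ee k) = 0)
    (hE : Ex (w - (w0 + t • b))) (u v : V N) :
    mn (fun θ => pull w F θ u v) = mn (fun θ => pull w0 F θ u v) := by
  have h1 : ∀ θ j k, per (pull (w - w0) F) θ (ee j) (ee k) = 0 := by
    intro θ j k
    refine per_pull_comb (Λ := {l | ∃ k : Fin N → ℤ, l = kv k}) hF ?_ (κ := Unit) (b := fun _ => b)
      (t := fun _ => t) ?_ ⟨fun i => if i = j then 1 else 0, ?_⟩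
      ⟨fun i => if i = k then 1 else 0, ?_⟩ (fun s t => mem_univ _) (fun _ => hb θ j k)
    · rintro l ⟨k, rfl⟩ ζ -
      exact ⟨mem_univ _, hper k ζ⟩
    · have e : w - w0 - ∑ _k : Unit, t • b = w - (w0 + t • b) := by
        simp only [Finset.univ_unique, Finset.sum_const, Finset.card_singleton, one_smul]
        abel
      rw [e]; exact hE
    · ext i; simp [ee, kv, PiLp.single_apply]
    · ext i; simp [ee, kv, PiLp.single_apply]
  have h2 := mean_zero hF hper h1 u v
  have h3 : (fun θ => pull w F θ u v) = fun θ => pull (w - w0) F θ u v + pull w0 F θ u v := by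
    funext θ
    rw [← pull_add_w, sub_add_cancel]
  rw [h3, mn_add (sp_pull hF hper _ _ _) (sp_pull hF hper _ _ _), h2, zero_add]

end Mean

/-! ### the linear coordinates of a lattice -/

section Lam

variable {N : ℕ} {X : Type*} [NormedAddCommGroup X] [NormedSpace ℝ X] [FiniteDimensional ℝ X]

/-- `θ ↦ ∑ θ_j l_j` -/
def lam (l : Fin N → X) : V N →L[ℝ] X :=
  ∑ j, (EuclideanSpace.proj j : V N →L[ℝ] ℝ).smulRight (l j)

theorem lam_apply (l : Fin N → X) (θ : V N) : lam l θ = ∑ j, θ j • l j := by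
  simp [lam]

theorem lam_ee (l : Fin N → X) (j : Fin N) : lam l (ee j) = l j := by
  rw [lam_apply]
  simp [ee, PiLp.single_apply]

theorem lam_inj {l : Fin N → X} (hl : LinearIndependent ℝ l) : Function.Injective (lam l) := by
  refine (injective_iff_map_eq_zero _).2 fun θ hθ => ?_
  rw [lam_apply] at hθ
  have := Fintype.linearIndependent_iff.1 hl (fun j => θ j) hθ
  ext j
  exact this j

/-- the isomorphism -/
def lamE {l : Fin N → X} (hl : LinearIndependent ℝ l) (hN : Module.finrank ℝ X = N) : V N ≃L[ℝ] X :=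
  (LinearMap.linearEquivOfInjective (lam l : V N →ₗ[ℝ] X) (lam_inj hl)
    (by rw [finrank_euclideanSpace_fin, hN])).toContinuousLinearEquiv

theorem lamE_apply {l : Fin N → X} (hl : LinearIndependent ℝ l) (hN : Module.finrank ℝ X = N) (θ : V N) :
    lamE hl hN θ = ∑ j, θ j • l j := lam_apply l θ

theorem continuousAt_lam {Y : Type*} [TopologicalSpace Y] {l : Fin N → Y → X} {y0 : Y}
    (hl : ∀ j, ContinuousAt (l j) y0) : ContinuousAt (fun y => lam fun j => l j y) y0 := by
  unfold lam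
  refine tendsto_finsetSum _ fun j _ => ?_
  exact ((ContinuousLinearMap.smulRightL ℝ (V N) X
    (EuclideanSpace.proj j : V N →L[ℝ] ℝ)).continuous.continuousAt.comp (hl j) : _)

/-- uniform bounds near a point -/
theorem lam_bounds {Y : Type*} [TopologicalSpace Y] {l : Fin N → Y → X} {y0 : Y}
    (hl : ∀ j, ContinuousAt (l j) y0) (hli : LinearIndependent ℝ fun j => l j y0)
    (hN : Module.finrank ℝ X = N) :
    ∃ m M : ℝ, 0 < m ∧ 0 < M ∧ ∀ᶠ y in 𝓝 y0, ∀ θ : V N,
      m * ‖θ‖ ≤ ‖lam (fun j => l j y) θ‖ ∧ ‖lam (fun j => l j y) θ‖ ≤ M * ‖θ‖ := by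
  set Λ := lamE hli hN with hΛ
  set Γ : X →L[ℝ] V N := (Λ.symm : X →L[ℝ] V N) with hΓ
  have h0 : ∀ θ : V N, ‖θ‖ ≤ (‖Γ‖ + 1) * ‖lam (fun j => l j y0) θ‖ := by
    intro θ
    have h1 : Γ (lam (fun j => l j y0) θ) = θ := Λ.symm_apply_apply θ
    calc ‖θ‖ = ‖Γ (lam (fun j => l j y0) θ)‖ := by rw [h1]
      _ ≤ ‖Γ‖ * ‖lam (fun j => l j y0) θ‖ := Γ.le_opNorm _
      _ ≤ _ := by gcongr; linarith
  set m0 : ℝ := (‖Γ‖ + 1)⁻¹ with hm0
  have hΓp : 0 < ‖Γ‖ + 1 := by positivity
  have hm0p : 0 < m0 := inv_pos.2 hΓp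
  have h1 : ∀ θ : V N, m0 * ‖θ‖ ≤ ‖lam (fun j => l j y0) θ‖ := by
    intro θ
    rw [hm0, inv_mul_le_iff₀ hΓp]
    exact h0 θ
  have hc := continuousAt_lam hl
  have h2 : ∀ᶠ y in 𝓝 y0, ‖lam (fun j => l j y) - lam (fun j => l j y0)‖ < m0 / 2 := by
    have := hc.eventually (ball_mem_nhds _ (half_pos hm0p))
    filter_upwards [this] with y hy
    rwa [dist_eq_norm] at hy
  refine ⟨m0 / 2, ‖lam (fun j => l j y0)‖ + m0, half_pos hm0p, by positivity, ?_⟩
  filter_upwards [h2] with y hy θ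
  have h3 : ‖lam (fun j => l j y) θ - lam (fun j => l j y0) θ‖ ≤ m0 / 2 * ‖θ‖ := by
    have : lam (fun j => l j y) θ - lam (fun j => l j y0) θ =
        (lam (fun j => l j y) - lam (fun j => l j y0)) θ := rfl
    rw [this]
    exact (ContinuousLinearMap.le_opNorm _ _).trans (by gcongr)
  constructor
  · have h4 := h1 θ
    have h5 := norm_sub_norm_le (lam (fun j => l j y0) θ) (lam (fun j => l j y) θ)
    rw [norm_sub_rev] at h5
    linarith
  · have h4 := (lam (fun j => l j y0)).le_opNorm θ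
    have h5 := norm_sub_norm_le (lam (fun j => l j y) θ) (lam (fun j => l j y0) θ)
    have h6 : m0 / 2 * ‖θ‖ ≤ m0 * ‖θ‖ := by gcongr; linarith
    rw [add_mul]
    linarith

end Lam

end

end Crest.Agent.R281.Th_799
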