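import Crest.Agent.R281.Vol4_847
import Crest.Agent.R273.TLs_201

/-!
# Row 281, THETA, class half, part 1 (helper847): hyperkaehler metrics in `K + t c₁(L)`

`B : Atl (2 * n) M` compact, `L` nef and isotropic, `h : HM L`, `0 < q (K, L)`.

* `exists_nef_kah` : for every `t ≥ 0` a Kaehler metric `K + t (cur h + ∂∂̄ ψ)`
* `exists_alpha`   : for every `t ≥ 1` a hyperkaehler metric `α = K + t (cur h + ∂∂̄ φ)`, `max φ = 0`,
                     `(r S) (αᵀ)⁻¹ (r S)ᴴ = α`, `c₁ t ≤ r² ≤ c₂ t`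
-/

set_option autoImplicit false
set_option linter.unusedSectionVars false
set_option maxSynthPendingDepth 3

open Set Filter Topology Complex MeasureTheory
open scoped ContDiff Matrix ComplexConjugate ComplexOrder

namespace Crest.Agent.R281.ThC_847

open Crest.Agent.R275 Crest.Agent.R275.Geo Crest.Agent.R275.Core144
open Crest.Agent.R275.GC293
open Crest.Agent.R273.Defs_333 Crest.Agent.R273.HM_333
open Crest.Agent.R273.Kah_333 Crest.Agent.R273.Vol_333 Crest.Agent.R273.StV_37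
open Crest.Agent.R273.Green_5
open Crest.Agent.R273.VolInv_5
open Crest.Agent.R281.HkR_835 Crest.Agent.R281.Ti_846
open Crest.Agent.R281.Nef_252 (curK)
open Crest.Agent.R281.HkP1_508 Crest.Agent.R281.HkP2_508 Crest.Agent.R281.HkP3_508
open Crest.Agent.R281.Defs_273 (H2 HSymp NefW Isotropic qd)
open Crest.Agent.R281.Fuj1_207 Crest.Agent.R281.Fuj4_207 Crest.Agent.R281.Fuj5_207
open Crest.Agent.R281.Fuj7_207
open Crest.Agent.R281.Vol_847
open Crest.Agent.R273.TLs_201 (hsf_add hsf_smul)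

noncomputable section

section any

variable {d : ℕ} {M : Type} [TopologicalSpace M] {A : Atl d M} {L : LB A}

theorem sm_add {u v : M → ℝ} (hu : A.Sm u) (hv : A.Sm v) : A.Sm (fun x => u x + v x) := fun i =>
  (hu i).add (hv i)

theorem sm_smul (c : ℝ) {u : M → ℝ} (hu : A.Sm u) : A.Sm (fun x => c * u x) := fun i =>
  contDiffOn_const.mul (hu i)

theorem sm_neg' {u : M → ℝ} (hu : A.Sm u) : A.Sm (fun x => (-1 : ℝ) * u x) := sm_smul _ hu

theorem sm_const' (c : ℝ) : A.Sm (fun _ : M => c) := fun _ => contDiffOn_const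

/-- Kaehler metrics in `K + t c₁(L)` -/
theorem exists_nef_kah (K : Kah A) (hL : NefW K L) (h : HM L) {t : ℝ} (ht : 0 ≤ t) :
    ∃ (Kt : Kah A) (ψ : M → ℝ) (_ : A.Sm ψ), ∀ i, ∀ x ∈ (A.e i).source,
      Kt.g i x = K.g i x + (t : ℂ) • (cur h i x + hsf A ψ i x) := by
  set ε : ℝ := 1 / (2 * (t + 1)) with hε
  have hε0 : 0 < ε := by positivity
  obtain ⟨h', hh'⟩ := hL ε hε0
  have hψ : A.Sm (fun x => (-1 : ℝ) * ratio h h' x) := sm_smul _ (sm_ratio h h')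
  have e1 : ∀ i, ∀ x ∈ (A.e i).source,
      cur h i x + hsf A (fun x => (-1 : ℝ) * ratio h h' x) i x = cur h' i x := by
    intro i x hx
    rw [hsf_smul _ (sm_ratio h h') hx, cur_ratio h h' i hx]
    simp [sub_eq_add_neg]
  have hte : t * ε < 1 := by
    rw [hε, mul_one_div, div_lt_one (by positivity)]
    linarith
  have htψ := sm_smul t hψ
  have e2 : ∀ i, ∀ x ∈ (A.e i).source, (lin (ofKah K) (curK h) 1 t htψ).g i x =
      K.g i x + (t : ℂ) • (cur h i x + hsf A (fun x => (-1 : ℝ) * ratio h h' x) i x) := by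
    intro i x hx
    rw [lin_g, hsf_smul t hψ hx]
    show ((1 : ℝ) : ℂ) • K.g i x + (t : ℂ) • cur h i x + _ = _
    rw [Complex.ofReal_one, one_smul, smul_add, add_assoc]
  refine ⟨(lin (ofKah K) (curK h) 1 t htψ).kah fun i x hx => ?_, _, hψ, e2⟩
  rw [e2 i x hx, e1 i x hx]
  have h1 : K.g i x + (t : ℂ) • cur h' i x =
      ((1 - t * ε : ℝ) : ℂ) • K.g i x + (t : ℂ) • (cur h' i x + (ε : ℂ) • K.g i x) := by
    push_cast
    module
  rw [h1]
  refine Matrix.PosDef.add_posSemidef ((K.pos i x hx).smul ?_) ((hh' i x hx).smul ?_)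
  · exact_mod_cast (by linarith : (0 : ℝ) < 1 - t * ε)
  · exact_mod_cast ht

/-- the class of a field `s X + t Y + ∂∂̄ u` -/
theorem f2_rel {X Y Z : K11 A} {s t : ℝ} {u : M → ℝ} (hu : A.Sm u)
    (hZ : ∀ i, ∀ x ∈ (A.e i).source,
      Z.g i x = (s : ℂ) • X.g i x + (t : ℂ) • Y.g i x + hsf A u i x) :
    Z.f2 - (s • X.f2 + t • Y.f2) ∈ exS (ofAtl A) := by
  have h1 : Z.f2 - (lin X Y s t hu).f2 ∈ exS (ofAtl A) := by
    refine mem_exS_of_eq fun i z hz v w => ?_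
    rw [K11.f2_w _ hz, K11.f2_w _ hz, hZ i _ ((A.e i).map_target hz), lin_g]
  have h2 := (exS (ofAtl A)).add_mem h1 (f2_lin X Y s t hu)
  rwa [sub_add_sub_cancel] at h2

end any

section main

variable {n : ℕ} {M : Type} [TopologicalSpace M] [T2Space M] [CompactSpace M] [ConnectedSpace M]
  {B : Atl (2 * n) M} {L : LB B} [Finite B.ι]

theorem sm_cont {u : M → ℝ} (hu : B.Sm u) : Continuous u :=
  Crest.Agent.R273.FIc0_597.cont_sm hu

/-- **the hyperkaehler metrics `α_t = K + t (cur h + ∂∂̄ φ_t)`** -/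
theorem exists_alpha (P : Part B) (K : Kah B) (σ : HSymp B) (hu : σ.Uniq) (hn : 1 ≤ n)
    (hn2 : 2 ≤ 2 * n) (hc : ClH σ.toH2) (hL : NefW K L) (hiso : Isotropic P σ L) (h : HM L)
    (hq : 0 < BB P hn2 hc (ofKah K).f2 (curK h).f2) :
    ∃ c₁ c₂ : ℝ, 0 < c₁ ∧ 0 < c₂ ∧ ∀ t : ℝ, 1 ≤ t →
      ∃ (φ : M → ℝ) (α : Kah B) (r : ℝ) (hr : (r : ℂ) ≠ 0), B.Sm φ ∧
        (∀ i, ∀ x ∈ (B.e i).source, α.g i x = K.g i x + (t : ℂ) • (cur h i x + hsf B φ i x)) ∧
        (∀ x, φ x ≤ 0) ∧ (∃ x, φ x = 0) ∧ 0 < r ∧ HK α (smulHS (r : ℂ) hr σ) ∧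
        c₁ * t ≤ r ^ 2 ∧ r ^ 2 ≤ c₂ * t := by
  set T := IM (lc (2 * n)) (bc (2 * n)) (RPart.ofPart P) with hT
  set S : ℝ := T (fun _ => reS σ.toH2 hc) with hS
  have hS0 : 0 < S := Isq3_358.S_pos P σ hu hc rfl K _
  have hR : 0 < rt S n := rt_pos hS0 n
  set q0 := BB P hn2 hc (ofKah K).f2 (ofKah K).f2 with hq0
  set q1 := BB P hn2 hc (ofKah K).f2 (curK h).f2 with hq1
  have hq0' : 0 < q0 := BB_KK P hn hn2 hu hc K
  have hee : BB P hn2 hc (curK h).f2 (curK h).f2 = 0 := isoQ P hn hn2 hu hc K hiso h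
  refine ⟨2 * q1 / rt S n, (q0 + 2 * q1) / rt S n, by positivity, by positivity, fun t ht => ?_⟩
  have ht0 : 0 < t := by linarith
  obtain ⟨Kt, ψ, hψ, e1⟩ := exists_nef_kah K hL h ht0.le
  obtain ⟨u, hs, hp, r, hr, h0, h1⟩ := exists_HK_class P (KpK_487.yau_kah B) Kt σ hu
  set α := addK Kt u hs hp with hα
  have hφ0 : B.Sm (fun x => ψ x + t⁻¹ * u x) := sm_add hψ (sm_smul _ hs)
  have e2 : ∀ i, ∀ x ∈ (B.e i).source, α.g i x =
      K.g i x + (t : ℂ) • (cur h i x + hsf B (fun x => ψ x + t⁻¹ * u x) i x) := by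
    intro i x hx
    have h5 : α.g i x = Kt.g i x + hsf B u i x := rfl
    rw [h5, e1 i x hx, hsf_add hψ (sm_smul _ hs) hx, hsf_smul _ hs hx]
    have h6 : (t : ℂ) ≠ 0 := by exact_mod_cast ht0.ne'
    rw [← add_assoc (cur h i x), smul_add (t : ℂ) (cur h i x + hsf B ψ i x), smul_smul,
      Complex.ofReal_inv, mul_inv_cancel₀ h6, one_smul, add_assoc (K.g i x)]
  -- the class
  have hr2 : r ^ 2 = (q0 + 2 * t * q1) / rt S n := by
    obtain ⟨H, h2, h3, h4⟩ := exists_triple hc hr h1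
    have ht' := tri_of_hk (lc (2 * n)) (bc (2 * n)) (RPart.ofPart P) (N := 2 * n) rfl H h0 h3 h4
      (by rw [h2]; exact hposK _ _)
    have h5 : BB P hn2 hc (ofKah α).f2 (ofKah α).f2 = rt S n / (r⁻¹) ^ 2 := by
      rw [← h2]
      exact ht'.Qf_kk (IM_symm _ _ _) hn rfl hn2
    have h6 : (ofKah α).f2 - ((1 : ℝ) • (ofKah K).f2 + t • (curK h).f2) ∈ exS (ofAtl B) := by
      refine f2_rel (sm_smul t hφ0) fun i x hx => ?_
      rw [hsf_smul _ hφ0 hx]
      show α.g i x = ((1 : ℝ) : ℂ) • K.g i x + (t : ℂ) • cur h i x + _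
      rw [e2 i x hx, Complex.ofReal_one, one_smul, smul_add, add_assoc]
    have h7 : BB P hn2 hc (ofKah α).f2 (ofKah α).f2 = q0 + 2 * t * q1 := by
      rw [BB_congr P hn2 hc h6, BB_symm, BB_congr P hn2 hc h6]
      simp only [map_add, map_smul, LinearMap.add_apply, LinearMap.smul_apply, smul_eq_mul]
      rw [BB_symm P hn2 hc (curK h).f2 (ofKah K).f2, hee]
      ring
    rw [h7] at h5
    rw [h5, inv_pow, div_inv_eq_mul, mul_div_cancel_left₀ _ hR.ne']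
  -- normalisation
  obtain ⟨x0, -, hx0⟩ := isCompact_univ.exists_isMaxOn univ_nonempty (sm_cont hφ0).continuousOn
  have hφ : B.Sm (fun x => (ψ x + t⁻¹ * u x) + (fun _ => -(ψ x0 + t⁻¹ * u x0)) x) :=
    sm_add hφ0 (sm_const' _)
  refine ⟨_, α, r, hr, hφ, fun i x hx => ?_, fun x => ?_, ⟨x0, ?_⟩, h0, h1, ?_, ?_⟩
  · rw [hsf_add hφ0 (sm_const' _) hx, Crest.Agent.R273.TLs_201.hsf_const, add_zero]
    exact e2 i x hx
  · have := hx0 (mem_univ x)
    show ψ x + t⁻¹ * u x + -(ψ x0 + t⁻¹ * u x0) ≤ 0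
    have h8 : ψ x + t⁻¹ * u x ≤ ψ x0 + t⁻¹ * u x0 := this
    linarith
  · show ψ x0 + t⁻¹ * u x0 + -(ψ x0 + t⁻¹ * u x0) = 0
    ring
  · rw [hr2, div_mul_eq_mul_div]
    refine div_le_div_of_nonneg_right ?_ hR.le
    have h9 : 2 * q1 * t = 2 * t * q1 := by ring
    rw [h9]
    linarith
  · rw [hr2, div_mul_eq_mul_div]
    refine div_le_div_of_nonneg_right ?_ hR.le
    have h9 : (q0 + 2 * q1) * t = q0 * t + 2 * t * q1 := by ring
    have h10 : q0 * 1 ≤ q0 * t := mul_le_mul_of_nonneg_left ht hq0'.le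
    rw [h9]
    linarith

end main

end

end Crest.Agent.R281.ThC_847
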