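import Crest.Agent.R281.Th5_799
import Crest.Agent.R281.ThC1_847

/-!
# Row 281, THETA (helper799), part 6: the tube and the sequence, the hypotheses of the core

* `TubA`  : a holomorphic tube of Lagrangian tori over the atlas (order `(y, x)`)
* `Sq`    : the sequence `α_k = K + t_k (cur h + ∂∂̄ φ_k)` of hyperkaehler metrics
* `exists_hyp` : near every point of the tube the hypotheses of `core` hold
-/

set_option autoImplicit false
set_option linter.unusedSectionVars false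
set_option linter.style.longLine false
set_option maxSynthPendingDepth 3

open MeasureTheory Set Filter Metric Topology Complex
open scoped ContDiff Manifold ComplexConjugate Matrix NNReal ENNReal ComplexOrder

namespace Crest.Agent.R281.Th_799

open Crest.Agent.R275 Crest.Agent.R275.Geo Crest.Agent.R275.Core144
open Crest.Agent.R275.GC293
open Crest.Agent.R273.Defs_333 Crest.Agent.R273.HM_333 Crest.Agent.R273.Hess_333
open Crest.Agent.R273.Kah_333
open Crest.Agent.R281.HkR_835 Crest.Agent.R281.Ti_846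
open Crest.Agent.R281.Nef_252 (curK hb_nonneg hb_add hb_smul f2_self)
open Crest.Agent.R281.HkP1_508 Crest.Agent.R281.HkP2_508 Crest.Agent.R281.HkP3_508
open Crest.Agent.R281.Defs_273 (H2 HSymp NefW Isotropic qd)
open Crest.Agent.R281.Fuj5_207
open Crest.Agent.R281.Mc673
open Crest.Agent.R238.Sch (ee)
open Crest.Agent.R281.Per_368
open Crest.Agent.R281.ThC_847 (f2_rel sm_smul)

noncomputable section

variable {n : ℕ} {M : Type} [TopologicalSpace M] {B : Atl (2 * n) M} {L : LB B}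

/-- a holomorphic tube of Lagrangian tori over the atlas, action-angle coordinates `(y, x)` -/
structure TubA (B : Atl (2 * n) M) (σ : HSymp B) (D : Set (Cn n)) (Ψ : Cn n × Cn n → M)
    (l : Fin (2 * n) → Cn n → Cn n) : Prop where
  op : IsOpen D
  sm : SmI (ofAtl B) (D ×ˢ univ) Ψ
  hol : ∀ p : Cn n × Cn n, p.1 ∈ D → ∀ i, Ψ p ∈ (B.e i).source →
    DifferentiableAt ℂ (fun q => B.e i (Ψ q)) p
  inj : ∀ p : Cn n × Cn n, p.1 ∈ D → ∀ i, Ψ p ∈ (B.e i).source →
    Function.Injective (fderiv ℝ (fun q => B.e i (Ψ q)) p)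
  lc : ∀ k, ContinuousOn (l k) D
  lli : ∀ y ∈ D, LinearIndependent ℝ (fun k => l k y)
  per : ∀ y ∈ D, ∀ x k, Ψ (y, x + l k y) = Ψ (y, x)
  lag : ∀ p : Cn n × Cn n, p.1 ∈ D → ∀ i, Ψ p ∈ (B.e i).source → ∀ u v : Cn n,
    sb (σ.s i (Ψ p)) (fderiv ℝ (fun q => B.e i (Ψ q)) p (0, u))
      (fderiv ℝ (fun q => B.e i (Ψ q)) p (0, v)) = 0

/-- the sequence of hyperkaehler metrics -/
structure Sq (K : Kah B) (σ : HSymp B) (h : HM L) (c₁ : ℝ) (t : ℕ → ℝ) (φ : ℕ → M → ℝ) :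
    Prop where
  one : ∀ k, 1 ≤ t k
  inf : Tendsto t atTop atTop
  sm : ∀ k, B.Sm (φ k)
  al : ∀ k, ∃ (α : Kah B) (r : ℝ) (hr : (r : ℂ) ≠ 0),
    (∀ i, ∀ x ∈ (B.e i).source, α.g i x = K.g i x + (t k : ℂ) • (cur h i x + hsf B (φ k) i x)) ∧
    HK α (smulHS (r : ℂ) hr σ) ∧ c₁ * t k ≤ r ^ 2

theorem Sq.sub {K : Kah B} {σ : HSymp B} {h : HM L} {c₁ : ℝ} {t : ℕ → ℝ} {φ : ℕ → M → ℝ}
    (S : Sq K σ h c₁ t φ) {s : ℕ → ℕ} (hs : Tendsto s atTop atTop) :
    Sq K σ h c₁ (fun k => t (s k)) (fun k => φ (s k)) where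
  one _ := S.one _
  inf := S.inf.comp hs
  sm _ := S.sm _
  al _ := S.al _

variable {K : Kah B} {σ : HSymp B} {h : HM L} {D : Set (Cn n)} {Ψ : Cn n × Cn n → M}
  {l : Fin (2 * n) → Cn n → Cn n}

/-! ### integer combinations of periods -/

theorem int_per {G α : Type*} [AddCommGroup G] (f : G → α) {N : ℕ} (u : Fin N → G)
    (hf : ∀ x j, f (x + u j) = f x) (k : Fin N → ℤ) (x : G) : f (x + ∑ j, k j • u j) = f x := by
  let H : AddSubgroup G :=
    { carrier := {v | ∀ x, f (x + v) = f x}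
      zero_mem' := fun x => by rw [add_zero]
      add_mem' := fun {a b} ha hb x => by rw [← add_assoc, hb, ha]
      neg_mem' := fun {a} ha x => by
        have := ha (x + -a)
        rw [add_assoc, neg_add_cancel, add_zero] at this
        exact this.symm }
  have h1 : ∑ j, k j • u j ∈ H := H.sum_mem fun j _ => H.zsmul_mem (fun x => hf x j) _
  exact h1 x

/-! ### cut off -/

theorem cut_cont {E : Type*} [NormedAddCommGroup E] {η g : E → ℝ} {O : Set E} (hη : Continuous η)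
    (hO : IsOpen O) (hs : tsupport η ⊆ O) (hg : ContinuousOn g O) : Continuous fun p => η p * g p := by
  refine continuous_iff_continuousAt.2 fun p => ?_
  by_cases hp : p ∈ O
  · exact hη.continuousAt.mul (hg.continuousAt (hO.mem_nhds hp))
  · have h1 : p ∈ (tsupport η)ᶜ := fun h' => hp (hs h')
    have h2 : (fun p => η p * g p) =ᶠ[𝓝 p] fun _ => 0 := by
      filter_upwards [(isClosed_tsupport η).isOpen_compl.mem_nhds h1] with q hq
      rw [image_eq_zero_of_notMem_tsupport hq, zero_mul]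
    exact (continuousAt_const (y := (0 : ℝ))).congr h2.symm

theorem cut_sm {E : Type*} [NormedAddCommGroup E] [NormedSpace ℝ E] {η g : E → ℝ} {O : Set E}
    (hη : ContDiff ℝ ∞ η) (hO : IsOpen O) (hs : tsupport η ⊆ O) (hg : ContDiffOn ℝ ∞ g O) :
    ContDiff ℝ ∞ fun p => η p * g p := by
  refine contDiff_iff_contDiffAt.2 fun p => ?_
  by_cases hp : p ∈ O
  · exact hη.contDiffAt.mul (hg.contDiffAt (hO.mem_nhds hp))
  · have h1 : p ∈ (tsupport η)ᶜ := fun h' => hp (hs h')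
    have h2 : (fun p => η p * g p) =ᶠ[𝓝 p] fun _ => 0 := by
      filter_upwards [(isClosed_tsupport η).isOpen_compl.mem_nhds h1] with q hq
      rw [image_eq_zero_of_notMem_tsupport hq, zero_mul]
    exact (contDiffAt_const (c := (0 : ℝ))).congr_of_eventuallyEq h2

theorem mn_le {N : ℕ} {f : V N → ℝ} (hf : SP f) {c : ℝ} (hc : ∀ θ : V N, ‖θ‖ ≤ N → f θ ≤ c) : mn f ≤ c := by
  have h1 : mn (fun _ : V N => c) = c := mn_const c
  rw [← h1]
  refine setIntegral_mono_on (integrable_box hf) (integrable_box (SP.const c)) ?_ fun x hx => ?_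
  · have : Crest.Agent.R275.Tor812.box (0 : Fin N → ℝ) = Set.univ.pi fun _ => Ioc (0 : ℝ) 1 := by
      ext x
      simp [Crest.Agent.R275.Tor812.box]
    rw [this]
    exact MeasurableSet.univ_pi fun _ => measurableSet_Ioc
  · refine hc _ ?_
    rw [ee_sum (WithLp.toLp 2 x : V N)]
    refine (norm_sum_le _ _).trans ?_
    have h2 : ∀ j : Fin N, ‖(WithLp.toLp 2 x : V N) j • (ee j : V N)‖ ≤ 1 := by
      intro j
      have h3 : x j ∈ Ioc ((0 : Fin N → ℝ) j) ((0 : Fin N → ℝ) j + 1) := hx j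
      simp only [Pi.zero_apply, zero_add] at h3
      rw [norm_smul]
      have h4 : ‖(ee j : V N)‖ = 1 := by simp [ee]
      rw [h4, mul_one, Real.norm_eq_abs, abs_le]
      show -1 ≤ x j ∧ x j ≤ 1
      constructor <;> linarith [h3.1, h3.2]
    calc ∑ j : Fin N, ‖(WithLp.toLp 2 x : V N) j • (ee j : V N)‖ ≤ ∑ _j : Fin N, (1 : ℝ) :=
          Finset.sum_le_sum fun j _ => h2 j
      _ = N := by simp

namespace TubA

variable (T : TubA B σ D Ψ l)
include T

/-- the domain of a chart -/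
theorem isOpen_dom (i : B.ι) : IsOpen ((D ×ˢ univ) ∩ Ψ ⁻¹' (B.e i).source) :=
  T.sm.isOpen_pre (B.e i).open_source

theorem hol_ev {p : Cn n × Cn n} (hp : p.1 ∈ D) {i : B.ι} (hi : Ψ p ∈ (B.e i).source) :
    ∀ᶠ q in 𝓝 p, DifferentiableAt ℂ (fun q => B.e i (Ψ q)) q := by
  filter_upwards [(T.isOpen_dom i).mem_nhds ⟨⟨hp, mem_univ _⟩, hi⟩] with q hq
  exact T.hol q hq.1.1 i hq.2

/-- the pull back of the form of a matrix -/
theorem pull_self (κ : K11 B) {p : Cn n × Cn n} (hp : p.1 ∈ D) {i : B.ι}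
    (hi : Ψ p ∈ (B.e i).source) (v : Cn n × Cn n) :
    pull κ.f2 Ψ p v (I • v) = (hb (κ.g i (Ψ p)) (fderiv ℝ (fun q => B.e i (Ψ q)) p v)
      (fderiv ℝ (fun q => B.e i (Ψ q)) p v)).re := by
  have h1 := T.sm.pull_eq κ.f2 (i := i) (ζ := p) ⟨hp, mem_univ _⟩ hi
  rw [h1, pl_apply]
  have h2 : fderiv ℝ (fun y => (ofAtl B).e i (Ψ y)) p (I • v) =
      I • fderiv ℝ (fun q => B.e i (Ψ q)) p v := fd_I (T.hol p hp i hi) v
  rw [h2]
  have h3 := f2_self κ (i := i) (z := B.e i (Ψ p)) ((B.e i).map_source hi)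
    (fderiv ℝ (fun q => B.e i (Ψ q)) p v)
  rw [(B.e i).left_inv hi] at h3
  exact h3

theorem pull_nonneg (κ : Kah B) {p : Cn n × Cn n} (hp : p.1 ∈ D) (v : Cn n × Cn n) :
    0 ≤ pull (ofKah κ).f2 Ψ p v (I • v) := by
  obtain ⟨i, hi⟩ := B.cover (Ψ p)
  rw [T.pull_self (ofKah κ) hp hi]
  exact hb_nonneg (κ.pos i _ hi).posSemidef _

theorem pull_cont (w : F2 (ofAtl B)) (u v : Cn n × Cn n) :
    ContinuousOn (fun p => pull w Ψ p u v) (D ×ˢ univ) :=
  ((T.sm.pull_smooth w).continuousOn.clm_apply continuousOn_const).clm_apply continuousOn_const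

/-- bound on compacts -/
theorem pull_bdd (w : F2 (ofAtl B)) {Q : Set (Cn n × Cn n)} (hQ : IsCompact Q)
    (hQD : Q ⊆ D ×ˢ univ) : ∃ C : ℝ, 0 ≤ C ∧ ∀ p ∈ Q, ∀ u v, |pull w Ψ p u v| ≤ C * ‖u‖ * ‖v‖ := by
  obtain ⟨C, hC⟩ := hQ.exists_bound_of_continuousOn ((T.sm.pull_smooth w).continuousOn.mono hQD)
  refine ⟨max C 0, le_max_right _ _, fun p hp u v => ?_⟩
  rw [← Real.norm_eq_abs]
  refine ((pull w Ψ p).le_opNorm₂ u v).trans ?_
  have := (hC p hp).trans (le_max_left C 0)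
  gcongr

/-! #### the fibre -/

/-- the fibre torus in angle coordinates -/
theorem fib_smI {y : Cn n} (hy : y ∈ D) (x0 : Cn n) (Λ : V (2 * n) →L[ℝ] Cn n) :
    SmI (ofAtl B) univ
      (fun θ : V (2 * n) => Ψ ((y, x0) + (ContinuousLinearMap.inr ℝ (Cn n) (Cn n)).comp Λ θ)) := by
  have h1 := T.sm.comp_affine ((ContinuousLinearMap.inr ℝ (Cn n) (Cn n)).comp Λ) (y, x0)
  refine h1.mono ?_ isOpen_univ
  intro θ _
  show (y, x0) + (ContinuousLinearMap.inr ℝ (Cn n) (Cn n)).comp Λ θ ∈ D ×ˢ univ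
  refine ⟨?_, mem_univ _⟩
  simp [hy]

theorem fib_per {y : Cn n} (hy : y ∈ D) (x0 : Cn n) (k : Fin (2 * n) → ℤ) (θ : V (2 * n)) :
    Ψ ((y, x0) + (ContinuousLinearMap.inr ℝ (Cn n) (Cn n)).comp (lam fun j => l j y) (θ + kv k)) =
      Ψ ((y, x0) + (ContinuousLinearMap.inr ℝ (Cn n) (Cn n)).comp (lam fun j => l j y) θ) := by
  have h1 := int_per (fun x => Ψ (y, x)) (fun j => l j y) (fun x j => T.per y hy x j) k
    (x0 + lam (fun j => l j y) θ)
  have e1 : ∀ θ : V (2 * n), (y, x0) +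
      (ContinuousLinearMap.inr ℝ (Cn n) (Cn n)).comp (lam fun j => l j y) θ =
      (y, x0 + lam (fun j => l j y) θ) := by
    intro θ
    ext <;> simp
  rw [e1, e1, map_add, ← add_assoc, ← h1]
  congr 3
  rw [lam_apply]
  refine Finset.sum_congr rfl fun j _ => ?_
  show ((k j : ℝ)) • l j y = _
  rw [Int.cast_smul_eq_zsmul]

/-! #### vertical trace -/

/-- the trace of the vertical block -/
def _root_.Crest.Agent.R281.Th_799.vt (κ : K11 B) (Ψ : Cn n × Cn n → M) (p : Cn n × Cn n) : ℝ :=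
  ∑ a : Fin n, pull κ.f2 Ψ p ((0, EuclideanSpace.single a 1) : Cn n × Cn n)
    (I • ((0, EuclideanSpace.single a 1) : Cn n × Cn n))

omit T in
theorem fin_rank : Module.finrank ℝ (Cn n) = 2 * n := by
  rw [finrank_real_of_complex, finrank_euclideanSpace_fin]

theorem vt_nonneg (κ : Kah B) {p : Cn n × Cn n} (hp : p.1 ∈ D) : 0 ≤ vt (ofKah κ) Ψ p :=
  Finset.sum_nonneg fun _ _ => T.pull_nonneg κ hp _

theorem vt_cont (κ : K11 B) : ContinuousOn (vt κ Ψ) (D ×ˢ univ) := by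
  unfold vt
  exact continuousOn_finsetSum _ fun a _ => T.pull_cont _ _ _

theorem vt_le {w : K11 B} {p : Cn n × Cn n} {C : ℝ} (hC : ∀ u v, |pull w.f2 Ψ p u v| ≤ C * ‖u‖ * ‖v‖) :
    vt w Ψ p ≤ n * C := by
  have h1 : ∀ a : Fin n, pull w.f2 Ψ p ((0, EuclideanSpace.single a 1) : Cn n × Cn n)
      (I • ((0, EuclideanSpace.single a 1) : Cn n × Cn n)) ≤ C := by
    intro a
    refine (le_abs_self _).trans ((hC _ _).trans ?_)
    have h2 : ‖((0, EuclideanSpace.single a 1) : Cn n × Cn n)‖ = 1 := by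
      rw [Prod.norm_def]
      simp
    rw [norm_smul, h2]
    simp
  calc vt w Ψ p ≤ ∑ _a : Fin n, C := Finset.sum_le_sum fun a _ => h1 a
    _ = n * C := by simp

/-- the vertical trace along the fibre -/
theorem vt_fib {y : Cn n} (hy : y ∈ D) (x0 : Cn n) (κ : K11 B) (θ : V (2 * n)) :
    vt κ Ψ (y, x0 + lam (fun j => l j y) θ) = ∑ a : Fin n,
      pull κ.f2 (fun θ : V (2 * n) => Ψ ((y, x0) +
        (ContinuousLinearMap.inr ℝ (Cn n) (Cn n)).comp (lam fun j => l j y) θ)) θ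
        ((lamE (T.lli y hy) fin_rank).symm (EuclideanSpace.single a 1))
        ((lamE (T.lli y hy) fin_rank).symm (I • EuclideanSpace.single a 1)) := by
  unfold vt
  refine Finset.sum_congr rfl fun a _ => ?_
  have hmem : (y, x0) + (ContinuousLinearMap.inr ℝ (Cn n) (Cn n)).comp (lam fun j => l j y) θ ∈
      D ×ˢ (univ : Set (Cn n)) := ⟨by simp [hy], mem_univ _⟩
  rw [T.sm.pull_affine _ _ _ hmem]
  have e1 : (y, x0) + (ContinuousLinearMap.inr ℝ (Cn n) (Cn n)).comp (lam fun j => l j y) θ =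
      (y, x0 + lam (fun j => l j y) θ) := by
    ext <;> simp
  have e2 : ∀ ξ : Cn n, lam (fun j => l j y) ((lamE (T.lli y hy) fin_rank).symm ξ) = ξ := fun ξ =>
    (lamE (T.lli y hy) fin_rank).apply_symm_apply ξ
  rw [e1, ContinuousLinearMap.comp_apply, ContinuousLinearMap.comp_apply, e2, e2]
  simp only [ContinuousLinearMap.inr_apply, Prod.smul_mk, smul_zero]

theorem vt_sp {y : Cn n} (hy : y ∈ D) (x0 : Cn n) (κ : K11 B) :
    SP (fun θ : V (2 * n) => vt κ Ψ (y, x0 + lam (fun j => l j y) θ)) := by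
  have h1 : (fun θ : V (2 * n) => vt κ Ψ (y, x0 + lam (fun j => l j y) θ)) = _ :=
    funext fun θ => T.vt_fib hy x0 κ θ
  rw [h1]
  exact SP.sum _ fun a _ => sp_pull (T.fib_smI hy x0 _) (T.fib_per hy x0) _ _ _

/-- **the mean of the vertical trace does not depend on the metric in the ray** -/
theorem vt_mean {y : Cn n} (hy : y ∈ D) (x0 : Cn n)
    (hz : ∀ x j k, Per_368.per (pull (curK h).f2 Ψ) (y, x) (0, l j y) (0, l k y) = 0)
    {α : Kah B} {t : ℝ} {φ : M → ℝ} (hφ : B.Sm φ)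
    (hα : ∀ i, ∀ x ∈ (B.e i).source, α.g i x = K.g i x + (t : ℂ) • (cur h i x + hsf B φ i x)) :
    mn (fun θ : V (2 * n) => vt (ofKah α) Ψ (y, x0 + lam (fun j => l j y) θ)) =
      mn (fun θ : V (2 * n) => vt (ofKah K) Ψ (y, x0 + lam (fun j => l j y) θ)) := by
  have h1 : ∀ κ : K11 B, (fun θ : V (2 * n) => vt κ Ψ (y, x0 + lam (fun j => l j y) θ)) = _ :=
    fun κ => funext fun θ => T.vt_fib hy x0 κ θ
  rw [h1, h1]
  set F : V (2 * n) → M := fun θ => Ψ ((y, x0) +
        (ContinuousLinearMap.inr ℝ (Cn n) (Cn n)).comp (lam fun j => l j y) θ) with hF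
  have hFs : SmI (ofAtl B) univ F := T.fib_smI hy x0 _
  have hFp : ∀ (k : Fin (2 * n) → ℤ) (θ : V (2 * n)), F (θ + kv k) = F θ := T.fib_per hy x0
  have hb : ∀ θ j k, Per_368.per (pull (curK h).f2 F) θ (ee j) (ee k) = 0 := by
    intro θ j k
    have h2 := T.sm.per_pull_affine ((ContinuousLinearMap.inr ℝ (Cn n) (Cn n)).comp
      (lam fun j => l j y)) (y, x0) (curK h).f2 (z := θ) (v := ee j) (v' := ee k)
      (fun s _ t _ => ⟨by simp [hy], mem_univ _⟩)
    have e1 : (y, x0) + (ContinuousLinearMap.inr ℝ (Cn n) (Cn n)).comp (lam fun j => l j y) θ =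
        (y, x0 + lam (fun j => l j y) θ) := by
      ext <;> simp
    rw [hF, h2, e1]
    simp only [ContinuousLinearMap.comp_apply, lam_ee, ContinuousLinearMap.inr_apply]
    exact hz _ _ _
  have hE : Ex ((ofKah α).f2 - ((ofKah K).f2 + t • (curK h).f2)) := by
    have h3 := f2_rel (X := ofKah K) (Y := curK h) (Z := ofKah α) (s := 1) (t := t)
      (sm_smul t hφ) fun i x hx => ?_
    · rw [one_smul] at h3
      exact Crest.Agent.R281.Cdr_234.mem_exS.1 h3
    · rw [Crest.Agent.R273.TLs_201.hsf_smul _ hφ hx]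
      show α.g i x = ((1 : ℝ) : ℂ) • K.g i x + (t : ℂ) • cur h i x + _
      rw [hα i x hx, Complex.ofReal_one, one_smul, smul_add, add_assoc]
  rw [mn_sum _ (fun a _ => sp_pull hFs hFp _ _ _), mn_sum _ (fun a _ => sp_pull hFs hFp _ _ _)]
  exact Finset.sum_congr rfl fun a _ => mean_eq hFs hFp hb hE _ _

/-! #### the pointwise inequalities -/

omit T in
theorem hess_uk {φ : M → ℝ} (hφ : B.Sm φ) (i : B.ι) {x : M} (hx : x ∈ (B.e i).source) :
    hess (fun z => φ ((B.e i).symm z) + h.wt i z) (B.e i x) = hsf B φ i x + cur h i x := by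
  have hz := (B.e i).map_source hx
  rw [Crest.Agent.R273.HessB_333.hess_add (sm_contDiffAt hφ i hz) (wt_contDiffAt h i hz)]
  rfl

end TubA

end

end Crest.Agent.R281.Th_799
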