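import Crest.Agent.R281.Th6_799

/-!
# Row 281, THETA (helper799), part 7: nondegeneracy, the hypotheses of the core
-/

set_option autoImplicit false
set_option linter.unusedSectionVars false
set_option linter.style.longLine false
set_option maxSynthPendingDepth 3

open MeasureTheory Set Filter Metric Topology Complex
open scoped ContDiff Manifold ComplexConjugate Matrix NNReal ENNReal ComplexOrder

namespace Crest.Agent.R281.Th_799

open Crest.Agent.R275 Crest.Agent.R275.Geo Crest.Agent.R275.Core144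
open Crest.Agent.R275.GC293
open Crest.Agent.R273.Defs_333 Crest.Agent.R273.HM_333 Crest.Agent.R273.Hess_333
open Crest.Agent.R273.Kah_333
open Crest.Agent.R281.HkR_835 Crest.Agent.R281.Ti_846
open Crest.Agent.R281.Nef_252 (curK hb_nonneg hb_add hb_smul f2_self)
open Crest.Agent.R281.HkP1_508 Crest.Agent.R281.HkP2_508 Crest.Agent.R281.HkP3_508
open Crest.Agent.R281.Defs_273 (H2 HSymp NefW Isotropic qd)
open Crest.Agent.R281.Fuj5_207
open Crest.Agent.R281.Mc673
open Crest.Agent.R238.Sch (ee)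
open Crest.Agent.R281.Per_368
open Crest.Agent.R281.ThC_847 (f2_rel sm_smul)

noncomputable section

section sb

variable {N m : ℕ}

theorem sb_addv (S : Matrix (Fin N) (Fin N) ℂ) (u v w : Cn N) : sb S (u + v) w = sb S u w + sb S v w := by
  simp only [sb, PiLp.add_apply, ← Finset.sum_add_distrib]
  exact Finset.sum_congr rfl fun a _ => Finset.sum_congr rfl fun b _ => by ring

theorem sb_addr (S : Matrix (Fin N) (Fin N) ℂ) (u v w : Cn N) : sb S w (u + v) = sb S w u + sb S w v := by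
  simp only [sb, PiLp.add_apply, ← Finset.sum_add_distrib]
  exact Finset.sum_congr rfl fun a _ => Finset.sum_congr rfl fun b _ => by ring

theorem sb_smulv (S : Matrix (Fin N) (Fin N) ℂ) (c : ℂ) (u v : Cn N) : sb S (c • u) v = c * sb S u v := by
  simp only [sb, PiLp.smul_apply, smul_eq_mul, Finset.mul_sum]
  exact Finset.sum_congr rfl fun a _ => Finset.sum_congr rfl fun b _ => by ring

theorem sb_smulr (S : Matrix (Fin N) (Fin N) ℂ) (c : ℂ) (u v : Cn N) : sb S u (c • v) = c * sb S u v := by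
  simp only [sb, PiLp.smul_apply, smul_eq_mul, Finset.mul_sum]
  exact Finset.sum_congr rfl fun a _ => Finset.sum_congr rfl fun b _ => by ring

/-- the bilinear form as a linear map in the second argument -/
def sbR (S : Matrix (Fin N) (Fin N) ℂ) (u : Cn N) : Cn N →ₗ[ℂ] ℂ where
  toFun v := sb S u v
  map_add' v w := sb_addr S v w u
  map_smul' c v := sb_smulr S c u v

/-- the bilinear form as a linear map in the first argument -/
def sbL (S : Matrix (Fin N) (Fin N) ℂ) (v : Cn N) : Cn N →ₗ[ℂ] ℂ where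
  toFun u := sb S u v
  map_add' u w := sb_addv S u w v
  map_smul' c u := sb_smulv S c u v

theorem sb_zero_left (S : Matrix (Fin N) (Fin N) ℂ) (u : Cn N) : sb S 0 u = 0 := (sbL S u).map_zero

/-- nondegeneracy -/
theorem sb_nd {S : Matrix (Fin N) (Fin N) ℂ} (hS : S.det ≠ 0) {u : Cn N} (h : ∀ v, sb S v u = 0) :
    u = 0 := by
  by_contra hu
  have h1 : S *ᵥ u.ofLp = 0 := by
    funext a
    have h2 := h (EuclideanSpace.single a 1)
    have h3 : sb S (EuclideanSpace.single a 1) u = (S *ᵥ u.ofLp) a := by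
      simp [sb, Matrix.mulVec, dotProduct, ite_mul, apply_ite]
    rw [← h3, h2]
    rfl
  refine hS (Matrix.exists_mulVec_eq_zero_iff.1 ⟨u.ofLp, fun h0 => hu ?_, h1⟩)
  ext a
  exact congrFun h0 a

/-- a complex linear map on a vector -/
theorem sum_single (v : Cn m) : v = ∑ a, v a • (EuclideanSpace.single a (1 : ℂ) : Cn m) := by
  ext i
  simp [Finset.sum_apply, Pi.single_apply]

/-- nondegeneracy of the pairing between horizontal and vertical vectors -/
theorem pair_nd {S : Matrix (Fin N) (Fin N) ℂ} (hS : S.det ≠ 0) {P : Cn m →ₗ[ℂ] Cn N}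
    {Q : Cn m →ₗ[ℂ] Cn N} (hsurj : ∀ w : Cn N, ∃ u v, w = P u + Q v)
    (hlag : ∀ u v, sb S (Q u) (Q v) = 0) (hQ : Function.Injective Q) {v : Cn m} (hv : v ≠ 0) :
    ∃ b : Fin m, sb S (P v) (Q (EuclideanSpace.single b 1)) ≠ 0 := by
  set W : Matrix (Fin m) (Fin m) ℂ := Matrix.of fun a b =>
    sb S (P (EuclideanSpace.single a 1)) (Q (EuclideanSpace.single b 1)) with hW
  have hWv : ∀ (u : Cn m) b, (u.ofLp ᵥ* W) b = sb S (P u) (Q (EuclideanSpace.single b 1)) := by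
    intro u b
    conv_rhs => rw [sum_single u]
    rw [map_sum]
    have h1 := map_sum (sbL S (Q (EuclideanSpace.single b 1)))
      (fun a => P (u a • (EuclideanSpace.single a (1 : ℂ) : Cn m))) Finset.univ
    have h2 : sb S (∑ a, P (u a • (EuclideanSpace.single a (1 : ℂ) : Cn m)))
        (Q (EuclideanSpace.single b 1)) = ∑ a, sb S (P (u a • (EuclideanSpace.single a (1 : ℂ) : Cn m)))
        (Q (EuclideanSpace.single b 1)) := h1
    rw [h2]
    simp only [Matrix.vecMul, dotProduct, hW, Matrix.of_apply]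
    refine Finset.sum_congr rfl fun a _ => ?_
    rw [map_smul, sb_smulv]
  have hWr : ∀ (ξ : Cn m) a, (W *ᵥ ξ.ofLp) a = sb S (P (EuclideanSpace.single a 1)) (Q ξ) := by
    intro ξ a
    conv_rhs => rw [sum_single ξ]
    rw [map_sum]
    have h1 := map_sum (sbR S (P (EuclideanSpace.single a 1)))
      (fun b => Q (ξ b • (EuclideanSpace.single b (1 : ℂ) : Cn m))) Finset.univ
    have h2 : sb S (P (EuclideanSpace.single a 1)) (∑ b, Q (ξ b • (EuclideanSpace.single b (1 : ℂ) : Cn m))) =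
        ∑ b, sb S (P (EuclideanSpace.single a 1)) (Q (ξ b • (EuclideanSpace.single b (1 : ℂ) : Cn m))) := h1
    rw [h2]
    simp only [Matrix.mulVec, dotProduct, hW, Matrix.of_apply]
    refine Finset.sum_congr rfl fun b _ => ?_
    rw [map_smul, sb_smulr, mul_comm]
  have hdet : W.det ≠ 0 := by
    intro h0
    obtain ⟨ξ, hξ0, hξ⟩ := Matrix.exists_mulVec_eq_zero_iff.2 h0
    have h1 : ∀ u : Cn m, sb S (P u) (Q (WithLp.toLp 2 ξ)) = 0 := by
      intro u
      rw [sum_single u, map_sum]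
      have h2 := map_sum (sbL S (Q (WithLp.toLp 2 ξ)))
        (fun a => P (u a • (EuclideanSpace.single a (1 : ℂ) : Cn m))) Finset.univ
      have h3 : sb S (∑ a, P (u a • (EuclideanSpace.single a (1 : ℂ) : Cn m))) (Q (WithLp.toLp 2 ξ)) =
          ∑ a, sb S (P (u a • (EuclideanSpace.single a (1 : ℂ) : Cn m))) (Q (WithLp.toLp 2 ξ)) := h2
      rw [h3]
      refine Finset.sum_eq_zero fun a _ => ?_
      rw [map_smul, sb_smulv]
      have h4 := hWr (WithLp.toLp 2 ξ) a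
      have h5 : (W *ᵥ ξ) a = 0 := by rw [hξ]; rfl
      rw [← h4]
      show u a * (W *ᵥ ξ) a = 0
      rw [h5, mul_zero]
    have h2 : Q (WithLp.toLp 2 ξ) = 0 := by
      refine sb_nd hS fun w => ?_
      obtain ⟨u, v, rfl⟩ := hsurj w
      rw [sb_addv, h1, hlag, add_zero]
    have h3 : (WithLp.toLp 2 ξ : Cn m) = 0 := hQ (by rw [h2, map_zero])
    exact hξ0 (by
      have := congrArg WithLp.ofLp h3
      exact this)
  by_contra hcon
  push Not at hcon
  refine hdet (Matrix.exists_vecMul_eq_zero_iff.1 ⟨v.ofLp, fun h0 => hv ?_, ?_⟩)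
  · ext a; exact congrFun h0 a
  · funext b
    rw [hWv, hcon b]
    rfl

end sb

variable {n : ℕ} {M : Type} [TopologicalSpace M] {B : Atl (2 * n) M} {L : LB B}
  {K : Kah B} {σ : HSymp B} {h : HM L} {D : Set (Cn n)} {Ψ : Cn n × Cn n → M}
  {l : Fin (2 * n) → Cn n → Cn n}

namespace TubA

variable (T : TubA B σ D Ψ l)
include T

/-- the pairing -/
theorem pair_ne {p : Cn n × Cn n} (hp : p.1 ∈ D) {i : B.ι} (hi : Ψ p ∈ (B.e i).source) {v : Cn n}
    (hv : v ≠ 0) : ∃ b : Fin n, sb (σ.s i (Ψ p)) (fderiv ℝ (fun q => B.e i (Ψ q)) p (v, 0))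
      (fderiv ℝ (fun q => B.e i (Ψ q)) p (0, EuclideanSpace.single b 1)) ≠ 0 := by
  have hT := T.hol p hp i hi
  have hinj := T.inj p hp i hi
  have hfd := hT.fderiv_restrictScalars ℝ
  set T' : Cn n × Cn n →L[ℂ] Cn (2 * n) := fderiv ℂ (fun q => B.e i (Ψ q)) p with hT'
  have e1 : ∀ w, fderiv ℝ (fun q => B.e i (Ψ q)) p w = T' w := fun w => by rw [hfd]; rfl
  have hinj' : Function.Injective T' := fun a b hab => hinj (by rw [e1, e1, hab])
  have hsurj : Function.Surjective T' := by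
    have h0 : Module.finrank ℂ (Cn n × Cn n) = Module.finrank ℂ (Cn (2 * n)) := by
      rw [Module.finrank_prod, finrank_euclideanSpace_fin, finrank_euclideanSpace_fin]; omega
    have h1 := LinearMap.injective_iff_surjective_of_finrank_eq_finrank
      (f := (T' : Cn n × Cn n →ₗ[ℂ] Cn (2 * n))) h0
    exact h1.1 hinj'
  obtain ⟨b, hb⟩ := pair_nd (σ.nd i _ hi) (P := (T' : Cn n × Cn n →ₗ[ℂ] Cn (2 * n)) ∘ₗ LinearMap.inl ℂ (Cn n) (Cn n))
    (Q := (T' : Cn n × Cn n →ₗ[ℂ] Cn (2 * n)) ∘ₗ LinearMap.inr ℂ (Cn n) (Cn n)) (fun w => by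
      obtain ⟨q, rfl⟩ := hsurj w
      refine ⟨q.1, q.2, ?_⟩
      show T' q = T' (q.1, 0) + T' (0, q.2)
      rw [← map_add]
      simp) (fun u v => by
      have := T.lag p hp i hi u v
      rw [e1, e1] at this
      exact this) (fun a b hab => by
      have h2 : T' (0, a) = T' (0, b) := hab
      exact (Prod.mk.inj (hinj' h2)).2) hv
  refine ⟨b, ?_⟩
  rw [e1, e1]
  exact hb

/-- the function of the pairing -/
def _root_.Crest.Agent.R281.Th_799.pf (σ : HSymp B) (i : B.ι) (Ψ : Cn n × Cn n → M)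
    (z : (Cn n × Cn n) × Cn n) : ℝ :=
  ∑ b : Fin n, ‖sb (σ.s i (Ψ z.1)) (fderiv ℝ (fun q => B.e i (Ψ q)) z.1 (z.2, 0))
      (fderiv ℝ (fun q => B.e i (Ψ q)) z.1 (0, EuclideanSpace.single b 1))‖ ^ 2

theorem pf_cont (i : B.ι) : ContinuousOn (pf σ i Ψ)
    (((D ×ˢ univ) ∩ Ψ ⁻¹' (B.e i).source) ×ˢ (univ : Set (Cn n))) := by
  have hO := T.isOpen_dom i
  have hsm : ContDiffOn ℝ ∞ (fun q => B.e i (Ψ q)) ((D ×ˢ univ) ∩ Ψ ⁻¹' (B.e i).source) := T.sm.sm i
  have hd : ContinuousOn (fun q => fderiv ℝ (fun q => B.e i (Ψ q)) q)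
      ((D ×ˢ univ) ∩ Ψ ⁻¹' (B.e i).source) := (hsm.fderiv_of_isOpen hO (m := 0) (by simp)).continuousOn
  have hd' : ContinuousOn (fun z : (Cn n × Cn n) × Cn n => fderiv ℝ (fun q => B.e i (Ψ q)) z.1)
      (((D ×ˢ univ) ∩ Ψ ⁻¹' (B.e i).source) ×ˢ (univ : Set (Cn n))) :=
    hd.comp continuousOn_fst fun z hz => hz.1
  have hs : ∀ a b, ContinuousOn (fun z : (Cn n × Cn n) × Cn n => σ.s i (Ψ z.1) a b)
      (((D ×ˢ univ) ∩ Ψ ⁻¹' (B.e i).source) ×ˢ (univ : Set (Cn n))) := by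
    intro a b
    have h1 := (σ.hol i a b).continuousOn
    have h2 : ContinuousOn (fun z : (Cn n × Cn n) × Cn n => B.e i (Ψ z.1))
        (((D ×ˢ univ) ∩ Ψ ⁻¹' (B.e i).source) ×ˢ (univ : Set (Cn n))) :=
      hsm.continuousOn.comp continuousOn_fst fun z hz => hz.1
    refine (h1.comp h2 fun z hz => ⟨(B.e i).map_source hz.1.2, mem_univ _⟩).congr fun z hz => ?_
    show σ.s i (Ψ z.1) a b = σ.s i ((B.e i).symm (B.e i (Ψ z.1))) a b
    rw [(B.e i).left_inv hz.1.2]
  unfold pf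
  refine continuousOn_finsetSum _ fun b _ => ContinuousOn.pow (ContinuousOn.norm ?_) 2
  unfold sb
  refine continuousOn_finsetSum _ fun c _ => continuousOn_finsetSum _ fun d _ => ?_
  have hv : ContinuousOn (fun z : (Cn n × Cn n) × Cn n =>
      fderiv ℝ (fun q => B.e i (Ψ q)) z.1 ((z.2, 0) : Cn n × Cn n))
      (((D ×ˢ univ) ∩ Ψ ⁻¹' (B.e i).source) ×ˢ (univ : Set (Cn n))) :=
    hd'.clm_apply (by fun_prop)
  have hw : ContinuousOn (fun z : (Cn n × Cn n) × Cn n =>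
      fderiv ℝ (fun q => B.e i (Ψ q)) z.1 ((0, EuclideanSpace.single b 1) : Cn n × Cn n))
      (((D ×ˢ univ) ∩ Ψ ⁻¹' (B.e i).source) ×ˢ (univ : Set (Cn n))) :=
    hd'.clm_apply (by fun_prop)
  have hpr : ∀ (e : Fin (2 * n)) {g : (Cn n × Cn n) × Cn n → Cn (2 * n)} {s : Set _},
      ContinuousOn g s → ContinuousOn (fun z => g z e) s := fun e g s hg =>
    (EuclideanSpace.proj (𝕜 := ℂ) e).continuous.comp_continuousOn hg
  exact ((hs c d).mul (hpr c hv)).mul (hpr d hw)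

/-- **uniform nondegeneracy of the pairing** -/
theorem exists_ndg {i : B.ι} {Q : Set (Cn n × Cn n)} (hQ : IsCompact Q)
    (hQD : Q ⊆ (D ×ˢ univ) ∩ Ψ ⁻¹' (B.e i).source) :
    ∃ c : ℝ, 0 < c ∧ ∀ p ∈ Q, ∀ v : Cn n, c * ‖v‖ ^ 2 ≤ pf σ i Ψ (p, v) := by
  set K' : Set ((Cn n × Cn n) × Cn n) := Q ×ˢ sphere (0 : Cn n) 1 with hK'
  have hK'c : IsCompact K' := hQ.prod (isCompact_sphere _ _)
  have hhom : ∀ p ∈ Q, ∀ v : Cn n, ∀ r : ℝ, pf σ i Ψ (p, r • v) = r ^ 2 * pf σ i Ψ (p, v) := by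
    intro p _ v r
    unfold pf
    rw [Finset.mul_sum]
    refine Finset.sum_congr rfl fun b _ => ?_
    have e1 : ((r • v, 0) : Cn n × Cn n) = r • ((v, 0) : Cn n × Cn n) := by
      rw [Prod.smul_mk, smul_zero]
    show ‖sb (σ.s i (Ψ p)) (fderiv ℝ (fun q => B.e i (Ψ q)) p (r • v, 0)) _‖ ^ 2 = _
    rw [e1, map_smul]
    have e2 : (r • fderiv ℝ (fun q => B.e i (Ψ q)) p (v, 0) : Cn (2 * n)) =
        (r : ℂ) • fderiv ℝ (fun q => B.e i (Ψ q)) p (v, 0) := by
      ext a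
      simp
    rw [e2, sb_smulv, norm_mul, mul_pow, norm_real, Real.norm_eq_abs, sq_abs]
  rcases K'.eq_empty_or_nonempty with hE | hne
  · refine ⟨1, one_pos, fun p hp v => ?_⟩
    have hv : v = 0 := by
      by_contra hv0
      have : (p, (‖v‖⁻¹ : ℝ) • v) ∈ K' := by
        refine ⟨hp, ?_⟩
        rw [mem_sphere, dist_zero_right, norm_smul, norm_inv, norm_norm,
          inv_mul_cancel₀ (norm_ne_zero_iff.2 hv0)]
      rw [hE] at this
      exact this
    rw [hv, norm_zero]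
    have : 0 ≤ pf σ i Ψ (p, 0) := Finset.sum_nonneg fun b _ => by positivity
    simpa using this
  · obtain ⟨z, hz, hmin⟩ := hK'c.exists_isMinOn hne ((T.pf_cont i).mono fun z hz =>
      ⟨hQD hz.1, mem_univ _⟩)
    have hpos : 0 < pf σ i Ψ z := by
      have hz2 : z.2 ≠ 0 := by
        intro h0
        have h1 := hz.2
        rw [h0, mem_sphere, dist_self] at h1
        exact zero_ne_one h1
      obtain ⟨b, hb⟩ := T.pair_ne (hQD hz.1).1.1 (hQD hz.1).2 hz2
      refine Finset.sum_pos' (fun b _ => by positivity) ⟨b, Finset.mem_univ _, ?_⟩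
      have := norm_pos_iff.2 hb
      positivity
    refine ⟨pf σ i Ψ z, hpos, fun p hp v => ?_⟩
    rcases eq_or_ne v 0 with hv | hv
    · rw [hv, norm_zero]
      have : 0 ≤ pf σ i Ψ (p, 0) := Finset.sum_nonneg fun b _ => by positivity
      simpa using this
    · have hn : ‖v‖ ≠ 0 := norm_ne_zero_iff.2 hv
      have h1 : (p, (‖v‖⁻¹ : ℝ) • v) ∈ K' := by
        refine ⟨hp, ?_⟩
        rw [mem_sphere, dist_zero_right, norm_smul, norm_inv, norm_norm,
          inv_mul_cancel₀ hn]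
      have h2 : pf σ i Ψ z ≤ pf σ i Ψ (p, (‖v‖⁻¹ : ℝ) • v) := hmin h1
      have h3 : v = ‖v‖ • ((‖v‖⁻¹ : ℝ) • v) := by
        rw [smul_smul, mul_inv_cancel₀ hn, one_smul]
      have h4 : pf σ i Ψ (p, v) = ‖v‖ ^ 2 * pf σ i Ψ (p, (‖v‖⁻¹ : ℝ) • v) := by
        conv_lhs => rw [h3]
        exact hhom p hp _ _
      rw [h4, mul_comm]
      gcongr

/-! ### the pointwise inequalities for one metric -/

/-- `t L_v w = α(v', v') - K(v', v')` -/
theorem L_uk {φ : M → ℝ} (hφ : B.Sm φ) {α : Kah B} {t : ℝ} (ht : 0 < t)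
    (hα : ∀ i, ∀ x ∈ (B.e i).source, α.g i x = K.g i x + (t : ℂ) • (cur h i x + hsf B φ i x))
    {p : Cn n × Cn n} (hp : p.1 ∈ D) {i : B.ι} (hi : Ψ p ∈ (B.e i).source) (v : Cn n × Cn n) :
    Th_799.L v (fun q => φ ((B.e i).symm (B.e i (Ψ q))) + h.wt i (B.e i (Ψ q))) p =
      (pull (ofKah α).f2 Ψ p v (I • v) - pull (ofKah K).f2 Ψ p v (I • v)) / t := by
  have hz := (B.e i).map_source hi
  have hu : ContDiffAt ℝ ∞ (fun z => φ ((B.e i).symm z) + h.wt i z) (B.e i (Ψ p)) :=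
    (sm_contDiffAt hφ i hz).add (wt_contDiffAt h i hz)
  have h1 := L_comp (T := fun q => B.e i (Ψ q)) (T.hol_ev hp hi) hu v
  rw [hess_uk hφ i hi] at h1
  rw [h1, T.pull_self (ofKah α) hp hi, T.pull_self (ofKah K) hp hi]
  set w := fderiv ℝ (fun q => B.e i (Ψ q)) p v
  have h2 : hb (α.g i (Ψ p)) w w = hb (K.g i (Ψ p)) w w +
      (t : ℂ) * hb (hsf B φ i (Ψ p) + cur h i (Ψ p)) w w := by
    rw [hα i _ hi, hb_add, hb_smul, add_comm (cur h i (Ψ p))]
  have h3 : (hb ((ofKah α).g i (Ψ p)) w w).re = (hb ((ofKah K).g i (Ψ p)) w w).re +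
      t * (hb (hsf B φ i (Ψ p) + cur h i (Ψ p)) w w).re := by
    have := congrArg Complex.re h2
    rw [add_re, re_ofReal_mul] at this
    exact this
  rw [h3]
  field_simp
  ring

/-- the vertical block is bounded by the vertical trace -/
theorem ver_le (α : Kah B) {p : Cn n × Cn n} (hp : p.1 ∈ D) (ξ : Cn n) :
    pull (ofKah α).f2 Ψ p ((0, ξ) : Cn n × Cn n) (I • ((0, ξ) : Cn n × Cn n)) ≤
      vt (ofKah α) Ψ p * ‖ξ‖ ^ 2 := by
  obtain ⟨i, hi⟩ := B.cover (Ψ p)
  rw [T.pull_self (ofKah α) hp hi, vt]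
  have h1 : ∀ a : Fin n, pull (ofKah α).f2 Ψ p ((0, EuclideanSpace.single a 1) : Cn n × Cn n)
      (I • ((0, EuclideanSpace.single a 1) : Cn n × Cn n)) =
      (hb ((ofKah α).g i (Ψ p))
        (fderiv ℝ (fun q => B.e i (Ψ q)) p ((0, EuclideanSpace.single a 1) : Cn n × Cn n))
        (fderiv ℝ (fun q => B.e i (Ψ q)) p ((0, EuclideanSpace.single a 1) : Cn n × Cn n))).re :=
    fun a => T.pull_self (ofKah α) hp hi _
  rw [Finset.sum_congr rfl fun a _ => h1 a]
  have hT := T.hol p hp i hi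
  have hfd := hT.fderiv_restrictScalars ℝ
  have h2 : fderiv ℝ (fun q => B.e i (Ψ q)) p ((0, ξ) : Cn n × Cn n) = ∑ a, ξ a •
      fderiv ℝ (fun q => B.e i (Ψ q)) p ((0, EuclideanSpace.single a 1) : Cn n × Cn n) := by
    rw [hfd]
    simp only [ContinuousLinearMap.coe_restrictScalars']
    have h3 : ((0, ξ) : Cn n × Cn n) =
        ∑ a, ξ a • ((0, EuclideanSpace.single a 1) : Cn n × Cn n) := by
      have h4 := map_sum (LinearMap.inr ℂ (Cn n) (Cn n))
        (fun a => ξ a • (EuclideanSpace.single a (1 : ℂ) : Cn n)) Finset.univ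
      rw [← sum_single ξ] at h4
      refine h4.trans (Finset.sum_congr rfl fun a _ => ?_)
      rw [map_smul]
      rfl
    conv_lhs => rw [h3, map_sum]
    exact Finset.sum_congr rfl fun a _ => map_smul _ _ _
  rw [h2]
  exact hb_tr (α.pos i _ hi).posSemidef _ ξ

/-- the symplectic inequality -/
theorem symp_le {α : Kah B} {r : ℝ} {hr : (r : ℂ) ≠ 0} (hHK : HK α (smulHS (r : ℂ) hr σ))
    {p : Cn n × Cn n} (hp : p.1 ∈ D) {i : B.ι} (hi : Ψ p ∈ (B.e i).source) (v : Cn n) :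
    r ^ 2 * pf σ i Ψ (p, v) ≤
      pull (ofKah α).f2 Ψ p ((v, 0) : Cn n × Cn n) (I • ((v, 0) : Cn n × Cn n)) *
        vt (ofKah α) Ψ p := by
  unfold pf vt
  rw [Finset.mul_sum, Finset.mul_sum]
  refine Finset.sum_le_sum fun b _ => ?_
  rw [T.pull_self (ofKah α) hp hi, T.pull_self (ofKah α) hp hi]
  have h1 := sb_cs (α.pos i _ hi) (hHK.rel' i hi)
    (fderiv ℝ (fun q => B.e i (Ψ q)) p ((v, 0) : Cn n × Cn n))
    (fderiv ℝ (fun q => B.e i (Ψ q)) p ((0, EuclideanSpace.single b 1) : Cn n × Cn n))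
  have h2 : (smulHS (r : ℂ) hr σ).s i (Ψ p) = (r : ℂ) • σ.s i (Ψ p) := rfl
  rw [h2, sb_smul, norm_mul, mul_pow, norm_real, Real.norm_eq_abs, sq_abs] at h1
  exact h1

end TubA

end

end Crest.Agent.R281.Th_799
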