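import Crest.Agent.R281.Th7_799

/-!
# Row 281, THETA (helper799), part 8: near every point of the tube the hypotheses of `core` hold
-/

set_option autoImplicit false
set_option linter.unusedSectionVars false
set_option linter.style.longLine false
set_option maxSynthPendingDepth 3

open MeasureTheory Set Filter Metric Topology Complex
open scoped ContDiff Manifold ComplexConjugate Matrix NNReal ENNReal ComplexOrder

namespace Crest.Agent.R281.Th_799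

open Crest.Agent.R275 Crest.Agent.R275.Geo Crest.Agent.R275.Core144
open Crest.Agent.R275.GC293
open Crest.Agent.R273.Defs_333 Crest.Agent.R273.HM_333 Crest.Agent.R273.Hess_333
open Crest.Agent.R273.Kah_333
open Crest.Agent.R281.HkR_835 Crest.Agent.R281.Ti_846
open Crest.Agent.R281.Nef_252 (curK hb_nonneg hb_add hb_smul f2_self)
open Crest.Agent.R281.HkP1_508 Crest.Agent.R281.HkP2_508 Crest.Agent.R281.HkP3_508
open Crest.Agent.R281.Defs_273 (H2 HSymp NefW Isotropic qd)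
open Crest.Agent.R281.Fuj5_207
open Crest.Agent.R281.Mc673
open Crest.Agent.R238.Sch (ee)
open Crest.Agent.R281.Per_368
open Crest.Agent.R281.ThC_847 (f2_rel sm_smul)

noncomputable section

variable {n : ℕ} {M : Type} [TopologicalSpace M] {B : Atl (2 * n) M} {L : LB B}
  {K : Kah B} {σ : HSymp B} {h : HM L} {D : Set (Cn n)} {Ψ : Cn n × Cn n → M}
  {l : Fin (2 * n) → Cn n → Cn n}

namespace TubA

variable (T : TubA B σ D Ψ l)
include T

/-- the vertical trace over a small ball -/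
theorem cell_vt (μX : Measure (Cn n)) [μX.IsAddHaarMeasure] {y x0 : Cn n} (hy : y ∈ D)
    (hz : ∀ x j k, Per_368.per (pull (curK h).f2 Ψ) (y, x) (0, l j y) (0, l k y) = 0)
    {m M' ρ CK : ℝ} (hm : 0 < m) (hM : 0 < M')
    (hb : ∀ θ : V (2 * n), m * ‖θ‖ ≤ ‖lam (fun j => l j y) θ‖ ∧
      ‖lam (fun j => l j y) θ‖ ≤ M' * ‖θ‖) (hρ : 3 * ρ ≤ m / 2)
    (hCK : ∀ x ∈ closedBall x0 (M' * (2 * n : ℕ)), ∀ u v, |pull (ofKah K).f2 Ψ (y, x) u v| ≤ CK * ‖u‖ * ‖v‖)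
    {α : Kah B} {t : ℝ} {φ : M → ℝ} (hφ : B.Sm φ)
    (hα : ∀ i, ∀ x ∈ (B.e i).source, α.g i x = K.g i x + (t : ℂ) • (cur h i x + hsf B φ i x)) :
    ∫ x in ball x0 (3 * ρ), vt (ofKah α) Ψ (y, x) ∂μX ≤
      (μX.real (ball 0 M') / v1 (2 * n)) * (n * CK) := by
  have hlam : ∀ θ, lamE (T.lli y hy) fin_rank θ = lam (fun j => l j y) θ := fun θ => rfl
  have hsp := T.vt_sp hy x0 (ofKah α)
  have h1 := cell_le μX (lamE (T.lli y hy) fin_rank) (M := M') (r := 3 * ρ) hM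
    (fun θ => by rw [hlam]; exact (hb θ).2) (fun θ hθ j => by
      rw [hlam] at hθ
      have h2 := (hb θ).1
      have h3 : ‖θ‖ < 1 / 2 := by
        by_contra hcon
        push Not at hcon
        nlinarith
      exact (PiLp.norm_apply_le θ j).trans_lt h3) (x0 := x0)
    (g := fun x => vt (ofKah α) Ψ (y, x)) (fun x => T.vt_nonneg α hy)
    (by
      have h2 := T.vt_cont (ofKah α)
      exact h2.comp_continuous (f := fun x : Cn n => ((y, x) : Cn n × Cn n)) (by fun_prop)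
        fun x => ⟨hy, mem_univ _⟩) hsp
  refine h1.trans ?_
  have h2 : mn (fun θ : V (2 * n) => vt (ofKah α) Ψ (y, x0 + lamE (T.lli y hy) fin_rank θ)) =
      mn (fun θ : V (2 * n) => vt (ofKah K) Ψ (y, x0 + lam (fun j => l j y) θ)) :=
    T.vt_mean hy x0 hz hφ hα
  have h3 : mn (fun θ : V (2 * n) => vt (ofKah K) Ψ (y, x0 + lam (fun j => l j y) θ)) ≤ n * CK := by
    refine mn_le (T.vt_sp hy x0 (ofKah K)) fun θ hθ => T.vt_le fun u v => hCK _ ?_ u v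
    rw [mem_closedBall, dist_eq_norm, add_sub_cancel_left]
    refine (hb θ).2.trans ?_
    gcongr
  rw [h2]
  have h4 : 0 ≤ μX.real (ball 0 M') / v1 (2 * n) := div_nonneg measureReal_nonneg (v1_pos _).le
  exact mul_le_mul_of_nonneg_left h3 h4

/-- **near every point of the tube the hypotheses of the core hold** -/
theorem exists_hyp (K : Kah B) (μX : Measure (Cn n)) [μX.IsAddHaarMeasure]
    (hz : ∀ y ∈ D, ∀ x j k, Per_368.per (pull (curK h).f2 Ψ) (y, x) (0, l j y) (0, l k y) = 0)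
    {c₁ : ℝ} (hc : 0 < c₁) {p0 : Cn n × Cn n} {i : B.ι} {O : Set (Cn n × Cn n)} (hO : IsOpen O)
    (h0 : p0 ∈ O) (hOD : O ⊆ (D ×ˢ univ) ∩ Ψ ⁻¹' (B.e i).source) :
    ∃ ρ C1 c1 : ℝ, 0 < ρ ∧ 0 < C1 ∧ 0 < c1 ∧ ∃ η : Cn n × Cn n → ℝ, TF η ∧ tsupport η ⊆ O ∧
      (∀ p ∈ ball p0.1 ρ ×ˢ ball p0.2 (3 * ρ), η p = 1) ∧
      ∀ (t : ℕ → ℝ) (φ : ℕ → M → ℝ), Sq K σ h c₁ t φ → ∃ (τ : ℕ → Cn n × Cn n → ℝ) (δ : ℕ → ℝ),
        Hyp μX p0.1 p0.2 ρ ρ (fun k p => η p * (φ k ((B.e i).symm (B.e i (Ψ p))) +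
          h.wt i (B.e i (Ψ p)))) τ δ c1 C1 := by
  have hp0 : p0.1 ∈ D := (hOD h0).1.1
  obtain ⟨m, M', hm, hM, hev⟩ := lam_bounds (Y := Cn n) (l := l) (y0 := p0.1)
    (fun k => (T.lc k).continuousAt (T.op.mem_nhds hp0)) (T.lli _ hp0) fin_rank
  obtain ⟨ε1, hε1, hb1⟩ := Metric.isOpen_iff.1 hO p0 h0
  obtain ⟨ε2, hε2, hb2⟩ := Metric.eventually_nhds_iff_ball.1 hev
  set ρ : ℝ := min (ε1 / 4) (min (ε2 / 2) (m / 6)) with hρ
  have hρ0 : 0 < ρ := by positivity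
  have hρ1 : ρ ≤ ε1 / 4 := min_le_left _ _
  have hρ2 : ρ ≤ ε2 / 2 := (min_le_right _ _).trans (min_le_left _ _)
  have hρ3 : ρ ≤ m / 6 := (min_le_right _ _).trans (min_le_right _ _)
  set Kc : Set (Cn n × Cn n) := closedBall p0.1 ρ ×ˢ closedBall p0.2 (3 * ρ) with hKc
  have hKcc : IsCompact Kc := (isCompact_closedBall _ _).prod (isCompact_closedBall _ _)
  have hKO : Kc ⊆ O := by
    intro p hp
    apply hb1
    rw [mem_ball, Prod.dist_eq, max_lt_iff]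
    have h1 : dist p.1 p0.1 ≤ ρ := hp.1
    have h2 : dist p.2 p0.2 ≤ 3 * ρ := hp.2
    constructor <;> linarith
  have hyD : ∀ y ∈ closedBall p0.1 ρ, y ∈ D := fun y hy =>
    (hOD (hKO (⟨hy, mem_closedBall_self (by positivity)⟩ : (y, p0.2) ∈ Kc))).1.1
  have hyb : ∀ y ∈ closedBall p0.1 ρ, ∀ θ : V (2 * n), m * ‖θ‖ ≤ ‖lam (fun j => l j y) θ‖ ∧
      ‖lam (fun j => l j y) θ‖ ≤ M' * ‖θ‖ := fun y hy => hb2 y (by
    rw [mem_ball]
    have : dist y p0.1 ≤ ρ := hy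
    linarith)
  set R' : ℝ := max (3 * ρ) (M' * (2 * n : ℕ)) with hR'
  set Q : Set (Cn n × Cn n) := closedBall p0.1 ρ ×ˢ closedBall p0.2 R' with hQ
  have hQc : IsCompact Q := (isCompact_closedBall _ _).prod (isCompact_closedBall _ _)
  have hQD : Q ⊆ D ×ˢ univ := fun p hp => ⟨hyD _ hp.1, mem_univ _⟩
  obtain ⟨CK, hCK0, hCK⟩ := T.pull_bdd (ofKah K).f2 hQc hQD
  obtain ⟨cs, hcs, hcs'⟩ := T.exists_ndg hKcc (hKO.trans hOD)
  obtain ⟨η, hηTF, hηs, hη0, hη1, W, hWo, hKW, hηW⟩ := exists_cut hKcc hO hKO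
  have hKQ : Kc ⊆ Q := Set.prod_mono subset_rfl (closedBall_subset_closedBall (le_max_left _ _))
  have hBK : ball p0.1 ρ ×ˢ ball p0.2 (3 * ρ) ⊆ Kc :=
    Set.prod_mono ball_subset_closedBall ball_subset_closedBall
  have hV : 0 < μX.real (ball 0 M') := by
    rw [Measure.real]
    exact ENNReal.toReal_pos (measure_ball_pos μX 0 hM).ne' measure_ball_lt_top.ne
  have hv1 := v1_pos (2 * n)
  refine ⟨ρ, (μX.real (ball 0 M') / v1 (2 * n)) * (n * CK + 1), c₁ * cs, hρ0, by positivity,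
    by positivity, η, hηTF, hηs, fun p hp => hηW p (hKW (hBK hp)), fun t φ S => ?_⟩
  choose α r hr hα hHK hr2 using S.al
  have htp : ∀ k, 0 < t k := fun k => zero_lt_one.trans_le (S.one k)
  -- the pointwise formula
  have hLw : ∀ k, ∀ p ∈ ball p0.1 ρ ×ˢ ball p0.2 (3 * ρ), ∀ v,
      Th_799.L v (fun p => η p * (φ k ((B.e i).symm (B.e i (Ψ p))) + h.wt i (B.e i (Ψ p)))) p =
        (pull (ofKah (α k)).f2 Ψ p v (I • v) - pull (ofKah K).f2 Ψ p v (I • v)) / t k := by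
    intro k p hp v
    have h1 : (fun p => η p * (φ k ((B.e i).symm (B.e i (Ψ p))) + h.wt i (B.e i (Ψ p)))) =ᶠ[𝓝 p]
        fun p => φ k ((B.e i).symm (B.e i (Ψ p))) + h.wt i (B.e i (Ψ p)) := by
      filter_upwards [hWo.mem_nhds (hKW (hBK hp))] with q hq
      rw [hηW q hq, one_mul]
    rw [L_congr h1]
    exact T.L_uk (S.sm k) (htp k) (hα k) (hOD (hKO (hBK hp))).1.1 (hOD (hKO (hBK hp))).2 v
  have hKb : ∀ p ∈ ball p0.1 ρ ×ˢ ball p0.2 (3 * ρ), ∀ v,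
      pull (ofKah K).f2 Ψ p v (I • v) ≤ CK * ‖v‖ ^ 2 := by
    intro p hp v
    refine (le_abs_self _).trans ((hCK p (hKQ (hBK hp)) v (I • v)).trans (le_of_eq ?_))
    rw [norm_smul, norm_I]
    ring
  have hpD : ∀ p ∈ ball p0.1 ρ ×ˢ ball p0.2 (3 * ρ), p.1 ∈ D := fun p hp =>
    (hOD (hKO (hBK hp))).1.1
  have hη1' : ∀ p ∈ ball p0.1 ρ ×ˢ ball p0.2 (3 * ρ), η p = 1 := fun p hp => hηW p (hKW (hBK hp))
  refine ⟨fun k p => η p * vt (ofKah (α k)) Ψ p, fun k => (1 + CK) / t k, ?_⟩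
  constructor
  · -- sm
    intro k
    refine cut_sm hηTF.sm hO hηs ?_
    have h1 : ContDiffOn ℝ ∞ (fun q => B.e i (Ψ q)) O := (T.sm.sm i).mono hOD
    have h2 : MapsTo (fun q => B.e i (Ψ q)) O (B.e i).target := fun q hq =>
      (B.e i).map_source (hOD hq).2
    exact ((S.sm k i).comp h1 h2).add ((wt_smooth h i).comp h1 h2)
  · -- tc
    intro k
    exact cut_cont hηTF.sm.continuous (T.op.prod isOpen_univ)
      (hηs.trans (hOD.trans inter_subset_left)) (T.vt_cont _)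
  · -- t0
    intro k p
    by_cases hp : p.1 ∈ D
    · exact mul_nonneg (hη0 p) (T.vt_nonneg _ hp)
    · have : η p = 0 := image_eq_zero_of_notMem_tsupport fun h' => hp (hOD (hηs h')).1.1
      simp [this]
  · -- δ0
    intro k
    have := htp k
    positivity
  · exact tendsto_const_nhds.div_atTop S.inf
  · -- psh
    intro k p hp v
    rw [hLw k p hp v]
    have h1 := T.pull_nonneg (α k) (hpD p hp) v
    have h2 := hKb p hp v
    have h3 := htp k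
    rw [le_div_iff₀ h3, neg_mul, div_mul_eq_mul_div, div_mul_cancel₀ _ h3.ne']
    nlinarith [sq_nonneg ‖v‖]
  · -- ver
    intro k p hp ξ
    rw [hLw k p hp, hη1' p hp, one_mul]
    have h1 := T.pull_nonneg K (hpD p hp) ((0, ξ) : Cn n × Cn n)
    have h2 := T.ver_le (α k) (hpD p hp) ξ
    have h3 := htp k
    have h4 : 0 ≤ vt (ofKah (α k)) Ψ p * ‖ξ‖ ^ 2 :=
      mul_nonneg (T.vt_nonneg _ (hpD p hp)) (sq_nonneg _)
    rw [div_le_iff₀ h3]
    have h5 : (1 + CK) / t k * vt (ofKah (α k)) Ψ p * ‖ξ‖ ^ 2 * t k =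
        (1 + CK) * (vt (ofKah (α k)) Ψ p * ‖ξ‖ ^ 2) := by
      field_simp
    rw [h5]
    nlinarith
  · -- cell
    intro k y hy
    have hy' : y ∈ closedBall p0.1 ρ := ball_subset_closedBall hy
    have h1 : ∫ x in ball p0.2 (3 * ρ), η (y, x) * vt (ofKah (α k)) Ψ (y, x) ∂μX =
        ∫ x in ball p0.2 (3 * ρ), vt (ofKah (α k)) Ψ (y, x) ∂μX := by
      refine setIntegral_congr_fun measurableSet_ball fun x hx => ?_
      show η (y, x) * vt (ofKah (α k)) Ψ (y, x) = vt (ofKah (α k)) Ψ (y, x)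
      rw [hη1' (y, x) ⟨hy, hx⟩, one_mul]
    rw [h1]
    refine (T.cell_vt μX (hyD y hy') (hz y (hyD y hy')) hm hM (hyb y hy') (by linarith)
      (fun x hx u v => hCK (y, x) ⟨hy', closedBall_subset_closedBall (le_max_right _ _) hx⟩ u v)
      (S.sm k) (hα k)).trans ?_
    have h4 : 0 ≤ μX.real (ball 0 M') / v1 (2 * n) := by positivity
    gcongr
    linarith
  · -- str
    intro k p hp v
    rw [hLw k p hp, hη1' p hp, one_mul]
    have h2 := hKb p hp ((v, 0) : Cn n × Cn n)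
    have h2' : ‖((v, 0) : Cn n × Cn n)‖ = ‖v‖ := by
      rw [Prod.norm_def]; simp
    rw [h2'] at h2
    have h3 := htp k
    have h4 := T.symp_le (hHK k) (hpD p hp) (hOD (hKO (hBK hp))).2 v
    have h5 := hcs' p (hBK hp) v
    have h6 := T.vt_nonneg (α k) (hpD p hp)
    have h7 : c₁ * t k * (cs * ‖v‖ ^ 2) ≤
        pull (ofKah (α k)).f2 Ψ p ((v, 0) : Cn n × Cn n) (I • ((v, 0) : Cn n × Cn n)) *
          vt (ofKah (α k)) Ψ p := by
      refine le_trans ?_ h4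
      have h8 : 0 ≤ cs * ‖v‖ ^ 2 := by positivity
      have h9 := hr2 k
      have h10 : 0 ≤ r k ^ 2 := sq_nonneg _
      calc c₁ * t k * (cs * ‖v‖ ^ 2) ≤ r k ^ 2 * (cs * ‖v‖ ^ 2) := by gcongr
        _ ≤ r k ^ 2 * pf σ i Ψ (p, v) := by gcongr
    set A := pull (ofKah (α k)).f2 Ψ p ((v, 0) : Cn n × Cn n) (I • ((v, 0) : Cn n × Cn n))
    set Bk := pull (ofKah K).f2 Ψ p ((v, 0) : Cn n × Cn n) (I • ((v, 0) : Cn n × Cn n))
    have h11 : A / t k ≤ (A - Bk) / t k + (1 + CK) / t k * ‖v‖ ^ 2 := by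
      rw [div_mul_eq_mul_div, ← add_div]
      gcongr
      nlinarith [sq_nonneg ‖v‖]
    calc c₁ * cs * ‖v‖ ^ 2 = (c₁ * t k * (cs * ‖v‖ ^ 2)) / t k := by
          field_simp
      _ ≤ (A * vt (ofKah (α k)) Ψ p) / t k := by gcongr
      _ = A / t k * vt (ofKah (α k)) Ψ p := by ring
      _ ≤ _ := by gcongr

end TubA

end

end Crest.Agent.R281.Th_799
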