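import Crest.Agent.R281.ThC1_847
import Crest.Agent.R273.C0e_390

/-!
# Row 281, THETA, class half, part 2 (helper137): the `L¹` bound

* `FPsh G φ`      : `φ` smooth, `G + ∂∂̄ φ ≥ 0`, `max φ = 0` (`G` a smooth field of matrices)
* `cls_fpsh`      : these functions form a class of `R273.C0e_390.Cls`
* `PshC h K`      : `cur h + K + ∂∂̄ φ ≥ 0`, `max φ = 0`
* `l1_psh`        : uniform `L¹` bound on compact subsets of charts
* `pshC_of_alpha` : the potentials of `R281.ThC_847.exists_alpha` are in the class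
-/

set_option autoImplicit false
set_option linter.unusedSectionVars false
set_option maxSynthPendingDepth 3

open Set Filter Topology Complex MeasureTheory Metric
open scoped ContDiff Matrix ComplexConjugate ComplexOrder

namespace Crest.Agent.R281.ThC_137

open Crest.Agent.R275 Crest.Agent.R275.Geo Crest.Agent.R275.Core144
open Crest.Agent.R275.GC293
open Crest.Agent.R273.Defs_333 Crest.Agent.R273.HM_333
open Crest.Agent.R273.Kah_333 Crest.Agent.R273.Hess_333 Crest.Agent.R273.HessB_333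
open Crest.Agent.R273.YauDefs_635 (inC lev333_eq)
open Crest.Agent.R273.C0e_390 (Cls l1_compact lv_eq_lev)

noncomputable section

section lin

variable {n : ℕ}

/-- `∑ G_ab v_a conj v_b` -/
def qG (G : Matrix (Fin n) (Fin n) ℂ) (v : Cn n) : ℂ := ∑ a, ∑ b, G a b * v a * conj (v b)

theorem qG_eq (G : Matrix (Fin n) (Fin n) ℂ) (v : Cn n) :
    star (fun a => conj (v a)) ⬝ᵥ (G *ᵥ (fun a => conj (v a))) = qG G v := by
  unfold qG
  simp only [dotProduct, Matrix.mulVec, Pi.star_apply, RCLike.star_def, Complex.conj_conj,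
    Finset.mul_sum]
  refine Finset.sum_congr rfl fun a _ => Finset.sum_congr rfl fun b _ => ?_
  ring

theorem qG_add (G G' : Matrix (Fin n) (Fin n) ℂ) (v : Cn n) : qG (G + G') v = qG G v + qG G' v := by
  unfold qG
  simp only [Matrix.add_apply, add_mul, Finset.sum_add_distrib]

theorem qG_re_nonneg {G : Matrix (Fin n) (Fin n) ℂ} (hG : G.PosSemidef) (v : Cn n) :
    0 ≤ (qG G v).re := by
  have h1 := hG.dotProduct_mulVec_nonneg (fun a => conj (v a))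
  rw [qG_eq] at h1
  exact (Complex.le_def.1 h1).1

theorem qG_le {G : Matrix (Fin n) (Fin n) ℂ} {C : ℝ} (hC : ∀ a b, ‖G a b‖ ≤ C) (v : Cn n) :
    ‖qG G v‖ ≤ (n : ℝ) * n * C * ‖v‖ ^ 2 := by
  have h1 : ∀ a, ‖v a‖ ≤ ‖v‖ := fun a => PiLp.norm_apply_le v a
  unfold qG
  calc ‖∑ a, ∑ b, G a b * v a * conj (v b)‖ ≤ ∑ a : Fin n, ∑ b : Fin n, C * ‖v‖ ^ 2 := by
        refine (norm_sum_le _ _).trans (Finset.sum_le_sum fun a _ => ?_)
        refine (norm_sum_le _ _).trans (Finset.sum_le_sum fun b _ => ?_)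
        rw [norm_mul, norm_mul, RCLike.norm_conj, mul_assoc, sq]
        have hC0 : 0 ≤ C := (norm_nonneg _).trans (hC a b)
        exact mul_le_mul (hC a b) (mul_le_mul (h1 a) (h1 b) (norm_nonneg _) (norm_nonneg _))
          (by positivity) hC0
    _ = _ := by
        simp only [Finset.sum_const, Finset.card_univ, Fintype.card_fin, nsmul_eq_mul]
        ring

end lin

section any

variable {n : ℕ} {M : Type} [TopologicalSpace M] {A : Atl n M}

/-- smooth functions with `G + ∂∂̄ φ ≥ 0` and maximum `0` -/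
def FPsh (A : Atl n M) (G : A.ι → M → Matrix (Fin n) (Fin n) ℂ) (φ : M → ℝ) : Prop :=
  A.Sm φ ∧ (∀ i, ∀ x ∈ (A.e i).source, (G i x + hsf A φ i x).PosSemidef) ∧ (∀ x, φ x ≤ 0) ∧
    ∃ x, φ x = 0

theorem lev_hsf {φ : M → ℝ} (hφ : A.Sm φ) {i : A.ι} {z : Cn n} (hz : z ∈ (A.e i).target)
    (v : Cn n) : lev (inC A i φ) z v = 4 * (qG (hsf A φ i ((A.e i).symm z)) v).re := by
  have h1 := lev_eq (sm_contDiffAt hφ i hz) v
  have h2 : hq (fun z => φ ((A.e i).symm z)) z v = qG (hsf A φ i ((A.e i).symm z)) v := by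
    rw [hsf_read φ i hz]
    rfl
  rw [h2] at h1
  have h3 := congrArg Complex.re h1
  rw [Complex.ofReal_re] at h3
  rw [show lev (inC A i φ) z v = lev (fun z => φ ((A.e i).symm z)) z v from rfl,
    h3]
  simp

theorem cls_fpsh {G : A.ι → M → Matrix (Fin n) (Fin n) ℂ}
    (hG : ∀ i a b, A.SmAt i (fun x => G i x a b)) : Cls A (FPsh A G) := by
  refine ⟨fun φ hφ => hφ.1, fun φ hφ => hφ.2.2.1, fun i Q hQ hc => ?_⟩
  have hb : ∀ a b, ∃ C : ℝ, ∀ z ∈ Q, ‖G i ((A.e i).symm z) a b‖ ≤ C := fun a b =>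
    hc.exists_bound_of_continuousOn ((hG i a b).continuousOn.mono hQ)
  choose C hC using hb
  set D : ℝ := ∑ a, ∑ b, |C a b| with hD
  have hD0 : 0 ≤ D := Finset.sum_nonneg fun a _ => Finset.sum_nonneg fun b _ => abs_nonneg _
  have hCD : ∀ z ∈ Q, ∀ a b, ‖G i ((A.e i).symm z) a b‖ ≤ D := fun z hz a b =>
    (hC a b z hz).trans ((le_abs_self _).trans
      ((Finset.single_le_sum (f := fun b => |C a b|) (fun b _ => abs_nonneg _)
        (Finset.mem_univ b)).trans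
      (Finset.single_le_sum (f := fun a => ∑ b, |C a b|)
        (fun a _ => Finset.sum_nonneg fun b _ => abs_nonneg _) (Finset.mem_univ a))))
  refine ⟨4 * ((n : ℝ) * n * D), by positivity, fun φ hφ z hz v => ?_⟩
  have e1 : Crest.Agent.R273.C0d_390.lv (inC A i φ) z v =
      4 * (qG (hsf A φ i ((A.e i).symm z)) v).re :=
    (lv_eq_lev _ _ _).trans (lev_hsf hφ.1 (hQ hz) v)
  rw [e1]
  have h1 := qG_re_nonneg (hφ.2.1 i _ ((A.e i).map_target (hQ hz))) v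
  rw [qG_add, Complex.add_re] at h1
  have h2 := (Complex.re_le_norm _).trans (qG_le (hCD z hz) v)
  linarith

variable (μ : Measure (Cn n)) [μ.IsAddHaarMeasure]

/-- uniform `L¹` bound on compact subsets of the charts -/
theorem l1_fpsh [CompactSpace M] [ConnectedSpace M] {G : A.ι → M → Matrix (Fin n) (Fin n) ℂ}
    (hG : ∀ i a b, A.SmAt i (fun x => G i x a b)) (i : A.ι) {Q : Set (Cn n)} (hQ : IsCompact Q)
    (hQt : Q ⊆ (A.e i).target) :
    ∃ C : ℝ, 0 ≤ C ∧ ∀ φ, FPsh A G φ →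
      ∫⁻ w in Q, ENNReal.ofReal (-inC A i φ w) ∂μ ≤ ENNReal.ofReal C :=
  l1_compact μ (cls_fpsh hG) (fun _ hφ => hφ.2.2.2) i hQ hQt

/-- the same with the Bochner integral -/
theorem int_fpsh [CompactSpace M] [ConnectedSpace M] {G : A.ι → M → Matrix (Fin n) (Fin n) ℂ}
    (hG : ∀ i a b, A.SmAt i (fun x => G i x a b)) (i : A.ι) {Q : Set (Cn n)} (hQ : IsCompact Q)
    (hQt : Q ⊆ (A.e i).target) :
    ∃ C : ℝ, 0 ≤ C ∧ ∀ φ, FPsh A G φ →
      IntegrableOn (fun w => φ ((A.e i).symm w)) Q μ ∧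
        ∫ w in Q, |φ ((A.e i).symm w)| ∂μ ≤ C := by
  obtain ⟨C, hC0, hC⟩ := l1_fpsh μ hG i hQ hQt
  refine ⟨C, hC0, fun φ hφ => ?_⟩
  have hcont : ContinuousOn (fun w => φ ((A.e i).symm w)) Q := (hφ.1 i).continuousOn.mono hQt
  have hint := hcont.integrableOn_compact hQ (μ := μ)
  refine ⟨hint, ?_⟩
  have h1 : ∀ w, |φ ((A.e i).symm w)| = -φ ((A.e i).symm w) := fun w =>
    abs_of_nonpos (hφ.2.2.1 _)
  have h2 : ENNReal.ofReal (∫ w in Q, |φ ((A.e i).symm w)| ∂μ) ≤ ENNReal.ofReal C := by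
    refine le_trans (le_of_eq ?_) (hC φ hφ)
    simp only [h1]
    exact ofReal_integral_eq_lintegral_ofReal (f := fun w => -φ ((A.e i).symm w)) hint.neg
      (Eventually.of_forall fun w => neg_nonneg.2 (hφ.2.2.1 _))
  exact (ENNReal.ofReal_le_ofReal_iff hC0).1 h2

/-! ### metrics -/

variable {L : LB A}

/-- `cur h + K + ∂∂̄ φ ≥ 0`, `max φ = 0` -/
def PshC (h : HM L) (K : Kah A) (φ : M → ℝ) : Prop :=
  A.Sm φ ∧ (∀ i, ∀ x ∈ (A.e i).source, (cur h i x + hsf A φ i x + K.g i x).PosSemidef) ∧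
    (∀ x, φ x ≤ 0) ∧ ∃ x, φ x = 0

theorem pshC_iff (h : HM L) (K : Kah A) (φ : M → ℝ) :
    PshC h K φ ↔ FPsh A (fun i x => cur h i x + K.g i x) φ := by
  have h1 : ∀ i x, cur h i x + K.g i x + hsf A φ i x = cur h i x + hsf A φ i x + K.g i x :=
    fun i x => by abel
  unfold PshC FPsh
  simp only [h1]

theorem smG (h : HM L) (K : Kah A) (i : A.ι) (a b : Fin n) :
    A.SmAt i (fun x => (cur h i x + K.g i x) a b) :=
  (cur_smooth h i a b).add (K.sm i a b)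

theorem cls_pshC (h : HM L) (K : Kah A) : Cls A (PshC h K) :=
  (cls_fpsh (smG h K)).mono fun φ hφ => (pshC_iff h K φ).1 hφ

/-- **uniform `L¹` bound** -/
theorem l1_psh [CompactSpace M] [ConnectedSpace M] (h : HM L) (K : Kah A) (i : A.ι)
    {Q : Set (Cn n)} (hQ : IsCompact Q) (hQt : Q ⊆ (A.e i).target) :
    ∃ C : ℝ, 0 ≤ C ∧ ∀ φ, PshC h K φ →
      ∫⁻ w in Q, ENNReal.ofReal (-inC A i φ w) ∂μ ≤ ENNReal.ofReal C := by
  obtain ⟨C, h0, hC⟩ := l1_fpsh μ (smG h K) i hQ hQt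
  exact ⟨C, h0, fun φ hφ => hC φ ((pshC_iff h K φ).1 hφ)⟩

theorem int_psh [CompactSpace M] [ConnectedSpace M] (h : HM L) (K : Kah A) (i : A.ι)
    {Q : Set (Cn n)} (hQ : IsCompact Q) (hQt : Q ⊆ (A.e i).target) :
    ∃ C : ℝ, 0 ≤ C ∧ ∀ φ, PshC h K φ →
      IntegrableOn (fun w => φ ((A.e i).symm w)) Q μ ∧
        ∫ w in Q, |φ ((A.e i).symm w)| ∂μ ≤ C := by
  obtain ⟨C, h0, hC⟩ := int_fpsh μ (smG h K) i hQ hQt
  exact ⟨C, h0, fun φ hφ => hC φ ((pshC_iff h K φ).1 hφ)⟩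

/-- `cur h + ∂∂̄ φ + t⁻¹ K ≥ 0` -/
theorem psd_of_alpha {h : HM L} {K α : Kah A} {t : ℝ} (ht : 0 < t) {φ : M → ℝ}
    (hα : ∀ i, ∀ x ∈ (A.e i).source, α.g i x = K.g i x + (t : ℂ) • (cur h i x + hsf A φ i x))
    (i : A.ι) {x : M} (hx : x ∈ (A.e i).source) :
    (cur h i x + hsf A φ i x + ((t⁻¹ : ℝ) : ℂ) • K.g i x).PosDef := by
  have h1 : cur h i x + hsf A φ i x + ((t⁻¹ : ℝ) : ℂ) • K.g i x =
      ((t⁻¹ : ℝ) : ℂ) • α.g i x := by
    have h6 : (t : ℂ) ≠ 0 := by exact_mod_cast ht.ne'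
    rw [hα i x hx, smul_add, smul_smul, Complex.ofReal_inv, inv_mul_cancel₀ h6, one_smul, add_comm]
  rw [h1]
  refine (α.pos i x hx).smul ?_
  exact_mod_cast (inv_pos.2 ht)

theorem pshC_of_alpha {h : HM L} {K α : Kah A} {t : ℝ} (ht : 1 ≤ t) {φ : M → ℝ} (hφ : A.Sm φ)
    (hα : ∀ i, ∀ x ∈ (A.e i).source, α.g i x = K.g i x + (t : ℂ) • (cur h i x + hsf A φ i x))
    (hle : ∀ x, φ x ≤ 0) (h0 : ∃ x, φ x = 0) : PshC h K φ := by
  refine ⟨hφ, fun i x hx => ?_, hle, h0⟩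
  have ht0 : 0 < t := by linarith
  have h1 := psd_of_alpha ht0 hα i hx
  have h2 : cur h i x + hsf A φ i x + K.g i x =
      (cur h i x + hsf A φ i x + ((t⁻¹ : ℝ) : ℂ) • K.g i x) + ((1 - t⁻¹ : ℝ) : ℂ) • K.g i x := by
    push_cast
    module
  rw [h2]
  refine (Matrix.PosDef.add_posSemidef h1 ((K.pos i x hx).posSemidef.smul ?_)).posSemidef
  have h3 : t⁻¹ ≤ 1 := inv_le_one_of_one_le₀ ht
  exact_mod_cast (by linarith : (0 : ℝ) ≤ 1 - t⁻¹)

end any

end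

end Crest.Agent.R281.ThC_137
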