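import Crest.Agent.R281.ThnM_280

/-!
Row 281 (S0424), division 6, S6-RICH (helper627): for EVERY fixed direction `v`, for almost every
base point `z`, the complex line `z + ℂ v` meets a `σ`-thin set in a countable set.
-/

set_option autoImplicit false
set_option linter.unusedSectionVars false
set_option linter.unusedVariables false

open Set Filter Topology Metric Module MeasureTheory
open scoped ContDiff ENNReal

noncomputable section

namespace Crest.Agent.R281.ThL_627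

open Crest.Agent.R281.Thn_280 Crest.Agent.R281.ThnM_280 Crest.Agent.R275.Geo
  Crest.Agent.R275.Core144

variable {V : Type*} [NormedAddCommGroup V] [NormedSpace ℂ V] [FiniteDimensional ℂ V]
  [MeasurableSpace V] [BorelSpace V]

/-- a translate of a null set is null -/
theorem null_translate (μ : Measure V) [μ.IsAddHaarMeasure] {S : Set V} (hS : μ S = 0) (a : V) :
    μ {z | z + a ∈ S} = 0 := by
  have h : {z | z + a ∈ S} = (fun z => z + a) ⁻¹' S := rfl
  rw [h, measure_preimage_add_right, hS]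

/-- **for every direction `v`, almost every line parallel to `v` meets a `σ`-thin set in a
countable set** -/
theorem _root_.Crest.Agent.R281.Thn_280.STh.line_dir (μ : Measure V) [μ.IsAddHaarMeasure]
    {E : Set V} (hE : STh E) (v : V) : ∀ᵐ z ∂μ, {w : ℂ | z + w • v ∈ E}.Countable := by
  obtain ⟨U, g, h1, h2⟩ := hE
  obtain ⟨D, hDc, hDd⟩ := TopologicalSpace.exists_countable_dense ℂ
  have := hDc.to_subtype
  have hae : ∀ᵐ z ∂μ, ∀ j : ℕ, ∀ t : D,
      z + (t : ℂ) • v ∉ {z | z ∈ U j ∧ g j z = 0 ∧ fderiv ℂ (g j) z ≠ 0} := by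
    rw [ae_all_iff]; intro j
    rw [ae_all_iff]; intro t
    have h3 := null_translate μ (piece_null μ (h1 j).1 (h1 j).2) ((t : ℂ) • v)
    exact measure_eq_zero_iff_ae_notMem.1 h3
  filter_upwards [hae] with z hz
  have hsub : {w : ℂ | z + w • v ∈ E} ⊆
      ⋃ j, {w : ℂ | z + w • v ∈ U j ∧ g j (z + w • v) = 0 ∧ fderiv ℂ (g j) (z + w • v) ≠ 0} := by
    intro w hw
    exact mem_iUnion.2 (h2 _ hw)
  refine (countable_iUnion (fun j => ?_)).mono hsub
  refine countable_of_isolated (fun t ht => ?_)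
  obtain ⟨ht1, ht2, ht3⟩ := ht
  have hline : Continuous (fun s : ℂ => z + s • v) := by fun_prop
  have hφ : AnalyticAt ℂ (fun s : ℂ => g j (z + s • v)) t := by
    have h4 : AnalyticAt ℂ (fun ζ : ℂ => z + ζ • v) t := by fun_prop
    exact AnalyticAt.comp (g := g j) (f := fun ζ : ℂ => z + ζ • v) ((h1 j).2 _ ht1) h4
  rcases hφ.eventually_eq_zero_or_eventually_ne_zero with h5 | h5
  · exfalso
    have e1 : ∀ᶠ s in 𝓝 t, z + s • v ∈ U j := hline.continuousAt.eventually ((h1 j).1.mem_nhds ht1)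
    have e2 : ∀ᶠ s in 𝓝 t, fderiv ℂ (g j) (z + s • v) ≠ 0 := by
      have c1 : ContinuousAt (fderiv ℂ (g j)) (z + t • v) := ((h1 j).2 _ ht1).fderiv.continuousAt
      have c2 : ContinuousAt (fun s : ℂ => fderiv ℂ (g j) (z + s • v)) t :=
        ContinuousAt.comp (f := fun s : ℂ => z + s • v) c1 hline.continuousAt
      exact c2.eventually_ne ht3
    have e3 : ∀ᶠ s in 𝓝 t, (z + s • v ∈ U j ∧ g j (z + s • v) = 0) ∧
        fderiv ℂ (g j) (z + s • v) ≠ 0 := (e1.and h5).and e2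
    obtain ⟨O, hO1, hO2, hO3⟩ := _root_.eventually_nhds_iff.1 e3
    obtain ⟨s, hsO, hsD⟩ : ∃ s ∈ O, s ∈ D := by
      obtain ⟨s, hs, hsD⟩ := hDd.exists_mem_open hO2 ⟨t, hO3⟩
      exact ⟨s, hsD, hs⟩
    obtain ⟨⟨a1, a2⟩, a3⟩ := hO1 s hsO
    exact hz j ⟨s, hsD⟩ ⟨a1, a2, a3⟩
  · rw [eventually_nhdsWithin_iff] at h5
    refine ⟨_, h5, ?_⟩
    rintro s ⟨hs, hs2⟩
    by_contra hne
    exact hs hne hs2.2.1

variable {n : ℕ} {M : Type} [TopologicalSpace M] {A : Atl n M} {S : Set M}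

/-- the literal field `null` of 791's `PB` for `Ω = {z ∈ D | symm z ∉ S}` -/
theorem _root_.Crest.Agent.R281.ThnM_280.SThM.null_chart [MeasurableSpace (Cn n)]
    [BorelSpace (Cn n)] (μ : Measure (Cn n)) [μ.IsAddHaarMeasure] (hS : SThM A S) (i : A.ι)
    {D : Set (Cn n)} (hD : D ⊆ (A.e i).target) :
    μ (D \ {z | z ∈ D ∧ (A.e i).symm z ∉ S}) = 0 := by
  refine measure_mono_null ?_ ((hS i).null μ)
  rintro z ⟨hz, hz2⟩
  refine ⟨hD hz, ?_⟩
  by_contra h
  exact hz2 ⟨hz, h⟩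

/-- the literal field `line` of 791's `PB` for `Ω = {z ∈ D | symm z ∉ S}` -/
theorem _root_.Crest.Agent.R281.ThnM_280.SThM.line_chart [MeasurableSpace (Cn n)]
    [BorelSpace (Cn n)] (μ : Measure (Cn n)) [μ.IsAddHaarMeasure] (hS : SThM A S) (i : A.ι)
    {D : Set (Cn n)} (hD : D ⊆ (A.e i).target) (v : Cn n) :
    ∀ᵐ z ∂μ, {w : ℂ | z + w • v ∈ D \ {z | z ∈ D ∧ (A.e i).symm z ∉ S}}.Countable := by
  filter_upwards [(hS i).line_dir μ v] with z hz
  refine hz.mono ?_
  rintro w ⟨hw, hw2⟩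
  refine ⟨hD hw, ?_⟩
  by_contra h
  exact hw2 ⟨hw, h⟩

end Crest.Agent.R281.ThL_627
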