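import Crest.Agent.R281.Dh5_612
import Crest.Agent.R281.HfG3_615

/-!
# Row 281 (S0424), DIV 4: **Theorem S** (the literal statement of `SIn_14`)

assembled from `SGP_790.theoremS_of`, `HfA_593.halfA_of` (593), `halfG` (615) and `Dh5_612.diamStmt`.
-/

namespace Crest.Agent.R281.ThS_612

/-- **Theorem S** -/
theorem theoremS : Crest.Agent.R281.SIn_14.TheoremS :=
  Crest.Agent.R281.SGP_790.theoremS_of
    (Crest.Agent.R281.HfA_593.halfA_of Crest.Agent.R281.Dh5_612.diamStmt)
    Crest.Agent.R281.HfG_615.halfG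

end Crest.Agent.R281.ThS_612
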