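import Mathlib

/-!
# R281 (S0424), DIV 6, S6-O4 (helper524): compact leaves, topological part

`X0 ⊆ X` open, `y : X → B` continuous on `X0`, `Reg` = the points near which `y` is a product
projection with fibre `F`.  `leaf X0 y x` = connected component of `x` in `X0 ∩ y⁻¹{y x}`.

* `tube`  : around a compact leaf inside `Reg` there is an open saturated tube;
* `limit` : a limit of leaves contained in a fixed compact set of `X0` is contained in it.
-/

set_option autoImplicit false
set_option linter.unusedSectionVars false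

open Set Filter Topology Metric

namespace Crest.Agent.R281.Thin1_524

variable {X : Type*} [TopologicalSpace X]
variable {B : Type*} [NormedAddCommGroup B]
variable (F : Type*) [NormedAddCommGroup F] [NormedSpace ℝ F]

/-- the points near which `y` is a product projection with fibre `F` -/
def Reg (X0 : Set X) (y : X → B) : Set X :=
  {p | ∃ e : OpenPartialHomeomorph X (B × F), p ∈ e.source ∧ e.source ⊆ X0 ∧
    ∀ q ∈ e.source, (e q).1 = y q}

/-- the leaf through `x` -/
def leaf (X0 : Set X) (y : X → B) (x : X) : Set X :=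
  connectedComponentIn (X0 ∩ y ⁻¹' {y x}) x

/-- `x` lies on a compact regular leaf -/
structure Good (X0 : Set X) (y : X → B) (x : X) : Prop where
  mem : x ∈ X0
  cpt : IsCompact (leaf X0 y x)
  reg : leaf X0 y x ⊆ Reg F X0 y

variable {X0 : Set X} {y : X → B}

theorem mem_leaf {x : X} (hx : x ∈ X0) : x ∈ leaf X0 y x :=
  mem_connectedComponentIn ⟨hx, rfl⟩

theorem leaf_subset (x : X) : leaf X0 y x ⊆ X0 ∩ y ⁻¹' {y x} :=
  connectedComponentIn_subset _ _

theorem isPreconnected_leaf (x : X) : IsPreconnected (leaf X0 y x) :=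
  isPreconnected_connectedComponentIn

theorem leaf_y {x p : X} (hp : p ∈ leaf X0 y x) : y p = y x := (leaf_subset x hp).2

theorem subset_leaf {x p : X} {s : Set X} (hp : p ∈ leaf X0 y x) (hps : p ∈ s)
    (hs : IsPreconnected s) (hsX : s ⊆ X0) (hsy : ∀ q ∈ s, y q = y x) : s ⊆ leaf X0 y x := by
  have h1 : leaf X0 y x = connectedComponentIn (X0 ∩ y ⁻¹' {y x}) p :=
    connectedComponentIn_eq hp
  rw [h1]
  exact hs.subset_connectedComponentIn hps fun q hq => ⟨hsX hq, hsy q hq⟩

theorem leaf_eq_of_mem {x p : X} (hp : p ∈ leaf X0 y x) : leaf X0 y p = leaf X0 y x := by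
  have h1 : leaf X0 y x = connectedComponentIn (X0 ∩ y ⁻¹' {y x}) p :=
    connectedComponentIn_eq hp
  rw [h1, leaf, leaf_y hp]

theorem isCompact_cc {s : Set X} (hs : IsCompact s) (x : X) :
    IsCompact (connectedComponentIn s x) := by
  by_cases hx : x ∈ s
  · rw [connectedComponentIn_eq_image hx]
    have : CompactSpace s := isCompact_iff_compactSpace.1 hs
    exact isClosed_connectedComponent.isCompact.image continuous_subtype_val
  · rw [connectedComponentIn_eq_empty hx]
    exact isCompact_empty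

/-! ## boxes -/

/-- a cell of a box -/
def cell {F : Type*} [NormedAddCommGroup F] (e : OpenPartialHomeomorph X (B × F)) (U : Set B)
    (S : Set F) : Set X := e.symm '' (U ×ˢ S)

variable {F}

section cell

variable {e : OpenPartialHomeomorph X (B × F)} {U U' : Set B} {S S' : Set F}

theorem cell_mono (hU : U ⊆ U') (hS : S ⊆ S') : cell e U S ⊆ cell e U' S' :=
  image_mono (Set.prod_mono hU hS)

theorem cell_subset_source (h : U ×ˢ S ⊆ e.target) : cell e U S ⊆ e.source := by
  rintro _ ⟨z, hz, rfl⟩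
  exact e.map_target (h hz)

theorem mem_cell_iff (h : U ×ˢ S ⊆ e.target) {q : X} :
    q ∈ cell e U S ↔ q ∈ e.source ∧ (e q).1 ∈ U ∧ (e q).2 ∈ S := by
  constructor
  · rintro ⟨z, hz, rfl⟩
    refine ⟨e.map_target (h hz), ?_⟩
    rw [e.right_inv (h hz)]
    exact ⟨hz.1, hz.2⟩
  · rintro ⟨h1, h2, h3⟩
    exact ⟨e q, ⟨h2, h3⟩, e.left_inv h1⟩

theorem isOpen_cell (hU : IsOpen U) (hS : IsOpen S) (h : U ×ˢ S ⊆ e.target) :
    IsOpen (cell e U S) :=
  e.isOpen_image_symm_of_subset_target (hU.prod hS) h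

theorem isCompact_cell (hU : IsCompact U) (hS : IsCompact S) (h : U ×ˢ S ⊆ e.target) :
    IsCompact (cell e U S) :=
  (hU.prod hS).image_of_continuousOn (e.continuousOn_symm.mono h)

theorem isPreconnected_cell (hU : IsPreconnected U) (hS : IsPreconnected S)
    (h : U ×ˢ S ⊆ e.target) : IsPreconnected (cell e U S) :=
  (hU.prod hS).image _ (e.continuousOn_symm.mono h)

theorem y_cell (he : ∀ q ∈ e.source, (e q).1 = y q) (h : U ×ˢ S ⊆ e.target) {q : X}
    (hq : q ∈ cell e U S) : y q ∈ U := by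
  have h1 := (mem_cell_iff h).1 hq
  rw [← he q h1.1]
  exact h1.2.1

end cell

/-- a regular point has arbitrarily small boxes -/
theorem exists_box {p : X} (hp : p ∈ Reg F X0 y) {O : Set X} (hO : IsOpen O) (hpO : p ∈ O) :
    ∃ e : OpenPartialHomeomorph X (B × F), p ∈ e.source ∧ e.source ⊆ X0 ∧ e.source ⊆ O ∧
      (∀ q ∈ e.source, (e q).1 = y q) ∧ ∃ ρ > 0,
      closedBall (y p) ρ ×ˢ closedBall (e p).2 ρ ⊆ e.target := by
  obtain ⟨e, h1, h2, h3⟩ := hp
  refine ⟨e.restrOpen O hO, ?_, ?_, ?_, ?_, ?_⟩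
  · rw [e.restrOpen_source]
    exact ⟨h1, hpO⟩
  · rw [e.restrOpen_source]
    exact fun q hq => h2 hq.1
  · rw [e.restrOpen_source]
    exact inter_subset_right
  · rw [e.restrOpen_source]
    exact fun q hq => h3 q hq.1
  · have h4 : (e.restrOpen O hO).target ∈ 𝓝 ((e.restrOpen O hO) p) :=
      (e.restrOpen O hO).open_target.mem_nhds
        ((e.restrOpen O hO).map_source (by rw [e.restrOpen_source]; exact ⟨h1, hpO⟩))
    obtain ⟨ρ, hρ, h5⟩ := Metric.nhds_basis_closedBall.mem_iff.1 h4
    refine ⟨ρ, hρ, ?_⟩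
    rw [closedBall_prod_same]
    have h6 : ((e.restrOpen O hO) p) = (y p, ((e.restrOpen O hO) p).2) := by
      refine Prod.ext ?_ rfl
      exact h3 p h1
    rw [← h6]
    exact h5

theorem isOpen_reg : IsOpen (Reg F X0 y) := by
  rw [isOpen_iff_mem_nhds]
  rintro p ⟨e, h1, h2, h3⟩
  filter_upwards [e.open_source.mem_nhds h1] with q hq using ⟨e, hq, h2, h3⟩

theorem reg_subset : Reg F X0 y ⊆ X0 := by
  rintro p ⟨e, h1, h2, h3⟩
  exact h2 h1

/-- the plaque of a box through a point of a leaf lies in the leaf -/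
theorem plaque_subset {e : OpenPartialHomeomorph X (B × F)} (heX : e.source ⊆ X0)
    (he : ∀ q ∈ e.source, (e q).1 = y q) {S : Set F} (hS : IsPreconnected S) {x p : X}
    (hp : p ∈ leaf X0 y x) (hT : {y x} ×ˢ S ⊆ e.target) (hpc : p ∈ cell e {y x} S) :
    cell e {y x} S ⊆ leaf X0 y x := by
  refine subset_leaf hp hpc (isPreconnected_cell isPreconnected_singleton hS hT)
    (fun q hq => heX (cell_subset_source hT hq)) fun q hq => ?_
  exact y_cell he hT hq

/-- **(LIMIT)** a limit of leaves contained in the compact set `K ⊆ X0` is contained in `K` -/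
theorem limit [T2Space X] (hy : ContinuousOn y X0) {K : Set X} (hK : IsCompact K)
    (hKX : K ⊆ X0) {x0 : X} (hx : x0 ∈ X0) (hreg : leaf X0 y x0 ⊆ Reg F X0 y)
    (hcl : x0 ∈ closure {x | x ∈ X0 ∧ leaf X0 y x ⊆ K}) :
    leaf X0 y x0 ⊆ K ∧ IsCompact (leaf X0 y x0) := by
  set P : X → Prop := fun p => ∀ N ∈ 𝓝 p, ∀ N0 ∈ 𝓝 x0, ∃ x ∈ N0, x ∈ X0 ∧ leaf X0 y x ⊆ K ∧
    (leaf X0 y x ∩ N).Nonempty with hP
  have hPK : ∀ p, P p → p ∈ K := by
    intro p hp
    have h1 : p ∈ closure K := by
      rw [mem_closure_iff_nhds]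
      intro N hN
      obtain ⟨x, -, -, h2, q, h3, h4⟩ := hp N hN univ univ_mem
      exact ⟨q, h4, h2 h3⟩
    rwa [hK.isClosed.closure_eq] at h1
  have hP0 : P x0 := by
    intro N hN N0 hN0
    obtain ⟨x, ⟨h1, h1'⟩, h2, h3⟩ := mem_closure_iff_nhds.1 hcl (N ∩ N0) (inter_mem hN hN0)
    exact ⟨x, h1', h2, h3, x, mem_leaf h2, h1⟩
  -- the key step
  have key : ∀ p ∈ leaf X0 y x0, ∀ᶠ q in 𝓝[leaf X0 y x0] p, (P p → P q) ∧ (P q → P p) := by
    intro p hp
    obtain ⟨e, h1, h2, -, h3, ρ, hρ, h4⟩ := exists_box (hreg hp) isOpen_univ (mem_univ p)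
    have h4' : ball (y p) ρ ×ˢ ball (e p).2 ρ ⊆ e.target :=
      (Set.prod_mono ball_subset_closedBall ball_subset_closedBall).trans h4
    have hop : IsOpen (cell e (ball (y p) ρ) (ball (e p).2 ρ)) :=
      isOpen_cell isOpen_ball isOpen_ball h4'
    have hpc : p ∈ cell e (ball (y p) ρ) (ball (e p).2 ρ) := by
      rw [mem_cell_iff h4']
      exact ⟨h1, by rw [h3 p h1]; exact mem_ball_self hρ, mem_ball_self hρ⟩
    -- transport of `P` inside the plaque
    have tr : ∀ q q', q ∈ leaf X0 y x0 → q' ∈ leaf X0 y x0 →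
        q ∈ cell e (ball (y p) ρ) (ball (e p).2 ρ) →
        q' ∈ cell e (ball (y p) ρ) (ball (e p).2 ρ) → P q → P q' := by
      intro q q' hq hq' hqc hqc' hPq N' hN' N0 hN0
      have h5 := (mem_cell_iff h4').1 hqc'
      have h6 := (mem_cell_iff h4').1 hqc
      -- a neighbourhood of `y q'` of values
      have hyq : y q' = y q := by rw [leaf_y hq, leaf_y hq']
      have h7 : ∀ᶠ b in 𝓝 (y q'), b ∈ ball (y p) ρ ∧ e.symm (b, (e q').2) ∈ N' := by
        have h8 : ContinuousAt (fun b : B => e.symm (b, (e q').2)) (y q') := by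
          have h9 : (y q', (e q').2) = e q' := Prod.ext (h3 q' h5.1).symm rfl
          have h10 : ContinuousAt e.symm (y q', (e q').2) := by
            rw [h9]
            exact e.continuousAt_symm (e.map_source h5.1)
          exact ContinuousAt.comp (f := fun b : B => (b, (e q').2)) h10
            (by fun_prop)
        have h11 : e.symm (y q', (e q').2) = q' := by
          have h9 : (y q', (e q').2) = e q' := Prod.ext (h3 q' h5.1).symm rfl
          rw [h9, e.left_inv h5.1]
        refine Filter.Eventually.and ?_ (h8 (by simpa only [h11] using hN'))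
        rw [← h3 q' h5.1]
        exact isOpen_ball.mem_nhds h5.2.1
      obtain ⟨δ, hδ, h12⟩ := Metric.eventually_nhds_iff_ball.1 h7
      have hV : cell e (ball (y q') δ) (ball (e p).2 ρ) ∈ 𝓝 q := by
        have h13 : ball (y q') δ ⊆ ball (y p) ρ := fun b hb => (h12 b hb).1
        have h14 : ball (y q') δ ×ˢ ball (e p).2 ρ ⊆ e.target :=
          (Set.prod_mono h13 Subset.rfl).trans h4'
        refine (isOpen_cell isOpen_ball isOpen_ball h14).mem_nhds ?_
        rw [mem_cell_iff h14]
        exact ⟨h6.1, by rw [h3 q h6.1, hyq]; exact mem_ball_self hδ, h6.2.2⟩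
      obtain ⟨x, hx0, hxX, hxK, z, hz, hzc⟩ := hPq _ hV N0 hN0
      have h13 : ball (y q') δ ⊆ ball (y p) ρ := fun b hb => (h12 b hb).1
      have h14 : ball (y q') δ ×ˢ ball (e p).2 ρ ⊆ e.target :=
        (Set.prod_mono h13 Subset.rfl).trans h4'
      have h15 := (mem_cell_iff h14).1 hzc
      have hyz : y z = y x := leaf_y hz
      have h16 : y x ∈ ball (y q') δ := by rw [← hyz, ← h3 z h15.1]; exact h15.2.1
      have h17 : ({y x} : Set B) ×ˢ ball (e p).2 ρ ⊆ e.target :=
        (Set.prod_mono (singleton_subset_iff.2 h16) Subset.rfl).trans h14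
      have h18 : cell e {y x} (ball (e p).2 ρ) ⊆ leaf X0 y x := by
        refine plaque_subset h2 h3 (convex_ball _ _).isPreconnected hz h17 ?_
        rw [mem_cell_iff h17]
        exact ⟨h15.1, by rw [h3 z h15.1, hyz]; rfl, h15.2.2⟩
      refine ⟨x, hx0, hxX, hxK, e.symm (y x, (e q').2), h18 ?_, (h12 _ h16).2⟩
      exact ⟨(y x, (e q').2), ⟨rfl, h5.2.2⟩, rfl⟩
    have h5 : ∀ᶠ q in 𝓝[leaf X0 y x0] p, q ∈ cell e (ball (y p) ρ) (ball (e p).2 ρ) :=
      eventually_nhdsWithin_of_eventually_nhds (hop.mem_nhds hpc)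
    filter_upwards [h5, self_mem_nhdsWithin] with q hq hq'
    exact ⟨tr p q hp hq' hpc hq, tr q p hq' hp hq hpc⟩
  have hPall : ∀ p ∈ leaf X0 y x0, P p := by
    intro p hp
    have h1 := (isPreconnected_leaf (X0 := X0) (y := y) x0).induction₂' (fun a b => P a → P b)
      key (fun a b c _ _ _ h1 h2 h3 => h2 (h1 h3)) (mem_leaf hx) hp
    exact h1 hP0
  have hsub : leaf X0 y x0 ⊆ K := fun p hp => hPK p (hPall p hp)
  refine ⟨hsub, ?_⟩
  -- compactness : the leaf is closed in `K ∩ y⁻¹{y x0}`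
  have h1 : IsCompact (K ∩ y ⁻¹' {y x0}) := by
    refine hK.of_isClosed_subset ?_ inter_subset_left
    exact (hy.mono hKX).preimage_isClosed_of_isClosed hK.isClosed isClosed_singleton
  have h2 : leaf X0 y x0 = connectedComponentIn (K ∩ y ⁻¹' {y x0}) x0 := by
    apply Subset.antisymm
    · refine (isPreconnected_leaf x0).subset_connectedComponentIn (mem_leaf hx) ?_
      exact fun q hq => ⟨hsub hq, leaf_y hq⟩
    · refine isPreconnected_connectedComponentIn.subset_connectedComponentIn
        (mem_connectedComponentIn ⟨hsub (mem_leaf hx), rfl⟩) ?_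
      exact (connectedComponentIn_subset _ _).trans (inter_subset_inter_left _ hKX)
  rw [h2]
  exact isCompact_cc h1 x0

end Crest.Agent.R281.Thin1_524
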