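import Crest.Agent.R281.Thin1_524

/-!
# R281 (S0424), DIV 6, S6-O4 (helper524): the tube around a compact regular leaf (TUBE)
-/

set_option autoImplicit false
set_option linter.unusedSectionVars false

open Set Filter Topology Metric Relation

namespace Crest.Agent.R281.Thin2_524

open Crest.Agent.R281.Thin1_524

variable {X : Type*} [TopologicalSpace X]
variable {B : Type*} [NormedAddCommGroup B]
variable {F : Type*} [NormedAddCommGroup F] [NormedSpace ℝ F]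
variable {X0 : Set X} {y : X → B}

/-- **(TUBE)** a compact regular leaf has arbitrarily small open saturated tubes -/
theorem tube [T2Space X] [ProperSpace B] [ProperSpace F] (hy : ContinuousOn y X0) {x : X}
    (hg : Good F X0 y x) {O : Set X} (hO : IsOpen O) (hxO : leaf X0 y x ⊆ O) :
    ∃ r₀ > 0, ∀ r, 0 < r → r ≤ r₀ → ∃ W : Set X, IsOpen W ∧ leaf X0 y x ⊆ W ∧ W ⊆ O ∧
      W ⊆ Reg F X0 y ∧ y '' W = ball (y x) r ∧ W ∩ y ⁻¹' {y x} = leaf X0 y x ∧
      (∀ x' ∈ W, leaf X0 y x' = W ∩ y ⁻¹' {y x'}) ∧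
      (∀ K ⊆ ball (y x) r, IsCompact K → IsCompact (W ∩ y ⁻¹' K)) := by
  classical
  set T := leaf X0 y x with hT
  have hTy : ∀ p ∈ T, y p = y x := fun p hp => leaf_y hp
  -- choose the boxes
  have hbox : ∀ p : T, ∃ e : OpenPartialHomeomorph X (B × F), (p : X) ∈ e.source ∧
      e.source ⊆ X0 ∧ e.source ⊆ O ∧ (∀ q ∈ e.source, (e q).1 = y q) ∧ ∃ ρ > 0,
      closedBall (y x) ρ ×ˢ closedBall (e p).2 ρ ⊆ e.target := by
    intro p
    obtain ⟨e, h1, h2, h3, h4, ρ, hρ, h5⟩ := exists_box (hg.reg p.2) hO (hxO p.2)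
    exact ⟨e, h1, h2, h3, h4, ρ, hρ, by rw [← hTy p p.2]; exact h5⟩
  choose e he1 he2 he3 he4 ρ hρ he5 using hbox
  have he5' : ∀ p, ball (y x) (ρ p) ×ˢ ball (e p p).2 (ρ p) ⊆ (e p).target := fun p =>
    (Set.prod_mono ball_subset_closedBall ball_subset_closedBall).trans (he5 p)
  -- finite subcover
  obtain ⟨t, ht⟩ := hg.cpt.elim_nhds_subcover' (fun p hp =>
      cell (e ⟨p, hp⟩) (ball (y x) (ρ ⟨p, hp⟩)) (ball (e ⟨p, hp⟩ p).2 (ρ ⟨p, hp⟩)))
    (by
      intro p hp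
      refine (isOpen_cell isOpen_ball isOpen_ball (he5' ⟨p, hp⟩)).mem_nhds ?_
      rw [mem_cell_iff (he5' ⟨p, hp⟩)]
      refine ⟨he1 ⟨p, hp⟩, ?_, mem_ball_self (hρ _)⟩
      rw [he4 _ _ (he1 ⟨p, hp⟩), hTy p hp]
      exact mem_ball_self (hρ _))
  have ht' : ∀ q ∈ T, ∃ p ∈ t, q ∈ cell (e p) (ball (y x) (ρ p)) (ball (e p p).2 (ρ p)) := by
    intro q hq
    have h1 := ht hq
    simp only [mem_iUnion, exists_prop] at h1
    obtain ⟨p, h2, h3⟩ := h1
    exact ⟨p, h2, h3⟩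
  have hxT : x ∈ T := mem_leaf hg.mem
  obtain ⟨p₀, hp₀, -⟩ := ht' x hxT
  -- a common radius
  obtain ⟨r₁, hr₁, hr₁'⟩ : ∃ r₁ > 0, ∀ p ∈ t, r₁ ≤ ρ p := by
    obtain ⟨p₁, h1, h2⟩ := t.exists_min_image ρ ⟨p₀, hp₀⟩
    exact ⟨ρ p₁, hρ p₁, h2⟩
  set V : ℝ → Set X := fun r => ⋃ p ∈ t, cell (e p) (ball (y x) r) (ball (e p p).2 (ρ p))
    with hV
  set C : Set X := ⋃ p ∈ t, cell (e p) (closedBall (y x) r₁) (closedBall (e p p).2 (ρ p))
    with hC
  have hcs : ∀ p ∈ t, closedBall (y x) r₁ ×ˢ closedBall (e p p).2 (ρ p) ⊆ (e p).target :=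
    fun p hp => (Set.prod_mono (closedBall_subset_closedBall (hr₁' p hp)) Subset.rfl).trans
      (he5 p)
  have hvs : ∀ r ≤ r₁, ∀ p ∈ t, ball (y x) r ×ˢ ball (e p p).2 (ρ p) ⊆ (e p).target :=
    fun r hr p hp => (Set.prod_mono (ball_subset_ball (hr.trans (hr₁' p hp))) Subset.rfl).trans
      (he5' p)
  have hCc : IsCompact C := t.isCompact_biUnion fun p hp =>
    isCompact_cell (isCompact_closedBall _ _) (isCompact_closedBall _ _) (hcs p hp)
  have hVo : ∀ r ≤ r₁, IsOpen (V r) := fun r hr =>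
    isOpen_biUnion fun p hp => isOpen_cell isOpen_ball isOpen_ball (hvs r hr p hp)
  have hVC : ∀ r ≤ r₁, V r ⊆ C := by
    intro r hr
    refine iUnion₂_mono fun p _ => cell_mono ?_ ball_subset_closedBall
    exact (ball_subset_ball hr).trans ball_subset_closedBall
  have hCX : C ⊆ X0 := iUnion₂_subset fun p hp => (cell_subset_source (hcs p hp)).trans (he2 p)
  -- a point of `C` over `ball (y x) r` which lies in `V r₁` lies in `V r`
  have hVr : ∀ r ≤ r₁, ∀ q ∈ V r₁, y q ∈ ball (y x) r → q ∈ V r := by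
    intro r hr q hq hqr
    simp only [hV, mem_iUnion, exists_prop] at hq ⊢
    obtain ⟨p, hp, hq⟩ := hq
    refine ⟨p, hp, ?_⟩
    rw [mem_cell_iff (hvs r₁ le_rfl p hp)] at hq
    rw [mem_cell_iff (hvs r hr p hp)]
    exact ⟨hq.1, by rw [he4 p q hq.1]; exact hqr, hq.2.2⟩
  have hVy : ∀ r ≤ r₁, ∀ q ∈ V r, y q ∈ ball (y x) r := by
    intro r hr q hq
    simp only [hV, mem_iUnion, exists_prop] at hq
    obtain ⟨p, hp, hq⟩ := hq
    exact y_cell (he4 p) (hvs r hr p hp) hq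
  have hTV : ∀ r, 0 < r → r ≤ r₁ → T ⊆ V r := by
    intro r hr0 hr q hq
    obtain ⟨p, hp, h1⟩ := ht' q hq
    simp only [hV, mem_iUnion, exists_prop]
    refine ⟨p, hp, ?_⟩
    rw [mem_cell_iff (he5' p)] at h1
    rw [mem_cell_iff (hvs r hr p hp)]
    refine ⟨h1.1, ?_, h1.2.2⟩
    rw [he4 p q h1.1, hTy q hq]
    exact mem_ball_self hr0
  -- `C` meets the fibre exactly in the leaf
  have hCF : ∀ q ∈ C, y q = y x → q ∈ T := by
    intro q hq hqy
    simp only [hC, mem_iUnion, exists_prop] at hq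
    obtain ⟨p, hp, hq⟩ := hq
    have h1 : ({y x} : Set B) ×ˢ closedBall (e p p).2 (ρ p) ⊆ (e p).target :=
      (Set.prod_mono (singleton_subset_iff.2 (mem_closedBall_self (hρ p).le))
        Subset.rfl).trans (he5 p)
    have h2 : cell (e p) {y x} (closedBall (e p p).2 (ρ p)) ⊆ T := by
      refine plaque_subset (he2 p) (he4 p) (convex_closedBall _ _).isPreconnected p.2 h1 ?_
      rw [mem_cell_iff h1]
      exact ⟨he1 p, by rw [he4 p _ (he1 p), hTy p p.2]; rfl, mem_closedBall_self (hρ p).le⟩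
    apply h2
    rw [mem_cell_iff (hcs p hp)] at hq
    rw [mem_cell_iff h1]
    exact ⟨hq.1, by rw [he4 p q hq.1, hqy]; rfl, hq.2.2⟩
  -- the gap
  obtain ⟨δ, hδ, hgap⟩ : ∃ δ > 0, ∀ q ∈ C, y q ∈ ball (y x) δ → q ∈ V r₁ := by
    have h1 : IsCompact (y '' (C \ V r₁)) :=
      (hCc.diff (hVo r₁ le_rfl)).image_of_continuousOn (hy.mono (sdiff_subset.trans hCX))
    have h2 : y x ∉ y '' (C \ V r₁) := by
      rintro ⟨q, ⟨h3, h4⟩, h5⟩
      exact h4 (hTV r₁ hr₁ le_rfl (hCF q h3 h5))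
    obtain ⟨δ, hδ, h3⟩ := Metric.isOpen_iff.1 h1.isClosed.isOpen_compl (y x) h2
    refine ⟨δ, hδ, fun q hq hqy => ?_⟩
    by_contra h4
    exact h3 hqy ⟨q, ⟨hq, h4⟩, rfl⟩
  -- the chain of plaques
  set P : T → B → Set X := fun p b => cell (e p) {b} (ball (e p p).2 (ρ p)) with hP
  have hps : ∀ b ∈ ball (y x) r₁, ∀ p ∈ t, ({b} : Set B) ×ˢ ball (e p p).2 (ρ p) ⊆
      (e p).target := fun b hb p hp =>
    (Set.prod_mono (singleton_subset_iff.2 hb) Subset.rfl).trans (hvs r₁ le_rfl p hp)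
  have hx1 : y x ∈ ball (y x) r₁ := mem_ball_self hr₁
  have hVP : ∀ r ≤ r₁, ∀ b ∈ ball (y x) r, V r ∩ y ⁻¹' {b} = ⋃ p ∈ t, P p b := by
    intro r hr b hb
    ext q
    simp only [hV, hP, mem_inter_iff, mem_iUnion, exists_prop, mem_preimage,
      mem_singleton_iff]
    have hb1 : b ∈ ball (y x) r₁ := ball_subset_ball hr hb
    constructor
    · rintro ⟨⟨p, hp, hq⟩, hqb⟩
      refine ⟨p, hp, ?_⟩
      rw [mem_cell_iff (hvs r hr p hp)] at hq
      rw [mem_cell_iff (hps b hb1 p hp)]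
      exact ⟨hq.1, by rw [he4 p q hq.1, hqb]; rfl, hq.2.2⟩
    · rintro ⟨p, hp, hq⟩
      rw [mem_cell_iff (hps b hb1 p hp)] at hq
      have h1 : y q = b := by rw [← he4 p q hq.1]; exact hq.2.1
      refine ⟨⟨p, hp, ?_⟩, h1⟩
      rw [mem_cell_iff (hvs r hr p hp)]
      exact ⟨hq.1, by rw [he4 p q hq.1, h1]; exact hb, hq.2.2⟩
  have hgraph : ∀ i ∈ t, ∀ j ∈ t,
      ReflTransGen (fun i j => (P i (y x) ∩ P j (y x)).Nonempty ∧ i ∈ t ∧ j ∈ t) i j := by
    intro i hi j hj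
    by_contra hij
    set R := fun i j : T => (P i (y x) ∩ P j (y x)).Nonempty ∧ i ∈ t ∧ j ∈ t
    set u : Set X := ⋃ k ∈ t.filter (fun k => ReflTransGen R i k),
      cell (e k) (ball (y x) (ρ k)) (ball (e k k).2 (ρ k))
    set v : Set X := ⋃ k ∈ t.filter (fun k => ¬ ReflTransGen R i k),
      cell (e k) (ball (y x) (ρ k)) (ball (e k k).2 (ρ k))
    have hu : IsOpen u := isOpen_biUnion fun k _ =>
      isOpen_cell isOpen_ball isOpen_ball (he5' k)
    have hv : IsOpen v := isOpen_biUnion fun k _ =>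
      isOpen_cell isOpen_ball isOpen_ball (he5' k)
    have hself : ∀ k : T, (k : X) ∈ cell (e k) (ball (y x) (ρ k)) (ball (e k k).2 (ρ k)) := by
      intro k
      rw [mem_cell_iff (he5' k)]
      exact ⟨he1 k, by rw [he4 k _ (he1 k), hTy k k.2]; exact mem_ball_self (hρ k),
        mem_ball_self (hρ k)⟩
    have h1 := isPreconnected_leaf (X0 := X0) (y := y) x u v hu hv (by
      intro q hq
      obtain ⟨p, hp, h2⟩ := ht' q hq
      by_cases h3 : ReflTransGen R i p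
      · left
        exact mem_iUnion₂.2 ⟨p, Finset.mem_filter.2 ⟨hp, h3⟩, h2⟩
      · right
        exact mem_iUnion₂.2 ⟨p, Finset.mem_filter.2 ⟨hp, h3⟩, h2⟩)
      ⟨i, i.2, mem_iUnion₂.2 ⟨i, Finset.mem_filter.2 ⟨hi, ReflTransGen.refl⟩, hself i⟩⟩
      ⟨j, j.2, mem_iUnion₂.2 ⟨j, Finset.mem_filter.2 ⟨hj, hij⟩, hself j⟩⟩
    obtain ⟨q, hq, hqu, hqv⟩ := h1
    obtain ⟨k, hk, hqk⟩ := mem_iUnion₂.1 hqu
    obtain ⟨l, hl, hql⟩ := mem_iUnion₂.1 hqv
    rw [Finset.mem_filter] at hk hl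
    apply hl.2
    refine hk.2.tail ⟨⟨q, ?_, ?_⟩, hk.1, hl.1⟩
    · rw [mem_cell_iff (he5' k)] at hqk
      show q ∈ cell (e k) {y x} (ball (e k k).2 (ρ k))
      rw [mem_cell_iff (hps _ hx1 k hk.1)]
      exact ⟨hqk.1, by rw [he4 k q hqk.1, hTy q hq]; rfl, hqk.2.2⟩
    · rw [mem_cell_iff (he5' l)] at hql
      show q ∈ cell (e l) {y x} (ball (e l l).2 (ρ l))
      rw [mem_cell_iff (hps _ hx1 l hl.1)]
      exact ⟨hql.1, by rw [he4 l q hql.1, hTy q hq]; rfl, hql.2.2⟩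
  -- stability of the chain
  have hstab : ∀ᶠ b in 𝓝 (y x), ∀ i ∈ t, ∀ j ∈ t, (P i (y x) ∩ P j (y x)).Nonempty →
      (P i b ∩ P j b).Nonempty := by
    rw [Filter.eventually_all_finset]
    intro i hi
    rw [Filter.eventually_all_finset]
    intro j hj
    by_cases hij : (P i (y x) ∩ P j (y x)).Nonempty
    · obtain ⟨q, hqi, hqj⟩ := hij
      have h1 : q ∈ cell (e i) {y x} (ball (e i i).2 (ρ i)) := hqi
      have h2 : q ∈ cell (e j) {y x} (ball (e j j).2 (ρ j)) := hqj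
      rw [mem_cell_iff (hps _ hx1 i hi)] at h1
      rw [mem_cell_iff (hps _ hx1 j hj)] at h2
      have hqy : y q = y x := by rw [← he4 i q h1.1]; exact h1.2.1
      have h9 : (y x, (e i q).2) = e i q := Prod.ext (h1.2.1).symm rfl
      have h11 : (e i).symm (y x, (e i q).2) = q := by rw [h9, (e i).left_inv h1.1]
      have h8 : ContinuousAt (fun b : B => (e i).symm (b, (e i q).2)) (y x) := by
        have h10 : ContinuousAt (e i).symm (y x, (e i q).2) := by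
          rw [h9]
          exact (e i).continuousAt_symm ((e i).map_source h1.1)
        exact ContinuousAt.comp (f := fun b : B => (b, (e i q).2)) h10 (by fun_prop)
      have h12 : cell (e j) (ball (y x) (ρ j)) (ball (e j j).2 (ρ j)) ∈ 𝓝 q := by
        refine (isOpen_cell isOpen_ball isOpen_ball (he5' j)).mem_nhds ?_
        rw [mem_cell_iff (he5' j)]
        exact ⟨h2.1, by rw [he4 j q h2.1, hqy]; exact mem_ball_self (hρ j), h2.2.2⟩
      have h13 : ∀ᶠ b in 𝓝 (y x), (e i).symm (b, (e i q).2) ∈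
          cell (e j) (ball (y x) (ρ j)) (ball (e j j).2 (ρ j)) :=
        h8 (by simpa only [h11] using h12)
      filter_upwards [h13, isOpen_ball.mem_nhds hx1] with b hb hb1 _
      have hbi : (b, (e i q).2) ∈ (e i).target := hvs r₁ le_rfl i hi ⟨hb1, h1.2.2⟩
      have hyb : y ((e i).symm (b, (e i q).2)) = b := by
        rw [← he4 i _ ((e i).map_target hbi), (e i).right_inv hbi]
      refine ⟨(e i).symm (b, (e i q).2), ⟨(b, (e i q).2), ⟨rfl, h1.2.2⟩, rfl⟩, ?_⟩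
      rw [mem_cell_iff (he5' j)] at hb
      show _ ∈ cell (e j) {b} (ball (e j j).2 (ρ j))
      rw [mem_cell_iff (hps b hb1 j hj)]
      exact ⟨hb.1, by rw [he4 j _ hb.1, hyb]; rfl, hb.2.2⟩
    · exact Filter.Eventually.of_forall fun b h => absurd h hij
  obtain ⟨r₂, hr₂, hst⟩ := Metric.eventually_nhds_iff_ball.1 hstab
  -- conclusion
  refine ⟨min (min δ r₁) r₂, by positivity, fun r hr0 hr => ?_⟩
  have hrδ : r ≤ δ := hr.trans ((min_le_left _ _).trans (min_le_left _ _))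
  have hr1 : r ≤ r₁ := hr.trans ((min_le_left _ _).trans (min_le_right _ _))
  have hr2 : r ≤ r₂ := hr.trans (min_le_right _ _)
  have hCV : ∀ q ∈ C, y q ∈ ball (y x) r → q ∈ V r := fun q hq hqy =>
    hVr r hr1 q (hgap q hq (ball_subset_ball hrδ hqy)) hqy
  have hVX : V r ⊆ X0 := (hVC r hr1).trans hCX
  have hconn : ∀ b ∈ ball (y x) r, IsPreconnected (V r ∩ y ⁻¹' {b}) := by
    intro b hb
    rw [hVP r hr1 b hb]
    have hb1 := ball_subset_ball hr1 hb
    refine IsPreconnected.biUnion_of_reflTransGen (fun p hp =>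
      isPreconnected_cell isPreconnected_singleton (convex_ball _ _).isPreconnected
        (hps b hb1 p hp)) ?_
    intro i hi j hj
    have h1 := hgraph i hi j hj
    clear hj
    induction h1 with
    | refl => exact ReflTransGen.refl
    | @tail k l h3 h4 ih =>
      exact ih.tail ⟨hst b (ball_subset_ball hr2 hb) k h4.2.1 l h4.2.2 h4.1, h4.2.1⟩
  refine ⟨V r, hVo r hr1, hTV r hr0 hr1, ?_, ?_, ?_, ?_, ?_, ?_⟩
  · exact iUnion₂_subset fun p hp =>
      (cell_subset_source (hvs r hr1 p hp)).trans (he3 p)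
  · intro q hq
    simp only [hV, mem_iUnion, exists_prop] at hq
    obtain ⟨p, hp, hq⟩ := hq
    exact ⟨e p, cell_subset_source (hvs r hr1 p hp) hq, he2 p, he4 p⟩
  · apply Subset.antisymm
    · rintro _ ⟨q, hq, rfl⟩
      exact hVy r hr1 q hq
    · intro b hb
      have h1 : (b, (e p₀ p₀).2) ∈ ball (y x) r ×ˢ ball (e p₀ p₀).2 (ρ p₀) :=
        ⟨hb, mem_ball_self (hρ p₀)⟩
      refine ⟨(e p₀).symm (b, (e p₀ p₀).2), mem_iUnion₂.2 ⟨p₀, hp₀, ⟨_, h1, rfl⟩⟩, ?_⟩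
      rw [← he4 p₀ _ ((e p₀).map_target (hvs r hr1 p₀ hp₀ h1)),
        (e p₀).right_inv (hvs r hr1 p₀ hp₀ h1)]
  · apply Subset.antisymm
    · rintro q ⟨hq, hqy⟩
      exact hCF q (hVC r hr1 hq) hqy
    · exact fun q hq => ⟨hTV r hr0 hr1 hq, hTy q hq⟩
  · intro x' hx'
    have hb : y x' ∈ ball (y x) r := hVy r hr1 x' hx'
    apply Subset.antisymm
    · -- `V r ∩ y⁻¹{y x'}` is clopen in the fibre
      have hcl : IsPreconnected (leaf X0 y x') := isPreconnected_leaf x'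
      have hcc : IsClosed (C ∩ y ⁻¹' {y x'}) :=
        (hy.mono hCX).preimage_isClosed_of_isClosed hCc.isClosed isClosed_singleton
      intro q hq
      refine ⟨?_, leaf_y hq⟩
      by_contra hqV
      obtain ⟨z, hz, hzu, hzv⟩ := hcl (V r) (C ∩ y ⁻¹' {y x'})ᶜ (hVo r hr1) hcc.isOpen_compl
        (by
          intro z hz
          by_cases h1 : z ∈ C
          · left
            exact hCV z h1 (by rw [leaf_y hz]; exact hb)
          · right
            exact fun h2 => h1 h2.1)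
        ⟨x', mem_leaf (hVX hx'), hx'⟩
        ⟨q, hq, fun h1 => hqV (hCV q h1.1 (by rw [leaf_y hq]; exact hb))⟩
      exact hzv ⟨hVC r hr1 hzu, leaf_y hz⟩
    · exact (hconn (y x') hb).subset_connectedComponentIn ⟨hx', rfl⟩
        (inter_subset_inter_left _ hVX)
  · intro K hK hKc
    have h1 : V r ∩ y ⁻¹' K = C ∩ y ⁻¹' K := by
      apply Subset.antisymm
      · exact inter_subset_inter_left _ (hVC r hr1)
      · exact fun q hq => ⟨hCV q hq.1 (hK hq.2), hq.2⟩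
    rw [h1]
    refine hCc.of_isClosed_subset ?_ inter_subset_left
    exact (hy.mono hCX).preimage_isClosed_of_isClosed hCc.isClosed hKc.isClosed

theorem isOpen_good [T2Space X] [ProperSpace B] [ProperSpace F]
    (hy : ContinuousOn y X0) : IsOpen {x | Good F X0 y x} := by
  rw [isOpen_iff_mem_nhds]
  intro x hx
  have hx' : Good F X0 y x := hx
  obtain ⟨r, hr, h⟩ := tube hy hx' isOpen_univ (subset_univ _)
  obtain ⟨W, h1, h2, -, h3, h4, -, h5, h6⟩ := h r hr le_rfl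
  filter_upwards [h1.mem_nhds (h2 (mem_leaf hx'.mem))] with x' hx''
  refine ⟨reg_subset (h3 hx''), ?_, ?_⟩
  · rw [h5 x' hx'']
    refine h6 {y x'} (singleton_subset_iff.2 ?_) isCompact_singleton
    rw [← h4]
    exact mem_image_of_mem y hx''
  · rw [h5 x' hx'']
    exact inter_subset_left.trans h3

/-- **(FRONT)** the closure of a clopen family `Om` of compact regular leaves, subject to the
uniform Harnack condition, adds only points of `y⁻¹(y(X0 ∖ Reg))` inside `X0` -/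
theorem closure_inter_subset [T2Space X] (hy : ContinuousOn y X0) {Om : Set X}
    (hOm : Om ⊆ {x | Good F X0 y x}) (hcl : ∀ x, Good F X0 y x → x ∈ closure Om → x ∈ Om)
    (harn : ∀ x0 ∈ X0, ∃ K ⊆ X0, IsCompact K ∧ ∃ N ∈ 𝓝 x0, ∀ x ∈ N ∩ Om, leaf X0 y x ⊆ K) :
    closure Om ∩ X0 ⊆ Om ∪ {x | x ∈ X0 ∧ y x ∈ y '' (X0 \ Reg F X0 y)} := by
  rintro x0 ⟨hx, hx0⟩
  by_cases hcr : y x0 ∈ y '' (X0 \ Reg F X0 y)
  · exact Or.inr ⟨hx0, hcr⟩
  left
  have hreg : leaf X0 y x0 ⊆ Reg F X0 y := by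
    intro q hq
    by_contra h
    exact hcr ⟨q, ⟨(leaf_subset x0 hq).1, h⟩, leaf_y hq⟩
  obtain ⟨K, hKX, hK, N, hN, h1⟩ := harn x0 hx0
  have h2 : x0 ∈ closure {x | x ∈ X0 ∧ leaf X0 y x ⊆ K} := by
    rw [mem_closure_iff_nhds]
    intro N' hN'
    obtain ⟨x, h3, h4⟩ := mem_closure_iff_nhds.1 hx (N ∩ N') (inter_mem hN hN')
    exact ⟨x, h3.2, (hOm h4).mem, h1 x ⟨h3.1, h4⟩⟩
  exact hcl x0 ⟨hx0, (limit hy hK hKX hx0 hreg h2).2, hreg⟩ hx

end Crest.Agent.R281.Thin2_524
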