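import Mathlib

/-!
Row 281 (S0424), division 6, S6-THIN part 1 (helper280): `σ`-thin sets = subsets of a countable
union of smooth holomorphic hypersurface pieces `{g = 0, dg ≠ 0}`; zero sets of analytic functions
which are nowhere locally zero are `σ`-thin.
-/

set_option autoImplicit false
set_option linter.unusedSectionVars false
set_option linter.unusedVariables false

open Set Filter Topology Metric
open scoped ContDiff

noncomputable section

namespace Crest.Agent.R281.Thn_280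

variable {V W : Type*} [NormedAddCommGroup V] [NormedSpace ℂ V]
  [NormedAddCommGroup W] [NormedSpace ℂ W]

/-- a smooth hypersurface piece -/
def Hp (U : Set V) (g : V → ℂ) : Set V := {z | z ∈ U ∧ g z = 0 ∧ fderiv ℂ g z ≠ 0}

/-- `σ`-thin sets -/
def STh (E : Set V) : Prop :=
  ∃ (U : ℕ → Set V) (g : ℕ → V → ℂ), (∀ j, IsOpen (U j) ∧ AnalyticOnNhd ℂ (g j) (U j)) ∧
    ∀ z ∈ E, ∃ j, z ∈ U j ∧ g j z = 0 ∧ fderiv ℂ (g j) z ≠ 0

theorem STh.mono {E F : Set V} (h : STh F) (hEF : E ⊆ F) : STh E := by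
  obtain ⟨U, g, h1, h2⟩ := h
  exact ⟨U, g, h1, fun z hz => h2 z (hEF hz)⟩

theorem sth_empty : STh (∅ : Set V) :=
  ⟨fun _ => ∅, fun _ _ => 0, fun _ => ⟨isOpen_empty, fun z hz => hz.elim⟩, fun z hz => hz.elim⟩

theorem sth_piece {U : Set V} {g : V → ℂ} (hU : IsOpen U) (hg : AnalyticOnNhd ℂ g U) :
    STh {z | z ∈ U ∧ g z = 0 ∧ fderiv ℂ g z ≠ 0} :=
  ⟨fun _ => U, fun _ => g, fun _ => ⟨hU, hg⟩, fun _ hz => ⟨0, hz⟩⟩

theorem sth_iUnion {ι : Type*} [Countable ι] {E : ι → Set V} (h : ∀ i, STh (E i)) :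
    STh (⋃ i, E i) := by
  choose U g h1 h2 using h
  rcases isEmpty_or_nonempty ι with hι | hι
  · simp only [iUnion_of_empty]; exact sth_empty
  have : Nonempty (ι × ℕ) := inferInstance
  obtain ⟨φ, hφ⟩ := exists_surjective_nat (ι × ℕ)
  refine ⟨fun k => U (φ k).1 (φ k).2, fun k => g (φ k).1 (φ k).2, fun k => h1 _ _, ?_⟩
  intro z hz
  obtain ⟨i, hi⟩ := mem_iUnion.1 hz
  obtain ⟨j, hj⟩ := h2 i z hi
  obtain ⟨k, hk⟩ := hφ (i, j)
  exact ⟨k, by simpa [hk] using hj⟩

theorem STh.union {E F : Set V} (hE : STh E) (hF : STh F) : STh (E ∪ F) := by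
  rw [union_eq_iUnion]
  refine sth_iUnion (fun b => ?_)
  cases b <;> assumption

/-- a countable family of pieces, indexed by any countable type -/
theorem sth_of_family {ι : Type*} [Countable ι] {E : Set V} {U : ι → Set V} {g : ι → V → ℂ}
    (hU : ∀ i, IsOpen (U i)) (hg : ∀ i, AnalyticOnNhd ℂ (g i) (U i))
    (h : ∀ z ∈ E, ∃ i, z ∈ U i ∧ g i z = 0 ∧ fderiv ℂ (g i) z ≠ 0) : STh E := by
  refine (sth_iUnion (fun i => sth_piece (hU i) (hg i))).mono ?_
  intro z hz
  obtain ⟨i, hi⟩ := h z hz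
  exact mem_iUnion.2 ⟨i, hi⟩

/-- Lindelöf: `σ`-thin is a local property (at the points of the set) -/
theorem sth_of_local [SecondCountableTopology V] {E : Set V}
    (h : ∀ z ∈ E, ∃ N ∈ 𝓝 z, STh (E ∩ N)) : STh E := by
  choose! N hN hS using h
  obtain ⟨t, htE, htc, hcov⟩ := TopologicalSpace.countable_cover_nhdsWithin
    (s := E) (f := N) (fun z hz => mem_nhdsWithin_of_mem_nhds (hN z hz))
  have := htc.to_subtype
  refine (sth_iUnion (fun z : t => hS z (htE z.2))).mono ?_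
  intro z hz
  obtain ⟨w, hw, hzw⟩ := mem_iUnion₂.1 (hcov hz)
  exact mem_iUnion.2 ⟨⟨w, hw⟩, hz, hzw⟩

/-- directional derivative -/
def dd (v : V) (g : V → ℂ) : V → ℂ := fun z => fderiv ℂ g z v

theorem analyticOnNhd_dd {U : Set V} {g : V → ℂ} (hg : AnalyticOnNhd ℂ g U) (v : V) :
    AnalyticOnNhd ℂ (dd v g) U := fun z hz =>
  ((ContinuousLinearMap.apply ℂ ℂ v).analyticAt _).comp (hg.fderiv z hz)

theorem analyticOnNhd_dd_iter {U : Set V} {g : V → ℂ} (hg : AnalyticOnNhd ℂ g U) (v : V) (m : ℕ) :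
    AnalyticOnNhd ℂ ((dd v)^[m] g) U := by
  induction m with
  | zero => exact hg
  | succ m ih => rw [Function.iterate_succ_apply']; exact analyticOnNhd_dd ih v

theorem iteratedDeriv_line {U : Set V} (hU : IsOpen U) {g : V → ℂ} (hg : AnalyticOnNhd ℂ g U)
    (z v : V) (m : ℕ) : ∀ t : ℂ, z + t • v ∈ U →
    iteratedDeriv m (fun s : ℂ => g (z + s • v)) t = ((dd v)^[m] g) (z + t • v) := by
  induction m with
  | zero => intro t ht; simp
  | succ m ih =>
    intro t ht
    rw [iteratedDeriv_succ, Function.iterate_succ_apply']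
    have hc : Continuous (fun s : ℂ => z + s • v) := by fun_prop
    have hO : IsOpen {s : ℂ | z + s • v ∈ U} := hU.preimage hc
    have h1 : iteratedDeriv m (fun s : ℂ => g (z + s • v)) =ᶠ[𝓝 t]
        fun s => ((dd v)^[m] g) (z + s • v) := by
      filter_upwards [hO.mem_nhds ht] with s hs using ih s hs
    rw [h1.deriv_eq]
    have h2 : HasFDerivAt ((dd v)^[m] g) (fderiv ℂ ((dd v)^[m] g) (z + t • v)) (z + t • v) :=
      (analyticOnNhd_dd_iter hg v m _ ht).differentiableAt.hasFDerivAt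
    have h3 : HasDerivAt (fun s : ℂ => z + s • v) v t := by
      have := ((hasDerivAt_id t).smul_const v).const_add z
      simpa using this
    have h4 := h2.comp_hasDerivAt t h3
    exact h4.deriv

/-- **(T1)** the zero set of an analytic function which is nowhere locally zero is `σ`-thin. -/
theorem sth_zero [SecondCountableTopology V] {U : Set V} (hU : IsOpen U) {g : V → ℂ}
    (hg : AnalyticOnNhd ℂ g U) (hne : ∀ z ∈ U, ∃ᶠ w in 𝓝 z, g w ≠ 0) :
    STh {z | z ∈ U ∧ g z = 0} := by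
  obtain ⟨D, hDc, hDd⟩ := TopologicalSpace.exists_countable_dense V
  have := hDc.to_subtype
  refine sth_of_family (ι := D × ℕ) (U := fun _ => U) (g := fun p => (dd (p.1 : V))^[p.2] g)
    (fun _ => hU) (fun p => analyticOnNhd_dd_iter hg _ _) ?_
  rintro z ⟨hz, hgz⟩
  obtain ⟨ρ, hρ, hρU⟩ := Metric.isOpen_iff.1 hU z hz
  -- a point near `z` with `g ≠ 0`, of the form `z + v`, `v ∈ D`
  obtain ⟨v, hvD, hv, hgv⟩ : ∃ v ∈ D, ‖v‖ < ρ ∧ g (z + v) ≠ 0 := by
    obtain ⟨b, hgb, hb⟩ := ((hne z hz).and_eventually (ball_mem_nhds z hρ)).exists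
    have hc : ContinuousAt (fun v : V => g (z + v)) (b - z) := by
      have h1 : AnalyticAt ℂ g (z + (b - z)) := by
        rw [add_sub_cancel]; exact hg b (hρU hb)
      exact h1.continuousAt.comp (f := fun v : V => z + v) (by fun_prop)
    have h2 : ∀ᶠ v in 𝓝 (b - z), g (z + v) ≠ 0 :=
      hc.eventually_ne (by rw [add_sub_cancel]; exact hgb)
    have h3 : ∀ᶠ v in 𝓝 (b - z), ‖v‖ < ρ := by
      refine (continuous_norm.continuousAt.eventually_lt continuousAt_const ?_)
      rwa [← dist_eq_norm]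
    obtain ⟨v, hvD, hv1, hv2⟩ := hDd.inter_nhds_nonempty (h2.and h3)
    exact ⟨v, hvD, hv2, hv1⟩
  set S : Set ℂ := {ζ | z + ζ • v ∈ ball z ρ} with hS
  have hSo : IsOpen S := isOpen_ball.preimage (by fun_prop : Continuous fun ζ : ℂ => z + ζ • v)
  have hSc : Convex ℝ S := by
    intro x hx y hy s t hs ht hst
    have : z + (s • x + t • y) • v = s • (z + x • v) + t • (z + y • v) := by
      have h2 : z = s • z + t • z := by rw [← add_smul, hst, one_smul]
      conv_lhs => rw [h2]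
      rw [add_smul, smul_add, smul_add, smul_assoc, smul_assoc]
      abel
    change z + (s • x + t • y) • v ∈ ball z ρ
    rw [this]
    exact (convex_ball z ρ) hx hy hs ht hst
  have h0 : (0 : ℂ) ∈ S := by simp [hS, hρ]
  have h1' : (1 : ℂ) ∈ S := by
    change z + (1 : ℂ) • v ∈ ball z ρ
    rw [one_smul, mem_ball, dist_eq_norm]; simpa using hv
  have hA : AnalyticOnNhd ℂ (fun ζ : ℂ => g (z + ζ • v)) S := by
    intro ζ hζ
    have h3 : AnalyticAt ℂ (fun ζ : ℂ => z + ζ • v) ζ := by fun_prop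
    exact AnalyticAt.comp (g := g) (f := fun ζ : ℂ => z + ζ • v) (hg _ (hρU hζ)) h3
  -- not all derivatives vanish
  have hex : ∃ m, ((dd v)^[m] g) z ≠ 0 := by
    by_contra hcon
    push Not at hcon
    have hall : ∀ m, iteratedDeriv m (fun s : ℂ => g (z + s • v)) 0 = 0 := by
      intro m
      rw [iteratedDeriv_line hU hg z v m 0 (by simpa using hz)]
      simpa using hcon m
    have htop : analyticOrderAt (fun s : ℂ => g (z + s • v)) 0 = ⊤ := by
      rw [ENat.eq_top_iff_forall_ge]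
      intro m
      exact (natCast_le_analyticOrderAt_iff_iteratedDeriv_eq_zero (hA 0 h0)).2
        (fun i _ => hall i)
    rw [analyticOrderAt_eq_top] at htop
    have := hA.eqOn_zero_of_preconnected_of_eventuallyEq_zero hSc.isPreconnected h0 htop h1'
    apply hgv
    simpa using this
  classical
  set m := Nat.find hex with hm
  have hm1 : ((dd v)^[m] g) z ≠ 0 := Nat.find_spec hex
  have hmpos : m ≠ 0 := by
    intro h
    rw [h] at hm1
    exact hm1 hgz
  obtain ⟨k, hk⟩ := Nat.exists_eq_succ_of_ne_zero hmpos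
  refine ⟨(⟨v, hvD⟩, k), hz, ?_, ?_⟩
  · by_contra hcon
    exact Nat.find_min hex (m := k) (by rw [← hm, hk]; exact Nat.lt_succ_self k) hcon
  · intro hcon
    apply hm1
    rw [hk, Function.iterate_succ_apply']
    change fderiv ℂ ((dd v)^[k] g) z v = 0
    rw [hcon]; rfl

/-- preimages under a submersive analytic map -/
theorem STh.preimage {E : Set W} (hE : STh E) {O : Set V} (hO : IsOpen O) {F : V → W}
    (hF : AnalyticOnNhd ℂ F O) (hs : ∀ z ∈ O, Function.Surjective (fderiv ℂ F z)) :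
    STh {z | z ∈ O ∧ F z ∈ E} := by
  obtain ⟨U, g, h1, h2⟩ := hE
  refine ⟨fun j => O ∩ F ⁻¹' (U j), fun j => g j ∘ F, fun j => ⟨?_, ?_⟩, ?_⟩
  · exact hF.continuousOn.isOpen_inter_preimage hO (h1 j).1
  · rintro z ⟨hz, hz'⟩
    exact ((h1 j).2 _ hz').comp (hF z hz)
  · rintro z ⟨hz, hzE⟩
    obtain ⟨j, hj1, hj2, hj3⟩ := h2 _ hzE
    refine ⟨j, ⟨hz, hj1⟩, hj2, ?_⟩
    rw [fderiv_comp z ((h1 j).2 _ hj1).differentiableAt (hF z hz).differentiableAt]
    intro hcon
    apply hj3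
    ext w
    obtain ⟨v, rfl⟩ := hs z hz w
    have := congrArg (fun L => L v) hcon
    simpa using this

/-- images under a local biholomorphism: `E ∩ source` mapped by a partial homeomorphism with
analytic inverse -/
theorem STh.image_of_inv {E : Set V} (hE : STh E) {O : Set W} (hO : IsOpen O) {G : W → V}
    (hG : AnalyticOnNhd ℂ G O) (hs : ∀ w ∈ O, Function.Surjective (fderiv ℂ G w)) {F : V → W}
    {S : Set V} (hS : ∀ z ∈ S, F z ∈ O ∧ G (F z) = z) : STh (F '' (E ∩ S)) := by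
  refine (hE.preimage hO hG hs).mono ?_
  rintro w ⟨z, ⟨hzE, hzS⟩, rfl⟩
  obtain ⟨h1, h2⟩ := hS z hzS
  exact ⟨h1, by rw [h2]; exact hzE⟩

end Crest.Agent.R281.Thn_280
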