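import Crest.Agent.R281.Thn1_280

/-!
Row 281 (S0424), division 6, S6-THIN part 2 (helper280): **analytic Sard**: the set of critical
values of a holomorphic map is `σ`-thin (contained in a countable union of smooth hypersurface
pieces).
-/

set_option autoImplicit false
set_option linter.unusedSectionVars false
set_option linter.unusedVariables false

open Set Filter Topology Metric Module
open scoped ContDiff

noncomputable section

namespace Crest.Agent.R281.Thn_280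

universe u v

/-- Straightening: if `A` is a right inverse of `L = dF(z₀)`, then `Ψ z = z + A (F z - L z)` is a
local biholomorphism with `L ∘ Ψ = F`. -/
theorem straighten {V X : Type*} [NormedAddCommGroup V] [NormedSpace ℂ V] [CompleteSpace V]
    [NormedAddCommGroup X] [NormedSpace ℂ X] [CompleteSpace X] {F : V → X} {z₀ : V} {N : Set V}
    (hN : N ∈ 𝓝 z₀) (hF : AnalyticOnNhd ℂ F N) (L : V →L[ℂ] X) (hL : L = fderiv ℂ F z₀)
    (A : X →L[ℂ] V) (hA : ∀ x, L (A x) = x) :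
    ∃ (O O' : Set V) (G : V → V), IsOpen O ∧ IsOpen O' ∧ z₀ ∈ O ∧ O ⊆ N ∧
      AnalyticOnNhd ℂ G O' ∧
      (∀ z ∈ O, z + A (F z - L z) ∈ O' ∧ G (z + A (F z - L z)) = z ∧
        L (z + A (F z - L z)) = F z) ∧
      (∀ w ∈ O', G w ∈ O ∧ G w + A (F (G w) - L (G w)) = w ∧ F (G w) = L w) := by
  have hz : z₀ ∈ N := mem_of_mem_nhds hN
  set Ψ : V → V := fun z => z + A (F z - L z) with hΨ
  have hΨa : ∀ z ∈ N, AnalyticAt ℂ Ψ z := by
    intro z hz
    have h1 : AnalyticAt ℂ (fun z => F z - L z) z := (hF z hz).sub (L.analyticAt z)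
    have h2 : AnalyticAt ℂ (fun z => A (F z - L z)) z :=
      (A.analyticAt _).comp h1
    exact analyticAt_id.add h2
  have hd : HasFDerivAt Ψ ((ContinuousLinearEquiv.refl ℂ V : V ≃L[ℂ] V) : V →L[ℂ] V) z₀ := by
    have h1 : HasFDerivAt F L z₀ := by rw [hL]; exact (hF z₀ hz).differentiableAt.hasFDerivAt
    have h2 : HasFDerivAt (fun z => F z - L z) (L - L) z₀ := h1.sub L.hasFDerivAt
    have h3 : HasFDerivAt (fun z => A (F z - L z)) (A.comp (L - L)) z₀ :=
      A.hasFDerivAt.comp z₀ h2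
    have h4 : HasFDerivAt Ψ (ContinuousLinearMap.id ℂ V + A.comp (L - L)) z₀ :=
      (hasFDerivAt_id z₀).add h3
    convert h4 using 1
    ext v
    simp
  have hcd : ContDiffAt ℂ ω Ψ z₀ := (hΨa z₀ hz).contDiffAt
  set e := hcd.toOpenPartialHomeomorph Ψ hd (by simp) with he
  have hez : z₀ ∈ e.source := hcd.mem_toOpenPartialHomeomorph_source hd (by simp)
  have hecoe : (e : V → V) = Ψ := rfl
  have hsymm : AnalyticAt ℂ e.symm (Ψ z₀) := by
    have := hcd.to_localInverse hd (by simp)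
    exact this.analyticAt
  have hT : ∀ᶠ w in 𝓝 (Ψ z₀), AnalyticAt ℂ e.symm w := hsymm.eventually_analyticAt
  obtain ⟨T, hTs, hTo, hTm⟩ := _root_.eventually_nhds_iff.1 hT
  obtain ⟨N1, hN1s, hN1o, hN1m⟩ := _root_.mem_nhds_iff.1 hN
  have hcont : ContinuousOn Ψ e.source := e.continuousOn
  set O : Set V := (e.source ∩ Ψ ⁻¹' T) ∩ N1 with hO
  have hOo : IsOpen O := (hcont.isOpen_inter_preimage e.open_source hTo).inter hN1o
  set O' : Set V := e.target ∩ e.symm ⁻¹' O with hO'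
  have hO'o : IsOpen O' := e.isOpen_inter_preimage_symm hOo
  have hLΨ : ∀ z, L (Ψ z) = F z := by
    intro z
    simp only [hΨ, map_add, hA]
    abel
  refine ⟨O, O', e.symm, hOo, hO'o, ⟨⟨hez, hTm⟩, hN1m⟩, fun z hz => hN1s hz.2, ?_, ?_, ?_⟩
  · intro w hw
    have h1 : e.symm w ∈ O := hw.2
    have h2 : Ψ (e.symm w) = w := e.right_inv hw.1
    have h3 : Ψ (e.symm w) ∈ T := h1.1.2
    rw [h2] at h3
    exact hTs w h3
  · intro z hz
    have h1 : e.symm (Ψ z) = z := e.left_inv hz.1.1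
    refine ⟨⟨e.map_source hz.1.1, ?_⟩, h1, hLΨ z⟩
    change e.symm (Ψ z) ∈ O
    rw [h1]; exact hz
  · intro w hw
    have h2 : Ψ (e.symm w) = w := e.right_inv hw.1
    refine ⟨hw.2, h2, ?_⟩
    rw [← hLΨ, h2]

/-- images: `σ`-thinness is local in the source -/
theorem sth_image_of_local {V : Type u} {W : Type v} [NormedAddCommGroup V] [NormedSpace ℂ V]
    [SecondCountableTopology V] [NormedAddCommGroup W] [NormedSpace ℂ W] {Φ : V → W} {S : Set V}
    (h : ∀ z ∈ S, ∃ N ∈ 𝓝 z, STh (Φ '' (S ∩ N))) : STh (Φ '' S) := by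
  choose! N hN hS using h
  obtain ⟨t, htE, htc, hcov⟩ := TopologicalSpace.countable_cover_nhdsWithin
    (s := S) (f := N) (fun z hz => mem_nhdsWithin_of_mem_nhds (hN z hz))
  have := htc.to_subtype
  refine (sth_iUnion (fun z : t => hS z (htE z.2))).mono ?_
  rintro _ ⟨z, hz, rfl⟩
  obtain ⟨w, hw, hzw⟩ := mem_iUnion₂.1 (hcov hz)
  exact mem_iUnion.2 ⟨⟨w, hw⟩, z, ⟨hz, hzw⟩, rfl⟩

/-- Constant rank: near a point where the rank is locally constant and smaller than `dim W`, the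
image lies in one smooth hypersurface piece. -/
theorem constRank {V : Type u} {W : Type v} [NormedAddCommGroup V] [NormedSpace ℂ V]
    [FiniteDimensional ℂ V] [NormedAddCommGroup W] [NormedSpace ℂ W] [FiniteDimensional ℂ W]
    {X : Type*} [NormedAddCommGroup X] [NormedSpace ℂ X] [CompleteSpace X]
    {Φ : V → W} {N : Set V} (hNo : IsOpen N) (hΦ : AnalyticOnNhd ℂ Φ N) {z₂ : V} (hz₂ : z₂ ∈ N)
    (B : W →L[ℂ] X) (A : X →L[ℂ] V) (hA : ∀ x, B (fderiv ℂ Φ z₂ (A x)) = x)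
    (hB : ∀ z ∈ N, ∀ v, B (fderiv ℂ Φ z v) = 0 → fderiv ℂ Φ z v = 0)
    (hns : ¬ Function.Surjective (fderiv ℂ Φ z₂)) :
    ∃ O ∈ 𝓝 z₂, STh (Φ '' O) := by
  have : CompleteSpace V := FiniteDimensional.complete ℂ V
  have : CompleteSpace W := FiniteDimensional.complete ℂ W
  -- a functional vanishing on the range
  obtain ⟨lam0, hlam0, hlamr⟩ : ∃ f : W →ₗ[ℂ] ℂ, f ≠ 0 ∧
      LinearMap.range (fderiv ℂ Φ z₂ : V →ₗ[ℂ] W) ≤ LinearMap.ker f := by
    apply Submodule.exists_le_ker_of_lt_top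
    rw [lt_top_iff_ne_top, Ne, LinearMap.range_eq_top]
    exact hns
  set lam : W →L[ℂ] ℂ := LinearMap.toContinuousLinearMap lam0 with hlam
  have hlamne : lam ≠ 0 := by
    intro h
    apply hlam0
    ext w
    have := congrArg (fun f : W →L[ℂ] ℂ => f w) h
    simpa [hlam] using this
  have hlamz : ∀ v, lam (fderiv ℂ Φ z₂ v) = 0 := fun v => hlamr ⟨v, rfl⟩
  set F : V → X := fun z => B (Φ z) with hFdef
  have hFa : AnalyticOnNhd ℂ F N := fun z hz => (B.analyticAt _).comp (hΦ z hz)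
  have hFd : ∀ z ∈ N, fderiv ℂ F z = B.comp (fderiv ℂ Φ z) := by
    intro z hz
    exact (B.hasFDerivAt.comp z (hΦ z hz).differentiableAt.hasFDerivAt).fderiv
  set L : V →L[ℂ] X := fderiv ℂ F z₂ with hLdef
  have hLA : ∀ x, L (A x) = x := by
    intro x
    rw [hLdef, hFd z₂ hz₂]; exact hA x
  obtain ⟨O, O', G, hOo, hO'o, hzO, hON, hGa, h1, h2⟩ :=
    straighten (hNo.mem_nhds hz₂) hFa L rfl A hLA
  set w₀ : V := z₂ + A (F z₂ - L z₂) with hw₀
  have hw₀O : w₀ ∈ O' := (h1 z₂ hzO).1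
  have hGw₀ : G w₀ = z₂ := (h1 z₂ hzO).2.1
  obtain ⟨ε, hε, hεO⟩ := Metric.isOpen_iff.1 hO'o w₀ hw₀O
  set P : V → V := fun w => w₀ + A (L w - L w₀) with hP
  have hPc : Continuous P := by fun_prop
  have hPw₀ : P w₀ = w₀ := by simp [hP]
  have hLP : ∀ w, L (P w) = L w := by
    intro w
    simp only [hP, map_add, hLA]
    abel
  -- key: `Φ ∘ G` is constant along the fibres of `L`
  have hkey : ∀ w ∈ ball w₀ ε, P w ∈ ball w₀ ε → Φ (G w) = Φ (G (P w)) := by
    intro w hw hPw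
    set k : V := P w - w with hk
    have hLk : L k = 0 := by rw [hk, map_sub, hLP, sub_self]
    have hmem : ∀ t ∈ Icc (0 : ℝ) 1, w + (t : ℂ) • k ∈ ball w₀ ε := by
      intro t ht
      have h3 : w + (t : ℂ) • k = (1 - t) • w + t • P w := by
        have h4 : (t : ℂ) • k = t • k := by
          rw [← Complex.coe_smul]
        rw [h4, hk, sub_smul, one_smul, smul_sub]
        abel
      rw [h3]
      exact (convex_ball w₀ ε) hw hPw (by linarith [ht.2]) ht.1 (by ring)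
    have hder : ∀ t ∈ Icc (0 : ℝ) 1, HasDerivAt (fun s : ℝ => Φ (G (w + (s : ℂ) • k))) 0 t := by
      intro t ht
      set w' := w + (t : ℂ) • k with hw'
      have hw'O : w' ∈ O' := hεO (hmem t ht)
      have hGN : G w' ∈ N := hON (h2 w' hw'O).1
      have hGd : HasFDerivAt G (fderiv ℂ G w') w' := (hGa w' hw'O).differentiableAt.hasFDerivAt
      have hΦd : HasFDerivAt Φ (fderiv ℂ Φ (G w')) (G w') :=
        (hΦ _ hGN).differentiableAt.hasFDerivAt
      have hc : HasFDerivAt (fun w => Φ (G w)) ((fderiv ℂ Φ (G w')).comp (fderiv ℂ G w')) w' :=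
        hΦd.comp w' hGd
      -- `F ∘ G = L` near `w'`
      have hFG : HasFDerivAt (fun w => F (G w)) (B.comp ((fderiv ℂ Φ (G w')).comp (fderiv ℂ G w')))
          w' := B.hasFDerivAt.comp w' hc
      have hFG' : HasFDerivAt (fun w => F (G w)) L w' := by
        refine L.hasFDerivAt.congr_of_eventuallyEq ?_
        filter_upwards [hO'o.mem_nhds hw'O] with x hx using (h2 x hx).2.2
      have heq := hFG.unique hFG'
      have h0 : B (fderiv ℂ Φ (G w') (fderiv ℂ G w' k)) = 0 := by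
        have := congrArg (fun T : V →L[ℂ] X => T k) heq
        simpa [hLk] using this
      have h0' := hB _ hGN _ h0
      have hline : HasDerivAt (fun s : ℝ => w + (s : ℂ) • k) k t := by
        have := ((Complex.ofRealCLM.hasDerivAt (x := t)).smul_const k).const_add w
        simpa using this
      have h5 := (hc.restrictScalars ℝ).comp_hasDerivAt t hline
      have h6 : (((fderiv ℂ Φ (G w')).comp (fderiv ℂ G w')).restrictScalars ℝ) k = 0 := h0'
      rw [h6] at h5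
      exact h5
    have hconst := constant_of_has_deriv_right_zero (f := fun s : ℝ => Φ (G (w + (s : ℂ) • k)))
      (a := 0) (b := 1) (fun t ht => (hder t ht).continuousAt.continuousWithinAt)
      (fun t ht => (hder t ⟨ht.1, ht.2.le⟩).hasDerivWithinAt) 1 ⟨zero_le_one, le_refl 1⟩
    simp only [Complex.ofReal_one, one_smul, Complex.ofReal_zero, zero_smul, add_zero] at hconst
    rw [← hconst, hk, add_sub_cancel]
  -- the hypersurface
  set τ : X → V := fun c => w₀ + A (c - L w₀) with hτ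
  set ψ : X → ℂ := fun c => lam (Φ (G (τ c))) with hψ
  set hh : W → ℂ := fun y => lam y - ψ (B y) with hhh
  have hτa : ∀ c, AnalyticAt ℂ τ c := by
    intro c
    have : AnalyticAt ℂ (fun c => A (c - L w₀)) c :=
      (A.analyticAt _).comp (analyticAt_id.sub analyticAt_const)
    exact analyticAt_const.add this
  have hτc : Continuous τ := by fun_prop
  -- domain of `hh`
  set Oh : Set W := (fun y => τ (B y)) ⁻¹' O' with hOh
  have hOho : IsOpen Oh := hO'o.preimage (hτc.comp B.continuous)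
  have hha : AnalyticOnNhd ℂ hh Oh := by
    intro y hy
    have a1 : AnalyticAt ℂ (fun y => τ (B y)) y := (hτa _).comp (B.analyticAt y)
    have a2 : AnalyticAt ℂ (fun y => G (τ (B y))) y :=
      AnalyticAt.comp (g := G) (f := fun y => τ (B y)) (hGa _ hy) a1
    have a3 : AnalyticAt ℂ (fun y => Φ (G (τ (B y)))) y :=
      AnalyticAt.comp (g := Φ) (f := fun y => G (τ (B y))) (hΦ _ (hON (h2 _ hy).1)) a2
    have a4 : AnalyticAt ℂ (fun y => lam (Φ (G (τ (B y))))) y :=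
      AnalyticAt.comp (g := lam) (f := fun y => Φ (G (τ (B y)))) (lam.analyticAt _) a3
    exact (lam.analyticAt y).sub a4
  have hLw₀ : L w₀ = F z₂ := (h1 z₂ hzO).2.2
  have hτ₀ : τ (B (Φ z₂)) = w₀ := by
    change w₀ + A (F z₂ - L w₀) = w₀
    rw [hLw₀, sub_self, map_zero, add_zero]
  have hy₀ : Φ z₂ ∈ Oh := by
    change τ (B (Φ z₂)) ∈ O'
    rw [hτ₀]; exact hw₀O
  have hdh : fderiv ℂ hh (Φ z₂) = lam := by
    have b1 : HasFDerivAt (fun y => τ (B y)) (fderiv ℂ (fun y => τ (B y)) (Φ z₂)) (Φ z₂) :=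
      ((hτa _).comp (B.analyticAt _)).differentiableAt.hasFDerivAt
    have b2 : HasFDerivAt G (fderiv ℂ G w₀) (τ (B (Φ z₂))) := by
      rw [hτ₀]; exact (hGa w₀ hw₀O).differentiableAt.hasFDerivAt
    have b3 : HasFDerivAt Φ (fderiv ℂ Φ z₂) (G (τ (B (Φ z₂)))) := by
      rw [hτ₀, hGw₀]; exact (hΦ z₂ hz₂).differentiableAt.hasFDerivAt
    have b4 := lam.hasFDerivAt.comp (Φ z₂) (b3.comp (Φ z₂) (b2.comp (Φ z₂) b1))
    have b5 := lam.hasFDerivAt.sub b4
    have b6 := b5.fderiv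
    change fderiv ℂ hh (Φ z₂) = _ at b6
    rw [b6]
    ext y
    simp [hlamz]
  -- neighbourhood of `z₂`
  have hΨc : ContinuousAt (fun z => z + A (F z - L z)) z₂ := by
    have : ContinuousAt F z₂ := (hFa z₂ hz₂).continuousAt
    fun_prop
  have e1 : ∀ᶠ z in 𝓝 z₂, z + A (F z - L z) ∈ ball w₀ ε := hΨc.eventually (ball_mem_nhds w₀ hε)
  have e2 : ∀ᶠ z in 𝓝 z₂, P (z + A (F z - L z)) ∈ ball w₀ ε := by
    have : ContinuousAt (fun z => P (z + A (F z - L z))) z₂ :=
      ContinuousAt.comp (f := fun z => z + A (F z - L z)) hPc.continuousAt hΨc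
    refine this.eventually ?_
    change ball w₀ ε ∈ 𝓝 (P w₀)
    rw [hPw₀]; exact ball_mem_nhds w₀ hε
  have hΦc : ContinuousAt Φ z₂ := (hΦ z₂ hz₂).continuousAt
  have e3 : ∀ᶠ z in 𝓝 z₂, Φ z ∈ Oh := hΦc.eventually (hOho.mem_nhds hy₀)
  have e4 : ∀ᶠ z in 𝓝 z₂, fderiv ℂ hh (Φ z) ≠ 0 := by
    have c1 : ContinuousAt (fderiv ℂ hh) (Φ z₂) := (hha _ hy₀).fderiv.continuousAt
    have c2 : ContinuousAt (fun z => fderiv ℂ hh (Φ z)) z₂ :=
      ContinuousAt.comp (f := Φ) c1 hΦc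
    refine c2.eventually_ne ?_
    rw [hdh]; exact hlamne
  have e5 : ∀ᶠ z in 𝓝 z₂, z ∈ O := hOo.mem_nhds hzO
  refine ⟨{z | (((z + A (F z - L z) ∈ ball w₀ ε ∧ P (z + A (F z - L z)) ∈ ball w₀ ε) ∧ Φ z ∈ Oh) ∧
    fderiv ℂ hh (Φ z) ≠ 0) ∧ z ∈ O}, (((e1.and e2).and e3).and e4).and e5, ?_⟩
  refine (sth_piece hOho hha).mono ?_
  rintro _ ⟨z, ⟨⟨⟨⟨hz1, hz2⟩, hz3⟩, hz4⟩, hz5⟩, rfl⟩
  refine ⟨hz3, ?_, hz4⟩
  have hk := hkey _ hz1 hz2
  rw [(h1 z hz5).2.1] at hk
  change lam (Φ z) - lam (Φ (G (w₀ + A (F z - L w₀)))) = 0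
  rw [sub_eq_zero]
  conv_lhs => rw [hk]
  simp only [hP]
  rw [(h1 z hz5).2.2]

end Crest.Agent.R281.Thn_280
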