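import Mathlib

/-!
# R281 (S0424), leaf S6-THIN2 (helper889): topology of compact leaves

`O` open in a compact Hausdorff space `X`, `Φ : X → P` continuous on `O` (think: `X - A₀`, a
submersion).  `Lf O Φ x` = connected component of `x` in the fibre of `Φ` through `x` (inside `O`).

* `FolBox O Φ`: every point of `O` has a neighbourhood in which all fibres of `Φ` are preconnected
  (plaques) and `Φ` is open on `O`;
* `Om O Φ` = points whose leaf is compact: open, saturated;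
* `isCompact_of_limit`: limits of compact leaves contained in a compact subset of `O` are compact leaves;
* `frontier_escape`: if `x` is in the closure of a connected component `W` of `Om` but not in `W`, then
  for every compact `K ⊆ O`, the leaves through points of `W` near `x` are not contained in `K`;
* `exists_nbhd`: near a compact leaf the leaves are exactly the fibres of `Φ` in a saturated
  neighbourhood (so the leaf space is locally embedded in `P`).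
-/

set_option autoImplicit false
set_option linter.unusedSectionVars false
set_option linter.deprecated false

open Set Filter Topology

namespace Crest.Agent.R281.Thn2_889

variable {X P : Type*} [TopologicalSpace X] [TopologicalSpace P]

/-- the fibre of `Φ` through `x`, inside `O` -/
def Fb (O : Set X) (Φ : X → P) (x : X) : Set X := {y | y ∈ O ∧ Φ y = Φ x}

/-- the leaf through `x` -/
def Lf (O : Set X) (Φ : X → P) (x : X) : Set X := connectedComponentIn (Fb O Φ x) x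

/-- foliation boxes + openness of `Φ` -/
structure FolBox (O : Set X) (Φ : X → P) : Prop where
  isOpen : IsOpen O
  cont : ContinuousOn Φ O
  box : ∀ z ∈ O, ∃ W ∈ 𝓝 z, W ⊆ O ∧ ∀ b : P, IsPreconnected {w | w ∈ W ∧ Φ w = b}
  opn : ∀ z ∈ O, ∀ N ∈ 𝓝 z, Φ '' N ∈ 𝓝 (Φ z)

/-- points with compact leaf -/
def Om (O : Set X) (Φ : X → P) : Set X := {x | x ∈ O ∧ IsCompact (Lf O Φ x)}

variable {O : Set X} {Φ : X → P} {x y z : X}

theorem mem_Fb_self (hx : x ∈ O) : x ∈ Fb O Φ x := ⟨hx, rfl⟩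

theorem mem_Lf (hx : x ∈ O) : x ∈ Lf O Φ x := mem_connectedComponentIn (mem_Fb_self hx)

theorem Lf_sub_Fb : Lf O Φ x ⊆ Fb O Φ x := connectedComponentIn_subset _ _

theorem Lf_sub : Lf O Φ x ⊆ O := fun _ hy => (Lf_sub_Fb hy).1

theorem Phi_eq (hy : y ∈ Lf O Φ x) : Φ y = Φ x := (Lf_sub_Fb hy).2

theorem isPreconnected_Lf : IsPreconnected (Lf O Φ x) := isPreconnected_connectedComponentIn

theorem isConnected_Lf (hx : x ∈ O) : IsConnected (Lf O Φ x) :=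
  ⟨⟨x, mem_Lf hx⟩, isPreconnected_Lf⟩

theorem Fb_congr (h : Φ y = Φ x) : Fb O Φ y = Fb O Φ x := by
  ext z; simp only [Fb, Set.mem_ofPred_eq, h]

theorem Lf_eq (hy : y ∈ Lf O Φ x) : Lf O Φ y = Lf O Φ x := by
  have h1 : Fb O Φ y = Fb O Φ x := Fb_congr (Phi_eq hy)
  show connectedComponentIn (Fb O Φ y) y = connectedComponentIn (Fb O Φ x) x
  rw [h1]
  exact (connectedComponentIn_eq hy).symm

theorem mem_Lf_comm (hx : x ∈ O) (hy : y ∈ Lf O Φ x) : x ∈ Lf O Φ y := by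
  rw [Lf_eq hy]; exact mem_Lf hx

/-- a preconnected subset of the fibre which meets the leaf is contained in the leaf -/
theorem sub_Lf {s : Set X} (hs : IsPreconnected s) (hsub : s ⊆ Fb O Φ x)
    (hne : (s ∩ Lf O Φ x).Nonempty) : s ⊆ Lf O Φ x := by
  obtain ⟨y, hys, hyl⟩ := hne
  have h1 : s ⊆ connectedComponentIn (Fb O Φ x) y := hs.subset_connectedComponentIn hys hsub
  have h2 : connectedComponentIn (Fb O Φ x) y = connectedComponentIn (Fb O Φ x) x :=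
    (connectedComponentIn_eq hyl).symm
  rw [h2] at h1
  exact h1

/-- leaves are open in the fibre -/
theorem Lf_nhds (h : FolBox O Φ) (hy : y ∈ Lf O Φ x) :
    ∃ W ∈ 𝓝 y, W ⊆ O ∧ ∀ w ∈ W, Φ w = Φ x → w ∈ Lf O Φ x := by
  obtain ⟨W, hW, hWO, hb⟩ := h.box y (Lf_sub hy)
  refine ⟨W, hW, hWO, fun w hw he => ?_⟩
  have hs := hb (Φ x)
  have : {w | w ∈ W ∧ Φ w = Φ x} ⊆ Lf O Φ x := by
    refine sub_Lf hs (fun w hw => ⟨hWO hw.1, hw.2⟩) ⟨y, ⟨mem_of_mem_nhds hW, Phi_eq hy⟩, hy⟩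
  exact this ⟨hw, he⟩

/-- a plaque which is met by a leaf is contained in it -/
theorem plaque_sub {W : Set X} (hWO : W ⊆ O) (hb : ∀ b : P, IsPreconnected {w | w ∈ W ∧ Φ w = b})
    (hy : y ∈ Lf O Φ x) (hyW : y ∈ W) (hzW : z ∈ W) (hz : Φ z = Φ x) : z ∈ Lf O Φ x := by
  have : {w | w ∈ W ∧ Φ w = Φ x} ⊆ Lf O Φ x := by
    refine sub_Lf (hb (Φ x)) (fun w hw => ⟨hWO hw.1, hw.2⟩) ⟨y, ⟨hyW, Phi_eq hy⟩, hy⟩
  exact this ⟨hzW, hz⟩

section T2

variable [T2Space P]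

/-- limit of points of `O` with the same value of `Φ`, inside `O` -/
theorem closure_Fb_inter (h : FolBox O Φ) {s : Set X} (hs : s ⊆ Fb O Φ x) :
    closure s ∩ O ⊆ Fb O Φ x := by
  rintro y ⟨hy, hyO⟩
  refine ⟨hyO, ?_⟩
  have hc : ContinuousAt Φ y := h.cont.continuousAt (h.isOpen.mem_nhds hyO)
  by_contra hne
  obtain ⟨U, V, hU, hV, hyU, hxV, hd⟩ := t2_separation hne
  have h1 : Φ ⁻¹' U ∈ 𝓝 y := hc.preimage_mem_nhds (hU.mem_nhds hyU)
  rw [mem_closure_iff_nhds] at hy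
  obtain ⟨z, hz1, hz2⟩ := hy _ h1
  have hz3 : Φ z = Φ x := (hs hz2).2
  rw [mem_preimage, hz3] at hz1
  exact disjoint_left.1 hd hz1 hxV

/-- a leaf whose closure stays in `O` is closed -/
theorem isClosed_of_closure (h : FolBox O Φ) (hx : x ∈ O) (hcl : closure (Lf O Φ x) ⊆ O) :
    IsClosed (Lf O Φ x) := by
  have h1 : closure (Lf O Φ x) ⊆ Fb O Φ x := fun y hy =>
    closure_Fb_inter h Lf_sub_Fb ⟨hy, hcl hy⟩
  have h2 : closure (Lf O Φ x) ⊆ Lf O Φ x :=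
    sub_Lf isPreconnected_Lf.closure h1 ⟨x, subset_closure (mem_Lf hx), mem_Lf hx⟩
  exact closure_subset_iff_isClosed.1 h2

variable [CompactSpace X]

theorem isCompact_of_closure (h : FolBox O Φ) (hx : x ∈ O) (hcl : closure (Lf O Φ x) ⊆ O) :
    IsCompact (Lf O Φ x) := (isClosed_of_closure h hx hcl).isCompact

variable [T2Space X]

/-- a small neighbourhood of a compact leaf whose boundary misses the fibre -/
theorem exists_tube (h : FolBox O Φ) (hx : x ∈ Om O Φ) {N₀ : Set X} (hN₀ : IsOpen N₀)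
    (hsub : Lf O Φ x ⊆ N₀) :
    ∃ N : Set X, IsOpen N ∧ Lf O Φ x ⊆ N ∧ closure N ⊆ N₀ ∩ O ∧
      ∀ y ∈ closure N, Φ y = Φ x → y ∈ Lf O Φ x := by
  obtain ⟨hxO, hc⟩ := hx
  -- open set in which the fibre is the leaf
  have h1 : ∀ y ∈ Lf O Φ x, ∃ W : Set X, IsOpen W ∧ y ∈ W ∧ ∀ w ∈ W, Φ w = Φ x → w ∈ Lf O Φ x := by
    intro y hy
    obtain ⟨W, hW, -, hw⟩ := Lf_nhds h hy
    obtain ⟨V, hVW, hV, hyV⟩ := mem_nhds_iff.1 hW
    exact ⟨V, hV, hyV, fun w hwV he => hw w (hVW hwV) he⟩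
  choose! W hWo hyW hW using h1
  set N₁ : Set X := (⋃ y ∈ Lf O Φ x, W y) ∩ (N₀ ∩ O) with hN₁
  have hN₁o : IsOpen N₁ := by
    refine (isOpen_biUnion fun y hy => hWo y hy).inter (hN₀.inter h.isOpen)
  have hLN : Lf O Φ x ⊆ N₁ := fun y hy =>
    ⟨mem_biUnion hy (hyW y hy), hsub hy, Lf_sub hy⟩
  obtain ⟨N, hNo, hLN', hcl⟩ := (SeparatedNhds.of_isCompact_isClosed hc (isClosed_compl_iff.2 hN₁o)
    (disjoint_compl_right_iff_subset.2 hLN)).imp fun U hU => hU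
  refine ⟨N, hLN', hcl.2.1, ?_, ?_⟩
  · have h2 : closure N ⊆ N₁ := by
      have h3 : closure N ⊆ hNoᶜ := by
        refine closure_minimal ?_ (isClosed_compl_iff.2 hcl.1)
        exact fun z hz hz' => disjoint_left.1 hcl.2.2.2 hz hz'
      intro z hz
      by_contra hz'
      exact h3 hz (hcl.2.2.1 hz')
    exact fun z hz => (h2 hz).2
  · intro y hy he
    have h2 : closure N ⊆ N₁ := by
      have h3 : closure N ⊆ hNoᶜ := by
        refine closure_minimal ?_ (isClosed_compl_iff.2 hcl.1)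
        exact fun z hz hz' => disjoint_left.1 hcl.2.2.2 hz hz'
      intro z hz
      by_contra hz'
      exact h3 hz (hcl.2.2.1 hz')
    obtain ⟨y', hy', hyy⟩ := mem_iUnion₂.1 (h2 hy).1
    exact hW y' hy' y hyy he

/-- leaves near a compact leaf are compact and near it -/
theorem eventually_sub (h : FolBox O Φ) (hx : x ∈ Om O Φ) {N₀ : Set X} (hN₀ : IsOpen N₀)
    (hsub : Lf O Φ x ⊆ N₀) :
    ∃ N : Set X, IsOpen N ∧ Lf O Φ x ⊆ N ∧ N ⊆ N₀ ∧ ∀ y ∈ N, y ∈ Om O Φ ∧ Lf O Φ y ⊆ N := by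
  obtain ⟨N, hNo, hLN, hcl, hN⟩ := exists_tube h hx hN₀ hsub
  -- the boundary of `N` does not meet the fibre
  set B := frontier N with hB
  have hBc : IsCompact B := isClosed_frontier.isCompact
  have hBO : B ⊆ O := fun z hz => (hcl (frontier_subset_closure hz)).2
  have hΦB : IsCompact (Φ '' B) := hBc.image_of_continuousOn (h.cont.mono hBO)
  have hnot : Φ x ∉ Φ '' B := by
    rintro ⟨z, hz, he⟩
    have h1 := hN z (frontier_subset_closure hz) he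
    have h2 : z ∈ N := hLN h1
    rw [hB, hNo.frontier_eq] at hz
    exact hz.2 h2
  have hopen : IsOpen ((Φ '' B)ᶜ) := hΦB.isClosed.isOpen_compl
  set N' : Set X := N ∩ Φ ⁻¹' (Φ '' B)ᶜ with hN'
  have hNO : N ⊆ O := fun z hz => (hcl (subset_closure hz)).2
  have hN'o : IsOpen N' := (h.cont.mono hNO).isOpen_inter_preimage hNo hopen
  have key : ∀ y ∈ N', Lf O Φ y ⊆ N := by
    intro y hy
    have hpre : IsPreconnected (Lf O Φ y) := isPreconnected_Lf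
    have hyO : y ∈ O := hNO hy.1
    -- the leaf does not meet the frontier
    have hd : ∀ z ∈ Lf O Φ y, z ∉ B := by
      intro z hz hzB
      exact hy.2 ⟨z, hzB, Phi_eq hz⟩
    have hcov : Lf O Φ y ⊆ N ∪ (closure N)ᶜ := by
      intro z hz
      by_cases hzN : z ∈ N
      · exact Or.inl hzN
      · right
        intro hzc
        apply hd z hz
        rw [hB, hNo.frontier_eq]
        exact ⟨hzc, hzN⟩
    refine hpre.subset_left_of_subset_union hNo isClosed_closure.isOpen_compl ?_ hcov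
      ⟨y, mem_Lf hyO, hy.1⟩
    exact disjoint_left.2 fun z hz hz' => hz' (subset_closure hz)
  refine ⟨N', hN'o, ?_, fun z hz => (hcl (subset_closure hz.1)).1, ?_⟩
  · intro z hz
    refine ⟨hLN hz, ?_⟩
    show Φ z ∉ Φ '' B
    rw [Phi_eq hz]; exact hnot
  · intro y hy
    have hyO : y ∈ O := hNO hy.1
    have h1 := key y hy
    refine ⟨⟨hyO, isCompact_of_closure h hyO ?_⟩, ?_⟩
    · exact fun z hz => (hcl (closure_mono h1 hz)).2
    · intro z hz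
      refine ⟨h1 hz, ?_⟩
      show Φ z ∉ Φ '' B
      rw [Phi_eq hz]; exact hy.2

theorem isOpen_Om (h : FolBox O Φ) : IsOpen (Om O Φ) := by
  rw [isOpen_iff_mem_nhds]
  intro x hx
  obtain ⟨N, hNo, hLN, -, hN⟩ := eventually_sub h hx isOpen_univ (subset_univ _)
  exact mem_of_superset (hNo.mem_nhds (hLN (mem_Lf hx.1))) fun y hy => (hN y hy).1

omit [T2Space P] [CompactSpace X] [T2Space X] in
theorem Om_sub : Om O Φ ⊆ O := fun _ hx => hx.1

omit [T2Space P] [CompactSpace X] [T2Space X] in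
theorem Om_sat (hx : x ∈ Om O Φ) : Lf O Φ x ⊆ Om O Φ := fun y hy =>
  ⟨Lf_sub hy, by rw [Lf_eq hy]; exact hx.2⟩

omit [CompactSpace X] [T2Space X] in
/-- **LIMIT**: if leaves `Lf x'`, `x' → x` along an ultrafilter, are all contained in a compact set
`K ⊆ O`, then the leaf of `x` is contained in the limit set -/
theorem limit_aux (h : FolBox O Φ) {K : Set X} (hKO : K ⊆ O) (hKc : IsClosed K) (𝒰 : Ultrafilter X)
    (hx : (𝒰 : Filter X) ≤ 𝓝 x) (hK : ∀ᶠ x' in (𝒰 : Filter X), x' ∈ O ∧ Lf O Φ x' ⊆ K) :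
    x ∈ K ∧ ∀ z ∈ Lf O Φ x, z ∈ K ∧ ∀ N ∈ 𝓝 z, ∀ᶠ x' in (𝒰 : Filter X), (Lf O Φ x' ∩ N).Nonempty := by
  classical
  set K' : Set X := {z | ∀ N ∈ 𝓝 z, ∀ᶠ x' in (𝒰 : Filter X), (Lf O Φ x' ∩ N).Nonempty} with hK'
  have hxK : x ∈ K := by
    have h1 : ∀ᶠ x' in (𝒰 : Filter X), x' ∈ K := hK.mono fun x' hx' => hx'.2 (mem_Lf hx'.1)
    have h2 : closure K = K := hKc.closure_eq
    rw [← h2, mem_closure_iff_ultrafilter]
    exact ⟨𝒰, h1, hx⟩
  have hxO : x ∈ O := hKO hxK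
  have hK'K : K' ⊆ K := by
    intro z hz
    by_contra hzK
    have h1 := hz Kᶜ (hKc.isOpen_compl.mem_nhds hzK)
    obtain ⟨x', ⟨y, hy1, hy2⟩, hx'2⟩ := (h1.and hK).exists
    exact hy2 (hx'2.2 hy1)
  have hxK' : x ∈ K' := by
    intro N hN
    filter_upwards [hx hN, hK] with x' hx' hx'2
    exact ⟨x', mem_Lf hx'2.1, hx'⟩
  have htend : Tendsto Φ (𝒰 : Filter X) (𝓝 (Φ x)) :=
    (h.cont.continuousAt (h.isOpen.mem_nhds hxO)).tendsto.mono_left hx
  -- `Φ` is constant on `K'`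
  have hΦ : ∀ z ∈ K', Φ z = Φ x := by
    intro z hz
    by_contra hne
    have hzO : z ∈ O := hKO (hK'K hz)
    obtain ⟨U, V, hU, hV, hzU, hxV, hd⟩ := t2_separation hne
    have h1 : Φ ⁻¹' U ∈ 𝓝 z :=
      (h.cont.continuousAt (h.isOpen.mem_nhds hzO)).preimage_mem_nhds (hU.mem_nhds hzU)
    obtain ⟨x', ⟨y, hy1, hy2⟩, hx'⟩ := ((hz _ h1).and (htend (hV.mem_nhds hxV))).exists
    have h2 : Φ y = Φ x' := Phi_eq hy1
    rw [mem_preimage, h2] at hy2
    exact disjoint_left.1 hd hy2 hx'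
  -- `K'` is open in the fibre
  have hopen : ∀ z ∈ K', ∃ W : Set X, IsOpen W ∧ z ∈ W ∧ ∀ w ∈ W, w ∈ O → Φ w = Φ x → w ∈ K' := by
    intro z hz
    obtain ⟨W, hW, hWO, hb⟩ := h.box z (hKO (hK'K hz))
    obtain ⟨V, hVW, hV, hzV⟩ := mem_nhds_iff.1 hW
    refine ⟨V, hV, hzV, fun w hw hwO hwΦ N hN => ?_⟩
    have hN' : N ∩ V ∈ 𝓝 w := inter_mem hN (hV.mem_nhds hw)
    have h1 : Φ '' (N ∩ V) ∈ 𝓝 (Φ x) := by
      rw [← hwΦ]; exact h.opn w hwO _ hN'
    filter_upwards [hz W hW, htend h1, hK] with x' hx'1 hx'2 hx'3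
    obtain ⟨y, hy1, hy2⟩ := hx'1
    obtain ⟨u, ⟨huN, huV⟩, hu⟩ := hx'2
    exact ⟨u, plaque_sub hWO hb hy1 hy2 (hVW huV) hu, huN⟩
  -- `K'` is closed
  have hclosed : IsClosed K' := by
    rw [← isOpen_compl_iff, isOpen_iff_mem_nhds]
    intro z hz
    have hz' : ∃ N ∈ 𝓝 z, ¬ ∀ᶠ x' in (𝒰 : Filter X), (Lf O Φ x' ∩ N).Nonempty := by
      by_contra hcon
      push Not at hcon
      exact hz hcon
    obtain ⟨N, hN, hN2⟩ := hz'
    obtain ⟨V, hVN, hV, hzV⟩ := mem_nhds_iff.1 hN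
    refine mem_of_superset (hV.mem_nhds hzV) fun w hw hwK => hN2 ?_
    filter_upwards [hwK V (hV.mem_nhds hw)] with x' hx'
    exact hx'.mono (inter_subset_inter_right _ hVN)
  choose! W hWo hzW hW using hopen
  have hpre : IsPreconnected (Lf O Φ x) := isPreconnected_Lf
  have hcov : Lf O Φ x ⊆ (⋃ z ∈ K', W z) ∪ K'ᶜ := by
    intro z _
    by_cases hz' : z ∈ K'
    · exact Or.inl (mem_biUnion hz' (hzW z hz'))
    · exact Or.inr hz'
  have hsub : Lf O Φ x ⊆ K' := by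
    by_contra hcon
    obtain ⟨y, hy, hyK⟩ := not_subset.1 hcon
    obtain ⟨u, hu1, hu2, hu3⟩ := hpre _ _ (isOpen_biUnion fun z hz => hWo z hz)
      hclosed.isOpen_compl hcov ⟨x, mem_Lf hxO, mem_biUnion hxK' (hzW x hxK')⟩ ⟨y, hy, hyK⟩
    obtain ⟨z, hz, huz⟩ := mem_iUnion₂.1 hu2
    exact hu3 (hW z hz u huz (Lf_sub hu1) (Phi_eq hu1))
  exact ⟨hxK, fun z hz => ⟨hK'K (hsub hz), fun N hN => hsub hz N hN⟩⟩

/-- limits of leaves contained in a compact subset of `O` are compact leaves contained in it -/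
theorem limit_compact (h : FolBox O Φ) {K : Set X} (hKO : K ⊆ O) (hKc : IsClosed K)
    (hx : x ∈ closure {x' | x' ∈ O ∧ Lf O Φ x' ⊆ K}) : x ∈ Om O Φ ∧ Lf O Φ x ⊆ K := by
  rw [mem_closure_iff_ultrafilter] at hx
  obtain ⟨𝒰, h1, h2⟩ := hx
  obtain ⟨hxK, h3⟩ := limit_aux h hKO hKc 𝒰 h2 h1
  have h4 : Lf O Φ x ⊆ K := fun z hz => (h3 z hz).1
  refine ⟨⟨hKO hxK, isCompact_of_closure h (hKO hxK) fun z hz => hKO ?_⟩, h4⟩
  have := closure_mono h4 hz
  rwa [hKc.closure_eq] at this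

/-- a leaf contained in a compact subset of `O` is compact -/
theorem mem_Om_of_sub (h : FolBox O Φ) {K : Set X} (hKO : K ⊆ O) (hKc : IsClosed K) (hx : x ∈ O)
    (hL : Lf O Φ x ⊆ K) : x ∈ Om O Φ :=
  (limit_compact h hKO hKc (subset_closure ⟨hx, hL⟩)).1

/-- **ESCAPE AT THE FRONTIER**: `W` a subset of `Om` which is closed in `Om` (e.g. a connected
component), `x` in the closure of `W`, not in `W`: for every closed `K ⊆ O`, the leaves of the points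
of `W` near `x` are not contained in `K` -/
theorem frontier_escape (h : FolBox O Φ) {W : Set X} (hW : W ⊆ Om O Φ)
    (hWc : closure W ∩ Om O Φ ⊆ W) (hx : x ∈ closure W) (hxW : x ∉ W) {K : Set X} (hKO : K ⊆ O)
    (hKc : IsClosed K) : ∀ᶠ x' in 𝓝 x, x' ∈ W → ¬ Lf O Φ x' ⊆ K := by
  by_contra hcon
  have hfr : ∃ᶠ x' in 𝓝 x, x' ∈ W ∧ Lf O Φ x' ⊆ K := by
    refine Filter.not_eventually.1 hcon |>.mono fun x' hx' => ?_
    push Not at hx'
    exact hx'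
  have h1 : x ∈ closure {x' | x' ∈ O ∧ Lf O Φ x' ⊆ K} := by
    rw [mem_closure_iff_frequently]
    exact hfr.mono fun x' hx' => ⟨(hW hx'.1).1, hx'.2⟩
  exact hxW (hWc ⟨hx, (limit_compact h hKO hKc h1).1⟩)

/-- **PRODUCT NEIGHBOURHOODS**: near a compact leaf the leaves are the fibres of `Φ` -/
theorem exists_nbhd (h : FolBox O Φ) (hx : x ∈ Om O Φ) {N₀ : Set X} (hN₀ : IsOpen N₀)
    (hsub : Lf O Φ x ⊆ N₀) :
    ∃ N : Set X, IsOpen N ∧ Lf O Φ x ⊆ N ∧ N ⊆ N₀ ∧ N ⊆ Om O Φ ∧ (∀ y ∈ N, Lf O Φ y ⊆ N) ∧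
      ∀ y ∈ N, ∀ z ∈ N, Φ y = Φ z → Lf O Φ y = Lf O Φ z := by
  classical
  -- for every point `p` of the leaf and every box: leaves near `x` meet the box
  have hmeet : ∀ p ∈ Lf O Φ x, ∀ q ∈ Lf O Φ x, ∃ U ∈ 𝓝 p, ∃ V ∈ 𝓝 q, ∀ y ∈ U, ∀ z ∈ V,
      Φ y = Φ z → z ∈ Lf O Φ y := by
    intro p hp q hq
    by_contra hcon
    push Not at hcon
    -- box at `q`
    obtain ⟨W, hW, hWO, hb⟩ := h.box q (Lf_sub hq)
    -- closed neighbourhood `K` of the leaf in `O`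
    obtain ⟨N, hNo, hLN, hcl, -⟩ := exists_tube h hx isOpen_univ (subset_univ _)
    obtain ⟨N', hN'o, hLN', hN'N, hN'⟩ := eventually_sub h hx hNo hLN
    have hexist : ∃ᶠ y in 𝓝 p, ∃ z ∈ W, Φ y = Φ z ∧ z ∉ Lf O Φ y := by
      rw [Filter.frequently_iff]
      intro U hU
      obtain ⟨y, hy, z, hz, he, hn⟩ := hcon U hU W hW
      exact ⟨y, hy, z, hz, he, hn⟩
    have hp' : Lf O Φ p = Lf O Φ x := Lf_eq hp
    have h5 : (𝓝 p ⊓ 𝓟 {y | ∃ z ∈ W, Φ y = Φ z ∧ z ∉ Lf O Φ y}).NeBot :=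
      Filter.frequently_mem_iff_neBot.1 hexist
    obtain ⟨𝒰, h𝒰p, h𝒰⟩ : ∃ 𝒰 : Ultrafilter X, (𝒰 : Filter X) ≤ 𝓝 p ∧
        (𝒰 : Filter X) ≤ 𝓟 {y | ∃ z ∈ W, Φ y = Φ z ∧ z ∉ Lf O Φ y} :=
      ⟨Ultrafilter.of (𝓝 p ⊓ 𝓟 {y | ∃ z ∈ W, Φ y = Φ z ∧ z ∉ Lf O Φ y}),
        (Ultrafilter.of_le _).trans inf_le_left, (Ultrafilter.of_le _).trans inf_le_right⟩
    have hK : ∀ᶠ y in (𝒰 : Filter X), y ∈ O ∧ Lf O Φ y ⊆ closure N := by
      have : N' ∈ (𝒰 : Filter X) := h𝒰p (hN'o.mem_nhds (hLN' hp))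
      filter_upwards [this] with y hy
      exact ⟨(hN' y hy).1.1, ((hN' y hy).2.trans hN'N).trans subset_closure⟩
    obtain ⟨-, h6⟩ := limit_aux h (fun z hz => (hcl hz).2) isClosed_closure 𝒰 h𝒰p hK
    have hqp : q ∈ Lf O Φ p := by rw [hp']; exact hq
    have h7 := (h6 q hqp).2 W hW
    have h8 : ∀ᶠ y in (𝒰 : Filter X), ∃ z ∈ W, Φ y = Φ z ∧ z ∉ Lf O Φ y := h𝒰 (mem_principal_self _)
    obtain ⟨y, ⟨u, hu1, hu2⟩, z, hz, he, hn⟩ := (h7.and h8).exists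
    exact hn (plaque_sub hWO hb hu1 hu2 hz he.symm)
  -- compactness of the product
  obtain ⟨hxO, hc⟩ := hx
  set S : Set (X × X) := {p | Φ p.1 = Φ p.2 → p.2 ∈ Lf O Φ p.1} with hS
  have hnhds : ∀ p ∈ Lf O Φ x ×ˢ Lf O Φ x, S ∈ 𝓝 p := by
    rintro ⟨p, q⟩ ⟨hp, hq⟩
    obtain ⟨U, hU, V, hV, hUV⟩ := hmeet p hp q hq
    exact mem_of_superset (prod_mem_nhds hU hV) fun ⟨y, z⟩ hyz he => hUV y hyz.1 z hyz.2 he
  have hint : Lf O Φ x ×ˢ Lf O Φ x ⊆ interior S := fun p hp => mem_interior_iff_mem_nhds.2 (hnhds p hp)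
  obtain ⟨U, V, hUo, hVo, hLU, hLV, hUV⟩ := generalized_tube_lemma hc hc isOpen_interior hint
  obtain ⟨N, hNo, hLN, hNsub, hN⟩ := eventually_sub h ⟨hxO, hc⟩ ((hUo.inter hVo).inter hN₀)
    (fun y hy => ⟨⟨hLU hy, hLV hy⟩, hsub hy⟩)
  refine ⟨N, hNo, hLN, fun y hy => (hNsub hy).2, fun y hy => (hN y hy).1,
    fun y hy => (hN y hy).2, fun y hy z hz he => ?_⟩
  have h1 : ((y, z) : X × X) ∈ S := interior_subset (hUV ⟨(hNsub hy).1.1, (hNsub hz).1.2⟩)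
  exact (Lf_eq (h1 he)).symm

end T2

end Crest.Agent.R281.Thn2_889
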