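import Crest.Agent.R281.Thn2_280

/-!
Row 281 (S0424), division 6, S6-THIN part 3 (helper280): **analytic Sard**: the set of critical
values of a holomorphic map is `σ`-thin.
-/

set_option autoImplicit false
set_option linter.unusedSectionVars false
set_option linter.unusedVariables false

open Set Filter Topology Metric Module
open scoped ContDiff

noncomputable section

namespace Crest.Agent.R281.Thn_280

universe u v

/-- linear algebra: factor the rank -/
theorem exists_AB {V : Type u} {W : Type v} [NormedAddCommGroup V] [NormedSpace ℂ V]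
    [FiniteDimensional ℂ V] [NormedAddCommGroup W] [NormedSpace ℂ W] [FiniteDimensional ℂ W]
    (T : V →L[ℂ] W) {r : ℕ} (hr : finrank ℂ (LinearMap.range (T : V →ₗ[ℂ] W)) = r) :
    ∃ (B : W →L[ℂ] (Fin r → ℂ)) (A : (Fin r → ℂ) →L[ℂ] V), ∀ c, B (T (A c)) = c := by
  set Rg := LinearMap.range (T : V →ₗ[ℂ] W) with hRg
  obtain ⟨S, hS⟩ := (T : V →ₗ[ℂ] W).rangeRestrict.exists_rightInverse_of_surjective
    (LinearMap.range_rangeRestrict _)
  obtain ⟨p, hp⟩ := Rg.subtype.exists_leftInverse_of_injective (Submodule.ker_subtype _)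
  let e : Rg ≃ₗ[ℂ] (Fin r → ℂ) := LinearEquiv.ofFinrankEq _ _ (by rw [hr]; simp)
  refine ⟨LinearMap.toContinuousLinearMap ((e : Rg →ₗ[ℂ] (Fin r → ℂ)) ∘ₗ p),
    LinearMap.toContinuousLinearMap (S ∘ₗ (e.symm : (Fin r → ℂ) →ₗ[ℂ] Rg)), ?_⟩
  intro c
  have h1 : (T : V →ₗ[ℂ] W).rangeRestrict (S (e.symm c)) = e.symm c :=
    LinearMap.congr_fun hS (e.symm c)
  have h2 : T (S (e.symm c)) = ((e.symm c : Rg) : W) := by
    have := congrArg Subtype.val h1
    simpa using this
  have h3 : p ((e.symm c : Rg) : W) = e.symm c := LinearMap.congr_fun hp (e.symm c)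
  change e (p (T (S (e.symm c)))) = c
  rw [h2, h3, LinearEquiv.apply_symm_apply]

/-- hypothesis of the induction step: images of `σ`-thin sets of critical points -/
def HypH (V : Type u) (W : Type v) [NormedAddCommGroup V] [NormedSpace ℂ V]
    [NormedAddCommGroup W] [NormedSpace ℂ W] : Prop :=
  ∀ (U : Set V) (Φ : V → W) (E : Set V), IsOpen U → AnalyticOnNhd ℂ Φ U → STh E →
    STh (Φ '' (E ∩ {z | z ∈ U ∧ ¬ Function.Surjective (fderiv ℂ Φ z)}))

/-- conclusion -/
def Sard (V : Type u) (W : Type v) [NormedAddCommGroup V] [NormedSpace ℂ V]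
    [NormedAddCommGroup W] [NormedSpace ℂ W] : Prop :=
  ∀ (U : Set V) (Φ : V → W), IsOpen U → AnalyticOnNhd ℂ Φ U →
    STh (Φ '' {z | z ∈ U ∧ ¬ Function.Surjective (fderiv ℂ Φ z)})

theorem analyticOnNhd_det {V : Type u} {W : Type v} [NormedAddCommGroup V] [NormedSpace ℂ V]
    [NormedAddCommGroup W] [NormedSpace ℂ W] [CompleteSpace W] {r : ℕ} {Φ : V → W} {N : Set V}
    (hΦ : AnalyticOnNhd ℂ Φ N) (B : W →L[ℂ] (Fin r → ℂ)) (A : (Fin r → ℂ) →L[ℂ] V) :
    AnalyticOnNhd ℂ (fun z => Matrix.det (Matrix.of fun i j : Fin r =>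
      B (fderiv ℂ Φ z (A (Pi.single j 1))) i)) N := by
  intro z hz
  have hent : ∀ i j : Fin r, AnalyticAt ℂ
      (fun z => B (fderiv ℂ Φ z (A (Pi.single j 1))) i) z := by
    intro i j
    have h1 : AnalyticAt ℂ (fun z => fderiv ℂ Φ z) z := hΦ.fderiv z hz
    have h2 : AnalyticAt ℂ (fun z => fderiv ℂ Φ z (A (Pi.single j 1))) z :=
      ((ContinuousLinearMap.apply ℂ W (A (Pi.single j 1))).analyticAt _).comp h1
    have h3 : AnalyticAt ℂ (fun z => B (fderiv ℂ Φ z (A (Pi.single j 1)))) z :=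
      AnalyticAt.comp (g := B) (B.analyticAt _) h2
    exact AnalyticAt.comp (g := ContinuousLinearMap.proj (R := ℂ) (φ := fun _ : Fin r => ℂ) i)
      (ContinuousLinearMap.analyticAt _ _) h3
  simp only [Matrix.det_apply]
  refine Finset.analyticAt_fun_sum _ (fun σ _ => ?_)
  have h4 : AnalyticAt ℂ (fun z => ∏ i : Fin r, (Matrix.of fun i j : Fin r =>
      B (fderiv ℂ Φ z (A (Pi.single j 1))) i) (σ i) i) z :=
    Finset.analyticAt_fun_prod _ (fun i _ => hent _ _)
  have h5 : ∀ w : V, (Equiv.Perm.sign σ • ∏ i : Fin r, (Matrix.of fun i j : Fin r =>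
      B (fderiv ℂ Φ w (A (Pi.single j 1))) i) (σ i) i) = ((Equiv.Perm.sign σ : ℤ) : ℂ) *
      ∏ i : Fin r, (Matrix.of fun i j : Fin r =>
      B (fderiv ℂ Φ w (A (Pi.single j 1))) i) (σ i) i := by
    intro w
    rw [Units.smul_def, zsmul_eq_mul]
  simp only [h5]
  exact analyticAt_const.mul h4

theorem sard_of_hypH {V : Type u} {W : Type v} [NormedAddCommGroup V] [NormedSpace ℂ V]
    [FiniteDimensional ℂ V] [NormedAddCommGroup W] [NormedSpace ℂ W] [FiniteDimensional ℂ W]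
    (H : HypH V W) : Sard V W := by
  have : CompleteSpace V := FiniteDimensional.complete ℂ V
  have : CompleteSpace W := FiniteDimensional.complete ℂ W
  have : ProperSpace V := FiniteDimensional.proper ℂ V
  intro U Φ hU hΦ
  refine sth_image_of_local (fun z₀ hz₀ => ?_)
  obtain ⟨ρ, hρ, hρU⟩ := Metric.isOpen_iff.1 hU z₀ hz₀.1
  refine ⟨ball z₀ ρ, ball_mem_nhds z₀ hρ, ?_⟩
  -- maximal rank on the ball
  set R : V → ℕ := fun z => finrank ℂ (LinearMap.range (fderiv ℂ Φ z : V →ₗ[ℂ] W)) with hR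
  have hRle : ∀ z, R z ≤ finrank ℂ W := fun z => Submodule.finrank_le _
  obtain ⟨z₁, hz₁, hmax⟩ : ∃ z₁ ∈ ball z₀ ρ, ∀ z ∈ ball z₀ ρ, R z ≤ R z₁ := by
    have hne : (R '' ball z₀ ρ).Nonempty := ⟨R z₀, z₀, mem_ball_self hρ, rfl⟩
    have hbdd : BddAbove (R '' ball z₀ ρ) := ⟨finrank ℂ W, by rintro _ ⟨z, _, rfl⟩; exact hRle z⟩
    obtain ⟨z₁, hz₁, h1⟩ := Nat.sSup_mem hne hbdd
    refine ⟨z₁, hz₁, fun z hz => ?_⟩
    rw [h1]
    exact le_csSup hbdd ⟨z, hz, rfl⟩
  set r := R z₁ with hr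
  obtain ⟨B, A, hBA⟩ := exists_AB (fderiv ℂ Φ z₁) (r := r) rfl
  have hΦN : AnalyticOnNhd ℂ Φ (ball z₀ ρ) := fun z hz => hΦ z (hρU hz)
  set M : V → Matrix (Fin r) (Fin r) ℂ := fun z => Matrix.of fun i j : Fin r =>
      B (fderiv ℂ Φ z (A (Pi.single j 1))) i with hM
  set m : V → ℂ := fun z => (M z).det with hm
  have hma : AnalyticOnNhd ℂ m (ball z₀ ρ) := analyticOnNhd_det hΦN B A
  have hMv : ∀ z c, (M z).mulVec c = B (fderiv ℂ Φ z (A c)) := by
    intro z c
    have hc : c = ∑ j, c j • (Pi.single j 1 : Fin r → ℂ) := by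
      ext i; simp [Finset.sum_apply, Pi.single_apply]
    conv_rhs => rw [hc]
    rw [map_sum, map_sum, map_sum]
    ext i
    simp only [Matrix.mulVec, dotProduct, hM, Matrix.of_apply, map_smul, Finset.sum_apply,
      Pi.smul_apply, smul_eq_mul]
    exact Finset.sum_congr rfl (fun j _ => mul_comm _ _)
  have hm1 : m z₁ ≠ 0 := by
    have h1 : M z₁ = 1 := by
      apply Matrix.toLin'.injective
      ext1 j
      ext i
      simp only [Matrix.toLin'_one, LinearMap.comp_apply, Matrix.toLin'_apply, hMv, hBA]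
      rfl
    simp only [hm, h1, Matrix.det_one]
    exact one_ne_zero
  have hfreq : ∀ z ∈ ball z₀ ρ, ∃ᶠ w in 𝓝 z, m w ≠ 0 := by
    intro z hz
    rw [Filter.Frequently]
    intro hcon
    have h2 : ∀ᶠ w in 𝓝 z, m w = 0 := hcon.mono (fun w hw => not_not.1 hw)
    exact hm1 (hma.eqOn_zero_of_preconnected_of_eventuallyEq_zero
      (convex_ball z₀ ρ).isPreconnected hz h2 hz₁)
  have hZ : STh {z | z ∈ ball z₀ ρ ∧ m z = 0} := sth_zero isOpen_ball hma hfreq
  have hI1 := H U Φ _ hU hΦ hZ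
  -- points with `m ≠ 0`
  have hI2 : STh (Φ '' {z | z ∈ U ∧ ¬ Function.Surjective (fderiv ℂ Φ z) ∧ z ∈ ball z₀ ρ ∧
      m z ≠ 0}) := by
    refine sth_image_of_local (fun z₂ hz₂ => ?_)
    obtain ⟨hz₂U, hz₂s, hz₂b, hz₂m⟩ := hz₂
    set N : Set V := ball z₀ ρ ∩ m ⁻¹' {0}ᶜ with hN
    have hNo : IsOpen N :=
      hma.continuousOn.isOpen_inter_preimage isOpen_ball isOpen_compl_singleton
    have hdet : IsUnit (M z₂).det := isUnit_iff_ne_zero.2 hz₂m
    set C : (Fin r → ℂ) →L[ℂ] (Fin r → ℂ) := LinearMap.toContinuousLinearMap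
      (Matrix.toLin' (M z₂)⁻¹) with hC
    have hCm : ∀ x, (M z₂).mulVec (C x) = x := by
      intro x
      change (M z₂).mulVec ((M z₂)⁻¹.mulVec x) = x
      rw [Matrix.mulVec_mulVec, Matrix.mul_nonsing_inv _ hdet, Matrix.one_mulVec]
    obtain ⟨O, hO, hSO⟩ := constRank (Φ := Φ) hNo (fun z hz => hΦN z hz.1)
      (z₂ := z₂) ⟨hz₂b, hz₂m⟩ B (A.comp C) (by
        intro x
        rw [ContinuousLinearMap.comp_apply, ← hMv, hCm]) (by
        intro z hz v hv
        -- `B` is injective on the range of `dΦ z`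
        set T : V →ₗ[ℂ] W := (fderiv ℂ Φ z : V →ₗ[ℂ] W) with hT
        set b : LinearMap.range T →ₗ[ℂ] (Fin r → ℂ) :=
          (B : W →ₗ[ℂ] (Fin r → ℂ)) ∘ₗ (LinearMap.range T).subtype with hb
        have hzm : IsUnit (M z).det := isUnit_iff_ne_zero.2 hz.2
        have hbs : Function.Surjective b := by
          intro x
          refine ⟨⟨T (A ((M z)⁻¹.mulVec x)), ⟨_, rfl⟩⟩, ?_⟩
          change B (fderiv ℂ Φ z (A ((M z)⁻¹.mulVec x))) = x
          rw [← hMv, Matrix.mulVec_mulVec, Matrix.mul_nonsing_inv _ hzm, Matrix.one_mulVec]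
        have h3 : finrank ℂ (LinearMap.range T) = finrank ℂ (Fin r → ℂ) := by
          have h4 : R z ≤ r := hmax z hz.1
          have h5 : finrank ℂ (Fin r → ℂ) ≤ finrank ℂ (LinearMap.range T) :=
            LinearMap.finrank_le_finrank_of_surjective hbs
          have h6 : finrank ℂ (Fin r → ℂ) = r := by simp
          have h7 : finrank ℂ (LinearMap.range T) = R z := rfl
          omega
        have hbi : Function.Injective b :=
          (LinearMap.injective_iff_surjective_of_finrank_eq_finrank h3).2 hbs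
        have h8 : b ⟨T v, ⟨v, rfl⟩⟩ = b 0 := by
          rw [map_zero]; exact hv
        have h9 := congrArg Subtype.val (hbi h8)
        exact h9) hz₂s
    exact ⟨O, hO, hSO.mono (image_mono inter_subset_right)⟩
  refine (hI1.union hI2).mono ?_
  rintro _ ⟨z, ⟨hz, hzb⟩, rfl⟩
  by_cases hmz : m z = 0
  · exact Or.inl ⟨z, ⟨⟨hzb, hmz⟩, hz⟩, rfl⟩
  · exact Or.inr ⟨z, ⟨hz.1, hz.2, hzb, hmz⟩, rfl⟩

/-- the induction step: from dimension `d` to images of thin sets in dimension `d + 1` -/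
theorem hypH_of_sard {W : Type v} [NormedAddCommGroup W] [NormedSpace ℂ W]
    [FiniteDimensional ℂ W] {d : ℕ}
    (IH : ∀ (K : Type u) [NormedAddCommGroup K] [NormedSpace ℂ K] [FiniteDimensional ℂ K],
      finrank ℂ K = d → Sard K W)
    {V : Type u} [NormedAddCommGroup V] [NormedSpace ℂ V] [FiniteDimensional ℂ V]
    (hV : finrank ℂ V = d + 1) : HypH V W := by
  have : CompleteSpace V := FiniteDimensional.complete ℂ V
  have : CompleteSpace W := FiniteDimensional.complete ℂ W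
  have : ProperSpace V := FiniteDimensional.proper ℂ V
  intro U Φ E hU hΦ hE
  obtain ⟨Uj, g, h1, h2⟩ := hE
  -- reduce to one piece
  have hpiece : ∀ j, STh (Φ '' ({z | z ∈ Uj j ∧ g j z = 0 ∧ fderiv ℂ (g j) z ≠ 0} ∩
      {z | z ∈ U ∧ ¬ Function.Surjective (fderiv ℂ Φ z)})) := by
    intro j
    refine sth_image_of_local (fun z₀ hz₀ => ?_)
    obtain ⟨⟨hzj, hgz, hdg⟩, hzU, hns⟩ := hz₀
    set L : V →L[ℂ] ℂ := fderiv ℂ (g j) z₀ with hL
    obtain ⟨v, hv⟩ : ∃ v, L v ≠ 0 := by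
      by_contra hcon
      push Not at hcon
      exact hdg (ContinuousLinearMap.ext hcon)
    set A : ℂ →L[ℂ] V := (ContinuousLinearMap.id ℂ ℂ).smulRight ((L v)⁻¹ • v) with hA
    have hLA : ∀ x, L (A x) = x := by
      intro x
      simp [hA, hv]
    obtain ⟨O, O', G, hOo, hO'o, hzO, hON, hGa, s1, s2⟩ :=
      straighten (F := g j) (((h1 j).1.inter hU).mem_nhds ⟨hzj, hzU⟩)
        (fun z hz => (h1 j).2 z hz.1) L hL A hLA
    refine ⟨O, hOo.mem_nhds hzO, ?_⟩
    set K : Submodule ℂ V := LinearMap.ker (L : V →ₗ[ℂ] ℂ) with hK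
    have hKd : finrank ℂ K = d := by
      have h3 := LinearMap.finrank_range_add_finrank_ker (L : V →ₗ[ℂ] ℂ)
      have h4 : LinearMap.range (L : V →ₗ[ℂ] ℂ) = ⊤ := by
        rw [LinearMap.range_eq_top]
        intro x
        exact ⟨A x, hLA x⟩
      rw [h4, finrank_top, Module.finrank_self, hV] at h3
      change finrank ℂ (LinearMap.ker (L : V →ₗ[ℂ] ℂ)) = d
      omega
    have hι : ∀ k : K, AnalyticAt ℂ (fun k : K => (k : V)) k := fun k => K.subtypeL.analyticAt k
    set U' : Set K := (fun k : K => (k : V)) ⁻¹' O' with hU'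
    have hU'o : IsOpen U' := hO'o.preimage continuous_subtype_val
    have hΦ' : AnalyticOnNhd ℂ (fun k : K => Φ (G (k : V))) U' := by
      intro k hk
      have a1 : AnalyticAt ℂ (fun k : K => G (k : V)) k :=
        AnalyticAt.comp (g := G) (f := fun k : K => (k : V)) (hGa _ hk) (hι k)
      exact AnalyticAt.comp (g := Φ) (f := fun k : K => G (k : V))
        (hΦ _ (hON (s2 _ hk).1).2) a1
    refine (IH K hKd U' _ hU'o hΦ').mono ?_
    rintro _ ⟨z, ⟨⟨⟨_, hgz', _⟩, _, hns'⟩, hzO'⟩, rfl⟩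
    obtain ⟨t1, t2, t3⟩ := s1 z hzO'
    have hmem : z + A (g j z - L z) ∈ K := by
      change L (z + A (g j z - L z)) = 0
      rw [t3, hgz']
    refine ⟨⟨_, hmem⟩, ⟨t1, ?_⟩, ?_⟩
    · intro hsur
      apply hns'
      have d1 : HasFDerivAt (fun k : K => (k : V)) K.subtypeL ⟨_, hmem⟩ := K.subtypeL.hasFDerivAt
      have d2 : HasFDerivAt G (fderiv ℂ G (z + A (g j z - L z))) (z + A (g j z - L z)) :=
        (hGa _ t1).differentiableAt.hasFDerivAt
      have d3 : HasFDerivAt Φ (fderiv ℂ Φ z) (G (z + A (g j z - L z))) := by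
        rw [t2]; exact (hΦ z (hON hzO').2).differentiableAt.hasFDerivAt
      have d4 : HasFDerivAt (fun k : K => Φ (G (k : V)))
          ((fderiv ℂ Φ z).comp ((fderiv ℂ G (z + A (g j z - L z))).comp K.subtypeL))
          ⟨_, hmem⟩ := by
        have d5 : HasFDerivAt (fun k : K => G (k : V))
          ((fderiv ℂ G (z + A (g j z - L z))).comp K.subtypeL) ⟨_, hmem⟩ :=
          HasFDerivAt.comp (g := G) (f := fun k : K => (k : V)) _ d2 d1
        exact HasFDerivAt.comp (g := Φ) (f := fun k : K => G (k : V)) _ d3 d5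
      rw [d4.fderiv] at hsur
      intro w
      obtain ⟨k, hk⟩ := hsur w
      exact ⟨_, hk⟩
    · change Φ (G (z + A (g j z - L z))) = Φ z
      rw [t2]
  refine (sth_iUnion hpiece).mono ?_
  rintro _ ⟨z, ⟨hzE, hz⟩, rfl⟩
  obtain ⟨j, hj⟩ := h2 z hzE
  exact mem_iUnion.2 ⟨j, z, ⟨hj, hz⟩, rfl⟩

/-- **Analytic Sard theorem**: the critical values of a holomorphic map `Φ : U → W` (`U` open in
a finite-dimensional space) are contained in a countable union of smooth hypersurface pieces. -/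
theorem sard_aux {W : Type v} [NormedAddCommGroup W] [NormedSpace ℂ W]
    [FiniteDimensional ℂ W] (d : ℕ) :
    ∀ (V : Type u) [NormedAddCommGroup V] [NormedSpace ℂ V] [FiniteDimensional ℂ V],
      finrank ℂ V = d → Sard V W := by
  induction d with
  | zero =>
    intro V _ _ _ hV
    apply sard_of_hypH
    intro U Φ E hU hΦ hE
    obtain ⟨Uj, g, h1, h2⟩ := hE
    have hsub : Subsingleton V := Module.finrank_zero_iff.1 hV
    have hE0 : E = ∅ := by
      ext z
      simp only [mem_empty_iff_false, iff_false]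
      intro hz
      obtain ⟨j, _, _, hj⟩ := h2 z hz
      apply hj
      ext v
      rw [Subsingleton.elim v 0]
      simp
    rw [hE0]
    simpa using sth_empty
  | succ d ih =>
    intro V _ _ _ hV
    exact sard_of_hypH (hypH_of_sard ih hV)

theorem sard {V : Type u} {W : Type v} [NormedAddCommGroup V] [NormedSpace ℂ V]
    [FiniteDimensional ℂ V] [NormedAddCommGroup W] [NormedSpace ℂ W] [FiniteDimensional ℂ W]
    {U : Set V} (hU : IsOpen U) {Φ : V → W} (hΦ : AnalyticOnNhd ℂ Φ U) :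
    STh (Φ '' {z | z ∈ U ∧ ¬ Function.Surjective (fderiv ℂ Φ z)}) :=
  sard_aux _ V rfl U Φ hU hΦ

/-- images of `σ`-thin sets of critical points are `σ`-thin (no hypothesis on the set), and
upstairs: the points of the regular locus of `Φ` whose value is a critical value of `Ψ` -/
theorem sth_preimage_crit {V V' : Type u} {W : Type v} [NormedAddCommGroup V] [NormedSpace ℂ V]
    [FiniteDimensional ℂ V] [NormedAddCommGroup V'] [NormedSpace ℂ V']
    [FiniteDimensional ℂ V'] [NormedAddCommGroup W] [NormedSpace ℂ W] [FiniteDimensional ℂ W]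
    {U : Set V} (hU : IsOpen U) {Φ : V → W} (hΦ : AnalyticOnNhd ℂ Φ U) {O : Set V'}
    (hO : IsOpen O) {Ψ : V' → W} (hΨ : AnalyticOnNhd ℂ Ψ O)
    (hs : ∀ z ∈ O, Function.Surjective (fderiv ℂ Ψ z)) :
    STh {z | z ∈ O ∧ Ψ z ∈ Φ '' {z | z ∈ U ∧ ¬ Function.Surjective (fderiv ℂ Φ z)}} :=
  (sard hU hΦ).preimage hO hΨ hs

end Crest.Agent.R281.Thn_280
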