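import Crest.Agent.R281.Thn2_280

/-!
Row 281 (S0424), division 6, S6-THIN part 4 (helper280): `σ`-thin sets are Lebesgue null, and
almost every complex line through a given point meets them in a countable set.
-/

set_option autoImplicit false
set_option linter.unusedSectionVars false
set_option linter.unusedVariables false

open Set Filter Topology Metric Module MeasureTheory
open scoped ContDiff ENNReal

noncomputable section

namespace Crest.Agent.R281.Thn_280

variable {V : Type*} [NormedAddCommGroup V] [NormedSpace ℂ V] [FiniteDimensional ℂ V]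
  [MeasurableSpace V] [BorelSpace V]

/-- one hypersurface piece is null -/
theorem piece_null (μ : Measure V) [μ.IsAddHaarMeasure] {U : Set V} (hU : IsOpen U) {g : V → ℂ}
    (hg : AnalyticOnNhd ℂ g U) : μ {z | z ∈ U ∧ g z = 0 ∧ fderiv ℂ g z ≠ 0} = 0 := by
  have : CompleteSpace V := FiniteDimensional.complete ℂ V
  have : ProperSpace V := FiniteDimensional.proper ℂ V
  let _ : NormedSpace ℝ V := NormedSpace.restrictScalars ℝ ℂ V
  have hfr : FiniteDimensional ℝ V := FiniteDimensional.complexToReal V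
  refine measure_null_of_locally_null _ (fun z₀ hz₀ => ?_)
  obtain ⟨hzU, hgz, hdg⟩ := hz₀
  set L : V →L[ℂ] ℂ := fderiv ℂ g z₀ with hL
  obtain ⟨v, hv⟩ : ∃ v, L v ≠ 0 := by
    by_contra hcon
    push Not at hcon
    exact hdg (ContinuousLinearMap.ext hcon)
  set A : ℂ →L[ℂ] V := (ContinuousLinearMap.id ℂ ℂ).smulRight ((L v)⁻¹ • v) with hA
  have hLA : ∀ x, L (A x) = x := by
    intro x
    simp [hA, hv]
  obtain ⟨O, O', G, hOo, hO'o, hzO, hON, hGa, s1, s2⟩ :=
    straighten (F := g) (hU.mem_nhds hzU) hg L hL A hLA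
  refine ⟨{z | z ∈ U ∧ g z = 0 ∧ fderiv ℂ g z ≠ 0} ∩ O, inter_mem_nhdsWithin _ (hOo.mem_nhds hzO),
    ?_⟩
  set K : Submodule ℝ V := (LinearMap.ker (L : V →ₗ[ℂ] ℂ)).restrictScalars ℝ with hK
  have hKne : K ≠ ⊤ := by
    intro h
    have h1 : v ∈ K := by rw [h]; trivial
    exact hv h1
  have hK0 : μ (K : Set V) = 0 := Measure.addHaar_submodule μ K hKne
  have hsub : {z | z ∈ U ∧ g z = 0 ∧ fderiv ℂ g z ≠ 0} ∩ O ⊆ G '' ((K : Set V) ∩ O') := by
    rintro z ⟨⟨hz1, hz2, hz3⟩, hz4⟩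
    obtain ⟨t1, t2, t3⟩ := s1 z hz4
    refine ⟨_, ⟨?_, t1⟩, t2⟩
    change L (z + A (g z - L z)) = 0
    rw [t3, hz2]
  refine measure_mono_null hsub ?_
  refine addHaar_image_eq_zero_of_differentiableOn_of_addHaar_eq_zero μ ?_
    (measure_mono_null inter_subset_left hK0)
  intro w hw
  exact ((hGa w hw.2).differentiableAt.restrictScalars ℝ).differentiableWithinAt

theorem STh.null (μ : Measure V) [μ.IsAddHaarMeasure] {E : Set V} (hE : STh E) : μ E = 0 := by
  obtain ⟨U, g, h1, h2⟩ := hE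
  refine measure_mono_null (t := ⋃ j, {z | z ∈ U j ∧ g j z = 0 ∧ fderiv ℂ (g j) z ≠ 0}) ?_ ?_
  · intro z hz
    exact mem_iUnion.2 (h2 z hz)
  · exact measure_iUnion_null (fun j => piece_null μ (h1 j).1 (h1 j).2)

/-- the complement of a `σ`-thin set is dense -/
theorem STh.dense_compl {E : Set V} (hE : STh E) : Dense Eᶜ := by
  have : ProperSpace V := FiniteDimensional.proper ℂ V
  have : SecondCountableTopology V := inferInstance
  obtain ⟨K⟩ : Nonempty (TopologicalSpace.PositiveCompacts V) := inferInstance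
  let μ : Measure V := Measure.addHaarMeasure K
  exact Measure.dense_of_ae (μ := μ) (measure_eq_zero_iff_ae_notMem.1 (hE.null μ))

theorem STh.interior_eq_empty {E : Set V} (hE : STh E) : interior E = ∅ :=
  interior_eq_empty_iff_dense_compl.2 hE.dense_compl

theorem null_affine (μ : Measure V) [μ.IsAddHaarMeasure] {S : Set V} (hS : μ S = 0) (z₀ : V)
    {t : ℂ} (ht : t ≠ 0) : μ {v | z₀ + t • v ∈ S} = 0 := by
  have : ProperSpace V := FiniteDimensional.proper ℂ V
  let _ : NormedSpace ℝ V := NormedSpace.restrictScalars ℝ ℂ V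
  have hfr : FiniteDimensional ℝ V := FiniteDimensional.complexToReal V
  have hsub : {v | z₀ + t • v ∈ S} ⊆ (fun x : V => t⁻¹ • (x - z₀)) '' S := by
    intro v hv
    refine ⟨_, hv, ?_⟩
    simp [smul_smul, ht]
  refine measure_mono_null hsub ?_
  refine addHaar_image_eq_zero_of_differentiableOn_of_addHaar_eq_zero μ ?_ hS
  intro w _
  have h1 : DifferentiableAt ℂ (fun x : V => t⁻¹ • (x - z₀)) w := by fun_prop
  exact (h1.restrictScalars ℝ).differentiableWithinAt

/-- a set of complex numbers all of whose points are isolated is countable -/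
theorem countable_of_isolated {Z : Set ℂ} (h : ∀ z ∈ Z, ∃ N ∈ 𝓝 z, N ∩ Z ⊆ {z}) :
    Z.Countable := by
  choose! N hN hS using h
  obtain ⟨t, htE, htc, hcov⟩ := TopologicalSpace.countable_cover_nhdsWithin
    (s := Z) (f := N) (fun z hz => mem_nhdsWithin_of_mem_nhds (hN z hz))
  refine htc.mono ?_
  intro z hz
  obtain ⟨w, hw, hzw⟩ := mem_iUnion₂.1 (hcov hz)
  have := hS w (htE hw) ⟨hzw, hz⟩
  rw [mem_singleton_iff] at this
  rw [this]; exact hw

/-- **(T3)** through every point, almost every complex line meets a `σ`-thin set in a countable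
set. -/
theorem STh.ae_line (μ : Measure V) [μ.IsAddHaarMeasure] {E : Set V} (hE : STh E) (z₀ : V) :
    ∀ᵐ v ∂μ, {t : ℂ | t ≠ 0 ∧ z₀ + t • v ∈ E}.Countable := by
  obtain ⟨U, g, h1, h2⟩ := hE
  obtain ⟨D, hDc, hDd⟩ := TopologicalSpace.exists_countable_dense ℂ
  have := hDc.to_subtype
  have hae : ∀ᵐ v ∂μ, ∀ j : ℕ, ∀ t : D, (t : ℂ) ≠ 0 →
      z₀ + (t : ℂ) • v ∉ {z | z ∈ U j ∧ g j z = 0 ∧ fderiv ℂ (g j) z ≠ 0} := by
    rw [ae_all_iff]; intro j
    rw [ae_all_iff]; intro t
    by_cases ht : (t : ℂ) = 0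
    · exact Filter.Eventually.of_forall (fun v hcon => (hcon ht).elim)
    · have h3 := null_affine μ (piece_null μ (h1 j).1 (h1 j).2) z₀ ht
      filter_upwards [measure_eq_zero_iff_ae_notMem.1 h3] with v hv _ using hv
  filter_upwards [hae] with v hv
  have hsub : {t : ℂ | t ≠ 0 ∧ z₀ + t • v ∈ E} ⊆
      ⋃ j, {t : ℂ | z₀ + t • v ∈ U j ∧ g j (z₀ + t • v) = 0 ∧ fderiv ℂ (g j) (z₀ + t • v) ≠ 0} := by
    rintro t ⟨_, ht⟩
    exact mem_iUnion.2 (h2 _ ht)
  refine (countable_iUnion (fun j => ?_)).mono hsub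
  refine countable_of_isolated (fun t ht => ?_)
  obtain ⟨ht1, ht2, ht3⟩ := ht
  have hline : Continuous (fun s : ℂ => z₀ + s • v) := by fun_prop
  have hφ : AnalyticAt ℂ (fun s : ℂ => g j (z₀ + s • v)) t := by
    have h4 : AnalyticAt ℂ (fun ζ : ℂ => z₀ + ζ • v) t := by fun_prop
    exact AnalyticAt.comp (g := g j) (f := fun ζ : ℂ => z₀ + ζ • v) ((h1 j).2 _ ht1) h4
  rcases hφ.eventually_eq_zero_or_eventually_ne_zero with h5 | h5
  · exfalso
    have e1 : ∀ᶠ s in 𝓝 t, z₀ + s • v ∈ U j := hline.continuousAt.eventually ((h1 j).1.mem_nhds ht1)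
    have e2 : ∀ᶠ s in 𝓝 t, fderiv ℂ (g j) (z₀ + s • v) ≠ 0 := by
      have c1 : ContinuousAt (fderiv ℂ (g j)) (z₀ + t • v) := ((h1 j).2 _ ht1).fderiv.continuousAt
      have c2 : ContinuousAt (fun s : ℂ => fderiv ℂ (g j) (z₀ + s • v)) t :=
        ContinuousAt.comp (f := fun s : ℂ => z₀ + s • v) c1 hline.continuousAt
      exact c2.eventually_ne ht3
    have e3 : ∀ᶠ s in 𝓝 t, (z₀ + s • v ∈ U j ∧ g j (z₀ + s • v) = 0) ∧
        fderiv ℂ (g j) (z₀ + s • v) ≠ 0 := (e1.and h5).and e2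
    obtain ⟨O, hO1, hO2, hO3⟩ := _root_.eventually_nhds_iff.1 e3
    -- a point of `D \ {0}` in `O`
    have hOne : (O \ {0}).Nonempty := by
      by_contra hcon
      rw [Set.not_nonempty_iff_eq_empty, sdiff_eq_empty] at hcon
      have h6 : (O : Set ℂ).Infinite :=
        infinite_of_mem_nhds t (hO2.mem_nhds hO3)
      exact h6 ((finite_singleton (0 : ℂ)).subset hcon)
    obtain ⟨s, hsD, hsO⟩ : ∃ s ∈ D, s ∈ O \ {0} := by
      obtain ⟨s, hs, hsD⟩ := hDd.exists_mem_open (hO2.sdiff isClosed_singleton) hOne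
      exact ⟨s, hs, hsD⟩
    obtain ⟨⟨a1, a2⟩, a3⟩ := hO1 s hsO.1
    exact hv j ⟨s, hsD⟩ hsO.2 ⟨a1, a2, a3⟩
  · rw [eventually_nhdsWithin_iff] at h5
    refine ⟨_, h5, ?_⟩
    rintro s ⟨hs, hs2⟩
    by_contra hne
    exact hs hne hs2.2.1

/-- the version for all parameters, when `z₀` itself may lie in `E` -/
theorem STh.ae_line' (μ : Measure V) [μ.IsAddHaarMeasure] {E : Set V} (hE : STh E) (z₀ : V) :
    ∀ᵐ v ∂μ, {t : ℂ | z₀ + t • v ∈ E}.Countable := by
  filter_upwards [hE.ae_line μ z₀] with v hv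
  refine (hv.union (countable_singleton (0 : ℂ))).mono ?_
  intro t ht
  by_cases h : t = 0
  · exact Or.inr h
  · exact Or.inl ⟨h, ht⟩

/-- dense version: no measure in the statement -/
theorem STh.dense_line {V : Type*} [NormedAddCommGroup V] [NormedSpace ℂ V]
    [FiniteDimensional ℂ V] {E : Set V} (hE : STh E) (z₀ : V) :
    Dense {v : V | {t : ℂ | z₀ + t • v ∈ E}.Countable} := by
  have : ProperSpace V := FiniteDimensional.proper ℂ V
  borelize V
  obtain ⟨K⟩ : Nonempty (TopologicalSpace.PositiveCompacts V) := inferInstance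
  let μ : Measure V := Measure.addHaarMeasure K
  exact Measure.dense_of_ae (μ := μ) (hE.ae_line' μ z₀)

end Crest.Agent.R281.Thn_280
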