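import Crest.Agent.R281.Ti1_846
import Mathlib.MeasureTheory.Function.Jacobian
import Mathlib.Analysis.Calculus.LineDeriv.IntegrationByParts

/-!
# Row 281, TOPINT, part 2 (helper846): integration of top forms on a space with real charts

* `chg`        : change of chart
* `Ori C`      : the transition maps preserve the orientation
* `RPart C`    : finite smooth partition of unity subordinate to the charts
* `TopF C`     : continuous top forms; `intT μ P D`
* `intT_indep` : independence of the partition and of the chart system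
* `intT_loc`   : a top form supported in one chart
* `TopF.of b w`: `w₁ ∧ … ∧ w_N` of real 2-forms; `II μ b P w` its integral
-/

set_option autoImplicit false
set_option linter.unusedSectionVars false

open Set Filter Topology MeasureTheory
open scoped ContDiff

namespace Crest.Agent.R281.Ti_846

open Crest.Agent.R281.HkR_835 Equiv

noncomputable section

variable {V X : Type} [NormedAddCommGroup V] [NormedSpace ℝ V] [FiniteDimensional ℝ V]
  [MeasurableSpace V] [BorelSpace V] (μ : Measure V) [μ.IsAddHaarMeasure] [TopologicalSpace X]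

/-- the overlap of two charts, seen in the first one -/
def ovc (e e' : OpenPartialHomeomorph X V) : Set V := {z | z ∈ e.target ∧ e.symm z ∈ e'.source}

theorem isOpen_ovc (e e' : OpenPartialHomeomorph X V) : IsOpen (ovc e e') :=
  e.isOpen_inter_preimage_symm e'.open_source

/-- **change of chart** -/
theorem chg (e e' : OpenPartialHomeomorph X V) {g g' : V → ℝ}
    (hsm : DifferentiableOn ℝ (fun z => e' (e.symm z)) (ovc e e'))
    (hdet : ∀ z ∈ ovc e e', 0 < (fderiv ℝ (fun z => e' (e.symm z)) z).det)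
    (hz : ∀ z ∈ e.target, e.symm z ∉ e'.source → g z = 0)
    (hz' : ∀ z ∈ e'.target, e'.symm z ∉ e.source → g' z = 0)
    (htr : ∀ z ∈ ovc e e', g z = (fderiv ℝ (fun z => e' (e.symm z)) z).det * g' (e' (e.symm z))) :
    ∫ z in e.target, g z ∂μ = ∫ z in e'.target, g' z ∂μ := by
  have hS := isOpen_ovc e e'
  have hS' := isOpen_ovc e' e
  have h1 : ∫ z in e.target, g z ∂μ = ∫ z in ovc e e', g z ∂μ :=
    setIntegral_eq_of_subset_of_forall_sdiff_eq_zero e.open_target.measurableSet
      (fun z hz => hz.1) fun z hz1 => hz z hz1.1 fun h => hz1.2 ⟨hz1.1, h⟩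
  have h2 : ∫ z in e'.target, g' z ∂μ = ∫ z in ovc e' e, g' z ∂μ :=
    setIntegral_eq_of_subset_of_forall_sdiff_eq_zero e'.open_target.measurableSet
      (fun z hz => hz.1) fun z hz1 => hz' z hz1.1 fun h => hz1.2 ⟨hz1.1, h⟩
  have him : (fun z => e' (e.symm z)) '' ovc e e' = ovc e' e := by
    ext y
    constructor
    · rintro ⟨z, hz, rfl⟩
      refine ⟨e'.map_source hz.2, ?_⟩
      show e'.symm (e' (e.symm z)) ∈ e.source
      rw [e'.left_inv hz.2]
      exact e.map_target hz.1
    · intro hy
      refine ⟨e (e'.symm y), ⟨e.map_source hy.2, ?_⟩, ?_⟩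
      · rw [e.left_inv hy.2]
        exact e'.map_target hy.1
      · show e' (e.symm (e (e'.symm y))) = y
        rw [e.left_inv hy.2, e'.right_inv hy.1]
  have hinj : InjOn (fun z => e' (e.symm z)) (ovc e e') := by
    intro z hz y hy h
    have h1 : e.symm z = e.symm y := e'.injOn hz.2 hy.2 h
    exact e.symm.injOn hz.1 hy.1 h1
  have h3 := integral_image_eq_integral_abs_det_fderiv_smul μ hS.measurableSet
    (fun z hz => ((hsm z hz).differentiableAt (hS.mem_nhds hz)).hasFDerivAt.hasFDerivWithinAt)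
    hinj g'
  rw [h1, h2, ← him, h3]
  refine setIntegral_congr_fun hS.measurableSet fun z hz => ?_
  rw [htr z hz, abs_of_pos (hdet z hz), smul_eq_mul]

/-- integrability of a function supported in a compact subset of a chart -/
theorem integrableOn_cpt (e : OpenPartialHomeomorph X V) {g : V → ℝ} {Kc : Set X}
    (hK : IsCompact Kc) (hKs : Kc ⊆ e.source) (hg : ContinuousOn g e.target)
    (h0 : ∀ z ∈ e.target, e.symm z ∉ Kc → g z = 0) : IntegrableOn g e.target μ := by
  have hc : IsCompact (e '' Kc) := hK.image_of_continuousOn (e.continuousOn.mono hKs)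
  have hsub : e '' Kc ⊆ e.target := by
    rintro _ ⟨x, hx, rfl⟩
    exact e.map_source (hKs hx)
  have h1 : IntegrableOn g (e '' Kc) μ := (hg.mono hsub).integrableOn_compact hc
  refine h1.of_forall_sdiff_eq_zero e.open_target.measurableSet fun z hz => ?_
  refine h0 z hz.1 fun h => hz.2 ⟨e.symm z, h, e.right_inv hz.1⟩

/-- orientation preserving transition maps between two systems of charts -/
def OriC (C C' : RCh V X) : Prop :=
  ∀ i j, ContDiffOn ℝ ∞ (fun z => C'.e j ((C.e i).symm z)) (ovc (C.e i) (C'.e j)) ∧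
    ∀ z ∈ ovc (C.e i) (C'.e j), 0 < (fderiv ℝ (fun z => C'.e j ((C.e i).symm z)) z).det

/-- oriented chart systems -/
def Ori (C : RCh V X) : Prop := ∀ i j, ∀ z ∈ C.ov i j, 0 < (fderiv ℝ (C.t i j) z).det

theorem Ori.oriC {C : RCh V X} (h : Ori C) : OriC C C := fun i j => ⟨C.sm i j, h i j⟩

/-- finite smooth partition of unity subordinate to the charts -/
structure RPart (C : RCh V X) where
  σ : Type
  [fσ : Fintype σ]
  c : σ → C.ι
  ψ : σ → X → ℝ
  sm : ∀ k i, ContDiffOn ℝ ∞ (fun z => ψ k ((C.e i).symm z)) (C.e i).target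
  sub : ∀ k, tsupport (ψ k) ⊆ (C.e (c k)).source
  sum_one : ∀ x, ∑ k, ψ k x = 1

attribute [instance] RPart.fσ

/-- continuous top forms -/
structure TopF (C : RCh V X) where
  D : C.ι → V → ℝ
  cont : ∀ i, ContinuousOn (D i) (C.e i).target
  tr : ∀ i j, ∀ z ∈ C.ov i j, D i z = (fderiv ℝ (C.t i j) z).det * D j (C.t i j z)

variable {C C' : RCh V X}

/-- the integral -/
def intT (P : RPart C) (D : TopF C) : ℝ :=
  ∑ k, ∫ z in (C.e (P.c k)).target, P.ψ k ((C.e (P.c k)).symm z) * D.D (P.c k) z ∂μ

theorem cont_psi (P : RPart C) (k : P.σ) : Continuous (P.ψ k) := by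
  rw [continuous_iff_continuousAt]
  intro x
  obtain ⟨i, hi⟩ := C.cover x
  have h1 : ContinuousAt (fun z => P.ψ k ((C.e i).symm z)) (C.e i x) :=
    ((P.sm k i).continuousOn).continuousAt ((C.e i).open_target.mem_nhds ((C.e i).map_source hi))
  have h2 : ContinuousAt (fun y => P.ψ k ((C.e i).symm (C.e i y))) x :=
    ContinuousAt.comp (f := C.e i) h1 ((C.e i).continuousAt hi)
  refine h2.congr ?_
  filter_upwards [(C.e i).open_source.mem_nhds hi] with y hy
  rw [(C.e i).left_inv hy]

theorem cont_psi_symm (P : RPart C) (k : P.σ) (e : OpenPartialHomeomorph X V) :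
    ContinuousOn (fun z => P.ψ k (e.symm z)) e.target :=
  (cont_psi P k).comp_continuousOn e.continuousOn_symm

theorem psi_zero (P : RPart C) (k : P.σ) {x : X} (h : x ∉ tsupport (P.ψ k)) : P.ψ k x = 0 :=
  image_eq_zero_of_notMem_tsupport h

variable [CompactSpace X]

/-- **independence** of the partition and of the charts -/
theorem intT_indep (h : OriC C C') (P : RPart C) (P' : RPart C') (D : TopF C) (D' : TopF C')
    (hD : ∀ i j, ∀ z ∈ ovc (C.e i) (C'.e j), D.D i z =
      (fderiv ℝ (fun z => C'.e j ((C.e i).symm z)) z).det * D'.D j (C'.e j ((C.e i).symm z))) :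
    intT μ P D = intT μ P' D' := by
  have e1 : intT μ P D = ∑ k, ∑ l, ∫ z in (C.e (P.c k)).target,
      P'.ψ l ((C.e (P.c k)).symm z) * (P.ψ k ((C.e (P.c k)).symm z) * D.D (P.c k) z) ∂μ := by
    unfold intT
    refine Finset.sum_congr rfl fun k _ => ?_
    rw [← integral_finsetSum]
    · refine setIntegral_congr_fun (C.e (P.c k)).open_target.measurableSet fun z _ => ?_
      rw [← Finset.sum_mul, P'.sum_one, one_mul]
    · intro l _
      refine integrableOn_cpt μ (C.e (P.c k)) (Kc := tsupport (P.ψ k))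
        (isClosed_tsupport _).isCompact (P.sub k) ?_ ?_
      · exact (cont_psi_symm P' l _).mul ((cont_psi_symm P k _).mul (D.cont _))
      · intro z _ hz
        rw [psi_zero P k hz, zero_mul, mul_zero]
  have e2 : intT μ P' D' = ∑ l, ∑ k, ∫ z in (C'.e (P'.c l)).target,
      P'.ψ l ((C'.e (P'.c l)).symm z) *
        (P.ψ k ((C'.e (P'.c l)).symm z) * D'.D (P'.c l) z) ∂μ := by
    unfold intT
    refine Finset.sum_congr rfl fun l _ => ?_
    rw [← integral_finsetSum]
    · refine setIntegral_congr_fun (C'.e (P'.c l)).open_target.measurableSet fun z _ => ?_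
      rw [← Finset.mul_sum, ← Finset.sum_mul, P.sum_one, one_mul]
    · intro k _
      refine integrableOn_cpt μ (C'.e (P'.c l)) (Kc := tsupport (P'.ψ l))
        (isClosed_tsupport _).isCompact (P'.sub l) ?_ ?_
      · exact (cont_psi_symm P' l _).mul ((cont_psi_symm P k _).mul (D'.cont _))
      · intro z _ hz
        rw [psi_zero P' l hz, zero_mul]
  rw [e1, e2, Finset.sum_comm]
  refine Finset.sum_congr rfl fun l _ => Finset.sum_congr rfl fun k _ => ?_
  refine chg μ (C.e (P.c k)) (C'.e (P'.c l)) ((h _ _).1.differentiableOn (by simp)) (h _ _).2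
    ?_ ?_ ?_
  · intro z _ hz
    rw [psi_zero P' l fun h1 => hz (P'.sub l h1), zero_mul]
  · intro z _ hz
    rw [psi_zero P k fun h1 => hz (P.sub k h1), zero_mul, mul_zero]
  · intro z hz
    rw [hD _ _ z hz, (C'.e (P'.c l)).left_inv hz.2]
    ring

/-- the integral does not depend on the partition -/
theorem intT_part (h : Ori C) (P P' : RPart C) (D : TopF C) : intT μ P D = intT μ P' D :=
  intT_indep μ h.oriC P P' D D fun i j z hz => D.tr i j z hz

/-- **localisation** -/
theorem intT_loc (h : Ori C) (P : RPart C) (D : TopF C) (i : C.ι) {Kc : Set X} (hK : IsCompact Kc)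
    (hKs : Kc ⊆ (C.e i).source)
    (h0 : ∀ j, ∀ z ∈ (C.e j).target, (C.e j).symm z ∉ Kc → D.D j z = 0) :
    intT μ P D = ∫ z in (C.e i).target, D.D i z ∂μ := by
  have e1 : ∫ z in (C.e i).target, D.D i z ∂μ = ∑ k, ∫ z in (C.e i).target,
      P.ψ k ((C.e i).symm z) * D.D i z ∂μ := by
    rw [← integral_finsetSum]
    · refine setIntegral_congr_fun (C.e i).open_target.measurableSet fun z _ => ?_
      rw [← Finset.sum_mul, P.sum_one, one_mul]
    · intro k _
      refine integrableOn_cpt μ (C.e i) hK hKs ?_ ?_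
      · exact (cont_psi_symm P k _).mul (D.cont _)
      · intro z hz hzK
        rw [h0 i z hz hzK, mul_zero]
  rw [e1]
  unfold intT
  refine Finset.sum_congr rfl fun k _ => ?_
  refine chg μ (C.e (P.c k)) (C.e i) ((C.sm _ _).differentiableOn (by simp)) (h _ _)
    ?_ ?_ ?_
  · intro z hz1 hz
    rw [h0 _ z hz1 fun h1 => hz (hKs h1), mul_zero]
  · intro z _ hz
    rw [psi_zero P k fun h1 => hz (P.sub k h1), zero_mul]
  · intro z hz
    have := D.tr (P.c k) i z hz
    rw [this, (C.e i).left_inv hz.2]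
    show _ = (fderiv ℝ (C.t (P.c k) i) z).det * (_ * D.D i (C.t (P.c k) i z))
    ring

theorem integrableOn_psi (P : RPart C) (D : TopF C) (k : P.σ) :
    IntegrableOn (fun z => P.ψ k ((C.e (P.c k)).symm z) * D.D (P.c k) z)
      (C.e (P.c k)).target μ := by
  refine integrableOn_cpt μ (C.e (P.c k)) (Kc := tsupport (P.ψ k))
    (isClosed_tsupport _).isCompact (P.sub k) ((cont_psi_symm P k _).mul (D.cont _)) ?_
  intro z _ hz
  rw [psi_zero P k hz, zero_mul]

/-- additivity -/
theorem intT_sum (P : RPart C) {ν : Type*} (s : Finset ν) (c : ν → ℝ) (D : ν → TopF C)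
    (D0 : TopF C) (h : ∀ i, ∀ z ∈ (C.e i).target, D0.D i z = ∑ l ∈ s, c l * (D l).D i z) :
    intT μ P D0 = ∑ l ∈ s, c l * intT μ P (D l) := by
  unfold intT
  simp only [Finset.mul_sum]
  rw [Finset.sum_comm]
  refine Finset.sum_congr rfl fun k _ => ?_
  have h1 : ∀ l ∈ s, c l * ∫ z in (C.e (P.c k)).target,
      P.ψ k ((C.e (P.c k)).symm z) * (D l).D (P.c k) z ∂μ =
      ∫ z in (C.e (P.c k)).target,
      c l * (P.ψ k ((C.e (P.c k)).symm z) * (D l).D (P.c k) z) ∂μ := fun l _ =>
    (integral_const_mul _ _).symm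
  rw [Finset.sum_congr rfl h1, ← integral_finsetSum]
  · refine setIntegral_congr_fun (C.e (P.c k)).open_target.measurableSet fun z hz => ?_
    rw [h _ z hz, Finset.mul_sum]
    refine Finset.sum_congr rfl fun l _ => by ring
  · intro l _
    exact (integrableOn_psi μ P (D l) k).const_mul (c l)

theorem intT_congr (P : RPart C) {D D' : TopF C} (h : ∀ i, ∀ z ∈ (C.e i).target, D.D i z = D'.D i z) :
    intT μ P D = intT μ P D' := by
  unfold intT
  refine Finset.sum_congr rfl fun k _ => setIntegral_congr_fun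
    (C.e (P.c k)).open_target.measurableSet fun z hz => ?_
  rw [h _ z hz]

theorem intT_nonneg (P : RPart C) (hP : ∀ k x, 0 ≤ P.ψ k x) {D : TopF C}
    (h : ∀ i, ∀ z ∈ (C.e i).target, 0 ≤ D.D i z) : 0 ≤ intT μ P D :=
  Finset.sum_nonneg fun _ _ => setIntegral_nonneg (C.e _).open_target.measurableSet fun z hz =>
    mul_nonneg (hP _ _) (h _ z hz)

end

end Crest.Agent.R281.Ti_846
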