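import Crest.Agent.R281.Ti3_846

/-!
# Row 281, TOPINT, part 4 (helper846): Stokes

* `II_ex` : `∫ w₁ ∧ … ∧ w_N = 0` if one factor is exact
* `II_cls`: the integral depends only on the classes of the factors
-/

set_option autoImplicit false
set_option linter.unusedSectionVars false

open Set Filter Topology MeasureTheory
open scoped ContDiff

namespace Crest.Agent.R281.Ti_846

open Crest.Agent.R281.HkR_835 Equiv

noncomputable section

variable {V X : Type} [NormedAddCommGroup V] [NormedSpace ℝ V] [FiniteDimensional ℝ V]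
  [MeasurableSpace V] [BorelSpace V] (μ : Measure V) [μ.IsAddHaarMeasure] [TopologicalSpace X]
  {K : Type} [Fintype K] [DecidableEq K] {C C' : RCh V X}

/-- divergence theorem on an open set, compact support -/
theorem int_fderiv_zero' {f : V → ℝ} {U Kc : Set V} (hU : IsOpen U) (hK : IsCompact Kc)
    (hKU : Kc ⊆ U) (hf : ContDiffOn ℝ 1 f U) (h0 : ∀ z ∈ U, z ∉ Kc → f z = 0) (v : V) :
    ∫ z in U, fderiv ℝ f z v ∂μ = 0 := by
  classical
  set F : V → ℝ := U.indicator f with hF
  have h1 : ∀ z ∈ U, F =ᶠ[𝓝 z] f := fun z hz => by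
    filter_upwards [hU.mem_nhds hz] with y hy
    rw [hF, indicator_of_mem hy]
  have h2 : ∀ z ∉ Kc, F =ᶠ[𝓝 z] 0 := fun z hz => by
    filter_upwards [hK.isClosed.isOpen_compl.mem_nhds hz] with y hy
    by_cases hyU : y ∈ U
    · rw [hF, indicator_of_mem hyU, h0 y hyU hy]
      rfl
    · rw [hF, indicator_of_notMem hyU]
      rfl
  have hc : ContDiff ℝ 1 F := by
    rw [contDiff_iff_contDiffAt]
    intro z
    by_cases hz : z ∈ U
    · exact (hf.contDiffAt (hU.mem_nhds hz)).congr_of_eventuallyEq (h1 z hz)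
    · exact contDiffAt_const.congr_of_eventuallyEq (h2 z fun h => hz (hKU h))
  have hs : HasCompactSupport F := by
    refine HasCompactSupport.intro hK fun z hz => ?_
    exact (h2 z hz).eq_of_nhds
  rw [← int_fderiv_zero μ hc hs v]
  have e1 : ∫ z in U, fderiv ℝ f z v ∂μ = ∫ z in U, fderiv ℝ F z v ∂μ :=
    setIntegral_congr_fun hU.measurableSet fun z hz => by
      show fderiv ℝ f z v = fderiv ℝ F z v
      rw [(h1 z hz).fderiv_eq]
  rw [e1]
  refine setIntegral_eq_integral_of_forall_compl_eq_zero fun z hz => ?_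
  rw [(h2 z fun h => hz (hKU h)).fderiv_eq]
  simp

theorem TP_zero (b : K × Fin 2 → V) {w : K → Bil V} {k0 : K} (h : ∀ u v, w k0 u v = 0) :
    TP b w = 0 := by
  unfold TP
  refine Finset.sum_eq_zero fun σ _ => ?_
  rw [Finset.prod_eq_zero (Finset.mem_univ k0) (h _ _), mul_zero]

variable [CompactSpace X]

theorem dvg_sm (b : K × Fin 2 → V) (w : K → F2 C) (k0 : K) (η : F1 C) (i : C.ι)
    (σ : Perm (K × Fin 2)) :
    ContDiffOn ℝ ∞ (dvg b k0 (fun k => (w k).w i) (η.η i) σ) (C.e i).target := by
  unfold dvg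
  refine ((η.sm i).clm_apply contDiffOn_const).mul (contDiffOn_prod fun k _ => ?_)
  exact (((w k).sm i).clm_apply contDiffOn_const).clm_apply contDiffOn_const

/-- **Stokes** for a 1-form supported in one chart -/
theorem II_ex_loc (h : Ori C) (b : Module.Basis (K × Fin 2) ℝ V) (P : RPart C) (w : K → F2 C)
    (k0 : K) (η : F1 C) (hη : IsD (w k0) η) (i : C.ι) {Kc : Set X} (hK : IsClosed Kc)
    (hKs : Kc ⊆ (C.e i).source)
    (h0 : ∀ j, ∀ z ∈ (C.e j).target, (C.e j).symm z ∉ Kc → η.η j z = 0) :
    II μ b P w = 0 := by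
  have hKc := hK.isCompact
  have hd : ∀ j, ∀ z ∈ (C.e j).target, (C.e j).symm z ∉ Kc → (η.η j) =ᶠ[𝓝 z] 0 := by
    intro j z hz hzK
    have : IsOpen {y | y ∈ (C.e j).target ∧ (C.e j).symm y ∈ Kcᶜ} :=
      (C.e j).isOpen_inter_preimage_symm hK.isOpen_compl
    filter_upwards [this.mem_nhds ⟨hz, hzK⟩] with y hy
    exact h0 j y hy.1 hy.2
  have e1 : II μ b P w = ∫ z in (C.e i).target, (TopF.of b w).D i z ∂μ := by
    refine intT_loc μ h P _ i hKc hKs fun j z hz hzK => ?_
    rw [TopF.of_D]
    refine TP_zero b (k0 := k0) fun u v => ?_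
    rw [hη j z hz, (hd j z hz hzK).fderiv_eq]
    simp
  set D : Perm (K × Fin 2) → V → ℝ := fun σ => dvg b k0 (fun k => (w k).w i) (η.η i) σ with hD
  have e2 : ∫ z in (C.e i).target, (TopF.of b w).D i z ∂μ = ∫ z in (C.e i).target,
      ∑ σ : Perm (K × Fin 2), 2 * (((Perm.sign σ : ℤ) : ℝ) *
      fderiv ℝ (D σ) z (b (σ (k0, 0)))) ∂μ := by
    refine setIntegral_congr_fun (C.e i).open_target.measurableSet fun z hz => ?_
    show TP b (fun k => (w k).w i z) = _
    rw [← Finset.mul_sum]
    refine TP_ex b k0 (w := fun k => (w k).w i) (η := η.η i) (fun k _ => (w k).diffAt hz)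
      (η.diffAt hz) ?_ (hη i z hz)
    intro k _ x y t
    exact (w k).closed i z hz x y t
  have hz : ∀ σ, ∀ z ∈ (C.e i).target, (C.e i).symm z ∉ Kc → D σ =ᶠ[𝓝 z] 0 := by
    intro σ z hz hzK
    filter_upwards [hd i z hz hzK] with y hy
    show dvg b k0 (fun k => (w k).w i) (η.η i) σ y = 0
    unfold dvg
    rw [hy]
    simp
  rw [e1, e2, integral_finsetSum]
  · refine Finset.sum_eq_zero fun σ _ => ?_
    rw [integral_const_mul, integral_const_mul]
    have e3 : ∫ z in (C.e i).target, fderiv ℝ (D σ) z (b (σ (k0, 0))) ∂μ = 0 := by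
      refine int_fderiv_zero' μ (C.e i).open_target (Kc := (C.e i) '' Kc) ?_ ?_ ?_ ?_ _
      · exact hKc.image_of_continuousOn ((C.e i).continuousOn.mono hKs)
      · rintro _ ⟨x, hx, rfl⟩
        exact (C.e i).map_source (hKs hx)
      · exact (dvg_sm b w k0 η i σ).of_le (by simp)
      · intro z hz1 hz2
        refine (hz σ z hz1 fun h3 => hz2 ⟨(C.e i).symm z, h3, (C.e i).right_inv hz1⟩).eq_of_nhds
    rw [e3, mul_zero, mul_zero]
  · intro σ _
    refine Integrable.const_mul (Integrable.const_mul ?_ _) _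
    refine integrableOn_cpt μ (C.e i) hKc hKs ?_ ?_
    · have h1 : ContDiffOn ℝ ∞ (fderiv ℝ (D σ)) (C.e i).target :=
        (dvg_sm b w k0 η i σ).fderiv_of_isOpen (C.e i).open_target (by simp)
      exact h1.continuousOn.clm_apply continuousOn_const
    · intro z hz1 hz2
      rw [(hz σ z hz1 hz2).fderiv_eq]
      simp

theorem TP_update_sum (b : K × Fin 2 → V) (w : K → Bil V) (k : K) {ν : Type*} (s : Finset ν)
    (x : ν → Bil V) : TP b (Function.update w k (∑ l ∈ s, x l)) =
      ∑ l ∈ s, TP b (Function.update w k (x l)) := by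
  classical
  induction s using Finset.induction_on with
  | empty =>
    rw [Finset.sum_empty, Finset.sum_empty]
    refine TP_zero b (k0 := k) fun u v => ?_
    rw [Function.update_self]
    rfl
  | insert l s hl ih =>
    rw [Finset.sum_insert hl, Finset.sum_insert hl, TP_update_add, ih]

theorem upd_w (w : K → F2 C) (k : K) (u : F2 C) (i : C.ι) (z : V) :
    (fun l => (Function.update w k u l).w i z) =
      Function.update (fun l => (w l).w i z) k (u.w i z) := by
  funext l
  by_cases hl : l = k
  · subst hl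
    rw [Function.update_self, Function.update_self]
  · rw [Function.update_of_ne hl, Function.update_of_ne hl]

/-- **Stokes** -/
theorem II_isD (h : Ori C) (b : Module.Basis (K × Fin 2) ℝ V) (P : RPart C) (w : K → F2 C)
    (k0 : K) (η : F1 C) (hη : IsD (w k0) η) : II μ b P w = 0 := by
  set η' : P.σ → F1 C := fun k => η.smul (P.ψ k) (P.sm k) with hη'
  have e1 : II μ b P w = ∑ k, 1 * II μ b P (Function.update w k0 (η' k).d) := by
    refine intT_sum μ P Finset.univ (fun _ => 1)
      (fun l => TopF.of b (Function.update w k0 (η' l).d)) _ fun i z hz => ?_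
    have h1 : ∀ l, (TopF.of b (Function.update w k0 (η' l).d)).D i z =
        TP b (Function.update (fun l => (w l).w i z) k0 ((η' l).d.w i z)) := by
      intro l
      rw [TopF.of_D, upd_w]
    simp only [h1, one_mul]
    rw [← TP_update_sum]
    have h2 : ∑ l, (η' l).d.w i z = (w k0).w i z := by
      ext u v
      rw [hη i z hz]
      have h3 : ∀ a c, ∑ l, fderiv ℝ ((η' l).η i) z a c = fderiv ℝ (η.η i) z a c := by
        intro a c
        have h4 : (fun y => ∑ l, (η' l).η i y) = η.η i := by
          funext y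
          show ∑ l, P.ψ l ((C.e i).symm y) • η.η i y = _
          rw [← Finset.sum_smul, P.sum_one, one_smul]
        rw [← h4, fderiv_fun_sum fun l _ => (η' l).diffAt hz]
        simp
      simp only [sum_apply, F1.d_w, Finset.sum_sub_distrib, h3]
    rw [h2, Function.update_eq_self, TopF.of_D]
  rw [e1]
  refine Finset.sum_eq_zero fun k _ => ?_
  rw [one_mul]
  refine II_ex_loc μ h b P _ k0 (η' k) ?_ (P.c k) (Kc := tsupport (P.ψ k)) (isClosed_tsupport _)
    (P.sub k) ?_
  · rw [Function.update_self]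
    exact (η' k).isD
  · intro j z _ hz2
    show P.ψ k ((C.e j).symm z) • η.η j z = 0
    rw [psi_zero P k hz2, zero_smul]

/-- **Stokes** -/
theorem II_ex (h : Ori C) (b : Module.Basis (K × Fin 2) ℝ V) (P : RPart C) (w : K → F2 C)
    (k0 : K) (hx : Ex (w k0)) : II μ b P w = 0 :=
  II_isD μ h b P w k0 hx.choose hx.choose_spec

/-- cohomologous forms -/
def Coh (w w' : F2 C) : Prop := ∃ η : F1 C, ∀ i, ∀ z ∈ (C.e i).target, ∀ u v,
  w.w i z u v = w'.w i z u v + (fderiv ℝ (η.η i) z u v - fderiv ℝ (η.η i) z v u)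

theorem II_coh1 (h : Ori C) (b : Module.Basis (K × Fin 2) ℝ V) (P : RPart C) (w : K → F2 C)
    (k0 : K) (w' : F2 C) (hw : Coh (w k0) w') :
    II μ b P w = II μ b P (Function.update w k0 w') := by
  obtain ⟨η, hη⟩ := hw
  have e1 : II μ b P w = 1 * II μ b P (Function.update w k0 w') +
      1 * II μ b P (Function.update w k0 η.d) := by
    have h1 : II μ b P w = ∑ l : Fin 2, (![1, 1] : Fin 2 → ℝ) l *
        II μ b P (Function.update w k0 ((![w', η.d] : Fin 2 → F2 C) l)) := by
      rw [← II_lin μ b P w k0]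
      refine II_congr μ b P fun k i z hz u v => ?_
      by_cases hk : k = k0
      · subst hk
        rw [Function.update_self, F2.lin_w, Fin.sum_univ_two, hη i z hz]
        simp
      · rw [Function.update_of_ne hk]
    rw [h1, Fin.sum_univ_two]
    rfl
  have h2 := II_isD μ h b P (Function.update w k0 η.d) k0 η
    (by rw [Function.update_self]; exact η.isD)
  rw [e1, h2]
  ring

/-- **the integral depends only on the classes of the factors** -/
theorem II_coh (h : Ori C) (b : Module.Basis (K × Fin 2) ℝ V) (P : RPart C) (w w' : K → F2 C)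
    (hw : ∀ k, Coh (w k) (w' k)) : II μ b P w = II μ b P w' := by
  have key : ∀ s : Finset K, II μ b P w = II μ b P (fun k => if k ∈ s then w' k else w k) := by
    intro s
    induction s using Finset.induction_on with
    | empty => simp
    | insert k0 s hk ih =>
      rw [ih, II_coh1 μ h b P _ k0 (w' k0) (by simpa [hk] using hw k0)]
      congr 1
      funext k
      by_cases h1 : k = k0
      · subst h1
        simp
      · rw [Function.update_of_ne h1]
        simp [h1]
  simpa using key Finset.univ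

end

end Crest.Agent.R281.Ti_846
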