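import Mathlib

/-!
# R281 (S0424), leaf S-TOR (helper922), file A: lifting segments and balls

`f : Y → S` local homeomorphism from a metric space, `q : E → S` continuous; `LC q f C`: local lifts of
`q` through `f` are `C`-Lipschitz.  If `closedBall y R` is complete and `C * ρ ≤ R`, then `q` lifts
through `f` on the ball of radius `ρ` around `ζ` (`q ζ = f y`).
-/

set_option autoImplicit false
set_option linter.unusedSectionVars false

open Set Filter Topology Metric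

namespace Crest.Agent.R281.Tor_922

variable {E : Type*} [NormedAddCommGroup E] [NormedSpace ℝ E]
  {Y : Type*} [MetricSpace Y] {S : Type*} [TopologicalSpace S] [T2Space S]

/-- local lifts of `q` through `f` are `C`-Lipschitz -/
def LC (q : E → S) (f : Y → S) (C : ℝ) : Prop :=
  ∀ (p : Y) (ζ : E), q ζ = f p → ∃ δ : ℝ, 0 < δ ∧ ∃ s : E → Y, s ζ = p ∧
    (∀ ζ' ∈ ball ζ δ, f (s ζ') = q ζ') ∧
    ∀ ζ' ∈ ball ζ δ, ∀ ζ'' ∈ ball ζ δ, dist (s ζ') (s ζ'') ≤ C * ‖ζ' - ζ''‖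

variable {q : E → S} {f : Y → S} {C R : ℝ} {y : Y} {ζ v : E}

/-- a lift of the segment `ζ + τ v` on `[0, t]` -/
structure SegL (q : E → S) (f : Y → S) (C : ℝ) (y : Y) (ζ v : E) (t : ℝ) (g : ℝ → Y) : Prop where
  zero : g 0 = y
  lip : ∀ a ∈ Icc (0 : ℝ) t, ∀ b ∈ Icc (0 : ℝ) t, dist (g a) (g b) ≤ C * ‖v‖ * |a - b|
  lift : ∀ τ ∈ Icc (0 : ℝ) t, f (g τ) = q (ζ + τ • v)

theorem SegL.mono {t t' : ℝ} {g : ℝ → Y} (h : SegL q f C y ζ v t g) (htt : t' ≤ t) :
    SegL q f C y ζ v t' g :=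
  ⟨h.zero, fun a ha b hb => h.lip a ⟨ha.1, ha.2.trans htt⟩ b ⟨hb.1, hb.2.trans htt⟩,
    fun τ hτ => h.lift τ ⟨hτ.1, hτ.2.trans htt⟩⟩

theorem SegL.continuousOn {t : ℝ} {g : ℝ → Y} (h : SegL q f C y ζ v t g) :
    ContinuousOn g (Icc 0 t) := by
  rw [Metric.continuousOn_iff]
  intro b hb ε hε
  have hK : 0 ≤ |C * ‖v‖| := abs_nonneg _
  refine ⟨ε / (|C * ‖v‖| + 1), by positivity, fun a ha hab => ?_⟩
  rw [Real.dist_eq] at hab
  calc dist (g a) (g b) ≤ C * ‖v‖ * |a - b| := h.lip a ha b hb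
    _ ≤ |C * ‖v‖| * |a - b| := by gcongr; exact le_abs_self _
    _ ≤ (|C * ‖v‖| + 1) * |a - b| := by gcongr; linarith
    _ < (|C * ‖v‖| + 1) * (ε / (|C * ‖v‖| + 1)) := by gcongr
    _ = ε := by field_simp

/-- uniqueness of lifts -/
theorem lift_unique (hf : IsLocalHomeomorph f) {X : Type*} [TopologicalSpace X] {s : Set X}
    (hs : IsPreconnected s) {g g' : X → Y} (h : ContinuousOn g s) (h' : ContinuousOn g' s)
    (he : ∀ x ∈ s, f (g x) = f (g' x)) {a : X} (ha : a ∈ s) (haa : g a = g' a) : EqOn g g' s :=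
  (T2Space.isSeparatedMap f).eqOn_of_comp_eqOn hf.isLocallyInjective hs h h' (fun x hx => he x hx)
    ha haa

theorem SegL.unique (hf : IsLocalHomeomorph f) {t : ℝ} {g g' : ℝ → Y}
    (h : SegL q f C y ζ v t g) (h' : SegL q f C y ζ v t g') (ht : 0 ≤ t) : EqOn g g' (Icc 0 t) :=
  lift_unique hf isPreconnected_Icc h.continuousOn h'.continuousOn
    (fun τ hτ => by rw [h.lift τ hτ, h'.lift τ hτ]) ⟨le_rfl, ht⟩ (by rw [h.zero, h'.zero])

/-- **lifting a segment** -/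
theorem exists_seg (hf : IsLocalHomeomorph f) (hq : Continuous q) (hLC : LC q f C) (hC : 0 ≤ C)
    (hcompl : IsComplete (closedBall y R)) (hv : C * ‖v‖ ≤ R) (hy : q ζ = f y) :
    ∃ g, SegL q f C y ζ v 1 g := by
  classical
  set K : ℝ := C * ‖v‖ with hK
  have hK0 : 0 ≤ K := by positivity
  have hR : 0 ≤ R := hK0.trans hv
  set A : Set ℝ := {t | t ∈ Icc (0 : ℝ) 1 ∧ ∃ g, SegL q f C y ζ v t g} with hA
  have h0A : (0 : ℝ) ∈ A := by
    refine ⟨⟨le_rfl, zero_le_one⟩, fun _ => y, rfl, fun a ha b hb => ?_, fun τ hτ => ?_⟩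
    · rw [dist_self]
      positivity
    · have : τ = 0 := le_antisymm hτ.2 hτ.1
      rw [this, zero_smul, add_zero, hy]
  have hAb : BddAbove A := ⟨1, fun t ht => ht.1.2⟩
  set T : ℝ := sSup A with hT
  have hT0 : 0 ≤ T := le_csSup hAb h0A
  have hT1 : T ≤ 1 := csSup_le ⟨0, h0A⟩ fun t ht => ht.1.2
  -- a lift on `[0, T)`
  have hex : ∀ τ : ℝ, ∃ t g, τ < T → τ < t ∧ SegL q f C y ζ v t g := by
    intro τ
    by_cases hτ : τ < T
    · obtain ⟨t, ht, htt⟩ := exists_lt_of_lt_csSup ⟨0, h0A⟩ hτ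
      obtain ⟨g, hg⟩ := ht.2
      exact ⟨t, g, fun _ => ⟨htt, hg⟩⟩
    · exact ⟨0, fun _ => y, fun h => absurd h hτ⟩
  choose t g hg using hex
  set G0 : ℝ → Y := fun τ => g τ τ with hG0
  have hG0eq : ∀ τ b, 0 ≤ τ → τ ≤ b → b < T → G0 τ = g b τ := by
    intro τ b h0 hb hbT
    obtain ⟨h1, h2⟩ := hg τ (hb.trans_lt hbT)
    obtain ⟨h3, h4⟩ := hg b hbT
    exact SegL.unique hf (h2.mono h1.le) (h4.mono (hb.trans h3.le)) h0 ⟨h0, le_rfl⟩
  have hG0lip : ∀ a ∈ Ico (0 : ℝ) T, ∀ b ∈ Ico (0 : ℝ) T, dist (G0 a) (G0 b) ≤ K * |a - b| := by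
    intro a ha b hb
    rcases le_total a b with hab | hab
    · rw [hG0eq a b ha.1 hab hb.2, hG0eq b b hb.1 le_rfl hb.2]
      have h := hg b hb.2
      exact h.2.lip a ⟨ha.1, hab.trans h.1.le⟩ b ⟨hb.1, h.1.le⟩
    · rw [hG0eq b a hb.1 hab ha.2, hG0eq a a ha.1 le_rfl ha.2]
      have h := hg a ha.2
      exact h.2.lip a ⟨ha.1, h.1.le⟩ b ⟨hb.1, hab.trans h.1.le⟩
  have hG0lift : ∀ τ ∈ Ico (0 : ℝ) T, f (G0 τ) = q (ζ + τ • v) := by
    intro τ hτ
    have h := hg τ hτ.2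
    exact h.2.lift τ ⟨hτ.1, h.1.le⟩
  -- the lift on `[0, T]`
  have hTA : ∃ g, SegL q f C y ζ v T g := by
    rcases hT0.eq_or_lt with h00 | hTpos
    · rw [← h00]
      exact h0A.2
    have hz : G0 0 = y := by
      rw [hG0eq 0 0 le_rfl le_rfl hTpos]
      exact (hg 0 hTpos).2.zero
    -- Cauchy
    have hne : (𝓝[<] T).NeBot := inferInstance
    have hmem : ∀ᶠ τ in 𝓝[<] T, τ ∈ Ico (0 : ℝ) T :=
      Ico_mem_nhdsLT hTpos
    have hcau : Cauchy (map G0 (𝓝[<] T)) := by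
      rw [Metric.cauchy_iff]
      refine ⟨inferInstance, fun ε hε => ?_⟩
      set δ : ℝ := ε / (2 * (K + 1)) with hδ
      have hδ0 : 0 < δ := by positivity
      refine ⟨G0 '' (Ico (0 : ℝ) T ∩ Ioo (T - δ) T), image_mem_map (inter_mem hmem
        (Ioo_mem_nhdsLT (by linarith))), ?_⟩
      rintro _ ⟨a, ha, rfl⟩ _ ⟨b, hb, rfl⟩
      have h1 : |a - b| ≤ δ := by
        rw [abs_le]
        constructor <;> linarith [ha.2.1, ha.2.2, hb.2.1, hb.2.2]
      calc dist (G0 a) (G0 b) ≤ K * |a - b| := hG0lip a ha.1 b hb.1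
        _ ≤ K * δ := by gcongr
        _ ≤ (K + 1) * δ := by gcongr; linarith
        _ = ε / 2 := by rw [hδ]; field_simp
        _ < ε := by linarith
    have hball : closedBall y R ∈ map G0 (𝓝[<] T) := by
      rw [mem_map]
      filter_upwards [hmem] with τ hτ
      rw [mem_preimage, mem_closedBall, ← hz]
      calc dist (G0 τ) (G0 0) ≤ K * |τ - 0| := hG0lip τ hτ 0 ⟨le_rfl, hTpos⟩
        _ ≤ K * 1 := by
          gcongr
          rw [sub_zero, abs_of_nonneg hτ.1]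
          exact hτ.2.le.trans hT1
        _ ≤ R := by rw [mul_one]; exact hv
    obtain ⟨p, hpR, hp⟩ := hcompl _ hcau (le_principal_iff.2 hball)
    have hlim : Tendsto G0 (𝓝[<] T) (𝓝 p) := hp
    set G : ℝ → Y := fun τ => if τ < T then G0 τ else p with hG
    have hGlt : ∀ τ, τ < T → G τ = G0 τ := fun τ hτ => if_pos hτ
    have hGT : G T = p := if_neg (lt_irrefl T)
    have hpl : ∀ a ∈ Ico (0 : ℝ) T, dist (G0 a) p ≤ K * |a - T| := by
      intro a ha
      have h1 : Tendsto (fun b => dist (G0 a) (G0 b)) (𝓝[<] T) (𝓝 (dist (G0 a) p)) :=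
        tendsto_const_nhds.dist hlim
      have h2 : Tendsto (fun b => K * |a - b|) (𝓝[<] T) (𝓝 (K * |a - T|)) := by
        have : Continuous fun b : ℝ => K * |a - b| := by fun_prop
        exact this.continuousAt.tendsto.mono_left nhdsWithin_le_nhds
      exact le_of_tendsto_of_tendsto h1 h2 (hmem.mono fun b hb => hG0lip a ha b hb)
    refine ⟨G, by rw [hGlt 0 hTpos, hz], fun a ha b hb => ?_, fun τ hτ => ?_⟩
    · rcases ha.2.lt_or_eq with haT | haT <;> rcases hb.2.lt_or_eq with hbT | hbT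
      · rw [hGlt a haT, hGlt b hbT]
        exact hG0lip a ⟨ha.1, haT⟩ b ⟨hb.1, hbT⟩
      · rw [hGlt a haT, hbT, hGT]
        exact hpl a ⟨ha.1, haT⟩
      · rw [haT, hGT, hGlt b hbT, dist_comm, abs_sub_comm]
        exact hpl b ⟨hb.1, hbT⟩
      · rw [haT, hbT, dist_self]
        positivity
    · rcases hτ.2.lt_or_eq with hτT | hτT
      · rw [hGlt τ hτT]
        exact hG0lift τ ⟨hτ.1, hτT⟩
      · rw [hτT, hGT]
        have h1 : Tendsto (fun b => f (G0 b)) (𝓝[<] T) (𝓝 (f p)) :=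
          (hf.continuous.tendsto p).comp hlim
        have h2 : Tendsto (fun b : ℝ => q (ζ + b • v)) (𝓝[<] T) (𝓝 (q (ζ + T • v))) := by
          have : Continuous fun b : ℝ => q (ζ + b • v) := hq.comp (by fun_prop)
          exact this.continuousAt.tendsto.mono_left nhdsWithin_le_nhds
        exact tendsto_nhds_unique (h1.congr' (hmem.mono fun b hb => hG0lift b hb)) h2
  -- `T = 1`
  rcases hT1.eq_or_lt with h1 | hTlt
  · rw [← h1]; exact hTA
  exfalso
  obtain ⟨G, hG⟩ := hTA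
  obtain ⟨δ, hδ, s, hs0, hs1, hs2⟩ := hLC (G T) (ζ + T • v) (hG.lift T ⟨hT0, le_rfl⟩).symm
  obtain ⟨η, hη, hη1, hη2⟩ : ∃ η : ℝ, 0 < η ∧ T + η ≤ 1 ∧ η * ‖v‖ < δ := by
    refine ⟨min (1 - T) (δ / (2 * (‖v‖ + 1))), lt_min (by linarith) (by positivity), ?_, ?_⟩
    · linarith [min_le_left (1 - T) (δ / (2 * (‖v‖ + 1)))]
    · calc min (1 - T) (δ / (2 * (‖v‖ + 1))) * ‖v‖ ≤ δ / (2 * (‖v‖ + 1)) * (‖v‖ + 1) := by
            gcongr
            · exact min_le_right _ _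
            · linarith
        _ = δ / 2 := by field_simp
        _ < δ := by linarith
  have hin : ∀ τ ∈ Icc T (T + η), ζ + τ • v ∈ ball (ζ + T • v) δ := by
    intro τ hτ
    rw [mem_ball, dist_eq_norm]
    have : ζ + τ • v - (ζ + T • v) = (τ - T) • v := by rw [sub_smul]; abel
    rw [this, norm_smul, Real.norm_eq_abs, abs_of_nonneg (by linarith [hτ.1])]
    calc (τ - T) * ‖v‖ ≤ η * ‖v‖ := by gcongr; linarith [hτ.2]
      _ < δ := hη2
  set G' : ℝ → Y := fun τ => if τ ≤ T then G τ else s (ζ + τ • v) with hG'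
  have hG'le : ∀ τ, τ ≤ T → G' τ = G τ := fun τ hτ => if_pos hτ
  have hG'ge : ∀ τ, T ≤ τ → G' τ = s (ζ + τ • v) := by
    intro τ hτ
    rcases hτ.eq_or_lt with h | h
    · rw [← h, hG'le T le_rfl, hs0]
    · exact if_neg (not_le.2 h)
  have hsl : ∀ a ∈ Icc T (T + η), ∀ b ∈ Icc T (T + η),
      dist (s (ζ + a • v)) (s (ζ + b • v)) ≤ K * |a - b| := by
    intro a ha b hb
    have h1 := hs2 _ (hin a ha) _ (hin b hb)
    have e : ζ + a • v - (ζ + b • v) = (a - b) • v := by rw [sub_smul]; abel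
    rw [e, norm_smul, Real.norm_eq_abs] at h1
    calc _ ≤ C * (|a - b| * ‖v‖) := h1
      _ = K * |a - b| := by rw [hK]; ring
  have hG'lip : ∀ a b, a ∈ Icc (0 : ℝ) (T + η) → b ∈ Icc (0 : ℝ) (T + η) → a ≤ b →
      dist (G' a) (G' b) ≤ K * |a - b| := by
    intro a b ha hb hab
    rcases le_total b T with hbT | hbT
    · rw [hG'le a (hab.trans hbT), hG'le b hbT]
      exact hG.lip a ⟨ha.1, hab.trans hbT⟩ b ⟨hb.1, hbT⟩
    · rcases le_total a T with haT | haT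
      · calc dist (G' a) (G' b) ≤ dist (G' a) (G' T) + dist (G' T) (G' b) := dist_triangle _ _ _
          _ ≤ K * |a - T| + K * |T - b| := by
            refine add_le_add ?_ ?_
            · rw [hG'le a haT, hG'le T le_rfl]
              exact hG.lip a ⟨ha.1, haT⟩ T ⟨hT0, le_rfl⟩
            · rw [hG'ge T le_rfl, hG'ge b hbT]
              exact hsl T ⟨le_rfl, by linarith⟩ b ⟨hbT, hb.2⟩
          _ = K * |a - b| := by
            rw [abs_of_nonpos (by linarith), abs_of_nonpos (by linarith),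
              abs_of_nonpos (by linarith)]
            ring
      · rw [hG'ge a haT, hG'ge b hbT]
        exact hsl a ⟨haT, ha.2⟩ b ⟨hbT, hb.2⟩
  have hfin : T + η ∈ A := by
    refine ⟨⟨by linarith, hη1⟩, G', by rw [hG'le 0 hT0, hG.zero], fun a ha b hb => ?_,
      fun τ hτ => ?_⟩
    · rcases le_total a b with hab | hab
      · exact hG'lip a b ha hb hab
      · rw [dist_comm, abs_sub_comm]
        exact hG'lip b a hb ha hab
    · rcases le_total τ T with h | h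
      · rw [hG'le τ h]
        exact hG.lift τ ⟨hτ.1, h⟩
      · rw [hG'ge τ h]
        exact hs1 _ (hin τ ⟨h, hτ.2⟩)
  have := le_csSup hAb hfin
  linarith

/-- **lifting a ball** -/
theorem exists_ball (hf : IsLocalHomeomorph f) (hq : Continuous q) (hLC : LC q f C) (hC : 0 ≤ C)
    (hcompl : IsComplete (closedBall y R)) {ρ : ℝ} (hρ : C * ρ ≤ R) (hy : q ζ = f y) :
    ∃ Ψ : E → Y, Ψ ζ = y ∧ ContinuousOn Ψ (ball ζ ρ) ∧ (∀ ζ' ∈ ball ζ ρ, f (Ψ ζ') = q ζ') ∧
      ∀ ζ' ∈ ball ζ ρ, dist (Ψ ζ') y ≤ C * ‖ζ' - ζ‖ := by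
  classical
  have hex : ∀ v : ball (0 : E) ρ, ∃ g, SegL q f C y ζ v.1 1 g := by
    intro v
    refine exists_seg hf hq hLC hC hcompl ?_ hy
    have : ‖v.1‖ < ρ := mem_ball_zero_iff.1 v.2
    calc C * ‖v.1‖ ≤ C * ρ := by gcongr
      _ ≤ R := hρ
  choose g hg using hex
  let F : C(unitInterval × ball (0 : E) ρ, S) :=
    ⟨fun p => q (ζ + (p.1 : ℝ) • p.2.1), hq.comp (by fun_prop)⟩
  have hc := hf.continuous_lift (A := ball (0 : E) ρ) (T2Space.isSeparatedMap f) F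
    (g := fun p => g p.2 (p.1 : ℝ)) (by
      funext p
      exact (hg p.2).lift _ p.1.2) (by
      have : (fun v : ball (0 : E) ρ => g v ((0 : unitInterval) : ℝ)) = fun _ => y := by
        funext v
        exact (hg v).zero
      change Continuous (fun v : ball (0 : E) ρ => g v ((0 : unitInterval) : ℝ))
      rw [this]
      exact continuous_const) (fun v => by
      have h1 := (hg v).continuousOn
      exact h1.comp_continuous continuous_subtype_val fun t => t.2)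
  refine ⟨fun ζ' => if h : ζ' - ζ ∈ ball (0 : E) ρ then g ⟨ζ' - ζ, h⟩ 1 else y, ?_, ?_, ?_, ?_⟩
  · by_cases h : ζ - ζ ∈ ball (0 : E) ρ
    · simp only [h, dif_pos]
      have h1 := hg ⟨ζ - ζ, h⟩
      have h2 := h1.lip 1 ⟨zero_le_one, le_rfl⟩ 0 ⟨le_rfl, zero_le_one⟩
      have e : C * ‖(⟨ζ - ζ, h⟩ : ball (0 : E) ρ).1‖ * |(1 : ℝ) - 0| = 0 := by
        rw [show ‖(⟨ζ - ζ, h⟩ : ball (0 : E) ρ).1‖ = 0 by
          change ‖ζ - ζ‖ = 0
          rw [sub_self, norm_zero]]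
        ring
      rw [e, h1.zero] at h2
      exact dist_le_zero.1 h2
    · simp only [h, dif_neg, not_false_eq_true]
  · rw [continuousOn_iff_continuous_domRestrict]
    have hmap : ∀ z : ball ζ ρ, z.1 - ζ ∈ ball (0 : E) ρ := by
      intro z
      have := z.2
      rw [mem_ball, dist_eq_norm] at this
      rwa [mem_ball_zero_iff]
    have h1 : Continuous fun z : ball ζ ρ => ((1 : unitInterval), (⟨z.1 - ζ, hmap z⟩ :
        ball (0 : E) ρ)) := by
      refine continuous_const.prodMk (Continuous.subtype_mk (by fun_prop) _)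
    have h2 := hc.comp h1
    refine h2.congr fun z => ?_
    simp only [Function.comp_apply, Set.domRestrict_apply, dif_pos (hmap z)]
    rfl
  · intro ζ' hζ'
    have h : ζ' - ζ ∈ ball (0 : E) ρ := by
      rw [mem_ball_zero_iff]
      rwa [mem_ball, dist_eq_norm] at hζ'
    simp only [h, dif_pos]
    have h1 := (hg ⟨ζ' - ζ, h⟩).lift 1 ⟨zero_le_one, le_rfl⟩
    rw [h1, one_smul, add_sub_cancel]
  · intro ζ' hζ'
    have h : ζ' - ζ ∈ ball (0 : E) ρ := by
      rw [mem_ball_zero_iff]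
      rwa [mem_ball, dist_eq_norm] at hζ'
    simp only [h, dif_pos]
    have h1 := hg ⟨ζ' - ζ, h⟩
    have h2 := h1.lip 1 ⟨zero_le_one, le_rfl⟩ 0 ⟨le_rfl, zero_le_one⟩
    rw [h1.zero, sub_zero, abs_one, mul_one] at h2
    exact h2

end Crest.Agent.R281.Tor_922
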