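import Crest.Agent.R281.TorA_922

/-!
# R281 (S0424), leaf S-TOR (helper922), file B: periods

Abstract form: `Γ` = group of the differences `ζ - ζ'` with `q ζ = q ζ'`, fibres of `f` have at most `d`
points; `T` convex, `Γ`-invariant, covered by the translates of `ball ζ0 ρ'` under `d! • Γ`.
-/

set_option autoImplicit false
set_option linter.unusedSectionVars false

open Set Filter Topology Metric

namespace Crest.Agent.R281.Tor_922

variable {E : Type*} [NormedAddCommGroup E] [NormedSpace ℝ E]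
  {Y : Type*} [MetricSpace Y] {S : Type*} [TopologicalSpace S] [T2Space S]

/-- fibres of `f` have at most `d` points -/
def FibLe (f : Y → S) (d : ℕ) : Prop :=
  ∀ s : Finset Y, (∀ a ∈ s, ∀ b ∈ s, f a = f b) → s.card ≤ d

variable {q : E → S} {f : Y → S} {C R ρ : ℝ} {y : Y} {ζ0 : E} {Γ : AddSubgroup E} {Ψ : E → Y} {d : ℕ}

/-- translation of a lift by `lam ∈ Γ`: one coincidence gives all -/
theorem period_of_one (hf : IsLocalHomeomorph f) (hΓ : ∀ a b, q a = q b ↔ a - b ∈ Γ) {U : Set E}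
    (hU : Convex ℝ U) (hc : ContinuousOn Ψ U) (hl : ∀ ζ ∈ U, f (Ψ ζ) = q ζ) {lam : E}
    (hlam : lam ∈ Γ) {a : E} (ha : a ∈ U) (ha' : a + lam ∈ U) (he : Ψ (a + lam) = Ψ a) {ζ : E}
    (hζ : ζ ∈ U) (hζ' : ζ + lam ∈ U) : Ψ (ζ + lam) = Ψ ζ := by
  have hV : Convex ℝ (U ∩ (fun z => z + lam) ⁻¹' U) := by
    refine hU.inter ?_
    have h1 := hU.translate_preimage_left lam
    exact h1
  have hp := hV.isPreconnected
  have h1 : ContinuousOn (fun z => Ψ (z + lam)) (U ∩ (fun z => z + lam) ⁻¹' U) :=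
    hc.comp (by fun_prop) fun z hz => hz.2
  have h2 : ContinuousOn Ψ (U ∩ (fun z => z + lam) ⁻¹' U) := hc.mono inter_subset_left
  refine lift_unique hf hp h1 h2 (fun z hz => ?_) ⟨ha, ha'⟩ he ⟨hζ, hζ'⟩
  rw [hl _ hz.2, hl _ hz.1, hΓ]
  simpa using hlam

/-- pigeonhole -/
theorem exists_period (hf : IsLocalHomeomorph f) (hΓ : ∀ a b, q a = q b ↔ a - b ∈ Γ)
    (hd : FibLe f d) (hc : ContinuousOn Ψ (ball ζ0 ρ)) (hl : ∀ ζ ∈ ball ζ0 ρ, f (Ψ ζ) = q ζ)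
    {lam : E} (hlam : lam ∈ Γ) (hsm : d * ‖lam‖ < ρ) :
    ∃ m : ℕ, 1 ≤ m ∧ m ≤ d ∧ Ψ (ζ0 + m • lam) = Ψ ζ0 := by
  classical
  have hin : ∀ k : ℕ, k ≤ d → ζ0 + k • lam ∈ ball ζ0 ρ := by
    intro k hk
    rw [mem_ball, dist_eq_norm, add_sub_cancel_left]
    calc ‖k • lam‖ ≤ k * ‖lam‖ := norm_nsmul_le
      _ ≤ d * ‖lam‖ := by gcongr
      _ < ρ := hsm
  have hnot : ¬ InjOn (fun k : ℕ => Ψ (ζ0 + k • lam)) (Finset.range (d + 1) : Set ℕ) := by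
    intro hinj
    have h1 := hd ((Finset.range (d + 1)).image fun k : ℕ => Ψ (ζ0 + k • lam)) (by
      intro a ha b hb
      obtain ⟨k, hk, rfl⟩ := Finset.mem_image.1 ha
      obtain ⟨l, hl', rfl⟩ := Finset.mem_image.1 hb
      rw [hl _ (hin k (Nat.lt_succ_iff.1 (Finset.mem_range.1 hk))),
        hl _ (hin l (Nat.lt_succ_iff.1 (Finset.mem_range.1 hl'))), hΓ, add_sub_add_left_eq_sub]
      exact Γ.sub_mem (Γ.nsmul_mem hlam _) (Γ.nsmul_mem hlam _))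
    rw [Finset.card_image_of_injOn hinj, Finset.card_range] at h1
    omega
  rw [InjOn] at hnot
  push Not at hnot
  obtain ⟨k, hk, l, hl', hkl, hne⟩ := hnot
  have hk' : k ≤ d := Nat.lt_succ_iff.1 (Finset.mem_range.1 (by simpa using hk))
  have hl'' : l ≤ d := Nat.lt_succ_iff.1 (Finset.mem_range.1 (by simpa using hl'))
  -- wlog
  have key : ∀ k l : ℕ, k < l → l ≤ d → Ψ (ζ0 + l • lam) = Ψ (ζ0 + k • lam) →
      Ψ (ζ0 + (l - k) • lam) = Ψ ζ0 := by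
    intro k l hkl hld he
    have e : ζ0 + k • lam + (l - k) • lam = ζ0 + l • lam := by
      rw [add_assoc, ← add_smul, Nat.add_sub_cancel' hkl.le]
    refine period_of_one hf hΓ (convex_ball ζ0 ρ) hc hl (Γ.nsmul_mem hlam (l - k))
      (hin k (hkl.le.trans hld)) (by rw [e]; exact hin l hld) (by rw [e]; exact he) ?_
      (hin (l - k) ((Nat.sub_le l k).trans hld))
    have := hin 0 (Nat.zero_le d)
    simpa using this
  rcases lt_or_gt_of_ne hne with h | h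
  · exact ⟨l - k, by omega, by omega, key k l h hl'' hkl.symm⟩
  · exact ⟨k - l, by omega, by omega, key l k h hk' hkl⟩

/-- `d! • Γ` consists of periods -/
theorem period_factorial (hf : IsLocalHomeomorph f) (hΓ : ∀ a b, q a = q b ↔ a - b ∈ Γ)
    (hd : FibLe f d) (hc : ContinuousOn Ψ (ball ζ0 ρ)) (hl : ∀ ζ ∈ ball ζ0 ρ, f (Ψ ζ) = q ζ)
    {lam : E} (hlam : lam ∈ Γ) (hsm : ‖d.factorial • lam‖ < ρ) {ζ : E} (hζ : ζ ∈ ball ζ0 ρ)
    (hζ' : ζ + d.factorial • lam ∈ ball ζ0 ρ) : Ψ (ζ + d.factorial • lam) = Ψ ζ := by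
  have hsm' : (d.factorial : ℝ) * ‖lam‖ < ρ := by
    have e : ‖d.factorial • lam‖ = (d.factorial : ℝ) * ‖lam‖ := by
      rw [← Nat.cast_smul_eq_nsmul ℝ, norm_smul, Real.norm_natCast]
    rwa [e] at hsm
  have hdf : (d : ℝ) ≤ d.factorial := by exact_mod_cast Nat.self_le_factorial d
  obtain ⟨m, hm1, hmd, hm⟩ := exists_period (Ψ := Ψ) hf hΓ hd hc hl hlam
    ((mul_le_mul_of_nonneg_right hdf (norm_nonneg _)).trans_lt hsm')
  have hin : ∀ k : ℕ, k ≤ d.factorial → ζ0 + k • lam ∈ ball ζ0 ρ := by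
    intro k hk
    rw [mem_ball, dist_eq_norm, add_sub_cancel_left]
    calc ‖k • lam‖ ≤ k * ‖lam‖ := norm_nsmul_le
      _ ≤ d.factorial * ‖lam‖ := by gcongr
      _ < ρ := hsm'
  have h0 : ζ0 ∈ ball ζ0 ρ := by simpa using hin 0 (Nat.zero_le _)
  have hstep : ∀ j : ℕ, j * m ≤ d.factorial → Ψ (ζ0 + (j * m) • lam) = Ψ ζ0 := by
    intro j
    induction j with
    | zero => intro _; simp
    | succ j ih =>
      intro hj
      have hj' : j * m ≤ d.factorial := (Nat.mul_le_mul_right m (Nat.le_succ j)).trans hj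
      rw [← ih hj']
      have e : ζ0 + ((j + 1) * m) • lam = ζ0 + (j * m) • lam + m • lam := by
        rw [Nat.succ_mul, add_smul, add_assoc]
      rw [e]
      refine period_of_one hf hΓ (convex_ball ζ0 ρ) hc hl (Γ.nsmul_mem hlam m) h0
        (hin m (hmd.trans (Nat.self_le_factorial d))) hm (hin _ hj') ?_
      rw [← e]
      exact hin _ hj
  obtain ⟨j, hj⟩ : m ∣ d.factorial := Nat.dvd_factorial (by omega) hmd
  have hfin : Ψ (ζ0 + d.factorial • lam) = Ψ ζ0 := by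
    have := hstep j (by rw [hj, mul_comm])
    rwa [mul_comm j m, ← hj] at this
  exact period_of_one hf hΓ (convex_ball ζ0 ρ) hc hl (Γ.nsmul_mem hlam _) h0
    (hin _ le_rfl) hfin hζ hζ'

/-- **the strip** -/
theorem exists_strip (hf : IsLocalHomeomorph f) (hq : Continuous q)
    (hΓ : ∀ a b, q a = q b ↔ a - b ∈ Γ) (hd : FibLe f d) (hLC : LC q f C) (hC : 0 ≤ C)
    (hcompl : IsComplete (closedBall y R)) {ρ' : ℝ} (hρ' : 0 < ρ') (hρ : C * (2 * ρ') ≤ R)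
    (hy : q ζ0 = f y) {T : Set E} (hT : Convex ℝ T) (h0T : ζ0 ∈ T)
    (hTΓ : ∀ ζ ∈ T, ∀ lam ∈ Γ, ζ + lam ∈ T)
    (hcov : ∀ ζ ∈ T, ∃ lam ∈ Γ, ζ - d.factorial • lam ∈ ball ζ0 ρ') :
    ∃ (Lam : AddSubgroup E) (Φ : E → Y), Lam ≤ Γ ∧ (∀ lam ∈ Γ, d.factorial • lam ∈ Lam) ∧
      Φ ζ0 = y ∧ ContinuousOn Φ T ∧ (∀ ζ ∈ T, f (Φ ζ) = q ζ) ∧
      (∀ ζ ∈ T, ∀ ζ' ∈ T, Φ ζ = Φ ζ' ↔ ζ - ζ' ∈ Lam) ∧
      (∀ ζ ∈ T, dist (Φ ζ) y ≤ C * ‖ζ - ζ0‖) ∧ ∀ ζ ∈ T, dist (Φ ζ) y ≤ C * ρ' := by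
  classical
  obtain ⟨Ψ, hΨ0, hΨc, hΨl, hΨd⟩ := exists_ball hf hq hLC hC hcompl hρ hy
  have hsub : ball ζ0 ρ' ⊆ ball ζ0 (2 * ρ') := ball_subset_ball (by linarith)
  -- well defined
  have hwd : ∀ ζ, ∀ lam ∈ Γ, ∀ mu ∈ Γ, ζ - d.factorial • lam ∈ ball ζ0 ρ' →
      ζ - d.factorial • mu ∈ ball ζ0 ρ' →
      Ψ (ζ - d.factorial • lam) = Ψ (ζ - d.factorial • mu) := by
    intro ζ lam hlam mu hmu h1 h2
    have e : ζ - d.factorial • mu + d.factorial • (mu - lam) = ζ - d.factorial • lam := by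
      rw [smul_sub]; abel
    have h3 : ‖d.factorial • (mu - lam)‖ < 2 * ρ' := by
      have : d.factorial • (mu - lam) = (ζ - d.factorial • lam - ζ0) -
          (ζ - d.factorial • mu - ζ0) := by rw [smul_sub]; abel
      rw [this]
      rw [mem_ball, dist_eq_norm] at h1 h2
      linarith [norm_sub_le (ζ - d.factorial • lam - ζ0) (ζ - d.factorial • mu - ζ0)]
    have := period_factorial (ζ := ζ - d.factorial • mu) hf hΓ hd hΨc hΨl (Γ.sub_mem hmu hlam) h3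
      (hsub h2) (by rw [e]; exact hsub h1)
    rw [e] at this
    exact this
  choose! L hLΓ hLb using hcov
  set Φ : E → Y := fun ζ => Ψ (ζ - d.factorial • L ζ) with hΦ
  have hΦeq : ∀ ζ ∈ T, ∀ lam ∈ Γ, ζ - d.factorial • lam ∈ ball ζ0 ρ' →
      Φ ζ = Ψ (ζ - d.factorial • lam) :=
    fun ζ hζ lam hlam h => hwd ζ (L ζ) (hLΓ ζ hζ) lam hlam (hLb ζ hζ) h
  have hΦball : ∀ ζ ∈ T, ζ ∈ ball ζ0 ρ' → Φ ζ = Ψ ζ := by
    intro ζ hζ h
    have := hΦeq ζ hζ 0 Γ.zero_mem (by simpa using h)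
    simpa using this
  have hΦ0 : Φ ζ0 = y := by rw [hΦball ζ0 h0T (mem_ball_self hρ'), hΨ0]
  have hΦl : ∀ ζ ∈ T, f (Φ ζ) = q ζ := by
    intro ζ hζ
    rw [hΦ]
    simp only
    rw [hΨl _ (hsub (hLb ζ hζ)), hΓ]
    have : ζ - d.factorial • L ζ - ζ = -(d.factorial • L ζ) := by abel
    rw [this]
    exact Γ.neg_mem (Γ.nsmul_mem (hLΓ ζ hζ) _)
  have hΦc : ContinuousOn Φ T := by
    intro ζ hζ
    have h1 : ContinuousAt (fun z => Ψ (z - d.factorial • L ζ)) ζ := by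
      have h2 : ContinuousAt Ψ (ζ - d.factorial • L ζ) :=
        hΨc.continuousAt (isOpen_ball.mem_nhds (hsub (hLb ζ hζ)))
      exact ContinuousAt.comp (f := fun z => z - d.factorial • L ζ) (g := Ψ) h2 (by fun_prop)
    refine h1.continuousWithinAt.congr_of_eventuallyEq ?_ rfl
    have h3 : ∀ᶠ z in 𝓝 ζ, z - d.factorial • L ζ ∈ ball ζ0 ρ' := by
      have h4 : Continuous fun z : E => z - d.factorial • L ζ := by fun_prop
      exact h4.continuousAt.eventually_mem (isOpen_ball.mem_nhds (hLb ζ hζ))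
    filter_upwards [self_mem_nhdsWithin, h3.filter_mono nhdsWithin_le_nhds] with z hz h
    exact hΦeq z hz (L ζ) (hLΓ ζ hζ) h
  have hper : ∀ {lam : E}, lam ∈ Γ → ∀ {a : E}, a ∈ T → Φ (a + lam) = Φ a → ∀ ζ ∈ T,
      Φ (ζ + lam) = Φ ζ := fun {lam} hlam {a} ha he ζ hζ =>
    period_of_one hf hΓ hT hΦc hΦl hlam ha (hTΓ a ha lam hlam) he hζ (hTΓ ζ hζ lam hlam)
  refine ⟨{ carrier := {lam | lam ∈ Γ ∧ Φ (ζ0 + lam) = Φ ζ0}
            add_mem' := ?_, zero_mem' := ?_, neg_mem' := ?_ }, Φ, fun lam h => h.1, ?_, hΦ0, hΦc,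
            hΦl, ?_, ?_, ?_⟩
  · rintro a b ⟨ha, ha'⟩ ⟨hb, hb'⟩
    refine ⟨Γ.add_mem ha hb, ?_⟩
    rw [← add_assoc, hper hb h0T hb' _ (hTΓ _ h0T _ ha), ha']
  · exact ⟨Γ.zero_mem, by rw [add_zero]⟩
  · rintro a ⟨ha, ha'⟩
    refine ⟨Γ.neg_mem ha, ?_⟩
    have := hper ha h0T ha' (ζ0 + -a) (hTΓ _ h0T _ (Γ.neg_mem ha))
    rw [neg_add_cancel_right] at this
    exact this.symm
  · intro lam hlam
    refine ⟨Γ.nsmul_mem hlam _, ?_⟩
    have h1 : ζ0 + d.factorial • lam ∈ T := hTΓ _ h0T _ (Γ.nsmul_mem hlam _)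
    rw [hΦeq _ h1 lam hlam (by rw [add_sub_cancel_right]; exact mem_ball_self hρ'),
      add_sub_cancel_right, hΨ0, hΦ0]
  · intro ζ hζ ζ' hζ'
    constructor
    · intro h
      have h1 : ζ - ζ' ∈ Γ := by rw [← hΓ, ← hΦl ζ hζ, ← hΦl ζ' hζ', h]
      refine ⟨h1, hper h1 hζ' ?_ ζ0 h0T⟩
      rw [add_sub_cancel, h]
    · rintro ⟨h1, h2⟩
      have := hper h1 h0T h2 ζ' hζ'
      rwa [add_sub_cancel] at this
  · intro ζ hζ
    by_cases h : ζ ∈ ball ζ0 ρ'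
    · rw [hΦball ζ hζ h]
      exact hΨd ζ (hsub h)
    · calc dist (Φ ζ) y ≤ C * ‖ζ - d.factorial • L ζ - ζ0‖ := hΨd _ (hsub (hLb ζ hζ))
        _ ≤ C * ρ' := by
          gcongr
          have := hLb ζ hζ
          rw [mem_ball, dist_eq_norm] at this
          exact this.le
        _ ≤ C * ‖ζ - ζ0‖ := by
          gcongr
          rw [mem_ball, dist_eq_norm, not_lt] at h
          exact h
  · intro ζ hζ
    calc dist (Φ ζ) y ≤ C * ‖ζ - d.factorial • L ζ - ζ0‖ := hΨd _ (hsub (hLb ζ hζ))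
      _ ≤ C * ρ' := by
        gcongr
        have := hLb ζ hζ
        rw [mem_ball, dist_eq_norm] at this
        exact this.le

end Crest.Agent.R281.Tor_922
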