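import Crest.Agent.R281.TorB_922

/-!
# R281 (S0424), leaf S-TOR (helper922), file C: local homeomorphism, image, the exponential
-/

set_option autoImplicit false
set_option linter.unusedSectionVars false

open Set Filter Topology Metric

namespace Crest.Agent.R281.Tor_922

variable {E : Type*} [NormedAddCommGroup E] [NormedSpace ℝ E]
  {Y : Type*} [MetricSpace Y] {S : Type*} [TopologicalSpace S] [T2Space S]

variable {q : E → S} {f : Y → S} {y : Y} {ζ0 : E} {Γ : AddSubgroup E} {Φ : E → Y} {T : Set E}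

/-- lifts through a local homeomorphism of a local homeomorphism are local homeomorphisms -/
theorem isLocalHomeomorphOn_lift (hf : IsLocalHomeomorph f) (hq : IsLocalHomeomorph q)
    (hTo : IsOpen T) (hc : ContinuousOn Φ T) (hl : ∀ ζ ∈ T, f (Φ ζ) = q ζ) :
    IsLocalHomeomorphOn Φ T := by
  have h1 : IsLocalHomeomorphOn (f ∘ Φ) T := by
    refine IsLocalHomeomorphOn.mk _ _ fun x hx => ?_
    obtain ⟨e, he, hee⟩ := hq x
    refine ⟨e.restrOpen T hTo, ⟨he, hx⟩, fun z hz => ?_⟩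
    have hzT : z ∈ T := hz.2
    change f (Φ z) = e z
    rw [hl z hzT, hee]
  exact h1.of_comp_left (hf.isLocalHomeomorphOn.mono (subset_univ _))
    fun x hx => hc.continuousAt (hTo.mem_nhds hx)

/-- the image of the strip is open -/
theorem isOpen_image_lift (hf : IsLocalHomeomorph f) (hq : IsLocalHomeomorph q)
    (hTo : IsOpen T) (hc : ContinuousOn Φ T) (hl : ∀ ζ ∈ T, f (Φ ζ) = q ζ) {U : Set E}
    (hU : IsOpen U) (hUT : U ⊆ T) : IsOpen (Φ '' U) := by
  have h := (isLocalHomeomorphOn_lift hf hq hTo hc hl)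
  rw [isOpen_iff_mem_nhds]
  rintro _ ⟨x, hx, rfl⟩
  rw [← h.map_nhds_eq (hUT hx)]
  exact image_mem_map (hU.mem_nhds hx)

/-- the image of the strip is a connected component -/
theorem subset_image_lift (hf : IsLocalHomeomorph f) (hq : IsLocalHomeomorph q)
    (hΓ : ∀ a b, q a = q b ↔ a - b ∈ Γ)
    (hTo : IsOpen T) (hc : ContinuousOn Φ T) (hl : ∀ ζ ∈ T, f (Φ ζ) = q ζ)
    (hTΓ : ∀ ζ ∈ T, ∀ lam ∈ Γ, ζ + lam ∈ T) {V : Set Y} (hV : IsPreconnected V)
    (hVy : (V ∩ Φ '' T).Nonempty) (hVT : ∀ p ∈ V, ∃ ζ ∈ T, q ζ = f p) : V ⊆ Φ '' T := by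
  refine hV.subset_of_closure_inter_subset (isOpen_image_lift hf hq hTo hc hl hTo le_rfl) hVy ?_
  rintro p ⟨hpc, hpV⟩
  obtain ⟨ζp, hζpT, hζp⟩ := hVT p hpV
  obtain ⟨e, hep, rfl⟩ := hf p
  have hqc := hq.continuous
  have h1 : T ∩ q ⁻¹' e.target ∈ 𝓝 ζp := by
    refine inter_mem (hTo.mem_nhds hζpT) (hqc.continuousAt.preimage_mem_nhds
      (e.open_target.mem_nhds ?_))
    rw [hζp]
    exact e.map_source hep
  obtain ⟨δ, hδ, hball⟩ := Metric.mem_nhds_iff.1 h1
  set s : E → Y := fun ζ => e.symm (q ζ) with hs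
  have hsc : ContinuousOn s (ball ζp δ) :=
    e.continuousOn_symm.comp hqc.continuousOn fun z hz => (hball hz).2
  have hsl : ∀ z ∈ ball ζp δ, e (s z) = q z := fun z hz => e.right_inv (hball hz).2
  have hsp : s ζp = p := by
    rw [hs]
    simp only
    rw [hζp, e.left_inv hep]
  have hso : IsOpen (s '' ball ζp δ) := by
    have e1 : s '' ball ζp δ = e.symm '' (q '' ball ζp δ) := by rw [image_image]
    rw [e1]
    refine e.symm.isOpen_image_of_subset_source (hq.isOpenMap _ isOpen_ball) ?_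
    rintro _ ⟨z, hz, rfl⟩
    exact (hball hz).2
  obtain ⟨p', ⟨z, hz, hzp⟩, ⟨ζ', hζ', hζp'⟩⟩ := mem_closure_iff.1 hpc _ hso
    ⟨ζp, mem_ball_self hδ, hsp⟩
  have h2 : ζ' - z ∈ Γ := by rw [← hΓ, ← hl ζ' hζ', ← hsl z hz, hζp', hzp]
  have h3 : EqOn s (fun w => Φ (w + (ζ' - z))) (ball ζp δ) := by
    refine lift_unique hf (convex_ball ζp δ).isPreconnected hsc
      (hc.comp (by fun_prop) fun w hw => hTΓ w (hball hw).1 _ h2) (fun w hw => ?_) hz ?_
    · rw [hsl w hw, hl _ (hTΓ w (hball hw).1 _ h2), hΓ]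
      have : w - (w + (ζ' - z)) = -(ζ' - z) := by abel
      rw [this]
      exact Γ.neg_mem h2
    · rw [add_sub_cancel, hzp, hζp']
  exact ⟨ζp + (ζ' - z), hTΓ ζp hζpT _ h2, by rw [← hsp]; exact (h3 (mem_ball_self hδ)).symm⟩

/-- near every point `Φ` is a given local inverse of `f` composed with `q` -/
theorem eventually_eq_section (hTo : IsOpen T) (hc : ContinuousOn Φ T)
    (hl : ∀ ζ ∈ T, f (Φ ζ) = q ζ) {U : Set Y} (hU : IsOpen U) {g : S → Y}
    (hg : ∀ p ∈ U, g (f p) = p) {ζ : E} (hζ : ζ ∈ T) (hζU : Φ ζ ∈ U) :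
    ∀ᶠ ζ' in 𝓝 ζ, Φ ζ' = g (q ζ') := by
  have h1 : ∀ᶠ ζ' in 𝓝 ζ, Φ ζ' ∈ U :=
    (hc.continuousAt (hTo.mem_nhds hζ)).eventually_mem (hU.mem_nhds hζU)
  filter_upwards [h1, hTo.mem_nhds hζ] with z hz hzT
  rw [← hl z hzT, hg _ hz]

/-! ### the exponential -/

section Exp

variable {ι : Type*} [Fintype ι]

theorem isLocalHomeomorph_exp : IsLocalHomeomorph Complex.exp := by
  refine IsLocalHomeomorph.mk _ fun x => ?_
  have h := (Complex.hasStrictDerivAt_exp (x := x)).hasStrictFDerivAt_equiv (Complex.exp_ne_zero x)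
  exact ⟨h.toOpenPartialHomeomorph Complex.exp, h.mem_toOpenPartialHomeomorph_source, fun y _ => rfl⟩

/-- coordinatewise exponential -/
noncomputable def expPi (ζ : ι → ℂ) : ι → ℂ := fun j => Complex.exp (ζ j)

theorem continuous_expPi : Continuous (expPi : (ι → ℂ) → ι → ℂ) := by
  unfold expPi
  fun_prop

theorem isLocalHomeomorph_expPi : IsLocalHomeomorph (expPi : (ι → ℂ) → ι → ℂ) := by
  refine IsLocalHomeomorph.mk _ fun ζ => ?_
  choose e he using fun j => isLocalHomeomorph_exp (ζ j)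
  refine ⟨OpenPartialHomeomorph.pi e, fun j _ => (he j).1, fun z _ => ?_⟩
  funext j
  change Complex.exp (z j) = e j (z j)
  rw [(he j).2]

/-- the lattice `2πi ℤ^ι` -/
def lat (ι : Type*) : AddSubgroup (ι → ℂ) where
  carrier := {v | ∀ j, ∃ k : ℤ, v j = k * (2 * Real.pi * Complex.I)}
  add_mem' := by
    intro a b ha hb j
    obtain ⟨k, hk⟩ := ha j
    obtain ⟨l, hl⟩ := hb j
    exact ⟨k + l, by rw [Pi.add_apply, hk, hl]; push_cast; ring⟩
  zero_mem' := fun j => ⟨0, by simp⟩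
  neg_mem' := by
    intro a ha j
    obtain ⟨k, hk⟩ := ha j
    exact ⟨-k, by rw [Pi.neg_apply, hk]; push_cast; ring⟩

theorem mem_lat {v : ι → ℂ} : v ∈ lat ι ↔ ∀ j, ∃ k : ℤ, v j = k * (2 * Real.pi * Complex.I) :=
  Iff.rfl

theorem expPi_eq_iff (a b : ι → ℂ) : expPi a = expPi b ↔ a - b ∈ lat ι := by
  rw [mem_lat, funext_iff]
  refine forall_congr' fun j => ?_
  unfold expPi
  rw [Complex.exp_eq_exp_iff_exists_int]
  refine exists_congr fun k => ?_
  rw [Pi.sub_apply, sub_eq_iff_eq_add, add_comm]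

/-- the strip `|Re (ζ_j - ζ0_j)| < r` -/
def strip (ζ0 : ι → ℂ) (r : ℝ) : Set (ι → ℂ) := {ζ | ∀ j, |(ζ j).re - (ζ0 j).re| < r}

theorem isOpen_strip (ζ0 : ι → ℂ) (r : ℝ) : IsOpen (strip ζ0 r) := by
  unfold strip
  rw [Set.ofPred_forall]
  refine isOpen_iInter_of_finite fun j => isOpen_lt ?_ continuous_const
  fun_prop

theorem convex_strip (ζ0 : ι → ℂ) (r : ℝ) : Convex ℝ (strip ζ0 r) := by
  have h : strip ζ0 r = ⋂ j, (fun ζ : ι → ℂ => (ζ j).re) ⁻¹' Ioo ((ζ0 j).re - r) ((ζ0 j).re + r) := by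
    ext ζ
    simp only [strip, Set.mem_ofPred_eq, mem_iInter, mem_preimage, mem_Ioo, abs_lt]
    refine forall_congr' fun j => ?_
    constructor <;> rintro ⟨h1, h2⟩ <;> constructor <;> linarith
  rw [h]
  refine convex_iInter fun j => (convex_Ioo _ _).is_linear_preimage ?_
  exact ⟨fun a b => by simp, fun c a => by simp⟩

theorem strip_add_lat {ζ0 : ι → ℂ} {r : ℝ} {ζ lam : ι → ℂ} (hζ : ζ ∈ strip ζ0 r)
    (hlam : lam ∈ lat ι) : ζ + lam ∈ strip ζ0 r := by
  intro j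
  obtain ⟨k, hk⟩ := hlam j
  have : ((ζ + lam) j).re = (ζ j).re := by
    rw [Pi.add_apply, hk, Complex.add_re]
    have : ((k : ℂ) * (2 * Real.pi * Complex.I)).re = 0 := by simp
    rw [this, add_zero]
  rw [this]
  exact hζ j

/-- every point of the strip is within `r + π D` of `ζ0` modulo `D • lat` -/
theorem exists_lat_near {ζ0 : ι → ℂ} {r : ℝ} (hr : 0 < r) {D : ℕ} (hD : 0 < D) {ζ : ι → ℂ}
    (hζ : ζ ∈ strip ζ0 r) : ∃ lam ∈ lat ι, ζ - D • lam ∈ ball ζ0 (r + Real.pi * D) := by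
  have hpi := Real.pi_pos
  have hD' : (0 : ℝ) < D := by exact_mod_cast hD
  set k : ι → ℤ := fun j => round (((ζ j).im - (ζ0 j).im) / (2 * Real.pi * D)) with hk
  refine ⟨fun j => (k j : ℂ) * (2 * Real.pi * Complex.I), fun j => ⟨k j, rfl⟩, ?_⟩
  rw [mem_ball, dist_pi_lt_iff (by positivity)]
  intro j
  rw [dist_eq_norm]
  set w : ℂ := (ζ - D • fun j => (k j : ℂ) * (2 * Real.pi * Complex.I)) j - ζ0 j with hw
  have hwre : w.re = (ζ j).re - (ζ0 j).re := by
    rw [hw]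
    simp
  have hwim : w.im = (ζ j).im - (ζ0 j).im - (2 * Real.pi * D) * k j := by
    rw [hw]
    simp
    ring
  have h1 : |w.re| < r := by rw [hwre]; exact hζ j
  have h2 : |w.im| ≤ Real.pi * D := by
    set x : ℝ := ((ζ j).im - (ζ0 j).im) / (2 * Real.pi * D) with hx
    have h3 : w.im = (2 * Real.pi * D) * (x - k j) := by
      rw [hwim, hx]
      field_simp
    rw [h3, abs_mul, abs_of_pos (by positivity : (0 : ℝ) < 2 * Real.pi * D)]
    have h4 : |x - k j| ≤ 1 / 2 := abs_sub_round x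
    calc 2 * Real.pi * D * |x - k j| ≤ 2 * Real.pi * D * (1 / 2) := by gcongr
      _ = Real.pi * D := by ring
  calc ‖w‖ ≤ |w.re| + |w.im| := Complex.norm_le_abs_re_add_abs_im w
    _ < r + Real.pi * D := by linarith

end Exp

end Crest.Agent.R281.Tor_922
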