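import Crest.Agent.R281.Tp1_836
import Crest.Agent.R281.Tub3_836

/-!
# R281 (S0424), node ToriP, END 1 (helper836), file 2

* `per_exOn`, `pvt_of` : a form which is exact on an open set containing the tube has zero periods
* `indep`              : the base part of a closed form with constant fibre contractions does not
  depend on the fibre variable
-/

set_option autoImplicit false
set_option linter.unusedSectionVars false
set_option maxSynthPendingDepth 3

open Set Filter Topology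
open scoped ContDiff

namespace Crest.Agent.R281.Tp_836

open Crest.Agent.R275.Geo (Cn)
open Crest.Agent.R281.HkR_835 Crest.Agent.R281.Per_368 Crest.Agent.R281.NefO_476
open Crest.Agent.R281.Cdr_234 (sh)
open Crest.Agent.R281.Dif_268 Crest.Agent.R281.Ti_846 Crest.Agent.R281.Nef_252
open Crest.Agent.R281.Tub_831 Crest.Agent.R281.Tub_836

noncomputable section

variable {V X : Type} [NormedAddCommGroup V] [NormedSpace ℝ V] [TopologicalSpace X]
  {C : RCh V X} {E : Type} [NormedAddCommGroup E] [NormedSpace ℝ E] {S : Set E} {Φ : E → X}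

/-- the periods of a form which is exact near the image are zero -/
theorem per_exOn (h : SmI C S Φ) (w : F2 C) {U : Set X} (hU : IsOpen U)
    (hm : ∀ ζ ∈ S, Φ ζ ∈ U) {θ : C.ι → V → V →L[ℝ] ℝ}
    (hθs : ∀ i, ContDiffOn ℝ ∞ (θ i) (sh C i U))
    (hθ : ∀ i j, ∀ z ∈ C.ov i j, (C.e i).symm z ∈ U → ∀ u,
      θ i z u = θ j (C.t i j z) (fderiv ℝ (C.t i j) z u))
    (hd : ∀ i, ∀ z ∈ sh C i U, ∀ u v,
      fderiv ℝ (θ i) z u v - fderiv ℝ (θ i) z v u = w.w i z u v) {z v v' : E}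
    (hv : ∀ ζ ∈ S, ζ + v ∈ S ∧ Φ (ζ + v) = Φ ζ) (hv' : ∀ ζ ∈ S, ζ + v' ∈ S ∧ Φ (ζ + v') = Φ ζ)
    (hin : ∀ s t : ℝ, pt z v v' s t ∈ S) : Per_368.per (Per_368.pull w Φ) z v v' = 0 := by
  have hS : S ∩ Φ ⁻¹' U = S := inter_eq_left.2 hm
  refine per_exact (U := S) h.op (η := pull1 C θ Φ) ?_ (fun s _ t _ => hin s t)
    (fun x hx => ?_) (fun x hx _ => ?_) (fun x hx _ => ?_)
  · have := h.pull1_smooth hU hθs hθ
    rw [hS] at this
    exact this.of_le (by exact_mod_cast le_top)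
  · exact h.pull1_d w hU hθs hθ hd hx (hm x hx) v v'
  · exact h.pull1_add hθ hv hx (hm x hx)
  · exact h.pull1_add hθ hv' hx (hm x hx)

/-- **zero periods**: every class orthogonal to `e` is exact on an open set containing the tube -/
theorem pvt_of {n : ℕ} {D : Set (Cn n)} {Φ : Cn n × Cn n → X} {l : Fin (2 * n) → Cn n → Cn n}
    {Q : F2 C →ₗ[ℝ] F2 C →ₗ[ℝ] ℝ} {e : F2 C} (hs : SmI C (D ×ˢ (univ : Set (Cn n))) Φ)
    (hl : ∀ y ∈ D, ∀ x j, Φ (y, x + l j y) = Φ (y, x)) {U : Set X} (hU : IsOpen U)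
    (hm : ∀ y ∈ D, ∀ x, Φ (y, x) ∈ U)
    (hE : ∀ w : F2 C, Q w e = 0 → ∃ θ : C.ι → V → V →L[ℝ] ℝ,
      (∀ i, ContDiffOn ℝ ∞ (θ i) (sh C i U)) ∧
      (∀ i j, ∀ z ∈ C.ov i j, (C.e i).symm z ∈ U → ∀ u,
        θ i z u = θ j (C.t i j z) (fderiv ℝ (C.t i j) z u)) ∧
      ∀ i, ∀ z ∈ sh C i U, ∀ u v,
        fderiv ℝ (θ i) z u v - fderiv ℝ (θ i) z v u = w.w i z u v) : PVT Q e D Φ l := by
  intro w hw y hy x j k
  obtain ⟨θ, h1, h2, h3⟩ := hE w hw
  have hf := smI_fib hs hy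
  rw [← per_exOn hf w hU (fun x _ => hm y hy x) h1 h2 h3 (z := x) (v := l j y) (v' := l k y)
    (fun x _ => ⟨mem_univ _, hl y hy x j⟩) (fun x _ => ⟨mem_univ _, hl y hy x k⟩)
    (fun _ _ => mem_univ _)]
  unfold Per_368.per
  refine intervalIntegral.integral_congr fun s _ => intervalIntegral.integral_congr fun r _ => ?_
  have h4 := pull_fib hs hy w (pt x (l j y) (l k y) s r) (l j y) (l k y)
  have h5 : pt ((y, x) : Cn n × Cn n) (0, l j y) (0, l k y) s r =
      (y, pt x (l j y) (l k y) s r) := by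
    simp [pt]
  show Per_368.pull w Φ (pt ((y, x) : Cn n × Cn n) (0, l j y) (0, l k y) s r) _ _ = _
  rw [h5]
  exact h4.symm

/-- closed forms with constant fibre contractions -/
theorem indep {F G : Type} [NormedAddCommGroup F] [NormedSpace ℝ F] [NormedAddCommGroup G]
    [NormedSpace ℝ G] {D : Set F} (hD : IsOpen D)
    {Ω : F × G → (F × G) →L[ℝ] (F × G) →L[ℝ] ℝ} (hc : Per_368.Cl (D ×ˢ (univ : Set G)) Ω)
    (hk : ∀ x : G, ∀ v : F × G, ∃ c : ℝ, ∀ p ∈ D ×ˢ (univ : Set G), Ω p (0, x) v = c)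
    {y : F} (hy : y ∈ D) (x x' : G) (u v : F) : Ω (y, x) (u, 0) (v, 0) = Ω (y, x') (u, 0) (v, 0) := by
  have hO : IsOpen (D ×ˢ (univ : Set G)) := hD.prod isOpen_univ
  have hd : ∀ p ∈ D ×ˢ (univ : Set G), DifferentiableAt ℝ Ω p := fun p hp =>
    (hc.sm.contDiffAt (hO.mem_nhds hp)).differentiableAt (by simp)
  have happ : ∀ p ∈ D ×ˢ (univ : Set G), ∀ a b : F × G, HasFDerivAt (fun q => Ω q a b)
      (((ContinuousLinearMap.apply ℝ ℝ b).comp
        (ContinuousLinearMap.apply ℝ ((F × G) →L[ℝ] ℝ) a)).comp (fderiv ℝ Ω p)) p := by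
    intro p hp a b
    exact (((ContinuousLinearMap.apply ℝ ℝ b).comp
      (ContinuousLinearMap.apply ℝ ((F × G) →L[ℝ] ℝ) a)).hasFDerivAt).comp p (hd p hp).hasFDerivAt
  have hzero : ∀ p ∈ D ×ˢ (univ : Set G), ∀ (g : G) (b c : F × G),
      fderiv ℝ Ω p c (0, g) b = 0 := by
    intro p hp g b c
    obtain ⟨r, hr⟩ := hk g b
    have h1 : HasFDerivAt (fun q => Ω q (0, g) b) (0 : (F × G) →L[ℝ] ℝ) p := by
      refine (hasFDerivAt_const r p).congr_of_eventuallyEq ?_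
      filter_upwards [hO.mem_nhds hp] with q hq
      exact hr q hq
    have h2 := h1.unique (happ p hp (0, g) b)
    exact (congrArg (fun T : (F × G) →L[ℝ] ℝ => T c) h2).symm
  have halt : ∀ p ∈ D ×ˢ (univ : Set G), ∀ a b c : F × G,
      fderiv ℝ Ω p c a b = - fderiv ℝ Ω p c b a := by
    intro p hp a b c
    have h1 : HasFDerivAt (fun q => Ω q a b) (-(((ContinuousLinearMap.apply ℝ ℝ a).comp
        (ContinuousLinearMap.apply ℝ ((F × G) →L[ℝ] ℝ) b)).comp (fderiv ℝ Ω p))) p := by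
      refine (happ p hp b a).neg.congr_of_eventuallyEq ?_
      filter_upwards [hO.mem_nhds hp] with q hq
      exact hc.alt q hq a b
    have h2 := (happ p hp a b).unique h1
    exact congrArg (fun T : (F × G) →L[ℝ] ℝ => T c) h2
  have key : ∀ p ∈ D ×ˢ (univ : Set G), ∀ g : G, fderiv ℝ Ω p (0, g) (u, 0) (v, 0) = 0 := by
    intro p hp g
    have h1 := hc.closed p hp (0, g) (u, 0) (v, 0)
    have h2 := hzero p hp g (v, 0) (u, 0)
    have h3 := hzero p hp g (u, 0) (v, 0)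
    have h4 := halt p hp (v, 0) (0, g) (u, 0)
    have h5 := halt p hp (u, 0) (0, g) (v, 0)
    linarith
  have hf : ∀ g : G, HasFDerivAt (fun g : G => Ω (y, g) (u, 0) (v, 0)) (0 : G →L[ℝ] ℝ) g := by
    intro g
    have hp : (y, g) ∈ D ×ˢ (univ : Set G) := ⟨hy, mem_univ _⟩
    have h1 := (happ _ hp (u, 0) (v, 0)).comp g (hasFDerivAt_prodMk_right y g)
    refine h1.congr_fderiv (ContinuousLinearMap.ext fun w => ?_)
    exact key _ hp w
  exact is_const_of_fderiv_eq_zero (𝕜 := ℝ) (fun g => (hf g).differentiableAt)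
    (fun g => (hf g).fderiv) x x'

end

end Crest.Agent.R281.Tp_836
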