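import Crest.Agent.R281.Tp2_836
import Crest.Agent.R281.Aa8_836
import Crest.Agent.R281.HkM5_835

/-!
# R281 (S0424), node ToriP, END 1 (helper836), file 3: restriction to open sets

* `opS σ U`     : restriction of a holomorphic symplectic form
* `lagF_op`     : a holomorphic submersion with Lagrangian fibres on an open set
* `exists_AAo`  : action-angle coordinates near a compact fibre, from data on an open set
-/

set_option autoImplicit false
set_option linter.unusedSectionVars false
set_option maxSynthPendingDepth 3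

open Set Metric Filter Topology Complex Function TopologicalSpace
open scoped NNReal ContDiff Matrix

namespace Crest.Agent.R281.Tp_836

open Crest.Agent.R275.Geo Crest.Agent.R275.Core144 Crest.Agent.R273.HFlow3_376
open Crest.Agent.R273.HFlow4_376
open Crest.Agent.R273.HFlow5_376 Crest.Agent.R273.HFlow6_376
open Crest.Agent.R281.Aa1_836 Crest.Agent.R281.Aa2_836 Crest.Agent.R281.Aa3_836
open Crest.Agent.R281.Aa4_836 Crest.Agent.R281.Aa5_836 Crest.Agent.R281.Aa6_836
open Crest.Agent.R281.Aa7_836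
open Crest.Agent.R281.Defs_273 Crest.Agent.R281.HkP2_508
open Crest.Agent.R281.HkR_835

noncomputable section

section op

variable {n : ℕ} {M : Type} [TopologicalSpace M] {A : Atl n M} {U : Opens M}

theorem jm_op {p q : (opA A U).ι} {x : U} (hx : x ∈ ((opA A U).e p).source) :
    Jm (opA A U) p q x = Jm A p.2 q.2 x.1 := by
  ext b a
  simp only [Jm_apply]
  show (fderiv ℂ (fun z => (opA A U).e q (((opA A U).e p).symm z)) ((opA A U).e p x)
    (EuclideanSpace.single a 1)) b = (fderiv ℂ (fun z => A.e q.2 ((A.e p.2).symm z))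
    (A.e p.2 x.1) (EuclideanSpace.single a 1)) b
  have h1 : (fun z => (opA A U).e q (((opA A U).e p).symm z)) =ᶠ[𝓝 (A.e p.2 x.1)]
      (fun z => A.e q.2 ((A.e p.2).symm z)) := by
    filter_upwards [opA_symm_ev hx] with z hz
    simp only [opA_e]
    rw [hz]
  rw [opA_e, h1.fderiv_eq]

/-- restriction of a holomorphic symplectic form -/
def opS (σ : HSymp A) (U : Opens M) : HSymp (opA A U) where
  s p x := σ.s p.2 x.1
  hol p a b := by
    have h1 : DifferentiableOn ℂ (fun z => σ.s p.2 ((A.e p.2).symm z) a b)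
      ((A.e p.2).target ∩ (A.e p.2).symm ⁻¹' univ) := σ.hol p.2 a b
    show DifferentiableOn ℂ (fun z => σ.s p.2 (((opA A U).e p).symm z).1 a b) _
    refine (h1.mono ?_).congr ?_
    · rintro z ⟨hz, -⟩
      exact ⟨(opA_target.1 hz).1, mem_univ _⟩
    · rintro z ⟨hz, -⟩
      rw [opA_symm hz]
  alt p x hx := σ.alt p.2 x.1 (opA_source.1 hx)
  tr p q x hx := by
    rw [jm_op hx.1]
    exact σ.tr p.2 q.2 x.1 ⟨opA_source.1 hx.1, opA_source.1 hx.2⟩
  nd p x hx := σ.nd p.2 x.1 (opA_source.1 hx)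

theorem opS_clo {σ : HSymp A} (h : Clo σ.toH2) : Clo (opS σ U).toH2 := by
  intro p z hz a b c
  have h1 : ∀ a b, (fun w => sl (opS σ U).toH2 p w a b) =ᶠ[𝓝 z] fun w => sl σ.toH2 p.2 w a b := by
    intro a b
    filter_upwards [((opA A U).e p).open_target.mem_nhds hz] with w hw
    show σ.s p.2 (((opA A U).e p).symm w).1 a b = σ.s p.2 ((A.e p.2).symm w) a b
    rw [opA_symm hw]
  rw [(h1 a b).fderiv_eq, (h1 b c).fderiv_eq, (h1 c a).fderiv_eq]
  exact h p.2 z (opA_target.1 hz).1 a b c

end op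

section lag

variable {g : ℕ} {M : Type} [TopologicalSpace M] {A : Atl (2 * g) M} {σ : HSymp A}
  {U : Opens M} {f : M → Cn g}

/-- a holomorphic submersion with Lagrangian fibres on an open set -/
theorem lagF_op (hcl : Clo σ.toH2)
    (hol : ∀ i, DifferentiableOn ℂ (fun z => f ((A.e i).symm z))
      ((A.e i).target ∩ (A.e i).symm ⁻¹' (U : Set M)))
    (sur : ∀ i, ∀ x ∈ (A.e i).source, x ∈ U →
      Surjective (fderiv ℂ (fun z => f ((A.e i).symm z)) (A.e i x)))
    (lag : ∀ i, ∀ x ∈ (A.e i).source, x ∈ U → ∀ u v,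
      fderiv ℂ (fun z => f ((A.e i).symm z)) (A.e i x) u = 0 →
      fderiv ℂ (fun z => f ((A.e i).symm z)) (A.e i x) v = 0 → bf (σ.s i x) u v = 0) :
    LagF (opS σ U) (fun x : U => f x.1) where
  clo := opS_clo hcl
  hol p := by
    refine ((hol p.2).mono fun z hz => ?_).congr fun z hz => ?_
    · exact ⟨(opA_target.1 hz).1, (opA_target.1 hz).2⟩
    · show f (((opA A U).e p).symm z).1 = _
      rw [opA_symm hz]
  sur p x hx := by
    rw [fderiv_opA f hx]
    exact sur p.2 x.1 (opA_source.1 hx) x.2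
  lag p x hx u v hu hv := by
    rw [fderiv_opA f hx] at hu hv
    exact lag p.2 x.1 (opA_source.1 hx) x.2 u v hu hv

/-- **action-angle coordinates near a compact connected fibre**, from data on an open set -/
theorem exists_AAo [T2Space M] (h : LagF (opS σ U) (fun x : U => f x.1)) {x0 : M} (hx0 : x0 ∈ U)
    (hc : IsCompact {x : M | x ∈ U ∧ f x = f x0}) (hp : IsPreconnected {x : M | x ∈ U ∧ f x = f x0}) :
    ∃ (ε R : ℝ) (Nb : Set U) (Ψ : (Fin g → ℂ) × Cn g → U) (l : Fin (2 * g) → Cn g → (Fin g → ℂ)),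
      Tube (opA A U) (VH (opS σ U) h.hol) (fun x : U => f x.1) (f x0) ε R Nb Ψ l := by
  set T : Set U := {x | f x.1 = f x0} with hT
  have himg : Subtype.val '' T = {x : M | x ∈ U ∧ f x = f x0} := by
    ext x
    constructor
    · rintro ⟨y, hy, rfl⟩
      exact ⟨y.2, hy⟩
    · rintro ⟨h1, h2⟩
      exact ⟨⟨x, h1⟩, h2, rfl⟩
  have hTc : IsCompact T := by
    rw [Topology.IsInducing.subtypeVal.isCompact_iff]
    have h2 := hc
    rw [← himg] at h2
    exact h2
  have hTp : IsPreconnected T := by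
    rw [← Topology.IsInducing.subtypeVal.isPreconnected_image]
    have h2 := hp
    rw [← himg] at h2
    exact h2
  obtain ⟨ε, R, Nb, Ψ, l, h1, -, -, -⟩ := exists_AA h (x0 := ⟨x0, hx0⟩) (T := T) rfl hTc hTp
    (fun x hx => hx) isOpen_univ (subset_univ _) (fun x _ hx => hx)
  exact ⟨ε, R, Nb, Ψ, l, h1⟩

end lag

end

end Crest.Agent.R281.Tp_836
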