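import Mathlib.Topology.Baire.CompleteMetrizable
import Mathlib.Topology.Baire.Lemmas
import Mathlib.Analysis.Normed.Module.Basic
import Mathlib.Analysis.Convex.Basic
import Mathlib.Topology.Order.IntermediateValue
import Mathlib.Analysis.Real.Cardinality
import Mathlib.Topology.Instances.RealVectorSpace

/-!
# R281 (S0424), division 5/6: the abstract transport theorem (helper693, task TRANSP-BAIRE)

`B × C` is a box in a product of two real Banach spaces (in the application: neighbourhoods of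
`x = Re σ` and `y = Im σ` in `e^⊥`).

* `exists_open_box` : if the nef locus `⋂ U N` contains a dense subset of the box, the `U N` are
  open, and on a non-empty open set `V` of the box the nef points are covered by countably many
  relatively closed sets `Z i`, then one `Z i` contains a non-empty open box.
* `transport` : if moreover membership in `Z i` can be continued along segments in the second
  variable, and along segments in the first variable at `y`, then `(x, y) ∈ Z i` for some `i`.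
* `continuation` : the continuation along a segment follows from the local identity principle.
* `dense_rays` : the set `{(b, v + x e)}`, `b, v` in a dense set, `x` outside a countable set
  depending on `b, v`, is dense.
-/

set_option autoImplicit false

open Set Filter Topology Metric

namespace Crest.Agent.R281.TrB_693

section Baire

variable {X : Type*} [TopologicalSpace X] [BaireSpace X]

/-- In a Baire space: `V` open, the open sets `U N` contain a set which is dense in `V`, and the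
points of `V` which lie in all `U N` are covered by countably many sets `Z i` which are relatively
closed in `V`. Then some `Z i` contains a non-empty open subset of `V`. -/
theorem exists_open {U : ℕ → Set X} (hU : ∀ N, IsOpen (U N)) {R : Set X} (hR : ∀ N, R ⊆ U N)
    {V : Set X} (hV : IsOpen V) (hVne : V.Nonempty) (hRd : V ⊆ closure R)
    {ι : Type*} [Countable ι] {Z : ι → Set X} (hZ : ∀ i, ∀ p ∈ V, p ∈ closure (Z i) → p ∈ Z i)
    (hcov : ∀ p ∈ V, (∀ N, p ∈ U N) → ∃ i, p ∈ Z i) :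
    ∃ i, ∃ O : Set X, IsOpen O ∧ O.Nonempty ∧ O ⊆ V ∧ O ⊆ Z i := by
  -- dense open sets
  set U' : ℕ → Set X := fun N => (U N ∩ V) ∪ (closure V)ᶜ with hU'
  have hU'o : ∀ N, IsOpen (U' N) := fun N => ((hU N).inter hV).union isClosed_closure.isOpen_compl
  have hU'd : ∀ N, Dense (U' N) := by
    intro N p
    by_cases hp : p ∈ closure V
    · have h1 : V ⊆ closure (U N ∩ V) := by
        intro q hq
        rw [_root_.mem_closure_iff]
        intro O hO hqO
        obtain ⟨r, hr1, hr2⟩ := _root_.mem_closure_iff.1 (hRd hq) (O ∩ V) (hO.inter hV) ⟨hqO, hq⟩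
        exact ⟨r, hr1.1, hR N hr2, hr1.2⟩
      have h2 : closure V ⊆ closure (U N ∩ V) := closure_minimal h1 isClosed_closure
      exact closure_mono subset_union_left (h2 hp)
    · exact subset_closure (Or.inr hp)
  have hG : IsGδ (⋂ N, U' N) := IsGδ.iInter_of_isOpen hU'o
  have hD : Dense (⋂ N, U' N) := dense_iInter_of_isOpen_nat hU'o hU'd
  set f : Option ι → Set X := fun o => o.elim Vᶜ (fun i => closure (Z i)) with hf
  have hfc : ∀ o, IsClosed (f o) := by
    rintro (_ | i)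
    · exact hV.isClosed_compl
    · exact isClosed_closure
  have hfu : (⋂ N, U' N) ⊆ ⋃ o, f o := by
    intro p hp
    rw [mem_iInter] at hp
    by_cases hpV : p ∈ V
    · have h1 : ∀ N, p ∈ U N := by
        intro N
        rcases hp N with h | h
        · exact h.1
        · exact absurd (subset_closure hpV) h
      obtain ⟨i, hi⟩ := hcov p hpV h1
      exact mem_iUnion.2 ⟨some i, subset_closure hi⟩
    · exact mem_iUnion.2 ⟨none, hpV⟩
  have hdense := hG.dense_iUnion_interior_of_closed hD hfc hfu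
  obtain ⟨q, hqV, hq⟩ := hdense.inter_open_nonempty V hV hVne
  obtain ⟨o, ho⟩ := mem_iUnion.1 hq
  rcases o with _ | i
  · exact absurd hqV (interior_subset ho)
  · refine ⟨i, V ∩ interior (closure (Z i)), hV.inter isOpen_interior, ⟨q, hqV, ho⟩,
      inter_subset_left, ?_⟩
    rintro p ⟨hpV, hp⟩
    exact hZ i p hpV (interior_subset hp)

end Baire

section Segments

/-- **local identity principle ⇒ continuation along `[0,1]`** -/
theorem continuation {P : ℝ → Prop}
    (hloc : ∀ s₀ ∈ Icc (0 : ℝ) 1, (∃ᶠ s in 𝓝[Icc 0 1 \ {s₀}] s₀, P s) →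
      ∀ᶠ s in 𝓝[Icc 0 1] s₀, P s)
    {s₁ : ℝ} (hs₁ : s₁ ∈ Icc (0 : ℝ) 1) (hacc : ∃ᶠ s in 𝓝[Icc 0 1 \ {s₁}] s₁, P s) :
    ∀ s ∈ Icc (0 : ℝ) 1, P s := by
  set A : Set ℝ := {s | s ∈ Icc (0 : ℝ) 1 ∧ ∀ᶠ t in 𝓝[Icc 0 1] s, P t} with hA
  have hpre : IsPreconnected (Icc (0 : ℝ) 1) := isPreconnected_Icc
  -- accumulation points of `A` in `[0,1]` belong to `A`
  have hclos : ∀ s ∈ Icc (0 : ℝ) 1, s ∈ closure A → s ∈ A := by
    intro s hs hsA
    refine ⟨hs, hloc s hs ?_⟩
    rw [frequently_iff]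
    intro O hO
    rw [mem_nhdsWithin] at hO
    obtain ⟨W, hW, hsW, hWO⟩ := hO
    obtain ⟨t, htW, htA⟩ := _root_.mem_closure_iff.1 hsA W hW hsW
    -- near `t` all points of `[0,1]` satisfy `P`; choose one different from `s`
    have h1 : ∀ᶠ u in 𝓝[Icc 0 1] t, P u ∧ u ∈ W :=
      htA.2.and (mem_nhdsWithin_of_mem_nhds (hW.mem_nhds htW))
    rw [eventually_nhdsWithin_iff, Metric.eventually_nhds_iff] at h1
    obtain ⟨ε, hε, h1⟩ := h1
    obtain ⟨t0, t1⟩ := htA.1
    -- two different points of `[0,1]` within `ε` of `t`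
    have hex : ∃ u, u ∈ Icc (0 : ℝ) 1 ∧ dist u t < ε ∧ u ≠ s := by
      by_cases hts : t = s
      · subst hts
        by_cases hh : t ≤ 1 / 2
        · refine ⟨t + min (ε / 2) (1 / 2), ⟨?_, ?_⟩, ?_, ?_⟩
          · have : 0 ≤ min (ε / 2) (1 / 2) := le_min (by linarith) (by norm_num)
            linarith
          · have := min_le_right (ε / 2) (1 / 2 : ℝ)
            linarith
          · have h2 := min_le_left (ε / 2) (1 / 2 : ℝ)
            have h3 : 0 ≤ min (ε / 2) (1 / 2) := le_min (by linarith) (by norm_num)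
            rw [Real.dist_eq, add_sub_cancel_left, abs_of_nonneg h3]
            linarith
          · have h3 : 0 < min (ε / 2) (1 / 2) := lt_min (by linarith) (by norm_num)
            linarith
        · refine ⟨t - min (ε / 2) (1 / 2), ⟨?_, ?_⟩, ?_, ?_⟩
          · have := min_le_right (ε / 2) (1 / 2 : ℝ)
            linarith
          · have : 0 ≤ min (ε / 2) (1 / 2) := le_min (by linarith) (by norm_num)
            linarith
          · have h2 := min_le_left (ε / 2) (1 / 2 : ℝ)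
            have h3 : 0 ≤ min (ε / 2) (1 / 2) := le_min (by linarith) (by norm_num)
            rw [Real.dist_eq, sub_sub_cancel_left, abs_neg, abs_of_nonneg h3]
            linarith
          · have h3 : 0 < min (ε / 2) (1 / 2) := lt_min (by linarith) (by norm_num)
            linarith
      · exact ⟨t, ⟨t0, t1⟩, by simpa using hε, hts⟩
    obtain ⟨u, hu, hut, hus⟩ := hex
    have h2 := h1 hut hu
    exact ⟨u, hWO ⟨h2.2, hu, hus⟩, h2.1⟩
  -- `A` is relatively open
  have hopen : ∀ s ∈ A, ∀ᶠ t in 𝓝[Icc 0 1] s, t ∈ A := by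
    intro s hs
    have h1 := eventually_eventually_nhdsWithin.2 hs.2
    filter_upwards [h1, self_mem_nhdsWithin] with t ht ht'
    exact ⟨ht', ht⟩
  have hne : s₁ ∈ A := ⟨hs₁, hloc s₁ hs₁ hacc⟩
  -- `[0,1] ⊆ A`
  have hall : Icc (0 : ℝ) 1 ⊆ A := by
    by_contra hcon
    rw [not_subset] at hcon
    obtain ⟨s₂, hs₂, hs₂A⟩ := hcon
    have hAo : ∃ O : Set ℝ, IsOpen O ∧ A = O ∩ Icc 0 1 := by
      have : ∀ s ∈ A, ∃ W : Set ℝ, IsOpen W ∧ s ∈ W ∧ W ∩ Icc 0 1 ⊆ A := by
        intro s hs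
        have := hopen s hs
        rw [eventually_iff, mem_nhdsWithin] at this
        obtain ⟨W, hW, hsW, h⟩ := this
        exact ⟨W, hW, hsW, h⟩
      choose! W hW hsW hWA using this
      refine ⟨⋃ s ∈ A, W s, isOpen_biUnion hW, ?_⟩
      apply Subset.antisymm
      · intro s hs
        exact ⟨mem_biUnion hs (hsW s hs), hs.1⟩
      · rintro s ⟨hs, hs'⟩
        obtain ⟨t, ht, hst⟩ := mem_iUnion₂.1 hs
        exact hWA t ht ⟨hst, hs'⟩
    obtain ⟨O, hO, hAO⟩ := hAo
    obtain ⟨z, hz, hzO, hzC⟩ := hpre O (closure A)ᶜ hO isClosed_closure.isOpen_compl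
      (by
        intro s hs
        by_cases h : s ∈ closure A
        · left
          have := hclos s hs h
          rw [hAO] at this
          exact this.1
        · right; exact h)
      ⟨s₁, hs₁, (hAO ▸ hne : s₁ ∈ O ∩ Icc 0 1).1⟩
      ⟨s₂, hs₂, fun h => hs₂A (hclos s₂ hs₂ h)⟩
    exact hzC (subset_closure (hAO ▸ (⟨hzO, hz⟩ : z ∈ O ∩ Icc 0 1)))
  intro s hs
  exact (hall hs).2.self_of_nhdsWithin hs

variable {E : Type*} [NormedAddCommGroup E] [NormedSpace ℝ E]

/-- near the end point of a segment one is in a given neighbourhood of the end point -/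
theorem seg_end {c₀ c₁ : E} {O : Set E} (hO : O ∈ 𝓝 c₁) :
    ∃ ε > 0, ∀ s ∈ Icc (0 : ℝ) 1, 1 - ε < s → c₀ + s • (c₁ - c₀) ∈ O := by
  have hcont : ContinuousAt (fun s : ℝ => c₀ + s • (c₁ - c₀)) 1 := by fun_prop
  have h1 : c₀ + (1 : ℝ) • (c₁ - c₀) = c₁ := by simp
  have h2 := hcont.preimage_mem_nhds (t := O) (by simpa using hO)
  rw [Metric.mem_nhds_iff] at h2
  obtain ⟨ε, hε, h2⟩ := h2
  refine ⟨ε, hε, fun s hs hs' => h2 ?_⟩
  rw [Metric.mem_ball, Real.dist_eq, abs_lt]
  constructor <;> linarith [hs.2]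

end Segments

section Main

variable {E F : Type*} [NormedAddCommGroup E] [NormedSpace ℝ E] [CompleteSpace E]
  [NormedAddCommGroup F] [NormedSpace ℝ F] [CompleteSpace F]

/-- **the transport theorem** -/
theorem transport {B : Set E} {C : Set F} {x : E} {y : F} (hx : x ∈ B) (hy : y ∈ C)
    {U : ℕ → Set (E × F)} (hU : ∀ N, IsOpen (U N))
    {R : Set (E × F)} (hR : ∀ N, R ⊆ U N)
    {V : Set (E × F)} (hV : IsOpen V) (hVne : V.Nonempty) (hVB : V ⊆ B ×ˢ C)
    (hRd : V ⊆ closure R)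
    {ι : Type*} [Countable ι] {Z : ι → Set (E × F)}
    (hZ : ∀ i, ∀ p ∈ B ×ˢ C, p ∈ closure (Z i) → p ∈ Z i)
    (hcov : ∀ p ∈ V, (∀ N, p ∈ U N) → ∃ i, p ∈ Z i)
    (hC : ∀ i, ∀ b ∈ B, ∀ c₀ ∈ C, ∀ c₁ ∈ C,
      (∃ ε > 0, ∀ s ∈ Icc (0 : ℝ) 1, 1 - ε < s → (b, c₀ + s • (c₁ - c₀)) ∈ Z i) →
        (b, c₀) ∈ Z i)
    (hB : ∀ i, ∀ b₀ ∈ B, ∀ b₁ ∈ B,
      (∃ ε > 0, ∀ s ∈ Icc (0 : ℝ) 1, 1 - ε < s → (b₀ + s • (b₁ - b₀), y) ∈ Z i) →
        (b₀, y) ∈ Z i) :
    ∃ i, (x, y) ∈ Z i := by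
  obtain ⟨i, O, hO, ⟨⟨b₁, c₁⟩, hbc⟩, hOV, hOZ⟩ := exists_open hU hR hV hVne hRd
    (fun i p hp h => hZ i p (hVB hp) h) hcov
  refine ⟨i, ?_⟩
  have hb₁ : b₁ ∈ B := (hVB (hOV hbc)).1
  have hc₁ : c₁ ∈ C := (hVB (hOV hbc)).2
  obtain ⟨OB, hOB, OC, hOC, hprod⟩ := mem_nhds_prod_iff.1 (hO.mem_nhds hbc)
  -- first continuation: `(b, y) ∈ Z i` for `b` near `b₁`
  have step1 : ∀ b ∈ OB, b ∈ B → (b, y) ∈ Z i := by
    intro b hb hbB
    refine hC i b hbB y hy c₁ hc₁ ?_
    obtain ⟨ε, hε, h⟩ := seg_end (c₀ := y) hOC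
    exact ⟨ε, hε, fun s hs hs' => hOZ (hprod ⟨hb, h s hs hs'⟩)⟩
  -- second continuation
  refine hB i x hx b₁ hb₁ ?_
  have hOB' : {b | b ∈ OB ∧ b ∈ B} ∈ 𝓝 b₁ := by
    have h1 : ∀ᶠ b in 𝓝 b₁, (b, c₁) ∈ O :=
      (ContinuousAt.prodMk continuousAt_id continuousAt_const).preimage_mem_nhds
        (hO.mem_nhds hbc)
    filter_upwards [hOB, h1] with b hb hb'
    exact ⟨hb, (hVB (hOV hb')).1⟩
  obtain ⟨ε, hε, h⟩ := seg_end (c₀ := x) hOB'
  exact ⟨ε, hε, fun s hs hs' => step1 _ (h s hs hs').1 (h s hs hs').2⟩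

end Main

section Dense

variable {E : Type*} [NormedAddCommGroup E] [NormedSpace ℝ E]

/-- the set `R` of (F2): `b, v` in a dense set `D`, `x` outside a countable set -/
theorem dense_rays {D : Set E} (hD : Dense D) (e : E) (bad : E → E → Set ℝ)
    (hbad : ∀ b v, (bad b v).Countable) :
    Dense {p : E × E | ∃ b ∈ D, ∃ v ∈ D, ∃ x : ℝ, x ∉ bad b v ∧ p = (b, v + x • e)} := by
  rintro ⟨b₀, c₀⟩
  rw [_root_.mem_closure_iff]
  intro O hO hbc
  obtain ⟨OB, hOB, OC, hOC, hprod⟩ := mem_nhds_prod_iff.1 (hO.mem_nhds hbc)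
  obtain ⟨OB', hOB'1, hOB'2, hOB'3⟩ := _root_.mem_nhds_iff.1 hOB
  obtain ⟨OC', hOC'1, hOC'2, hOC'3⟩ := _root_.mem_nhds_iff.1 hOC
  obtain ⟨b, hb, hbD⟩ := _root_.mem_closure_iff.1 (hD b₀) OB' hOB'2 hOB'3
  obtain ⟨v, hv, hvD⟩ := _root_.mem_closure_iff.1 (hD c₀) OC' hOC'2 hOC'3
  have hcont : ContinuousAt (fun x : ℝ => v + x • e) 0 := by fun_prop
  have h2 := hcont.preimage_mem_nhds (t := OC') (by simpa using hOC'2.mem_nhds hv)
  rw [Metric.mem_nhds_iff] at h2
  obtain ⟨ε, hε, h2⟩ := h2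
  have h3 : ¬ (Metric.ball (0 : ℝ) ε).Countable := by
    intro h
    rw [Real.ball_eq_Ioo] at h
    exact (Cardinal.Real.Ioo_countable_iff.1 h).not_gt (by linarith)
  have h4 : ∃ x ∈ Metric.ball (0 : ℝ) ε, x ∉ bad b v := by
    by_contra hcon
    push Not at hcon
    exact h3 ((hbad b v).mono hcon)
  obtain ⟨x, hx, hxb⟩ := h4
  exact ⟨(b, v + x • e), hprod ⟨hOB'1 hb, hOC'1 (h2 hx)⟩, b, hbD, v, hvD, x, hxb, rfl⟩

end Dense

end Crest.Agent.R281.TrB_693
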