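import Mathlib

/-!
# R281 / TROP-C, part 1: Vandermonde max lemma and "largest conjugate ~ coefficients".
-/

set_option autoImplicit false

open Polynomial

namespace Crest.Agent.R281.TrC_282

/-! ## (VM) -/

theorem vm_one {p : ℕ} (hp : 0 < p) (γ : Fin p → ℕ) (hγ : Function.Injective γ) :
    ∃ C : ℝ, 0 < C ∧ ∀ z : Fin p → ℂ, ∃ j, ∀ b, ‖z b‖ ≤ C * ‖∑ b : Fin p, (γ j : ℂ) ^ (b : ℕ) * z b‖ := by
  classical
  set M : Matrix (Fin p) (Fin p) ℂ := Matrix.vandermonde (fun j => (γ j : ℂ)) with hM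
  have hdet : M.det ≠ 0 := by
    rw [hM, Matrix.det_vandermonde_ne_zero_iff]
    intro a b hab
    apply hγ
    have : (γ a : ℂ) = (γ b : ℂ) := hab
    exact_mod_cast this
  set L : (Fin p → ℂ) →ₗ[ℂ] (Fin p → ℂ) := Matrix.toLin' M with hL
  have hker : LinearMap.ker L = ⊥ := by
    rw [LinearMap.ker_eq_bot, hL]
    intro x y hxy
    have hu : IsUnit M.det := isUnit_iff_ne_zero.mpr hdet
    have : M.mulVec x = M.mulVec y := by simpa [Matrix.toLin'_apply] using hxy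
    have h2 := congrArg (fun v => M⁻¹.mulVec v) this
    simpa [Matrix.mulVec_mulVec, Matrix.nonsing_inv_mul M hu] using h2
  obtain ⟨K, hK0, hK⟩ := LinearMap.exists_antilipschitzWith L hker
  have hb : ∀ z : Fin p → ℂ, ‖z‖ ≤ K * ‖L z‖ := by
    intro z
    have := hK.le_mul_dist z 0
    simpa [dist_eq_norm] using this
  refine ⟨K, by exact_mod_cast hK0, fun z => ?_⟩
  have : Nonempty (Fin p) := ⟨⟨0, hp⟩⟩
  obtain ⟨j, hj⟩ := Finite.exists_max (fun j => ‖L z j‖)
  have hn : ‖L z‖ ≤ ‖L z j‖ := (pi_norm_le_iff_of_nonneg (norm_nonneg _)).mpr hj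
  refine ⟨j, fun b => ?_⟩
  have hLz : L z j = ∑ b : Fin p, (γ j : ℂ) ^ (b : ℕ) * z b := by
    rw [hL, Matrix.toLin'_apply, Matrix.mulVec, dotProduct]
    rfl
  calc ‖z b‖ ≤ ‖z‖ := norm_le_pi_norm z b
    _ ≤ K * ‖L z‖ := hb z
    _ ≤ K * ‖L z j‖ := by gcongr
    _ = _ := by rw [hLz]

theorem vm (Γ : Finset ℕ) {p : ℕ} (hp : 0 < p) :
    ∃ C : ℝ, 1 ≤ C ∧ ∀ S : Finset ℕ, S ⊆ Γ → p ≤ S.card → ∀ z : Fin p → ℂ,
      ∃ γ ∈ S, ∀ b, ‖z b‖ ≤ C * ‖∑ b : Fin p, (γ : ℂ) ^ (b : ℕ) * z b‖ := by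
  classical
  have key : ∀ T : Finset ℕ, ∃ C : ℝ, 0 < C ∧ (T.card = p → ∀ z : Fin p → ℂ,
      ∃ γ ∈ T, ∀ b, ‖z b‖ ≤ C * ‖∑ b : Fin p, (γ : ℂ) ^ (b : ℕ) * z b‖) := by
    intro T
    by_cases hT : T.card = p
    · obtain ⟨C, hC, h⟩ := vm_one hp (fun j => T.orderEmbOfFin hT j) (T.orderEmbOfFin hT).injective
      refine ⟨C, hC, fun _ z => ?_⟩
      obtain ⟨j, hj⟩ := h z
      exact ⟨T.orderEmbOfFin hT j, Finset.orderEmbOfFin_mem _ _ _, hj⟩
    · exact ⟨1, one_pos, fun h => absurd h hT⟩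
  choose c hc0 hc using key
  refine ⟨1 + ∑ T ∈ Γ.powerset, c T, ?_, ?_⟩
  · have := Finset.sum_nonneg (fun T (_ : T ∈ Γ.powerset) => (hc0 T).le)
    linarith
  intro S hS hcard z
  obtain ⟨T, hTS, hTc⟩ := Finset.exists_subset_card_eq hcard
  obtain ⟨γ, hγ, h⟩ := hc T hTc z
  refine ⟨γ, hTS hγ, fun b => (h b).trans ?_⟩
  apply mul_le_mul_of_nonneg_right _ (norm_nonneg _)
  have h1 : c T ≤ ∑ T ∈ Γ.powerset, c T :=
    Finset.single_le_sum (fun T _ => (hc0 T).le) (Finset.mem_powerset.mpr (hTS.trans hS))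
  linarith

/-- one `γ` good for a whole finite family of vectors -/
theorem vm_family {G : Type*} [Fintype G] (Γ : Finset ℕ) {p : ℕ} (hp : 0 < p) :
    ∃ C : ℝ, 1 ≤ C ∧ ∀ (S : Finset ℕ), S ⊆ Γ →
      Fintype.card G * p < S.card → ∀ z : G → Fin p → ℂ,
      ∃ γ ∈ S, ∀ g b, ‖z g b‖ ≤ C * ‖∑ b : Fin p, (γ : ℂ) ^ (b : ℕ) * z g b‖ := by
  classical
  obtain ⟨C, hC1, hC⟩ := vm Γ hp
  refine ⟨C, hC1, ?_⟩
  intro S hS hcard z
  by_contra hcon
  push Not at hcon
  set Bad : G → Finset ℕ := fun g => S.filter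
    (fun γ => ∃ b, C * ‖∑ b : Fin p, (γ : ℂ) ^ (b : ℕ) * z g b‖ < ‖z g b‖) with hBad
  have hb : ∀ g, (Bad g).card < p := by
    intro g
    by_contra hlt
    push Not at hlt
    obtain ⟨γ, hγ, h⟩ := hC (Bad g) ((Finset.filter_subset _ _).trans hS) hlt (z g)
    rw [hBad, Finset.mem_filter] at hγ
    obtain ⟨_, b, hb⟩ := hγ
    exact absurd (h b) (not_le.mpr hb)
  have hcov : S ⊆ Finset.univ.biUnion Bad := by
    intro γ hγ
    obtain ⟨g, b, hgb⟩ := hcon γ hγ
    rw [Finset.mem_biUnion]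
    exact ⟨g, Finset.mem_univ _, by rw [hBad, Finset.mem_filter]; exact ⟨hγ, b, hgb⟩⟩
  have h1 := Finset.card_le_card hcov
  have h2 : (Finset.univ.biUnion Bad).card ≤ Fintype.card G * p := by
    refine (Finset.card_biUnion_le).trans ?_
    calc ∑ g, (Bad g).card ≤ ∑ _g : G, p := Finset.sum_le_sum (fun g _ => (hb g).le)
      _ = Fintype.card G * p := by simp
  omega

/-! ## the largest root and the coefficients -/

/-- if `‖c j‖ ≤ ρ^(n-j)` for all non-leading coefficients of a monic polynomial, its roots have size `≤ 2ρ`. -/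
theorem root_le {P : ℂ[X]} (hP : P.Monic) {ρ : ℝ} (hρ : 0 ≤ ρ)
    (h : ∀ i, i < P.natDegree → ‖P.coeff i‖ ≤ ρ ^ (P.natDegree - i)) {z : ℂ} (hz : P.IsRoot z) :
    ‖z‖ ≤ 2 * ρ := by
  by_contra hlt
  push Not at hlt
  set n := P.natDegree with hn
  have hz0 : 0 < ‖z‖ := lt_of_le_of_lt (by positivity) hlt
  have he : P.eval z = 0 := hz
  rw [Polynomial.eval_eq_sum_range, Finset.sum_range_succ] at he
  have hlead : P.coeff P.natDegree = 1 := hP.coeff_natDegree
  rw [hlead, one_mul, ← hn] at he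
  have h1 : ‖z‖ ^ n ≤ ∑ i ∈ Finset.range n, ρ ^ (n - i) * ‖z‖ ^ i := by
    have : z ^ n = - ∑ i ∈ Finset.range n, P.coeff i * z ^ i := by linear_combination he
    rw [← norm_pow, this, norm_neg]
    refine (norm_sum_le _ _).trans (Finset.sum_le_sum ?_)
    intro i hi
    rw [norm_mul, norm_pow]
    exact mul_le_mul_of_nonneg_right (h i (Finset.mem_range.mp hi)) (by positivity)
  have h2 : ∑ i ∈ Finset.range n, ρ ^ (n - i) * ‖z‖ ^ i
      ≤ ∑ i ∈ Finset.range n, ‖z‖ ^ n * (1/2) ^ (n - i) := by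
    refine Finset.sum_le_sum ?_
    intro i hi
    have hi' := Finset.mem_range.mp hi
    have e1 : ‖z‖ ^ n = ‖z‖ ^ (n - i) * ‖z‖ ^ i := by rw [← pow_add]; congr 1; omega
    rw [e1]
    have e2 : ρ ^ (n - i) ≤ (‖z‖ * (1/2)) ^ (n - i) := by
      apply pow_le_pow_left₀ hρ
      linarith
    rw [mul_pow] at e2
    calc ρ ^ (n - i) * ‖z‖ ^ i ≤ (‖z‖ ^ (n - i) * (1/2) ^ (n - i)) * ‖z‖ ^ i := by gcongr
      _ = _ := by ring
  have h3 : ∑ i ∈ Finset.range n, ((1:ℝ)/2) ^ (n - i) < 1 := by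
    have : ∀ m : ℕ, ∑ i ∈ Finset.range m, ((1:ℝ)/2) ^ (m - i) = 1 - (1/2) ^ m := by
      intro m
      induction m with
      | zero => simp
      | succ k ih =>
        rw [Finset.sum_range_succ]
        have : ∑ i ∈ Finset.range k, ((1:ℝ)/2) ^ (k + 1 - i) = (1/2) * ∑ i ∈ Finset.range k, ((1:ℝ)/2) ^ (k - i) := by
          rw [Finset.mul_sum]
          refine Finset.sum_congr rfl ?_
          intro i hi
          have := Finset.mem_range.mp hi
          rw [show k + 1 - i = (k - i) + 1 by omega, pow_succ]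
          ring
        rw [this, ih]
        simp only [Nat.add_sub_cancel_left, pow_one]
        ring
    rw [this]
    have : (0:ℝ) < (1/2)^n := by positivity
    linarith
  rw [← Finset.mul_sum] at h2
  have h4 : ‖z‖ ^ n * ∑ i ∈ Finset.range n, ((1:ℝ)/2) ^ (n - i) < ‖z‖ ^ n * 1 :=
    mul_lt_mul_of_pos_left h3 (by positivity)
  linarith

/-- log form: largest root vs. coefficients of a product of linear factors with non-zero roots. -/
theorem log_max_root {G : Type*} [Fintype G] [Nonempty G] (z : G → ℂ) (hz : ∀ g, z g ≠ 0) :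
    (∀ i, i < Fintype.card G → (∏ g, (X - C (z g))).coeff i ≠ 0 →
      ∃ g, (1 / ((Fintype.card G - i : ℕ) : ℝ)) * Real.log ‖(∏ g, (X - C (z g))).coeff i‖
        ≤ Real.log ‖z g‖ + Fintype.card G) ∧
    (∀ g, ∃ i, i < Fintype.card G ∧ (∏ g, (X - C (z g))).coeff i ≠ 0 ∧
      Real.log ‖z g‖ ≤ (1 / ((Fintype.card G - i : ℕ) : ℝ)) *
        Real.log ‖(∏ g, (X - C (z g))).coeff i‖ + 1) := by
  classical
  set P : ℂ[X] := ∏ g, (X - C (z g)) with hPdef
  have hP : P.Monic := monic_prod_of_monic _ _ (fun g _ => monic_X_sub_C _)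
  set n := Fintype.card G with hn
  have hdeg : P.natDegree = n := by
    rw [hPdef, natDegree_prod_of_monic _ _ (fun g _ => monic_X_sub_C _)]
    simp [hn]
  have hroots : ∀ w ∈ P.roots, ∃ g, w = z g := by
    intro w hw
    have h := (mem_roots'.mp hw).2
    rw [IsRoot.def, hPdef, eval_prod, Finset.prod_eq_zero_iff] at h
    obtain ⟨g, _, hg⟩ := h
    exact ⟨g, by simpa [sub_eq_zero] using hg⟩
  have hisroot : ∀ g, P.IsRoot (z g) := by
    intro g
    rw [IsRoot.def, hPdef, eval_prod]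
    exact Finset.prod_eq_zero (Finset.mem_univ g) (by simp)
  have hnpos : 0 < n := Fintype.card_pos
  constructor
  · intro i hi hci
    obtain ⟨g, hg⟩ := Finite.exists_max (fun g => ‖z g‖)
    refine ⟨g, ?_⟩
    have hB : ‖P.coeff i‖ ≤ ‖z g‖ ^ (n - i) * n.choose i := by
      have := coeff_le_of_roots_le (p := P) (f := RingHom.id ℂ) (B := ‖z g‖) i hP
        (IsAlgClosed.splits _) (by
          intro w hw
          rw [Polynomial.map_id] at hw
          obtain ⟨g', rfl⟩ := hroots w hw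
          exact hg g')
      rw [Polynomial.map_id, hdeg] at this
      exact this
    have hzg : 0 < ‖z g‖ := norm_pos_iff.mpr (hz g)
    have hcpos : 0 < ‖P.coeff i‖ := norm_pos_iff.mpr hci
    have hch : ((n.choose i : ℕ) : ℝ) ≤ 2 ^ n := by exact_mod_cast Nat.choose_le_two_pow n i
    have hch0 : 0 < ((n.choose i : ℕ) : ℝ) := by exact_mod_cast Nat.choose_pos hi.le
    have hl : Real.log ‖P.coeff i‖ ≤ (n - i : ℕ) * Real.log ‖z g‖ + n := by
      calc Real.log ‖P.coeff i‖ ≤ Real.log (‖z g‖ ^ (n - i) * n.choose i) := Real.log_le_log hcpos hB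
        _ = (n - i : ℕ) * Real.log ‖z g‖ + Real.log (n.choose i) := by
            rw [Real.log_mul (by positivity) hch0.ne', Real.log_pow]
        _ ≤ (n - i : ℕ) * Real.log ‖z g‖ + n := by
            gcongr
            calc Real.log (n.choose i) ≤ Real.log (2 ^ n) := Real.log_le_log hch0 hch
              _ = n * Real.log 2 := by rw [Real.log_pow]
              _ ≤ n * 1 := by gcongr; linarith [Real.log_two_lt_d9]
              _ = n := mul_one _
    have hk : (1:ℝ) ≤ ((n - i : ℕ) : ℝ) := by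
      have : 1 ≤ n - i := by omega
      exact_mod_cast this
    have hk0 : (0:ℝ) < ((n - i : ℕ) : ℝ) := by linarith
    rw [one_div, inv_mul_le_iff₀ hk0]
    have hn0 : (0:ℝ) ≤ n := by positivity
    nlinarith
  · have hc0 : P.coeff 0 ≠ 0 := by
      rw [coeff_zero_eq_eval_zero, hPdef, eval_prod]
      refine Finset.prod_ne_zero_iff.mpr (fun g _ => ?_)
      simpa using hz g
    set I := (Finset.range n).filter (fun i => P.coeff i ≠ 0) with hI
    have hIne : I.Nonempty := ⟨0, by rw [hI, Finset.mem_filter]; exact ⟨Finset.mem_range.mpr hnpos, hc0⟩⟩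
    obtain ⟨i₀, hi₀, hmax⟩ := Finset.exists_max_image I
      (fun i => (1 / ((n - i : ℕ) : ℝ)) * Real.log ‖P.coeff i‖) hIne
    set f₀ : ℝ := (1 / ((n - i₀ : ℕ) : ℝ)) * Real.log ‖P.coeff i₀‖ with hf₀
    rw [hI, Finset.mem_filter, Finset.mem_range] at hi₀
    have hco : ∀ i, i < P.natDegree → ‖P.coeff i‖ ≤ (Real.exp f₀) ^ (P.natDegree - i) := by
      intro i hi
      rw [hdeg] at hi ⊢
      by_cases hci : P.coeff i = 0
      · rw [hci, norm_zero]; positivity
      · have hm := hmax i (by rw [hI, Finset.mem_filter, Finset.mem_range]; exact ⟨hi, hci⟩)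
        have hk0 : (0:ℝ) < ((n - i : ℕ) : ℝ) := by
          have : 0 < n - i := by omega
          exact_mod_cast this
        have h1 : Real.log ‖P.coeff i‖ ≤ ((n - i : ℕ) : ℝ) * f₀ := by
          have : (1 / ((n - i : ℕ) : ℝ)) * Real.log ‖P.coeff i‖ ≤ f₀ := hm
          rw [one_div, inv_mul_le_iff₀ hk0] at this
          exact this
        calc ‖P.coeff i‖ = Real.exp (Real.log ‖P.coeff i‖) :=
              (Real.exp_log (norm_pos_iff.mpr hci)).symm
          _ ≤ Real.exp (((n - i : ℕ) : ℝ) * f₀) := Real.exp_le_exp.mpr h1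
          _ = (Real.exp f₀) ^ (n - i) := by rw [Real.exp_nat_mul]
    intro g
    refine ⟨i₀, hi₀.1, hi₀.2, ?_⟩
    have hle := root_le hP (Real.exp_pos f₀).le hco (hisroot g)
    have hzg : 0 < ‖z g‖ := norm_pos_iff.mpr (hz g)
    calc Real.log ‖z g‖ ≤ Real.log (2 * Real.exp f₀) := Real.log_le_log hzg hle
      _ = Real.log 2 + f₀ := by rw [Real.log_mul (by norm_num) (Real.exp_pos _).ne', Real.log_exp]
      _ ≤ f₀ + 1 := by linarith [Real.log_two_lt_d9]

end Crest.Agent.R281.TrC_282
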