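import Crest.Agent.R281.TrC1_282
import Crest.Agent.R281.TrPL_726

/-!
# R281 / TROP-C, part 2: the class `TrL` (log form of `Tr`) and representability `Rep` of functions of
extensions `ψ : C →+* ℂ` by functions of the restriction to `A`.
-/

set_option autoImplicit false

open Polynomial

namespace Crest.Agent.R281.TrC_282

open Crest.Agent.R281.TrPL_726

/-! ## `TrL` -/

/-- log form of `Tr` -/
def TrL (A : Type*) [CommRing A] (m : (A →+* ℂ) → ℝ) : Prop :=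
  ∃ (n : ℕ) (q : Fin n → A) (F : (Fin n → ℝ) → ℝ), (∀ v, q v ≠ 0) ∧ PL F ∧
    ∀ φ : A →+* ℂ, m φ = F (fun v => Real.log ‖φ (q v)‖)

section TrLsec

variable {A : Type*} [CommRing A] {m m' : (A →+* ℂ) → ℝ}

theorem TrL.tr (h : TrL A m) : Tr A (fun φ => Real.exp (m φ)) := by
  obtain ⟨n, q, F, hq, hF, h⟩ := h
  exact ⟨n, q, F, hq, hF, fun φ => by simp only [h]⟩

theorem TrL.of_tr {G : (A →+* ℂ) → ℝ} (h : Tr A G) : TrL A (fun φ => Real.log (G φ)) := by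
  obtain ⟨n, q, F, hq, hF, h⟩ := h
  exact ⟨n, q, F, hq, hF, fun φ => by simp only [h, Real.log_exp]⟩

theorem TrL.mk' {V : Type*} [Fintype V] (q : V → A) (hq : ∀ v, q v ≠ 0)
    {F : (V → ℝ) → ℝ} (hF : PL F) :
    TrL A (fun φ => F (fun v => Real.log ‖φ (q v)‖)) := by
  have h := TrL.of_tr (Tr.mk' q hq hF)
  simpa using h

theorem TrL.pair (h : TrL A m) (h' : TrL A m') :
    ∃ (n : ℕ) (q : Fin n → A) (F F' : (Fin n → ℝ) → ℝ), (∀ v, q v ≠ 0) ∧ PL F ∧ PL F' ∧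
      (∀ φ : A →+* ℂ, m φ = F (fun v => Real.log ‖φ (q v)‖)) ∧
      (∀ φ : A →+* ℂ, m' φ = F' (fun v => Real.log ‖φ (q v)‖)) := by
  obtain ⟨n, q, F, F', hq, hF, hF', e, e'⟩ := Tr.pair h.tr h'.tr
  exact ⟨n, q, F, F', hq, hF, hF', fun φ => Real.exp_injective (e φ), fun φ => Real.exp_injective (e' φ)⟩

theorem TrL.logabs {q : A} (hq : q ≠ 0) : TrL A (fun φ => Real.log ‖φ q‖) :=
  TrL.mk' (V := Unit) (fun _ => q) (fun _ => hq) (PL.coord ())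

theorem TrL.add (h : TrL A m) (h' : TrL A m') : TrL A (fun φ => m φ + m' φ) := by
  obtain ⟨n, q, F, F', hq, hF, hF', e, e'⟩ := h.pair h'
  exact ⟨n, q, _, hq, hF.add hF', fun φ => by simp only [e, e']⟩

theorem TrL.sub (h : TrL A m) (h' : TrL A m') : TrL A (fun φ => m φ - m' φ) := by
  obtain ⟨n, q, F, F', hq, hF, hF', e, e'⟩ := h.pair h'
  exact ⟨n, q, _, hq, hF.sub hF', fun φ => by simp only [e, e']⟩

theorem TrL.max (h : TrL A m) (h' : TrL A m') : TrL A (fun φ => Max.max (m φ) (m' φ)) := by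
  obtain ⟨n, q, F, F', hq, hF, hF', e, e'⟩ := h.pair h'
  exact ⟨n, q, _, hq, hF.max hF', fun φ => by simp only [e, e']⟩

theorem TrL.min (h : TrL A m) (h' : TrL A m') : TrL A (fun φ => Min.min (m φ) (m' φ)) := by
  obtain ⟨n, q, F, F', hq, hF, hF', e, e'⟩ := h.pair h'
  exact ⟨n, q, _, hq, hF.min hF', fun φ => by simp only [e, e']⟩

theorem TrL.smul (h : TrL A m) (r : ℚ) : TrL A (fun φ => (r : ℝ) * m φ) := by
  obtain ⟨n, q, F, hq, hF, e⟩ := h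
  exact ⟨n, q, _, hq, hF.smul r, fun φ => by simp only [e]⟩

theorem TrL.zero : TrL A (fun _ => (0 : ℝ)) := by
  have := TrL.mk' (A := A) (V := Empty) (fun v => v.elim) (fun v => v.elim) (PL.zero)
  simpa using this

theorem TrL.sum {ι : Type*} (s : Finset ι) {m : ι → (A →+* ℂ) → ℝ} (h : ∀ i ∈ s, TrL A (m i)) :
    TrL A (fun φ => ∑ i ∈ s, m i φ) := by
  classical
  induction s using Finset.induction_on with
  | empty => simpa using TrL.zero (A := A)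
  | insert i s hi ih =>
    have := (h i (Finset.mem_insert_self i s)).add (ih (fun j hj => h j (Finset.mem_insert_of_mem hj)))
    simpa [Finset.sum_insert hi] using this

theorem TrL.exists_sup {ι : Type*} (s : Finset ι) (hs : s.Nonempty) {m : ι → (A →+* ℂ) → ℝ}
    (h : ∀ i ∈ s, TrL A (m i)) :
    ∃ M, TrL A M ∧ (∀ φ, ∀ i ∈ s, m i φ ≤ M φ) ∧ (∀ φ, ∃ i ∈ s, M φ = m i φ) := by
  classical
  induction hs using Finset.Nonempty.cons_induction with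
  | singleton i => exact ⟨m i, h i (by simp), by simp, by simp⟩
  | cons i s hi hs ih =>
    obtain ⟨M, hM, h1, h2⟩ := ih (fun j hj => h j (by simp [hj]))
    refine ⟨fun φ => Max.max (m i φ) (M φ), (h i (by simp)).max hM, ?_, ?_⟩
    · intro φ j hj
      rcases Finset.mem_cons.1 hj with rfl | hj
      · exact le_max_left _ _
      · exact (h1 φ j hj).trans (le_max_right _ _)
    · intro φ
      rcases le_total (m i φ) (M φ) with hle | hle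
      · obtain ⟨j, hj, he⟩ := h2 φ
        exact ⟨j, by simp [hj], (max_eq_right hle).trans he⟩
      · exact ⟨i, by simp, max_eq_left hle⟩

end TrLsec

/-! ## `Rep` -/

section RepSec

variable {A C : Type*} [CommRing A] [CommRing C] [Algebra A C]

/-- `H : (C →+* ℂ) → ℝ` is, up to a bounded error and off one hypersurface, a `TrL` function of the
restriction to `A`. -/
def Rep (A : Type*) {C : Type*} [CommRing A] [CommRing C] [Algebra A C] (H : (C →+* ℂ) → ℝ) : Prop :=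
  ∃ m : (A →+* ℂ) → ℝ, TrL A m ∧ ∃ q : A, q ≠ 0 ∧ ∃ K : ℝ, ∀ ψ : C →+* ℂ,
    ψ (algebraMap A C q) ≠ 0 → |H ψ - m (ψ.comp (algebraMap A C))| ≤ K

variable [IsDomain A]

set_option linter.unusedSectionVars false

theorem Rep.congr {H H' : (C →+* ℂ) → ℝ} (h : Rep A H) {q₀ : A} (hq₀ : q₀ ≠ 0) {K₀ : ℝ}
    (hH : ∀ ψ : C →+* ℂ, ψ (algebraMap A C q₀) ≠ 0 → |H' ψ - H ψ| ≤ K₀) : Rep A H' := by
  obtain ⟨m, hm, q, hq, K, hK⟩ := h
  refine ⟨m, hm, q₀ * q, mul_ne_zero hq₀ hq, K₀ + K, fun ψ hψ => ?_⟩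
  rw [map_mul, map_mul] at hψ
  have h1 := hH ψ (left_ne_zero_of_mul hψ)
  have h2 := hK ψ (right_ne_zero_of_mul hψ)
  calc |H' ψ - m (ψ.comp (algebraMap A C))|
      = |(H' ψ - H ψ) + (H ψ - m (ψ.comp (algebraMap A C)))| := by ring_nf
    _ ≤ _ := (abs_add_le _ _).trans (add_le_add h1 h2)

theorem Rep.add {H H' : (C →+* ℂ) → ℝ} (h : Rep A H) (h' : Rep A H') : Rep A (fun ψ => H ψ + H' ψ) := by
  obtain ⟨m, hm, q, hq, K, hK⟩ := h
  obtain ⟨m', hm', q', hq', K', hK'⟩ := h'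
  refine ⟨_, hm.add hm', q * q', mul_ne_zero hq hq', K + K', fun ψ hψ => ?_⟩
  rw [map_mul, map_mul] at hψ
  have h1 := hK ψ (left_ne_zero_of_mul hψ)
  have h2 := hK' ψ (right_ne_zero_of_mul hψ)
  rw [abs_le] at h1 h2 ⊢
  constructor <;> linarith [h1.1, h1.2, h2.1, h2.2]

theorem Rep.smul {H : (C →+* ℂ) → ℝ} (h : Rep A H) (r : ℚ) : Rep A (fun ψ => (r : ℝ) * H ψ) := by
  obtain ⟨m, hm, q, hq, K, hK⟩ := h
  refine ⟨_, hm.smul r, q, hq, |(r:ℝ)| * K, fun ψ hψ => ?_⟩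
  rw [← mul_sub, abs_mul]
  exact mul_le_mul_of_nonneg_left (hK ψ hψ) (abs_nonneg _)

theorem Rep.neg {H : (C →+* ℂ) → ℝ} (h : Rep A H) : Rep A (fun ψ => - H ψ) := by
  have := h.smul (-1)
  simpa using this

theorem Rep.sub {H H' : (C →+* ℂ) → ℝ} (h : Rep A H) (h' : Rep A H') : Rep A (fun ψ => H ψ - H' ψ) := by
  simpa [sub_eq_add_neg] using h.add h'.neg

theorem Rep.max {H H' : (C →+* ℂ) → ℝ} (h : Rep A H) (h' : Rep A H') :
    Rep A (fun ψ => Max.max (H ψ) (H' ψ)) := by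
  obtain ⟨m, hm, q, hq, K, hK⟩ := h
  obtain ⟨m', hm', q', hq', K', hK'⟩ := h'
  refine ⟨_, hm.max hm', q * q', mul_ne_zero hq hq', Max.max K K', fun ψ hψ => ?_⟩
  rw [map_mul, map_mul] at hψ
  have h1 := hK ψ (left_ne_zero_of_mul hψ)
  have h2 := hK' ψ (right_ne_zero_of_mul hψ)
  exact (abs_max_sub_max_le_max _ _ _ _).trans (max_le_max h1 h2)

theorem Rep.exists_sup {ι : Type*} (s : Finset ι) (hs : s.Nonempty) {H : ι → (C →+* ℂ) → ℝ}
    (h : ∀ i ∈ s, Rep A (H i)) :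
    ∃ M, Rep A M ∧ (∀ ψ, ∀ i ∈ s, H i ψ ≤ M ψ) ∧ (∀ ψ, ∃ i ∈ s, M ψ = H i ψ) := by
  classical
  induction hs using Finset.Nonempty.cons_induction with
  | singleton i => exact ⟨H i, h i (by simp), by simp, by simp⟩
  | cons i s hi hs ih =>
    obtain ⟨M, hM, h1, h2⟩ := ih (fun j hj => h j (by simp [hj]))
    refine ⟨fun ψ => Max.max (H i ψ) (M ψ), (h i (by simp)).max hM, ?_, ?_⟩
    · intro ψ j hj
      rcases Finset.mem_cons.1 hj with rfl | hj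
      · exact le_max_left _ _
      · exact (h1 ψ j hj).trans (le_max_right _ _)
    · intro ψ
      rcases le_total (H i ψ) (M ψ) with hle | hle
      · obtain ⟨j, hj, he⟩ := h2 ψ
        exact ⟨j, by simp [hj], (max_eq_right hle).trans he⟩
      · exact ⟨i, by simp, max_eq_left hle⟩

theorem Rep.exists_inf {ι : Type*} (s : Finset ι) (hs : s.Nonempty) {H : ι → (C →+* ℂ) → ℝ}
    (h : ∀ i ∈ s, Rep A (H i)) :
    ∃ M, Rep A M ∧ (∀ ψ, ∀ i ∈ s, M ψ ≤ H i ψ) ∧ (∀ ψ, ∃ i ∈ s, M ψ = H i ψ) := by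
  obtain ⟨M, hM, h1, h2⟩ := Rep.exists_sup s hs (H := fun i ψ => - H i ψ) (fun i hi => (h i hi).neg)
  refine ⟨fun ψ => - M ψ, hM.neg, fun ψ i hi => ?_, fun ψ => ?_⟩
  · have := h1 ψ i hi; linarith
  · obtain ⟨i, hi, he⟩ := h2 ψ
    exact ⟨i, hi, by simp only [he]; ring⟩

/-- two functions squeezed between each other are simultaneously representable -/
theorem Rep.of_sup {ι : Type*} (s : Finset ι) (hs : s.Nonempty) {H : ι → (C →+* ℂ) → ℝ}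
    (h : ∀ i ∈ s, Rep A (H i)) {M : (C →+* ℂ) → ℝ} {q₀ : A} (hq₀ : q₀ ≠ 0) {K : ℝ}
    (h1 : ∀ ψ : C →+* ℂ, ψ (algebraMap A C q₀) ≠ 0 → ∀ i ∈ s, H i ψ ≤ M ψ + K)
    (h2 : ∀ ψ : C →+* ℂ, ψ (algebraMap A C q₀) ≠ 0 → ∃ i ∈ s, M ψ ≤ H i ψ + K) : Rep A M := by
  obtain ⟨M', hM', e1, e2⟩ := Rep.exists_sup s hs h
  refine hM'.congr hq₀ (K₀ := K) fun ψ hψ => ?_
  obtain ⟨i, hi, he⟩ := e2 ψ
  obtain ⟨j, hj, hle⟩ := h2 ψ hψ
  have a1 := h1 ψ hψ i hi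
  have a2 := e1 ψ j hj
  rw [abs_le]
  constructor <;> linarith

theorem Rep.of_inf {ι : Type*} (s : Finset ι) (hs : s.Nonempty) {H : ι → (C →+* ℂ) → ℝ}
    (h : ∀ i ∈ s, Rep A (H i)) {M : (C →+* ℂ) → ℝ} {q₀ : A} (hq₀ : q₀ ≠ 0) {K : ℝ}
    (h1 : ∀ ψ : C →+* ℂ, ψ (algebraMap A C q₀) ≠ 0 → ∀ i ∈ s, M ψ ≤ H i ψ + K)
    (h2 : ∀ ψ : C →+* ℂ, ψ (algebraMap A C q₀) ≠ 0 → ∃ i ∈ s, H i ψ ≤ M ψ + K) : Rep A M := by
  obtain ⟨M', hM', e1, e2⟩ := Rep.exists_inf s hs h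
  refine hM'.congr hq₀ (K₀ := K) fun ψ hψ => ?_
  obtain ⟨i, hi, he⟩ := e2 ψ
  obtain ⟨j, hj, hle⟩ := h2 ψ hψ
  have a1 := h1 ψ hψ i hi
  have a2 := e1 ψ j hj
  rw [abs_le]
  constructor <;> linarith

end RepSec

end Crest.Agent.R281.TrC_282
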