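import Crest.Agent.R281.TrC2_282

/-!
# R281 / TROP-C, part 3: the abstract (CONJ) statement.
`G` a finite group acting on the domain `C ⊇ A`, invariants = fractions of `A`.
-/

set_option autoImplicit false

open Polynomial

namespace Crest.Agent.R281.TrC_282

open Crest.Agent.R281.TrPL_726

section Conj

set_option linter.unusedSectionVars false

variable {A C : Type*} [CommRing A] [IsDomain A] [CommRing C] [IsDomain C] [Algebra A C]
  {G : Type*} [Group G] [Fintype G] [MulSemiringAction G C]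

/-- every invariant is a fraction of elements of `A` -/
def InvFrac (A C G : Type*) [CommRing A] [CommRing C] [Algebra A C] [Group G]
    [MulSemiringAction G C] : Prop :=
  Function.Injective (algebraMap A C) ∧
  ∀ c : C, (∀ g : G, g • c = c) → ∃ a b : A, b ≠ 0 ∧ algebraMap A C b * c = algebraMap A C a

theorem inv_eval (hI : InvFrac A C G) {c : C} (hc : c ≠ 0) (hinv : ∀ g : G, g • c = c) :
    ∃ a b : A, a ≠ 0 ∧ b ≠ 0 ∧ ∀ ψ : C →+* ℂ, ψ (algebraMap A C (a * b)) ≠ 0 →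
      ψ c ≠ 0 ∧ Real.log ‖ψ c‖ = Real.log ‖ψ (algebraMap A C a)‖ - Real.log ‖ψ (algebraMap A C b)‖ := by
  obtain ⟨a, b, hb, h⟩ := hI.2 c hinv
  have ha : a ≠ 0 := by
    rintro rfl
    rw [map_zero] at h
    rcases mul_eq_zero.mp h with h | h
    · exact hb (hI.1 (by rw [h, map_zero]))
    · exact hc h
  refine ⟨a, b, ha, hb, fun ψ hψ => ?_⟩
  rw [map_mul, map_mul] at hψ
  have ha' := left_ne_zero_of_mul hψ
  have hb' := right_ne_zero_of_mul hψ
  have h' : ψ (algebraMap A C b) * ψ c = ψ (algebraMap A C a) := by rw [← map_mul, h]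
  have hc' : ψ c ≠ 0 := by
    intro h0
    rw [h0, mul_zero] at h'
    exact ha' h'.symm
  refine ⟨hc', ?_⟩
  rw [← h', norm_mul, Real.log_mul (norm_ne_zero_iff.mpr hb') (norm_ne_zero_iff.mpr hc')]
  ring

/-- nonvanishing of all conjugates of `x ≠ 0` off one hypersurface of `A` -/
theorem exists_nonvan (hI : InvFrac A C G) {x : C} (hx : x ≠ 0) :
    ∃ q : A, q ≠ 0 ∧ ∀ ψ : C →+* ℂ, ψ (algebraMap A C q) ≠ 0 → ∀ g : G, ψ (g • x) ≠ 0 := by
  classical
  have hN : (∏ g : G, g • x) ≠ 0 := by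
    rw [Finset.prod_ne_zero_iff]
    intro g _ h
    apply hx
    have := congrArg (fun y => g⁻¹ • y) h
    simpa using this
  have hinv : ∀ g : G, g • (∏ h : G, h • x) = ∏ h : G, h • x := by
    intro g
    exact Finset.smul_prod_perm x g
  obtain ⟨a, b, ha, hb, h⟩ := inv_eval hI hN hinv
  refine ⟨a * b, mul_ne_zero ha hb, fun ψ hψ g => ?_⟩
  have := (h ψ hψ).1
  rw [map_prod, Finset.prod_ne_zero_iff] at this
  exact this g (Finset.mem_univ g)

theorem exists_nonvan_fin (hI : InvFrac A C G) {ι : Type*} [Fintype ι] {x : ι → C} (hx : ∀ i, x i ≠ 0) :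
    ∃ q : A, q ≠ 0 ∧ ∀ ψ : C →+* ℂ, ψ (algebraMap A C q) ≠ 0 → ∀ i, ∀ g : G, ψ (g • x i) ≠ 0 := by
  classical
  choose q hq h using fun i => exists_nonvan hI (hx i)
  refine ⟨∏ i, q i, Finset.prod_ne_zero_iff.mpr (fun i _ => hq i), fun ψ hψ i => ?_⟩
  rw [map_prod, map_prod, Finset.prod_ne_zero_iff] at hψ
  exact h i ψ (hψ i (Finset.mem_univ i))

theorem Rep.inv (hI : InvFrac A C G) {c : C} (hc : c ≠ 0) (hinv : ∀ g : G, g • c = c) :
    Rep A (fun ψ : C →+* ℂ => Real.log ‖ψ c‖) := by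
  obtain ⟨a, b, ha, hb, h⟩ := inv_eval hI hc hinv
  refine ⟨_, (TrL.logabs ha).sub (TrL.logabs hb), a * b, mul_ne_zero ha hb, 0, fun ψ hψ => ?_⟩
  simp only [(h ψ hψ).2, RingHom.comp_apply, sub_self, abs_zero, le_refl]

/-- largest value over the group -/
noncomputable def mx (G : Type*) [Group G] [Fintype G] (f : G → ℝ) : ℝ :=
  Finset.univ.sup' ⟨1, Finset.mem_univ 1⟩ f

omit [Group G] [Fintype G] in
theorem le_mx {G : Type*} [Group G] [Fintype G] (f : G → ℝ) (g : G) : f g ≤ mx G f :=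
  Finset.le_sup' f (Finset.mem_univ g)

omit [Group G] [Fintype G] in
theorem exists_mx {G : Type*} [Group G] [Fintype G] (f : G → ℝ) : ∃ g, mx G f = f g := by
  obtain ⟨g, _, h⟩ := Finset.exists_mem_eq_sup' (s := Finset.univ) ⟨(1:G), Finset.mem_univ 1⟩ f
  exact ⟨g, h⟩

omit [Group G] [Fintype G] in
theorem mx_le {G : Type*} [Group G] [Fintype G] {f : G → ℝ} {c : ℝ} (h : ∀ g, f g ≤ c) : mx G f ≤ c :=
  Finset.sup'_le _ _ (fun g _ => h g)

open MulSemiringAction in
/-- (P3a) the largest conjugate -/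
theorem Rep.conj_one (hI : InvFrac A C G) {y : C} (hy : y ≠ 0) :
    Rep A (fun ψ : C →+* ℂ => mx G (fun g => Real.log ‖ψ (g • y)‖)) := by
  classical
  set P : C[X] := charpoly G y with hP
  set n := Fintype.card G with hn
  have hmap : ∀ ψ : C →+* ℂ, P.map ψ = ∏ g : G, (X - Polynomial.C (ψ (g • y))) := by
    intro ψ
    rw [hP, charpoly_eq, Polynomial.map_prod]
    simp
  obtain ⟨q₀, hq₀, hnv⟩ := exists_nonvan hI hy
  -- invariants coefficients
  have hcinv : ∀ i, ∀ g : G, g • P.coeff i = P.coeff i := fun i g => smul_coeff_charpoly y i g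
  set I := (Finset.range n).filter (fun i => P.coeff i ≠ 0) with hIdef
  have hsel : ∀ i ∈ I, ∃ q : A, q ≠ 0 ∧ ∀ ψ : C →+* ℂ, ψ (algebraMap A C q) ≠ 0 → ψ (P.coeff i) ≠ 0 := by
    intro i hi
    rw [hIdef, Finset.mem_filter] at hi
    obtain ⟨a, b, ha, hb, h⟩ := inv_eval hI hi.2 (hcinv i)
    exact ⟨a * b, mul_ne_zero ha hb, fun ψ hψ => (h ψ hψ).1⟩
  choose! qc hqc hqc' using hsel
  have hIne : I.Nonempty := by
    refine ⟨0, ?_⟩
    rw [hIdef, Finset.mem_filter, Finset.mem_range]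
    refine ⟨Fintype.card_pos, ?_⟩
    rw [coeff_zero_eq_eval_zero, hP, charpoly_eq, eval_prod, Finset.prod_ne_zero_iff]
    intro g _
    simp only [eval_sub, eval_X, eval_C, zero_sub, neg_ne_zero]
    intro h
    apply hy
    have := congrArg (fun y => g⁻¹ • y) h
    simpa using this
  set q₁ : A := q₀ * ∏ i ∈ I, qc i with hq₁
  have hq₁0 : q₁ ≠ 0 := mul_ne_zero hq₀ (Finset.prod_ne_zero_iff.mpr (fun i hi => hqc i hi))
  refine Rep.of_sup I hIne (H := fun i ψ => ((1 / ((n - i : ℕ) : ℚ) : ℚ) : ℝ) * Real.log ‖ψ (P.coeff i)‖)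
    (fun i hi => (Rep.inv hI ?_ (hcinv i)).smul _) (q₀ := q₁) hq₁0 (K := (n:ℝ) + 1) ?_ ?_
  · rw [hIdef, Finset.mem_filter] at hi
    exact hi.2
  · intro ψ hψ i hi
    rw [hq₁, map_mul, map_mul, map_prod, map_prod] at hψ
    have hz := hnv ψ (left_ne_zero_of_mul hψ)
    have hψc : ψ (P.coeff i) ≠ 0 := hqc' i hi ψ
      (Finset.prod_ne_zero_iff.mp (right_ne_zero_of_mul hψ) i hi)
    obtain ⟨h1, h2⟩ := log_max_root (fun g : G => ψ (g • y)) hz
    have hi' : i < n := by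
      rw [hIdef, Finset.mem_filter, Finset.mem_range] at hi
      exact hi.1
    have hco : (∏ g : G, (X - Polynomial.C (ψ (g • y)))).coeff i = ψ (P.coeff i) := by
      rw [← hmap ψ, coeff_map]
    obtain ⟨g, hg⟩ := h1 i hi' (by rw [hco]; exact hψc)
    rw [hco] at hg
    have hm := le_mx (fun g : G => Real.log ‖ψ (g • y)‖) g
    push_cast
    linarith
  · intro ψ hψ
    rw [hq₁, map_mul, map_mul, map_prod, map_prod] at hψ
    have hz := hnv ψ (left_ne_zero_of_mul hψ)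
    obtain ⟨h1, h2⟩ := log_max_root (fun g : G => ψ (g • y)) hz
    obtain ⟨g, hg⟩ := exists_mx (fun g : G => Real.log ‖ψ (g • y)‖)
    obtain ⟨i, hi, hci, hle⟩ := h2 g
    have hco : (∏ g : G, (X - Polynomial.C (ψ (g • y)))).coeff i = ψ (P.coeff i) := by
      rw [← hmap ψ, coeff_map]
    rw [hco] at hci hle
    have hiI : i ∈ I := by
      rw [hIdef, Finset.mem_filter, Finset.mem_range]
      refine ⟨hi, fun h0 => hci (by rw [h0, map_zero])⟩
    refine ⟨i, hiI, ?_⟩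
    rw [hg]
    push_cast
    have hn0 : (0:ℝ) ≤ (n:ℝ) := by positivity
    linarith

end Conj

end Crest.Agent.R281.TrC_282
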