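import Crest.Agent.R281.TrC3_282

/-!
# R281 / TROP-C, part 4: (CONJ): max over the group of a max-min expression in conjugates is representable.
-/

set_option autoImplicit false

open Polynomial

namespace Crest.Agent.R281.TrC_282

open Crest.Agent.R281.TrPL_726

/-- common denominator of a finite set of rational vectors, with an upper bound of the numerators -/
theorem exists_denom {V : Type*} [Fintype V] (S : Finset (V → ℚ)) :
    ∃ D : ℕ, 0 < D ∧ ∃ K : ℕ, ∃ n : (V → ℚ) → V → ℕ, ∀ a ∈ S, ∀ v, (D : ℚ) * a v = (K : ℚ) - n a v := by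
  classical
  set D : ℕ := ∏ a ∈ S, ∏ v, (a v).den with hD
  have hDpos : 0 < D := Finset.prod_pos fun a _ => Finset.prod_pos fun v _ => (a v).den_pos
  have hint : ∀ a ∈ S, ∀ v, ∃ z : ℤ, (D : ℚ) * a v = z := by
    intro a ha v
    have h1 : (a v).den ∣ D :=
      (Finset.dvd_prod_of_mem _ (Finset.mem_univ v)).trans
        (Finset.dvd_prod_of_mem (fun a : V → ℚ => ∏ v, (a v).den) ha)
    obtain ⟨k, hk⟩ := h1
    refine ⟨k * (a v).num, ?_⟩
    rw [hk]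
    push_cast
    have h2 : ((a v).den : ℚ) * a v = (a v).num := Rat.den_mul_eq_num _
    calc ((a v).den : ℚ) * k * a v = k * (((a v).den : ℚ) * a v) := by ring
      _ = _ := by rw [h2]
  choose! z hz using hint
  -- upper bound
  set K : ℕ := ∑ a ∈ S, ∑ v, (z a v).natAbs with hK
  have hle : ∀ a ∈ S, ∀ v, z a v ≤ K := by
    intro a ha v
    have h1 : (z a v).natAbs ≤ ∑ v, (z a v).natAbs :=
      Finset.single_le_sum (f := fun v => (z a v).natAbs) (fun _ _ => Nat.zero_le _) (Finset.mem_univ v)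
    have h2 : ∑ v, (z a v).natAbs ≤ K :=
      Finset.single_le_sum (f := fun a => ∑ v, (z a v).natAbs) (fun _ _ => Nat.zero_le _) ha
    have h3 : z a v ≤ (z a v).natAbs := Int.le_natAbs
    have : ((z a v).natAbs : ℤ) ≤ K := by exact_mod_cast h1.trans h2
    omega
  refine ⟨D, hDpos, K, fun a v => (K - z a v).toNat, fun a ha v => ?_⟩
  rw [hz a ha v]
  have h4 : ((K - z a v).toNat : ℤ) = K - z a v := Int.toNat_of_nonneg (by have := hle a ha v; omega)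
  have h5 : (((K - z a v).toNat : ℕ) : ℚ) = (K : ℚ) - (z a v : ℚ) := by exact_mod_cast h4
  rw [h5]
  ring

section Conj

set_option linter.unusedSectionVars false

variable {A C : Type*} [CommRing A] [IsDomain A] [CommRing C] [IsDomain C] [CharZero C] [Algebra A C]
  {G : Type*} [Group G] [Fintype G] [MulSemiringAction G C]

open Classical in
/-- all but few `γ` give a nonzero element -/
theorem exists_good_gammas {p : ℕ} (hp : 0 < p) (M : Fin p → C) (hM : ∀ b, M b ≠ 0) (N : ℕ) :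
    N - p < ((Finset.range N).filter (fun γ : ℕ => (∑ b : Fin p, (γ : C) ^ (b : ℕ) * M b) ≠ 0)).card ∨ N < p := by
  classical
  by_cases hNp : N < p
  · exact Or.inr hNp
  left
  push Not at hNp
  set f : C[X] := ∑ b : Fin p, Polynomial.C (M b) * X ^ (b : ℕ) with hf
  have hcoeff : ∀ b : Fin p, f.coeff b = M b := by
    intro b
    rw [hf, finsetSum_coeff]
    rw [Finset.sum_eq_single b]
    · simp
    · intro c _ hc
      rw [coeff_C_mul, coeff_X_pow, if_neg, mul_zero]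
      intro h
      exact hc (Fin.ext h.symm)
    · intro h; exact absurd (Finset.mem_univ b) h
  have hf0 : f ≠ 0 := by
    intro h
    have := hcoeff ⟨0, hp⟩
    rw [h, coeff_zero] at this
    exact hM _ this.symm
  have hdeg : f.natDegree < p := by
    rw [natDegree_lt_iff_degree_lt hf0, degree_lt_iff_coeff_zero]
    intro k hk
    rw [hf, finsetSum_coeff]
    apply Finset.sum_eq_zero
    intro b _
    rw [coeff_C_mul, coeff_X_pow, if_neg, mul_zero]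
    intro h
    have := b.2
    omega
  set B := (Finset.range N).filter (fun γ : ℕ => ¬ (∑ b : Fin p, (γ : C) ^ (b : ℕ) * M b) ≠ 0) with hB
  have hBcard : B.card < p := by
    refine lt_of_le_of_lt ?_ hdeg
    have hinj : Set.InjOn (fun γ : ℕ => (γ : C)) B := fun a _ b _ h => Nat.cast_injective (R := C) h
    have h1 : (B.image (fun γ : ℕ => (γ : C))).card = B.card := Finset.card_image_of_injOn hinj
    rw [← h1]
    have h2 : (B.image (fun γ : ℕ => (γ : C))).val ≤ f.roots := by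
      rw [Finset.val_le_iff_val_subset]
      intro w hw
      rw [Finset.mem_val, Finset.mem_image] at hw
      obtain ⟨γ, hγ, rfl⟩ := hw
      rw [hB, Finset.mem_filter, not_not] at hγ
      rw [mem_roots hf0, IsRoot.def, hf, eval_finsetSum]
      rw [← hγ.2]
      refine Finset.sum_congr rfl fun b _ => ?_
      rw [eval_mul, eval_C, eval_pow, eval_X, mul_comm]
    exact (Multiset.card_le_card h2).trans (card_roots' f)
  have hsum : ((Finset.range N).filter (fun γ : ℕ => (∑ b : Fin p, (γ : C) ^ (b : ℕ) * M b) ≠ 0)).card + B.card = N := by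
    rw [hB, Finset.card_filter_add_card_filter_not, Finset.card_range]
  omega

/-- one min-expression -/
theorem Rep.conj_min (hI : InvFrac A C G) {V : Type*} [Fintype V] {u : V → C} (hu : ∀ v, u v ≠ 0)
    (S : Finset (V → ℚ)) (hS : S.Nonempty) (T : (G → V → ℝ) → ℝ)
    (hT1 : ∀ ξ : G → V → ℝ, ∀ g : G, ∃ a ∈ S, lf a (ξ g) ≤ T ξ)
    (hT2 : ∀ ξ : G → V → ℝ, ∃ g : G, ∀ a ∈ S, T ξ ≤ lf a (ξ g)) :
    Rep A (fun ψ : C →+* ℂ => T (fun g v => Real.log ‖ψ (g • u v)‖)) := by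
  classical
  obtain ⟨D, hD, K, n, hn⟩ := exists_denom S
  set p := S.card with hp
  have hppos : 0 < p := Finset.card_pos.mpr hS
  set e : Fin p ≃ S := (Finset.equivFin S).symm with he
  set M : Fin p → C := fun b => ∏ v, u v ^ n (e b) v with hM
  set Dn : C := ∏ v, u v ^ K with hDn
  have hM0 : ∀ b, M b ≠ 0 := fun b => Finset.prod_ne_zero_iff.mpr fun v _ => pow_ne_zero _ (hu v)
  have hDn0 : Dn ≠ 0 := Finset.prod_ne_zero_iff.mpr fun v _ => pow_ne_zero _ (hu v)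
  set N : ℕ := Fintype.card G * p + p with hN
  set W : ℕ → C := fun γ => ∑ b : Fin p, (γ : C) ^ (b : ℕ) * M b with hW
  set Γ := (Finset.range N).filter (fun γ : ℕ => W γ ≠ 0) with hΓ
  have hΓcard : Fintype.card G * p < Γ.card := by
    rcases exists_good_gammas hppos M hM0 N with h | h
    · have : N - p = Fintype.card G * p := by omega
      rw [this] at h
      exact h
    · omega
  have hΓne : Γ.Nonempty := Finset.card_pos.mp (by omega)
  have hW0 : ∀ γ ∈ Γ, W γ ≠ 0 := fun γ hγ => (Finset.mem_filter.mp hγ).2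
  set Nm : ℕ → C := fun γ => ∏ g : G, g • W γ with hNm
  set Y : ℕ → C := fun γ => Dn * ∏ g ∈ Finset.univ.erase (1:G), g • W γ with hY
  have hYW : ∀ γ, Y γ * W γ = Dn * Nm γ := by
    intro γ
    have : Nm γ = (∏ g ∈ Finset.univ.erase (1:G), g • W γ) * W γ := by
      rw [hNm]
      show (∏ g : G, g • W γ) = _
      rw [← Finset.prod_erase_mul Finset.univ _ (Finset.mem_univ (1:G)), one_smul]
    rw [this, hY]
    ring
  have hsm0 : ∀ x : C, x ≠ 0 → ∀ g : G, g • x ≠ 0 := by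
    intro x hx g h
    apply hx
    have := congrArg (fun y => g⁻¹ • y) h
    simpa using this
  have hNm0 : ∀ γ ∈ Γ, Nm γ ≠ 0 := fun γ hγ =>
    Finset.prod_ne_zero_iff.mpr fun g _ => hsm0 _ (hW0 γ hγ) g
  have hY0 : ∀ γ ∈ Γ, Y γ ≠ 0 := fun γ hγ =>
    mul_ne_zero hDn0 (Finset.prod_ne_zero_iff.mpr fun g _ => hsm0 _ (hW0 γ hγ) g)
  have hNinv : ∀ γ, ∀ g : G, g • Nm γ = Nm γ := fun γ g => Finset.smul_prod_perm (W γ) g
  -- representability of `H γ`
  have hRep : ∀ γ ∈ Γ, Rep A (fun ψ : C →+* ℂ =>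
      ((1 / (D:ℚ) : ℚ) : ℝ) * (mx G (fun g => Real.log ‖ψ (g • Y γ)‖) - Real.log ‖ψ (Nm γ)‖)) :=
    fun γ hγ => ((Rep.conj_one hI (hY0 γ hγ)).sub (Rep.inv hI (hNm0 γ hγ) (hNinv γ))).smul _
  -- nonvanishing hypersurface
  obtain ⟨q₁, hq₁, hv₁⟩ := exists_nonvan_fin hI hu
  have hex : ∀ γ ∈ Γ, ∃ q : A, q ≠ 0 ∧ ∀ ψ : C →+* ℂ, ψ (algebraMap A C q) ≠ 0 → ∀ g : G,
      ψ (g • W γ) ≠ 0 := fun γ hγ => exists_nonvan hI (hW0 γ hγ)
  choose! q₂ hq₂ hv₂ using hex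
  set q₀ : A := q₁ * ∏ γ ∈ Γ, q₂ γ with hq₀
  have hq₀0 : q₀ ≠ 0 := mul_ne_zero hq₁ (Finset.prod_ne_zero_iff.mpr hq₂)
  have hsplit : ∀ ψ : C →+* ℂ, ψ (algebraMap A C q₀) ≠ 0 →
      (∀ v, ∀ g : G, ψ (g • u v) ≠ 0) ∧ ∀ γ ∈ Γ, ∀ g : G, ψ (g • W γ) ≠ 0 := by
    intro ψ hψ
    rw [hq₀, map_mul, map_mul, map_prod, map_prod] at hψ
    refine ⟨hv₁ ψ (left_ne_zero_of_mul hψ), fun γ hγ => hv₂ γ hγ ψ ?_⟩
    exact Finset.prod_ne_zero_iff.mp (right_ne_zero_of_mul hψ) γ hγ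
  -- logs of the monomials
  have hlogM : ∀ ψ : C →+* ℂ, (∀ v, ∀ g : G, ψ (g • u v) ≠ 0) → ∀ (m : V → ℕ) (g : G),
      ψ (g • ∏ v, u v ^ m v) ≠ 0 ∧
      Real.log ‖ψ (g • ∏ v, u v ^ m v)‖ = ∑ v, (m v : ℝ) * Real.log ‖ψ (g • u v)‖ := by
    intro ψ hψ m g
    have h1 : ψ (g • ∏ v, u v ^ m v) = ∏ v, ψ (g • u v) ^ m v := by
      rw [Finset.smul_prod', map_prod]
      refine Finset.prod_congr rfl fun v _ => ?_
      rw [smul_pow', map_pow]
    refine ⟨?_, ?_⟩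
    · rw [h1]
      exact Finset.prod_ne_zero_iff.mpr fun v _ => pow_ne_zero _ (hψ v g)
    · rw [h1, norm_prod, Real.log_prod]
      · refine Finset.sum_congr rfl fun v _ => ?_
        rw [norm_pow, Real.log_pow]
      · intro v _
        exact norm_ne_zero_iff.mpr (pow_ne_zero _ (hψ v g))
  have hdiff : ∀ ψ : C →+* ℂ, (∀ v, ∀ g : G, ψ (g • u v) ≠ 0) → ∀ (b : Fin p) (g : G),
      Real.log ‖ψ (g • Dn)‖ - Real.log ‖ψ (g • M b)‖
        = (D : ℝ) * lf (e b : V → ℚ) (fun v => Real.log ‖ψ (g • u v)‖) := by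
    intro ψ hψ b g
    have h1 := (hlogM ψ hψ (fun _ => K) g).2
    have h2 := (hlogM ψ hψ (n (e b)) g).2
    have h1' : Real.log ‖ψ (g • Dn)‖ = ∑ v, (K : ℝ) * Real.log ‖ψ (g • u v)‖ := h1
    have h2' : Real.log ‖ψ (g • M b)‖ = ∑ v, (n (e b) v : ℝ) * Real.log ‖ψ (g • u v)‖ := h2
    rw [h1', h2', lf, Finset.mul_sum, ← Finset.sum_sub_distrib]
    refine Finset.sum_congr rfl fun v _ => ?_
    have h3 : (D : ℚ) * (e b : V → ℚ) v = (K : ℚ) - n (e b) v := hn _ (e b).2 v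
    have h4 : (D : ℝ) * ((e b : V → ℚ) v : ℝ) = (K : ℝ) - n (e b) v := by exact_mod_cast h3
    rw [← mul_assoc, h4]
    ring
  have hkey : ∀ ψ : C →+* ℂ, (∀ v, ∀ g : G, ψ (g • u v) ≠ 0) → ∀ γ ∈ Γ, (∀ g : G, ψ (g • W γ) ≠ 0) →
      ∀ g : G, Real.log ‖ψ (g • Y γ)‖ - Real.log ‖ψ (Nm γ)‖
        = Real.log ‖ψ (g • Dn)‖ - Real.log ‖ψ (g • W γ)‖ := by
    intro ψ hψ γ hγ hw g
    have h1 : ψ (g • Y γ) * ψ (g • W γ) = ψ (g • Dn) * ψ (Nm γ) := by
      rw [← map_mul, ← smul_mul', hYW γ, smul_mul', hNinv, map_mul]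
    have hD0 : ψ (g • Dn) ≠ 0 := (hlogM ψ hψ (fun _ => K) g).1
    have hN0 : ψ (Nm γ) ≠ 0 := by
      rw [hNm]
      simp only [map_prod]
      exact Finset.prod_ne_zero_iff.mpr fun g _ => hw g
    have hYne : ψ (g • Y γ) ≠ 0 := by
      intro h0
      rw [h0, zero_mul] at h1
      exact mul_ne_zero hD0 hN0 h1.symm
    have h2 : Real.log ‖ψ (g • Y γ)‖ + Real.log ‖ψ (g • W γ)‖
        = Real.log ‖ψ (g • Dn)‖ + Real.log ‖ψ (Nm γ)‖ := by
      rw [← Real.log_mul (norm_ne_zero_iff.mpr hYne) (norm_ne_zero_iff.mpr (hw g)), ← norm_mul, h1,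
        norm_mul, Real.log_mul (norm_ne_zero_iff.mpr hD0) (norm_ne_zero_iff.mpr hN0)]
    linarith
  have hWψ : ∀ (ψ : C →+* ℂ) (γ : ℕ) (g : G), ψ (g • W γ) = ∑ b : Fin p, (γ : ℂ) ^ (b : ℕ) * ψ (g • M b) := by
    intro ψ γ g
    rw [hW]
    simp only
    rw [Finset.smul_sum, map_sum]
    refine Finset.sum_congr rfl fun b _ => ?_
    rw [smul_mul', map_mul, smul_pow', map_pow]
    have : g • (γ : C) = (γ : C) := map_natCast (MulSemiringAction.toRingHom G C g) γ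
    rw [this, map_natCast]
  obtain ⟨Cv, hCv1, hCv⟩ := vm_family (G := G) (Finset.range N) hppos
  -- the crude constant
  set c₀ : ℝ := ∑ γ ∈ Finset.range N, ∑ b : Fin p, (γ : ℝ) ^ (b : ℕ) + 1 with hc₀
  have hc₀1 : 1 ≤ c₀ := by
    have : 0 ≤ ∑ γ ∈ Finset.range N, ∑ b : Fin p, (γ : ℝ) ^ (b : ℕ) :=
      Finset.sum_nonneg fun γ _ => Finset.sum_nonneg fun b _ => by positivity
    linarith
  have hDR : (0:ℝ) < D := by exact_mod_cast hD
  set Kc : ℝ := (1 / (D:ℝ)) * (Real.log c₀ + Real.log Cv) with hKc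
  have hlc₀ : 0 ≤ Real.log c₀ := Real.log_nonneg hc₀1
  have hlCv : 0 ≤ Real.log Cv := Real.log_nonneg hCv1
  refine Rep.of_inf Γ hΓne hRep hq₀0 (K := Kc) ?_ ?_
  · -- `T ≤ H γ + K`
    intro ψ hψ γ hγ
    obtain ⟨hu', hw'⟩ := hsplit ψ hψ
    obtain ⟨g, hg⟩ := hT2 (fun g v => Real.log ‖ψ (g • u v)‖)
    have hb : ∃ b : Fin p, ∀ b', ‖ψ (g • M b')‖ ≤ ‖ψ (g • M b)‖ := by
      have : Nonempty (Fin p) := ⟨⟨0, hppos⟩⟩
      exact Finite.exists_max _
    obtain ⟨b, hb⟩ := hb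
    have hMb : ψ (g • M b) ≠ 0 := (hlogM ψ hu' (n (e b)) g).1
    have hWle : ‖ψ (g • W γ)‖ ≤ c₀ * ‖ψ (g • M b)‖ := by
      rw [hWψ]
      refine (norm_sum_le _ _).trans ?_
      calc ∑ b' : Fin p, ‖(γ : ℂ) ^ (b' : ℕ) * ψ (g • M b')‖
          ≤ ∑ b' : Fin p, (γ : ℝ) ^ (b' : ℕ) * ‖ψ (g • M b)‖ := by
            refine Finset.sum_le_sum fun b' _ => ?_
            rw [norm_mul, norm_pow, Complex.norm_natCast]
            gcongr
            exact hb b'
        _ = (∑ b' : Fin p, (γ : ℝ) ^ (b' : ℕ)) * ‖ψ (g • M b)‖ := by rw [Finset.sum_mul]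
        _ ≤ c₀ * ‖ψ (g • M b)‖ := by
            gcongr
            have : ∑ b' : Fin p, (γ : ℝ) ^ (b' : ℕ) ≤ ∑ γ ∈ Finset.range N, ∑ b : Fin p, (γ : ℝ) ^ (b : ℕ) :=
              Finset.single_le_sum (f := fun γ : ℕ => ∑ b : Fin p, (γ : ℝ) ^ (b : ℕ))
                (fun γ _ => Finset.sum_nonneg fun b _ => by positivity) (Finset.mem_filter.mp hγ).1
            linarith
    have hlogW : Real.log ‖ψ (g • W γ)‖ ≤ Real.log c₀ + Real.log ‖ψ (g • M b)‖ := by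
      rw [← Real.log_mul (by linarith) (norm_ne_zero_iff.mpr hMb)]
      exact Real.log_le_log (norm_pos_iff.mpr (hw' γ hγ g)) hWle
    have h1 := hkey ψ hu' γ hγ (hw' γ hγ) g
    have h2 := hdiff ψ hu' b g
    have h3 := le_mx (fun g : G => Real.log ‖ψ (g • Y γ)‖) g
    have h4 : T (fun g v => Real.log ‖ψ (g • u v)‖) ≤ lf (e b : V → ℚ) (fun v => Real.log ‖ψ (g • u v)‖) :=
      hg _ (e b).2
    have h5 : (D : ℝ) * T (fun g v => Real.log ‖ψ (g • u v)‖)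
        ≤ (D:ℝ) * lf (e b : V → ℚ) (fun v => Real.log ‖ψ (g • u v)‖) :=
      mul_le_mul_of_nonneg_left h4 hDR.le
    push_cast
    rw [hKc, ← mul_add, one_div, le_inv_mul_iff₀ hDR]
    linarith
  · intro ψ hψ
    obtain ⟨hu', hw'⟩ := hsplit ψ hψ
    obtain ⟨γ, hγ, hgood⟩ := hCv Γ (Finset.filter_subset _ _) hΓcard (fun g b => ψ (g • M b))
    refine ⟨γ, hγ, ?_⟩
    obtain ⟨g, hg⟩ := exists_mx (fun g : G => Real.log ‖ψ (g • Y γ)‖)
    obtain ⟨a, ha, hTa⟩ := hT1 (fun g v => Real.log ‖ψ (g • u v)‖) g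
    set b : Fin p := e.symm ⟨a, ha⟩ with hbdef
    have hab : (e b : V → ℚ) = a := by rw [hbdef, Equiv.apply_symm_apply]
    have h2 := hdiff ψ hu' b g
    rw [hab] at h2
    have h1 := hkey ψ hu' γ hγ (hw' γ hγ) g
    have hMb : ψ (g • M b) ≠ 0 := (hlogM ψ hu' (n (e b)) g).1
    have hle : ‖ψ (g • M b)‖ ≤ Cv * ‖ψ (g • W γ)‖ := by
      rw [hWψ]
      exact hgood g b
    have hlog : Real.log ‖ψ (g • M b)‖ ≤ Real.log Cv + Real.log ‖ψ (g • W γ)‖ := by
      rw [← Real.log_mul (by linarith) (norm_ne_zero_iff.mpr (hw' γ hγ g))]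
      exact Real.log_le_log (norm_pos_iff.mpr hMb) hle
    have h5 : (D : ℝ) * lf a (fun v => Real.log ‖ψ (g • u v)‖)
        ≤ (D : ℝ) * T (fun g v => Real.log ‖ψ (g • u v)‖) :=
      mul_le_mul_of_nonneg_left hTa hDR.le
    push_cast
    rw [hg, one_div, inv_mul_le_iff₀ hDR, hKc]
    have h6 : (D:ℝ) * (1 / (D:ℝ) * (Real.log c₀ + Real.log Cv)) = Real.log c₀ + Real.log Cv := by
      field_simp
    rw [mul_add, h6]
    linarith

/-- **(CONJ)** -/
theorem Rep.conj (hI : InvFrac A C G) {V : Type*} [Fintype V] {u : V → C} (hu : ∀ v, u v ≠ 0)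
    {F : (V → ℝ) → ℝ} (hF : PL F) :
    Rep A (fun ψ : C →+* ℂ => mx G (fun g => F (fun v => Real.log ‖ψ (g • u v)‖))) := by
  classical
  obtain ⟨s, hs, hsne, hnf⟩ := hF.nf
  -- for `S ∈ s` the function `T S ξ = max_g min_{a ∈ S} lf a (ξ g)`
  set mn : (S : Finset (V → ℚ)) → (V → ℝ) → ℝ := fun S ξ =>
    if h : S.Nonempty then S.inf' h (fun a => lf a ξ) else 0 with hmn
  have hmn1 : ∀ S : Finset (V → ℚ), S.Nonempty → ∀ ξ, ∃ a ∈ S, mn S ξ = lf a ξ := by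
    intro S hS ξ
    rw [hmn]
    simp only [hS, dif_pos]
    obtain ⟨a, ha, h⟩ := Finset.exists_mem_eq_inf' hS (fun a => lf a ξ)
    exact ⟨a, ha, h⟩
  have hmn2 : ∀ S : Finset (V → ℚ), S.Nonempty → ∀ ξ, ∀ a ∈ S, mn S ξ ≤ lf a ξ := by
    intro S hS ξ a ha
    rw [hmn]
    simp only [hS, dif_pos]
    exact Finset.inf'_le _ ha
  set T : Finset (V → ℚ) → (G → V → ℝ) → ℝ := fun S ξ => mx G (fun g => mn S (ξ g)) with hT
  have hRep : ∀ S ∈ s, Rep A (fun ψ : C →+* ℂ => T S (fun g v => Real.log ‖ψ (g • u v)‖)) := by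
    intro S hS
    refine Rep.conj_min hI hu S (hsne S hS) (T S) ?_ ?_
    · intro ξ g
      obtain ⟨a, ha, h⟩ := hmn1 S (hsne S hS) (ξ g)
      refine ⟨a, ha, ?_⟩
      rw [← h]
      exact le_mx (fun g => mn S (ξ g)) g
    · intro ξ
      obtain ⟨g, hg⟩ := exists_mx (fun g => mn S (ξ g))
      refine ⟨g, fun a ha => ?_⟩
      rw [hT]
      simp only
      rw [hg]
      exact hmn2 S (hsne S hS) _ a ha
  refine Rep.of_sup s hs hRep one_ne_zero (K := 0) ?_ ?_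
  · intro ψ _ S hS
    rw [add_zero]
    refine mx_le fun g => ?_
    refine le_trans ?_ (le_mx _ g)
    rw [hnf]
    exact ⟨S, hS, fun a ha => hmn2 S (hsne S hS) _ a ha⟩
  · intro ψ _
    obtain ⟨g, hg⟩ := exists_mx (fun g : G => F (fun v => Real.log ‖ψ (g • u v)‖))
    obtain ⟨S, hS, h⟩ := (hnf (fun v => Real.log ‖ψ (g • u v)‖) _).mp le_rfl
    refine ⟨S, hS, ?_⟩
    rw [add_zero, hg]
    obtain ⟨a, ha, he⟩ := hmn1 S (hsne S hS) (fun v => Real.log ‖ψ (g • u v)‖)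
    calc F (fun v => Real.log ‖ψ (g • u v)‖) ≤ lf a _ := h a ha
      _ = mn S _ := he.symm
      _ ≤ T S (fun g v => Real.log ‖ψ (g • u v)‖) :=
          le_mx (fun g => mn S (fun v => Real.log ‖ψ (g • u v)‖)) g

end Conj

end Crest.Agent.R281.TrC_282
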