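import Crest.Agent.R281.TrC4_282

/-!
# R281 / TROP-C, part 5: extension of points, Galois set-up, and the root form.
-/

set_option autoImplicit false

open Polynomial

namespace Crest.Agent.R281.TrC_282

open Crest.Agent.R281.TrPL_726

/-! ## extension of points -/

theorem exists_extension {A C : Type*} [CommRing A] [CommRing C] [Algebra A C]
    [Algebra.IsIntegral A C] (hinj : Function.Injective (algebraMap A C)) (φ : A →+* ℂ) :
    ∃ ψ : C →+* ℂ, ψ.comp (algebraMap A C) = φ := by
  classical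
  set P : Ideal A := RingHom.ker φ with hP
  have hPp : P.IsPrime := RingHom.ker_isPrime φ
  obtain ⟨Q, _, hQp, hQ⟩ := Ideal.exists_ideal_over_prime_of_isIntegral P (⊥ : Ideal C) (by
    rw [← RingHom.ker_eq_comap_bot, (RingHom.injective_iff_ker_eq_bot _).mp hinj]
    exact bot_le)
  let : Algebra (A ⧸ P) (C ⧸ Q) := Ideal.quotientMap Q (algebraMap A C) (le_of_eq hQ.symm) |>.toAlgebra
  let : Algebra (A ⧸ P) ℂ := (Ideal.Quotient.lift P φ (fun a ha => ha)).toAlgebra
  have hmk : ∀ a : A, algebraMap (A ⧸ P) (C ⧸ Q) (Ideal.Quotient.mk P a)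
      = Ideal.Quotient.mk Q (algebraMap A C a) := fun a => Ideal.quotientMap_mk
  have hmk2 : ∀ a : A, algebraMap (A ⧸ P) ℂ (Ideal.Quotient.mk P a) = φ a := fun a =>
    Ideal.Quotient.lift_mk _ _ _
  have hi1 : Function.Injective (algebraMap (A ⧸ P) (C ⧸ Q)) := by
    rw [injective_iff_map_eq_zero]
    intro x hx
    obtain ⟨a, rfl⟩ := Ideal.Quotient.mk_surjective x
    rw [hmk, Ideal.Quotient.eq_zero_iff_mem] at hx
    rw [Ideal.Quotient.eq_zero_iff_mem, ← hQ]
    exact hx
  have hi2 : Function.Injective (algebraMap (A ⧸ P) ℂ) := by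
    rw [injective_iff_map_eq_zero]
    intro x hx
    obtain ⟨a, rfl⟩ := Ideal.Quotient.mk_surjective x
    rw [hmk2] at hx
    rw [Ideal.Quotient.eq_zero_iff_mem]
    exact hx
  have : FaithfulSMul (A ⧸ P) (C ⧸ Q) := (faithfulSMul_iff_algebraMap_injective _ _).mpr hi1
  have : FaithfulSMul (A ⧸ P) ℂ := (faithfulSMul_iff_algebraMap_injective _ _).mpr hi2
  have : IsDomain (C ⧸ Q) := Ideal.Quotient.isDomain Q
  have : IsDomain (A ⧸ P) := Ideal.Quotient.isDomain P
  have : Algebra.IsIntegral (A ⧸ P) (C ⧸ Q) := by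
    constructor
    intro y
    obtain ⟨c, rfl⟩ := Ideal.Quotient.mk_surjective y
    obtain ⟨f, hf, hfc⟩ := Algebra.IsIntegral.isIntegral (R := A) c
    refine ⟨f.map (Ideal.Quotient.mk P), hf.map _, ?_⟩
    rw [eval₂_map]
    have : (algebraMap (A ⧸ P) (C ⧸ Q)).comp (Ideal.Quotient.mk P)
        = (Ideal.Quotient.mk Q).comp (algebraMap A C) := RingHom.ext hmk
    rw [this, ← hom_eval₂, hfc, map_zero]
  have : Algebra.IsAlgebraic (A ⧸ P) (C ⧸ Q) := inferInstance
  have : Module.IsTorsionFree (A ⧸ P) (C ⧸ Q) := Module.IsTorsionFree.trans_faithfulSMul _ (C ⧸ Q) _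
  have : Module.IsTorsionFree (A ⧸ P) ℂ := Module.IsTorsionFree.trans_faithfulSMul _ ℂ _
  let L : (C ⧸ Q) →ₐ[A ⧸ P] ℂ := IsAlgClosed.lift
  refine ⟨(L : (C ⧸ Q) →+* ℂ).comp (Ideal.Quotient.mk Q), ?_⟩
  ext a
  have h1 : L (algebraMap (A ⧸ P) (C ⧸ Q) (Ideal.Quotient.mk P a)) = algebraMap (A ⧸ P) ℂ (Ideal.Quotient.mk P a) :=
    L.commutes _
  rw [hmk, hmk2] at h1
  simpa using h1

/-! ## Galois set-up -/

section Gal

variable (A K E : Type*) [CommRing A] [IsDomain A] [Field K] [Field E] [Algebra A K] [IsFractionRing A K]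
  [Algebra K E] [Algebra A E] [IsScalarTower A K E]

instance smulComm_gal : SMulCommClass (E ≃ₐ[K] E) A E where
  smul_comm g a x := by
    rw [Algebra.smul_def, Algebra.smul_def, smul_mul']
    congr 1
    rw [IsScalarTower.algebraMap_apply A K E]
    exact g.commutes _

theorem invFrac_gal [FiniteDimensional K E] [IsGalois K E] :
    InvFrac A (integralClosure A E) (E ≃ₐ[K] E) := by
  constructor
  · intro a b hab
    have h := congrArg (fun x : integralClosure A E => (x : E)) hab
    have h' : algebraMap A E a = algebraMap A E b := h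
    rw [IsScalarTower.algebraMap_apply A K E, IsScalarTower.algebraMap_apply A K E] at h'
    exact IsFractionRing.injective A K ((algebraMap K E).injective h')
  · intro c hc
    have hfix : (c : E) ∈ IntermediateField.fixedField (⊤ : Subgroup (E ≃ₐ[K] E)) := by
      rintro ⟨g, _⟩
      have := congrArg (fun x : integralClosure A E => (x : E)) (hc g)
      exact this
    rw [IsGalois.fixedField_top, IntermediateField.mem_bot] at hfix
    obtain ⟨k, hk⟩ := hfix
    obtain ⟨a, b, hb, hab⟩ := IsFractionRing.div_surjective (A := A) k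
    refine ⟨a, b, nonZeroDivisors.ne_zero hb, ?_⟩
    apply Subtype.ext
    show algebraMap A E b * (c : E) = algebraMap A E a
    rw [← hk, ← hab, IsScalarTower.algebraMap_apply A K E, IsScalarTower.algebraMap_apply A K E,
      ← map_mul]
    congr 1
    have hb0 : algebraMap A K b ≠ 0 := by
      rw [Ne, IsFractionRing.to_map_eq_zero_iff]
      exact nonZeroDivisors.ne_zero hb
    field_simp

end Gal

end Crest.Agent.R281.TrC_282
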