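import Crest.Agent.R281.TrC5_282

/-!
# R281 / TROP-C, part 6: the root form `RootData`.
-/

set_option autoImplicit false

open Polynomial

namespace Crest.Agent.R281.TrC_282

open Crest.Agent.R281.TrPL_726

/-- the vector of logarithms: elements of `A` and differences of the marked roots (`0` on the diagonal). -/
noncomputable def dat {A V : Type*} [CommRing A] {B : ℕ} (φ : A →+* ℂ) (a : V → A) (b : Fin B → ℂ) :
    V ⊕ (Fin B × Fin B) → ℝ :=
  Sum.elim (fun v => Real.log ‖φ (a v)‖) (fun p => Real.log ‖b p.1 - b p.2‖)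

/-- Markings of the roots of finitely many nonzero polynomials over `A` at the points `φ : A →+* ℂ`. -/
structure RootData {A : Type*} [CommRing A] {n : ℕ} (q : Fin n → A[X]) where
  B : ℕ
  e : Fin n → Fin B → ℕ
  Mk : (A →+* ℂ) → Set (Fin B → ℂ)
  q0 : A
  hq0 : q0 ≠ 0
  hpos : ∀ k, ∃ v, 0 < e v k
  ne : ∀ φ : A →+* ℂ, φ q0 ≠ 0 → (Mk φ).Nonempty
  inj : ∀ φ : A →+* ℂ, φ q0 ≠ 0 → ∀ b ∈ Mk φ, Function.Injective b
  lc : ∀ φ : A →+* ℂ, φ q0 ≠ 0 → ∀ v, φ (q v).leadingCoeff ≠ 0
  fac : ∀ φ : A →+* ℂ, φ q0 ≠ 0 → ∀ b ∈ Mk φ, ∀ v x,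
    (q v).eval₂ φ x = φ (q v).leadingCoeff * ∏ k, (x - b k) ^ e v k
  rep : ∀ {V : Type} [Fintype V] (a : V → A), (∀ v, a v ≠ 0) →
    ∀ F : (V ⊕ (Fin B × Fin B) → ℝ) → ℝ, PL F →
      ∃ m, TrL A m ∧ ∃ q1 : A, q1 ≠ 0 ∧ ∃ K : ℝ, ∀ φ : A →+* ℂ, φ q1 ≠ 0 →
        (∀ b ∈ Mk φ, F (dat φ a b) ≤ m φ + K) ∧ ∃ b ∈ Mk φ, m φ ≤ F (dat φ a b) + K

section Root

variable {A : Type*} (K E : Type*) [CommRing A] [IsDomain A] [Field K] [Field E] [CharZero E]
  [Algebra A K] [IsFractionRing A K] [Algebra K E] [Algebra A E] [IsScalarTower A K E]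
  [FiniteDimensional K E] [IsGalois K E]

include K in
theorem rootData_aux {n : ℕ} (q : Fin n → A[X]) (hq : ∀ v, q v ≠ 0)
    (hs : ∀ v, ((q v).map (algebraMap A E)).Splits) : Nonempty (RootData q) := by
  classical
  have hAE : Function.Injective (algebraMap A E) := by
    rw [IsScalarTower.algebraMap_eq A K E]
    exact (algebraMap K E).injective.comp (IsFractionRing.injective A K)
  have hI : InvFrac A (integralClosure A E) (E ≃ₐ[K] E) := invFrac_gal A K E
  have : CharZero (integralClosure A E) := by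
    refine ⟨fun a b h => ?_⟩
    have := congrArg (fun x : integralClosure A E => (x : E)) h
    exact_mod_cast this
  set R : Finset E := Finset.univ.biUnion (fun v => ((q v).map (algebraMap A E)).roots.toFinset) with hR
  set B := R.card with hB
  set θ : Fin B → E := fun k => (R.equivFin.symm k : E) with hθ
  have hθR : ∀ k, θ k ∈ R := fun k => (R.equivFin.symm k).2
  have hθinj : Function.Injective θ := fun k l h => R.equivFin.symm.injective (Subtype.ext h)
  set e : Fin n → Fin B → ℕ := fun v k => ((q v).map (algebraMap A E)).roots.count (θ k) with he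
  have hmap0 : ∀ v, (q v).map (algebraMap A E) ≠ 0 := fun v => by
    rw [Ne, Polynomial.map_eq_zero_iff hAE]; exact hq v
  have hθroot : ∀ k, ∃ v, θ k ∈ ((q v).map (algebraMap A E)).roots := by
    intro k
    have := hθR k
    rw [hR, Finset.mem_biUnion] at this
    obtain ⟨v, _, hv⟩ := this
    exact ⟨v, Multiset.mem_toFinset.mp hv⟩
  -- factorisation over `E`
  have hfacE : ∀ v, (q v).map (algebraMap A E)
      = C (algebraMap A E (q v).leadingCoeff) * ∏ k, (X - C (θ k)) ^ e v k := by
    intro v
    have h1 := (hs v).eq_prod_roots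
    rw [leadingCoeff_map_of_injective hAE] at h1
    conv_lhs => rw [h1]
    congr 1
    rw [Finset.prod_multiset_map_count]
    have h2 : ∏ m ∈ ((q v).map (algebraMap A E)).roots.toFinset,
        (X - C m) ^ Multiset.count m ((q v).map (algebraMap A E)).roots
        = ∏ m ∈ R, (X - C m) ^ Multiset.count m ((q v).map (algebraMap A E)).roots := by
      apply Finset.prod_subset
      · intro x hx
        rw [hR, Finset.mem_biUnion]
        exact ⟨v, Finset.mem_univ v, hx⟩
      · intro x _ hx
        rw [Multiset.mem_toFinset] at hx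
        rw [Multiset.count_eq_zero_of_notMem hx, pow_zero]
    rw [h2, ← Finset.prod_coe_sort R]
    exact (Equiv.prod_comp R.equivFin.symm
      (fun m : R => (X - C (m : E)) ^ Multiset.count (m : E) ((q v).map (algebraMap A E)).roots)).symm
  -- the common leading coefficient
  set a₀ : A := ∏ v, (q v).leadingCoeff with ha₀
  have ha₀0 : a₀ ≠ 0 := Finset.prod_ne_zero_iff.mpr fun v _ => leadingCoeff_ne_zero.mpr (hq v)
  have hint : ∀ k, IsIntegral A (algebraMap A E a₀ * θ k) := by
    intro k
    obtain ⟨v, hv⟩ := hθroot k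
    have h1 : aeval (θ k) (q v) = 0 := by
      have := (mem_roots'.mp hv).2
      rw [IsRoot.def, eval_map] at this
      exact this
    have h2 := isIntegral_leadingCoeff_smul (q v) (θ k) h1
    have h3 : algebraMap A E a₀ * θ k
        = algebraMap A E (∏ w ∈ Finset.univ.erase v, (q w).leadingCoeff) * ((q v).leadingCoeff • θ k) := by
      rw [ha₀, ← Finset.prod_erase_mul Finset.univ _ (Finset.mem_univ v), map_mul, Algebra.smul_def]
      ring
    rw [h3]
    exact isIntegral_algebraMap.mul h2
  set θ' : Fin B → integralClosure A E := fun k => ⟨algebraMap A E a₀ * θ k, hint k⟩ with hθ'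
  -- specialised factorisation
  have hcoe : ∀ a : A, ((algebraMap A (integralClosure A E) a : integralClosure A E) : E) = algebraMap A E a :=
    fun a => rfl
  have hfac : ∀ (ψ : integralClosure A E →+* ℂ), ψ (algebraMap A _ a₀) ≠ 0 → ∀ v x,
      (q v).eval₂ (ψ.comp (algebraMap A (integralClosure A E))) x
        = ψ (algebraMap A _ (q v).leadingCoeff) * ∏ k, (x - ψ (θ' k) / ψ (algebraMap A _ a₀)) ^ e v k := by
    intro ψ hψ v x
    set N := ∑ k, e v k with hN
    have hpoly : C (algebraMap A (integralClosure A E) a₀) ^ N * (q v).map (algebraMap A (integralClosure A E))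
        = C (algebraMap A (integralClosure A E) (q v).leadingCoeff)
          * ∏ k, (C (algebraMap A (integralClosure A E) a₀) * X - C (θ' k)) ^ e v k := by
      have hinjE : Function.Injective (algebraMap (integralClosure A E) E) := Subtype.val_injective
      apply Polynomial.map_injective (algebraMap (integralClosure A E) E) hinjE
      rw [Polynomial.map_mul, Polynomial.map_mul, Polynomial.map_pow, Polynomial.map_C, Polynomial.map_map,
        Polynomial.map_C, Polynomial.map_prod]
      have hcomp : (algebraMap (integralClosure A E) E).comp (algebraMap A (integralClosure A E))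
          = algebraMap A E := rfl
      rw [hcomp, hfacE v]
      have h4 : ∀ a : A, algebraMap (integralClosure A E) E (algebraMap A (integralClosure A E) a)
          = algebraMap A E a := fun a => rfl
      rw [h4, h4]
      have h5 : ∀ k, Polynomial.map (algebraMap (integralClosure A E) E)
          ((C (algebraMap A (integralClosure A E) a₀) * X - C (θ' k)) ^ e v k)
          = C (algebraMap A E a₀) ^ e v k * (X - C (θ k)) ^ e v k := by
        intro k
        rw [Polynomial.map_pow, Polynomial.map_sub, Polynomial.map_mul, Polynomial.map_C, Polynomial.map_X,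
          Polynomial.map_C, h4, ← mul_pow]
        have h6 : algebraMap (integralClosure A E) E (θ' k) = algebraMap A E a₀ * θ k := rfl
        rw [h6, C_mul]
        ring
      rw [Finset.prod_congr rfl (fun k _ => h5 k), Finset.prod_mul_distrib, Finset.prod_pow_eq_pow_sum]
      ring
    have h7 := congrArg (fun f : (integralClosure A E)[X] => f.eval₂ ψ x) hpoly
    simp only [eval₂_mul, eval₂_pow, eval₂_C, eval₂_map, eval₂_finsetProd, eval₂_sub, eval₂_X] at h7
    have h8 : ∀ k, (ψ (algebraMap A (integralClosure A E) a₀) * x - ψ (θ' k)) ^ e v k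
        = ψ (algebraMap A (integralClosure A E) a₀) ^ e v k
          * (x - ψ (θ' k) / ψ (algebraMap A _ a₀)) ^ e v k := by
      intro k
      rw [← mul_pow]
      congr 1
      field_simp
    rw [Finset.prod_congr rfl (fun k _ => h8 k), Finset.prod_mul_distrib, Finset.prod_pow_eq_pow_sum,
      ← hN] at h7
    have h9 : ψ (algebraMap A (integralClosure A E) a₀) ^ N ≠ 0 := pow_ne_zero _ hψ
    apply mul_left_cancel₀ h9
    rw [h7]
    ring
  -- differences
  set du : Fin B × Fin B → integralClosure A E := fun p => if p.1 = p.2 then 1 else θ' p.1 - θ' p.2 with hdu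
  have hdu0 : ∀ p, du p ≠ 0 := by
    intro p
    rw [hdu]
    simp only
    split_ifs with h
    · exact one_ne_zero
    · intro h0
      have h1 : algebraMap A E a₀ * θ p.1 - algebraMap A E a₀ * θ p.2 = 0 := by
        have := congrArg (fun x : integralClosure A E => (x : E)) h0
        exact this
      rw [← mul_sub, mul_eq_zero] at h1
      rcases h1 with h1 | h1
      · exact ha₀0 (hAE (by rw [h1, map_zero]))
      · exact h (hθinj (sub_eq_zero.mp h1))
  obtain ⟨qd, hqd, hqd'⟩ := exists_nonvan_fin (G := E ≃ₐ[K] E) hI hdu0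
  set Mk : (A →+* ℂ) → Set (Fin B → ℂ) := fun φ => {b | ∃ ψ : integralClosure A E →+* ℂ,
    ψ.comp (algebraMap A (integralClosure A E)) = φ ∧ ∀ k, b k = ψ (θ' k) / φ a₀} with hMk
  have : Algebra.IsIntegral A (integralClosure A E) := integralClosure.AlgebraIsIntegral
  have hne : ∀ φ : A →+* ℂ, (Mk φ).Nonempty := by
    intro φ
    obtain ⟨ψ, hψ⟩ := exists_extension hI.1 φ
    exact ⟨fun k => ψ (θ' k) / φ a₀, ψ, hψ, fun k => rfl⟩
  refine ⟨{ B := B, e := e, Mk := Mk, q0 := a₀ * qd, hq0 := mul_ne_zero ha₀0 hqd, hpos := ?_, ne := ?_,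
            inj := ?_, lc := ?_, fac := ?_, rep := ?_ }⟩
  · intro k
    obtain ⟨v, hv⟩ := hθroot k
    exact ⟨v, Multiset.count_pos.mpr hv⟩
  · exact fun φ _ => hne φ
  · rintro φ hφ b ⟨ψ, hψ, hb⟩ k l hkl
    by_contra hne'
    rw [map_mul] at hφ
    have h1 : ψ (algebraMap A _ qd) ≠ 0 := by
      have : ψ (algebraMap A _ qd) = φ qd := by rw [← hψ]; rfl
      rw [this]
      exact right_ne_zero_of_mul hφ
    have h2 := hqd' ψ h1 (k, l) 1
    rw [one_smul, hdu] at h2
    simp only [hne', if_false] at h2
    apply h2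
    rw [map_sub]
    rw [hb k, hb l] at hkl
    have h3 := left_ne_zero_of_mul hφ
    field_simp at hkl
    rw [hkl, sub_self]
  · intro φ hφ v
    rw [map_mul] at hφ
    have h1 := left_ne_zero_of_mul hφ
    rw [ha₀, map_prod, Finset.prod_ne_zero_iff] at h1
    exact h1 v (Finset.mem_univ v)
  · rintro φ hφ b ⟨ψ, hψ, hb⟩ v x
    rw [map_mul] at hφ
    have h1 : ψ (algebraMap A _ a₀) = φ a₀ := by rw [← hψ]; rfl
    have h2 : ψ (algebraMap A _ (q v).leadingCoeff) = φ (q v).leadingCoeff := by rw [← hψ]; rfl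
    have h3 := hfac ψ (by rw [h1]; exact left_ne_zero_of_mul hφ) v x
    rw [hψ, h1, h2] at h3
    rw [h3]
    congr 1
    refine Finset.prod_congr rfl fun k _ => ?_
    rw [hb k]
  · intro V _ a ha F hF
    set u : (V ⊕ (Fin B × Fin B)) ⊕ Unit → integralClosure A E :=
      Sum.elim (Sum.elim (fun v => algebraMap A _ (a v)) du) (fun _ => algebraMap A _ a₀) with hu
    have hu0 : ∀ w, u w ≠ 0 := by
      rintro ((v | p) | _)
      · intro h
        exact ha v (hI.1 (by rw [map_zero]; exact h))
      · exact hdu0 p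
      · intro h
        exact ha₀0 (hI.1 (by rw [map_zero]; exact h))
    set F' : ((V ⊕ (Fin B × Fin B)) ⊕ Unit → ℝ) → ℝ := fun ξ => F (fun w => Sum.casesOn w
      (fun v => ξ (Sum.inl (Sum.inl v)))
      (fun p => if p.1 = p.2 then 0 else ξ (Sum.inl (Sum.inr p)) - ξ (Sum.inr ()))) with hF'
    have hPL : PL F' := by
      refine hF.comp (H := fun w ξ => Sum.casesOn w
        (fun v => ξ (Sum.inl (Sum.inl v)))
        (fun p => if p.1 = p.2 then 0 else ξ (Sum.inl (Sum.inr p)) - ξ (Sum.inr ()))) ?_
      rintro (v | p)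
      · exact PL.coord _
      · by_cases h : p.1 = p.2
        · simp only [h, if_true]
          exact PL.zero
        · simp only [h, if_false]
          exact (PL.coord _).sub (PL.coord _)
    obtain ⟨m, hm, q1, hq1, Kc, hK⟩ := Rep.conj hI hu0 hPL
    -- evaluation of `F'` at a marking
    have hev : ∀ (φ : A →+* ℂ) (ψ : integralClosure A E →+* ℂ), ψ.comp (algebraMap A _) = φ →
        φ (a₀ * qd) ≠ 0 →
        F' (fun w => Real.log ‖ψ (u w)‖) = F (dat φ a (fun k => ψ (θ' k) / φ a₀)) := by
      intro φ ψ hψ hφ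
      rw [map_mul] at hφ
      have ha0 := left_ne_zero_of_mul hφ
      rw [hF']
      simp only
      congr 1
      ext w
      rcases w with v | p
      · show Real.log ‖ψ (algebraMap A _ (a v))‖ = Real.log ‖φ (a v)‖
        rw [← hψ]; rfl
      · show (if p.1 = p.2 then 0 else Real.log ‖ψ (du p)‖ - Real.log ‖ψ (algebraMap A _ a₀)‖)
          = Real.log ‖ψ (θ' p.1) / φ a₀ - ψ (θ' p.2) / φ a₀‖
        have h1 : ψ (algebraMap A _ a₀) = φ a₀ := by rw [← hψ]; rfl
        have h1' : ψ (algebraMap A _ qd) = φ qd := by rw [← hψ]; rfl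
        split_ifs with h
        · rw [h, sub_self, norm_zero, Real.log_zero]
        · have h2 := hqd' ψ (by rw [h1']; exact right_ne_zero_of_mul hφ) p 1
          rw [one_smul] at h2
          have h3 : du p = θ' p.1 - θ' p.2 := by rw [hdu]; simp only [h, if_false]
          rw [h1, ← sub_div, norm_div, Real.log_div _ (norm_ne_zero_iff.mpr ha0), ← map_sub, ← h3]
          rw [← map_sub, ← h3]
          exact norm_ne_zero_iff.mpr h2
    refine ⟨m, hm, a₀ * qd * q1, mul_ne_zero (mul_ne_zero ha₀0 hqd) hq1, Kc, fun φ hφ => ?_⟩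
    rw [map_mul] at hφ
    have hφ0 := left_ne_zero_of_mul hφ
    have hφ1 := right_ne_zero_of_mul hφ
    have hKψ : ∀ ψ : integralClosure A E →+* ℂ, ψ.comp (algebraMap A _) = φ →
        |mx (E ≃ₐ[K] E) (fun g => F' (fun w => Real.log ‖ψ (g • u w)‖)) - m φ| ≤ Kc := by
      intro ψ hψ
      have := hK ψ (by
        have : ψ (algebraMap A _ q1) = φ q1 := by rw [← hψ]; rfl
        rw [this]; exact hφ1)
      rw [hψ] at this
      exact this
    constructor
    · rintro b ⟨ψ, hψ, hb⟩
      have hbe : b = fun k => ψ (θ' k) / φ a₀ := funext hb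
      rw [hbe, ← hev φ ψ hψ hφ0]
      have h1 := hKψ ψ hψ
      have h2 := le_mx (fun g : E ≃ₐ[K] E => F' (fun w => Real.log ‖ψ (g • u w)‖)) 1
      simp only [one_smul] at h2
      rw [abs_le] at h1
      linarith [h1.1, h1.2]
    · obtain ⟨ψ, hψ⟩ := exists_extension hI.1 φ
      obtain ⟨g, hg⟩ := exists_mx (fun g : E ≃ₐ[K] E => F' (fun w => Real.log ‖ψ (g • u w)‖))
      set ψ' : integralClosure A E →+* ℂ :=
        ψ.comp (MulSemiringAction.toRingHom (E ≃ₐ[K] E) (integralClosure A E) g) with hψ'
      have hψ'φ : ψ'.comp (algebraMap A _) = φ := by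
        rw [← hψ]
        ext a
        show ψ (g • algebraMap A (integralClosure A E) a) = ψ (algebraMap A (integralClosure A E) a)
        congr 1
        rw [smul_algebraMap]
      refine ⟨fun k => ψ' (θ' k) / φ a₀, ⟨ψ', hψ'φ, fun k => rfl⟩, ?_⟩
      rw [← hev φ ψ' hψ'φ hφ0]
      have h1 := hKψ ψ hψ
      rw [hg] at h1
      rw [abs_le] at h1
      have h2 : F' (fun w => Real.log ‖ψ' (u w)‖) = F' (fun w => Real.log ‖ψ (g • u w)‖) := rfl
      rw [h2]
      linarith [h1.1, h1.2]

end Root

/-- **(ROOT)** -/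
theorem exists_rootData {A : Type*} [CommRing A] [IsDomain A] [CharZero A] {n : ℕ} (q : Fin n → A[X])
    (hq : ∀ v, q v ≠ 0) : Nonempty (RootData q) := by
  classical
  set K := FractionRing A with hK
  set P : K[X] := ∏ v, (q v).map (algebraMap A K) with hP
  have hinj : Function.Injective (algebraMap A K) := IsFractionRing.injective A K
  have : CharZero K := charZero_of_injective_algebraMap hinj
  have hP0 : P ≠ 0 := Finset.prod_ne_zero_iff.mpr fun v _ => by
    rw [Ne, Polynomial.map_eq_zero_iff hinj]; exact hq v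
  have : IsGalois K P.SplittingField :=
    { to_isSeparable := inferInstance, to_normal := Normal.of_isSplittingField P }
  have : CharZero P.SplittingField := charZero_of_injective_algebraMap (algebraMap K P.SplittingField).injective
  refine rootData_aux K P.SplittingField q hq fun v => ?_
  have h1 : (P.map (algebraMap K P.SplittingField)).Splits := SplittingField.splits P
  have h2 : (q v).map (algebraMap A P.SplittingField)
      = ((q v).map (algebraMap A K)).map (algebraMap K P.SplittingField) := by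
    rw [Polynomial.map_map, ← IsScalarTower.algebraMap_eq]
  rw [h2]
  refine Splits.of_dvd h1 ?_ ?_
  · rw [Ne, Polynomial.map_eq_zero_iff (algebraMap K P.SplittingField).injective]; exact hP0
  · exact Polynomial.map_dvd _ (Finset.dvd_prod_of_mem _ (Finset.mem_univ v))

end Crest.Agent.R281.TrC_282
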