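import Crest.Agent.R281.TrC6_282

/-!
# R281 / TROP-C, part 7: height bounds.
-/

set_option autoImplicit false

open Polynomial

namespace Crest.Agent.R281.TrC_282

open Crest.Agent.R281.TrPL_726

theorem TrL.bdd {A : Type*} [CommRing A] {m : (A →+* ℂ) → ℝ} (h : TrL A m) :
    ∃ (j : ℕ) (Q : Fin j → A), (∀ i, Q i ≠ 0) ∧ ∃ S : ℝ, 0 ≤ S ∧
      ∀ φ : A →+* ℂ, |m φ| ≤ S * ∑ i, |Real.log ‖φ (Q i)‖| := by
  obtain ⟨n, q, F, hq, hF, h⟩ := h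
  obtain ⟨S, hS, hb⟩ := hF.bdd
  exact ⟨n, q, hq, S, hS, fun φ => by rw [h]; exact hb _⟩

/-- **(c)** all differences of the marked roots are controlled by finitely many nonzero elements of `A` -/
theorem RootData.height {A : Type*} [CommRing A] {n : ℕ} {q : Fin n → A[X]} (D : RootData q) :
    ∃ (j : ℕ) (Q : Fin j → A), (∀ i, Q i ≠ 0) ∧ ∃ q1 : A, q1 ≠ 0 ∧ ∃ K : ℝ, 0 < K ∧
      ∀ φ : A →+* ℂ, φ q1 ≠ 0 → ∀ b ∈ D.Mk φ,
        ∑ p : Fin D.B × Fin D.B, |Real.log ‖b p.1 - b p.2‖| ≤ K * (1 + ∑ i, |Real.log ‖φ (Q i)‖|) := by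
  classical
  set F : (Empty ⊕ (Fin D.B × Fin D.B) → ℝ) → ℝ := fun ξ => ∑ p : Fin D.B × Fin D.B, |ξ (Sum.inr p)| with hF
  have hPL : PL F := PL.sum _ fun p _ => (PL.coord (Sum.inr p)).abs
  obtain ⟨m, hm, q1, hq1, K, hK⟩ := D.rep (V := Empty) (fun v => v.elim) (fun v => v.elim) F hPL
  obtain ⟨j, Q, hQ, S, hS, hb⟩ := hm.bdd
  refine ⟨j, Q, hQ, q1, hq1, S + |K| + 1, by positivity, fun φ hφ b hbM => ?_⟩
  have h1 := (hK φ hφ).1 b hbM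
  have h2 := hb φ
  have h3 : F (dat φ (fun v : Empty => v.elim) b) = ∑ p : Fin D.B × Fin D.B, |Real.log ‖b p.1 - b p.2‖| := rfl
  rw [h3] at h1
  have h4 : 0 ≤ ∑ i, |Real.log ‖φ (Q i)‖| := Finset.sum_nonneg fun _ _ => abs_nonneg _
  have h5 := le_abs_self (m φ)
  have h6 := le_abs_self K
  nlinarith [abs_nonneg K]

end Crest.Agent.R281.TrC_282
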