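import Crest.Agent.R281.TrPL_726

/-!
# Row 281, DIV 3 TROP: frozen statements (helper726)
`ProjStmt` = one-variable projection (TROP-PROJ = TROP-OV + TROP-C).
`Car`      = carrier: ring of coefficients `R` with evaluations `ev t`, `t : T`, filter `l`, size `Lg t`.
`trop_U`, `trop_W`, `trop_T` are proved in `TrUWT_726` from `ProjStmt`.
-/

namespace Crest.Agent.R281.TrDefs_726

open Crest.Agent.R281.TrPL_726
open MeasureTheory Filter Polynomial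
open scoped ENNReal

universe u

/-- the point `(φ, x)` of `A[X]` -/
noncomputable def evx {A : Type*} [CommRing A] (φ : A →+* ℂ) (x : ℂ) : A[X] →+* ℂ :=
  Polynomial.eval₂RingHom φ x

/-- height of the point `φ` with respect to a finite set -/
noncomputable def ht {A : Type*} [CommRing A] (S : Finset A) (φ : A →+* ℂ) : ℝ :=
  ∑ q ∈ S, |Real.log ‖φ q‖|

/-- TROP-PROJ -/
def ProjStmt (A : Type u) [CommRing A] : Prop :=
  ∀ G : (A[X] →+* ℂ) → ℝ, Tr A[X] G → ∀ S : Finset A[X], (∀ P ∈ S, P ≠ 0) →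
    ∃ (m : (A →+* ℂ) → ℝ) (S' : Finset A) (P : A[X]) (C κ₀ : ℝ),
      Tr A m ∧ (∀ q ∈ S', q ≠ 0) ∧ P ≠ 0 ∧ 0 < C ∧ 0 < κ₀ ∧
      ∀ φ : A →+* ℂ, (∀ q ∈ S', φ q ≠ 0) → ∫⁻ x, ENNReal.ofReal (G (evx φ x)) ≠ ∞ →
        (ENNReal.ofReal (m φ) ≤ ENNReal.ofReal C * ∫⁻ x, ENNReal.ofReal (G (evx φ x))) ∧
        (∀ κ, 0 ≤ κ → κ ≤ κ₀ →
          ∫⁻ x, ENNReal.ofReal (G (evx φ x) * Real.exp (κ * ht S (evx φ x))) ≤
            ENNReal.ofReal (C * m φ * (1 + ht S' φ) * Real.exp (C * κ * (1 + ht S' φ)))) ∧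
        ∃ Z : Set ℂ, MeasurableSet Z ∧
          ∫⁻ x in Z, ENNReal.ofReal (G (evx φ x)) ≤ ENNReal.ofReal (C * m φ) ∧
          ∀ x, x ∉ Z → evx φ x P ≠ 0 ∧
            G (evx φ x) ≤ C * m φ * ‖evx φ x (derivative P) / evx φ x P‖ ^ 2

/-- the carrier: coefficients with evaluations, every non-zero coefficient has size `e^{a L}` -/
structure Car (R : Type u) [CommRing R] (T : Type*) where
  ev : T → (R →+* ℂ)
  l : Filter T
  Lg : T → ℝ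
  top : Tendsto Lg l atTop
  val : ∀ f : R, f ≠ 0 → ∃ a C : ℝ, 0 < C ∧
    ∀ᶠ t in l, Real.exp (a * Lg t) ≤ C * ‖ev t f‖ ∧ ‖ev t f‖ ≤ C * Real.exp (a * Lg t)

/-- the point `(t, y)` -/
noncomputable def Car.pt {R : Type u} [CommRing R] {T : Type*} (K : Car R T) {n : ℕ} (t : T)
    (y : Fin n → ℂ) : MvPolynomial (Fin n) R →+* ℂ :=
  MvPolynomial.eval₂Hom (K.ev t) y

/-- (U_n) -/
def UStmt {R : Type u} [CommRing R] {T : Type*} (K : Car R T) (n : ℕ)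
    (G : (MvPolynomial (Fin n) R →+* ℂ) → ℝ) (a : ℝ) : Prop :=
  ∃ C : ℝ, 0 < C ∧ ∀ᶠ t in K.l,
    ENNReal.ofReal (Real.exp (a * K.Lg t)) ≤
      ENNReal.ofReal C * ∫⁻ y : Fin n → ℂ, ENNReal.ofReal (G (K.pt t y)) ∧
    ∫⁻ y : Fin n → ℂ, ENNReal.ofReal (G (K.pt t y)) ≤
      ENNReal.ofReal (C * Real.exp (a * K.Lg t) * K.Lg t ^ n)

/-- (W_n) -/
def WStmt {R : Type u} [CommRing R] {T : Type*} (K : Car R T) (n : ℕ)
    (G : (MvPolynomial (Fin n) R →+* ℂ) → ℝ) : Prop :=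
  ∀ S : Finset (MvPolynomial (Fin n) R), (∀ q ∈ S, q ≠ 0) → ∃ κ C : ℝ, 0 < κ ∧ 0 < C ∧
    ∀ᶠ t in K.l, ∫⁻ y : Fin n → ℂ, ENNReal.ofReal (G (K.pt t y) *
      Real.exp (κ * ht S (K.pt t y))) ≤ ENNReal.ofReal (Real.exp (C * K.Lg t))

/-- (T_n): one triangular tuple -/
def TStmt {R : Type u} [CommRing R] {T : Type*} (K : Car R T) (n : ℕ)
    (G : (MvPolynomial (Fin n) R →+* ℂ) → ℝ) (a : ℝ) : Prop :=
  ∃ (f : Fin n → MvPolynomial (Fin n) R) (C : ℝ), (∀ i, f i ≠ 0) ∧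
    (∀ i j, j < i → MvPolynomial.pderiv j (f i) = 0) ∧ 0 < C ∧
    ∀ᶠ t in K.l, ∃ E : Set (Fin n → ℂ), MeasurableSet E ∧
      (ENNReal.ofReal (K.Lg t) * ∫⁻ y in E, ENNReal.ofReal (G (K.pt t y)) ≤
        ENNReal.ofReal (C * Real.exp (a * K.Lg t) * K.Lg t ^ n)) ∧
      ∀ y, y ∉ E → (∀ i, K.pt t y (f i) ≠ 0) ∧
        G (K.pt t y) ≤ C * Real.exp (a * K.Lg t) *
          ∏ i, ‖K.pt t y (MvPolynomial.pderiv i (f i)) / K.pt t y (f i)‖ ^ 2 ∧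
        ∀ i, |Real.log ‖K.pt t y (f i)‖| ≤ C * K.Lg t

/-- the output of DIV 3 -/
def TropStmt {R : Type u} [CommRing R] {T : Type*} (K : Car R T) (n : ℕ) : Prop :=
  ∀ G : (MvPolynomial (Fin n) R →+* ℂ) → ℝ, Tr (MvPolynomial (Fin n) R) G →
    (∀ᶠ t in K.l, ∫⁻ y : Fin n → ℂ, ENNReal.ofReal (G (K.pt t y)) ≠ ∞) →
    ∃ a : ℝ, UStmt K n G a ∧ WStmt K n G ∧ TStmt K n G a

end Crest.Agent.R281.TrDefs_726
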