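import Mathlib

/-!
# Row 281, TRI-FIB (helper726): a triangular system has at most `∏ degreeOf i (f i)` non-degenerate solutions
-/

namespace Crest.Agent.R281.TrFib_726

open MvPolynomial

/-- combinatorial lemma: successive fibres have at most `d i` elements -/
theorem card_le_prod {K : Type*} [DecidableEq K] : ∀ (n : ℕ) (d : Fin n → ℕ) (F : Finset (Fin n → K)),
    (∀ i, ∀ y ∈ F, ((F.filter (fun y' => ∀ j, i < j → y' j = y j)).image (fun y' => y' i)).card ≤ d i) →
    F.card ≤ ∏ i, d i := by
  intro n
  induction n with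
  | zero =>
    intro d F _
    simp only [Finset.univ_eq_empty, Finset.prod_empty]
    exact Finset.card_le_one.2 fun a _ b _ => Subsingleton.elim a b
  | succ n ih =>
    intro d F hF
    rw [Fin.prod_univ_succ]
    have h1 : F.card ≤ d 0 * (F.image (fun y => Fin.tail y)).card := by
      refine Finset.card_le_mul_card_image F (d 0) fun z hz => ?_
      obtain ⟨y, hy, rfl⟩ := Finset.mem_image.1 hz
      refine le_trans ?_ (hF 0 y hy)
      have hinj : Set.InjOn (fun y' : Fin (n + 1) → K => y' 0)
          (F.filter (fun x => Fin.tail x = Fin.tail y) : Finset (Fin (n + 1) → K)) := by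
        intro a ha b hb hab
        simp only [Finset.coe_filter, Set.mem_ofPred_eq] at ha hb
        have h2 : Fin.tail a = Fin.tail b := ha.2.trans hb.2.symm
        rw [← Fin.cons_self_tail a, ← Fin.cons_self_tail b, h2]
        congr 1
      rw [← Finset.card_image_of_injOn hinj]
      refine Finset.card_le_card (Finset.image_subset_image ?_)
      intro x hx
      simp only [Finset.mem_filter] at hx ⊢
      refine ⟨hx.1, fun j hj => ?_⟩
      obtain ⟨j', rfl⟩ := Fin.exists_succ_eq.2 (Fin.pos_iff_ne_zero.1 hj)
      exact congrFun hx.2 j'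
    refine h1.trans (Nat.mul_le_mul_left _ (ih (fun i => d i.succ) _ ?_))
    intro i z hz
    obtain ⟨y, hy, rfl⟩ := Finset.mem_image.1 hz
    refine le_trans ?_ (hF i.succ y hy)
    refine Finset.card_le_card ?_
    intro a ha
    simp only [Finset.mem_image, Finset.mem_filter] at ha ⊢
    obtain ⟨y', ⟨⟨y'', hy'', rfl⟩, h2⟩, rfl⟩ := ha
    refine ⟨y'', ⟨hy'', fun j hj => ?_⟩, rfl⟩
    obtain ⟨j', rfl⟩ := Fin.exists_succ_eq.2 (Fin.pos_iff_ne_zero.1 (lt_of_le_of_lt (Fin.zero_le _) hj))
    exact h2 j' (by simpa using hj)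

section poly

variable {n : ℕ} (y : Fin n → ℂ) (i : Fin n)

/-- substitution of all variables except `i` -/
noncomputable def sub (f : MvPolynomial (Fin n) ℂ) : Polynomial ℂ :=
  aeval (fun j => if j = i then Polynomial.X else Polynomial.C (y j)) f

theorem eval_sub (f : MvPolynomial (Fin n) ℂ) (x : ℂ) :
    (sub y i f).eval x = eval (Function.update y i x) f := by
  unfold sub
  induction f using MvPolynomial.induction_on with
  | C a => simp
  | add p q hp hq => simp only [map_add, Polynomial.eval_add, hp, hq]
  | mul_X p j hp =>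
    simp only [map_mul, Polynomial.eval_mul, hp, aeval_X, eval_X]
    congr 1
    by_cases h : j = i
    · subst h; simp
    · simp [h]

theorem derivative_sub (f : MvPolynomial (Fin n) ℂ) :
    Polynomial.derivative (sub y i f) = sub y i (pderiv i f) := by
  unfold sub
  induction f using MvPolynomial.induction_on with
  | C a => simp
  | add p q hp hq => simp only [map_add, hp, hq]
  | mul_X p j hp =>
    rw [map_mul, Polynomial.derivative_mul, hp, pderiv_mul, map_add, map_mul, map_mul, aeval_X]
    congr 1
    congr 1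
    by_cases h : j = i
    · subst h; simp
    · simp [h]

theorem natDegree_sub_le (f : MvPolynomial (Fin n) ℂ) : (sub y i f).natDegree ≤ f.degreeOf i := by
  unfold sub
  rw [aeval_def, eval₂_eq]
  refine Polynomial.natDegree_sum_le_of_forall_le _ _ fun m hm => ?_
  have h1 : m i ≤ f.degreeOf i := by
    rw [degreeOf_eq_sup]
    exact Finset.le_sup (f := fun m => m i) hm
  refine le_trans ?_ h1
  refine (Polynomial.natDegree_mul_le).trans ?_
  rw [Polynomial.algebraMap_eq, Polynomial.natDegree_C, zero_add]
  refine (Polynomial.natDegree_prod_le _ _).trans ?_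
  have h2 : ∀ j ∈ (Finset.univ : Finset (Fin n)),
      ((if j = i then Polynomial.X else Polynomial.C (y j) : Polynomial ℂ) ^ m j).natDegree ≤
        if j = i then m i else 0 := by
    intro j _
    split_ifs with h
    · subst h; simp
    · rw [← Polynomial.C_pow, Polynomial.natDegree_C]
  by_cases hmi : i ∈ m.support
  · calc ∑ j ∈ m.support, ((if j = i then Polynomial.X else Polynomial.C (y j) : Polynomial ℂ) ^ m j).natDegree
        ≤ ∑ j ∈ m.support, (if j = i then m i else 0) :=
          Finset.sum_le_sum fun j _ => h2 j (Finset.mem_univ j)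
      _ = m i := by rw [Finset.sum_ite_eq' m.support i]; simp [hmi]
  · calc ∑ j ∈ m.support, ((if j = i then Polynomial.X else Polynomial.C (y j) : Polynomial ℂ) ^ m j).natDegree
        ≤ ∑ j ∈ m.support, (if j = i then m i else 0) :=
          Finset.sum_le_sum fun j _ => h2 j (Finset.mem_univ j)
      _ = 0 := by rw [Finset.sum_ite_eq' m.support i]; simp [hmi]
      _ ≤ m i := Nat.zero_le _

end poly

/-- **TRI-FIB** -/
theorem tri_fib {n : ℕ} (f : Fin n → MvPolynomial (Fin n) ℂ) (htri : ∀ i, ∀ j ∈ (f i).vars, i ≤ j)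
    (c : Fin n → ℂ) :
    {y : Fin n → ℂ | ∀ i, eval y (f i) = c i ∧ eval y (pderiv i (f i)) ≠ 0}.Finite ∧
      {y : Fin n → ℂ | ∀ i, eval y (f i) = c i ∧ eval y (pderiv i (f i)) ≠ 0}.ncard ≤
        ∏ i, (f i).degreeOf i := by
  classical
  set S := {y : Fin n → ℂ | ∀ i, eval y (f i) = c i ∧ eval y (pderiv i (f i)) ≠ 0} with hS
  have key : ∀ F : Finset (Fin n → ℂ), (F : Set (Fin n → ℂ)) ⊆ S → F.card ≤ ∏ i, (f i).degreeOf i := by
    intro F hF
    refine card_le_prod n _ F fun i y hy => ?_
    have hyS : y ∈ S := hF hy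
    set p := sub y i (f i) - Polynomial.C (c i) with hp
    have hp0 : p ≠ 0 := by
      intro h0
      have h1 : Polynomial.derivative p = sub y i (pderiv i (f i)) := by
        rw [hp, Polynomial.derivative_sub, Polynomial.derivative_C, sub_zero, derivative_sub]
      rw [h0, Polynomial.derivative_zero] at h1
      have h2 := congrArg (Polynomial.eval (y i)) h1
      rw [Polynomial.eval_zero, eval_sub, Function.update_eq_self] at h2
      exact (hyS i).2 h2.symm
    have hdeg : p.natDegree ≤ (f i).degreeOf i := by
      rw [hp, Polynomial.natDegree_sub_C]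
      exact natDegree_sub_le y i (f i)
    refine le_trans ?_ hdeg
    refine le_trans ?_ (Polynomial.card_roots' p)
    refine le_trans ?_ (Multiset.toFinset_card_le p.roots)
    refine Finset.card_le_card ?_
    intro a ha
    simp only [Finset.mem_image, Finset.mem_filter] at ha
    obtain ⟨y', ⟨hy', h2⟩, rfl⟩ := ha
    rw [Multiset.mem_toFinset, Polynomial.mem_roots hp0, Polynomial.IsRoot, hp, Polynomial.eval_sub,
      Polynomial.eval_C, eval_sub, sub_eq_zero]
    have hy'S : y' ∈ S := hF hy'
    rw [← (hy'S i).1]
    refine eval₂Hom_congr' rfl ?_ rfl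
    intro j hj _
    have hij : i ≤ j := htri i j hj
    rcases eq_or_lt_of_le hij with rfl | hlt
    · simp
    · rw [Function.update_of_ne hlt.ne']
      exact (h2 j hlt).symm
  have hfin : S.Finite := by
    by_contra hinf
    obtain ⟨t, ht, hc⟩ := Set.Infinite.exists_subset_card_eq hinf (∏ i, (f i).degreeOf i + 1)
    have := key t ht
    omega
  refine ⟨hfin, ?_⟩
  have := key hfin.toFinset (by simp)
  rwa [← Set.ncard_eq_toFinset_card S hfin] at this

end Crest.Agent.R281.TrFib_726
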