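import Crest.Agent.R281.TrU4_249
import Crest.Agent.R281.TrPr2_726
import Crest.Agent.R281.TrFib_726

/-!
# Row 281, DIV 3 TROP: final theorem without hypotheses, fibre count (helper726)
-/

namespace Crest.Agent.R281.TrFin_726

open Crest.Agent.R281.TrPL_726 Crest.Agent.R281.TrU_249
open MeasureTheory Filter
open scoped ENNReal

/-- the one-variable projection holds for every domain of characteristic zero -/
theorem proj (A : Type*) [CommRing A] [IsDomain A] [CharZero A] : Proj A :=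
  fun _ hG _ w hw => TrPr_726.main hG w hw

/-- **TROP** -/
theorem trop {T R : Type*} [CommRing R] [IsDomain R] [CharZero R] {l : Filter T} {ev : T → R →+* ℂ}
    {L : T → ℝ} (h : Scale l ev L) {n : ℕ}
    {G : (MvPolynomial (Fin n) R →+* ℂ) → ℝ} (hG : Tr (MvPolynomial (Fin n) R) G)
    (hfin : ∀ᶠ t in l, ∫⁻ y : Fin n → ℂ, ENNReal.ofReal (G (pt (ev t) y)) ≠ ∞) :
    WStmt l ev L G ∧ TStmt l ev L G :=
  trop_WT h (fun _ => proj _) n G hG hfin

theorem degreeOf_map_le' {R : Type*} [CommRing R] {n : ℕ} (φ : R →+* ℂ)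
    (p : MvPolynomial (Fin n) R) (i : Fin n) :
    (MvPolynomial.map φ p).degreeOf i ≤ p.degreeOf i := by
  rw [MvPolynomial.degreeOf_eq_sup, MvPolynomial.degreeOf_eq_sup]
  exact Finset.sup_mono (MvPolynomial.support_map_subset φ p)

/-- **fibre count** of a triangular tuple at every point `φ : R →+* ℂ` -/
theorem fib_count {R : Type*} [CommRing R] {n : ℕ} (f : Fin n → MvPolynomial (Fin n) R)
    (htri : ∀ i, ∀ j ∈ (f i).vars, i ≤ j) (φ : R →+* ℂ) (c : Fin n → ℂ) :
    {y : Fin n → ℂ | ∀ i, pt φ y (f i) = c i ∧ pt φ y (MvPolynomial.pderiv i (f i)) ≠ 0}.Finite ∧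
      {y : Fin n → ℂ | ∀ i, pt φ y (f i) = c i ∧ pt φ y (MvPolynomial.pderiv i (f i)) ≠ 0}.ncard ≤
        ∏ i, (f i).degreeOf i := by
  have h1 : ∀ (y : Fin n → ℂ) (p : MvPolynomial (Fin n) R),
      pt φ y p = MvPolynomial.eval y (MvPolynomial.map φ p) := by
    intro y p
    rw [MvPolynomial.eval_map]; rfl
  have h2 : {y : Fin n → ℂ | ∀ i, pt φ y (f i) = c i ∧ pt φ y (MvPolynomial.pderiv i (f i)) ≠ 0} =
      {y : Fin n → ℂ | ∀ i, MvPolynomial.eval y (MvPolynomial.map φ (f i)) = c i ∧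
        MvPolynomial.eval y (MvPolynomial.pderiv i (MvPolynomial.map φ (f i))) ≠ 0} := by
    ext y
    simp only [h1, MvPolynomial.pderiv_map, Set.mem_ofPred_eq]
  obtain ⟨h3, h4⟩ := TrFib_726.tri_fib (fun i => MvPolynomial.map φ (f i))
    (fun i j hj => htri i j (MvPolynomial.vars_map (f := φ) (p := f i) hj)) c
  rw [h2]
  refine ⟨h3, h4.trans (Finset.prod_le_prod' fun i _ => ?_)⟩
  exact degreeOf_map_le' φ (f i) i

end Crest.Agent.R281.TrFin_726
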