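import Mathlib

/-!
# Row 281, TROP-OV part 1 (helper726)
Continuous functions of one real variable selecting from finitely many affine functions with slopes in
`(1/D) ℤ`, tending to `-∞` at both ends: bounded by the value at the crossings, linear decay outside.
-/

namespace Crest.Agent.R281.TrOV1_726

open Filter Topology Set

variable {L : Finset (ℝ × ℝ)} {f : ℝ → ℝ}

/-- away from the crossings `f` is locally one of the affine functions -/
theorem loc_affine (hf : Continuous f) (hsel : ∀ ρ, ∃ p ∈ L, f ρ = p.1 + p.2 * ρ) {ρ₀ : ℝ}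
    (hρ : ∀ p ∈ L, ∀ q ∈ L, p.2 ≠ q.2 → ρ₀ ≠ (p.1 - q.1) / (q.2 - p.2)) :
    ∃ p ∈ L, f ρ₀ = p.1 + p.2 * ρ₀ ∧ ∀ᶠ ρ in 𝓝 ρ₀, f ρ = p.1 + p.2 * ρ := by
  obtain ⟨p, hp, he⟩ := hsel ρ₀
  refine ⟨p, hp, he, ?_⟩
  have h1 : ∀ q ∈ L, q ≠ p → ∀ᶠ ρ in 𝓝 ρ₀, f ρ ≠ q.1 + q.2 * ρ := by
    intro q hq hqp
    have hne : f ρ₀ - (q.1 + q.2 * ρ₀) ≠ 0 := by
      rw [he]
      intro h0
      by_cases hs : p.2 = q.2
      · apply hqp
        have : p.1 = q.1 := by rw [hs] at h0; linarith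
        exact Prod.ext this.symm hs.symm
      · refine hρ p hp q hq hs ?_
        have : q.2 - p.2 ≠ 0 := fun h => hs (by linarith)
        field_simp
        linarith
    have hc : ContinuousAt (fun ρ => f ρ - (q.1 + q.2 * ρ)) ρ₀ := by fun_prop
    filter_upwards [hc.eventually_ne hne] with ρ h h'
    exact h (by rw [h']; ring)
  have h2 : ∀ᶠ ρ in 𝓝 ρ₀, ∀ q ∈ L, q ≠ p → f ρ ≠ q.1 + q.2 * ρ := by
    rw [Filter.eventually_all_finset]
    intro q hq
    by_cases hqp : q = p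
    · exact Filter.Eventually.of_forall (fun _ h => absurd hqp h)
    · filter_upwards [h1 q hq hqp] with ρ h _ using h
  filter_upwards [h2] with ρ h
  obtain ⟨q, hq, hqe⟩ := hsel ρ
  by_cases hqp : q = p
  · rw [← hqp]; exact hqe
  · exact absurd hqe (h q hq hqp)

/-- beyond all crossings `f` is affine with slope `≤ -1/D` -/
theorem right_affine {D : ℕ} (hD : 0 < D) (hslope : ∀ p ∈ L, ∃ z : ℤ, p.2 * D = z)
    (hf : Continuous f) (hsel : ∀ ρ, ∃ p ∈ L, f ρ = p.1 + p.2 * ρ)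
    (htop : Tendsto (fun j : ℕ => f (j : ℝ)) atTop atBot) {R : ℝ} (hR0 : 0 ≤ R)
    (hX : ∀ p ∈ L, ∀ q ∈ L, p.2 ≠ q.2 → |(p.1 - q.1) / (q.2 - p.2)| ≤ R) :
    ∃ s : ℝ, s ≤ -1 / D ∧ ∀ ρ, R ≤ ρ → f ρ = f R + s * (ρ - R) := by
  obtain ⟨p, hp, he⟩ := hsel (R + 1)
  have hmain : Ioi R ⊆ {ρ | ∀ q ∈ L, q ≠ p → f ρ ≠ q.1 + q.2 * ρ} := by
    refine IsPreconnected.subset_left_of_subset_union (v := {ρ | f ρ ≠ p.1 + p.2 * ρ}) ?_ ?_ ?_ ?_ ?_
      isPreconnected_Ioi
    · have : {ρ | ∀ q ∈ L, q ≠ p → f ρ ≠ q.1 + q.2 * ρ} =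
          ⋂ q ∈ L.filter (fun q => q ≠ p), {ρ | f ρ ≠ q.1 + q.2 * ρ} := by
        ext ρ; simp
      rw [this]
      refine isOpen_biInter_finset fun q _ => ?_
      exact isOpen_ne_fun hf (by fun_prop)
    · exact isOpen_ne_fun hf (by fun_prop)
    · rw [Set.disjoint_left]
      intro ρ h1 h2
      obtain ⟨q, hq, hqe⟩ := hsel ρ
      by_cases hqp : q = p
      · exact h2 (by rw [← hqp]; exact hqe)
      · exact h1 q hq hqp hqe
    · intro ρ hρ
      by_cases h : f ρ = p.1 + p.2 * ρ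
      · left
        intro q hq hqp h'
        by_cases hs : p.2 = q.2
        · apply hqp
          have : p.1 = q.1 := by rw [h, hs] at h'; linarith
          exact Prod.ext this.symm hs.symm
        · have h0 : q.2 - p.2 ≠ 0 := fun h => hs (by linarith)
          have : ρ = (p.1 - q.1) / (q.2 - p.2) := by
            field_simp
            linarith
          have h3 := hX p hp q hq hs
          rw [← this] at h3
          have : R < ρ := hρ
          linarith [le_abs_self ρ]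
      · right; exact h
    · refine ⟨R + 1, by simp, ?_⟩
      intro q hq hqp h'
      by_cases hs : p.2 = q.2
      · apply hqp
        have : p.1 = q.1 := by rw [he, hs] at h'; linarith
        exact Prod.ext this.symm hs.symm
      · have h0 : q.2 - p.2 ≠ 0 := fun h => hs (by linarith)
        have : R + 1 = (p.1 - q.1) / (q.2 - p.2) := by
          field_simp
          linarith
        have h3 := hX p hp q hq hs
        rw [← this] at h3
        linarith [le_abs_self (R + 1)]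
  have h1 : ∀ ρ ∈ Ioi R, f ρ = p.1 + p.2 * ρ := by
    intro ρ hρ
    obtain ⟨q, hq, hqe⟩ := hsel ρ
    by_cases hqp : q = p
    · rw [← hqp]; exact hqe
    · exact absurd hqe (hmain hρ q hq hqp)
  have h2 : ∀ ρ, R ≤ ρ → f ρ = p.1 + p.2 * ρ := by
    have hcl : IsClosed {ρ | f ρ = p.1 + p.2 * ρ} := isClosed_eq hf (by fun_prop)
    have : closure (Ioi R) ⊆ {ρ | f ρ = p.1 + p.2 * ρ} := hcl.closure_subset_iff.2 h1
    rw [closure_Ioi] at this
    exact fun ρ hρ => this hρ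
  have hs : p.2 < 0 := by
    by_contra hcon
    push Not at hcon
    have h3 : ∀ᶠ j : ℕ in atTop, f (j : ℝ) < p.1 := htop.eventually_lt_atBot p.1
    obtain ⟨j, hj1, hj2⟩ := (h3.and (Filter.eventually_ge_atTop ⌈R⌉₊)).exists
    have h4 : R ≤ (j : ℝ) := (Nat.le_ceil R).trans (by exact_mod_cast hj2)
    rw [h2 _ h4] at hj1
    have : 0 ≤ p.2 * (j : ℝ) := mul_nonneg hcon (by positivity)
    linarith
  refine ⟨p.2, ?_, fun ρ hρ => ?_⟩
  · obtain ⟨z, hz⟩ := hslope p hp
    have hD' : (0 : ℝ) < D := by exact_mod_cast hD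
    have : (z : ℝ) < 0 := by rw [← hz]; exact mul_neg_of_neg_of_pos hs hD'
    have hz' : z < 0 := by exact_mod_cast this
    have hz1 : z ≤ -1 := by omega
    have : (z : ℝ) ≤ -1 := by exact_mod_cast hz1
    rw [le_div_iff₀ hD', hz]
    exact this
  · rw [h2 ρ hρ, h2 R le_rfl]; ring

theorem tendsto_right {D : ℕ} (hD : 0 < D) {R s : ℝ} (hs : s ≤ -1 / D)
    (h : ∀ ρ, R ≤ ρ → f ρ = f R + s * (ρ - R)) : Tendsto f atTop atBot := by
  have hD' : (0 : ℝ) < D := by exact_mod_cast hD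
  have hs0 : s < 0 := lt_of_le_of_lt hs (by rw [div_lt_iff₀ hD']; simp)
  have h1 : Tendsto (fun ρ : ℝ => f R + s * (ρ - R)) atTop atBot := by
    refine tendsto_atBot_add_const_left _ _ ?_
    exact (tendsto_atTop_add_const_right _ (-R) tendsto_id).const_mul_atTop_of_neg hs0
  refine h1.congr' ?_
  filter_upwards [Filter.eventually_ge_atTop R] with ρ hρ using (h ρ hρ).symm

/-- the 1D lemma -/
theorem pl1 {D : ℕ} (hD : 0 < D) (hslope : ∀ p ∈ L, ∃ z : ℤ, p.2 * D = z)
    (hf : Continuous f) (hsel : ∀ ρ, ∃ p ∈ L, f ρ = p.1 + p.2 * ρ)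
    (htop : Tendsto (fun j : ℕ => f (j : ℝ)) atTop atBot)
    (hbot : Tendsto (fun j : ℕ => f (-(j : ℝ))) atTop atBot) {N R : ℝ} (hR0 : 0 ≤ R)
    (hX : ∀ p ∈ L, ∀ q ∈ L, p.2 ≠ q.2 →
      |(p.1 - q.1) / (q.2 - p.2)| ≤ R ∧ f ((p.1 - q.1) / (q.2 - p.2)) ≤ N) :
    ∀ ρ, f ρ ≤ N - max (|ρ| - R) 0 / D := by
  have hD' : (0 : ℝ) < D := by exact_mod_cast hD
  obtain ⟨s, hs, hs'⟩ := right_affine hD hslope hf hsel htop hR0 (fun p hp q hq h => (hX p hp q hq h).1)
  -- the left side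
  have hleft : ∃ s : ℝ, s ≤ -1 / D ∧ ∀ ρ, R ≤ ρ → f (-ρ) = f (-R) + s * (ρ - R) := by
    have := right_affine (L := L.image (fun p => (p.1, -p.2))) (f := fun ρ => f (-ρ)) hD ?_ ?_ ?_ hbot
      hR0 ?_
    · exact this
    · intro p hp
      obtain ⟨q, hq, rfl⟩ := Finset.mem_image.1 hp
      obtain ⟨z, hz⟩ := hslope q hq
      exact ⟨-z, by push_cast; rw [← hz]; ring⟩
    · exact hf.comp continuous_neg
    · intro ρ
      obtain ⟨p, hp, he⟩ := hsel (-ρ)
      exact ⟨(p.1, -p.2), Finset.mem_image.2 ⟨p, hp, rfl⟩, by simp only [he]; ring⟩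
    · intro p hp q hq hpq
      obtain ⟨p', hp', rfl⟩ := Finset.mem_image.1 hp
      obtain ⟨q', hq', rfl⟩ := Finset.mem_image.1 hq
      have h1 : p'.2 ≠ q'.2 := fun h => hpq (by simp [h])
      have h2 := (hX p' hp' q' hq' h1).1
      have h0 : q'.2 - p'.2 ≠ 0 := fun h => h1 (by linarith)
      have h0' : p'.2 - q'.2 ≠ 0 := fun h => h1 (by linarith)
      have h3 : (p'.1 - q'.1) / (-q'.2 - -p'.2) = -((p'.1 - q'.1) / (q'.2 - p'.2)) := by
        have : -q'.2 - -p'.2 = -(q'.2 - p'.2) := by ring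
        rw [this, div_neg]
      simp only
      rw [h3, abs_neg]
      exact h2
  obtain ⟨s', hs1, hs1'⟩ := hleft
  have ht1 : Tendsto f atTop atBot := tendsto_right hD hs hs'
  have ht2 : Tendsto f atBot atBot := by
    have h1 : Tendsto (fun ρ => f (-ρ)) atTop atBot := tendsto_right hD hs1 hs1'
    have h2 := h1.comp tendsto_neg_atBot_atTop
    refine h2.congr (fun x => ?_)
    simp
  -- the maximum
  have hcoc : Tendsto f (cocompact ℝ) atBot := by
    rw [cocompact_eq_atBot_atTop]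
    exact ht2.sup ht1
  obtain ⟨x₀, hx₀⟩ := hf.exists_forall_ge hcoc
  have hmax : f x₀ ≤ N := by
    set S : Set ℝ := {ρ | f ρ = f x₀} with hS
    have hSc : IsClosed S := isClosed_eq hf continuous_const
    have hSb : BddAbove S := by
      have : ∀ᶠ ρ in atTop, f ρ < f x₀ := ht1.eventually_lt_atBot _
      obtain ⟨K, hK⟩ := (Filter.eventually_atTop.1 this)
      refine ⟨K, fun ρ hρ => ?_⟩
      by_contra hcon
      push Not at hcon
      have h1 := hK ρ hcon.le
      have h2 : f ρ = f x₀ := hρ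
      linarith
    have hSn : S.Nonempty := ⟨x₀, rfl⟩
    have hmem : sSup S ∈ S := hSc.csSup_mem hSn hSb
    set y := sSup S with hy
    have hfy : f y = f x₀ := hmem
    by_cases hcr : ∀ p ∈ L, ∀ q ∈ L, p.2 ≠ q.2 → y ≠ (p.1 - q.1) / (q.2 - p.2)
    · exfalso
      obtain ⟨p, hp, he, hev⟩ := loc_affine hf hsel hcr
      obtain ⟨ε, hε, hball⟩ := Metric.eventually_nhds_iff.1 hev
      have e1 : f (y + ε / 2) = p.1 + p.2 * (y + ε / 2) := hball (by
        rw [Real.dist_eq]; simp only [add_sub_cancel_left]; rw [abs_of_pos (by linarith)]; linarith)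
      have e2 : f (y - ε / 2) = p.1 + p.2 * (y - ε / 2) := hball (by
        rw [Real.dist_eq]
        have : y - ε / 2 - y = -(ε / 2) := by ring
        rw [this, abs_neg, abs_of_pos (by linarith)]; linarith)
      have m1 : f (y + ε / 2) ≤ f x₀ := hx₀ _
      have m2 : f (y - ε / 2) ≤ f x₀ := hx₀ _
      have hp0 : p.2 * (ε / 2) ≤ 0 := by
        have : p.1 + p.2 * (y + ε / 2) ≤ p.1 + p.2 * y := by rw [← e1, ← he, hfy]; exact m1
        nlinarith
      have hp1 : 0 ≤ p.2 * (ε / 2) := by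
        have : p.1 + p.2 * (y - ε / 2) ≤ p.1 + p.2 * y := by rw [← e2, ← he, hfy]; exact m2
        nlinarith
      have hz : p.2 * (ε / 2) = 0 := le_antisymm hp0 hp1
      have e3 : f (y + ε / 2) = f x₀ := by
        rw [e1, ← hfy, he]; linarith
      have : y + ε / 2 ≤ y := le_csSup hSb e3
      linarith
    · push Not at hcr
      obtain ⟨p, hp, q, hq, hpq, hxy⟩ := hcr
      rw [← hfy, hxy]
      exact (hX p hp q hq hpq).2
  intro ρ
  have hρ : f ρ ≤ f x₀ := hx₀ ρ
  rcases le_total |ρ| R with h | h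
  · rw [max_eq_right (by linarith)]
    simp only [zero_div, sub_zero]
    linarith
  · rw [max_eq_left (by linarith)]
    have key : ∀ (σ : ℝ) (u : ℝ), σ ≤ -1 / D → u ≤ N → u + σ * (|ρ| - R) ≤ N - (|ρ| - R) / D := by
      intro σ u h1 h2
      have : σ * (|ρ| - R) ≤ -1 / D * (|ρ| - R) := mul_le_mul_of_nonneg_right h1 (by linarith)
      have e : -1 / (D : ℝ) * (|ρ| - R) = -((|ρ| - R) / D) := by ring
      linarith
    rcases le_total 0 ρ with h0 | h0
    · rw [abs_of_nonneg h0] at h key ⊢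
      rw [hs' ρ h]
      exact key s _ hs ((hx₀ R).trans hmax)
    · rw [abs_of_nonpos h0] at h key ⊢
      have := hs1' (-ρ) h
      rw [neg_neg] at this
      rw [this]
      exact key s' _ hs1 ((hx₀ (-R)).trans hmax)

end Crest.Agent.R281.TrOV1_726
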