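import Mathlib

/-!
# Row 281, TROP-OV part 2 (helper726)
Geometry of finitely many points in the plane: annuli, comparison of logarithms, volumes, a geometric sum.
-/

namespace Crest.Agent.R281.TrOV2_726

open MeasureTheory Set Metric
open scoped ENNReal

variable {B : ℕ} (b : Fin B → ℂ)

/-- tropical position of the point at log-distance `ρ` of `b k` -/
noncomputable def xi (k : Fin B) (ρ : ℝ) (l : Fin B) : ℝ :=
  if l = k then ρ else max ρ (Real.log ‖b k - b l‖)

/-- annulus around `b k` staying away from the other points -/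
def low (k : Fin B) (ρ : ℝ) : Set ℂ :=
  ball (b k) (Real.exp (ρ + 1)) \ (ball (b k) (Real.exp ρ) ∪ ⋃ l, ball (b l) (Real.exp ρ / (B + 1)))

theorem measurableSet_low (k : Fin B) (ρ : ℝ) : MeasurableSet (low b k ρ) := by
  unfold low
  refine isOpen_ball.measurableSet.diff ?_
  exact isOpen_ball.measurableSet.union (MeasurableSet.iUnion fun l => isOpen_ball.measurableSet)

variable {b}

theorem mem_low {k : Fin B} {ρ : ℝ} {x : ℂ} (hx : x ∈ low b k ρ) :
    Real.exp ρ ≤ ‖x - b k‖ ∧ ‖x - b k‖ < Real.exp (ρ + 1) ∧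
      ∀ l, Real.exp ρ / (B + 1) ≤ ‖x - b l‖ := by
  obtain ⟨h1, h2⟩ := hx
  simp only [mem_union, mem_iUnion, not_or, not_exists, mem_ball, not_lt, dist_eq_norm] at h1 h2
  exact ⟨h2.1, h1, h2.2⟩

theorem upper_log {k l : Fin B} {ρ : ℝ} {x : ℂ} (h2 : ‖x - b k‖ < Real.exp (ρ + 1))
    (hkl : b k ≠ b l) (hx : 0 < ‖x - b l‖) :
    Real.log ‖x - b l‖ ≤ max ρ (Real.log ‖b k - b l‖) + 2 := by
  set lam := Real.log ‖b k - b l‖ with hlam
  have hpos : 0 < ‖b k - b l‖ := norm_pos_iff.2 (sub_ne_zero.2 hkl)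
  have e1 : ‖b k - b l‖ = Real.exp lam := (Real.exp_log hpos).symm
  rw [Real.log_le_iff_le_exp hx]
  have h3 : ‖x - b l‖ ≤ ‖x - b k‖ + ‖b k - b l‖ := by
    have : x - b l = (x - b k) + (b k - b l) := by ring
    rw [this]; exact norm_add_le _ _
  have h4 : Real.exp (ρ + 1) ≤ Real.exp (max ρ lam + 1) :=
    Real.exp_le_exp.2 (by linarith [le_max_left ρ lam])
  have h5 : Real.exp lam ≤ Real.exp (max ρ lam + 1) :=
    Real.exp_le_exp.2 (by linarith [le_max_right ρ lam])
  have h6 : (2 : ℝ) * Real.exp (max ρ lam + 1) ≤ Real.exp (max ρ lam + 2) := by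
    have : Real.exp (max ρ lam + 2) = Real.exp 1 * Real.exp (max ρ lam + 1) := by
      rw [← Real.exp_add]; ring_nf
    rw [this]
    have := Real.add_one_le_exp (1 : ℝ)
    exact mul_le_mul_of_nonneg_right (by linarith) (Real.exp_pos _).le
  rw [e1] at h3
  linarith

/-- comparison on `low` -/
theorem near_low {k : Fin B} {ρ : ℝ} {x : ℂ} (hb : Function.Injective b) (hx : x ∈ low b k ρ)
    (l : Fin B) : |Real.log ‖x - b l‖ - xi b k ρ l| ≤ 3 + Real.log (B + 1) := by
  obtain ⟨h1, h2, h3⟩ := mem_low hx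
  have hB : (0 : ℝ) ≤ Real.log (B + 1) := Real.log_nonneg (by
    have : (0 : ℝ) ≤ B := by positivity
    linarith)
  have hB1 : (0 : ℝ) < B + 1 := by positivity
  unfold xi
  split_ifs with hl
  · subst hl
    have hp : 0 < ‖x - b l‖ := lt_of_lt_of_le (Real.exp_pos _) h1
    have a1 : ρ ≤ Real.log ‖x - b l‖ := (Real.le_log_iff_exp_le hp).2 h1
    have a2 : Real.log ‖x - b l‖ ≤ ρ + 1 := (Real.log_le_iff_le_exp hp).2 h2.le
    rw [abs_le]; constructor <;> linarith
  · have hkl : b k ≠ b l := fun h => hl (hb h).symm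
    have hp : 0 < ‖x - b l‖ := lt_of_lt_of_le (by positivity) (h3 l)
    have hpos : 0 < ‖b k - b l‖ := norm_pos_iff.2 (sub_ne_zero.2 hkl)
    have u := upper_log h2 hkl hp
    set lam := Real.log ‖b k - b l‖ with hlam
    have e1 : ‖b k - b l‖ = Real.exp lam := (Real.exp_log hpos).symm
    have low1 : max ρ lam - (3 + Real.log (B + 1)) ≤ Real.log ‖x - b l‖ := by
      rcases le_total lam (ρ + 2) with h | h
      · have h4 : Real.log (Real.exp ρ / (B + 1)) ≤ Real.log ‖x - b l‖ :=
          Real.log_le_log (by positivity) (h3 l)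
        rw [Real.log_div (Real.exp_pos _).ne' hB1.ne', Real.log_exp] at h4
        have : max ρ lam ≤ ρ + 2 := max_le (by linarith) h
        linarith
      · have h4 : Real.exp lam ≤ ‖x - b k‖ + ‖x - b l‖ := by
          rw [← e1]
          have : b k - b l = -(x - b k) + (x - b l) := by ring
          rw [this]
          refine (norm_add_le _ _).trans ?_
          rw [norm_neg]
        have h5 : Real.exp (ρ + 1) ≤ Real.exp (lam - 1) := Real.exp_le_exp.2 (by linarith)
        have h6 : Real.exp lam = Real.exp 1 * Real.exp (lam - 1) := by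
          rw [← Real.exp_add]; ring_nf
        have h7 := Real.add_one_le_exp (1 : ℝ)
        have h8 : Real.exp (lam - 1) ≤ ‖x - b l‖ := by
          have : (2 : ℝ) * Real.exp (lam - 1) ≤ Real.exp lam := by
            rw [h6]; exact mul_le_mul_of_nonneg_right (by linarith) (Real.exp_pos _).le
          linarith
        have h9 : lam - 1 ≤ Real.log ‖x - b l‖ := (Real.le_log_iff_exp_le hp).2 h8
        have : max ρ lam ≤ lam := max_le (by linarith) le_rfl
        linarith
    rw [abs_le]; constructor <;> linarith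

/-- comparison when `b k` is nearest to `x` -/
theorem near_up {k : Fin B} {ρ : ℝ} {x : ℂ} (hb : Function.Injective b)
    (h1 : Real.exp ρ ≤ ‖x - b k‖) (h2 : ‖x - b k‖ < Real.exp (ρ + 1))
    (hk : ∀ l, ‖x - b k‖ ≤ ‖x - b l‖) (l : Fin B) :
    |Real.log ‖x - b l‖ - xi b k ρ l| ≤ 2 := by
  have hp0 : 0 < ‖x - b k‖ := lt_of_lt_of_le (Real.exp_pos _) h1
  unfold xi
  split_ifs with hl
  · subst hl
    have a1 : ρ ≤ Real.log ‖x - b l‖ := (Real.le_log_iff_exp_le hp0).2 h1
    have a2 : Real.log ‖x - b l‖ ≤ ρ + 1 := (Real.log_le_iff_le_exp hp0).2 h2.le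
    rw [abs_le]; constructor <;> linarith
  · have hkl : b k ≠ b l := fun h => hl (hb h).symm
    have hp : 0 < ‖x - b l‖ := lt_of_lt_of_le hp0 (hk l)
    have hpos : 0 < ‖b k - b l‖ := norm_pos_iff.2 (sub_ne_zero.2 hkl)
    have u := upper_log h2 hkl hp
    set lam := Real.log ‖b k - b l‖ with hlam
    have e1 : ‖b k - b l‖ = Real.exp lam := (Real.exp_log hpos).symm
    have l1 : ρ ≤ Real.log ‖x - b l‖ := (Real.le_log_iff_exp_le hp).2 (h1.trans (hk l))
    have l2 : lam - 2 ≤ Real.log ‖x - b l‖ := by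
      have h4 : Real.exp lam ≤ 2 * ‖x - b l‖ := by
        rw [← e1]
        have : b k - b l = -(x - b k) + (x - b l) := by ring
        rw [this]
        refine (norm_add_le _ _).trans ?_
        rw [norm_neg]; linarith [hk l]
      have h6 : Real.exp lam = Real.exp 1 * Real.exp (lam - 1) := by
        rw [← Real.exp_add]; ring_nf
      have h7 := Real.add_one_le_exp (1 : ℝ)
      have h8 : Real.exp (lam - 1) ≤ ‖x - b l‖ := by
        have : (2 : ℝ) * Real.exp (lam - 1) ≤ Real.exp lam := by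
          rw [h6]; exact mul_le_mul_of_nonneg_right (by linarith) (Real.exp_pos _).le
        linarith
      have h9 : lam - 1 ≤ Real.log ‖x - b l‖ := (Real.le_log_iff_exp_le hp).2 h8
      linarith
    rw [abs_le]
    constructor
    · have : max ρ lam ≤ Real.log ‖x - b l‖ + 2 := max_le (by linarith) (by linarith)
      linarith
    · linarith

/-- volume from below -/
theorem volume_low (k : Fin B) (ρ : ℝ) :
    ENNReal.ofReal (Real.exp (2 * ρ)) ≤ volume (low b k ρ) := by
  have hB1 : (0 : ℝ) < B + 1 := by positivity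
  have hpi := Real.pi_gt_three
  have v : ∀ (a : ℂ) (r : ℝ), 0 ≤ r → volume (ball a r) = ENNReal.ofReal (r ^ 2 * Real.pi) := by
    intro a r hr
    rw [Complex.volume_ball, ENNReal.ofReal_mul (by positivity), ENNReal.ofReal_pow hr]
    congr 1
    rw [← NNReal.coe_real_pi, ENNReal.ofReal_coe_nnreal]
  set s := ball (b k) (Real.exp ρ) ∪ ⋃ l, ball (b l) (Real.exp ρ / (B + 1)) with hs
  have h1 : volume s ≤ ENNReal.ofReal (2 * (Real.exp ρ ^ 2 * Real.pi)) := by
    refine (measure_union_le _ _).trans ?_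
    have h2 : volume (⋃ l : Fin B, ball (b l) (Real.exp ρ / (B + 1))) ≤
        ENNReal.ofReal (Real.exp ρ ^ 2 * Real.pi) := by
      refine (measure_iUnion_le _).trans ?_
      rw [tsum_fintype]
      calc ∑ l : Fin B, volume (ball (b l) (Real.exp ρ / (B + 1)))
          = ∑ _l : Fin B, ENNReal.ofReal ((Real.exp ρ / (B + 1)) ^ 2 * Real.pi) := by
            refine Finset.sum_congr rfl fun l _ => v _ _ (by positivity)
        _ = ENNReal.ofReal (∑ _l : Fin B, (Real.exp ρ / (B + 1)) ^ 2 * Real.pi) := by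
            rw [ENNReal.ofReal_sum_of_nonneg (fun _ _ => by positivity)]
        _ ≤ ENNReal.ofReal (Real.exp ρ ^ 2 * Real.pi) := by
            refine ENNReal.ofReal_le_ofReal ?_
            rw [Finset.sum_const, Finset.card_univ, Fintype.card_fin, nsmul_eq_mul, div_pow]
            have : (B : ℝ) * (Real.exp ρ ^ 2 / (B + 1) ^ 2 * Real.pi) =
                (B / (B + 1) ^ 2) * (Real.exp ρ ^ 2 * Real.pi) := by ring
            rw [this]
            have h3 : (B : ℝ) / (B + 1) ^ 2 ≤ 1 := by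
              rw [div_le_one (by positivity)]
              have : (0 : ℝ) ≤ B := by positivity
              nlinarith
            have h4 : 0 ≤ Real.exp ρ ^ 2 * Real.pi := by positivity
            nlinarith
    rw [v _ _ (Real.exp_pos _).le, two_mul, ENNReal.ofReal_add (by positivity) (by positivity)]
    gcongr
  have h5 : volume (ball (b k) (Real.exp (ρ + 1))) - volume s ≤ volume (low b k ρ) := by
    unfold low
    exact le_measure_sdiff
  refine le_trans ?_ h5
  refine le_trans ?_ (tsub_le_tsub_left h1 _)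
  rw [v _ _ (Real.exp_pos _).le, ← ENNReal.ofReal_sub _ (by positivity)]
  refine ENNReal.ofReal_le_ofReal ?_
  have e1 : Real.exp (2 * ρ) = Real.exp ρ ^ 2 := by rw [← Real.exp_nat_mul]; norm_num
  have e2 : Real.exp (ρ + 1) = Real.exp 1 * Real.exp ρ := by rw [← Real.exp_add]; ring_nf
  rw [e1, e2, mul_pow]
  have h7 := Real.exp_one_gt_d9
  have h8 : (6 : ℝ) ≤ Real.exp 1 ^ 2 := by nlinarith
  have h9 : 0 < Real.exp ρ ^ 2 := by positivity
  have h10 : 0 < Real.exp ρ ^ 2 * Real.pi := by positivity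
  nlinarith [mul_le_mul_of_nonneg_right h8 h10.le]

theorem volume_ball_exp (a : ℂ) (ρ : ℝ) :
    volume (ball a (Real.exp ρ)) = ENNReal.ofReal (Real.exp (2 * ρ) * Real.pi) := by
  rw [Complex.volume_ball, ENNReal.ofReal_mul (by positivity)]
  congr 1
  · rw [← ENNReal.ofReal_pow (Real.exp_pos _).le, ← Real.exp_nat_mul]; norm_num
  · rw [← NNReal.coe_real_pi, ENNReal.ofReal_coe_nnreal]

theorem disjoint_low (k : Fin B) {ρ ρ' : ℝ} (h : ρ + 1 ≤ ρ') :
    Disjoint (low b k ρ) (low b k ρ') := by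
  rw [Set.disjoint_left]
  intro x hx hx'
  have h1 := (mem_low hx).2.1
  have h2 := (mem_low hx').1
  have h3 : Real.exp (ρ + 1) ≤ Real.exp ρ' := Real.exp_le_exp.2 h
  linarith

/-- splitting a sum in `ℝ≥0∞` -/
theorem split_sum (g : ℕ → ℝ≥0∞) (m : ℕ) :
    ∑' n, g n = ∑ i ∈ Finset.range m, g i + ∑' i, g (i + m) :=
  (ENNReal.summable.sum_add_tsum_nat_add' (f := g) (k := m)).symm

/-- the geometric sum -/
theorem geom_sum {δ : ℝ} (hδ : 0 < δ) {R : ℝ} (hR : 0 ≤ R) :
    ∑' n : ℕ, ENNReal.ofReal (Real.exp (-(δ * max ((n : ℝ) - R) 0))) ≤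
      ENNReal.ofReal (R + 1 + 1 / (1 - Real.exp (-δ))) := by
  obtain ⟨m, hm1, hm2⟩ : ∃ m : ℕ, (m : ℝ) ≤ R + 1 ∧ R ≤ m :=
    ⟨⌈R⌉₊, (Nat.ceil_lt_add_one hR).le, Nat.le_ceil R⟩
  have hlt : Real.exp (-δ) < 1 := by rw [Real.exp_lt_one_iff]; linarith
  have h4 : 0 < 1 - Real.exp (-δ) := by linarith
  have h1 : ∑ i ∈ Finset.range m, ENNReal.ofReal (Real.exp (-(δ * max ((i : ℝ) - R) 0))) ≤
      ENNReal.ofReal (R + 1) := by
    calc ∑ i ∈ Finset.range m, ENNReal.ofReal (Real.exp (-(δ * max ((i : ℝ) - R) 0)))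
        ≤ ∑ _i ∈ Finset.range m, (1 : ℝ≥0∞) := by
          refine Finset.sum_le_sum fun i _ => ?_
          rw [← ENNReal.ofReal_one]
          refine ENNReal.ofReal_le_ofReal ?_
          rw [Real.exp_le_one_iff]
          have : 0 ≤ δ * max ((i : ℝ) - R) 0 := mul_nonneg hδ.le (le_max_right _ _)
          linarith
      _ = ENNReal.ofReal (m : ℝ) := by simp
      _ ≤ ENNReal.ofReal (R + 1) := ENNReal.ofReal_le_ofReal hm1
  have h2 : ∑' i : ℕ, ENNReal.ofReal (Real.exp (-(δ * max (((i + m : ℕ) : ℝ) - R) 0))) ≤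
      ENNReal.ofReal (1 / (1 - Real.exp (-δ))) := by
    have h3 : ∀ i : ℕ, ENNReal.ofReal (Real.exp (-(δ * max (((i + m : ℕ) : ℝ) - R) 0))) ≤
        ENNReal.ofReal (Real.exp (-δ) ^ i) := by
      intro i
      refine ENNReal.ofReal_le_ofReal ?_
      rw [← Real.exp_nat_mul, Real.exp_le_exp]
      have h5 : (i : ℝ) ≤ max (((i + m : ℕ) : ℝ) - R) 0 := by
        refine le_trans ?_ (le_max_left _ _)
        push_cast; linarith
      have h6 := mul_le_mul_of_nonneg_left h5 hδ.le
      linarith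
    refine (ENNReal.tsum_le_tsum h3).trans ?_
    rw [← ENNReal.ofReal_tsum_of_nonneg (fun n => by positivity)
      (summable_geometric_of_lt_one (Real.exp_pos _).le hlt),
      tsum_geometric_of_lt_one (Real.exp_pos _).le hlt, one_div]
  rw [split_sum _ m, ENNReal.ofReal_add (by linarith) (by positivity)]
  exact add_le_add h1 h2

end Crest.Agent.R281.TrOV2_726
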