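import Crest.Agent.R281.TrPL_726
import Crest.Agent.R281.TrOV1_726
import Crest.Agent.R281.TrOV2_726

/-!
# Row 281, TROP-OV part 3 (helper726)
The tropical one-variable function `fk`, its breakpoint supremum `M`, and the lower bound.
-/

namespace Crest.Agent.R281.TrOV_726

open Crest.Agent.R281.TrPL_726 Crest.Agent.R281.TrOV1_726 Crest.Agent.R281.TrOV2_726
open MeasureTheory Set Metric Filter Topology
open scoped ENNReal

variable {V : Type*} [Fintype V] {B : ℕ}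

/-- data vector -/
noncomputable def dat (c : V → ℝ) (b : Fin B → ℂ) : V ⊕ (Fin B × Fin B) → ℝ :=
  Sum.elim c (fun p => Real.log ‖b p.1 - b p.2‖)

/-- the function on `ℂ` -/
noncomputable def GG (F : (V ⊕ Fin B → ℝ) → ℝ) (c : V → ℝ) (b : Fin B → ℂ) (x : ℂ) : ℝ :=
  Real.exp (F (Sum.elim c (fun k => Real.log ‖x - b k‖)))

/-- `2 ρ + F (c, max ρ λ_kl)` as a function of all variables -/
noncomputable def Phi (F : (V ⊕ Fin B → ℝ) → ℝ) (k : Fin B)
    (ζ : (V ⊕ (Fin B × Fin B)) ⊕ Unit → ℝ) : ℝ :=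
  2 * ζ (Sum.inr ()) + F (fun w => Sum.elim (fun v => ζ (Sum.inl (Sum.inl v)))
    (fun l => if l = k then ζ (Sum.inr ()) else max (ζ (Sum.inr ())) (ζ (Sum.inl (Sum.inr (k, l))))) w)

theorem Phi_PL {F : (V ⊕ Fin B → ℝ) → ℝ} (hF : PL F) (k : Fin B) : PL (Phi F k) := by
  unfold Phi
  have h1 : PL (fun ζ : (V ⊕ (Fin B × Fin B)) ⊕ Unit → ℝ => 2 * ζ (Sum.inr ())) := by
    have := (PL.coord (V := (V ⊕ (Fin B × Fin B)) ⊕ Unit) (Sum.inr ())).smul 2
    simpa using this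
  refine h1.add (hF.comp ?_)
  intro w
  rcases w with v | l
  · exact PL.coord (V := (V ⊕ (Fin B × Fin B)) ⊕ Unit) (Sum.inl (Sum.inl v))
  · by_cases hl : l = k
    · simp only [Sum.elim_inr, hl, if_true]
      exact PL.coord (V := (V ⊕ (Fin B × Fin B)) ⊕ Unit) (Sum.inr ())
    · simp only [Sum.elim_inr, hl, if_false]
      exact PL.max (PL.coord (V := (V ⊕ (Fin B × Fin B)) ⊕ Unit) (Sum.inr ()))
        (PL.coord (V := (V ⊕ (Fin B × Fin B)) ⊕ Unit) (Sum.inl (Sum.inr (k, l))))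

/-- the function of one real variable -/
noncomputable def fk (F : (V ⊕ Fin B → ℝ) → ℝ) (c : V → ℝ) (b : Fin B → ℂ) (k : Fin B) (ρ : ℝ) : ℝ :=
  2 * ρ + F (Sum.elim c (xi b k ρ))

theorem Phi_dat (F : (V ⊕ Fin B → ℝ) → ℝ) (c : V → ℝ) (b : Fin B → ℂ) (k : Fin B) (ρ : ℝ) :
    Phi F k (Sum.elim (dat c b) (fun _ => ρ)) = fk F c b k ρ := by
  rfl

theorem continuous_fk {F : (V ⊕ Fin B → ℝ) → ℝ} (hF : PL F) (c : V → ℝ) (b : Fin B → ℂ)
    (k : Fin B) : Continuous (fk F c b k) := by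
  have h := (Phi_PL hF k).continuous
  have h2 : Continuous (fun ρ : ℝ => (Sum.elim (dat c b) (fun _ => ρ) :
      (V ⊕ (Fin B × Fin B)) ⊕ Unit → ℝ)) := by
    refine continuous_pi fun w => ?_
    rcases w with w | w
    · exact continuous_const
    · exact continuous_id
  exact h.comp h2

theorem lf_elim {W : Type*} [Fintype W] (a : W ⊕ Unit → ℚ) (d : W → ℝ) (ρ : ℝ) :
    lf a (Sum.elim d (fun _ => ρ)) = lf (fun w => a (Sum.inl w)) d + (a (Sum.inr ()) : ℝ) * ρ := by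
  simp [lf, Fintype.sum_sum_type]

/-- crossing of two rational affine functions of `ρ` -/
def cr {W : Type*} (a a' : W ⊕ Unit → ℚ) : W → ℚ :=
  ((a' (Sum.inr ()) - a (Sum.inr ()))⁻¹ : ℚ) • (fun w => a (Sum.inl w) - a' (Sum.inl w))

theorem lf_cr {W : Type*} [Fintype W] (a a' : W ⊕ Unit → ℚ) (d : W → ℝ) :
    lf (cr a a') d = (lf (fun w => a (Sum.inl w)) d - lf (fun w => a' (Sum.inl w)) d) /
      ((a' (Sum.inr ()) : ℝ) - (a (Sum.inr ()) : ℝ)) := by
  unfold cr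
  rw [lf_smul]
  have : lf (fun w => a (Sum.inl w) - a' (Sum.inl w)) d =
      lf (fun w => a (Sum.inl w)) d - lf (fun w => a' (Sum.inl w)) d := by
    simp [lf, sub_mul, Finset.sum_sub_distrib]
  rw [this]
  push_cast
  rw [div_eq_inv_mul]

theorem abs_lf_le {W : Type*} [Fintype W] (a : W → ℚ) (d : W → ℝ) :
    |lf a d| ≤ (∑ w, |(a w : ℝ)|) * ∑ w, |d w| := by
  unfold lf
  refine (Finset.abs_sum_le_sum_abs _ _).trans ?_
  rw [Finset.sum_mul]
  refine Finset.sum_le_sum fun w _ => ?_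
  rw [abs_mul]
  exact mul_le_mul_of_nonneg_left
    (Finset.single_le_sum (f := fun w => |d w|) (fun _ _ => abs_nonneg _) (Finset.mem_univ w))
    (abs_nonneg _)

/-- everything about the breakpoints: uniform data -/
theorem exists_M (hB : 0 < B) {F : (V ⊕ Fin B → ℝ) → ℝ} (hF : PL F) :
    ∃ (M : (V ⊕ (Fin B × Fin B) → ℝ) → ℝ) (D : ℕ) (CR : ℝ), PL M ∧ 0 < D ∧ 0 ≤ CR ∧
      ∀ (c : V → ℝ) (b : Fin B → ℂ),
        (∃ k ρ, M (dat c b) = fk F c b k ρ) ∧
        ∀ k, Tendsto (fun j : ℕ => fk F c b k (j : ℝ)) atTop atBot →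
          Tendsto (fun j : ℕ => fk F c b k (-(j : ℝ))) atTop atBot →
          ∀ ρ, fk F c b k ρ ≤ M (dat c b) - max (|ρ| - CR * ∑ w, |dat c b w|) 0 / D := by
  classical
  choose Λ hΛ using fun k => (Phi_PL hF k).sel
  set Lam : Finset ((V ⊕ (Fin B × Fin B)) ⊕ Unit → ℚ) := Finset.univ.biUnion Λ with hLam
  have hsel : ∀ k ζ, ∃ a ∈ Lam, Phi F k ζ = lf a ζ := by
    intro k ζ
    obtain ⟨a, ha, he⟩ := hΛ k ζ
    exact ⟨a, Finset.mem_biUnion.2 ⟨k, Finset.mem_univ _, ha⟩, he⟩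
  have hne : Lam.Nonempty := by
    obtain ⟨a, ha, _⟩ := hsel ⟨0, hB⟩ 0
    exact ⟨a, ha⟩
  let s : Finset (Fin B × (((V ⊕ (Fin B × Fin B)) ⊕ Unit → ℚ) × ((V ⊕ (Fin B × Fin B)) ⊕ Unit → ℚ))) :=
    Finset.univ ×ˢ (Lam ×ˢ Lam)
  have hs : s.Nonempty := by
    refine Finset.Nonempty.product ⟨⟨0, hB⟩, Finset.mem_univ _⟩ (hne.product hne)
  obtain ⟨M, hM, hM1, hM2⟩ := PL.exists_sup (V := V ⊕ (Fin B × Fin B)) s hs
    (F := fun p d => Phi F p.1 (Sum.elim d (fun _ => lf (cr p.2.1 p.2.2) d))) (by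
      intro p _
      have := (Phi_PL hF p.1).comp (W := V ⊕ (Fin B × Fin B))
        (H := fun w d => (Sum.elim d (fun _ => lf (cr p.2.1 p.2.2) d) :
          (V ⊕ (Fin B × Fin B)) ⊕ Unit → ℝ) w) (by
          intro w
          rcases w with w | w
          · exact PL.coord w
          · exact PL.lin _)
      exact this)
  let D : ℕ := ∏ a ∈ Lam, (a (Sum.inr ())).den
  have hD : 0 < D := Finset.prod_pos fun a _ => Rat.pos _
  let CR : ℝ := ∑ a ∈ Lam, ∑ a' ∈ Lam, ∑ w, |((cr a a' w : ℚ) : ℝ)|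
  have hCR : 0 ≤ CR := Finset.sum_nonneg fun _ _ => Finset.sum_nonneg fun _ _ =>
    Finset.sum_nonneg fun _ _ => abs_nonneg _
  refine ⟨M, D, CR, hM, hD, hCR, fun c b => ⟨?_, ?_⟩⟩
  · obtain ⟨p, _, he⟩ := hM2 (dat c b)
    exact ⟨p.1, lf (cr p.2.1 p.2.2) (dat c b), he.trans (Phi_dat F c b _ _)⟩
  · intro k ht1 ht2
    set d := dat c b with hd
    refine pl1 (L := Lam.image (fun a => (lf (fun w => a (Sum.inl w)) d, ((a (Sum.inr ()) : ℚ) : ℝ))))
      hD ?_ (continuous_fk hF c b k) ?_ ht1 ht2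
      (mul_nonneg hCR (Finset.sum_nonneg fun _ _ => abs_nonneg _)) ?_
    · intro p hp
      obtain ⟨a, ha, rfl⟩ := Finset.mem_image.1 hp
      obtain ⟨m, hm⟩ : (a (Sum.inr ())).den ∣ D := Finset.dvd_prod_of_mem _ ha
      refine ⟨(a (Sum.inr ())).num * m, ?_⟩
      rw [hm]
      have h1 : ((a (Sum.inr ()) : ℚ) : ℝ) * ((a (Sum.inr ())).den : ℝ) = ((a (Sum.inr ())).num : ℝ) := by
        have := Rat.mul_den_eq_num (a (Sum.inr ()))
        exact_mod_cast this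
      push_cast
      rw [← mul_assoc, h1]
    · intro ρ
      obtain ⟨a, ha, he⟩ := hsel k (Sum.elim d (fun _ => ρ))
      refine ⟨_, Finset.mem_image.2 ⟨a, ha, rfl⟩, ?_⟩
      rw [← Phi_dat, ← hd, he, lf_elim]
    · intro p hp q hq hpq
      obtain ⟨a, ha, rfl⟩ := Finset.mem_image.1 hp
      obtain ⟨a', ha', rfl⟩ := Finset.mem_image.1 hq
      simp only
      rw [← lf_cr]
      constructor
      · refine (abs_lf_le _ _).trans (mul_le_mul_of_nonneg_right ?_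
          (Finset.sum_nonneg fun _ _ => abs_nonneg _))
        refine le_trans ?_ (Finset.single_le_sum (f := fun a => ∑ a' ∈ Lam, ∑ w, |((cr a a' w : ℚ) : ℝ)|)
          (fun _ _ => Finset.sum_nonneg fun _ _ => Finset.sum_nonneg fun _ _ => abs_nonneg _) ha)
        exact Finset.single_le_sum (f := fun a' => ∑ w, |((cr a a' w : ℚ) : ℝ)|)
          (fun _ _ => Finset.sum_nonneg fun _ _ => abs_nonneg _) ha'
      · have := hM1 d (k, (a, a')) (Finset.mem_product.2 ⟨Finset.mem_univ _,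
          Finset.mem_product.2 ⟨ha, ha'⟩⟩)
        rw [← Phi_dat]
        exact this

theorem measurable_GG {F : (V ⊕ Fin B → ℝ) → ℝ} (hF : PL F) (c : V → ℝ) (b : Fin B → ℂ) :
    Measurable (GG F c b) := by
  unfold GG
  refine Real.measurable_exp.comp (hF.continuous.measurable.comp ?_)
  refine measurable_pi_lambda _ fun w => ?_
  rcases w with v | k
  · exact measurable_const
  · simp only [Sum.elim_inr]
    exact Real.measurable_log.comp (by fun_prop)

/-- Lipschitz comparison -/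
theorem GG_cmp {F : (V ⊕ Fin B → ℝ) → ℝ} {S : ℝ}
    (hS : ∀ ξ η : V ⊕ Fin B → ℝ, ∀ δ : ℝ, (∀ v, |ξ v - η v| ≤ δ) → |F ξ - F η| ≤ S * δ)
    (c : V → ℝ) (b : Fin B → ℂ) (k : Fin B) (ρ : ℝ) (x : ℂ) {δ : ℝ} (hδ : 0 ≤ δ)
    (h : ∀ l, |Real.log ‖x - b l‖ - xi b k ρ l| ≤ δ) :
    |F (Sum.elim c (fun l => Real.log ‖x - b l‖)) - F (Sum.elim c (xi b k ρ))| ≤ S * δ := by
  refine hS _ _ δ fun w => ?_
  rcases w with v | l
  · simpa using hδ
  · exact h l

/-- the lower bound -/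
theorem low_bound {F : (V ⊕ Fin B → ℝ) → ℝ} {S : ℝ}
    (hS : ∀ ξ η : V ⊕ Fin B → ℝ, ∀ δ : ℝ, (∀ v, |ξ v - η v| ≤ δ) → |F ξ - F η| ≤ S * δ)
    (c : V → ℝ) {b : Fin B → ℂ} (hb : Function.Injective b) (k : Fin B) (ρ : ℝ) :
    ENNReal.ofReal (Real.exp (fk F c b k ρ)) ≤
      ENNReal.ofReal (Real.exp (S * (3 + Real.log (B + 1)))) *
        ∫⁻ x in low b k ρ, ENNReal.ofReal (GG F c b x) := by
  set C1 := 3 + Real.log (B + 1) with hC1
  have hC1' : 0 ≤ C1 := by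
    have : (0 : ℝ) ≤ Real.log (B + 1) := Real.log_nonneg (by
      have : (0 : ℝ) ≤ B := by positivity
      linarith)
    linarith
  have h1 : ENNReal.ofReal (Real.exp (F (Sum.elim c (xi b k ρ)) - S * C1)) *
      volume (low b k ρ) ≤ ∫⁻ x in low b k ρ, ENNReal.ofReal (GG F c b x) := by
    rw [← setLIntegral_const]
    refine setLIntegral_mono' (measurableSet_low b k ρ) fun x hx => ?_
    refine ENNReal.ofReal_le_ofReal (Real.exp_le_exp.2 ?_)
    have := GG_cmp hS c b k ρ x hC1' (near_low hb hx)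
    have := (abs_le.1 this).1
    linarith
  have h2 := volume_low (b := b) k ρ
  calc ENNReal.ofReal (Real.exp (fk F c b k ρ))
      = ENNReal.ofReal (Real.exp (S * C1)) * (ENNReal.ofReal (Real.exp (F (Sum.elim c (xi b k ρ)) - S * C1)) *
          ENNReal.ofReal (Real.exp (2 * ρ))) := by
        rw [← ENNReal.ofReal_mul (Real.exp_pos _).le, ← ENNReal.ofReal_mul (Real.exp_pos _).le,
          ← Real.exp_add, ← Real.exp_add]
        congr 2
        unfold fk; ring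
    _ ≤ ENNReal.ofReal (Real.exp (S * C1)) * (ENNReal.ofReal (Real.exp (F (Sum.elim c (xi b k ρ)) - S * C1)) *
          volume (low b k ρ)) := by gcongr
    _ ≤ _ := by gcongr

theorem tendsto_of_disj {F : (V ⊕ Fin B → ℝ) → ℝ} {S : ℝ}
    (hS : ∀ ξ η : V ⊕ Fin B → ℝ, ∀ δ : ℝ, (∀ v, |ξ v - η v| ≤ δ) → |F ξ - F η| ≤ S * δ)
    (c : V → ℝ) {b : Fin B → ℂ} (hb : Function.Injective b) (k : Fin B) (r : ℕ → ℝ)
    (hr : Pairwise (Function.onFun Disjoint (fun n => low b k (r n))))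
    (hfin : ∫⁻ x, ENNReal.ofReal (GG F c b x) ≠ ∞) :
    Tendsto (fun j : ℕ => fk F c b k (r j)) atTop atBot := by
  have h1 : ∑' n, ENNReal.ofReal (Real.exp (fk F c b k (r n))) ≠ ∞ := by
    have h2 : ∑' n, ENNReal.ofReal (Real.exp (fk F c b k (r n))) ≤
        ENNReal.ofReal (Real.exp (S * (3 + Real.log (B + 1)))) *
          ∫⁻ x, ENNReal.ofReal (GG F c b x) := by
      refine (ENNReal.tsum_le_tsum fun n => low_bound hS c hb k (r n)).trans ?_
      rw [ENNReal.tsum_mul_left, ← lintegral_iUnion (fun n => measurableSet_low b k (r n)) hr]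
      gcongr
      exact Measure.restrict_le_self
    exact ne_top_of_le_ne_top (ENNReal.mul_ne_top ENNReal.ofReal_ne_top hfin) h2
  have h3 := ENNReal.tendsto_atTop_zero_of_tsum_ne_top h1
  have h4 : Tendsto (fun n => Real.exp (fk F c b k (r n))) atTop (𝓝 0) := by
    have h5 := (ENNReal.tendsto_toReal ENNReal.zero_ne_top).comp h3
    simp only [ENNReal.toReal_zero] at h5
    refine h5.congr fun n => ?_
    simp [ENNReal.toReal_ofReal (Real.exp_pos _).le]
  exact Real.tendsto_exp_comp_nhds_zero.1 h4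

theorem tendsto_both {F : (V ⊕ Fin B → ℝ) → ℝ} (hF : PL F)
    (c : V → ℝ) {b : Fin B → ℂ} (hb : Function.Injective b) (k : Fin B)
    (hfin : ∫⁻ x, ENNReal.ofReal (GG F c b x) ≠ ∞) :
    Tendsto (fun j : ℕ => fk F c b k (j : ℝ)) atTop atBot ∧
      Tendsto (fun j : ℕ => fk F c b k (-(j : ℝ))) atTop atBot := by
  obtain ⟨S, _, hS⟩ := hF.lip
  constructor
  · refine tendsto_of_disj hS c hb k (fun j => (j : ℝ)) ?_ hfin
    intro m n hmn
    rcases lt_or_gt_of_ne hmn with h | h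
    · have : (m : ℝ) + 1 ≤ n := by exact_mod_cast h
      exact disjoint_low k this
    · have : (n : ℝ) + 1 ≤ m := by exact_mod_cast h
      exact (disjoint_low k this).symm
  · refine tendsto_of_disj hS c hb k (fun j => -(j : ℝ)) ?_ hfin
    intro m n hmn
    rcases lt_or_gt_of_ne hmn with h | h
    · have : (m : ℝ) + 1 ≤ n := by exact_mod_cast h
      exact (disjoint_low k (by linarith : -(n : ℝ) + 1 ≤ -(m : ℝ))).symm
    · have : (n : ℝ) + 1 ≤ m := by exact_mod_cast h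
      exact disjoint_low k (by linarith : -(m : ℝ) + 1 ≤ -(n : ℝ))

end Crest.Agent.R281.TrOV_726
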