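import Crest.Agent.R281.TrU1_249

/-!
# Row 281, TROP-UWT (helper249), part 2: statements, base case
-/

namespace Crest.Agent.R281.TrU_249

open MeasureTheory Filter Topology
open scoped ENNReal

open Crest.Agent.R281.TrPL_726

theorem PL.homog {V : Type*} [Fintype V] {F : (V → ℝ) → ℝ} (hF : PL F) {c : ℝ} (hc : 0 ≤ c)
    (ξ : V → ℝ) : F (fun v => ξ v * c) = F ξ * c := by
  induction hF with
  | lin a => simp only [lf, Finset.sum_mul, mul_assoc]
  | max _ _ h1 h2 => simp only [h1, h2, max_mul_of_nonneg _ _ hc]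
  | min _ _ h1 h2 => simp only [h1, h2, min_mul_of_nonneg _ _ hc]

section defs

variable {T R : Type*} [CommRing R]

/-- integrability is open, with polynomially controlled mass -/
def WStmt (l : Filter T) (ev : T → R →+* ℂ) (L : T → ℝ) {n : ℕ}
    (G : (MvPolynomial (Fin n) R →+* ℂ) → ℝ) : Prop :=
  ∀ (k : ℕ) (w : Fin k → MvPolynomial (Fin n) R), (∀ i, w i ≠ 0) →
    ∃ κ C : ℝ, 0 < κ ∧ 0 < C ∧ ∀ᶠ t in l,
      ∫⁻ y : Fin n → ℂ, ENNReal.ofReal (G (pt (ev t) y) *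
        Real.exp (κ * ∑ i, |Real.log ‖pt (ev t) y (w i)‖|)) ≤ ENNReal.ofReal (Real.exp (C * L t))

/-- the bad set -/
def Bad (φ : R →+* ℂ) (lam : ℝ) {n : ℕ} (G : (MvPolynomial (Fin n) R →+* ℂ) → ℝ)
    (f : Fin n → MvPolynomial (Fin n) R) (a C : ℝ) : Set (Fin n → ℂ) :=
  {y | C * Real.exp (a * lam) *
      ∏ i, ‖pt φ y (MvPolynomial.pderiv i (f i)) / pt φ y (f i)‖ ^ 2 < G (pt φ y) ∨
    ∃ i, C * lam < |Real.log ‖pt φ y (f i)‖|}

/-- two-sided mass bound and the triangular tuple -/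
def TStmt (l : Filter T) (ev : T → R →+* ℂ) (L : T → ℝ) {n : ℕ}
    (G : (MvPolynomial (Fin n) R →+* ℂ) → ℝ) : Prop :=
  ∃ (a C : ℝ) (f : Fin n → MvPolynomial (Fin n) R), 0 < C ∧
    (∀ i, f i ≠ 0 ∧ ∀ j ∈ (f i).vars, i ≤ j) ∧
    ∀ᶠ t in l, ENNReal.ofReal (Real.exp (a * L t) / C) ≤
        ∫⁻ y : Fin n → ℂ, ENNReal.ofReal (G (pt (ev t) y)) ∧
      ∫⁻ y : Fin n → ℂ, ENNReal.ofReal (G (pt (ev t) y)) ≤
        ENNReal.ofReal (C * Real.exp (a * L t) * L t ^ n) ∧
      ∫⁻ y in Bad (ev t) (L t) G f a C, ENNReal.ofReal (G (pt (ev t) y)) ≤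
        ENNReal.ofReal (C * Real.exp (a * L t) * L t ^ n / L t)

theorem measurableSet_Bad (φ : R →+* ℂ) (lam : ℝ) {n : ℕ}
    {G : (MvPolynomial (Fin n) R →+* ℂ) → ℝ} (hG : Tr (MvPolynomial (Fin n) R) G)
    (f : Fin n → MvPolynomial (Fin n) R) (a C : ℝ) : MeasurableSet (Bad φ lam G f a C) := by
  unfold Bad
  have e : {y : Fin n → ℂ | C * Real.exp (a * lam) *
      ∏ i, ‖pt φ y (MvPolynomial.pderiv i (f i)) / pt φ y (f i)‖ ^ 2 < G (pt φ y) ∨
    ∃ i, C * lam < |Real.log ‖pt φ y (f i)‖|} =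
    {y | C * Real.exp (a * lam) *
      ∏ i, ‖pt φ y (MvPolynomial.pderiv i (f i)) / pt φ y (f i)‖ ^ 2 < G (pt φ y)} ∪
    ⋃ i, {y | C * lam < |Real.log ‖pt φ y (f i)‖|} := by
    ext y; simp
  rw [e]
  refine MeasurableSet.union (measurableSet_lt ?_ (measurable_Tr hG φ))
    (MeasurableSet.iUnion fun i => measurableSet_lt measurable_const ?_)
  · refine measurable_const.mul (Finset.measurable_fun_prod _ fun i _ => ?_)
    exact (((continuous_pt φ _).measurable.div (continuous_pt φ _).measurable).norm).pow_const 2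
  · exact (measurable_log_pt φ (f i)).abs

end defs

section base

variable {T R : Type*} [CommRing R] {l : Filter T} {ev : T → R →+* ℂ} {L : T → ℝ}

theorem lintegral_zero_dim (g : (Fin 0 → ℂ) → ℝ≥0∞) : ∫⁻ y, g y = g default := by
  rw [Measure.volume_pi_eq_dirac (default : Fin 0 → ℂ), lintegral_dirac]

theorem base_form {G : (MvPolynomial (Fin 0) R →+* ℂ) → ℝ} (h : Scale l ev L)
    (hG : Tr (MvPolynomial (Fin 0) R) G) :
    ∃ a C : ℝ, 0 < C ∧ ∀ᶠ t in l, ∀ y : Fin 0 → ℂ,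
      Real.exp (a * L t) / C ≤ G (pt (ev t) y) ∧ G (pt (ev t) y) ≤ C * Real.exp (a * L t) := by
  obtain ⟨m, q, F, hq, hF, hG⟩ := hG
  have hr : ∀ v, ∃ r : R, q v = MvPolynomial.C r ∧ r ≠ 0 := by
    intro v
    obtain ⟨r, hr⟩ := MvPolynomial.C_surjective (Fin 0) (q v)
    refine ⟨r, hr.symm, ?_⟩
    rintro rfl
    exact hq v (by rw [← hr]; simp)
  choose r hr hr0 using hr
  choose k C hk using fun v => h.ord (r v) (hr0 v)
  obtain ⟨S, hS, hlip⟩ := hF.lip
  have hall : ∀ᶠ t in l, ∀ v, ev t (r v) ≠ 0 ∧ |Real.log ‖ev t (r v)‖ - k v * L t| ≤ C v :=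
    eventually_all.2 hk
  refine ⟨F k, Real.exp (S * ∑ v, |C v|), Real.exp_pos _, ?_⟩
  filter_upwards [hall, h.tendsto.eventually_ge_atTop 0] with t ht hL y
  have hval : G (pt (ev t) y) = Real.exp (F (fun v => Real.log ‖ev t (r v)‖)) := by
    rw [hG]
    congr 2
    funext v
    rw [hr, pt_C]
  have hd := hlip (fun v => Real.log ‖ev t (r v)‖) (fun v => k v * L t) (∑ v, |C v|) (fun v => by
    refine (ht v).2.trans ((le_abs_self _).trans ?_)
    exact Finset.single_le_sum (f := fun v => |C v|) (fun _ _ => abs_nonneg _) (Finset.mem_univ v))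
  rw [PL.homog hF hL] at hd
  have hd' := abs_le.1 hd
  rw [hval]
  constructor
  · rw [← Real.exp_sub]
    exact Real.exp_le_exp.2 (by linarith [hd'.1])
  · rw [← Real.exp_add]
    exact Real.exp_le_exp.2 (by linarith [hd'.2])

theorem base_W {G : (MvPolynomial (Fin 0) R →+* ℂ) → ℝ} (h : Scale l ev L)
    (hG : Tr (MvPolynomial (Fin 0) R) G) : WStmt l ev L G := by
  intro k w hw
  obtain ⟨a, C, hC, hb⟩ := base_form h hG
  have h1 : ∀ i, ∃ a C : ℝ, 0 < C ∧ ∀ᶠ t in l, ∀ y : Fin 0 → ℂ,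
      Real.exp (a * L t) / C ≤ Real.exp (|Real.log ‖pt (ev t) y (w i)‖|) ∧
      Real.exp (|Real.log ‖pt (ev t) y (w i)‖|) ≤ C * Real.exp (a * L t) := by
    intro i
    refine base_form h (G := fun φ => Real.exp (|Real.log ‖φ (w i)‖|)) ?_
    exact Tr.mk' (V := Unit) (fun _ => w i) (fun _ => hw i) (PL.coord ()).abs
  choose ai Ci hCi hbi using h1
  have hcomb : ∀ᶠ t in l, ∀ y : Fin 0 → ℂ, G (pt (ev t) y) *
      Real.exp (1 * ∑ i, |Real.log ‖pt (ev t) y (w i)‖|) ≤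
        (C * ∏ i, Ci i) * Real.exp ((a + ∑ i, ai i) * L t) := by
    filter_upwards [hb, eventually_all.2 hbi] with t ht hti y
    rw [one_mul, Real.exp_sum]
    calc _ ≤ (C * Real.exp (a * L t)) * ∏ i, (Ci i * Real.exp (ai i * L t)) := by
          refine mul_le_mul (ht y).2 (Finset.prod_le_prod (fun _ _ => (Real.exp_pos _).le)
            fun i _ => (hti i y).2) (Finset.prod_nonneg fun _ _ => (Real.exp_pos _).le) (by positivity)
      _ = _ := by
          rw [Finset.prod_mul_distrib, ← Real.exp_sum, add_mul, Real.exp_add, Finset.sum_mul]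
          ring
  refine ⟨1, |a + ∑ i, ai i| + 1, one_pos, by positivity, ?_⟩
  have hK : ∀ᶠ t in l, C * ∏ i, Ci i ≤ Real.exp (L t) :=
    (Real.tendsto_exp_atTop.comp h.tendsto).eventually_ge_atTop _
  filter_upwards [hcomb, hK, h.tendsto.eventually_ge_atTop 0] with t ht hKt hL
  rw [lintegral_zero_dim]
  refine ENNReal.ofReal_le_ofReal ((ht _).trans ?_)
  calc _ ≤ Real.exp (L t) * Real.exp ((a + ∑ i, ai i) * L t) :=
        mul_le_mul_of_nonneg_right hKt (Real.exp_pos _).le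
    _ = Real.exp (L t + (a + ∑ i, ai i) * L t) := (Real.exp_add _ _).symm
    _ ≤ _ := by
        refine Real.exp_le_exp.2 ?_
        nlinarith [le_abs_self (a + ∑ i, ai i)]

theorem base_T {G : (MvPolynomial (Fin 0) R →+* ℂ) → ℝ} (h : Scale l ev L)
    (hG : Tr (MvPolynomial (Fin 0) R) G) : TStmt l ev L G := by
  obtain ⟨a, C, hC, hb⟩ := base_form h hG
  refine ⟨a, C, fun i => i.elim0, hC, fun i => i.elim0, ?_⟩
  filter_upwards [hb] with t ht
  refine ⟨?_, ?_, ?_⟩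
  · rw [lintegral_zero_dim]
    exact ENNReal.ofReal_le_ofReal (ht _).1
  · rw [lintegral_zero_dim]
    exact ENNReal.ofReal_le_ofReal (by simpa using (ht _).2)
  · have : Bad (ev t) (L t) G (fun i : Fin 0 => (i.elim0 : MvPolynomial (Fin 0) R)) a C = ∅ := by
      ext y
      simp only [Bad, Finset.univ_eq_empty, Finset.prod_empty, mul_one, IsEmpty.exists_iff, or_false,
        Set.mem_ofPred_eq, Set.mem_empty_iff_false, iff_false, not_lt]
      exact (ht y).2
    rw [this]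
    simp

end base

end Crest.Agent.R281.TrU_249
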