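import Crest.Agent.R281.TrU2_249

/-!
# Row 281, TROP-UWT (helper249), part 3: the inductive step
-/

namespace Crest.Agent.R281.TrU_249

open MeasureTheory Filter Topology
open scoped ENNReal

open Crest.Agent.R281.TrPL_726

theorem meas_cons2 {n : ℕ} {g : (Fin (n + 1) → ℂ) → ℝ≥0∞} (hg : Measurable g) :
    Measurable (fun y : Fin n → ℂ => ∫⁻ x : ℂ, g (Fin.cons x y)) := by
  have : Measurable (fun q : (Fin n → ℂ) × ℂ => g (Fin.cons q.2 q.1)) :=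
    hg.comp (measurable_cons.comp measurable_swap)
  exact this.lintegral_prod_right'

theorem lint_const_mul {α : Type*} [MeasurableSpace α] (μ : Measure α) {c : ℝ} (hc : 0 ≤ c)
    (g : α → ℝ) : ∫⁻ y, ENNReal.ofReal (c * g y) ∂μ = ENNReal.ofReal c * ∫⁻ y, ENNReal.ofReal (g y) ∂μ := by
  simp only [ENNReal.ofReal_mul hc]
  exact lintegral_const_mul' _ _ ENNReal.ofReal_ne_top

section ineq

theorem one_add_le {κ S : ℝ} (hκ : 0 < κ) :
    1 + S ≤ 2 / κ * Real.exp (κ / 2 * (1 + S)) := by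
  have h := Real.add_one_le_exp (κ / 2 * (1 + S))
  have h2 : κ / 2 * (1 + S) ≤ Real.exp (κ / 2 * (1 + S)) := by linarith
  calc 1 + S = 2 / κ * (κ / 2 * (1 + S)) := by field_simp
    _ ≤ _ := mul_le_mul_of_nonneg_left h2 (by positivity)

theorem ineq1 {κ₁ C κ S M : ℝ} (hκ₁ : 0 < κ₁) (hC : 0 < C) (hκ : C * κ ≤ κ₁ / 2) (hS : 0 ≤ S)
    (hM : 0 ≤ M) : C * M * (1 + S) * Real.exp (C * κ * (1 + S)) ≤
      (C * (2 / κ₁) * Real.exp κ₁) * (M * Real.exp (κ₁ * S)) := by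
  have h1 := one_add_le (S := S) hκ₁
  have h2 : Real.exp (C * κ * (1 + S)) ≤ Real.exp (κ₁ / 2 * (1 + S)) :=
    Real.exp_le_exp.2 (mul_le_mul_of_nonneg_right hκ (by linarith))
  have h3 : (1 + S) * Real.exp (C * κ * (1 + S)) ≤
      2 / κ₁ * Real.exp (κ₁ / 2 * (1 + S)) * Real.exp (κ₁ / 2 * (1 + S)) :=
    mul_le_mul h1 h2 (Real.exp_pos _).le (by positivity)
  have h4 : Real.exp (κ₁ / 2 * (1 + S)) * Real.exp (κ₁ / 2 * (1 + S)) =
      Real.exp κ₁ * Real.exp (κ₁ * S) := by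
    rw [← Real.exp_add, ← Real.exp_add]; congr 1; ring
  calc C * M * (1 + S) * Real.exp (C * κ * (1 + S))
      = C * M * ((1 + S) * Real.exp (C * κ * (1 + S))) := by ring
    _ ≤ C * M * (2 / κ₁ * Real.exp (κ₁ / 2 * (1 + S)) * Real.exp (κ₁ / 2 * (1 + S))) :=
        mul_le_mul_of_nonneg_left h3 (by positivity)
    _ = C * M * (2 / κ₁) * (Real.exp (κ₁ / 2 * (1 + S)) * Real.exp (κ₁ / 2 * (1 + S))) := by ring
    _ = _ := by rw [h4]; ring

theorem ineq2 {κ₁ K lam S : ℝ} (hκ₁ : 0 < κ₁) (hK : 0 ≤ K) (hlam : 0 ≤ lam) (hS : 0 ≤ S) :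
    1 + S ≤ (1 + K * lam) +
      (2 / κ₁ * Real.exp (κ₁ / 2)) * Real.exp (κ₁ * S) * Real.exp (-(κ₁ * K * lam / 2)) := by
  rcases le_or_gt S (K * lam) with h | h
  · have : 0 ≤ (2 / κ₁ * Real.exp (κ₁ / 2)) * Real.exp (κ₁ * S) * Real.exp (-(κ₁ * K * lam / 2)) := by
      positivity
    linarith
  · have h1 := one_add_le (S := S) hκ₁
    have h2 : Real.exp (κ₁ / 2 * (1 + S)) ≤
        Real.exp (κ₁ / 2) * Real.exp (κ₁ * S) * Real.exp (-(κ₁ * K * lam / 2)) := by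
      rw [← Real.exp_add, ← Real.exp_add]
      refine Real.exp_le_exp.2 ?_
      nlinarith
    have h3 : 2 / κ₁ * Real.exp (κ₁ / 2 * (1 + S)) ≤
        2 / κ₁ * (Real.exp (κ₁ / 2) * Real.exp (κ₁ * S) * Real.exp (-(κ₁ * K * lam / 2))) :=
      mul_le_mul_of_nonneg_left h2 (by positivity)
    have h4 : 0 ≤ K * lam := mul_nonneg hK hlam
    calc 1 + S ≤ _ := h1
      _ ≤ _ := h3
      _ ≤ _ := by
        have : 2 / κ₁ * (Real.exp (κ₁ / 2) * Real.exp (κ₁ * S) * Real.exp (-(κ₁ * K * lam / 2))) =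
          (2 / κ₁ * Real.exp (κ₁ / 2)) * Real.exp (κ₁ * S) * Real.exp (-(κ₁ * K * lam / 2)) := by ring
        rw [this]; linarith

end ineq

section step

variable {T R : Type*} [CommRing R] {l : Filter T} {ev : T → R →+* ℂ} {L : T → ℝ}

/-- the projection step on `Fin (n+1) → ℂ` -/
theorem pkg (h : Scale l ev L) {n : ℕ} (hP : Proj (MvPolynomial (Fin n) R))
    {G : (MvPolynomial (Fin (n + 1)) R →+* ℂ) → ℝ} (hG : Tr (MvPolynomial (Fin (n + 1)) R) G)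
    (hfin : ∀ᶠ t in l, ∫⁻ z : Fin (n + 1) → ℂ, ENNReal.ofReal (G (pt (ev t) z)) ≠ ∞)
    (k : ℕ) (w : Fin k → MvPolynomial (Fin (n + 1)) R) (hw : ∀ i, w i ≠ 0) :
    ∃ (M : (MvPolynomial (Fin n) R →+* ℂ) → ℝ) (P : MvPolynomial (Fin (n + 1)) R) (j : ℕ)
      (Q : Fin j → MvPolynomial (Fin n) R) (κ₀ C : ℝ),
      Tr (MvPolynomial (Fin n) R) M ∧ P ≠ 0 ∧ (∀ i, Q i ≠ 0) ∧ 0 < κ₀ ∧ 0 < C ∧
      (∀ᶠ t in l, ∫⁻ y : Fin n → ℂ, ENNReal.ofReal (M (pt (ev t) y)) ≠ ∞) ∧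
      ∀ᶠ t in l, ∀ᵐ y : Fin n → ℂ,
        (ENNReal.ofReal (M (pt (ev t) y)) ≤
          ENNReal.ofReal C * ∫⁻ x : ℂ, ENNReal.ofReal (G (pt (ev t) (Fin.cons x y)))) ∧
        (∀ κ : ℝ, 0 ≤ κ → κ ≤ κ₀ →
          ∫⁻ x : ℂ, ENNReal.ofReal (G (pt (ev t) (Fin.cons x y)) *
            Real.exp (κ * (∑ i, |Real.log ‖pt (ev t) (Fin.cons x y) (w i)‖| +
              |Real.log ‖pt (ev t) (Fin.cons x y) P‖|))) ≤
          ENNReal.ofReal (C * M (pt (ev t) y) * (1 + ∑ i, |Real.log ‖pt (ev t) y (Q i)‖|) *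
            Real.exp (C * κ * (1 + ∑ i, |Real.log ‖pt (ev t) y (Q i)‖|)))) ∧
        ∫⁻ x : ℂ in {x : ℂ | C * M (pt (ev t) y) *
            ‖pt (ev t) (Fin.cons x y) (MvPolynomial.pderiv 0 P) / pt (ev t) (Fin.cons x y) P‖ ^ 2 <
              G (pt (ev t) (Fin.cons x y))},
          ENNReal.ofReal (G (pt (ev t) (Fin.cons x y))) ≤ ENNReal.ofReal (C * M (pt (ev t) y)) := by
  have hG2 := Tr.transfer (MvPolynomial.finSuccEquiv R n).toRingEquiv hG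
  obtain ⟨M, q1, P', j, Q, κ₀, C, hM, hq1, hP', hQ, hκ₀, hC, hmain⟩ := hP _ hG2 k
    (fun i => MvPolynomial.finSuccEquiv R n (w i)) (fun i => by simpa using hw i)
  set P := (MvPolynomial.finSuccEquiv R n).symm P' with hPdef
  have hP0 : P ≠ 0 := by rw [hPdef]; simpa using hP'
  have eG : ∀ (φ : R →+* ℂ) (x : ℂ) (y : Fin n → ℂ),
      G ((ptX (pt φ y) x).comp
        ((MvPolynomial.finSuccEquiv R n).toRingEquiv : MvPolynomial (Fin (n + 1)) R →+* _)) =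
      G (pt φ (Fin.cons x y)) := by
    intro φ x y
    rw [pt_cons_comp]; rfl
  have ew : ∀ (φ : R →+* ℂ) (x : ℂ) (y : Fin n → ℂ) (q : MvPolynomial (Fin (n + 1)) R),
      ptX (pt φ y) x (MvPolynomial.finSuccEquiv R n q) = pt φ (Fin.cons x y) q :=
    fun φ x y q => (pt_cons φ x y q).symm
  have eP : ∀ (φ : R →+* ℂ) (x : ℂ) (y : Fin n → ℂ), ptX (pt φ y) x P' = pt φ (Fin.cons x y) P := by
    intro φ x y
    rw [pt_cons, hPdef, AlgEquiv.apply_symm_apply]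
  have edP : ∀ (φ : R →+* ℂ) (x : ℂ) (y : Fin n → ℂ),
      ptX (pt φ y) x (Polynomial.derivative P') = pt φ (Fin.cons x y) (MvPolynomial.pderiv 0 P) := by
    intro φ x y
    rw [hPdef, pt_cons_pderiv_zero]
  have hmain := fun (t : T) (y : Fin n → ℂ) => hmain (pt (ev t) y)
  simp only [eG, ew, eP, edP] at hmain
  have hmeasG : ∀ t, Measurable (fun z : Fin (n + 1) → ℂ => ENNReal.ofReal (G (pt (ev t) z))) :=
    fun t => (measurable_Tr hG (ev t)).ennreal_ofReal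
  have key : ∀ᶠ t in l, (∫⁻ z : Fin (n + 1) → ℂ, ENNReal.ofReal (G (pt (ev t) z)) ≠ ∞) ∧
      ∀ᵐ y : Fin n → ℂ, pt (ev t) y q1 ≠ 0 ∧
        ∫⁻ x : ℂ, ENNReal.ofReal (G (pt (ev t) (Fin.cons x y))) ≠ ∞ := by
    filter_upwards [hfin, h.ae_ne_zero hq1] with t ht hq
    refine ⟨ht, ?_⟩
    rw [lintegral_cons _ (hmeasG t)] at ht
    have h2 := ae_lt_top (meas_cons2 (hmeasG t)) ht
    filter_upwards [hq, h2] with y h1 h2
    exact ⟨h1, h2.ne⟩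
  refine ⟨M, P, j, Q, κ₀, C, hM, hP0, hQ, hκ₀, hC, ?_, ?_⟩
  · filter_upwards [key] with t ht
    have hb : ∫⁻ y : Fin n → ℂ, ENNReal.ofReal (M (pt (ev t) y)) ≤
        ENNReal.ofReal C * ∫⁻ z : Fin (n + 1) → ℂ, ENNReal.ofReal (G (pt (ev t) z)) := by
      rw [lintegral_cons _ (hmeasG t), ← lintegral_const_mul' _ _ ENNReal.ofReal_ne_top]
      refine lintegral_mono_ae ?_
      filter_upwards [ht.2] with y hy
      exact (hmain _ _ hy.1 hy.2).1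
    exact ne_top_of_le_ne_top (ENNReal.mul_ne_top ENNReal.ofReal_ne_top ht.1) hb
  · filter_upwards [key] with t ht
    filter_upwards [ht.2] with y hy
    exact hmain _ _ hy.1 hy.2

/-- weighted mass of the fibration, from the weighted mass of `M` -/
theorem WP_step (h : Scale l ev L) {n : ℕ}
    {G : (MvPolynomial (Fin (n + 1)) R →+* ℂ) → ℝ} (hG : Tr (MvPolynomial (Fin (n + 1)) R) G)
    {k : ℕ} {w : Fin k → MvPolynomial (Fin (n + 1)) R}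
    {M : (MvPolynomial (Fin n) R →+* ℂ) → ℝ} {P : MvPolynomial (Fin (n + 1)) R} {j : ℕ}
    {Q : Fin j → MvPolynomial (Fin n) R} {κ₀ C : ℝ}
    (hM : Tr (MvPolynomial (Fin n) R) M) (hQ : ∀ i, Q i ≠ 0) (hκ₀ : 0 < κ₀) (hC : 0 < C)
    (hW : WStmt l ev L M)
    (hpk : ∀ᶠ t in l, ∀ᵐ y : Fin n → ℂ, ∀ κ : ℝ, 0 ≤ κ → κ ≤ κ₀ →
          ∫⁻ x : ℂ, ENNReal.ofReal (G (pt (ev t) (Fin.cons x y)) *
            Real.exp (κ * (∑ i, |Real.log ‖pt (ev t) (Fin.cons x y) (w i)‖| +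
              |Real.log ‖pt (ev t) (Fin.cons x y) P‖|))) ≤
          ENNReal.ofReal (C * M (pt (ev t) y) * (1 + ∑ i, |Real.log ‖pt (ev t) y (Q i)‖|) *
            Real.exp (C * κ * (1 + ∑ i, |Real.log ‖pt (ev t) y (Q i)‖|)))) :
    ∃ κ C₂ : ℝ, 0 < κ ∧ 0 < C₂ ∧ ∀ᶠ t in l,
      ∫⁻ z : Fin (n + 1) → ℂ, ENNReal.ofReal (G (pt (ev t) z) *
        Real.exp (κ * (∑ i, |Real.log ‖pt (ev t) z (w i)‖| + |Real.log ‖pt (ev t) z P‖|))) ≤
        ENNReal.ofReal (Real.exp (C₂ * L t)) := by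
  obtain ⟨κ₁, C₁, hκ₁, hC₁, hw1⟩ := hW j Q hQ
  set κ := min κ₀ (κ₁ / (2 * C)) with hκdef
  have hκ : 0 < κ := lt_min hκ₀ (by positivity)
  have hκ2 : C * κ ≤ κ₁ / 2 := by
    have : κ ≤ κ₁ / (2 * C) := min_le_right _ _
    calc C * κ ≤ C * (κ₁ / (2 * C)) := mul_le_mul_of_nonneg_left this hC.le
      _ = κ₁ / 2 := by field_simp
  refine ⟨κ, C₁ + 1, hκ, by linarith, ?_⟩
  have hK : ∀ᶠ t in l, C * (2 / κ₁) * Real.exp κ₁ ≤ Real.exp (L t) :=
    (Real.tendsto_exp_atTop.comp h.tendsto).eventually_ge_atTop _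
  filter_upwards [hpk, hw1, hK] with t ht hwt hKt
  have hmeas : Measurable (fun z : Fin (n + 1) → ℂ => ENNReal.ofReal (G (pt (ev t) z) *
        Real.exp (κ * (∑ i, |Real.log ‖pt (ev t) z (w i)‖| + |Real.log ‖pt (ev t) z P‖|)))) := by
    refine ((measurable_Tr hG (ev t)).mul (Real.measurable_exp.comp (measurable_const.mul
      (Measurable.add (Finset.measurable_fun_sum _ fun i _ => ?_) ?_)))).ennreal_ofReal
    · exact (measurable_log_pt (ev t) (w i)).abs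
    · exact (measurable_log_pt (ev t) P).abs
  rw [lintegral_cons _ hmeas]
  calc _ ≤ ∫⁻ y : Fin n → ℂ, ENNReal.ofReal ((C * (2 / κ₁) * Real.exp κ₁) *
            (M (pt (ev t) y) * Real.exp (κ₁ * ∑ i, |Real.log ‖pt (ev t) y (Q i)‖|))) := by
        refine lintegral_mono_ae ?_
        filter_upwards [ht] with y hy
        refine (hy κ hκ.le (min_le_left _ _)).trans (ENNReal.ofReal_le_ofReal ?_)
        exact ineq1 hκ₁ hC hκ2 (Finset.sum_nonneg fun _ _ => abs_nonneg _) (hM.pos _).le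
    _ = ENNReal.ofReal (C * (2 / κ₁) * Real.exp κ₁) * ∫⁻ y : Fin n → ℂ, ENNReal.ofReal
            (M (pt (ev t) y) * Real.exp (κ₁ * ∑ i, |Real.log ‖pt (ev t) y (Q i)‖|)) :=
        lint_const_mul _ (by positivity) _
    _ ≤ ENNReal.ofReal (Real.exp (L t)) * ENNReal.ofReal (Real.exp (C₁ * L t)) :=
        mul_le_mul' (ENNReal.ofReal_le_ofReal hKt) hwt
    _ = _ := by
        rw [← ENNReal.ofReal_mul (Real.exp_pos _).le, ← Real.exp_add]
        congr 2; ring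

end step

end Crest.Agent.R281.TrU_249
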