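import Crest.Agent.R281.TrU3_249

/-!
# Row 281, TROP-UWT (helper249), part 4: the step for `TStmt` and the final theorem `trop`
-/

namespace Crest.Agent.R281.TrU_249

open MeasureTheory Filter Topology
open scoped ENNReal

open Crest.Agent.R281.TrPL_726

section step

variable {T R : Type*} [CommRing R] {l : Filter T} {ev : T → R →+* ℂ} {L : T → ℝ}

theorem keyY (h : Scale l ev L) {n : ℕ}
    {G : (MvPolynomial (Fin (n + 1)) R →+* ℂ) → ℝ}
    {M : (MvPolynomial (Fin n) R →+* ℂ) → ℝ} (hM : Tr (MvPolynomial (Fin n) R) M)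
    {j : ℕ} {Q : Fin j → MvPolynomial (Fin n) R} {C κ₁ C₁ : ℝ} (hC : 0 < C) (hκ₁ : 0 < κ₁)
    (hC₁ : 0 < C₁) (a : ℝ)
    (hW : ∀ᶠ t in l, ∫⁻ y : Fin n → ℂ, ENNReal.ofReal (M (pt (ev t) y) *
        Real.exp (κ₁ * ∑ i, |Real.log ‖pt (ev t) y (Q i)‖|)) ≤ ENNReal.ofReal (Real.exp (C₁ * L t)))
    (h2 : ∀ᶠ t in l, ∀ᵐ y : Fin n → ℂ,
      ∫⁻ x : ℂ, ENNReal.ofReal (G (pt (ev t) (Fin.cons x y))) ≤
        ENNReal.ofReal (C * M (pt (ev t) y) * (1 + ∑ i, |Real.log ‖pt (ev t) y (Q i)‖|))) :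
    ∀ᶠ t in l, ∀ Y : Set (Fin n → ℂ), ∫⁻ y in Y, ∫⁻ x : ℂ, ENNReal.ofReal (G (pt (ev t) (Fin.cons x y))) ≤
      ENNReal.ofReal (C * (1 + 2 * (C₁ + |a|) / κ₁ * L t)) *
        (∫⁻ y in Y, ENNReal.ofReal (M (pt (ev t) y))) +
        ENNReal.ofReal (C * (2 / κ₁ * Real.exp (κ₁ / 2)) * Real.exp (a * L t)) := by
  filter_upwards [hW, h2, h.tendsto.eventually_ge_atTop 0] with t hwt h2t hL Y
  set K := 2 * (C₁ + |a|) / κ₁ with hK
  have hK0 : 0 ≤ K := by positivity
  set c := 2 / κ₁ * Real.exp (κ₁ / 2) with hc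
  have hc0 : 0 < c := by positivity
  set E := Real.exp (-(κ₁ * K * L t / 2)) with hE
  set S : (Fin n → ℂ) → ℝ := fun y => ∑ i, |Real.log ‖pt (ev t) y (Q i)‖| with hS
  have hS0 : ∀ y, 0 ≤ S y := fun y => Finset.sum_nonneg fun _ _ => abs_nonneg _
  have hpt : ∀ y, ENNReal.ofReal (C * M (pt (ev t) y) * (1 + S y)) ≤
      ENNReal.ofReal (C * (1 + K * L t)) * ENNReal.ofReal (M (pt (ev t) y)) +
      ENNReal.ofReal (C * c * E) * ENNReal.ofReal (M (pt (ev t) y) * Real.exp (κ₁ * S y)) := by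
    intro y
    have hMp := (hM.pos (pt (ev t) y)).le
    rw [← ENNReal.ofReal_mul (by positivity), ← ENNReal.ofReal_mul (by positivity),
      ← ENNReal.ofReal_add (by positivity) (by positivity)]
    refine ENNReal.ofReal_le_ofReal ?_
    have := mul_le_mul_of_nonneg_left (ineq2 (S := S y) hκ₁ hK0 hL (hS0 y))
      (mul_nonneg hC.le hMp)
    calc _ ≤ _ := this
      _ = _ := by rw [← hc, ← hE]; ring
  have hmM : Measurable (fun y : Fin n → ℂ => ENNReal.ofReal (C * (1 + K * L t)) *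
      ENNReal.ofReal (M (pt (ev t) y))) :=
    (measurable_Tr hM (ev t)).ennreal_ofReal.const_mul _
  have hE2 : E * Real.exp (C₁ * L t) ≤ Real.exp (a * L t) := by
    rw [hE, ← Real.exp_add]
    refine Real.exp_le_exp.2 ?_
    have : κ₁ * K = 2 * (C₁ + |a|) := by rw [hK]; field_simp
    rw [this]
    have h3 := neg_abs_le a
    nlinarith
  calc _ ≤ ∫⁻ y in Y, (ENNReal.ofReal (C * (1 + K * L t)) * ENNReal.ofReal (M (pt (ev t) y)) +
      ENNReal.ofReal (C * c * E) * ENNReal.ofReal (M (pt (ev t) y) * Real.exp (κ₁ * S y))) := by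
        refine lintegral_mono_ae (ae_restrict_of_ae ?_)
        filter_upwards [h2t] with y hy
        exact hy.trans (hpt y)
    _ = ENNReal.ofReal (C * (1 + K * L t)) * (∫⁻ y in Y, ENNReal.ofReal (M (pt (ev t) y))) +
      ENNReal.ofReal (C * c * E) *
        (∫⁻ y in Y, ENNReal.ofReal (M (pt (ev t) y) * Real.exp (κ₁ * S y))) := by
        rw [lintegral_add_left hmM, lintegral_const_mul' _ _ ENNReal.ofReal_ne_top,
          lintegral_const_mul' _ _ ENNReal.ofReal_ne_top]
    _ ≤ _ := by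
        refine add_le_add le_rfl ?_
        calc _ ≤ ENNReal.ofReal (C * c * E) * ENNReal.ofReal (Real.exp (C₁ * L t)) :=
              mul_le_mul' le_rfl ((setLIntegral_le_lintegral _ _).trans hwt)
          _ = ENNReal.ofReal (C * c * (E * Real.exp (C₁ * L t))) := by
              rw [← ENNReal.ofReal_mul (by positivity)]; congr 1; ring
          _ ≤ _ := ENNReal.ofReal_le_ofReal (mul_le_mul_of_nonneg_left hE2 (by positivity))

/-- real inequality for the upper bound -/
theorem real_up {C K C' c e lam : ℝ} {n : ℕ} (hC : 0 < C) (hK : 0 ≤ K) (hC' : 0 < C') (hc : 0 < c)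
    (he : 0 < e) (hlam : 1 ≤ lam) :
    C * (1 + K * lam) * (C' * e * lam ^ n) + C * c * e ≤
      (C * (1 + K) * C' + C * c) * e * lam ^ (n + 1) := by
  have h1 : 1 + K * lam ≤ (1 + K) * lam := by nlinarith
  have h2 : 1 ≤ lam ^ (n + 1) := one_le_pow₀ hlam
  have h3 : 0 < lam := by linarith
  have h4 : C * (1 + K * lam) * (C' * e * lam ^ n) ≤ C * ((1 + K) * lam) * (C' * e * lam ^ n) := by
    gcongr
  have h5 : C * c * e * 1 ≤ C * c * e * lam ^ (n + 1) := mul_le_mul_of_nonneg_left h2 (by positivity)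
  calc _ ≤ C * ((1 + K) * lam) * (C' * e * lam ^ n) + C * c * e * lam ^ (n + 1) := by linarith
    _ = _ := by ring

/-- real inequality for the bad mass -/
theorem real_bad {C K C' c e lam : ℝ} {n : ℕ} (hC : 0 < C) (hK : 0 ≤ K) (hC' : 0 < C') (hc : 0 < c)
    (he : 0 < e) (hlam : 1 ≤ lam) :
    (C * (1 + K * lam) * (C' * e * lam ^ n / lam) + C * c * e) + C * (C' * e * lam ^ n) + e ≤
      (C * (1 + K) * C' + C * c + C * C' + 1) * e * lam ^ (n + 1) / lam := by
  have h3 : 0 < lam := by linarith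
  have h1 : 1 + K * lam ≤ (1 + K) * lam := by nlinarith
  have h2 : 1 ≤ lam ^ n := one_le_pow₀ hlam
  have h4 : C * (1 + K * lam) * (C' * e * lam ^ n / lam) ≤ C * (1 + K) * C' * e * lam ^ n := by
    calc _ ≤ C * ((1 + K) * lam) * (C' * e * lam ^ n / lam) := by gcongr
      _ = _ := by field_simp
  have h5 : C * c * e * 1 ≤ C * c * e * lam ^ n := mul_le_mul_of_nonneg_left h2 (by positivity)
  have h6 : e * 1 ≤ e * lam ^ n := mul_le_mul_of_nonneg_left h2 (by positivity)
  have h7 : (C * (1 + K) * C' + C * c + C * C' + 1) * e * lam ^ (n + 1) / lam =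
      (C * (1 + K) * C' + C * c + C * C' + 1) * e * lam ^ n := by
    rw [pow_succ]; field_simp
  rw [h7]
  linarith

theorem bad_incl (φ : R →+* ℂ) {lam : ℝ} {n : ℕ}
    {G : (MvPolynomial (Fin (n + 1)) R →+* ℂ) → ℝ} {M : (MvPolynomial (Fin n) R →+* ℂ) → ℝ}
    {P : MvPolynomial (Fin (n + 1)) R} {f' : Fin n → MvPolynomial (Fin n) R} {a C C' Cn : ℝ}
    (hC : 0 < C) (hCn1 : C * C' ≤ Cn) (hCn2 : C' ≤ Cn) (hlam : 0 ≤ lam) (x : ℂ) (y : Fin n → ℂ)
    (hxy : (Fin.cons x y : Fin (n + 1) → ℂ) ∈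
      Bad φ lam G (Fin.cons P (fun i => MvPolynomial.rename Fin.succ (f' i))) a Cn) :
    y ∈ Bad φ lam M f' a C' ∨ (C * M (pt φ y) *
      ‖pt φ (Fin.cons x y) (MvPolynomial.pderiv 0 P) / pt φ (Fin.cons x y) P‖ ^ 2 <
        G (pt φ (Fin.cons x y))) ∨ Cn * lam < |Real.log ‖pt φ (Fin.cons x y) P‖| := by
  by_contra hcon
  rw [not_or, not_or, not_lt, not_lt] at hcon
  obtain ⟨n1, n2, n3⟩ := hcon
  simp only [Bad, Set.mem_ofPred_eq, not_or, not_lt, not_exists] at n1
  obtain ⟨m1, m2⟩ := n1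
  rcases hxy with hxy | ⟨i, hi⟩
  · rw [Fin.prod_univ_succ] at hxy
    simp only [Fin.cons_zero, Fin.cons_succ, pt_cons_pderiv_succ, pt_cons_rename] at hxy
    refine absurd hxy (not_lt.2 ?_)
    generalize ‖pt φ (Fin.cons x y) (MvPolynomial.pderiv 0 P) / pt φ (Fin.cons x y) P‖ = d0 at n2 ⊢
    have hD1' : 0 ≤ ∏ i, ‖pt φ y (MvPolynomial.pderiv i (f' i)) / pt φ y (f' i)‖ ^ 2 :=
      Finset.prod_nonneg fun _ _ => by positivity
    generalize ∏ i, ‖pt φ y (MvPolynomial.pderiv i (f' i)) / pt φ y (f' i)‖ ^ 2 = D1 at m1 hD1' ⊢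
    generalize G (pt φ (Fin.cons x y)) = g at n2 ⊢
    generalize M (pt φ y) = m at n2 m1
    have he : 0 < Real.exp (a * lam) := Real.exp_pos _
    generalize Real.exp (a * lam) = e at m1 he ⊢
    have h1 : C * m * d0 ^ 2 ≤ C * (C' * e * D1) * d0 ^ 2 :=
      mul_le_mul_of_nonneg_right (mul_le_mul_of_nonneg_left m1 hC.le) (sq_nonneg _)
    have h2 : (C * C') * (e * (d0 ^ 2 * D1)) ≤ Cn * (e * (d0 ^ 2 * D1)) :=
      mul_le_mul_of_nonneg_right hCn1 (by positivity)
    calc g ≤ _ := n2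
      _ ≤ _ := h1
      _ = (C * C') * (e * (d0 ^ 2 * D1)) := by ring
      _ ≤ _ := h2
      _ = _ := by ring
  · revert hi
    refine Fin.cases ?_ (fun i => ?_) i
    · intro hi
      rw [Fin.cons_zero] at hi
      exact absurd hi (not_lt.2 n3)
    · intro hi
      rw [Fin.cons_succ, pt_cons_rename] at hi
      have h5 := m2 i
      have h6 : C' * lam ≤ Cn * lam := mul_le_mul_of_nonneg_right hCn2 hlam
      exact absurd hi (not_lt.2 (h5.trans h6))

theorem T_step (h : Scale l ev L) {n : ℕ}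
    {G : (MvPolynomial (Fin (n + 1)) R →+* ℂ) → ℝ} (hG : Tr (MvPolynomial (Fin (n + 1)) R) G)
    {M : (MvPolynomial (Fin n) R →+* ℂ) → ℝ} (hM : Tr (MvPolynomial (Fin n) R) M)
    {P : MvPolynomial (Fin (n + 1)) R} (hP0 : P ≠ 0) {C κ₁ C₁ κ₂ C₂ : ℝ}
    {j : ℕ} {Q : Fin j → MvPolynomial (Fin n) R} (hC : 0 < C) (hκ₁ : 0 < κ₁)
    (hC₁ : 0 < C₁) (hκ₂ : 0 < κ₂) (hC₂ : 0 < C₂)
    (hW : ∀ᶠ t in l, ∫⁻ y : Fin n → ℂ, ENNReal.ofReal (M (pt (ev t) y) *
        Real.exp (κ₁ * ∑ i, |Real.log ‖pt (ev t) y (Q i)‖|)) ≤ ENNReal.ofReal (Real.exp (C₁ * L t)))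
    (hT : TStmt l ev L M)
    (hWP : ∀ᶠ t in l, ∫⁻ z : Fin (n + 1) → ℂ, ENNReal.ofReal (G (pt (ev t) z) *
        Real.exp (κ₂ * |Real.log ‖pt (ev t) z P‖|)) ≤ ENNReal.ofReal (Real.exp (C₂ * L t)))
    (h1 : ∀ᶠ t in l, ∀ᵐ y : Fin n → ℂ, ENNReal.ofReal (M (pt (ev t) y)) ≤
          ENNReal.ofReal C * ∫⁻ x : ℂ, ENNReal.ofReal (G (pt (ev t) (Fin.cons x y))))
    (h2 : ∀ᶠ t in l, ∀ᵐ y : Fin n → ℂ,
      ∫⁻ x : ℂ, ENNReal.ofReal (G (pt (ev t) (Fin.cons x y))) ≤
        ENNReal.ofReal (C * M (pt (ev t) y) * (1 + ∑ i, |Real.log ‖pt (ev t) y (Q i)‖|)))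
    (h3 : ∀ᶠ t in l, ∀ᵐ y : Fin n → ℂ, ∫⁻ x : ℂ in {x : ℂ | C * M (pt (ev t) y) *
            ‖pt (ev t) (Fin.cons x y) (MvPolynomial.pderiv 0 P) / pt (ev t) (Fin.cons x y) P‖ ^ 2 <
              G (pt (ev t) (Fin.cons x y))},
          ENNReal.ofReal (G (pt (ev t) (Fin.cons x y))) ≤ ENNReal.ofReal (C * M (pt (ev t) y))) :
    TStmt l ev L G := by
  obtain ⟨a, C', f', hC', hf', hT⟩ := hT
  have hY := keyY h hM hC hκ₁ hC₁ a hW h2
  set K := 2 * (C₁ + |a|) / κ₁ with hK
  have hK0 : 0 ≤ K := by positivity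
  set c := 2 / κ₁ * Real.exp (κ₁ / 2) with hc
  have hc0 : 0 < c := by positivity
  set Cn := (C * (1 + K) * C' + C * c + C * C' + 1) + C' + (C₂ + |a|) / κ₂ with hCn
  have hq0 : 0 ≤ (C₂ + |a|) / κ₂ := by positivity
  have hU0 : 0 ≤ C * (1 + K) * C' := by positivity
  have hCc0 : 0 < C * c := by positivity
  have hCC0 : 0 < C * C' := by positivity
  have hCn0 : 0 < Cn := by linarith
  have hCn1 : C * C' ≤ Cn := by linarith
  have hCn2 : C' ≤ Cn := by linarith
  have hCn3 : (C₂ + |a|) / κ₂ ≤ Cn := by linarith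
  have hCn4 : C * (1 + K) * C' + C * c + C * C' + 1 ≤ Cn := by linarith
  have hCn5 : C * (1 + K) * C' + C * c ≤ Cn := by linarith
  let f : Fin (n + 1) → MvPolynomial (Fin (n + 1)) R :=
    Fin.cons P (fun i => MvPolynomial.rename Fin.succ (f' i))
  have hf0 : f 0 = P := rfl
  have hfs : ∀ i : Fin n, f i.succ = MvPolynomial.rename Fin.succ (f' i) := fun i => rfl
  refine ⟨a, Cn, f, hCn0, ?_, ?_⟩
  · classical
    intro i
    refine Fin.cases ?_ (fun i => ?_) i
    · exact ⟨hP0, fun j _ => Fin.zero_le j⟩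
    · rw [hfs]
      refine ⟨?_, fun j hj => ?_⟩
      · intro h0
        apply (hf' i).1
        apply MvPolynomial.rename_injective _ (Fin.succ_injective n)
        rw [h0, map_zero]
      · have := MvPolynomial.vars_rename Fin.succ (f' i) hj
        obtain ⟨j', hj', rfl⟩ := Finset.mem_image.1 this
        exact Fin.succ_le_succ_iff.2 ((hf' i).2 j' hj')
  · filter_upwards [hT, hY, h1, h3, hWP, h.tendsto.eventually_ge_atTop 1] with t hTt hYt h1t h3t hwp hL
    obtain ⟨hlow, hup, hbad⟩ := hTt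
    have hL0 : 0 < L t := by linarith
    set e := Real.exp (a * L t) with he
    have he0 : 0 < e := Real.exp_pos _
    have hmeasG : Measurable (fun z : Fin (n + 1) → ℂ => ENNReal.ofReal (G (pt (ev t) z))) :=
      (measurable_Tr hG (ev t)).ennreal_ofReal
    refine ⟨?_, ?_, ?_⟩
    · have hb : ∫⁻ y : Fin n → ℂ, ENNReal.ofReal (M (pt (ev t) y)) ≤
          ENNReal.ofReal C * ∫⁻ z : Fin (n + 1) → ℂ, ENNReal.ofReal (G (pt (ev t) z)) := by
        rw [lintegral_cons _ hmeasG, ← lintegral_const_mul' _ _ ENNReal.ofReal_ne_top]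
        exact lintegral_mono_ae h1t
      have hb2 : ENNReal.ofReal C * ENNReal.ofReal (e / (C * C')) ≤
          ENNReal.ofReal C * ∫⁻ z : Fin (n + 1) → ℂ, ENNReal.ofReal (G (pt (ev t) z)) := by
        refine le_trans (le_of_eq ?_) (hlow.trans hb)
        rw [← ENNReal.ofReal_mul hC.le]
        congr 1; field_simp
      have hb3 := (ENNReal.mul_le_mul_iff_right (by simpa using hC) ENNReal.ofReal_ne_top).1 hb2
      refine le_trans (ENNReal.ofReal_le_ofReal ?_) hb3
      exact div_le_div_of_nonneg_left he0.le hCC0 hCn1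
    · rw [lintegral_cons _ hmeasG]
      have h4 := hYt Set.univ
      rw [Measure.restrict_univ] at h4
      refine h4.trans ?_
      refine (add_le_add (mul_le_mul' le_rfl hup) le_rfl).trans ?_
      rw [← ENNReal.ofReal_mul (by positivity), ← ENNReal.ofReal_add (by positivity) (by positivity)]
      refine ENNReal.ofReal_le_ofReal ?_
      refine (real_up hC hK0 hC' hc0 he0 hL).trans ?_
      have : 0 ≤ e * L t ^ (n + 1) := by positivity
      have h9 := mul_le_mul_of_nonneg_right hCn5 this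
      linarith
    · set B := Bad (ev t) (L t) G f a Cn with hB
      set B' := Bad (ev t) (L t) M f' a C' with hB'
      have hBm : MeasurableSet B := measurableSet_Bad _ _ hG _ _ _
      have hB'm : MeasurableSet B' := measurableSet_Bad _ _ hM _ _ _
      set V : Set (Fin (n + 1) → ℂ) := {z | Cn * L t < |Real.log ‖pt (ev t) z P‖|} with hV
      have hVm : MeasurableSet V :=
        measurableSet_lt measurable_const (measurable_log_pt (ev t) P).abs
      set g : (Fin (n + 1) → ℂ) → ℝ≥0∞ := fun z => ENNReal.ofReal (G (pt (ev t) z)) with hg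
      set Z : (Fin n → ℂ) → Set ℂ := fun y => {x : ℂ | C * M (pt (ev t) y) *
            ‖pt (ev t) (Fin.cons x y) (MvPolynomial.pderiv 0 P) / pt (ev t) (Fin.cons x y) P‖ ^ 2 <
              G (pt (ev t) (Fin.cons x y))} with hZ
      have hconsm : ∀ y : Fin n → ℂ, Measurable (fun x : ℂ => (Fin.cons x y : Fin (n + 1) → ℂ)) :=
        fun y => measurable_cons.comp (measurable_id.prodMk measurable_const)
      have hZm : ∀ y, MeasurableSet (Z y) := by
        intro y
        refine measurableSet_lt (measurable_const.mul ?_) ((measurable_Tr hG (ev t)).comp (hconsm y))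
        exact ((((continuous_pt (ev t) _).measurable.comp (hconsm y)).div
          ((continuous_pt (ev t) _).measurable.comp (hconsm y))).norm).pow_const 2
      have hincl : ∀ (x : ℂ) (y : Fin n → ℂ), (Fin.cons x y : Fin (n + 1) → ℂ) ∈ B →
          y ∈ B' ∨ x ∈ Z y ∨ (Fin.cons x y : Fin (n + 1) → ℂ) ∈ V := by
        intro x y hxy
        exact bad_incl (ev t) hC hCn1 hCn2 hL0.le x y hxy
      have hpoint : ∀ᵐ y : Fin n → ℂ, ∫⁻ x : ℂ, B.indicator g (Fin.cons x y) ≤
          (B'.indicator (fun y : Fin n → ℂ => ∫⁻ x : ℂ, g (Fin.cons x y)) y +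
            ENNReal.ofReal (C * M (pt (ev t) y))) + ∫⁻ x : ℂ, V.indicator g (Fin.cons x y) := by
        filter_upwards [h3t] with y hy
        by_cases hyB : y ∈ B'
        · refine le_trans ?_ (le_trans le_self_add le_self_add)
          rw [Set.indicator_of_mem hyB]
          exact lintegral_mono fun x => Set.indicator_le_self _ _ _
        · have hle : ∀ x : ℂ, B.indicator g (Fin.cons x y) ≤
              (Z y).indicator (fun x : ℂ => g (Fin.cons x y)) x + V.indicator g (Fin.cons x y) := by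
            intro x
            by_cases hx : (Fin.cons x y : Fin (n + 1) → ℂ) ∈ B
            · rw [Set.indicator_of_mem hx]
              rcases hincl x y hx with h5 | h5 | h5
              · exact absurd h5 hyB
              · rw [Set.indicator_of_mem h5]; exact le_self_add
              · rw [Set.indicator_of_mem h5]; exact le_add_self
            · rw [Set.indicator_of_notMem hx]; exact zero_le
          refine (lintegral_mono hle).trans ?_
          have hmZ : Measurable ((Z y).indicator (fun x : ℂ => g (Fin.cons x y))) :=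
            (hmeasG.comp (hconsm y)).indicator (hZm y)
          rw [lintegral_add_left hmZ, lintegral_indicator (hZm y)]
          refine add_le_add (le_trans hy ?_) le_rfl
          exact le_add_self
      have hmB : Measurable (B.indicator g) := hmeasG.indicator hBm
      have hmV : Measurable (V.indicator g) := hmeasG.indicator hVm
      have hA : ∫⁻ y : Fin n → ℂ, B'.indicator (fun y : Fin n → ℂ => ∫⁻ x : ℂ, g (Fin.cons x y)) y ≤
          ENNReal.ofReal (C * (1 + K * L t)) * ENNReal.ofReal (C' * e * L t ^ n / L t) +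
          ENNReal.ofReal (C * c * e) := by
        rw [lintegral_indicator hB'm]
        exact (hYt B').trans (add_le_add (mul_le_mul' le_rfl hbad) le_rfl)
      have hBB : ∫⁻ y : Fin n → ℂ, ENNReal.ofReal (C * M (pt (ev t) y)) ≤
          ENNReal.ofReal C * ENNReal.ofReal (C' * e * L t ^ n) := by
        rw [lint_const_mul _ hC.le]
        exact mul_le_mul' le_rfl hup
      have hD : ∫⁻ y : Fin n → ℂ, ∫⁻ x : ℂ, V.indicator g (Fin.cons x y) ≤ ENNReal.ofReal e := by
        rw [← lintegral_cons _ hmV]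
        have hle : ∀ z, V.indicator g z ≤ ENNReal.ofReal (Real.exp (-(κ₂ * (Cn * L t))) *
            (G (pt (ev t) z) * Real.exp (κ₂ * |Real.log ‖pt (ev t) z P‖|))) := by
          intro z
          by_cases hz : z ∈ V
          · rw [Set.indicator_of_mem hz]
            refine ENNReal.ofReal_le_ofReal ?_
            have hz' : Cn * L t < |Real.log ‖pt (ev t) z P‖| := hz
            have hGp := hG.pos (pt (ev t) z)
            have h6 : 1 ≤ Real.exp (-(κ₂ * (Cn * L t))) * Real.exp (κ₂ * |Real.log ‖pt (ev t) z P‖|) := by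
              rw [← Real.exp_add]
              refine Real.one_le_exp ?_
              nlinarith
            calc G (pt (ev t) z) = G (pt (ev t) z) * 1 := (mul_one _).symm
              _ ≤ G (pt (ev t) z) * (Real.exp (-(κ₂ * (Cn * L t))) *
                    Real.exp (κ₂ * |Real.log ‖pt (ev t) z P‖|)) :=
                  mul_le_mul_of_nonneg_left h6 hGp.le
              _ = _ := by ring
          · rw [Set.indicator_of_notMem hz]; exact zero_le
        refine (lintegral_mono hle).trans ?_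
        rw [lint_const_mul _ (Real.exp_pos _).le]
        refine (mul_le_mul' le_rfl hwp).trans ?_
        rw [← ENNReal.ofReal_mul (Real.exp_pos _).le, ← Real.exp_add]
        refine ENNReal.ofReal_le_ofReal (Real.exp_le_exp.2 ?_)
        have h7 : C₂ + |a| ≤ κ₂ * Cn := by
          have := mul_le_mul_of_nonneg_left hCn3 hκ₂.le
          rwa [mul_div_cancel₀ _ hκ₂.ne'] at this
        have h8 := neg_abs_le a
        nlinarith
      rw [← lintegral_indicator hBm, lintegral_cons _ hmB]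
      refine (lintegral_mono_ae hpoint).trans ?_
      have m1 : Measurable (B'.indicator (fun y : Fin n → ℂ => ∫⁻ x : ℂ, g (Fin.cons x y))) :=
        (meas_cons2 hmeasG).indicator hB'm
      have m2 : Measurable (fun y : Fin n → ℂ => ENNReal.ofReal (C * M (pt (ev t) y))) :=
        ((measurable_Tr hM (ev t)).const_mul C).ennreal_ofReal
      have m12 : Measurable (fun y : Fin n → ℂ =>
          B'.indicator (fun y : Fin n → ℂ => ∫⁻ x : ℂ, g (Fin.cons x y)) y +
            ENNReal.ofReal (C * M (pt (ev t) y))) := m1.add m2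
      rw [lintegral_add_left m12, lintegral_add_left m1]
      refine (add_le_add (add_le_add hA hBB) hD).trans ?_
      rw [← ENNReal.ofReal_mul (by positivity), ← ENNReal.ofReal_mul hC.le,
        ← ENNReal.ofReal_add (by positivity) (by positivity),
        ← ENNReal.ofReal_add (by positivity) (by positivity),
        ← ENNReal.ofReal_add (by positivity) (by positivity)]
      refine ENNReal.ofReal_le_ofReal ((real_bad hC hK0 hC' hc0 he0 hL).trans ?_)
      have h9 : 0 ≤ e * L t ^ (n + 1) / L t := by positivity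
      calc _ = (C * (1 + K) * C' + C * c + C * C' + 1) * (e * L t ^ (n + 1) / L t) := by ring
        _ ≤ Cn * (e * L t ^ (n + 1) / L t) := mul_le_mul_of_nonneg_right hCn4 h9
        _ = _ := by ring

end step

section main

variable {T R : Type*} [CommRing R] {l : Filter T} {ev : T → R →+* ℂ} {L : T → ℝ}

theorem trop_WT (h : Scale l ev L) (hP : ∀ n, Proj (MvPolynomial (Fin n) R)) (n : ℕ) :
    ∀ G : (MvPolynomial (Fin n) R →+* ℂ) → ℝ, Tr (MvPolynomial (Fin n) R) G →
      (∀ᶠ t in l, ∫⁻ y : Fin n → ℂ, ENNReal.ofReal (G (pt (ev t) y)) ≠ ∞) →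
      WStmt l ev L G ∧ TStmt l ev L G := by
  induction n with
  | zero => exact fun G hG _ => ⟨base_W h hG, base_T h hG⟩
  | succ n ih =>
    intro G hG hfin
    constructor
    · intro k w hw
      obtain ⟨M, P, j, Q, κ₀, C, hM, hP0, hQ, hκ₀, hC, hfM, hpk⟩ := pkg h (hP n) hG hfin k w hw
      obtain ⟨κ, C₂, hκ, hC₂, hb⟩ := WP_step (w := w) (P := P) h hG hM hQ hκ₀ hC (ih M hM hfM).1
        (hpk.mono fun t ht => ht.mono fun y hy => hy.2.1)
      refine ⟨κ, C₂, hκ, hC₂, ?_⟩
      filter_upwards [hb] with t ht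
      refine le_trans (lintegral_mono fun z => ENNReal.ofReal_le_ofReal ?_) ht
      refine mul_le_mul_of_nonneg_left (Real.exp_le_exp.2 ?_) (hG.pos _).le
      exact mul_le_mul_of_nonneg_left (le_add_of_nonneg_right (abs_nonneg _)) hκ.le
    · obtain ⟨M, P, j, Q, κ₀, C, hM, hP0, hQ, hκ₀, hC, hfM, hpk⟩ :=
        pkg h (hP n) hG hfin 0 (fun i => i.elim0) (fun i => i.elim0)
      obtain ⟨hWM, hTM⟩ := ih M hM hfM
      obtain ⟨κ₁, C₁, hκ₁, hC₁, hW1⟩ := hWM j Q hQ
      obtain ⟨κ₂, C₂, hκ₂, hC₂, hb⟩ := WP_step (w := fun i : Fin 0 => i.elim0) (P := P) h hG hM hQ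
        hκ₀ hC hWM (hpk.mono fun t ht => ht.mono fun y hy => hy.2.1)
      refine T_step h hG hM hP0 hC hκ₁ hC₁ hκ₂ hC₂ hW1 hTM ?_
        (hpk.mono fun t ht => ht.mono fun y hy => hy.1) ?_
        (hpk.mono fun t ht => ht.mono fun y hy => hy.2.2)
      · simpa using hb
      · refine hpk.mono fun t ht => ht.mono fun y hy => ?_
        simpa using hy.2.1 0 le_rfl hκ₀.le

/-- **TROP**: see #6045 (6). -/
theorem trop (h : Scale l ev L) (hP : ∀ n, Proj (MvPolynomial (Fin n) R)) {n : ℕ}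
    {G : (MvPolynomial (Fin n) R →+* ℂ) → ℝ} (hG : Tr (MvPolynomial (Fin n) R) G)
    (hfin : ∀ᶠ t in l, ∫⁻ y : Fin n → ℂ, ENNReal.ofReal (G (pt (ev t) y)) ≠ ∞) :
    TStmt l ev L G := (trop_WT h hP n G hG hfin).2

end main

end Crest.Agent.R281.TrU_249
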