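import Crest.Agent.R281.Nef1_252
import Crest.Agent.R281.Dif1_268
import Mathlib.Analysis.Calculus.BumpFunction.FiniteDimension

/-!
# Row 281, YAU-VAR/TRICK, part 1 (helper476): small translations of a manifold with real charts

* `LD C' C`        : smooth maps with invertible differentials
* `FamLD S Φ`      : `Φ : W → LD C' C` jointly smooth for the parameter in `S`
* `exists_trans`   : `x0 ≠ x1`: jointly smooth family `Φ s`, `|s| < ε`, `Φ s x1 = x1`,
                     `Φ s x0 = e_i⁻¹ (e_i x0 + s)`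
-/

set_option autoImplicit false
set_option maxSynthPendingDepth 3
set_option linter.unusedSectionVars false

open Set Filter Topology Metric
open scoped ContDiff

namespace Crest.Agent.R281.Tt_476

open Crest.Agent.R260.ACM_580 Crest.Agent.R281.HkR_835
open Crest.Agent.R281.Dif_268

noncomputable section

section loc

variable {V : Type} [NormedAddCommGroup V] [NormedSpace ℝ V] [FiniteDimensional ℝ V]

theorem isInv (T : V →L[ℝ] V) (h : ∀ v, T v = 0 → v = 0) : T.IsInvertible := by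
  have hk : Function.Injective (T : V →ₗ[ℝ] V) :=
    (injective_iff_map_eq_zero _).2 fun v hv => h v hv
  refine ⟨(LinearEquiv.ofInjectiveEndo (T : V →ₗ[ℝ] V) hk).toContinuousLinearEquiv, ?_⟩
  ext v
  simp

/-- cut-off function with bounded differential -/
theorem exists_chi (z0 : V) {r : ℝ} (hr : 0 < r) : ∃ (χ : V → ℝ) (L : ℝ), 0 < L ∧
    ContDiff ℝ ∞ χ ∧ χ z0 = 1 ∧ (∀ z, 0 ≤ χ z ∧ χ z ≤ 1) ∧ (∀ z, r ≤ dist z z0 → χ z = 0) ∧
    ∀ z, ‖fderiv ℝ χ z‖ ≤ L := by
  let f : ContDiffBump z0 := ⟨r / 2, r, by positivity, by linarith⟩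
  have hf : ContDiff ℝ ∞ f := f.contDiff
  have hc : Continuous (fderiv ℝ f) := hf.continuous_fderiv (by simp)
  obtain ⟨L, hL⟩ := (f.hasCompactSupport.fderiv (𝕜 := ℝ)).exists_bound_of_continuous hc
  refine ⟨f, max L 1, by positivity, hf, ?_, fun z => ⟨f.nonneg, f.le_one⟩,
    fun z hz => f.zero_of_le_dist hz, fun z => (hL z).trans (le_max_left _ _)⟩
  exact f.one_of_mem_closedBall (mem_closedBall_self (by positivity))

/-- the differential of `z ↦ z + χ z • s` -/
theorem hasFDerivAt_tr {χ : V → ℝ} (hχ : ContDiff ℝ ∞ χ) (s z : V) :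
    HasFDerivAt (fun z => z + χ z • s)
      (ContinuousLinearMap.id ℝ V + (fderiv ℝ χ z).smulRight s) z :=
  (hasFDerivAt_id z).add
    (((hχ.differentiable (by simp)) z).hasFDerivAt.smul_const s)

theorem inj_tr {χ : V → ℝ} {L : ℝ} (hL : 0 < L) (hb : ∀ z, ‖fderiv ℝ χ z‖ ≤ L) {s : V}
    (hs : ‖s‖ < 1 / L) (z v : V)
    (h : (ContinuousLinearMap.id ℝ V + (fderiv ℝ χ z).smulRight s) v = 0) : v = 0 := by
  have h1 : v = -(fderiv ℝ χ z v • s) := by
    have : v + fderiv ℝ χ z v • s = 0 := by simpa using h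
    exact eq_neg_of_add_eq_zero_left this
  by_contra hv
  have hv' : 0 < ‖v‖ := norm_pos_iff.2 hv
  have h2 : ‖v‖ ≤ L * ‖v‖ * ‖s‖ := by
    calc ‖v‖ = ‖fderiv ℝ χ z v • s‖ := by rw [← norm_neg (fderiv ℝ χ z v • s), ← h1]
      _ = ‖fderiv ℝ χ z v‖ * ‖s‖ := norm_smul _ _
      _ ≤ (L * ‖v‖) * ‖s‖ := by
        refine mul_le_mul_of_nonneg_right ?_ (norm_nonneg _)
        exact ((fderiv ℝ χ z).le_opNorm v).trans (mul_le_mul_of_nonneg_right (hb z) hv'.le)
  have h3 : L * ‖s‖ < 1 := by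
    rw [lt_div_iff₀ hL] at hs
    linarith
  nlinarith

end loc

variable {V V' X X' : Type} [NormedAddCommGroup V] [NormedSpace ℝ V]
  [NormedAddCommGroup V'] [NormedSpace ℝ V'] [TopologicalSpace X] [TopologicalSpace X']

/-- smooth maps with invertible differentials -/
structure LD (C' : RCh V' X') (C : RCh V X) extends SMap C' C where
  inv : ∀ i j, ∀ z ∈ dom C C' f i j, (fderiv ℝ (loc C C' f i j) z).IsInvertible

/-- the identity -/
def LD.id (C : RCh V X) : LD C C where
  toSMap := SMap.id C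
  inv i j z hz := by
    have hz' : z ∈ C.ov j i := hz
    refine ⟨ContinuousLinearEquiv.equivOfInverse (fderiv ℝ (C.t j i) z)
      (fderiv ℝ (C.t i j) (C.t j i z)) (fun v => RCh.dt_dt hz' v) (fun v => RCh.dt_dt' hz' v), ?_⟩
    ext v
    rfl

/-- families of local diffeomorphisms, jointly smooth for the parameter in `S` -/
structure FamLD {W : Type*} [NormedAddCommGroup W] [NormedSpace ℝ W] {C' : RCh V' X'}
    {C : RCh V X} (S : Set W) (Φ : W → LD C' C) : Prop where
  op : ∀ i j, IsOpen {q : W × V' | q.1 ∈ S ∧ q.2 ∈ dom C C' (Φ q.1).f i j}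
  js : ∀ i j, ContDiffOn ℝ ∞ (fun q : W × V' => loc C C' (Φ q.1).f i j q.2)
    {q : W × V' | q.1 ∈ S ∧ q.2 ∈ dom C C' (Φ q.1).f i j}

/-! ### the translations -/

/-- small translations in the chart `i` -/
def mv (C : RCh V X) (i : C.ι) (χ : V → ℝ) (s : V) (x : X) : X :=
  open Classical in
  if x ∈ (C.e i).source then (C.e i).symm (C.e i x + χ (C.e i x) • s) else x

/-- the data of a cut-off translation -/
structure CO (C : RCh V X) (i : C.ι) (χ : V → ℝ) (z0 : V) (r : ℝ) : Prop where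
  rpos : 0 < r
  sub : closedBall z0 (2 * r) ⊆ (C.e i).target
  sm : ContDiff ℝ ∞ χ
  bd : ∀ z, 0 ≤ χ z ∧ χ z ≤ 1
  zero : ∀ z, r ≤ dist z z0 → χ z = 0

namespace CO

variable {C : RCh V X} {i : C.ι} {χ : V → ℝ} {z0 : V} {r : ℝ} (h : CO C i χ z0 r)
include h

theorem F_mem {s z : V} (hs : ‖s‖ < r) (hz : z ∈ (C.e i).target) :
    z + χ z • s ∈ (C.e i).target := by
  by_cases hd : r ≤ dist z z0
  · rwa [h.zero z hd, zero_smul, add_zero]
  · refine h.sub ?_
    rw [mem_closedBall]
    push Not at hd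
    have h1 : dist (z + χ z • s) z0 ≤ dist z z0 + ‖χ z • s‖ := by
      calc dist (z + χ z • s) z0 ≤ dist (z + χ z • s) z + dist z z0 := dist_triangle _ _ _
        _ = dist z z0 + ‖χ z • s‖ := by rw [dist_eq_norm, add_sub_cancel_left, add_comm]
    have h2 : ‖χ z • s‖ ≤ ‖s‖ := by
      rw [norm_smul, Real.norm_of_nonneg (h.bd z).1]
      exact mul_le_of_le_one_left (norm_nonneg _) (h.bd z).2
    linarith

/-- the support of the translations -/
def K (_h : CO C i χ z0 r) : Set X := (C.e i).symm '' closedBall z0 r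

theorem ball_sub : closedBall z0 r ⊆ (C.e i).target :=
  (closedBall_subset_closedBall (by linarith [h.rpos])).trans h.sub

theorem K_sub : h.K ⊆ (C.e i).source := by
  rintro x ⟨z, hz, rfl⟩
  exact (C.e i).map_target (h.ball_sub hz)

theorem mv_of_not {s : V} {x : X} (hx : x ∉ h.K) : mv C i χ s x = x := by
  unfold mv
  split_ifs with h1
  · have h2 : C.e i x ∉ closedBall z0 r := fun h3 => hx ⟨_, h3, (C.e i).left_inv h1⟩
    rw [mem_closedBall, not_le] at h2
    rw [h.zero _ h2.le, zero_smul, add_zero, (C.e i).left_inv h1]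
  · rfl

theorem closedK [FiniteDimensional ℝ V] [T2Space X] : IsClosed h.K := by
  have h1 : IsCompact (closedBall z0 r) := by
    have := FiniteDimensional.proper_real V
    exact isCompact_closedBall z0 r
  exact (h1.image_of_continuousOn ((C.e i).symm.continuousOn.mono h.ball_sub)).isClosed

theorem mv_src {s : V} {x : X} (hs : ‖s‖ < r) (hx : x ∈ (C.e i).source) :
    mv C i χ s x ∈ (C.e i).source := by
  unfold mv
  rw [if_pos hx]
  exact (C.e i).map_target (h.F_mem hs ((C.e i).map_source hx))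

/-- the value in the chart `i` -/
theorem e_mv {s : V} {x : X} (hs : ‖s‖ < r) (hx : x ∈ (C.e i).source) :
    C.e i (mv C i χ s x) = C.e i x + χ (C.e i x) • s := by
  unfold mv
  rw [if_pos hx, (C.e i).right_inv (h.F_mem hs ((C.e i).map_source hx))]

theorem continuousAt [FiniteDimensional ℝ V] [T2Space X] {s : V} {x : X} (hs : ‖s‖ < r) :
    ContinuousAt (fun q : V × X => mv C i χ q.1 q.2) (s, x) := by
  by_cases hx : x ∈ (C.e i).source
  · have h1 : (fun q : V × X => mv C i χ q.1 q.2) =ᶠ[𝓝 (s, x)]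
        fun q => (C.e i).symm (C.e i q.2 + χ (C.e i q.2) • q.1) := by
      have : ∀ᶠ q : V × X in 𝓝 (s, x), q.2 ∈ (C.e i).source :=
        continuous_snd.continuousAt.eventually ((C.e i).open_source.mem_nhds hx)
      filter_upwards [this] with q hq
      unfold mv
      rw [if_pos hq]
    refine ContinuousAt.congr ?_ h1.symm
    have h2 : ContinuousAt (fun q : V × X => C.e i q.2) (s, x) :=
      ContinuousAt.comp (g := C.e i) ((C.e i).continuousAt hx) continuous_snd.continuousAt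
    have h3 : ContinuousAt (fun q : V × X => C.e i q.2 + χ (C.e i q.2) • q.1) (s, x) :=
      h2.add ((ContinuousAt.comp (g := χ) h.sm.continuous.continuousAt h2).smul
        continuous_fst.continuousAt)
    exact ContinuousAt.comp (g := (C.e i).symm)
      ((C.e i).symm.continuousAt (h.F_mem hs ((C.e i).map_source hx))) h3
  · have h0 : x ∉ h.K := fun h' => hx (h.K_sub h')
    have h1 : (fun q : V × X => mv C i χ q.1 q.2) =ᶠ[𝓝 (s, x)] fun q => q.2 := by
      have : ∀ᶠ q : V × X in 𝓝 (s, x), q.2 ∈ (h.K)ᶜ :=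
        continuous_snd.continuousAt.eventually (h.closedK.isOpen_compl.mem_nhds h0)
      filter_upwards [this] with q hq using h.mv_of_not hq
    exact ContinuousAt.congr continuous_snd.continuousAt h1.symm

/-- the two local forms: inside the chart `i` -/
theorem loc_in {s : V} {k j : C.ι} {z : V} (_hs : ‖s‖ < r) (hz : z ∈ C.ov j i) :
    loc C C (mv C i χ s) k j z = C.t i k (C.t j i z + χ (C.t j i z) • s) := by
  have hx : (C.e j).symm z ∈ (C.e i).source := hz.2
  show C.e k (mv C i χ s ((C.e j).symm z)) = C.e k ((C.e i).symm _)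
  congr 1
  unfold mv
  rw [if_pos hx]
  rfl

theorem in_ov {s : V} {k j : C.ι} {z : V} (hs : ‖s‖ < r) (hz : z ∈ C.ov j i)
    (hz' : z ∈ dom C C (mv C i χ s) k j) : C.t j i z + χ (C.t j i z) • s ∈ C.ov i k := by
  have hx : (C.e j).symm z ∈ (C.e i).source := hz.2
  have h1 : mv C i χ s ((C.e j).symm z) ∈ (C.e k).source := hz'.2
  unfold mv at h1
  rw [if_pos hx] at h1
  exact ⟨h.F_mem hs ((C.e i).map_source hx), h1⟩

/-- ... and outside of the support -/
theorem loc_out {s : V} {k j : C.ι} {z : V} (hx : (C.e j).symm z ∉ h.K) :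
    loc C C (mv C i χ s) k j z = C.t j k z := by
  show C.e k (mv C i χ s ((C.e j).symm z)) = C.e k ((C.e j).symm z)
  rw [h.mv_of_not hx]

variable [FiniteDimensional ℝ V] [T2Space X]

theorem isOpen_dom (k j : C.ι) :
    IsOpen {q : V × V | q.1 ∈ ball (0 : V) r ∧ q.2 ∈ dom C C (mv C i χ q.1) k j} := by
  rw [isOpen_iff_mem_nhds]
  rintro ⟨s, z⟩ ⟨h1, h2, h3⟩
  have hs : ‖s‖ < r := by simpa using h1
  have e1 : ∀ᶠ q : V × V in 𝓝 (s, z), q.1 ∈ ball (0 : V) r :=
    continuous_fst.continuousAt.eventually (isOpen_ball.mem_nhds h1)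
  have e2 : ∀ᶠ q : V × V in 𝓝 (s, z), q.2 ∈ (C.e j).target :=
    continuous_snd.continuousAt.eventually ((C.e j).open_target.mem_nhds h2)
  have c1 : ContinuousAt (fun q : V × V => (q.1, (C.e j).symm q.2)) (s, z) :=
    continuous_fst.continuousAt.prodMk
      (ContinuousAt.comp (g := (C.e j).symm) ((C.e j).symm.continuousAt h2)
        continuous_snd.continuousAt)
  have c2 : ContinuousAt (fun q : V × V => mv C i χ q.1 ((C.e j).symm q.2)) (s, z) :=
    ContinuousAt.comp (g := fun q : V × X => mv C i χ q.1 q.2)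
      (f := fun q : V × V => (q.1, (C.e j).symm q.2)) (x := ((s, z) : V × V))
      (h.continuousAt hs) c1
  have e3 : ∀ᶠ q : V × V in 𝓝 (s, z), mv C i χ q.1 ((C.e j).symm q.2) ∈ (C.e k).source :=
    c2.eventually ((C.e k).open_source.mem_nhds h3)
  filter_upwards [e1, e2, e3] with q q1 q2 q3 using ⟨q1, q2, q3⟩

theorem smooth (k j : C.ι) : ContDiffOn ℝ ∞ (fun q : V × V => loc C C (mv C i χ q.1) k j q.2)
    {q : V × V | q.1 ∈ ball (0 : V) r ∧ q.2 ∈ dom C C (mv C i χ q.1) k j} := by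
  rintro ⟨s, z⟩ ⟨h1, h2, h3⟩
  have hs : ‖s‖ < r := by simpa using h1
  refine ContDiffAt.contDiffWithinAt ?_
  by_cases hx : (C.e j).symm z ∈ (C.e i).source
  · have hz : z ∈ C.ov j i := ⟨h2, hx⟩
    have e1 : (fun q : V × V => loc C C (mv C i χ q.1) k j q.2) =ᶠ[𝓝 (s, z)]
        fun q => C.t i k (C.t j i q.2 + χ (C.t j i q.2) • q.1) := by
      have a1 : ∀ᶠ q : V × V in 𝓝 (s, z), q.1 ∈ ball (0 : V) r :=
        continuous_fst.continuousAt.eventually (isOpen_ball.mem_nhds h1)
      have a2 : ∀ᶠ q : V × V in 𝓝 (s, z), q.2 ∈ C.ov j i :=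
        continuous_snd.continuousAt.eventually ((RCh.isOpen_ov j i).mem_nhds hz)
      filter_upwards [a1, a2] with q q1 q2
      exact h.loc_in (by simpa using q1) q2
    refine ContDiffAt.congr_of_eventuallyEq ?_ e1
    have d1 : ContDiffAt ℝ ∞ (fun q : V × V => C.t j i q.2) (s, z) :=
      ContDiffAt.comp (g := C.t j i) (s, z)
        ((C.sm j i).contDiffAt ((RCh.isOpen_ov j i).mem_nhds hz)) contDiffAt_snd
    have d2 : ContDiffAt ℝ ∞ (fun q : V × V => C.t j i q.2 + χ (C.t j i q.2) • q.1) (s, z) :=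
      d1.add ((ContDiffAt.comp (g := χ) (s, z) h.sm.contDiffAt d1).smul contDiffAt_fst)
    exact ContDiffAt.comp (g := C.t i k) (s, z)
      ((C.sm i k).contDiffAt ((RCh.isOpen_ov i k).mem_nhds (h.in_ov hs hz ⟨h2, h3⟩))) d2
  · have h0 : (C.e j).symm z ∉ h.K := fun h' => hx (h.K_sub h')
    have e1 : (fun q : V × V => loc C C (mv C i χ q.1) k j q.2) =ᶠ[𝓝 (s, z)]
        fun q => C.t j k q.2 := by
      have c1 : ContinuousAt (fun q : V × V => (C.e j).symm q.2) (s, z) :=
        ContinuousAt.comp (g := (C.e j).symm) ((C.e j).symm.continuousAt h2)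
          continuous_snd.continuousAt
      have : ∀ᶠ q : V × V in 𝓝 (s, z), (C.e j).symm q.2 ∈ (h.K)ᶜ :=
        c1.eventually (h.closedK.isOpen_compl.mem_nhds h0)
      filter_upwards [this] with q hq using h.loc_out hq
    refine ContDiffAt.congr_of_eventuallyEq ?_ e1
    have hz : z ∈ C.ov j k := by
      refine ⟨h2, ?_⟩
      have := h3
      rwa [h.mv_of_not h0] at this
    exact ContDiffAt.comp (g := C.t j k) (s, z)
      ((C.sm j k).contDiffAt ((RCh.isOpen_ov j k).mem_nhds hz)) contDiffAt_snd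

/-- the differentials are invertible -/
theorem inv {L : ℝ} (hL : 0 < L) (hb : ∀ z, ‖fderiv ℝ χ z‖ ≤ L) {s : V} (hs : ‖s‖ < r)
    (hs' : ‖s‖ < 1 / L) {k j : C.ι} {z : V} (hz : z ∈ dom C C (mv C i χ s) k j) :
    (fderiv ℝ (loc C C (mv C i χ s) k j) z).IsInvertible := by
  refine isInv _ fun v hv => ?_
  by_cases hx : (C.e j).symm z ∈ (C.e i).source
  · have hz1 : z ∈ C.ov j i := ⟨hz.1, hx⟩
    have e1 : loc C C (mv C i χ s) k j =ᶠ[𝓝 z]
        fun y => C.t i k (C.t j i y + χ (C.t j i y) • s) := by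
      filter_upwards [(RCh.isOpen_ov j i).mem_nhds hz1] with y hy using h.loc_in hs hy
    have d1 : HasFDerivAt (C.t j i) (fderiv ℝ (C.t j i) z) z := (RCh.t_diff hz1).hasFDerivAt
    have d2 : HasFDerivAt (fun y => C.t j i y + χ (C.t j i y) • s)
        ((ContinuousLinearMap.id ℝ V + (fderiv ℝ χ (C.t j i z)).smulRight s).comp
          (fderiv ℝ (C.t j i) z)) z :=
      HasFDerivAt.comp (g := fun y => y + χ y • s) z (hasFDerivAt_tr h.sm s _) d1
    have hz2 := h.in_ov hs hz1 hz
    have d3 : HasFDerivAt (fun y => C.t i k (C.t j i y + χ (C.t j i y) • s))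
        ((fderiv ℝ (C.t i k) (C.t j i z + χ (C.t j i z) • s)).comp
          ((ContinuousLinearMap.id ℝ V + (fderiv ℝ χ (C.t j i z)).smulRight s).comp
          (fderiv ℝ (C.t j i) z))) z :=
      HasFDerivAt.comp (g := C.t i k) z (RCh.t_diff hz2).hasFDerivAt d2
    rw [e1.fderiv_eq, d3.fderiv] at hv
    simp only [ContinuousLinearMap.comp_apply] at hv
    have h1 := RCh.dt_dt hz2 ((ContinuousLinearMap.id ℝ V +
      (fderiv ℝ χ (C.t j i z)).smulRight s) (fderiv ℝ (C.t j i) z v))
    rw [hv, map_zero] at h1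
    have h2 := inj_tr hL hb hs' _ _ h1.symm
    have h3 := RCh.dt_dt hz1 v
    rw [h2, map_zero] at h3
    exact h3.symm
  · have h0 : (C.e j).symm z ∉ h.K := fun h' => hx (h.K_sub h')
    have e1 : loc C C (mv C i χ s) k j =ᶠ[𝓝 z] C.t j k := by
      have : ∀ᶠ y in 𝓝 z, (C.e j).symm y ∈ (h.K)ᶜ :=
        ((C.e j).symm.continuousAt hz.1).eventually (h.closedK.isOpen_compl.mem_nhds h0)
      filter_upwards [this] with y hy using h.loc_out hy
    have hz1 : z ∈ C.ov j k := by
      refine ⟨hz.1, ?_⟩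
      have := hz.2
      rwa [h.mv_of_not h0] at this
    rw [e1.fderiv_eq] at hv
    have h3 := RCh.dt_dt hz1 v
    rw [hv, map_zero] at h3
    exact h3.symm

end CO

/-- the cut-off translations as local diffeomorphisms -/
theorem exists_trans [FiniteDimensional ℝ V] [T2Space X] (C : RCh V X) {x0 x1 : X}
    (hne : x0 ≠ x1) {i : C.ι} (hi : x0 ∈ (C.e i).source) :
    ∃ ε : ℝ, 0 < ε ∧ ball (C.e i x0) ε ⊆ (C.e i).target ∧ ∃ Φ : V → LD C C,
      FamLD (ball (0 : V) ε) Φ ∧ (∀ s ∈ ball (0 : V) ε, (Φ s).f x1 = x1) ∧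
      (∀ s ∈ ball (0 : V) ε, (Φ s).f x0 = (C.e i).symm (C.e i x0 + s)) ∧
      ∀ x, (Φ 0).f x = x := by
  -- a ball in the target, away from `x1`
  have hU : IsOpen ((C.e i).target ∩ (C.e i).symm ⁻¹' {x1}ᶜ) :=
    (C.e i).isOpen_inter_preimage_symm isOpen_compl_singleton
  have hm : C.e i x0 ∈ (C.e i).target ∩ (C.e i).symm ⁻¹' {x1}ᶜ := by
    refine ⟨(C.e i).map_source hi, ?_⟩
    show (C.e i).symm (C.e i x0) ∈ ({x1}ᶜ : Set X)
    rw [(C.e i).left_inv hi]
    exact hne
  obtain ⟨ρ, hρ, hsub⟩ := Metric.isOpen_iff.1 hU _ hm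
  set r : ℝ := ρ / 4 with hr
  have hr0 : 0 < r := by positivity
  obtain ⟨χ, L, hL, hχ, h1, hbd, hz, hb⟩ := exists_chi (C.e i x0) hr0
  have hco : CO C i χ (C.e i x0) r :=
    ⟨hr0, fun z hz => (hsub (closedBall_subset_ball (by linarith) hz)).1, hχ, hbd, hz⟩
  have hK1 : x1 ∉ hco.K := by
    rintro ⟨z, hz, h2⟩
    exact (hsub (closedBall_subset_ball (by linarith) hz)).2 h2
  set ε : ℝ := min r (1 / L) with hε
  have hε0 : 0 < ε := by positivity
  have hεr : ε ≤ r := min_le_left _ _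
  have hεL : ε ≤ 1 / L := min_le_right _ _
  classical
  let Φ : V → LD C C := fun s =>
    if hs : ‖s‖ < ε then
      { f := mv C i χ s
        cont := by
          rw [continuous_iff_continuousAt]
          intro x
          have h2 := hco.continuousAt (s := s) (x := x) (lt_of_lt_of_le hs hεr)
          exact ContinuousAt.comp (g := fun q : V × X => mv C i χ q.1 q.2) h2
            (continuous_const.prodMk continuous_id).continuousAt
        sm := by
          intro k j z hz
          have h2 := hco.smooth k j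
          have h3 : ((s, z) : V × V) ∈
              {q : V × V | q.1 ∈ ball (0 : V) r ∧ q.2 ∈ dom C C (mv C i χ q.1) k j} :=
            ⟨by simpa using lt_of_lt_of_le hs hεr, hz⟩
          have h4 := h2.contDiffAt ((hco.isOpen_dom k j).mem_nhds h3)
          exact (ContDiffAt.comp (g := fun q : V × V => loc C C (mv C i χ q.1) k j q.2) z h4
            (contDiffAt_const.prodMk contDiffAt_id)).contDiffWithinAt
        inv := fun k j z hz =>
          hco.inv hL hb (lt_of_lt_of_le hs hεr) (lt_of_lt_of_le hs hεL) hz }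
    else LD.id C
  have hΦ : ∀ s, ‖s‖ < ε → (Φ s).f = mv C i χ s := by
    intro s hs
    simp only [Φ, dif_pos hs]
  have hset : ∀ k j, {q : V × V | q.1 ∈ ball (0 : V) ε ∧ q.2 ∈ dom C C (Φ q.1).f k j} =
      {q : V × V | q.1 ∈ ball (0 : V) ε} ∩
      {q : V × V | q.1 ∈ ball (0 : V) r ∧ q.2 ∈ dom C C (mv C i χ q.1) k j} := by
    intro k j
    ext q
    constructor
    · rintro ⟨a, b⟩
      have a' : ‖q.1‖ < ε := by simpa using a
      rw [hΦ q.1 a'] at b
      exact ⟨a, by simpa using lt_of_lt_of_le a' hεr, b⟩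
    · rintro ⟨a, _, b⟩
      have a' : ‖q.1‖ < ε := by simpa using a
      refine ⟨a, ?_⟩
      rw [hΦ q.1 a']
      exact b
  refine ⟨ε, hε0, fun z hz => (hsub (ball_subset_ball (by linarith) hz)).1, Φ, ⟨?_, ?_⟩, ?_, ?_, ?_⟩
  · intro k j
    rw [hset]
    exact (isOpen_ball.preimage continuous_fst).inter (hco.isOpen_dom k j)
  · intro k j
    rw [hset]
    refine ((hco.smooth k j).mono inter_subset_right).congr ?_
    rintro q ⟨a, _⟩
    have a' : ‖q.1‖ < ε := by simpa using a
    simp only [hΦ q.1 a']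
  · intro s hs
    have a' : ‖s‖ < ε := by simpa using hs
    rw [hΦ s a']
    exact hco.mv_of_not hK1
  · intro s hs
    have a' : ‖s‖ < ε := by simpa using hs
    rw [hΦ s a']
    unfold mv
    rw [if_pos hi, h1, one_smul]
  · intro x
    rw [hΦ 0 (by simpa using hε0)]
    unfold mv
    split_ifs with h2
    · rw [smul_zero, add_zero, (C.e i).left_inv h2]
    · rfl

end

end Crest.Agent.R281.Tt_476
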