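import Crest.Agent.R281.Tt1_476
import Mathlib.LinearAlgebra.Matrix.SesquilinearForm

/-!
# Row 281, YAU-VAR/TRICK, part 2 (helper476): pull back under local diffeomorphisms

* `LD.pJ g J`     : pull back of a field of endomorphisms; `pJ_spec : D (J' v) = J (D v)`
* `nij_pJ`, `LD.pJ_cx`, `LD.pJ_t11`, `LD.pJ_pos`, `LD.ddc_pull`
* `Dens C`        : squared densities, `LD.pD`
* `Dat C`         : `(J, om, r, f)`, `Dat.pull`
-/

set_option autoImplicit false
set_option maxSynthPendingDepth 3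
set_option linter.unusedSectionVars false

open Set Filter Topology Metric
open scoped ContDiff

namespace Crest.Agent.R281.Tt_476

open Crest.Agent.R260.ACM_580 Crest.Agent.R281.HkR_835 Crest.Agent.R281.NefO_476
open Crest.Agent.R281.Nef_252
open Crest.Agent.R281.Dif_268
open Crest.Agent.R281.Ti_846 hiding pb pb_apply symm2

noncomputable section

/-! ### the Nijenhuis tensor under a local diffeomorphism -/

section nij

variable {V V' : Type} [NormedAddCommGroup V] [NormedSpace ℝ V]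
  [NormedAddCommGroup V'] [NormedSpace ℝ V']

/-- derivative of `D(J' v) = J(φ)(D v)` -/
theorem fderiv_rel {φ : V' → V} {J : V → V →L[ℝ] V} {J' : V' → V' →L[ℝ] V'} {z : V'}
    (hφ : ContDiffAt ℝ ∞ φ z) (hJ : DifferentiableAt ℝ J (φ z)) (hJ' : DifferentiableAt ℝ J' z)
    (hr : ∀ᶠ y in 𝓝 z, ∀ v, fderiv ℝ φ y (J' y v) = J (φ y) (fderiv ℝ φ y v)) (a v : V') :
    fderiv ℝ (fderiv ℝ φ) z a (J' z v) + fderiv ℝ φ z (fderiv ℝ J' z a v) =
      fderiv ℝ J (φ z) (fderiv ℝ φ z a) (fderiv ℝ φ z v) +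
        J (φ z) (fderiv ℝ (fderiv ℝ φ) z a v) := by
  have hD : HasFDerivAt (fderiv ℝ φ) (fderiv ℝ (fderiv ℝ φ) z) z :=
    ((hφ.fderiv_right (m := ∞) (by simp)).differentiableAt (by simp)).hasFDerivAt
  have hφ1 : HasFDerivAt φ (fderiv ℝ φ z) z := (hφ.differentiableAt (by simp)).hasFDerivAt
  have hJc : HasFDerivAt (fun y => J (φ y)) ((fderiv ℝ J (φ z)).comp (fderiv ℝ φ z)) z :=
    HasFDerivAt.comp (g := J) z hJ.hasFDerivAt hφ1
  have h0 : HasFDerivAt (fun _ : V' => v) (0 : V' →L[ℝ] V') z := hasFDerivAt_const v z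
  have h1 : HasFDerivAt (fun y => J' y v) _ z := hJ'.hasFDerivAt.clm_apply h0
  have h2 : HasFDerivAt (fun y => fderiv ℝ φ y (J' y v)) _ z := hD.clm_apply h1
  have h3 : HasFDerivAt (fun y => fderiv ℝ φ y v) _ z := hD.clm_apply h0
  have h4 : HasFDerivAt (fun y => J (φ y) (fderiv ℝ φ y v)) _ z := hJc.clm_apply h3
  have h5 : (fun y => fderiv ℝ φ y (J' y v)) =ᶠ[𝓝 z] fun y => J (φ y) (fderiv ℝ φ y v) := by
    filter_upwards [hr] with y hy using hy v
  have h6 := h2.unique (h4.congr_of_eventuallyEq h5)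
  have h7 := congrArg (fun T : V' →L[ℝ] V => T a) h6
  simp at h7
  rw [add_comm] at h7
  rw [h7]
  abel

/-- naturality of the Nijenhuis tensor -/
theorem nij_rel {φ : V' → V} {J : V → V →L[ℝ] V} {J' : V' → V' →L[ℝ] V'} {z : V'}
    (hφ : ContDiffAt ℝ ∞ φ z) (hJ : DifferentiableAt ℝ J (φ z)) (hJ' : DifferentiableAt ℝ J' z)
    (hr : ∀ᶠ y in 𝓝 z, ∀ v, fderiv ℝ φ y (J' y v) = J (φ y) (fderiv ℝ φ y v)) (v w : V') :
    fderiv ℝ φ z (Nij J' z v w) = Nij J (φ z) (fderiv ℝ φ z v) (fderiv ℝ φ z w) := by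
  have hr0 := hr.self_of_nhds
  have e := fderiv_rel hφ hJ hJ' hr
  have s : ∀ a b, fderiv ℝ (fderiv ℝ φ) z a b = fderiv ℝ (fderiv ℝ φ) z b a := fun a b =>
    Crest.Agent.R281.Dif_268.symm2 hφ a b
  have e' : ∀ a v, fderiv ℝ φ z (fderiv ℝ J' z a v) =
      fderiv ℝ J (φ z) (fderiv ℝ φ z a) (fderiv ℝ φ z v) +
        J (φ z) (fderiv ℝ (fderiv ℝ φ) z a v) - fderiv ℝ (fderiv ℝ φ) z a (J' z v) := fun a v =>
    eq_sub_of_add_eq' (e a v)
  unfold Nij
  simp only [map_add, map_sub]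
  rw [hr0, hr0, e', e', e', e', hr0, hr0]
  simp only [map_add, map_sub]
  rw [s (J' z w) v, s (J' z v) w, s v w, s (J' z w) (J' z v)]
  abel

end nij

variable {V V' X X' : Type} [NormedAddCommGroup V] [NormedSpace ℝ V]
  [NormedAddCommGroup V'] [NormedSpace ℝ V'] [TopologicalSpace X] [TopologicalSpace X']
  {C : RCh V X} {C' : RCh V' X'}

namespace LD

variable (g : LD C' C)

theorem injD {i : C.ι} {j : C'.ι} {z : V'} (hz : z ∈ dom C C' g.f i j) {v w : V'}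
    (h : fderiv ℝ (Dif_268.loc C C' g.f i j) z v = fderiv ℝ (Dif_268.loc C C' g.f i j) z w) :
    v = w := (g.inv i j z hz).injective h

/-- pull back of a field of endomorphisms, raw -/
def j' (J : AJ C) (j : C'.ι) (z : V') : V' →L[ℝ] V' :=
  (fderiv ℝ (Dif_268.loc C C' g.f (g.idx j z) j) z).inverse ∘L
    (J.J (g.idx j z) (Dif_268.loc C C' g.f (g.idx j z) j z)) ∘L
    (fderiv ℝ (Dif_268.loc C C' g.f (g.idx j z) j) z)

theorem j'_spec (J : AJ C) {i : C.ι} {j : C'.ι} {z : V'} (hz : z ∈ dom C C' g.f i j) (v : V') :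
    fderiv ℝ (Dif_268.loc C C' g.f i j) z (g.j' J j z v) =
      J.J i (Dif_268.loc C C' g.f i j z) (fderiv ℝ (Dif_268.loc C C' g.f i j) z v) := by
  have h1 := g.idx_mem hz.1
  rw [← g.dt_loc h1 hz]
  show fderiv ℝ (C.t (g.idx j z) i) _ (fderiv ℝ (Dif_268.loc C C' g.f (g.idx j z) j) z
    ((fderiv ℝ (Dif_268.loc C C' g.f (g.idx j z) j) z).inverse
      (J.J (g.idx j z) (Dif_268.loc C C' g.f (g.idx j z) j z)
        (fderiv ℝ (Dif_268.loc C C' g.f (g.idx j z) j) z v)))) = _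
  rw [(g.inv _ j z h1).self_apply_inverse, J.tr _ i _ (g.loc_ov h1 hz), g.t_loc h1,
    g.dt_loc h1 hz]

theorem j'_eq (J : AJ C) {i : C.ι} {j : C'.ι} {z : V'} (hz : z ∈ dom C C' g.f i j) :
    g.j' J j z = (fderiv ℝ (Dif_268.loc C C' g.f i j) z).inverse ∘L
      (J.J i (Dif_268.loc C C' g.f i j z)) ∘L (fderiv ℝ (Dif_268.loc C C' g.f i j) z) := by
  ext v
  refine g.injD hz ?_
  rw [g.j'_spec J hz]
  simp only [ContinuousLinearMap.comp_apply]
  rw [(g.inv i j z hz).self_apply_inverse]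

/-- **pull back of a field of endomorphisms** -/
def pJ [CompleteSpace V'] (J : AJ C) : AJ C' where
  J := g.j' J
  sm j := by
    intro z hz
    obtain ⟨i, hi⟩ := g.exists_dom hz
    have ho := (g.isOpen_dom i j).mem_nhds hi
    have hD : ContDiffAt ℝ ∞ (fderiv ℝ (Dif_268.loc C C' g.f i j)) z :=
      (g.contDiffAt_loc hi).fderiv_right (m := ∞) (by simp)
    have h1 : ContDiffAt ℝ ∞ (fun y => (fderiv ℝ (Dif_268.loc C C' g.f i j) y).inverse) z :=
      ContDiffAt.comp (g := ContinuousLinearMap.inverse) z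
        ((g.inv i j z hi).contDiffAt_map_inverse) hD
    have h2 : ContDiffAt ℝ ∞ (fun y => J.J i (Dif_268.loc C C' g.f i j y)) z :=
      ContDiffAt.comp (g := J.J i) z
        ((J.sm i).contDiffAt ((C.e i).open_target.mem_nhds (g.loc_mem hi))) (g.contDiffAt_loc hi)
    refine ContDiffAt.contDiffWithinAt ((h1.clm_comp (h2.clm_comp hD)).congr_of_eventuallyEq ?_)
    filter_upwards [ho] with y hy using g.j'_eq J hy
  tr j j' z hz v := by
    obtain ⟨i, hi⟩ := g.exists_dom hz.1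
    refine g.injD (g.dom_t hz hi) ?_
    rw [g.dloc_t hz hi, g.j'_spec J hi, g.j'_spec J (g.dom_t hz hi), g.dloc_t hz hi, g.loc_t hz]

variable [CompleteSpace V']

theorem pJ_spec (J : AJ C) {i : C.ι} {j : C'.ι} {z : V'} (hz : z ∈ dom C C' g.f i j) (v : V') :
    fderiv ℝ (Dif_268.loc C C' g.f i j) z ((g.pJ J).J j z v) =
      J.J i (Dif_268.loc C C' g.f i j z) (fderiv ℝ (Dif_268.loc C C' g.f i j) z v) :=
  g.j'_spec J hz v

theorem AJ.diffAt {V X : Type} [NormedAddCommGroup V] [NormedSpace ℝ V] [TopologicalSpace X]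
    {C : RCh V X} (J : AJ C) {i : C.ι} {z : V} (hz : z ∈ (C.e i).target) :
    DifferentiableAt ℝ (J.J i) z :=
  ((J.sm i).contDiffAt ((C.e i).open_target.mem_nhds hz)).differentiableAt (by simp)

theorem pJ_cx {J : AJ C} (h : Cx J) : Cx (g.pJ J) := by
  refine ⟨fun j z hz v => ?_, fun j z hz v w => ?_⟩
  · obtain ⟨i, hi⟩ := g.exists_dom hz
    refine g.injD hi ?_
    rw [g.pJ_spec J hi, g.pJ_spec J hi, h.sq i _ (g.loc_mem hi), map_neg]
  · obtain ⟨i, hi⟩ := g.exists_dom hz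
    refine g.injD hi ?_
    rw [nij_rel (g.contDiffAt_loc hi) (AJ.diffAt J (g.loc_mem hi)) (AJ.diffAt (g.pJ J) hz),
      h.int i _ (g.loc_mem hi), map_zero]
    filter_upwards [(g.isOpen_dom i j).mem_nhds hi] with y hy v using g.pJ_spec J hy v

theorem pJ_t11 {J : AJ C} {w : F2 C} (h : T11 J w) : T11 (g.pJ J) (g.pull w) := by
  intro j z hz u v
  obtain ⟨i, hi⟩ := g.exists_dom hz
  rw [g.pull_w w hi, g.pull_w w hi, g.pJ_spec J hi, g.pJ_spec J hi, h i _ (g.loc_mem hi)]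

theorem pJ_pos {J : AJ C} {w : F2 C} (h : Pos J w) : Pos (g.pJ J) (g.pull w) := by
  intro j z hz v hv
  obtain ⟨i, hi⟩ := g.exists_dom hz
  rw [g.pull_w w hi, g.pJ_spec J hi]
  refine h i _ (g.loc_mem hi) _ fun h0 => hv (g.injD hi ?_)
  rw [h0, map_zero]

end LD

/-! ### functions -/

/-- smooth functions pull back -/
theorem Sm.comp {u : X → ℝ} (hu : Sm C u) (g : SMap C' C) : Sm C' (u ∘ g.f) := by
  intro j z hz
  obtain ⟨i, hi⟩ := g.exists_dom hz
  have h1 : ContDiffAt ℝ ∞ (fun y => uc C u i (Dif_268.loc C C' g.f i j y)) z :=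
    ContDiffAt.comp (g := uc C u i) z (hu.at (g.loc_mem hi)) (g.contDiffAt_loc hi)
  refine (h1.congr_of_eventuallyEq ?_).contDiffWithinAt
  filter_upwards [(g.isOpen_dom i j).mem_nhds hi] with y hy
  show u (g.f ((C'.e j).symm y)) = u ((C.e i).symm (Dif_268.loc C C' g.f i j y))
  rw [g.symm_loc hy]

theorem uc_comp (u : X → ℝ) (g : SMap C' C) {i : C.ι} {j : C'.ι} {z : V'}
    (hz : z ∈ dom C C' g.f i j) :
    uc C' (u ∘ g.f) j z = uc C u i (Dif_268.loc C C' g.f i j z) := by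
  show u (g.f ((C'.e j).symm z)) = u ((C.e i).symm (Dif_268.loc C C' g.f i j z))
  rw [g.symm_loc hz]

theorem fd_comp {u : X → ℝ} (hu : Sm C u) (g : SMap C' C) {i : C.ι} {j : C'.ι} {z : V'}
    (hz : z ∈ dom C C' g.f i j) (v : V') :
    fderiv ℝ (uc C' (u ∘ g.f) j) z v = fderiv ℝ (uc C u i) (Dif_268.loc C C' g.f i j z)
      (fderiv ℝ (Dif_268.loc C C' g.f i j) z v) := by
  have h1 : uc C' (u ∘ g.f) j =ᶠ[𝓝 z] fun y => uc C u i (Dif_268.loc C C' g.f i j y) := by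
    filter_upwards [(g.isOpen_dom i j).mem_nhds hz] with y hy using uc_comp u g hy
  have h2 : HasFDerivAt (fun y => uc C u i (Dif_268.loc C C' g.f i j y)) _ z :=
    HasFDerivAt.comp (g := uc C u i) (f := Dif_268.loc C C' g.f i j) z
      (((hu.at (g.loc_mem hz)).differentiableAt (by simp)).hasFDerivAt)
      (g.diff_loc hz).hasFDerivAt
  rw [h1.fderiv_eq, h2.fderiv]
  rfl

variable [FiniteDimensional ℝ V] [MeasurableSpace V] [BorelSpace V]
  [FiniteDimensional ℝ V'] [MeasurableSpace V'] [BorelSpace V'] [CompleteSpace V']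

/-- `d^c` commutes with pull back -/
theorem dc_pull (g : LD C' C) (J : AJ C) {u : X → ℝ} (hu : Sm C u) {j : C'.ι} {z : V'}
    (hz : z ∈ (C'.e j).target) :
    (dc (g.pJ J) (u ∘ g.f) (Sm.comp hu g.toSMap)).η j z = (g.pull1 (dc J u hu)).η j z := by
  obtain ⟨i, hi⟩ := g.exists_dom hz
  ext v
  rw [g.pull1_η _ hi]
  show -(fderiv ℝ (uc C' (u ∘ g.f) j) z ((g.pJ J).J j z v)) =
    -(fderiv ℝ (uc C u i) (Dif_268.loc C C' g.f i j z) (J.J i (Dif_268.loc C C' g.f i j z)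
      (fderiv ℝ (Dif_268.loc C C' g.f i j) z v)))
  rw [fd_comp hu g.toSMap hi, g.pJ_spec J hi]

/-- `dd^c` commutes with pull back -/
theorem ddc_pull (g : LD C' C) (J : AJ C) {u : X → ℝ} (hu : Sm C u) {j : C'.ι} {z : V'}
    (hz : z ∈ (C'.e j).target) (a b : V') :
    (ddc (g.pJ J) (u ∘ g.f) (Sm.comp hu g.toSMap)).w j z a b =
      (g.pull (ddc J u hu)).w j z a b := by
  have h1 : IsD (g.pull (ddc J u hu)) (g.pull1 (dc J u hu)) :=
    g.isD_pull fun i z hz u v => rfl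
  have h2 : (dc (g.pJ J) (u ∘ g.f) (Sm.comp hu g.toSMap)).η j =ᶠ[𝓝 z]
      (g.pull1 (dc J u hu)).η j := by
    filter_upwards [(C'.e j).open_target.mem_nhds hz] with y hy using dc_pull g J hu hy
  rw [h1 j z hz]
  show fderiv ℝ ((dc (g.pJ J) (u ∘ g.f) (Sm.comp hu g.toSMap)).η j) z a b -
    fderiv ℝ ((dc (g.pJ J) (u ∘ g.f) (Sm.comp hu g.toSMap)).η j) z b a = _
  rw [h2.fderiv_eq]

end

end Crest.Agent.R281.Tt_476
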