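import Crest.Agent.R281.Tt2_476

/-!
# Row 281, YAU-VAR/TRICK, part 3 (helper476): data, pull back of families, the translation trick

* `Dens C`, `Dat C = (J, om, r, f)`, `Dat.pull`
* `JS0`, `JS2`, `JSJ`, `JSD`, `JSDat` : jointly smooth families
* `JSDat.pull` : `(p, s) ↦ Φ_s^* D_p` is jointly smooth
* `trick`      : smoothness in the parameters for all families ==> joint smoothness
* `SolMA`      : Monge-Ampere equation (real `2N x 2N` determinant), `SolMA.pull`, `SolMA.cst`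
-/

set_option autoImplicit false
set_option maxSynthPendingDepth 3
set_option linter.unusedSectionVars false

open Set Filter Topology Metric
open scoped ContDiff

namespace Crest.Agent.R281.Tt_476

open Crest.Agent.R260.ACM_580 Crest.Agent.R281.HkR_835 Crest.Agent.R281.NefO_476
open Crest.Agent.R281.Nef_252
open Crest.Agent.R281.Dif_268
open Crest.Agent.R281.Ti_846 hiding pb pb_apply symm2

noncomputable section

variable {V X : Type} [NormedAddCommGroup V] [NormedSpace ℝ V] [TopologicalSpace X]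

/-- squared densities -/
structure Dens (C : RCh V X) where
  r : C.ι → V → ℝ
  sm : ∀ i, ContDiffOn ℝ ∞ (r i) (C.e i).target
  tr : ∀ i j, ∀ z ∈ C.ov i j, r i z = r j (C.t i j z) * (fderiv ℝ (C.t i j) z).det ^ 2

variable {C : RCh V X}

theorem det_comp' (T S : V →L[ℝ] V) : (T ∘L S).det = T.det * S.det := by
  show LinearMap.det ((T : V →ₗ[ℝ] V) ∘ₗ (S : V →ₗ[ℝ] V)) = _
  exact LinearMap.det_comp _ _

theorem contDiff_det [FiniteDimensional ℝ V] :
    ContDiff ℝ ∞ (fun T : V →L[ℝ] V => T.det) := by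
  have h : (fun T : V →L[ℝ] V => T.det) = fun T => ∑ σ : Equiv.Perm (Fin (Module.finrank ℝ V)),
      ((Equiv.Perm.sign σ : ℤ) : ℝ) * ∏ k, (Module.finBasis ℝ V).coord (σ k)
        (T (Module.finBasis ℝ V k)) := by
    funext T
    show LinearMap.det (T : V →ₗ[ℝ] V) = _
    rw [← LinearMap.det_toMatrix (Module.finBasis ℝ V), Matrix.det_apply']
    simp [LinearMap.toMatrix_apply]
  rw [h]
  refine ContDiff.sum fun σ _ => contDiff_const.mul (contDiff_prod fun k _ => ?_)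
  have hl : IsBoundedLinearMap ℝ (fun T : V →L[ℝ] V =>
      (Module.finBasis ℝ V).coord (σ k) (T (Module.finBasis ℝ V k))) :=
    ((LinearMap.toContinuousLinearMap ((Module.finBasis ℝ V).coord (σ k))).comp
      (ContinuousLinearMap.apply ℝ V (Module.finBasis ℝ V k))).isBoundedLinearMap
  exact hl.contDiff

namespace LD

variable (g : LD C C)

theorem dloc_i {i i' : C.ι} {j : C.ι} {z : V} (hz : z ∈ dom C C g.f i j)
    (hz' : z ∈ dom C C g.f i' j) :
    (fderiv ℝ (C.t i i') (Dif_268.loc C C g.f i j z)) ∘L (fderiv ℝ (Dif_268.loc C C g.f i j) z) =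
      fderiv ℝ (Dif_268.loc C C g.f i' j) z := by
  ext v
  exact g.dt_loc hz hz' v

theorem dloc_j {i : C.ι} {j j' : C.ι} {z : V} (hz : z ∈ C.ov j j')
    (hz' : z ∈ dom C C g.f i j) :
    (fderiv ℝ (Dif_268.loc C C g.f i j') (C.t j j' z)) ∘L (fderiv ℝ (C.t j j') z) =
      fderiv ℝ (Dif_268.loc C C g.f i j) z := by
  ext v
  exact g.dloc_t hz hz' v

/-- pull back of a squared density, raw -/
def r' (r : Dens C) (j : C.ι) (z : V) : ℝ :=
  r.r (g.idx j z) (Dif_268.loc C C g.f (g.idx j z) j z) *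
    (fderiv ℝ (Dif_268.loc C C g.f (g.idx j z) j) z).det ^ 2

theorem r'_eq (r : Dens C) {i j : C.ι} {z : V} (hz : z ∈ dom C C g.f i j) :
    g.r' r j z = r.r i (Dif_268.loc C C g.f i j z) *
      (fderiv ℝ (Dif_268.loc C C g.f i j) z).det ^ 2 := by
  have h1 := g.idx_mem hz.1
  rw [r', r.tr _ i _ (g.loc_ov h1 hz), g.t_loc h1, ← g.dloc_i h1 hz, det_comp']
  ring

/-- pull back of a squared density -/
def pD [FiniteDimensional ℝ V] (r : Dens C) : Dens C where
  r := g.r' r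
  sm j := by
    intro z hz
    obtain ⟨i, hi⟩ := g.exists_dom hz
    have ho := (g.isOpen_dom i j).mem_nhds hi
    have hD : ContDiffAt ℝ ∞ (fderiv ℝ (Dif_268.loc C C g.f i j)) z :=
      (g.contDiffAt_loc hi).fderiv_right (m := ∞) (by simp)
    have h1 : ContDiffAt ℝ ∞ (fun y => r.r i (Dif_268.loc C C g.f i j y)) z :=
      ContDiffAt.comp (g := r.r i) z
        ((r.sm i).contDiffAt ((C.e i).open_target.mem_nhds (g.loc_mem hi))) (g.contDiffAt_loc hi)
    have h2 : ContDiffAt ℝ ∞ (fun y => (fderiv ℝ (Dif_268.loc C C g.f i j) y).det) z :=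
      ContDiffAt.comp (g := fun T : V →L[ℝ] V => T.det) z contDiff_det.contDiffAt hD
    refine ContDiffAt.contDiffWithinAt ((h1.mul (h2.pow 2)).congr_of_eventuallyEq ?_)
    filter_upwards [ho] with y hy using g.r'_eq r hy
  tr j j' z hz := by
    obtain ⟨i, hi⟩ := g.exists_dom hz.1
    rw [g.r'_eq r hi, g.r'_eq r (g.dom_t hz hi), g.loc_t hz, ← g.dloc_j hz hi, det_comp']
    ring

end LD

/-- data of an equation on `(X, C)` -/
structure Dat (C : RCh V X) where
  J : AJ C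
  om : F2 C
  r : Dens C
  f : X → ℝ
  fs : Sm C f

/-- pull back of the data -/
def Dat.pull [FiniteDimensional ℝ V] [CompleteSpace V] (D : Dat C) (g : LD C C) : Dat C where
  J := g.pJ D.J
  om := g.pull D.om
  r := g.pD D.r
  f := D.f ∘ g.f
  fs := Sm.comp D.fs g.toSMap

/-! ### jointly smooth families -/

section families

variable {E : Type} [NormedAddCommGroup E] [NormedSpace ℝ E]

/-- jointly smooth families of functions -/
def JS0 (C : RCh V X) (T : Set E) (u : E → X → ℝ) : Prop :=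
  ∀ i, ContDiffOn ℝ ∞ (fun q : E × V => u q.1 ((C.e i).symm q.2)) (T ×ˢ (C.e i).target)

/-- jointly smooth families of closed 2-forms -/
def JS2 (T : Set E) (w : E → F2 C) : Prop :=
  ∀ i, ContDiffOn ℝ ∞ (fun q : E × V => (w q.1).w i q.2) (T ×ˢ (C.e i).target)

/-- jointly smooth families of fields of endomorphisms -/
def JSJ (T : Set E) (J : E → AJ C) : Prop :=
  ∀ i, ContDiffOn ℝ ∞ (fun q : E × V => (J q.1).J i q.2) (T ×ˢ (C.e i).target)

/-- jointly smooth families of squared densities -/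
def JSD (T : Set E) (r : E → Dens C) : Prop :=
  ∀ i, ContDiffOn ℝ ∞ (fun q : E × V => (r q.1).r i q.2) (T ×ˢ (C.e i).target)

/-- jointly smooth families of data -/
structure JSDat (T : Set E) (D : E → Dat C) : Prop where
  J : JSJ T fun p => (D p).J
  om : JS2 T fun p => (D p).om
  r : JSD T fun p => (D p).r
  f : JS0 C T fun p => (D p).f

end families

section pull

variable [FiniteDimensional ℝ V] [CompleteSpace V] {E W : Type} [NormedAddCommGroup E]
  [NormedSpace ℝ E] [NormedAddCommGroup W] [NormedSpace ℝ W] {T : Set E} {S : Set W}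
  {Φ : W → LD C C}

/-- the domain of a family in charts -/
def Om (S : Set W) (Φ : W → LD C C) (i j : C.ι) : Set (W × V) :=
  {q : W × V | q.1 ∈ S ∧ q.2 ∈ dom C C (Φ q.1).f i j}

theorem FamLD.jsD (hΦ : FamLD S Φ) {i j : C.ι} {q : W × V} (hq : q ∈ Om S Φ i j) :
    ContDiffAt ℝ ∞ (fun q : W × V => fderiv ℝ (Dif_268.loc C C (Φ q.1).f i j) q.2) q := by
  have h1 : ContDiffAt ℝ ∞ (fun q : W × V => Dif_268.loc C C (Φ q.1).f i j q.2) q :=
    (hΦ.js i j).contDiffAt ((hΦ.op i j).mem_nhds hq)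
  refine ContDiffAt.fderiv (f := fun (q : W × V) (y : V) => Dif_268.loc C C (Φ q.1).f i j y)
    (g := fun q => q.2) (n := ∞) (m := ∞) ?_ contDiffAt_snd (by simp)
  have h2 : ContDiffAt ℝ ∞ (fun q : (W × V) × V => (q.1.1, q.2)) (q, q.2) :=
    (contDiffAt_fst.fst).prodMk contDiffAt_snd
  exact ContDiffAt.comp (g := fun q : W × V => Dif_268.loc C C (Φ q.1).f i j q.2)
    (f := fun q : (W × V) × V => (q.1.1, q.2)) (q, q.2) h1 h2

/-- the map `((p, s), z) ↦ (s, z)` -/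
theorem nhds_dom (hΦ : FamLD S Φ) {i j : C.ι} {q : (E × W) × V}
    (hq : (q.1.2, q.2) ∈ Om S Φ i j) : ∀ᶠ y : (E × W) × V in 𝓝 q, (y.1.2, y.2) ∈ Om S Φ i j := by
  have h1 : Continuous (fun y : (E × W) × V => (y.1.2, y.2)) := by fun_prop
  exact h1.continuousAt.eventually ((hΦ.op i j).mem_nhds hq)

theorem cdL (hΦ : FamLD S Φ) {i j : C.ι} {q : (E × W) × V} (hq : (q.1.2, q.2) ∈ Om S Φ i j) :
    ContDiffAt ℝ ∞ (fun y : (E × W) × V => Dif_268.loc C C (Φ y.1.2).f i j y.2) q :=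
  ContDiffAt.comp (g := fun q : W × V => Dif_268.loc C C (Φ q.1).f i j q.2)
    (f := fun y : (E × W) × V => (y.1.2, y.2)) q
    ((hΦ.js i j).contDiffAt ((hΦ.op i j).mem_nhds hq))
    ((contDiffAt_fst.snd).prodMk contDiffAt_snd)

theorem cdD (hΦ : FamLD S Φ) {i j : C.ι} {q : (E × W) × V} (hq : (q.1.2, q.2) ∈ Om S Φ i j) :
    ContDiffAt ℝ ∞ (fun y : (E × W) × V => fderiv ℝ (Dif_268.loc C C (Φ y.1.2).f i j) y.2) q :=
  ContDiffAt.comp (g := fun q : W × V => fderiv ℝ (Dif_268.loc C C (Φ q.1).f i j) q.2)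
    (f := fun y : (E × W) × V => (y.1.2, y.2)) q (hΦ.jsD hq)
    ((contDiffAt_fst.snd).prodMk contDiffAt_snd)

/-- a jointly smooth family composed with the map in charts -/
theorem cdC {F : Type*} [NormedAddCommGroup F] [NormedSpace ℝ F] (hT : IsOpen T)
    (hΦ : FamLD S Φ) {i j : C.ι} {a : E → V → F}
    (ha : ContDiffOn ℝ ∞ (fun q : E × V => a q.1 q.2) (T ×ˢ (C.e i).target))
    {q : (E × W) × V} (hp : q.1.1 ∈ T) (hq : (q.1.2, q.2) ∈ Om S Φ i j) :
    ContDiffAt ℝ ∞ (fun y : (E × W) × V =>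
      a y.1.1 (Dif_268.loc C C (Φ y.1.2).f i j y.2)) q := by
  have h1 : ContDiffAt ℝ ∞ (fun q : E × V => a q.1 q.2)
      (q.1.1, Dif_268.loc C C (Φ q.1.2).f i j q.2) :=
    ha.contDiffAt ((hT.prod (C.e i).open_target).mem_nhds ⟨hp, (Φ q.1.2).loc_mem hq.2⟩)
  exact ContDiffAt.comp (g := fun q : E × V => a q.1 q.2)
    (f := fun y : (E × W) × V => (y.1.1, Dif_268.loc C C (Φ y.1.2).f i j y.2)) q h1
    ((contDiffAt_fst.fst).prodMk (cdL hΦ hq))

theorem JSJ.pull (hT : IsOpen T) (hΦ : FamLD S Φ) {J : E → AJ C} (hJ : JSJ T J) :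
    JSJ (T ×ˢ S) fun q : E × W => (Φ q.2).pJ (J q.1) := by
  intro j
  rintro ⟨⟨p, s⟩, z⟩ ⟨⟨hp, hs⟩, hz⟩
  obtain ⟨i, hi⟩ := (Φ s).exists_dom hz
  have hq : (((p, s), z).1.2, ((p, s), z).2) ∈ Om S Φ i j := ⟨hs, hi⟩
  refine ContDiffAt.contDiffWithinAt ?_
  have h1 : (fun y : (E × W) × V => ((Φ y.1.2).pJ (J y.1.1)).J j y.2) =ᶠ[𝓝 ((p, s), z)]
      fun y => (fderiv ℝ (Dif_268.loc C C (Φ y.1.2).f i j) y.2).inverse ∘L
        ((J y.1.1).J i (Dif_268.loc C C (Φ y.1.2).f i j y.2)) ∘L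
        (fderiv ℝ (Dif_268.loc C C (Φ y.1.2).f i j) y.2) := by
    filter_upwards [nhds_dom hΦ hq] with y hy using (Φ y.1.2).j'_eq (J y.1.1) hy.2
  refine ContDiffAt.congr_of_eventuallyEq ?_ h1
  have h2 : ContDiffAt ℝ ∞ (fun y : (E × W) × V =>
      (fderiv ℝ (Dif_268.loc C C (Φ y.1.2).f i j) y.2).inverse) ((p, s), z) :=
    ContDiffAt.comp (g := ContinuousLinearMap.inverse) ((p, s), z)
      (((Φ s).inv i j z hi).contDiffAt_map_inverse) (cdD hΦ hq)
  exact h2.clm_comp ((cdC (a := fun p z => (J p).J i z) hT hΦ (hJ i) hp hq).clm_comp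
    (cdD hΦ hq))

theorem JS2.pull (hT : IsOpen T) (hΦ : FamLD S Φ) {w : E → F2 C} (hw : JS2 T w) :
    JS2 (T ×ˢ S) fun q : E × W => (Φ q.2).pull (w q.1) := by
  intro j
  refine contDiffOn_clm_apply.2 fun u => contDiffOn_clm_apply.2 fun v => ?_
  rintro ⟨⟨p, s⟩, z⟩ ⟨⟨hp, hs⟩, hz⟩
  obtain ⟨i, hi⟩ := (Φ s).exists_dom hz
  have hq : (((p, s), z).1.2, ((p, s), z).2) ∈ Om S Φ i j := ⟨hs, hi⟩
  refine ContDiffAt.contDiffWithinAt ?_
  have h1 : (fun y : (E × W) × V => ((Φ y.1.2).pull (w y.1.1)).w j y.2 u v) =ᶠ[𝓝 ((p, s), z)]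
      fun y => (w y.1.1).w i (Dif_268.loc C C (Φ y.1.2).f i j y.2)
        (fderiv ℝ (Dif_268.loc C C (Φ y.1.2).f i j) y.2 u)
        (fderiv ℝ (Dif_268.loc C C (Φ y.1.2).f i j) y.2 v) := by
    filter_upwards [nhds_dom hΦ hq] with y hy using (Φ y.1.2).pull_w (w y.1.1) hy.2 u v
  refine ContDiffAt.congr_of_eventuallyEq ?_ h1
  exact ((cdC (a := fun p z => (w p).w i z) hT hΦ (hw i) hp hq).clm_apply
    ((cdD hΦ hq).clm_apply contDiffAt_const)).clm_apply
    ((cdD hΦ hq).clm_apply contDiffAt_const)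

theorem JSD.pull (hT : IsOpen T) (hΦ : FamLD S Φ) {r : E → Dens C} (hr : JSD T r) :
    JSD (T ×ˢ S) fun q : E × W => (Φ q.2).pD (r q.1) := by
  intro j
  rintro ⟨⟨p, s⟩, z⟩ ⟨⟨hp, hs⟩, hz⟩
  obtain ⟨i, hi⟩ := (Φ s).exists_dom hz
  have hq : (((p, s), z).1.2, ((p, s), z).2) ∈ Om S Φ i j := ⟨hs, hi⟩
  refine ContDiffAt.contDiffWithinAt ?_
  have h1 : (fun y : (E × W) × V => ((Φ y.1.2).pD (r y.1.1)).r j y.2) =ᶠ[𝓝 ((p, s), z)]
      fun y => (r y.1.1).r i (Dif_268.loc C C (Φ y.1.2).f i j y.2) *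
        (fderiv ℝ (Dif_268.loc C C (Φ y.1.2).f i j) y.2).det ^ 2 := by
    filter_upwards [nhds_dom hΦ hq] with y hy using (Φ y.1.2).r'_eq (r y.1.1) hy.2
  refine ContDiffAt.congr_of_eventuallyEq ?_ h1
  have h2 : ContDiffAt ℝ ∞ (fun y : (E × W) × V =>
      (fderiv ℝ (Dif_268.loc C C (Φ y.1.2).f i j) y.2).det) ((p, s), z) :=
    ContDiffAt.comp (g := fun T : V →L[ℝ] V => T.det) ((p, s), z) contDiff_det.contDiffAt
      (cdD hΦ hq)
  exact (cdC (a := fun p z => (r p).r i z) hT hΦ (hr i) hp hq).mul (h2.pow 2)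

theorem JS0.pull (hT : IsOpen T) (hΦ : FamLD S Φ) {u : E → X → ℝ} (hu : JS0 C T u) :
    JS0 C (T ×ˢ S) fun (q : E × W) x => u q.1 ((Φ q.2).f x) := by
  intro j
  rintro ⟨⟨p, s⟩, z⟩ ⟨⟨hp, hs⟩, hz⟩
  obtain ⟨i, hi⟩ := (Φ s).exists_dom hz
  have hq : (((p, s), z).1.2, ((p, s), z).2) ∈ Om S Φ i j := ⟨hs, hi⟩
  refine ContDiffAt.contDiffWithinAt ?_
  have h1 : (fun y : (E × W) × V => u y.1.1 ((Φ y.1.2).f ((C.e j).symm y.2))) =ᶠ[𝓝 ((p, s), z)]
      fun y => u y.1.1 ((C.e i).symm (Dif_268.loc C C (Φ y.1.2).f i j y.2)) := by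
    filter_upwards [nhds_dom hΦ hq] with y hy
    rw [(Φ y.1.2).symm_loc hy.2]
  refine ContDiffAt.congr_of_eventuallyEq ?_ h1
  exact cdC (a := fun p z => u p ((C.e i).symm z)) hT hΦ (hu i) hp hq

/-- **the pulled back family is jointly smooth** -/
theorem JSDat.pull (hT : IsOpen T) (hΦ : FamLD S Φ) {D : E → Dat C}
    (hD : JSDat T D) : JSDat (T ×ˢ S) fun q : E × W => (D q.1).pull (Φ q.2) :=
  ⟨hD.J.pull hT hΦ, hD.om.pull hT hΦ, hD.r.pull hT hΦ, hD.f.pull hT hΦ⟩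

end pull

/-! ### the trick -/

section trick

variable [FiniteDimensional ℝ V] [CompleteSpace V] [T2Space X]

/-- smoothness in the parameters, for all families of data of the class `Sol` -/
def V0 (C : RCh V X) (Sol : Dat C → (X → ℝ) → Prop) : Prop :=
  ∀ (E : Type) [NormedAddCommGroup E] [NormedSpace ℝ E] [FiniteDimensional ℝ E] (T : Set E)
    (x1 : X) (D : E → Dat C) (u : E → X → ℝ), IsOpen T → JSDat T D →
    (∀ p ∈ T, Sol (D p) (u p)) → (∀ p ∈ T, u p x1 = 0) → ∀ x, ContDiffOn ℝ ∞ (fun p => u p x) T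

variable {Sol : Dat C → (X → ℝ) → Prop}
  (nat : ∀ (D : Dat C) (u : X → ℝ) (g : LD C C), Sol D u → Sol (D.pull g) (u ∘ g.f))
  (hV : V0 C Sol) {E : Type} [NormedAddCommGroup E] [NormedSpace ℝ E] [FiniteDimensional ℝ E]
  {T : Set E} (hT : IsOpen T) {x1 : X} {D : E → Dat C} {u : E → X → ℝ}
  (hD : JSDat T D) (hu : ∀ p ∈ T, Sol (D p) (u p)) (h1 : ∀ p ∈ T, u p x1 = 0)
include nat hV hT hD hu h1

theorem trick_at {p : E} (hp : p ∈ T) {i : C.ι} {z : V} (hz : z ∈ (C.e i).target)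
    (hne : (C.e i).symm z ≠ x1) :
    ContDiffAt ℝ ∞ (fun q : E × V => u q.1 ((C.e i).symm q.2)) (p, z) := by
  have hx : (C.e i).symm z ∈ (C.e i).source := (C.e i).map_target hz
  have hez : C.e i ((C.e i).symm z) = z := (C.e i).right_inv hz
  obtain ⟨ε, hε, -, Φ, hΦ, hfix, hmv, -⟩ := exists_trans C hne hx
  rw [hez] at hmv
  have h2 := hV (E × V) (T ×ˢ ball (0 : V) ε) x1 (fun q => (D q.1).pull (Φ q.2))
    (fun q => u q.1 ∘ (Φ q.2).f) (hT.prod isOpen_ball) (hD.pull hT hΦ)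
    (fun q hq => nat _ _ _ (hu q.1 hq.1))
    (fun q hq => by
      show u q.1 ((Φ q.2).f x1) = 0
      rw [hfix q.2 hq.2, h1 q.1 hq.1]) ((C.e i).symm z)
  have h3 : ContDiffAt ℝ ∞ (fun q : E × V => (u q.1 ∘ (Φ q.2).f) ((C.e i).symm z)) (p, z - z) :=
    h2.contDiffAt ((hT.prod isOpen_ball).mem_nhds ⟨hp, by simpa using hε⟩)
  have h4 : ContDiffAt ℝ ∞ (fun q : E × V =>
      (u q.1 ∘ (Φ (q.2 - z)).f) ((C.e i).symm z)) (p, z) :=
    ContDiffAt.comp (g := fun q : E × V => (u q.1 ∘ (Φ q.2).f) ((C.e i).symm z))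
      (f := fun q : E × V => (q.1, q.2 - z)) (p, z) h3
      (contDiffAt_fst.prodMk (contDiffAt_snd.sub contDiffAt_const))
  refine h4.congr_of_eventuallyEq ?_
  have h5 : ∀ᶠ q : E × V in 𝓝 (p, z), q.2 - z ∈ ball (0 : V) ε := by
    have : Continuous (fun q : E × V => q.2 - z) := by fun_prop
    refine this.continuousAt.eventually (isOpen_ball.mem_nhds ?_)
    simpa using hε
  filter_upwards [h5] with q hq
  show _ = u q.1 ((Φ (q.2 - z)).f ((C.e i).symm z))
  rw [hmv _ hq]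
  congr 2
  abel

/-- **THE TRANSLATION TRICK** -/
theorem trick (cst : ∀ (D : Dat C) (u : X → ℝ) (c : ℝ), Sol D u → Sol D fun x => u x - c) :
    JS0 C T u := by
  intro i
  rintro ⟨p, z⟩ ⟨hp, hz⟩
  refine ContDiffAt.contDiffWithinAt ?_
  by_cases hne : (C.e i).symm z = x1
  · by_cases hx2 : ∃ x2, x2 ≠ x1
    · obtain ⟨x2, hx2⟩ := hx2
      have h2 : ContDiffAt ℝ ∞ (fun q : E × V => u q.1 ((C.e i).symm q.2) - u q.1 x2) (p, z) :=
        trick_at (u := fun p x => u p x - u p x2) nat hV hT hD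
          (fun p hp => cst _ _ _ (hu p hp)) (fun p _ => sub_self _) hp hz
          (by rw [hne]; exact hx2.symm)
      have h3 : ContDiffAt ℝ ∞ (fun p => u p x2) p :=
        (hV E T x1 D u hT hD hu h1 x2).contDiffAt (hT.mem_nhds hp)
      have h4 : ContDiffAt ℝ ∞ (fun q : E × V => u q.1 x2) (p, z) :=
        ContDiffAt.comp (g := fun p => u p x2) (f := fun q : E × V => q.1) (p, z) h3
          contDiffAt_fst
      refine (h2.add h4).congr_of_eventuallyEq (Eventually.of_forall fun q => ?_)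
      simp
    · push Not at hx2
      have h2 : (fun q : E × V => u q.1 ((C.e i).symm q.2)) =ᶠ[𝓝 (p, z)] fun _ => (0 : ℝ) := by
        have : ∀ᶠ q : E × V in 𝓝 (p, z), q.1 ∈ T :=
          continuous_fst.continuousAt.eventually (hT.mem_nhds hp)
        filter_upwards [this] with q hq
        rw [hx2 ((C.e i).symm q.2), h1 q.1 hq]
      exact contDiffAt_const.congr_of_eventuallyEq h2
  · exact trick_at nat hV hT hD hu h1 hp hz hne

end trick

/-! ### the Monge-Ampere equation -/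

section MA

variable [FiniteDimensional ℝ V] [MeasurableSpace V] [BorelSpace V]

/-- determinant of a bilinear form -/
def detB {κ : Type} [Fintype κ] [DecidableEq κ] (b : Module.Basis κ ℝ V) (B : V → V → ℝ) : ℝ :=
  (Matrix.of fun k l => B (b k) (b l)).det

theorem detB_pull {κ : Type} [Fintype κ] [DecidableEq κ] (b : Module.Basis κ ℝ V)
    (B : Bil V) (L : V →L[ℝ] V) :
    detB b (fun x y => B (L x) (L y)) = detB b (fun x y => B x y) * L.det ^ 2 := by
  let B' : LinearMap.BilinForm ℝ V :=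
    LinearMap.mk₂ ℝ (fun x y => B x y) (by simp) (by simp) (by simp) (by simp)
  have h1 : LinearMap.BilinForm.toMatrix b B' = Matrix.of fun k l => B (b k) (b l) := by
    ext k l
    simp [LinearMap.BilinForm.toMatrix_apply, B']
  have h2 : LinearMap.BilinForm.toMatrix b (B'.comp (L : V →ₗ[ℝ] V) (L : V →ₗ[ℝ] V)) =
      Matrix.of fun k l => B (L (b k)) (L (b l)) := by
    ext k l
    simp [LinearMap.BilinForm.toMatrix_apply, B']
  have h3 := LinearMap.BilinForm.toMatrix_comp b b B' (L : V →ₗ[ℝ] V) (L : V →ₗ[ℝ] V)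
  rw [h1, h2] at h3
  unfold detB
  rw [h3, Matrix.det_mul, Matrix.det_mul, Matrix.det_transpose, LinearMap.det_toMatrix]
  show LinearMap.det (L : V →ₗ[ℝ] V) * _ * LinearMap.det (L : V →ₗ[ℝ] V) =
    _ * (LinearMap.det (L : V →ₗ[ℝ] V)) ^ 2
  ring

/-- solutions of the Monge-Ampere equation of the data `D` (the function `D.f` is not used) -/
structure SolMA {κ : Type} [Fintype κ] [DecidableEq κ] (b : Module.Basis κ ℝ V)
    (D : Dat C) (u : X → ℝ) : Prop where
  cx : Cx D.J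
  t11 : T11 D.J D.om
  pos0 : Pos D.J D.om
  sm : Sm C u
  pos : Pos D.J (D.om + ddc D.J u sm)
  eq : ∃ k : ℝ, ∀ i, ∀ z ∈ (C.e i).target,
    detB b (fun x y => (D.om + ddc D.J u sm).w i z x (D.J.J i z y)) = k * D.r.r i z

theorem ddc_congr (J : AJ C) {u v : X → ℝ} (hu : Sm C u) (hv : Sm C v) {c : ℝ}
    (h : ∀ x, u x = v x + c) {i : C.ι} {z : V} (hz : z ∈ (C.e i).target) (a b : V) :
    (ddc J u hu).w i z a b = (ddc J v hv).w i z a b := by
  have h1 : fderiv ℝ (uc C u i) = fderiv ℝ (uc C v i) := by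
    have : uc C u i = fun y => uc C v i y + c := funext fun y => h _
    funext y
    rw [this, fderiv_add_const]
  rw [ddc_w J u hu hz, ddc_w J v hv hz]
  unfold ddcF
  rw [h1]

variable {κ : Type} [Fintype κ] [DecidableEq κ] {b : Module.Basis κ ℝ V}

theorem SolMA.cst (D : Dat C) (u : X → ℝ) (c : ℝ) (h : SolMA b D u) :
    SolMA b D fun x => u x - c := by
  have hs : Sm C fun x => u x - c := fun i => (h.sm i).sub contDiffOn_const
  have he : ∀ i, ∀ z ∈ (C.e i).target, ∀ x y, (D.om + ddc D.J (fun x => u x - c) hs).w i z x y =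
      (D.om + ddc D.J u h.sm).w i z x y := by
    intro i z hz x y
    simp only [F2.add_w, add_apply]
    rw [ddc_congr D.J hs h.sm (c := -c) (fun x => by ring) hz]
  refine ⟨h.cx, h.t11, h.pos0, hs, fun i z hz v hv => ?_, ?_⟩
  · rw [he i z hz]
    exact h.pos i z hz v hv
  · obtain ⟨k, hk⟩ := h.eq
    refine ⟨k, fun i z hz => ?_⟩
    rw [← hk i z hz]
    unfold detB
    congr 1
    ext x y
    exact he i z hz _ _

variable [CompleteSpace V]

theorem SolMA.pull (D : Dat C) (u : X → ℝ) (g : LD C C) (h : SolMA b D u) :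
    SolMA b (D.pull g) (u ∘ g.f) := by
  have he : ∀ j, ∀ z ∈ (C.e j).target, ∀ x y,
      ((D.pull g).om + ddc (D.pull g).J (u ∘ g.f) (Sm.comp h.sm g.toSMap)).w j z x y =
      (g.pull (D.om + ddc D.J u h.sm)).w j z x y := by
    intro j z hz x y
    obtain ⟨i, hi⟩ := g.exists_dom hz
    show ((g.pull D.om) + ddc (g.pJ D.J) (u ∘ g.f) (Sm.comp h.sm g.toSMap)).w j z x y = _
    rw [g.pull_w _ hi]
    simp only [F2.add_w, add_apply]
    rw [ddc_pull g D.J h.sm hz, g.pull_w _ hi, g.pull_w _ hi]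
  refine ⟨g.pJ_cx h.cx, g.pJ_t11 h.t11, g.pJ_pos h.pos0, Sm.comp h.sm g.toSMap,
    fun j z hz v hv => ?_, ?_⟩
  · rw [he j z hz]
    exact g.pJ_pos h.pos j z hz v hv
  · obtain ⟨k, hk⟩ := h.eq
    refine ⟨k, fun j z hz => ?_⟩
    obtain ⟨i, hi⟩ := g.exists_dom hz
    have h1 : ∀ x y, ((D.pull g).om + ddc (D.pull g).J (u ∘ g.f)
        (Sm.comp h.sm g.toSMap)).w j z x ((D.pull g).J.J j z y) =
        (((D.om + ddc D.J u h.sm).w i (Dif_268.loc C C g.f i j z)).bilinearComp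
          (ContinuousLinearMap.id ℝ V) (D.J.J i (Dif_268.loc C C g.f i j z)))
          (fderiv ℝ (Dif_268.loc C C g.f i j) z x) (fderiv ℝ (Dif_268.loc C C g.f i j) z y) := by
      intro x y
      rw [he j z hz, g.pull_w _ hi]
      show (D.om + ddc D.J u h.sm).w i (Dif_268.loc C C g.f i j z)
        (fderiv ℝ (Dif_268.loc C C g.f i j) z x)
        (fderiv ℝ (Dif_268.loc C C g.f i j) z ((g.pJ D.J).J j z y)) = _
      rw [g.pJ_spec D.J hi]
      rfl
    have h2 : detB b (fun x y => ((D.pull g).om + ddc (D.pull g).J (u ∘ g.f)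
        (Sm.comp h.sm g.toSMap)).w j z x ((D.pull g).J.J j z y)) =
        detB b (fun x y => (((D.om + ddc D.J u h.sm).w i
          (Dif_268.loc C C g.f i j z)).bilinearComp
          (ContinuousLinearMap.id ℝ V) (D.J.J i (Dif_268.loc C C g.f i j z)))
          (fderiv ℝ (Dif_268.loc C C g.f i j) z x)
          (fderiv ℝ (Dif_268.loc C C g.f i j) z y)) := by
      unfold detB
      congr 1
      ext x y
      exact h1 _ _
    have h3 := hk i _ (g.loc_mem hi)
    have h4 : (D.pull g).r.r j z = D.r.r i (Dif_268.loc C C g.f i j z) *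
        (fderiv ℝ (Dif_268.loc C C g.f i j) z).det ^ 2 := g.r'_eq D.r hi
    rw [h2, detB_pull, h4]
    have h5 : detB b (fun x y => (((D.om + ddc D.J u h.sm).w i
          (Dif_268.loc C C g.f i j z)).bilinearComp
          (ContinuousLinearMap.id ℝ V) (D.J.J i (Dif_268.loc C C g.f i j z))) x y) =
        k * D.r.r i (Dif_268.loc C C g.f i j z) := h3
    rw [h5]
    ring

/-- **the trick for the Monge-Ampere equation** -/
theorem joint_MA [T2Space X] (hV : V0 C (SolMA (C := C) b)) {E : Type} [NormedAddCommGroup E]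
    [NormedSpace ℝ E] [FiniteDimensional ℝ E] {T : Set E} (hT : IsOpen T) {x1 : X}
    {D : E → Dat C} {u : E → X → ℝ} (hD : JSDat T D) (hu : ∀ p ∈ T, SolMA b (D p) (u p))
    (h1 : ∀ p ∈ T, u p x1 = 0) : JS0 C T u :=
  trick SolMA.pull hV hT hD hu h1 SolMA.cst

end MA

end

end Crest.Agent.R281.Tt_476
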