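import Crest.Agent.R281.Tt4_476

/-!
# Row 281, YAU-VAR (helper476), part 5: squared densities of 2-forms, global determinants

* `det_sq_neg`   : `T² = -1` ⇒ `det T = 1`
* `Dens.ofF2 b s` : the squared density `det (s (b_k, b_l))` of a closed 2-form; `JSD.ofF2`
* `Dat.of b J om s`, `JSDat.of`
* `glob`         : (L2) of 900 #8246: `det (om + dd^c u)/r` is a smooth function on `X`
* `SolMA.r_ne`, `SolMA.exists_k`
-/

set_option autoImplicit false
set_option maxSynthPendingDepth 3
set_option linter.unusedSectionVars false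

open Set Filter Topology Metric
open scoped ContDiff

namespace Crest.Agent.R281.Tt_476

open Crest.Agent.R260.ACM_580 Crest.Agent.R281.HkR_835 Crest.Agent.R281.NefO_476
open Crest.Agent.R281.Nef_252
open Crest.Agent.R281.Dif_268
open Crest.Agent.R281.Ti_846 hiding pb pb_apply symm2

noncomputable section

section linalg

variable {V : Type} [NormedAddCommGroup V] [NormedSpace ℝ V] [FiniteDimensional ℝ V]

theorem clm_det_smul_id (c : ℝ) :
    (c • ContinuousLinearMap.id ℝ V).det = c ^ (Module.finrank ℝ V) := by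
  show LinearMap.det (c • (LinearMap.id : V →ₗ[ℝ] V)) = _
  rw [LinearMap.det_smul, LinearMap.det_id, mul_one]

/-- a complex structure has determinant one -/
theorem det_sq_neg {T : V →L[ℝ] V} (hT : ∀ v, T (T v) = -v) : T.det = 1 := by
  let f : ℝ → ℝ := fun t => (Real.cos t • ContinuousLinearMap.id ℝ V + Real.sin t • T).det
  have hc : Continuous f :=
    (contDiff_det (V := V)).continuous.comp
      ((Real.continuous_cos.smul continuous_const).add (Real.continuous_sin.smul continuous_const))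
  have hne : ∀ t, f t ≠ 0 := by
    intro t h0
    have h1 : (Real.cos t • ContinuousLinearMap.id ℝ V + Real.sin t • T) ∘L
        (Real.cos t • ContinuousLinearMap.id ℝ V - Real.sin t • T) =
        (1 : ℝ) • ContinuousLinearMap.id ℝ V := by
      ext v
      simp only [ContinuousLinearMap.comp_apply, add_apply, sub_apply, smul_apply,
        ContinuousLinearMap.id_apply, map_sub, map_smul, hT, smul_neg, one_smul,
        smul_add]
      have h2 : Real.cos t • Real.cos t • v + Real.sin t • Real.sin t • v = v := by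
        rw [smul_smul, smul_smul, ← add_smul, ← sq, ← sq, Real.cos_sq_add_sin_sq, one_smul]
      have h3 : Real.sin t • Real.cos t • T v = Real.cos t • Real.sin t • T v := smul_comm _ _ _
      rw [h3]
      refine Eq.trans ?_ h2
      abel
    have h3 := congrArg ContinuousLinearMap.det h1
    rw [det_comp', clm_det_smul_id, one_pow] at h3
    have h4 : (Real.cos t • ContinuousLinearMap.id ℝ V + Real.sin t • T).det = 0 := h0
    rw [h4, zero_mul] at h3
    exact zero_ne_one h3
  have h0 : f 0 = 1 := by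
    show (Real.cos 0 • ContinuousLinearMap.id ℝ V + Real.sin 0 • T).det = 1
    rw [Real.cos_zero, Real.sin_zero, zero_smul, add_zero, clm_det_smul_id, one_pow]
  have h1 : f (Real.pi / 2) = T.det := by
    show (Real.cos (Real.pi / 2) • ContinuousLinearMap.id ℝ V + Real.sin (Real.pi / 2) • T).det = _
    rw [Real.cos_pi_div_two, Real.sin_pi_div_two, zero_smul, zero_add, one_smul]
  have hpos : 0 < T.det := by
    by_contra hneg
    push Not at hneg
    have h2 : (0 : ℝ) ∈ Icc (f (Real.pi / 2)) (f 0) := ⟨by rw [h1]; exact hneg, by rw [h0]; norm_num⟩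
    obtain ⟨t, -, ht⟩ := intermediate_value_Icc' (by positivity : (0 : ℝ) ≤ Real.pi / 2)
      hc.continuousOn h2
    exact hne t ht
  have hsq : T.det * T.det = (-1) ^ (Module.finrank ℝ V) := by
    rw [← det_comp', ← clm_det_smul_id]
    congr 1
    ext v
    simp [hT]
  rcases neg_one_pow_eq_or ℝ (Module.finrank ℝ V) with h2 | h2
  · rw [h2] at hsq
    nlinarith
  · rw [h2] at hsq
    nlinarith

variable {κ : Type} [Fintype κ] [DecidableEq κ] (b : Module.Basis κ ℝ V)

theorem detB_congr {B B' : V → V → ℝ} (h : ∀ x y, B x y = B' x y) : detB b B = detB b B' := by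
  have : B = B' := by funext x y; exact h x y
  rw [this]

theorem detB_comp (B : Bil V) (L : V →L[ℝ] V) :
    detB b (fun x y => B x (L y)) = detB b (fun x y => B x y) * L.det := by
  let B' : LinearMap.BilinForm ℝ V :=
    LinearMap.mk₂ ℝ (fun x y => B x y) (by simp) (by simp) (by simp) (by simp)
  have h1 : LinearMap.BilinForm.toMatrix b B' = Matrix.of fun k l => B (b k) (b l) := by
    ext k l
    simp [LinearMap.BilinForm.toMatrix_apply, B']
  have h2 : LinearMap.BilinForm.toMatrix b (B'.comp LinearMap.id (L : V →ₗ[ℝ] V)) =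
      Matrix.of fun k l => B (b k) (L (b l)) := by
    ext k l
    simp [LinearMap.BilinForm.toMatrix_apply, B']
  have h3 := LinearMap.BilinForm.toMatrix_comp b b B' LinearMap.id (L : V →ₗ[ℝ] V)
  rw [h1, h2, LinearMap.toMatrix_id, Matrix.transpose_one, Matrix.one_mul] at h3
  unfold detB
  rw [h3, Matrix.det_mul, LinearMap.det_toMatrix]

theorem detB_ne_zero {B : Bil V} (h : ∀ u, (∀ v, B u v = 0) → u = 0) :
    detB b (fun x y => B x y) ≠ 0 := by
  intro h0
  obtain ⟨c, hc, h1⟩ := Matrix.exists_vecMul_eq_zero_iff.2 h0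
  refine hc ?_
  have h2 : ∑ k, c k • b k = 0 := by
    refine h _ fun v => ?_
    have h3 : ∀ l, B (∑ k, c k • b k) (b l) = 0 := by
      intro l
      have := congrFun h1 l
      simp only [Matrix.vecMul, dotProduct, Matrix.of_apply, Pi.zero_apply] at this
      rw [map_sum, sum_apply, ← this]
      refine Finset.sum_congr rfl fun k _ => ?_
      rw [map_smul, smul_apply, smul_eq_mul]
    rw [← b.sum_repr v, map_sum]
    refine Finset.sum_eq_zero fun l _ => ?_
    rw [map_smul, h3, smul_zero]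
  have h3 := Fintype.linearIndependent_iff.1 b.linearIndependent c h2
  funext k
  exact h3 k

theorem contDiffAt_detB {W : Type} [NormedAddCommGroup W] [NormedSpace ℝ W] {B : W → Bil V} {q : W}
    (hB : ContDiffAt ℝ ∞ B q) : ContDiffAt ℝ ∞ (fun y => detB b fun u v => B y u v) q := by
  have h : (fun y => detB b fun u v => B y u v) = fun y => ∑ σ : Equiv.Perm κ,
      ((Equiv.Perm.sign σ : ℤ) : ℝ) * ∏ k, B y (b (σ k)) (b k) := by
    funext y
    unfold detB
    rw [Matrix.det_apply']
    rfl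
  rw [h]
  refine ContDiffAt.sum fun σ _ => contDiffAt_const.mul (contDiffAt_prod fun k _ => ?_)
  exact (hB.clm_apply contDiffAt_const).clm_apply contDiffAt_const

end linalg

variable {V X : Type} [NormedAddCommGroup V] [NormedSpace ℝ V] [TopologicalSpace X]
  {C : RCh V X} {κ : Type} [Fintype κ] [DecidableEq κ] [FiniteDimensional ℝ V]
  (b : Module.Basis κ ℝ V)

/-- the squared density of a closed 2-form -/
def Dens.ofF2 (s : F2 C) : Dens C where
  r i z := detB b fun x y => s.w i z x y
  sm i z hz := (contDiffAt_detB b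
    ((s.sm i).contDiffAt ((C.e i).open_target.mem_nhds hz))).contDiffWithinAt
  tr i j z hz := by
    rw [← mdet_self b, ← detB_pullB b b]
    exact detB_congr b fun x y => s.tr i j z hz x y

theorem Dens.ofF2_ne {s : F2 C} (h : ∀ i, ∀ z ∈ (C.e i).target, ∀ u, (∀ v, s.w i z u v = 0) → u = 0)
    (i : C.ι) (z : V) (hz : z ∈ (C.e i).target) : (Dens.ofF2 b s).r i z ≠ 0 :=
  detB_ne_zero b (h i z hz)

/-- the data `(J, om, det s, 0)` -/
def Dat.of (J : AJ C) (om s : F2 C) : Dat C where
  J := J
  om := om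
  r := Dens.ofF2 b s
  f := fun _ => 0
  fs := fun _ => contDiffOn_const

section fam

variable {E : Type} [NormedAddCommGroup E] [NormedSpace ℝ E] {T : Set E}

theorem JSD.ofF2 (hT : IsOpen T) {s : E → F2 C} (hs : JS2 T s) :
    JSD T fun p => Dens.ofF2 b (s p) := fun i _ hq =>
  (contDiffAt_detB b ((hs i).contDiffAt
    ((hT.prod (C.e i).open_target).mem_nhds hq))).contDiffWithinAt

theorem JSDat.of (hT : IsOpen T) {J : E → AJ C} {om s : E → F2 C} (hJ : JSJ T J) (hom : JS2 T om)
    (hs : JS2 T s) : JSDat T fun p => Dat.of b (J p) (om p) (s p) :=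
  ⟨hJ, hom, JSD.ofF2 b hT hs, fun _ => contDiffOn_const⟩

end fam

/-! ### (L2) the quotient of determinants is a global function -/

section glob

variable [MeasurableSpace V] [BorelSpace V]

/-- the determinant of `(om + dd^c u)(·, J ·)` -/
def dJu (D : Dat C) {u : X → ℝ} (hu : Sm C u) (i : C.ι) (z : V) : ℝ :=
  detB b fun x y => (D.om + ddc D.J u hu).w i z x (D.J.J i z y)

theorem dJu_eq (D : Dat C) {u : X → ℝ} (hu : Sm C u) (i : C.ι) (z : V) :
    dJu b D hu i z = detB b fun x y => (((D.om + ddc D.J u hu).w i z).bilinearComp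
      (ContinuousLinearMap.id ℝ V) (D.J.J i z)) x y := rfl

theorem dJu_tr (D : Dat C) {u : X → ℝ} (hu : Sm C u) {i j : C.ι} {z : V} (hz : z ∈ C.ov i j) :
    dJu b D hu i z = dJu b D hu j (C.t i j z) * (fderiv ℝ (C.t i j) z).det ^ 2 := by
  rw [dJu_eq b D hu j, ← mdet_self b, ← detB_pullB b b]
  refine detB_congr b fun x y => ?_
  rw [(D.om + ddc D.J u hu).tr i j z hz, D.J.tr i j z hz]
  rfl

theorem dJu_sm (D : Dat C) {u : X → ℝ} (hu : Sm C u) (i : C.ι) :
    ContDiffOn ℝ ∞ (dJu b D hu i) (C.e i).target := by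
  intro z hz
  have ho := (C.e i).open_target.mem_nhds hz
  have h1 : ContDiffAt ℝ ∞ ((D.om + ddc D.J u hu).w i) z :=
    ((D.om + ddc D.J u hu).sm i).contDiffAt ho
  have h2 : ContDiffAt ℝ ∞ (D.J.J i) z := (D.J.sm i).contDiffAt ho
  have h : dJu b D hu i = fun y => ∑ σ : Equiv.Perm κ,
      ((Equiv.Perm.sign σ : ℤ) : ℝ) * ∏ k, (D.om + ddc D.J u hu).w i y (b (σ k))
        (D.J.J i y (b k)) := by
    funext y
    unfold dJu detB
    rw [Matrix.det_apply']
    rfl
  rw [h]
  refine ContDiffAt.contDiffWithinAt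
    (ContDiffAt.sum fun σ _ => contDiffAt_const.mul (contDiffAt_prod fun k _ => ?_))
  exact (h1.clm_apply contDiffAt_const).clm_apply (h2.clm_apply contDiffAt_const)

/-- **(L2) GLOB** -/
theorem glob (D : Dat C) {u : X → ℝ} (hu : Sm C u)
    (hr : ∀ i, ∀ z ∈ (C.e i).target, D.r.r i z ≠ 0) :
    ∃ g : X → ℝ, Sm C g ∧ ∀ i, ∀ z ∈ (C.e i).target, uc C g i z =
      detB b (fun x y => (D.om + ddc D.J u hu).w i z x (D.J.J i z y)) / D.r.r i z := by
  choose ch hch using C.cover
  let g : X → ℝ := fun x => dJu b D hu (ch x) (C.e (ch x) x) / D.r.r (ch x) (C.e (ch x) x)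
  have h1 : ∀ i, ∀ z ∈ (C.e i).target, uc C g i z = dJu b D hu i z / D.r.r i z := by
    intro i z hz
    set x := (C.e i).symm z with hx
    have hov : z ∈ C.ov i (ch x) := ⟨hz, hch x⟩
    show dJu b D hu (ch x) (C.e (ch x) x) / D.r.r (ch x) (C.e (ch x) x) = _
    have e1 : C.e (ch x) x = C.t i (ch x) z := rfl
    rw [e1]
    have h2 := dJu_tr b D hu hov
    have h3 := D.r.tr i (ch x) z hov
    have h4 : (fderiv ℝ (C.t i (ch x)) z).det ^ 2 ≠ 0 := by
      intro h0
      rw [h0, mul_zero] at h3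
      exact hr i z hz h3
    rw [h2, h3, mul_div_mul_right _ _ h4]
  refine ⟨g, fun i => ?_, h1⟩
  refine ContDiffOn.congr (f := fun z => dJu b D hu i z / D.r.r i z) ?_ fun z hz => h1 i z hz
  exact (dJu_sm b D hu i).div (D.r.sm i) (hr i)

variable {b}

/-- the determinant of a positive form does not vanish -/
theorem dJu_ne (D : Dat C) {u : X → ℝ} (hu : Sm C u) (hp : Pos D.J (D.om + ddc D.J u hu))
    {i : C.ι} {z : V} (hz : z ∈ (C.e i).target) : dJu b D hu i z ≠ 0 := by
  rw [dJu_eq]
  refine detB_ne_zero b fun v hv => ?_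
  by_contra h0
  exact (hp i z hz v h0).ne' (hv v)

theorem SolMA.exists_k {D : Dat C} {u : X → ℝ} (h : SolMA b D u) :
    ∃ k : ℝ, k ≠ 0 ∧ ∀ i, ∀ z ∈ (C.e i).target,
      detB b (fun x y => (D.om + ddc D.J u h.sm).w i z x (D.J.J i z y)) = k * D.r.r i z := by
  obtain ⟨k, hk⟩ := h.eq
  by_cases hX : Nonempty X
  · refine ⟨k, fun h0 => ?_, hk⟩
    obtain ⟨x⟩ := hX
    obtain ⟨i, hi⟩ := C.cover x
    have h1 := hk i (C.e i x) ((C.e i).map_source hi)
    rw [h0, zero_mul] at h1
    exact dJu_ne D h.sm h.pos ((C.e i).map_source hi) h1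
  · exact ⟨1, one_ne_zero, fun i z _ => absurd ⟨(C.e i).symm z⟩ hX⟩

theorem SolMA.r_ne {D : Dat C} {u : X → ℝ} (h : SolMA b D u) (i : C.ι) (z : V)
    (hz : z ∈ (C.e i).target) : D.r.r i z ≠ 0 := by
  intro h0
  obtain ⟨k, hk⟩ := h.eq
  have h1 := hk i z hz
  rw [h0, mul_zero] at h1
  exact dJu_ne D h.sm h.pos hz h1

theorem SolMA.k_ne [Nonempty X] {D : Dat C} {u : X → ℝ} (h : SolMA b D u) {k : ℝ}
    (hk : ∀ i, ∀ z ∈ (C.e i).target,
      detB b (fun x y => (D.om + ddc D.J u h.sm).w i z x (D.J.J i z y)) = k * D.r.r i z) :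
    k ≠ 0 := by
  intro h0
  obtain ⟨i, hi⟩ := C.cover (Classical.arbitrary X)
  have h1 := hk i (C.e i (Classical.arbitrary X)) ((C.e i).map_source hi)
  rw [h0, zero_mul] at h1
  exact dJu_ne D h.sm h.pos ((C.e i).map_source hi) h1

end glob

end

end Crest.Agent.R281.Tt_476
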