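import Crest.Agent.R281.Tt5_476

/-!
# Row 281, YAU-VAR (helper476), part 7: calculus of jointly smooth families

* `cd_p1`      : partial derivatives of jointly smooth maps are jointly smooth
* `JS2.add`, `JS2.smul`, `JS2.ofDdc` : `p ↦ dd^c_(J p) (u p)` is jointly smooth
* `cd_inv`     : inverse operators
* `detB_left`, `detB_smul`
-/

set_option autoImplicit false
set_option maxSynthPendingDepth 3
set_option linter.unusedSectionVars false

open Set Filter Topology Metric
open scoped ContDiff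

namespace Crest.Agent.R281.Tt_476

open Crest.Agent.R260.ACM_580 Crest.Agent.R281.HkR_835 Crest.Agent.R281.NefO_476
open Crest.Agent.R281.Nef_252
open Crest.Agent.R281.Dif_268
open Crest.Agent.R281.Ti_846 hiding pb pb_apply symm2

noncomputable section

variable {V X : Type} [NormedAddCommGroup V] [NormedSpace ℝ V] [TopologicalSpace X]
  {C : RCh V X} {E : Type} [NormedAddCommGroup E] [NormedSpace ℝ E] {T : Set E}

/-- partial derivatives of jointly smooth maps -/
theorem cd_p1 {G : Type*} [NormedAddCommGroup G] [NormedSpace ℝ G] {F : E × V → G}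
    {S : Set (E × V)} (hS : IsOpen S) (hF : ContDiffOn ℝ ∞ F S) :
    ContDiffOn ℝ ∞ (fun q : E × V => fderiv ℝ (fun y => F (q.1, y)) q.2) S := by
  intro q hq
  have h1 : ContDiffAt ℝ ∞ F q := hF.contDiffAt (hS.mem_nhds hq)
  refine (ContDiffAt.fderiv (f := fun (q : E × V) (y : V) => F (q.1, y))
    (g := fun q => q.2) (n := ∞) (m := ∞) ?_ contDiffAt_snd (by simp)).contDiffWithinAt
  have h2 : ContDiffAt ℝ ∞ (fun q : (E × V) × V => (q.1.1, q.2)) (q, q.2) :=
    (contDiffAt_fst.fst).prodMk contDiffAt_snd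
  exact ContDiffAt.comp (g := F) (f := fun q : (E × V) × V => (q.1.1, q.2)) (q, q.2) h1 h2

theorem JS0.d {u : E → X → ℝ} (hT : IsOpen T) (hu : JS0 C T u) (i : C.ι) :
    ContDiffOn ℝ ∞ (fun q : E × V => fderiv ℝ (uc C (u q.1) i) q.2) (T ×ˢ (C.e i).target) :=
  cd_p1 (F := fun q : E × V => uc C (u q.1) i q.2) (hT.prod (C.e i).open_target) (hu i)

theorem JS0.dd {u : E → X → ℝ} (hT : IsOpen T) (hu : JS0 C T u) (i : C.ι) :
    ContDiffOn ℝ ∞ (fun q : E × V => fderiv ℝ (fderiv ℝ (uc C (u q.1) i)) q.2)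
      (T ×ˢ (C.e i).target) :=
  cd_p1 (F := fun q : E × V => fderiv ℝ (uc C (u q.1) i) q.2) (hT.prod (C.e i).open_target)
    (hu.d hT i)

theorem JSJ.d {J : E → AJ C} (hT : IsOpen T) (hJ : JSJ T J) (i : C.ι) :
    ContDiffOn ℝ ∞ (fun q : E × V => fderiv ℝ ((J q.1).J i) q.2) (T ×ˢ (C.e i).target) :=
  cd_p1 (F := fun q : E × V => (J q.1).J i q.2) (hT.prod (C.e i).open_target) (hJ i)

theorem JS2.add {w w' : E → F2 C} (h : JS2 T w) (h' : JS2 T w') : JS2 T fun p => w p + w' p :=
  fun i => (h i).add (h' i)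

theorem JS2.smul {w : E → F2 C} (h : JS2 T w) {r : E → ℝ} (hr : ContDiffOn ℝ ∞ r T) :
    JS2 T fun p => r p • w p :=
  fun i => (hr.comp contDiffOn_fst fun _ hq => hq.1).smul (h i)

theorem JS0.sm {u : E → X → ℝ} (hu : JS0 C T u) {p : E} (hp : p ∈ T) : Sm C (u p) := fun i =>
  (hu i).comp (f := fun z : V => (p, z)) (contDiffOn_const.prodMk contDiffOn_id)
    fun _ hz => ⟨hp, hz⟩

section fd

variable [FiniteDimensional ℝ V] [MeasurableSpace V] [BorelSpace V]

/-- `dd^c` of a jointly smooth family -/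
theorem JS2.ofDdc (hT : IsOpen T) {J : E → AJ C} (hJ : JSJ T J) {u : E → X → ℝ}
    (hs : ∀ p, Sm C (u p)) (hu : JS0 C T u) : JS2 T fun p => ddc (J p) (u p) (hs p) := by
  intro i
  refine contDiffOn_clm_apply.2 fun a => contDiffOn_clm_apply.2 fun b => ?_
  have h1 := hu.d hT i
  have h2 := hu.dd hT i
  have h3 := hJ i
  have h4 := hJ.d hT i
  have e : ∀ q ∈ T ×ˢ (C.e i).target, (NefO_476.ddc (J q.1) (u q.1) (hs q.1)).w i q.2 a b =
      -(fderiv ℝ (fderiv ℝ (Crest.Agent.R281.NefO_476.uc C (u q.1) i)) q.2 a ((J q.1).J i q.2 b) +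
        fderiv ℝ (Crest.Agent.R281.NefO_476.uc C (u q.1) i) q.2
          (fderiv ℝ ((J q.1).J i) q.2 a b)) +
      (fderiv ℝ (fderiv ℝ (Crest.Agent.R281.NefO_476.uc C (u q.1) i)) q.2 b ((J q.1).J i q.2 a) +
        fderiv ℝ (Crest.Agent.R281.NefO_476.uc C (u q.1) i) q.2
          (fderiv ℝ ((J q.1).J i) q.2 b a)) := fun q hq => ddc_w (J q.1) (u q.1) (hs q.1) hq.2 a b
  refine ContDiffOn.congr ?_ e
  exact (((h2.clm_apply contDiffOn_const).clm_apply (h3.clm_apply contDiffOn_const)).add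
    (h1.clm_apply ((h4.clm_apply contDiffOn_const).clm_apply contDiffOn_const))).neg.add
    (((h2.clm_apply contDiffOn_const).clm_apply (h3.clm_apply contDiffOn_const)).add
    (h1.clm_apply ((h4.clm_apply contDiffOn_const).clm_apply contDiffOn_const)))

end fd

/-! ### inverse operators -/

section inv

variable [FiniteDimensional ℝ V]

/-- a bilinear form which is nondegenerate on the left is invertible -/
theorem bil_inv {B : Bil V} (h : ∀ u, (∀ v, B u v = 0) → u = 0) : B.IsInvertible := by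
  have hinj : Function.Injective (B : V →ₗ[ℝ] (V →L[ℝ] ℝ)) := by
    refine (injective_iff_map_eq_zero _).2 fun u hu => h u fun v => ?_
    have : B u = 0 := hu
    rw [this]
    rfl
  have hfin : Module.finrank ℝ V = Module.finrank ℝ (V →L[ℝ] ℝ) := by
    rw [← (LinearMap.toContinuousLinearMap (𝕜 := ℝ) (E := V) (F' := ℝ)).finrank_eq]
    exact (Subspace.dual_finrank_eq (K := ℝ) (V := V)).symm
  refine ⟨(LinearEquiv.ofInjectiveOfFinrankEq (B : V →ₗ[ℝ] (V →L[ℝ] ℝ)) hinj
    hfin).toContinuousLinearEquiv, ?_⟩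
  ext v
  rfl

theorem contDiffOn_inverse {W F G : Type*} [NormedAddCommGroup W] [NormedSpace ℝ W]
    [NormedAddCommGroup F] [NormedSpace ℝ F] [NormedAddCommGroup G] [NormedSpace ℝ G]
    [CompleteSpace F] {f : W → F →L[ℝ] G} {S : Set W} (hf : ContDiffOn ℝ ∞ f S)
    (hi : ∀ q ∈ S, (f q).IsInvertible) : ContDiffOn ℝ ∞ (fun q => (f q).inverse) S := by
  intro q hq
  exact ContDiffAt.comp_contDiffWithinAt (g := ContinuousLinearMap.inverse) q
    ((hi q hq).contDiffAt_map_inverse) (hf q hq)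

variable {κ : Type} [Fintype κ] [DecidableEq κ] (b : Module.Basis κ ℝ V)

theorem detB_left (B : Bil V) (L : V →L[ℝ] V) :
    detB b (fun x y => B (L x) y) = detB b (fun x y => B x y) * L.det := by
  let B' : LinearMap.BilinForm ℝ V :=
    LinearMap.mk₂ ℝ (fun x y => B x y) (by simp) (by simp) (by simp) (by simp)
  have h1 : LinearMap.BilinForm.toMatrix b B' = Matrix.of fun k l => B (b k) (b l) := by
    ext k l
    simp [LinearMap.BilinForm.toMatrix_apply, B']
  have h2 : LinearMap.BilinForm.toMatrix b (B'.comp (L : V →ₗ[ℝ] V) LinearMap.id) =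
      Matrix.of fun k l => B (L (b k)) (b l) := by
    ext k l
    simp [LinearMap.BilinForm.toMatrix_apply, B']
  have h3 := LinearMap.BilinForm.toMatrix_comp b b B' (L : V →ₗ[ℝ] V) LinearMap.id
  rw [h1, h2, LinearMap.toMatrix_id, Matrix.mul_one] at h3
  unfold detB
  rw [h3, Matrix.det_mul, Matrix.det_transpose, LinearMap.det_toMatrix, mul_comm]

theorem detB_smul (B : Bil V) (r : ℝ) :
    detB b (fun x y => r * B x y) = r ^ (Fintype.card κ) * detB b (fun x y => B x y) := by
  unfold detB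
  rw [← Matrix.det_smul]
  rfl

/-- the joint determinants -/
theorem contDiffOn_detB' {W : Type*} [NormedAddCommGroup W] [NormedSpace ℝ W] {B : W → Bil V}
    {S : Set W} (hB : ContDiffOn ℝ ∞ B S) :
    ContDiffOn ℝ ∞ (fun y => detB b fun u v => B y u v) S := by
  have h : (fun y => detB b fun u v => B y u v) = fun y => ∑ σ : Equiv.Perm κ,
      ((Equiv.Perm.sign σ : ℤ) : ℝ) * ∏ k, B y (b (σ k)) (b k) := by
    funext y
    unfold detB
    rw [Matrix.det_apply']
    rfl
  rw [h]
  refine ContDiffOn.sum fun σ _ => contDiffOn_const.mul (contDiffOn_prod fun k _ => ?_)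
  exact (hB.clm_apply contDiffOn_const).clm_apply contDiffOn_const

/-- the three forms of a hyperkaehler triple have the same determinant -/
theorem HkT.detB_om (H : HkT C) (k : Fin 3) {i : C.ι} {z : V} (hz : z ∈ (C.e i).target) :
    detB b (fun x y => (H.om k).w i z x y) = detB b (fun x y => H.g i z x y) := by
  rw [detB_congr b (H.om_eq k i z hz), detB_left, det_sq_neg (H.J_sq k i z hz), mul_one]

end inv

end

end Crest.Agent.R281.Tt_476
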