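import Crest.Agent.R281.Tub9_57
import Crest.Agent.R281.T5D_808
import Crest.Agent.R281.HkR4_835

/-!
# R281 (S0424), TUBE-HOL (helper57), part 10: the tube of a complex manifold
-/

set_option autoImplicit false
set_option linter.unusedSectionVars false
set_option maxSynthPendingDepth 3

open Set Filter Topology Metric
open scoped ContDiff NNReal

namespace Crest.Agent.R281.Tub_57

open Crest.Agent.R275.Geo Crest.Agent.R281.HkR_835
open Crest.Agent.R281.Per_368 (SmI pull ci ci_mem pl_apply)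
open Crest.Agent.R281.T5D_808 (TubeD)

noncomputable section

section inv

variable {E F : Type*} [NormedAddCommGroup E] [NormedSpace ℝ E] [CompleteSpace E]
  [NormedAddCommGroup F] [NormedSpace ℝ F] [CompleteSpace F]

theorem inv_left {D : E →L[ℝ] F} (hD : Function.Bijective D) (u : E) : D.inverse (D u) = u := by
  set e : E ≃L[ℝ] F := ContinuousLinearEquiv.ofBijective D
    (LinearMap.ker_eq_bot.2 hD.1) (LinearMap.range_eq_top.2 hD.2) with he
  have h1 : D = (e : E →L[ℝ] F) := rfl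
  rw [h1, ContinuousLinearMap.inverse_equiv]
  exact e.symm_apply_apply u

theorem inv_right {D : E →L[ℝ] F} (hD : Function.Bijective D) (v : F) : D (D.inverse v) = v := by
  set e : E ≃L[ℝ] F := ContinuousLinearEquiv.ofBijective D
    (LinearMap.ker_eq_bot.2 hD.1) (LinearMap.range_eq_top.2 hD.2) with he
  have h1 : D = (e : E →L[ℝ] F) := rfl
  rw [h1, ContinuousLinearMap.inverse_equiv]
  exact e.apply_symm_apply v

theorem inv_cont {D : E →L[ℝ] F} (hD : Function.Bijective D) :
    ContinuousAt ContinuousLinearMap.inverse D := by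
  set e : E ≃L[ℝ] F := ContinuousLinearEquiv.ofBijective D
    (LinearMap.ker_eq_bot.2 hD.1) (LinearMap.range_eq_top.2 hD.2) with he
  have h1 : D = (e : E →L[ℝ] F) := rfl
  rw [h1]
  exact (contDiffAt_map_inverse (n := 0) e).continuousAt

end inv

variable {N : ℕ} {X : Type} [TopologicalSpace X]

/-- the complex structure pulled back to the tube -/
def IT (A : Atl N X) (Θ : VN N × VN N → X) (p : VN N × VN N) :
    (VN N × VN N) →L[ℝ] (VN N × VN N) :=
  (fderiv ℝ (fun q => A.e (ci (ofAtl A) (Θ p)) (Θ q)) p).inverse.comp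
    (Complex.I • (fderiv ℝ (fun q => A.e (ci (ofAtl A) (Θ p)) (Θ q)) p))

variable {A : Atl N X} {w w' : F2 (ofAtl A)} {R Λ δ : ℝ} {Θ : VN N × VN N → X}

/-- change of charts commutes with `i` -/
theorem dt_I {i j : A.ι} {x : X} (hi : x ∈ (A.e i).source) (hj : x ∈ (A.e j).source) (v : Cn N) :
    fderiv ℝ ((ofAtl A).t i j) (A.e i x) (Complex.I • v) =
      Complex.I • fderiv ℝ ((ofAtl A).t i j) (A.e i x) v := by
  have hO : IsOpen {z | z ∈ (A.e i).target ∧ (A.e i).symm z ∈ (A.e j).source} :=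
    (A.e i).isOpen_inter_preimage_symm (A.e j).open_source
  have hmem : A.e i x ∈ {z | z ∈ (A.e i).target ∧ (A.e i).symm z ∈ (A.e j).source} :=
    ⟨(A.e i).map_source hi, by rw [(A.e i).left_inv hi]; exact hj⟩
  have h1 : DifferentiableAt ℂ (fun z => A.e j ((A.e i).symm z)) (A.e i x) :=
    (A.holo i j).differentiableAt (hO.mem_nhds hmem)
  have h2 : fderiv ℝ ((ofAtl A).t i j) (A.e i x) =
      (fderiv ℂ (fun z => A.e j ((A.e i).symm z)) (A.e i x)).restrictScalars ℝ :=
    (h1.hasFDerivAt.restrictScalars ℝ).fderiv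
  rw [h2]
  exact (fderiv ℂ (fun z => A.e j ((A.e i).symm z)) (A.e i x)).map_smul _ _

section

variable (hT : TubeD (ofAtl A) w w' N R Λ δ Θ)
include hT

theorem IT_spec {p : VN N × VN N} (hp : p ∈ tub N R) {i : A.ι} (hi : Θ p ∈ (A.e i).source)
    (u : VN N × VN N) : fderiv ℝ (fun q => A.e i (Θ q)) p (IT A Θ p u) =
      Complex.I • fderiv ℝ (fun q => A.e i (Θ q)) p u := by
  have hj := ci_mem (ofAtl A) (Θ p)
  have h1 : fderiv ℝ (fun q => A.e (ci (ofAtl A) (Θ p)) (Θ q)) p (IT A Θ p u) =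
      Complex.I • fderiv ℝ (fun q => A.e (ci (ofAtl A) (Θ p)) (Θ q)) p u :=
    inv_right (hT.bij p hp _ hj) _
  have h2 := hT.sm.fderiv_change (ζ := p) hp hj hi
  have h3 : ∀ u, fderiv ℝ (fun q => A.e i (Θ q)) p u =
      fderiv ℝ ((ofAtl A).t (ci (ofAtl A) (Θ p)) i) (A.e (ci (ofAtl A) (Θ p)) (Θ p))
        (fderiv ℝ (fun q => A.e (ci (ofAtl A) (Θ p)) (Θ q)) p u) := fun u =>
    congrArg (fun T : (VN N × VN N) →L[ℝ] Cn N => T u) h2
  rw [h3, h1, h3]
  exact dt_I (A := A) hj hi _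

theorem IT_eq {p : VN N × VN N} (hp : p ∈ tub N R) {i : A.ι} (hi : Θ p ∈ (A.e i).source) :
    IT A Θ p = (fderiv ℝ (fun q => A.e i (Θ q)) p).inverse.comp
      (Complex.I • (fderiv ℝ (fun q => A.e i (Θ q)) p)) := by
  refine ContinuousLinearMap.ext fun u => ?_
  have h1 := IT_spec hT hp hi u
  have h2 : fderiv ℝ (fun q => A.e i (Θ q)) p
      ((fderiv ℝ (fun q => A.e i (Θ q)) p).inverse (Complex.I • (fderiv ℝ (fun q => A.e i (Θ q)) p u))) =
      Complex.I • fderiv ℝ (fun q => A.e i (Θ q)) p u := inv_right (hT.bij p hp _ hi) _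
  exact (hT.bij p hp _ hi).1 (h1.trans h2.symm)

theorem tube_per {p : VN N × VN N} (hp : p ∈ tub N R) (k : Fin N → ℤ) :
    Θ (p.1 + kv k, p.2) = Θ p := by
  have hp' : (p.1 + kv k, p.2) ∈ tub N R := hp
  exact ((hT.eq_iff p hp (p.1 + kv k, p.2) hp').2 ⟨-k, by
    ext1
    · show p.1 = p.1 + kv k + kv (-k)
      have : kv k + kv (-k) = (0 : VN N) := by
        rw [← kv_add, add_neg_cancel, kv_zero]
      rw [add_assoc, this, add_zero]
    · rfl⟩).symm

/-- **`Geo` from the tube of a complex manifold** -/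
theorem geo_of (hJ : ∀ i, ∀ z ∈ (A.e i).target, ∀ u v, w.w i z (Complex.I • u) v = - w'.w i z u v) :
    Geo R (pull w Θ) (pull w' Θ) (IT A Θ) where
  xs := hT.cx.sm
  ys := hT.cy.sm
  xa p hp v := by have := hT.cx.alt p hp v v; linarith
  ya p hp v := by have := hT.cy.alt p hp v v; linarith
  xc p hp u v z := hT.cx.cl p hp u v z
  yc p hp u v z := hT.cy.cl p hp u v z
  xp k p hp := hT.cx.per k p hp
  yp k p hp := hT.cy.per k p hp
  Ic := by
    intro p hp
    have hi := ci_mem (ofAtl A) (Θ p)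
    set i := ci (ofAtl A) (Θ p) with hi0
    have hO := hT.sm.isOpen_pre ((ofAtl A).e i).open_source
    have hc : ContinuousAt (fun q => fderiv ℝ (fun q => A.e i (Θ q)) q) p :=
      ((hT.sm.smAt (i := i) hp hi).fderiv_right (m := 0) (by simp)).continuousAt
    have h1 : ContinuousAt (fun q => (fderiv ℝ (fun q => A.e i (Θ q)) q).inverse.comp
        (Complex.I • (fderiv ℝ (fun q => A.e i (Θ q)) q))) p := by
      have h2 : ContinuousAt (fun q => (fderiv ℝ (fun q => A.e i (Θ q)) q).inverse) p :=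
        ContinuousAt.comp (g := ContinuousLinearMap.inverse) (inv_cont (hT.bij p hp i hi)) hc
      exact h2.clm_comp (hc.const_smul Complex.I)
    refine (h1.congr ?_).continuousWithinAt
    filter_upwards [hO.mem_nhds ⟨hp, hi⟩] with q hq
    exact (IT_eq hT hq.1 hq.2).symm
  Ip k p hp := by
    have hp' : (p.1 + kv k, p.2) ∈ tub N R := hp
    have hi := ci_mem (ofAtl A) (Θ p)
    set i := ci (ofAtl A) (Θ p) with hi0
    have hΘ := tube_per hT hp k
    have hi' : Θ (p.1 + kv k, p.2) ∈ (A.e i).source := by rw [hΘ]; exact hi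
    rw [IT_eq hT hp hi, IT_eq hT hp' hi']
    have e1 : fderiv ℝ (fun q => A.e i (Θ q)) (p.1 + kv k, p.2) =
        fderiv ℝ (fun q => A.e i (Θ q)) p := by
      have e2 := fderiv_comp_add_right (f := fun q => A.e i (Θ q)) (x := p) (𝕜 := ℝ)
        ((kv k, 0) : VN N × VN N)
      have e3 : p + ((kv k, 0) : VN N × VN N) = (p.1 + kv k, p.2) := by
        ext1 <;> simp
      rw [e3] at e2
      rw [← e2]
      refine Filter.EventuallyEq.fderiv_eq ?_
      filter_upwards [hT.sm.op.mem_nhds hp] with q hq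
      have e4 : q + ((kv k, 0) : VN N × VN N) = (q.1 + kv k, q.2) := by
        ext1 <;> simp
      rw [e4, tube_per hT hq k]
    rw [e1]
  sq p hp u := by
    have hi := ci_mem (ofAtl A) (Θ p)
    apply (hT.bij p hp _ hi).1
    have h1 := IT_spec hT hp hi (IT A Θ p u)
    rw [IT_spec hT hp hi u, smul_smul, Complex.I_mul_I] at h1
    refine h1.trans ?_
    rw [neg_one_smul]
    exact (map_neg _ _).symm
  xy p hp u v := by
    have hi := ci_mem (ofAtl A) (Θ p)
    rw [hT.sm.pull_eq w hp hi, hT.sm.pull_eq w' hp hi, pl_apply, pl_apply]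
    have h1 := IT_spec hT hp hi u
    have h2 : fderiv ℝ (fun y => (ofAtl A).e (ci (ofAtl A) (Θ p)) (Θ y)) p (IT A Θ p u) =
      Complex.I • fderiv ℝ (fun y => (ofAtl A).e (ci (ofAtl A) (Θ p)) (Θ y)) p u := h1
    rw [h2]
    exact hJ _ _ ((A.e _).map_source hi) _ _
  nd p hp u hu := by
    have h1 := hT.nd p hp u
    have h2 : pull w Θ p u = 0 := ContinuousLinearMap.ext hu
    rw [h2, norm_zero, mul_zero] at h1
    exact norm_le_zero_iff.1 h1
  int p hp := by
    have hi := ci_mem (ofAtl A) (Θ p)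
    refine ⟨Cn N, inferInstance, inferInstance, inferInstance,
      fun q => A.e (ci (ofAtl A) (Θ p)) (Θ q), hT.sm.smAt hp hi, hT.bij p hp _ hi, ?_⟩
    filter_upwards [(hT.sm.isOpen_pre ((ofAtl A).e _).open_source).mem_nhds ⟨hp, hi⟩] with q hq u
    exact IT_spec hT hq.1 hq.2 u

end

end

end Crest.Agent.R281.Tub_57
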