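import Crest.Agent.R281.Poi_234
import Crest.Agent.R266.Osgood

/-!
# R281 (S0424), TUBE-HOL (helper57), part 1: real analysis

* `exists_prim` : the pull back of a primitive by an isotropic graph is exact;
* `limit_exact` : if graphs `p k, q k → a` are isotropic and `(p k - q k)/t k → D`, then the 1-form
  `ω((0,D), ·)` on the graph of `a` is exact.
-/

set_option autoImplicit false
set_option linter.unusedSectionVars false

open Set Filter Topology
open scoped ContDiff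

namespace Crest.Agent.R281.Tub_57

open Poi_234

noncomputable section

variable {V : Type} [NormedAddCommGroup V] [NormedSpace ℝ V] [FiniteDimensional ℝ V]

/-- the pair `(id, A)` -/
def gr (A : V →L[ℝ] V) : V →L[ℝ] V × V := (ContinuousLinearMap.id ℝ V).prod A

@[simp] theorem gr_apply (A : V →L[ℝ] V) (v : V) : gr A v = (v, A v) := rfl

theorem continuous_gr : Continuous (gr : (V →L[ℝ] V) → V →L[ℝ] V × V) := by
  have h6 : (gr : (V →L[ℝ] V) → V →L[ℝ] V × V) = fun A => ContinuousLinearMap.inl ℝ V V +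
      (ContinuousLinearMap.compL ℝ V V (V × V)) (ContinuousLinearMap.inr ℝ V V) A := by
    funext A
    ext v <;> simp
  rw [h6]
  exact continuous_const.add (ContinuousLinearMap.continuous _)

/-- graphs isotropic for `om` -/
def Iso (om : V × V → (V × V) →L[ℝ] (V × V) →L[ℝ] ℝ) (a : V → V) : Prop :=
  ∀ θ v w, om (θ, a θ) (v, fderiv ℝ a θ v) (w, fderiv ℝ a θ w) = 0

/-- the contraction of `om` with the vertical field `D` on the graph of `a` -/
def ctr (om : V × V → (V × V) →L[ℝ] (V × V) →L[ℝ] ℝ) (a D : V → V) (θ : V) : V →L[ℝ] ℝ :=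
  (om (θ, a θ) (0, D θ)).comp (gr (fderiv ℝ a θ))

@[simp] theorem ctr_apply (om : V × V → (V × V) →L[ℝ] (V × V) →L[ℝ] ℝ) (a D : V → V) (θ w : V) :
    ctr om a D θ w = om (θ, a θ) (0, D θ) (w, fderiv ℝ a θ w) := rfl

theorem hasFDerivAt_gr {a : V → V} (ha : Differentiable ℝ a) (θ : V) :
    HasFDerivAt (fun θ => (θ, a θ)) (gr (fderiv ℝ a θ)) θ :=
  (hasFDerivAt_id θ).prodMk (ha θ).hasFDerivAt

/-- derivative of `θ ↦ λ (θ, a θ) (w, B θ w)` type fields -/
theorem hasFDerivAt_mu {O : Set (V × V)} (hO : IsOpen O) {la : V × V → (V × V) →L[ℝ] ℝ}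
    (hla : ContDiffOn ℝ ∞ la O) {a : V → V} (ha : ContDiff ℝ 2 a) (hg : ∀ θ, (θ, a θ) ∈ O) (θ : V) :
    ∃ L : V →L[ℝ] V →L[ℝ] ℝ, HasFDerivAt (fun θ => (la (θ, a θ)).comp (gr (fderiv ℝ a θ))) L θ ∧
      ∀ v w, L v w = fderiv ℝ la (θ, a θ) (v, fderiv ℝ a θ v) (w, fderiv ℝ a θ w) +
        la (θ, a θ) (0, fderiv ℝ (fderiv ℝ a) θ v w) := by
  have had : Differentiable ℝ a := ha.differentiable (by simp)
  have h1 : HasFDerivAt (fun θ => (θ, a θ)) (gr (fderiv ℝ a θ)) θ := hasFDerivAt_gr had θ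
  have h2 : HasFDerivAt la (fderiv ℝ la (θ, a θ)) (θ, a θ) :=
    ((hla.contDiffAt (hO.mem_nhds (hg θ))).differentiableAt (by simp)).hasFDerivAt
  have h3 : HasFDerivAt (fun θ => la (θ, a θ)) ((fderiv ℝ la (θ, a θ)).comp (gr (fderiv ℝ a θ))) θ :=
    HasFDerivAt.comp (g := la) θ h2 h1
  have hf1 : ContDiff ℝ 1 (fderiv ℝ a) := ha.fderiv_right (by norm_num)
  have h4 : HasFDerivAt (fderiv ℝ a) (fderiv ℝ (fderiv ℝ a) θ) θ :=
    (hf1.differentiable (by simp) θ).hasFDerivAt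
  have h5 : HasFDerivAt (fun θ => gr (fderiv ℝ a θ))
      (((ContinuousLinearMap.compL ℝ V V (V × V)) (ContinuousLinearMap.inr ℝ V V)).comp
        (fderiv ℝ (fderiv ℝ a) θ)) θ := by
    have h6 : (fun θ => gr (fderiv ℝ a θ)) = fun θ => ContinuousLinearMap.inl ℝ V V +
        (ContinuousLinearMap.compL ℝ V V (V × V)) (ContinuousLinearMap.inr ℝ V V) (fderiv ℝ a θ) := by
      funext θ
      ext v <;> simp
    rw [h6]
    exact (((ContinuousLinearMap.compL ℝ V V (V × V))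
      (ContinuousLinearMap.inr ℝ V V)).hasFDerivAt.comp θ h4).const_add _
  refine ⟨_, h3.clm_comp h5, fun v w => ?_⟩
  simp [add_comm]

/-- **the pull back of a primitive by an isotropic graph is exact** -/
theorem exists_prim {O : Set (V × V)} (hO : IsOpen O) {om : V × V → (V × V) →L[ℝ] (V × V) →L[ℝ] ℝ}
    {la : V × V → (V × V) →L[ℝ] ℝ}
    (hla : ContDiffOn ℝ ∞ la O)
    (hd : ∀ z ∈ O, ∀ v w, fderiv ℝ la z v w - fderiv ℝ la z w v = om z v w)
    {a : V → V} (ha : ContDiff ℝ 2 a) (hg : ∀ θ, (θ, a θ) ∈ O) (hi : Iso om a) :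
    ∃ u : V → ℝ, ∀ θ, HasFDerivAt u ((la (θ, a θ)).comp (gr (fderiv ℝ a θ))) θ := by
  have h := fun θ => hasFDerivAt_mu hO hla ha hg θ
  obtain ⟨f, hf⟩ := (convex_univ : Convex ℝ (univ : Set V)).exists_forall_hasFDerivAt_of_fderiv_symmetric
    (𝕜 := ℝ) isOpen_univ
    (show DifferentiableOn ℝ (fun θ => (la (θ, a θ)).comp (gr (fderiv ℝ a θ))) univ from fun θ _ => by
      obtain ⟨L, hL, _⟩ := h θ
      exact hL.differentiableAt.differentiableWithinAt)
    (fun θ _ v w => by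
      obtain ⟨L, hL, hL2⟩ := h θ
      rw [hL.fderiv, hL2, hL2]
      have h1 := hd _ (hg θ) (v, fderiv ℝ a θ v) (w, fderiv ℝ a θ w)
      rw [hi θ v w] at h1
      have h2 : fderiv ℝ (fderiv ℝ a) θ v w = fderiv ℝ (fderiv ℝ a) θ w v :=
        (ha.contDiffAt.isSymmSndFDerivAt (by simp)) v w
      rw [h2]
      linarith)
  exact ⟨f, fun θ => hf θ (mem_univ _)⟩

theorem tendsto_comp' {X Y Z ι : Type*} [NormedAddCommGroup X] [NormedSpace ℝ X]
    [NormedAddCommGroup Y] [NormedSpace ℝ Y] [NormedAddCommGroup Z] [NormedSpace ℝ Z]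
    {l : Filter ι} {A : ι → Y →L[ℝ] Z} {B : ι → X →L[ℝ] Y} {A0 : Y →L[ℝ] Z} {B0 : X →L[ℝ] Y}
    (hA : Tendsto A l (𝓝 A0)) (hB : Tendsto B l (𝓝 B0)) :
    Tendsto (fun n => (A n).comp (B n)) l (𝓝 (A0.comp B0)) := by
  have hcomp : Continuous fun z : (Y →L[ℝ] Z) × (X →L[ℝ] Y) => z.1.comp z.2 :=
    isBoundedBilinearMap_comp.continuous
  exact (hcomp.tendsto (A0, B0)).comp (hA.prodMk_nhds hB)

theorem tendsto_app' {X Y ι : Type*} [NormedAddCommGroup X] [NormedSpace ℝ X]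
    [NormedAddCommGroup Y] [NormedSpace ℝ Y]
    {l : Filter ι} {A : ι → X →L[ℝ] Y} {B : ι → X} {A0 : X →L[ℝ] Y} {B0 : X}
    (hA : Tendsto A l (𝓝 A0)) (hB : Tendsto B l (𝓝 B0)) :
    Tendsto (fun n => A n (B n)) l (𝓝 (A0 B0)) := by
  have hcomp : Continuous fun z : (X →L[ℝ] Y) × X => z.1 z.2 :=
    isBoundedBilinearMap_apply.continuous
  exact (hcomp.tendsto (A0, B0)).comp (hA.prodMk_nhds hB)

theorem tendsto_flip {X Y Z ι : Type*} [NormedAddCommGroup X] [NormedSpace ℝ X]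
    [NormedAddCommGroup Y] [NormedSpace ℝ Y] [NormedAddCommGroup Z] [NormedSpace ℝ Z]
    {l : Filter ι} {A : ι → X →L[ℝ] Y →L[ℝ] Z} {B : ι → Y} {A0 : X →L[ℝ] Y →L[ℝ] Z} {B0 : Y}
    (hA : Tendsto A l (𝓝 A0)) (hB : Tendsto B l (𝓝 B0)) :
    Tendsto (fun n => (A n).flip (B n)) l (𝓝 (A0.flip B0)) := by
  refine tendsto_app' ?_ hB
  exact (((ContinuousLinearMap.flipₗᵢ ℝ X Y Z).continuous).tendsto A0).comp hA

/-- strict differentiability along sequences -/
theorem strict_lim {E F ι : Type*} [NormedAddCommGroup E] [NormedSpace ℝ E] [NormedAddCommGroup F]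
    [NormedSpace ℝ F] {f : E → F} {f' : E →L[ℝ] F} {z : E} (hf : HasStrictFDerivAt f f' z)
    {l : Filter ι} {P Q : ι → E} {c : ι → ℝ} {v : E} (hP : Tendsto P l (𝓝 z))
    (hQ : Tendsto Q l (𝓝 z)) (hv : Tendsto (fun n => c n • (P n - Q n)) l (𝓝 v)) :
    Tendsto (fun n => c n • (f (P n) - f (Q n))) l (𝓝 (f' v)) := by
  have h1 := hf.isLittleO.comp_tendsto (hP.prodMk_nhds hQ)
  have h2 : (fun n => c n • (f (P n) - f (Q n) - f' (P n - Q n))) =o[l]
      fun n => c n • (P n - Q n) := by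
    exact (Asymptotics.isBigO_refl c l).smul_isLittleO h1
  have h3 : Tendsto (fun n => c n • (f (P n) - f (Q n) - f' (P n - Q n))) l (𝓝 0) :=
    (Asymptotics.isLittleO_one_iff ℝ).1 (h2.trans_isBigO (hv.isBigO_one ℝ))
  have h4 := h3.add ((f'.continuous.tendsto v).comp hv)
  rw [zero_add] at h4
  refine h4.congr fun n => ?_
  simp only [Function.comp_apply, map_smul, map_sub, smul_sub]
  abel

/-- existence of the limit of primitives -/
theorem exists_prim_lim {f : ℕ → V → ℝ} {f' : ℕ → V → V →L[ℝ] ℝ} {g : V → V →L[ℝ] ℝ}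
    (hf : ∀ n x, HasFDerivAt (f n) (f' n x) x) (hg : Continuous g)
    (hl : ∀ x, Tendsto (fun y : ℕ × V => f' y.1 y.2) (atTop ×ˢ 𝓝 x) (𝓝 (g x))) :
    ∃ u : V → ℝ, ∀ x, HasFDerivAt u (g x) x := by
  have h1 : TendstoLocallyUniformlyOn f' g atTop univ := by
    rw [isOpen_univ.tendstoLocallyUniformlyOn_iff_forall_tendsto]
    intro x _
    have h2 : Tendsto (fun y : ℕ × V => g y.2) (atTop ×ˢ 𝓝 x) (𝓝 (g x)) :=
      (hg.tendsto x).comp tendsto_snd
    have h3 := h2.prodMk_nhds (hl x)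
    rw [nhds_prod_eq] at h3
    exact h3.mono_right (le_trans (by rw [← nhds_prod_eq]) (nhds_le_uniformity (g x)))
  set F : ℕ → V → ℝ := fun n x => f n x - f n 0 with hF
  have hFd : ∀ n x, HasFDerivAt (F n) (f' n x) x := fun n x => (hf n x).sub_const _
  have h2 : ∀ x : V, ∃ y : ℝ, Tendsto (fun n => F n x) atTop (𝓝 y) := by
    intro x
    have h3 : TendstoUniformlyOn f' g atTop (Metric.ball 0 (‖x‖ + 1)) := by
      have h4 : TendstoLocallyUniformlyOn f' g atTop (Metric.closedBall (0 : V) (‖x‖ + 1)) :=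
        h1.mono (subset_univ _)
      rw [tendstoLocallyUniformlyOn_iff_tendstoUniformlyOn_of_compact
        (isCompact_closedBall _ _)] at h4
      exact h4.mono Metric.ball_subset_closedBall
    have h5 := cauchy_map_of_uniformCauchySeqOn_fderiv (𝕜 := ℝ) Metric.isOpen_ball
      (convex_ball (0 : V) (‖x‖ + 1)).isPreconnected h3.uniformCauchySeqOn
      (fun n y _ => hFd n y) (x₀ := 0) (x := x) (by simp; positivity) (by simp)
      (by
        have : (fun n => F n 0) = fun _ => (0 : ℝ) := by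
          funext n
          simp [hF]
        rw [this]
        exact (tendsto_const_nhds (x := (0 : ℝ)) (f := (atTop : Filter ℕ))).cauchy_map)
    exact CompleteSpace.complete h5
  choose u hu using h2
  exact ⟨u, fun x => hasFDerivAt_of_tendstoLocallyUniformlyOn isOpen_univ h1
    (fun n y _ => hFd n y) (fun y _ => hu y) (mem_univ x)⟩

/-- **limits of difference quotients of isotropic graphs contract `om` to exact forms** -/
theorem limit_exact {O : Set (V × V)} (hO : IsOpen O) (hOc : Convex ℝ O)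
    {om : V × V → (V × V) →L[ℝ] (V × V) →L[ℝ] ℝ}
    (hom : ContDiffOn ℝ ∞ om O) (hal : Alt2 om O) (hcl : Closed2 om O)
    {a D : V → V} {p q : ℕ → V → V} {t : ℕ → ℝ}
    (ha : ContDiff ℝ 1 a) (hp : ∀ n, ContDiff ℝ 2 (p n)) (hq : ∀ n, ContDiff ℝ 2 (q n))
    (hag : ∀ θ, (θ, a θ) ∈ O) (hpg : ∀ n θ, (θ, p n θ) ∈ O) (hqg : ∀ n θ, (θ, q n θ) ∈ O)
    (hpi : ∀ n, Iso om (p n)) (hqi : ∀ n, Iso om (q n)) (ht : ∀ n, t n ≠ 0) (hDc : Continuous D)
    (lp : ∀ x, Tendsto (fun y : ℕ × V => p y.1 y.2) (atTop ×ˢ 𝓝 x) (𝓝 (a x)))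
    (lq : ∀ x, Tendsto (fun y : ℕ × V => q y.1 y.2) (atTop ×ˢ 𝓝 x) (𝓝 (a x)))
    (lp' : ∀ x, Tendsto (fun y : ℕ × V => fderiv ℝ (p y.1) y.2) (atTop ×ˢ 𝓝 x) (𝓝 (fderiv ℝ a x)))
    (lq' : ∀ x, Tendsto (fun y : ℕ × V => fderiv ℝ (q y.1) y.2) (atTop ×ˢ 𝓝 x) (𝓝 (fderiv ℝ a x)))
    (lD : ∀ x, Tendsto (fun y : ℕ × V => (t y.1)⁻¹ • (p y.1 y.2 - q y.1 y.2)) (atTop ×ˢ 𝓝 x)
      (𝓝 (D x))) :
    ∃ u : V → ℝ, ∀ θ, HasFDerivAt u (ctr om a D θ) θ := by
  obtain ⟨la, hla, hd⟩ := poincare2 hO hOc hom hal hcl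
  have hP := fun n => exists_prim hO hla hd (hp n) (hpg n) (hpi n)
  have hQ := fun n => exists_prim hO hla hd (hq n) (hqg n) (hqi n)
  choose uP huP using hP
  choose uQ huQ using hQ
  have hlad : ∀ z ∈ O, HasStrictFDerivAt la (fderiv ℝ la z) z := fun z hz =>
    (hla.contDiffAt (hO.mem_nhds hz)).hasStrictFDerivAt (by simp)
  have hlac : ContinuousOn la O := hla.continuousOn
  have hlac' : ContinuousOn (fderiv ℝ la) O := hla.continuousOn_fderiv_of_isOpen hO (by simp)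
  have hac : Continuous a := ha.continuous
  have hac' : Continuous (fderiv ℝ a) := ha.continuous_fderiv (by simp)
  -- the difference quotient
  set Dn : ℕ → V → V := fun n θ => (t n)⁻¹ • (p n θ - q n θ) with hDn
  set f : ℕ → V → ℝ := fun n θ => (t n)⁻¹ * (uP n θ - uQ n θ) - la (θ, q n θ) (0, Dn n θ) with hf
  set f' : ℕ → V → V →L[ℝ] ℝ := fun n θ =>
    ((t n)⁻¹ • (la (θ, p n θ) - la (θ, q n θ))).comp (gr (fderiv ℝ (p n) θ)) -
      ((fderiv ℝ la (θ, q n θ)).flip (0, Dn n θ)).comp (gr (fderiv ℝ (q n) θ)) with hf'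
  refine exists_prim_lim (f := f) (f' := f') ?_ ?_ ?_
  · intro n x
    have h1 := ((huP n x).sub (huQ n x)).const_mul (t n)⁻¹
    have hpd : HasFDerivAt (p n) (fderiv ℝ (p n) x) x :=
      ((hp n).differentiable (by simp) x).hasFDerivAt
    have hqd : HasFDerivAt (q n) (fderiv ℝ (q n) x) x :=
      ((hq n).differentiable (by simp) x).hasFDerivAt
    have h2 : HasFDerivAt (Dn n) ((t n)⁻¹ • (fderiv ℝ (p n) x - fderiv ℝ (q n) x)) x :=
      (hpd.sub hqd).const_smul _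
    have h3 : HasFDerivAt (fun θ => ((0 : V), Dn n θ))
        ((ContinuousLinearMap.inr ℝ V V).comp ((t n)⁻¹ • (fderiv ℝ (p n) x - fderiv ℝ (q n) x))) x :=
      ((ContinuousLinearMap.inr ℝ V V).hasFDerivAt).comp x h2
    have h4 : HasFDerivAt (fun θ => la (θ, q n θ))
        ((fderiv ℝ la (x, q n x)).comp (gr (fderiv ℝ (q n) x))) x :=
      HasFDerivAt.comp (g := la) x (hlad _ (hqg n x)).hasFDerivAt
        (hasFDerivAt_gr ((hq n).differentiable (by simp)) x)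
    have h5 := h1.sub (h4.clm_apply h3)
    refine h5.congr_fderiv ?_
    ext w
    have e2 : la (x, q n x) (0, fderiv ℝ (p n) x w) - la (x, q n x) (0, fderiv ℝ (q n) x w) =
        la (x, q n x) (w, fderiv ℝ (p n) x w) - la (x, q n x) (w, fderiv ℝ (q n) x w) := by
      rw [← map_sub, ← map_sub]
      simp
    simp only [hf', hDn, sub_apply, smul_apply,
      ContinuousLinearMap.comp_apply, add_apply, gr_apply,
      ContinuousLinearMap.flip_apply, ContinuousLinearMap.inr_apply, map_smul, map_sub,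
      smul_eq_mul]
    linear_combination (-(t n)⁻¹) * e2
  · have hgc : Continuous fun θ => (θ, a θ) := continuous_id.prodMk hac
    have h1 : Continuous fun θ => om (θ, a θ) :=
      hom.continuousOn.comp_continuous hgc hag
    have h2 : Continuous fun θ => gr (fderiv ℝ a θ) := continuous_gr.comp hac'
    exact (h1.clm_apply (continuous_const.prodMk hDc)).clm_comp h2
  · intro x
    set l : Filter (ℕ × V) := atTop ×ˢ 𝓝 x with hl
    have hx : Tendsto (fun y : ℕ × V => y.2) l (𝓝 x) := tendsto_snd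
    have hPn : Tendsto (fun y : ℕ × V => (y.2, p y.1 y.2)) l (𝓝 (x, a x)) := hx.prodMk_nhds (lp x)
    have hQn : Tendsto (fun y : ℕ × V => (y.2, q y.1 y.2)) l (𝓝 (x, a x)) := hx.prodMk_nhds (lq x)
    have hD0 : Tendsto (fun y : ℕ × V => ((0 : V), Dn y.1 y.2)) l (𝓝 (0, D x)) :=
      tendsto_const_nhds.prodMk_nhds (lD x)
    have h1 : Tendsto (fun y : ℕ × V => (t y.1)⁻¹ • (la (y.2, p y.1 y.2) - la (y.2, q y.1 y.2))) l
        (𝓝 (fderiv ℝ la (x, a x) (0, D x))) := by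
      refine strict_lim (hlad _ (hag x)) hPn hQn (hD0.congr fun y => ?_)
      ext <;> simp [hDn]
    have h2 : Tendsto (fun y : ℕ × V => gr (fderiv ℝ (p y.1) y.2)) l (𝓝 (gr (fderiv ℝ a x))) :=
      (continuous_gr.tendsto _).comp (lp' x)
    have h3 : Tendsto (fun y : ℕ × V => gr (fderiv ℝ (q y.1) y.2)) l (𝓝 (gr (fderiv ℝ a x))) :=
      (continuous_gr.tendsto _).comp (lq' x)
    have h4 : Tendsto (fun y : ℕ × V => fderiv ℝ la (y.2, q y.1 y.2)) l
        (𝓝 (fderiv ℝ la (x, a x))) :=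
      ((hlac'.continuousAt (hO.mem_nhds (hag x))).tendsto).comp hQn
    have h5 : Tendsto (fun y : ℕ × V => (fderiv ℝ la (y.2, q y.1 y.2)).flip (0, Dn y.1 y.2)) l
        (𝓝 ((fderiv ℝ la (x, a x)).flip (0, D x))) :=
      tendsto_flip h4 hD0
    have h6 := (tendsto_comp' h1 h2).sub (tendsto_comp' h5 h3)
    have h7 : (fderiv ℝ la (x, a x) (0, D x)).comp (gr (fderiv ℝ a x)) -
        ((fderiv ℝ la (x, a x)).flip (0, D x)).comp (gr (fderiv ℝ a x)) = ctr om a D x := by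
      ext w
      have := hd _ (hag x) (0, D x) (w, fderiv ℝ a x w)
      simpa using this
    rw [h7] at h6
    exact h6

end

end Crest.Agent.R281.Tub_57
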