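import Crest.Agent.R281.Per7_368
import Crest.Agent.R281.NefO1_476

/-!
# R281 (S0424), helper836: **the one definition of the tube of Lagrangian tori** (548 #8366)

* `HTub J w₁ w₂ n D Φ l τ` : holomorphic action-angle tube `Φ (y, x)`, `y ∈ D ⊆ Cn n`, `x ∈ Cn n`, for
  the complex structure `J` and the holomorphic symplectic form `w₁ + i w₂`
* `HolTube H n D Φ l τ` : the same for `J 0`, `om 1 + i om 2` of the hyperkaehler triple `H`
* `TubJ Q e n J w₁ w₂` : there is a holomorphic tube on which all classes of `e^⊥` have period zero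
* `Tub Q e n H`        : the same for `J 0`, `om 1 + i om 2`
-/

set_option autoImplicit false
set_option linter.unusedSectionVars false

open Set Filter Topology
open scoped ContDiff

namespace Crest.Agent.R281.Tub_836

open Crest.Agent.R275.Geo (Cn)
open Crest.Agent.R281.HkR_835 Crest.Agent.R281.Per_368 Crest.Agent.R281.NefO_476

noncomputable section

variable {V X : Type} [NormedAddCommGroup V] [NormedSpace ℝ V] [TopologicalSpace X]
  {C : RCh V X}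

/-- **holomorphic action-angle tube** (order `(y, x)`: base, fibre) -/
structure HTub (J : AJ C) (w₁ w₂ : F2 C) (n : ℕ) (D : Set (Cn n)) (Φ : Cn n × Cn n → X)
    (l : Fin (2 * n) → Cn n → Cn n) (τ : Cn n → Cn n → Cn n → ℂ) : Prop where
  op : IsOpen D
  cx : Convex ℝ D
  ne : D.Nonempty
  sm : SmI C (D ×ˢ univ) Φ
  hol : ∀ p ∈ D ×ˢ (univ : Set (Cn n)), ∀ i, Φ p ∈ (C.e i).source → ∀ u : Cn n × Cn n,
    fderiv ℝ (fun q => C.e i (Φ q)) p (Complex.I • u) =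
      J.J i (C.e i (Φ p)) (fderiv ℝ (fun q => C.e i (Φ q)) p u)
  inj : ∀ p ∈ D ×ˢ (univ : Set (Cn n)), ∀ i, Φ p ∈ (C.e i).source →
    Function.Injective (fderiv ℝ (fun q => C.e i (Φ q)) p)
  opn : ∀ O ⊆ D ×ˢ (univ : Set (Cn n)), IsOpen O → IsOpen (Φ '' O)
  lhol : ∀ j, DifferentiableOn ℂ (l j) D
  lli : ∀ y ∈ D, LinearIndependent ℝ (fun j => l j y)
  per : ∀ y ∈ D, ∀ y' ∈ D, ∀ x x', Φ (y, x) = Φ (y', x') ↔
    y = y' ∧ ∃ m : Fin (2 * n) → ℤ, x - x' = ∑ j, m j • l j y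
  sig : ∀ p ∈ D ×ˢ (univ : Set (Cn n)), ∀ u w : Cn n × Cn n,
    (pull w₁ Φ p u w : ℂ) + Complex.I * (pull w₂ Φ p u w : ℂ) =
      ∑ k, (u.2 k * w.1 k - w.2 k * u.1 k) + τ p.1 u.1 w.1

/-- the tube for `J 0`, `om 1 + i om 2` -/
abbrev HolTube (H : HkT C) (n : ℕ) (D : Set (Cn n)) (Φ : Cn n × Cn n → X)
    (l : Fin (2 * n) → Cn n → Cn n) (τ : Cn n → Cn n → Cn n → ℂ) : Prop :=
  HTub (ofHk H 0) (H.om 1) (H.om 2) n D Φ l τ

/-- there is a holomorphic tube of Lagrangian tori over which every class orthogonal to `e` has all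
periods zero -/
def TubJ (Q : F2 C →ₗ[ℝ] F2 C →ₗ[ℝ] ℝ) (e : F2 C) (n : ℕ) (J : AJ C) (w₁ w₂ : F2 C) : Prop :=
  ∃ (D : Set (Cn n)) (Φ : Cn n × Cn n → X) (l : Fin (2 * n) → Cn n → Cn n)
    (τ : Cn n → Cn n → Cn n → ℂ), HTub J w₁ w₂ n D Φ l τ ∧
    ∀ v : F2 C, Q v e = 0 → ∀ y ∈ D, ∀ j k x,
      Per_368.per (pull v (fun x => Φ (y, x))) x (l j y) (l k y) = 0

/-- **the tube at `H`** (complex structure `J 0`, symplectic form `om 1 + i om 2`) -/
def Tub (Q : F2 C →ₗ[ℝ] F2 C →ₗ[ℝ] ℝ) (e : F2 C) (n : ℕ) (H : HkT C) : Prop :=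
  TubJ Q e n (ofHk H 0) (H.om 1) (H.om 2)

end

end Crest.Agent.R281.Tub_836
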