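import Crest.Agent.R281.Tub1_57

/-!
# R281 (S0424), TUBE-HOL (helper57), part 2: the leaves are holomorphic

* `leaf_hol` : a `C^1` graph with `I`-invariant tangent planes (`I` integrable) is smooth, and the
  induced structure `J` on the leaf has holomorphic coordinates;
* `const_of_max` : pluriharmonic functions on the leaf with a maximum are constant.
-/

set_option autoImplicit false
set_option linter.unusedSectionVars false

open Set Filter Topology
open scoped ContDiff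

namespace Crest.Agent.R281.Tub_57

noncomputable section

/-- local inverse, packaged -/
theorem exists_inv {X Y : Type*} [NormedAddCommGroup X] [NormedSpace ℝ X] [CompleteSpace X]
    [NormedAddCommGroup Y] [NormedSpace ℝ Y] [CompleteSpace Y] {n : ℕ∞ω} {f : X → Y} {x0 : X}
    (hf : ContDiffAt ℝ n f x0) (hn : n ≠ 0) (hb : Function.Bijective (fderiv ℝ f x0)) :
    ∃ g : Y → X, g (f x0) = x0 ∧ ContDiffAt ℝ n g (f x0) ∧ (∀ᶠ x in 𝓝 x0, g (f x) = x) ∧
      (∀ᶠ y in 𝓝 (f x0), f (g y) = y) := by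
  set e : X ≃L[ℝ] Y := ContinuousLinearEquiv.ofBijective (fderiv ℝ f x0)
    (LinearMap.ker_eq_bot.2 hb.1) (LinearMap.range_eq_top.2 hb.2) with he
  have h1 : HasFDerivAt f (e : X →L[ℝ] Y) x0 := (hf.differentiableAt hn).hasFDerivAt
  have hs := hf.hasStrictFDerivAt' h1 hn
  refine ⟨hf.localInverse h1 hn, hf.localInverse_apply_image h1 hn, hf.to_localInverse h1 hn,
    hs.eventually_left_inverse, hs.eventually_right_inverse⟩

theorem csmul {Z : Type*} [NormedAddCommGroup Z] [NormedSpace ℂ Z] (c : ℂ) (z : Z) :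
    c • z = c.re • z + c.im • (Complex.I • z) := by
  conv_lhs => rw [← Complex.re_add_im c]
  rw [add_smul, mul_smul]
  simp

/-- from real to complex differentiability -/
theorem diffC {X Y : Type*} [NormedAddCommGroup X] [NormedSpace ℂ X] [NormedAddCommGroup Y]
    [NormedSpace ℂ Y] {f : X → Y} {x : X} (h : DifferentiableAt ℝ f x)
    (hI : ∀ w, fderiv ℝ f x (Complex.I • w) = Complex.I • fderiv ℝ f x w) :
    DifferentiableAt ℂ f x := by
  rw [differentiableAt_iff_restrictScalars ℝ h]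
  have hs : ∀ (c : ℂ) (w : X), fderiv ℝ f x (c • w) = c • fderiv ℝ f x w := by
    intro c w
    rw [csmul c w, csmul c (fderiv ℝ f x w), map_add, map_smul, map_smul, hI]
  exact ⟨{ toFun := fderiv ℝ f x, map_add' := map_add _, map_smul' := hs, 
           cont := (fderiv ℝ f x).continuous }, by ext w; rfl⟩

/-- an endomorphism field `I` on `E` is integrable at `q0` -/
def Integ {E : Type} [NormedAddCommGroup E] [NormedSpace ℝ E] (I : E → E →L[ℝ] E) (q0 : E) : Prop :=
  ∃ (W : Type) (_ : NormedAddCommGroup W) (_ : NormedSpace ℂ W) (_ : FiniteDimensional ℂ W)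
    (χ : E → W), ContDiffAt ℝ ∞ χ q0 ∧ Function.Bijective (fderiv ℝ χ q0) ∧
      ∀ᶠ q in 𝓝 q0, ∀ u, fderiv ℝ χ q (I q u) = Complex.I • fderiv ℝ χ q u

variable {V : Type} [NormedAddCommGroup V] [NormedSpace ℝ V] [FiniteDimensional ℝ V]

/-- holomorphic coordinates for `J` at `θ0` -/
def HCoord (J : V → V →L[ℝ] V) (θ0 : V) : Prop :=
  ∃ (T : Type) (_ : NormedAddCommGroup T) (_ : NormedSpace ℂ T) (_ : FiniteDimensional ℂ T)
    (Θ : T → V) (z0 : T), Θ z0 = θ0 ∧ ContDiffAt ℝ ∞ Θ z0 ∧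
      (∀ᶠ z in 𝓝 z0, DifferentiableAt ℝ Θ z ∧
        ∀ w, fderiv ℝ Θ z (Complex.I • w) = J (Θ z) (fderiv ℝ Θ z w)) ∧ 𝓝 θ0 ≤ map Θ (𝓝 z0)

/-- **maximum principle on a leaf** -/
theorem const_of_max {J : V → V →L[ℝ] V} (hJ : ∀ θ v, J θ (J θ v) = -v)
    (hC : ∀ θ, HCoord J θ) {U U' : V → ℝ} {b : V → V →L[ℝ] ℝ}
    (hU : ∀ θ, HasFDerivAt U (b θ) θ) (hU' : ∀ θ, HasFDerivAt U' (-((b θ).comp (J θ))) θ)
    {θm : V} (hm : ∀ θ, U θ ≤ U θm) (θ : V) : U θ = U θm := by
  have hUc : Continuous U := continuous_iff_continuousAt.2 fun θ => (hU θ).continuousAt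
  set S : Set V := {θ | U θ = U θm} with hS
  have hScl : IsClosed S := isClosed_eq hUc continuous_const
  have hSo : IsOpen S := by
    rw [isOpen_iff_mem_nhds]
    intro θ0 hθ0
    obtain ⟨T, _, _, _, Θ, z0, hz0, -, hΘ, hmap⟩ := hC θ0
    set h : V → ℂ := fun θ => (U θ : ℂ) + (U' θ : ℂ) * Complex.I with hh
    set H : T → ℂ := fun z => Complex.exp (h (Θ z)) with hH
    have hnorm : ∀ z, ‖H z‖ = Real.exp (U (Θ z)) := by
      intro z
      rw [hH]
      simp [Complex.norm_exp, hh]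
    have hd : ∀ᶠ z in 𝓝 z0, DifferentiableAt ℂ H z := by
      filter_upwards [hΘ] with z hz
      have h1 : HasFDerivAt (fun θ => (U θ : ℂ)) (Complex.ofRealCLM.comp (b (Θ z))) (Θ z) :=
        Complex.ofRealCLM.hasFDerivAt.comp _ (hU _)
      have h2 : HasFDerivAt (fun θ => (U' θ : ℂ))
          (Complex.ofRealCLM.comp (-((b (Θ z)).comp (J (Θ z))))) (Θ z) :=
        Complex.ofRealCLM.hasFDerivAt.comp _ (hU' _)
      have h3 := (h1.add (h2.mul_const Complex.I)).comp z hz.1.hasFDerivAt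
      refine (diffC h3.differentiableAt fun w => ?_).cexp
      rw [HasFDerivAt.fderiv h3]
      simp only [ContinuousLinearMap.comp_apply, add_apply, hz.2 w, hJ, smul_apply,
        Complex.ofRealCLM_apply, neg_apply, map_neg]
      simp
      ring_nf
      simp
    have hloc : IsLocalMax (norm ∘ H) z0 := by
      refine Eventually.of_forall fun z => ?_
      simp only [Function.comp_apply, hnorm, hz0]
      exact Real.exp_le_exp.2 ((hm _).trans_eq (hθ0 : U θ0 = U θm).symm)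
    have h4 := Complex.eventually_eq_of_isLocalMax_norm hd hloc
    refine hmap ?_
    rw [mem_map]
    filter_upwards [h4] with z hz
    have h5 : ‖H z‖ = ‖H z0‖ := by rw [hz]
    rw [hnorm, hnorm, hz0] at h5
    show U (Θ z) = U θm
    rw [Real.exp_injective h5]
    exact hθ0
  have h6 : S = univ := IsClopen.eq_univ ⟨hScl, hSo⟩ ⟨θm, rfl⟩
  have : θ ∈ S := by rw [h6]; exact mem_univ _
  exact this

/-- **`C^1` graphs with `I`-invariant tangent planes are holomorphic** -/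
theorem leaf_hol {I : V × V → (V × V) →L[ℝ] (V × V)} {a : V → V} {J : V → V →L[ℝ] V} {θ0 : V}
    (ha : ContDiff ℝ 1 a) (hI : Integ I (θ0, a θ0))
    (hJ : ∀ θ w, I (θ, a θ) (w, fderiv ℝ a θ w) = (J θ w, fderiv ℝ a θ (J θ w))) :
    ContDiffAt ℝ ∞ a θ0 ∧ HCoord J θ0 := by
  obtain ⟨W, _, _, _, χ, hχ, hχb, hχI⟩ := hI
  have had : Differentiable ℝ a := ha.differentiable (by simp)
  set g : V → V × V := fun θ => (θ, a θ) with hg
  have hgc : Continuous g := continuous_id.prodMk ha.continuous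
  have hgd : ∀ θ, HasFDerivAt g (gr (fderiv ℝ a θ)) θ := fun θ => hasFDerivAt_gr had θ
  have hg1 : ContDiff ℝ 1 g := contDiff_id.prodMk ha
  -- the tangent space in the chart
  set A : V →L[ℝ] W := (fderiv ℝ χ (g θ0)).comp (gr (fderiv ℝ a θ0)) with hA
  have hχI0 : ∀ u, fderiv ℝ χ (g θ0) (I (g θ0) u) = Complex.I • fderiv ℝ χ (g θ0) u :=
    hχI.self_of_nhds
  have hAJ : ∀ w, A (J θ0 w) = Complex.I • A w := by
    intro w
    simp only [hA, ContinuousLinearMap.comp_apply, gr_apply]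
    rw [← hχI0, hJ]
  have hAinj : Function.Injective A := by
    intro v w h
    have := hχb.1 h
    exact (Prod.ext_iff.1 this).1
  let T : Submodule ℂ W :=
    { carrier := range A
      zero_mem' := ⟨0, map_zero _⟩
      add_mem' := by
        rintro _ _ ⟨v, rfl⟩ ⟨w, rfl⟩
        exact ⟨v + w, map_add _ _ _⟩
      smul_mem' := by
        rintro c _ ⟨v, rfl⟩
        refine ⟨c.re • v + c.im • J θ0 v, ?_⟩
        rw [csmul c (A v), map_add, map_smul, map_smul, hAJ] }
  obtain ⟨π0, hπ0⟩ := LinearMap.exists_leftInverse_of_injective T.subtype (Submodule.ker_subtype T)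
  set π : W →L[ℂ] T := LinearMap.toContinuousLinearMap π0 with hπ
  have hπT : ∀ t : T, π (t : W) = t := fun t => LinearMap.congr_fun hπ0 t
  set πr : W →L[ℝ] T := π.restrictScalars ℝ with hπr
  have hπrI : ∀ w, πr (Complex.I • w) = Complex.I • πr w := fun w => π.map_smul _ _
  set P : V → T := fun θ => πr (χ (g θ)) with hP
  have hχg : ∀ᶠ θ in 𝓝 θ0, ContDiffAt ℝ 1 χ (g θ) := by
    have h1 : ∀ᶠ q in 𝓝 (g θ0), ContDiffAt ℝ 1 χ q :=
      (hχ.of_le (by exact_mod_cast le_top : (1 : ℕ∞ω) ≤ ∞)).eventually (by simp)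
    exact hgc.continuousAt.eventually h1
  have hχIg : ∀ᶠ θ in 𝓝 θ0, ∀ u, fderiv ℝ χ (g θ) (I (g θ) u) = Complex.I • fderiv ℝ χ (g θ) u :=
    hgc.continuousAt.eventually hχI
  have hPd : ∀ θ, ContDiffAt ℝ 1 χ (g θ) → HasFDerivAt P
      (πr.comp ((fderiv ℝ χ (g θ)).comp (gr (fderiv ℝ a θ)))) θ := by
    intro θ h
    exact πr.hasFDerivAt.comp θ (HasFDerivAt.comp (g := χ) θ
      (h.differentiableAt (by simp)).hasFDerivAt (hgd θ))
  have hPc : ContDiffAt ℝ 1 P θ0 := by
    refine πr.contDiff.contDiffAt.comp θ0 ?_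
    exact ContDiffAt.comp θ0 hχg.self_of_nhds hg1.contDiffAt
  have hfd0 : fderiv ℝ P θ0 = πr.comp A := (hPd θ0 hχg.self_of_nhds).fderiv
  have hfd : ∀ w, ((fderiv ℝ P θ0 w : T) : W) = A w := by
    intro w
    rw [hfd0]
    exact congrArg Subtype.val (hπT ⟨A w, w, rfl⟩)
  have hbij : Function.Bijective (fderiv ℝ P θ0) := by
    constructor
    · intro v w h
      apply hAinj
      rw [← hfd, ← hfd, h]
    · rintro ⟨_, w, rfl⟩
      exact ⟨w, Subtype.ext (hfd w)⟩
  have hfin : Module.finrank ℝ V = Module.finrank ℝ T :=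
    (LinearEquiv.ofBijective (fderiv ℝ P θ0 : V →ₗ[ℝ] T) hbij).finrank_eq
  obtain ⟨Θ, hΘ0, hΘc, hΘl, hΘr⟩ := exists_inv hPc (by simp) hbij
  set z0 : T := P θ0 with hz0
  have hΘcont : ContinuousAt Θ z0 := hΘc.continuousAt
  have hΘd : ∀ᶠ z in 𝓝 z0, DifferentiableAt ℝ Θ z := by
    filter_upwards [hΘc.eventually (by simp)] with z hz
    exact hz.differentiableAt (by simp)
  have hback : ∀ {p : V → Prop}, (∀ᶠ θ in 𝓝 θ0, p θ) → ∀ᶠ z in 𝓝 z0, p (Θ z) := by
    intro p hp
    have : Tendsto Θ (𝓝 z0) (𝓝 θ0) := by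
      have := hΘcont.tendsto
      rwa [hΘ0] at this
    exact this.eventually hp
  -- the Cauchy-Riemann equations for Θ
  have hCR : ∀ᶠ z in 𝓝 z0, DifferentiableAt ℝ Θ z ∧
      ∀ w, fderiv ℝ Θ z (Complex.I • w) = J (Θ z) (fderiv ℝ Θ z w) := by
    filter_upwards [hΘd, hback hχg, hback hχIg, hΘr.eventually_nhds] with z h1 h2 h3 h4
    refine ⟨h1, fun w => ?_⟩
    have h5 : HasFDerivAt (fun z => P (Θ z)) ((πr.comp ((fderiv ℝ χ (g (Θ z))).comp
        (gr (fderiv ℝ a (Θ z))))).comp (fderiv ℝ Θ z)) z := (hPd _ h2).comp z h1.hasFDerivAt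
    have h6 : HasFDerivAt (fun z => P (Θ z)) (ContinuousLinearMap.id ℝ T) z :=
      (hasFDerivAt_id z).congr_of_eventuallyEq h4
    have h7 := h5.unique h6
    set B := πr.comp ((fderiv ℝ χ (g (Θ z))).comp (gr (fderiv ℝ a (Θ z)))) with hB
    have h8 : ∀ w, B (fderiv ℝ Θ z w) = w := fun w => ContinuousLinearMap.ext_iff.1 h7 w
    have h9 : Function.Injective B := by
      have : Function.Surjective (B : V →ₗ[ℝ] T) := fun w => ⟨_, h8 w⟩
      exact (LinearMap.injective_iff_surjective_of_finrank_eq_finrank hfin).2 this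
    apply h9
    rw [h8]
    have h10 : B (J (Θ z) (fderiv ℝ Θ z w)) = Complex.I • B (fderiv ℝ Θ z w) := by
      simp only [hB, ContinuousLinearMap.comp_apply, gr_apply]
      rw [← hJ, ← hπrI]
      congr 1
      exact h3 _
    rw [h10, h8]
  -- the leaf in the chart is holomorphic
  have hφd : ∀ᶠ z in 𝓝 z0, DifferentiableAt ℂ (fun z => χ (g (Θ z))) z := by
    filter_upwards [hCR, hback hχg, hback hχIg] with z h1 h2 h3
    have h4 : HasFDerivAt (fun z => χ (g (Θ z))) (((fderiv ℝ χ (g (Θ z))).comp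
        (gr (fderiv ℝ a (Θ z)))).comp (fderiv ℝ Θ z)) z :=
      HasFDerivAt.comp (g := fun θ => χ (g θ)) z (HasFDerivAt.comp (g := χ) _
        (h2.differentiableAt (by simp)).hasFDerivAt (hgd (Θ z))) h1.1.hasFDerivAt
    refine diffC h4.differentiableAt fun w => ?_
    rw [HasFDerivAt.fderiv h4]
    simp only [ContinuousLinearMap.comp_apply, gr_apply, h1.2 w]
    rw [← hJ]
    exact h3 _
  have hφs : ContDiffAt ℝ ∞ (fun z => χ (g (Θ z))) z0 := by
    have h1 : AnalyticAt ℂ (fun z => χ (g (Θ z))) z0 :=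
      Crest.Agent.R266.SCV.analyticAt_of_eventually_differentiableAt hφd
    exact (h1.contDiffAt (n := ∞)).restrict_scalars ℝ
  -- the inverse of the chart
  obtain ⟨η, hη0, hηc, hηl, -⟩ := exists_inv hχ (by simp) hχb
  have hgΘ : ContDiffAt ℝ ∞ (fun z => g (Θ z)) z0 := by
    have hz : g (Θ z0) = g θ0 := by rw [hΘ0]
    have h1 : ContDiffAt ℝ ∞ (fun z => η (χ (g (Θ z)))) z0 := by
      refine ContDiffAt.comp z0 ?_ hφs
      rw [hz]
      exact hηc
    refine h1.congr_of_eventuallyEq ?_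
    have h2 : ∀ᶠ θ in 𝓝 θ0, η (χ (g θ)) = g θ := hgc.continuousAt.eventually hηl
    filter_upwards [hback h2] with z hz
    exact hz.symm
  have hΘs : ContDiffAt ℝ ∞ Θ z0 := contDiffAt_fst.comp z0 hgΘ
  have hΘb : Function.Bijective (fderiv ℝ Θ z0) := by
    have h5 : HasFDerivAt (fun z => P (Θ z)) ((fderiv ℝ P θ0).comp (fderiv ℝ Θ z0)) z0 := by
      have h1 : HasFDerivAt P (fderiv ℝ P θ0) (Θ z0) := by
        rw [hΘ0]
        exact (hPc.differentiableAt (by simp)).hasFDerivAt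
      exact h1.comp z0 hΘd.self_of_nhds.hasFDerivAt
    have h6 : HasFDerivAt (fun z => P (Θ z)) (ContinuousLinearMap.id ℝ T) z0 :=
      (hasFDerivAt_id z0).congr_of_eventuallyEq hΘr
    have h7 := h5.unique h6
    have h8 : ∀ w, fderiv ℝ P θ0 (fderiv ℝ Θ z0 w) = w := fun w =>
      ContinuousLinearMap.ext_iff.1 h7 w
    constructor
    · intro v w h
      rw [← h8 v, ← h8 w, h]
    · intro v
      exact ⟨fderiv ℝ P θ0 v, hbij.1 (h8 _)⟩
  refine ⟨?_, T, inferInstance, inferInstance, inferInstance, Θ, z0, hΘ0, hΘs, hCR, ?_⟩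
  · obtain ⟨P', hP'0, hP'c, hP'l, hP'r⟩ := exists_inv hΘs (by simp) hΘb
    rw [hΘ0] at hP'0 hP'c hP'r
    have h1 : ContDiffAt ℝ ∞ (fun θ => (g (Θ (P' θ))).2) θ0 := by
      refine contDiffAt_snd.comp θ0 ?_
      refine ContDiffAt.comp θ0 (g := fun z => g (Θ z)) ?_ hP'c
      rw [hP'0]
      exact hgΘ
    refine h1.congr_of_eventuallyEq ?_
    filter_upwards [hP'r] with θ hθ
    simp only [hg, hθ]
  · intro S hS
    rw [mem_map] at hS
    have h1 : Tendsto P (𝓝 θ0) (𝓝 z0) := hPc.continuousAt.tendsto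
    filter_upwards [h1.eventually hS, hΘl] with θ h2 h3
    have h4 : Θ (P θ) ∈ S := h2
    rwa [h3] at h4

end

end Crest.Agent.R281.Tub_57
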