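import Crest.Agent.R281.Tub1_836
import Crest.Agent.R281.Nef3_252
import Crest.Agent.R281.HkM4_835

/-!
# R281 (S0424), helper836: transfer of tubes of Lagrangian tori

* `SmI.map`, `pull_map`, `pull_pre`, `pull_eqv`
* `HTub.map`   : transfer along an isomorphism `g`
* `HTub.scale` : multiplication of the symplectic form by a complex constant
-/

set_option autoImplicit false
set_option linter.unusedSectionVars false
set_option maxSynthPendingDepth 3

open Set Filter Topology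
open scoped ContDiff

namespace Crest.Agent.R281.Tub_836

open Crest.Agent.R275.Geo (Cn)
open Crest.Agent.R281.HkR_835 Crest.Agent.R281.Per_368 Crest.Agent.R281.NefO_476
open Crest.Agent.R281.Dif_268 Crest.Agent.R281.Ti_846 Crest.Agent.R281.Nef_252

noncomputable section

variable {V V' X X' : Type} [NormedAddCommGroup V] [NormedSpace ℝ V] [TopologicalSpace X]
  [NormedAddCommGroup V'] [NormedSpace ℝ V'] [TopologicalSpace X']
  {C : RCh V X} {C' : RCh V' X'}
  {E E' : Type} [NormedAddCommGroup E] [NormedSpace ℝ E] [NormedAddCommGroup E']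
  [NormedSpace ℝ E'] {S : Set E} {Φ : E → X}

theorem map_ev (h : SmI C S Φ) (k : SMap C C') {ζ : E} (hζ : ζ ∈ S) {i : C.ι}
    (hi : Φ ζ ∈ (C.e i).source) (j : C'.ι) :
    (fun q => C'.e j (k.f (Φ q))) =ᶠ[𝓝 ζ] (loc C' C k.f j i) ∘ (fun q => C.e i (Φ q)) := by
  filter_upwards [(h.isOpen_pre (C.e i).open_source).mem_nhds ⟨hζ, hi⟩] with q hq
  show C'.e j (k.f (Φ q)) = C'.e j (k.f ((C.e i).symm (C.e i (Φ q))))
  rw [(C.e i).left_inv hq.2]

theorem map_dom (k : SMap C C') {x : X} {i : C.ι} (hi : x ∈ (C.e i).source) {j : C'.ι}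
    (hj : k.f x ∈ (C'.e j).source) : C.e i x ∈ dom C' C k.f j i := by
  refine ⟨(C.e i).map_source hi, ?_⟩
  show k.f ((C.e i).symm (C.e i x)) ∈ _
  rw [(C.e i).left_inv hi]
  exact hj

theorem fderiv_map (h : SmI C S Φ) (k : SMap C C') {ζ : E} (hζ : ζ ∈ S) {i : C.ι}
    (hi : Φ ζ ∈ (C.e i).source) {j : C'.ι} (hj : k.f (Φ ζ) ∈ (C'.e j).source) (u : E) :
    fderiv ℝ (fun q => C'.e j (k.f (Φ q))) ζ u =
      fderiv ℝ (loc C' C k.f j i) (C.e i (Φ ζ)) (fderiv ℝ (fun q => C.e i (Φ q)) ζ u) := by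
  rw [(map_ev h k hζ hi j).fderiv_eq]
  have h1 := (k.diff_loc (map_dom k hi hj)).hasFDerivAt.comp ζ (h.diffAt hζ hi).hasFDerivAt
  exact congrArg (fun T : E →L[ℝ] V' => T u) h1.fderiv

theorem smI_map (h : SmI C S Φ) (k : SMap C C') : SmI C' S (k.f ∘ Φ) where
  op := h.op
  cont := k.cont.comp_continuousOn h.cont
  sm j := by
    rintro ζ ⟨hζ, hj⟩
    obtain ⟨i, hi⟩ := C.cover (Φ ζ)
    have h1 : ContDiffAt ℝ ∞ (loc C' C k.f j i) (C.e i (Φ ζ)) :=
      k.contDiffAt_loc (map_dom k hi hj)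
    exact ((h1.comp ζ (h.smAt hζ hi)).congr_of_eventuallyEq (map_ev h k hζ hi j)).contDiffWithinAt

theorem pull_map (h : SmI C S Φ) (k : SMap C C') (w : F2 C') {ζ : E} (hζ : ζ ∈ S) :
    Per_368.pull w (k.f ∘ Φ) ζ = Per_368.pull (k.pull w) Φ ζ := by
  obtain ⟨i, hi⟩ := C.cover (Φ ζ)
  obtain ⟨j, hj⟩ := C'.cover (k.f (Φ ζ))
  rw [(smI_map h k).pull_eq w hζ hj, h.pull_eq (k.pull w) hζ hi]
  ext u v
  rw [pl_apply, pl_apply, k.pull_w w (map_dom k hi hj)]
  have e1 : loc C' C k.f j i (C.e i (Φ ζ)) = C'.e j ((k.f ∘ Φ) ζ) := by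
    show C'.e j (k.f ((C.e i).symm (C.e i (Φ ζ)))) = _
    rw [(C.e i).left_inv hi]
    rfl
  rw [e1]
  congr 1
  · congr 1
    exact fderiv_map h k hζ hi hj u
  · exact fderiv_map h k hζ hi hj v

theorem pull_eqv (h : SmI C S Φ) {w w' : F2 C} (he : Eqv w w') {ζ : E} (hζ : ζ ∈ S) :
    Per_368.pull w Φ ζ = Per_368.pull w' Φ ζ := by
  obtain ⟨i, hi⟩ := C.cover (Φ ζ)
  rw [h.pull_eq w hζ hi, h.pull_eq w' hζ hi]
  ext u v
  rw [pl_apply, pl_apply]
  exact he i _ ((C.e i).map_source hi) _ _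

theorem pull_pre (h : SmI C S Φ) (w : F2 C) {a : E' → E} {a' : E' →L[ℝ] E} {ζ : E'}
    (ha : HasFDerivAt a a' ζ) (hζ : a ζ ∈ S) (u v : E') :
    Per_368.pull w (fun q => Φ (a q)) ζ u v = Per_368.pull w Φ (a ζ) (a' u) (a' v) := by
  have hi := ci_mem C (Φ (a ζ))
  have h1 : HasFDerivAt (fun q => C.e (ci C (Φ (a ζ))) (Φ (a q)))
      ((fderiv ℝ (fun y => C.e (ci C (Φ (a ζ))) (Φ y)) (a ζ)).comp a') ζ :=
    (h.diffAt hζ hi).hasFDerivAt.comp ζ ha
  unfold Per_368.pull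
  rw [pl_apply, pl_apply, h1.fderiv]
  rfl

theorem smI_pre (h : SmI C S Φ) {a : E' → E} (ha : ContDiff ℝ ∞ a) :
    SmI C (a ⁻¹' S) (fun q => Φ (a q)) where
  op := h.op.preimage ha.continuous
  cont := h.cont.comp ha.continuous.continuousOn fun _ hq => hq
  sm i := (h.sm i).comp ha.contDiffOn fun _ hq => hq

section tub

variable {n : ℕ} {D : Set (Cn n)} {Φ : Cn n × Cn n → X} {l : Fin (2 * n) → Cn n → Cn n}
  {τ : Cn n → Cn n → Cn n → ℂ} {J : AJ C} {J' : AJ C'} {w₁ w₂ : F2 C}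

/-- transfer along an isomorphism -/
theorem HTub.map (t : HTub J w₁ w₂ n D Φ l τ) {g : SMap C' C} {k : SMap C C'} (hb : Bi g k)
    (hg : HolM g J' J) : HTub J' (g.pull w₁) (g.pull w₂) n D (k.f ∘ Φ) l τ where
  op := t.op
  cx := t.cx
  ne := t.ne
  sm := smI_map t.sm k
  hol p hp j hj u := by
    obtain ⟨i, hi⟩ := C.cover (Φ p)
    have hk : HolM k J J' := hb.holM hg
    have hj' : k.f (Φ p) ∈ (C'.e j).source := hj
    change fderiv ℝ (fun q => C'.e j (k.f (Φ q))) p _ = J'.J j (C'.e j (k.f (Φ p)))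
      (fderiv ℝ (fun q => C'.e j (k.f (Φ q))) p u)
    rw [fderiv_map t.sm k hp hi hj', fderiv_map t.sm k hp hi hj', t.hol p hp i hi,
      hk.h j i _ (map_dom k hi hj')]
    have e1 : loc C' C k.f j i (C.e i (Φ p)) = C'.e j (k.f (Φ p)) := by
      show C'.e j (k.f ((C.e i).symm (C.e i (Φ p)))) = _
      rw [(C.e i).left_inv hi]
    rw [e1]
  inj p hp j hj u v huv := by
    obtain ⟨i, hi⟩ := C.cover (Φ p)
    have hj' : k.f (Φ p) ∈ (C'.e j).source := hj
    change fderiv ℝ (fun q => C'.e j (k.f (Φ q))) p u =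
      fderiv ℝ (fun q => C'.e j (k.f (Φ q))) p v at huv
    rw [fderiv_map t.sm k hp hi hj', fderiv_map t.sm k hp hi hj'] at huv
    apply t.inj p hp i hi
    rw [← sub_eq_zero]
    exact hb.symm.imm j i _ (map_dom k hi hj') _ (by rw [map_sub, huv, sub_self])
  opn O hO hOo := by
    have h1 : (k.f ∘ Φ) '' O = g.f ⁻¹' (Φ '' O) := by
      ext x
      constructor
      · rintro ⟨p, hp, rfl⟩
        exact ⟨p, hp, (hb.gk _).symm⟩
      · rintro ⟨p, hp, hx⟩
        refine ⟨p, hp, ?_⟩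
        rw [Function.comp_apply, hx, hb.kg]
    rw [h1]
    exact (t.opn O hO hOo).preimage g.cont
  lhol := t.lhol
  lli := t.lli
  per y hy y' hy' x x' := by
    rw [← t.per y hy y' hy' x x']
    constructor
    · intro h
      have h2 := congrArg g.f h
      simp only [Function.comp_apply, hb.gk] at h2
      exact h2
    · intro h
      simp only [Function.comp_apply, h]
  sig p hp u w := by
    rw [pull_map t.sm k _ hp, pull_map t.sm k _ hp, pull_eqv t.sm (hb.pull_pull w₁) hp,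
      pull_eqv t.sm (hb.pull_pull w₂) hp]
    exact t.sig p hp u w

/-- scaling of the fibre coordinate -/
def aC (n : ℕ) (c : ℂ) : Cn n × Cn n →L[ℂ] Cn n × Cn n :=
  (ContinuousLinearMap.fst ℂ (Cn n) (Cn n)).prod (c • ContinuousLinearMap.snd ℂ (Cn n) (Cn n))

theorem aC_apply (c : ℂ) (p : Cn n × Cn n) : aC n c p = (p.1, c • p.2) := rfl

theorem aC_inv {c : ℂ} (hc : c ≠ 0) (p : Cn n × Cn n) : aC n c (aC n c⁻¹ p) = p := by
  rw [aC_apply, aC_apply, smul_smul, mul_inv_cancel₀ hc, one_smul]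

theorem aC_inv' {c : ℂ} (hc : c ≠ 0) (p : Cn n × Cn n) : aC n c⁻¹ (aC n c p) = p := by
  rw [aC_apply, aC_apply, smul_smul, inv_mul_cancel₀ hc, one_smul]

theorem aC_hasFDerivAt (c : ℂ) (p : Cn n × Cn n) :
    HasFDerivAt (fun q => aC n c q) ((aC n c).restrictScalars ℝ) p :=
  ((aC n c).restrictScalars ℝ).hasFDerivAt

theorem li_smul {ι : Type} {v : ι → Cn n} (h : LinearIndependent ℝ v) {c : ℂ} (hc : c ≠ 0) :
    LinearIndependent ℝ (fun j => c • v j) := by
  rw [linearIndependent_iff'] at h ⊢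
  intro s a ha
  refine h s a ?_
  have h1 : c • ∑ i ∈ s, a i • v i = 0 := by
    rw [← ha, Finset.smul_sum]
    exact Finset.sum_congr rfl fun i _ => (smul_comm (a i) c (v i)).symm
  exact (smul_eq_zero.1 h1).resolve_left hc

theorem cmul (c : ℂ) (a b : ℝ) : (((c.re * a + -c.im * b : ℝ) : ℂ) +
    Complex.I * ((c.im * a + c.re * b : ℝ) : ℂ)) = c * ((a : ℂ) + Complex.I * (b : ℂ)) := by
  apply Complex.ext <;> simp <;> ring

/-- multiplication of the symplectic form by a constant -/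
theorem HTub.scale (t : HTub J w₁ w₂ n D Φ l τ) {c : ℂ} (hc : c ≠ 0) {w₁' w₂' : F2 C}
    (h1 : Eqv w₁' (c.re • w₁ - c.im • w₂)) (h2 : Eqv w₂' (c.im • w₁ + c.re • w₂)) :
    HTub J w₁' w₂' n D (fun p => Φ (aC n c⁻¹ p)) (fun j y => c • l j y)
      (fun y u w => c * τ y u w) := by
  have hpre : (fun p => aC n c⁻¹ p) ⁻¹' (D ×ˢ (univ : Set (Cn n))) = D ×ˢ univ := by
    ext p
    simp [aC_apply]
  have hD : ∀ p ∈ D ×ˢ (univ : Set (Cn n)), aC n c⁻¹ p ∈ D ×ˢ (univ : Set (Cn n)) :=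
    fun p hp => ⟨hp.1, mem_univ _⟩
  have hfd : ∀ p ∈ D ×ˢ (univ : Set (Cn n)), ∀ i, Φ (aC n c⁻¹ p) ∈ (C.e i).source →
      fderiv ℝ (fun q => C.e i (Φ (aC n c⁻¹ q))) p =
        (fderiv ℝ (fun q => C.e i (Φ q)) (aC n c⁻¹ p)).comp ((aC n c⁻¹).restrictScalars ℝ) :=
    fun p hp i hi => ((t.sm.diffAt (hD p hp) hi).hasFDerivAt.comp p
      (aC_hasFDerivAt c⁻¹ p)).fderiv
  have hs : SmI C (D ×ˢ (univ : Set (Cn n))) (fun p => Φ (aC n c⁻¹ p)) := by
    have := smI_pre t.sm (a := fun p => aC n c⁻¹ p)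
      ((aC n c⁻¹).restrictScalars ℝ).contDiff
    rwa [hpre] at this
  refine
    { op := t.op
      cx := t.cx
      ne := t.ne
      sm := hs
      hol := fun p hp i hi u => ?_
      inj := fun p hp i hi u v huv => ?_
      opn := fun O hO hOo => ?_
      lhol := fun j => (t.lhol j).const_smul c
      lli := fun y hy => ?_
      per := fun y hy y' hy' x x' => ?_
      sig := fun p hp u w => ?_ }
  · rw [hfd p hp i hi]
    simp only [ContinuousLinearMap.comp_apply, ContinuousLinearMap.coe_restrictScalars']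
    rw [map_smul, t.hol _ (hD p hp) i hi]
  · rw [hfd p hp i hi] at huv
    simp only [ContinuousLinearMap.comp_apply, ContinuousLinearMap.coe_restrictScalars'] at huv
    have h3 := congrArg (aC n c) (t.inj _ (hD p hp) i hi huv)
    rwa [aC_inv hc, aC_inv hc] at h3
  · have h3 : (fun p => Φ (aC n c⁻¹ p)) '' O = Φ '' ((fun p => aC n c p) ⁻¹' O) := by
      ext x
      constructor
      · rintro ⟨p, hp, rfl⟩
        exact ⟨aC n c⁻¹ p, by rw [mem_preimage, aC_inv hc]; exact hp, rfl⟩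
      · rintro ⟨p, hp, rfl⟩
        exact ⟨aC n c p, hp, by simp only [aC_inv' hc]⟩
    rw [h3]
    refine t.opn _ (fun p hp => ?_) (hOo.preimage (aC n c).continuous)
    exact ⟨(hO hp).1, mem_univ _⟩
  · exact li_smul (t.lli y hy) hc
  · have h3 := t.per y hy y' hy' (c⁻¹ • x) (c⁻¹ • x')
    simp only [aC_apply]
    rw [h3]
    refine and_congr_right fun _ => exists_congr fun m => ?_
    have h4 : ∑ j, m j • c • l j y = c • ∑ j, m j • l j y := by
      rw [Finset.smul_sum]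
      exact Finset.sum_congr rfl fun j _ => smul_comm _ _ _
    rw [h4, ← smul_sub]
    constructor
    · intro h; rw [← h, smul_smul, mul_inv_cancel₀ hc, one_smul]
    · intro h; rw [h, smul_smul, inv_mul_cancel₀ hc, one_smul]
  · have e1 : ∀ v : F2 C, Per_368.pull v (fun p => Φ (aC n c⁻¹ p)) p u w =
        Per_368.pull v Φ (aC n c⁻¹ p) (aC n c⁻¹ u) (aC n c⁻¹ w) := fun v =>
      pull_pre t.sm v (aC_hasFDerivAt c⁻¹ p) (hD p hp) u w
    have e2 : ∀ (v v' : F2 C) (a b : ℝ) (q : Cn n × Cn n) (u w : Cn n × Cn n),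
        q ∈ D ×ˢ (univ : Set (Cn n)) → Per_368.pull (a • v + b • v') Φ q u w =
          a * Per_368.pull v Φ q u w + b * Per_368.pull v' Φ q u w := by
      intro v v' a b q u w hq
      obtain ⟨i, hi⟩ := C.cover (Φ q)
      rw [t.sm.pull_eq _ hq hi, t.sm.pull_eq _ hq hi, t.sm.pull_eq _ hq hi]
      simp [pl_apply]
    have e3 : c.re • w₁ - c.im • w₂ = c.re • w₁ + (-c.im) • w₂ := by
      rw [neg_smul, sub_eq_add_neg]
    rw [pull_eqv hs h1 hp, pull_eqv hs h2 hp, e1, e1, e3, e2 _ _ _ _ _ _ _ (hD p hp),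
      e2 _ _ _ _ _ _ _ (hD p hp)]
    have h3 := t.sig _ (hD p hp) (aC n c⁻¹ u) (aC n c⁻¹ w)
    rw [cmul, h3, mul_add]
    simp only [aC_apply]
    congr 1
    rw [Finset.mul_sum]
    refine Finset.sum_congr rfl fun k _ => ?_
    simp only [PiLp.smul_apply, smul_eq_mul]
    field_simp

end tub

end

end Crest.Agent.R281.Tub_836
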