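import Crest.Agent.R281.Tub2_57

/-!
# R281 (S0424), TUBE-HOL (helper57), part 3: periodic functions, Lagrangian graphs
-/

set_option autoImplicit false
set_option linter.unusedSectionVars false

open Set Filter Topology
open scoped ContDiff

namespace Crest.Agent.R281.Tub_57

noncomputable section

variable {N : ℕ}

/-- the Euclidean space -/
abbrev VN (N : ℕ) := EuclideanSpace ℝ (Fin N)

/-- the lattice vector of `k` -/
def kv (k : Fin N → ℤ) : VN N := WithLp.toLp 2 fun i => (k i : ℝ)

/-- `ℤ^N`-periodic functions -/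
def Per {F : Type*} (f : VN N → F) : Prop := ∀ (k : Fin N → ℤ) (x : VN N), f (x + kv k) = f x

theorem kv_add (k l : Fin N → ℤ) : kv (k + l) = kv k + kv l := by
  ext i
  simp [kv]

theorem kv_zero : kv (0 : Fin N → ℤ) = 0 := by
  ext i
  simp [kv]

/-- the unit cube -/
def cub (N : ℕ) : Set (VN N) := {y | ∀ i, y i ∈ Icc (0 : ℝ) 1}

theorem isCompact_cub : IsCompact (cub N) := by
  have h : cub N = (WithLp.toLp 2 : (Fin N → ℝ) → VN N) '' (Set.pi univ fun _ => Icc (0 : ℝ) 1) := by
    ext y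
    constructor
    · intro hy
      exact ⟨WithLp.ofLp y, fun i _ => hy i, rfl⟩
    · rintro ⟨z, hz, rfl⟩ i
      exact hz i (mem_univ _)
  rw [h]
  exact (isCompact_univ_pi fun _ => isCompact_Icc).image (PiLp.continuous_toLp 2 _)

theorem exists_cub (θ : VN N) : ∃ k : Fin N → ℤ, θ + kv k ∈ cub N := by
  refine ⟨fun i => -⌊θ i⌋, fun i => ?_⟩
  have h1 := Int.floor_le (θ i)
  have h2 := Int.lt_floor_add_one (θ i)
  simp only [kv, PiLp.add_apply, Int.cast_neg, mem_Icc]
  constructor <;> linarith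

theorem exists_max {U : VN N → ℝ} (hU : Continuous U) (hp : Per U) :
    ∃ θm, ∀ θ, U θ ≤ U θm := by
  obtain ⟨k0, hk0⟩ := exists_cub (0 : VN N)
  obtain ⟨m, -, hm⟩ := (isCompact_cub (N := N)).exists_isMaxOn ⟨_, hk0⟩ hU.continuousOn
  refine ⟨m, fun θ => ?_⟩
  obtain ⟨k, hk⟩ := exists_cub θ
  rw [← hp k θ]
  exact hm hk

/-- a function with periodic derivative and zero basic periods is periodic -/
theorem per_of {U : VN N → ℝ} {b : VN N → VN N →L[ℝ] ℝ} (hU : ∀ θ, HasFDerivAt U (b θ) θ)
    (hb : Per b) (h0 : ∀ j, U (kv (Pi.single j 1)) = U 0) : Per U := by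
  have h1 : ∀ k θ, U (θ + kv k) - U θ = U (kv k) - U 0 := by
    intro k θ
    have h2 : ∀ θ, HasFDerivAt (fun θ => U (θ + kv k) - U θ) (0 : VN N →L[ℝ] ℝ) θ := by
      intro θ
      have h3 : HasFDerivAt (fun θ => U (θ + kv k)) (b (θ + kv k)) θ := by
        have := HasFDerivAt.comp (g := U) θ (hU (θ + kv k)) ((hasFDerivAt_id θ).add_const (kv k))
        rwa [ContinuousLinearMap.comp_id] at this
      have h4 := h3.sub (hU θ)
      rw [hb k θ, sub_self] at h4
      exact h4
    have h5 := is_const_of_fderiv_eq_zero (𝕜 := ℝ) (f := fun θ => U (θ + kv k) - U θ)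
      (fun θ => (h2 θ).differentiableAt) (fun θ => (h2 θ).fderiv) θ 0
    simpa using h5
  let c : (Fin N → ℤ) →+ ℝ :=
    { toFun := fun k => U (kv k) - U 0
      map_zero' := by simp [kv_zero]
      map_add' := by
        intro k l
        have h2 := h1 k (kv l)
        have h3 : kv (k + l) = kv l + kv k := by rw [kv_add, add_comm]
        simp only [h3]
        linarith }
  have hc : c = 0 := by
    refine AddMonoidHom.functions_ext' _ _ _ fun j => ?_
    ext
    simp only [AddMonoidHom.comp_apply, AddMonoidHom.single_apply]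
    have := h0 j
    simp [c, this]
  intro k θ
  have h2 := h1 k θ
  have h3 : c k = 0 := by rw [hc]; rfl
  have h4 : U (kv k) - U 0 = 0 := h3
  linarith

/-- **Arzela-Ascoli** for bounded equi-Lipschitz periodic maps -/
theorem arz {F : Type} [NormedAddCommGroup F] [NormedSpace ℝ F] [ProperSpace F]
    {D : ℕ → VN N → F} {C : ℝ} (hb : ∀ n θ, ‖D n θ‖ ≤ C)
    (hl : ∀ n θ θ', ‖D n θ - D n θ'‖ ≤ C * ‖θ - θ'‖) (hp : ∀ n, Per (D n)) :
    ∃ (φ : ℕ → ℕ) (E : VN N → F), StrictMono φ ∧ Continuous E ∧ Per E ∧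
      TendstoUniformly (fun n => D (φ n)) E atTop := by
  haveI : CompactSpace (cub N) := isCompact_iff_compactSpace.1 isCompact_cub
  have hDc : ∀ n, Continuous (D n) := by
    intro n
    refine continuous_iff_continuousAt.2 fun θ => ?_
    rw [ContinuousAt, tendsto_iff_norm_sub_tendsto_zero]
    refine squeeze_zero (fun _ => norm_nonneg _) (fun θ' => hl n θ' θ) ?_
    have : Tendsto (fun θ' => C * ‖θ' - θ‖) (𝓝 θ) (𝓝 (C * ‖θ - θ‖)) :=
      (Continuous.tendsto (by fun_prop) θ)
    simpa using this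
  let f : ℕ → BoundedContinuousFunction (cub N) F := fun n =>
    BoundedContinuousFunction.mkOfCompact ⟨fun y => D n y, (hDc n).comp continuous_subtype_val⟩
  have hf : ∀ n (y : cub N), f n y = D n y := fun n y => rfl
  have hcomp : IsCompact (closure (range f)) := by
    refine BoundedContinuousFunction.arzela_ascoli (Metric.closedBall 0 C)
      (isCompact_closedBall _ _) _ ?_ ?_
    · rintro _ y ⟨n, rfl⟩
      rw [hf]
      simpa using hb n y
    · refine Metric.equicontinuous_of_continuity_modulus (fun r => C * r) ?_ _ ?_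
      · have : Tendsto (fun r : ℝ => C * r) (𝓝 0) (𝓝 (C * 0)) :=
          (Continuous.tendsto (by fun_prop) _)
        simpa using this
      · rintro x y ⟨_, n, rfl⟩
        show dist (f n x) (f n y) ≤ C * dist x y
        rw [hf, hf, dist_eq_norm, Subtype.dist_eq, dist_eq_norm]
        exact hl n _ _
  obtain ⟨g, -, φ, hφ, hlim⟩ := hcomp.tendsto_subseq (x := f) fun n => subset_closure ⟨n, rfl⟩
  choose ck hck using fun θ : VN N => exists_cub θ
  set E : VN N → F := fun θ => g ⟨θ + kv (ck θ), hck θ⟩ with hE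
  have hT : TendstoUniformly (fun n => D (φ n)) E atTop := by
    rw [Metric.tendstoUniformly_iff]
    intro ε hε
    filter_upwards [(Metric.tendsto_nhds.1 hlim) ε hε] with n hn θ
    have h1 := BoundedContinuousFunction.dist_coe_le_dist (f := f (φ n)) (g := g)
      ⟨θ + kv (ck θ), hck θ⟩
    rw [hf, hp (φ n) (ck θ) θ] at h1
    rw [dist_comm]
    exact lt_of_le_of_lt h1 hn
  refine ⟨φ, E, hφ, hT.continuous (Eventually.of_forall fun n => hDc (φ n)).frequently, ?_, hT⟩
  intro k θ
  refine tendsto_nhds_unique (hT.tendsto_at (θ + kv k)) ?_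
  refine (hT.tendsto_at θ).congr fun n => ?_
  exact (hp (φ n) k θ).symm

section Alg

variable {V : Type} [NormedAddCommGroup V] [NormedSpace ℝ V] [FiniteDimensional ℝ V]

/-- Lagrangian graphs: the vertical space is dual to the graph -/
theorem vert_surj {X : (V × V) →L[ℝ] (V × V) →L[ℝ] ℝ} (hX : ∀ u, (∀ w, X u w = 0) → u = 0)
    {A : V →L[ℝ] V} (hA : ∀ v w, X (v, A v) (w, A w) = 0) (ψ : V →L[ℝ] ℝ) :
    ∃ v, ∀ w, X (0, v) (w, A w) = ψ w := by
  let Xb : (V × V) →ₗ[ℝ] Module.Dual ℝ (V × V) :=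
    { toFun := fun u => (X u : (V × V) →ₗ[ℝ] ℝ)
      map_add' := fun u w => by ext <;> simp
      map_smul' := fun c u => by ext <;> simp }
  have hinj : Function.Injective Xb := by
    rw [← LinearMap.ker_eq_bot, LinearMap.ker_eq_bot']
    intro u hu
    exact hX u fun w => LinearMap.congr_fun hu w
  have hfin : Module.finrank ℝ (V × V) = Module.finrank ℝ (Module.Dual ℝ (V × V)) :=
    (Subspace.dual_finrank_eq).symm
  have hsur : Function.Surjective Xb :=
    (LinearMap.injective_iff_surjective_of_finrank_eq_finrank hfin).1 hinj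
  obtain ⟨z, hz⟩ := hsur ((ψ.comp (ContinuousLinearMap.fst ℝ V V) : (V × V) →L[ℝ] ℝ) :
    (V × V) →ₗ[ℝ] ℝ)
  refine ⟨z.2 - A z.1, fun w => ?_⟩
  have h1 : X z (w, A w) = ψ w := LinearMap.congr_fun hz (w, A w)
  have h2 : ((0 : V), z.2 - A z.1) = z - (z.1, A z.1) := by ext <;> simp
  rw [h2, map_sub, sub_apply, h1, hA, sub_zero]

theorem vert_inj {X : (V × V) →L[ℝ] (V × V) →L[ℝ] ℝ} (hX : ∀ u, (∀ w, X u w = 0) → u = 0)
    {A : V →L[ℝ] V} (hA : ∀ v w, X (v, A v) (w, A w) = 0) {v : V}
    (hv : ∀ w, X (0, v) (w, A w) = 0) : v = 0 := by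
  let Ψ : V →ₗ[ℝ] Module.Dual ℝ V :=
    { toFun := fun v => ((X (0, v)).comp (gr A) : V →ₗ[ℝ] ℝ)
      map_add' := fun u w => by
        ext z
        have : ((0 : V), u + w) = (0, u) + (0, w) := by ext <;> simp
        show X (0, u + w) (z, A z) = X (0, u) (z, A z) + X (0, w) (z, A z)
        rw [this, map_add]
        rfl
      map_smul' := fun c u => by
        ext z
        have : ((0 : V), c • u) = c • ((0 : V), u) := by ext <;> simp
        show X (0, c • u) (z, A z) = c * X (0, u) (z, A z)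
        rw [this, map_smul]
        rfl }
  have hfin : Module.finrank ℝ V = Module.finrank ℝ (Module.Dual ℝ V) :=
    (Subspace.dual_finrank_eq).symm
  have hsur : Function.Surjective Ψ := by
    intro ψ
    obtain ⟨v, hv⟩ := vert_surj hX hA (LinearMap.toContinuousLinearMap ψ)
    refine ⟨v, ?_⟩
    ext w
    exact hv w
  have hinj := (LinearMap.injective_iff_surjective_of_finrank_eq_finrank hfin).2 hsur
  apply hinj
  rw [map_zero]
  ext w
  exact hv w

/-- a vector orthogonal to a Lagrangian graph is tangent to it -/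
theorem tan_of_orth {X : (V × V) →L[ℝ] (V × V) →L[ℝ] ℝ} (hX : ∀ u, (∀ w, X u w = 0) → u = 0)
    {A : V →L[ℝ] V} (hA : ∀ v w, X (v, A v) (w, A w) = 0) {z : V × V}
    (hz : ∀ w, X z (w, A w) = 0) : z.2 = A z.1 := by
  have h : z.2 - A z.1 = 0 := by
    refine vert_inj hX hA fun w => ?_
    have h2 : ((0 : V), z.2 - A z.1) = z - (z.1, A z.1) := by ext <;> simp
    rw [h2, map_sub, sub_apply, hz, hA, sub_zero]
  exact sub_eq_zero.1 h

end Alg

end

end Crest.Agent.R281.Tub_57
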