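import Crest.Agent.R281.Tub3_57

/-!
# R281 (S0424), TUBE-HOL (helper57), part 4: the space of closed (1,0)-forms on a leaf
-/

set_option autoImplicit false
set_option linter.unusedSectionVars false

open Set Filter Topology
open scoped ContDiff

namespace Crest.Agent.R281.Tub_57

open Poi_234

noncomputable section

variable {N : ℕ}

/-- the tube -/
def tub (N : ℕ) (r : ℝ) : Set (VN N × VN N) := {p | ‖p.2‖ < r}

theorem isOpen_tub {r : ℝ} : IsOpen (tub N r) :=
  isOpen_lt (continuous_norm.comp continuous_snd) continuous_const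

theorem convex_tub {r : ℝ} : Convex ℝ (tub N r) := by
  intro p hp q hq s t hs ht hst
  have h1 := (convex_ball (0 : VN N) r) (x := p.2) (by simpa [tub] using hp) (y := q.2)
    (by simpa [tub] using hq) hs ht hst
  simpa [tub] using h1

/-- 2-forms on `V × V` -/
abbrev Fo (N : ℕ) := VN N × VN N → (VN N × VN N) →L[ℝ] (VN N × VN N) →L[ℝ] ℝ

/-- the holomorphic symplectic tube -/
structure Geo (r : ℝ) (x y : Fo N) (I : VN N × VN N → (VN N × VN N) →L[ℝ] (VN N × VN N)) :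
    Prop where
  xs : ContDiffOn ℝ ∞ x (tub N r)
  ys : ContDiffOn ℝ ∞ y (tub N r)
  xa : Alt2 x (tub N r)
  ya : Alt2 y (tub N r)
  xc : Closed2 x (tub N r)
  yc : Closed2 y (tub N r)
  xp : ∀ (k : Fin N → ℤ), ∀ p ∈ tub N r, x (p.1 + kv k, p.2) = x p
  yp : ∀ (k : Fin N → ℤ), ∀ p ∈ tub N r, y (p.1 + kv k, p.2) = y p
  Ic : ContinuousOn I (tub N r)
  Ip : ∀ (k : Fin N → ℤ), ∀ p ∈ tub N r, I (p.1 + kv k, p.2) = I p
  sq : ∀ p ∈ tub N r, ∀ u, I p (I p u) = -u
  xy : ∀ p ∈ tub N r, ∀ u w, x p (I p u) w = - y p u w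
  nd : ∀ p ∈ tub N r, ∀ u, (∀ w, x p u w = 0) → u = 0
  int : ∀ p ∈ tub N r, Integ I p

/-- isotropic graphs in the tube -/
structure Leaf (r : ℝ) (x y : Fo N) (a : VN N → VN N) : Prop where
  c1 : ContDiff ℝ 1 a
  per : Per a
  tub : ∀ θ, (θ, a θ) ∈ tub N r
  ix : Iso x a
  iy : Iso y a

theorem Per.fderiv {F : Type*} [NormedAddCommGroup F] [NormedSpace ℝ F] {f : VN N → F}
    (hf : Per f) (k : Fin N → ℤ) (θ : VN N) : fderiv ℝ f (θ + kv k) = fderiv ℝ f θ := by
  have h1 : _root_.fderiv ℝ (fun y => f (y + kv k)) θ = _root_.fderiv ℝ f (θ + kv k) :=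
    fderiv_comp_add_right _
  rw [← h1]
  congr 1
  exact funext fun y => hf k y

section

variable {r : ℝ} {x y : Fo N} {I : VN N × VN N → (VN N × VN N) →L[ℝ] (VN N × VN N)}
  {a : VN N → VN N}

namespace Geo

variable (G : Geo r x y I)
include G

theorem yI {p : VN N × VN N} (hp : p ∈ tub N r) (u w : VN N × VN N) :
    y p (I p u) w = x p u w := by
  have h := G.xy p hp (I p u) w
  rw [G.sq p hp, map_neg, neg_apply] at h
  linarith

theorem xI' {p : VN N × VN N} (hp : p ∈ tub N r) (u w : VN N × VN N) :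
    x p u (I p w) = - y p u w := by
  rw [G.xa.swap hp, G.xy p hp, G.ya.swap hp w u]
  ring

theorem yI' {p : VN N × VN N} (hp : p ∈ tub N r) (u w : VN N × VN N) :
    y p u (I p w) = x p u w := by
  rw [G.ya.swap hp, G.yI hp, G.xa.swap hp w u]
  ring

end Geo

/-- the complex structure of a leaf -/
def JJ (I : VN N × VN N → (VN N × VN N) →L[ℝ] (VN N × VN N)) (a : VN N → VN N) (θ : VN N) :
    VN N →L[ℝ] VN N :=
  (ContinuousLinearMap.fst ℝ (VN N) (VN N)).comp ((I (θ, a θ)).comp (gr (fderiv ℝ a θ)))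

theorem leaf_I (G : Geo r x y I) (L : Leaf r x y a) (θ w : VN N) :
    I (θ, a θ) (w, fderiv ℝ a θ w) = (JJ I a θ w, fderiv ℝ a θ (JJ I a θ w)) := by
  have h1 : (I (θ, a θ) (w, fderiv ℝ a θ w)).2 =
      fderiv ℝ a θ (I (θ, a θ) (w, fderiv ℝ a θ w)).1 := by
    refine tan_of_orth (G.nd _ (L.tub θ)) (L.ix θ) fun w' => ?_
    rw [G.xy _ (L.tub θ), L.iy, neg_zero]
  exact Prod.ext rfl h1

theorem leaf_J2 (G : Geo r x y I) (L : Leaf r x y a) (θ w : VN N) :
    JJ I a θ (JJ I a θ w) = -w := by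
  have h1 := leaf_I G L θ (JJ I a θ w)
  rw [← leaf_I G L θ w, G.sq _ (L.tub θ)] at h1
  have := congrArg Prod.fst h1
  simpa using this.symm

theorem leaf_smooth (G : Geo r x y I) (L : Leaf r x y a) : ContDiff ℝ ∞ a :=
  contDiff_iff_contDiffAt.2 fun θ =>
    (leaf_hol L.c1 (G.int _ (L.tub θ)) (fun θ w => leaf_I G L θ w)).1

theorem leaf_coord (G : Geo r x y I) (L : Leaf r x y a) (θ : VN N) : HCoord (JJ I a) θ :=
  (leaf_hol L.c1 (G.int _ (L.tub θ)) (fun θ w => leaf_I G L θ w)).2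

theorem ctr_add (om : Fo N) (a D E : VN N → VN N) (θ : VN N) :
    ctr om a (D + E) θ = ctr om a D θ + ctr om a E θ := by
  ext w
  have : ((0 : VN N), (D + E) θ) = (0, D θ) + (0, E θ) := by ext <;> simp
  rw [ctr_apply, this, map_add]
  rfl

theorem ctr_zero (om : Fo N) (a : VN N → VN N) (θ : VN N) :
    ctr om a (0 : VN N → VN N) θ = 0 := by
  ext w
  have : ((0 : VN N), (0 : VN N → VN N) θ) = 0 := rfl
  rw [ctr_apply, this, map_zero]
  rfl

theorem ctr_smul (om : Fo N) (a D : VN N → VN N) (c : ℝ) (θ : VN N) :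
    ctr om a (c • D) θ = c • ctr om a D θ := by
  ext w
  have : ((0 : VN N), (c • D) θ) = c • ((0 : VN N), D θ) := by ext <;> simp
  simp only [ctr_apply, this, map_smul, smul_apply]

/-- the space of vertical fields with exact contractions -/
def Hs (x y : Fo N) (a : VN N → VN N) : Submodule ℝ (VN N → VN N) where
  carrier := {D | Continuous D ∧ Per D ∧ (∃ U : VN N → ℝ, ∀ θ, HasFDerivAt U (ctr x a D θ) θ) ∧
    (∃ U : VN N → ℝ, ∀ θ, HasFDerivAt U (ctr y a D θ) θ)}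
  zero_mem' := by
    refine ⟨continuous_const, fun _ _ => rfl, ⟨fun _ => 0, fun θ => ?_⟩, ⟨fun _ => 0, fun θ => ?_⟩⟩
    · rw [ctr_zero]; exact hasFDerivAt_const (0 : ℝ) θ
    · rw [ctr_zero]; exact hasFDerivAt_const (0 : ℝ) θ
  add_mem' := by
    rintro D E ⟨h1, h2, ⟨U, hU⟩, U', hU'⟩ ⟨k1, k2, ⟨W, hW⟩, W', hW'⟩
    refine ⟨h1.add k1, fun k θ => ?_, ⟨U + W, fun θ => ?_⟩, U' + W', fun θ => ?_⟩
    · simp [h2 k θ, k2 k θ]
    · rw [ctr_add]; exact (hU θ).add (hW θ)
    · rw [ctr_add]; exact (hU' θ).add (hW' θ)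
  smul_mem' := by
    rintro c D ⟨h1, h2, ⟨U, hU⟩, U', hU'⟩
    refine ⟨h1.const_smul c, fun k θ => ?_, ⟨c • U, fun θ => ?_⟩, c • U', fun θ => ?_⟩
    · simp [h2 k θ]
    · rw [ctr_smul]; exact (hU θ).const_smul c
    · rw [ctr_smul]; exact (hU' θ).const_smul c

theorem prim_unique {U U' : VN N → ℝ} {b : VN N → VN N →L[ℝ] ℝ} (hU : ∀ θ, HasFDerivAt U (b θ) θ)
    (hU' : ∀ θ, HasFDerivAt U' (b θ) θ) (θ θ' : VN N) : U θ - U θ' = U' θ - U' θ' := by
  have h2 : ∀ θ, HasFDerivAt (fun θ => U θ - U' θ) (0 : VN N →L[ℝ] ℝ) θ := by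
    intro θ
    have := (hU θ).sub (hU' θ)
    rw [sub_self] at this
    exact this
  have h5 := is_const_of_fderiv_eq_zero (𝕜 := ℝ) (f := fun θ => U θ - U' θ)
    (fun θ => (h2 θ).differentiableAt) (fun θ => (h2 θ).fderiv) θ θ'
  linarith

/-- a primitive -/
def prm (D : Hs x y a) : VN N → ℝ := D.2.2.2.1.choose

theorem prm_spec (D : Hs x y a) (θ : VN N) : HasFDerivAt (prm D) (ctr x a D.1 θ) θ :=
  D.2.2.2.1.choose_spec θ

/-- the period map -/
def pm (x y : Fo N) (a : VN N → VN N) : Hs x y a →ₗ[ℝ] (Fin N → ℝ) where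
  toFun D j := prm D (kv (Pi.single j 1)) - prm D 0
  map_add' D E := by
    funext j
    have h1 : ∀ θ, HasFDerivAt (prm D + prm E) (ctr x a (D + E).1 θ) θ := fun θ => by
      rw [show (D + E).1 = D.1 + E.1 from rfl, ctr_add]
      exact (prm_spec D θ).add (prm_spec E θ)
    have h2 := prim_unique (prm_spec (D + E)) h1 (kv (Pi.single j 1)) 0
    rw [h2]
    simp only [Pi.add_apply]
    ring
  map_smul' c D := by
    funext j
    have h1 : ∀ θ, HasFDerivAt (c • prm D) (ctr x a (c • D).1 θ) θ := fun θ => by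
      rw [show (c • D).1 = c • D.1 from rfl, ctr_smul]
      exact (prm_spec D θ).const_smul c
    have h2 := prim_unique (prm_spec (c • D)) h1 (kv (Pi.single j 1)) 0
    rw [h2]
    simp only [Pi.smul_apply, smul_eq_mul, RingHom.id_apply]
    ring

/-- **injectivity of real periods** -/
theorem zero_of_per (G : Geo r x y I) (L : Leaf r x y a) {D : VN N → VN N} {U U' : VN N → ℝ}
    (hU : ∀ θ, HasFDerivAt U (ctr x a D θ) θ) (hU' : ∀ θ, HasFDerivAt U' (ctr y a D θ) θ)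
    (hp : Per U) : D = 0 := by
  have hUc : Continuous U := continuous_iff_continuousAt.2 fun θ => (hU θ).continuousAt
  obtain ⟨θm, hm⟩ := exists_max hUc hp
  have h1 : ∀ θ, HasFDerivAt U' (-((ctr x a D θ).comp (JJ I a θ))) θ := by
    intro θ
    refine (hU' θ).congr_fderiv ?_
    ext w
    rw [neg_apply, ContinuousLinearMap.comp_apply, ctr_apply, ctr_apply, ← leaf_I G L,
      G.xI' (L.tub θ), neg_neg]
  have h2 := const_of_max (leaf_J2 G L) (leaf_coord G L) hU h1 hm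
  funext θ
  refine vert_inj (G.nd _ (L.tub θ)) (L.ix θ) fun w => ?_
  have h3 : HasFDerivAt U (0 : VN N →L[ℝ] ℝ) θ := by
    have : U = fun _ => U θm := funext h2
    rw [this]
    exact hasFDerivAt_const _ _
  have h4 := (hU θ).unique h3
  have := ContinuousLinearMap.ext_iff.1 h4 w
  simpa using this

theorem per_ctr {om : Fo N} (hom : ∀ (k : Fin N → ℤ), ∀ p ∈ tub N r, om (p.1 + kv k, p.2) = om p)
    (ha : Per a) (hg : ∀ θ, (θ, a θ) ∈ tub N r)
    {D : VN N → VN N} (hD : Per D) : Per (ctr om a D) := by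
  intro k θ
  have h1 := hom k (θ, a θ) (hg θ)
  simp only at h1
  rw [ctr, ctr, ha k θ, hD k θ, h1, ha.fderiv k θ]

theorem pm_inj (G : Geo r x y I) (L : Leaf r x y a) : Function.Injective (pm x y a) := by
  rw [← LinearMap.ker_eq_bot, LinearMap.ker_eq_bot']
  intro D hD
  obtain ⟨U', hU'⟩ := D.2.2.2.2
  have h1 : Per (prm D) := by
    refine per_of (prm_spec D) (per_ctr G.xp L.per L.tub D.2.2.1) fun j => ?_
    have := congrFun hD j
    simp only [pm, LinearMap.coe_mk, AddHom.coe_mk, Pi.zero_apply] at this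
    linarith
  exact Subtype.ext (zero_of_per G L (prm_spec D) hU' h1)

theorem finite_Hs (G : Geo r x y I) (L : Leaf r x y a) : Module.Finite ℝ (Hs x y a) :=
  Module.Finite.of_injective (pm x y a) (pm_inj G L)

theorem finrank_Hs_le (G : Geo r x y I) (L : Leaf r x y a) :
    Module.finrank ℝ (Hs x y a) ≤ N := by
  have := LinearMap.finrank_le_finrank_of_injective (pm_inj G L)
  simpa using this

/-- multiplication by `i` -/
def iD (I : VN N × VN N → (VN N × VN N) →L[ℝ] (VN N × VN N)) (a D : VN N → VN N) (θ : VN N) : VN N :=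
  (I (θ, a θ) (0, D θ)).2 - fderiv ℝ a θ (I (θ, a θ) (0, D θ)).1

theorem iD_eq (D : VN N → VN N) (θ : VN N) : ((0 : VN N), iD I a D θ) = I (θ, a θ) (0, D θ) -
    ((I (θ, a θ) (0, D θ)).1, fderiv ℝ a θ (I (θ, a θ) (0, D θ)).1) := by
  ext <;> simp [iD]

theorem ctr_iD_x (G : Geo r x y I) (L : Leaf r x y a) (D : VN N → VN N) (θ : VN N) :
    ctr x a (iD I a D) θ = - ctr y a D θ := by
  ext w
  rw [ctr_apply, iD_eq, map_sub, sub_apply, L.ix, sub_zero, G.xy _ (L.tub θ)]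
  rfl

theorem ctr_iD_y (G : Geo r x y I) (L : Leaf r x y a) (D : VN N → VN N) (θ : VN N) :
    ctr y a (iD I a D) θ = ctr x a D θ := by
  ext w
  rw [ctr_apply, iD_eq, map_sub, sub_apply, L.iy, sub_zero, G.yI (L.tub θ)]
  rfl

theorem iD_mem (G : Geo r x y I) (L : Leaf r x y a) {D : VN N → VN N} (hD : D ∈ Hs x y a) :
    iD I a D ∈ Hs x y a := by
  obtain ⟨h1, h2, ⟨U, hU⟩, U', hU'⟩ := hD
  have hac : Continuous a := L.c1.continuous
  have hac' : Continuous (fderiv ℝ a) := L.c1.continuous_fderiv (by simp)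
  have hIc : Continuous fun θ => I (θ, a θ) :=
    G.Ic.comp_continuous (continuous_id.prodMk hac) L.tub
  have hc : Continuous fun θ => I (θ, a θ) (0, D θ) := hIc.clm_apply (continuous_const.prodMk h1)
  refine ⟨?_, ?_, ⟨-U', fun θ => ?_⟩, ⟨U, fun θ => ?_⟩⟩
  · exact (continuous_snd.comp hc).sub (hac'.clm_apply (continuous_fst.comp hc))
  · intro k θ
    have h3 := G.Ip k (θ, a θ) (L.tub θ)
    simp only at h3
    rw [iD, iD, L.per k θ, h2 k θ, h3, L.per.fderiv k θ]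
  · rw [ctr_iD_x G L]; exact (hU' θ).neg
  · rw [ctr_iD_y G L]; exact hU θ

end

end

end Crest.Agent.R281.Tub_57
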