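import Crest.Agent.R281.Tub4_57

/-!
# R281 (S0424), TUBE-HOL (helper57), part 5: families of Lagrangian graphs, limit fields
-/

set_option autoImplicit false
set_option linter.unusedSectionVars false

open Set Filter Topology
open scoped ContDiff

namespace Crest.Agent.R281.Tub_57

open Poi_234

noncomputable section

variable {N : ℕ}

/-- a bi-Lipschitz family of isotropic graphs filling an open set, normalised by `A s 0 = s` -/
structure LF (r : ℝ) (x y : Fo N) (S : Set (VN N)) (A : VN N → VN N → VN N) (K : ℝ) : Prop where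
  K0 : 0 ≤ K
  So : IsOpen S
  leaf : ∀ s ∈ S, Leaf r x y (A s)
  norm : ∀ s ∈ S, A s 0 = s
  lip : ∀ s ∈ S, ∀ s' ∈ S, ∀ θ, ‖A s θ - A s' θ‖ ≤ K * ‖s - s'‖
  lip' : ∀ s ∈ S, ∀ s' ∈ S, ∀ θ, ‖fderiv ℝ (A s) θ - fderiv ℝ (A s') θ‖ ≤ K * ‖s - s'‖
  low : ∀ s ∈ S, ∀ s' ∈ S, ∀ θ, ‖s - s'‖ ≤ K * ‖A s θ - A s' θ‖
  op : ∀ s ∈ S, ∀ θ, ∀ᶠ v in 𝓝 (A s θ), ∃ s' ∈ S, A s' θ = v

variable {r : ℝ} {x y : Fo N} {I : VN N × VN N → (VN N × VN N) →L[ℝ] (VN N × VN N)}
  {S : Set (VN N)} {A : VN N → VN N → VN N} {K : ℝ}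

theorem joint_lim {F : Type*} [NormedAddCommGroup F] {f : ℕ → VN N → F} {g : VN N → F} {e : ℕ → ℝ}
    (hg : Continuous g) (he : Tendsto e atTop (𝓝 0)) (h : ∀ n θ, ‖f n θ - g θ‖ ≤ e n) (x : VN N) :
    Tendsto (fun y : ℕ × VN N => f y.1 y.2) (atTop ×ˢ 𝓝 x) (𝓝 (g x)) := by
  have h1 : Tendsto (fun y : ℕ × VN N => f y.1 y.2 - g y.2) (atTop ×ˢ 𝓝 x) (𝓝 0) :=
    squeeze_zero_norm (fun y => h y.1 y.2) (he.comp tendsto_fst)
  have h2 : Tendsto (fun y : ℕ × VN N => g y.2) (atTop ×ˢ 𝓝 x) (𝓝 (g x)) :=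
    (hg.tendsto x).comp tendsto_snd
  have h3 := h1.add h2
  rw [zero_add] at h3
  exact h3.congr fun y => by simp

theorem two_le_inf : (2 : ℕ∞ω) ≤ ∞ := WithTop.coe_le_coe.2 (le_top : (2 : ℕ∞) ≤ ⊤)

/-- **limit fields** -/
theorem limit_field (G : Geo r x y I) (F : LF r x y S A K) {s : VN N} (hs : s ∈ S)
    {p q : ℕ → VN N} {t : ℕ → ℝ} {C : ℝ} (hp : ∀ n, p n ∈ S) (hq : ∀ n, q n ∈ S)
    (lp : Tendsto p atTop (𝓝 s)) (lq : Tendsto q atTop (𝓝 s)) (ht : ∀ n, 0 < t n)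
    (hpq : ∀ n, K * ‖p n - q n‖ ≤ C * t n) :
    ∃ (φ : ℕ → ℕ) (E : VN N → VN N), StrictMono φ ∧ E ∈ Hs x y (A s) ∧
      TendstoUniformly (fun n θ => (t (φ n))⁻¹ • (A (p (φ n)) θ - A (q (φ n)) θ)) E atTop := by
  have hc1 : ∀ n θ, ‖(t n)⁻¹ • (A (p n) θ - A (q n) θ)‖ ≤ C := by
    intro n θ
    rw [norm_smul, norm_inv, Real.norm_of_nonneg (ht n).le, inv_mul_le_iff₀ (ht n), mul_comm]
    exact (F.lip _ (hp n) _ (hq n) θ).trans (hpq n)
  have hd : ∀ s ∈ S, Differentiable ℝ (A s) := fun s hs =>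
    (F.leaf s hs).c1.differentiable (by simp)
  have hc2 : ∀ n θ θ', ‖(t n)⁻¹ • (A (p n) θ - A (q n) θ) - (t n)⁻¹ • (A (p n) θ' - A (q n) θ')‖ ≤
      C * ‖θ - θ'‖ := by
    intro n θ θ'
    have h1 : ∀ z, HasFDerivAt (fun z => (t n)⁻¹ • (A (p n) z - A (q n) z))
        ((t n)⁻¹ • (fderiv ℝ (A (p n)) z - fderiv ℝ (A (q n)) z)) z := fun z =>
      HasFDerivAt.const_smul ((hd _ (hp n) z).hasFDerivAt.fun_sub (hd _ (hq n) z).hasFDerivAt)
        (t n)⁻¹
    have h2 : ∀ z, ‖(t n)⁻¹ • (fderiv ℝ (A (p n)) z - fderiv ℝ (A (q n)) z)‖ ≤ C := by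
      intro z
      rw [norm_smul, norm_inv, Real.norm_of_nonneg (ht n).le, inv_mul_le_iff₀ (ht n), mul_comm]
      exact (F.lip' _ (hp n) _ (hq n) z).trans (hpq n)
    exact (convex_univ : Convex ℝ (univ : Set (VN N))).norm_image_sub_le_of_norm_hasFDerivWithin_le
      (fun z _ => (h1 z).hasFDerivWithinAt) (fun z _ => h2 z) (mem_univ _) (mem_univ _)
  have hper : ∀ n, Per (fun θ => (t n)⁻¹ • (A (p n) θ - A (q n) θ)) := by
    intro n k θ
    simp only [(F.leaf _ (hp n)).per k θ, (F.leaf _ (hq n)).per k θ]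
  obtain ⟨φ, E, hφ, hEc, hEp, hE⟩ := arz hc1 hc2 hper
  refine ⟨φ, E, hφ, ?_, hE⟩
  have lp' : Tendsto (fun n => p (φ n)) atTop (𝓝 s) := lp.comp hφ.tendsto_atTop
  have lq' : Tendsto (fun n => q (φ n)) atTop (𝓝 s) := lq.comp hφ.tendsto_atTop
  have hsm : ∀ s ∈ S, ContDiff ℝ ∞ (A s) := fun s hs => leaf_smooth G (F.leaf s hs)
  have he : ∀ {u : ℕ → VN N}, Tendsto u atTop (𝓝 s) →
      Tendsto (fun n => K * ‖u n - s‖) atTop (𝓝 0) := by
    intro u hu
    have := (tendsto_iff_norm_sub_tendsto_zero.1 hu).const_mul K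
    simpa using this
  have hac : Continuous (A s) := (hsm s hs).continuous
  have hac' : Continuous (fderiv ℝ (A s)) := (hsm s hs).continuous_fderiv (by simp)
  have key : ∀ om : Fo N, ContDiffOn ℝ ∞ om (tub N r) → Alt2 om (tub N r) → Closed2 om (tub N r) →
      (∀ s ∈ S, Iso om (A s)) → ∃ U : VN N → ℝ, ∀ θ, HasFDerivAt U (ctr om (A s) E θ) θ := by
    intro om h1 h2 h3 h4
    refine limit_exact isOpen_tub convex_tub h1 h2 h3 (p := fun n => A (p (φ n)))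
      (q := fun n => A (q (φ n))) (t := fun n => t (φ n)) ((hsm s hs).of_le (by simp))
      (fun n => (hsm _ (hp _)).of_le two_le_inf)
      (fun n => (hsm _ (hq _)).of_le two_le_inf) (F.leaf s hs).tub
      (fun n => (F.leaf _ (hp _)).tub) (fun n => (F.leaf _ (hq _)).tub) (fun n => h4 _ (hp _))
      (fun n => h4 _ (hq _)) (fun n => (ht _).ne') hEc ?_ ?_ ?_ ?_ ?_
    · exact joint_lim hac (he lp') fun n θ => F.lip _ (hp _) _ hs θ
    · exact joint_lim hac (he lq') fun n θ => F.lip _ (hq _) _ hs θ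
    · exact joint_lim hac' (he lp') fun n θ => F.lip' _ (hp _) _ hs θ
    · exact joint_lim hac' (he lq') fun n θ => F.lip' _ (hq _) _ hs θ
    · intro z
      have h5 := hE.tendstoLocallyUniformly
      rw [tendstoLocallyUniformly_iff_forall_tendsto] at h5
      have h6 := h5 z
      have h7 : Tendsto (fun y : ℕ × VN N => E y.2) (atTop ×ˢ 𝓝 z) (𝓝 (E z)) :=
        (hEc.tendsto z).comp tendsto_snd
      exact (tendsto_iff_of_dist (by
        rw [Metric.uniformity_eq_comap_nhds_zero, tendsto_comap_iff] at h6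
        exact h6)).1 h7
  exact ⟨hEc, hEp, key x G.xs G.xa G.xc fun s hs => (F.leaf s hs).ix,
    key y G.ys G.ya G.yc fun s hs => (F.leaf s hs).iy⟩

/-- values of limit fields -/
theorem exists_field (G : Geo r x y I) (F : LF r x y S A K) {s : VN N} (hs : s ∈ S) (θ u : VN N) :
    ∃ E ∈ Hs x y (A s), E θ = u ∧ ∀ θ', ‖E θ'‖ ≤ K * (K * ‖u‖) := by
  -- choose the parameters
  have h1 : ∀ᶠ t : ℝ in 𝓝 0, ∃ s' ∈ S, A s' θ = A s θ + t • u := by
    have h2 : Tendsto (fun t : ℝ => A s θ + t • u) (𝓝 0) (𝓝 (A s θ)) := by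
      have : Tendsto (fun t : ℝ => A s θ + t • u) (𝓝 0) (𝓝 (A s θ + (0 : ℝ) • u)) :=
        Continuous.tendsto (by fun_prop) _
      simpa using this
    exact h2.eventually (F.op s hs θ)
  obtain ⟨δ, hδ, h2⟩ := Metric.eventually_nhds_iff.1 h1
  set t : ℕ → ℝ := fun n => (δ / 2) * (1 / ((n : ℝ) + 1)) with ht
  have ht0 : ∀ n, 0 < t n := fun n => by positivity
  have htl : Tendsto t atTop (𝓝 0) := by
    have := (tendsto_one_div_add_atTop_nhds_zero_nat (𝕜 := ℝ)).const_mul (δ / 2)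
    rwa [mul_zero] at this
  have htδ : ∀ n, t n < δ := by
    intro n
    have h3 : 1 / ((n : ℝ) + 1) ≤ 1 := by
      rw [div_le_one (by positivity)]
      linarith [(Nat.cast_nonneg n : (0 : ℝ) ≤ n)]
    calc t n ≤ (δ / 2) * 1 := by
          simp only [ht]
          gcongr
      _ < δ := by linarith
  have h3 : ∀ n, ∃ s' ∈ S, A s' θ = A s θ + t n • u := fun n => h2 (by
    rw [dist_zero_right, Real.norm_of_nonneg (ht0 n).le]
    exact htδ n)
  choose p hp hpe using h3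
  have h4 : ∀ n, ‖p n - s‖ ≤ K * (t n * ‖u‖) := by
    intro n
    have := F.low _ (hp n) _ hs θ
    rwa [hpe n, add_sub_cancel_left, norm_smul, Real.norm_of_nonneg (ht0 n).le] at this
  have lp : Tendsto p atTop (𝓝 s) := by
    rw [tendsto_iff_norm_sub_tendsto_zero]
    refine squeeze_zero (fun _ => norm_nonneg _) h4 ?_
    have := (htl.mul_const ‖u‖).const_mul K
    simpa using this
  obtain ⟨φ, E, hφ, hE, hT⟩ := limit_field G F hs (C := K * (K * ‖u‖)) hp (fun _ => hs) lp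
    tendsto_const_nhds ht0 (fun n => by
      calc K * ‖p n - s‖ ≤ K * (K * (t n * ‖u‖)) := mul_le_mul_of_nonneg_left (h4 n) F.K0
        _ = K * (K * ‖u‖) * t n := by ring)
  refine ⟨E, hE, ?_, fun θ' => ?_⟩
  · refine tendsto_nhds_unique (hT.tendsto_at θ) ?_
    refine tendsto_const_nhds.congr fun n => ?_
    simp only [hpe, add_sub_cancel_left, smul_smul, inv_mul_cancel₀ (ht0 _).ne', one_smul]
  · refine le_of_tendsto (hT.tendsto_at θ').norm (Eventually.of_forall fun n => ?_)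
    rw [norm_smul, norm_inv, Real.norm_of_nonneg (ht0 _).le, inv_mul_le_iff₀ (ht0 _)]
    calc ‖A (p (φ n)) θ' - A s θ'‖ ≤ K * ‖p (φ n) - s‖ := F.lip _ (hp _) _ hs θ'
      _ ≤ K * (K * (t (φ n) * ‖u‖)) := mul_le_mul_of_nonneg_left (h4 _) F.K0
      _ = t (φ n) * (K * (K * ‖u‖)) := by ring

/-- evaluation -/
def ev (x y : Fo N) (a : VN N → VN N) (θ : VN N) : Hs x y a →ₗ[ℝ] VN N where
  toFun E := E.1 θ
  map_add' _ _ := rfl
  map_smul' _ _ := rfl

theorem ev_bij (G : Geo r x y I) (F : LF r x y S A K) {s : VN N} (hs : s ∈ S) (θ : VN N) :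
    Function.Bijective (ev x y (A s) θ) := by
  have h1 : Function.Surjective (ev x y (A s) θ) := by
    intro u
    obtain ⟨E, hE, hu, -⟩ := exists_field G F hs θ u
    exact ⟨⟨E, hE⟩, hu⟩
  have := finite_Hs G (F.leaf s hs)
  have h2 : Module.finrank ℝ (Hs x y (A s)) = Module.finrank ℝ (VN N) := by
    refine le_antisymm ?_ (LinearMap.finrank_le_finrank_of_surjective (f := ev x y (A s) θ) h1)
    simpa using finrank_Hs_le G (F.leaf s hs)
  exact ⟨(LinearMap.injective_iff_surjective_of_finrank_eq_finrank h2).2 h1, h1⟩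

theorem field_bound (G : Geo r x y I) (F : LF r x y S A K) {s : VN N} (hs : s ∈ S)
    {E : VN N → VN N} (hE : E ∈ Hs x y (A s)) (θ θ' : VN N) : ‖E θ'‖ ≤ K * (K * ‖E θ‖) := by
  obtain ⟨E', hE', hu, hb⟩ := exists_field G F hs θ (E θ)
  have h1 : (⟨E, hE⟩ : Hs x y (A s)) = ⟨E', hE'⟩ := (ev_bij G F hs θ).1 hu.symm
  have h2 : E = E' := congrArg Subtype.val h1
  rw [h2]
  rw [h2] at hb
  exact hb θ'

/-- the derivative of the family -/
def Ms (G : Geo r x y I) (F : LF r x y S A K) {s : VN N} (hs : s ∈ S) (θ : VN N) :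
    VN N ≃L[ℝ] VN N :=
  ((LinearEquiv.ofBijective _ (ev_bij G F hs 0)).symm.trans
    (LinearEquiv.ofBijective _ (ev_bij G F hs θ))).toContinuousLinearEquiv

theorem Ms_field (G : Geo r x y I) (F : LF r x y S A K) {s : VN N} (hs : s ∈ S)
    {E : VN N → VN N} (hE : E ∈ Hs x y (A s)) (θ : VN N) : Ms G F hs θ (E 0) = E θ := by
  have h1 : (LinearEquiv.ofBijective _ (ev_bij G F hs 0)).symm (E 0) = ⟨E, hE⟩ := by
    rw [LinearEquiv.symm_apply_eq]
    rfl
  show (LinearEquiv.ofBijective _ (ev_bij G F hs θ))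
    ((LinearEquiv.ofBijective _ (ev_bij G F hs 0)).symm (E 0)) = E θ
  rw [h1]
  rfl

theorem exists_field0 (G : Geo r x y I) (F : LF r x y S A K) {s : VN N} (hs : s ∈ S) (u : VN N) :
    ∃ E ∈ Hs x y (A s), E 0 = u ∧ ∀ θ, Ms G F hs θ u = E θ := by
  obtain ⟨E, hE, hu, -⟩ := exists_field G F hs 0 u
  refine ⟨E, hE, hu, fun θ => ?_⟩
  rw [← hu]
  exact Ms_field G F hs hE θ

theorem Ms_bound (G : Geo r x y I) (F : LF r x y S A K) {s : VN N} (hs : s ∈ S) (θ u : VN N) :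
    ‖Ms G F hs θ u‖ ≤ K * (K * ‖u‖) := by
  obtain ⟨E, hE, hu, h⟩ := exists_field0 G F hs u
  rw [h, ← hu]
  exact field_bound G F hs hE 0 θ

theorem Ms_cont (G : Geo r x y I) (F : LF r x y S A K) {s : VN N} (hs : s ∈ S) :
    Continuous fun θ => (Ms G F hs θ : VN N →L[ℝ] VN N) := by
  rw [continuous_clm_apply]
  intro u
  obtain ⟨E, hE, hu, h⟩ := exists_field0 G F hs u
  exact hE.1.congr fun θ => (h θ).symm

/-- **strict differentiability of the family, uniformly along the leaves** -/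
theorem strict_fam (G : Geo r x y I) (F : LF r x y S A K) {s : VN N} (hs : s ∈ S) {ε : ℝ}
    (hε : 0 < ε) : ∃ δ > 0, ∀ p ∈ S, ∀ q ∈ S, ‖p - s‖ < δ → ‖q - s‖ < δ → ∀ θ,
      ‖A p θ - A q θ - Ms G F hs θ (p - q)‖ ≤ ε * ‖p - q‖ := by
  by_contra hcon
  push Not at hcon
  have h1 := fun n : ℕ => hcon (1 / ((n : ℝ) + 1)) (by positivity)
  choose p hp q hq hpn hqn θ hθ using h1
  have hz := tendsto_one_div_add_atTop_nhds_zero_nat (𝕜 := ℝ)
  have lp : Tendsto p atTop (𝓝 s) := by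
    rw [tendsto_iff_norm_sub_tendsto_zero]
    exact squeeze_zero (fun _ => norm_nonneg _) (fun n => (hpn n).le) hz
  have lq : Tendsto q atTop (𝓝 s) := by
    rw [tendsto_iff_norm_sub_tendsto_zero]
    exact squeeze_zero (fun _ => norm_nonneg _) (fun n => (hqn n).le) hz
  have hne : ∀ n, 0 < ‖p n - q n‖ := by
    intro n
    rcases (norm_nonneg (p n - q n)).eq_or_lt with h | h
    · exfalso
      have h2 := hθ n
      have h3 : p n = q n := by
        rw [← sub_eq_zero, ← norm_eq_zero]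
        exact h.symm
      rw [h3] at h2
      simp at h2
    · exact h
  obtain ⟨φ, E, hφ, hE, hT⟩ := limit_field G F hs (C := K) (t := fun n => ‖p n - q n‖) hp hq lp lq
    hne (fun n => le_rfl)
  -- the value at 0
  set u : ℕ → VN N := fun n => (‖p (φ n) - q (φ n)‖)⁻¹ • (p (φ n) - q (φ n)) with hu
  have h2 : Tendsto u atTop (𝓝 (E 0)) := by
    have := hT.tendsto_at 0
    refine this.congr fun n => ?_
    rw [F.norm _ (hp _), F.norm _ (hq _)]
  have h3 : ∀ᶠ n in atTop, ‖(‖p (φ n) - q (φ n)‖)⁻¹ • (A (p (φ n)) (θ (φ n)) -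
      A (q (φ n)) (θ (φ n))) - E (θ (φ n))‖ < ε / 2 := by
    filter_upwards [(Metric.tendstoUniformly_iff.1 hT) (ε / 2) (by positivity)] with n hn
    have := hn (θ (φ n))
    rwa [dist_comm, dist_eq_norm] at this
  have h4 : Tendsto (fun n => K * (K * ‖E 0 - u n‖)) atTop (𝓝 0) := by
    have h5 := ((tendsto_const_nhds (x := E 0)).sub h2).norm
    have := (h5.const_mul K).const_mul K
    simpa using this
  have h5 : ∀ᶠ n in atTop, K * (K * ‖E 0 - u n‖) < ε / 2 :=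
    h4.eventually_lt_const (by positivity)
  obtain ⟨n, h6, h7⟩ := (h3.and h5).exists
  have h8 := hθ (φ n)
  have h9 : ‖Ms G F hs (θ (φ n)) (E 0 - u n)‖ < ε / 2 :=
    (Ms_bound G F hs _ _).trans_lt h7
  rw [map_sub, Ms_field G F hs hE] at h9
  have hpos := hne (φ n)
  have h10 : ‖(‖p (φ n) - q (φ n)‖)⁻¹ • (A (p (φ n)) (θ (φ n)) - A (q (φ n)) (θ (φ n)) -
      Ms G F hs (θ (φ n)) (p (φ n) - q (φ n)))‖ < ε := by
    have e : (‖p (φ n) - q (φ n)‖)⁻¹ • (A (p (φ n)) (θ (φ n)) - A (q (φ n)) (θ (φ n)) -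
        Ms G F hs (θ (φ n)) (p (φ n) - q (φ n))) =
        ((‖p (φ n) - q (φ n)‖)⁻¹ • (A (p (φ n)) (θ (φ n)) - A (q (φ n)) (θ (φ n))) -
          E (θ (φ n))) + (E (θ (φ n)) - Ms G F hs (θ (φ n)) (u n)) := by
      have e2 : Ms G F hs (θ (φ n)) (u n) =
          (‖p (φ n) - q (φ n)‖)⁻¹ • Ms G F hs (θ (φ n)) (p (φ n) - q (φ n)) := map_smul _ _ _
      rw [e2, smul_sub]
      abel
    rw [e]
    calc _ ≤ _ := norm_add_le _ _
      _ < ε / 2 + ε / 2 := add_lt_add h6 h9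
      _ = ε := by ring
  rw [norm_smul, norm_inv, norm_norm, inv_mul_lt_iff₀ hpos] at h10
  linarith

end

end Crest.Agent.R281.Tub_57
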