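import Crest.Agent.R281.Tub5_57

/-!
# R281 (S0424), TUBE-HOL (helper57), part 6: the leaf function `kap` is strictly differentiable and
`kap' (I w) = J (kap' w)` with `J` depending on the leaf only
-/

set_option autoImplicit false
set_option linter.unusedSectionVars false

open Set Filter Topology
open scoped ContDiff

namespace Crest.Agent.R281.Tub_57

open Poi_234

noncomputable section

variable {N : ℕ}

variable {r : ℝ} {x y : Fo N} {I : VN N × VN N → (VN N × VN N) →L[ℝ] (VN N × VN N)}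
  {S : Set (VN N)} {A : VN N → VN N → VN N} {K : ℝ}

/-- the family is strictly differentiable jointly -/
theorem strict_A (G : Geo r x y I) (F : LF r x y S A K) {s : VN N} (hs : s ∈ S) (θ : VN N) :
    HasStrictFDerivAt (fun z : VN N × VN N => A z.2 z.1)
      ((fderiv ℝ (A s) θ).comp (ContinuousLinearMap.fst ℝ (VN N) (VN N)) +
        (Ms G F hs θ : VN N →L[ℝ] VN N).comp (ContinuousLinearMap.snd ℝ (VN N) (VN N))) (θ, s) := by
  rw [hasStrictFDerivAt_iff_isLittleO, Asymptotics.isLittleO_iff]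
  intro c hc
  have hc4 : 0 < c / 4 := by positivity
  obtain ⟨δ, hδ, h1⟩ := strict_fam G F hs hc4
  have h2 : ∀ᶠ θ' in 𝓝 θ, ‖(Ms G F hs θ' : VN N →L[ℝ] VN N) - Ms G F hs θ‖ < c / 4 := by
    have := (Metric.tendsto_nhds.1 ((Ms_cont G F hs).tendsto θ)) (c / 4) hc4
    simpa only [dist_eq_norm] using this
  have hac' : Continuous (fderiv ℝ (A s)) :=
    (F.leaf s hs).c1.continuous_fderiv (by simp)
  have h3 : ∀ᶠ θ' in 𝓝 θ, ‖fderiv ℝ (A s) θ' - fderiv ℝ (A s) θ‖ < c / 4 := by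
    have := (Metric.tendsto_nhds.1 (hac'.tendsto θ)) (c / 4) hc4
    simpa only [dist_eq_norm] using this
  obtain ⟨δ', hδ', h4⟩ := Metric.eventually_nhds_iff_ball.1 h3
  -- the neighbourhoods
  have hS : ∀ᶠ s' in 𝓝 s, s' ∈ S := F.So.mem_nhds hs
  have hsδ : ∀ᶠ s' in 𝓝 s, ‖s' - s‖ < δ := by
    have := Metric.ball_mem_nhds s hδ
    filter_upwards [this] with s' h
    rwa [Metric.mem_ball, dist_eq_norm] at h
  have hsK : ∀ᶠ s' in 𝓝 s, K * ‖s' - s‖ < c / 4 := by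
    have h5 : Tendsto (fun s' => K * ‖s' - s‖) (𝓝 s) (𝓝 (K * ‖s - s‖)) :=
      Continuous.tendsto (by fun_prop) _
    rw [sub_self, norm_zero, mul_zero] at h5
    exact h5.eventually_lt_const hc4
  have hθδ : ∀ᶠ θ' in 𝓝 θ, θ' ∈ Metric.ball θ δ' := Metric.ball_mem_nhds _ hδ'
  have e1 : Tendsto (fun p : (VN N × VN N) × (VN N × VN N) => p.1.1) (𝓝 ((θ, s), (θ, s))) (𝓝 θ) :=
    Continuous.tendsto (by fun_prop : Continuous fun p : (VN N × VN N) × (VN N × VN N) => p.1.1)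
      ((θ, s), (θ, s))
  have e2 : Tendsto (fun p : (VN N × VN N) × (VN N × VN N) => p.2.1) (𝓝 ((θ, s), (θ, s))) (𝓝 θ) :=
    Continuous.tendsto (by fun_prop : Continuous fun p : (VN N × VN N) × (VN N × VN N) => p.2.1)
      ((θ, s), (θ, s))
  have e3 : Tendsto (fun p : (VN N × VN N) × (VN N × VN N) => p.1.2) (𝓝 ((θ, s), (θ, s))) (𝓝 s) :=
    Continuous.tendsto (by fun_prop : Continuous fun p : (VN N × VN N) × (VN N × VN N) => p.1.2)
      ((θ, s), (θ, s))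
  have e4 : Tendsto (fun p : (VN N × VN N) × (VN N × VN N) => p.2.2) (𝓝 ((θ, s), (θ, s))) (𝓝 s) :=
    Continuous.tendsto (by fun_prop : Continuous fun p : (VN N × VN N) × (VN N × VN N) => p.2.2)
      ((θ, s), (θ, s))
  filter_upwards [e1.eventually h2, e1.eventually hθδ, e2.eventually hθδ, e3.eventually hS,
    e4.eventually hS, e3.eventually hsδ, e4.eventually hsδ, e4.eventually hsK] with
    ⟨⟨θ1, s1⟩, θ2, s2⟩ k1 k2 k3 k4 k5 k6 k7 k8
  simp only at k1 k2 k3 k4 k5 k6 k7 k8 ⊢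
  set M : VN N →L[ℝ] VN N := (Ms G F hs θ : VN N →L[ℝ] VN N) with hM
  set M1 : VN N →L[ℝ] VN N := (Ms G F hs θ1 : VN N →L[ℝ] VN N) with hM1
  have f1 : ‖A s1 θ1 - A s2 θ1 - M1 (s1 - s2)‖ ≤ c / 4 * ‖s1 - s2‖ := h1 s1 k4 s2 k5 k6 k7 θ1
  have f2 : ‖(M1 - M) (s1 - s2)‖ ≤ c / 4 * ‖s1 - s2‖ :=
    (ContinuousLinearMap.le_opNorm _ _).trans (by gcongr)
  have f3 : ‖A s2 θ1 - A s2 θ2 - fderiv ℝ (A s) θ (θ1 - θ2)‖ ≤ c / 2 * ‖θ1 - θ2‖ := by
    have g1 : ∀ z, HasFDerivAt (fun z => A s2 z - fderiv ℝ (A s) θ z)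
        (fderiv ℝ (A s2) z - fderiv ℝ (A s) θ) z := fun z =>
      (((F.leaf s2 k5).c1.differentiable (by simp) z).hasFDerivAt).fun_sub
        (ContinuousLinearMap.hasFDerivAt _)
    have g2 : ∀ z ∈ Metric.ball θ δ', ‖fderiv ℝ (A s2) z - fderiv ℝ (A s) θ‖ ≤ c / 2 := by
      intro z hz
      have g3 := h4 z hz
      have g4 := F.lip' s2 k5 s hs z
      calc ‖fderiv ℝ (A s2) z - fderiv ℝ (A s) θ‖ = ‖(fderiv ℝ (A s2) z - fderiv ℝ (A s) z) +
            (fderiv ℝ (A s) z - fderiv ℝ (A s) θ)‖ := by congr 1; abel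
        _ ≤ _ := norm_add_le _ _
        _ ≤ c / 2 := by linarith
    have g5 := (convex_ball θ δ').norm_image_sub_le_of_norm_hasFDerivWithin_le
      (fun z _ => (g1 z).hasFDerivWithinAt) g2 k3 k2
    refine le_trans (le_of_eq ?_) g5
    congr 1
    rw [map_sub]
    abel
  have f4 : A s1 θ1 - A s2 θ2 - ((fderiv ℝ (A s) θ).comp (ContinuousLinearMap.fst ℝ (VN N) (VN N)) +
      M.comp (ContinuousLinearMap.snd ℝ (VN N) (VN N))) ((θ1, s1) - (θ2, s2)) =
      (A s1 θ1 - A s2 θ1 - M1 (s1 - s2)) + (M1 - M) (s1 - s2) +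
        (A s2 θ1 - A s2 θ2 - fderiv ℝ (A s) θ (θ1 - θ2)) := by
    simp only [add_apply, sub_apply, ContinuousLinearMap.comp_apply, Prod.mk_sub_mk,
      ContinuousLinearMap.coe_fst', ContinuousLinearMap.coe_snd']
    abel
  rw [f4]
  have f5 : ‖s1 - s2‖ ≤ ‖(θ1, s1) - (θ2, s2)‖ := by
    rw [Prod.mk_sub_mk]; exact le_max_right _ _
  have f6 : ‖θ1 - θ2‖ ≤ ‖(θ1, s1) - (θ2, s2)‖ := by
    rw [Prod.mk_sub_mk]; exact le_max_left _ _
  calc _ ≤ ‖(A s1 θ1 - A s2 θ1 - M1 (s1 - s2)) + (M1 - M) (s1 - s2)‖ +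
        ‖A s2 θ1 - A s2 θ2 - fderiv ℝ (A s) θ (θ1 - θ2)‖ := norm_add_le _ _
    _ ≤ ‖A s1 θ1 - A s2 θ1 - M1 (s1 - s2)‖ + ‖(M1 - M) (s1 - s2)‖ +
        ‖A s2 θ1 - A s2 θ2 - fderiv ℝ (A s) θ (θ1 - θ2)‖ := by gcongr; exact norm_add_le _ _
    _ ≤ c / 4 * ‖s1 - s2‖ + c / 4 * ‖s1 - s2‖ + c / 2 * ‖θ1 - θ2‖ := by gcongr
    _ ≤ c / 4 * ‖(θ1, s1) - (θ2, s2)‖ + c / 4 * ‖(θ1, s1) - (θ2, s2)‖ +
        c / 2 * ‖(θ1, s1) - (θ2, s2)‖ := by gcongr
    _ = c * ‖(θ1, s1) - (θ2, s2)‖ := by ring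

/-- the region filled by the family -/
def OS (S : Set (VN N)) (A : VN N → VN N → VN N) : Set (VN N × VN N) :=
  {p | ∃ s ∈ S, A s p.1 = p.2}

open Classical in
/-- the leaf function -/
def kap (S : Set (VN N)) (A : VN N → VN N → VN N) (p : VN N × VN N) : VN N :=
  if h : ∃ s ∈ S, A s p.1 = p.2 then h.choose else 0

theorem kap_mem {p : VN N × VN N} (h : p ∈ OS S A) : kap S A p ∈ S := by
  have h' : ∃ s ∈ S, A s p.1 = p.2 := h
  rw [kap, dif_pos h']
  exact h'.choose_spec.1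

theorem kap_spec {p : VN N × VN N} (h : p ∈ OS S A) : A (kap S A p) p.1 = p.2 := by
  have h' : ∃ s ∈ S, A s p.1 = p.2 := h
  rw [kap, dif_pos h']
  exact h'.choose_spec.2

theorem LF.inj (F : LF r x y S A K) {s s' θ : VN N} (hs : s ∈ S) (hs' : s' ∈ S)
    (h : A s θ = A s' θ) : s = s' := by
  have h1 := F.low s hs s' hs' θ
  rw [h, sub_self, norm_zero, mul_zero] at h1
  exact sub_eq_zero.1 (norm_le_zero_iff.1 h1)

theorem LF.kap_eq (F : LF r x y S A K) {s : VN N} (hs : s ∈ S) {p : VN N × VN N}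
    (h : A s p.1 = p.2) : kap S A p = s := by
  have hp : p ∈ OS S A := ⟨s, hs, h⟩
  exact F.inj (kap_mem hp) hs ((kap_spec hp).trans h.symm)

theorem LF.kap_graph (F : LF r x y S A K) {s : VN N} (hs : s ∈ S) (θ : VN N) :
    kap S A (θ, A s θ) = s := F.kap_eq hs rfl

theorem LF.graph_mem (_ : LF r x y S A K) {s : VN N} (hs : s ∈ S) (θ : VN N) :
    (θ, A s θ) ∈ OS S A := ⟨s, hs, rfl⟩

/-- the derivative of `(θ, s) ↦ (θ, A s θ)` -/
def De (G : Geo r x y I) (F : LF r x y S A K) {s : VN N} (hs : s ∈ S) (θ : VN N) :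
    (VN N × VN N) ≃L[ℝ] (VN N × VN N) :=
  ContinuousLinearEquiv.equivOfInverse
    ((ContinuousLinearMap.fst ℝ (VN N) (VN N)).prod
      ((fderiv ℝ (A s) θ).comp (ContinuousLinearMap.fst ℝ (VN N) (VN N)) +
        (Ms G F hs θ : VN N →L[ℝ] VN N).comp (ContinuousLinearMap.snd ℝ (VN N) (VN N))))
    ((ContinuousLinearMap.fst ℝ (VN N) (VN N)).prod
      (((Ms G F hs θ).symm : VN N →L[ℝ] VN N).comp ((ContinuousLinearMap.snd ℝ (VN N) (VN N)) -
        (fderiv ℝ (A s) θ).comp (ContinuousLinearMap.fst ℝ (VN N) (VN N)))))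
    (fun z => by ext <;> simp) (fun z => by ext <;> simp)

/-- the derivative of `kap` at `(θ, A s θ)` -/
def kd (G : Geo r x y I) (F : LF r x y S A K) {s : VN N} (hs : s ∈ S) (θ : VN N) :
    (VN N × VN N) →L[ℝ] VN N :=
  ((Ms G F hs θ).symm : VN N →L[ℝ] VN N).comp ((ContinuousLinearMap.snd ℝ (VN N) (VN N)) -
    (fderiv ℝ (A s) θ).comp (ContinuousLinearMap.fst ℝ (VN N) (VN N)))

@[simp] theorem kd_apply (G : Geo r x y I) (F : LF r x y S A K) {s : VN N} (hs : s ∈ S)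
    (θ : VN N) (w : VN N × VN N) :
    kd G F hs θ w = (Ms G F hs θ).symm (w.2 - fderiv ℝ (A s) θ w.1) := rfl

theorem kap_nhds (G : Geo r x y I) (F : LF r x y S A K) {s : VN N} (hs : s ∈ S) (θ : VN N) :
    (∀ᶠ p in 𝓝 (θ, A s θ), p ∈ OS S A) ∧ HasStrictFDerivAt (kap S A) (kd G F hs θ) (θ, A s θ) := by
  have h1 : HasStrictFDerivAt (fun z : VN N × VN N => (z.1, A z.2 z.1))
      (De G F hs θ : (VN N × VN N) →L[ℝ] (VN N × VN N)) (θ, s) :=
    (hasStrictFDerivAt_fst).prodMk (strict_A G F hs θ)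
  set g := h1.localInverse (fun z : VN N × VN N => (z.1, A z.2 z.1)) with hg
  have h2 : HasStrictFDerivAt g ((De G F hs θ).symm : (VN N × VN N) →L[ℝ] (VN N × VN N))
      (θ, A s θ) := h1.to_localInverse
  have h3 : g (θ, A s θ) = (θ, s) := h1.localInverse_apply_image
  have h4 : ∀ᶠ p in 𝓝 (θ, A s θ), ((g p).1, A (g p).2 (g p).1) = p := h1.eventually_right_inverse
  have h5 : Tendsto g (𝓝 (θ, A s θ)) (𝓝 (θ, s)) := by
    have := h2.continuousAt.tendsto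
    rwa [h3] at this
  have h6 : ∀ᶠ p in 𝓝 (θ, A s θ), (g p).2 ∈ S := by
    have : ∀ᶠ z in 𝓝 ((θ, s) : VN N × VN N), z.2 ∈ S :=
      (continuous_snd.tendsto (θ, s)).eventually (F.So.mem_nhds hs)
    exact h5.eventually this
  have h7 : ∀ᶠ p in 𝓝 (θ, A s θ), p ∈ OS S A ∧ kap S A p = (g p).2 := by
    filter_upwards [h4, h6] with p k1 k2
    have e1 : (g p).1 = p.1 := (Prod.ext_iff.1 k1).1
    have e2 : A (g p).2 (g p).1 = p.2 := (Prod.ext_iff.1 k1).2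
    rw [e1] at e2
    exact ⟨⟨_, k2, e2⟩, F.kap_eq k2 e2⟩
  refine ⟨h7.mono fun p h => h.1, ?_⟩
  have h8 : HasStrictFDerivAt (fun p => (g p).2) (kd G F hs θ) (θ, A s θ) :=
    (ContinuousLinearMap.snd ℝ (VN N) (VN N)).hasStrictFDerivAt.comp _ h2
  exact h8.congr_of_eventuallyEq (h7.mono fun p h => h.2.symm)

theorem isOpen_OS (G : Geo r x y I) (F : LF r x y S A K) : IsOpen (OS S A) := by
  rw [isOpen_iff_mem_nhds]
  rintro ⟨θ, v⟩ ⟨s, hs, h⟩
  simp only at h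
  subst h
  exact (kap_nhds G F hs θ).1

theorem kd_surj (G : Geo r x y I) (F : LF r x y S A K) {s : VN N} (hs : s ∈ S) (θ : VN N) :
    Function.Surjective (kd G F hs θ) := by
  intro u
  exact ⟨(0, Ms G F hs θ u), by simp⟩

theorem kd_ker (G : Geo r x y I) (F : LF r x y S A K) {s : VN N} (hs : s ∈ S) (θ : VN N)
    (w : VN N × VN N) : kd G F hs θ w = 0 ↔ w.2 = fderiv ℝ (A s) θ w.1 := by
  rw [kd_apply, map_eq_zero_iff _ (Ms G F hs θ).symm.injective, sub_eq_zero]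

/-- `kd` on the values of fields -/
theorem kd_field (G : Geo r x y I) (F : LF r x y S A K) {s : VN N} (hs : s ∈ S)
    {E : VN N → VN N} (hE : E ∈ Hs x y (A s)) (θ : VN N) : kd G F hs θ (0, E θ) = E 0 := by
  rw [kd_apply, map_zero, sub_zero, ← Ms_field G F hs hE θ]
  exact (Ms G F hs θ).symm_apply_apply _

theorem iD_add (a D E : VN N → VN N) : iD I a (D + E) = iD I a D + iD I a E := by
  funext θ
  have : ((0 : VN N), (D + E) θ) = (0, D θ) + (0, E θ) := by ext <;> simp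
  show (I (θ, a θ) (0, (D + E) θ)).2 - fderiv ℝ a θ (I (θ, a θ) (0, (D + E) θ)).1 =
    iD I a D θ + iD I a E θ
  rw [this, map_add, Prod.snd_add, Prod.fst_add, map_add, iD, iD]
  abel

theorem iD_smul (c : ℝ) (a D : VN N → VN N) : iD I a (c • D) = c • iD I a D := by
  funext θ
  have : ((0 : VN N), (c • D) θ) = c • ((0 : VN N), D θ) := by ext <;> simp
  show (I (θ, a θ) (0, (c • D) θ)).2 - fderiv ℝ a θ (I (θ, a θ) (0, (c • D) θ)).1 =
    c • iD I a D θ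
  rw [this, map_smul, Prod.smul_snd, Prod.smul_fst, map_smul, iD, smul_sub]

/-- **the complex structure of the parameter space** -/
theorem exists_Js (G : Geo r x y I) (F : LF r x y S A K) {s : VN N} (hs : s ∈ S) :
    ∃ J : VN N →L[ℝ] VN N, (∀ u, J (J u) = -u) ∧
      ∀ θ w, kd G F hs θ (I (θ, A s θ) w) = J (kd G F hs θ w) := by
  have L := F.leaf s hs
  let e := LinearEquiv.ofBijective _ (ev_bij G F hs 0)
  let m : Hs x y (A s) →ₗ[ℝ] Hs x y (A s) :=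
    { toFun := fun E => ⟨iD I (A s) E.1, iD_mem G L E.2⟩
      map_add' := fun D E => Subtype.ext (iD_add _ _ _)
      map_smul' := fun c E => Subtype.ext (iD_smul c _ _) }
  let J0 : VN N →ₗ[ℝ] VN N := (e : Hs x y (A s) →ₗ[ℝ] VN N) ∘ₗ m ∘ₗ (e.symm : VN N →ₗ[ℝ] Hs x y (A s))
  let J : VN N →L[ℝ] VN N := LinearMap.toContinuousLinearMap J0
  have hJ : ∀ E : Hs x y (A s), J (E.1 0) = iD I (A s) E.1 0 := by
    intro E
    show e (m (e.symm (E.1 0))) = _
    have : e.symm (E.1 0) = E := by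
      rw [LinearEquiv.symm_apply_eq]
      rfl
    rw [this]
    rfl
  have key : ∀ θ w, kd G F hs θ (I (θ, A s θ) w) = J (kd G F hs θ w) := by
    intro θ w
    -- decompose `w` in a tangent vector and a value of a field
    set u := kd G F hs θ w with hu
    obtain ⟨E, hE, hE0, hEM⟩ := exists_field0 G F hs u
    have h1 : kd G F hs θ (w - (0, E θ)) = 0 := by
      rw [map_sub, kd_field G F hs hE, hE0, ← hu, sub_self]
    rw [kd_ker] at h1
    set z := (w - (0, E θ)).1 with hz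
    have h2 : w = (z, fderiv ℝ (A s) θ z) + (0, E θ) := by
      rw [← h1, hz]
      ext <;> simp
    rw [h2, map_add, map_add, leaf_I G L]
    have h3 : kd G F hs θ (JJ I (A s) θ z, fderiv ℝ (A s) θ (JJ I (A s) θ z)) = 0 := by
      rw [kd_ker]
    have h4 : kd G F hs θ (I (θ, A s θ) (0, E θ)) = iD I (A s) E 0 := by
      have h5 := kd_field G F hs (iD_mem G L hE) θ
      rw [iD_eq, map_sub] at h5
      have h6 : kd G F hs θ ((I (θ, A s θ) (0, E θ)).1,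
          fderiv ℝ (A s) θ (I (θ, A s θ) (0, E θ)).1) = 0 := by
        rw [kd_ker]
      rw [h6, sub_zero] at h5
      exact h5
    rw [h3, zero_add, h4, ← hJ ⟨E, hE⟩]
    simp only [hE0]
  refine ⟨J, fun u => ?_, key⟩
  obtain ⟨w, hw⟩ := kd_surj G F hs 0 u
  rw [← hw, ← key, ← key, G.sq _ (L.tub 0), map_neg]

end

end Crest.Agent.R281.Tub_57
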