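import Crest.Agent.R281.Tub7_57

/-!
# R281 (S0424), TUBE-HOL (helper57), part 8: complex form of (C), smoothness of `I`-holomorphic maps
-/

set_option autoImplicit false
set_option linter.unusedSectionVars false

open Set Filter Topology
open scoped ContDiff NNReal

namespace Crest.Agent.R281.Tub_57

open Poi_234

noncomputable section

variable {N : ℕ}

/-- **(C) in the form of helper922**: `Re U` periodic, `dU = B` of type (1,0) on the leaf ⟹ `B = 0` -/
theorem C_form {Jt : VN N → VN N →L[ℝ] VN N} (hJ : ∀ θ v, Jt θ (Jt θ v) = -v)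
    (hC : ∀ θ, HCoord Jt θ) {U : VN N → ℂ} {B : VN N → VN N →L[ℝ] ℂ}
    (hU : ∀ θ, HasFDerivAt U (B θ) θ) (hB : ∀ θ t, B θ (Jt θ t) = Complex.I * B θ t)
    (hp : Per fun θ => (U θ).re) (θ : VN N) : B θ = 0 := by
  have h1 : ∀ θ, HasFDerivAt (fun θ => (U θ).re) (Complex.reCLM.comp (B θ)) θ := fun θ =>
    Complex.reCLM.hasFDerivAt.comp θ (hU θ)
  have h2 : ∀ θ, HasFDerivAt (fun θ => (U θ).im) (-((Complex.reCLM.comp (B θ)).comp (Jt θ))) θ := by
    intro θ
    refine (Complex.imCLM.hasFDerivAt.comp θ (hU θ)).congr_fderiv ?_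
    ext t
    simp [hB]
  obtain ⟨θm, hm⟩ := exists_max (continuous_iff_continuousAt.2 fun θ => (h1 θ).continuousAt) hp
  have h3 := const_of_max hJ hC h1 h2 hm
  have h4 : ∀ t, (B θ t).re = 0 := by
    intro t
    have h5 : HasFDerivAt (fun θ => (U θ).re) (0 : VN N →L[ℝ] ℝ) θ := by
      have : (fun θ => (U θ).re) = fun _ => (U θm).re := funext h3
      rw [this]
      exact hasFDerivAt_const _ _
    have h6 := (h1 θ).unique h5
    exact ContinuousLinearMap.ext_iff.1 h6 t
  ext t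
  have h7 := h4 (Jt θ t)
  rw [hB] at h7
  have h8 := h4 t
  apply Complex.ext
  · simpa using h8
  · simpa using h7

variable {E : Type} [NormedAddCommGroup E] [NormedSpace ℝ E] [FiniteDimensional ℝ E]

/-- **`I`-holomorphic maps are smooth** (Osgood in the integrating charts) -/
theorem hol_smooth {Y : Type*} [NormedAddCommGroup Y] [NormedSpace ℂ Y] [CompleteSpace Y]
    {I : E → E →L[ℝ] E} {p0 : E} (hI : Integ I p0) {g : E → Y}
    (hg : ∀ᶠ p in 𝓝 p0, DifferentiableAt ℝ g p ∧ ∀ w, fderiv ℝ g p (I p w) = Complex.I • fderiv ℝ g p w) :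
    ContDiffAt ℝ ∞ g p0 := by
  obtain ⟨W, _, _, _, χ, hχ, hχb, hχI⟩ := hI
  obtain ⟨η, hη0, hηc, hηl, hηr⟩ := exists_inv hχ (by simp) hχb
  have hback : Tendsto η (𝓝 (χ p0)) (𝓝 p0) := by
    have := hηc.continuousAt.tendsto
    rwa [hη0] at this
  have hfin : Module.finrank ℝ E = Module.finrank ℝ W :=
    (LinearEquiv.ofBijective (fderiv ℝ χ p0 : E →ₗ[ℝ] W) hχb).finrank_eq
  have hχd : ∀ᶠ p in 𝓝 p0, DifferentiableAt ℝ χ p := by
    filter_upwards [(hχ.of_le (by exact_mod_cast le_top : (1 : ℕ∞ω) ≤ ∞)).eventually (by simp)]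
      with p hp
    exact hp.differentiableAt (by simp)
  have hηd : ∀ᶠ z in 𝓝 (χ p0), DifferentiableAt ℝ η z := by
    filter_upwards [(hηc.of_le (by exact_mod_cast le_top : (1 : ℕ∞ω) ≤ ∞)).eventually (by simp)]
      with p hp
    exact hp.differentiableAt (by simp)
  -- the derivative of the inverse chart is complex linear
  have hηI : ∀ᶠ z in 𝓝 (χ p0), ∀ w, fderiv ℝ η z (Complex.I • w) = I (η z) (fderiv ℝ η z w) := by
    filter_upwards [hηd, hback.eventually hχd, hback.eventually hχI, hηr.eventually_nhds] with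
      z h1 h2 h3 h4 w
    have h5 : HasFDerivAt (fun z => χ (η z)) ((fderiv ℝ χ (η z)).comp (fderiv ℝ η z)) z :=
      HasFDerivAt.comp (g := χ) z h2.hasFDerivAt h1.hasFDerivAt
    have h6 : HasFDerivAt (fun z => χ (η z)) (ContinuousLinearMap.id ℝ W) z :=
      (hasFDerivAt_id z).congr_of_eventuallyEq h4
    have h8 : ∀ w, fderiv ℝ χ (η z) (fderiv ℝ η z w) = w := fun w =>
      ContinuousLinearMap.ext_iff.1 (h5.unique h6) w
    have h9 : Function.Injective (fderiv ℝ χ (η z)) := by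
      have : Function.Surjective (fderiv ℝ χ (η z) : E →ₗ[ℝ] W) := fun w => ⟨_, h8 w⟩
      exact (LinearMap.injective_iff_surjective_of_finrank_eq_finrank hfin).2 this
    apply h9
    rw [h8, h3, h8]
  have h1 : ∀ᶠ z in 𝓝 (χ p0), DifferentiableAt ℂ (fun z => g (η z)) z := by
    filter_upwards [hηd, hηI, hback.eventually hg] with z k1 k2 k3
    have k4 : HasFDerivAt (fun z => g (η z)) ((fderiv ℝ g (η z)).comp (fderiv ℝ η z)) z :=
      HasFDerivAt.comp (g := g) z k3.1.hasFDerivAt k1.hasFDerivAt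
    refine diffC k4.differentiableAt fun w => ?_
    rw [HasFDerivAt.fderiv k4]
    simp only [ContinuousLinearMap.comp_apply, k2 w]
    exact k3.2 _
  have h2 : AnalyticAt ℂ (fun z => g (η z)) (χ p0) :=
    Crest.Agent.R266.SCV.analyticAt_of_eventually_differentiableAt h1
  have h3 : ContDiffAt ℝ ∞ (fun z => g (η z)) (χ p0) :=
    (h2.contDiffAt (n := ∞)).restrict_scalars ℝ
  refine (ContDiffAt.comp p0 (g := fun z => g (η z)) h3 hχ).congr_of_eventuallyEq ?_
  filter_upwards [hηl] with p hp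
  simp only [Function.comp_apply, hp]

end

end Crest.Agent.R281.Tub_57
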