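import Crest.Agent.R281.Tub8_57

/-!
# R281 (S0424), TUBE-HOL (helper57), part 9: (D') the local holomorphic submersion `f` with the
leaves as fibres
-/

set_option autoImplicit false
set_option linter.unusedSectionVars false

open Set Filter Topology Metric
open scoped ContDiff NNReal

namespace Crest.Agent.R281.Tub_57

open Poi_234

noncomputable section

/-- `I`-holomorphic maps from a complex space are smooth -/
theorem hol_smooth_into {E : Type} [NormedAddCommGroup E] [NormedSpace ℝ E] [FiniteDimensional ℝ E]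
    {Y : Type*} [NormedAddCommGroup Y] [NormedSpace ℂ Y] [FiniteDimensional ℂ Y]
    {I : E → E →L[ℝ] E} {g : Y → E} {e0 : Y} (hI : Integ I (g e0))
    (hg : ∀ᶠ e in 𝓝 e0, DifferentiableAt ℝ g e ∧
      ∀ v, fderiv ℝ g e (Complex.I • v) = I (g e) (fderiv ℝ g e v)) :
    ContDiffAt ℝ ∞ g e0 := by
  obtain ⟨W, _, _, _, χ, hχ, hχb, hχI⟩ := hI
  obtain ⟨η, hη0, hηc, hηl, hηr⟩ := exists_inv hχ (by simp) hχb
  have hgc : Tendsto g (𝓝 e0) (𝓝 (g e0)) := (hg.self_of_nhds.1).continuousAt.tendsto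
  have hχd : ∀ᶠ p in 𝓝 (g e0), DifferentiableAt ℝ χ p := by
    filter_upwards [(hχ.of_le (by exact_mod_cast le_top : (1 : ℕ∞ω) ≤ ∞)).eventually (by simp)]
      with p hp
    exact hp.differentiableAt (by simp)
  have h1 : ∀ᶠ e in 𝓝 e0, DifferentiableAt ℂ (fun e => χ (g e)) e := by
    filter_upwards [hg, hgc.eventually hχd, hgc.eventually hχI] with e k1 k2 k3
    have k4 : HasFDerivAt (fun e => χ (g e)) ((fderiv ℝ χ (g e)).comp (fderiv ℝ g e)) e :=
      HasFDerivAt.comp (g := χ) e k2.hasFDerivAt k1.1.hasFDerivAt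
    refine diffC k4.differentiableAt fun w => ?_
    rw [HasFDerivAt.fderiv k4]
    simp only [ContinuousLinearMap.comp_apply, k1.2 w]
    exact k3 _
  have h2 : AnalyticAt ℂ (fun e => χ (g e)) e0 :=
    Crest.Agent.R266.SCV.analyticAt_of_eventually_differentiableAt h1
  have h3 : ContDiffAt ℝ ∞ (fun e => χ (g e)) e0 :=
    (h2.contDiffAt (n := ∞)).restrict_scalars ℝ
  refine (ContDiffAt.comp e0 (g := η) hηc h3).congr_of_eventuallyEq ?_
  filter_upwards [hgc.eventually hηl] with p hp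
  simp only [Function.comp_apply, hp]

variable {N : ℕ} {r : ℝ} {x y : Fo N} {I : VN N × VN N → (VN N × VN N) →L[ℝ] (VN N × VN N)}
  {S : Set (VN N)} {A : VN N → VN N → VN N} {k : VN N × VN N → VN N}
  {M : VN N → VN N → VN N ≃L[ℝ] VN N} {J : VN N → VN N →L[ℝ] VN N}

/-- the derivative of the leaf function -/
theorem Out.kfd (O : Out r x y I S A k M J) {p : VN N × VN N} (hp : ∃ s ∈ S, A s p.1 = p.2) :
    HasStrictFDerivAt k (fderiv ℝ k p) p ∧
      (∀ w, fderiv ℝ k p w = 0 ↔ w.2 = fderiv ℝ (A (k p)) p.1 w.1) ∧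
      Function.Surjective (fderiv ℝ k p) ∧ ∀ w, fderiv ℝ k p (I p w) = J (k p) (fderiv ℝ k p w) := by
  obtain ⟨hs, hA⟩ := O.kmem p hp
  obtain ⟨k', h1, h2, h3⟩ := O.dk _ hs p.1
  have hpe : (p.1, A (k p) p.1) = p := by rw [hA]
  rw [hpe] at h1 h3
  have h4 : fderiv ℝ k p = k' := h1.hasFDerivAt.fderiv
  rw [h4]
  refine ⟨h1, fun w => ?_, fun u => ⟨(0, M (k p) p.1 u), ?_⟩, h3⟩
  · rw [h2, map_eq_zero_iff _ (M (k p) p.1).symm.injective, sub_eq_zero]
  · rw [h2, map_zero, sub_zero]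
    exact (M (k p) p.1).symm_apply_apply u

/-- **(D') the local holomorphic base chart**: `f` is a holomorphic submersion on the saturated open
set `{(θ, A (q e) θ) | ‖e‖ < ρ}`, its fibres are the leaves, `ι` is a holomorphic section -/
structure Bas (I : VN N × VN N → (VN N × VN N) →L[ℝ] (VN N × VN N)) (S : Set (VN N))
    (A : VN N → VN N → VN N) {Y : Type} [NormedAddCommGroup Y] [NormedSpace ℂ Y] (ρ : ℝ)
    (ι : Y → VN N × VN N) (f : VN N × VN N → Y) (q : Y → VN N) : Prop where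
  pos : 0 < ρ
  qS : ∀ e ∈ ball 0 ρ, q e ∈ S
  inj : InjOn q (ball 0 ρ)
  opS : IsOpen (q '' ball 0 ρ)
  op : IsOpen {p : VN N × VN N | ∃ e ∈ ball (0 : Y) ρ, A (q e) p.1 = p.2}
  fA : ∀ e ∈ ball 0 ρ, ∀ θ, f (θ, A (q e) θ) = e
  fs : ContDiffOn ℝ ∞ f {p : VN N × VN N | ∃ e ∈ ball (0 : Y) ρ, A (q e) p.1 = p.2}
  fI : ∀ e ∈ ball 0 ρ, ∀ θ w, fderiv ℝ f (θ, A (q e) θ) (I (θ, A (q e) θ) w) =
    Complex.I • fderiv ℝ f (θ, A (q e) θ) w
  fsur : ∀ e ∈ ball 0 ρ, ∀ θ, Function.Surjective (fderiv ℝ f (θ, A (q e) θ))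
  fker : ∀ e ∈ ball 0 ρ, ∀ θ w, fderiv ℝ f (θ, A (q e) θ) w = 0 ↔
    w.2 = fderiv ℝ (A (q e)) θ w.1
  ιA : ∀ e ∈ ball 0 ρ, A (q e) (ι e).1 = (ι e).2
  ιs : ContDiffOn ℝ ∞ ι (ball 0 ρ)
  ιI : ∀ e ∈ ball 0 ρ, ∀ v, fderiv ℝ ι e (Complex.I • v) = I (ι e) (fderiv ℝ ι e v)

theorem exists_bas (G : Geo r x y I) (O : Out r x y I S A k M J) {Y : Type} [NormedAddCommGroup Y]
    [NormedSpace ℂ Y] [FiniteDimensional ℂ Y] (hY : Module.finrank ℝ Y = N) {s0 : VN N}
    (hs0 : s0 ∈ S) (θ0 : VN N) : ∃ (ρ : ℝ) (ι : Y → VN N × VN N) (f : VN N × VN N → Y)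
      (q : Y → VN N), Bas I S A ρ ι f q ∧ q 0 = s0 ∧ ι 0 = (θ0, A s0 θ0) := by
  have : FiniteDimensional ℝ Y := FiniteDimensional.complexToReal Y
  set p0 : VN N × VN N := (θ0, A s0 θ0) with hp0
  set R : Set (VN N × VN N) := {p | ∃ s ∈ S, A s p.1 = p.2} with hR
  have hp0R : p0 ∈ R := ⟨s0, hs0, rfl⟩
  have hk0 : k p0 = s0 := O.kgr s0 hs0 θ0
  obtain ⟨W, _, _, _, χ, hχ, hχb, hχI⟩ := G.int p0 (O.sub s0 hs0 θ0)
  have : FiniteDimensional ℝ W := FiniteDimensional.complexToReal W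
  obtain ⟨η, hη0, hηc, hηl, hηr⟩ := exists_inv hχ (by simp) hχb
  have hχI0 : ∀ u, fderiv ℝ χ p0 (I p0 u) = Complex.I • fderiv ℝ χ p0 u := hχI.self_of_nhds
  have hηt : Tendsto η (𝓝 (χ p0)) (𝓝 p0) := by
    have := hηc.continuousAt.tendsto
    rwa [hη0] at this
  have hχd : ∀ᶠ p in 𝓝 p0, ContDiffAt ℝ 1 χ p :=
    (hχ.of_le (by exact_mod_cast le_top : (1 : ℕ∞ω) ≤ ∞)).eventually (by simp)
  have hηd : ∀ᶠ z in 𝓝 (χ p0), ContDiffAt ℝ 1 η z :=
    (hηc.of_le (by exact_mod_cast le_top : (1 : ℕ∞ω) ≤ ∞)).eventually (by simp)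
  -- the tangent space of the leaf in the chart
  set A0 : VN N →L[ℝ] W := (fderiv ℝ χ p0).comp (gr (fderiv ℝ (A s0) θ0)) with hA0
  have hAinj : Function.Injective A0 := by
    intro v w h
    exact (Prod.ext_iff.1 (hχb.1 h)).1
  let T : Submodule ℂ W :=
    { carrier := range A0
      zero_mem' := ⟨0, map_zero _⟩
      add_mem' := by
        rintro _ _ ⟨v, rfl⟩ ⟨w, rfl⟩
        exact ⟨v + w, map_add _ _ _⟩
      smul_mem' := by
        rintro c _ ⟨v, rfl⟩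
        refine ⟨c.re • v + c.im • JJ I (A s0) θ0 v, ?_⟩
        rw [csmul c (A0 v), map_add, map_smul, map_smul]
        congr 2
        simp only [hA0, ContinuousLinearMap.comp_apply, gr_apply]
        rw [← hχI0, O.tan s0 hs0] }
  obtain ⟨E, hE⟩ := Submodule.exists_isCompl T
  have hfin1 : Module.finrank ℝ W = 2 * N := by
    rw [← (LinearEquiv.ofBijective (fderiv ℝ χ p0 : (VN N × VN N) →ₗ[ℝ] W) hχb).finrank_eq,
      Module.finrank_prod, finrank_euclideanSpace_fin]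
    ring
  have hfin2 : Module.finrank ℝ T = N := by
    let e : VN N →ₗ[ℝ] T :=
      { toFun := fun v => ⟨A0 v, v, rfl⟩
        map_add' := fun v w => Subtype.ext (map_add _ _ _)
        map_smul' := fun c w => Subtype.ext (map_smul _ _ _) }
    have he : Function.Bijective e := by
      constructor
      · intro v w h
        exact hAinj (congrArg Subtype.val h)
      · rintro ⟨_, v, rfl⟩
        exact ⟨v, rfl⟩
    rw [← (LinearEquiv.ofBijective e he).finrank_eq, finrank_euclideanSpace_fin]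
  have hfin3 : Module.finrank ℂ Y = Module.finrank ℂ E := by
    have h1 := Submodule.finrank_add_eq_of_isCompl hE
    have h2 := finrank_real_of_complex W
    have h3 := finrank_real_of_complex T
    have h4 := finrank_real_of_complex Y
    omega
  let eY : Y ≃ₗ[ℂ] E := LinearEquiv.ofFinrankEq Y E hfin3
  let L : Y →L[ℂ] W := LinearMap.toContinuousLinearMap (E.subtype ∘ₗ (eY : Y →ₗ[ℂ] E))
  have hL : ∀ e, L e = (eY e : W) := fun e => rfl
  set Lr : Y →L[ℝ] W := L.restrictScalars ℝ with hLr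
  have hLT : ∀ e, L e ∈ T → e = 0 := by
    intro e he
    have h1 : (eY e : W) ∈ T ⊓ E := ⟨he, (eY e).2⟩
    rw [hE.inf_eq_bot, Submodule.mem_bot] at h1
    have h2 : eY e = 0 := Subtype.ext h1
    exact (map_eq_zero_iff _ eY.injective).1 h2
  -- the section
  set ι : Y → VN N × VN N := fun e => η (χ p0 + Lr e) with hι
  have hι0 : ι 0 = p0 := by simp [hι, hη0]
  have haff : ∀ e, HasFDerivAt (fun e => χ p0 + Lr e) Lr e := fun e =>
    (Lr.hasFDerivAt).const_add _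
  have hafft : Tendsto (fun e => χ p0 + Lr e) (𝓝 0) (𝓝 (χ p0)) := by
    have := (haff 0).continuousAt.tendsto
    simpa using this
  have hιd : ∀ᶠ e in 𝓝 (0 : Y), ContDiffAt ℝ 1 ι e := by
    filter_upwards [hafft.eventually hηd] with e he
    exact he.comp e (contDiff_const.add Lr.contDiff).contDiffAt
  have hιt : Tendsto ι (𝓝 0) (𝓝 p0) := hηt.comp hafft
  have hιχ : ∀ᶠ e in 𝓝 (0 : Y), χ (ι e) = χ p0 + Lr e := hafft.eventually hηr
  have hιfd : ∀ᶠ e in 𝓝 (0 : Y), ∀ v, fderiv ℝ χ (ι e) (fderiv ℝ ι e v) = Lr v := by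
    filter_upwards [hιd, hιt.eventually hχd, hιχ.eventually_nhds] with e h1 h2 h3 v
    have h4 : HasFDerivAt (fun e => χ (ι e)) ((fderiv ℝ χ (ι e)).comp (fderiv ℝ ι e)) e :=
      HasFDerivAt.comp (g := χ) e (h2.differentiableAt (by simp)).hasFDerivAt
        (h1.differentiableAt (by simp)).hasFDerivAt
    have h5 : HasFDerivAt (fun e => χ (ι e)) Lr e := (haff e).congr_of_eventuallyEq h3
    exact ContinuousLinearMap.ext_iff.1 (h4.unique h5) v
  have hχinj : ∀ᶠ e in 𝓝 (0 : Y), Function.Injective (fderiv ℝ χ (ι e)) := by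
    have h1 : ∀ᶠ p in 𝓝 p0, Function.Injective (fderiv ℝ χ p) := by
      -- the left inverse `η`
      filter_upwards [hχd, (hχd.self_of_nhds.continuousAt.tendsto).eventually hηd,
        hηl.eventually_nhds] with p h1 h2 h3
      have h4 : HasFDerivAt (fun p => η (χ p)) ((fderiv ℝ η (χ p)).comp (fderiv ℝ χ p)) p :=
        HasFDerivAt.comp (g := η) p (h2.differentiableAt (by simp)).hasFDerivAt
          (h1.differentiableAt (by simp)).hasFDerivAt
      have h5 : HasFDerivAt (fun p => η (χ p)) (ContinuousLinearMap.id ℝ (VN N × VN N)) p :=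
        (hasFDerivAt_id p).congr_of_eventuallyEq h3
      have h6 : ∀ w, fderiv ℝ η (χ p) (fderiv ℝ χ p w) = w := fun w =>
        ContinuousLinearMap.ext_iff.1 (h4.unique h5) w
      intro v w h
      rw [← h6 v, ← h6 w, h]
    exact hιt.eventually h1
  have hιI : ∀ᶠ e in 𝓝 (0 : Y), ∀ v, fderiv ℝ ι e (Complex.I • v) = I (ι e) (fderiv ℝ ι e v) := by
    filter_upwards [hιfd, hχinj, hιt.eventually hχI] with e h1 h2 h3 v
    apply h2
    rw [h1, h3, h1]
    exact L.map_smul _ _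
  -- the transversal parameter
  set q : Y → VN N := fun e => k (ι e) with hq
  have hRo : IsOpen R := O.Oo
  have hιR : ∀ᶠ e in 𝓝 (0 : Y), ι e ∈ R := hιt.eventually (hRo.mem_nhds hp0R)
  have hqd : ∀ᶠ e in 𝓝 (0 : Y), HasStrictFDerivAt q ((fderiv ℝ k (ι e)).comp (fderiv ℝ ι e)) e := by
    filter_upwards [hιd, hιR] with e h1 h2
    exact HasStrictFDerivAt.comp (g := k) e (O.kfd h2).1 (h1.hasStrictFDerivAt (by simp))
  set q0' : Y →L[ℝ] VN N := (fderiv ℝ k (ι 0)).comp (fderiv ℝ ι 0) with hq0'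
  have hq0inj : Function.Injective q0' := by
    rw [injective_iff_map_eq_zero]
    intro e he
    have h1 : fderiv ℝ k (ι 0) (fderiv ℝ ι 0 e) = 0 := he
    rw [hι0, (O.kfd hp0R).2.1, hk0] at h1
    have h2 := hιfd.self_of_nhds e
    rw [hι0] at h2
    apply hLT
    refine ⟨(fderiv ℝ ι 0 e).1, ?_⟩
    have h3 : fderiv ℝ ι 0 e = ((fderiv ℝ ι 0 e).1, fderiv ℝ (A s0) θ0 (fderiv ℝ ι 0 e).1) :=
      Prod.ext rfl h1
    simp only [hA0, ContinuousLinearMap.comp_apply, gr_apply]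
    rw [← h3]
    exact h2
  have hfinq : Module.finrank ℝ Y = Module.finrank ℝ (VN N) := by
    rw [hY, finrank_euclideanSpace_fin]
  have hq0bij : Function.Bijective q0' :=
    ⟨hq0inj, (LinearMap.injective_iff_surjective_of_finrank_eq_finrank
      (f := (q0' : Y →ₗ[ℝ] VN N)) hfinq).1 hq0inj⟩
  set e0 : Y ≃L[ℝ] VN N := ContinuousLinearEquiv.ofBijective q0'
    (LinearMap.ker_eq_bot.2 hq0bij.1) (LinearMap.range_eq_top.2 hq0bij.2) with he0
  have he0c : (e0 : Y →L[ℝ] VN N) = q0' := rfl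
  have hqs : HasStrictFDerivAt q (e0 : Y →L[ℝ] VN N) 0 := hqd.self_of_nhds
  obtain ⟨s, h0s, hso, happ⟩ := hqs.approximates_deriv_on_open_nhds
  have hgood : ∀ᶠ e in 𝓝 (0 : Y), e ∈ s ∧ ι e ∈ R ∧
      HasStrictFDerivAt q ((fderiv ℝ k (ι e)).comp (fderiv ℝ ι e)) e ∧
      (∀ v, fderiv ℝ ι e (Complex.I • v) = I (ι e) (fderiv ℝ ι e v)) ∧ ContDiffAt ℝ 1 ι e ∧
      ι e ∈ tub N r := by
    filter_upwards [hso.mem_nhds h0s, hιR, hqd, hιI, hιd,
      hιt.eventually (isOpen_tub.mem_nhds (O.sub s0 hs0 θ0))] with e h1 h2 h3 h4 h5 h6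
    exact ⟨h1, h2, h3, h4, h5, h6⟩
  obtain ⟨ρ, hρ, hball⟩ := Metric.eventually_nhds_iff_ball.1 hgood
  have hc := e0.subsingleton_or_nnnorm_symm_pos.imp id fun hf' =>
    NNReal.half_lt_self <| ne_of_gt <| inv_pos.2 hf'
  have happ' : ApproximatesLinearOn q (e0 : Y →L[ℝ] VN N) (ball 0 ρ)
      (‖(e0.symm : VN N →L[ℝ] Y)‖₊⁻¹ / 2) := happ.mono_set fun e he => (hball e he).1
  set H := happ'.toOpenPartialHomeomorph q (ball 0 ρ) hc isOpen_ball with hH
  have hHs : H.source = ball 0 ρ := rfl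
  have hHt : H.target = q '' ball 0 ρ := rfl
  have hHq : ∀ e, H e = q e := fun e => rfl
  set f : VN N × VN N → Y := fun p => H.symm (k p) with hf
  -- invertibility of the derivative of `q`
  have hqinj : ∀ e ∈ ball (0 : Y) ρ, Function.Injective
      ((fderiv ℝ k (ι e)).comp (fderiv ℝ ι e)) := by
    intro e he
    set q' := (fderiv ℝ k (ι e)).comp (fderiv ℝ ι e) with hq'
    have h1 : HasFDerivAt (fun e => q e - e0 e) (q' - (e0 : Y →L[ℝ] VN N)) e :=
      (hball e he).2.2.1.hasFDerivAt.fun_sub (e0 : Y →L[ℝ] VN N).hasFDerivAt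
    have h2 : ‖q' - (e0 : Y →L[ℝ] VN N)‖ ≤ (‖(e0.symm : VN N →L[ℝ] Y)‖₊⁻¹ / 2 : ℝ≥0) := by
      refine h1.le_of_lip' (NNReal.coe_nonneg _) ?_
      filter_upwards [isOpen_ball.mem_nhds he] with e' he'
      have h3 := happ' e' he' e he
      refine le_trans (le_of_eq ?_) h3
      congr 1
      have : (e0 : Y →L[ℝ] VN N) (e' - e) = e0 e' - e0 e := map_sub _ _ _
      rw [this]
      abel
    rw [injective_iff_map_eq_zero]
    intro v hv
    have h3 : ‖e0 v‖ ≤ (‖(e0.symm : VN N →L[ℝ] Y)‖₊⁻¹ / 2 : ℝ≥0) * ‖v‖ := by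
      have h4 : e0 v = -((q' - (e0 : Y →L[ℝ] VN N)) v) := by
        rw [sub_apply, hv]
        simp
      rw [h4, norm_neg]
      exact (ContinuousLinearMap.le_opNorm _ _).trans (by gcongr)
    have h5 : ‖v‖ ≤ ‖(e0.symm : VN N →L[ℝ] Y)‖ * ‖e0 v‖ := by
      have := (e0.symm : VN N →L[ℝ] Y).le_opNorm (e0 v)
      simpa using this
    rcases (norm_nonneg (e0.symm : VN N →L[ℝ] Y)).eq_or_lt with h6 | h6
    · rw [← h6, zero_mul] at h5
      exact norm_le_zero_iff.1 h5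
    · have h7 : ‖v‖ ≤ 1 / 2 * ‖v‖ := by
        calc ‖v‖ ≤ ‖(e0.symm : VN N →L[ℝ] Y)‖ * ‖e0 v‖ := h5
          _ ≤ ‖(e0.symm : VN N →L[ℝ] Y)‖ *
              ((‖(e0.symm : VN N →L[ℝ] Y)‖₊⁻¹ / 2 : ℝ≥0) * ‖v‖) := by gcongr
          _ = 1 / 2 * ‖v‖ := by
            have e1 : ((‖(e0.symm : VN N →L[ℝ] Y)‖₊⁻¹ / 2 : ℝ≥0) : ℝ) =
                ‖(e0.symm : VN N →L[ℝ] Y)‖⁻¹ / 2 := by simp
            rw [e1]
            field_simp
      have h8 : ‖v‖ ≤ 0 := by linarith [norm_nonneg v]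
      exact norm_le_zero_iff.1 h8
  have hqbij : ∀ e ∈ ball (0 : Y) ρ, Function.Bijective
      ((fderiv ℝ k (ι e)).comp (fderiv ℝ ι e)) := fun e he =>
    ⟨hqinj e he, (LinearMap.injective_iff_surjective_of_finrank_eq_finrank
      (f := ((fderiv ℝ k (ι e)).comp (fderiv ℝ ι e) : Y →L[ℝ] VN N).toLinearMap) hfinq).1
      (hqinj e he)⟩
  have hqS : ∀ e ∈ ball (0 : Y) ρ, q e ∈ S := fun e he => (O.kmem (ι e) (hball e he).2.1).1
  have hkq : ∀ e ∈ ball (0 : Y) ρ, ∀ θ, k (θ, A (q e) θ) = q e := fun e he θ =>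
    O.kgr (q e) (hqS e he) θ
  have hfA : ∀ e ∈ ball (0 : Y) ρ, ∀ θ, f (θ, A (q e) θ) = e := fun e he θ => by
    simp only [hf, hkq e he θ]
    exact H.left_inv he
  have hfd : ∀ e ∈ ball (0 : Y) ρ, ∀ θ, ∃ B : VN N ≃L[ℝ] Y,
      HasFDerivAt f ((B : VN N →L[ℝ] Y).comp (fderiv ℝ k (θ, A (q e) θ))) (θ, A (q e) θ) ∧
      ∀ u, B (J (q e) u) = Complex.I • B u := by
    intro e he θ
    set E' : Y ≃L[ℝ] VN N := ContinuousLinearEquiv.ofBijective _
      (LinearMap.ker_eq_bot.2 (hqbij e he).1) (LinearMap.range_eq_top.2 (hqbij e he).2) with hE'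
    have hmem : (∃ s ∈ S, A s (θ, A (q e) θ).1 = (θ, A (q e) θ).2) := ⟨q e, hqS e he, rfl⟩
    have h1 : HasStrictFDerivAt H.symm ((E'.symm : VN N ≃L[ℝ] Y) : VN N →L[ℝ] Y) (q e) := by
      refine H.hasStrictFDerivAt_symm (f' := E') ⟨e, he, rfl⟩ ?_
      have : H.symm (q e) = e := H.left_inv he
      rw [this]
      exact (hball e he).2.2.1
    refine ⟨E'.symm, ?_, fun u => ?_⟩
    · have h2 : HasFDerivAt H.symm ((E'.symm : VN N ≃L[ℝ] Y) : VN N →L[ℝ] Y)
          (k (θ, A (q e) θ)) := by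
        rw [hkq e he θ]
        exact h1.hasFDerivAt
      exact HasFDerivAt.comp (g := H.symm) _ h2 (O.kfd hmem).1.hasFDerivAt
    · rw [ContinuousLinearEquiv.symm_apply_eq]
      have h3 : ∀ v, E' v = fderiv ℝ k (ι e) (fderiv ℝ ι e v) := fun v => rfl
      rw [h3, (hball e he).2.2.2.1, (O.kfd (hball e he).2.1).2.2.2, ← h3,
        E'.apply_symm_apply]
  have hfder : ∀ e ∈ ball (0 : Y) ρ, ∀ θ w, fderiv ℝ f (θ, A (q e) θ)
      (I (θ, A (q e) θ) w) = Complex.I • fderiv ℝ f (θ, A (q e) θ) w := by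
    intro e he θ w
    obtain ⟨B, h1, h2⟩ := hfd e he θ
    have hmem : (∃ s ∈ S, A s (θ, A (q e) θ).1 = (θ, A (q e) θ).2) := ⟨q e, hqS e he, rfl⟩
    rw [h1.fderiv]
    simp only [ContinuousLinearMap.comp_apply]
    rw [(O.kfd hmem).2.2.2, hkq e he θ]
    exact h2 _
  have hop : IsOpen {p : VN N × VN N | ∃ e ∈ ball (0 : Y) ρ, A (q e) p.1 = p.2} := by
    have h1 : {p : VN N × VN N | ∃ e ∈ ball (0 : Y) ρ, A (q e) p.1 = p.2} =
        R ∩ k ⁻¹' (q '' ball 0 ρ) := by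
      ext p
      constructor
      · rintro ⟨e, he, h⟩
        refine ⟨⟨q e, hqS e he, h⟩, e, he, ?_⟩
        have h2 := hkq e he p.1
        rw [h] at h2
        exact h2.symm
      · rintro ⟨hp, e, he, h⟩
        refine ⟨e, he, ?_⟩
        rw [h]
        exact (O.kmem p hp).2
    rw [h1]
    refine ContinuousOn.isOpen_inter_preimage (fun p hp => ?_) hRo H.open_target
    exact (O.kfd hp).1.hasFDerivAt.continuousAt.continuousWithinAt
  refine ⟨ρ, ι, f, q, ⟨hρ, hqS, ?_, H.open_target, hop, hfA, ?_, hfder, ?_, ?_, ?_, ?_, ?_⟩, ?_, hι0⟩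
  · exact H.injOn
  · rintro ⟨θ, v⟩ ⟨e, he, h⟩
    simp only at h
    subst h
    refine (hol_smooth (G.int _ (O.sub _ (hqS e he) θ)) ?_).contDiffWithinAt
    filter_upwards [hop.mem_nhds ⟨e, he, rfl⟩] with p hp
    obtain ⟨e', he', h'⟩ := hp
    have hpe : (p.1, A (q e') p.1) = p := by rw [h']
    obtain ⟨B, h1, -⟩ := hfd e' he' p.1
    rw [hpe] at h1
    refine ⟨h1.differentiableAt, fun w => ?_⟩
    have := hfder e' he' p.1 w
    rwa [hpe] at this
  · intro e he θ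
    obtain ⟨B, h1, -⟩ := hfd e he θ
    have hmem : (∃ s ∈ S, A s (θ, A (q e) θ).1 = (θ, A (q e) θ).2) := ⟨q e, hqS e he, rfl⟩
    rw [h1.fderiv]
    exact B.surjective.comp (O.kfd hmem).2.2.1
  · intro e he θ w
    obtain ⟨B, h1, -⟩ := hfd e he θ
    have hmem : (∃ s ∈ S, A s (θ, A (q e) θ).1 = (θ, A (q e) θ).2) := ⟨q e, hqS e he, rfl⟩
    rw [h1.fderiv]
    have h2 := (O.kfd hmem).2.1 w
    rw [hkq e he θ] at h2
    rw [← h2]
    exact map_eq_zero_iff B B.injective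
  · intro e he
    exact (O.kmem (ι e) (hball e he).2.1).2
  · intro e he
    refine (hol_smooth_into (G.int _ (hball e he).2.2.2.2.2) ?_).contDiffWithinAt
    filter_upwards [isOpen_ball.mem_nhds he] with e' he'
    exact ⟨(hball e' he').2.2.2.2.1.differentiableAt (by simp), (hball e' he').2.2.2.1⟩
  · intro e he
    exact (hball e he).2.2.2.1
  · show k (ι 0) = s0
    rw [hι0]
    exact hk0

end

end Crest.Agent.R281.Tub_57
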