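import Mathlib

/-!
# Row 281, BACKUP TUBE-HOL (B1) (helper370, second owner of helper57's (B)):
homotopy 1-form between two isotropic graphs is exact; limits of exact 1-forms are exact.
-/

set_option autoImplicit false
set_option maxSynthPendingDepth 3

open MeasureTheory Set Filter Topology Metric intervalIntegral

namespace Crest.Agent.R281.TubB_370

variable {V W G H : Type*} [NormedAddCommGroup V] [NormedSpace ℝ V] [NormedAddCommGroup W]
  [NormedSpace ℝ W] [NormedAddCommGroup G] [NormedSpace ℝ G] [NormedAddCommGroup H]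
  [NormedSpace ℝ H]

/-- differentiation under an integral over `[0,1]`, continuous derivative. -/
theorem hasFDerivAt_integral01 [FiniteDimensional ℝ V] {F : ℝ → V → H} {F' : ℝ → V → V →L[ℝ] H}
    (hF : ContinuousOn (fun q : ℝ × V => F q.1 q.2) (Icc 0 1 ×ˢ univ))
    (hF' : ContinuousOn (fun q : ℝ × V => F' q.1 q.2) (Icc 0 1 ×ˢ univ))
    (hd : ∀ s ∈ Icc (0 : ℝ) 1, ∀ x, HasFDerivAt (F s) (F' s x) x) (x₀ : V) :
    HasFDerivAt (fun x => ∫ s in (0 : ℝ)..1, F s x) (∫ s in (0 : ℝ)..1, F' s x₀) x₀ := by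
  have hsub : uIoc (0 : ℝ) 1 ⊆ Icc 0 1 := by
    rw [uIoc_of_le zero_le_one]; exact Ioc_subset_Icc_self
  have hcont : ∀ x, ContinuousOn (fun s => F s x) (Icc 0 1) := fun x =>
    hF.comp (f := fun s : ℝ => (s, x)) (by fun_prop) fun s hs => ⟨hs, mem_univ _⟩
  have hcont' : ∀ x, ContinuousOn (fun s => F' s x) (Icc 0 1) := fun x =>
    hF'.comp (f := fun s : ℝ => (s, x)) (by fun_prop) fun s hs => ⟨hs, mem_univ _⟩
  have hK : IsCompact (Icc (0 : ℝ) 1 ×ˢ closedBall x₀ 1) := isCompact_Icc.prod (isCompact_closedBall _ _)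
  obtain ⟨C, hC⟩ := hK.exists_bound_of_continuousOn
    (hF'.mono (prod_mono subset_rfl (subset_univ _)))
  refine intervalIntegral.hasFDerivAt_integral_of_dominated_of_fderiv_le
    (F := fun x s => F s x) (F' := fun x s => F' s x) (bound := fun _ => C)
    (ball_mem_nhds x₀ one_pos) ?_ ?_ ?_ ?_ ?_ ?_
  · refine Eventually.of_forall fun x => ?_
    exact ((hcont x).mono hsub).aestronglyMeasurable measurableSet_uIoc
  · exact ContinuousOn.intervalIntegrable (by simpa [uIcc_of_le] using hcont x₀)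
  · exact ((hcont' x₀).mono hsub).aestronglyMeasurable measurableSet_uIoc
  · refine Eventually.of_forall fun s hs x hx => ?_
    exact hC (s, x) ⟨hsub hs, ball_subset_closedBall hx⟩
  · exact intervalIntegrable_const
  · exact Eventually.of_forall fun s hs x _ => hd s (hsub hs) x

/-- locally uniform limits of exact 1-forms are exact. -/
theorem exists_primitive_of_tendsto [FiniteDimensional ℝ V] [CompleteSpace G]
    {F : ℕ → V → V →L[ℝ] G} {β : V → V →L[ℝ] G}
    (hF : ∀ᶠ n in atTop, ∃ P : V → G, ∀ x, HasFDerivAt P (F n x) x)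
    (hlim : ∀ R : ℝ, TendstoUniformlyOn F β atTop (closedBall 0 R)) :
    ∃ P : V → G, ∀ x, HasFDerivAt P (β x) x := by
  obtain ⟨N, hN⟩ := eventually_atTop.1 hF
  have hex : ∀ n, ∃ P : V → G, P 0 = 0 ∧ ∀ x, HasFDerivAt P (F (n + N) x) x := by
    intro n
    obtain ⟨P, hP⟩ := hN (n + N) (Nat.le_add_left _ _)
    exact ⟨fun x => P x - P 0, sub_self _, fun x => (hP x).sub_const _⟩
  choose P hP0 hP using hex
  have hlim' : ∀ R : ℝ, TendstoUniformlyOn (fun n => F (n + N)) β atTop (closedBall 0 R) := by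
    intro R u hu
    exact (tendsto_add_atTop_nat N).eventually (hlim R u hu)
  have hc : ∀ x, ∃ y, Tendsto (fun n => P n x) atTop (𝓝 y) := by
    intro x
    have h1 : UniformCauchySeqOn (fun n => F (n + N)) atTop (ball (0 : V) (‖x‖ + 1)) :=
      ((hlim' (‖x‖ + 1)).mono ball_subset_closedBall).uniformCauchySeqOn
    have h2 := cauchy_map_of_uniformCauchySeqOn_fderiv (𝕜 := ℝ) (f := P) (x₀ := 0) (x := x)
      isOpen_ball
      (convex_ball (0 : V) (‖x‖ + 1)).isPreconnected h1 (fun n y _ => hP n y)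
      (mem_ball_self (by positivity)) (by rw [mem_ball_zero_iff]; linarith)
      (by
        have : (fun n => P n 0) = fun _ => (0 : G) := funext hP0
        rw [this]
        exact (tendsto_const_nhds (x := (0 : G)) (f := atTop)).cauchy_map)
    exact cauchy_map_iff_exists_tendsto.1 h2
  choose Q hQ using hc
  refine ⟨Q, fun x => ?_⟩
  exact hasFDerivAt_of_tendstoUniformlyOn (𝕜 := ℝ) (f := P) (f' := fun n => F (n + N)) (l := atTop)
    (isOpen_ball (x := (0 : V)) (ε := ‖x‖ + 1))
    ((hlim' (‖x‖ + 1)).mono ball_subset_closedBall) (fun n y _ => hP n y) (fun y _ => hQ y)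
    (by rw [mem_ball_zero_iff]; linarith)

/-- closed alternating `C¹` 2-forms on an open set. -/
structure ClO (U : Set H) (σ : H → H →L[ℝ] H →L[ℝ] G) : Prop where
  sm : ContDiffOn ℝ 1 σ U
  alt : ∀ p ∈ U, ∀ u v, σ p u v = -σ p v u
  cl : ∀ p ∈ U, ∀ u v z,
    fderiv ℝ σ p u v z + fderiv ℝ σ p v z u + fderiv ℝ σ p z u v = 0

theorem ClO.alt_fderiv {U : Set H} {σ : H → H →L[ℝ] H →L[ℝ] G} (hσ : ClO U σ) (hU : IsOpen U) :
    ∀ p ∈ U, ∀ z u v, fderiv ℝ σ p z u v = -fderiv ℝ σ p z v u := by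
  intro p hp z u v
  have hd : HasFDerivAt σ (fderiv ℝ σ p) p :=
    ((hσ.sm.differentiableOn (by norm_num)).differentiableAt (hU.mem_nhds hp)).hasFDerivAt
  have h1 : ∀ u v, HasFDerivAt (fun q => σ q u v) (((fderiv ℝ σ p).flip u).flip v) p := by
    intro u v
    have := (hd.clm_apply (hasFDerivAt_const u p)).clm_apply (hasFDerivAt_const v p)
    convert this using 1
    ext z; simp
  have h2 : HasFDerivAt (fun q => σ q u v) (-(((fderiv ℝ σ p).flip v).flip u)) p := by
    refine (h1 v u).neg.congr_of_eventuallyEq ?_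
    filter_upwards [hU.mem_nhds hp] with q hq
    exact hσ.alt q hq u v
  have h3 := (h1 u v).unique h2
  have h4 := congrArg (fun f : H →L[ℝ] G => f z) h3
  simpa using h4

/-- linear interpolation of two maps. -/
def itp (φ₀ φ₁ : V → H) (s : ℝ) (x : V) : H := φ₀ x + s • (φ₁ x - φ₀ x)

/-- the tangent map of the interpolation. -/
noncomputable def Ditp (φ₀ φ₁ : V → H) (s : ℝ) (x : V) : V →L[ℝ] H :=
  fderiv ℝ φ₀ x + s • (fderiv ℝ φ₁ x - fderiv ℝ φ₀ x)

/-- the homotopy 1-form. -/
noncomputable def om (σ : H → H →L[ℝ] H →L[ℝ] G) (φ₀ φ₁ : V → H) (s : ℝ) (x : V) :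
    V →L[ℝ] G :=
  (σ (itp φ₀ φ₁ s x) (φ₁ x - φ₀ x)).comp (Ditp φ₀ φ₁ s x)

section closed

variable {U : Set H} {σ : H → H →L[ℝ] H →L[ℝ] G} {φ₀ φ₁ : V → H}

/-- **(B1)** the homotopy 1-form of two isotropic `C²` maps is exact. -/
theorem exists_primitive_om [FiniteDimensional ℝ V] [CompleteSpace G] (hU : IsOpen U)
    (hσ : ClO U σ) (h0 : ContDiff ℝ 2 φ₀) (h1 : ContDiff ℝ 2 φ₁)
    (hseg : ∀ x, ∀ s ∈ Icc (0 : ℝ) 1, itp φ₀ φ₁ s x ∈ U)
    (i0 : ∀ x u w, σ (φ₀ x) (fderiv ℝ φ₀ x u) (fderiv ℝ φ₀ x w) = 0)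
    (i1 : ∀ x u w, σ (φ₁ x) (fderiv ℝ φ₁ x u) (fderiv ℝ φ₁ x w) = 0) :
    ∃ P : V → G, ∀ x, HasFDerivAt P (∫ s in (0 : ℝ)..1, om σ φ₀ φ₁ s x) x := by
  -- notation
  set b : V → H := fun x => φ₁ x - φ₀ x with hb
  set Db : V → V →L[ℝ] H := fun x => fderiv ℝ φ₁ x - fderiv ℝ φ₀ x with hDb
  set g : ℝ → V → H := itp φ₀ φ₁ with hg
  set T : ℝ → V → V →L[ℝ] H := Ditp φ₀ φ₁ with hT
  set T' : ℝ → V → V →L[ℝ] V →L[ℝ] H := fun s x =>
    fderiv ℝ (fderiv ℝ φ₀) x + s • (fderiv ℝ (fderiv ℝ φ₁) x - fderiv ℝ (fderiv ℝ φ₀) x)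
    with hT'
  have d0 : ∀ x, HasFDerivAt φ₀ (fderiv ℝ φ₀ x) x := fun x =>
    ((h0.differentiable (by norm_num)) x).hasFDerivAt
  have d1 : ∀ x, HasFDerivAt φ₁ (fderiv ℝ φ₁ x) x := fun x =>
    ((h1.differentiable (by norm_num)) x).hasFDerivAt
  have c0 : ContDiff ℝ 1 (fderiv ℝ φ₀) := h0.fderiv_right (m := 1) (by norm_num)
  have c1 : ContDiff ℝ 1 (fderiv ℝ φ₁) := h1.fderiv_right (m := 1) (by norm_num)
  have dd0 : ∀ x, HasFDerivAt (fderiv ℝ φ₀) (fderiv ℝ (fderiv ℝ φ₀) x) x := fun x =>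
    ((c0.differentiable (by norm_num)) x).hasFDerivAt
  have dd1 : ∀ x, HasFDerivAt (fderiv ℝ φ₁) (fderiv ℝ (fderiv ℝ φ₁) x) x := fun x =>
    ((c1.differentiable (by norm_num)) x).hasFDerivAt
  have hgd : ∀ s x, HasFDerivAt (g s) (T s x) x := fun s x =>
    (d0 x).add (((d1 x).sub (d0 x)).const_smul s)
  have hTd : ∀ s x, HasFDerivAt (T s) (T' s x) x := fun s x =>
    (dd0 x).add (((dd1 x).sub (dd0 x)).const_smul s)
  have hgU : ∀ s ∈ Icc (0 : ℝ) 1, ∀ x, g s x ∈ U := fun s hs x => hseg x s hs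
  have hσd : ∀ p ∈ U, HasFDerivAt σ (fderiv ℝ σ p) p := fun p hp =>
    ((hσ.sm.differentiableOn (by norm_num)).differentiableAt (hU.mem_nhds hp)).hasFDerivAt
  have altd : ∀ p ∈ U, ∀ z u v, fderiv ℝ σ p z u v = -fderiv ℝ σ p z v u :=
    hσ.alt_fderiv hU
  -- the coefficient and its derivative
  set c : ℝ → V → (H →L[ℝ] G) := fun s x => σ (g s x) (b x) with hc
  set c' : ℝ → V → V →L[ℝ] (H →L[ℝ] G) := fun s x =>
    (σ (g s x)).comp (Db x) + ((fderiv ℝ σ (g s x)).comp (T s x)).flip (b x) with hc'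
  have hcd : ∀ s ∈ Icc (0 : ℝ) 1, ∀ x, HasFDerivAt (c s) (c' s x) x := by
    intro s hs x
    have h2 : HasFDerivAt (fun y => σ (g s y)) ((fderiv ℝ σ (g s x)).comp (T s x)) x :=
      (hσd _ (hgU s hs x)).comp x (hgd s x)
    exact h2.clm_apply ((d1 x).sub (d0 x))
  set O' : ℝ → V → V →L[ℝ] V →L[ℝ] G := fun s x =>
    (ContinuousLinearMap.compL ℝ V H G (c s x)).comp (T' s x)
      + ((ContinuousLinearMap.compL ℝ V H G).flip (T s x)).comp (c' s x) with hO'
  have hOd : ∀ s ∈ Icc (0 : ℝ) 1, ∀ x, HasFDerivAt (om σ φ₀ φ₁ s) (O' s x) x := by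
    intro s hs x
    exact (hcd s hs x).clm_comp (hTd s x)
  -- continuity
  have cb : Continuous b := (h1.continuous).sub h0.continuous
  have cDb : Continuous Db := c1.continuous.sub c0.continuous
  have cg : Continuous (fun q : ℝ × V => g q.1 q.2) := by
    have := h0.continuous
    have := h1.continuous
    simp only [hg, itp]; fun_prop
  have cT : Continuous (fun q : ℝ × V => T q.1 q.2) := by
    have := c0.continuous
    have := c1.continuous
    simp only [hT, Ditp]; fun_prop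
  have cT' : Continuous (fun q : ℝ × V => T' q.1 q.2) := by
    have := (c0.fderiv_right (m := 0) (by norm_num)).continuous
    have := (c1.fderiv_right (m := 0) (by norm_num)).continuous
    simp only [hT']; fun_prop
  have hmap : MapsTo (fun q : ℝ × V => g q.1 q.2) (Icc 0 1 ×ˢ univ) U := fun q hq =>
    hgU q.1 hq.1 q.2
  have cσ : ContinuousOn (fun q : ℝ × V => σ (g q.1 q.2)) (Icc 0 1 ×ˢ univ) :=
    hσ.sm.continuousOn.comp cg.continuousOn hmap
  have cDσ : ContinuousOn (fun q : ℝ × V => fderiv ℝ σ (g q.1 q.2)) (Icc 0 1 ×ˢ univ) :=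
    (hσ.sm.continuousOn_fderiv_of_isOpen hU le_rfl).comp cg.continuousOn hmap
  have cc : ContinuousOn (fun q : ℝ × V => c q.1 q.2) (Icc 0 1 ×ˢ univ) :=
    cσ.clm_apply (cb.comp continuous_snd).continuousOn
  have cc' : ContinuousOn (fun q : ℝ × V => c' q.1 q.2) (Icc 0 1 ×ˢ univ) := by
    refine ContinuousOn.add (cσ.clm_comp (cDb.comp continuous_snd).continuousOn) ?_
    have h3 : ContinuousOn (fun q : ℝ × V =>
        (ContinuousLinearMap.flipₗᵢ ℝ V H (H →L[ℝ] G))
          ((fderiv ℝ σ (g q.1 q.2)).comp (T q.1 q.2))) (Icc 0 1 ×ˢ univ) :=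
      (ContinuousLinearMap.flipₗᵢ ℝ V H (H →L[ℝ] G)).continuous.comp_continuousOn
        (cDσ.clm_comp cT.continuousOn)
    exact h3.clm_apply (cb.comp continuous_snd).continuousOn
  have cO : ContinuousOn (fun q : ℝ × V => om σ φ₀ φ₁ q.1 q.2) (Icc 0 1 ×ˢ univ) :=
    cc.clm_comp cT.continuousOn
  have cO' : ContinuousOn (fun q : ℝ × V => O' q.1 q.2) (Icc 0 1 ×ˢ univ) := by
    refine ContinuousOn.add ?_ ?_
    · exact ((ContinuousLinearMap.compL ℝ V H G).continuous.comp_continuousOn cc).clm_comp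
        cT'.continuousOn
    · exact (((ContinuousLinearMap.compL ℝ V H G).flip.continuous.comp_continuousOn
        cT.continuousOn)).clm_comp cc'
  have hI : ∀ x, HasFDerivAt (fun x => ∫ s in (0 : ℝ)..1, om σ φ₀ φ₁ s x)
      (∫ s in (0 : ℝ)..1, O' s x) x := fun x => hasFDerivAt_integral01 cO cO' hOd x
  obtain ⟨P, hP⟩ := (convex_univ (𝕜 := ℝ) (E := V)).exists_forall_hasFDerivAt_of_fderiv_symmetric
    (ω := fun x => ∫ s in (0 : ℝ)..1, om σ φ₀ φ₁ s x) isOpen_univ
    (fun x _ => (hI x).differentiableAt.differentiableWithinAt) (by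
      intro x _ u w
      rw [(hI x).fderiv]
      have cx : ContinuousOn (fun s => O' s x) (Icc 0 1) :=
        cO'.comp (f := fun s : ℝ => (s, x)) (by fun_prop) fun s hs => ⟨hs, mem_univ _⟩
      have hint : IntervalIntegrable (fun s => O' s x) volume 0 1 :=
        ContinuousOn.intervalIntegrable (by rw [uIcc_of_le zero_le_one]; exact cx)
      have hint2 : ∀ u, IntervalIntegrable (fun s => O' s x u) volume 0 1 := fun u =>
        ContinuousOn.intervalIntegrable (by
          rw [uIcc_of_le zero_le_one]; exact cx.clm_apply continuousOn_const)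
      have hint3 : ∀ u w, IntervalIntegrable (fun s => O' s x u w) volume 0 1 := fun u w =>
        ContinuousOn.intervalIntegrable (by
          rw [uIcc_of_le zero_le_one]
          exact (cx.clm_apply continuousOn_const).clm_apply continuousOn_const)
      rw [ContinuousLinearMap.intervalIntegral_apply hint,
        ContinuousLinearMap.intervalIntegral_apply (hint2 u),
        ContinuousLinearMap.intervalIntegral_apply hint,
        ContinuousLinearMap.intervalIntegral_apply (hint2 w)]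
      rw [← sub_eq_zero, ← intervalIntegral.integral_sub (hint3 u w) (hint3 w u)]
      -- the fundamental theorem
      have hS : ∀ s ∈ uIcc (0 : ℝ) 1, HasDerivAt (fun s => σ (g s x) (T s x u) (T s x w))
          (O' s x u w - O' s x w u) s := by
        intro s hs
        rw [uIcc_of_le zero_le_one] at hs
        have hgs : HasDerivAt (fun s => g s x) (b x) s := by
          have h6 := ((hasDerivAt_id s).smul_const (φ₁ x - φ₀ x)).const_add (φ₀ x)
          rw [one_smul] at h6
          exact h6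
        have hTs : ∀ u, HasDerivAt (fun s => T s x u) (Db x u) s := by
          intro u
          have h6 := ((hasDerivAt_id s).smul_const (Db x u)).const_add (fderiv ℝ φ₀ x u)
          rw [one_smul] at h6
          exact h6
        have hσs : HasDerivAt (fun s => σ (g s x)) (fderiv ℝ σ (g s x) (b x)) s :=
          (hσd _ (hgU s hs x)).comp_hasDerivAt s hgs
        have h5 := (hσs.clm_apply (hTs u)).clm_apply (hTs w)
        convert h5 using 1
        have hcl := hσ.cl _ (hgU s hs x) (T s x u) (b x) (T s x w)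
        have al1 := altd _ (hgU s hs x) (b x) (T s x w) (T s x u)
        have al2 := altd _ (hgU s hs x) (T s x w) (T s x u) (b x)
        have al3 := hσ.alt _ (hgU s hs x) (Db x w) (T s x u)
        have e1 : ∀ u w, O' s x u w = σ (g s x) (b x) (T' s x u w)
            + (σ (g s x) (Db x u) (T s x w)
              + fderiv ℝ σ (g s x) (T s x u) (b x) (T s x w)) := by
          intro u w
          simp [hO', hc, hc']
        have e2 : T' s x u w = T' s x w u := by
          have s0 := (h0.contDiffAt (x := x)).isSymmSndFDerivAt (by simp) u w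
          have s1 := (h1.contDiffAt (x := x)).isSymmSndFDerivAt (by simp) u w
          simp [hT', s0, s1]
        rw [e1, e1, e2]
        simp only [add_apply]
        rw [al1, al2] at hcl
        rw [al3]
        have : fderiv ℝ σ (g s x) (T s x u) (b x) (T s x w)
            = fderiv ℝ σ (g s x) (b x) (T s x u) (T s x w)
              + fderiv ℝ σ (g s x) (T s x w) (b x) (T s x u) := by
          rw [← sub_eq_zero]
          rw [← hcl]; abel
        rw [this]; abel
      rw [intervalIntegral.integral_eq_sub_of_hasDerivAt hS ((hint3 u w).sub (hint3 w u))]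
      have g1 : g 1 x = φ₁ x := by simp [hg, itp]
      have g0 : g 0 x = φ₀ x := by simp [hg, itp]
      have T1 : ∀ u, T 1 x u = fderiv ℝ φ₁ x u := by intro u; simp [hT, Ditp]
      have T0 : ∀ u, T 0 x u = fderiv ℝ φ₀ x u := by intro u; simp [hT, Ditp]
      rw [g1, g0, T1, T1, T0, T0, i1, i0, sub_zero])
  exact ⟨P, fun x => hP x (mem_univ x)⟩

end closed

end Crest.Agent.R281.TubB_370
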