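import Crest.Agent.R281.TubB1_370
import Crest.Agent.R281.TubB2_370

/-!
# Row 281, BACKUP TUBE-HOL (B) (helper370, second owner of helper57's (B)): final theorem.

For a Lipschitz family of isotropic graphs `x ↦ (x, a c x)` (isotropic for a closed 2-form `σ` with
values in `G`): for almost every parameter `c` the family is differentiable in the parameter at `c`,
uniformly on compact sets, with derivative `M x : X →L W` (Lipschitz in `x`), and for every `k : X`
the 1-form `σ_(x, a c x) ((0, M x k), (·, D(a c) x ·))` on `V` is exact.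
-/

set_option autoImplicit false
set_option maxSynthPendingDepth 3

open MeasureTheory Set Filter Topology Metric intervalIntegral

namespace Crest.Agent.R281.TubB_370

variable {V W G X : Type*} [NormedAddCommGroup V] [NormedSpace ℝ V] [NormedAddCommGroup W]
  [NormedSpace ℝ W] [NormedAddCommGroup G] [NormedSpace ℝ G] [NormedAddCommGroup X]
  [NormedSpace ℝ X]

/-- the tangent map of a graph. -/
noncomputable def tg (a : V → W) (x : V) : V →L[ℝ] V × W :=
  (ContinuousLinearMap.id ℝ V).prod (fderiv ℝ a x)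

@[simp] theorem tg_apply (a : V → W) (x u : V) : tg a x u = (u, fderiv ℝ a x u) := rfl

/-- **hypotheses of (B)**: a family of isotropic graphs. -/
structure IsoFam (U : Set (V × W)) (σ : V × W → V × W →L[ℝ] V × W →L[ℝ] G) (s : Set X)
    (L L' : ℝ) (a : X → V → W) : Prop where
  c2 : ∀ c ∈ s, ContDiff ℝ 2 (a c)
  seg : ∀ c ∈ s, ∀ c' ∈ s, ∀ x, ∀ t ∈ Icc (0 : ℝ) 1, (x, a c x + t • (a c' x - a c x)) ∈ U
  iso : ∀ c ∈ s, ∀ x u w, σ (x, a c x) (tg (a c) x u) (tg (a c) x w) = 0
  lip : ∀ c ∈ s, ∀ c' ∈ s, ∀ x, ‖a c x - a c' x‖ ≤ L * ‖c - c'‖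
  dlip : ∀ c ∈ s, ∀ c' ∈ s, ∀ x, ‖fderiv ℝ (a c) x - fderiv ℝ (a c') x‖ ≤ L' * ‖c - c'‖

variable {U : Set (V × W)} {σ : V × W → V × W →L[ℝ] V × W →L[ℝ] G} {s : Set X} {L L' : ℝ}
  {a : X → V → W}

omit [NormedSpace ℝ X] in
theorem IsoFam.lipFam (h : IsoFam U σ s L L' a) : LipFam s L L' a where
  lip := h.lip
  lip2 := by
    intro c hc c' hc' t t'
    have hd : ∀ x, DifferentiableAt ℝ (fun x => a c x - a c' x) x := fun x =>
      (((h.c2 c hc).differentiable (by norm_num)) x).sub
        (((h.c2 c' hc').differentiable (by norm_num)) x)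
    have := Convex.norm_image_sub_le_of_norm_fderiv_le (𝕜 := ℝ) (f := fun x => a c x - a c' x)
      (s := univ) (C := L' * ‖c - c'‖) (fun x _ => hd x) (fun x _ => by
        have h1 : fderiv ℝ (fun x => a c x - a c' x) x = fderiv ℝ (a c) x - fderiv ℝ (a c') x :=
          ((((h.c2 c hc).differentiable (by norm_num)) x).hasFDerivAt.sub
            (((h.c2 c' hc').differentiable (by norm_num)) x).hasFDerivAt).fderiv
        rw [h1]; exact h.dlip c hc c' hc' x) convex_univ (mem_univ t') (mem_univ t)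
    rw [dist_eq_norm]
    exact this

/-- the limit 1-form. -/
noncomputable def beta (σ : V × W → V × W →L[ℝ] V × W →L[ℝ] G) (a : V → W) (m : V → W) (x : V) :
    V →L[ℝ] G :=
  (σ (x, a x) (0, m x)).comp (tg a x)

theorem beta_apply (σ : V × W → V × W →L[ℝ] V × W →L[ℝ] G) (a : V → W) (m : V → W) (x u : V) :
    beta σ a m x u = σ (x, a x) (0, m x) (u, fderiv ℝ a x u) := rfl

theorem hasFDerivAt_graph {a : V → W} (ha : ContDiff ℝ 2 a) (x : V) :
    HasFDerivAt (fun x => (x, a x)) (tg a x) x :=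
  (hasFDerivAt_id x).prodMk ((ha.differentiable (by norm_num)) x).hasFDerivAt

/-- **(B3)** exactness of the limit form. -/
theorem IsoFam.exists_primitive [FiniteDimensional ℝ V] [CompleteSpace G]
    (h : IsoFam U σ s L L' a) (hU : IsOpen U) (hσ : ClO U σ) (hL' : 0 ≤ L') {c : X}
    (hs : s ∈ 𝓝 c) {M : V → X →L[ℝ] W} (hM : ∀ x, HasFDerivAt (fun c' => a c' x) (M x) c) (k : X) :
    ∃ P : V → G, ∀ x, HasFDerivAt P (beta σ (a c) (fun x => M x k) x) x := by
  have hcs : c ∈ s := mem_of_mem_nhds hs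
  set φ : X → V → V × W := fun c x => (x, a c x) with hφ
  have hφ2 : ∀ c ∈ s, ContDiff ℝ 2 (φ c) := fun c hc => contDiff_id.prodMk (h.c2 c hc)
  have hφd : ∀ c ∈ s, ∀ x, fderiv ℝ (φ c) x = tg (a c) x := fun c hc x =>
    (hasFDerivAt_graph (h.c2 c hc) x).fderiv
  let τ : ℕ → X := fun n => c + ((n : ℝ) + 1)⁻¹ • k
  have hτ : Tendsto τ atTop (𝓝 c) := by
    have h1 : Tendsto (fun n : ℕ => ((n : ℝ) + 1)⁻¹) atTop (𝓝 0) := by
      simpa [one_div] using (tendsto_one_div_add_atTop_nhds_zero_nat (𝕜 := ℝ))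
    have h2 := (h1.smul_const k).const_add c
    simpa using h2
  have hτs : ∀ᶠ n in atTop, τ n ∈ s := hτ.eventually hs
  have hτn : ∀ n, ‖τ n - c‖ = ((n : ℝ) + 1)⁻¹ * ‖k‖ := by
    intro n
    have : τ n - c = ((n : ℝ) + 1)⁻¹ • k := by simp [τ]
    rw [this, norm_smul, Real.norm_of_nonneg (by positivity)]
  set F : ℕ → V → V →L[ℝ] G := fun n x =>
    ((n : ℝ) + 1) • ∫ t in (0 : ℝ)..1, om σ (φ c) (φ (τ n)) t x with hF
  refine exists_primitive_of_tendsto (F := F) ?_ ?_
  · filter_upwards [hτs] with n hn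
    obtain ⟨P, hP⟩ := exists_primitive_om (σ := σ) (φ₀ := φ c) (φ₁ := φ (τ n)) hU hσ
      (hφ2 c hcs) (hφ2 _ hn) (by
        intro x t ht
        have := h.seg c hcs (τ n) hn x t ht
        have e : itp (φ c) (φ (τ n)) t x = (x, a c x + t • (a (τ n) x - a c x)) := by
          simp [itp, hφ]
        rw [e]; exact this)
      (by intro x u w; rw [hφd c hcs]; exact h.iso c hcs x u w)
      (by intro x u w; rw [hφd _ hn]; exact h.iso _ hn x u w)
    exact ⟨fun x => ((n : ℝ) + 1) • P x, fun x => (hP x).const_smul _⟩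
  · intro R
    rw [Metric.tendstoUniformlyOn_iff]
    intro ε hε
    -- the compact set
    let Ψ : (V × W) × (V × W) × (V →L[ℝ] V × W) → (V →L[ℝ] G) := fun q => (σ q.1 q.2.1).comp q.2.2
    let Φ : V → (V × W) × (V × W) × (V →L[ℝ] V × W) := fun x =>
      ((x, a c x), ((0 : V), M x k), tg (a c) x)
    have hMc : Continuous M := by
      have hl := h.lipFam.lip_fderiv hL' hs hM
      have : LipschitzWith ⟨L', hL'⟩ M := LipschitzWith.of_dist_le_mul fun x y => by
        rw [dist_eq_norm]; exact hl x y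
      exact this.continuous
    have hac : Continuous (a c) := (h.c2 c hcs).continuous
    have htg : Continuous (tg (a c)) := by
      have h1 : Continuous (fderiv ℝ (a c)) := (h.c2 c hcs).continuous_fderiv (by norm_num)
      have h3 : tg (a c) = fun x => (ContinuousLinearMap.inl ℝ V W)
          + (ContinuousLinearMap.compL ℝ V W (V × W) (ContinuousLinearMap.inr ℝ V W))
            (fderiv ℝ (a c) x) := by
        funext x; ext u <;> simp
      rw [h3]
      exact ((ContinuousLinearMap.compL ℝ V W (V × W)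
        (ContinuousLinearMap.inr ℝ V W)).continuous.comp h1).const_add _
    have hΦ : Continuous Φ := by
      refine (continuous_id.prodMk hac).prodMk ((continuous_const.prodMk ?_).prodMk htg)
      exact hMc.clm_apply continuous_const
    have hS : IsCompact (Φ '' closedBall 0 R) := (isCompact_closedBall _ _).image hΦ
    have hmem : ∀ x, (x, a c x) ∈ U := fun x => by
      simpa using h.seg c hcs c hcs x 0 (by simp)
    have hΨ : ∀ q ∈ Φ '' closedBall 0 R, ContinuousAt Ψ q := by
      rintro _ ⟨x, _, rfl⟩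
      have h1 : ContinuousAt σ (x, a c x) := (hσ.sm.continuousOn).continuousAt (hU.mem_nhds (hmem x))
      have h2 : ContinuousAt (fun q : (V × W) × (V × W) × (V →L[ℝ] V × W) => σ q.1) (Φ x) :=
        ContinuousAt.comp (f := fun q : (V × W) × (V × W) × (V →L[ℝ] V × W) => q.1) h1
          continuousAt_fst
      exact (h2.clm_apply (by fun_prop)).clm_comp (by fun_prop)
    have hu := hS.uniformContinuousAt_of_continuousAt Ψ hΨ (dist_mem_uniformity (half_pos hε))
    obtain ⟨δ, hδ, hδu⟩ := Metric.mem_uniformity_dist.1 hu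
    -- the convergence of the arguments
    obtain ⟨δ₁, hδ₁, hs₁, hunif⟩ := h.lipFam.unif hL' hs hM (isCompact_closedBall (0 : V) R)
      (ε := δ / (2 * (‖k‖ + 1))) (by positivity)
    have hev1 : ∀ᶠ n in atTop, τ n ∈ ball c δ₁ := hτ.eventually (ball_mem_nhds c hδ₁)
    have hdist : Tendsto (fun n => (|L| + L' + 1) * ‖τ n - c‖) atTop (𝓝 0) := by
      have := (tendsto_iff_norm_sub_tendsto_zero.1 hτ).const_mul (|L| + L' + 1)
      simpa using this
    have hev2 : ∀ᶠ n in atTop, (|L| + L' + 1) * ‖τ n - c‖ < δ := hdist.eventually (gt_mem_nhds hδ)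
    filter_upwards [hev1, hev2, hτs] with n hn1 hn2 hn3 x hx
    have hn0 : (0 : ℝ) < (n : ℝ) + 1 := by positivity
    -- pointwise estimate
    have hpt : ∀ t ∈ Icc (0 : ℝ) 1,
        ‖((n : ℝ) + 1) • om σ (φ c) (φ (τ n)) t x - beta σ (a c) (fun x => M x k) x‖ ≤ ε / 2 := by
      intro t ht
      have key : dist (Φ x) (itp (φ c) (φ (τ n)) t x,
          ((n : ℝ) + 1) • (φ (τ n) x - φ c x), Ditp (φ c) (φ (τ n)) t x) < δ := by
        have hLx : ‖a (τ n) x - a c x‖ < δ := by
          refine (h.lip _ hn3 c hcs x).trans_lt (lt_of_le_of_lt ?_ hn2)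
          refine mul_le_mul_of_nonneg_right ?_ (norm_nonneg _)
          have := le_abs_self L
          linarith
        refine max_lt ?_ (max_lt ?_ ?_)
        · have e : itp (φ c) (φ (τ n)) t x = (x, a c x + t • (a (τ n) x - a c x)) := by
            simp [itp, hφ]
          rw [e]
          show dist (x, a c x) (x, a c x + t • (a (τ n) x - a c x)) < δ
          refine max_lt (by rw [dist_self]; exact hδ) ?_
          show dist (a c x) (a c x + t • (a (τ n) x - a c x)) < δ
          rw [dist_eq_norm]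
          have : a c x - (a c x + t • (a (τ n) x - a c x)) = -(t • (a (τ n) x - a c x)) := by abel
          rw [this, norm_neg, norm_smul, Real.norm_of_nonneg ht.1]
          refine lt_of_le_of_lt ?_ hLx
          calc t * ‖a (τ n) x - a c x‖ ≤ 1 * ‖a (τ n) x - a c x‖ :=
                mul_le_mul_of_nonneg_right ht.2 (norm_nonneg _)
            _ = _ := one_mul _
        · have e : ((n : ℝ) + 1) • (φ (τ n) x - φ c x) = (0, ((n : ℝ) + 1) • (a (τ n) x - a c x)) := by
            simp [hφ]
          rw [e]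
          show dist ((0 : V), M x k) (0, ((n : ℝ) + 1) • (a (τ n) x - a c x)) < δ
          refine max_lt (by rw [dist_self]; exact hδ) ?_
          show dist (M x k) (((n : ℝ) + 1) • (a (τ n) x - a c x)) < δ
          have h5 := hunif x hx (τ n) hn1
          have h6 : M x (τ n - c) = ((n : ℝ) + 1)⁻¹ • M x k := by
            have : τ n - c = ((n : ℝ) + 1)⁻¹ • k := by simp [τ]
            rw [this, map_smul]
          rw [h6, hτn] at h5
          rw [dist_comm, dist_eq_norm]
          have h7 : ((n : ℝ) + 1) • (a (τ n) x - a c x) - M x k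
              = ((n : ℝ) + 1) • (a (τ n) x - a c x - ((n : ℝ) + 1)⁻¹ • M x k) := by
            rw [smul_sub ((n : ℝ) + 1) (a (τ n) x - a c x), smul_smul, mul_inv_cancel₀ hn0.ne',
              one_smul]
          rw [h7, norm_smul, Real.norm_of_nonneg hn0.le]
          calc ((n : ℝ) + 1) * ‖a (τ n) x - a c x - ((n : ℝ) + 1)⁻¹ • M x k‖
              ≤ ((n : ℝ) + 1) * (δ / (2 * (‖k‖ + 1)) * (((n : ℝ) + 1)⁻¹ * ‖k‖)) :=
                mul_le_mul_of_nonneg_left h5 hn0.le
            _ = (‖k‖ / (‖k‖ + 1)) * (δ / 2) := by field_simp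
            _ ≤ 1 * (δ / 2) := by
                refine mul_le_mul_of_nonneg_right ?_ (by positivity)
                rw [div_le_one (by positivity)]; linarith
            _ < δ := by linarith
        · show dist (tg (a c) x) (Ditp (φ c) (φ (τ n)) t x) < δ
          have e : Ditp (φ c) (φ (τ n)) t x = tg (a c) x
              + t • (tg (a (τ n)) x - tg (a c) x) := by
            simp only [Ditp]; rw [hφd c hcs, hφd _ hn3]
          rw [e, dist_eq_norm]
          have : tg (a c) x - (tg (a c) x + t • (tg (a (τ n)) x - tg (a c) x))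
              = -(t • (tg (a (τ n)) x - tg (a c) x)) := by abel
          rw [this, norm_neg, norm_smul, Real.norm_of_nonneg ht.1]
          have h8 : ‖tg (a (τ n)) x - tg (a c) x‖ ≤ L' * ‖τ n - c‖ := by
            refine ContinuousLinearMap.opNorm_le_bound _ (by positivity) fun u => ?_
            have h9 : (tg (a (τ n)) x - tg (a c) x) u
                = (0, (fderiv ℝ (a (τ n)) x - fderiv ℝ (a c) x) u) := by simp
            rw [h9, Prod.norm_def, norm_zero, max_eq_right (norm_nonneg _)]
            exact ((fderiv ℝ (a (τ n)) x - fderiv ℝ (a c) x).le_opNorm u).trans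
              (mul_le_mul_of_nonneg_right (h.dlip _ hn3 c hcs x) (norm_nonneg _))
          refine lt_of_le_of_lt ?_ hn2
          calc t * ‖tg (a (τ n)) x - tg (a c) x‖ ≤ 1 * (L' * ‖τ n - c‖) :=
                mul_le_mul ht.2 h8 (norm_nonneg _) zero_le_one
            _ ≤ (|L| + L' + 1) * ‖τ n - c‖ := by
                rw [one_mul]
                refine mul_le_mul_of_nonneg_right ?_ (norm_nonneg _)
                have := abs_nonneg L
                linarith
      have h10 := hδu key (mem_image_of_mem Φ hx)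
      have h11 : Ψ (itp (φ c) (φ (τ n)) t x, ((n : ℝ) + 1) • (φ (τ n) x - φ c x),
          Ditp (φ c) (φ (τ n)) t x) = ((n : ℝ) + 1) • om σ (φ c) (φ (τ n)) t x := by
        simp only [Ψ, om, map_smul, ContinuousLinearMap.smul_comp]
      have h12 : Ψ (Φ x) = beta σ (a c) (fun x => M x k) x := rfl
      have h13 : dist (Ψ (Φ x)) (Ψ (itp (φ c) (φ (τ n)) t x,
          ((n : ℝ) + 1) • (φ (τ n) x - φ c x), Ditp (φ c) (φ (τ n)) t x)) < ε / 2 := h10
      rw [h11, h12, dist_comm, dist_eq_norm] at h13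
      exact h13.le
    -- integrate
    have hcontσ : ContinuousOn (fun t => om σ (φ c) (φ (τ n)) t x) (Icc 0 1) := by
      have h1 : ContinuousOn (fun t => σ (itp (φ c) (φ (τ n)) t x)) (Icc 0 1) := by
        refine hσ.sm.continuousOn.comp (f := fun t => itp (φ c) (φ (τ n)) t x) ?_ ?_
        · simp only [itp]; fun_prop
        · intro t ht
          have e : itp (φ c) (φ (τ n)) t x = (x, a c x + t • (a (τ n) x - a c x)) := by
            simp [itp, hφ]
          show itp (φ c) (φ (τ n)) t x ∈ U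
          rw [e]; exact h.seg c hcs (τ n) hn3 x t ht
      refine (h1.clm_apply continuousOn_const).clm_comp ?_
      simp only [Ditp]; fun_prop
    have hint : IntervalIntegrable (fun t => ((n : ℝ) + 1) • om σ (φ c) (φ (τ n)) t x) volume 0 1 :=
      ContinuousOn.intervalIntegrable (by
        rw [uIcc_of_le zero_le_one]; exact hcontσ.const_smul ((n : ℝ) + 1))
    have h14 : F n x - beta σ (a c) (fun x => M x k) x = ∫ t in (0 : ℝ)..1,
        (((n : ℝ) + 1) • om σ (φ c) (φ (τ n)) t x - beta σ (a c) (fun x => M x k) x) := by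
      rw [intervalIntegral.integral_sub hint intervalIntegrable_const]
      simp [hF, intervalIntegral.integral_smul]
    rw [dist_comm, dist_eq_norm, h14]
    refine lt_of_le_of_lt (intervalIntegral.norm_integral_le_of_norm_le_const (C := ε / 2) ?_) ?_
    · intro t ht
      rw [uIoc_of_le zero_le_one] at ht
      exact hpt t ⟨ht.1.le, ht.2⟩
    · simp; linarith

/-- **(B), final form.** -/
theorem IsoFam.ae_exists [FiniteDimensional ℝ V] [FiniteDimensional ℝ W] [FiniteDimensional ℝ X]
    [MeasurableSpace X] [BorelSpace X] (μ : Measure X) [μ.IsAddHaarMeasure] [CompleteSpace G]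
    (h : IsoFam U σ s L L' a) (hU : IsOpen U) (hσ : ClO U σ) (hs : IsOpen s) (hL : 0 ≤ L)
    (hL' : 0 ≤ L') :
    ∀ᵐ c ∂μ, c ∈ s → ∃ M : V → X →L[ℝ] W, (∀ x, HasFDerivAt (fun c' => a c' x) (M x) c) ∧
      (∀ x x', ‖M x - M x'‖ ≤ L' * dist x x') ∧
      (∀ K : Set V, IsCompact K → ∀ ε : ℝ, 0 < ε → ∃ δ : ℝ, 0 < δ ∧ ball c δ ⊆ s ∧
        ∀ x ∈ K, ∀ c' ∈ ball c δ, ‖a c' x - a c x - M x (c' - c)‖ ≤ ε * ‖c' - c‖) ∧
      ∀ k : X, ∃ P : V → G, ∀ x, HasFDerivAt P (beta σ (a c) (fun x => M x k) x) x := by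
  filter_upwards [h.lipFam.ae_exists μ hs hL hL'] with c hc hcs
  obtain ⟨M, hM, hM'⟩ := hc hcs
  have hn : s ∈ 𝓝 c := hs.mem_nhds hcs
  exact ⟨M, hM, hM', fun K hK ε hε => h.lipFam.unif hL' hn hM hK hε,
    fun k => h.exists_primitive hU hσ hL' hn hM k⟩

end Crest.Agent.R281.TubB_370
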