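import Crest.Agent.R266.Osgood
import Crest.Agent.R281.TubB3_370

/-!
# Row 281, BACKUP TUBE-HOL (A) (helper370, second owner of helper57's (A)):
a `C¹` isotropic graph of half dimension in a complex symplectic manifold (locally: endomorphism
field `I` with holomorphic charts `χ`, `x (I u, w) = - y (u, w)`, `x` non-degenerate) has `I`-stable
tangent planes, is `C^∞`, and has local holomorphic coordinates.
-/

set_option autoImplicit false
set_option maxSynthPendingDepth 3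
set_option linter.unusedSectionVars false

open Set Filter Topology Metric Module
open scoped ContDiff

open Crest.Agent.R281.TubB_370 (tg tg_apply)

namespace Crest.Agent.R281.TubA_370

section linear

variable {V H : Type*} [AddCommGroup V] [Module ℝ V] [AddCommGroup H] [Module ℝ H]
  [FiniteDimensional ℝ V] [FiniteDimensional ℝ H]

/-- a Lagrangian subspace is its own orthogonal. -/
theorem mem_range_of_lag {x : H →ₗ[ℝ] H →ₗ[ℝ] ℝ} (nd : ∀ u, (∀ w, x u w = 0) → u = 0)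
    {τ : V →ₗ[ℝ] H} (hτ : Function.Injective τ) (hdim : finrank ℝ H = 2 * finrank ℝ V)
    (lag : ∀ u w, x (τ u) (τ w) = 0) {h : H} (hh : ∀ w, x h (τ w) = 0) : ∃ u, τ u = h := by
  let φ : H →ₗ[ℝ] Dual ℝ V := τ.dualMap ∘ₗ x
  have hφ : ∀ h w, φ h w = x h (τ w) := fun h w => rfl
  have hx : Function.Injective x := by
    rw [← LinearMap.ker_eq_bot, LinearMap.ker_eq_bot']
    intro u hu
    exact nd u fun w => by rw [hu]; rfl
  have hxs : Function.Surjective x :=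
    (LinearMap.injective_iff_surjective_of_finrank_eq_finrank
      (Subspace.dual_finrank_eq (K := ℝ) (V := H)).symm).1 hx
  have hφs : Function.Surjective φ :=
    (LinearMap.dualMap_surjective_of_injective hτ).comp hxs
  have h1 := LinearMap.finrank_range_add_finrank_ker φ
  have h2 : finrank ℝ (LinearMap.range φ) = finrank ℝ V := by
    rw [LinearMap.range_eq_top.2 hφs, finrank_top, Subspace.dual_finrank_eq]
  have h3 : finrank ℝ (LinearMap.range τ) = finrank ℝ V := LinearMap.finrank_range_of_inj hτ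
  have hle : LinearMap.range τ ≤ LinearMap.ker φ := by
    rintro _ ⟨u, rfl⟩
    rw [LinearMap.mem_ker]; ext w
    exact lag u w
  have heq : LinearMap.range τ = LinearMap.ker φ :=
    Submodule.eq_of_le_of_finrank_eq hle (by omega)
  have hm : h ∈ LinearMap.ker φ := by
    rw [LinearMap.mem_ker]; ext w; exact hh w
  rw [← heq] at hm
  exact hm

end linear

section complex

variable {E F : Type*} [NormedAddCommGroup E] [NormedSpace ℝ E] [NormedSpace ℂ E]
  [IsScalarTower ℝ ℂ E] [NormedAddCommGroup F] [NormedSpace ℝ F] [NormedSpace ℂ F]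
  [IsScalarTower ℝ ℂ F]

/-- a real continuous linear map commuting with `i`, as a complex linear map. -/
noncomputable def toC (L : E →L[ℝ] F) (hc : ∀ v, L (Complex.I • v) = Complex.I • L v) :
    E →L[ℂ] F where
  toFun := L
  map_add' := L.map_add
  map_smul' := by
    intro c v
    have h1 : c • v = c.re • v + c.im • (Complex.I • v) := by
      conv_lhs => rw [← Complex.re_add_im c]
      rw [add_smul, mul_smul]
      congr 1
      · rw [← IsScalarTower.algebraMap_smul ℂ c.re v]; rfl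
      · rw [← IsScalarTower.algebraMap_smul ℂ c.im (Complex.I • v)]; rfl
    have h2 : c • L v = c.re • L v + c.im • (Complex.I • L v) := by
      conv_lhs => rw [← Complex.re_add_im c]
      rw [add_smul, mul_smul]
      congr 1
      · rw [← IsScalarTower.algebraMap_smul ℂ c.re (L v)]; rfl
      · rw [← IsScalarTower.algebraMap_smul ℂ c.im (Complex.I • L v)]; rfl
    rw [h1, L.map_add, L.map_smul, L.map_smul, hc]
    exact h2.symm
  cont := L.cont

theorem toC_apply (L : E →L[ℝ] F) (hc : ∀ v, L (Complex.I • v) = Complex.I • L v) (v : E) :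
    toC L hc v = L v := rfl

/-- a real derivative commuting with `i` is a complex derivative. -/
theorem differentiableAt_of_comm {f : E → F} {L : E →L[ℝ] F} {x : E} (h : HasFDerivAt f L x)
    (hc : ∀ v, L (Complex.I • v) = Complex.I • L v) : DifferentiableAt ℂ f x :=
  (hasFDerivAt_of_restrictScalars ℝ (f' := toC L hc) h (by ext v; rfl)).differentiableAt

end complex

section main

variable {V W F Z : Type*} [NormedAddCommGroup V] [NormedSpace ℝ V] [FiniteDimensional ℝ V]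
  [NormedAddCommGroup W] [NormedSpace ℝ W] [FiniteDimensional ℝ W]
  [NormedAddCommGroup F] [NormedSpace ℝ F] [NormedSpace ℂ F] [IsScalarTower ℝ ℂ F]
  [FiniteDimensional ℂ F]
  [NormedAddCommGroup Z] [NormedSpace ℝ Z] [NormedSpace ℂ Z] [IsScalarTower ℝ ℂ Z]
  [FiniteDimensional ℂ Z]

theorem tg_injective (a : V → W) (θ : V) : Function.Injective (tg a θ) := fun u v h => by
  simpa using congrArg Prod.fst h

/-- pointwise complex symplectic structure on the open set `U`. -/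
structure CxS (U : Set (V × W)) (x y : V × W → V × W →L[ℝ] V × W →L[ℝ] ℝ)
    (I : V × W → V × W →L[ℝ] V × W) : Prop where
  sq : ∀ p ∈ U, ∀ u, I p (I p u) = -u
  rel : ∀ p ∈ U, ∀ u w, x p (I p u) w = -y p u w
  nd : ∀ p ∈ U, ∀ u, (∀ w, x p u w = 0) → u = 0

/-- holomorphic chart of `I` at `p` with values in `F`. -/
structure HCh (I : V × W → V × W →L[ℝ] V × W) (p : V × W) (χ : V × W → F) : Prop where
  sm : ContDiffAt ℝ ∞ χ p
  bij : ∃ L : (V × W) ≃L[ℝ] F, HasFDerivAt χ (L : V × W →L[ℝ] F) p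
  hol : ∀ᶠ q in 𝓝 p, ∀ u, fderiv ℝ χ q (I q u) = Complex.I • fderiv ℝ χ q u

/-- the complex structure of the graph. -/
noncomputable def Jg (I : V × W → V × W →L[ℝ] V × W) (a : V → W) (θ : V) : V →L[ℝ] V :=
  (ContinuousLinearMap.fst ℝ V W).comp ((I (θ, a θ)).comp (tg a θ))

/-- **(A1)** the tangent planes are `I`-stable. -/
theorem I_tg {U : Set (V × W)} {x y : V × W → V × W →L[ℝ] V × W →L[ℝ] ℝ}
    {I : V × W → V × W →L[ℝ] V × W} (hS : CxS U x y I) (hdim : finrank ℝ W = finrank ℝ V)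
    {a : V → W} {θ : V} (hU : (θ, a θ) ∈ U)
    (hx : ∀ u w, x (θ, a θ) (tg a θ u) (tg a θ w) = 0)
    (hy : ∀ u w, y (θ, a θ) (tg a θ u) (tg a θ w) = 0) (u : V) :
    I (θ, a θ) (tg a θ u) = tg a θ (Jg I a θ u) := by
  obtain ⟨v, hv⟩ := mem_range_of_lag
    (x := ((ContinuousLinearMap.coeLM ℝ).comp (x (θ, a θ) : V × W →ₗ[ℝ] V × W →L[ℝ] ℝ)))
    (τ := (tg a θ : V →ₗ[ℝ] V × W)) (h := I (θ, a θ) (tg a θ u)) (hS.nd _ hU)
    (tg_injective a θ) (by rw [Module.finrank_prod, hdim]; ring) hx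
    (fun w => by
      show x (θ, a θ) (I (θ, a θ) (tg a θ u)) (tg a θ w) = 0
      rw [hS.rel _ hU, hy, neg_zero])
  have h1 : v = Jg I a θ u := by
    have := congrArg Prod.fst hv
    exact this
  rw [← h1]; exact hv.symm

theorem Jg_sq {U : Set (V × W)} {x y : V × W → V × W →L[ℝ] V × W →L[ℝ] ℝ}
    {I : V × W → V × W →L[ℝ] V × W} (hS : CxS U x y I) (hdim : finrank ℝ W = finrank ℝ V)
    {a : V → W} {θ : V} (hU : (θ, a θ) ∈ U)
    (hx : ∀ u w, x (θ, a θ) (tg a θ u) (tg a θ w) = 0)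
    (hy : ∀ u w, y (θ, a θ) (tg a θ u) (tg a θ w) = 0) (u : V) :
    Jg I a θ (Jg I a θ u) = -u := by
  have h1 := I_tg hS hdim hU hx hy (Jg I a θ u)
  rw [← I_tg hS hdim hU hx hy u, hS.sq _ hU] at h1
  have := congrArg Prod.fst h1
  simpa using this.symm

theorem hasFDerivAt_gr {a : V → W} (ha : ContDiff ℝ 1 a) (θ : V) :
    HasFDerivAt (fun θ => (θ, a θ)) (tg a θ) θ :=
  (hasFDerivAt_id θ).prodMk ((ha.differentiable (by norm_num)) θ).hasFDerivAt

/-- **(A2), (A3)**: the graph is smooth and has holomorphic coordinates. -/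
theorem exists_coord {U : Set (V × W)} {x y : V × W → V × W →L[ℝ] V × W →L[ℝ] ℝ}
    {I : V × W → V × W →L[ℝ] V × W} (hS : CxS U x y I) (hdim : finrank ℝ W = finrank ℝ V)
    {a : V → W} (ha : ContDiff ℝ 1 a) (hU : ∀ θ, (θ, a θ) ∈ U)
    (hx : ∀ θ u w, x (θ, a θ) (tg a θ u) (tg a θ w) = 0)
    (hy : ∀ θ u w, y (θ, a θ) (tg a θ u) (tg a θ w) = 0) (θ₀ : V) {χ : V × W → F}
    (hχ : HCh I (θ₀, a θ₀) χ) (hZ : finrank ℝ Z = finrank ℝ V) :
    ContDiffAt ℝ ∞ a θ₀ ∧ ∃ ζ : V → Z, ContDiffAt ℝ ∞ ζ θ₀ ∧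
      (∃ L : V ≃L[ℝ] Z, HasFDerivAt ζ (L : V →L[ℝ] Z) θ₀) ∧
      ∀ᶠ θ in 𝓝 θ₀, ∀ u, fderiv ℝ ζ θ (Jg I a θ u) = Complex.I • fderiv ℝ ζ θ u := by
  classical
  have : FiniteDimensional ℝ F := FiniteDimensional.trans ℝ ℂ F
  have : FiniteDimensional ℝ Z := FiniteDimensional.trans ℝ ℂ Z
  have : CompleteSpace F := FiniteDimensional.complete ℝ F
  have : CompleteSpace Z := FiniteDimensional.complete ℝ Z
  have : CompleteSpace V := FiniteDimensional.complete ℝ V
  have : CompleteSpace W := FiniteDimensional.complete ℝ W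
  have hgrc : Continuous (fun θ => (θ, a θ)) := continuous_id.prodMk ha.continuous
  obtain ⟨Lχ, hLχ⟩ := hχ.bij
  -- the composite `γ = χ ∘ gr`
  set γ : V → F := fun θ => χ (θ, a θ) with hγ
  set D : V → V →L[ℝ] F := fun θ => (fderiv ℝ χ (θ, a θ)).comp (tg a θ) with hD
  have hsmn : ∀ᶠ q in 𝓝 (θ₀, a θ₀), ContDiffAt ℝ 1 χ q :=
    (hχ.sm.of_le (by simp)).eventually (by simp)
  have hev : ∀ᶠ θ in 𝓝 θ₀, HasFDerivAt γ (D θ) θ ∧
      ∀ u, D θ (Jg I a θ u) = Complex.I • D θ u := by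
    filter_upwards [hgrc.continuousAt.eventually hsmn, hgrc.continuousAt.eventually hχ.hol]
      with θ h1 h2
    refine ⟨((h1.differentiableAt (by norm_num)).hasFDerivAt).comp θ (hasFDerivAt_gr ha θ), ?_⟩
    intro u
    show fderiv ℝ χ (θ, a θ) (tg a θ (Jg I a θ u)) = _
    rw [← I_tg hS hdim (hU θ) (hx θ) (hy θ) u]
    exact h2 _
  have hDγ0 : HasFDerivAt γ (D θ₀) θ₀ := hev.self_of_nhds.1
  have hcomm0 := hev.self_of_nhds.2
  have hD0inj : Function.Injective (D θ₀) := by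
    intro u v huv
    have h1 : fderiv ℝ χ (θ₀, a θ₀) = (Lχ : V × W →L[ℝ] F) := hLχ.fderiv
    have h2 : Lχ (tg a θ₀ u) = Lχ (tg a θ₀ v) := by
      have : fderiv ℝ χ (θ₀, a θ₀) (tg a θ₀ u) = fderiv ℝ χ (θ₀, a θ₀) (tg a θ₀ v) := huv
      rw [h1] at this; exact this
    exact tg_injective a θ₀ (Lχ.injective h2)
  -- the complex subspace
  let T : Submodule ℂ F :=
    { carrier := Set.range (D θ₀)
      add_mem' := by
        rintro _ _ ⟨u, rfl⟩ ⟨v, rfl⟩
        exact ⟨u + v, map_add _ _ _⟩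
      zero_mem' := ⟨0, map_zero _⟩
      smul_mem' := by
        rintro c _ ⟨u, rfl⟩
        refine ⟨c.re • u + c.im • Jg I a θ₀ u, ?_⟩
        rw [map_add, map_smul, map_smul, hcomm0]
        have h2 : c • D θ₀ u = c.re • D θ₀ u + c.im • (Complex.I • D θ₀ u) := by
          conv_lhs => rw [← Complex.re_add_im c]
          rw [add_smul, mul_smul]
          congr 1
          · rw [← IsScalarTower.algebraMap_smul ℂ c.re (D θ₀ u)]; rfl
          · rw [← IsScalarTower.algebraMap_smul ℂ c.im (Complex.I • D θ₀ u)]; rfl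
        exact h2.symm }
  have hTr : finrank ℝ T = finrank ℝ V := by
    have e : V ≃ₗ[ℝ] T :=
      LinearEquiv.ofBijective
        ({ toFun := fun u => ⟨D θ₀ u, ⟨u, rfl⟩⟩
           map_add' := fun u v => Subtype.ext (map_add _ _ _)
           map_smul' := fun c u => Subtype.ext (map_smul _ _ _) } : V →ₗ[ℝ] T)
        ⟨fun u v h => hD0inj (congrArg Subtype.val h), by
          rintro ⟨_, ⟨u, rfl⟩⟩; exact ⟨u, rfl⟩⟩
    exact e.finrank_eq.symm
  have hTZ : finrank ℂ T = finrank ℂ Z := by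
    have h1 := finrank_mul_finrank ℝ ℂ T
    have h2 := finrank_mul_finrank ℝ ℂ Z
    rw [Complex.finrank_real_complex] at h1 h2
    omega
  let e₀ : T ≃ₗ[ℂ] Z := LinearEquiv.ofFinrankEq T Z hTZ
  obtain ⟨π₀, hπ₀⟩ := LinearMap.exists_extend (e₀ : T →ₗ[ℂ] Z)
  let π : F →L[ℂ] Z := LinearMap.toContinuousLinearMap π₀
  have hπT : ∀ u, π (D θ₀ u) = e₀ ⟨D θ₀ u, ⟨u, rfl⟩⟩ := by
    intro u
    have := congrArg (fun f : T →ₗ[ℂ] Z => f ⟨D θ₀ u, ⟨u, rfl⟩⟩) hπ₀
    exact this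
  let πr : F →L[ℝ] Z := π.restrictScalars ℝ
  -- the coordinate
  set ζ : V → Z := fun θ => πr (γ θ) with hζ
  set Dζ : V → V →L[ℝ] Z := fun θ => πr.comp (D θ) with hDζ
  have hζd : ∀ᶠ θ in 𝓝 θ₀, HasFDerivAt ζ (Dζ θ) θ ∧
      ∀ u, Dζ θ (Jg I a θ u) = Complex.I • Dζ θ u := by
    filter_upwards [hev] with θ h
    refine ⟨πr.hasFDerivAt.comp θ h.1, fun u => ?_⟩
    show π (D θ (Jg I a θ u)) = Complex.I • π (D θ u)
    rw [h.2, map_smul]
  have hinj : Function.Injective (Dζ θ₀) := by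
    intro u v huv
    have h1 : e₀ ⟨D θ₀ u, ⟨u, rfl⟩⟩ = e₀ ⟨D θ₀ v, ⟨v, rfl⟩⟩ := by
      rw [← hπT, ← hπT]; exact huv
    exact hD0inj (congrArg Subtype.val (e₀.injective h1))
  let L' : V ≃L[ℝ] Z := (LinearEquiv.ofInjectiveOfFinrankEq (Dζ θ₀ : V →ₗ[ℝ] Z) hinj
    hZ.symm).toContinuousLinearEquiv
  have hL' : (L' : V →L[ℝ] Z) = Dζ θ₀ := by ext u; rfl
  have hζL : HasFDerivAt ζ (L' : V →L[ℝ] Z) θ₀ := by rw [hL']; exact hζd.self_of_nhds.1
  have hgr1 : ContDiff ℝ 1 (fun θ => (θ, a θ)) := contDiff_id.prodMk ha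
  have hγ1 : ContDiffAt ℝ 1 γ θ₀ :=
    ContDiffAt.comp θ₀ (g := χ) (hsmn.self_of_nhds) hgr1.contDiffAt
  have hζ1 : ContDiffAt ℝ 1 ζ θ₀ := πr.contDiff.contDiffAt.comp θ₀ hγ1
  let e : OpenPartialHomeomorph V Z := hζ1.toOpenPartialHomeomorph ζ hζL one_ne_zero
  have heζ : ∀ θ, e θ = ζ θ := fun θ => rfl
  have he0 : θ₀ ∈ e.source := hζ1.mem_toOpenPartialHomeomorph_source hζL one_ne_zero
  set Θ : Z → V := fun z => e.symm z with hΘ
  set z₀ : Z := ζ θ₀ with hz₀
  have hz0t : z₀ ∈ e.target := e.map_source he0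
  have hΘz0 : Θ z₀ = θ₀ := e.left_inv he0
  have hΘ1 : ContDiffAt ℝ 1 Θ z₀ :=
    e.contDiffAt_symm hz0t (f₀' := L') (by rw [show e.symm z₀ = θ₀ from hΘz0]; exact hζL)
      (by rw [show e.symm z₀ = θ₀ from hΘz0]; exact hζ1)
  have hΘc : Tendsto Θ (𝓝 z₀) (𝓝 θ₀) := by
    have := hΘ1.continuousAt; rw [ContinuousAt, hΘz0] at this; exact this
  have hΘd : ∀ᶠ z in 𝓝 z₀, HasFDerivAt Θ (fderiv ℝ Θ z) z := by
    filter_upwards [hΘ1.eventually (by simp)] with z hz
    exact (hz.differentiableAt (by norm_num)).hasFDerivAt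
  have hright : ∀ᶠ z in 𝓝 z₀, ζ (Θ z) = z := by
    filter_upwards [e.open_target.mem_nhds hz0t] with z hz
    exact e.right_inv hz
  have hleft : ∀ᶠ θ in 𝓝 θ₀, Θ (ζ θ) = θ := by
    filter_upwards [e.open_source.mem_nhds he0] with θ hθ
    exact e.left_inv hθ
  have hζc : Tendsto ζ (𝓝 θ₀) (𝓝 z₀) := hζ1.continuousAt
  -- inverse derivatives
  have hr' : ∀ᶠ z in 𝓝 z₀, ∀ v, Dζ (Θ z) (fderiv ℝ Θ z v) = v := by
    filter_upwards [hright.eventually_nhds, hΘd, hΘc.eventually hζd] with z h1 h2 h3 v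
    have h4 : HasFDerivAt (fun z => ζ (Θ z)) ((Dζ (Θ z)).comp (fderiv ℝ Θ z)) z :=
      h3.1.comp z h2
    have h5 : HasFDerivAt (fun z => ζ (Θ z)) (ContinuousLinearMap.id ℝ Z) z :=
      (hasFDerivAt_id z).congr_of_eventuallyEq h1
    have h6 := congrArg (fun f : Z →L[ℝ] Z => f v) (h4.unique h5)
    exact h6
  have hl' : ∀ᶠ z in 𝓝 z₀, ∀ u, fderiv ℝ Θ z (Dζ (Θ z) u) = u := by
    have h0 : ∀ᶠ θ in 𝓝 θ₀, ∀ u, fderiv ℝ Θ (ζ θ) (Dζ θ u) = u := by
      filter_upwards [hleft.eventually_nhds, hζc.eventually hΘd, hζd] with θ h1 h2 h3 u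
      have h4 : HasFDerivAt (fun θ => Θ (ζ θ)) ((fderiv ℝ Θ (ζ θ)).comp (Dζ θ)) θ :=
        h2.comp θ h3.1
      have h5 : HasFDerivAt (fun θ => Θ (ζ θ)) (ContinuousLinearMap.id ℝ V) θ :=
        (hasFDerivAt_id θ).congr_of_eventuallyEq h1
      exact congrArg (fun f : V →L[ℝ] V => f u) (h4.unique h5)
    filter_upwards [hΘc.eventually h0, hright] with z h1 h2 u
    have := h1 u
    rwa [h2] at this
  -- `φ = γ ∘ Θ` is holomorphic
  set φ : Z → F := fun z => γ (Θ z) with hφ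
  have hφd : ∀ᶠ z in 𝓝 z₀, DifferentiableAt ℂ φ z := by
    filter_upwards [hr', hl', hΘd, hΘc.eventually hev, hΘc.eventually hζd] with z h1 h2 h3 h4 h5
    refine differentiableAt_of_comm (L := (D (Θ z)).comp (fderiv ℝ Θ z)) (h4.1.comp z h3) ?_
    intro v
    have h6 : fderiv ℝ Θ z (Complex.I • v) = Jg I a (Θ z) (fderiv ℝ Θ z v) := by
      conv_lhs => rw [← h1 v]
      rw [← h5.2, h2]
    show D (Θ z) (fderiv ℝ Θ z (Complex.I • v)) = Complex.I • D (Θ z) (fderiv ℝ Θ z v)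
    rw [h6, h4.2]
  have hφs : ContDiffAt ℝ ∞ φ z₀ := by
    obtain ⟨O, hO1, hO2, hO3⟩ := _root_.eventually_nhds_iff.1 hφd
    have h1 : DifferentiableOn ℂ φ O := fun z hz => (hO1 z hz).differentiableWithinAt
    have h2 := Crest.Agent.R266.SCV.contDiffOn_omega_of_differentiableOn hO2 h1
    exact ((h2.contDiffAt (hO2.mem_nhds hO3)).restrict_scalars ℝ).of_le (by simp)
  -- the local inverse of `χ`
  let f : OpenPartialHomeomorph (V × W) F := hχ.sm.toOpenPartialHomeomorph χ hLχ (by simp)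
  have hf0 : (θ₀, a θ₀) ∈ f.source := hχ.sm.mem_toOpenPartialHomeomorph_source hLχ (by simp)
  have hft : χ (θ₀, a θ₀) ∈ f.target := f.map_source hf0
  have hfs0 : f.symm (χ (θ₀, a θ₀)) = (θ₀, a θ₀) := f.left_inv hf0
  have hg : ContDiffAt ℝ ∞ f.symm (χ (θ₀, a θ₀)) :=
    f.contDiffAt_symm hft (f₀' := Lχ) (by rw [hfs0]; exact hLχ) (by rw [hfs0]; exact hχ.sm)
  have hφz0 : φ z₀ = χ (θ₀, a θ₀) := by simp only [hφ, hγ, hΘz0]
  set ψ : Z → V × W := fun z => f.symm (φ z) with hψ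
  have hψs : ContDiffAt ℝ ∞ ψ z₀ := by
    refine ContDiffAt.comp z₀ (g := f.symm) ?_ hφs
    rw [hφz0]; exact hg
  have hψe : ∀ᶠ z in 𝓝 z₀, ψ z = (Θ z, a (Θ z)) := by
    have h1 : Tendsto (fun z => (Θ z, a (Θ z))) (𝓝 z₀) (𝓝 (θ₀, a θ₀)) :=
      (hgrc.continuousAt (x := θ₀)).tendsto.comp hΘc
    filter_upwards [h1.eventually (f.open_source.mem_nhds hf0)] with z hz
    exact f.left_inv hz
  have hΘs : ContDiffAt ℝ ∞ Θ z₀ := by
    refine (contDiffAt_fst.comp z₀ hψs).congr_of_eventuallyEq ?_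
    filter_upwards [hψe] with z hz
    show Θ z = (ψ z).1
    rw [hz]
  have hζs : ContDiffAt ℝ ∞ ζ θ₀ := by
    have h1 : HasFDerivAt e.symm (L'.symm : Z →L[ℝ] V) z₀ := by
      have h2 := hΘ1.differentiableAt (by norm_num)
      have h3 := hr'.self_of_nhds
      rw [hΘz0] at h3
      have h4 : fderiv ℝ Θ z₀ = (L'.symm : Z →L[ℝ] V) := by
        ext v
        have h5 : L' (fderiv ℝ Θ z₀ v) = v := by
          have : (L' : V →L[ℝ] Z) (fderiv ℝ Θ z₀ v) = v := by rw [hL']; exact h3 v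
          exact this
        show fderiv ℝ Θ z₀ v = L'.symm v
        rw [ContinuousLinearEquiv.eq_symm_apply]; exact h5
      rw [← h4]; exact h2.hasFDerivAt
    have h6 : ContDiffAt ℝ ∞ e.symm.symm θ₀ :=
      e.symm.contDiffAt_symm (a := θ₀) (f₀' := L'.symm) he0 h1 hΘs
    exact h6
  refine ⟨?_, ζ, hζs, ⟨L', hζL⟩, ?_⟩
  · have h1 : ContDiffAt ℝ ∞ (fun θ => (ψ (ζ θ)).2) θ₀ :=
      contDiffAt_snd.comp θ₀ (ContDiffAt.comp θ₀ (g := ψ) hψs hζs)
    refine h1.congr_of_eventuallyEq ?_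
    filter_upwards [hζc.eventually hψe, hleft] with θ h2 h3
    rw [h2, h3]
  · filter_upwards [hζd] with θ h u
    rw [h.1.fderiv]; exact h.2 u

end main

end Crest.Agent.R281.TubA_370
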