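import Mathlib

/-!
# Row 281, BACKUP TUBE-HOL (B2) (helper370, second owner of helper57's (B)):
uniform differentiability in the parameter for almost every parameter (Rademacher + equi-Lipschitz).
-/

set_option autoImplicit false

open MeasureTheory Set Filter Topology Metric

namespace Crest.Agent.R281.TubB_370

variable {V W T : Type*} [NormedAddCommGroup V] [NormedSpace ℝ V] [NormedAddCommGroup W]
  [NormedSpace ℝ W] [PseudoMetricSpace T]

/-- families of maps `a c : T → W`, Lipschitz in `c`, with equi-Lipschitz differences. -/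
structure LipFam (s : Set V) (L L' : ℝ) (a : V → T → W) : Prop where
  lip : ∀ c ∈ s, ∀ c' ∈ s, ∀ t, ‖a c t - a c' t‖ ≤ L * ‖c - c'‖
  lip2 : ∀ c ∈ s, ∀ c' ∈ s, ∀ t t',
    ‖(a c t - a c' t) - (a c t' - a c' t')‖ ≤ L' * ‖c - c'‖ * dist t t'

/-- a function that is approximated, in the Lipschitz sense at `c`, by functions differentiable at
`c`, is differentiable at `c`. -/
theorem differentiableAt_of_approx [CompleteSpace W] {f : V → W} {c : V}
    (h : ∀ ε : ℝ, 0 < ε → ∃ g : V → W, DifferentiableAt ℝ g c ∧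
      ∀ᶠ x in 𝓝 c, ‖(f x - f c) - (g x - g c)‖ ≤ ε * ‖x - c‖) : DifferentiableAt ℝ f c := by
  choose! g hg hgε using h
  let e : ℕ → ℝ := fun n => 1 / ((n : ℝ) + 1)
  have he : ∀ n, 0 < e n := fun n => by positivity
  let M : ℕ → V →L[ℝ] W := fun n => fderiv ℝ (g (e n)) c
  have hM : ∀ n, HasFDerivAt (g (e n)) (M n) c := fun n => (hg _ (he n)).hasFDerivAt
  have hnm : ∀ n m, ‖M n - M m‖ ≤ e n + e m := by
    intro n m
    refine HasFDerivAt.le_of_lip' ((hM n).sub (hM m)) (by linarith [he n, he m]) ?_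
    filter_upwards [hgε _ (he n), hgε _ (he m)] with x hx hy
    have : (g (e n) x - g (e m) x) - (g (e n) c - g (e m) c)
        = ((f x - f c) - (g (e m) x - g (e m) c)) - ((f x - f c) - (g (e n) x - g (e n) c)) := by
      abel
    show ‖(g (e n) x - g (e m) x) - (g (e n) c - g (e m) c)‖ ≤ _
    rw [this]
    refine (norm_sub_le _ _).trans ?_
    rw [add_mul]; linarith
  have hlim0 : Tendsto e atTop (𝓝 0) := tendsto_one_div_add_atTop_nhds_zero_nat
  have hC : CauchySeq M := by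
    rw [Metric.cauchySeq_iff']
    intro ε hε
    have h1 := (hlim0.eventually (gt_mem_nhds (show (0 : ℝ) < ε / 2 by positivity)))
    obtain ⟨N, hN⟩ := eventually_atTop.1 h1
    refine ⟨N, fun n hn => ?_⟩
    rw [dist_eq_norm]
    have := hnm n N
    have h2 := hN n hn
    have h3 := hN N le_rfl
    linarith
  obtain ⟨M₀, hM₀⟩ := cauchySeq_tendsto_of_complete hC
  refine (HasFDerivAt.differentiableAt (f' := M₀) ?_)
  rw [hasFDerivAt_iff_isLittleO, Asymptotics.isLittleO_iff]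
  intro ε hε
  have h1 := (hlim0.eventually (gt_mem_nhds (show (0 : ℝ) < ε / 3 by positivity)))
  have h2 : ∀ᶠ n in atTop, ‖M n - M₀‖ < ε / 3 := by
    have := (tendsto_iff_norm_sub_tendsto_zero.1 hM₀)
    exact this.eventually (gt_mem_nhds (show (0 : ℝ) < ε / 3 by positivity))
  obtain ⟨n, hn1, hn2⟩ := (h1.and h2).exists
  have h3 := (Asymptotics.isLittleO_iff.1 ((hasFDerivAt_iff_isLittleO).1 (hM n)))
    (show (0 : ℝ) < ε / 3 by positivity)
  filter_upwards [hgε _ (he n), h3] with x hx hy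
  have : f x - f c - M₀ (x - c) = ((f x - f c) - (g (e n) x - g (e n) c))
      + (g (e n) x - g (e n) c - M n (x - c)) + (M n - M₀) (x - c) := by
    rw [sub_apply]; abel
  rw [this]
  refine (norm_add₃_le).trans ?_
  have h4 := (M n - M₀).le_opNorm (x - c)
  have h5 : ‖M n - M₀‖ * ‖x - c‖ ≤ ε / 3 * ‖x - c‖ :=
    mul_le_mul_of_nonneg_right hn2.le (norm_nonneg _)
  have h6 : e n * ‖x - c‖ ≤ ε / 3 * ‖x - c‖ := mul_le_mul_of_nonneg_right hn1.le (norm_nonneg _)
  have h7 : ε * ‖x - c‖ = ε / 3 * ‖x - c‖ + ε / 3 * ‖x - c‖ + ε / 3 * ‖x - c‖ := by ring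
  linarith

/-- **(B2), pointwise part.** -/
theorem LipFam.differentiableAt [CompleteSpace W] {s : Set V} {L L' : ℝ} {a : V → T → W}
    (h : LipFam s L L' a) {c : V} (hc : s ∈ 𝓝 c) {D : Set T} (hD : Dense D)
    (hd : ∀ t ∈ D, DifferentiableAt ℝ (fun c' => a c' t) c) (t : T) :
    DifferentiableAt ℝ (fun c' => a c' t) c := by
  refine differentiableAt_of_approx fun ε hε => ?_
  obtain ⟨t', ht', hdist⟩ := Metric.dense_iff.1 hD t (ε / (|L'| + 1)) (by positivity)
  refine ⟨fun c' => a c' t', hd t' hdist, ?_⟩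
  have hcs : c ∈ s := mem_of_mem_nhds hc
  filter_upwards [hc] with x hx
  have h1 := h.lip2 x hx c hcs t t'
  refine h1.trans ?_
  have h2 : dist t t' ≤ ε / (|L'| + 1) := by
    rw [dist_comm]; exact (mem_ball.1 ht').le
  have h3 : L' * ‖x - c‖ ≤ |L'| * ‖x - c‖ :=
    mul_le_mul_of_nonneg_right (le_abs_self _) (norm_nonneg _)
  calc L' * ‖x - c‖ * dist t t' ≤ |L'| * ‖x - c‖ * dist t t' :=
        mul_le_mul_of_nonneg_right h3 dist_nonneg
    _ ≤ |L'| * ‖x - c‖ * (ε / (|L'| + 1)) :=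
        mul_le_mul_of_nonneg_left h2 (by positivity)
    _ = (|L'| / (|L'| + 1)) * (ε * ‖x - c‖) := by ring
    _ ≤ 1 * (ε * ‖x - c‖) := by
        refine mul_le_mul_of_nonneg_right ?_ (by positivity)
        rw [div_le_one (by positivity)]; linarith
    _ = ε * ‖x - c‖ := one_mul _

theorem LipFam.lip_fderiv {s : Set V} {L L' : ℝ} {a : V → T → W}
    (h : LipFam s L L' a) (hL' : 0 ≤ L') {c : V} (hc : s ∈ 𝓝 c) {M : T → V →L[ℝ] W}
    (hM : ∀ t, HasFDerivAt (fun c' => a c' t) (M t) c) (t t' : T) :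
    ‖M t - M t'‖ ≤ L' * dist t t' := by
  have hcs : c ∈ s := mem_of_mem_nhds hc
  refine HasFDerivAt.le_of_lip' ((hM t).sub (hM t')) (by positivity) ?_
  filter_upwards [hc] with x hx
  have h1 := h.lip2 x hx c hcs t t'
  have : (a x t - a x t') - (a c t - a c t') = (a x t - a c t) - (a x t' - a c t') := by abel
  show ‖(a x t - a x t') - (a c t - a c t')‖ ≤ _
  rw [this]
  refine h1.trans (le_of_eq ?_); ring

/-- **(B2), uniform part**: the expansion is uniform on compact sets of `t`. -/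
theorem LipFam.unif {s : Set V} {L L' : ℝ} {a : V → T → W}
    (h : LipFam s L L' a) (hL' : 0 ≤ L') {c : V} (hc : s ∈ 𝓝 c) {M : T → V →L[ℝ] W}
    (hM : ∀ t, HasFDerivAt (fun c' => a c' t) (M t) c) {K : Set T} (hK : IsCompact K)
    {ε : ℝ} (hε : 0 < ε) :
    ∃ δ : ℝ, 0 < δ ∧ ball c δ ⊆ s ∧ ∀ t ∈ K, ∀ x ∈ ball c δ,
      ‖a x t - a c t - M t (x - c)‖ ≤ ε * ‖x - c‖ := by
  have hcs : c ∈ s := mem_of_mem_nhds hc
  set η : ℝ := ε / (3 * (L' + 1)) with hη
  have hη0 : 0 < η := by positivity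
  obtain ⟨F, hFK, hF⟩ := hK.elim_nhds_subcover (fun t => ball t η) (fun t _ => ball_mem_nhds t hη0)
  have hev : ∀ᶠ x in 𝓝 c, x ∈ s ∧ ∀ t ∈ F, ‖a x t - a c t - M t (x - c)‖ ≤ ε / 3 * ‖x - c‖ := by
    refine (Filter.eventually_of_mem hc fun x hx => hx).and ?_
    refine (Filter.eventually_all_finset F).2 fun t _ => ?_
    exact (Asymptotics.isLittleO_iff.1 ((hasFDerivAt_iff_isLittleO).1 (hM t)))
      (show (0 : ℝ) < ε / 3 by positivity)
  obtain ⟨δ, hδ, hball⟩ := Metric.eventually_nhds_iff_ball.1 hev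
  refine ⟨δ, hδ, fun x hx => (hball x hx).1, fun t ht x hx => ?_⟩
  obtain ⟨t', ht'F, ht'⟩ := mem_iUnion₂.1 (hF ht)
  have hd : dist t t' < η := mem_ball.1 ht'
  have h1 := (hball x hx).2 t' ht'F
  have h2 := h.lip2 x (hball x hx).1 c hcs t t'
  have h3 := h.lip_fderiv hL' hc hM t' t
  have h4 : ‖(M t' - M t) (x - c)‖ ≤ L' * dist t' t * ‖x - c‖ :=
    ((M t' - M t).le_opNorm _).trans (mul_le_mul_of_nonneg_right h3 (norm_nonneg _))
  have heq : a x t - a c t - M t (x - c) = ((a x t - a c t) - (a x t' - a c t'))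
      + (a x t' - a c t' - M t' (x - c)) + (M t' - M t) (x - c) := by
    rw [sub_apply]; abel
  rw [heq]
  refine (norm_add₃_le).trans ?_
  have hx0 : 0 ≤ ‖x - c‖ := norm_nonneg _
  have hLη : L' * η ≤ ε / 3 := by
    rw [hη]
    have : L' * (ε / (3 * (L' + 1))) = (L' / (L' + 1)) * (ε / 3) := by field_simp
    rw [this]
    have h9 : L' / (L' + 1) ≤ 1 := by rw [div_le_one (by positivity)]; linarith
    calc (L' / (L' + 1)) * (ε / 3) ≤ 1 * (ε / 3) := mul_le_mul_of_nonneg_right h9 (by positivity)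
      _ = ε / 3 := one_mul _
  have h5 : L' * ‖x - c‖ * dist t t' ≤ ε / 3 * ‖x - c‖ := by
    calc L' * ‖x - c‖ * dist t t' ≤ L' * ‖x - c‖ * η :=
          mul_le_mul_of_nonneg_left hd.le (by positivity)
      _ = (L' * η) * ‖x - c‖ := by ring
      _ ≤ ε / 3 * ‖x - c‖ := mul_le_mul_of_nonneg_right hLη hx0
  have h6 : L' * dist t' t * ‖x - c‖ ≤ ε / 3 * ‖x - c‖ := by
    rw [dist_comm]
    calc L' * dist t t' * ‖x - c‖ ≤ L' * η * ‖x - c‖ :=
          mul_le_mul_of_nonneg_right (mul_le_mul_of_nonneg_left hd.le hL') hx0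
      _ ≤ ε / 3 * ‖x - c‖ := mul_le_mul_of_nonneg_right hLη hx0
  have h7 : ε * ‖x - c‖ = ε / 3 * ‖x - c‖ + ε / 3 * ‖x - c‖ + ε / 3 * ‖x - c‖ := by ring
  linarith

/-- **(B2), Rademacher**: almost every parameter is a point of differentiability for all `t`. -/
theorem LipFam.ae_exists [FiniteDimensional ℝ V] [MeasurableSpace V] [BorelSpace V]
    [FiniteDimensional ℝ W] (μ : Measure V) [μ.IsAddHaarMeasure] [TopologicalSpace.SeparableSpace T]
    {s : Set V} (hs : IsOpen s) {L L' : ℝ} (hL : 0 ≤ L) (hL' : 0 ≤ L') {a : V → T → W}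
    (h : LipFam s L L' a) :
    ∀ᵐ c ∂μ, c ∈ s → ∃ M : T → V →L[ℝ] W, (∀ t, HasFDerivAt (fun c' => a c' t) (M t) c) ∧
      ∀ t t', ‖M t - M t'‖ ≤ L' * dist t t' := by
  obtain ⟨D, hDc, hD⟩ := TopologicalSpace.exists_countable_dense T
  have h1 : ∀ t ∈ D, ∀ᵐ c ∂μ, c ∈ s → DifferentiableWithinAt ℝ (fun c' => a c' t) s c := by
    intro t _
    have hl : LipschitzOnWith ⟨L, hL⟩ (fun c' => a c' t) s := by
      refine LipschitzOnWith.of_dist_le_mul fun x hx y hy => ?_
      rw [dist_eq_norm, dist_eq_norm]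
      exact h.lip x hx y hy t
    exact hl.ae_differentiableWithinAt_of_mem
  have h2 := (ae_ball_iff hDc).2 h1
  filter_upwards [h2] with c hc hcs
  have hn : s ∈ 𝓝 c := hs.mem_nhds hcs
  have hall : ∀ t, DifferentiableAt ℝ (fun c' => a c' t) c :=
    h.differentiableAt hn hD fun t ht => (hc t ht hcs).differentiableAt hn
  refine ⟨fun t => fderiv ℝ (fun c' => a c' t) c, fun t => (hall t).hasFDerivAt, ?_⟩
  exact h.lip_fderiv hL' hn fun t => (hall t).hasFDerivAt

end Crest.Agent.R281.TubB_370
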