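import Crest.Agent.R281.TubA1_370

/-!
# Row 281, BACKUP TUBE-HOL (C) (helper370, second owner of helper57's (C)), part 1:
the maximum principle: an exact `(1,0)`-form on a "complex torus" with periodic real part of the
primitive vanishes; consequence: the complex structure on the space of parameters.
-/

set_option autoImplicit false
set_option maxSynthPendingDepth 3
set_option linter.unusedSectionVars false

open Set Filter Topology Metric Module
open scoped ContDiff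

namespace Crest.Agent.R281.TubC_370

open Crest.Agent.R281.TubA_370

section periodic

variable {V ι Y : Type*} [NormedAddCommGroup V] [NormedSpace ℝ V] [FiniteDimensional ℝ V]
  [Finite ι]

theorem eq_of_mem_span {b : Basis ι ℝ V} {f : V → Y} (h : ∀ i θ, f (θ + b i) = f θ) {v : V}
    (hv : v ∈ Submodule.span ℤ (range b)) (θ : V) : f (θ + v) = f θ := by
  let S : AddSubgroup V :=
    { carrier := {v | ∀ θ, f (θ + v) = f θ}
      add_mem' := fun {v w} hv hw θ => by rw [← add_assoc, hw, hv]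
      zero_mem' := fun θ => by rw [add_zero]
      neg_mem' := fun {v} hv θ => by
        have := hv (θ + -v)
        rw [neg_add_cancel_right] at this
        exact this.symm }
  have h1 : Submodule.span ℤ (range b) ≤ AddSubgroup.toIntSubmodule S :=
    Submodule.span_le.2 (by rintro _ ⟨i, rfl⟩; exact h i)
  exact h1 hv θ

/-- a continuous periodic function attains its maximum. -/
theorem exists_max {b : Basis ι ℝ V} {f : V → ℝ} (hf : Continuous f)
    (h : ∀ i θ, f (θ + b i) = f θ) : ∃ θ₀, ∀ θ, f θ ≤ f θ₀ := by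
  cases nonempty_fintype ι
  have hb : Bornology.IsBounded (ZSpan.fundamentalDomain b) :=
    ZSpan.fundamentalDomain_isBounded b
  have hK : IsCompact (closure (ZSpan.fundamentalDomain b)) := hb.isCompact_closure
  have hne : (closure (ZSpan.fundamentalDomain b)).Nonempty :=
    ⟨_, subset_closure (ZSpan.fract_mem_fundamentalDomain b 0)⟩
  obtain ⟨θ₀, _, hmax⟩ := hK.exists_isMaxOn hne hf.continuousOn
  refine ⟨θ₀, fun θ => ?_⟩
  have h1 : f θ = f (ZSpan.fract b θ) := by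
    have h2 : ZSpan.fract b θ + (ZSpan.floor b θ : V) = θ := by
      rw [ZSpan.fract_apply]; abel
    conv_lhs => rw [← h2]
    exact eq_of_mem_span h (ZSpan.floor b θ).2 _
  rw [h1]
  exact hmax (subset_closure (ZSpan.fract_mem_fundamentalDomain b θ))

end periodic

section coord

variable {V Z : Type*} [NormedAddCommGroup V] [NormedSpace ℝ V] [FiniteDimensional ℝ V]
  [NormedAddCommGroup Z] [NormedSpace ℝ Z] [NormedSpace ℂ Z] [IsScalarTower ℝ ℂ Z]
  [FiniteDimensional ℂ Z]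

/-- a holomorphic coordinate at `θ₀` for the field of endomorphisms `J`. -/
structure HCo (J : V → V →L[ℝ] V) (θ₀ : V) (ζ : V → Z) : Prop where
  sm : ContDiffAt ℝ 1 ζ θ₀
  bij : ∃ L : V ≃L[ℝ] Z, HasFDerivAt ζ (L : V →L[ℝ] Z) θ₀
  hol : ∀ᶠ θ in 𝓝 θ₀, ∀ u, fderiv ℝ ζ θ (J θ u) = Complex.I • fderiv ℝ ζ θ u

/-- the local inverse of a holomorphic coordinate. -/
theorem HCo.exists_inv {J : V → V →L[ℝ] V} {θ₀ : V} {ζ : V → Z} (h : HCo J θ₀ ζ) :
    ∃ Θ : Z → V, Θ (ζ θ₀) = θ₀ ∧ Tendsto Θ (𝓝 (ζ θ₀)) (𝓝 θ₀) ∧ Tendsto ζ (𝓝 θ₀) (𝓝 (ζ θ₀)) ∧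
      (∀ᶠ z in 𝓝 (ζ θ₀), ζ (Θ z) = z) ∧ (∀ᶠ θ in 𝓝 θ₀, Θ (ζ θ) = θ) ∧
      (∀ᶠ z in 𝓝 (ζ θ₀), HasFDerivAt Θ (fderiv ℝ Θ z) z) ∧
      (∀ᶠ z in 𝓝 (ζ θ₀), ∀ v, fderiv ℝ Θ z (Complex.I • v) = J (Θ z) (fderiv ℝ Θ z v)) ∧
      (∀ᶠ z in 𝓝 (ζ θ₀), ∀ v, fderiv ℝ ζ (Θ z) (fderiv ℝ Θ z v) = v) := by
  have : FiniteDimensional ℝ Z := FiniteDimensional.trans ℝ ℂ Z
  have : CompleteSpace Z := FiniteDimensional.complete ℝ Z
  have : CompleteSpace V := FiniteDimensional.complete ℝ V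
  obtain ⟨L', hζL⟩ := h.bij
  have hζ1 := h.sm
  let e : OpenPartialHomeomorph V Z := hζ1.toOpenPartialHomeomorph ζ hζL one_ne_zero
  have he0 : θ₀ ∈ e.source := hζ1.mem_toOpenPartialHomeomorph_source hζL one_ne_zero
  set Θ : Z → V := fun z => e.symm z with hΘ
  set z₀ : Z := ζ θ₀ with hz₀
  have hz0t : z₀ ∈ e.target := e.map_source he0
  have hΘz0 : Θ z₀ = θ₀ := e.left_inv he0
  have hΘ1 : ContDiffAt ℝ 1 Θ z₀ :=
    e.contDiffAt_symm hz0t (f₀' := L') (by rw [show e.symm z₀ = θ₀ from hΘz0]; exact hζL)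
      (by rw [show e.symm z₀ = θ₀ from hΘz0]; exact hζ1)
  have hΘc : Tendsto Θ (𝓝 z₀) (𝓝 θ₀) := by
    have := hΘ1.continuousAt; rw [ContinuousAt, hΘz0] at this; exact this
  have hΘd : ∀ᶠ z in 𝓝 z₀, HasFDerivAt Θ (fderiv ℝ Θ z) z := by
    filter_upwards [hΘ1.eventually (by simp)] with z hz
    exact (hz.differentiableAt (by norm_num)).hasFDerivAt
  have hright : ∀ᶠ z in 𝓝 z₀, ζ (Θ z) = z := by
    filter_upwards [e.open_target.mem_nhds hz0t] with z hz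
    exact e.right_inv hz
  have hleft : ∀ᶠ θ in 𝓝 θ₀, Θ (ζ θ) = θ := by
    filter_upwards [e.open_source.mem_nhds he0] with θ hθ
    exact e.left_inv hθ
  have hζc : Tendsto ζ (𝓝 θ₀) (𝓝 z₀) := hζ1.continuousAt
  have hζd : ∀ᶠ θ in 𝓝 θ₀, HasFDerivAt ζ (fderiv ℝ ζ θ) θ := by
    filter_upwards [hζ1.eventually (by simp)] with θ hθ
    exact (hθ.differentiableAt (by norm_num)).hasFDerivAt
  have hr' : ∀ᶠ z in 𝓝 z₀, ∀ v, fderiv ℝ ζ (Θ z) (fderiv ℝ Θ z v) = v := by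
    filter_upwards [hright.eventually_nhds, hΘd, hΘc.eventually hζd] with z h1 h2 h3 v
    have h4 : HasFDerivAt (fun z => ζ (Θ z)) ((fderiv ℝ ζ (Θ z)).comp (fderiv ℝ Θ z)) z :=
      h3.comp z h2
    have h5 : HasFDerivAt (fun z => ζ (Θ z)) (ContinuousLinearMap.id ℝ Z) z :=
      (hasFDerivAt_id z).congr_of_eventuallyEq h1
    exact congrArg (fun f : Z →L[ℝ] Z => f v) (h4.unique h5)
  have hl' : ∀ᶠ z in 𝓝 z₀, ∀ u, fderiv ℝ Θ z (fderiv ℝ ζ (Θ z) u) = u := by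
    have h0 : ∀ᶠ θ in 𝓝 θ₀, ∀ u, fderiv ℝ Θ (ζ θ) (fderiv ℝ ζ θ u) = u := by
      filter_upwards [hleft.eventually_nhds, hζc.eventually hΘd, hζd] with θ h1 h2 h3 u
      have h4 : HasFDerivAt (fun θ => Θ (ζ θ)) ((fderiv ℝ Θ (ζ θ)).comp (fderiv ℝ ζ θ)) θ :=
        h2.comp θ h3
      have h5 : HasFDerivAt (fun θ => Θ (ζ θ)) (ContinuousLinearMap.id ℝ V) θ :=
        (hasFDerivAt_id θ).congr_of_eventuallyEq h1
      exact congrArg (fun f : V →L[ℝ] V => f u) (h4.unique h5)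
    filter_upwards [hΘc.eventually h0, hright] with z h1 h2 u
    have := h1 u
    rwa [h2] at this
  refine ⟨Θ, hΘz0, hΘc, hζc, hright, hleft, hΘd, ?_, hr'⟩
  filter_upwards [hr', hl', hΘc.eventually h.hol] with z h1 h2 h3 v
  conv_lhs => rw [← h1 v]
  rw [← h3, h2]

/-- a function with `J`-holomorphic derivative is holomorphic in the coordinate. -/
theorem HCo.eventually_re_eq {J : V → V →L[ℝ] V} {θ₀ : V} {ζ : V → Z} (h : HCo J θ₀ ζ)
    {P : V → ℂ} {β : V → V →L[ℝ] ℂ} (hP : ∀ᶠ θ in 𝓝 θ₀, HasFDerivAt P (β θ) θ)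
    (hβ : ∀ᶠ θ in 𝓝 θ₀, ∀ u, β θ (J θ u) = Complex.I * β θ u)
    (hmax : IsLocalMax (fun θ => (P θ).re) θ₀) : ∀ᶠ θ in 𝓝 θ₀, (P θ).re = (P θ₀).re := by
  obtain ⟨Θ, h0, hΘc, hζc, hright, hleft, hΘd, hΘJ, _⟩ := h.exists_inv
  have hd : ∀ᶠ z in 𝓝 (ζ θ₀), DifferentiableAt ℂ (fun z => Complex.exp (P (Θ z))) z := by
    filter_upwards [hΘd, hΘJ, hΘc.eventually hP, hΘc.eventually hβ] with z h1 h2 h3 h4
    refine DifferentiableAt.cexp ?_
    refine differentiableAt_of_comm (L := (β (Θ z)).comp (fderiv ℝ Θ z)) (h3.comp z h1) ?_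
    intro v
    show β (Θ z) (fderiv ℝ Θ z (Complex.I • v)) = Complex.I • β (Θ z) (fderiv ℝ Θ z v)
    rw [h2, h4, smul_eq_mul]
  have hc : IsLocalMax (norm ∘ fun z => Complex.exp (P (Θ z))) (ζ θ₀) := by
    have h1 : ∀ᶠ z in 𝓝 (ζ θ₀), (P (Θ z)).re ≤ (P θ₀).re := hΘc.eventually hmax
    filter_upwards [h1] with z hz
    show ‖Complex.exp (P (Θ z))‖ ≤ ‖Complex.exp (P (Θ (ζ θ₀)))‖
    rw [Complex.norm_exp, Complex.norm_exp, h0]
    exact Real.exp_le_exp.2 hz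
  have h2 := Complex.eventually_eq_of_isLocalMax_norm hd hc
  filter_upwards [hζc.eventually h2, hleft] with θ h3 h4
  have h5 := congrArg norm h3
  rw [Complex.norm_exp, Complex.norm_exp, h0, h4] at h5
  exact Real.exp_injective h5

/-- **(C1)** the maximum principle. -/
theorem eq_zero_of_re_periodic {ι : Type*} [Finite ι] (b : Basis ι ℝ V) {J : V → V →L[ℝ] V}
    (hJ : ∀ θ₀, ∃ ζ : V → Z, HCo J θ₀ ζ) {P : V → ℂ} {β : V → V →L[ℝ] ℂ}
    (hP : ∀ θ, HasFDerivAt P (β θ) θ) (hβ : ∀ θ u, β θ (J θ u) = Complex.I * β θ u)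
    (hper : ∀ i θ, (P (θ + b i)).re = (P θ).re) (θ : V) : β θ = 0 := by
  have hPc : Continuous P := continuous_iff_continuousAt.2 fun θ => (hP θ).continuousAt
  have hRc : Continuous fun θ => (P θ).re := Complex.continuous_re.comp hPc
  obtain ⟨θ₀, hmax⟩ := exists_max (f := fun θ => (P θ).re) hRc hper
  have hclopen : IsClopen {θ | (P θ).re = (P θ₀).re} := by
    refine ⟨isClosed_eq hRc continuous_const, ?_⟩
    rw [isOpen_iff_mem_nhds]
    intro θ₁ h1
    obtain ⟨ζ, hζ⟩ := hJ θ₁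
    have h1' : (P θ₁).re = (P θ₀).re := h1
    have h2 := hζ.eventually_re_eq (Eventually.of_forall hP) (Eventually.of_forall hβ)
      (Eventually.of_forall fun θ => by show (P θ).re ≤ (P θ₁).re; rw [h1']; exact hmax θ)
    filter_upwards [h2] with θ h3
    show (P θ).re = (P θ₀).re
    rw [h3, h1']
  have huniv : {θ | (P θ).re = (P θ₀).re} = univ := hclopen.eq_univ ⟨θ₀, rfl⟩
  have hre : ∀ θ u, (β θ u).re = 0 := by
    intro θ u
    have h1 : HasFDerivAt (fun θ => (P θ).re) (Complex.reCLM.comp (β θ)) θ :=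
      Complex.reCLM.hasFDerivAt.comp θ (hP θ)
    have h2 : (fun θ => (P θ).re) = fun _ => (P θ₀).re := by
      funext θ
      have : θ ∈ {θ | (P θ).re = (P θ₀).re} := by rw [huniv]; trivial
      exact this
    rw [h2] at h1
    have h3 := h1.unique (hasFDerivAt_const _ _)
    exact congrArg (fun f : V →L[ℝ] ℝ => f u) h3
  ext u
  refine Complex.ext (hre θ u) ?_
  have h1 := hre θ (J θ u)
  rw [hβ] at h1
  simpa using h1

end coord

end Crest.Agent.R281.TubC_370
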