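import Crest.Agent.R281.TubC1_370

/-!
# Row 281, BACKUP TUBE-HOL (C) (helper370, second owner of helper57's (C)), part 2:
the complex structure on the parameter space, abstract form.
-/

set_option autoImplicit false
set_option maxSynthPendingDepth 3
set_option linter.unusedSectionVars false

open Set Filter Topology Metric Module
open scoped ContDiff

namespace Crest.Agent.R281.TubC_370

open Crest.Agent.R281.TubA_370

section

variable {V X Z ι : Type*} [NormedAddCommGroup V] [NormedSpace ℝ V] [FiniteDimensional ℝ V]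
  [NormedAddCommGroup X] [NormedSpace ℝ X] [FiniteDimensional ℝ X]
  [NormedAddCommGroup Z] [NormedSpace ℝ Z] [NormedSpace ℂ Z] [IsScalarTower ℝ ℂ Z]
  [FiniteDimensional ℂ Z] [Fintype ι]

/-- two primitives of the same form differ by a constant. -/
theorem sub_eq_of_hasFDerivAt {P Q : V → ℂ} {γ : V → V →L[ℝ] ℂ}
    (hP : ∀ θ, HasFDerivAt P (γ θ) θ) (hQ : ∀ θ, HasFDerivAt Q (γ θ) θ) (θ θ' : V) :
    P θ - P θ' = Q θ - Q θ' := by
  have h1 : ∀ θ, HasFDerivAt (fun θ => P θ - Q θ) (0 : V →L[ℝ] ℂ) θ := fun θ => by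
    have := (hP θ).sub (hQ θ)
    rw [sub_self] at this
    exact this
  have h2 := is_const_of_fderiv_eq_zero (𝕜 := ℝ) (fun θ => (h1 θ).differentiableAt)
    (fun θ => (h1 θ).fderiv) θ θ'
  have h3 : P θ - Q θ = P θ' - Q θ' := h2
  linear_combination h3

/-- the increments of a primitive of a periodic form do not depend on the base point. -/
theorem add_sub_eq {P : V → ℂ} {γ : V → V →L[ℝ] ℂ} (hP : ∀ θ, HasFDerivAt P (γ θ) θ) {v : V}
    (hγ : ∀ θ, γ (θ + v) = γ θ) (θ : V) : P (θ + v) - P θ = P v - P 0 := by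
  have h1 : ∀ θ, HasFDerivAt (fun θ => P (θ + v)) (γ θ) θ := fun θ => by
    have h2 : HasFDerivAt (fun θ => θ + v) (ContinuousLinearMap.id ℝ V) θ :=
      (hasFDerivAt_id θ).add_const v
    have h3 := (hP (θ + v)).comp θ h2
    rw [hγ] at h3
    exact h3
  have h4 := sub_eq_of_hasFDerivAt h1 hP θ 0
  rw [zero_add] at h4
  linear_combination h4

/-- a linear family of periodic exact `J`-holomorphic forms. -/
structure PFam (b : Basis ι ℝ V) (J : V → V →L[ℝ] V) (β : V → X →L[ℝ] V →L[ℝ] ℂ) : Prop where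
  ex : ∀ w, ∃ P : V → ℂ, ∀ θ, HasFDerivAt P (β θ w) θ
  hol : ∀ θ w u, β θ w (J θ u) = Complex.I * β θ w u
  per : ∀ i θ, β (θ + b i) = β θ
  inj : ∀ w, (∀ θ, β θ w = 0) → w = 0

/-- **(C2)** the complex structure on the parameter space. -/
theorem PFam.exists_J {b : Basis ι ℝ V} {J : V → V →L[ℝ] V} {β : V → X →L[ℝ] V →L[ℝ] ℂ}
    (h : PFam b J β) (hJ : ∀ θ₀, ∃ ζ : V → Z, HCo J θ₀ ζ) (hX : finrank ℝ X = finrank ℝ V) :
    ∃ J' : X →L[ℝ] X, (∀ w, J' (J' w) = -w) ∧
      ∀ θ w u, β θ (J' w) u = Complex.I * β θ w u := by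
  choose P hP using h.ex
  -- the periods
  have hadd : ∀ w w' i, P (w + w') (b i) - P (w + w') 0
      = (P w (b i) - P w 0) + (P w' (b i) - P w' 0) := by
    intro w w' i
    have h1 : ∀ θ, HasFDerivAt (fun θ => P w θ + P w' θ) (β θ (w + w')) θ := fun θ => by
      rw [map_add]; exact (hP w θ).add (hP w' θ)
    have h2 := sub_eq_of_hasFDerivAt (hP (w + w')) h1 (b i) 0
    linear_combination h2
  have hsmul : ∀ (r : ℝ) w i, P (r • w) (b i) - P (r • w) 0
      = r • (P w (b i) - P w 0) := by
    intro r w i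
    have h1 : ∀ θ, HasFDerivAt (fun θ => r • P w θ) (β θ (r • w)) θ := fun θ => by
      rw [map_smul]; exact (hP w θ).const_smul r
    have h2 := sub_eq_of_hasFDerivAt (hP (r • w)) h1 (b i) 0
    rw [h2, smul_sub]
  let pe : X →ₗ[ℝ] (ι → ℂ) :=
    { toFun := fun w i => P w (b i) - P w 0
      map_add' := fun w w' => funext fun i => hadd w w' i
      map_smul' := fun r w => funext fun i => hsmul r w i }
  have hpe : ∀ w i, pe w i = P w (b i) - P w 0 := fun w i => rfl
  let R : X →ₗ[ℝ] (ι → ℝ) :=
    { toFun := fun w i => (pe w i).re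
      map_add' := fun w w' => funext fun i => by simp
      map_smul' := fun r w => funext fun i => by simp }
  let Q : X →ₗ[ℝ] (ι → ℝ) :=
    { toFun := fun w i => (Complex.I * pe w i).re
      map_add' := fun w w' => funext fun i => by simp; ring
      map_smul' := fun r w => funext fun i => by simp }
  have hR : ∀ w i, R w i = (pe w i).re := fun w i => rfl
  have hQ : ∀ w i, Q w i = (Complex.I * pe w i).re := fun w i => rfl
  -- the key step
  have key : ∀ w w', R w' = Q w → ∀ θ u, β θ w' u = Complex.I * β θ w u := by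
    intro w w' hw
    have h1 : ∀ θ, HasFDerivAt (fun θ => P w' θ - Complex.I * P w θ)
        (β θ w' - Complex.I • β θ w) θ := fun θ =>
      (hP w' θ).sub ((hP w θ).const_mul Complex.I)
    have h2 : ∀ θ u, (β θ w' - Complex.I • β θ w) (J θ u)
        = Complex.I * (β θ w' - Complex.I • β θ w) u := by
      intro θ u
      simp only [sub_apply, smul_apply, h.hol,
        smul_eq_mul]
      ring
    have h3 : ∀ i θ, (P w' (θ + b i) - Complex.I * P w (θ + b i)).re
        = (P w' θ - Complex.I * P w θ).re := by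
      intro i θ
      have h4 := add_sub_eq (hP w') (v := b i) (fun θ => by rw [h.per]) θ
      have h5 := add_sub_eq (hP w) (v := b i) (fun θ => by rw [h.per]) θ
      have h6 : (P w' (θ + b i) - Complex.I * P w (θ + b i))
          - (P w' θ - Complex.I * P w θ) = pe w' i - Complex.I * pe w i := by
        rw [hpe, hpe, ← h4, ← h5]; ring
      have h7 := congrArg Complex.re h6
      rw [Complex.sub_re, Complex.sub_re (pe w' i)] at h7
      have h8 := congrFun hw i
      rw [hR, hQ] at h8
      rw [h8, sub_self] at h7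
      linarith
    intro θ u
    have h4 := eq_zero_of_re_periodic b hJ h1 h2 h3 θ
    have h5 := congrArg (fun f : V →L[ℝ] ℂ => f u) h4
    simp only [sub_apply, smul_apply, smul_eq_mul,
      zero_apply] at h5
    linear_combination h5
  have hRinj : Function.Injective R := by
    rw [← LinearMap.ker_eq_bot, LinearMap.ker_eq_bot']
    intro w hw
    refine h.inj w fun θ => ?_
    ext u
    have h1 := key 0 w (by rw [hw, map_zero]) θ u
    rw [h1]; simp
  let e : X ≃ₗ[ℝ] (ι → ℝ) := LinearEquiv.ofInjectiveOfFinrankEq R hRinj (by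
    rw [Module.finrank_fintype_fun_eq_card, hX, Module.finrank_eq_card_basis b])
  have he : ∀ w, e w = R w := fun w => rfl
  let J' : X →L[ℝ] X := LinearMap.toContinuousLinearMap (e.symm.toLinearMap ∘ₗ Q)
  have hJ' : ∀ w, R (J' w) = Q w := fun w => by
    rw [← he]; exact e.apply_symm_apply (Q w)
  refine ⟨J', fun w => ?_, fun θ w u => key w (J' w) (hJ' w) θ u⟩
  have h1 : J' (J' w) + w = 0 := by
    refine h.inj _ fun θ => ?_
    ext u
    rw [map_add, add_apply, key _ _ (hJ' (J' w)), key _ _ (hJ' w),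
      ← mul_assoc, Complex.I_mul_I]
    simp
  exact eq_neg_of_add_eq_zero_left h1

end

end Crest.Agent.R281.TubC_370
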