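import Crest.Agent.R281.TubC2_370

/-!
# Row 281, BACKUP TUBE-HOL (A)(B)(C) (helper370, second owner of helper57's TUBE-HOL): final theorem.

A family of `C¹` graphs over `V`, periodic, isotropic for `x` and `y`, where `x + i y` is a closed
periodic `(2,0)`-form for a complex structure `I` with holomorphic charts: for almost every
parameter `c` the family is uniformly differentiable at `c`, and there is a complex structure `J'`
on the parameter space with `i β_w = β_(J' w)` for `β_w = (x + i y)((0, M w), ·)|graph`.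
-/

set_option autoImplicit false
set_option maxSynthPendingDepth 3
set_option linter.unusedSectionVars false

open MeasureTheory Set Filter Topology Metric Module
open scoped ContDiff

namespace Crest.Agent.R281.TubC_370

open Crest.Agent.R281.TubA_370
open Crest.Agent.R281.TubB_370 (tg tg_apply ClO IsoFam beta beta_apply)

section cxs

variable {H : Type*} [NormedAddCommGroup H] [NormedSpace ℝ H]

/-- postcomposition with a real linear map `ℝ → ℂ`. -/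
noncomputable def pc (l : ℝ →L[ℝ] ℂ) : (H →L[ℝ] H →L[ℝ] ℝ) →L[ℝ] (H →L[ℝ] H →L[ℝ] ℂ) :=
  ContinuousLinearMap.compL ℝ H (H →L[ℝ] ℝ) (H →L[ℝ] ℂ) (ContinuousLinearMap.compL ℝ H ℝ ℂ l)

theorem pc_apply (l : ℝ →L[ℝ] ℂ) (B : H →L[ℝ] H →L[ℝ] ℝ) (u v : H) :
    pc l B u v = l (B u v) := rfl

/-- the form `x + i y`. -/
noncomputable def cx (x y : H → H →L[ℝ] H →L[ℝ] ℝ) (p : H) : H →L[ℝ] H →L[ℝ] ℂ :=
  pc Complex.ofRealCLM (x p) + pc (Complex.I • Complex.ofRealCLM) (y p)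

theorem cx_apply (x y : H → H →L[ℝ] H →L[ℝ] ℝ) (p u v : H) :
    cx x y p u v = (x p u v : ℂ) + Complex.I * (y p u v : ℂ) := rfl

theorem ClO.cx {U : Set H} {x y : H → H →L[ℝ] H →L[ℝ] ℝ} (hU : IsOpen U) (hx : ClO U x)
    (hy : ClO U y) : ClO U (cx x y) where
  sm := ((pc Complex.ofRealCLM).contDiff.comp_contDiffOn hx.sm).add
    ((pc (Complex.I • Complex.ofRealCLM)).contDiff.comp_contDiffOn hy.sm)
  alt := by
    intro p hp u v
    rw [cx_apply, cx_apply, hx.alt p hp u v, hy.alt p hp u v]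
    push_cast; ring
  cl := by
    intro p hp u v z
    have h1 : HasFDerivAt x (fderiv ℝ x p) p :=
      ((hx.sm.differentiableOn (by norm_num)).differentiableAt (hU.mem_nhds hp)).hasFDerivAt
    have h2 : HasFDerivAt y (fderiv ℝ y p) p :=
      ((hy.sm.differentiableOn (by norm_num)).differentiableAt (hU.mem_nhds hp)).hasFDerivAt
    have h3 : HasFDerivAt (TubC_370.cx x y) ((pc Complex.ofRealCLM).comp (fderiv ℝ x p)
        + (pc (Complex.I • Complex.ofRealCLM)).comp (fderiv ℝ y p)) p :=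
      ((pc Complex.ofRealCLM).hasFDerivAt.comp p h1).add
        ((pc (Complex.I • Complex.ofRealCLM)).hasFDerivAt.comp p h2)
    have h4 : ∀ u v z, fderiv ℝ (TubC_370.cx x y) p u v z
        = (fderiv ℝ x p u v z : ℂ) + Complex.I * (fderiv ℝ y p u v z : ℂ) := by
      intro u v z
      rw [h3.fderiv]; rfl
    rw [h4, h4, h4]
    have e1 := hx.cl p hp u v z
    have e2 := hy.cl p hp u v z
    have e3 : ((fderiv ℝ x p u v z + fderiv ℝ x p v z u + fderiv ℝ x p z u v : ℝ) : ℂ) = 0 := by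
      rw [e1]; simp
    have e4 : ((fderiv ℝ y p u v z + fderiv ℝ y p v z u + fderiv ℝ y p z u v : ℝ) : ℂ) = 0 := by
      rw [e2]; simp
    push_cast at e3 e4
    linear_combination e3 + Complex.I * e4

end cxs

section fract

variable {V ι Y : Type*} [NormedAddCommGroup V] [NormedSpace ℝ V] [FiniteDimensional ℝ V]
  [Fintype ι]

theorem eq_fract {b : Basis ι ℝ V} {f : V → Y} (h : ∀ i θ, f (θ + b i) = f θ) (θ : V) :
    f θ = f (ZSpan.fract b θ) := by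
  have h2 : ZSpan.fract b θ + (ZSpan.floor b θ : V) = θ := by
    rw [ZSpan.fract_apply]; abel
  conv_lhs => rw [← h2]
  exact eq_of_mem_span h (ZSpan.floor b θ).2 _

end fract

section main

variable {V W X F Z ι : Type*} [NormedAddCommGroup V] [NormedSpace ℝ V] [FiniteDimensional ℝ V]
  [NormedAddCommGroup W] [NormedSpace ℝ W] [FiniteDimensional ℝ W]
  [NormedAddCommGroup X] [NormedSpace ℝ X] [FiniteDimensional ℝ X]
  [NormedAddCommGroup F] [NormedSpace ℝ F] [NormedSpace ℂ F] [IsScalarTower ℝ ℂ F]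
  [FiniteDimensional ℂ F]
  [NormedAddCommGroup Z] [NormedSpace ℝ Z] [NormedSpace ℂ Z] [IsScalarTower ℝ ℂ Z]
  [FiniteDimensional ℂ Z] [Fintype ι]

/-- **hypotheses**: a family of periodic `C¹` graphs on which `x = y = 0`. -/
structure HFam (U : Set (V × W)) (x y : V × W → V × W →L[ℝ] V × W →L[ℝ] ℝ)
    (I : V × W → V × W →L[ℝ] V × W) (b : Basis ι ℝ V) (s : Set X) (T : X →L[ℝ] W) (ε L' : ℝ)
    (a : X → V → W) : Prop where
  op : IsOpen U
  cs : CxS U x y I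
  clx : ClO U x
  cly : ClO U y
  px : ∀ i, ∀ p ∈ U, x (p.1 + b i, p.2) = x p
  py : ∀ i, ∀ p ∈ U, y (p.1 + b i, p.2) = y p
  c1 : ∀ c ∈ s, ContDiff ℝ 1 (a c)
  pa : ∀ c ∈ s, ∀ i θ, a c (θ + b i) = a c θ
  seg : ∀ c ∈ s, ∀ c' ∈ s, ∀ θ, ∀ t ∈ Icc (0 : ℝ) 1, (θ, a c θ + t • (a c' θ - a c θ)) ∈ U
  x0 : ∀ c ∈ s, ∀ θ u w, x (θ, a c θ) (tg (a c) θ u) (tg (a c) θ w) = 0
  y0 : ∀ c ∈ s, ∀ θ u w, y (θ, a c θ) (tg (a c) θ u) (tg (a c) θ w) = 0
  lip : ∀ c ∈ s, ∀ c' ∈ s, ∀ θ, ‖a c θ - a c' θ - T (c - c')‖ ≤ ε * ‖c - c'‖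
  dlip : ∀ c ∈ s, ∀ c' ∈ s, ∀ θ, ‖fderiv ℝ (a c) θ - fderiv ℝ (a c') θ‖ ≤ L' * ‖c - c'‖

/-- **conclusions** at a good leaf. -/
structure Good (I : V × W → V × W →L[ℝ] V × W) (σ : V × W → V × W →L[ℝ] V × W →L[ℝ] ℂ)
    (b : Basis ι ℝ V) (s : Set X) (T : X →L[ℝ] W) (ε L' : ℝ) (a : X → V → W) (c : X)
    (M : V → X →L[ℝ] W) (J' : X →L[ℝ] X) : Prop where
  der : ∀ θ, HasFDerivAt (fun c' => a c' θ) (M θ) c
  per : ∀ i θ, M (θ + b i) = M θ
  near : ∀ θ, ‖M θ - T‖ ≤ ε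
  lip : ∀ θ θ', ‖M θ - M θ'‖ ≤ L' * dist θ θ'
  unif : ∀ η : ℝ, 0 < η → ∃ δ : ℝ, 0 < δ ∧ ball c δ ⊆ s ∧
    ∀ θ, ∀ c' ∈ ball c δ, ‖a c' θ - a c θ - M θ (c' - c)‖ ≤ η * ‖c' - c‖
  ex : ∀ w, ∃ P : V → ℂ, ∀ θ, HasFDerivAt P (beta σ (a c) (fun θ => M θ w) θ) θ
  hol : ∀ θ w u, beta σ (a c) (fun θ => M θ w) θ (Jg I (a c) θ u)
    = Complex.I * beta σ (a c) (fun θ => M θ w) θ u
  inj : ∀ θ w, beta σ (a c) (fun θ => M θ w) θ = 0 → w = 0
  sq : ∀ w, J' (J' w) = -w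
  jb : ∀ θ w t, σ (θ, a c θ) (0, M θ (J' w)) (tg (a c) θ t)
    = Complex.I * σ (θ, a c θ) (0, M θ w) (tg (a c) θ t)
  jk : ∀ θ w t, ∃ t', I (θ, a c θ) ((0, M θ w) + tg (a c) θ t)
    = (0, M θ (J' w)) + tg (a c) θ t'

theorem CxS.cx_I {U : Set (V × W)} {x y : V × W → V × W →L[ℝ] V × W →L[ℝ] ℝ}
    {I : V × W → V × W →L[ℝ] V × W} (h : CxS U x y I) {p : V × W} (hp : p ∈ U) (u w : V × W) :
    cx x y p (I p u) w = Complex.I * cx x y p u w := by
  have h1 : y p (I p u) w = x p u w := by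
    have := h.rel p hp (I p u) w
    rw [h.sq p hp u] at this
    rw [map_neg, neg_apply] at this
    linarith
  rw [cx_apply, cx_apply, h.rel p hp u w, h1]
  push_cast
  ring_nf
  rw [Complex.I_sq]; ring

namespace HFam

variable {U : Set (V × W)} {x y : V × W → V × W →L[ℝ] V × W →L[ℝ] ℝ}
    {I : V × W → V × W →L[ℝ] V × W} {b : Basis ι ℝ V} {s : Set X} {T : X →L[ℝ] W} {ε L' : ℝ}
    {a : X → V → W}

theorem mem (h : HFam U x y I b s T ε L' a) {c : X} (hc : c ∈ s) (θ : V) : (θ, a c θ) ∈ U := by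
  simpa using h.seg c hc c hc θ 0 (by simp)

/-- the leaves are smooth. -/
theorem smooth (h : HFam U x y I b s T ε L' a) (hch : ∀ p ∈ U, ∃ χ : V × W → F, HCh I p χ)
    (hZ : finrank ℝ Z = finrank ℝ V) (hdim : finrank ℝ W = finrank ℝ V) {c : X} (hc : c ∈ s) :
    ContDiff ℝ ∞ (a c) ∧ ∀ θ₀, ∃ ζ : V → Z, HCo (Jg I (a c)) θ₀ ζ := by
  have key : ∀ θ₀, ContDiffAt ℝ ∞ (a c) θ₀ ∧ ∃ ζ : V → Z, HCo (Jg I (a c)) θ₀ ζ := by
    intro θ₀
    obtain ⟨χ, hχ⟩ := hch _ (h.mem hc θ₀)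
    obtain ⟨h1, ζ, h2, h3, h4⟩ := exists_coord (Z := Z) h.cs hdim (h.c1 c hc) (h.mem hc)
      (h.x0 c hc) (h.y0 c hc) θ₀ hχ hZ
    exact ⟨h1, ζ, h2.of_le (by exact_mod_cast le_top), h3, h4⟩
  exact ⟨contDiff_iff_contDiffAt.2 fun θ₀ => (key θ₀).1, fun θ₀ => (key θ₀).2⟩

/-- **direct form of (C)** on every leaf. -/
theorem eq_zero (h : HFam U x y I b s T ε L' a) (hch : ∀ p ∈ U, ∃ χ : V × W → F, HCh I p χ)
    (hZ : finrank ℝ Z = finrank ℝ V) (hdim : finrank ℝ W = finrank ℝ V) {c : X} (hc : c ∈ s)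
    {P : V → ℂ} {β : V → V →L[ℝ] ℂ} (hP : ∀ θ, HasFDerivAt P (β θ) θ)
    (hβ : ∀ θ u, β θ (Jg I (a c) θ u) = Complex.I * β θ u)
    (hper : ∀ i θ, (P (θ + b i)).re = (P θ).re) (θ : V) : β θ = 0 :=
  eq_zero_of_re_periodic (Z := Z) b (h.smooth hch hZ hdim hc).2 hP hβ hper θ

theorem cx0 (h : HFam U x y I b s T ε L' a) {c : X} (hc : c ∈ s) (θ u w : V) :
    cx x y (θ, a c θ) (tg (a c) θ u) (tg (a c) θ w) = 0 := by
  rw [cx_apply, h.x0 c hc, h.y0 c hc]; simp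

theorem isoFam (h : HFam U x y I b s T ε L' a) (hch : ∀ p ∈ U, ∃ χ : V × W → F, HCh I p χ)
    (hZ : finrank ℝ Z = finrank ℝ V) (hdim : finrank ℝ W = finrank ℝ V) :
    IsoFam U (cx x y) s (‖T‖ + ε) L' a where
  c2 := fun c hc => by
    exact_mod_cast contDiff_infty.1 (h.smooth (F := F) (Z := Z) hch hZ hdim hc).1 2
  seg := h.seg
  iso := fun c hc => h.cx0 hc
  lip := by
    intro c hc c' hc' θ
    have h1 : a c θ - a c' θ = (a c θ - a c' θ - T (c - c')) + T (c - c') := by abel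
    rw [h1]
    refine (norm_add_le _ _).trans ?_
    have h2 := h.lip c hc c' hc' θ
    have h3 := T.le_opNorm (c - c')
    linarith
  dlip := h.dlip

/-- a tangent vector `σ`-orthogonal to the leaf is tangent to the leaf. -/
theorem mem_tg (h : HFam U x y I b s T ε L' a) (hdim : finrank ℝ W = finrank ℝ V) {c : X}
    (hc : c ∈ s) {θ : V} {u : V × W} (hu : ∀ t, cx x y (θ, a c θ) u (tg (a c) θ t) = 0) :
    ∃ t, tg (a c) θ t = u := by
  refine mem_range_of_lag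
    (x := ((ContinuousLinearMap.coeLM ℝ).comp (x (θ, a c θ) : V × W →ₗ[ℝ] V × W →L[ℝ] ℝ)))
    (τ := (tg (a c) θ : V →ₗ[ℝ] V × W)) (h.cs.nd _ (h.mem hc θ))
    (tg_injective (a c) θ) (by rw [Module.finrank_prod, hdim]; ring) (h.x0 c hc θ)
    (fun w => ?_)
  have h1 := congrArg Complex.re (hu w)
  rw [cx_apply] at h1
  simpa using h1

/-- **TUBE-HOL (A)(B)(C)**. -/
theorem ae_good [MeasurableSpace X] [BorelSpace X] (μ : Measure X) [μ.IsAddHaarMeasure]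
    (h : HFam U x y I b s T ε L' a) (hch : ∀ p ∈ U, ∃ χ : V × W → F, HCh I p χ)
    (hZ : finrank ℝ Z = finrank ℝ V) (hdim : finrank ℝ W = finrank ℝ V)
    (hX : finrank ℝ X = finrank ℝ V) (hs : IsOpen s) (hε : 0 ≤ ε) (hL' : 0 ≤ L')
    (hT : ∀ w, w ≠ 0 → ε * ‖w‖ < ‖T w‖) :
    ∀ᵐ c ∂μ, c ∈ s → ∃ (M : V → X →L[ℝ] W) (J' : X →L[ℝ] X),
      Good I (cx x y) b s T ε L' a c M J' := by
  have hI := h.isoFam hch hZ hdim
  have hσ : ClO U (cx x y) := ClO.cx h.op h.clx h.cly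
  filter_upwards [hI.ae_exists μ h.op hσ hs (by positivity) hL'] with c hc hcs
  obtain ⟨M, hM, hMl, hMu, hMe⟩ := hc hcs
  have hn : s ∈ 𝓝 c := hs.mem_nhds hcs
  have hper : ∀ i θ, M (θ + b i) = M θ := by
    intro i θ
    refine (hM (θ + b i)).unique ((hM θ).congr_of_eventuallyEq ?_)
    filter_upwards [hn] with c' hc'
    exact h.pa c' hc' i θ
  have hnear : ∀ θ, ‖M θ - T‖ ≤ ε := by
    intro θ
    have h1 : HasFDerivAt (fun c' => a c' θ - T c') (M θ - T) c := (hM θ).sub T.hasFDerivAt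
    have h2 : LipschitzOnWith ⟨ε, hε⟩ (fun c' => a c' θ - T c') s :=
      LipschitzOnWith.of_dist_le_mul fun c₁ h₁ c₂ h₂ => by
        rw [dist_eq_norm, dist_eq_norm]
        have h3 := h.lip c₁ h₁ c₂ h₂ θ
        have h4 : a c₁ θ - T c₁ - (a c₂ θ - T c₂) = a c₁ θ - a c₂ θ - T (c₁ - c₂) := by
          rw [map_sub]; abel
        rw [h4]; exact h3
    exact h1.le_of_lipschitzOn hn h2
  have hMinj : ∀ θ w, M θ w = 0 → w = 0 := by
    intro θ w hw
    by_contra hne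
    have h1 := hT w hne
    have h2 := (M θ - T).le_opNorm w
    rw [sub_apply, hw, zero_sub, norm_neg] at h2
    have h3 := mul_le_mul_of_nonneg_right (hnear θ) (norm_nonneg w)
    linarith
  have hinj0 : ∀ θ w, (∀ t, cx x y (θ, a c θ) (0, M θ w) (tg (a c) θ t) = 0) → w = 0 := by
    intro θ w hw
    obtain ⟨t, ht⟩ := h.mem_tg hdim hcs hw
    have h1 : t = 0 := congrArg Prod.fst ht
    rw [h1, map_zero] at ht
    exact hMinj θ w (congrArg Prod.snd ht).symm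
  -- the family of forms
  let β : V → X →L[ℝ] V →L[ℝ] ℂ := fun θ =>
    ((ContinuousLinearMap.compL ℝ V (V × W) ℂ).flip (tg (a c) θ)).comp
      ((cx x y (θ, a c θ)).comp ((ContinuousLinearMap.inr ℝ V W).comp (M θ)))
  have hβ : ∀ θ w, β θ w = beta (cx x y) (a c) (fun θ => M θ w) θ := fun θ w => rfl
  have hβa : ∀ θ w t, β θ w t = cx x y (θ, a c θ) (0, M θ w) (tg (a c) θ t) := fun θ w t => rfl
  have hhol : ∀ θ w t, β θ w (Jg I (a c) θ t) = Complex.I * β θ w t := by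
    intro θ w t
    have hm := h.mem hcs θ
    rw [hβa, hβa, ← I_tg h.cs hdim hm (h.x0 c hcs θ) (h.y0 c hcs θ) t, hσ.alt _ hm,
      CxS.cx_I h.cs hm, hσ.alt _ hm (0, M θ w)]
    ring
  have htgp : ∀ i θ, tg (a c) (θ + b i) = tg (a c) θ := by
    intro i θ
    have h1 : fderiv ℝ (a c) (θ + b i) = fderiv ℝ (a c) θ := by
      have h2 : (fun θ => a c (θ + b i)) = a c := funext fun θ => h.pa c hcs i θ
      have h3 := fderiv_comp_add_right (𝕜 := ℝ) (f := a c) (x := θ) (b i)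
      rw [h2] at h3
      exact h3.symm
    simp only [tg, h1]
  have hPF : PFam b (Jg I (a c)) β :=
    { ex := fun w => hMe w
      hol := hhol
      per := by
        intro i θ
        have hm := h.mem hcs θ
        have e1 : cx x y (θ + b i, a c (θ + b i)) = cx x y (θ, a c θ) := by
          rw [h.pa c hcs]
          simp only [cx]
          rw [h.px i _ hm, h.py i _ hm]
        simp only [β]
        rw [e1, htgp, hper]
      inj := fun w hw => hinj0 0 w fun t => by rw [← hβa, hw 0]; rfl }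
  obtain ⟨J', hsq, hJ'⟩ := hPF.exists_J (h.smooth (F := F) (Z := Z) hch hZ hdim hcs).2 hX
  refine ⟨M, J', ⟨hM, hper, hnear, hMl, ?_, hMe, hhol, ?_, hsq, hJ', ?_⟩⟩
  · intro η hη
    have hb : Bornology.IsBounded (ZSpan.fundamentalDomain b) :=
      ZSpan.fundamentalDomain_isBounded b
    obtain ⟨δ, hδ, hδs, hδu⟩ := hMu _ hb.isCompact_closure η hη
    refine ⟨δ, hδ, hδs, fun θ c' hc' => ?_⟩
    have h1 := hδu _ (subset_closure (ZSpan.fract_mem_fundamentalDomain b θ)) c' hc'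
    rw [← eq_fract (h.pa c' (hδs hc')), ← eq_fract (h.pa c hcs), ← eq_fract hper] at h1
    exact h1
  · intro θ w hw
    refine hinj0 θ w fun t => ?_
    have := congrArg (fun f : V →L[ℝ] ℂ => f t) hw
    exact this
  · intro θ w t
    have hm := h.mem hcs θ
    obtain ⟨t₁, h1⟩ := h.mem_tg hdim hcs (θ := θ)
      (u := I (θ, a c θ) ((0, M θ w) + tg (a c) θ t) - (0, M θ (J' w))) (fun v => by
        rw [map_sub, sub_apply, CxS.cx_I h.cs hm, map_add, add_apply, h.cx0 hcs,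
          add_zero, ← hβa, ← hβa, hJ', sub_self])
    exact ⟨t₁, by rw [h1]; abel⟩

end HFam

end main

end Crest.Agent.R281.TubC_370
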