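import Mathlib
import Crest.Agent.R279.H777a

/-!
# R281 (S0424), TUBE-HOL (D1) (helper126)

A Lipschitz map on an open subset of a finite dimensional complex vector space which has a
`ℂ`-linear (real) derivative at almost every point is holomorphic.
-/

set_option autoImplicit false

open Set Filter Topology MeasureTheory Metric
open scoped NNReal

namespace Crest.Agent.R281.TubD_126

variable {E F : Type*} [NormedAddCommGroup E] [NormedSpace ℂ E] [FiniteDimensional ℂ E]
  [MeasurableSpace E] [BorelSpace E] [NormedAddCommGroup F] [NormedSpace ℂ F]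
  [FiniteDimensional ℂ F]

/-- the mean over balls of a Lipschitz, a.e. `ℂ`-differentiable map is `ℂ`-differentiable -/
theorem mean_diff (μ : Measure E) [μ.IsAddHaarMeasure] {U : Set E} {f : E → F} {K : ℝ≥0}
    (hf : LipschitzOnWith K f U)
    (h : ∀ᵐ x ∂μ, x ∈ U → DifferentiableAt ℂ f x) {x0 : E} {δ : ℝ} (hδ : 0 < δ)
    (hU : ball x0 (2 * δ) ⊆ U) :
    DifferentiableAt ℂ (fun x => ∫ t in ball (0 : E) δ, f (x + t) ∂μ) x0 := by
  have : ProperSpace E := FiniteDimensional.proper ℂ E
  have : FiniteDimensional ℂ (E →L[ℂ] F) := inferInstance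
  have : ProperSpace (E →L[ℂ] F) := FiniteDimensional.proper ℂ _
  have : CompleteSpace F := FiniteDimensional.complete ℂ F
  have hsub : ∀ x ∈ ball x0 δ, ∀ t ∈ ball (0 : E) δ, x + t ∈ U := by
    intro x hx t ht
    refine hU ?_
    rw [mem_ball, dist_eq_norm] at *
    have h1 : x + t - x0 = (x - x0) + (t - 0) := by abel
    rw [h1]
    have := norm_add_le (x - x0) (t - 0)
    linarith
  have hcont : ∀ x ∈ ball x0 δ, ContinuousOn (fun t => f (x + t)) (ball (0 : E) δ) := by
    intro x hx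
    exact hf.continuousOn.comp (by fun_prop) (fun t ht => hsub x hx t ht)
  have hfin : μ (ball (0 : E) δ) < ⊤ := measure_ball_lt_top
  have key := hasFDerivAt_integral_of_dominated_loc_of_lip (𝕜 := ℂ)
    (μ := μ.restrict (ball (0 : E) δ)) (F := fun x t => f (x + t)) (x₀ := x0)
    (s := ball x0 δ) (bound := fun _ => (K : ℝ)) (F' := fun t => fderiv ℂ f (x0 + t))
    (ball_mem_nhds x0 hδ) ?_ ?_ ?_ ?_ ?_ ?_
  · exact key.2.differentiableAt
  · filter_upwards [ball_mem_nhds x0 hδ] with x hx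
    exact (hcont x hx).aestronglyMeasurable measurableSet_ball
  · refine ⟨(hcont x0 (mem_ball_self hδ)).aestronglyMeasurable measurableSet_ball, ?_⟩
    refine HasFiniteIntegral.restrict_of_bounded (‖f x0‖ + K * δ) hfin ?_
    filter_upwards [ae_restrict_mem measurableSet_ball] with t ht
    have h1 := hf.dist_le_mul (x0 + t) (hsub x0 (mem_ball_self hδ) t ht) x0
      (by simpa using hsub x0 (mem_ball_self hδ) 0 (mem_ball_self hδ))
    rw [dist_eq_norm, dist_eq_norm, add_sub_cancel_left] at h1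
    have h2 : ‖t‖ < δ := by simpa using ht
    have h3 : (K : ℝ) * ‖t‖ ≤ K * δ := mul_le_mul_of_nonneg_left h2.le K.2
    calc ‖f (x0 + t)‖ = ‖f x0 + (f (x0 + t) - f x0)‖ := by rw [add_sub_cancel]
      _ ≤ ‖f x0‖ + ‖f (x0 + t) - f x0‖ := norm_add_le _ _
      _ ≤ ‖f x0‖ + K * δ := by linarith
  · have h1 : Measurable (fderiv ℂ f) := measurable_fderiv ℂ f
    exact (h1.comp (measurable_const_add x0)).aestronglyMeasurable
  · filter_upwards [ae_restrict_mem measurableSet_ball] with t ht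
    have h0 : Real.nnabs (K : ℝ) = K := by simp
    rw [h0]
    intro x hx y hy
    have h1 := hf (hsub x hx t ht) (hsub y hy t ht)
    simpa using h1
  · exact integrable_const_iff.2 (Or.inr (by
      constructor
      simpa using hfin))
  · have h1 : ∀ᵐ t ∂μ, x0 + t ∈ U → DifferentiableAt ℂ f (x0 + t) :=
      (quasiMeasurePreserving_add_left μ x0).ae h
    filter_upwards [ae_restrict_of_ae h1, ae_restrict_mem measurableSet_ball] with t ht1 ht2
    have h2 := (ht1 (hsub x0 (mem_ball_self hδ) t ht2)).hasFDerivAt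
    have h3 : HasFDerivAt (fun x : E => x + t) (ContinuousLinearMap.id ℂ E) x0 :=
      (hasFDerivAt_id x0).add_const t
    have h4 := h2.comp x0 h3
    rw [ContinuousLinearMap.comp_id] at h4
    exact h4

/-- the mean over balls is close to the map -/
theorem mean_close (μ : Measure E) [μ.IsAddHaarMeasure] {U : Set E} {f : E → F} {K : ℝ≥0}
    (hf : LipschitzOnWith K f U) {x : E} {δ : ℝ} (hδ : 0 < δ) (hU : ball x δ ⊆ U) :
    ‖((μ.real (ball (0 : E) δ))⁻¹ : ℝ) • ∫ t in ball (0 : E) δ, f (x + t) ∂μ - f x‖ ≤ K * δ := by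
  have : ProperSpace E := FiniteDimensional.proper ℂ E
  have : CompleteSpace F := FiniteDimensional.complete ℂ F
  have hsub : ∀ t ∈ ball (0 : E) δ, x + t ∈ U := by
    intro t ht
    refine hU ?_
    simpa [mem_ball, dist_eq_norm] using ht
  have hcont : ContinuousOn (fun t => f (x + t)) (ball (0 : E) δ) :=
    hf.continuousOn.comp (by fun_prop) (fun t ht => hsub t ht)
  have hfin : μ (ball (0 : E) δ) < ⊤ := measure_ball_lt_top
  have hpos : 0 < μ.real (ball (0 : E) δ) :=
    ENNReal.toReal_pos (measure_ball_pos μ 0 hδ).ne' hfin.ne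
  have hb : ∀ t ∈ ball (0 : E) δ, ‖f (x + t) - f x‖ ≤ K * δ := by
    intro t ht
    have h1 := hf.dist_le_mul (x + t) (hsub t ht) x
      (by simpa using hsub 0 (mem_ball_self hδ))
    rw [dist_eq_norm, dist_eq_norm, add_sub_cancel_left] at h1
    have h2 : ‖t‖ < δ := by simpa using ht
    have h3 : (K : ℝ) * ‖t‖ ≤ K * δ := mul_le_mul_of_nonneg_left h2.le K.2
    linarith
  have hint : IntegrableOn (fun t => f (x + t)) (ball (0 : E) δ) μ := by
    refine ⟨hcont.aestronglyMeasurable measurableSet_ball, ?_⟩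
    refine HasFiniteIntegral.restrict_of_bounded (‖f x‖ + K * δ) hfin ?_
    filter_upwards [ae_restrict_mem measurableSet_ball] with t ht
    calc ‖f (x + t)‖ = ‖f x + (f (x + t) - f x)‖ := by rw [add_sub_cancel]
      _ ≤ ‖f x‖ + ‖f (x + t) - f x‖ := norm_add_le _ _
      _ ≤ ‖f x‖ + K * δ := by linarith [hb t ht]
  have hcst : IntegrableOn (fun _ : E => f x) (ball (0 : E) δ) μ :=
    integrableOn_const hfin.ne
  have h1 : (∫ t in ball (0 : E) δ, f (x + t) ∂μ) - μ.real (ball (0 : E) δ) • f x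
      = ∫ t in ball (0 : E) δ, (f (x + t) - f x) ∂μ := by
    rw [integral_sub hint hcst, setIntegral_const]
  have h2 : ‖∫ t in ball (0 : E) δ, (f (x + t) - f x) ∂μ‖ ≤ K * δ * μ.real (ball (0 : E) δ) :=
    norm_setIntegral_le_of_norm_le_const hfin hb
  have h3 : ((μ.real (ball (0 : E) δ))⁻¹ : ℝ) • (∫ t in ball (0 : E) δ, f (x + t) ∂μ) - f x
      = ((μ.real (ball (0 : E) δ))⁻¹ : ℝ) •
        ((∫ t in ball (0 : E) δ, f (x + t) ∂μ) - μ.real (ball (0 : E) δ) • f x) := by
    rw [smul_sub, smul_smul, inv_mul_cancel₀ hpos.ne', one_smul]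
  rw [h3, h1, norm_smul, Real.norm_of_nonneg (inv_nonneg.2 hpos.le)]
  calc (μ.real (ball (0 : E) δ))⁻¹ * ‖∫ t in ball (0 : E) δ, (f (x + t) - f x) ∂μ‖
      ≤ (μ.real (ball (0 : E) δ))⁻¹ * (K * δ * μ.real (ball (0 : E) δ)) :=
        mul_le_mul_of_nonneg_left h2 (inv_nonneg.2 hpos.le)
    _ = K * δ := by field_simp

/-- **(D1)** Lipschitz + `ℂ`-differentiable almost everywhere ⇒ holomorphic -/
theorem holo_of_lip (μ : Measure E) [μ.IsAddHaarMeasure] {U : Set E} (hU : IsOpen U)
    {f : E → F} {K : ℝ≥0} (hf : LipschitzOnWith K f U)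
    (h : ∀ᵐ x ∂μ, x ∈ U → DifferentiableAt ℂ f x) : DifferentiableOn ℂ f U := by
  have : CompleteSpace F := FiniteDimensional.complete ℂ F
  intro x0 hx0
  obtain ⟨R, hR, hRU⟩ := Metric.isOpen_iff.1 hU x0 hx0
  have hball : ∀ x ∈ ball x0 (R / 2), ∀ s : ℝ, s ≤ R / 2 → ball x s ⊆ U := by
    intro x hx s hs y hy
    refine hRU ?_
    rw [mem_ball] at *
    have := dist_triangle y x x0
    linarith
  set δ : ℕ → ℝ := fun n => R / 4 / (n + 1) with hδ
  have hδ0 : ∀ n, 0 < δ n := fun n => by positivity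
  have hδ1 : ∀ n, δ n ≤ R / 4 := fun n => by
    have : (1 : ℝ) ≤ n + 1 := by linarith [(Nat.cast_nonneg n : (0 : ℝ) ≤ n)]
    exact div_le_self (by positivity) this
  have hdiff : ∀ n, DifferentiableOn ℂ (fun x => ((μ.real (ball (0 : E) (δ n)))⁻¹ : ℝ) •
      ∫ t in ball (0 : E) (δ n), f (x + t) ∂μ) (ball x0 (R / 2)) := by
    intro n x hx
    refine DifferentiableAt.differentiableWithinAt ?_
    exact (mean_diff μ hf h (hδ0 n) (hball x hx _ (by linarith [hδ1 n]))).const_smul _
  have hlim : TendstoUniformlyOn (fun n x => ((μ.real (ball (0 : E) (δ n)))⁻¹ : ℝ) •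
      ∫ t in ball (0 : E) (δ n), f (x + t) ∂μ) f atTop (ball x0 (R / 2)) := by
    rw [Metric.tendstoUniformlyOn_iff]
    intro ε hε
    have h3 : Tendsto (fun n => (K : ℝ) * δ n) atTop (𝓝 0) := by
      have h4 : Tendsto δ atTop (𝓝 0) := by
        have := (tendsto_one_div_add_atTop_nhds_zero_nat (𝕜 := ℝ)).const_mul (R / 4)
        simpa [hδ, div_eq_mul_inv] using this
      simpa using h4.const_mul (K : ℝ)
    filter_upwards [h3.eventually_lt_const hε] with n hn x hx
    rw [dist_comm, dist_eq_norm]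
    exact lt_of_le_of_lt (mean_close μ hf (hδ0 n) (hball x hx _ (by linarith [hδ1 n]))) hn
  have hres := Crest.Agent.R279.PG.differentiableOn_of_tendstoUniformlyOn isOpen_ball hdiff hlim
  exact (hres.differentiableAt (ball_mem_nhds x0 (by positivity))).differentiableWithinAt

end Crest.Agent.R281.TubD_126
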