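import Mathlib
import Crest.Agent.R281.TubD1_126

/-!
# R281 (S0424), TUBE-HOL (D2), (D3) (helper126)

The leaf map `kap : tube → G` (`G` a real vector space, `kap` Lipschitz, with derivative
intertwining `i` and `J_(kap p)` at every point of almost every leaf) composed with the inverse of
its restriction to a holomorphic transversal is holomorphic, with surjective derivative.
-/

set_option autoImplicit false
set_option linter.unusedSectionVars false

open Set Filter Topology MeasureTheory Metric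
open scoped NNReal

namespace Crest.Agent.R281.TubD_126

/-- a real-linear map between complex vector spaces commuting with `i` is `ℂ`-linear -/
noncomputable def toC {E F : Type*} [NormedAddCommGroup E] [NormedSpace ℂ E] [NormedAddCommGroup F]
    [NormedSpace ℂ F] (L : E →L[ℝ] F) (h : ∀ v, L (Complex.I • v) = Complex.I • L v) :
    E →L[ℂ] F where
  toFun := L
  map_add' := L.map_add
  map_smul' := by
    intro c v
    have h1 : c • v = (c.re : ℝ) • v + (c.im : ℝ) • (Complex.I • v) := by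
      conv_lhs => rw [← Complex.re_add_im c]
      rw [add_smul, mul_smul, Complex.coe_smul, Complex.coe_smul]
    have h2 : c • L v = (c.re : ℝ) • L v + (c.im : ℝ) • (Complex.I • L v) := by
      conv_lhs => rw [← Complex.re_add_im c]
      rw [add_smul, mul_smul, Complex.coe_smul, Complex.coe_smul]
    simp only [RingHom.id_apply]
    rw [h1, L.map_add, L.map_smul, L.map_smul, h, h2]
  cont := L.cont

theorem toC_apply {E F : Type*} [NormedAddCommGroup E] [NormedSpace ℂ E] [NormedAddCommGroup F]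
    [NormedSpace ℂ F] (L : E →L[ℝ] F) (h : ∀ v, L (Complex.I • v) = Complex.I • L v) (v : E) :
    toC L h v = L v := rfl

/-- real derivative commuting with `i` ⇒ `ℂ`-differentiable -/
theorem differentiableAt_of_comm {E F : Type*} [NormedAddCommGroup E] [NormedSpace ℂ E]
    [NormedAddCommGroup F] [NormedSpace ℂ F] {f : E → F} {x : E} {L : E →L[ℝ] F}
    (hf : HasFDerivAt f L x) (h : ∀ v, L (Complex.I • v) = Complex.I • L v) :
    DifferentiableAt ℂ f x := by
  have h1 : (toC L h).restrictScalars ℝ = L := by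
    ext v
    rfl
  exact (hasFDerivAt_of_restrictScalars ℝ hf h1).differentiableAt

/-- a map expanding at a point has a derivative bounded below -/
theorem bdd_below {E G : Type*} [NormedAddCommGroup E] [NormedSpace ℝ E]
    [NormedAddCommGroup G] [NormedSpace ℝ G] {f : E → G} {x : E} {D : E →L[ℝ] G} {C : ℝ}
    (hf : HasFDerivAt f D x) (h : ∀ᶠ y in 𝓝 x, ‖y - x‖ ≤ C * ‖f y - f x‖) (w : E) :
    ‖w‖ ≤ C * ‖D w‖ := by
  have hc : Tendsto (fun n : ℕ => ‖(n : ℝ)‖) atTop atTop := by
    simpa using tendsto_natCast_atTop_atTop (R := ℝ)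
  have h1 := hf.lim w (c := fun n : ℕ => (n : ℝ)) (l := atTop) hc
  have h2 : Tendsto (fun n : ℕ => x + ((n : ℝ))⁻¹ • w) atTop (𝓝 x) := by
    have h3 : Tendsto (fun n : ℕ => ((n : ℝ))⁻¹) atTop (𝓝 0) :=
      tendsto_inv_atTop_zero.comp tendsto_natCast_atTop_atTop
    simpa using (tendsto_const_nhds (x := x)).add (h3.smul_const w)
  have h4 : ∀ᶠ n : ℕ in atTop, ‖w‖ ≤ C * ‖(n : ℝ) • (f (x + ((n : ℝ))⁻¹ • w) - f x)‖ := by
    filter_upwards [h2.eventually h, eventually_gt_atTop 0] with n hn h0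
    have hn0 : (0 : ℝ) < n := by exact_mod_cast h0
    rw [add_sub_cancel_left, norm_smul, norm_inv, Real.norm_of_nonneg hn0.le] at hn
    rw [norm_smul, Real.norm_of_nonneg hn0.le]
    have h5 := mul_le_mul_of_nonneg_left hn hn0.le
    rw [← mul_assoc, mul_inv_cancel₀ hn0.ne', one_mul] at h5
    calc ‖w‖ ≤ n * (C * ‖f (x + ((n : ℝ))⁻¹ • w) - f x‖) := h5
      _ = C * (n * ‖f (x + ((n : ℝ))⁻¹ • w) - f x‖) := by ring
  exact ge_of_tendsto (h1.norm.const_mul C) h4

variable {E F G : Type*} [NormedAddCommGroup E] [NormedSpace ℂ E] [FiniteDimensional ℂ E]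
  [MeasurableSpace E] [BorelSpace E] [NormedAddCommGroup F] [NormedSpace ℂ F]
  [FiniteDimensional ℂ F] [NormedAddCommGroup G] [NormedSpace ℝ G] [FiniteDimensional ℝ G]

/-- the restriction `σ = kap ∘ s : B → G` of the leaf map to a transversal, with inverse `g`;
`Z` = exceptional set of leaves, `J c` = complex structure of the leaf space at `c ∉ Z` -/
structure Trans (Z : Set G) (J : G → G →L[ℝ] G) (B : Set F) (V : Set G) (σ : F → G) (g : G → F)
    (L1 L2 : ℝ≥0) : Prop where
  isOpen_B : IsOpen B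
  isOpen_V : IsOpen V
  maps : MapsTo g V B
  right : ∀ c ∈ V, σ (g c) = c
  left : ∀ b ∈ B, σ b ∈ V → g (σ b) = b
  lip_g : LipschitzOnWith L1 g V
  lip_σ : LipschitzOnWith L2 σ B
  der : ∀ b ∈ B, σ b ∈ V → σ b ∉ Z → ∃ D : F →L[ℝ] G, HasFDerivAt σ D b ∧
    ∀ w, D (Complex.I • w) = J (σ b) (D w)

/-- at a good leaf the inverse `g` of the transversal has a derivative intertwining `J` and `i` -/
theorem Trans.der_g {Z : Set G} {J : G → G →L[ℝ] G} {B : Set F} {V : Set G} {σ : F → G}
    {g : G → F} {L1 L2 : ℝ≥0} (T : Trans Z J B V σ g L1 L2)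
    (hdim : Module.finrank ℝ F = Module.finrank ℝ G) {c : G} (hc : c ∈ V) (hZ : c ∉ Z) :
    ∃ D : G →L[ℝ] F, HasFDerivAt g D c ∧ ∀ v, D (J c v) = Complex.I • D v := by
  have : FiniteDimensional ℝ F := FiniteDimensional.complexToReal F
  obtain ⟨D, hD, hJ⟩ := T.der (g c) (T.maps hc) (by rw [T.right c hc]; exact hc)
    (by rw [T.right c hc]; exact hZ)
  rw [T.right c hc] at hJ
  have hcont : ContinuousAt σ (g c) := hD.continuousAt
  have hlow : ∀ᶠ y in 𝓝 (g c), ‖y - g c‖ ≤ L1 * ‖σ y - σ (g c)‖ := by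
    have h1 : ∀ᶠ y in 𝓝 (g c), σ y ∈ V := by
      refine hcont.eventually ?_
      rw [T.right c hc]
      exact T.isOpen_V.mem_nhds hc
    filter_upwards [h1, T.isOpen_B.mem_nhds (T.maps hc)] with y hy1 hy2
    have h2 := T.lip_g.dist_le_mul (σ y) hy1 (σ (g c)) (by rw [T.right c hc]; exact hc)
    rw [T.left y hy2 hy1, T.left (g c) (T.maps hc) (by rw [T.right c hc]; exact hc),
      dist_eq_norm, dist_eq_norm] at h2
    exact h2
  have hbd := bdd_below hD hlow
  have hinj : Function.Injective D := by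
    rw [injective_iff_map_eq_zero]
    intro w hw
    have := hbd w
    rw [hw, norm_zero, mul_zero] at this
    simpa using this
  let e : F ≃L[ℝ] G := (LinearMap.linearEquivOfInjective (D : F →ₗ[ℝ] G) hinj
    hdim).toContinuousLinearEquiv
  have he : (e : F →L[ℝ] G) = D := by
    ext w
    rfl
  have hg : ContinuousAt g c :=
    T.lip_g.continuousOn.continuousAt (T.isOpen_V.mem_nhds hc)
  have hd : HasFDerivAt g (e.symm : G →L[ℝ] F) c := by
    refine HasFDerivAt.of_local_left_inverse hg (he ▸ hD) ?_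
    filter_upwards [T.isOpen_V.mem_nhds hc] with y hy
    exact T.right y hy
  refine ⟨_, hd, fun v => ?_⟩
  have h1 : v = D (e.symm v) := by
    rw [← he]
    exact (e.apply_symm_apply v).symm
  have h2 : e.symm (J c v) = Complex.I • e.symm v := by
    apply e.injective
    rw [e.apply_symm_apply]
    have h3 : e (Complex.I • e.symm v) = D (Complex.I • e.symm v) := by rw [← he]; rfl
    rw [h3, hJ, ← h1]
  exact h2

/-- **(D2)** `g ∘ kap` is holomorphic -/
theorem hol_of_kap (μ : Measure E) [μ.IsAddHaarMeasure] {U : Set E} (hU : IsOpen U)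
    {kap : E → G} {K : ℝ≥0} (hk : LipschitzOnWith K kap U) {Z : Set G}
    (hZ : ∀ᵐ p ∂μ, p ∈ U → kap p ∉ Z) {J : G → G →L[ℝ] G}
    (hJ : ∀ p ∈ U, kap p ∉ Z → ∃ D : E →L[ℝ] G, HasFDerivAt kap D p ∧
      ∀ v, D (Complex.I • v) = J (kap p) (D v))
    {B : Set F} {V : Set G} {σ : F → G} {g : G → F} {L1 L2 : ℝ≥0}
    (T : Trans Z J B V σ g L1 L2) (hdim : Module.finrank ℝ F = Module.finrank ℝ G) :
    DifferentiableOn ℂ (fun p => g (kap p)) (U ∩ kap ⁻¹' V) := by
  have hopen : IsOpen (U ∩ kap ⁻¹' V) := hk.continuousOn.isOpen_inter_preimage hU T.isOpen_V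
  have hlip : LipschitzOnWith (L1 * K) (fun p => g (kap p)) (U ∩ kap ⁻¹' V) :=
    T.lip_g.comp (hk.mono inter_subset_left) (fun p hp => hp.2)
  refine holo_of_lip μ hopen hlip ?_
  filter_upwards [hZ] with p hp hpU
  obtain ⟨D, hD, hDJ⟩ := hJ p hpU.1 (hp hpU.1)
  obtain ⟨D', hD', hDJ'⟩ := T.der_g hdim hpU.2 (hp hpU.1)
  refine differentiableAt_of_comm (L := D'.comp D) (hD'.comp p hD) fun v => ?_
  rw [ContinuousLinearMap.comp_apply, hDJ, hDJ']
  rfl

/-- `g` is bounded below -/
theorem Trans.low {Z : Set G} {J : G → G →L[ℝ] G} {B : Set F} {V : Set G} {σ : F → G}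
    {g : G → F} {L1 L2 : ℝ≥0} (T : Trans Z J B V σ g L1 L2) {c c' : G} (hc : c ∈ V)
    (hc' : c' ∈ V) : ‖c - c'‖ ≤ L2 * ‖g c - g c'‖ := by
  have h := T.lip_σ.dist_le_mul (g c) (T.maps hc) (g c') (T.maps hc')
  rwa [T.right c hc, T.right c' hc', dist_eq_norm, dist_eq_norm] at h

/-- **(D3)** the derivative of `g ∘ kap` at `p` is surjective as soon as `kap` expands along some
(real) differentiable transversal `s'` through `p` -/
theorem surj_of_kap {U : Set E} (hU : IsOpen U)
    {kap : E → G} {K : ℝ≥0} (hk : LipschitzOnWith K kap U) {Z : Set G} {J : G → G →L[ℝ] G}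
    {B : Set F} {V : Set G} {σ : F → G} {g : G → F} {L1 L2 : ℝ≥0}
    (T : Trans Z J B V σ g L1 L2) {p : E} (hp : p ∈ U) (hpV : kap p ∈ V)
    {L : E →L[ℂ] F} (hL : HasFDerivAt (fun p => g (kap p)) L p)
    {G' : Type*} [NormedAddCommGroup G'] [NormedSpace ℝ G'] [FiniteDimensional ℝ G']
    (hdim : Module.finrank ℝ G' = Module.finrank ℝ F) {s : G' → E} {v0 : G'} {S : G' →L[ℝ] E}
    (hs : HasFDerivAt s S v0) (hs0 : s v0 = p) {C : ℝ} (hC : 0 ≤ C)
    (hexp : ∀ᶠ v in 𝓝 v0, ‖v - v0‖ ≤ C * ‖kap (s v) - kap p‖) : Function.Surjective L := by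
  have : FiniteDimensional ℝ F := FiniteDimensional.complexToReal F
  have h1 : HasFDerivAt (fun v => g (kap (s v))) ((L.restrictScalars ℝ).comp S) v0 := by
    have h2 : HasFDerivAt (fun p => g (kap p)) (L.restrictScalars ℝ) (s v0) := by
      rw [hs0]
      exact hL.restrictScalars ℝ
    exact h2.comp v0 hs
  have hopen : IsOpen (U ∩ kap ⁻¹' V) := hk.continuousOn.isOpen_inter_preimage hU T.isOpen_V
  have h3 : ∀ᶠ v in 𝓝 v0, ‖v - v0‖ ≤ (C * L2) * ‖g (kap (s v)) - g (kap (s v0))‖ := by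
    have h4 : ∀ᶠ v in 𝓝 v0, s v ∈ U ∩ kap ⁻¹' V := by
      refine hs.continuousAt.eventually ?_
      rw [hs0]
      exact hopen.mem_nhds ⟨hp, hpV⟩
    filter_upwards [hexp, h4] with v hv1 hv2
    have h5 := T.low (c := kap (s v)) (c' := kap p) hv2.2 hpV
    rw [hs0]
    calc ‖v - v0‖ ≤ C * ‖kap (s v) - kap p‖ := hv1
      _ ≤ C * (L2 * ‖g (kap (s v)) - g (kap p)‖) := mul_le_mul_of_nonneg_left h5 hC
      _ = _ := by ring
  have hbd := bdd_below h1 h3
  have hinj : Function.Injective ((L.restrictScalars ℝ).comp S) := by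
    rw [injective_iff_map_eq_zero]
    intro w hw
    have := hbd w
    rw [hw, norm_zero, mul_zero] at this
    simpa using this
  have hsur : Function.Surjective ((L.restrictScalars ℝ).comp S) := by
    have h6 : Function.Surjective (((L.restrictScalars ℝ).comp S : G' →L[ℝ] F) : G' →ₗ[ℝ] F) :=
      (LinearMap.injective_iff_surjective_of_finrank_eq_finrank hdim).1 hinj
    exact h6
  intro y
  obtain ⟨w, hw⟩ := hsur y
  exact ⟨S w, hw⟩

end Crest.Agent.R281.TubD_126
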