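import Mathlib

/-!
# R281 (S0424), TUBE-HOL (i) (helper126)

`a : G → Θ → G` a family of maps with `‖(a c θ - a c' θ) - (c - c')‖ ≤ 1/2 ‖c - c'‖`, Lipschitz in
`θ`, whose graphs cover `{‖v‖ < ρ'}`: the leaf map `kap (θ, v) = c :⇔ v = a c θ` is Lipschitz,
expands along the fibres, pulls null sets back to null sets, and is differentiable at every point
of a leaf along which the family is differentiable (uniformly in `θ`).
-/

set_option autoImplicit false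
set_option linter.unusedSectionVars false

open Set Filter Topology MeasureTheory Metric
open scoped NNReal

namespace Crest.Agent.R281.TubD_126

variable {Θ G : Type*} [NormedAddCommGroup Θ] [NormedSpace ℝ Θ] [FiniteDimensional ℝ Θ]
  [NormedAddCommGroup G] [NormedSpace ℝ G] [FiniteDimensional ℝ G]

/-- a family of graphs -/
structure Fol (a : G → Θ → G) (ρ ρ' : ℝ) (M : ℝ≥0) : Prop where
  near : ∀ c ∈ ball (0 : G) ρ, ∀ c' ∈ ball (0 : G) ρ, ∀ θ,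
    ‖(a c θ - a c' θ) - (c - c')‖ ≤ 1 / 2 * ‖c - c'‖
  lip : ∀ c ∈ ball (0 : G) ρ, LipschitzWith M (a c)
  cover : ∀ θ v, ‖v‖ < ρ' → ∃ c ∈ ball (0 : G) ρ, a c θ = v

namespace Fol

variable {a : G → Θ → G} {ρ ρ' : ℝ} {M : ℝ≥0}

theorem low (h : Fol a ρ ρ' M) {c c' : G} (hc : c ∈ ball (0 : G) ρ) (hc' : c' ∈ ball (0 : G) ρ)
    (θ : Θ) : ‖c - c'‖ ≤ 2 * ‖a c θ - a c' θ‖ := by
  have h1 := h.near c hc c' hc' θ
  have h2 : ‖c - c'‖ ≤ ‖a c θ - a c' θ‖ + ‖(a c θ - a c' θ) - (c - c')‖ := by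
    have h3 : c - c' = (a c θ - a c' θ) - ((a c θ - a c' θ) - (c - c')) := by abel
    calc ‖c - c'‖ = ‖(a c θ - a c' θ) - ((a c θ - a c' θ) - (c - c'))‖ := by rw [← h3]
      _ ≤ _ := norm_sub_le _ _
  linarith

theorem up (h : Fol a ρ ρ' M) {c c' : G} (hc : c ∈ ball (0 : G) ρ) (hc' : c' ∈ ball (0 : G) ρ)
    (θ : Θ) : ‖a c θ - a c' θ‖ ≤ 3 / 2 * ‖c - c'‖ := by
  have h1 := h.near c hc c' hc' θ
  have h2 : ‖a c θ - a c' θ‖ ≤ ‖(a c θ - a c' θ) - (c - c')‖ + ‖c - c'‖ := by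
    have h3 : a c θ - a c' θ = ((a c θ - a c' θ) - (c - c')) + (c - c') := by abel
    calc ‖a c θ - a c' θ‖ = ‖((a c θ - a c' θ) - (c - c')) + (c - c')‖ := by rw [← h3]
      _ ≤ _ := norm_add_le _ _
  linarith

open Classical in
/-- the leaf map -/
noncomputable def kap (a : G → Θ → G) (ρ : ℝ) (p : Θ × G) : G :=
  if h : ∃ c ∈ ball (0 : G) ρ, a c p.1 = p.2 then h.choose else 0

theorem kap_mem (h : Fol a ρ ρ' M) {p : Θ × G} (hp : ‖p.2‖ < ρ') :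
    kap a ρ p ∈ ball (0 : G) ρ := by
  have h1 := h.cover p.1 p.2 hp
  rw [kap, dif_pos h1]
  exact h1.choose_spec.1

theorem a_kap (h : Fol a ρ ρ' M) {p : Θ × G} (hp : ‖p.2‖ < ρ') :
    a (kap a ρ p) p.1 = p.2 := by
  have h1 := h.cover p.1 p.2 hp
  rw [kap, dif_pos h1]
  exact h1.choose_spec.2

theorem kap_eq (h : Fol a ρ ρ' M) {θ : Θ} {c : G} (hc : c ∈ ball (0 : G) ρ)
    (hv : ‖a c θ‖ < ρ') : kap a ρ (θ, a c θ) = c := by
  have h1 := h.kap_mem (p := (θ, a c θ)) hv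
  have h2 := h.a_kap (p := (θ, a c θ)) hv
  have h3 := h.low h1 hc θ
  simp only at h2
  rw [h2, sub_self, norm_zero, mul_zero] at h3
  exact sub_eq_zero.1 (norm_le_zero_iff.1 h3)

/-- `kap` is Lipschitz -/
theorem kap_lip (h : Fol a ρ ρ' M) :
    LipschitzOnWith (2 * (1 + M)) (kap a ρ) {p : Θ × G | ‖p.2‖ < ρ'} := by
  refine LipschitzOnWith.of_dist_le_mul fun p hp q hq => ?_
  rw [dist_eq_norm, dist_eq_norm]
  have h1 := h.low (h.kap_mem hp) (h.kap_mem hq) p.1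
  have h2 : a (kap a ρ p) p.1 - a (kap a ρ q) p.1
      = (p.2 - q.2) - (a (kap a ρ q) p.1 - a (kap a ρ q) q.1) := by
    rw [h.a_kap hp, h.a_kap hq]; abel
  have h3 := (h.lip _ (h.kap_mem hq)).dist_le_mul p.1 q.1
  rw [dist_eq_norm, dist_eq_norm] at h3
  have h4 : ‖p.2 - q.2‖ ≤ ‖p - q‖ := norm_snd_le (p - q)
  have h5 : ‖p.1 - q.1‖ ≤ ‖p - q‖ := norm_fst_le (p - q)
  have h6 : (M : ℝ) * ‖p.1 - q.1‖ ≤ M * ‖p - q‖ := mul_le_mul_of_nonneg_left h5 M.2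
  rw [h2] at h1
  have h7 := norm_sub_le (p.2 - q.2) (a (kap a ρ q) p.1 - a (kap a ρ q) q.1)
  push_cast
  nlinarith [norm_nonneg (p - q)]

/-- `kap` expands along the fibres -/
theorem kap_exp (h : Fol a ρ ρ' M) {θ : Θ} {v v' : G} (hv : ‖v‖ < ρ') (hv' : ‖v'‖ < ρ') :
    ‖v - v'‖ ≤ 3 / 2 * ‖kap a ρ (θ, v) - kap a ρ (θ, v')‖ := by
  have h1 := h.up (h.kap_mem (p := (θ, v)) hv) (h.kap_mem (p := (θ, v')) hv') θ
  have h2 := h.a_kap (p := (θ, v)) hv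
  have h3 := h.a_kap (p := (θ, v')) hv'
  simp only at h2 h3
  rwa [h2, h3] at h1

/-- pull back of a null set of leaves is a null set -/
theorem kap_null (h : Fol a ρ ρ' M) [MeasurableSpace Θ] [BorelSpace Θ] [MeasurableSpace G]
    [BorelSpace G] (μ : Measure Θ) [μ.IsAddHaarMeasure] (ν : Measure G) [ν.IsAddHaarMeasure]
    {Z : Set G} (hZ : ν Z = 0) :
    (μ.prod ν) {p : Θ × G | ‖p.2‖ < ρ' ∧ kap a ρ p ∈ Z} = 0 := by
  set P : Θ × G → Θ × G := fun q => (q.1, a q.2 q.1) with hP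
  have hsub : {p : Θ × G | ‖p.2‖ < ρ' ∧ kap a ρ p ∈ Z} ⊆
      P '' ((univ : Set Θ) ×ˢ (Z ∩ ball (0 : G) ρ)) := by
    rintro p ⟨hp, hpZ⟩
    refine ⟨(p.1, kap a ρ p), ⟨mem_univ _, hpZ, h.kap_mem hp⟩, ?_⟩
    rw [hP]
    simp only
    rw [h.a_kap hp]
  refine measure_mono_null hsub ?_
  have hlip : LipschitzOnWith (2 + M) P ((univ : Set Θ) ×ˢ (Z ∩ ball (0 : G) ρ)) := by
    refine LipschitzOnWith.of_dist_le_mul fun p hp q hq => ?_
    rw [dist_eq_norm, dist_eq_norm]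
    have h4 : ‖p.2 - q.2‖ ≤ ‖p - q‖ := norm_snd_le (p - q)
    have h5 : ‖p.1 - q.1‖ ≤ ‖p - q‖ := norm_fst_le (p - q)
    have h1 := h.up hp.2.2 hq.2.2 p.1
    have h2 := (h.lip _ hq.2.2).dist_le_mul p.1 q.1
    rw [dist_eq_norm, dist_eq_norm] at h2
    have h6 : (M : ℝ) * ‖p.1 - q.1‖ ≤ M * ‖p - q‖ := mul_le_mul_of_nonneg_left h5 M.2
    have h7 : P p - P q = (p.1 - q.1, (a p.2 p.1 - a q.2 p.1) + (a q.2 p.1 - a q.2 q.1)) := by
      rw [hP]; ext <;> simp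
    rw [h7, Prod.norm_def]
    have h8 := norm_add_le (a p.2 p.1 - a q.2 p.1) (a q.2 p.1 - a q.2 q.1)
    push_cast
    have h9 : (0 : ℝ) ≤ M := M.2
    refine max_le ?_ ?_
    · nlinarith [norm_nonneg (p - q), mul_nonneg h9 (norm_nonneg (p - q))]
    · nlinarith [norm_nonneg (p - q)]
  have hnull : (μ.prod ν) ((univ : Set Θ) ×ˢ (Z ∩ ball (0 : G) ρ)) = 0 := by
    rw [Measure.prod_prod, measure_mono_null inter_subset_left hZ, mul_zero]
  set d : ℕ := Module.finrank ℝ (Θ × G) with hd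
  have hac : μH[(d : ℝ)] ((univ : Set Θ) ×ˢ (Z ∩ ball (0 : G) ρ)) = 0 := by
    have h1 : (μH[(d : ℝ)] : Measure (Θ × G)) ≪ μ.prod ν :=
      Measure.absolutelyContinuous_isAddHaarMeasure _ _
    exact h1 hnull
  have h2 := hlip.hausdorffMeasure_image_le (d := (d : ℝ)) (Nat.cast_nonneg d)
  rw [hac, mul_zero] at h2
  have h3 : μ.prod ν ≪ (μH[(d : ℝ)] : Measure (Θ × G)) :=
    Measure.absolutelyContinuous_isAddHaarMeasure _ _
  exact h3 (le_antisymm h2 bot_le)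

/-- `kap` is differentiable along a leaf along which the family is differentiable -/
theorem kap_deriv (h : Fol a ρ ρ' M) {c : G} (hc : c ∈ ball (0 : G) ρ) {T : Θ → G →L[ℝ] G}
    (hT : ∀ ε > 0, ∃ δ > 0, ∀ k : G, ‖k‖ < δ → ∀ θ, ‖a (c + k) θ - a c θ - T θ k‖ ≤ ε * ‖k‖)
    {θ : Θ} (hTc : ContinuousAt T θ) (Ti : G →L[ℝ] G) (hTi : ∀ v, Ti (T θ v) = v)
    {A : Θ →L[ℝ] G} (hA : HasFDerivAt (a c) A θ) (hv : ‖a c θ‖ < ρ') :
    HasFDerivAt (kap a ρ)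
      (Ti.comp (ContinuousLinearMap.snd ℝ Θ G - A.comp (ContinuousLinearMap.fst ℝ Θ G)))
      (θ, a c θ) := by
  have hopen : IsOpen {p : Θ × G | ‖p.2‖ < ρ'} := isOpen_lt (by fun_prop) continuous_const
  have hnear : ∀ᶠ p in 𝓝 (θ, a c θ), p ∈ {p : Θ × G | ‖p.2‖ < ρ'} := hopen.mem_nhds hv
  have hkc : kap a ρ (θ, a c θ) = c := h.kap_eq hc hv
  -- linear control of `k = kap p - c`
  set L : ℝ := 2 * (1 + M) with hL
  have hL0 : 0 ≤ L := by positivity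
  have hk : ∀ᶠ p in 𝓝 (θ, a c θ), ‖kap a ρ p - c‖ ≤ L * ‖p - (θ, a c θ)‖ := by
    filter_upwards [hnear] with p hp
    have h1 := h.kap_lip.dist_le_mul p hp (θ, a c θ) hv
    rw [hkc, dist_eq_norm, dist_eq_norm] at h1
    simpa [hL] using h1
  have hk0 : Tendsto (fun p => kap a ρ p - c) (𝓝 (θ, a c θ)) (𝓝 0) := by
    have h2 : Tendsto (fun p : Θ × G => L * ‖p - (θ, a c θ)‖) (𝓝 (θ, a c θ)) (𝓝 0) := by
      have h3 : Continuous (fun p : Θ × G => L * ‖p - (θ, a c θ)‖) := by fun_prop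
      simpa using h3.tendsto (θ, a c θ)
    exact squeeze_zero_norm' hk h2
  rw [hasFDerivAt_iff_isLittleO, Asymptotics.isLittleO_iff]
  intro η hη
  -- constants
  set q : ℝ := ‖Ti‖ + 1 with hq
  have hq0 : 0 < q := by positivity
  set ε : ℝ := η / (q * (L + L + 1)) with hε
  have hε0 : 0 < ε := by positivity
  obtain ⟨δ, hδ, hTδ⟩ := hT ε hε0
  have e1 : ∀ᶠ p in 𝓝 (θ, a c θ), ‖kap a ρ p - c‖ < δ := by
    have := hk0.norm
    rw [norm_zero] at this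
    exact this.eventually_lt_const hδ
  have e2 : ∀ᶠ p : Θ × G in 𝓝 (θ, a c θ), ‖T p.1 - T θ‖ < ε := by
    have h3 : ContinuousAt (fun p : Θ × G => T p.1) (θ, a c θ) :=
      ContinuousAt.comp (f := Prod.fst) (g := T) hTc continuousAt_fst
    have h4 : Tendsto (fun p : Θ × G => ‖T p.1 - T θ‖) (𝓝 (θ, a c θ)) (𝓝 0) := by
      have := (h3.sub (continuousAt_const (y := T θ))).norm
      simpa [ContinuousAt] using this
    exact h4.eventually_lt_const hε0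
  have e3 : ∀ᶠ p : Θ × G in 𝓝 (θ, a c θ),
      ‖a c p.1 - a c θ - A (p.1 - θ)‖ ≤ ε * ‖p.1 - θ‖ := by
    have h3 := (hasFDerivAt_iff_isLittleO.1 hA)
    rw [Asymptotics.isLittleO_iff] at h3
    have h4 : Tendsto (fun p : Θ × G => p.1) (𝓝 (θ, a c θ)) (𝓝 θ) :=
      continuousAt_fst (p := (θ, a c θ))
    exact h4.eventually (h3 hε0)
  filter_upwards [hnear, hk, e1, e2, e3] with p hp hkp hp1 hp2 hp3
  set k : G := kap a ρ p - c with hkdef
  have hak : a (c + k) p.1 = p.2 := by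
    have : c + k = kap a ρ p := by rw [hkdef]; abel
    rw [this]
    exact h.a_kap hp
  have h5 := hTδ k hp1 p.1
  rw [hak] at h5
  rw [hkc]
  -- `T θ k = (v' - v) - A (θ' - θ) + error`
  have h6 : k - Ti ((p.2 - a c θ) - A (p.1 - θ))
      = Ti (-(p.2 - a c p.1 - T p.1 k) - (T p.1 - T θ) k - (a c p.1 - a c θ - A (p.1 - θ))) := by
    have h7 : k = Ti (T θ k) := (hTi k).symm
    conv_lhs => rw [h7]
    rw [← map_sub]
    congr 1
    rw [_root_.sub_apply]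
    abel
  have h8 : (Ti.comp (ContinuousLinearMap.snd ℝ Θ G - A.comp (ContinuousLinearMap.fst ℝ Θ G)))
      (p - (θ, a c θ)) = Ti ((p.2 - a c θ) - A (p.1 - θ)) := by
    simp
  rw [h8]
  have h9 : ‖k - Ti ((p.2 - a c θ) - A (p.1 - θ))‖ ≤ ‖Ti‖ *
      (ε * ‖k‖ + ε * ‖k‖ + ε * ‖p.1 - θ‖) := by
    rw [h6]
    refine (Ti.le_opNorm _).trans (mul_le_mul_of_nonneg_left ?_ (norm_nonneg _))
    have g1 := norm_sub_le (-(p.2 - a c p.1 - T p.1 k) - (T p.1 - T θ) k)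
      (a c p.1 - a c θ - A (p.1 - θ))
    have g2 := norm_sub_le (-(p.2 - a c p.1 - T p.1 k)) ((T p.1 - T θ) k)
    rw [norm_neg] at g2
    have g3 : ‖(T p.1 - T θ) k‖ ≤ ε * ‖k‖ :=
      ((T p.1 - T θ).le_opNorm k).trans (mul_le_mul_of_nonneg_right hp2.le (norm_nonneg _))
    linarith
  have h10 : ‖p.1 - θ‖ ≤ ‖p - (θ, a c θ)‖ := norm_fst_le (p - (θ, a c θ))
  have h11 : ε * ‖k‖ + ε * ‖k‖ + ε * ‖p.1 - θ‖ ≤ ε * (L + L + 1) * ‖p - (θ, a c θ)‖ := by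
    nlinarith [norm_nonneg (p - (θ, a c θ))]
  calc ‖k - Ti ((p.2 - a c θ) - A (p.1 - θ))‖
      ≤ ‖Ti‖ * (ε * (L + L + 1) * ‖p - (θ, a c θ)‖) :=
        h9.trans (mul_le_mul_of_nonneg_left h11 (norm_nonneg _))
    _ ≤ q * (ε * (L + L + 1) * ‖p - (θ, a c θ)‖) := by
        refine mul_le_mul_of_nonneg_right (by rw [hq]; linarith) (by positivity)
    _ = η * ‖p - (θ, a c θ)‖ := by
        rw [hε]
        field_simp

end Fol

end Crest.Agent.R281.TubD_126
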