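import Mathlib
import Crest.Agent.R281.TubD2_126
import Crest.Agent.R281.TubK1_126

/-!
# R281 (S0424), TUBE-HOL (i), transversal discs (helper126)

If the family `a` is Lipschitz in `c` for the `C^1`-norm in `θ`, a small disc `s` transversal to
the leaf `c0` meets every nearby leaf exactly once: the data `Trans` of `TubD2_126`.
-/

set_option autoImplicit false
set_option linter.unusedSectionVars false

open Set Filter Topology MeasureTheory Metric
open scoped NNReal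

namespace Crest.Agent.R281.TubD_126

variable {Θ G F : Type*} [NormedAddCommGroup Θ] [NormedSpace ℝ Θ] [FiniteDimensional ℝ Θ]
  [NormedAddCommGroup G] [NormedSpace ℝ G] [FiniteDimensional ℝ G]
  [NormedAddCommGroup F] [NormedSpace ℂ F] [FiniteDimensional ℂ F]

theorem Fol.exists_trans {a : G → Θ → G} {ρ ρ' : ℝ} {M : ℝ≥0} (h : Fol a ρ ρ' M) {C1 : ℝ≥0}
    (h4 : ∀ c ∈ ball (0 : G) ρ, ∀ c' ∈ ball (0 : G) ρ,
      LipschitzWith (C1 * ‖c - c'‖₊) (fun θ => a c θ - a c' θ))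
    {c0 : G} (hc0 : c0 ∈ ball (0 : G) ρ) {s : F → Θ × G} {S : F →L[ℝ] Θ × G}
    (hs : HasStrictFDerivAt s S 0) {A : Θ →L[ℝ] G} (hA : HasStrictFDerivAt (a c0) A (s 0).1)
    (hs0 : (s 0).2 = a c0 (s 0).1) (hv : ‖(s 0).2‖ < ρ') (e : F ≃L[ℝ] G)
    (he : ∀ w, e w = (S w).2 - A (S w).1) {r0 : ℝ} (hr0 : 0 < r0) :
    ∃ r : ℝ, 0 < r ∧ r ≤ r0 ∧ ∃ r' : ℝ, 0 < r' ∧ ball c0 r' ⊆ ball 0 ρ ∧
      (∀ b ∈ ball (0 : F) r, ‖(s b).2‖ < ρ') ∧ ∃ (g : G → F) (L1 L2 : ℝ≥0),
      ∀ (Z : Set G) (J : G → G →L[ℝ] G),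
      (∀ b ∈ ball (0 : F) r, Fol.kap a ρ (s b) ∈ ball c0 r' → Fol.kap a ρ (s b) ∉ Z →
        ∃ D : F →L[ℝ] G, HasFDerivAt (fun b => Fol.kap a ρ (s b)) D b ∧
          ∀ w, D (Complex.I • w) = J (Fol.kap a ρ (s b)) (D w)) →
      Trans Z J (ball (0 : F) r) (ball c0 r') (fun b => Fol.kap a ρ (s b)) g L1 L2 := by
  have : FiniteDimensional ℝ F := FiniteDimensional.complexToReal F
  have hcomp : CompleteSpace F := FiniteDimensional.complete ℝ F
  -- Lipschitz constant of `s`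
  obtain ⟨Ks, Us, hUs, hKs⟩ := hs.exists_lipschitzOnWith
  -- the map `Ψ c0`
  have hΨ : HasStrictFDerivAt (fun b => (s b).2 - a c0 (s b).1) (e : F →L[ℝ] G) 0 := by
    have h1 : HasStrictFDerivAt (fun b => (s b).2)
        ((ContinuousLinearMap.snd ℝ Θ G).comp S) 0 :=
      (ContinuousLinearMap.snd ℝ Θ G).hasStrictFDerivAt.comp 0 hs
    have h2 : HasStrictFDerivAt (fun b => (s b).1)
        ((ContinuousLinearMap.fst ℝ Θ G).comp S) 0 :=
      (ContinuousLinearMap.fst ℝ Θ G).hasStrictFDerivAt.comp 0 hs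
    have h3 : HasStrictFDerivAt (fun b => a c0 (s b).1)
        (A.comp ((ContinuousLinearMap.fst ℝ Θ G).comp S)) 0 := hA.comp 0 h2
    have h5 := h1.sub h3
    have h6 : (e : F →L[ℝ] G) = (ContinuousLinearMap.snd ℝ Θ G).comp S -
        A.comp ((ContinuousLinearMap.fst ℝ Θ G).comp S) := by
      ext w
      simpa using he w
    rw [h6]
    exact h5
  set N : ℝ := ‖(e.symm : G →L[ℝ] F)‖ + 1 with hN
  have hN0 : 0 < N := by positivity
  set ε : ℝ≥0 := ⟨1 / (4 * N), by positivity⟩ with hε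
  have hε0 : (0 : ℝ) < ε := by rw [hε]; show (0 : ℝ) < 1 / (4 * N); positivity
  have hεN : (ε : ℝ) = 1 / (4 * N) := rfl
  obtain ⟨U1, hU1, happ⟩ := hΨ.approximates_deriv_on_nhds (c := ε)
    (Or.inr (by exact_mod_cast hε0))
  have hcs : ContinuousAt s 0 := hs.continuousAt
  have hopen : IsOpen {p : Θ × G | ‖p.2‖ < ρ'} := isOpen_lt (by fun_prop) continuous_const
  have hU3 : s ⁻¹' {p : Θ × G | ‖p.2‖ < ρ'} ∈ 𝓝 (0 : F) := hcs (hopen.mem_nhds hv)
  obtain ⟨r1, hr1, hsub⟩ := Metric.mem_nhds_iff.1 (inter_mem (inter_mem hUs hU1) hU3)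
  set r : ℝ := min r1 r0 with hr
  have hrpos : 0 < r := lt_min hr1 hr0
  have hball : ball (0 : F) r ⊆ ball 0 r1 := ball_subset_ball (min_le_left _ _)
  -- radius in `c`
  obtain ⟨r2, hr2, hsub2⟩ := Metric.isOpen_iff.1 (isOpen_ball (x := (0 : G)) (ε := ρ)) c0 hc0
  set q : ℝ := C1 * Ks + 1 with hq
  have hq0 : 0 < q := by positivity
  set r' : ℝ := min r2 (min (ε / q) (r / (16 * N))) with hr'
  have hr'pos : 0 < r' := lt_min hr2 (lt_min (by positivity) (by positivity))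
  have hV : ball c0 r' ⊆ ball 0 ρ := (ball_subset_ball (min_le_left _ _)).trans hsub2
  have hVε : ∀ c ∈ ball c0 r', ‖c - c0‖ ≤ ε / q := fun c hc => by
    rw [mem_ball, dist_eq_norm] at hc
    exact hc.le.trans ((min_le_right _ _).trans (min_le_left _ _))
  have hVr : ∀ c ∈ ball c0 r', ‖c - c0‖ ≤ r / (16 * N) := fun c hc => by
    rw [mem_ball, dist_eq_norm] at hc
    exact hc.le.trans ((min_le_right _ _).trans (min_le_right _ _))
  -- `Ψ c` approximates `e` on the ball with constant `2 ε`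
  have happ' : ∀ c ∈ ball c0 r', ApproximatesLinearOn (fun b => (s b).2 - a c (s b).1)
      (e : F →L[ℝ] G) (ball 0 r) (2 * ε) := by
    intro c hc x hx y hy
    have g1 := happ x (hsub (hball hx)).1.2 y (hsub (hball hy)).1.2
    have g2 := (h4 c (hV hc) c0 hc0).dist_le_mul (s x).1 (s y).1
    have g3 := hKs.dist_le_mul x (hsub (hball hx)).1.1 y (hsub (hball hy)).1.1
    rw [dist_eq_norm, dist_eq_norm] at g2
    rw [dist_eq_norm, dist_eq_norm] at g3
    have g4 : ‖(s x).1 - (s y).1‖ ≤ ‖s x - s y‖ := norm_fst_le (s x - s y)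
    have g5 : ‖c - c0‖ ≤ ε / q := hVε c hc
    push_cast at g2
    have g6 : (C1 : ℝ) * ‖c - c0‖ * ‖(s x).1 - (s y).1‖ ≤ ε * ‖x - y‖ := by
      have k1 : (C1 : ℝ) * ‖c - c0‖ * ‖(s x).1 - (s y).1‖ ≤
          C1 * (ε / q) * (Ks * ‖x - y‖) := by
        have k2 : ‖(s x).1 - (s y).1‖ ≤ Ks * ‖x - y‖ := g4.trans g3
        have k3 : (C1 : ℝ) * ‖c - c0‖ ≤ C1 * (ε / q) := mul_le_mul_of_nonneg_left g5 C1.2
        exact mul_le_mul k3 k2 (norm_nonneg _) (by positivity)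
      have k4 : (C1 : ℝ) * (ε / q) * (Ks * ‖x - y‖) = ε * ((C1 * Ks) / q) * ‖x - y‖ := by
        field_simp
      have k5 : (C1 * Ks : ℝ) / q ≤ 1 := by
        rw [div_le_one hq0, hq]
        linarith
      rw [k4] at k1
      refine k1.trans ?_
      have k6 : (ε : ℝ) * ((C1 * Ks) / q) ≤ ε * 1 := mul_le_mul_of_nonneg_left k5 hε0.le
      rw [mul_one] at k6
      exact mul_le_mul_of_nonneg_right k6 (norm_nonneg _)
    have g7 : (s x).2 - a c (s x).1 - ((s y).2 - a c (s y).1) - (e : F →L[ℝ] G) (x - y)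
        = ((s x).2 - a c0 (s x).1 - ((s y).2 - a c0 (s y).1) - (e : F →L[ℝ] G) (x - y))
          - ((a c (s x).1 - a c0 (s x).1) - (a c (s y).1 - a c0 (s y).1)) := by abel
    show ‖(s x).2 - a c (s x).1 - ((s y).2 - a c (s y).1) - (e : F →L[ℝ] G) (x - y)‖ ≤ _
    rw [g7]
    have g8 := norm_sub_le ((s x).2 - a c0 (s x).1 - ((s y).2 - a c0 (s y).1) -
      (e : F →L[ℝ] G) (x - y)) ((a c (s x).1 - a c0 (s x).1) - (a c (s y).1 - a c0 (s y).1))
    have g9 : ((2 * ε : ℝ≥0) : ℝ) = 2 * ε := by rw [NNReal.coe_mul]; rfl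
    have g10 : ‖(s x).2 - a c0 (s x).1 - ((s y).2 - a c0 (s y).1) -
      (e : F →L[ℝ] G) (x - y)‖ ≤ ε * ‖x - y‖ := g1
    rw [g9]
    linarith
  -- lower bound
  have hlow : ∀ c ∈ ball c0 r', ∀ x ∈ ball (0 : F) r, ∀ y ∈ ball (0 : F) r,
      ‖x - y‖ ≤ 2 * N * ‖((s x).2 - a c (s x).1) - ((s y).2 - a c (s y).1)‖ := by
    intro c hc x hx y hy
    have g1 : ‖((s x).2 - a c (s x).1) - ((s y).2 - a c (s y).1) - (e : F →L[ℝ] G) (x - y)‖
        ≤ (2 * ε : ℝ≥0) * ‖x - y‖ := happ' c hc x hx y hy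
    have g2 : ‖x - y‖ ≤ N * ‖(e : F →L[ℝ] G) (x - y)‖ := by
      have k1 := (e.symm : G →L[ℝ] F).le_opNorm (e (x - y))
      have k2 : (e.symm : G →L[ℝ] F) (e (x - y)) = x - y := e.symm_apply_apply _
      rw [k2] at k1
      refine k1.trans ?_
      refine mul_le_mul_of_nonneg_right (by rw [hN]; linarith) (norm_nonneg _)
    have g3 : ‖(e : F →L[ℝ] G) (x - y)‖ ≤ ‖((s x).2 - a c (s x).1) - ((s y).2 - a c (s y).1)‖ +
        (2 * ε : ℝ≥0) * ‖x - y‖ := by
      have k1 : (e : F →L[ℝ] G) (x - y) = (((s x).2 - a c (s x).1) - ((s y).2 - a c (s y).1)) -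
        (((s x).2 - a c (s x).1) - ((s y).2 - a c (s y).1) - (e : F →L[ℝ] G) (x - y)) := by abel
      have k2 := norm_sub_le (((s x).2 - a c (s x).1) - ((s y).2 - a c (s y).1))
        (((s x).2 - a c (s x).1) - ((s y).2 - a c (s y).1) - (e : F →L[ℝ] G) (x - y))
      rw [← k1] at k2
      linarith
    push_cast at g3
    rw [hεN] at g3
    have g4 : N * ‖(e : F →L[ℝ] G) (x - y)‖ ≤
        N * (‖((s x).2 - a c (s x).1) - ((s y).2 - a c (s y).1)‖ +
          2 * (1 / (4 * N)) * ‖x - y‖) := mul_le_mul_of_nonneg_left g3 hN0.le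
    have g5 : N * (2 * (1 / (4 * N)) * ‖x - y‖) = 1 / 2 * ‖x - y‖ := by
      field_simp
      ring
    rw [mul_add, g5] at g4
    linarith
  -- the inverse
  have hex : ∀ c ∈ ball c0 r', ∃ b ∈ closedBall (0 : F) (r / 2), (s b).2 - a c (s b).1 = 0 := by
    intro c hc
    by_cases hz : ‖(e.symm : G →L[ℝ] F)‖ = 0
    · -- trivial spaces
      have k5 : (e.symm : G →L[ℝ] F) = 0 := norm_eq_zero.1 hz
      have k6 : ∀ x : G, x = 0 := by
        intro x
        have k7 : e.symm x = 0 := by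
          have := congrArg (fun L : G →L[ℝ] F => L x) k5
          simpa using this
        have k8 := e.apply_symm_apply x
        rw [k7, map_zero] at k8
        exact k8.symm
      exact ⟨0, mem_closedBall_self (by positivity), k6 _⟩
    have g1 := (happ' c hc).surjOn_closedBall_of_nonlinearRightInverse
      e.toNonlinearRightInverse (ε := r / 2) (b := 0) (by positivity)
      (closedBall_subset_ball (by linarith))
    have g2 : (0 : G) ∈ closedBall ((s 0).2 - a c (s 0).1)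
        (((e.toNonlinearRightInverse.nnnorm : ℝ)⁻¹ - (2 * ε : ℝ≥0)) * (r / 2)) := by
      rw [mem_closedBall, dist_comm, dist_eq_norm, sub_zero, hs0]
      have k1 := h.up hc0 (hV hc) (s 0).1
      have k2 : ‖c0 - c‖ ≤ r / (16 * N) := by
        rw [norm_sub_rev]
        exact hVr c hc
      have k3 : ((e.toNonlinearRightInverse.nnnorm : ℝ)) ≤ N := by
        show ‖(e.symm : G →L[ℝ] F)‖ ≤ N
        rw [hN]
        linarith
      have hpos : 0 < (e.toNonlinearRightInverse.nnnorm : ℝ) :=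
        lt_of_le_of_ne (NNReal.coe_nonneg _) (Ne.symm hz)
      have k4 : N⁻¹ ≤ (e.toNonlinearRightInverse.nnnorm : ℝ)⁻¹ := inv_anti₀ hpos k3
      have k5 : (N⁻¹ - 2 * (1 / (4 * N))) * (r / 2) = r / (4 * N) := by
        field_simp
        ring
      have k6 : (N⁻¹ - 2 * (1 / (4 * N))) * (r / 2) ≤
          ((e.toNonlinearRightInverse.nnnorm : ℝ)⁻¹ - (2 * ε : ℝ≥0)) * (r / 2) := by
        push_cast
        rw [hεN]
        refine mul_le_mul_of_nonneg_right (by linarith) (by positivity)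
      have k7 : 3 / 2 * (r / (16 * N)) ≤ r / (4 * N) := by
        rw [div_mul_div_comm, div_le_div_iff₀ (by positivity) (by positivity)]
        nlinarith [mul_pos hrpos hN0]
      rw [k5] at k6
      have k8 : 3 / 2 * ‖c0 - c‖ ≤ 3 / 2 * (r / (16 * N)) := by linarith
      exact k1.trans (k8.trans (k7.trans k6))
    obtain ⟨b, hb, hb2⟩ := g1 g2
    exact ⟨b, hb, hb2⟩
  choose! g hg1 hg2 using hex
  have hgB : ∀ c ∈ ball c0 r', g c ∈ ball (0 : F) r := fun c hc =>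
    closedBall_subset_ball (by linarith) (hg1 c hc)
  have hdom : ∀ b ∈ ball (0 : F) r, ‖(s b).2‖ < ρ' := fun b hb => (hsub (hball hb)).2
  have hright : ∀ c ∈ ball c0 r', Fol.kap a ρ (s (g c)) = c := by
    intro c hc
    have k1 : (s (g c)).2 = a c (s (g c)).1 := sub_eq_zero.1 (hg2 c hc)
    have k2 : s (g c) = ((s (g c)).1, a c (s (g c)).1) := by
      rw [← k1]
    rw [k2]
    refine h.kap_eq (hV hc) ?_
    rw [← k1]
    exact hdom _ (hgB c hc)
  have hzero : ∀ b ∈ ball (0 : F) r, ∀ c, Fol.kap a ρ (s b) = c → (s b).2 - a c (s b).1 = 0 := by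
    intro b hb c hc
    rw [← hc, h.a_kap (hdom b hb), sub_self]
  refine ⟨r, hrpos, min_le_right _ _, r', hr'pos, hV, hdom, g, ⟨3 * N, by positivity⟩,
    (2 * (1 + M)) * Ks, ?_⟩
  intro Z J hder
  refine ⟨isOpen_ball, isOpen_ball, hgB, hright, ?_, ?_, ?_, hder⟩
  · intro b hb hbV
    have k1 := hlow _ hbV (g (Fol.kap a ρ (s b))) (hgB _ hbV) b hb
    rw [hg2 _ hbV, hzero b hb _ rfl, sub_self, norm_zero, mul_zero] at k1
    exact sub_eq_zero.1 (norm_le_zero_iff.1 k1)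
  · refine LipschitzOnWith.of_dist_le_mul fun c hc c' hc' => ?_
    rw [dist_eq_norm, dist_eq_norm]
    have k1 := hlow c hc (g c) (hgB c hc) (g c') (hgB c' hc')
    rw [hg2 c hc, zero_sub, norm_neg] at k1
    have k2 : (s (g c')).2 = a c' (s (g c')).1 := sub_eq_zero.1 (hg2 c' hc')
    rw [k2] at k1
    have k3 := h.up (hV hc') (hV hc) (s (g c')).1
    rw [norm_sub_rev c' c] at k3
    show ‖g c - g c'‖ ≤ 3 * N * ‖c - c'‖
    have k4 := mul_le_mul_of_nonneg_left k3 (by positivity : 0 ≤ 2 * N)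
    calc ‖g c - g c'‖ ≤ 2 * N * ‖a c' (s (g c')).1 - a c (s (g c')).1‖ := k1
      _ ≤ 2 * N * (3 / 2 * ‖c - c'‖) := k4
      _ = 3 * N * ‖c - c'‖ := by ring
  · exact h.kap_lip.comp (hKs.mono fun b hb => (hsub (hball hb)).1.1) (fun b hb => hdom b hb)

end Crest.Agent.R281.TubD_126
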