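import Mathlib

/-!
# R281, S-TUBE part 1 (helper242): Hadamard lift

`f : X → Y`, `e : E → Y` (model: `f = (f_1, …, f_N)`, `e z = (c_j exp z_j)_j`).
If near every point of `ball y R` the map `f` has local `e`-logarithms with `C`-Lipschitz inverse,
then the local inverse at `y` extends to `ball ζ₀ (R / C)`.
-/

set_option autoImplicit false
set_option linter.unusedSectionVars false

open Set Filter Topology Metric unitInterval

namespace Crest.Agent.R281.Tube_242

noncomputable section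

/-- `φ` is a local `e`-logarithm of `f` with `C`-Lipschitz inverse. -/
structure IsLog {X E Y : Type*} [PseudoMetricSpace X] [PseudoMetricSpace E] (f : X → Y) (e : E → Y)
    (C : ℝ) (φ : OpenPartialHomeomorph X E) : Prop where
  log : ∀ x ∈ φ.source, e (φ x) = f x
  lip : ∀ x ∈ φ.source, ∀ x' ∈ φ.source, dist x x' ≤ C * dist (φ x) (φ x')

/-- `f` has local `e`-logarithms with `C`-Lipschitz inverse near the points of `U`. -/
def HasLog {X E Y : Type*} [PseudoMetricSpace X] [PseudoMetricSpace E] (f : X → Y) (e : E → Y)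
    (C : ℝ) (U : Set X) : Prop :=
  ∀ p ∈ U, ∀ ζ : E, e ζ = f p →
    ∃ φ : OpenPartialHomeomorph X E, p ∈ φ.source ∧ φ p = ζ ∧ IsLog f e C φ

/-- `e` is locally injective -/
def LocInj {E Y : Type*} [TopologicalSpace E] (e : E → Y) : Prop :=
  ∀ ζ : E, ∃ V ∈ 𝓝 ζ, InjOn e V

variable {X E Y : Type*} [MetricSpace X] [NormedAddCommGroup E] [NormedSpace ℝ E]
  {f : X → Y} {e : E → Y} {C : ℝ} {U : Set X}

/-- a lift through a local logarithm is given by the logarithm -/
theorem agree {A : Type*} [TopologicalSpace A] {b : A → E} {g : A → X} {D : Set A} {a : A}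
    (hi : LocInj e) (hb : ContinuousWithinAt b D a) (hg : ContinuousWithinAt g D a)
    (hl : ∀ z ∈ D, f (g z) = e (b z)) {φ : OpenPartialHomeomorph X E} (hφ : IsLog f e C φ)
    (hga : g a ∈ φ.source) (hφa : φ (g a) = b a) :
    ∀ᶠ z in 𝓝[D] a, g z ∈ φ.source ∧ φ (g z) = b z := by
  obtain ⟨V, hV, hinj⟩ := hi (b a)
  have h1 : ∀ᶠ z in 𝓝[D] a, g z ∈ φ.source := hg.eventually (φ.open_source.mem_nhds hga)
  have h2 : ∀ᶠ z in 𝓝[D] a, b z ∈ V := hb.eventually hV
  have h3 : ∀ᶠ z in 𝓝[D] a, φ (g z) ∈ V := by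
    have h4 : ContinuousWithinAt (fun z => φ (g z)) D a :=
      (φ.continuousAt hga).comp_continuousWithinAt hg
    have h5 : V ∈ 𝓝 (φ (g a)) := by rw [hφa]; exact hV
    exact h4.eventually h5
  filter_upwards [h1, h2, h3, self_mem_nhdsWithin] with z k1 k2 k3 k4
  refine ⟨k1, hinj k3 k2 ?_⟩
  rw [hφ.log _ k1, hl z k4]

/-- the fibre product -/
abbrev W (f : X → Y) (e : E → Y) (U : Set X) : Type _ := {q : X × E // q.1 ∈ U ∧ f q.1 = e q.2}

/-- the projection to `E` -/
def pr (q : W f e U) : E := q.1.2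

theorem continuous_pr : Continuous (pr : W f e U → E) :=
  continuous_snd.comp continuous_subtype_val

theorem continuous_fst' : Continuous (fun q : W f e U => q.1.1) :=
  continuous_fst.comp continuous_subtype_val

theorem isLocalHomeomorph_pr (hU : IsOpen U) (hi : LocInj e) (hf : HasLog f e C U) :
    IsLocalHomeomorph (pr : W f e U → E) := by
  classical
  intro w
  obtain ⟨φ, hp, hφp, hφ⟩ := hf w.1.1 w.2.1 w.1.2 w.2.2.symm
  obtain ⟨V', hV', hinj'⟩ := hi w.1.2
  obtain ⟨V, hVV, hVo, hVm⟩ := _root_.mem_nhds_iff.1 hV'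
  have hinj : InjOn e V := hinj'.mono hVV
  have key : ∀ q : W f e U, q.1.1 ∈ φ.source → φ q.1.1 ∈ V → q.1.2 ∈ V → φ q.1.1 = q.1.2 := by
    intro q h1 h2 h3
    apply hinj h2 h3
    rw [hφ.log _ h1, q.2.2]
  have hmem : ∀ z, z ∈ φ.target ∧ z ∈ V ∧ φ.symm z ∈ U →
      φ.symm z ∈ U ∧ f (φ.symm z) = e z := by
    intro z hz
    refine ⟨hz.2.2, ?_⟩
    rw [← hφ.log _ (φ.map_target hz.1), φ.right_inv hz.1]
  let ψ : OpenPartialHomeomorph (W f e U) E :=
    { toFun := pr
      invFun := fun z => if h : z ∈ φ.target ∧ z ∈ V ∧ φ.symm z ∈ U then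
        ⟨(φ.symm z, z), hmem z h⟩ else w
      source := {q | q.1.1 ∈ φ.source ∧ φ q.1.1 ∈ V ∧ q.1.2 ∈ V}
      target := {z | z ∈ φ.target ∧ z ∈ V ∧ φ.symm z ∈ U}
      map_source' := by
        rintro q ⟨h1, h2, h3⟩
        have h4 := key q h1 h2 h3
        refine ⟨?_, h3, ?_⟩
        · show q.1.2 ∈ φ.target
          rw [← h4]; exact φ.map_source h1
        · show φ.symm q.1.2 ∈ U
          rw [← h4, φ.left_inv h1]; exact q.2.1
      map_target' := by
        intro z hz
        have hz' : z ∈ φ.target ∧ z ∈ V ∧ φ.symm z ∈ U := hz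
        show (dite _ _ _ : W f e U) ∈ _
        rw [dif_pos hz']
        refine ⟨φ.map_target hz'.1, ?_, hz'.2.1⟩
        show φ (φ.symm z) ∈ V
        rw [φ.right_inv hz'.1]; exact hz'.2.1
      left_inv' := by
        rintro q ⟨h1, h2, h3⟩
        have h4 := key q h1 h2 h3
        have h5 : pr q ∈ φ.target ∧ pr q ∈ V ∧ φ.symm (pr q) ∈ U := by
          refine ⟨?_, h3, ?_⟩
          · show q.1.2 ∈ φ.target
            rw [← h4]; exact φ.map_source h1
          · show φ.symm q.1.2 ∈ U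
            rw [← h4, φ.left_inv h1]; exact q.2.1
        show (dite _ _ _ : W f e U) = q
        rw [dif_pos h5]
        apply Subtype.ext
        apply Prod.ext
        · show φ.symm q.1.2 = q.1.1
          rw [← h4, φ.left_inv h1]
        · rfl
      right_inv' := by
        intro z hz
        have hz' : z ∈ φ.target ∧ z ∈ V ∧ φ.symm z ∈ U := hz
        show pr (dite _ _ _ : W f e U) = z
        rw [dif_pos hz']
        rfl
      open_source := by
        have h1 : IsOpen (φ.source ∩ φ ⁻¹' V) := φ.isOpen_inter_preimage hVo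
        have h2 := (h1.preimage (continuous_fst' (f := f) (e := e) (U := U))).inter
          (hVo.preimage (continuous_pr (f := f) (e := e) (U := U)))
        convert h2 using 1
        ext q
        simp only [mem_ofPred_eq, mem_inter_iff, mem_preimage, and_assoc]
        rfl
      open_target := by
        have h1 : IsOpen (φ.target ∩ φ.symm ⁻¹' U) := φ.symm.isOpen_inter_preimage hU
        have h2 := h1.inter hVo
        convert h2 using 1
        ext z
        simp only [mem_ofPred_eq, mem_inter_iff, mem_preimage]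
        tauto
      continuousOn_toFun := continuous_pr.continuousOn
      continuousOn_invFun := by
        rw [continuousOn_iff_continuous_domRestrict]
        have h6 : ∀ z : {z | z ∈ φ.target ∧ z ∈ V ∧ φ.symm z ∈ U},
            (dite _ (fun h => (⟨(φ.symm z, z), hmem z h⟩ : W f e U)) (fun _ => w) : W f e U) =
              ⟨(φ.symm z, z), hmem z z.2⟩ := fun z => dif_pos z.2
        show Continuous fun z : {z | z ∈ φ.target ∧ z ∈ V ∧ φ.symm z ∈ U} =>
          (dite _ (fun h => (⟨(φ.symm z, z), hmem z h⟩ : W f e U)) (fun _ => w) : W f e U)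
        simp_rw [h6]
        refine Continuous.subtype_mk ?_ _
        refine Continuous.prodMk ?_ continuous_subtype_val
        have h7 : ContinuousOn φ.symm {z | z ∈ φ.target ∧ z ∈ V ∧ φ.symm z ∈ U} :=
          φ.continuousOn_symm.mono fun z hz => hz.1
        exact continuousOn_iff_continuous_domRestrict.1 h7 }
  refine ⟨ψ, ?_, rfl⟩
  refine ⟨hp, ?_, hVm⟩
  show φ w.1.1 ∈ V
  rw [hφp]; exact hVm

/-- uniqueness of lifts on preconnected sets -/
theorem uniq {A : Type*} [TopologicalSpace A] {b : A → E} {g g' : A → X} {D : Set A} {a : A}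
    (hU : IsOpen U) (hi : LocInj e) (hf : HasLog f e C U) (hD : IsPreconnected D)
    (hb : ContinuousOn b D) (hg : ContinuousOn g D) (hg' : ContinuousOn g' D)
    (hl : ∀ z ∈ D, g z ∈ U ∧ f (g z) = e (b z)) (hl' : ∀ z ∈ D, g' z ∈ U ∧ f (g' z) = e (b z))
    (ha : a ∈ D) (haa : g a = g' a) : EqOn g g' D := by
  have hh : IsLocalHomeomorph (pr : W f e U → E) := isLocalHomeomorph_pr hU hi hf
  have : PreconnectedSpace D := Subtype.preconnectedSpace hD
  let G : D → W f e U := fun z => ⟨(g z, b z), hl z z.2⟩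
  let G' : D → W f e U := fun z => ⟨(g' z, b z), hl' z z.2⟩
  have hbc : Continuous fun z : D => b z := continuousOn_iff_continuous_domRestrict.1 hb
  have hG : Continuous G := by
    refine Continuous.subtype_mk (Continuous.prodMk ?_ hbc) _
    exact continuousOn_iff_continuous_domRestrict.1 hg
  have hG' : Continuous G' := by
    refine Continuous.subtype_mk (Continuous.prodMk ?_ hbc) _
    exact continuousOn_iff_continuous_domRestrict.1 hg'
  have hsep : IsSeparatedMap (pr : W f e U → E) := T2Space.isSeparatedMap _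
  have h1 := hsep.eq_of_comp_eq hh.isLocallyInjective hG hG' rfl ⟨a, ha⟩ (by
    apply Subtype.ext
    exact Prod.ext haa rfl)
  intro z hz
  have h2 := congrFun h1 ⟨z, hz⟩
  exact congrArg (fun q : W f e U => q.1.1) h2

/-- forward local Lipschitz implies Lipschitz -/
theorem lip_of_loc {G : ℝ → X} {a b K : ℝ} (hab : a ≤ b) (hG : ContinuousOn G (Icc a b))
    (h : ∀ t ∈ Ico a b, ∀ᶠ u in 𝓝[>] t, dist (G t) (G u) ≤ K * (u - t)) :
    dist (G a) (G b) ≤ K * (b - a) := by
  have h1 : Icc a b ⊆ {t | dist (G a) (G t) ≤ K * (t - a)} := by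
    apply IsClosed.Icc_subset_of_forall_exists_gt
    · have h2 : {t | dist (G a) (G t) ≤ K * (t - a)} ∩ Icc a b =
          {t ∈ Icc a b | dist (G a) (G t) ≤ K * (t - a)} := by
        ext t; simp only [mem_inter_iff, mem_ofPred_eq]; tauto
      rw [h2]
      apply IsClosed.isClosed_le isClosed_Icc
      · exact continuous_dist.comp_continuousOn (continuousOn_const.prodMk hG)
      · exact (by fun_prop : Continuous fun t : ℝ => K * (t - a)).continuousOn
    · simp
    · intro t ht y hy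
      have h3 := h t ht.2
      have h4 : ∀ᶠ u in 𝓝[>] t, u ∈ Ioo t y := Ioo_mem_nhdsGT hy
      have h4' : ∀ᶠ u in 𝓝[>] t, u ∈ Ioo t b := Ioo_mem_nhdsGT ht.2.2
      obtain ⟨u, h5, h6, h7⟩ := (h3.and (h4.and h4')).exists
      refine ⟨u, ?_, ⟨h6.1, h6.2.le⟩⟩
      have h8 : dist (G a) (G t) ≤ K * (t - a) := ht.1
      show dist (G a) (G u) ≤ K * (u - a)
      calc dist (G a) (G u) ≤ dist (G a) (G t) + dist (G t) (G u) := dist_triangle _ _ _
        _ ≤ K * (t - a) + K * (u - t) := add_le_add h8 h5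
        _ = K * (u - a) := by ring
  exact h1 ⟨hab, le_rfl⟩

/-- lifts of affine paths are Lipschitz -/
theorem path_lip (hi : LocInj e) (hf : HasLog f e C U) {ζ v : E} {a b : ℝ} (hab : a ≤ b)
    {G : ℝ → X} (hG : ContinuousOn G (Icc a b))
    (hl : ∀ t ∈ Icc a b, G t ∈ U ∧ f (G t) = e (ζ + t • v)) :
    dist (G a) (G b) ≤ C * ‖v‖ * (b - a) := by
  apply lip_of_loc hab hG
  intro t ht
  have ht' : t ∈ Icc a b := Ico_subset_Icc_self ht
  obtain ⟨φ, hp, hφp, hφ⟩ := hf (G t) (hl t ht').1 (ζ + t • v) (hl t ht').2.symm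
  have hb : Continuous fun t : ℝ => ζ + t • v := by fun_prop
  have h1 := agree (b := fun t : ℝ => ζ + t • v) hi hb.continuousWithinAt (hG t ht')
    (fun z hz => (hl z hz).2) hφ hp hφp
  have h2 : ∀ᶠ u in 𝓝[>] t, u ∈ Icc a b := by
    have h3 : ∀ᶠ u in 𝓝[>] t, u ∈ Ioo t b := Ioo_mem_nhdsGT ht.2
    filter_upwards [h3] with u hu
    exact ⟨ht.1.trans hu.1.le, hu.2.le⟩
  have h3 : ∀ᶠ u in 𝓝[>] t, G u ∈ φ.source ∧ φ (G u) = ζ + u • v := by
    have h4 : 𝓝[>] t ≤ 𝓝[Icc a b] t := by
      rw [nhdsWithin, nhdsWithin]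
      refine le_inf inf_le_left ?_
      exact le_principal_iff.2 h2
    exact h4 h1
  filter_upwards [h3, self_mem_nhdsWithin] with u hu hut
  have hut' : t < u := hut
  have h5 := hφ.lip _ hp _ hu.1
  rw [hφp, hu.2, dist_eq_norm] at h5
  have h6 : ‖(ζ + t • v) - (ζ + u • v)‖ = ‖v‖ * (u - t) := by
    have : (ζ + t • v) - (ζ + u • v) = (t - u) • v := by rw [sub_smul]; abel
    rw [this, norm_smul, Real.norm_eq_abs, abs_of_neg (by linarith)]
    ring
  rw [h6] at h5
  calc dist (G t) (G u) ≤ C * (‖v‖ * (u - t)) := h5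
    _ = C * ‖v‖ * (u - t) := by ring

/-- partial lift of the ray `ζ₀ + t v` up to time `T` -/
def PL (f : X → Y) (e : E → Y) (U : Set X) (y : X) (ζ v : E) (T : ℝ) (G : ℝ → X) : Prop :=
  ContinuousOn G (Icc 0 T) ∧ G 0 = y ∧ ∀ t ∈ Icc 0 T, G t ∈ U ∧ f (G t) = e (ζ + t • v)

theorem PL.mono {y : X} {ζ v : E} {T T' : ℝ} {G : ℝ → X} (h : PL f e U y ζ v T G) (hT : T' ≤ T) :
    PL f e U y ζ v T' G :=
  ⟨h.1.mono (Icc_subset_Icc_right hT), h.2.1, fun t ht => h.2.2 t (Icc_subset_Icc_right hT ht)⟩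

theorem PL.uniq {y : X} {ζ v : E} {T : ℝ} {G G' : ℝ → X} (hU : IsOpen U) (hi : LocInj e)
    (hf : HasLog f e C U) (hT : 0 ≤ T) (h : PL f e U y ζ v T G) (h' : PL f e U y ζ v T G') :
    EqOn G G' (Icc 0 T) := by
  have hb : Continuous fun t : ℝ => ζ + t • v := by fun_prop
  exact Tube_242.uniq (b := fun t : ℝ => ζ + t • v) (a := 0) hU hi hf isPreconnected_Icc
    hb.continuousOn h.1 h'.1 h.2.2 h'.2.2 ⟨le_rfl, hT⟩ (h.2.1.trans h'.2.1.symm)

/-- extension of a partial lift to the right -/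
theorem PL.extend {y : X} {ζ v : E} {T : ℝ} {G : ℝ → X} (hU : IsOpen U)
    (hf : HasLog f e C U) (hT : 0 ≤ T) (h : PL f e U y ζ v T G) :
    ∃ δ > 0, ∃ G', PL f e U y ζ v (T + δ) G' := by
  obtain ⟨hGU, hGe⟩ := h.2.2 T ⟨hT, le_rfl⟩
  obtain ⟨φ, hp, hφp, hφ⟩ := hf (G T) hGU (ζ + T • v) hGe.symm
  have hb : Continuous fun t : ℝ => ζ + t • v := by fun_prop
  have hTt : ζ + T • v ∈ φ.target := by rw [← hφp]; exact φ.map_source hp
  have hsym : φ.symm (ζ + T • v) = G T := by rw [← hφp, φ.left_inv hp]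
  have h1 : IsOpen (φ.target ∩ φ.symm ⁻¹' U) := φ.symm.isOpen_inter_preimage hU
  have h2 : ζ + T • v ∈ φ.target ∩ φ.symm ⁻¹' U := ⟨hTt, by
    show φ.symm (ζ + T • v) ∈ U
    rw [hsym]; exact hGU⟩
  have h3 : ∀ᶠ t in 𝓝 T, ζ + t • v ∈ φ.target ∩ φ.symm ⁻¹' U :=
    hb.continuousAt.eventually (h1.mem_nhds h2)
  obtain ⟨δ, hδ, h4⟩ := Metric.eventually_nhds_iff.1 h3
  refine ⟨δ / 2, by positivity, fun t => if t ≤ T then G t else φ.symm (ζ + t • v), ?_, ?_, ?_⟩
  · have hA : ContinuousOn (fun t => if t ≤ T then G t else φ.symm (ζ + t • v)) (Icc 0 T) := by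
      refine h.1.congr fun t ht => ?_
      simp only [if_pos ht.2]
    have hB : ContinuousOn (fun t => if t ≤ T then G t else φ.symm (ζ + t • v))
        (Icc T (T + δ / 2)) := by
      have hB' : ContinuousOn (fun t : ℝ => φ.symm (ζ + t • v)) (Icc T (T + δ / 2)) := by
        refine φ.continuousOn_symm.comp hb.continuousOn ?_
        intro t ht
        refine (h4 ?_).1
        rw [Real.dist_eq, abs_of_nonneg (by linarith [ht.1])]
        linarith [ht.2]
      refine hB'.congr fun t ht => ?_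
      by_cases htT : t ≤ T
      · have : t = T := le_antisymm htT ht.1
        subst this
        simp only [le_refl, if_true]
        exact hsym.symm
      · simp only [if_neg htT]
    have hAB := hA.union_of_isClosed hB isClosed_Icc isClosed_Icc
    rwa [Icc_union_Icc_eq_Icc hT (by linarith)] at hAB
  · simp only [if_pos hT]; exact h.2.1
  · intro t ht
    by_cases htT : t ≤ T
    · simp only [if_pos htT]; exact h.2.2 t ⟨ht.1, htT⟩
    · simp only [if_neg htT]
      push Not at htT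
      have h5 := h4 (y := t) (by
        rw [Real.dist_eq, abs_of_nonneg (by linarith)]
        linarith [ht.2])
      refine ⟨h5.2, ?_⟩
      rw [← hφ.log _ (φ.map_target h5.1), φ.right_inv h5.1]

/-- limit of partial lifts -/
theorem PL.limit [CompleteSpace X] [TopologicalSpace Y] [T2Space Y] {y : X} {R : ℝ} {ζ v : E}
    {T : ℝ} (hi : LocInj e) (he : Continuous e) (hfc : ContinuousOn f (ball y R))
    (hf : HasLog f e C (ball y R)) (hT : 0 < T) (hv : C * ‖v‖ * T < R)
    (h : ∀ t ∈ Ico 0 T, ∃ G, PL f e (ball y R) y ζ v t G) :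
    ∃ G, PL f e (ball y R) y ζ v T G := by
  have hne : Nonempty X := ⟨y⟩
  choose! G hG using h
  have h0 : ∀ s ∈ Ico 0 T, ∀ t ∈ Ico 0 T, s ≤ t → G s s = G t s := by
    intro s hs t ht hst
    exact PL.uniq isOpen_ball hi hf hs.1 (hG s hs) ((hG t ht).mono hst) ⟨hs.1, le_rfl⟩
  let F : ℝ → X := fun t => G t t
  have h1 : ∀ t ∈ Ico 0 T, PL f e (ball y R) y ζ v t F := by
    intro t ht
    have h2 : EqOn F (G t) (Icc 0 t) := fun s hs => h0 s ⟨hs.1, hs.2.trans_lt ht.2⟩ t ht hs.2
    refine ⟨(hG t ht).1.congr h2, ?_, ?_⟩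
    · rw [h2 ⟨le_rfl, ht.1⟩]; exact (hG t ht).2.1
    · intro s hs
      rw [h2 hs]; exact (hG t ht).2.2 s hs
  have hlip : ∀ s ∈ Ico 0 T, ∀ t ∈ Ico 0 T, s ≤ t → dist (F s) (F t) ≤ C * ‖v‖ * (t - s) := by
    intro s hs t ht hst
    exact path_lip hi hf hst ((h1 t ht).1.mono (Icc_subset_Icc_left hs.1))
      (fun u hu => (h1 t ht).2.2 u ⟨hs.1.trans hu.1, hu.2⟩)
  have hCv : 0 ≤ C * ‖v‖ := by
    have h3 := hlip 0 ⟨le_rfl, hT⟩ (T / 2) ⟨by linarith, by linarith⟩ (by linarith)
    have h4 : 0 ≤ C * ‖v‖ * (T / 2 - 0) := dist_nonneg.trans h3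
    by_contra h5
    push Not at h5
    nlinarith
  have hlw : LipschitzOnWith (C * ‖v‖).toNNReal F (Ico 0 T) := by
    refine LipschitzOnWith.of_dist_le_mul fun s hs t ht => ?_
    rw [Real.coe_toNNReal _ hCv, Real.dist_eq]
    rcases le_total s t with hst | hst
    · rw [abs_of_nonpos (by linarith)]
      refine (hlip s hs t ht hst).trans (le_of_eq (by ring))
    · rw [abs_of_nonneg (by linarith), dist_comm]
      exact hlip t ht s hs hst
  have hcau : Cauchy (map F (𝓝[<] T)) := by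
    refine Cauchy.map_of_le (f := 𝓝[<] T) (cauchy_nhds.mono nhdsWithin_le_nhds)
      hlw.uniformContinuousOn ?_
    rw [le_principal_iff]
    exact Ico_mem_nhdsLT hT
  obtain ⟨p, hp⟩ := CompleteSpace.complete hcau
  have hp' : Tendsto F (𝓝[<] T) (𝓝 p) := hp
  have hpy : dist y p ≤ C * ‖v‖ * T := by
    have h5 : Tendsto (fun t => dist y (F t)) (𝓝[<] T) (𝓝 (dist y p)) :=
      Tendsto.dist tendsto_const_nhds hp'
    refine le_of_tendsto h5 ?_
    filter_upwards [Ico_mem_nhdsLT hT] with t ht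
    have h6 := hlip 0 ⟨le_rfl, hT⟩ t ht ht.1
    rw [(h1 t ht).2.1] at h6
    refine h6.trans ?_
    apply mul_le_mul_of_nonneg_left _ hCv
    linarith [ht.2]
  have hpU : p ∈ ball y R := by
    rw [mem_ball, dist_comm]; exact hpy.trans_lt hv
  have hb : Continuous fun t : ℝ => ζ + t • v := by fun_prop
  have hfp : f p = e (ζ + T • v) := by
    have h7 : Tendsto (fun t => f (F t)) (𝓝[<] T) (𝓝 (f p)) :=
      (hfc.continuousAt (isOpen_ball.mem_nhds hpU)).tendsto.comp hp'
    have h8 : Tendsto (fun t : ℝ => e (ζ + t • v)) (𝓝[<] T) (𝓝 (e (ζ + T • v))) :=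
      ((he.comp hb).tendsto T).mono_left nhdsWithin_le_nhds
    refine tendsto_nhds_unique h7 (h8.congr' ?_)
    filter_upwards [Ico_mem_nhdsLT hT] with t ht
    exact ((h1 t ht).2.2 t ⟨ht.1, le_rfl⟩).2.symm
  refine ⟨Function.update F T p, ?_, ?_, ?_⟩
  · intro t ht
    rcases ht.2.eq_or_lt with rfl | htT
    · have h9 : ContinuousWithinAt (Function.update F t p) (Iic t) t := by
        rw [continuousWithinAt_update_same]
        rwa [Iic_sdiff_right]
      exact h9.mono fun u hu => hu.2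
    · have h10 : t < (t + T) / 2 := by linarith
      have h11 : ContinuousWithinAt F (Icc 0 ((t + T) / 2)) t :=
        (h1 ((t + T) / 2) ⟨by linarith [ht.1], by linarith⟩).1 t ⟨ht.1, h10.le⟩
      have h12 : ContinuousWithinAt F (Icc 0 T) t := by
        refine h11.mono_of_mem_nhdsWithin ?_
        have : Iic ((t + T) / 2) ∈ 𝓝 t := Iic_mem_nhds h10
        filter_upwards [nhdsWithin_le_nhds this, self_mem_nhdsWithin] with u hu hu'
        exact ⟨hu'.1, hu⟩
      exact (continuousWithinAt_update_of_ne htT.ne).2 h12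
  · rw [Function.update_of_ne hT.ne]
    exact (h1 0 ⟨le_rfl, hT⟩).2.1
  · intro t ht
    rcases ht.2.eq_or_lt with rfl | htT
    · rw [Function.update_self]; exact ⟨hpU, hfp⟩
    · rw [Function.update_of_ne htT.ne]
      exact (h1 t ⟨ht.1, htT⟩).2.2 t ⟨ht.1, le_rfl⟩

/-- existence of the lift of a whole ray -/
theorem ray_lift [CompleteSpace X] [TopologicalSpace Y] [T2Space Y] {y : X} {R : ℝ} {ζ v : E}
    (hi : LocInj e) (he : Continuous e) (hfc : ContinuousOn f (ball y R))
    (hf : HasLog f e C (ball y R)) (hy : e ζ = f y) (hC : 0 ≤ C) (hv : C * ‖v‖ < R) :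
    ∃ G, PL f e (ball y R) y ζ v 1 G := by
  have hR : 0 < R := lt_of_le_of_lt (by positivity) hv
  have h1 : (1 : ℝ) ∈ {t : ℝ | ∃ G, PL f e (ball y R) y ζ v t G} := by
    refine IsClosed.mem_of_ge_of_forall_exists_gt (a := 0) (b := 1) ?_ ?_ zero_le_one ?_
    · rw [← isSeqClosed_iff_isClosed]
      intro t T ht htT
      have hT : T ∈ Icc (0 : ℝ) 1 := isClosed_Icc.mem_of_tendsto htT
        (Eventually.of_forall fun n => (ht n).2)
      refine ⟨?_, hT⟩
      by_cases h2 : ∃ n, T ≤ t n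
      · obtain ⟨n, hn⟩ := h2
        obtain ⟨G, hG⟩ := (ht n).1
        exact ⟨G, hG.mono hn⟩
      · push Not at h2
        rcases hT.1.eq_or_lt with rfl | hT0
        · exact absurd (h2 0) (not_lt.2 (ht 0).2.1)
        refine PL.limit hi he hfc hf hT0 ?_ ?_
        · refine lt_of_le_of_lt ?_ hv
          have : 0 ≤ C * ‖v‖ := by positivity
          nlinarith [hT.2]
        · intro s hs
          obtain ⟨n, hn⟩ := (htT.eventually (lt_mem_nhds hs.2)).exists
          obtain ⟨G, hG⟩ := (ht n).1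
          exact ⟨G, hG.mono hn.le⟩
    · refine ⟨fun _ => y, continuousOn_const, rfl, ?_⟩
      intro t ht
      have ht0 : t = 0 := le_antisymm ht.2 ht.1
      subst ht0
      refine ⟨mem_ball_self hR, ?_⟩
      simp [hy]
    · rintro t ⟨⟨G, hG⟩, ht⟩
      obtain ⟨δ, hδ, G', hG'⟩ := hG.extend isOpen_ball hf ht.1
      refine ⟨min (t + δ) 1, ⟨G', hG'.mono (min_le_left _ _)⟩, ?_, min_le_right _ _⟩
      exact lt_min (by linarith) ht.2
  exact h1

/-- **Hadamard lift** : the local inverse of `f` at `y` (read through `e`) extends to the ball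
`{z | C ‖z - ζ₀‖ < R}`. -/
theorem hadamard [CompleteSpace X] [TopologicalSpace Y] [T2Space Y] {y : X} {R : ℝ} {ζ : E}
    (hi : LocInj e) (he : Continuous e) (hfc : ContinuousOn f (ball y R))
    (hf : HasLog f e C (ball y R)) (hy : e ζ = f y) (hC : 0 ≤ C) (hR : 0 < R) :
    ∃ Ψ : E → X, Ψ ζ = y ∧ ContinuousOn Ψ {z | C * dist z ζ < R} ∧
      (∀ z, C * dist z ζ < R → f (Ψ z) = e z ∧ dist (Ψ z) y ≤ C * dist z ζ) := by
  classical
  have h := fun a : {v : E // C * ‖v‖ < R} => ray_lift (ζ := ζ) hi he hfc hf hy hC a.2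
  choose G hG using h
  have hb : Continuous fun q : I × {v : E // C * ‖v‖ < R} => ζ + (q.1 : ℝ) • (q.2 : E) := by
    fun_prop
  let F : C(I × {v : E // C * ‖v‖ < R}, E) := ⟨_, hb⟩
  let g : I × {v : E // C * ‖v‖ < R} → W f e (ball y R) := fun q =>
    ⟨(G q.2 q.1, ζ + (q.1 : ℝ) • (q.2 : E)), (hG q.2).2.2 q.1 ⟨q.1.2.1, q.1.2.2⟩⟩
  have hh : IsLocalHomeomorph (pr : W f e (ball y R) → E) := isLocalHomeomorph_pr isOpen_ball hi hf
  have hsep : IsSeparatedMap (pr : W f e (ball y R) → E) := T2Space.isSeparatedMap _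
  have hgc : Continuous g := by
    refine hh.continuous_lift hsep F (g := g) rfl ?_ ?_
    · refine Continuous.subtype_mk (Continuous.prodMk ?_ ?_) _
      · have : (fun a : {v : E // C * ‖v‖ < R} => G a ((0 : I) : ℝ)) = fun _ => y := by
          funext a; exact (hG a).2.1
        show Continuous fun a : {v : E // C * ‖v‖ < R} => G a ((0 : I) : ℝ)
        rw [this]; exact continuous_const
      · fun_prop
    · intro a
      refine Continuous.subtype_mk (Continuous.prodMk ?_ ?_) _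
      · show Continuous fun t : I => G a (t : ℝ)
        exact (hG a).1.comp_continuous continuous_subtype_val fun t => t.2
      · fun_prop
  have hdist : ∀ a : {v : E // C * ‖v‖ < R}, dist (G a 1) y ≤ C * ‖(a : E)‖ := by
    intro a
    have h1 := path_lip hi hf zero_le_one (hG a).1 (hG a).2.2
    rw [(hG a).2.1] at h1
    rw [dist_comm]
    simpa using h1
  refine ⟨fun z => if h : C * ‖z - ζ‖ < R then (g (1, ⟨z - ζ, h⟩)).1.1 else y, ?_, ?_, ?_⟩
  · have h0 : C * ‖ζ - ζ‖ < R := by simpa using hR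
    simp only [dif_pos h0]
    show G ⟨ζ - ζ, h0⟩ ((1 : I) : ℝ) = y
    have h2 : dist (G ⟨ζ - ζ, h0⟩ 1) y ≤ C * ‖ζ - ζ‖ := hdist ⟨ζ - ζ, h0⟩
    have h2' : C * ‖ζ - ζ‖ = 0 := by simp
    rw [h2'] at h2
    exact dist_le_zero.1 h2
  · rw [continuousOn_iff_continuous_domRestrict]
    have h3 : ∀ z : {z | C * dist z ζ < R}, C * ‖(z : E) - ζ‖ < R := fun z => by
      have := z.2
      rwa [mem_ofPred_eq, dist_eq_norm] at this
    have h4 : ({z | C * dist z ζ < R}.domRestrict fun z : E =>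
        if h : C * ‖z - ζ‖ < R then (g (1, ⟨z - ζ, h⟩)).1.1 else y) =
        fun z : {z | C * dist z ζ < R} => (g (1, ⟨(z : E) - ζ, h3 z⟩)).1.1 := by
      funext z
      show (dite _ _ _ : X) = _
      rw [dif_pos (h3 z)]
    rw [h4]
    have h5 : Continuous fun z : {z | C * dist z ζ < R} =>
        g ((1 : I), (⟨(z : E) - ζ, h3 z⟩ : {v : E // C * ‖v‖ < R})) := by
      refine hgc.comp (Continuous.prodMk continuous_const ?_)
      refine Continuous.subtype_mk ?_ _
      fun_prop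
    exact continuous_fst.comp (continuous_subtype_val.comp h5)
  · intro z hz
    rw [dist_eq_norm] at hz
    simp only [dif_pos hz]
    constructor
    · have h6 := (g (1, ⟨z - ζ, hz⟩)).2.2
      rw [h6]
      show e (ζ + ((1 : I) : ℝ) • (z - ζ)) = e z
      simp
    · rw [dist_eq_norm]
      exact hdist ⟨z - ζ, hz⟩

/-- local form of a lift -/
theorem lift_eventuallyEq {Ψ : E → X} {D : Set E} (hD : IsOpen D) (hi : LocInj e)
    (hΨ : ContinuousOn Ψ D) (hl : ∀ z ∈ D, f (Ψ z) = e z) {z : E} (hz : z ∈ D)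
    {φ : OpenPartialHomeomorph X E} (hφ : IsLog f e C φ) (hs : Ψ z ∈ φ.source)
    (hφz : φ (Ψ z) = z) : ∀ᶠ w in 𝓝 z, w ∈ φ.target ∧ Ψ w = φ.symm w ∧ Ψ w ∈ φ.source := by
  have h1 := agree (b := fun w : E => w) (g := Ψ) (D := D) hi continuous_id.continuousWithinAt
    (hΨ z hz) hl hφ hs hφz
  rw [hD.nhdsWithin_eq hz] at h1
  filter_upwards [h1] with w hw
  refine ⟨?_, ?_, hw.1⟩
  · rw [← hw.2]; exact φ.map_source hw.1
  · have := φ.left_inv hw.1
    rw [hw.2] at this
    exact this.symm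

/-- a lift is locally injective on open sets -/
theorem lift_dist {Ψ : E → X} {D : Set E} (hDc : Convex ℝ D) (hi : LocInj e)
    (hf : HasLog f e C U) (hΨ : ContinuousOn Ψ D) (hl : ∀ z ∈ D, Ψ z ∈ U ∧ f (Ψ z) = e z)
    {z w : E} (hz : z ∈ D) (hw : w ∈ D) : dist (Ψ z) (Ψ w) ≤ C * dist z w := by
  have hseg : ∀ t ∈ Icc (0 : ℝ) 1, z + t • (w - z) ∈ D := by
    intro t ht
    have := hDc hz hw (sub_nonneg.2 ht.2) ht.1 (by ring)
    convert this using 1
    module
  have hb : Continuous fun t : ℝ => z + t • (w - z) := by fun_prop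
  have h1 := path_lip (G := fun t : ℝ => Ψ (z + t • (w - z))) hi hf zero_le_one
    (hΨ.comp hb.continuousOn hseg) (fun t ht => hl _ (hseg t ht))
  simp only [zero_smul, add_zero, one_smul, add_sub_cancel, sub_zero, mul_one] at h1
  rwa [← dist_eq_norm, dist_comm w z] at h1

end

end Crest.Agent.R281.Tube_242
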