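import Mathlib

/-!
# R281 (S0424), DIV 6: (TUBE) of helper524 #7478 (= OM-TOP of helper854 #7436) — helper989

`X` Hausdorff, `X0` a set, `y : X → B`.  A point is regular when near it `y` is the first
coordinate of a chart into `B × F`.  The leaf of `x` is the connected component of `x` in
`X0 ∩ y⁻¹{y x}`.  A point is good when its leaf is compact and consists of regular points.

`tube` : a compact regular leaf has arbitrarily small open neighbourhoods `W` that are saturated,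
with `y(W)` a ball, whose leaves are exactly the (compact, connected) fibres of `y` in `W`, and
`y : W → ball` proper.  `isOpen_good` : the good points are open.
-/

set_option autoImplicit false
set_option linter.unusedSectionVars false

open Set Filter Topology Metric

namespace Crest.Agent.R281.Tube1_989

variable {X B F : Type*} [TopologicalSpace X]
  [NormedAddCommGroup B] [NormedSpace ℝ B] [NormedAddCommGroup F] [NormedSpace ℝ F]

/-- regular points: `y` is the first coordinate of a chart -/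
def Reg (F : Type*) [NormedAddCommGroup F] (X0 : Set X) (y : X → B) : Set X :=
  {p | ∃ e : OpenPartialHomeomorph X (B × F), p ∈ e.source ∧ e.source ⊆ X0 ∧
    ∀ q ∈ e.source, (e q).1 = y q}

/-- the leaf of `x` -/
def leaf (X0 : Set X) (y : X → B) (x : X) : Set X :=
  connectedComponentIn (X0 ∩ y ⁻¹' {y x}) x

/-- good points: compact regular leaf -/
def Good (F : Type*) [NormedAddCommGroup F] (X0 : Set X) (y : X → B) (x : X) : Prop :=
  x ∈ X0 ∧ IsCompact (leaf X0 y x) ∧ leaf X0 y x ⊆ Reg F X0 y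

variable {X0 : Set X} {y : X → B}

lemma leaf_subset (x : X) : leaf X0 y x ⊆ X0 ∩ y ⁻¹' {y x} := connectedComponentIn_subset _ _

lemma mem_leaf {x : X} (hx : x ∈ X0) : x ∈ leaf X0 y x :=
  mem_connectedComponentIn ⟨hx, rfl⟩

lemma leaf_preconnected (x : X) : IsPreconnected (leaf X0 y x) :=
  isPreconnected_connectedComponentIn

lemma leaf_connected {x : X} (hx : x ∈ X0) : IsConnected (leaf X0 y x) :=
  ⟨⟨x, mem_leaf hx⟩, leaf_preconnected x⟩

lemma leaf_y {x p : X} (hp : p ∈ leaf X0 y x) : y p = y x := (leaf_subset x hp).2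

lemma leaf_X0 {x p : X} (hp : p ∈ leaf X0 y x) : p ∈ X0 := (leaf_subset x hp).1

/-- leaves are equal or disjoint -/
lemma leaf_eq {x p : X} (hp : p ∈ leaf X0 y x) : leaf X0 y p = leaf X0 y x := by
  unfold leaf
  rw [leaf_y hp]
  exact (connectedComponentIn_eq hp).symm

/-- a preconnected subset of the fibre that meets the leaf is in the leaf -/
lemma subset_leaf {x p : X} {S : Set X} (hS : IsPreconnected S) (hSX : S ⊆ X0)
    (hSy : ∀ q ∈ S, y q = y x) (hpS : p ∈ S) (hp : p ∈ leaf X0 y x) : S ⊆ leaf X0 y x := by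
  have h1 : S ⊆ connectedComponentIn (X0 ∩ y ⁻¹' {y x}) p :=
    hS.subset_connectedComponentIn hpS fun q hq => ⟨hSX hq, hSy q hq⟩
  have h2 : leaf X0 y x = connectedComponentIn (X0 ∩ y ⁻¹' {y x}) p :=
    connectedComponentIn_eq hp
  rwa [h2]

lemma good_mem {x p : X} (h : Good F X0 y x) (hp : p ∈ leaf X0 y x) : Good F X0 y p := by
  refine ⟨leaf_X0 hp, ?_, ?_⟩
  · rw [leaf_eq hp]; exact h.2.1
  · rw [leaf_eq hp]; exact h.2.2

/-- the box of a chart -/
def bx (e : OpenPartialHomeomorph X (B × F)) (b : B) (c : F) (r ρ : ℝ) : Set X :=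
  e.source ∩ e ⁻¹' (ball b r ×ˢ ball c ρ)

lemma bx_open (e : OpenPartialHomeomorph X (B × F)) (b : B) (c : F) (r ρ : ℝ) :
    IsOpen (bx e b c r ρ) :=
  e.isOpen_inter_preimage (isOpen_ball.prod isOpen_ball)

variable [FiniteDimensional ℝ F]

/-- **(TUBE)** -/
theorem tube [T2Space X] {x : X} (hx : Good F X0 y x) {O : Set X} (hO : IsOpen O)
    (hLO : leaf X0 y x ⊆ O) :
    ∃ r : ℝ, 0 < r ∧ ∃ W : Set X, IsOpen W ∧ leaf X0 y x ⊆ W ∧ W ⊆ O ∧ W ⊆ Reg F X0 y ∧
      y '' W = ball (y x) r ∧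
      (∀ x' ∈ W, leaf X0 y x' = W ∩ y ⁻¹' {y x'} ∧ Good F X0 y x') ∧
      ∀ K ⊆ ball (y x) r, IsCompact K → IsCompact (W ∩ y ⁻¹' K) := by
  classical
  obtain ⟨hx0, hLc, hLR⟩ := hx
  set L := leaf X0 y x with hL
  set b0 := y x with hb0
  -- local data
  have loc : ∀ p ∈ L, ∃ (e : OpenPartialHomeomorph X (B × F)) (c : F) (ρ : ℝ), 0 < ρ ∧
      p ∈ e.source ∧ e p = (b0, c) ∧ e.source ⊆ X0 ∧ (∀ q ∈ e.source, (e q).1 = y q) ∧
      closedBall b0 ρ ×ˢ closedBall c ρ ⊆ e.target ∩ e.symm ⁻¹' O := by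
    intro p hp
    obtain ⟨e, he, heX, hey⟩ := hLR hp
    have h1 : e p = (b0, (e p).2) := by
      ext
      · rw [hey p he]; exact leaf_y hp
      · rfl
    have h2 : IsOpen (e.target ∩ e.symm ⁻¹' O) := e.isOpen_inter_preimage_symm hO
    have h3 : (b0, (e p).2) ∈ e.target ∩ e.symm ⁻¹' O := by
      rw [← h1]
      refine ⟨e.map_source he, ?_⟩
      simp only [mem_preimage, e.left_inv he]
      exact hLO hp
    obtain ⟨ρ, hρ, hρs⟩ := Metric.isOpen_iff.1 h2 _ h3
    refine ⟨e, (e p).2, ρ / 2, by positivity, he, h1, heX, hey, ?_⟩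
    rw [closedBall_prod_same]
    exact (closedBall_subset_ball (by linarith)).trans hρs
  haveI : Nonempty (OpenPartialHomeomorph X (B × F)) := ⟨(hLR (mem_leaf hx0)).choose⟩
  choose! E c ρ hρ hpE hEp hEX hEy hEt using loc
  -- plaques over `b0` are in the leaf
  have plaque : ∀ p ∈ L, ∀ f ∈ closedBall (c p) (ρ p), (E p).symm (b0, f) ∈ L := by
    intro p hp f hf
    have hsub : ({b0} : Set B) ×ˢ closedBall (c p) (ρ p) ⊆ (E p).target := by
      rintro ⟨b, f'⟩ ⟨hb, hf'⟩
      rw [mem_singleton_iff] at hb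
      simp only at hb hf'
      subst hb
      exact (hEt p hp ⟨mem_closedBall_self (hρ p hp).le, hf'⟩).1
    have hconn : IsPreconnected ((E p).symm '' (({b0} : Set B) ×ˢ closedBall (c p) (ρ p))) := by
      refine IsPreconnected.image ?_ _ ((E p).continuousOn_symm.mono hsub)
      exact (isPreconnected_singleton).prod (convex_closedBall _ _).isPreconnected
    refine subset_leaf (p := p) hconn ?_ ?_ ?_ ?_ ⟨(b0, f), ⟨rfl, hf⟩, rfl⟩
    · rintro _ ⟨⟨b, f'⟩, hbf, rfl⟩
      exact hEX p hp ((E p).map_target (hsub hbf))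
    · rintro _ ⟨⟨b, f'⟩, hbf, rfl⟩
      have h := hEy p hp _ ((E p).map_target (hsub hbf))
      rw [(E p).right_inv (hsub hbf)] at h
      rw [← h]
      exact hbf.1
    · refine ⟨(b0, c p), ⟨rfl, mem_closedBall_self (hρ p hp).le⟩, ?_⟩
      rw [← hEp p hp]
      exact (E p).left_inv (hpE p hp)
    · exact hp
  -- finite cover
  set N : X → Set X := fun p => bx (E p) b0 (c p) (ρ p) (ρ p) with hN
  have hNo : ∀ p, IsOpen (N p) := fun p => bx_open _ _ _ _ _
  have hpN : ∀ p ∈ L, p ∈ N p := by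
    intro p hp
    refine ⟨hpE p hp, ?_⟩
    simp only [mem_preimage, hEp p hp]
    exact ⟨mem_ball_self (hρ p hp), mem_ball_self (hρ p hp)⟩
  obtain ⟨t, htL, htc⟩ := hLc.elim_nhds_subcover N
    (fun p hp => (hNo p).mem_nhds (hpN p hp))
  have htne : t.Nonempty := by
    have hxL : x ∈ L := mem_leaf hx0
    obtain ⟨p, hp⟩ := mem_iUnion.1 (htc hxL)
    simp only [mem_iUnion, exists_prop] at hp
    exact ⟨p, hp.1⟩
  set N' : Set X := ⋃ p ∈ t, N p with hN'
  have hN'o : IsOpen N' := isOpen_biUnion fun p _ => hNo p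
  -- (a) closed plaques over nearby points are in `N'`
  have ha : ∀ p ∈ t, ∀ᶠ b in 𝓝 b0, ∀ f ∈ closedBall (c p) (ρ p),
      (b, f) ∈ (E p).target ∧ (E p).symm (b, f) ∈ N' := by
    intro p hp
    have hopen : IsOpen ((E p).target ∩ (E p).symm ⁻¹' N') :=
      (E p).isOpen_inter_preimage_symm hN'o
    have hsub : ({b0} : Set B) ×ˢ closedBall (c p) (ρ p) ⊆
        (E p).target ∩ (E p).symm ⁻¹' N' := by
      rintro ⟨b, f⟩ ⟨hb, hf⟩
      rw [mem_singleton_iff] at hb
      simp only at hb hf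
      subst hb
      exact ⟨(hEt p (htL p hp) ⟨mem_closedBall_self (hρ p (htL p hp)).le, hf⟩).1,
        htc (plaque p (htL p hp) f hf)⟩
    obtain ⟨u, v, hu, hv, hbu, hcv, huv⟩ := generalized_tube_lemma isCompact_singleton
      (isCompact_closedBall (c p) (ρ p)) hopen hsub
    filter_upwards [hu.mem_nhds (hbu rfl)] with b hb f hf
    exact huv ⟨hb, hcv hf⟩
  -- (b) overlaps persist
  have hb : ∀ p ∈ t, ∀ q ∈ t, (L ∩ (N p ∩ N q)).Nonempty →
      ∀ᶠ b in 𝓝 b0, ∃ z ∈ N p ∩ N q, y z = b := by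
    rintro p hp q hq ⟨z, hzL, hzN⟩
    have hzs : z ∈ (E p).source := hzN.1.1
    have hz1 : E p z = (b0, (E p z).2) := by
      ext
      · rw [hEy p (htL p hp) z hzs]; exact leaf_y hzL
      · rfl
    have hopen : IsOpen ((E p).target ∩ (E p).symm ⁻¹' (N p ∩ N q)) :=
      (E p).isOpen_inter_preimage_symm ((hNo p).inter (hNo q))
    have hmem : (b0, (E p z).2) ∈ (E p).target ∩ (E p).symm ⁻¹' (N p ∩ N q) := by
      rw [← hz1]
      refine ⟨(E p).map_source hzs, ?_⟩
      simp only [mem_preimage, (E p).left_inv hzs]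
      exact hzN
    have hcont : Continuous fun b : B => (b, (E p z).2) := by fun_prop
    filter_upwards [hcont.continuousAt.preimage_mem_nhds (hopen.mem_nhds hmem)] with b hb
    refine ⟨(E p).symm (b, (E p z).2), hb.2, ?_⟩
    rw [← hEy p (htL p hp) _ ((E p).map_target hb.1), (E p).right_inv hb.1]
  have hall : ∀ᶠ b in 𝓝 b0, (∀ p ∈ t, ∀ f ∈ closedBall (c p) (ρ p),
      (b, f) ∈ (E p).target ∧ (E p).symm (b, f) ∈ N') ∧
      (∀ p ∈ t, ∀ q ∈ t, (L ∩ (N p ∩ N q)).Nonempty → ∃ z ∈ N p ∩ N q, y z = b) ∧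
      (∀ p ∈ t, b ∈ ball b0 (ρ p)) := by
    refine ((Filter.eventually_all_finset t).2 ha).and (((Filter.eventually_all_finset t).2
      fun p hp => (Filter.eventually_all_finset t).2 fun q hq => ?_).and
      ((Filter.eventually_all_finset t).2 fun p hp => ?_))
    · by_cases h : (L ∩ (N p ∩ N q)).Nonempty
      · filter_upwards [hb p hp q hq h] with b hb _ using hb
      · exact Eventually.of_forall fun b h' => absurd h' h
    · exact ball_mem_nhds _ (hρ p (htL p hp))
  obtain ⟨r, hr, hrb⟩ := Metric.eventually_nhds_iff_ball.1 hall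
  -- the tube
  set W : Set X := ⋃ p ∈ t, bx (E p) b0 (c p) r (ρ p) with hW
  have hWo : IsOpen W := isOpen_biUnion fun p _ => bx_open _ _ _ _ _
  have hWy : ∀ z ∈ W, y z ∈ ball b0 r := by
    intro z hz
    simp only [hW, mem_iUnion, exists_prop] at hz
    obtain ⟨p, hp, hz⟩ := hz
    rw [← hEy p (htL p hp) z hz.1]
    exact hz.2.1
  have hNW : ∀ z ∈ N', y z ∈ ball b0 r → z ∈ W := by
    intro z hz hzr
    simp only [hN', mem_iUnion, exists_prop] at hz
    obtain ⟨p, hp, hz⟩ := hz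
    simp only [hW, mem_iUnion, exists_prop]
    refine ⟨p, hp, hz.1, ?_, hz.2.2⟩
    rw [hEy p (htL p hp) z hz.1]
    exact hzr
  -- fibre description with closed plaques
  have hclosed : ∀ K ⊆ ball b0 r, W ∩ y ⁻¹' K =
      ⋃ p ∈ t, (E p).symm '' (K ×ˢ closedBall (c p) (ρ p)) := by
    intro K hK
    ext z
    simp only [mem_inter_iff, mem_iUnion, exists_prop, mem_preimage]
    constructor
    · rintro ⟨hz, hzK⟩
      simp only [hW, mem_iUnion, exists_prop] at hz
      obtain ⟨p, hp, hz⟩ := hz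
      refine ⟨p, hp, E p z, ⟨?_, ball_subset_closedBall hz.2.2⟩, (E p).left_inv hz.1⟩
      rw [hEy p (htL p hp) z hz.1]
      exact hzK
    · rintro ⟨p, hp, ⟨b, f⟩, ⟨hbK, hf⟩, rfl⟩
      have h1 := (hrb b (hK hbK)).1 p hp f hf
      have h2 : y ((E p).symm (b, f)) = b := by
        rw [← hEy p (htL p hp) _ ((E p).map_target h1.1), (E p).right_inv h1.1]
      refine ⟨hNW _ h1.2 ?_, ?_⟩
      · rw [h2]; exact hK hbK
      · rw [h2]; exact hbK
  have hcomp : ∀ K ⊆ ball b0 r, IsCompact K → IsCompact (W ∩ y ⁻¹' K) := by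
    intro K hK hKc
    rw [hclosed K hK]
    refine t.finite_toSet.isCompact_biUnion fun p hp => ?_
    refine (hKc.prod (isCompact_closedBall _ _)).image_of_continuousOn
      ((E p).continuousOn_symm.mono ?_)
    rintro ⟨b, f⟩ ⟨hbK, hf⟩
    exact ((hrb b (hK hbK)).1 p hp f hf).1
  have hWR : W ⊆ Reg F X0 y := by
    intro z hz
    simp only [hW, mem_iUnion, exists_prop] at hz
    obtain ⟨p, hp, hz⟩ := hz
    exact ⟨E p, hz.1, hEX p (htL p hp), hEy p (htL p hp)⟩
  have hWX : W ⊆ X0 := by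
    intro z hz
    obtain ⟨e, he, heX, _⟩ := hWR hz
    exact heX he
  have hWO : W ⊆ O := by
    intro z hz
    simp only [hW, mem_iUnion, exists_prop] at hz
    obtain ⟨p, hp, hz⟩ := hz
    have h1 : E p z ∈ closedBall b0 (ρ p) ×ˢ closedBall (c p) (ρ p) :=
      ⟨ball_subset_closedBall ((hrb _ hz.2.1).2.2 p hp), ball_subset_closedBall hz.2.2⟩
    have h2 := (hEt p (htL p hp) h1).2
    simp only [mem_preimage, (E p).left_inv hz.1] at h2
    exact h2
  have hLW : L ⊆ W := fun z hz => hNW z (htc hz) (by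
    rw [leaf_y hz]; exact mem_ball_self hr)
  -- the graph is connected
  have graph : ∀ p ∈ t, ∀ q ∈ t, Relation.ReflTransGen
      (fun i j => (L ∩ (N i ∩ N j)).Nonempty ∧ i ∈ t ∧ j ∈ t) p q := by
    intro p hp q hq
    by_contra hcon
    set R : X → X → Prop := fun i j => (L ∩ (N i ∩ N j)).Nonempty ∧ i ∈ t ∧ j ∈ t with hR
    set U1 : Set X := ⋃ j ∈ {j | j ∈ t ∧ Relation.ReflTransGen R p j}, N j with hU1
    set U2 : Set X := ⋃ j ∈ {j | j ∈ t ∧ ¬ Relation.ReflTransGen R p j}, N j with hU2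
    have ho1 : IsOpen U1 := isOpen_biUnion fun j _ => hNo j
    have ho2 : IsOpen U2 := isOpen_biUnion fun j _ => hNo j
    have hcov : L ⊆ U1 ∪ U2 := by
      intro z hz
      obtain ⟨j, hj⟩ := mem_iUnion.1 (htc hz)
      simp only [mem_iUnion, exists_prop] at hj
      by_cases h : Relation.ReflTransGen R p j
      · left; simp only [hU1, mem_iUnion, exists_prop]; exact ⟨j, ⟨hj.1, h⟩, hj.2⟩
      · right; simp only [hU2, mem_iUnion, exists_prop]; exact ⟨j, ⟨hj.1, h⟩, hj.2⟩
    have hn1 : (L ∩ U1).Nonempty := ⟨p, htL p hp, by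
      simp only [hU1, mem_iUnion, exists_prop]
      exact ⟨p, ⟨hp, Relation.ReflTransGen.refl⟩, hpN p (htL p hp)⟩⟩
    have hn2 : (L ∩ U2).Nonempty := ⟨q, htL q hq, by
      simp only [hU2, mem_iUnion, exists_prop]
      exact ⟨q, ⟨hq, hcon⟩, hpN q (htL q hq)⟩⟩
    obtain ⟨z, hzL, hz1, hz2⟩ := (leaf_preconnected x) U1 U2 ho1 ho2 hcov hn1 hn2
    simp only [hU1, mem_iUnion, exists_prop] at hz1
    simp only [hU2, mem_iUnion, exists_prop] at hz2
    obtain ⟨j, ⟨hjt, hj⟩, hzj⟩ := hz1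
    obtain ⟨k, ⟨hkt, hk⟩, hzk⟩ := hz2
    exact hk (hj.tail ⟨⟨z, hzL, hzj, hzk⟩, hjt, hkt⟩)
  -- fibres are connected
  have hconn : ∀ b ∈ ball b0 r, IsPreconnected (W ∩ y ⁻¹' {b}) := by
    intro b hbr
    have hfib : W ∩ y ⁻¹' {b} = ⋃ p : t, (E p).symm '' (({b} : Set B) ×ˢ closedBall (c p) (ρ p)) := by
      rw [hclosed {b} (by simpa using hbr), iUnion_subtype]
    rw [hfib]
    refine IsPreconnected.iUnion_of_reflTransGen (fun p => ?_) fun p q => ?_
    · refine IsPreconnected.image ?_ _ ((E p).continuousOn_symm.mono ?_)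
      · exact (isPreconnected_singleton).prod (convex_closedBall _ _).isPreconnected
      · rintro ⟨b', f⟩ ⟨hb', hf⟩
        rw [mem_singleton_iff] at hb'
        simp only at hb' hf
        subst hb'
        exact ((hrb _ hbr).1 p p.2 f hf).1
    · have key : ∀ i j : X, Relation.ReflTransGen
          (fun i j => (L ∩ (N i ∩ N j)).Nonempty ∧ i ∈ t ∧ j ∈ t) i j →
          ∀ (hi : i ∈ t) (hj : j ∈ t), Relation.ReflTransGen (fun i j : t =>
            ((E i).symm '' (({b} : Set B) ×ˢ closedBall (c i) (ρ i)) ∩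
             (E j).symm '' (({b} : Set B) ×ˢ closedBall (c j) (ρ j))).Nonempty)
            ⟨i, hi⟩ ⟨j, hj⟩ := by
        intro i j hij
        induction hij with
        | refl => intro hi hj; exact Relation.ReflTransGen.refl
        | tail h1 h2 ih =>
          intro hi hj
          refine (ih hi h2.2.1).tail ?_
          obtain ⟨z, hz, hzb⟩ := (hrb b hbr).2.1 _ h2.2.1 _ h2.2.2 h2.1
          refine ⟨z, ⟨E _ z, ⟨?_, ball_subset_closedBall hz.1.2.2⟩, (E _).left_inv hz.1.1⟩,
            ⟨E _ z, ⟨?_, ball_subset_closedBall hz.2.2.2⟩, (E _).left_inv hz.2.1⟩⟩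
          · rw [hEy _ (htL _ h2.2.1) z hz.1.1, hzb]; rfl
          · rw [hEy _ (htL _ h2.2.2) z hz.2.1, hzb]; rfl
      exact key p q (graph p p.2 q q.2) p.2 q.2
  -- leaves are fibres
  have hleaf : ∀ x' ∈ W, leaf X0 y x' = W ∩ y ⁻¹' {y x'} := by
    intro x' hx'
    have hbr := hWy x' hx'
    apply subset_antisymm
    · intro z hz
      refine ⟨?_, leaf_y hz⟩
      by_contra hzW
      have hcK : IsCompact (W ∩ y ⁻¹' {y x'}) :=
        hcomp {y x'} (by simpa using hbr) isCompact_singleton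
      have hcov : leaf X0 y x' ⊆ W ∪ (W ∩ y ⁻¹' {y x'})ᶜ := by
        intro w _
        by_cases h : w ∈ W
        · exact Or.inl h
        · exact Or.inr fun h' => h h'.1
      obtain ⟨w, hwl, hw1, hw2⟩ := (leaf_preconnected x') W _ hWo
        hcK.isClosed.isOpen_compl hcov ⟨x', mem_leaf (hWX hx'), hx'⟩
        ⟨z, hz, fun h' => hzW h'.1⟩
      exact hw2 ⟨hw1, leaf_y hwl⟩
    · exact subset_leaf (p := x') (hconn _ hbr) (fun q hq => hWX hq.1) (fun q hq => hq.2)
        ⟨hx', rfl⟩ (mem_leaf (hWX hx'))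
  refine ⟨r, hr, W, hWo, hLW, hWO, hWR, ?_, fun x' hx' => ⟨hleaf x' hx', hWX hx', ?_, ?_⟩, hcomp⟩
  · apply subset_antisymm
    · rintro _ ⟨z, hz, rfl⟩; exact hWy z hz
    · intro b hbr
      obtain ⟨p, hp⟩ := htne
      have h1 := (hrb b hbr).1 p hp (c p) (mem_closedBall_self (hρ p (htL p hp)).le)
      have h2 : y ((E p).symm (b, c p)) = b := by
        rw [← hEy p (htL p hp) _ ((E p).map_target h1.1), (E p).right_inv h1.1]
      exact ⟨_, hNW _ h1.2 (by rw [h2]; exact hbr), h2⟩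
  · rw [hleaf x' hx']
    exact hcomp {y x'} (by simpa using hWy x' hx') isCompact_singleton
  · rw [hleaf x' hx']
    exact fun z hz => hWR hz.1

/-- good points form an open set -/
theorem isOpen_good [T2Space X] : IsOpen {x | Good F X0 y x} := by
  rw [isOpen_iff_mem_nhds]
  intro x hx
  obtain ⟨r, hr, W, hWo, hLW, -, -, -, hW, -⟩ := tube hx isOpen_univ (subset_univ _)
  exact mem_of_superset (hWo.mem_nhds (hLW (mem_leaf hx.1))) fun x' hx' => (hW x' hx').2

end Crest.Agent.R281.Tube1_989
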