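import Crest.Agent.R281.Tube1_242

/-!
# R281, S-TUBE part 2 (helper242): periods and the embedded strip
-/

set_option autoImplicit false
set_option linter.unusedSectionVars false

open Set Filter Topology Metric Complex

namespace Crest.Agent.R281.Tube_242

noncomputable section

section General

variable {X E Y : Type*} [MetricSpace X] [NormedAddCommGroup E] [NormedSpace ℝ E]
  {f : X → Y} {e : E → Y} {C : ℝ} {U : Set X} {Ψ : E → X} {D : Set E}

/-- `Ψ` is a lift on `D` -/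
structure IsLift (f : X → Y) (e : E → Y) (U : Set X) (D : Set E) (Ψ : E → X) : Prop where
  cont : ContinuousOn Ψ D
  mem : ∀ z ∈ D, Ψ z ∈ U
  eq : ∀ z ∈ D, f (Ψ z) = e z

theorem IsLift.mono {D' : Set E} (h : IsLift f e U D Ψ) (hD : D' ⊆ D) : IsLift f e U D' Ψ :=
  ⟨h.cont.mono hD, fun z hz => h.mem z (hD hz), fun z hz => h.eq z (hD hz)⟩

theorem IsLift.uniq {Ψ' : E → X} (hU : IsOpen U) (hi : LocInj e) (hf : HasLog f e C U)
    (hD : IsPreconnected D) (h : IsLift f e U D Ψ) (h' : IsLift f e U D Ψ') {a : E} (ha : a ∈ D)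
    (haa : Ψ a = Ψ' a) : EqOn Ψ Ψ' D :=
  Tube_242.uniq (b := fun z : E => z) hU hi hf hD continuousOn_id h.cont h'.cont
    (fun z hz => ⟨h.mem z hz, h.eq z hz⟩) (fun z hz => ⟨h'.mem z hz, h'.eq z hz⟩) ha haa

theorem convex_shift (hDc : Convex ℝ D) (l : E) : Convex ℝ (D ∩ {z | z + l ∈ D}) := by
  apply hDc.inter
  have h := hDc.translate_preimage_left l
  have h2 : {z | z + l ∈ D} = (fun z => z + l) ⁻¹' D := rfl
  rw [h2]
  convert h using 1

/-- a period at one point of a convex domain is a period everywhere -/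
theorem inv_of_one (hU : IsOpen U) (hi : LocInj e) (hf : HasLog f e C U) (hDc : Convex ℝ D)
    (h : IsLift f e U D Ψ) {l : E} (hl : ∀ z, e (z + l) = e z) {z₁ : E} (h1 : z₁ ∈ D)
    (h2 : z₁ + l ∈ D) (h3 : Ψ (z₁ + l) = Ψ z₁) : ∀ z ∈ D, z + l ∈ D → Ψ (z + l) = Ψ z := by
  intro z hz hzl
  have hc := convex_shift hDc l
  have hA : IsLift f e U (D ∩ {z | z + l ∈ D}) Ψ := h.mono inter_subset_left
  have hB : IsLift f e U (D ∩ {z | z + l ∈ D}) (fun z => Ψ (z + l)) := by
    refine ⟨?_, fun z hz => h.mem _ hz.2, fun z hz => ?_⟩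
    · exact h.cont.comp (by fun_prop) fun z hz => hz.2
    · rw [h.eq _ hz.2, hl]
  exact (IsLift.uniq hU hi hf hc.isPreconnected hB hA (a := z₁) ⟨h1, h2⟩ h3) ⟨hz, hzl⟩

/-- pigeonhole: finite fibres give periods -/
theorem pigeon (hU : IsOpen U) (hi : LocInj e) (hf : HasLog f e C U) (hDc : Convex ℝ D)
    (h : IsLift f e U D Ψ) {l : E} (hl : ∀ z, e (z + l) = e z) {d : ℕ}
    (hd : ∀ (q : Y) (s : Finset X), (∀ x ∈ s, x ∈ U ∧ f x = q) → s.card ≤ d) {z₀ : E}
    (h0 : ∀ i : ℕ, i ≤ d → z₀ + i • l ∈ D) :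
    ∃ k : ℕ, 1 ≤ k ∧ k ≤ d ∧ ∀ z ∈ D, z + k • l ∈ D → Ψ (z + k • l) = Ψ z := by
  classical
  have hln : ∀ (n : ℕ) (z : E), e (z + n • l) = e z := by
    intro n
    induction n with
    | zero => intro z; simp
    | succ n ih => intro z; rw [succ_nsmul, ← add_assoc, hl, ih]
  have h1 : ¬ InjOn (fun i : ℕ => Ψ (z₀ + i • l)) (Finset.range (d + 1) : Set ℕ) := by
    intro hinj
    have h2 := hd (e z₀) ((Finset.range (d + 1)).image fun i : ℕ => Ψ (z₀ + i • l)) (by
      intro x hx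
      obtain ⟨i, hi', rfl⟩ := Finset.mem_image.1 hx
      have hi'' : i ≤ d := by simpa [Nat.lt_succ_iff] using hi'
      exact ⟨h.mem _ (h0 i hi''), by rw [h.eq _ (h0 i hi''), hln]⟩)
    rw [Finset.card_image_of_injOn hinj, Finset.card_range] at h2
    omega
  rw [InjOn] at h1
  push Not at h1
  obtain ⟨i, hi', j, hj', hij, hne⟩ := h1
  have hi'' : i ≤ d := by simpa [Nat.lt_succ_iff] using hi'
  have hj'' : j ≤ d := by simpa [Nat.lt_succ_iff] using hj'
  have key : ∀ a b : ℕ, a ≤ d → b ≤ d → a < b → Ψ (z₀ + a • l) = Ψ (z₀ + b • l) →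
      ∃ k : ℕ, 1 ≤ k ∧ k ≤ d ∧ ∀ z ∈ D, z + k • l ∈ D → Ψ (z + k • l) = Ψ z := by
    intro a b ha hb hab heq
    have h5 : z₀ + a • l + (b - a) • l = z₀ + b • l := by
      rw [add_assoc, ← add_nsmul]
      congr 2
      omega
    refine ⟨b - a, by omega, by omega, ?_⟩
    refine inv_of_one hU hi hf hDc h (hln _) (z₁ := z₀ + a • l) (h0 a ha) ?_ ?_
    · rw [h5]; exact h0 b hb
    · rw [h5]; exact heq.symm
  rcases lt_or_gt_of_ne hne with hlt | hlt
  · exact key i j hi'' hj'' hlt hij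
  · exact key j i hj'' hi'' hlt hij.symm

/-- multiples of a period are periods -/
theorem inv_nsmul (hDc : Convex ℝ D) {k : E}
    (hk : ∀ z ∈ D, z + k ∈ D → Ψ (z + k) = Ψ z) (n : ℕ) :
    ∀ z ∈ D, z + n • k ∈ D → Ψ (z + n • k) = Ψ z := by
  induction n with
  | zero => intro z _ _; simp
  | succ n ih =>
    intro z hz hzn
    have h1 : z + n • k ∈ D := by
      have h2 := hDc hz hzn (a := 1 / (n + 1 : ℝ)) (b := n / (n + 1 : ℝ)) (by positivity)
        (by positivity) (by field_simp; ring)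
      convert h2 using 1
      have h3 : ((n : ℝ) + 1) ≠ 0 := by positivity
      have h4 : (1 / ((n : ℝ) + 1)) • z + (n / ((n : ℝ) + 1)) • (z + (n + 1) • k) =
          ((1 + n) / ((n : ℝ) + 1)) • z + ((n * (n + 1)) / ((n : ℝ) + 1)) • k := by
        rw [← Nat.cast_smul_eq_nsmul ℝ (n + 1) k]
        push_cast
        module
      rw [h4, add_comm (1 : ℝ) n, div_self h3, one_smul, mul_div_assoc, div_self h3, mul_one,
        Nat.cast_smul_eq_nsmul]
    have h5 : z + (n + 1) • k = z + n • k + k := by rw [succ_nsmul, add_assoc]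
    rw [h5, hk _ h1 (by rw [← h5]; exact hzn), ih z hz h1]

theorem inv_zsmul (hDc : Convex ℝ D) {k : E}
    (hk : ∀ z ∈ D, z + k ∈ D → Ψ (z + k) = Ψ z) (n : ℤ) :
    ∀ z ∈ D, z + n • k ∈ D → Ψ (z + n • k) = Ψ z := by
  intro z hz hzn
  obtain ⟨m, rfl | rfl⟩ := n.eq_nat_or_neg
  · simpa using inv_nsmul hDc hk m z hz (by simpa using hzn)
  · have h1 := inv_nsmul hDc hk m (z + (-(m : ℤ)) • k) hzn (by simpa using hz)
    have h2 : z + (-(m : ℤ)) • k + m • k = z := by simp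
    rw [h2] at h1
    exact h1.symm

end General

section Coord

/-- model space (same as `R275.Geo.Cn`) -/
abbrev Cn (N : ℕ) : Type := EuclideanSpace ℂ (Fin N)

variable {N : ℕ}

/-- `(c_j exp z_j)_j` -/
def ee (c : Fin N → ℂ) (z : Cn N) : Fin N → ℂ := fun j => c j * Complex.exp (z j)

theorem continuous_ee (c : Fin N → ℂ) : Continuous (ee c) := by
  unfold ee
  fun_prop

theorem ee_eq_iff {c : Fin N → ℂ} (hc : ∀ j, c j ≠ 0) (z w : Cn N) :
    ee c z = ee c w ↔ ∀ j, ∃ n : ℤ, z j = w j + n * (2 * Real.pi * I) := by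
  constructor
  · intro h j
    have h1 : c j * Complex.exp (z j) = c j * Complex.exp (w j) := congrFun h j
    exact Complex.exp_eq_exp_iff_exists_int.1 (mul_left_cancel₀ (hc j) h1)
  · intro h
    funext j
    show c j * Complex.exp (z j) = c j * Complex.exp (w j)
    rw [Complex.exp_eq_exp_iff_exists_int.2 (h j)]

theorem locInj_ee {c : Fin N → ℂ} (hc : ∀ j, c j ≠ 0) : LocInj (ee c) := by
  intro ζ
  refine ⟨ball ζ 1, ball_mem_nhds ζ one_pos, ?_⟩
  intro z hz w hw h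
  have h1 := (ee_eq_iff hc z w).1 h
  have h2 : dist z w < 2 := by
    calc dist z w ≤ dist z ζ + dist w ζ := dist_triangle_right _ _ _
      _ < 1 + 1 := add_lt_add hz hw
      _ = 2 := by norm_num
  ext j
  obtain ⟨n, hn⟩ := h1 j
  have h3 : ‖z j - w j‖ ≤ dist z w := by
    rw [dist_eq_norm]
    exact PiLp.norm_apply_le (z - w) j
  rw [hn, add_sub_cancel_left] at h3
  have h4 : ‖(n : ℂ) * (2 * Real.pi * I)‖ = |(n : ℝ)| * (2 * Real.pi) := by
    rw [norm_mul, norm_mul, norm_mul, Complex.norm_I, mul_one, Complex.norm_intCast,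
      Complex.norm_real, Real.norm_eq_abs, abs_of_pos Real.pi_pos]
    norm_num
  rw [h4] at h3
  have h5 : n = 0 := by
    by_contra hne
    have h6 : (1 : ℝ) ≤ |(n : ℝ)| := by
      have := Int.one_le_abs hne
      exact_mod_cast this
    have h7 := Real.pi_gt_three
    nlinarith
  rw [hn, h5]; simp

/-- real parts -/
def reV : Cn N →ₗ[ℝ] EuclideanSpace ℝ (Fin N) where
  toFun z := WithLp.toLp 2 (fun j => (z j).re)
  map_add' z w := by ext j; simp
  map_smul' a z := by ext j; simp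

/-- imaginary parts -/
def imV : Cn N →ₗ[ℝ] EuclideanSpace ℝ (Fin N) where
  toFun z := WithLp.toLp 2 (fun j => (z j).im)
  map_add' z w := by ext j; simp
  map_smul' a z := by ext j; simp

@[simp] theorem reV_apply (z : Cn N) (j : Fin N) : reV z j = (z j).re := rfl
@[simp] theorem imV_apply (z : Cn N) (j : Fin N) : imV z j = (z j).im := rfl

theorem norm_sq_eq_re_im (z : Cn N) : ‖z‖ ^ 2 = ‖reV z‖ ^ 2 + ‖imV z‖ ^ 2 := by
  rw [EuclideanSpace.norm_sq_eq, EuclideanSpace.norm_sq_eq, EuclideanSpace.norm_sq_eq,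
    ← Finset.sum_add_distrib]
  refine Finset.sum_congr rfl fun j _ => ?_
  rw [Complex.sq_norm, Complex.normSq_apply, reV_apply, imV_apply, Real.norm_eq_abs,
    Real.norm_eq_abs, sq_abs, sq_abs]
  ring

theorem norm_reV_le (z : Cn N) : ‖reV z‖ ≤ ‖z‖ := by
  have h := norm_sq_eq_re_im z
  have h1 : ‖reV z‖ ^ 2 ≤ ‖z‖ ^ 2 := by nlinarith [sq_nonneg ‖imV z‖]
  exact (sq_le_sq₀ (norm_nonneg _) (norm_nonneg _)).1 h1

theorem norm_le_re_im (z : Cn N) : ‖z‖ ≤ ‖reV z‖ + ‖imV z‖ := by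
  have h := norm_sq_eq_re_im z
  have h1 : ‖z‖ ^ 2 ≤ (‖reV z‖ + ‖imV z‖) ^ 2 := by
    nlinarith [norm_nonneg (reV z), norm_nonneg (imV z),
      mul_nonneg (norm_nonneg (reV z)) (norm_nonneg (imV z))]
  exact (sq_le_sq₀ (norm_nonneg _) (by positivity)).1 h1

theorem continuous_reV : Continuous (reV : Cn N → EuclideanSpace ℝ (Fin N)) :=
  LinearMap.continuous_of_finiteDimensional _

/-- the strip -/
def St (ζ : Cn N) (r : ℝ) : Set (Cn N) := {z | ‖reV (z - ζ)‖ < r}

theorem isOpen_St (ζ : Cn N) (r : ℝ) : IsOpen (St ζ r) :=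
  isOpen_lt ((continuous_reV.comp (continuous_id.sub continuous_const)).norm) continuous_const

theorem convex_St (ζ : Cn N) (r : ℝ) : Convex ℝ (St ζ r) := by
  intro z hz w hw a b ha hb hab
  have h1 : reV (a • z + b • w - ζ) = a • reV (z - ζ) + b • reV (w - ζ) := by
    rw [← map_smul, ← map_smul, ← map_add]
    congr 1
    have : ζ = a • ζ + b • ζ := by rw [← add_smul, hab, one_smul]
    rw [smul_sub, smul_sub]
    nth_rewrite 1 [this]
    abel
  show ‖reV (a • z + b • w - ζ)‖ < r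
  rw [h1]
  have hz' : ‖reV (z - ζ)‖ < r := hz
  have hw' : ‖reV (w - ζ)‖ < r := hw
  calc ‖a • reV (z - ζ) + b • reV (w - ζ)‖ ≤ ‖a • reV (z - ζ)‖ + ‖b • reV (w - ζ)‖ :=
        norm_add_le _ _
    _ = a * ‖reV (z - ζ)‖ + b * ‖reV (w - ζ)‖ := by
        rw [norm_smul, norm_smul, Real.norm_of_nonneg ha, Real.norm_of_nonneg hb]
    _ < r := by
        rcases ha.eq_or_lt with rfl | ha'
        · have : b = 1 := by linarith
          subst this; simpa using hw'
        · have h3 : a * ‖reV (z - ζ)‖ < a * r := mul_lt_mul_of_pos_left hz' ha'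
          have h4 : b * ‖reV (w - ζ)‖ ≤ b * r := mul_le_mul_of_nonneg_left hw'.le hb
          have h5 : a * r + b * r = r := by rw [← add_mul, hab, one_mul]
          linarith

/-- partial modification of coordinates stays in a ball -/
theorem norm_ite_sq_le (s : Finset (Fin N)) (u w : Cn N) :
    ‖(WithLp.toLp 2 (fun j => if j ∈ s then w j else u j) : Cn N)‖ ^ 2 ≤ ‖u‖ ^ 2 + ‖w‖ ^ 2 := by
  rw [EuclideanSpace.norm_sq_eq, EuclideanSpace.norm_sq_eq, EuclideanSpace.norm_sq_eq,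
    ← Finset.sum_add_distrib]
  refine Finset.sum_le_sum fun j _ => ?_
  show ‖(if j ∈ s then w j else u j : ℂ)‖ ^ 2 ≤ _
  split_ifs
  · nlinarith [sq_nonneg ‖u j‖]
  · nlinarith [sq_nonneg ‖w j‖]

/-- the lattice `⊕ ℤ · 2πi k_j` -/
def KL (k : Fin N → ℕ) : AddSubgroup (Cn N) where
  carrier := {l | ∀ j, ∃ n : ℤ, l j = n * (k j * (2 * Real.pi * I))}
  zero_mem' := fun j => ⟨0, by simp⟩
  add_mem' := by
    intro a b ha hb j
    obtain ⟨n, hn⟩ := ha j
    obtain ⟨m, hm⟩ := hb j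
    refine ⟨n + m, ?_⟩
    rw [PiLp.add_apply, hn, hm]; push_cast; ring
  neg_mem' := by
    intro a ha j
    obtain ⟨n, hn⟩ := ha j
    refine ⟨-n, ?_⟩
    rw [PiLp.neg_apply, hn]; push_cast; ring

theorem mem_KL {k : Fin N → ℕ} {l : Cn N} :
    l ∈ KL k ↔ ∀ j, ∃ n : ℤ, l j = n * (k j * (2 * Real.pi * I)) := Iff.rfl

theorem ee_add_KL {k : Fin N → ℕ} (c : Fin N → ℂ) {l : Cn N} (hl : l ∈ KL k) (z : Cn N) :
    ee c (z + l) = ee c z := by
  funext j
  obtain ⟨n, hn⟩ := hl j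
  show c j * Complex.exp ((z + l) j) = c j * Complex.exp (z j)
  rw [PiLp.add_apply, Complex.exp_eq_exp_iff_exists_int.2 ⟨n * k j, ?_⟩]
  rw [hn]; push_cast; ring

variable {X : Type*} [MetricSpace X] {Ψ : Cn N → X}

/-- if the generators are periods on the ball `ζ, ρ`, then the whole lattice acts trivially on the
half ball -/
theorem inv_KL {k : Fin N → ℕ} {ζ : Cn N} {ρ : ℝ} (hρ : 0 < ρ)
    (hk : ∀ j, ∀ z ∈ ball ζ ρ, z + EuclideanSpace.single j (k j * (2 * Real.pi * I)) ∈ ball ζ ρ →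
      Ψ (z + EuclideanSpace.single j (k j * (2 * Real.pi * I))) = Ψ z)
    {l : Cn N} (hl : l ∈ KL k) {z : Cn N} (hz : z ∈ ball ζ (ρ / 2)) (hzl : z + l ∈ ball ζ (ρ / 2)) :
    Ψ (z + l) = Ψ z := by
  classical
  choose n hn using hl
  let L : Finset (Fin N) → Cn N := fun s => WithLp.toLp 2 (fun j => if j ∈ s then l j else 0)
  have hL : ∀ s, z + L s ∈ ball ζ ρ := by
    intro s
    rw [mem_ball, dist_eq_norm] at hz hzl ⊢
    have h1 := norm_ite_sq_le s (z - ζ) (z + l - ζ)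
    have h2 : (WithLp.toLp 2 (fun j => if j ∈ s then (z + l - ζ) j else (z - ζ) j) : Cn N) =
        z + L s - ζ := by
      ext j
      show (if j ∈ s then (z + l - ζ) j else (z - ζ) j : ℂ) = z j + (if j ∈ s then l j else 0) - ζ j
      split_ifs
      · rfl
      · simp
    rw [h2] at h1
    have h3 : ‖z - ζ‖ ^ 2 < (ρ / 2) ^ 2 := by gcongr
    have h4 : ‖z + l - ζ‖ ^ 2 < (ρ / 2) ^ 2 := by gcongr
    have h5 : ‖z + L s - ζ‖ ^ 2 < ρ ^ 2 := by nlinarith
    exact (sq_lt_sq₀ (norm_nonneg _) hρ.le).1 h5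
  have key : ∀ s, Ψ (z + L s) = Ψ z := by
    intro s
    induction s using Finset.induction_on with
    | empty =>
      have : L ∅ = 0 := by ext j; simp [L]
      rw [this, add_zero]
    | insert j s hj ih =>
      have h1 : L (insert j s) = L s + n j • EuclideanSpace.single j (k j * (2 * Real.pi * I)) := by
        ext i
        show (if i ∈ insert j s then l i else 0 : ℂ) = (if i ∈ s then l i else 0) +
          (n j • EuclideanSpace.single j ((k j : ℂ) * (2 * Real.pi * I)) : Cn N) i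
        by_cases hij : i = j
        · subst hij
          simp [hj, hn i]
        · simp [hij, Finset.mem_insert]
      have h2 := inv_zsmul (convex_ball ζ ρ) (hk j) (n j) (z + L s) (hL s) (by
        rw [add_assoc, ← h1]; exact hL _)
      rw [h1, ← add_assoc, h2, ih]
  have h6 := key Finset.univ
  have h7 : L Finset.univ = l := by ext j; simp [L]
  rwa [h7] at h6

/-- reduction of the imaginary parts -/
theorem exists_red {k : Fin N → ℕ} {d : ℕ} (hk1 : ∀ j, 1 ≤ k j) (hkd : ∀ j, k j ≤ d) (ζ z : Cn N)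
    {r : ℝ} (hz : ‖reV (z - ζ)‖ < r) :
    ∃ l ∈ KL k, z + l ∈ ball ζ (r + Real.pi * d * √N) := by
  let n : Fin N → ℤ := fun j => round (((z - ζ) j).im / (2 * Real.pi * k j))
  let l : Cn N := WithLp.toLp 2 (fun j => -(n j : ℂ) * (k j * (2 * Real.pi * I)))
  have hl : l ∈ KL k := fun j => ⟨-n j, by
    show -(n j : ℂ) * (k j * (2 * Real.pi * I)) = _
    push_cast; ring⟩
  refine ⟨l, hl, ?_⟩
  rw [mem_ball, dist_eq_norm]
  have h1 : reV (z + l - ζ) = reV (z - ζ) := by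
    ext j
    rw [reV_apply, reV_apply]
    show (z j + -(n j : ℂ) * (k j * (2 * Real.pi * I)) - ζ j).re = (z j - ζ j).re
    simp
  have h2 : ∀ j, |((z + l - ζ) j).im| ≤ Real.pi * d := by
    intro j
    have hkj : (0 : ℝ) < k j := by
      have := hk1 j
      exact_mod_cast this
    have h3 : ((z + l - ζ) j).im = ((z - ζ) j).im - n j * (2 * Real.pi * k j) := by
      show (z j + -(n j : ℂ) * (k j * (2 * Real.pi * I)) - ζ j).im = (z j - ζ j).im - _
      simp
      ring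
    have h4 := abs_sub_round (((z - ζ) j).im / (2 * Real.pi * k j))
    have h5 : 0 < 2 * Real.pi * k j := by positivity
    have h6 : ((z - ζ) j).im - n j * (2 * Real.pi * k j) =
        (((z - ζ) j).im / (2 * Real.pi * k j) - n j) * (2 * Real.pi * k j) := by
      field_simp
    rw [h3, h6, abs_mul, abs_of_pos h5]
    have h7 : (k j : ℝ) ≤ d := by exact_mod_cast hkd j
    calc |((z - ζ) j).im / (2 * Real.pi * k j) - n j| * (2 * Real.pi * k j)
        ≤ 1 / 2 * (2 * Real.pi * k j) := by gcongr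
      _ = Real.pi * k j := by ring
      _ ≤ Real.pi * d := by gcongr
  have h8 : ‖imV (z + l - ζ)‖ ≤ Real.pi * d * √N := by
    rw [EuclideanSpace.norm_eq]
    have h9 : ∑ j, ‖imV (z + l - ζ) j‖ ^ 2 ≤ ∑ j : Fin N, (Real.pi * d) ^ 2 := by
      refine Finset.sum_le_sum fun j _ => ?_
      rw [imV_apply, Real.norm_eq_abs]
      exact pow_le_pow_left₀ (abs_nonneg _) (h2 j) 2
    rw [Finset.sum_const, Finset.card_univ, Fintype.card_fin, nsmul_eq_mul] at h9
    calc √(∑ j, ‖imV (z + l - ζ) j‖ ^ 2) ≤ √(N * (Real.pi * d) ^ 2) := Real.sqrt_le_sqrt h9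
      _ = Real.pi * d * √N := by
        rw [Real.sqrt_mul (by positivity), Real.sqrt_sq (by positivity)]; ring
  calc ‖z + l - ζ‖ ≤ ‖reV (z + l - ζ)‖ + ‖imV (z + l - ζ)‖ := norm_le_re_im _
    _ < r + Real.pi * d * √N := by rw [h1]; linarith

/-- **The strip.** `Ψ` is a lift on the ball `ζ, ρ`, the fibres of `f` in `U` have at most `d` points
and `ρ` is large: `Ψ` extends to a whole strip `‖Re (z - ζ)‖ < r`, and is injective modulo a
lattice `Λ ⊆ 2πi ℤ^N` containing `2πi k_j e_j`, `1 ≤ k_j ≤ d`. -/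
theorem strip {f : X → (Fin N → ℂ)} {c : Fin N → ℂ} {C : ℝ} {U : Set X} {ζ : Cn N} {ρ r : ℝ}
    {d : ℕ} (hc : ∀ j, c j ≠ 0) (hU : IsOpen U) (hf : HasLog f (ee c) C U)
    (h : IsLift f (ee c) U (ball ζ ρ) Ψ)
    (hd : ∀ (q : Fin N → ℂ) (s : Finset X), (∀ x ∈ s, x ∈ U ∧ f x = q) → s.card ≤ d)
    (hr : 0 < r) (hρ : 2 * (r + Real.pi * d * √N) ≤ ρ) :
    ∃ (Λ : AddSubgroup (Cn N)) (Ψ' : Cn N → X) (k : Fin N → ℕ),
      (∀ j, 1 ≤ k j ∧ k j ≤ d) ∧ KL k ≤ Λ ∧ Λ ≤ KL (fun _ : Fin N => 1) ∧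
      IsLift f (ee c) U (St ζ r) Ψ' ∧
      EqOn Ψ' Ψ (ball ζ (ρ / 2) ∩ St ζ r) ∧
      (∀ l ∈ Λ, ∀ z ∈ St ζ r, z + l ∈ St ζ r ∧ Ψ' (z + l) = Ψ' z) ∧
      (∀ z ∈ St ζ r, ∀ w ∈ St ζ r, Ψ' z = Ψ' w ↔ z - w ∈ Λ) := by
  classical
  have hi : LocInj (ee c) := locInj_ee hc
  have hρ0 : 0 < ρ := by
    have : 0 ≤ Real.pi * d * √N := by positivity
    linarith
  -- periods in the coordinate directions
  have hper : ∀ j : Fin N, ∃ k : ℕ, 1 ≤ k ∧ k ≤ d ∧ ∀ z ∈ ball ζ ρ,
      z + EuclideanSpace.single j (k * (2 * Real.pi * I)) ∈ ball ζ ρ →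
      Ψ (z + EuclideanSpace.single j (k * (2 * Real.pi * I))) = Ψ z := by
    intro j
    have hl : ∀ z, ee c (z + EuclideanSpace.single j (2 * Real.pi * I)) = ee c z := by
      intro z
      refine ee_add_KL (k := fun _ => 1) c ?_ z
      intro i
      by_cases hij : i = j
      · subst hij
        exact ⟨1, by simp⟩
      · exact ⟨0, by simp [hij]⟩
    have hmul : ∀ i : ℕ, (i • EuclideanSpace.single j (2 * Real.pi * I : ℂ) : Cn N) =
        EuclideanSpace.single j (i * (2 * Real.pi * I)) := by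
      intro i
      ext m
      by_cases hmj : m = j
      · subst hmj; simp
      · simp [hmj]
    obtain ⟨k, hk1, hkd, hk⟩ := pigeon hU hi hf (convex_ball ζ ρ) h hl hd (z₀ := ζ) (by
      intro i hi'
      rw [hmul, mem_ball, dist_eq_norm, add_sub_cancel_left, PiLp.norm_single]
      have h4 : ‖(i : ℂ) * (2 * Real.pi * I)‖ = i * (2 * Real.pi) := by
        rw [norm_mul, norm_mul, norm_mul, Complex.norm_I, mul_one, Complex.norm_natCast,
          Complex.norm_real, Real.norm_eq_abs, abs_of_pos Real.pi_pos]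
        norm_num
      rw [h4]
      have h5 : (i : ℝ) ≤ d := by exact_mod_cast hi'
      have h6 : (1 : ℝ) ≤ √N := by
        rw [Real.one_le_sqrt]
        have : 0 < N := Fin.pos j
        exact_mod_cast this
      have h7 : Real.pi * d * 1 ≤ Real.pi * d * √N := by gcongr
      calc (i : ℝ) * (2 * Real.pi) ≤ d * (2 * Real.pi) := by gcongr
        _ = 2 * (Real.pi * d * 1) := by ring
        _ ≤ 2 * (Real.pi * d * √N) := by linarith
        _ < 2 * (r + Real.pi * d * √N) := by linarith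
        _ ≤ ρ := hρ)
    refine ⟨k, hk1, hkd, ?_⟩
    rw [hmul] at hk
    exact hk
  choose k hk1 hkd hk using hper
  have hinv : ∀ l ∈ KL k, ∀ z, z ∈ ball ζ (ρ / 2) → z + l ∈ ball ζ (ρ / 2) → Ψ (z + l) = Ψ z :=
    fun l hl z hz hzl => inv_KL hρ0 hk hl hz hzl
  have hred : ∀ z ∈ St ζ r, ∃ l ∈ KL k, z + l ∈ ball ζ (ρ / 2) := by
    intro z hz
    obtain ⟨l, hl, hzl⟩ := exists_red hk1 hkd ζ z hz
    exact ⟨l, hl, ball_subset_ball (by linarith) hzl⟩
  have hred' : ∀ z, ∃ l, z ∈ St ζ r → l ∈ KL k ∧ z + l ∈ ball ζ (ρ / 2) := by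
    intro z
    by_cases hz : z ∈ St ζ r
    · obtain ⟨l, hl, hzl⟩ := hred z hz
      exact ⟨l, fun _ => ⟨hl, hzl⟩⟩
    · exact ⟨0, fun h => absurd h hz⟩
  choose R hR using hred'
  let Ψ' : Cn N → X := fun z => Ψ (z + R z)
  have hΨ' : ∀ z ∈ St ζ r, ∀ l ∈ KL k, z + l ∈ ball ζ (ρ / 2) → Ψ' z = Ψ (z + l) := by
    intro z hz l hl hzl
    obtain ⟨h1, h2⟩ := hR z hz
    have h3 := hinv (l - R z) ((KL k).sub_mem hl h1) (z + R z) h2 (by
      have : z + R z + (l - R z) = z + l := by abel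
      rw [this]; exact hzl)
    have h4 : z + R z + (l - R z) = z + l := by abel
    rw [h4] at h3
    exact h3.symm
  have hsub : ball ζ (ρ / 2) ⊆ ball ζ ρ := ball_subset_ball (by linarith)
  have hlift : IsLift f (ee c) U (St ζ r) Ψ' := by
    refine ⟨?_, ?_, ?_⟩
    · intro z hz
      apply ContinuousAt.continuousWithinAt
      obtain ⟨h1, h2⟩ := hR z hz
      have hev : ∀ᶠ w in 𝓝 z, Ψ (w + R z) = Ψ' w := by
        have h3 : ∀ᶠ w in 𝓝 z, w + R z ∈ ball ζ (ρ / 2) :=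
          (continuous_id.add continuous_const).continuousAt.eventually (isOpen_ball.mem_nhds h2)
        filter_upwards [h3, (isOpen_St ζ r).mem_nhds hz] with w hw hw'
        exact (hΨ' w hw' (R z) h1 hw).symm
      refine ContinuousAt.congr ?_ hev
      have h5 : ContinuousAt Ψ (z + R z) := h.cont.continuousAt (isOpen_ball.mem_nhds (hsub h2))
      exact ContinuousAt.comp (f := fun w => w + R z) h5 (by fun_prop)
    · intro z hz
      exact h.mem _ (hsub (hR z hz).2)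
    · intro z hz
      obtain ⟨h1, h2⟩ := hR z hz
      show f (Ψ (z + R z)) = ee c z
      rw [h.eq _ (hsub h2), ee_add_KL c h1]
  have hKSt : ∀ l ∈ KL (fun _ : Fin N => 1), ∀ z ∈ St ζ r, z + l ∈ St ζ r := by
    intro l hl z hz
    have h1 : reV l = 0 := by
      ext j
      obtain ⟨n, hn⟩ := hl j
      rw [reV_apply, hn]; simp
    show ‖reV (z + l - ζ)‖ < r
    have h2 : z + l - ζ = (z - ζ) + l := by abel
    rw [h2, map_add, h1, add_zero]
    exact hz
  -- the period group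
  let Λ : AddSubgroup (Cn N) :=
    { carrier := {l | l ∈ KL (fun _ : Fin N => 1) ∧ ∀ z ∈ St ζ r, Ψ' (z + l) = Ψ' z}
      zero_mem' := ⟨zero_mem _, fun z _ => by rw [add_zero]⟩
      add_mem' := by
        rintro a b ⟨ha, ha'⟩ ⟨hb, hb'⟩
        refine ⟨add_mem ha hb, fun z hz => ?_⟩
        rw [← add_assoc, hb' _ (hKSt a ha z hz), ha' z hz]
      neg_mem' := by
        rintro a ⟨ha, ha'⟩
        refine ⟨neg_mem ha, fun z hz => ?_⟩
        have h1 := ha' (z + -a) (hKSt (-a) (neg_mem ha) z hz)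
        rw [neg_add_cancel_right] at h1
        exact h1.symm }
  have hKk : KL k ≤ KL (fun _ : Fin N => 1) := by
    intro l hl j
    obtain ⟨n, hn⟩ := hl j
    exact ⟨n * k j, by rw [hn]; push_cast; ring⟩
  refine ⟨Λ, Ψ', k, fun j => ⟨hk1 j, hkd j⟩, ?_, fun l hl => hl.1, hlift, ?_, ?_, ?_⟩
  · intro l hl
    refine ⟨hKk hl, fun z hz => ?_⟩
    obtain ⟨h1, h2⟩ := hR z hz
    have h3 := hΨ' (z + l) (hKSt l (hKk hl) z hz) (R z - l) ((KL k).sub_mem h1 hl) (by
      have : z + l + (R z - l) = z + R z := by abel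
      rw [this]; exact h2)
    have h4 : z + l + (R z - l) = z + R z := by abel
    rw [h3, h4]
  · intro z hz
    have := hΨ' z hz.2 0 (zero_mem _) (by rw [add_zero]; exact hz.1)
    rw [this, add_zero]
  · intro l hl z hz
    exact ⟨hKSt l hl.1 z hz, hl.2 z hz⟩
  · intro z hz w hw
    constructor
    · intro hzw
      have h1 : ee c z = ee c w := by
        rw [← hlift.eq z hz, ← hlift.eq w hw, hzw]
      have h2 : z - w ∈ KL (fun _ : Fin N => 1) := by
        intro j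
        obtain ⟨n, hn⟩ := (ee_eq_iff hc z w).1 h1 j
        exact ⟨n, by rw [PiLp.sub_apply, hn]; simp⟩
      refine ⟨h2, ?_⟩
      intro u hu
      have h3 := inv_of_one hU hi hf (convex_St ζ r) hlift (l := z - w)
        (fun v => ee_add_KL c h2 v) (z₁ := w) hw (by rw [add_sub_cancel]; exact hz)
        (by rw [add_sub_cancel]; exact hzw)
      exact h3 u hu (hKSt _ h2 u hu)
    · intro hl
      have h1 := hl.2 w hw
      rw [add_sub_cancel] at h1
      exact h1

end Coord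

end

end Crest.Agent.R281.Tube_242
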