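import Crest.Agent.R281.S6D_664
import Crest.Agent.R281.Tube1_989

/-!
# R281 (S0424), DIV 6: OM-TOP of helper854 #7436, manifold side — helper989

`M` with an atlas `A : Atl N M`, `X0` open, `y : M → Cn m` holomorphic on `X0` in the charts,
`N = d + m`.

* `reg_of_surj` : points where `dy` is surjective are regular in the sense of `Tube1_989`;
* `exists_tube` : `x` with compact leaf along which `dy` is surjective ==> helper664's `Tube`.
-/

set_option autoImplicit false
set_option linter.unusedSectionVars false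

open Set Filter Topology Metric Function

namespace Crest.Agent.R281.Tube2_989

open Crest.Agent.R275.Geo Crest.Agent.R281.S6D_664 Crest.Agent.R281.Tube1_989

noncomputable section

variable {N d m : ℕ} {M : Type} [TopologicalSpace M] {A : Atl N M} {X0 : Set M} {y : M → Cn m}

/-- `y` is holomorphic on `X0` in the charts -/
def HolOn (A : Atl N M) (X0 : Set M) (y : M → Cn m) : Prop :=
  ∀ i, DifferentiableOn ℂ (fun z => y ((A.e i).symm z)) ((A.e i).target ∩ (A.e i).symm ⁻¹' X0)

/-- `dy` is surjective at `p` in the chart `i` -/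
def Sj (A : Atl N M) (y : M → Cn m) (i : A.ι) (p : M) : Prop :=
  Surjective (fderiv ℂ (fun z => y ((A.e i).symm z)) (A.e i p))

lemma isOpen_dom (A : Atl N M) (hX0 : IsOpen X0) (i : A.ι) :
    IsOpen ((A.e i).target ∩ (A.e i).symm ⁻¹' X0) :=
  (A.e i).isOpen_inter_preimage_symm hX0

lemma mem_dom {i : A.ι} {p : M} (hp : p ∈ (A.e i).source) (hpX : p ∈ X0) :
    A.e i p ∈ (A.e i).target ∩ (A.e i).symm ⁻¹' X0 :=
  ⟨(A.e i).map_source hp, by simpa only [mem_preimage, (A.e i).left_inv hp] using hpX⟩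

lemma HolOn.contDiffAt (hX0 : IsOpen X0) (hy : HolOn A X0 y) {i : A.ι} {p : M}
    (hp : p ∈ (A.e i).source) (hpX : p ∈ X0) :
    ContDiffAt ℂ 1 (fun z => y ((A.e i).symm z)) (A.e i p) :=
  ((Crest.Agent.R266.SCV.contDiffOn_omega_of_differentiableOn (isOpen_dom A hX0 i)
    (hy i)).of_le le_top).contDiffAt ((isOpen_dom A hX0 i).mem_nhds (mem_dom hp hpX))

/-- surjectivity of `dy` does not depend on the chart -/
lemma Sj.change (hX0 : IsOpen X0) (hy : HolOn A X0 y) {i j : A.ι} {p : M}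
    (hi : p ∈ (A.e i).source) (hj : p ∈ (A.e j).source) (hpX : p ∈ X0) (h : Sj A y i p) :
    Sj A y j p := by
  have hmem : A.e i p ∈ A.ov i j :=
    ⟨(A.e i).map_source hi, by rw [(A.e i).left_inv hi]; exact hj⟩
  have hov : IsOpen (A.ov i j) := isOpen_ov i j
  have h1 : DifferentiableAt ℂ (fun z => A.e j ((A.e i).symm z)) (A.e i p) :=
    (A.holo i j).differentiableAt (hov.mem_nhds hmem)
  have h2 : DifferentiableAt ℂ (fun z => y ((A.e j).symm z)) (A.e j p) :=
    (hy.contDiffAt hX0 hj hpX).differentiableAt one_ne_zero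
  have h3 : (fun z => y ((A.e i).symm z)) =ᶠ[𝓝 (A.e i p)]
      (fun z => y ((A.e j).symm z)) ∘ (fun z => A.e j ((A.e i).symm z)) := by
    filter_upwards [hov.mem_nhds hmem] with z hz
    simp only [Function.comp_apply, (A.e j).left_inv hz.2]
  have h4 : A.e j ((A.e i).symm (A.e i p)) = A.e j p := by rw [(A.e i).left_inv hi]
  have h5 : fderiv ℂ (fun z => y ((A.e i).symm z)) (A.e i p) =
      (fderiv ℂ (fun z => y ((A.e j).symm z)) (A.e j p)).comp
        (fderiv ℂ (fun z => A.e j ((A.e i).symm z)) (A.e i p)) := by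
    rw [h3.fderiv_eq, fderiv_comp _ (by rw [h4]; exact h2) h1, h4]
  intro w
  obtain ⟨v, hv⟩ := h w
  rw [h5] at hv
  exact ⟨_, hv⟩

/-- points where `dy` is surjective are regular -/
theorem reg_of_surj (hN : N = d + m) (hX0 : IsOpen X0) (hy : HolOn A X0 y) {i : A.ι} {p : M}
    (hp : p ∈ (A.e i).source) (hpX : p ∈ X0) (hs : Sj A y i p) :
    p ∈ Reg (Cn d) X0 y := by
  set f : Cn N → Cn m := fun z => y ((A.e i).symm z) with hf
  set z0 := A.e i p with hz0
  have hcd : ContDiffAt ℂ 1 f z0 := hy.contDiffAt hX0 hp hpX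
  have hstr : HasStrictFDerivAt f (fderiv ℂ f z0) z0 := hcd.hasStrictFDerivAt one_ne_zero
  have hr : (fderiv ℂ f z0).range = ⊤ := LinearMap.range_eq_top.2 hs
  have hk : Module.finrank ℂ (fderiv ℂ f z0).ker = Module.finrank ℂ (Cn d) := by
    have h1 := LinearMap.finrank_range_add_finrank_ker (fderiv ℂ f z0).toLinearMap
    have h2 : Module.finrank ℂ (LinearMap.range (fderiv ℂ f z0).toLinearMap) = m := by
      have : LinearMap.range (fderiv ℂ f z0).toLinearMap = ⊤ := LinearMap.range_eq_top.2 hs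
      rw [this, finrank_top]; simp
    rw [h2] at h1
    simp only [finrank_euclideanSpace, Fintype.card_fin] at h1 ⊢
    have h3 : Module.finrank ℂ (fderiv ℂ f z0).ker =
        Module.finrank ℂ (LinearMap.ker (fderiv ℂ f z0).toLinearMap) := rfl
    omega
  let T : (fderiv ℂ f z0).ker ≃L[ℂ] Cn d := ContinuousLinearEquiv.ofFinrankEq hk
  let g := hstr.implicitToOpenPartialHomeomorph f (fderiv ℂ f z0) hr
  let e0 : OpenPartialHomeomorph M (Cn m × Cn d) :=
    ((A.e i).trans g).trans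
      ((Homeomorph.refl (Cn m)).prodCongr T.toHomeomorph).toOpenPartialHomeomorph
  have he0 : p ∈ e0.source := by
    simp only [e0, OpenPartialHomeomorph.trans_source, Homeomorph.toOpenPartialHomeomorph_source,
      preimage_univ, inter_univ, mem_inter_iff, mem_preimage]
    exact ⟨hp, hstr.mem_implicitToOpenPartialHomeomorph_source hr⟩
  refine ⟨e0.restrOpen X0 hX0, ?_, ?_, ?_⟩
  · rw [OpenPartialHomeomorph.restrOpen_source]
    exact ⟨he0, hpX⟩
  · rw [OpenPartialHomeomorph.restrOpen_source]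
    exact inter_subset_right
  · intro q hq
    rw [OpenPartialHomeomorph.restrOpen_source] at hq
    have hqi : q ∈ (A.e i).source := by
      have := hq.1
      simp only [e0, OpenPartialHomeomorph.trans_source] at this
      exact this.1.1
    have h1 : (e0 q).1 = f (A.e i q) := by
      simp [e0, g]
    have h2 : (e0.restrOpen X0 hX0) q = e0 q := rfl
    rw [h2, h1, hf]
    simp only [(A.e i).left_inv hqi]

/-- surjectivity is an open condition -/
lemma eventually_surjective (L : Cn N →L[ℂ] Cn m) (hL : Surjective L) :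
    ∀ᶠ L' : Cn N →L[ℂ] Cn m in 𝓝 L, Surjective L' := by
  obtain ⟨g, hg⟩ := L.toLinearMap.exists_rightInverse_of_surjective (LinearMap.range_eq_top.2 hL)
  set R : Cn m →L[ℂ] Cn N := LinearMap.toContinuousLinearMap g with hR
  have h1 : L.comp R = 1 := by
    ext1 w
    exact LinearMap.congr_fun hg w
  have h2 : Continuous fun L' : Cn N →L[ℂ] Cn m => L'.comp R := by fun_prop
  have h3 : IsUnit (L.comp R) := by rw [h1]; exact isUnit_one
  filter_upwards [h2.continuousAt.eventually (Units.isOpen.mem_nhds h3)] with L' hL'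
  obtain ⟨u, hu⟩ := hL'
  intro w
  refine ⟨R ((↑u⁻¹ : Cn m →L[ℂ] Cn m) w), ?_⟩
  have h4 : (L'.comp R) * (↑u⁻¹ : Cn m →L[ℂ] Cn m) = 1 := by
    rw [← hu]; exact u.mul_inv
  exact DFunLike.congr_fun h4 w

/-- the points of `X0` where `dy` is surjective form an open set -/
theorem isOpen_surj (hX0 : IsOpen X0) (hy : HolOn A X0 y) :
    IsOpen {p | p ∈ X0 ∧ ∀ i, p ∈ (A.e i).source → Sj A y i p} := by
  rw [isOpen_iff_mem_nhds]
  rintro p ⟨hpX, hp⟩
  obtain ⟨i, hi⟩ := A.cover p
  have h1 : ContinuousAt (fderiv ℂ (fun z => y ((A.e i).symm z))) (A.e i p) :=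
    ((hy.contDiffAt hX0 hi hpX).fderiv_right (m := 0) (by simp)).continuousAt
  have h2 : ∀ᶠ L : Cn N →L[ℂ] Cn m in 𝓝 (fderiv ℂ (fun z => y ((A.e i).symm z)) (A.e i p)), Surjective L := by
    exact eventually_surjective _ (hp i hi)
  have h3 : ∀ᶠ q in 𝓝 p, Surjective (fderiv ℂ (fun z => y ((A.e i).symm z)) (A.e i q)) :=
    ((A.e i).continuousAt hi).eventually (h1.eventually h2)
  filter_upwards [h3, (A.e i).open_source.mem_nhds hi, hX0.mem_nhds hpX] with q hq hqi hqX
  exact ⟨hqX, fun j hj => Sj.change hX0 hy hqi hj hqX hq⟩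

/-- **OM-TOP, tube form**: a compact leaf along which `dy` is surjective has a tube -/
theorem exists_tube [T2Space M] (hN : N = d + m) (hX0 : IsOpen X0) (hy : HolOn A X0 y) {x : M}
    (hx : x ∈ X0) (hc : IsCompact (leaf X0 y x))
    (hs : ∀ p ∈ leaf X0 y x, ∀ i, p ∈ (A.e i).source → Sj A y i p)
    {O : Set M} (hO : IsOpen O) (hLO : leaf X0 y x ⊆ O) :
    ∃ τ : Tube A m (leaf X0 y), leaf X0 y x ⊆ τ.W ∧ τ.W ⊆ O ∧ τ.W ⊆ X0 ∧ τ.f = y ∧
      (∃ r, 0 < r ∧ τ.U = ball (y x) r) ∧ ∀ p ∈ τ.W, IsCompact (leaf X0 y p) := by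
  set R : Set M := {p | p ∈ X0 ∧ ∀ i, p ∈ (A.e i).source → Sj A y i p} with hR
  have hRo : IsOpen R := isOpen_surj hX0 hy
  have hLR : leaf X0 y x ⊆ R := fun p hp => ⟨leaf_X0 hp, hs p hp⟩
  have hg : Good (Cn d) X0 y x := by
    refine ⟨hx, hc, fun p hp => ?_⟩
    obtain ⟨i, hi⟩ := A.cover p
    exact reg_of_surj hN hX0 hy hi (leaf_X0 hp) (hs p hp i hi)
  obtain ⟨r, hr, W, hWo, hLW, hWO, -, hyW, hW, hpr⟩ :=
    tube hg (hO.inter hRo) (subset_inter hLO hLR)
  refine ⟨{
    W := W
    U := ball (y x) r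
    f := y
    oW := hWo
    oU := isOpen_ball
    hol := fun i => (hy i).mono fun z hz => ⟨hz.1, (hWO hz.2).2.1⟩
    sub := fun i p hp => (hWO hp.2).2.2 i hp.1
    maps := fun p hp => hyW ▸ mem_image_of_mem y hp
    onto := fun b hb => by rw [← hyW] at hb; exact hb
    proper := hpr
    fib := fun p hp => (hW p hp).1
    conn := fun p hp => leaf_connected (hWO hp).2.1 }, hLW, fun p hp => (hWO hp).1,
    fun p hp => (hWO hp).2.1, rfl, ⟨r, hr, rfl⟩, fun p hp => (hW p hp).2.2.1⟩

end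

end Crest.Agent.R281.Tube2_989
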