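import Crest.Agent.R281.Sta2_684

/-!
# Row 281 (S0424), frames and rotations (helper327)

* `fr_iff`, `fr_mul`, `fr_tr` : oriented orthonormal frames of `ℝ³` form a group
* `mulR R' R`    : composition, `rot_rot : (H.rot R).rot R' = H.rot (mulR R' R)` on the targets
* `HEqv.rot`, `HEqv.smulP`, `smulP_smulP`, `smulP_rot`
* `frA s u`      : the rotation about `om 1`, `frB s u` : the rotation about `om 2`
-/

set_option autoImplicit false
set_option linter.unusedSectionVars false
set_option maxSynthPendingDepth 3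

open Set Filter Topology
open scoped ContDiff Matrix

namespace Crest.Agent.R281.Tw_327

open Crest.Agent.R281.HkR_835 Crest.Agent.R281.Ti_846 Crest.Agent.R281.Cdr_234
open Crest.Agent.R281.Alg_998 Crest.Agent.R281.Dif_268
open Crest.Agent.R281.Sta2_684 (smulP smulP_om smulP_J)

noncomputable section

/-! ### frames -/

/-- an oriented orthonormal frame is a matrix in `SO(3)` -/
theorem fr_iff (R : Fin 3 → Fin 3 → ℝ) :
    HkT.Fr R ↔ (Matrix.of R * (Matrix.of R)ᵀ = 1 ∧ (Matrix.of R).det = 1) := by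
  constructor
  · intro h
    have n0 := h.nrm 0
    have n1 := h.nrm 1
    have n2 := h.nrm 2
    have o := h.ort
    have c0 : R 2 0 = R 0 1 * R 1 2 - R 0 2 * R 1 1 := by rw [h.crs]; rfl
    have c1 : R 2 1 = R 0 2 * R 1 0 - R 0 0 * R 1 2 := by rw [h.crs]; rfl
    have c2 : R 2 2 = R 0 0 * R 1 1 - R 0 1 * R 1 0 := by rw [h.crs]; rfl
    refine ⟨?_, ?_⟩
    · ext i j
      rw [Matrix.mul_apply, Fin.sum_univ_three]
      simp only [Matrix.transpose_apply, Matrix.of_apply]
      fin_cases i <;> fin_cases j <;>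
        simp only [Fin.zero_eta, Fin.mk_one, Fin.reduceFinMk, Matrix.one_apply_eq, ne_eq,
          Fin.reduceEq, not_false_eq_true, Matrix.one_apply_ne, zero_ne_one, one_ne_zero] <;>
        first
          | linarith
          | (rw [c0, c1, c2]; ring)
    · rw [Matrix.det_fin_three]
      simp only [Matrix.of_apply]
      rw [← n2]
      rw [c0, c1, c2]
      ring
  · rintro ⟨h1, h2⟩
    have e : ∀ i j, R i 0 * R j 0 + R i 1 * R j 1 + R i 2 * R j 2 =
        (1 : Matrix (Fin 3) (Fin 3) ℝ) i j := by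
      intro i j
      rw [← h1, Matrix.mul_apply, Fin.sum_univ_three]
      rfl
    refine ⟨fun k => ?_, ?_, ?_⟩
    · rw [e, Matrix.one_apply_eq]
    · rw [e, Matrix.one_apply_ne (by decide)]
    · have h3 : (Matrix.of R).adjugate = (Matrix.of R)ᵀ := by
        have h4 := Matrix.mul_adjugate (Matrix.of R)
        rw [h2, one_smul] at h4
        have h5 : (Matrix.of R)ᵀ * Matrix.of R = 1 := mul_eq_one_comm.1 h1
        calc (Matrix.of R).adjugate = 1 * (Matrix.of R).adjugate := (one_mul _).symm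
          _ = (Matrix.of R)ᵀ * Matrix.of R * (Matrix.of R).adjugate := by rw [h5]
          _ = (Matrix.of R)ᵀ := by rw [mul_assoc, h4, mul_one]
      funext m
      have h6 : (Matrix.of R).adjugate m 2 = R 2 m := by rw [h3]; rfl
      rw [← h6, Matrix.adjugate_fin_three]
      fin_cases m <;> simp <;> ring

/-- composition of frames -/
def mulR (R' R : Fin 3 → Fin 3 → ℝ) : Fin 3 → Fin 3 → ℝ := fun k m => ∑ l, R' k l * R l m

theorem of_mulR (R' R : Fin 3 → Fin 3 → ℝ) :
    Matrix.of (mulR R' R) = Matrix.of R' * Matrix.of R := by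
  ext k m
  rw [Matrix.mul_apply]
  rfl

theorem fr_mul {R' R : Fin 3 → Fin 3 → ℝ} (h' : HkT.Fr R') (h : HkT.Fr R) :
    HkT.Fr (mulR R' R) := by
  rw [fr_iff] at h' h ⊢
  rw [of_mulR]
  refine ⟨?_, ?_⟩
  · rw [Matrix.transpose_mul, mul_assoc, ← mul_assoc (Matrix.of R), h.1, one_mul, h'.1]
  · rw [Matrix.det_mul, h'.2, h.2, one_mul]

/-- the inverse frame -/
def trR (R : Fin 3 → Fin 3 → ℝ) : Fin 3 → Fin 3 → ℝ := fun k m => R m k

theorem of_trR (R : Fin 3 → Fin 3 → ℝ) : Matrix.of (trR R) = (Matrix.of R)ᵀ := rfl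

theorem fr_tr {R : Fin 3 → Fin 3 → ℝ} (h : HkT.Fr R) : HkT.Fr (trR R) := by
  rw [fr_iff] at h ⊢
  rw [of_trR]
  refine ⟨?_, ?_⟩
  · rw [Matrix.transpose_transpose]
    exact mul_eq_one_comm.1 h.1
  · rw [Matrix.det_transpose, h.2]

/-- the identity frame -/
def oneR : Fin 3 → Fin 3 → ℝ := fun k m => if k = m then 1 else 0

theorem of_oneR : Matrix.of oneR = (1 : Matrix (Fin 3) (Fin 3) ℝ) := by
  ext k m
  rw [Matrix.one_apply]
  rfl

theorem fr_one : HkT.Fr oneR := by
  rw [fr_iff, of_oneR]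
  simp

theorem mulR_tr {R : Fin 3 → Fin 3 → ℝ} (h : HkT.Fr R) : mulR (trR R) R = oneR := by
  apply Matrix.of.injective
  rw [of_mulR, of_oneR, of_trR]
  exact mul_eq_one_comm.1 ((fr_iff R).1 h).1

/-- the rotation about `om 1` -/
def frA (s u : ℝ) : Fin 3 → Fin 3 → ℝ :=
  ![![s / √(s ^ 2 + u ^ 2), 0, -(u / √(s ^ 2 + u ^ 2))], ![0, 1, 0],
    ![u / √(s ^ 2 + u ^ 2), 0, s / √(s ^ 2 + u ^ 2)]]

/-- the rotation about `om 2` -/
def frB (s u : ℝ) : Fin 3 → Fin 3 → ℝ :=
  ![![s / √(s ^ 2 + u ^ 2), -(u / √(s ^ 2 + u ^ 2)), 0],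
    ![u / √(s ^ 2 + u ^ 2), s / √(s ^ 2 + u ^ 2), 0], ![0, 0, 1]]

theorem rho_pos {s u : ℝ} (hs : s ≠ 0) : 0 < √(s ^ 2 + u ^ 2) := by
  apply Real.sqrt_pos.2
  positivity

theorem rho_sq {s u : ℝ} (hs : s ≠ 0) :
    s / √(s ^ 2 + u ^ 2) * (s / √(s ^ 2 + u ^ 2)) + u / √(s ^ 2 + u ^ 2) * (u / √(s ^ 2 + u ^ 2)) =
      1 := by
  have h := rho_pos (u := u) hs
  have h2 : √(s ^ 2 + u ^ 2) * √(s ^ 2 + u ^ 2) = s ^ 2 + u ^ 2 :=
    Real.mul_self_sqrt (by positivity)
  rw [div_mul_div_comm, div_mul_div_comm, ← add_div, h2, ← sq, ← sq, div_self]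
  positivity

theorem fr_frA {s u : ℝ} (hs : s ≠ 0) : HkT.Fr (frA s u) where
  nrm k := by
    have h := rho_sq (u := u) hs
    fin_cases k
    · simp only [frA, Fin.zero_eta, Matrix.cons_val_zero, Matrix.cons_val_one, Matrix.cons_val]
      linarith
    · simp [frA]
    · simp only [frA, Fin.reduceFinMk, Matrix.cons_val_zero, Matrix.cons_val_one, Matrix.cons_val]
      linarith
  ort := by simp [frA]
  crs := by
    funext m
    fin_cases m <;> simp [frA]

theorem fr_frB {s u : ℝ} (hs : s ≠ 0) : HkT.Fr (frB s u) where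
  nrm k := by
    have h := rho_sq (u := u) hs
    fin_cases k
    · simp only [frB, Fin.zero_eta, Matrix.cons_val_zero, Matrix.cons_val_one, Matrix.cons_val]
      linarith
    · simp only [frB, Fin.mk_one, Matrix.cons_val_zero, Matrix.cons_val_one, Matrix.cons_val]
      linarith
    · simp [frB]
  ort := by
    simp only [frB, Matrix.cons_val_zero, Matrix.cons_val_one, Matrix.cons_val]
    ring
  crs := by
    have h := rho_sq (u := u) hs
    funext m
    fin_cases m
    · simp [frB]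
    · simp [frB]
    · simp only [frB, Fin.reduceFinMk, Matrix.cons_val_zero, Matrix.cons_val_one, Matrix.cons_val]
      linarith

/-! ### rotated triples -/

variable {V X : Type} [NormedAddCommGroup V] [NormedSpace ℝ V] [TopologicalSpace X]
  {C : RCh V X}

theorem lin_lin (H : HkT C) (R' R : Fin 3 → Fin 3 → ℝ) (k : Fin 3) :
    F2.lin (R' k) (fun l => F2.lin (R l) H.om) = F2.lin (mulR R' R k) H.om := by
  simp only [F2.lin_eq, Fin.sum_univ_three, mulR, smul_add, smul_smul, add_smul]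
  abel

/-- two rotations -/
theorem rot_rot (H : HkT C) {R' R : Fin 3 → Fin 3 → ℝ} (h' : HkT.Fr R') (h : HkT.Fr R) :
    HEqv ((H.rot R h).rot R' h') (H.rot (mulR R' R) (fr_mul h' h)) where
  om k i z _ := by
    have := lin_lin H R' R k
    exact congrArg (fun w : F2 C => w.w i z) this
  J k i z _ := by
    show (∑ l, R' k l • (∑ m, R l m • H.J m i z)) = ∑ m, (mulR R' R k m) • H.J m i z
    simp only [Fin.sum_univ_three, mulR, smul_add, smul_smul, add_smul]
    abel
  g _ _ _ := rfl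

theorem rot_one (H : HkT C) : HEqv (H.rot oneR fr_one) H where
  om k i z _ := by
    show (F2.lin (oneR k) H.om).w i z = _
    rw [F2.lin_eq]
    congr 1
    fin_cases k <;> simp [oneR]
  J k i z _ := by
    show ∑ m, oneR k m • H.J m i z = _
    fin_cases k <;> simp [oneR]
  g _ _ _ := rfl

/-- the frame may be replaced by an equal one -/
theorem rot_congr (H : HkT C) {R R' : Fin 3 → Fin 3 → ℝ} (h : HkT.Fr R) (h' : HkT.Fr R')
    (e : R = R') : HEqv (H.rot R h) (H.rot R' h') := by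
  subst e
  exact HEqv.refl _

theorem HEqv.rot {H H' : HkT C} (h : HEqv H H') {R : Fin 3 → Fin 3 → ℝ} (hR : HkT.Fr R) :
    HEqv (H.rot R hR) (H'.rot R hR) where
  om k i z hz := by
    show (F2.lin (R k) H.om).w i z = (F2.lin (R k) H'.om).w i z
    ext u v
    rw [F2.lin_w, F2.lin_w]
    simp only [h.om _ i z hz]
  J k i z hz := by
    show ∑ m, R k m • H.J m i z = ∑ m, R k m • H'.J m i z
    simp only [h.J _ i z hz]
  g i z hz := h.g i z hz

theorem HEqv.smulP {H H' : HkT C} (h : HEqv H H') {t : ℝ} (ht : 0 < t) :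
    HEqv (Sta2_684.smulP t ht H) (Sta2_684.smulP t ht H') where
  om k i z hz := by
    show t • (H.om k).w i z = t • (H'.om k).w i z
    rw [h.om k i z hz]
  J k i z hz := h.J k i z hz
  g i z hz := by
    show t • H.g i z = t • H'.g i z
    rw [h.g i z hz]

theorem smulP_smulP {t s : ℝ} (ht : 0 < t) (hs : 0 < s) (H : HkT C) :
    HEqv (Sta2_684.smulP t ht (Sta2_684.smulP s hs H)) (Sta2_684.smulP (t * s) (mul_pos ht hs) H)
    where
  om k i z _ := by
    show t • s • (H.om k).w i z = (t * s) • (H.om k).w i z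
    rw [smul_smul]
  J _ _ _ _ := rfl
  g i z _ := by
    show t • s • H.g i z = (t * s) • H.g i z
    rw [smul_smul]

theorem smulP_one (H : HkT C) {t : ℝ} (ht : 0 < t) (h : t = 1) : HEqv (Sta2_684.smulP t ht H) H
    where
  om k i z _ := by
    show t • (H.om k).w i z = _
    rw [h, one_smul]
  J _ _ _ _ := rfl
  g i z _ := by
    show t • H.g i z = _
    rw [h, one_smul]

theorem smulP_rot {t : ℝ} (ht : 0 < t) (H : HkT C) {R : Fin 3 → Fin 3 → ℝ} (hR : HkT.Fr R) :
    HEqv ((Sta2_684.smulP t ht H).rot R hR) (Sta2_684.smulP t ht (H.rot R hR)) where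
  om k i z _ := by
    show (F2.lin (R k) (fun l => t • H.om l)).w i z = t • (F2.lin (R k) H.om).w i z
    ext u v
    rw [F2.lin_w]
    simp only [smul_apply, smul_eq_mul]
    rw [F2.lin_w, Finset.mul_sum]
    refine Finset.sum_congr rfl fun l _ => ?_
    show R k l * (t * (H.om l).w i z u v) = t * (R k l * (H.om l).w i z u v)
    ring
  J _ _ _ _ := rfl
  g _ _ _ := rfl

end

end Crest.Agent.R281.Tw_327
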