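import Crest.Agent.R281.UId_710
import Crest.Agent.R281.SK4_507
import Crest.Agent.R281.Mass5_519
import Crest.Agent.R281.N2_373
import Crest.Agent.R281.D6y_986
import Crest.Agent.R273.C0f_793
import Crest.Agent.R273.AsmB_73

/-!
# R281 (S0424), node UPre (helper710, for 425): the mass, the bound, and the assembly

* `mass_push`  : `f_*(det fb K_V) = vol`, families of leaves over any base;
* `push_dp`, `push_xi` : `f_*(det fb (K + t ∂∂̄H))` and `f_*(xi)` do not depend on `H`;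
* `xi_nonneg`;
* `uF`, `uF_sm`, `uF_bdd`;
* `uPreStmt`   : `D6_986.UPreStmt`.
-/

set_option autoImplicit false
set_option linter.unusedSectionVars false

open Set Filter Topology Complex MeasureTheory
open scoped ContDiff Matrix ComplexConjugate Manifold ComplexOrder

namespace Crest.Agent.R281.UAs_710

open Crest.Agent.R275.Geo Crest.Agent.R275.Core144 Crest.Agent.R275.GC293
open Crest.Agent.R273.Defs_333 Crest.Agent.R273.Kah_333 Crest.Agent.R273.HM_333
open Crest.Agent.R273.Hess_333 Crest.Agent.R273.HessB_333 Crest.Agent.R273.KahI_645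
open Crest.Agent.R273 Crest.Agent.R273.Map_835 Crest.Agent.R275.EDR890 Crest.Agent.R273.Green_5
open Crest.Agent.R275.Tor812 Crest.Agent.R275.TorS666
open Crest.Agent.R273.StokesV_332 (intD intD_congr Den NonnegD)
open Crest.Agent.R273.FIb0_597 (ch mem_ch)
open Crest.Agent.R281.Defs_273 Crest.Agent.R281.LEnd_10 Crest.Agent.R281.Glob1_484
open Crest.Agent.R281.S6D_664 (LFib Fam fb)
open Crest.Agent.R281.Fib2_425 Crest.Agent.R281.Lf2_425 Crest.Agent.R281.Lf3_425
open Crest.Agent.R281.Lf4_425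
open Crest.Agent.R281.Fib4_425 (Tst)
open Crest.Agent.R281.D6_986 Crest.Agent.R281.UId_710
open Crest.Agent.R281.Fub_192 (leaf Lf)
open Crest.Agent.R281.Mass5_519 (VolC)

noncomputable section

variable {n m : ℕ} {M : Type} [TopologicalSpace M] {A : Atl (2 * n) M} {σ : HSymp A} {L : LB A}

/-! ### mass -/

theorem mass_push {Fo : LFib A σ} {K : Kah A} {v : ℝ}
    (hv : VolC A Fo.Tf Fo.Om n K v) {U : Set (Cn m)} (F : Fam A n m U) (hL : Leafy Fo F)
    {w : Cn m} (hw : w ∈ U) :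
    push F.P (fun k v => (fb ((F.kah K).g k v)).det) w = (v : ℂ) := by
  rw [push_eq_leaf F _ hw]
  obtain ⟨v0, hv0⟩ := (F.conn w hw).nonempty
  have hv0' : F.y v0 = w := hv0
  have h1 := hv.intD_leaf (hL v0).1 (leaf F hw) (by rw [Lf4_425.range_leaf, (hL v0).2, hv0'])
  rw [← h1]
  refine intD_congr _ fun k x hx => ?_
  have h2 := LDen.pb_leaf (Φ := detDen n K) F hw hx
  rw [pb_detDen K F hx, pb_detDen K (leaf F hw) hx] at h2
  exact h2.symm

section fam

variable {N d : ℕ} {A : Atl N M} {U : Set (Cn m)} (F : Fam A d m U)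

theorem push_dp (hU : IsOpen U) (K : Kah A) {H : F.V → ℝ} (hH : F.B.Sm H) (t : ℝ) {w : Cn m}
    (hw : w ∈ U) :
    push F.P (fun k v => (fb ((F.kah K).g k v) + (t : ℂ) • fb (hsf F.B H k v)).det) w =
      push F.P (fun k v => (fb ((F.kah K).g k v)).det) w := by
  have hp := prj F hU
  have hg := kah_cf (F.kah K)
  have hh := hsf_cf hH
  have s1 : ∀ k, F.B.SmAt k (fun v => (fb ((F.kah K).g k v) +
      (t : ℂ) • fb (hsf F.B H k v)).det) := fun k =>
    Fib5_425.smAt_detG fun a b => (hg.sm k _ _).add ((contDiffOn_const (c := (t : ℂ))).mul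
      (hh.sm k _ _))
  have s2 : ∀ k, F.B.SmAt k (fun v => (fb ((F.kah K).g k v)).det) := fun k =>
    Fib5_425.smAt_detG fun a b => hg.sm k _ _
  refine Fib4_425.push_eq_of_weak hp s1 s2 (fun χ hχ => ?_) w hw
  have hK : IsCompact (F.y ⁻¹' tsupport χ) := F.proper _ hχ.sub hχ.cpt
  have h1 := SK2_507.rvol_poly F.P (SK4_507.ada F) (SK1_507.rcf_fib (SK4_507.ada F) hg)
    (SK2_507.bas_comp (SK4_507.ada F) hχ.smC) hH hK (fun x hx => by
      rw [image_eq_zero_of_notMem_tsupport (fun h => hx h), ofReal_zero]) t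
  simp only [SK4_507.wt_ada, mul_one] at h1
  exact h1

/-- the mass of the mixed density -/
theorem push_xi (hU : IsOpen U) (K : Kah A) {H : F.V → ℝ} (hH : F.B.Sm H) {w : Cn m}
    (hw : w ∈ U) :
    push F.P (fun k v => xi (fb ((F.kah K).g k v)) (fb (hsf F.B H k v))) w =
      push F.P (fun k v => (fb ((F.kah K).g k v)).det) w := by
  have hp := prj F hU
  have hg := kah_cf (F.kah K)
  have hh := hsf_cf hH
  have s1 : ∀ (t : ℝ) k, F.B.SmAt k (fun v => (fb ((F.kah K).g k v) +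
      (t : ℂ) • fb (hsf F.B H k v)).det) := fun t k =>
    Fib5_425.smAt_detG fun a b => (hg.sm k _ _).add ((contDiffOn_const (c := (t : ℂ))).mul
      (hh.sm k _ _))
  have h1 : push F.P (fun k v => xi (fb ((F.kah K).g k v)) (fb (hsf F.B H k v))) w =
      push F.P (fun k v => ∑ j : Fin (d + 1), qw d j *
        (fb ((F.kah K).g k v) + ((((j : ℕ) : ℝ) : ℂ)) • fb (hsf F.B H k v)).det) w :=
    push_congr hp fun k v _ _ => xi_sum _ _
  rw [h1, push_finsum hp Finset.univ (F := fun (j : Fin (d + 1)) k v => qw d j *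
    (fb ((F.kah K).g k v) + ((((j : ℕ) : ℝ) : ℂ)) • fb (hsf F.B H k v)).det)
    (fun j _ k => ContDiffOn.mul contDiffOn_const (s1 _ k)) hw]
  have h2 : ∀ j : Fin (d + 1), push F.P (fun k v => qw d j *
      (fb ((F.kah K).g k v) + ((((j : ℕ) : ℝ) : ℂ)) • fb (hsf F.B H k v)).det) w =
      qw d j * push F.P (fun k v => (fb ((F.kah K).g k v)).det) w := fun j => by
    rw [push_smul hp _ hw, push_dp F hU K hH _ hw]
  rw [Finset.sum_congr rfl fun j _ => h2 j, ← Finset.sum_mul, sum_qw, one_mul]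

end fam

/-! ### positivity -/

theorem xi_nonneg {m : ℕ} {G G' : Matrix (Fin m) (Fin m) ℂ} (hG : G.PosDef) (hG' : G'.PosDef) :
    0 ≤ (xi G (G' - G)).re ∧ (xi G (G' - G)).im = 0 := by
  have hH : (G' - G).IsHermitian := hG'.1.sub hG.1
  refine ⟨?_, xi_real hG.1 hH⟩
  have h1 : ∀ t : ℝ, (G + (t : ℂ) • (G' - G)).det =
      (((G + (t : ℂ) • (G' - G)).det.re : ℝ) : ℂ) := by
    intro t
    have h2 : (G + (t : ℂ) • (G' - G)).IsHermitian := by
      refine hG.1.add ?_
      unfold Matrix.IsHermitian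
      rw [Matrix.conjTranspose_smul, hH.eq]
      congr 1
      exact Complex.conj_ofReal t
    have h3 := congrArg Matrix.det h2.eq
    rw [Matrix.det_conjTranspose] at h3
    exact (Complex.conj_eq_iff_re.1 h3).symm
  have h4 : xi G (G' - G) =
      ((∫ t in (0 : ℝ)..1, (G + (t : ℂ) • (G' - G)).det.re : ℝ) : ℂ) := by
    unfold xi
    rw [← intervalIntegral.integral_ofReal]
    congr 1
    funext t
    exact h1 t
  rw [h4, ofReal_re]
  refine intervalIntegral.integral_nonneg zero_le_one fun t ht => ?_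
  have h5 : G + (t : ℂ) • (G' - G) = ((1 - t : ℝ) : ℂ) • G + (t : ℂ) • G' := by
    rw [smul_sub]
    push_cast
    rw [sub_smul, one_smul]
    abel
  have h6 : (((1 - t : ℝ) : ℂ) • G + (t : ℂ) • G').PosSemidef := by
    refine (hG.posSemidef.smul ?_).add (hG'.posSemidef.smul ?_)
    · exact Complex.zero_le_real.2 (by linarith [ht.2])
    · exact Complex.zero_le_real.2 ht.1
  rw [h5]
  exact (Complex.nonneg_iff.1 h6.det_nonneg).1

/-! ### the function `u` -/

section u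

variable {o : OmOut σ L} {h : HM L} {K : Kah A} (sk : SKOut K o h)

open Classical in
/-- `u = ρ/k + (1/v) leafI` on `Om` -/
def uF (c : ℝ) (x : M) : ℝ :=
  if x ∈ o.F.Om then (1 / (o.k : ℝ)) * o.rho h x + (1 / c) * (leafI (mixU sk) (o.F.Tf x)).re
  else 0

theorem uF_on (c : ℝ) {x : M} (hx : x ∈ o.F.Om) : uF sk c x =
    (1 / (o.k : ℝ)) * o.rho h x + (1 / c) * (leafI (mixU sk) (o.F.Tf x)).re := if_pos hx

theorem uF_off (c : ℝ) {x : M} (hx : x ∉ o.F.Om) : uF sk c x = 0 := if_neg hx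

theorem uF_sm [T2Space M] [SecondCountableTopology M] (c : ℝ) {i : A.ι} {z : Cn (2 * n)}
    (hz : z ∈ (A.e i).target) (hO : (A.e i).symm z ∈ o.F.Om) :
    ContDiffAt ℝ ∞ (fun w => uF sk c ((A.e i).symm w)) z := by
  obtain ⟨τ, hτ, hW, -⟩ := o.F.tube _ hO
  obtain ⟨W, Q, hQ, hxQ, hQW, h1, h2⟩ := leafI_sm (d := n) (two_mul n) τ hW (mixU_smOn sk) hτ
  have hopen : IsOpen ((A.e i).target ∩ (A.e i).symm ⁻¹' Q) :=
    (A.e i).isOpen_inter_preimage_symm hQ
  have hev : (fun w => uF sk c ((A.e i).symm w)) =ᶠ[𝓝 z] fun w =>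
      (1 / (o.k : ℝ)) * o.rho h ((A.e i).symm w) + (1 / c) * (W (τ.f ((A.e i).symm w))).re := by
    filter_upwards [hopen.mem_nhds ⟨hz, hxQ⟩] with w hw
    rw [uF_on sk c (hW (hQW hw.2)), h1 _ hw.2]
  refine ContDiffAt.congr_of_eventuallyEq ?_ hev
  have hfd : DifferentiableOn ℂ (fun z => τ.f ((A.e i).symm z))
      ((A.e i).target ∩ (A.e i).symm ⁻¹' Q) := (τ.hol i).mono fun w hw => ⟨hw.1, hQW hw.2⟩
  have hfs : ContDiffAt ℝ ∞ (fun z => τ.f ((A.e i).symm z)) z :=
    (((Crest.Agent.R266.SCV.contDiffOn_omega_of_differentiableOn hopen hfd).restrict_scalars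
      ℝ).of_le le_top).contDiffAt (hopen.mem_nhds ⟨hz, hxQ⟩)
  have hWs : ContDiffAt ℝ ∞ (fun w => (W (τ.f ((A.e i).symm w))).re) z :=
    Complex.reCLM.contDiff.contDiffAt.comp z
      (ContDiffAt.comp z (g := W) (f := fun z => τ.f ((A.e i).symm z)) (h2 _ hxQ) hfs)
  exact (contDiffAt_const.mul (rho_smAt o h hz hO)).add (contDiffAt_const.mul hWs)

theorem uF_bdd [T2Space M] [SecondCountableTopology M] {c : ℝ}
    (hc : VolC A o.F.Tf o.F.Om n K c) {C Cφ : ℝ} (hC : ∀ x ∈ o.F.Om, ∀ y ∈ o.F.Tf x,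
      |o.rho h y - o.rho h x| ≤ C) (hφ : ∀ x, |sk.φ x| ≤ Cφ) {x : M} (hx : x ∈ o.F.Om) :
    |uF sk c x| ≤ Cφ + (1 / (o.k : ℝ)) * C := by
  have hk : 0 < (o.k : ℝ) := by exact_mod_cast o.k_pos
  obtain ⟨F0, hl, hr, -⟩ := N2_373.exists_leafy o.F hx
  have hxr : x ∈ range F0.i := by rw [hr]; exact N2_373.self_tf hx
  obtain ⟨v0, hv0⟩ := hxr
  have hU : IsOpen (univ : Set (Cn 0)) := isOpen_univ
  have hp := prj F0 hU
  set w0 := F0.y v0 with hw0
  have hw : w0 ∈ (univ : Set (Cn 0)) := mem_univ _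
  have hTf : o.F.Tf x = F0.i '' (F0.y ⁻¹' {w0}) := by rw [← hv0]; exact (hl v0).2
  have hI : leafI (mixU sk) (o.F.Tf x) = push F0.P ((mixU sk).pb F0) w0 := by
    rw [hTf]
    exact leafI_fam F0 (mixU_smOn sk) (fun v => (hl v).1) hw
  set η : F0.B.ι → F0.V → ℂ := (mixDen n (kah_cf K) (kah_cf sk.K') (fun _ => (1 : ℝ))).pb F0 with hη
  have hηe : ∀ k, ∀ v ∈ (F0.B.e k).source, η k v =
      xi (fb ((F0.kah K).g k v)) (fb ((F0.kah sk.K').g k v) - fb ((F0.kah K).g k v)) :=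
    fun k v hv => by
      rw [hη, pb_mixDen K sk.K' _ F0 hv, ofReal_one, one_mul]
  have hηsm : (mixDen n (kah_cf K) (kah_cf sk.K') (fun _ => (1 : ℝ))).SmOn (univ : Set M) :=
    mixDen_smOn _ _ fun _ _ _ _ => contDiffAt_const
  have hηd : Den F0.B η := LDen.pb_den F0 hηsm fun _ => mem_univ _
  have hηp : NonnegD F0.B η := fun k v hv => by
    rw [hηe k v hv]
    exact xi_nonneg (((F0.kah K).pos k v hv).submatrix (Fin.castAdd_injective _ _))
      (((F0.kah sk.K').pos k v hv).submatrix (Fin.castAdd_injective _ _))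
  have hsmH : F0.B.Sm (fun v => av o h sk.φ (F0.i v)) := sm_av sk hl
  have hfb : ∀ k, ∀ v ∈ (F0.B.e k).source, fb ((F0.kah sk.K').g k v) - fb ((F0.kah K).g k v) =
      fb (hsf F0.B (fun v => av o h sk.φ (F0.i v)) k v) := fun k v hv => by
    rw [kah_eq sk hl hv, Fib5_425.fb_add, add_sub_cancel_left]
  have hmass : push F0.P η w0 = (c : ℂ) := by
    rw [← mass_push hc F0 hl hw, ← push_xi F0 hU K hsmH hw]
    refine push_congr hp fun k v hv _ => ?_
    rw [hηe k v hv, hfb k v hv]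
  have hmix : push F0.P ((mixU sk).pb F0) w0 =
      push F0.P (fun k v => (av o h sk.φ (F0.i v) : ℂ) * η k v) w0 := by
    refine push_congr hp fun k v hv _ => ?_
    rw [pb_mixU sk hl hv, hηe k v hv, hfb k v hv]
  set r : ℝ := (1 / (o.k : ℝ)) * o.rho h x with hr'
  set b : F0.V → ℝ := fun v => r + av o h sk.φ (F0.i v) with hb
  have hbs : F0.B.Sm b := fun k => ContDiffOn.add contDiffOn_const (hsmH k)
  have hbb : ∀ v, |b v| ≤ Cφ + (1 / (o.k : ℝ)) * C := by
    intro v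
    have hy : F0.i v ∈ o.F.Tf x := by rw [← hr]; exact mem_range_self v
    have h1 := hC x hx _ hy
    have h2 := hφ (F0.i v)
    have h3 : b v = sk.φ (F0.i v) - (1 / (o.k : ℝ)) * (o.rho h (F0.i v) - o.rho h x) := by
      simp only [hb, hr', av]
      ring
    rw [h3]
    calc |sk.φ (F0.i v) - (1 / (o.k : ℝ)) * (o.rho h (F0.i v) - o.rho h x)|
        ≤ |sk.φ (F0.i v)| + |(1 / (o.k : ℝ)) * (o.rho h (F0.i v) - o.rho h x)| := abs_sub _ _
      _ ≤ Cφ + (1 / (o.k : ℝ)) * C := by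
          rw [abs_mul, abs_of_pos (by positivity : 0 < 1 / (o.k : ℝ))]
          gcongr
  have h4 := Fib4_425.abs_push_mul_le (P := F0.P) hp hηd hηp hbs hbb w0 hw
  have h5 : push F0.P (fun k v => (b v : ℂ) * η k v) w0 =
      (r : ℂ) * (c : ℂ) + push F0.P (fun k v => (av o h sk.φ (F0.i v) : ℂ) * η k v) w0 := by
    have s1 : ∀ k, F0.B.SmAt k (fun v => (r : ℂ) * η k v) := fun k =>
      ContDiffOn.mul contDiffOn_const (hηd.sm k)
    have s2 : ∀ k, F0.B.SmAt k (fun v => (av o h sk.φ (F0.i v) : ℂ) * η k v) := fun k =>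
      ContDiffOn.mul (Complex.ofRealCLM.contDiff.comp_contDiffOn (hsmH k)) (hηd.sm k)
    rw [← hmass, ← push_smul hp _ hw, ← push_add hp s1 s2 hw]
    refine push_congr hp fun k v _ _ => ?_
    simp only [hb, ofReal_add]
    ring
  rw [h5, hmass, ofReal_re] at h4
  have h6 : uF sk c x = (1 / c) * ((r : ℂ) * (c : ℂ) +
      push F0.P (fun k v => (av o h sk.φ (F0.i v) : ℂ) * η k v) w0).re := by
    rw [uF_on sk c hx, hI, hmix, Complex.add_re, ← ofReal_mul, ofReal_re, mul_add, ← hr']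
    have := hc.pos.ne'
    field_simp
  rw [h6, abs_mul, abs_of_pos (by have := hc.pos; positivity : 0 < 1 / c)]
  calc 1 / c * |((r : ℂ) * (c : ℂ) +
      push F0.P (fun k v => (av o h sk.φ (F0.i v) : ℂ) * η k v) w0).re|
      ≤ 1 / c * ((Cφ + 1 / (o.k : ℝ) * C) * c) :=
        mul_le_mul_of_nonneg_left h4 (by have := hc.pos; positivity)
    _ = Cφ + 1 / (o.k : ℝ) * C := by
        have := hc.pos.ne'
        field_simp

end u

/-- **node UPre** of `D6y_986` -/
theorem uPreStmt : UPreStmt := by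
  intro n M _ _ _ _ A _ hn P K σ L h o sk hH
  have hsc : SecondCountableTopology M := Crest.Agent.R273.AsmA_73.secM (A := A)
  obtain ⟨c, hc⟩ := Mass5_519.exists_volC_LFib o.F K
  obtain ⟨C, hC⟩ := hH
  obtain ⟨Cφ, hφ⟩ : ∃ Cφ : ℝ, ∀ x, |sk.φ x| ≤ Cφ := by
    have hcont : Continuous sk.φ := C0f_793.continuous_of_sm sk.sm
    obtain ⟨B, hB⟩ := (isCompact_range hcont.abs).bddAbove
    exact ⟨B, fun x => hB (mem_range_self x)⟩
  have hus : ∀ i, ∀ z ∈ (A.e i).target, (A.e i).symm z ∈ o.F.Om →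
      ContDiffAt ℝ ∞ (fun w => uF sk c ((A.e i).symm w)) z := fun i z hz hO => uF_sm sk c hz hO
  have hlam : 0 < sk.lam - 1 := by linarith [sk.one_lt]
  refine ⟨{
    u := uF sk c
    B := max 0 (Cφ + (1 / (o.k : ℝ)) * C)
    bdd := fun x => ?_
    sm := hus
    a := (sk.lam - 1) / c
    a_pos := div_pos hlam hc.pos
    vol := c
    vol_pos := hc.pos
    fvol := fun D _ F1 hL y hy => mass_push hc F1 hL hy
    id := fun D hD F1 hL k v hv i hi => id_of sk hL hus (fun x hx => uF_on sk c hx) hD hv hi }⟩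
  by_cases hx : x ∈ o.F.Om
  · exact (uF_bdd sk hc hC hφ hx).trans (le_max_right _ _)
  · rw [uF_off sk c hx, abs_zero]
    exact le_max_left _ _

end

end Crest.Agent.R281.UAs_710
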