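import Crest.Agent.R281.Lf4_425
import Crest.Agent.R281.Har4_331
import Crest.Agent.R281.D6f_986

/-!
# R281 (S0424), node UPre (helper710, for 425): the pointwise identity on disc families

* `hsf_base`  : `∂∂̄ (W ∘ y) = (∂∂̄ W)(y) E_{last,last}` in adapted charts;
* `av`, `rho_smAt`, `hsf_rho` : `a = φ - ρ/k`, `∂∂̄ρ = - k θ` on `Om`;
* `kah_eq`    : `K'_V = K_V + ∂∂̄ (a ∘ i)` on a disc family;
* `push_vol`  : `f_*(det K'_V) = lam f_*(det K_V)`, pointwise;
* `ddb_leaf`  : `(lam - 1) f_*(det K_V) = ∂∂̄ f_*(mixed density)`;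
* `id_of`     : the field `UPre.id` for `u = ρ/k + (1/v) leafI`.
-/

set_option autoImplicit false
set_option linter.unusedSectionVars false

open Set Filter Topology Complex MeasureTheory
open scoped ContDiff Matrix ComplexConjugate Manifold ComplexOrder

namespace Crest.Agent.R281.UId_710

open Crest.Agent.R275.Geo Crest.Agent.R275.Core144 Crest.Agent.R275.GC293
open Crest.Agent.R273.Defs_333 Crest.Agent.R273.Kah_333 Crest.Agent.R273.HM_333
open Crest.Agent.R273.Hess_333 Crest.Agent.R273.HessB_333 Crest.Agent.R273.KahI_645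
open Crest.Agent.R273 Crest.Agent.R273.Map_835 Crest.Agent.R275.EDR890 Crest.Agent.R273.Green_5
open Crest.Agent.R275.Tor812 Crest.Agent.R275.TorS666
open Crest.Agent.R275.OmT75 (dj)
open Crest.Agent.R273.StokesV_332 (intD)
open Crest.Agent.R273.FIb0_597 (ch mem_ch)
open Crest.Agent.R281.Defs_273 Crest.Agent.R281.LEnd_10 Crest.Agent.R281.Glob1_484
open Crest.Agent.R281.S6D_664 (LFib Fam fb)
open Crest.Agent.R281.Fib2_425 Crest.Agent.R281.Lf2_425 Crest.Agent.R281.Lf3_425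
open Crest.Agent.R281.Lf4_425
open Crest.Agent.R281.Fib4_425 (Tst)
open Crest.Agent.R281.D6_986
open Crest.Agent.R281.Har_331 (hsf_pull hess_compR' hsf_log_nsM sm_pull)

noncomputable section

/-! ### functions of the base -/

section base

variable {d : ℕ} {V : Type} [TopologicalSpace V] {B : Atl (d + 1) V} {y : V → Cn 1}
  {U : Set (Cn 1)}

theorem mt_bs : Map_835.mt (fderiv ℂ (fun z : Cn (d + 1) => bs d z) (0 : Cn (d + 1))) =
    Matrix.of fun (_ : Fin 1) (a : Fin (d + 1)) => if a = Fin.last d then (1 : ℂ) else 0 := by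
  have h1 : fderiv ℂ (fun z : Cn (d + 1) => bs d z) (0 : Cn (d + 1)) = bs d :=
    (bs d (m := 1)).fderiv
  rw [h1]
  ext b a
  simp only [Map_835.mt, Matrix.of_apply]
  fin_cases b
  show (EuclideanSpace.single a (1 : ℂ) : Cn (d + 1)) (Fin.last d) = _
  rw [PiLp.single_apply]
  simp only [eq_comm]

/-- the Hessian of a function of the base in an adapted chart -/
theorem hsf_base (h : Prj B y U) {w : Cn 1 → ℝ} {k : B.ι} {v : V} (hv : v ∈ (B.e k).source)
    (hw : ContDiffAt ℝ ∞ w (y v)) :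
    hsf B (fun v => w (y v)) k v =
      (hess w (y v) 0 0) • Matrix.single (Fin.last d) (Fin.last d) (1 : ℂ) := by
  have hz := (B.e k).map_source hv
  have h1 : (fun z => w (y ((B.e k).symm z))) =ᶠ[𝓝 (B.e k v)] fun z => w (bs d z) := by
    filter_upwards [(B.e k).open_target.mem_nhds hz] with z hz'
    rw [h.y_symm hz']
  have h2 : hsf B (fun v => w (y v)) k v = hess (fun z => w (bs d z)) (B.e k v) := by
    show hess (fun z => w (y ((B.e k).symm z))) (B.e k v) = _
    exact hess_congr h1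
  have h3 : bs d (B.e k v) = y v := h.bs_e hv
  rw [h2, hess_compR' (S := fun z => bs d z) ((bs d (m := 1)).analyticAt (B.e k v))
    (by rw [h3]; exact hw.of_le (WithTop.coe_le_coe.2 le_top)), h3]
  have h4 : fderiv ℂ (fun z : Cn (d + 1) => bs d z) (B.e k v) =
      fderiv ℂ (fun z : Cn (d + 1) => bs d z) (0 : Cn (d + 1)) := by
    rw [(bs d (m := 1)).fderiv, (bs d (m := 1)).fderiv]
  rw [h4, mt_bs]
  ext a b
  simp only [Matrix.mul_apply, Matrix.transpose_apply, Matrix.of_apply, Matrix.map_apply,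
    Finset.univ_unique, Fin.default_eq_zero, Fin.isValue, Finset.sum_singleton,
    Matrix.smul_apply, smul_eq_mul, Matrix.single_apply]
  by_cases ha : a = Fin.last d <;> by_cases hb : b = Fin.last d <;>
    simp [ha, hb, eq_comm]

end base

/-! ### `ρ` on `Om` -/

variable {n : ℕ} {M : Type} [TopologicalSpace M] {A : Atl (2 * n) M} {σ : HSymp A} {L : LB A}

theorem nsM_pos (o : OmOut σ L) (h : HM L) {x : M} (hx : x ∈ o.F.Om) :
    0 < nsM (pow h o.k) o.s x := by
  have h0 := o.nz x hx (ch A x) (mem_ch A x)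
  have h1 : 0 < ‖o.s (ch A x) x‖ ^ 2 := by
    have := norm_pos_iff.2 h0
    positivity
  exact mul_pos h1 ((pow h o.k).pos _ x (mem_ch A x))

theorem rho_eq (o : OmOut σ L) (h : HM L) (x : M) :
    o.rho h x = Real.log (nsM (pow h o.k) o.s x) := rfl

theorem rho_smAt (o : OmOut σ L) (h : HM L) {i : A.ι} {z : Cn (2 * n)} (hz : z ∈ (A.e i).target)
    (hO : (A.e i).symm z ∈ o.F.Om) :
    ContDiffAt ℝ ∞ (fun w => o.rho h ((A.e i).symm w)) z :=
  ContDiffAt.log ((sm_nsM (pow h o.k) o.hs i).contDiffAt ((A.e i).open_target.mem_nhds hz))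
    (nsM_pos o h hO).ne'

theorem hsf_rho (o : OmOut σ L) (h : HM L) {i : A.ι} {x : M} (hx : x ∈ (A.e i).source)
    (hO : x ∈ o.F.Om) : hsf A (o.rho h) i x = - ((o.k : ℂ) • cur h i x) := by
  rw [← cur_pow h o.k i hx]
  exact hsf_log_nsM (pow h o.k) o.hs hx (nsM_pos o h hO)

/-- `a = φ - ρ/k` -/
def av (o : OmOut σ L) (h : HM L) (φ : M → ℝ) (x : M) : ℝ := φ x - (1 / (o.k : ℝ)) * o.rho h x

theorem sm_at' {φ : M → ℝ} (hφ : A.Sm φ) {i : A.ι} {z : Cn (2 * n)} (hz : z ∈ (A.e i).target) :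
    ContDiffAt ℝ ∞ (fun w => φ ((A.e i).symm w)) z :=
  (hφ i).contDiffAt ((A.e i).open_target.mem_nhds hz)

theorem av_smAt (o : OmOut σ L) (h : HM L) {φ : M → ℝ} (hφ : A.Sm φ) {i : A.ι} {z : Cn (2 * n)}
    (hz : z ∈ (A.e i).target) (hO : (A.e i).symm z ∈ o.F.Om) :
    ContDiffAt ℝ ∞ (fun w => av o h φ ((A.e i).symm w)) z :=
  (sm_at' hφ hz).sub (contDiffAt_const.mul (rho_smAt o h hz hO))

theorem hsf_av (o : OmOut σ L) (h : HM L) {φ : M → ℝ} (hφ : A.Sm φ) {i : A.ι} {x : M}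
    (hx : x ∈ (A.e i).source) (hO : x ∈ o.F.Om) :
    hsf A (av o h φ) i x = hsf A φ i x + cur h i x := by
  have hz := (A.e i).map_source hx
  have hO' : (A.e i).symm (A.e i x) ∈ o.F.Om := by rw [(A.e i).left_inv hx]; exact hO
  have hk : (o.k : ℂ) ≠ 0 := by exact_mod_cast o.k_pos.ne'
  have h1 := hsf_rho o h hx hO
  have h2 : hsf A (av o h φ) i x = hsf A φ i x -
      ((1 / (o.k : ℝ) : ℝ) : ℂ) • hsf A (o.rho h) i x := by
    show hess (fun w => φ ((A.e i).symm w) - (1 / (o.k : ℝ)) * o.rho h ((A.e i).symm w)) _ = _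
    rw [hess_sub (sm_at' hφ hz) (contDiffAt_const.mul (rho_smAt o h hz hO')),
      hess_const_mul _ (rho_smAt o h hz hO')]
    rfl
  rw [h2, h1, smul_neg, sub_neg_eq_add, smul_smul]
  congr 1
  have h3 : ((1 / (o.k : ℝ) : ℝ) : ℂ) * (o.k : ℂ) = 1 := by
    push_cast
    field_simp
  rw [h3, one_smul]

/-! ### the disc family -/

section fam

variable {m : ℕ} {o : OmOut σ L} {h : HM L} {K : Kah A} (sk : SKOut K o h) {D : Set (Cn m)}
  {F1 : Fam A n m D} (hL : Leafy o.F F1)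

include hL in
theorem om_of (v : F1.V) : F1.i v ∈ o.F.Om := (hL v).1

include hL in
theorem sm_of {u : M → ℝ} (hu : ∀ i, ∀ z ∈ (A.e i).target, (A.e i).symm z ∈ o.F.Om →
    ContDiffAt ℝ ∞ (fun w => u ((A.e i).symm w)) z) : F1.B.Sm (fun v => u (F1.i v)) := by
  intro j z hz
  obtain ⟨i, hi⟩ := A.cover (F1.i ((F1.B.e j).symm z))
  have hz' : z ∈ dm F1.B A F1.i j i := ⟨hz, hi⟩
  have hy := (F1.B.e j).map_target hz
  have h1 := Har_331.near_pull F1.hol (u := u) hy hi
  rw [(F1.B.e j).right_inv hz] at h1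
  have hT : AnalyticAt ℂ (rd F1.B A F1.i j i) z := F1.hol.analyticAt hz'
  have hTc : ContDiffAt ℝ ∞ (rd F1.B A F1.i j i) z := hT.contDiffAt.restrict_scalars ℝ
  have hv : rd F1.B A F1.i j i z = A.e i (F1.i ((F1.B.e j).symm z)) := rfl
  have h2 : ContDiffAt ℝ ∞ (fun w => u ((A.e i).symm (rd F1.B A F1.i j i w))) z := by
    refine ContDiffAt.comp z (g := fun z => u ((A.e i).symm z)) ?_ hTc
    rw [hv]
    refine hu i _ ((A.e i).map_source hi) ?_
    rw [(A.e i).left_inv hi]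
    exact om_of hL _
  exact (h2.congr_of_eventuallyEq h1).contDiffWithinAt

include hL in
/-- `K'_V = K_V + ∂∂̄ (a ∘ i)` -/
theorem kah_eq {k : F1.B.ι} {v : F1.V} (hv : v ∈ (F1.B.e k).source) :
    (F1.kah sk.K').g k v = (F1.kah K).g k v + hsf F1.B (fun v => av o h sk.φ (F1.i v)) k v := by
  have hc := mem_ch A (F1.i v)
  have hO := om_of hL v
  have hO' : (A.e (ch A (F1.i v))).symm (A.e (ch A (F1.i v)) (F1.i v)) ∈ o.F.Om := by
    rw [(A.e _).left_inv hc]; exact hO
  have h1 : (F1.kah K).g k v = _ := pullI_g K F1.hol F1.imm hv hc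
  have h2 : (F1.kah sk.K').g k v = _ := pullI_g sk.K' F1.hol F1.imm hv hc
  rw [h1, h2, sk.eq _ _ hc, hsf_pull F1.hol hv hc
    (av_smAt o h sk.sm ((A.e _).map_source hc) hO'), hsf_av o h sk.sm hc hO]
  simp only [Matrix.mul_add, Matrix.add_mul]
  abel

theorem smAt_det (K : Kah A) (F1 : Fam A n m D) (k : F1.B.ι) :
    F1.B.SmAt k (fun v => ((F1.kah K).g k v).det) :=
  Fib5_425.smAt_detG fun a b => (F1.kah K).sm k a b

/-! ### the mixed density -/

/-- the mixed leaf density of `K, K'` with weight `a = φ - ρ/k` -/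
def mixU : LDen A n := mixDen n (kah_cf K) (kah_cf sk.K') (av o h sk.φ)

theorem mixU_smOn : (mixU sk).SmOn o.F.Om :=
  mixDen_smOn _ _ fun _ _ hz hO => av_smAt o h sk.sm hz hO

include hL in
theorem sm_av : F1.B.Sm (fun v => av o h sk.φ (F1.i v)) :=
  sm_of hL fun _ _ hz hO => av_smAt o h sk.sm hz hO

include hL in
theorem pb_mixU {k : F1.B.ι} {v : F1.V} (hv : v ∈ (F1.B.e k).source) :
    (mixU sk).pb F1 k v = (av o h sk.φ (F1.i v) : ℂ) *
      xi (fb ((F1.kah K).g k v)) (fb (hsf F1.B (fun v => av o h sk.φ (F1.i v)) k v)) := by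
  unfold mixU
  rw [pb_mixDen K sk.K' _ F1 hv]
  have h1 : fb ((F1.kah sk.K').g k v) - fb ((F1.kah K).g k v) =
      fb (hsf F1.B (fun v => av o h sk.φ (F1.i v)) k v) := by
    rw [kah_eq sk hL hv, Fib5_425.fb_add, add_sub_cancel_left]
  rw [h1]

/-- real on hermitian matrices -/
theorem xi_real {l : ℕ} {G H : Matrix (Fin l) (Fin l) ℂ} (hG : G.IsHermitian)
    (hH : H.IsHermitian) : (xi G H).im = 0 := by
  have h1 : conj (xi G H) = xi G H := by
    unfold xi
    rw [← intervalIntegral.intervalIntegral_conj]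
    congr 1
    funext t
    have h2 : (G + (t : ℂ) • H).IsHermitian := by
      refine hG.add ?_
      unfold Matrix.IsHermitian
      rw [Matrix.conjTranspose_smul, hH.eq]
      congr 1
      exact Complex.conj_ofReal t
    have h3 := congrArg Matrix.det h2.eq
    rw [Matrix.det_conjTranspose] at h3
    exact h3
  exact Complex.conj_eq_iff_im.1 h1

include hL in
theorem push_mix_real (hD : IsOpen D) {w : Cn m} (hw : w ∈ D) :
    (push F1.P ((mixU sk).pb F1) w).im = 0 := by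
  refine Fib4_425.push_real (prj F1 hD) hw fun k v hv _ => ?_
  rw [pb_mixU sk hL hv, Complex.im_ofReal_mul]
  have h1 : (fb ((F1.kah K).g k v)).IsHermitian := ((F1.kah K).pos k v hv).1.submatrix _
  have h2 : (fb (hsf F1.B (fun v => av o h sk.φ (F1.i v)) k v)).IsHermitian :=
    (R273.GreenM_5.hsf_herm (sm_av sk hL) hv).submatrix _
  rw [xi_real h1 h2, mul_zero]

theorem smO_mix (hL : Leafy o.F F1) (k : F1.B.ι) : F1.B.SmAt k ((mixU sk).pb F1 k) :=
  LDen.pb_smAt F1 (mixU_smOn sk) (om_of hL) k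

end fam

/-! ### disc families -/

section disc

variable {o : OmOut σ L} {h : HM L} {K : Kah A} (sk : SKOut K o h) {D : Set (Cn 1)}
  {F1 : Fam A n 1 D} (hL : Leafy o.F F1)

include hL in
/-- `f_*(det K'_V) = lam f_*(det K_V)`, pointwise -/
theorem push_vol (hD : IsOpen D) {w : Cn 1} (hw : w ∈ D) :
    push F1.P (fun k v => ((F1.kah sk.K').g k v).det) w =
      (sk.lam : ℂ) * push F1.P (fun k v => ((F1.kah K).g k v).det) w := by
  have hp := prj F1 hD
  have hs : ∀ k, F1.B.SmAt k (fun v => (sk.lam : ℂ) * ((F1.kah K).g k v).det) := fun k =>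
    ContDiffOn.mul contDiffOn_const (smAt_det K F1 k)
  have h1 := Fib4_425.push_eq_of_weak (P := F1.P) (P' := F1.P) hp (smAt_det sk.K' F1) hs
    (fun χ hχ => ?_) w hw
  · rw [h1, push_smul hp _ hw]
  · have hK : IsCompact (F1.y ⁻¹' tsupport χ) := F1.proper _ hχ.sub hχ.cpt
    rw [sk.vol D hD F1 hL χ hχ, ← Crest.Agent.R273.StokesV_332.intD_smul F1.P (sk.lam : ℂ) hK
      (fun k v _ hv => by
        rw [image_eq_zero_of_notMem_tsupport (fun h => hv h), ofReal_zero, zero_mul])]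
    congr 1
    funext k v
    ring

include hL in
/-- `(lam - 1) f_*(det K_V) = ∂∂̄ f_*(mixed density)` -/
theorem ddb_leaf (hD : IsOpen D) {w : Cn 1} (hw : w ∈ D) :
    ((sk.lam : ℂ) - 1) * push F1.P (fun k v => ((F1.kah K).g k v).det) w =
      dj 0 (dbj 0 (push F1.P ((mixU sk).pb F1))) w := by
  have hp := prj F1 hD
  have h1 := Fib5_425.push_det_sub (P := F1.P) hp (kah_cf (F1.kah K))
    (fun k v hv => ((F1.kah K).pos k v hv).1) (sm_av sk hL) hw
  have h2 : push F1.P (fun k v => ((F1.kah K).g k v +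
      hsf F1.B (fun v => av o h sk.φ (F1.i v)) k v).det - ((F1.kah K).g k v).det) w =
      ((sk.lam : ℂ) - 1) * push F1.P (fun k v => ((F1.kah K).g k v).det) w := by
    have h3 : push F1.P (fun k v => ((F1.kah K).g k v +
        hsf F1.B (fun v => av o h sk.φ (F1.i v)) k v).det - ((F1.kah K).g k v).det) w =
        push F1.P (fun k v => ((F1.kah sk.K').g k v).det - ((F1.kah K).g k v).det) w :=
      push_congr hp fun k v hv _ => by rw [kah_eq sk hL hv]
    rw [h3, push_sub hp (smAt_det sk.K' F1) (smAt_det K F1) hw, push_vol sk hL hD hw]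
    ring
  rw [← h2, h1]
  exact Fib5_425.ddb_congr hD (fun w' _ => push_congr hp fun k v hv _ =>
    (pb_mixU sk hL hv).symm) 0 0 hw

include hL in
/-- **the field `UPre.id`** for `u = ρ/k + (1/v) leafI` on `Om` -/
theorem id_of [T2Space M] {c : ℝ} {u : M → ℝ}
    (hus : ∀ i, ∀ z ∈ (A.e i).target, (A.e i).symm z ∈ o.F.Om →
      ContDiffAt ℝ ∞ (fun w => u ((A.e i).symm w)) z)
    (hu : ∀ x ∈ o.F.Om, u x = (1 / (o.k : ℝ)) * o.rho h x +
      (1 / c) * (leafI (mixU sk) (o.F.Tf x)).re)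
    (hD : IsOpen D) {k : F1.B.ι} {v : F1.V} (hv : v ∈ (F1.B.e k).source) {i : A.ι}
    (hi : F1.i v ∈ (A.e i).source) :
    (Jp F1.B A F1.i k i v)ᵀ * (cur h i (F1.i v) + hsf A u i (F1.i v)) *
        (Jp F1.B A F1.i k i v).map conj =
      ((((sk.lam - 1) / c : ℝ) : ℂ) *
        push F1.P (fun k v => ((F1.kah K).g k v).det) (F1.y v)) •
        Matrix.single (Fin.last n) (Fin.last n) (1 : ℂ) := by
  set J := Jp F1.B A F1.i k i v with hJ
  have hp := prj F1 hD
  have hzi := (A.e i).map_source hi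
  have hO := om_of hL v
  have hO' : (A.e i).symm (A.e i (F1.i v)) ∈ o.F.Om := by rw [(A.e i).left_inv hi]; exact hO
  have hk : (o.k : ℂ) ≠ 0 := by exact_mod_cast o.k_pos.ne'
  set W : Cn 1 → ℂ := push F1.P ((mixU sk).pb F1) with hW
  have hWs : ContDiffOn ℝ ∞ W D := contDiffOn_push hp (smO_mix sk hL)
  have hWr : ∀ w ∈ D, W w = ((W w).re : ℂ) := fun w hw => by
    apply Complex.ext
    · rw [ofReal_re]
    · rw [ofReal_im, push_mix_real sk hL hD hw]
  have hWrs : ContDiffAt ℝ ∞ (fun w => (W w).re) (F1.y v) :=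
    Complex.reCLM.contDiff.contDiffAt.comp _ (hWs.contDiffAt (hD.mem_nhds (F1.mem v)))
  have hrs : F1.B.Sm (fun v => o.rho h (F1.i v)) := sm_of hL fun _ _ hz hO => rho_smAt o h hz hO
  have hys : F1.B.Sm (fun v => (W (F1.y v)).re) :=
    hp.sm (φ := fun w => (W w).re) (Complex.reCLM.contDiff.comp_contDiffOn hWs)
  -- the function on the family
  have h1 : (fun v => u (F1.i v)) = fun v => (1 / (o.k : ℝ)) * o.rho h (F1.i v) +
      (1 / c) * (W (F1.y v)).re := by
    funext v'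
    rw [hu _ (om_of hL v'), (hL v').2, leafI_fam F1 (mixU_smOn sk) (om_of hL) (F1.mem v')]
  have h2 := hsf_pull F1.hol (u := u) hv hi (hus i _ hzi hO')
  have h3 := hsf_pull F1.hol (u := o.rho h) hv hi (rho_smAt o h hzi hO')
  rw [hsf_rho o h hi hO, ← hJ] at h3
  rw [← hJ] at h2
  have h4 : hsf F1.B (fun v => u (F1.i v)) k v =
      ((1 / (o.k : ℝ) : ℝ) : ℂ) • hsf F1.B (fun v => o.rho h (F1.i v)) k v +
        ((1 / c : ℝ) : ℂ) • hsf F1.B (fun v => (W (F1.y v)).re) k v := by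
    rw [h1]
    have hz := (F1.B.e k).map_source hv
    show hess (fun w => (1 / (o.k : ℝ)) * o.rho h (F1.i ((F1.B.e k).symm w)) +
      (1 / c) * (W (F1.y ((F1.B.e k).symm w))).re) (F1.B.e k v) = _
    have a1 := (hrs k).contDiffAt ((F1.B.e k).open_target.mem_nhds hz)
    have a2 := (hys k).contDiffAt ((F1.B.e k).open_target.mem_nhds hz)
    rw [hess_add (contDiffAt_const.mul a1) (contDiffAt_const.mul a2), hess_const_mul _ a1,
      hess_const_mul _ a2]
    rfl
  have h5 : hess (fun w => (W w).re) (F1.y v) 0 0 =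
      ((sk.lam : ℂ) - 1) * push F1.P (fun k v => ((F1.kah K).g k v).det) (F1.y v) := by
    rw [ddb_leaf sk hL hD (F1.mem v), hess_apply, ← dj_eq_wd]
    have e : EqOn (fun w => (((W w).re : ℝ) : ℂ)) W D := fun w hw => (hWr w hw).symm
    exact Fib5_425.ddb_congr hD e 0 0 (F1.mem v)
  rw [hsf_base hp hv hWrs, h5, h3] at h4
  rw [Matrix.mul_add, Matrix.add_mul, ← h2, h4]
  have h6 : ((1 / (o.k : ℝ) : ℝ) : ℂ) • (Jᵀ * -((o.k : ℂ) • cur h i (F1.i v)) * J.map conj) =
      -(Jᵀ * cur h i (F1.i v) * J.map conj) := by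
    rw [Matrix.mul_neg, Matrix.neg_mul, Matrix.mul_smul, Matrix.smul_mul, smul_neg, smul_smul]
    have h7 : ((1 / (o.k : ℝ) : ℝ) : ℂ) * (o.k : ℂ) = 1 := by
      push_cast
      field_simp
    rw [h7, one_smul]
  rw [h6, add_neg_cancel_left, smul_smul]
  congr 1
  push_cast
  ring

end disc

end

end Crest.Agent.R281.UId_710
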