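import Crest.Agent.R281.Lf4_425
import Crest.Agent.R281.Har4_331

/-!
# R281 (S0424), the function `u`, part 1 (helper425): the mass of the mixed determinant

* `sm_pullOn`  : pull-backs of locally smooth functions;
* `kah_pull`   : `K' = K + ∂∂̄a` on `O` gives `F.kah K' = F.kah K + ∂∂̄(a ∘ F.i)`;
* `xi_nonneg`, `mix_nonneg` : positivity of the mixed determinant density;
* `leaf_mass`  : on a compact leaf `∫ Ξ = vol`;
* `leaf_avg`   : `|Re ∫ a Ξ - c ∫ Ξ| ≤ C ∫ Ξ` for `|a - c| ≤ C`.
-/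

set_option autoImplicit false
set_option linter.unusedSectionVars false

open Set Filter Topology Complex Function MeasureTheory
open scoped ContDiff Matrix ComplexConjugate ComplexOrder

namespace Crest.Agent.R281.Up_425

open Crest.Agent.R275.Geo Crest.Agent.R275.Core144 Crest.Agent.R275.EDR890
open Crest.Agent.R275.Pai323 Crest.Agent.R275.C1d194
open Crest.Agent.R273.Defs_333 Crest.Agent.R273.Hess_333 Crest.Agent.R273.HessB_333
open Crest.Agent.R273.HM_333 Crest.Agent.R273.Kah_333 Crest.Agent.R273.KahI_645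
open Crest.Agent.R273.Map_835 (HolMap Jp dm mem_dm)
open Crest.Agent.R273.Green_5
open Crest.Agent.R273.StokesV_332 Crest.Agent.R281.S6D_664 Crest.Agent.R281.Fub_192
open Crest.Agent.R281.Fib1_425 Crest.Agent.R281.Fib2_425
open Crest.Agent.R281.Fib4_425 Crest.Agent.R281.Fib5_425
open Crest.Agent.R281.Lf2_425 Crest.Agent.R281.Lf3_425 Crest.Agent.R281.Lf4_425
open Crest.Agent.R281.Har_331 (near_pull hsf_pull)

noncomputable section

/-! ### pull-backs -/

section pull

variable {N n : ℕ} {M T : Type} [TopologicalSpace M] [TopologicalSpace T] {A : Atl N M}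
  {B : Atl n T} {O : Set M} {u : M → ℝ}

/-- smoothness of a function on an open set, in charts -/
def SmOnR (A : Atl N M) (O : Set M) (u : M → ℝ) : Prop :=
  ∀ i, ∀ z ∈ (A.e i).target, (A.e i).symm z ∈ O →
    ContDiffAt ℝ ∞ (fun w => u ((A.e i).symm w)) z

theorem SmOnR.at (hu : SmOnR A O u) {i : A.ι} {x : M} (hx : x ∈ (A.e i).source) (hO : x ∈ O) :
    ContDiffAt ℝ ∞ (fun w => u ((A.e i).symm w)) (A.e i x) :=
  hu i _ ((A.e i).map_source hx) (by rw [(A.e i).left_inv hx]; exact hO)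

theorem SmOnR.of_sm (hu : A.Sm u) : SmOnR A O u := fun i _ hz _ =>
  (hu i).contDiffAt ((A.e i).open_target.mem_nhds hz)

theorem sm_pullOn {f : T → M} (hf : HolMap B A f) (hu : SmOnR A O u) (hO : ∀ t, f t ∈ O) :
    B.Sm fun t => u (f t) := by
  intro j z hz
  obtain ⟨i, hi⟩ := A.cover (f ((B.e j).symm z))
  have hz' : z ∈ dm B A f j i := ⟨hz, hi⟩
  have hy := (B.e j).map_target hz
  have h1 := near_pull hf (u := u) hy hi
  rw [(B.e j).right_inv hz] at h1
  have hT : AnalyticAt ℂ (Crest.Agent.R273.Map_835.rd B A f j i) z := hf.analyticAt hz'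
  have hTc : ContDiffAt ℝ ∞ (Crest.Agent.R273.Map_835.rd B A f j i) z :=
    hT.contDiffAt.restrict_scalars ℝ
  have hval : Crest.Agent.R273.Map_835.rd B A f j i z = A.e i (f ((B.e j).symm z)) := rfl
  refine ContDiffAt.contDiffWithinAt ?_
  refine ContDiffAt.congr_of_eventuallyEq ?_ h1
  refine ContDiffAt.comp z (g := fun w => u ((A.e i).symm w)) ?_ hTc
  rw [hval]
  exact hu.at hi (hO _)

end pull

/-! ### the mixed determinant -/

section xi

variable {n : ℕ}

theorem det_nonneg_seg {S T : Matrix (Fin n) (Fin n) ℂ} (hS : S.PosSemidef) (hT : T.PosSemidef)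
    {t : ℝ} (h0 : 0 ≤ t) (h1 : t ≤ 1) :
    0 ≤ ((S + (t : ℂ) • (T - S)).det).re ∧ ((S + (t : ℂ) • (T - S)).det).im = 0 := by
  have h2 : S + (t : ℂ) • (T - S) = ((1 - t : ℝ) : ℂ) • S + ((t : ℝ) : ℂ) • T := by
    rw [smul_sub]
    push_cast
    rw [sub_smul, one_smul]
    abel
  have h3 : (S + (t : ℂ) • (T - S)).PosSemidef := by
    rw [h2]
    refine (hS.smul ?_).add (hT.smul ?_)
    · exact Complex.zero_le_real.2 (by linarith)
    · exact Complex.zero_le_real.2 h0
  have h4 := h3.det_nonneg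
  rw [Complex.le_def] at h4
  exact ⟨h4.1, h4.2.symm⟩

theorem continuous_det_seg (S C : Matrix (Fin n) (Fin n) ℂ) :
    Continuous fun t : ℝ => (S + (t : ℂ) • C).det := by
  refine Continuous.matrix_det ?_
  exact continuous_const.add ((Complex.continuous_ofReal).smul continuous_const)

/-- **positivity** of the mixed determinant -/
theorem xi_nonneg {S T : Matrix (Fin n) (Fin n) ℂ} (hS : S.PosSemidef) (hT : T.PosSemidef) :
    0 ≤ (xi S (T - S)).re ∧ (xi S (T - S)).im = 0 := by
  have h1 : ∀ t ∈ Set.uIcc (0 : ℝ) 1, (S + (t : ℂ) • (T - S)).det =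
      ((((S + (t : ℂ) • (T - S)).det).re : ℝ) : ℂ) := by
    intro t ht
    rw [Set.uIcc_of_le zero_le_one] at ht
    exact Complex.ext rfl (by
      rw [(det_nonneg_seg hS hT ht.1 ht.2).2, Complex.ofReal_im])
  have h2 : xi S (T - S) = (((∫ t in (0 : ℝ)..1, ((S + (t : ℂ) • (T - S)).det).re) : ℝ) : ℂ) := by
    unfold xi
    rw [intervalIntegral.integral_congr h1]
    exact intervalIntegral.integral_ofReal
  rw [h2, Complex.ofReal_re, Complex.ofReal_im]
  refine ⟨?_, rfl⟩
  refine intervalIntegral.integral_nonneg zero_le_one fun t ht => ?_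
  exact (det_nonneg_seg hS hT ht.1 ht.2).1

end xi

variable {N d m : ℕ} {M : Type} [TopologicalSpace M] {A : Atl N M} {U : Set (Cn m)}
  {K K' : Kah A} {a : M → ℝ} {O : Set M}

/-- pull-back of `K' = K + ∂∂̄a` -/
theorem kah_pull (F : Fam A d m U) (ha : SmOnR A O a)
    (hK : ∀ i, ∀ x ∈ (A.e i).source, x ∈ O → K'.g i x = K.g i x + hsf A a i x)
    (hO : ∀ v, F.i v ∈ O) {k : F.B.ι} {v : F.V} (hv : v ∈ (F.B.e k).source) :
    (F.kah K').g k v = (F.kah K).g k v + hsf F.B (fun v => a (F.i v)) k v := by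
  obtain ⟨i, hi⟩ := A.cover (F.i v)
  have h1 : (F.kah K).g k v = _ := pullI_g K F.hol F.imm hv hi
  have h2 : (F.kah K').g k v = _ := pullI_g K' F.hol F.imm hv hi
  rw [h1, h2, hsf_pull F.hol hv hi (ha.at hi (hO v)), hK i _ hi (hO v), Matrix.mul_add,
    Matrix.add_mul]

theorem fb_posSemidef {G : Matrix (Fin (d + m)) (Fin (d + m)) ℂ} (hG : G.PosSemidef) :
    (fb (d := d) (m := m) G).PosSemidef := hG.submatrix _

/-- the mixed determinant density with weight one -/
theorem mix_nonneg (F : Fam A d m U) :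
    NonnegD F.B ((mixDen d (kah_cf K) (kah_cf K') (fun _ => 1)).pb F) := by
  intro k v hv
  rw [pb_mixDen K K' _ F hv]
  simp only [Complex.ofReal_one, one_mul]
  exact xi_nonneg (fb_posSemidef ((F.kah K).pos k v hv).posSemidef)
    (fb_posSemidef ((F.kah K').pos k v hv).posSemidef)

theorem mix_mul (F : Fam A d m U) {k : F.B.ι} {v : F.V} (hv : v ∈ (F.B.e k).source) (a : M → ℝ) :
    (mixDen d (kah_cf K) (kah_cf K') a).pb F k v =
      (a (F.i v) : ℂ) * (mixDen d (kah_cf K) (kah_cf K') (fun _ => 1)).pb F k v := by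
  rw [pb_mixDen K K' _ F hv, pb_mixDen K K' _ F hv]
  simp

theorem mix_smOn (ha : SmOnR A O a) : (mixDen d (kah_cf K) (kah_cf K') a).SmOn O :=
  mixDen_smOn _ _ ha

theorem one_smOnR : SmOnR A O (fun _ => (1 : ℝ)) := fun _ _ _ _ => contDiffAt_const

variable [T2Space M]

/-- **the mass of the mixed determinant on a compact leaf** -/
theorem leaf_mass (F : Fam A d 0 univ) (ha : SmOnR A O a)
    (hK : ∀ i, ∀ x ∈ (A.e i).source, x ∈ O → K'.g i x = K.g i x + hsf A a i x)
    (hO : ∀ v, F.i v ∈ O) :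
    intD F.P ((mixDen d (kah_cf K) (kah_cf K') (fun _ => 1)).pb F) =
      intD F.P (fun k v => ((F.kah K).g k v).det) := by
  have hc := compact_leaf F
  set H : F.V → ℝ := fun v => a (F.i v) with hH
  have hHs : F.B.Sm H := sm_pullOn F.hol ha hO
  have h1 : intD F.P ((mixDen d (kah_cf K) (kah_cf K') (fun _ => 1)).pb F) =
      intD F.P (fun k v => ∑ j : Fin (d + 1), qw d j *
        ((F.kah K).g k v + ((((j : ℕ) : ℝ) : ℝ) : ℂ) • hsf F.B H k v).det) := by
    refine intD_congr F.P fun k v hv => ?_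
    rw [pb_mixDen K K' _ F hv]
    simp only [Complex.ofReal_one, one_mul]
    have h2 := kah_pull F ha hK hO hv
    rw [h2, fb_add, add_sub_cancel_left, xi_sum]
    rfl
  have hsm : ∀ (j : Fin (d + 1)) (k : F.B.ι), F.B.SmAt k (fun v =>
      ((F.kah K).g k v + ((((j : ℕ) : ℝ) : ℝ) : ℂ) • hsf F.B H k v).det) := fun j k =>
    smAt_detG (d := d) (m := 0) fun a b =>
      (((kah_cf (F.kah K)).add ((hsf_cf hHs).smul ((((j : ℕ) : ℝ) : ℝ) : ℂ))).sm k a b)
  have hdet : ∀ f : F.B.ι → F.V → ℂ, intD F.P f = R273.StV_37.totc F.P f := fun f =>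
    intD_eq_sum F.P isCompact_univ (Finset.Subset.refl _) (offK_univ _)
  rw [h1, intD_sum F.P Finset.univ (F := fun (j : Fin (d + 1)) k v => qw d j *
    ((F.kah K).g k v + ((((j : ℕ) : ℝ) : ℝ) : ℂ) • hsf F.B H k v).det)
    (fun j _ k => contDiffOn_const.mul (hsm j k)) isCompact_univ (fun _ _ => offK_univ _)]
  have h3 : ∀ j : Fin (d + 1), intD F.P (fun k v => qw d j *
      ((F.kah K).g k v + ((((j : ℕ) : ℝ) : ℝ) : ℂ) • hsf F.B H k v).det) =
      qw d j * intD F.P (fun k v => ((F.kah K).g k v).det) := by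
    intro j
    rw [intD_smul F.P _ isCompact_univ (offK_univ _), hdet, hdet,
      R273.VolInv_5.volinv_poly F.P (kah_cf (F.kah K)) hHs (((j : ℕ) : ℝ))]
  rw [Finset.sum_congr rfl fun j _ => h3 j, ← Finset.sum_mul, sum_qw, one_mul]

/-- **averages over a compact leaf** -/
theorem leaf_avg (F : Fam A d 0 univ) (ha : SmOnR A O a) (hO : ∀ v, F.i v ∈ O) {c C : ℝ}
    (hC : ∀ v, |a (F.i v) - c| ≤ C) :
    |(intD F.P ((mixDen d (kah_cf K) (kah_cf K') a).pb F)).re -
        c * (intD F.P ((mixDen d (kah_cf K) (kah_cf K') (fun _ => 1)).pb F)).re| ≤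
      C * (intD F.P ((mixDen d (kah_cf K) (kah_cf K') (fun _ => 1)).pb F)).re := by
  have hc := compact_leaf F
  set η := (mixDen d (kah_cf K) (kah_cf K') (fun _ => 1)).pb F with hη
  have hηd : Den F.B η := LDen.pb_den F (mix_smOn (O := O) one_smOnR) hO
  have hηp : NonnegD F.B η := mix_nonneg F
  have hHs : F.B.Sm (fun v => a (F.i v)) := sm_pullOn F.hol ha hO
  have hHc : F.B.Sm (fun v => ((a (F.i v) : ℝ) : ℂ)) := fun i =>
    smAt_ofReal (A := F.B) (j := i) (χ := fun v => a (F.i v)) (hHs i)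
  have e1 : intD F.P ((mixDen d (kah_cf K) (kah_cf K') a).pb F) =
      intD F.P (fun k v => ((a (F.i v) : ℝ) : ℂ) * η k v) :=
    intD_congr F.P fun k v hv => mix_mul F hv a
  have hd := hηd.mulF hHc
  have key : ∀ s : ℝ, |s| = 1 → s * ((intD F.P (fun k v => ((a (F.i v) : ℝ) : ℂ) * η k v)).re -
      c * (intD F.P η).re) ≤ C * (intD F.P η).re := by
    intro s hs
    have h1 := intD_nonneg F.P (f := fun k v => ((C + s * c : ℝ) : ℂ) * η k v +
      ((-s : ℝ) : ℂ) * (((a (F.i v) : ℝ) : ℂ) * η k v)) ((hηd.smul _).add (hd.smul _))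
      (fun k v hv => by
        have h2 := hηp k v hv
        have h4 : s * (a (F.i v) - c) ≤ C := by
          have := le_abs_self (s * (a (F.i v) - c))
          rw [abs_mul, hs, one_mul] at this
          exact this.trans (hC v)
        constructor
        · rw [Complex.add_re, Complex.re_ofReal_mul, Complex.re_ofReal_mul, Complex.re_ofReal_mul]
          nlinarith [h2.1]
        · rw [Complex.add_im, Complex.im_ofReal_mul, Complex.im_ofReal_mul, Complex.im_ofReal_mul,
            h2.2]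
          ring) isCompact_univ (offK_univ _)
    rw [intD_add F.P (hηd.smul _).sm (hd.smul _).sm isCompact_univ (offK_univ _) (offK_univ _),
      intD_smul F.P _ isCompact_univ (offK_univ _), intD_smul F.P _ isCompact_univ (offK_univ _),
      Complex.add_re, Complex.re_ofReal_mul, Complex.re_ofReal_mul] at h1
    linarith [h1.1]
  rw [e1, abs_le]
  constructor
  · have := key (-1) (by simp)
    linarith
  · have := key 1 (by simp)
    linarith

end

end Crest.Agent.R281.Up_425
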