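import Crest.Agent.R281.Up1_425
import Crest.Agent.R281.N2_373
import Crest.Agent.R281.Mass5_519

/-!
# R281 (S0424), the function `u`, part 2 (helper425): definition, smoothness, bound

* `rho_smOn`, `hsf_rho` : `ρ = log |s|²_h` is smooth on `Om`, `∂∂̄ρ = - k θ`;
* `af` : `a = φ - ρ/k`, `hsf_af : ∂∂̄a = θ + ∂∂̄φ` on `Om`;
* `uf` : `u = ρ/k + v⁻¹ ∫_T a Ξ`;
* `uf_bdd`, `uf_smOn`.
-/

set_option autoImplicit false
set_option linter.unusedSectionVars false

open Set Filter Topology Complex Function MeasureTheory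
open scoped ContDiff Matrix ComplexConjugate ComplexOrder

namespace Crest.Agent.R281.Up_425

open Crest.Agent.R275.Geo Crest.Agent.R275.Core144 Crest.Agent.R275.EDR890
open Crest.Agent.R275.Pai323
open Crest.Agent.R273.Defs_333 Crest.Agent.R273.Hess_333 Crest.Agent.R273.HessB_333
open Crest.Agent.R273.HM_333 Crest.Agent.R273.Kah_333 Crest.Agent.R273.KahI_645
open Crest.Agent.R273.Map_835 (HolMap Jp dm mem_dm)
open Crest.Agent.R273.Green_5
open Crest.Agent.R273.StokesV_332 Crest.Agent.R281.S6D_664 Crest.Agent.R281.Fub_192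
open Crest.Agent.R281.Fib2_425 Crest.Agent.R281.Fib4_425 Crest.Agent.R281.Fib5_425
open Crest.Agent.R281.Lf2_425 Crest.Agent.R281.Lf3_425 Crest.Agent.R281.Lf4_425
open Crest.Agent.R281.Har_331 (near_pull hsf_pull hsf_log_nsM nsM_pos_of)
open Crest.Agent.R281.Glob1_484 (nsM sm_nsM)
open Crest.Agent.R281.Defs_273 Crest.Agent.R281.D6_986
open Crest.Agent.R273.FIb0_597 (ch mem_ch)

noncomputable section

variable {n : ℕ} {M : Type} [TopologicalSpace M] {A : Atl (2 * n) M}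
variable {σ : HSymp A} {L : LB A} {K : Kah A}

theorem cont_of_sm {N : ℕ} {M : Type} [TopologicalSpace M] {A : Atl N M} {f : M → ℝ}
    (hf : A.Sm f) : Continuous f := by
  rw [continuous_iff_continuousAt]
  intro x
  obtain ⟨i, hi⟩ := A.cover x
  have h1 : ContinuousAt (fun z => f ((A.e i).symm z)) (A.e i x) :=
    ((hf i).contDiffAt ((A.e i).open_target.mem_nhds ((A.e i).map_source hi))).continuousAt
  have h2 : ContinuousAt (fun y => f ((A.e i).symm (A.e i y))) x :=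
    h1.comp ((A.e i).continuousAt hi)
  refine h2.congr ?_
  filter_upwards [(A.e i).open_source.mem_nhds hi] with y hy
  rw [(A.e i).left_inv hy]

theorem rho_eq (o : OmOut σ L) (h : HM L) (x : M) :
    o.rho h x = Real.log (nsM (pow h o.k) o.s x) := rfl

theorem nsM_pos (o : OmOut σ L) (h : HM L) {x : M} (hx : x ∈ o.F.Om) :
    0 < nsM (pow h o.k) o.s x := nsM_pos_of _ fun i hi => o.nz x hx i hi

/-- `ρ` is smooth on `Om` -/
theorem rho_smOn (o : OmOut σ L) (h : HM L) : SmOnR A o.F.Om (o.rho h) := by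
  intro i z hz hO
  refine ContDiffAt.log ?_ (nsM_pos o h hO).ne'
  exact (sm_nsM (pow h o.k) o.hs i).contDiffAt ((A.e i).open_target.mem_nhds hz)

/-- `∂∂̄ρ = - k θ` on `Om` -/
theorem hsf_rho (o : OmOut σ L) (h : HM L) {i : A.ι} {x : M} (hx : x ∈ (A.e i).source)
    (hO : x ∈ o.F.Om) : hsf A (o.rho h) i x = - ((o.k : ℂ) • cur h i x) := by
  have h1 := hsf_log_nsM (pow h o.k) o.hs hx (nsM_pos o h hO)
  rw [cur_pow h o.k i hx] at h1
  exact h1

/-- `a = φ - ρ/k` -/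
def af (o : OmOut σ L) (h : HM L) (φ : M → ℝ) (x : M) : ℝ := φ x - (o.k : ℝ)⁻¹ * o.rho h x

theorem af_smOn (o : OmOut σ L) (h : HM L) {φ : M → ℝ} (hφ : A.Sm φ) :
    SmOnR A o.F.Om (af o h φ) := fun i z hz hO =>
  ((SmOnR.of_sm hφ) i z hz hO).sub (contDiffAt_const.mul (rho_smOn o h i z hz hO))

theorem hsf_sub_mul {u v : M → ℝ} {i : A.ι} {x : M} (c : ℝ)
    (hu : ContDiffAt ℝ ∞ (fun z => u ((A.e i).symm z)) (A.e i x))
    (hv : ContDiffAt ℝ ∞ (fun z => v ((A.e i).symm z)) (A.e i x)) :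
    hsf A (fun y => u y - c * v y) i x = hsf A u i x - (c : ℂ) • hsf A v i x := by
  show hess (fun z => u ((A.e i).symm z) - c * v ((A.e i).symm z)) (A.e i x) = _
  rw [hess_sub hu (contDiffAt_const.mul hv), hess_const_mul c hv]
  rfl

theorem hsf_add_mul {u v : M → ℝ} {i : A.ι} {x : M} (c : ℝ)
    (hu : ContDiffAt ℝ ∞ (fun z => u ((A.e i).symm z)) (A.e i x))
    (hv : ContDiffAt ℝ ∞ (fun z => v ((A.e i).symm z)) (A.e i x)) :
    hsf A (fun y => u y + c * v y) i x = hsf A u i x + (c : ℂ) • hsf A v i x := by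
  show hess (fun z => u ((A.e i).symm z) + c * v ((A.e i).symm z)) (A.e i x) = _
  rw [hess_add hu (contDiffAt_const.mul hv), hess_const_mul c hv]
  rfl

/-- `∂∂̄a = θ + ∂∂̄φ` on `Om` -/
theorem hsf_af (o : OmOut σ L) (h : HM L) {φ : M → ℝ} (hφ : A.Sm φ) {i : A.ι} {x : M}
    (hx : x ∈ (A.e i).source) (hO : x ∈ o.F.Om) :
    hsf A (af o h φ) i x = cur h i x + hsf A φ i x := by
  have h1 := hsf_sub_mul (A := A) (u := φ) (v := o.rho h) (o.k : ℝ)⁻¹
    ((SmOnR.of_sm (O := o.F.Om) hφ).at hx hO) ((rho_smOn o h).at hx hO)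
  have h2 : hsf A (af o h φ) i x = hsf A (fun y => φ y - (o.k : ℝ)⁻¹ * o.rho h y) i x := rfl
  have hk : (o.k : ℂ) ≠ 0 := by exact_mod_cast o.k_pos.ne'
  rw [h2, h1, hsf_rho o h hx hO, smul_neg, sub_neg_eq_add, smul_smul, add_comm]
  congr 1
  have h3 : (((o.k : ℝ)⁻¹ : ℝ) : ℂ) * (o.k : ℂ) = 1 := by
    push_cast
    exact inv_mul_cancel₀ hk
  rw [h3, one_smul]

/-- the two metrics differ by `∂∂̄a` on `Om` -/
theorem kah_af {o : OmOut σ L} {h : HM L} (s : SKOut K o h) :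
    ∀ i, ∀ x ∈ (A.e i).source, x ∈ o.F.Om →
      s.K'.g i x = K.g i x + hsf A (af o h s.φ) i x := by
  intro i x hx hO
  rw [s.eq i x hx, hsf_af o h s.sm hx hO, add_assoc]

/-- the leaf density `a Ξ` -/
def xd {o : OmOut σ L} {h : HM L} (s : SKOut K o h) : LDen A n :=
  mixDen n (kah_cf K) (kah_cf s.K') (af o h s.φ)

theorem xd_smOn {o : OmOut σ L} {h : HM L} (s : SKOut K o h) : (xd s).SmOn o.F.Om :=
  mix_smOn (af_smOn o h s.sm)

open Classical in
/-- **the function `u`** -/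
def uf {o : OmOut σ L} {h : HM L} (s : SKOut K o h) (v : ℝ) (x : M) : ℝ :=
  if x ∈ o.F.Om then (o.k : ℝ)⁻¹ * o.rho h x + v⁻¹ * (leafI (xd s) (o.F.Tf x)).re else 0

theorem uf_of {o : OmOut σ L} {h : HM L} (s : SKOut K o h) (v : ℝ) {x : M} (hx : x ∈ o.F.Om) :
    uf s v x = (o.k : ℝ)⁻¹ * o.rho h x + v⁻¹ * (leafI (xd s) (o.F.Tf x)).re := if_pos hx

/-! ### the bound -/

section bdd

variable [T2Space M] [SecondCountableTopology M]

/-- the leaf integral on the leaf of `x` -/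
theorem leaf_bound {o : OmOut σ L} {h : HM L} (s : SKOut K o h) {v : ℝ}
    (hv : Mass5_519.VolC A o.F.Tf o.F.Om n K v) {x : M} (hx : x ∈ o.F.Om) {C : ℝ}
    (hC : ∀ y ∈ o.F.Tf x, |af o h s.φ y - af o h s.φ x| ≤ C) :
    |v⁻¹ * (leafI (xd s) (o.F.Tf x)).re - af o h s.φ x| ≤ C := by
  obtain ⟨F0, hl, hr, -⟩ := N2_373.exists_leafy o.F hx
  have hO : ∀ w, F0.i w ∈ o.F.Om := fun w => (hl w).1
  have h1 : leafI (xd s) (o.F.Tf x) = intD F0.P ((xd s).pb F0) := by
    rw [← hr]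
    exact leafI_eq F0 (xd_smOn s) hO
  have h2 := leaf_mass F0 (af_smOn o h s.sm) (kah_af s) hO
  have h3 : intD F0.P (fun k w => ((F0.kah K).g k w).det) = v := hv.intD_leaf hx F0 hr
  have h4 := leaf_avg (K := K) (K' := s.K') F0 (af_smOn o h s.sm) hO (c := af o h s.φ x) (C := C)
    fun w => hC _ (by rw [← hr]; exact mem_range_self w)
  rw [h2, h3, Complex.ofReal_re] at h4
  have hv0 := hv.pos
  have h5 : v⁻¹ * (leafI (xd s) (o.F.Tf x)).re - af o h s.φ x =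
      v⁻¹ * ((intD F0.P ((xd s).pb F0)).re - af o h s.φ x * v) := by
    rw [h1]
    field_simp
  rw [h5, abs_mul, abs_of_pos (inv_pos.2 hv0)]
  calc v⁻¹ * |(intD F0.P ((xd s).pb F0)).re - af o h s.φ x * v| ≤ v⁻¹ * (C * v) :=
        mul_le_mul_of_nonneg_left h4 (inv_pos.2 hv0).le
    _ = C := by field_simp

/-- **the bound for `u`** -/
theorem uf_bdd [CompactSpace M] {o : OmOut σ L} {h : HM L} (s : SKOut K o h) (hH : Harn o h)
    {v : ℝ} (hv : Mass5_519.VolC A o.F.Tf o.F.Om n K v) : ∃ B : ℝ, ∀ x, |uf s v x| ≤ B := by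
  obtain ⟨C, hC⟩ := hH
  have hc : Continuous s.φ := cont_of_sm s.sm
  obtain ⟨B, hB⟩ : ∃ B : ℝ, ∀ x, |s.φ x| ≤ B := by
    obtain ⟨B, hB⟩ := (isCompact_range hc.abs).bddAbove
    exact ⟨B, fun x => hB (mem_range_self x)⟩
  refine ⟨max (3 * B + (o.k : ℝ)⁻¹ * C) 0, fun x => ?_⟩
  by_cases hx : x ∈ o.F.Om
  · refine le_trans ?_ (le_max_left _ _)
    have hk : 0 < (o.k : ℝ)⁻¹ := inv_pos.2 (by exact_mod_cast o.k_pos)
    have h1 := leaf_bound s hv hx (C := 2 * B + (o.k : ℝ)⁻¹ * C) fun y hy => by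
      have h2 := hC x hx y hy
      have h3 : af o h s.φ y - af o h s.φ x =
          (s.φ y - s.φ x) - (o.k : ℝ)⁻¹ * (o.rho h y - o.rho h x) := by
        unfold af
        ring
      rw [h3]
      have h4 : |(o.k : ℝ)⁻¹ * (o.rho h y - o.rho h x)| ≤ (o.k : ℝ)⁻¹ * C := by
        rw [abs_mul, abs_of_pos hk]
        exact mul_le_mul_of_nonneg_left h2 hk.le
      have h5 := abs_le.1 (hB y)
      have h6 := abs_le.1 (hB x)
      have h7 := abs_le.1 h4
      rw [abs_le]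
      constructor <;> linarith
    rw [uf_of s v hx]
    have h8 := abs_le.1 h1
    have h9 := abs_le.1 (hB x)
    have h10 : af o h s.φ x = s.φ x - (o.k : ℝ)⁻¹ * o.rho h x := rfl
    rw [h10] at h8
    rw [abs_le]
    constructor <;> linarith
  · unfold uf
    rw [if_neg hx, abs_zero]
    exact le_max_right _ _

/-- the projection of a tube is smooth in the charts -/
theorem tube_contDiffAt {N k : ℕ} {M : Type} [TopologicalSpace M] {A : Atl N M}
    {Tf : M → Set M} (τ : Tube A k Tf) {i : A.ι} {z : Cn N} (hz : z ∈ (A.e i).target)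
    (hW : (A.e i).symm z ∈ τ.W) :
    ContDiffAt ℝ ∞ (fun z => τ.f ((A.e i).symm z)) z := by
  have h1 := R266.SCV.analyticOnNhd_of_differentiableOn
    ((A.e i).isOpen_inter_preimage_symm τ.oW) (τ.hol i) z ⟨hz, hW⟩
  exact h1.contDiffAt.restrict_scalars ℝ

/-- **smoothness of `u`** -/
theorem uf_smOn {o : OmOut σ L} {h : HM L} (s : SKOut K o h) (v : ℝ) :
    SmOnR A o.F.Om (uf s v) := by
  intro i z hz hO
  obtain ⟨τ, hτ, hW, -⟩ := o.F.tube _ hO
  obtain ⟨W, Q, hQo, hQ0, hQW, h1, h2⟩ := leafI_sm (Φ := xd s) (two_mul n) τ hW (xd_smOn s) hτ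
  have h3 : (fun w => uf s v ((A.e i).symm w)) =ᶠ[𝓝 z] fun w =>
      (o.k : ℝ)⁻¹ * o.rho h ((A.e i).symm w) + v⁻¹ * (W (τ.f ((A.e i).symm w))).re := by
    filter_upwards [((A.e i).isOpen_inter_preimage_symm hQo).mem_nhds ⟨hz, hQ0⟩] with w hw
    rw [uf_of s v (hW (hQW hw.2)), h1 _ hw.2]
  refine ContDiffAt.congr_of_eventuallyEq ?_ h3
  refine (contDiffAt_const.mul (rho_smOn o h i z hz hO)).add (contDiffAt_const.mul ?_)
  refine Complex.reCLM.contDiff.contDiffAt.comp z ?_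
  exact ContDiffAt.comp z (g := W) (h2 _ hQ0) (tube_contDiffAt τ hz hτ)

end bdd

end

end Crest.Agent.R281.Up_425
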