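import Crest.Agent.R281.Up2_425

/-!
# R281 (S0424), the function `u`, part 3 (helper425): the pointwise identity

* `uf_fvol` : the fibre volume of a leafy family is `v`;
* `hsf_base`: `∂∂̄ (G ∘ y) = (∂∂̄G)(y) E_last`;
* `push_vol`: `f_*(det K') = lam f_*(det K)`;
* `uf_id`   : the pointwise identity;
* `uPre_of` : `SKOut → Harn → UPre`.
-/

set_option autoImplicit false
set_option linter.unusedSectionVars false

open Set Filter Topology Complex Function MeasureTheory
open scoped ContDiff Matrix ComplexConjugate ComplexOrder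

namespace Crest.Agent.R281.Up_425

open Crest.Agent.R275.Geo Crest.Agent.R275.Core144 Crest.Agent.R275.EDR890
open Crest.Agent.R275.Pai323 Crest.Agent.R275.OmT75
open Crest.Agent.R273.Defs_333 Crest.Agent.R273.Hess_333 Crest.Agent.R273.HessB_333
open Crest.Agent.R273.HM_333 Crest.Agent.R273.Kah_333 Crest.Agent.R273.KahI_645
open Crest.Agent.R273.Map_835 (HolMap Jp dm mem_dm mt)
open Crest.Agent.R273.Green_5
open Crest.Agent.R273.StokesV_332 Crest.Agent.R281.S6D_664 Crest.Agent.R281.Fub_192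
open Crest.Agent.R281.Fib2_425 Crest.Agent.R281.Fib4_425 Crest.Agent.R281.Fib5_425
open Crest.Agent.R281.Lf2_425 Crest.Agent.R281.Lf3_425 Crest.Agent.R281.Lf4_425
open Crest.Agent.R281.Har_331 (near_pull hsf_pull hess_compR')
open Crest.Agent.R281.Defs_273 Crest.Agent.R281.D6_986

noncomputable section

/-! ### functions of the base -/

section base

variable {d : ℕ} {V : Type} [TopologicalSpace V] {B : Atl (d + 1) V} {y : V → Cn 1}
  {U : Set (Cn 1)} {G : Cn 1 → ℝ}

theorem mt_bs (d : ℕ) (c : Fin 1) (a : Fin (d + 1)) (z : Cn (d + 1)) :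
    mt (fderiv ℂ (bs d (m := 1)) z) c a = if a = Fin.last d then 1 else 0 := by
  rw [ContinuousLinearMap.fderiv]
  show (bs d (m := 1) (EuclideanSpace.single a (1 : ℂ))) c = _
  rw [bs_apply, PiLp.single_apply, natAdd_zero_eq]
  by_cases h : a = Fin.last d
  · rw [if_pos h, if_pos h.symm]
  · rw [if_neg h, if_neg fun h' => h h'.symm]

/-- `∂∂̄ (G ∘ y)` -/
theorem hsf_base (h : Prj B y U) (hG : ContDiffOn ℝ ∞ G U) {k : B.ι} {v : V}
    (hv : v ∈ (B.e k).source) :
    hsf B (fun w => G (y w)) k v =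
      dj 0 (dbj 0 (fun z => (G z : ℂ))) (y v) • Matrix.single (Fin.last d) (Fin.last d) (1 : ℂ) := by
  have h1 : (fun z => G (y ((B.e k).symm z))) =ᶠ[𝓝 (B.e k v)] fun z => G (bs d z) := by
    filter_upwards [(B.e k).open_target.mem_nhds ((B.e k).map_source hv)] with z hz
    rw [h.y_symm hz]
  have h2 : hsf B (fun w => G (y w)) k v = hess (fun z => G (bs d z)) (B.e k v) := hess_congr h1
  have hb : bs d (B.e k v) = y v := h.bs_e hv
  have h3 : ContDiffAt ℝ 2 G (bs d (B.e k v)) := by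
    rw [hb]
    exact (hG.contDiffAt (h.opn.mem_nhds (h.mem v))).of_le (WithTop.coe_le_coe.2 le_top)
  rw [h2, hess_compR' (u := G) (S := bs d (m := 1)) ((bs d (m := 1)).analyticAt _) h3, hb]
  ext a b
  simp only [Matrix.mul_apply, Fin.sum_univ_one, Matrix.transpose_apply, Matrix.map_apply,
    mt_bs, Matrix.smul_apply, smul_eq_mul, Matrix.single_apply, Fin.isValue]
  have h4 : hess G (y v) 0 0 = dj 0 (dbj 0 (fun z => (G z : ℂ))) (y v) := by
    rw [hess_apply, dj_eq_wd]
    rfl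
  rw [h4]
  by_cases ha : a = Fin.last d
  · by_cases hb : b = Fin.last d
    · subst ha; subst hb; simp
    · subst ha; simp [hb, Ne.symm hb]
  · simp [ha, Ne.symm ha]

end base

variable {n : ℕ} {M : Type} [TopologicalSpace M] {A : Atl (2 * n) M}
variable {σ : HSymp A} {L : LB A} {K : Kah A} {o : OmOut σ L} {h : HM L} {D : Set (Cn 1)}

theorem smAt_kdet (F : Fam A n 1 D) (K : Kah A) (k : F.B.ι) :
    F.B.SmAt k (fun v => ((F.kah K).g k v).det) :=
  smAt_detG fun a b => (F.kah K).sm k a b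

variable [T2Space M]

/-- the fibre volume of a leafy family -/
theorem uf_fvol {v : ℝ} (hv : Mass5_519.VolC A o.F.Tf o.F.Om n K v) (F : Fam A n 1 D)
    (hF : Leafy o.F F) : ∀ u ∈ D, push F.P (fun k w => (fb ((F.kah K).g k w)).det) u = v := by
  intro u hu
  obtain ⟨w0, hw0⟩ := (F.conn u hu).nonempty
  have hw0' : F.y w0 = u := hw0
  have h1 := hF w0
  rw [push_eq_leaf F _ hu]
  have h2 : range (leaf F hu).i = o.F.Tf (F.i w0) := by
    rw [Lf4_425.range_leaf F hu, h1.2, hw0']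
  have h3 := hv.intD_leaf h1.1 (leaf F hu) h2
  rw [← h3]
  refine intD_congr _ fun k w hw => ?_
  rw [← pb_detDen K F hw, ← LDen.pb_leaf F hu hw, pb_detDen K (leaf F hu) hw]
  rfl

/-- `f_*(det K') = lam f_*(det K)` -/
theorem push_vol (s : SKOut K o h) (hD : IsOpen D) (F : Fam A n 1 D) (hF : Leafy o.F F) :
    ∀ u ∈ D, push F.P (fun k v => ((F.kah s.K').g k v).det) u =
      (s.lam : ℂ) * push F.P (fun k v => ((F.kah K).g k v).det) u := by
  intro u hu
  have hp := prj F hD
  rw [← push_smul hp _ hu]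
  refine push_eq_of_weak (P' := F.P) hp (smAt_kdet F s.K')
    (Θ := fun k v => (s.lam : ℂ) * ((F.kah K).g k v).det)
    (fun k => contDiffOn_const.mul (smAt_kdet F K k)) (fun χ hχ => ?_) u hu
  rw [s.vol D hD F hF χ hχ]
  have hoff : OffK F.B (fun k v => (χ (F.y v) : ℂ) * ((F.kah K).g k v).det)
      (F.y ⁻¹' tsupport χ) := fun k v _ hv => by
    show (χ (F.y v) : ℂ) * _ = 0
    rw [image_eq_zero_of_notMem_tsupport hv]; simp
  rw [← intD_smul F.P _ (hp.proper _ hχ.sub hχ.cpt) hoff]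
  exact intD_congr F.P fun k v _ => by ring

/-- the pull-back of the metrics on a leafy family -/
theorem leafy_kah (s : SKOut K o h) (F : Fam A n 1 D) (hF : Leafy o.F F) {k : F.B.ι} {v : F.V}
    (hv : v ∈ (F.B.e k).source) :
    (F.kah s.K').g k v = (F.kah K).g k v + hsf F.B (fun v => af o h s.φ (F.i v)) k v :=
  kah_pull F (af_smOn o h s.sm) (kah_af s) (fun v => (hF v).1) hv

/-- the leaf integral along a leafy family -/
theorem leafy_push (s : SKOut K o h) (F : Fam A n 1 D) (hF : Leafy o.F F) (v : F.V) :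
    leafI (xd s) (o.F.Tf (F.i v)) = push F.P ((xd s).pb F) (F.y v) := by
  rw [(hF v).2]
  exact leafI_fam F (xd_smOn s) (fun v => (hF v).1) (F.mem v)

/-- the second derivative of the leaf integral -/
theorem push_xd (s : SKOut K o h) (hD : IsOpen D) (F : Fam A n 1 D) (hF : Leafy o.F F) {u : Cn 1}
    (hu : u ∈ D) : dj 0 (dbj 0 (push F.P ((xd s).pb F))) u =
      ((s.lam - 1 : ℝ) : ℂ) * push F.P (fun k v => ((F.kah K).g k v).det) u := by
  have hp := prj F hD
  set H : F.V → ℝ := fun v => af o h s.φ (F.i v) with hH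
  have hHs : F.B.Sm H := sm_pullOn F.hol (af_smOn o h s.sm) fun v => (hF v).1
  have h1 := push_det_sub (P := F.P) hp (kah_cf (F.kah K)) (fun k v hv => (F.kah K).pos k v hv |>.1)
    hHs hu
  have h2 : ∀ z ∈ D, push F.P ((xd s).pb F) z = push F.P (fun i x => (H x : ℂ) *
      xi (fb (d := n) (m := 1) ((F.kah K).g i x)) (fb (d := n) (m := 1) (hsf F.B H i x))) z := by
    intro z hz
    refine push_congr hp fun k v hv _ => ?_
    show (mixDen n (kah_cf K) (kah_cf s.K') (af o h s.φ)).pb F k v = _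
    rw [pb_mixDen K s.K' _ F hv, leafy_kah s F hF hv, fb_add, add_sub_cancel_left]
  rw [ddb_congr hD h2 0 0 hu, ← h1]
  have h3 : push F.P (fun i x => ((F.kah K).g i x + hsf F.B H i x).det -
      ((F.kah K).g i x).det) u =
      push F.P (fun i x => ((F.kah s.K').g i x).det - ((F.kah K).g i x).det) u :=
    push_congr hp fun k v hv _ => by rw [leafy_kah s F hF hv]
  rw [h3, push_sub hp (smAt_kdet F s.K') (smAt_kdet F K) hu, push_vol s hD F hF u hu]
  push_cast
  ring

/-- the leaf integral is real -/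
theorem xd_real (s : SKOut K o h) (hD : IsOpen D) (F : Fam A n 1 D) {u : Cn 1}
    (hu : u ∈ D) : (push F.P ((xd s).pb F) u).im = 0 := by
  refine push_real (prj F hD) hu fun k v hv _ => ?_
  have h1 : (xd s).pb F k v = _ := mix_mul (K := K) (K' := s.K') F hv (af o h s.φ)
  rw [h1, Complex.im_ofReal_mul, (mix_nonneg F k v hv).2, mul_zero]

variable [SecondCountableTopology M]

/-- **the pointwise identity** -/
theorem uf_id (s : SKOut K o h) (v0 : ℝ) (hD : IsOpen D) (F : Fam A n 1 D)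
    (hF : Leafy o.F F) {k : F.B.ι} {v : F.V} (hv : v ∈ (F.B.e k).source) {i : A.ι}
    (hi : F.i v ∈ (A.e i).source) :
    (Jp F.B A F.i k i v)ᵀ * (cur h i (F.i v) + hsf A (uf s v0) i (F.i v)) *
        (Jp F.B A F.i k i v).map conj =
      ((((s.lam - 1) / v0 : ℝ) : ℂ) * push F.P (fun k v => ((F.kah K).g k v).det) (F.y v)) •
        Matrix.single (Fin.last n) (Fin.last n) (1 : ℂ) := by
  have hp := prj F hD
  have hO := (hF v).1
  set W := push F.P ((xd s).pb F) with hW
  have hWs : ContDiffOn ℝ ∞ W D :=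
    contDiffOn_push hp (LDen.pb_smAt F (xd_smOn s) fun v => (hF v).1)
  have hWr : ContDiffOn ℝ ∞ (fun z => (W z).re) D := Complex.reCLM.contDiff.comp_contDiffOn hWs
  -- the Hessians
  have e1 := hsf_pull F.hol (u := uf s v0) hv hi ((uf_smOn s v0).at hi hO)
  have e2 := hsf_pull F.hol (u := o.rho h) hv hi ((rho_smOn o h).at hi hO)
  have e3 : (fun w => uf s v0 (F.i w)) = fun w => (o.k : ℝ)⁻¹ * o.rho h (F.i w) +
      v0⁻¹ * (W (F.y w)).re := by
    funext w
    rw [uf_of s v0 (hF w).1, leafy_push s F hF w]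
  have hρ : F.B.Sm (fun w => o.rho h (F.i w)) :=
    sm_pullOn F.hol (rho_smOn o h) fun v => (hF v).1
  have hGW : F.B.Sm (fun w => (W (F.y w)).re) := hp.sm hWr
  have hat : ∀ {f : F.V → ℝ}, F.B.Sm f →
      ContDiffAt ℝ ∞ (fun z => f ((F.B.e k).symm z)) (F.B.e k v) := fun hf =>
    (hf k).contDiffAt ((F.B.e k).open_target.mem_nhds ((F.B.e k).map_source hv))
  have e4 : hsf F.B (fun w => uf s v0 (F.i w)) k v =
      (((o.k : ℝ)⁻¹ : ℝ) : ℂ) • hsf F.B (fun w => o.rho h (F.i w)) k v +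
        ((v0⁻¹ : ℝ) : ℂ) • hsf F.B (fun w => (W (F.y w)).re) k v := by
    rw [e3]
    show hess (fun z => (o.k : ℝ)⁻¹ * o.rho h (F.i ((F.B.e k).symm z)) +
      v0⁻¹ * (W (F.y ((F.B.e k).symm z))).re) (F.B.e k v) = _
    rw [hess_add (contDiffAt_const.mul (hat hρ)) (contDiffAt_const.mul (hat hGW)),
      hess_const_mul _ (hat hρ), hess_const_mul _ (hat hGW)]
    rfl
  have e5 := hsf_base hp hWr hv
  have e6 : dj 0 (dbj 0 (fun z => (((W z).re : ℝ) : ℂ))) (F.y v) = dj 0 (dbj 0 W) (F.y v) := by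
    refine ddb_congr hD (fun z hz => ?_) 0 0 (F.mem v)
    exact Complex.ext rfl (by rw [Complex.ofReal_im]; exact (xd_real s hD F hz).symm)
  rw [e6, push_xd s hD F hF (F.mem v)] at e5
  rw [Matrix.mul_add, Matrix.add_mul, ← e1, e4, e2, e5, hsf_rho o h hi hO]
  have hk : (o.k : ℂ) ≠ 0 := by exact_mod_cast o.k_pos.ne'
  rw [Matrix.mul_neg, Matrix.neg_mul, Matrix.mul_smul, Matrix.smul_mul, smul_neg, smul_smul]
  have h3 : (((o.k : ℝ)⁻¹ : ℝ) : ℂ) * (o.k : ℂ) = 1 := by
    push_cast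
    exact inv_mul_cancel₀ hk
  rw [h3, one_smul, ← add_assoc, add_neg_cancel, zero_add, smul_smul]
  congr 1
  push_cast
  ring

/-- **`SKOut` and the Harnack inequality give `UPre`** -/
def uPre_of [CompactSpace M] (s : SKOut K o h) {v0 B : ℝ}
    (hv : Mass5_519.VolC A o.F.Tf o.F.Om n K v0) (hB : ∀ x, |uf s v0 x| ≤ B) : UPre K o h where
  u := uf s v0
  B := B
  bdd := hB
  sm := uf_smOn s v0
  a := (s.lam - 1) / v0
  a_pos := div_pos (by have := s.one_lt; linarith) hv.pos
  vol := v0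
  vol_pos := hv.pos
  fvol := fun _ _ F1 hF1 => uf_fvol hv F1 hF1
  id := fun _ hD F1 hF1 _ _ hv' _ hi => uf_id s v0 hD F1 hF1 hv' hi

end

end Crest.Agent.R281.Up_425
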