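import Crest.Agent.R281.Up3_425
import Crest.Agent.R281.D6y_986
import Crest.Agent.R273.AsmB_73

/-!
# R281 (S0424), the function `u`, part 4 (helper425): the node `UPreStmt`
-/

set_option autoImplicit false
set_option linter.unusedSectionVars false

namespace Crest.Agent.R281.Up_425

open Crest.Agent.R281.D6_986

/-- **the node `UPreStmt` of division 6** -/
theorem uPreStmt : D6_986.UPreStmt := by
  intro n M _ _ _ _ A _ _ _ K σ L h o s hH
  have : SecondCountableTopology M := Crest.Agent.R273.AsmA_73.secM (A := A)
  obtain ⟨v, hv⟩ := Mass5_519.exists_volC_LFib o.F K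
  obtain ⟨B, hB⟩ := uf_bdd s hH hv
  exact ⟨uPre_of s hv hB⟩

end Crest.Agent.R281.Up_425
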