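import Crest.Agent.R281.Nef3_252
import Crest.Agent.R281.KpU_487

/-!
# Row 281, UNIQ-R, part 1 (helper250): `dd^c` of functions of class `C²`

* `ddcF_nat` : naturality of `ddcF` for functions of class `C²`
* `ddcF_iL`  : in complex coordinates `ddcF` is the form of `4 ∂∂̄ u`
* `AJ.acm`   : the almost complex manifold of a pair `(C, J)`
-/

set_option autoImplicit false
set_option maxSynthPendingDepth 3
set_option linter.unusedSectionVars false

open Set Filter Topology Complex
open scoped ContDiff Matrix ComplexConjugate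

namespace Crest.Agent.R281.Uq_250

open Crest.Agent.R275.Geo Crest.Agent.R275.Core144 Crest.Agent.R275.EDR890
open Crest.Agent.R273.Defs_333 Crest.Agent.R273.YauDefs_635 Crest.Agent.R273
open Crest.Agent.R260.ACM_580 Crest.Agent.R260.NNB_580 Crest.Agent.R281.HkR_835
open Crest.Agent.R281.NefO_476 Crest.Agent.R281.Nef_252 Crest.Agent.R281.KpU_487

noncomputable section

section nat

variable {V V' : Type} [NormedAddCommGroup V] [NormedSpace ℝ V]
  [NormedAddCommGroup V'] [NormedSpace ℝ V']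

/-- `ddcF` is the differential of `-df ∘ T` -/
theorem ddcF_eq {f : V → ℝ} {T : V → V →L[ℝ] V} {z : V} (hf : DifferentiableAt ℝ (fderiv ℝ f) z)
    (hT : DifferentiableAt ℝ T z) (a b : V) :
    ddcF f T z a b = fderiv ℝ (fun y => -(fderiv ℝ f y).comp (T y)) z a b -
      fderiv ℝ (fun y => -(fderiv ℝ f y).comp (T y)) z b a := by
  have h3 := (hf.hasFDerivAt.clm_comp hT.hasFDerivAt).fun_neg
  have h4 : ∀ p q, fderiv ℝ (fun y => -(fderiv ℝ f y).comp (T y)) z p q =
      -(fderiv ℝ (fderiv ℝ f) z p (T z q) + fderiv ℝ f z (fderiv ℝ T z p q)) := by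
    intro p q
    rw [h3.fderiv]
    simp [add_comm]
  rw [h4, h4, ddcF]
  ring

/-- **naturality of `dd^c` for functions of class `C²`** -/
theorem ddcF_nat {f : V → ℝ} {T : V → V →L[ℝ] V} {μ : V' → V} {S : V' → V' →L[ℝ] V'} {z : V'}
    (hf : ContDiffAt ℝ 2 f (μ z)) (hT : DifferentiableAt ℝ T (μ z)) (hμ : ContDiffAt ℝ ∞ μ z)
    (hS : DifferentiableAt ℝ S z)
    (h : ∀ᶠ y in 𝓝 z, ∀ v, fderiv ℝ μ y (S y v) = T (μ y) (fderiv ℝ μ y v)) (a b : V') :
    ddcF (fun y => f (μ y)) S z a b =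
      ddcF f T (μ z) (fderiv ℝ μ z a) (fderiv ℝ μ z b) := by
  have hμ2 : ContDiffAt ℝ 2 μ z := hμ.of_le (WithTop.coe_le_coe.2 le_top)
  have hg : ContDiffAt ℝ 2 (fun y => f (μ y)) z := hf.comp z hμ2
  have df : DifferentiableAt ℝ (fderiv ℝ f) (μ z) :=
    (hf.fderiv_right (m := 1) (by norm_num)).differentiableAt (by norm_num)
  have dg : DifferentiableAt ℝ (fderiv ℝ fun y => f (μ y)) z :=
    (hg.fderiv_right (m := 1) (by norm_num)).differentiableAt (by norm_num)
  have dm : DifferentiableAt ℝ (fderiv ℝ μ) z :=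
    (hμ2.fderiv_right (m := 1) (by norm_num)).differentiableAt (by norm_num)
  have dμ : DifferentiableAt ℝ μ z := hμ2.differentiableAt (by norm_num)
  rw [ddcF_eq dg hS, ddcF_eq df hT]
  set η : V → V →L[ℝ] ℝ := fun y => -(fderiv ℝ f y).comp (T y) with hη
  have dη : DifferentiableAt ℝ η (μ z) :=
    (df.hasFDerivAt.clm_comp hT.hasFDerivAt).fun_neg.differentiableAt
  have h1 : (fun y => -(fderiv ℝ (fun y => f (μ y)) y).comp (S y)) =ᶠ[𝓝 z]
      fun y => (η (μ y)).comp (fderiv ℝ μ y) := by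
    have e1 : ∀ᶠ y in 𝓝 z, DifferentiableAt ℝ μ y :=
      (hμ2.eventually (by simp)).mono fun y hy => hy.differentiableAt (by norm_num)
    have e2 : ∀ᶠ y in 𝓝 z, DifferentiableAt ℝ f (μ y) :=
      dμ.continuousAt.eventually
        ((hf.eventually (by simp)).mono fun y hy => hy.differentiableAt (by norm_num))
    filter_upwards [h, e1, e2] with y hy hy1 hy2
    ext v
    have e3 := (hy2.hasFDerivAt.comp y hy1.hasFDerivAt).fderiv
    have e4 : (f ∘ μ) = fun y => f (μ y) := rfl
    rw [e4] at e3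
    rw [e3]
    simp only [hη, neg_apply, ContinuousLinearMap.comp_apply, hy v]
  have h2 : HasFDerivAt (fun y => (η (μ y)).comp (fderiv ℝ μ y)) _ z :=
    (dη.hasFDerivAt.comp z dμ.hasFDerivAt).clm_comp dm.hasFDerivAt
  have h3 : ∀ p q, fderiv ℝ (fun y => -(fderiv ℝ (fun y => f (μ y)) y).comp (S y)) z p q =
      fderiv ℝ η (μ z) (fderiv ℝ μ z p) (fderiv ℝ μ z q) +
        η (μ z) (fderiv ℝ (fderiv ℝ μ) z p q) := by
    intro p q
    rw [h1.fderiv_eq, h2.fderiv]
    simp [add_comm]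
  rw [h3, h3]
  have hs : fderiv ℝ (fderiv ℝ μ) z a b = fderiv ℝ (fderiv ℝ μ) z b a :=
    (hμ.isSymmSndFDerivAt (by
      rw [minSmoothness_of_isRCLikeNormedField]; exact WithTop.coe_le_coe.2 le_top)) a b
  rw [hs]
  ring

end nat

/-! ### complex coordinates -/

section cn

variable {d : ℕ}

/-- in complex coordinates `dd^c u` is the form of `4 ∂∂̄ u` -/
theorem ddcF_iL {g : Cn d → ℝ} {z : Cn d} (hg : ContDiffAt ℝ 2 g z) (a b : Cn d) :
    ddcF g (fun _ => iL) z a b = (I * hb ((4 : ℂ) • cH g z) a b).re := by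
  have hsym : ∀ u v, fderiv ℝ (fderiv ℝ g) z u v = fderiv ℝ (fderiv ℝ g) z v u := fun u v =>
    (hg.isSymmSndFDerivAt (by rw [minSmoothness_of_isRCLikeNormedField])) u v
  have hform : ∀ u v, ddcF g (fun _ => iL) z u v =
      fderiv ℝ (fderiv ℝ g) z v (I • u) - fderiv ℝ (fderiv ℝ g) z u (I • v) := by
    intro u v
    unfold ddcF
    have h0 : fderiv ℝ (fun _ : Cn d => (iL : Cn d →L[ℝ] Cn d)) z = 0 := by simp
    rw [h0]
    simp only [zero_apply, map_zero, add_zero, iL_apply]
    ring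
  have hh : (cH g z).IsHermitian := by
    ext a b
    rw [Matrix.conjTranspose_apply, cH_eq_hs hg, cH_eq_hs hg]
    exact Levi_145.hs_herm hg b a
  set G : Matrix (Fin d) (Fin d) ℂ := (4 : ℂ) • cH g z with hG
  have hGh : G.IsHermitian := by
    rw [hG, Matrix.IsHermitian, Matrix.conjTranspose_smul, hh.eq]
    simp
  refine bil_ext (B := fun a b => ddcF g (fun _ => iL) z a b)
    (B' := fun a b => (I * hb G a b).re) ?_ ?_ ?_ ?_ ?_ ?_ ?_ ?_ ?_ a b
  · intro u u' v
    simp only [hform, smul_add, map_add, add_apply]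
    ring
  · intro u v v'
    simp only [hform, smul_add, map_add, add_apply]
    ring
  · intro u u' v
    simp only [hb, PiLp.add_apply, mul_add, add_mul, Finset.sum_add_distrib, Complex.add_re]
  · intro u v v'
    simp only [hb, PiLp.add_apply, map_add, mul_add, Finset.sum_add_distrib, Complex.add_re]
  · intro u v
    simp only [hform]
    ring
  · intro u v
    rw [← hb_conj hGh v u]
    simp
  · intro u v
    simp only [hform, II_smul, map_neg]
    rw [hsym (I • v) u, hsym (I • u) v]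
    ring
  · intro u v
    rw [hb_I_left, hb_I_right]
    congr 2
    linear_combination (-hb G u v) * I_mul_I
  · intro v
    simp only [hform, II_smul, map_neg]
    rw [re_I_hb, hG, hb_smul]
    have h1 := Levi_145.lev_eq hg v
    have h2 : hb (cH g z) v v = ((Levi_145.lev g z v : ℝ) : ℂ) := by
      rw [h1]
      simp only [hb, cH_eq_hs hg]
    rw [h2]
    unfold Levi_145.lev
    simp only [Complex.mul_re, Complex.ofReal_re, Complex.ofReal_im, Complex.re_ofNat,
      Complex.im_ofNat]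
    ring

end cn

/-! ### the almost complex manifold -/

section acm

variable {V X : Type} [NormedAddCommGroup V] [NormedSpace ℝ V] [TopologicalSpace X]
  {C : RCh V X}

/-- the almost complex manifold of `(C, J)` -/
def acmJ (J : AJ C) (hJ : Cx J) : ACM V X where
  ι := C.ι
  e := C.e
  cover := C.cover
  sm := C.sm
  J := J.J
  J_sm := J.sm
  J_sq := hJ.sq
  J_tr i j z h1 h2 v := J.tr i j z ⟨h1, h2⟩ v

theorem acmJ_int (J : AJ C) (hJ : Cx J) : (acmJ J hJ).Int := hJ.int

variable {d : ℕ} {A : Atl d X} {J : AJ C} {hJ : Cx J}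

theorem cmp_acm (hA : Cp (acmJ J hJ) A) : Cmp C (ofAtl A) :=
  ⟨fun i j => (hA j).sm' i, fun i j => (hA j).sm i⟩

theorem lin_acm (hA : Cp (acmJ J hJ) A) {i : C.ι} {j : A.ι} {z : Cn d}
    (hz : z ∈ mov C (ofAtl A) i j) (u : Cn d) :
    fderiv ℝ (mt C (ofAtl A) i j) z (I • u) =
      J.J i (mt C (ofAtl A) i j z) (fderiv ℝ (mt C (ofAtl A) i j) z u) :=
  (hA j).lin' (i := i) hz u

end acm

end

end Crest.Agent.R281.Uq_250
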