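import Crest.Agent.R281.Fuj6_207
import Crest.Agent.R281.Ti7_846
import Crest.Agent.R281.Nef2_252
import Crest.Agent.R273.FId0_597

/-!
# Row 281, OM-VOL, part 1 (helper847): total determinants of closed (1,1)-fields

* `k11 hg hh`  : a closed Hermitian field of type (1,1) as `K11 A`
* `f2_lin`     : `X = s K + t Y + ∂∂̄ u` gives `X.f2 = s K.f2 + t Y.f2` modulo exact forms
* `IM_det`     : `IM (X, …, X) = 2^d d! ∫ det X` (`totc P`)
* `IM_lin`     : `∫ det (s K + t Y + ∂∂̄ u)` in terms of `IM` of `s K.f2 + t Y.f2`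
-/

set_option autoImplicit false
set_option linter.unusedSectionVars false
set_option maxSynthPendingDepth 3

open Set Filter Topology Complex MeasureTheory
open scoped ContDiff Matrix ComplexConjugate ComplexOrder

namespace Crest.Agent.R281.Vol_847

open Crest.Agent.R275 Crest.Agent.R275.Geo Crest.Agent.R275.Core144 Crest.Agent.R275.EDR890
open Crest.Agent.R275.GC293
open Crest.Agent.R273.Defs_333 Crest.Agent.R273.Hess_333 Crest.Agent.R273.HM_333
open Crest.Agent.R273.Kah_333 Crest.Agent.R273.Vol_333 Crest.Agent.R273.Vm_333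
open Crest.Agent.R273.StV_37 Crest.Agent.R273.Green_5 Crest.Agent.R273.VolInv_5
open Crest.Agent.R273.FIb0_597 Crest.Agent.R273.FId0_597
open Crest.Agent.R281.HkR_835 Crest.Agent.R281.Ti_846
open Crest.Agent.R281.Nef_252 (hb_add hb_smul)

noncomputable section

variable {d : ℕ} {M : Type} [TopologicalSpace M] {A : Atl d M} {L : LB A}

/-- a closed Hermitian field of type (1,1) -/
def k11 {g : A.ι → M → Matrix (Fin d) (Fin d) ℂ} (hg : CF A g)
    (hh : ∀ i, ∀ x ∈ (A.e i).source, (g i x).IsHermitian) : K11 A where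
  g := g
  sm := hg.sm
  herm := hh
  tr := hg.tr
  closed := hg.closed

theorem K11.cf (X : K11 A) : CF A X.g := ⟨X.sm, X.tr, X.closed⟩

theorem smul_herm {G : Matrix (Fin d) (Fin d) ℂ} (hG : G.IsHermitian) (t : ℝ) :
    ((t : ℂ) • G).IsHermitian := by
  rw [Matrix.IsHermitian, Matrix.conjTranspose_smul, hG.eq]
  simp

theorem hsf_herm {u : M → ℝ} (hu : A.Sm u) (i : A.ι) {x : M} (hx : x ∈ (A.e i).source) :
    (hsf A u i x).IsHermitian := by
  have hz := (A.e i).map_source hx
  have h1 := hsf_read (A := A) u i hz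
  rw [(A.e i).left_inv hx] at h1
  rw [h1]
  exact hess_herm (sm_contDiffAt hu i hz)

/-- the field `s X + t Y + ∂∂̄ u` -/
def lin (X Y : K11 A) (s t : ℝ) {u : M → ℝ} (hu : A.Sm u) : K11 A :=
  k11 (g := fun i x => (s : ℂ) • X.g i x + (t : ℂ) • Y.g i x + hsf A u i x)
    (((K11.cf X).smul s |>.add ((K11.cf Y).smul t)).add (hsf_cf hu)) fun i x hx =>
      ((smul_herm (X.herm i x hx) s).add (smul_herm (Y.herm i x hx) t)).add (hsf_herm hu i hx)

theorem lin_g (X Y : K11 A) (s t : ℝ) {u : M → ℝ} (hu : A.Sm u) (i : A.ι) (x : M) :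
    (lin X Y s t hu).g i x = (s : ℂ) • X.g i x + (t : ℂ) • Y.g i x + hsf A u i x := rfl

/-- `s X + t Y + ∂∂̄ u` on the level of forms -/
theorem f2_lin (X Y : K11 A) (s t : ℝ) {u : M → ℝ} (hu : A.Sm u) :
    (lin X Y s t hu).f2 - (s • X.f2 + t • Y.f2) ∈ exS (ofAtl A) := by
  refine mem_exS.2 (Fuj3_207.ex_hsf u hu _ fun i z hz v v' => ?_)
  have h2 : ((lin X Y s t hu).f2 - (s • X.f2 + t • Y.f2)).w i z v v' =
      (lin X Y s t hu).f2.w i z v v' - (s * X.f2.w i z v v' + t * Y.f2.w i z v v') := rfl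
  rw [h2, K11.f2_w _ hz, K11.f2_w _ hz, K11.f2_w _ hz, lin_g, hb_add, hb_add, hb_smul, hb_smul,
    mul_add, mul_add, Complex.add_re, Complex.add_re]
  have h3 : ∀ (r : ℝ) (c : ℂ), (I * ((r : ℂ) * c)).re = r * (I * c).re := by
    intro r c
    rw [mul_left_comm, Complex.re_ofReal_mul]
  rw [h3, h3]
  ring

section compact

variable [T2Space M] [CompactSpace M] [Finite A.ι]

/-- **the top power of a (1,1)-form** -/
theorem IM_det (P : Part A) (K : Kah A) (RP : RPart (ofAtl A)) (X : K11 A) :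
    IM (lc d) (bc d) RP (fun _ => X.f2) =
      2 ^ d * d.factorial * (totc P (fun i x => (X.g i x).det)).re := by
  let _ := Fintype.ofFinite A.ι
  let _ : MeasurableSpace M := borel M
  have _ : BorelSpace M := ⟨rfl⟩
  have hT : TF A X.g := ⟨X.sm, X.tr⟩
  have h1 : II (lc d) (bc d) RP (fun _ => X.f2) =
      2 ^ d * ∫ x, (d.factorial : ℝ) * dtM (volK K) X.g x ∂(vm (volK K)) := by
    refine II_herm K RP (fun _ => X) fun i x hx => ?_
    rw [MD_same]
    have hd : (X.g i x).det.im = 0 := by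
      have h2 := (X.herm i x hx).isSelfAdjoint
      have h3 : star (X.g i x).det = (X.g i x).det := by
        rw [← Matrix.det_conjTranspose, (X.herm i x hx).eq]
      exact Complex.conj_eq_iff_im.1 h3
    have h4 : dtM (volK K) X.g x = (X.g i x).det.re / (volK K).w i x := by
      rw [← dtC_re, dtC_eq _ hT hx, Complex.div_ofReal_re]
    have h5 : (X.g i x).det = ((X.g i x).det.re : ℂ) := by
      apply Complex.ext
      · simp
      · simp [hd]
    have h6 : ((volK K).w i x : ℂ) ≠ 0 := by exact_mod_cast ((volK K).pos i x hx).ne'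
    rw [h4, ← volK_w K i hx, h5]
    push_cast
    rw [Complex.ofReal_re]
    field_simp
  show II (lc d) (bc d) RP (fun _ => X.f2) = _
  rw [h1, integral_const_mul, int_dtM P _ hT]
  ring

theorem IM_lin (P : Part A) (K : Kah A) (RP : RPart (ofAtl A)) (X Y : K11 A) (s t : ℝ) {u : M → ℝ}
    (hu : A.Sm u) : 2 ^ d * d.factorial *
      (totc P (fun i x => ((s : ℂ) • X.g i x + (t : ℂ) • Y.g i x + hsf A u i x).det)).re =
      IM (lc d) (bc d) RP (fun _ => s • X.f2 + t • Y.f2) := by
  have h1 := IM_det P K RP (lin X Y s t hu)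
  have h2 : IM (lc d) (bc d) RP (fun _ => (lin X Y s t hu).f2) =
      IM (lc d) (bc d) RP (fun _ => s • X.f2 + t • Y.f2) :=
    IM_coh (lc d) (bc d) RP (ori_ofAtl A) fun _ => f2_lin X Y s t hu
  rw [← h2, h1]
  rfl

end compact

end

end Crest.Agent.R281.Vol_847
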