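import Crest.Agent.R281.Vol1_847
import Crest.Agent.R273.YauMax_635

/-!
# Row 281, OM-VOL, part 2 (helper847): the Fujiki relation for total determinants

`A : Atl (2 * n) M`, `K : Kah A`, `h : HM L`, `T (s, t, u) = ∫ det (s K + t cur h + ∂∂̄ u)`.

* `hposK`     : `IM (K, …, K) > 0`
* `BB P σ hc` : the Beauville-Bogomolov-Fujiki form on `F2 (ofAtl A)`
* `vol_two`   : `2^(2n) (2n)! T (s, t, u) = (s² q(K) + 2 s t q(K, L) + t² q(L))^n`
* `q_nonneg`  : `q (K, L) ≥ 0` for nef `L` with `q (L) = 0`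
* `vol_eq`    : `T (s, t, u) = c s^n (q₀ s + 2 q₁ t)^n`, `c, q₀ > 0`, `q₁ ≥ 0`
* `vol_le`    : `T (s, t, u) ≤ C s^n (s + t)^n` for `s, t ≥ 0`
-/

set_option autoImplicit false
set_option linter.unusedSectionVars false
set_option maxSynthPendingDepth 3

open Set Filter Topology Complex MeasureTheory
open scoped ContDiff Matrix ComplexConjugate ComplexOrder

namespace Crest.Agent.R281.Vol_847

open Crest.Agent.R275 Crest.Agent.R275.Geo Crest.Agent.R275.Core144 Crest.Agent.R275.EDR890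
open Crest.Agent.R275.GC293
open Crest.Agent.R273.Defs_333 Crest.Agent.R273.Hess_333 Crest.Agent.R273.HM_333
open Crest.Agent.R273.Kah_333 Crest.Agent.R273.Vol_333 Crest.Agent.R273.Vm_333
open Crest.Agent.R273.StV_37 Crest.Agent.R273.Green_5 Crest.Agent.R273.VolInv_5
open Crest.Agent.R273.FIb0_597 Crest.Agent.R273.FIc0_597 Crest.Agent.R273.FId0_597
open Crest.Agent.R273.HessB_333 (hess_const_mul)
open Crest.Agent.R281.HkR_835 Crest.Agent.R281.Ti_846
open Crest.Agent.R281.Nef_252 (hb_add hb_smul curK ex_cur)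
open Crest.Agent.R281.HkP2_508 Crest.Agent.R281.HkP3_508
open Crest.Agent.R281.Defs_273 (H2 HSymp NefW Isotropic)
open Crest.Agent.R281.Fuj1_207 Crest.Agent.R281.Fuj4_207 Crest.Agent.R281.Fuj5_207
open Crest.Agent.R281.Fuj6_207

noncomputable section

variable {d : ℕ} {M : Type} [TopologicalSpace M] {A : Atl d M} {L : LB A}
variable [T2Space M] [CompactSpace M] [ConnectedSpace M]

/-- the volume of a Kaehler form is positive -/
theorem hposK [Finite A.ι] (RP : RPart (ofAtl A)) (K : Kah A) :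
    0 < IM (lc d) (bc d) RP (fun _ => (ofKah K).f2) := by
  let _ : MeasurableSpace M := borel M
  have _ : BorelSpace M := ⟨rfl⟩
  have := isFinite_vm (volK K)
  have := isOpenPos_vm (volK K)
  have h1 : 0 < (vm (volK K)).real univ :=
    ENNReal.toReal_pos (isOpen_univ.measure_ne_zero _ univ_nonempty) (measure_ne_top _ _)
  have h2 : IM (lc d) (bc d) RP (fun _ => (ofKah K).f2) =
      2 ^ d * d.factorial * (vm (volK K)).real univ := II_same K RP
  rw [h2]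
  positivity

variable {n : ℕ} {B : Atl (2 * n) M} {L : LB B} [Finite B.ι]

/-- the Beauville-Bogomolov-Fujiki form -/
def BB (P : Part B) (hn2 : 2 ≤ 2 * n) {σ : HSymp B} (hc : ClH σ.toH2) :
    F2 (ofAtl B) →ₗ[ℝ] F2 (ofAtl B) →ₗ[ℝ] ℝ :=
  Qf (IM (lc (2 * n)) (bc (2 * n)) (RPart.ofPart P)) hn2 n (reS σ.toH2 hc)

section

variable (P : Part B) (hn : 1 ≤ n) (hn2 : 2 ≤ 2 * n) {σ : HSymp B} (hu : σ.Uniq)
  (hc : ClH σ.toH2) (ho : Open11 B) (K : Kah B)

theorem BB_symm (x y : F2 (ofAtl B)) : BB P hn2 hc x y = BB P hn2 hc y x :=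
  Qf_symm (IM_symm _ _ _) _ _ _ _ _

include K hn hu in
theorem BB_KK : 0 < BB P hn2 hc (ofKah K).f2 (ofKah K).f2 :=
  (values P σ hu hc (lc (2 * n)) (bc (2 * n)) (RPart.ofPart P) hn rfl hn2 (ori_ofAtl B)
    (hposK _) K).2.2.2.2.2

theorem BB_congr {x x' : F2 (ofAtl B)} (h : x - x' ∈ exS (ofAtl B)) (y : F2 (ofAtl B)) :
    BB P hn2 hc y x = BB P hn2 hc y x' :=
  Qf_congr _ _ _ (ori_ofAtl B) hn2 _ h y

/-- `q (K, L)` does not depend on the metric of `L` -/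
theorem BB_cur (h h' : HM L) (y : F2 (ofAtl B)) :
    BB P hn2 hc y (curK h').f2 = BB P hn2 hc y (curK h).f2 :=
  BB_congr P hn2 hc (mem_exS.2 (ex_cur h h')) y

include hn hu ho in
/-- **the Fujiki relation for total determinants** -/
theorem vol_two (h : HM L) (s t : ℝ) {u : M → ℝ} (hu' : B.Sm u) :
    2 ^ (2 * n) * (2 * n).factorial *
      (totc P (fun i x => ((s : ℂ) • K.g i x + (t : ℂ) • cur h i x + hsf B u i x).det)).re =
      (s ^ 2 * BB P hn2 hc (ofKah K).f2 (ofKah K).f2 +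
        2 * s * t * BB P hn2 hc (ofKah K).f2 (curK h).f2 +
        t ^ 2 * BB P hn2 hc (curK h).f2 (curK h).f2) ^ n := by
  have h1 := IM_lin P K (RPart.ofPart P) (ofKah K) (curK h) s t hu'
  have h2 := fujiki P σ hu hc (lc (2 * n)) (bc (2 * n)) (RPart.ofPart P) hn rfl hn2
    (ori_ofAtl B) ho (hposK _) K (s • (ofKah K).f2 + t • (curK h).f2)
  have h3 : Qf (IM (lc (2 * n)) (bc (2 * n)) (RPart.ofPart P)) hn2 n (reS σ.toH2 hc) =
    BB P hn2 hc := rfl
  rw [h3] at h2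
  refine h1.trans (h2.trans ?_)
  congr 1
  simp only [map_add, map_smul, LinearMap.add_apply, LinearMap.smul_apply, smul_eq_mul]
  rw [BB_symm P hn2 hc (curK h).f2 (ofKah K).f2]
  ring

include hn hu ho in
theorem vol_iso (h : HM L) (hiso : BB P hn2 hc (curK h).f2 (curK h).f2 = 0) (s t : ℝ)
    {u : M → ℝ} (hu' : B.Sm u) :
    2 ^ (2 * n) * (2 * n).factorial *
      (totc P (fun i x => ((s : ℂ) • K.g i x + (t : ℂ) • cur h i x + hsf B u i x).det)).re =
      s ^ n * (s * BB P hn2 hc (ofKah K).f2 (ofKah K).f2 +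
        2 * t * BB P hn2 hc (ofKah K).f2 (curK h).f2) ^ n := by
  rw [vol_two P hn hn2 hu hc ho K h s t hu', hiso, ← mul_pow]
  congr 1
  ring

end

/-! ### positivity -/

/-- monotonicity of total determinants -/
theorem totc_det_mono [Finite A.ι] (P : Part A) (K : Kah A)
    {S S' : A.ι → M → Matrix (Fin d) (Fin d) ℂ} (hS : TF A S) (hS' : TF A S')
    (h : ∀ i, ∀ x ∈ (A.e i).source, (S i x).det.re ≤ (S' i x).det.re) :
    (totc P (fun i x => (S i x).det)).re ≤ (totc P (fun i x => (S' i x).det)).re := by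
  let _ := Fintype.ofFinite A.ι
  let _ : MeasurableSpace M := borel M
  have _ : BorelSpace M := ⟨rfl⟩
  rw [← int_dtM P (volK K) hS, ← int_dtM P (volK K) hS']
  refine integral_mono (integrable_cont _ (cont_dtM _ hS)) (integrable_cont _ (cont_dtM _ hS'))
    fun x => ?_
  have hx := mem_ch A x
  exact div_le_div_of_nonneg_right (h _ x hx) ((volK K).pos _ x hx).le

/-- `L` is isotropic for the form `q` -/
def IsoQ (P : Part B) (hn2 : 2 ≤ 2 * n) {σ : HSymp B} (hc : ClH σ.toH2) (L : LB B) : Prop :=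
  ∀ h : HM L, BB P hn2 hc (curK h).f2 (curK h).f2 = 0

section

variable (P : Part B) (hn : 1 ≤ n) (hn2 : 2 ≤ 2 * n) {σ : HSymp B} (hu : σ.Uniq)
  (hc : ClH σ.toH2) (ho : Open11 B) (K : Kah B)

theorem sm_zero : B.Sm (fun _ : M => (0 : ℝ)) := fun _ => contDiffOn_const

theorem hsf_zero (i : B.ι) {x : M} (hx : x ∈ (B.e i).source) :
    hsf B (fun _ : M => (0 : ℝ)) i x = 0 := by
  have hz := (B.e i).map_source hx
  have h1 := hsf_read (A := B) (fun _ : M => (0 : ℝ)) i hz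
  rw [(B.e i).left_inv hx] at h1
  rw [h1]
  have h2 := hess_const_mul (0 : ℝ) (u := fun _ : Cn (2 * n) => (0 : ℝ)) (z := B.e i x)
    contDiffAt_const
  simpa using h2

include hn hu ho in
theorem vol_iso0 (h : HM L) (hiso : IsoQ P hn2 hc L) (s t : ℝ) :
    2 ^ (2 * n) * (2 * n).factorial *
      (totc P (fun i x => ((s : ℂ) • K.g i x + (t : ℂ) • cur h i x).det)).re =
      s ^ n * (s * BB P hn2 hc (ofKah K).f2 (ofKah K).f2 +
        2 * t * BB P hn2 hc (ofKah K).f2 (curK h).f2) ^ n := by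
  rw [← vol_iso P hn hn2 hu hc ho K h (hiso h) s t sm_zero]
  congr 2
  refine totc_congr P fun i x hx => ?_
  rw [hsf_zero i hx, add_zero]

include hn hu ho in
/-- `q (K, L) ≥ 0` -/
theorem BB_nonneg (hnef : NefW K L) (hiso : IsoQ P hn2 hc L) (h : HM L) :
    0 ≤ BB P hn2 hc (ofKah K).f2 (curK h).f2 := by
  set Q0 := BB P hn2 hc (ofKah K).f2 (ofKah K).f2 with hQ0
  set Q1 := BB P hn2 hc (ofKah K).f2 (curK h).f2 with hQ1
  have h0 : 0 < Q0 := BB_KK P hn hn2 hu hc K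
  by_contra hneg
  push Not at hneg
  set t0 : ℝ := -Q0 / (2 * Q1) with ht0
  have ht : 0 < t0 := div_pos_of_neg_of_neg (by linarith) (by linarith)
  have hQ1' : Q1 ≠ 0 := hneg.ne
  have e0 : Q0 + 2 * t0 * Q1 = 0 := by
    rw [ht0]; field_simp; ring
  set ε : ℝ := 1 / (2 * t0) with hε
  have hε0 : 0 < ε := by positivity
  have e1 : t0 * ε = 1 / 2 := by rw [hε]; field_simp
  obtain ⟨h', hh'⟩ := hnef ε hε0
  have g1 := vol_iso0 P hn hn2 hu hc ho K h hiso 1 0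
  have g2 := vol_iso0 P hn hn2 hu hc ho K h' hiso (1 + t0 * ε) t0
  rw [BB_cur P hn2 hc h h', ← hQ0, ← hQ1] at g2
  rw [← hQ0, ← hQ1] at g1
  have e2 : (1 + t0 * ε) * Q0 + 2 * t0 * Q1 = 1 / 2 * Q0 := by
    have : (1 + t0 * ε) * Q0 + 2 * t0 * Q1 = t0 * ε * Q0 + (Q0 + 2 * t0 * Q1) := by ring
    rw [this, e0, e1, add_zero]
  rw [e2, e1, ← mul_pow] at g2
  have hm : (totc P (fun i x => (((1 : ℝ) : ℂ) • K.g i x + ((0 : ℝ) : ℂ) • cur h i x).det)).re ≤
      (totc P (fun i x => (((1 + t0 * ε : ℝ) : ℂ) • K.g i x + (t0 : ℂ) • cur h' i x).det)).re := by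
    refine totc_det_mono P K (((tf_kah K).smul _).add ((tf_cur h).smul _))
      (((tf_kah K).smul _).add ((tf_cur h').smul _)) fun i x hx => ?_
    have h1 : ((1 + t0 * ε : ℝ) : ℂ) • K.g i x + (t0 : ℂ) • cur h' i x =
        K.g i x + (t0 : ℂ) • (cur h' i x + (ε : ℂ) • K.g i x) := by
      push_cast
      module
    have h2 : ((1 : ℝ) : ℂ) • K.g i x + ((0 : ℝ) : ℂ) • cur h i x = K.g i x := by simp
    rw [h1, h2]
    have h3 := Crest.Agent.R273.YauMax_635.det_le_det_add (K.pos i x hx)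
      ((hh' i x hx).smul (show (0 : ℂ) ≤ (t0 : ℂ) by exact_mod_cast ht.le))
    exact (Complex.le_def.1 h3).1
  have hf : (0 : ℝ) < 2 ^ (2 * n) * (2 * n).factorial := by positivity
  have g3 := mul_le_mul_of_nonneg_left hm hf.le
  rw [g1, e1, g2] at g3
  simp only [one_pow, one_mul, mul_zero, zero_mul, add_zero] at g3
  have g4 : ((1 + 1 / 2 : ℝ) * (1 / 2 * Q0)) ^ n < Q0 ^ n := by
    refine pow_lt_pow_left₀ (by linarith) (by positivity) (by omega)
  linarith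

include hn hu ho in
/-- **total determinants** -/
theorem vol_eq (hL : Nonempty (HM L)) (hnef : NefW K L) (hiso : IsoQ P hn2 hc L) :
    ∃ c q₀ q₁ : ℝ, 0 < c ∧ 0 < q₀ ∧ 0 ≤ q₁ ∧ ∀ (h : HM L) (s t : ℝ) {u : M → ℝ} (_ : B.Sm u),
      (totc P (fun i x => ((s : ℂ) • K.g i x + (t : ℂ) • cur h i x + hsf B u i x).det)).re =
        c * s ^ n * (q₀ * s + 2 * q₁ * t) ^ n := by
  obtain ⟨h0⟩ := hL
  have hf : (0 : ℝ) < 2 ^ (2 * n) * (2 * n).factorial := by positivity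
  refine ⟨(2 ^ (2 * n) * (2 * n).factorial)⁻¹, BB P hn2 hc (ofKah K).f2 (ofKah K).f2,
    BB P hn2 hc (ofKah K).f2 (curK h0).f2, inv_pos.2 hf, BB_KK P hn hn2 hu hc K,
    BB_nonneg P hn hn2 hu hc ho K hnef hiso h0, fun h s t u hu' => ?_⟩
  have h1 := vol_iso P hn hn2 hu hc ho K h (hiso h) s t hu'
  rw [BB_cur P hn2 hc h0 h] at h1
  rw [mul_assoc, eq_inv_mul_iff_mul_eq₀ hf.ne', h1]
  ring

include hn hu ho in
/-- **the bound** -/
theorem vol_le (hnef : NefW K L) (hiso : IsoQ P hn2 hc L) :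
    ∃ C : ℝ, 0 ≤ C ∧ ∀ (h : HM L) (s t : ℝ) {u : M → ℝ} (_ : B.Sm u), 0 ≤ s → 0 ≤ t →
      (totc P (fun i x => ((s : ℂ) • K.g i x + (t : ℂ) • cur h i x + hsf B u i x).det)).re ≤
        C * s ^ n * (s + t) ^ n := by
  obtain ⟨h0, -⟩ := hnef 1 one_pos
  obtain ⟨c, q₀, q₁, hc', h1, h2, h3⟩ := vol_eq P hn hn2 hu hc ho K ⟨h0⟩ hnef hiso
  refine ⟨c * (q₀ + 2 * q₁) ^ n, by positivity, fun h s t u hu' hs ht => ?_⟩
  rw [h3 h s t hu']
  have e1 : c * (q₀ + 2 * q₁) ^ n * s ^ n * (s + t) ^ n =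
      c * s ^ n * ((q₀ + 2 * q₁) * (s + t)) ^ n := by
    rw [mul_pow]; ring
  rw [e1]
  refine mul_le_mul_of_nonneg_left ?_ (by positivity)
  refine pow_le_pow_left₀ (by positivity) ?_ n
  nlinarith [mul_nonneg h1.le ht, mul_nonneg h2 hs]

end

end

end Crest.Agent.R281.Vol_847
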