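import Crest.Agent.R281.Vol2_847
import Crest.Agent.R281.Fuj7_207

/-!
# Row 281, OM-VOL, part 3 (helper847): unconditional forms

`vol_eq'`, `vol_le'` : `Open11` and the closedness of `σ` are discharged.
-/

set_option autoImplicit false
set_option linter.unusedSectionVars false
set_option maxSynthPendingDepth 3

open Set Filter Topology Complex MeasureTheory
open scoped ContDiff Matrix ComplexConjugate ComplexOrder

namespace Crest.Agent.R281.Vol_847

open Crest.Agent.R275 Crest.Agent.R275.Geo Crest.Agent.R275.Core144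
open Crest.Agent.R275.GC293
open Crest.Agent.R273.Defs_333 Crest.Agent.R273.HM_333
open Crest.Agent.R273.Kah_333 Crest.Agent.R273.StV_37 Crest.Agent.R273.Green_5
open Crest.Agent.R281.HkR_835 Crest.Agent.R281.Ti_846
open Crest.Agent.R281.Nef_252 (curK)
open Crest.Agent.R281.HkP2_508
open Crest.Agent.R281.Defs_273 (H2 HSymp NefW Isotropic)
open Crest.Agent.R281.Fuj5_207 Crest.Agent.R281.Fuj7_207

noncomputable section

variable {n : ℕ} {M : Type} [TopologicalSpace M] [T2Space M] [CompactSpace M] [ConnectedSpace M]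
  {B : Atl (2 * n) M} {L : LB B} [Finite B.ι] (P : Part B) (hn : 1 ≤ n) (hn2 : 2 ≤ 2 * n)
  {σ : HSymp B} (hu : σ.Uniq) (hc : ClH σ.toH2) (K : Kah B)

include hn hu in
theorem vol_two' (h : HM L) (s t : ℝ) {u : M → ℝ} (hu' : B.Sm u) :
    2 ^ (2 * n) * (2 * n).factorial *
      (totc P (fun i x => ((s : ℂ) • K.g i x + (t : ℂ) • cur h i x + hsf B u i x).det)).re =
      (s ^ 2 * BB P hn2 hc (ofKah K).f2 (ofKah K).f2 +
        2 * s * t * BB P hn2 hc (ofKah K).f2 (curK h).f2 +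
        t ^ 2 * BB P hn2 hc (curK h).f2 (curK h).f2) ^ n :=
  vol_two P hn hn2 hu hc open11 K h s t hu'

include hn hu in
theorem vol_eq' (hL : Nonempty (HM L)) (hnef : NefW K L) (hiso : IsoQ P hn2 hc L) :
    ∃ c q₀ q₁ : ℝ, 0 < c ∧ 0 < q₀ ∧ 0 ≤ q₁ ∧ ∀ (h : HM L) (s t : ℝ) {u : M → ℝ} (_ : B.Sm u),
      (totc P (fun i x => ((s : ℂ) • K.g i x + (t : ℂ) • cur h i x + hsf B u i x).det)).re =
        c * s ^ n * (q₀ * s + 2 * q₁ * t) ^ n :=
  vol_eq P hn hn2 hu hc open11 K hL hnef hiso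

include hn hu in
theorem vol_le' (hnef : NefW K L) (hiso : IsoQ P hn2 hc L) :
    ∃ C : ℝ, 0 ≤ C ∧ ∀ (h : HM L) (s t : ℝ) {u : M → ℝ} (_ : B.Sm u), 0 ≤ s → 0 ≤ t →
      (totc P (fun i x => ((s : ℂ) • K.g i x + (t : ℂ) • cur h i x + hsf B u i x).det)).re ≤
        C * s ^ n * (s + t) ^ n :=
  vol_le P hn hn2 hu hc open11 K hnef hiso

end

end Crest.Agent.R281.Vol_847
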