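import Mathlib
import Crest.Agent.R281.W3a_698

/-!
# W3-ALG (b): three moves, rational start

* `ThreeMoves.*` : explicit formulas for the three moves (change one basis vector of a positive
  3-plane at a time), continuity, and the `ε`-`δ` form.
* `start` : a rational orthogonal basis `A, v, w` near `a, b, c` with `A, v ⟂ e`, and the vector `es`.
-/

set_option autoImplicit false

open Filter Topology

namespace Crest.Agent.R281.W3b_698

open Crest.Agent.R281.W3a_698

section moves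

variable {V : Type*} [NormedAddCommGroup V] [NormedSpace ℝ V]
variable (B : V →L[ℝ] V →L[ℝ] ℝ)

/-- The determinant of the first move. -/
noncomputable def dt (b c b1 c1 : V) : ℝ := B b1 b * B c1 c - B c1 b * B b1 c

/-- First move: the vector of `span {a1, b1, c1}` orthogonal to `b` and `c`. -/
noncomputable def mv1 (b c a1 b1 c1 : V) : V :=
  a1 - ((B a1 b * B c1 c - B a1 c * B c1 b) / dt B b c b1 c1) • b1
    - ((B b1 b * B a1 c - B b1 c * B a1 b) / dt B b c b1 c1) • c1

/-- Second move: the vector of `span {a', b1, c1}` orthogonal to `a'` and `c`. -/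
noncomputable def mv2 (c a' b1 c1 : V) : V :=
  b1 - ((B b1 a' - B b1 c / B c1 c * B c1 a') / B a' a') • a' - (B b1 c / B c1 c) • c1

/-- Third move: the vector of `span {a', b', c1}` orthogonal to `a'` and `b'`. -/
noncomputable def mv3 (a' b' c1 : V) : V :=
  c1 - (B c1 a' / B a' a') • a' - (B c1 b' / B b' b') • b'

variable {B}

theorem mv1_b {b c a1 b1 c1 : V} (hd : dt B b c b1 c1 ≠ 0) : B (mv1 B b c a1 b1 c1) b = 0 := by
  have h : dt B b c b1 c1 = B b1 b * B c1 c - B c1 b * B b1 c := rfl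
  simp only [mv1, map_sub, map_smul, sub_apply,
    smul_apply, smul_eq_mul]
  field_simp
  rw [h]; ring

theorem mv1_c {b c a1 b1 c1 : V} (hd : dt B b c b1 c1 ≠ 0) : B (mv1 B b c a1 b1 c1) c = 0 := by
  have h : dt B b c b1 c1 = B b1 b * B c1 c - B c1 b * B b1 c := rfl
  simp only [mv1, map_sub, map_smul, sub_apply,
    smul_apply, smul_eq_mul]
  field_simp
  rw [h]; ring

theorem mv2_a {c a' b1 c1 : V} (ha : B a' a' ≠ 0) :
    B (mv2 B c a' b1 c1) a' = 0 := by
  simp only [mv2, map_sub, map_smul, sub_apply,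
    smul_apply, smul_eq_mul]
  rw [div_mul_cancel₀ _ ha]; ring

theorem mv2_c {c a' b1 c1 : V} (hc : B c1 c ≠ 0) (ha : B a' c = 0) :
    B (mv2 B c a' b1 c1) c = 0 := by
  simp only [mv2, map_sub, map_smul, sub_apply,
    smul_apply, smul_eq_mul]
  rw [ha, div_mul_cancel₀ _ hc]; ring

theorem mv3_a {a' b' c1 : V} (ha : B a' a' ≠ 0)
    (hab : B b' a' = 0) : B (mv3 B a' b' c1) a' = 0 := by
  simp only [mv3, map_sub, map_smul, sub_apply,
    smul_apply, smul_eq_mul]
  rw [hab, div_mul_cancel₀ _ ha]; ring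

theorem mv3_b (symm : ∀ x y, B x y = B y x) {a' b' c1 : V} (hb : B b' b' ≠ 0)
    (hab : B b' a' = 0) : B (mv3 B a' b' c1) b' = 0 := by
  simp only [mv3, map_sub, map_smul, sub_apply,
    smul_apply, smul_eq_mul]
  rw [symm a' b', hab, div_mul_cancel₀ _ hb]; ring

/-- Replacing `x` by `x - combination of the others` does not change the span. -/
theorem span_step {x y z : V} (s t : ℝ) :
    Submodule.span ℝ ({x - s • y - t • z, y, z} : Set V) = Submodule.span ℝ {x, y, z} := by
  apply le_antisymm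
  · rw [Submodule.span_le]
    intro u hu
    have hx : x ∈ Submodule.span ℝ ({x, y, z} : Set V) := Submodule.subset_span (by simp)
    have hy : y ∈ Submodule.span ℝ ({x, y, z} : Set V) := Submodule.subset_span (by simp)
    have hz : z ∈ Submodule.span ℝ ({x, y, z} : Set V) := Submodule.subset_span (by simp)
    rcases hu with rfl | rfl | rfl
    · exact Submodule.sub_mem _ (Submodule.sub_mem _ hx (Submodule.smul_mem _ _ hy))
        (Submodule.smul_mem _ _ hz)
    · exact hy
    · exact hz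
  · rw [Submodule.span_le]
    intro u hu
    have hx : x - s • y - t • z ∈ Submodule.span ℝ ({x - s • y - t • z, y, z} : Set V) :=
      Submodule.subset_span (by simp)
    have hy : y ∈ Submodule.span ℝ ({x - s • y - t • z, y, z} : Set V) :=
      Submodule.subset_span (by simp)
    have hz : z ∈ Submodule.span ℝ ({x - s • y - t • z, y, z} : Set V) :=
      Submodule.subset_span (by simp)
    rcases hu with rfl | rfl | rfl
    · have h1 := Submodule.add_mem _ (Submodule.add_mem _ hx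
        (Submodule.smul_mem _ s hy)) (Submodule.smul_mem _ t hz)
      have h2 : (u - s • y - t • z) + s • y + t • z = u := by abel
      rwa [h2] at h1
    · exact hy
    · exact hz

theorem span_perm1 (x y z : V) :
    Submodule.span ℝ ({x, y, z} : Set V) = Submodule.span ℝ {y, x, z} := by
  rw [Set.insert_comm]

theorem span_perm2 (x y z : V) :
    Submodule.span ℝ ({x, y, z} : Set V) = Submodule.span ℝ {z, x, y} := by
  congr 1
  ext u
  simp only [Set.mem_insert_iff, Set.mem_singleton_iff]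
  tauto

theorem span_moves (b c a1 b1 c1 a' b' c' : V)
    (ha : a' = mv1 B b c a1 b1 c1) (hb : b' = mv2 B c a' b1 c1) (hc : c' = mv3 B a' b' c1) :
    Submodule.span ℝ ({a', b', c'} : Set V) = Submodule.span ℝ {a1, b1, c1} := by
  have h1 : Submodule.span ℝ ({a', b1, c1} : Set V) = Submodule.span ℝ {a1, b1, c1} := by
    rw [ha, mv1]; exact span_step _ _
  have h2 : Submodule.span ℝ ({b', a', c1} : Set V) = Submodule.span ℝ {b1, a', c1} := by
    rw [hb, mv2]; exact span_step _ _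
  have h3 : Submodule.span ℝ ({c', a', b'} : Set V) = Submodule.span ℝ {c1, a', b'} := by
    rw [hc, mv3]; exact span_step _ _
  rw [span_perm2 a' b' c', h3, ← span_perm2 a' b' c1, span_perm1 a' b' c1, h2,
    span_perm1 b1 a' c1, h1]

variable (B)

/-- **(W2)** Three moves, neighbourhood form. -/
theorem three_moves (symm : ∀ x y, B x y = B y x) {a b c : V}
    (hab : B a b = 0) (hac : B a c = 0) (hbc : B b c = 0)
    (ha : 0 < B a a) (hb : 0 < B b b) (hc : 0 < B c c) :
    ∃ f g h : V × V × V → V,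
      ContinuousAt f (a, b, c) ∧ ContinuousAt g (a, b, c) ∧ ContinuousAt h (a, b, c) ∧
      f (a, b, c) = a ∧ g (a, b, c) = b ∧ h (a, b, c) = c ∧
      ∀ᶠ p in 𝓝 (a, b, c),
        B (f p) b = 0 ∧ B (f p) c = 0 ∧ B (g p) (f p) = 0 ∧ B (g p) c = 0 ∧
        B (h p) (f p) = 0 ∧ B (h p) (g p) = 0 ∧
        0 < B (f p) (f p) ∧ 0 < B (g p) (g p) ∧ 0 < B (h p) (h p) ∧
        Submodule.span ℝ ({f p, g p, h p} : Set V) = Submodule.span ℝ {p.1, p.2.1, p.2.2} := by
  have hba : B b a = 0 := by rw [symm]; exact hab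
  have hca : B c a = 0 := by rw [symm]; exact hac
  have hcb : B c b = 0 := by rw [symm]; exact hbc
  let f : V × V × V → V := fun p => mv1 B b c p.1 p.2.1 p.2.2
  let g : V × V × V → V := fun p => mv2 B c (f p) p.2.1 p.2.2
  let h : V × V × V → V := fun p => mv3 B (f p) (g p) p.2.2
  have c1 : Continuous (fun p : V × V × V => p.1) := continuous_fst
  have c2 : Continuous (fun p : V × V × V => p.2.1) := continuous_fst.comp continuous_snd
  have c3 : Continuous (fun p : V × V × V => p.2.2) := continuous_snd.comp continuous_snd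
  have cB : ∀ {u w : V × V × V → V} {p : V × V × V}, ContinuousAt u p → ContinuousAt w p →
      ContinuousAt (fun q => B (u q) (w q)) p := by
    intro u w p hu hw
    have h1 : ContinuousAt (fun q : V × V => B q.1 q.2) (u p, w p) := B.continuous₂.continuousAt
    exact ContinuousAt.comp_of_eq (g := fun q : V × V => B q.1 q.2) (f := fun q => (u q, w q))
      h1 (hu.prodMk hw) rfl
  have d0 : dt B b c b c = B b b * B c c := by simp [dt, hbc]
  have hd0 : dt B b c b c ≠ 0 := by rw [d0]; positivity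
  have cd : ContinuousAt (fun p : V × V × V => dt B b c p.2.1 p.2.2) (a, b, c) := by
    unfold dt
    exact ((cB c2.continuousAt continuousAt_const).mul (cB c3.continuousAt continuousAt_const)).sub
      ((cB c3.continuousAt continuousAt_const).mul (cB c2.continuousAt continuousAt_const))
  have cf : ContinuousAt f (a, b, c) := by
    show ContinuousAt (fun p : V × V × V => mv1 B b c p.1 p.2.1 p.2.2) (a, b, c)
    unfold mv1
    refine (c1.continuousAt.sub (ContinuousAt.smul (ContinuousAt.div ?_ cd hd0)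
      c2.continuousAt)).sub (ContinuousAt.smul (ContinuousAt.div ?_ cd hd0) c3.continuousAt)
    · exact ((cB c1.continuousAt continuousAt_const).mul
        (cB c3.continuousAt continuousAt_const)).sub
        ((cB c1.continuousAt continuousAt_const).mul (cB c3.continuousAt continuousAt_const))
    · exact ((cB c2.continuousAt continuousAt_const).mul
        (cB c1.continuousAt continuousAt_const)).sub
        ((cB c2.continuousAt continuousAt_const).mul (cB c1.continuousAt continuousAt_const))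
  have f0 : f (a, b, c) = a := by
    show mv1 B b c a b c = a
    simp [mv1, hab, hac, hbc]
  have cg : ContinuousAt g (a, b, c) := by
    show ContinuousAt (fun p : V × V × V => mv2 B c (f p) p.2.1 p.2.2) (a, b, c)
    unfold mv2
    have cq : ContinuousAt (fun p : V × V × V => B p.2.1 c / B p.2.2 c) (a, b, c) :=
      ContinuousAt.div (cB c2.continuousAt continuousAt_const)
        (cB c3.continuousAt continuousAt_const) (ne_of_gt hc)
    refine (c2.continuousAt.sub (ContinuousAt.smul (ContinuousAt.div ?_ (cB cf cf) ?_) cf)).sub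
      (cq.smul c3.continuousAt)
    · exact (cB c2.continuousAt cf).sub (cq.mul (cB c3.continuousAt cf))
    · rw [f0]; exact ne_of_gt ha
  have g0 : g (a, b, c) = b := by
    show mv2 B c (f (a, b, c)) b c = b
    rw [f0]
    simp [mv2, hba, hbc]
  have ch : ContinuousAt h (a, b, c) := by
    show ContinuousAt (fun p : V × V × V => mv3 B (f p) (g p) p.2.2) (a, b, c)
    unfold mv3
    refine (c3.continuousAt.sub (ContinuousAt.smul (ContinuousAt.div (cB c3.continuousAt cf)
      (cB cf cf) ?_) cf)).sub (ContinuousAt.smul (ContinuousAt.div (cB c3.continuousAt cg)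
      (cB cg cg) ?_) cg)
    · rw [f0]; exact ne_of_gt ha
    · rw [g0]; exact ne_of_gt hb
  have h0 : h (a, b, c) = c := by
    show mv3 B (f (a, b, c)) (g (a, b, c)) c = c
    rw [f0, g0]
    simp [mv3, hca, hcb]
  refine ⟨f, g, h, cf, cg, ch, f0, g0, h0, ?_⟩
  have e1 : ∀ᶠ p in 𝓝 (a, b, c), dt B b c p.2.1 p.2.2 ≠ 0 := cd.eventually_ne hd0
  have e2 : ∀ᶠ p in 𝓝 (a, b, c), 0 < B (f p) (f p) :=
    (cB cf cf).eventually_const_lt (by show 0 < B (f (a, b, c)) (f (a, b, c)); rw [f0]; exact ha)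
  have e3 : ∀ᶠ p in 𝓝 (a, b, c), 0 < B (g p) (g p) :=
    (cB cg cg).eventually_const_lt (by show 0 < B (g (a, b, c)) (g (a, b, c)); rw [g0]; exact hb)
  have e4 : ∀ᶠ p in 𝓝 (a, b, c), 0 < B (h p) (h p) :=
    (cB ch ch).eventually_const_lt (by show 0 < B (h (a, b, c)) (h (a, b, c)); rw [h0]; exact hc)
  have e5 : ∀ᶠ p in 𝓝 (a, b, c), 0 < B p.2.2 c :=
    (cB c3.continuousAt continuousAt_const).eventually_const_lt hc
  filter_upwards [e1, e2, e3, e4, e5] with p h1 h2 h3 h4 h5
  have hfc : B (f p) c = 0 := mv1_c h1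
  have hgf : B (g p) (f p) = 0 := mv2_a (ne_of_gt h2)
  exact ⟨mv1_b h1, hfc, hgf, mv2_c (ne_of_gt h5) hfc, mv3_a (ne_of_gt h2) hgf,
    mv3_b symm (ne_of_gt h3) hgf, h2, h3, h4, span_moves b c p.1 p.2.1 p.2.2 _ _ _ rfl rfl rfl⟩

/-- **(W2)** Three moves, `ε`-`δ` form. -/
theorem three_moves_eps (symm : ∀ x y, B x y = B y x) {a b c : V}
    (hab : B a b = 0) (hac : B a c = 0) (hbc : B b c = 0)
    (ha : 0 < B a a) (hb : 0 < B b b) (hc : 0 < B c c) {ε : ℝ} (hε : 0 < ε) :
    ∃ δ > 0, ∀ a1 b1 c1 : V, ‖a1 - a‖ < δ → ‖b1 - b‖ < δ → ‖c1 - c‖ < δ →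
      ∃ a' b' c' : V, ‖a' - a‖ < ε ∧ ‖b' - b‖ < ε ∧ ‖c' - c‖ < ε ∧
        B a' b = 0 ∧ B a' c = 0 ∧ B b' a' = 0 ∧ B b' c = 0 ∧ B c' a' = 0 ∧ B c' b' = 0 ∧
        0 < B a' a' ∧ 0 < B b' b' ∧ 0 < B c' c' ∧
        Submodule.span ℝ ({a', b', c'} : Set V) = Submodule.span ℝ {a1, b1, c1} := by
  obtain ⟨f, g, h, cf, cg, ch, f0, g0, h0, ev⟩ := three_moves B symm hab hac hbc ha hb hc
  have ef : ∀ᶠ p in 𝓝 (a, b, c), ‖f p - a‖ < ε := by
    have := Metric.tendsto_nhds.1 cf ε hε
    simpa [f0, dist_eq_norm] using this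
  have eg : ∀ᶠ p in 𝓝 (a, b, c), ‖g p - b‖ < ε := by
    have := Metric.tendsto_nhds.1 cg ε hε
    simpa [g0, dist_eq_norm] using this
  have eh : ∀ᶠ p in 𝓝 (a, b, c), ‖h p - c‖ < ε := by
    have := Metric.tendsto_nhds.1 ch ε hε
    simpa [h0, dist_eq_norm] using this
  obtain ⟨δ, hδ, H⟩ := Metric.eventually_nhds_iff.1 (((ev.and ef).and eg).and eh)
  refine ⟨δ, hδ, fun a1 b1 c1 h1 h2 h3 => ?_⟩
  have hd : dist (a1, b1, c1) (a, b, c) < δ := by
    rw [Prod.dist_eq, Prod.dist_eq, dist_eq_norm, dist_eq_norm, dist_eq_norm]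
    exact max_lt h1 (max_lt h2 h3)
  obtain ⟨⟨⟨⟨p1, p2, p3, p4, p5, p6, p7, p8, p9, p10⟩, q1⟩, q2⟩, q3⟩ := H hd
  exact ⟨_, _, _, q1, q2, q3, p1, p2, p3, p4, p5, p6, p7, p8, p9, p10⟩

/-- Along the segment of a move everything stays orthogonal and positive. -/
theorem segment_orth {a a' b : V} (h : B a b = 0) (h' : B a' b = 0) (s : ℝ) :
    B ((1 - s) • a + s • a') b = 0 := by
  simp [h, h']

theorem segment_pos (symm : ∀ x y, B x y = B y x) {a a' : V} (ha : 0 < B a a) (ha' : 0 < B a' a')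
    (haa : 0 ≤ B a a') {s : ℝ} (h0 : 0 ≤ s) (h1 : s ≤ 1) :
    0 < B ((1 - s) • a + s • a') ((1 - s) • a + s • a') := by
  have e : B ((1 - s) • a + s • a') ((1 - s) • a + s • a')
      = (1 - s) ^ 2 * B a a + 2 * (s * (1 - s)) * B a a' + s ^ 2 * B a' a' := by
    simp only [map_add, map_smul, add_apply, smul_apply,
      smul_eq_mul]
    rw [symm a' a]; ring
  rw [e]
  have hs : 0 ≤ s * (1 - s) := mul_nonneg h0 (by linarith)
  rcases eq_or_lt_of_le h0 with rfl | hs0
  · simp; exact ha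
  · have : 0 < s ^ 2 * B a' a' := by positivity
    have h2 : 0 ≤ (1 - s) ^ 2 * B a a := by positivity
    have h3 : 0 ≤ 2 * (s * (1 - s)) * B a a' := by positivity
    linarith

end moves

section start

variable {V : Type*} [NormedAddCommGroup V] [NormedSpace ℝ V]
variable (B : V →L[ℝ] V →L[ℝ] ℝ)

/-- **(W3)** Rational start.  `R` = rational classes (dense, closed under rational scalars, `B`
rational on it).  `A, v, w` rational, orthogonal, near `a, b, c`, with `A, v ⟂ e`. -/
theorem start (symm : ∀ x y, B x y = B y x) (R : AddSubgroup V)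
    (hRQ : ∀ (r : ℚ), ∀ x ∈ R, (r : ℝ) • x ∈ R) (hR : Dense (R : Set V))
    (hB : ∀ x ∈ R, ∀ y ∈ R, IsQ (B x y)) {e a b c : V} (he : e ∈ R)
    (hae : B a e = 0) (hbe : B b e = 0) (hce : 0 < B c e)
    (hab : B a b = 0) (hac : B a c = 0) (hbc : B b c = 0)
    (ha : 0 < B a a) (hb : 0 < B b b) (hc : 0 < B c c) {ε : ℝ} (hε : 0 < ε) :
    ∃ A ∈ R, ∃ v ∈ R, ∃ w ∈ R, ‖A - a‖ < ε ∧ ‖v - b‖ < ε ∧ ‖w - c‖ < ε ∧
      B A e = 0 ∧ B v e = 0 ∧ 0 < B w e ∧ B A v = 0 ∧ B A w = 0 ∧ B v w = 0 ∧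
      0 < B A A ∧ 0 < B v v ∧ 0 < B w w := by
  have hba : B b a = 0 := by rw [symm]; exact hab
  have hca : B c a = 0 := by rw [symm]; exact hac
  have hcb : B c b = 0 := by rw [symm]; exact hbc
  let fA : V × V × V → V := fun p => p.1 - (B p.1 e / B p.2.2 e) • p.2.2
  let fv : V × V × V → V := fun p => p.2.1
    - ((B p.2.1 (fA p) - B p.2.1 e / B p.2.2 e * B p.2.2 (fA p)) / B (fA p) (fA p)) • fA p
    - (B p.2.1 e / B p.2.2 e) • p.2.2
  let fw : V × V × V → V := fun p => p.2.2 - (B p.2.2 (fA p) / B (fA p) (fA p)) • fA p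
    - (B p.2.2 (fv p) / B (fv p) (fv p)) • fv p
  have c1 : Continuous (fun p : V × V × V => p.1) := continuous_fst
  have c2 : Continuous (fun p : V × V × V => p.2.1) := continuous_fst.comp continuous_snd
  have c3 : Continuous (fun p : V × V × V => p.2.2) := continuous_snd.comp continuous_snd
  have cB : ∀ {u w : V × V × V → V} {p : V × V × V}, ContinuousAt u p → ContinuousAt w p →
      ContinuousAt (fun q => B (u q) (w q)) p := by
    intro u w p hu hw
    have h1 : ContinuousAt (fun q : V × V => B q.1 q.2) (u p, w p) := B.continuous₂.continuousAt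
    exact ContinuousAt.comp_of_eq (g := fun q : V × V => B q.1 q.2) (f := fun q => (u q, w q))
      h1 (hu.prodMk hw) rfl
  have cA : ContinuousAt fA (a, b, c) :=
    c1.continuousAt.sub (ContinuousAt.smul (ContinuousAt.div (cB c1.continuousAt
      continuousAt_const) (cB c3.continuousAt continuousAt_const) (ne_of_gt hce)) c3.continuousAt)
  have A0 : fA (a, b, c) = a := by simp [fA, hae]
  have cy : ContinuousAt (fun p : V × V × V => B p.2.1 e / B p.2.2 e) (a, b, c) :=
    ContinuousAt.div (cB c2.continuousAt continuousAt_const)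
      (cB c3.continuousAt continuousAt_const) (ne_of_gt hce)
  have cv : ContinuousAt fv (a, b, c) := by
    refine (c2.continuousAt.sub (ContinuousAt.smul (ContinuousAt.div ?_ (cB cA cA) ?_) cA)).sub
      (cy.smul c3.continuousAt)
    · exact (cB c2.continuousAt cA).sub (cy.mul (cB c3.continuousAt cA))
    · rw [A0]; exact ne_of_gt ha
  have v0 : fv (a, b, c) = b := by
    show b - ((B b (fA (a, b, c)) - B b e / B c e * B c (fA (a, b, c)))
      / B (fA (a, b, c)) (fA (a, b, c))) • fA (a, b, c) - (B b e / B c e) • c = b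
    rw [A0]; simp [hba, hbe]
  have cw : ContinuousAt fw (a, b, c) := by
    refine (c3.continuousAt.sub (ContinuousAt.smul (ContinuousAt.div (cB c3.continuousAt cA)
      (cB cA cA) ?_) cA)).sub (ContinuousAt.smul (ContinuousAt.div (cB c3.continuousAt cv)
      (cB cv cv) ?_) cv)
    · rw [A0]; exact ne_of_gt ha
    · rw [v0]; exact ne_of_gt hb
  have w0 : fw (a, b, c) = c := by
    show c - (B c (fA (a, b, c)) / B (fA (a, b, c)) (fA (a, b, c))) • fA (a, b, c)
      - (B c (fv (a, b, c)) / B (fv (a, b, c)) (fv (a, b, c))) • fv (a, b, c) = c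
    rw [A0, v0]; simp [hca, hcb]
  have e1 : ∀ᶠ p in 𝓝 (a, b, c), ‖fA p - a‖ < ε := by
    have := Metric.tendsto_nhds.1 cA ε hε
    simpa [A0, dist_eq_norm] using this
  have e2 : ∀ᶠ p in 𝓝 (a, b, c), ‖fv p - b‖ < ε := by
    have := Metric.tendsto_nhds.1 cv ε hε
    simpa [v0, dist_eq_norm] using this
  have e3 : ∀ᶠ p in 𝓝 (a, b, c), ‖fw p - c‖ < ε := by
    have := Metric.tendsto_nhds.1 cw ε hε
    simpa [w0, dist_eq_norm] using this
  have e4 : ∀ᶠ p in 𝓝 (a, b, c), 0 < B (fA p) (fA p) :=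
    (cB cA cA).eventually_const_lt (by
      show 0 < B (fA (a, b, c)) (fA (a, b, c)); rw [A0]; exact ha)
  have e5 : ∀ᶠ p in 𝓝 (a, b, c), 0 < B (fv p) (fv p) :=
    (cB cv cv).eventually_const_lt (by
      show 0 < B (fv (a, b, c)) (fv (a, b, c)); rw [v0]; exact hb)
  have e6 : ∀ᶠ p in 𝓝 (a, b, c), 0 < B (fw p) (fw p) :=
    (cB cw cw).eventually_const_lt (by
      show 0 < B (fw (a, b, c)) (fw (a, b, c)); rw [w0]; exact hc)
  have e7 : ∀ᶠ p in 𝓝 (a, b, c), 0 < B p.2.2 e :=
    (cB c3.continuousAt continuousAt_const).eventually_const_lt hce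
  have ev := ((((((e1.and e2).and e3).and e4).and e5).and e6).and e7)
  have dense3 : Dense ((R : Set V) ×ˢ (R : Set V) ×ˢ (R : Set V)) := hR.prod (hR.prod hR)
  obtain ⟨p, hp, ⟨⟨⟨⟨⟨⟨h1, h2⟩, h3⟩, h4⟩, h5⟩, h6⟩, h7⟩⟩ :=
    dense3.inter_nhds_nonempty (x := (a, b, c)) ev
  obtain ⟨hp1, hp2, hp3⟩ := hp
  have memsmul : ∀ {s : ℝ} {x : V}, IsQ s → x ∈ R → s • x ∈ R := by
    rintro s x ⟨r, rfl⟩ hx; exact hRQ r x hx
  have mA : fA p ∈ R := R.sub_mem hp1 (memsmul ((hB _ hp1 _ he).div (hB _ hp3 _ he)) hp3)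
  have hy : IsQ (B p.2.1 e / B p.2.2 e) := (hB _ hp2 _ he).div (hB _ hp3 _ he)
  have mv : fv p ∈ R := R.sub_mem (R.sub_mem hp2 (memsmul
    (((hB _ hp2 _ mA).sub (hy.mul (hB _ hp3 _ mA))).div (hB _ mA _ mA)) mA)) (memsmul hy hp3)
  have mw : fw p ∈ R := R.sub_mem (R.sub_mem hp3 (memsmul
    ((hB _ hp3 _ mA).div (hB _ mA _ mA)) mA)) (memsmul ((hB _ hp3 _ mv).div (hB _ mv _ mv)) mv)
  have Ae : B (fA p) e = 0 := by
    simp only [fA, map_sub, map_smul, sub_apply,
      smul_apply, smul_eq_mul]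
    rw [div_mul_cancel₀ _ (ne_of_gt h7)]; ring
  have ve : B (fv p) e = 0 := by
    simp only [fv, map_sub, map_smul, sub_apply,
      smul_apply, smul_eq_mul]
    rw [Ae, div_mul_cancel₀ _ (ne_of_gt h7)]; ring
  have vA : B (fv p) (fA p) = 0 := by
    have : fv p = p.2.1
      - ((B p.2.1 (fA p) - B p.2.1 e / B p.2.2 e * B p.2.2 (fA p)) / B (fA p) (fA p)) • fA p
      - (B p.2.1 e / B p.2.2 e) • p.2.2 := rfl
    rw [this]
    simp only [map_sub, map_smul, sub_apply,
      smul_apply, smul_eq_mul]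
    rw [div_mul_cancel₀ _ (ne_of_gt h4)]; ring
  have Av : B (fA p) (fv p) = 0 := by rw [symm]; exact vA
  have wA : B (fw p) (fA p) = 0 := mv3_a (ne_of_gt h4) vA
  have wv : B (fw p) (fv p) = 0 := mv3_b symm (ne_of_gt h5) vA
  have we : B (fw p) e = B p.2.2 e := by
    have : fw p = p.2.2 - (B p.2.2 (fA p) / B (fA p) (fA p)) • fA p
      - (B p.2.2 (fv p) / B (fv p) (fv p)) • fv p := rfl
    rw [this]
    simp only [map_sub, map_smul, sub_apply,
      smul_apply, smul_eq_mul]
    rw [Ae, ve]; ring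
  exact ⟨fA p, mA, fv p, mv, fw p, mw, h1, h2, h3, Ae, ve, by rw [we]; exact h7, Av,
    by rw [symm]; exact wA, by rw [symm]; exact wv, h4, h5, h6⟩

/-- The isotropic vector dual to `e` built from `w`. -/
noncomputable def es (w e : V) : V := (B w e)⁻¹ • (w - (B w w / (2 * B w e)) • e)

theorem es_mem (R : AddSubgroup V) (hRQ : ∀ (r : ℚ), ∀ x ∈ R, (r : ℝ) • x ∈ R)
    (hB : ∀ x ∈ R, ∀ y ∈ R, IsQ (B x y)) {e w : V} (he : e ∈ R) (hw : w ∈ R) :
    es B w e ∈ R := by
  have memsmul : ∀ {s : ℝ} {x : V}, IsQ s → x ∈ R → s • x ∈ R := by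
    rintro s x ⟨r, rfl⟩ hx; exact hRQ r x hx
  refine memsmul (hB _ hw _ he).inv (R.sub_mem hw (memsmul ?_ he))
  exact (hB _ hw _ hw).div ((IsQ.nat 2).mul (hB _ hw _ he))

variable {B}

theorem es_e {e w : V} (hee : B e e = 0) (hwe : B w e ≠ 0) :
    B (es B w e) e = 1 := by
  simp only [es, map_sub, map_smul, sub_apply,
    smul_apply, smul_eq_mul]
  rw [hee]; field_simp; ring

theorem es_es (symm : ∀ x y, B x y = B y x) {e w : V} (hee : B e e = 0) (hwe : B w e ≠ 0) :
    B (es B w e) (es B w e) = 0 := by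
  simp only [es, map_sub, map_smul, sub_apply,
    smul_apply, smul_eq_mul]
  rw [hee, symm e w]; field_simp; ring

theorem es_perp {e w x : V} (hw : B w x = 0) (he : B e x = 0) : B (es B w e) x = 0 := by
  simp only [es, map_sub, map_smul, sub_apply,
    smul_apply, smul_eq_mul]
  rw [hw, he]; ring

/-- `w / B w e = es + (y² q(v) / 2) e` for `y² q(v) = q(w) / (B w e)²`. -/
theorem w_eq {e w v : V} (hwe : B w e ≠ 0) {y : ℝ} (hy : y ^ 2 * B v v = B w w / (B w e) ^ 2) :
    (B w e)⁻¹ • w = es B w e + (y ^ 2 * B v v / 2) • e := by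
  rw [hy, es, smul_sub, smul_smul]
  have : (B w e)⁻¹ * (B w w / (2 * B w e)) = B w w / (B w e) ^ 2 / 2 := by field_simp
  rw [this]; abel

theorem exists_y {e w v : V} (hwe : 0 < B w e) (hv : 0 < B v v) (hw : 0 < B w w) :
    ∃ y : ℝ, 0 < y ∧ y ^ 2 * B v v = B w w / (B w e) ^ 2 := by
  refine ⟨Real.sqrt (B w w / (B w e) ^ 2 / B v v), Real.sqrt_pos.2 (by positivity), ?_⟩
  rw [Real.sq_sqrt (by positivity)]
  field_simp

end start

end Crest.Agent.R281.W3b_698
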