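import Mathlib

/-!
# R281 (S0424), S6-WCONT (helper627), part 1: atoms

`sum_eq_of_alg`   : two `d`-tuples with the same sums for all functions of a point separating
                    algebra have the same sums for all functions;
`tendsto_atoms`   : `d`-tuples in a compact set: if the sums of all functions of a point separating
                    algebra of continuous functions converge, then the sums of all continuous
                    functions converge;
`polyAlg`         : the algebra of (holomorphic) polynomials on `κ → ℂ` (any finite `κ`), and the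
                    corresponding specialisations.
-/

set_option autoImplicit false

open Set Filter Topology

namespace Crest.Agent.R281.Wc_627

noncomputable section

variable {E : Type*} {d : ℕ}

/-- a point separating algebra contains the Lagrange functions of a finite set -/
theorem exists_lagrange (A : Subalgebra ℂ (E → ℂ)) (hA : ∀ x y : E, x ≠ y → ∃ f ∈ A, f x ≠ f y)
    (S : Finset E) (s : E) : ∃ f ∈ A, f s = 1 ∧ ∀ t ∈ S, t ≠ s → f t = 0 := by
  classical
  induction S using Finset.induction_on with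
  | empty => exact ⟨1, A.one_mem, rfl, by simp⟩
  | insert a S ha ih =>
    obtain ⟨f, hf, hs, h0⟩ := ih
    by_cases has : a = s
    · refine ⟨f, hf, hs, fun t ht hts => ?_⟩
      rcases Finset.mem_insert.1 ht with rfl | ht
      · exact absurd has hts
      · exact h0 t ht hts
    · obtain ⟨g, hg, hne⟩ := hA a s has
      have hc : g s - g a ≠ 0 := sub_ne_zero.2 (Ne.symm hne)
      refine ⟨f * ((g s - g a)⁻¹ • (g - algebraMap ℂ (E → ℂ) (g a))), ?_, ?_, ?_⟩
      · exact A.mul_mem hf (A.smul_mem (A.sub_mem hg (A.algebraMap_mem _)) _)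
      · simp only [Pi.mul_apply, hs, Pi.smul_apply, Pi.sub_apply, Pi.algebraMap_apply,
          Algebra.algebraMap_self, RingHom.id_apply, smul_eq_mul, one_mul]
        exact inv_mul_cancel₀ hc
      · intro t ht hts
        rcases Finset.mem_insert.1 ht with rfl | ht
        · simp
        · simp [h0 t ht hts]

/-- two tuples with the same sums over a separating algebra have the same sums for all functions -/
theorem sum_eq_of_alg (A : Subalgebra ℂ (E → ℂ)) (hA : ∀ x y : E, x ≠ y → ∃ f ∈ A, f x ≠ f y)
    (a b : Fin d → E) (hab : ∀ f ∈ A, ∑ i, f (a i) = ∑ i, f (b i))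
    {F : Type*} [AddCommMonoid F] (h : E → F) : ∑ i, h (a i) = ∑ i, h (b i) := by
  classical
  set S : Finset E := Finset.univ.image a ∪ Finset.univ.image b with hS
  have ha : ∀ i, a i ∈ S := fun i =>
    Finset.mem_union_left _ (Finset.mem_image_of_mem _ (Finset.mem_univ _))
  have hb : ∀ i, b i ∈ S := fun i =>
    Finset.mem_union_right _ (Finset.mem_image_of_mem _ (Finset.mem_univ _))
  have hcard : ∀ s ∈ S, (Finset.univ.filter fun i => a i = s).card =
      (Finset.univ.filter fun i => b i = s).card := by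
    intro s _
    obtain ⟨f, hf, h1, h0⟩ := exists_lagrange A hA S s
    have e1 : ∀ c : Fin d → E, (∀ i, c i ∈ S) →
        ∑ i, f (c i) = ((Finset.univ.filter fun i => c i = s).card : ℂ) := by
      intro c hc
      rw [Finset.card_eq_sum_ones, Finset.sum_filter, Nat.cast_sum]
      refine Finset.sum_congr rfl fun i _ => ?_
      by_cases hi : c i = s
      · simp [hi, h1]
      · simp [hi, h0 _ (hc i) hi]
    have := hab f hf
    rw [e1 a ha, e1 b hb] at this
    exact_mod_cast this
  have e2 : ∀ c : Fin d → E, (∀ i, c i ∈ S) →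
      ∑ i, h (c i) = ∑ s ∈ S, (Finset.univ.filter fun i => c i = s).card • h s := by
    intro c hc
    rw [← Finset.sum_fiberwise_of_maps_to (s := Finset.univ) (t := S) (g := c)
      (fun i _ => hc i)]
    refine Finset.sum_congr rfl fun s _ => ?_
    rw [Finset.sum_congr rfl (g := fun _ => h s) (fun i hi => by rw [(Finset.mem_filter.1 hi).2]),
      Finset.sum_const]
  rw [e2 a ha, e2 b hb]
  exact Finset.sum_congr rfl fun s hs => by rw [hcard s hs]

/-- convergence of all moments of `d`-tuples in a compact set implies convergence of the sums of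
continuous functions -/
theorem tendsto_atoms [TopologicalSpace E] {T : Type*} {l : Filter T} {K : Set E}
    (hK : IsCompact K) (A : Subalgebra ℂ (E → ℂ))
    (hA : ∀ x y : E, x ≠ y → ∃ f ∈ A, f x ≠ f y) (hc : ∀ f ∈ A, Continuous f)
    (y : T → Fin d → E) (hy : ∀ᶠ t in l, ∀ i, y t i ∈ K)
    (hm : ∀ f ∈ A, ∃ L : ℂ, Tendsto (fun t => ∑ i, f (y t i)) l (𝓝 L))
    {F : Type*} [AddCommMonoid F] [TopologicalSpace F] [ContinuousAdd F] [Nonempty F]
    (h : E → F) (hh : ContinuousOn h K) :
    ∃ L : F, Tendsto (fun t => ∑ i, h (y t i)) l (𝓝 L) := by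
  classical
  have hKd : IsCompact (Set.pi univ fun _ : Fin d => K) := isCompact_univ_pi fun _ => hK
  have hyK : ∀ᶠ t in l, y t ∈ Set.pi univ fun _ : Fin d => K :=
    hy.mono fun t ht i _ => ht i
  -- limits along ultrafilters
  have key : ∀ u : Ultrafilter T, (u : Filter T) ≤ l → ∃ a : Fin d → E, (∀ i, a i ∈ K) ∧
      Tendsto y u (𝓝 a) := by
    intro u hu
    have h1 : (Ultrafilter.map y u : Filter (Fin d → E)) ≤ 𝓟 (Set.pi univ fun _ : Fin d => K) := by
      rw [Ultrafilter.coe_map, le_principal_iff]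
      exact hu hyK
    obtain ⟨a, ha, hle⟩ := hKd.ultrafilter_le_nhds _ h1
    exact ⟨a, fun i => ha i trivial, hle⟩
  have lim : ∀ (u : Ultrafilter T) (hu : (u : Filter T) ≤ l) (a : Fin d → E) (ha : ∀ i, a i ∈ K)
      (hya : Tendsto y u (𝓝 a)), Tendsto (fun t => ∑ i, h (y t i)) u (𝓝 (∑ i, h (a i))) := by
    intro u hu a ha hya
    refine tendsto_finsetSum _ fun i _ => ?_
    refine (hh (a i) (ha i)).tendsto.comp ?_
    refine tendsto_nhdsWithin_iff.2 ⟨(tendsto_pi_nhds.1 hya) i, ?_⟩
    exact hu (hy.mono fun t ht => ht i)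
  by_cases hl : l = ⊥
  · obtain ⟨L⟩ := ‹Nonempty F›
    exact ⟨L, by rw [hl]; exact tendsto_bot⟩
  have : NeBot l := ⟨hl⟩
  obtain ⟨a, ha, hya⟩ := key (Ultrafilter.of l) (Ultrafilter.of_le l)
  refine ⟨∑ i, h (a i), tendsto_iff_ultrafilter _ _ _ |>.2 fun u hu => ?_⟩
  obtain ⟨b, hb, hyb⟩ := key u hu
  have hsum : ∑ i, h (b i) = ∑ i, h (a i) := by
    refine sum_eq_of_alg A hA b a (fun f hf => ?_) h
    obtain ⟨L, hL⟩ := hm f hf
    have cf := hc f hf
    have t1 : Tendsto (fun t => ∑ i, f (y t i)) u (𝓝 (∑ i, f (b i))) :=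
      tendsto_finsetSum _ fun i _ => (cf.tendsto (b i)).comp ((tendsto_pi_nhds.1 hyb) i)
    have t2 : Tendsto (fun t => ∑ i, f (y t i)) (Ultrafilter.of l) (𝓝 (∑ i, f (a i))) :=
      tendsto_finsetSum _ fun i _ => (cf.tendsto (a i)).comp ((tendsto_pi_nhds.1 hya) i)
    have e1 := tendsto_nhds_unique t1 (hL.mono_left hu)
    have e2 := tendsto_nhds_unique t2 (hL.mono_left (Ultrafilter.of_le l))
    rw [e1, e2]
  rw [← hsum]
  exact lim u hu b hb hyb

/-- the algebra of holomorphic polynomials in the coordinates -/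
def polyAlg (κ : Type*) : Subalgebra ℂ ((κ → ℂ) → ℂ) :=
  Algebra.adjoin ℂ (range fun k : κ => fun z : κ → ℂ => z k)

theorem polyAlg_sep (κ : Type*) (x y : κ → ℂ) (h : x ≠ y) : ∃ f ∈ polyAlg κ, f x ≠ f y := by
  obtain ⟨k, hk⟩ := Function.ne_iff.1 h
  exact ⟨fun z => z k, Algebra.subset_adjoin ⟨k, rfl⟩, hk⟩

theorem polyAlg_cont (κ : Type*) (f : (κ → ℂ) → ℂ) (hf : f ∈ polyAlg κ) : Continuous f := by
  induction hf using Algebra.adjoin_induction with
  | mem f hf => obtain ⟨k, rfl⟩ := hf; exact continuous_apply k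
  | algebraMap r => exact continuous_const
  | add f g _ _ hf hg => exact hf.add hg
  | mul f g _ _ hf hg => exact hf.mul hg

end

end Crest.Agent.R281.Wc_627
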