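import Mathlib

/-!
# R281 (S0424), S6-WCONT (helper627), part 2: the forms `p^* dV` span all `(n,n)`-forms

`DD P Q B = det (P B) conj (det (Q B))`;
`cauchy_binet`  : `n! det (A C) = ∑_f det (C_f) det (A^f)`, `f` over all functions;
`polar`         : a subspace containing all `DD P P` contains all `DD P Q`;
`dense_span`    : the same with `P` in a dense set;
`span_main`     : `𝒢` dense: there are finitely many `P ∈ 𝒢` and continuous functions `t P` with
                  `det (Bᴴ G B) = ∑_P t P G |det (P B)|²` for all `G`, `B`.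
-/

set_option autoImplicit false
set_option linter.unusedSectionVars false

open Set Filter Topology Matrix
open scoped ComplexConjugate

namespace Crest.Agent.R281.Wc_627

noncomputable section

variable {ν κ : Type*} [Fintype ν] [DecidableEq ν] [Fintype κ] [DecidableEq κ]

theorem det_mul_expand (A : Matrix ν κ ℂ) (C : Matrix κ ν ℂ) :
    (A * C).det = ∑ f : ν → κ, (∏ i, C (f i) i) * (A.submatrix id f).det := by
  rw [Matrix.det_apply]
  have e1 : ∀ σ : Equiv.Perm ν, ∏ i, (A * C) (σ i) i =
      ∑ f : ν → κ, ∏ i, (A (σ i) (f i) * C (f i) i) := by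
    intro σ
    simp only [Matrix.mul_apply]
    rw [Finset.prod_univ_sum]
    rfl
  simp only [e1, Finset.smul_sum]
  rw [Finset.sum_comm]
  refine Finset.sum_congr rfl fun f _ => ?_
  rw [Matrix.det_apply, Finset.mul_sum]
  refine Finset.sum_congr rfl fun σ _ => ?_
  rw [Finset.prod_mul_distrib, mul_smul_comm]
  congr 1
  rw [mul_comm]
  rfl

theorem cauchy_binet (A : Matrix ν κ ℂ) (C : Matrix κ ν ℂ) :
    ((Fintype.card ν).factorial : ℂ) * (A * C).det =
      ∑ f : ν → κ, (C.submatrix f id).det * (A.submatrix id f).det := by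
  have h1 : ∀ σ : Equiv.Perm ν, (A * C).det =
      ∑ f : ν → κ, (Equiv.Perm.sign σ • ∏ i, C (f (σ i)) i) * (A.submatrix id f).det := by
    intro σ
    rw [det_mul_expand]
    rw [← (Equiv.arrowCongr σ (Equiv.refl κ)).symm.sum_comp]
    refine Finset.sum_congr rfl fun f _ => ?_
    have e2 : (Equiv.arrowCongr σ (Equiv.refl κ)).symm f = f ∘ σ := by
      ext i
      simp [Equiv.arrowCongr]
    rw [e2]
    have e3 : (A.submatrix id (f ∘ σ)) = (A.submatrix id f).submatrix id σ := rfl
    rw [e3, Matrix.det_permute']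
    simp only [Function.comp]
    rw [smul_mul_assoc]
    rcases Int.units_eq_one_or (Equiv.Perm.sign σ) with h | h <;> simp [h]
  have h2 : ((Fintype.card ν).factorial : ℂ) * (A * C).det =
      ∑ σ : Equiv.Perm ν, (A * C).det := by
    rw [Finset.sum_const, Finset.card_univ, Fintype.card_perm, nsmul_eq_mul]
  rw [h2, Finset.sum_congr rfl fun σ _ => h1 σ, Finset.sum_comm]
  refine Finset.sum_congr rfl fun f _ => ?_
  rw [← Finset.sum_mul, Matrix.det_apply (C.submatrix f id)]
  rfl

/-- `det (P B) conj (det (Q B))` -/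
def DD (P Q : Matrix ν κ ℂ) : Matrix κ ν ℂ → ℂ := fun B => (P * B).det * conj (Q * B).det

theorem updateRow_mul' (P : Matrix ν κ ℂ) (i : ν) (r : κ → ℂ) (B : Matrix κ ν ℂ) :
    (P.updateRow i r) * B = (P * B).updateRow i (r ᵥ* B) := by
  ext a b
  by_cases h : a = i
  · subst h
    simp [Matrix.mul_apply, Matrix.vecMul, dotProduct]
  · simp [Matrix.mul_apply, h]

/-- polarisation, row by row -/
theorem polar (V : Submodule ℂ (Matrix κ ν ℂ → ℂ)) (hV : ∀ P : Matrix ν κ ℂ, DD P P ∈ V)
    (s : Finset ν) : ∀ P Q : Matrix ν κ ℂ, (∀ i ∉ s, P i = Q i) → DD P Q ∈ V := by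
  induction s using Finset.induction_on with
  | empty =>
    intro P Q h
    have : P = Q := by
      ext i j
      rw [h i (by simp)]
    subst this
    exact hV P
  | insert i s hi ih =>
    intro P Q h
    have hk : ∀ k : Fin 4, DD (P.updateRow i (P i + (Complex.I ^ (k : ℕ)) • Q i))
        (Q.updateRow i (P i + (Complex.I ^ (k : ℕ)) • Q i)) ∈ V := by
      intro k
      refine ih _ _ fun j hj => ?_
      by_cases hji : j = i
      · subst hji
        simp
      · rw [Matrix.updateRow_ne hji, Matrix.updateRow_ne hji]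
        exact h j (by simp [hji, hj])
    have e : DD P Q = ∑ k : Fin 4, ((1 / 4 : ℂ) * Complex.I ^ (k : ℕ)) •
        DD (P.updateRow i (P i + (Complex.I ^ (k : ℕ)) • Q i))
        (Q.updateRow i (P i + (Complex.I ^ (k : ℕ)) • Q i)) := by
      funext B
      have hP : ∀ c : ℂ, (P.updateRow i (P i + c • Q i) * B).det =
          (P * B).det + c * (P.updateRow i (Q i) * B).det := by
        intro c
        rw [updateRow_mul', Matrix.add_vecMul, Matrix.smul_vecMul, Matrix.det_updateRow_add,
          Matrix.det_updateRow_smul, ← updateRow_mul', ← updateRow_mul', Matrix.updateRow_eq_self]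
      have hQ : ∀ c : ℂ, (Q.updateRow i (P i + c • Q i) * B).det =
          (Q.updateRow i (P i) * B).det + c * (Q * B).det := by
        intro c
        rw [updateRow_mul', Matrix.add_vecMul, Matrix.smul_vecMul, Matrix.det_updateRow_add,
          Matrix.det_updateRow_smul, ← updateRow_mul', ← updateRow_mul', Matrix.updateRow_eq_self]
      simp only [DD, Finset.sum_apply, Pi.smul_apply, smul_eq_mul, hP, hQ]
      simp only [Fin.sum_univ_four, map_add, map_mul, map_pow, Complex.conj_I]
      simp only [Fin.val_zero, Fin.val_one, Fin.val_two, pow_zero, pow_one]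
      have h3 : ((3 : Fin 4) : ℕ) = 3 := rfl
      rw [h3]
      have i2 : Complex.I ^ 2 = -1 := Complex.I_sq
      have i3 : Complex.I ^ 3 = -Complex.I := by rw [pow_succ, i2]; ring
      have j2 : (-Complex.I) ^ 2 = -1 := by rw [neg_sq, i2]
      have j3 : (-Complex.I) ^ 3 = Complex.I := by rw [pow_succ, j2]; ring
      rw [i2, i3, j2, j3]
      have i1 : Complex.I * Complex.I = -1 := Complex.I_mul_I
      ring_nf
      simp only [i2]
      ring
    rw [e]
    exact V.sum_mem fun k _ => V.smul_mem _ (hk k)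

theorem polar_all (V : Submodule ℂ (Matrix κ ν ℂ → ℂ)) (hV : ∀ P : Matrix ν κ ℂ, DD P P ∈ V)
    (P Q : Matrix ν κ ℂ) : DD P Q ∈ V :=
  polar V hV Finset.univ P Q fun i hi => absurd (Finset.mem_univ i) hi

/-- monomials -/
def mon (f : ν → κ) : Matrix κ ν ℂ → ℂ := fun B => ∏ i, B (f i) i

theorem DD_mem (P Q : Matrix ν κ ℂ) : DD P Q ∈
    Submodule.span ℂ (range fun fg : (ν → κ) × (ν → κ) => fun B : Matrix κ ν ℂ =>
      mon fg.1 B * conj (mon fg.2 B)) := by
  have e : DD P Q = ∑ f : ν → κ, ∑ g : ν → κ,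
      ((P.submatrix id f).det * conj (Q.submatrix id g).det) •
        (fun B : Matrix κ ν ℂ => mon f B * conj (mon g B)) := by
    funext B
    simp only [DD, det_mul_expand, Finset.sum_apply, Pi.smul_apply, smul_eq_mul, map_sum, map_mul]
    rw [Finset.sum_mul_sum]
    refine Finset.sum_congr rfl fun f _ => Finset.sum_congr rfl fun g _ => ?_
    simp only [mon, map_prod]
    ring
  rw [e]
  exact Submodule.sum_mem _ fun f _ => Submodule.sum_mem _ fun g _ =>
    Submodule.smul_mem _ _ (Submodule.subset_span ⟨(f, g), rfl⟩)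

theorem dense_span {G : Set (Matrix ν κ ℂ)} (hG : Dense G) (P Q : Matrix ν κ ℂ) :
    DD P Q ∈ Submodule.span ℂ ((fun P => DD P P) '' G) := by
  set V := Submodule.span ℂ ((fun P : Matrix ν κ ℂ => DD P P) '' G) with hV
  have hle : V ≤ Submodule.span ℂ (range fun fg : (ν → κ) × (ν → κ) => fun B : Matrix κ ν ℂ =>
      mon fg.1 B * conj (mon fg.2 B)) := by
    rw [hV, Submodule.span_le]
    rintro _ ⟨P, _, rfl⟩
    exact DD_mem P P
  have hfin : FiniteDimensional ℂ (Submodule.span ℂ (range fun fg : (ν → κ) × (ν → κ) =>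
      fun B : Matrix κ ν ℂ => mon fg.1 B * conj (mon fg.2 B))) :=
    FiniteDimensional.span_of_finite ℂ (Set.finite_range _)
  have hVf : FiniteDimensional ℂ V := Submodule.finiteDimensional_of_le hle
  have hcl : IsClosed (V : Set (Matrix κ ν ℂ → ℂ)) := Submodule.closed_of_finiteDimensional V
  have hcont : Continuous fun P : Matrix ν κ ℂ => (DD P P : Matrix κ ν ℂ → ℂ) := by
    refine continuous_pi fun B => ?_
    have h1 : Continuous fun P : Matrix ν κ ℂ => (P * B).det :=
      (continuous_id.matrix_mul continuous_const).matrix_det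
    exact h1.mul (Complex.continuous_conj.comp h1)
  refine polar_all V (fun P => ?_) P Q
  have h2 : IsClosed {P : Matrix ν κ ℂ | DD P P ∈ V} := hcl.preimage hcont
  have h3 : G ⊆ {P : Matrix ν κ ℂ | DD P P ∈ V} := fun P hP =>
    Submodule.subset_span ⟨P, hP, rfl⟩
  have h4 : closure G ⊆ {P : Matrix ν κ ℂ | DD P P ∈ V} := h2.closure_subset_iff.2 h3
  exact h4 (hG P)

/-- `det (Bᴴ G B)` in terms of the minors of `G` -/
theorem det_form (G : Matrix κ κ ℂ) (B : Matrix κ ν ℂ) :
    (Bᴴ * G * B).det = ∑ f : ν → κ, ∑ g : ν → κ,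
      ((((Fintype.card ν).factorial : ℂ)⁻¹) ^ 2 * (G.submatrix f g).det) *
        DD ((1 : Matrix κ κ ℂ).submatrix g id) ((1 : Matrix κ κ ℂ).submatrix f id) B := by
  have h0 : ((Fintype.card ν).factorial : ℂ) ≠ 0 := by exact_mod_cast Nat.factorial_ne_zero _
  have e1 : ((Fintype.card ν).factorial : ℂ) * (Bᴴ * G * B).det =
      ∑ f : ν → κ, ((G * B).submatrix f id).det * (Bᴴ.submatrix id f).det := by
    rw [Matrix.mul_assoc]
    exact cauchy_binet _ _
  have e2 : ∀ f : ν → κ, ((Fintype.card ν).factorial : ℂ) * ((G * B).submatrix f id).det =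
      ∑ g : ν → κ, (B.submatrix g id).det * (G.submatrix f g).det := by
    intro f
    have : (G * B).submatrix f id = (G.submatrix f id) * B := by
      ext i j
      simp [Matrix.mul_apply]
    rw [this, cauchy_binet]
    rfl
  have e3 : ∀ f : ν → κ, ((1 : Matrix κ κ ℂ).submatrix f id) * B = B.submatrix f id := by
    intro f
    ext i j
    simp [Matrix.mul_apply, Matrix.one_apply]
  have e4 : ∀ f : ν → κ, (Bᴴ.submatrix id f).det = conj (B.submatrix f id).det := by
    intro f
    have : Bᴴ.submatrix id f = (B.submatrix f id)ᴴ := rfl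
    rw [this, Matrix.det_conjTranspose]
    rfl
  have e5 : ∀ f : ν → κ, ((G * B).submatrix f id).det =
      ((Fintype.card ν).factorial : ℂ)⁻¹ *
        ∑ g : ν → κ, (B.submatrix g id).det * (G.submatrix f g).det := by
    intro f
    rw [← e2 f, inv_mul_cancel_left₀ h0]
  have e6 : (Bᴴ * G * B).det = ((Fintype.card ν).factorial : ℂ)⁻¹ *
      ∑ f : ν → κ, ((G * B).submatrix f id).det * (Bᴴ.submatrix id f).det := by
    rw [← e1, inv_mul_cancel_left₀ h0]
  rw [e6, Finset.mul_sum]
  refine Finset.sum_congr rfl fun f _ => ?_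
  rw [e5 f, e4 f, Finset.mul_sum, Finset.sum_mul, Finset.mul_sum]
  refine Finset.sum_congr rfl fun g _ => ?_
  simp only [DD, e3]
  ring

/-- finitely many good projections suffice -/
theorem span_main {𝒢 : Set (Matrix ν κ ℂ)} (h𝒢 : Dense 𝒢) :
    ∃ (S : Finset (Matrix ν κ ℂ)) (t : Matrix ν κ ℂ → Matrix κ κ ℂ → ℂ), (↑S ⊆ 𝒢) ∧
      (∀ P, Continuous (t P)) ∧ ∀ (G : Matrix κ κ ℂ) (B : Matrix κ ν ℂ),
        (Bᴴ * G * B).det = ∑ P ∈ S, t P G * ((‖(P * B).det‖ ^ 2 : ℝ) : ℂ) := by
  classical
  have h1 : ∀ f g : ν → κ, ∃ l : Matrix ν κ ℂ →₀ ℂ, (↑l.support ⊆ 𝒢) ∧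
      (l.sum fun P c => c • (DD P P : Matrix κ ν ℂ → ℂ)) =
        DD ((1 : Matrix κ κ ℂ).submatrix g id) ((1 : Matrix κ κ ℂ).submatrix f id) := by
    intro f g
    have := dense_span h𝒢 ((1 : Matrix κ κ ℂ).submatrix g id) ((1 : Matrix κ κ ℂ).submatrix f id)
    rw [Finsupp.mem_span_image_iff_linearCombination] at this
    obtain ⟨l, hl, hsum⟩ := this
    exact ⟨l, (Finsupp.mem_supported ℂ l).1 hl, hsum⟩
  choose l hl hsum using h1
  refine ⟨Finset.univ.biUnion fun f => Finset.univ.biUnion fun g => (l f g).support,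
    fun P G => ∑ f : ν → κ, ∑ g : ν → κ,
      ((((Fintype.card ν).factorial : ℂ)⁻¹) ^ 2 * (G.submatrix f g).det) * l f g P, ?_, ?_, ?_⟩
  · intro P hP
    simp only [Finset.coe_biUnion, Finset.coe_univ, mem_univ, iUnion_true, mem_iUnion] at hP
    obtain ⟨f, g, h⟩ := hP
    exact hl f g h
  · intro P
    refine continuous_finsetSum _ fun f _ => continuous_finsetSum _ fun g _ => ?_
    exact (continuous_const.mul
      ((continuous_id.matrix_submatrix f g).matrix_det)).mul continuous_const
  · intro G B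
    rw [det_form]
    have h2 : ∀ f g : ν → κ, DD ((1 : Matrix κ κ ℂ).submatrix g id)
        ((1 : Matrix κ κ ℂ).submatrix f id) B =
        ∑ P ∈ Finset.univ.biUnion fun f => Finset.univ.biUnion fun g => (l f g).support,
          l f g P * ((‖(P * B).det‖ ^ 2 : ℝ) : ℂ) := by
      intro f g
      rw [← hsum f g, Finsupp.sum, Finset.sum_apply]
      have hsub : (l f g).support ⊆
          Finset.univ.biUnion fun f => Finset.univ.biUnion fun g => (l f g).support := by
        intro P hP
        simp only [Finset.mem_biUnion, Finset.mem_univ, true_and]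
        exact ⟨f, g, hP⟩
      rw [← Finset.sum_subset hsub (f := fun P => l f g P * ((‖(P * B).det‖ ^ 2 : ℝ) : ℂ))
        (fun P _ hP => by rw [Finsupp.notMem_support_iff.1 hP, zero_mul])]
      refine Finset.sum_congr rfl fun P _ => ?_
      simp only [Pi.smul_apply, smul_eq_mul, DD]
      rw [Complex.mul_conj, Complex.normSq_eq_norm_sq]
    simp only [h2, Finset.mul_sum, Finset.sum_mul]
    rw [Finset.sum_comm]
    simp_rw [Finset.sum_comm (s := (Finset.univ : Finset (ν → κ)))
      (t := Finset.univ.biUnion fun f => Finset.univ.biUnion fun g => (l f g).support)]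
    refine Finset.sum_congr rfl fun P _ => ?_
    rw [Finset.sum_comm]
    refine Finset.sum_congr rfl fun f _ => Finset.sum_congr rfl fun g _ => ?_
    ring

end

end Crest.Agent.R281.Wc_627
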