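import Crest.Agent.R281.Qr1_770
import Mathlib.Analysis.Calculus.ContDiff.RCLike
import Mathlib.MeasureTheory.Integral.Bochner.Set

/-!
# R281 (S0424), S6-WCONT (helper627), part 3: the area formula, critical points included

`g` of class `C¹` on the open set `U` of a finite dimensional real space, `S ⊆ U` Borel.
* `area_full`  : `∫_S |det g'| F = ∫ ∑_{x ∈ S, g x = w} F x dw`, `F ≥ 0` (lower integrals);
* `rsum`, `area_real` : the same for real functions with `|det g'| F` integrable.
-/

set_option autoImplicit false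
set_option linter.unusedSectionVars false

open Set Filter Topology MeasureTheory
open scoped ENNReal

noncomputable section

namespace Crest.Agent.R281.Wc_627

open Crest.Agent.R281.Qr_770

variable {E : Type*} [NormedAddCommGroup E] [NormedSpace ℝ E] [FiniteDimensional ℝ E]
  [MeasurableSpace E] [BorelSpace E] (μ : Measure E) [μ.IsAddHaarMeasure]

/-- the regular points -/
def reg (g : E → E) (U : Set E) : Set E := {x | x ∈ U ∧ (fderiv ℝ g x).det ≠ 0}

theorem isOpen_reg {g : E → E} {U : Set E} (hU : IsOpen U) (hg : ContDiffOn ℝ 1 g U) :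
    IsOpen (reg g U) := by
  have h1 : ContinuousOn (fun x => (fderiv ℝ g x).det) U :=
    ContinuousLinearMap.continuous_det.comp_continuousOn (hg.continuousOn_fderiv_of_isOpen hU le_rfl)
  exact h1.isOpen_inter_preimage hU isOpen_compl_singleton

theorem strict_of {g : E → E} {U : Set E} (hU : IsOpen U) (hg : ContDiffOn ℝ 1 g U) {x : E}
    (hx : x ∈ U) : HasStrictFDerivAt g (fderiv ℝ g x) x :=
  (hg.contDiffAt (hU.mem_nhds hx)).hasStrictFDerivAt one_ne_zero

/-- the critical values are a null set -/
theorem crit_null {g : E → E} {U : Set E} (hU : IsOpen U) (hg : ContDiffOn ℝ 1 g U) :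
    μ (g '' (U \ reg g U)) = 0 := by
  refine addHaar_image_eq_zero_of_det_fderivWithin_eq_zero μ
    (f' := fun x => fderiv ℝ g x) (fun x hx => ?_) (fun x hx => ?_)
  · exact (strict_of hU hg hx.1).hasFDerivAt.hasFDerivWithinAt
  · by_contra h
    exact hx.2 ⟨hx.1, h⟩

theorem fsum_reg {g : E → E} {U : Set E} {S : Set E} (hSU : S ⊆ U)
    (F : E → ℝ≥0∞) {w : E} (hw : w ∉ g '' (U \ reg g U)) :
    fsum g S F w = fsum g (S ∩ reg g U) F w := by
  unfold fsum
  refine tsum_congr fun x => ?_
  by_cases hx : x.1 ∈ S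
  · by_cases hr : x.1 ∈ reg g U
    · rw [indicator_of_mem hx, indicator_of_mem (show x.1 ∈ S ∩ reg g U from ⟨hx, hr⟩)]
    · exact absurd ⟨x.1, ⟨hSU hx, hr⟩, x.2⟩ hw
  · rw [indicator_of_notMem hx, indicator_of_notMem fun h => hx h.1]

/-- the area formula, critical points included -/
theorem area_full {g : E → E} {U : Set E} (hU : IsOpen U) (hg : ContDiffOn ℝ 1 g U) {S : Set E}
    (hS : MeasurableSet S) (hSU : S ⊆ U) {F : E → ℝ≥0∞} (hF : Measurable F) :
    AEMeasurable (fsum g S F) μ ∧
      ∫⁻ x in S, ENNReal.ofReal |(fderiv ℝ g x).det| * F x ∂μ = ∫⁻ w, fsum g S F w ∂μ := by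
  have hr := isOpen_reg hU hg
  have hm : MeasurableSet (S ∩ reg g U) := hS.inter hr.measurableSet
  obtain ⟨h1, h2⟩ := area_loc μ hr (g' := fun x => fderiv ℝ g x)
    (fun x hx => strict_of hU hg hx.1) (fun x hx => hx.2) hm inter_subset_right
    (F := F) (hF.comp measurable_subtype_coe)
  have hae : fsum g S F =ᵐ[μ] fsum g (S ∩ reg g U) F := by
    have := crit_null μ hU hg
    rw [measure_eq_zero_iff_ae_notMem] at this
    filter_upwards [this] with w hw
    exact fsum_reg hSU F hw
  refine ⟨h1.aemeasurable.congr hae.symm, ?_⟩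
  rw [lintegral_congr_ae hae, ← h2]
  rw [← lintegral_inter_add_sdiff _ S hr.measurableSet]
  have h3 : ∫⁻ x in S \ reg g U, ENNReal.ofReal |(fderiv ℝ g x).det| * F x ∂μ = 0 := by
    rw [setLIntegral_congr_fun (hS.diff hr.measurableSet) (g := fun _ => 0) ?_]
    · simp
    · intro x hx
      have : (fderiv ℝ g x).det = 0 := by
        by_contra h
        exact hx.2 ⟨hSU hx.1, h⟩
      simp [this]
  rw [h3, add_zero]

/-- sum of a real function over a fibre -/
def rsum {X Y : Type*} (g : X → Y) (S : Set X) (F : X → ℝ) (w : Y) : ℝ :=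
  ∑' x : {x : X // g x = w}, S.indicator F x.1

theorem fsum_toReal {X Y : Type*} {g : X → Y} {S : Set X} {F : X → ℝ} (hF : ∀ x, 0 ≤ F x) {w : Y}
    (hfin : fsum g S (fun x => ENNReal.ofReal (F x)) w ≠ ∞) :
    Summable (fun x : {x : X // g x = w} => S.indicator F x.1) ∧
      rsum g S F w = (fsum g S (fun x => ENNReal.ofReal (F x)) w).toReal := by
  have e : (fun x : {x : X // g x = w} => S.indicator (fun x => ENNReal.ofReal (F x)) x.1) =
      fun x : {x : X // g x = w} => ENNReal.ofReal (S.indicator F x.1) := by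
    funext x
    by_cases hx : x.1 ∈ S
    · rw [indicator_of_mem hx, indicator_of_mem hx]
    · rw [indicator_of_notMem hx, indicator_of_notMem hx, ENNReal.ofReal_zero]
  have h0 : ∀ x : {x : X // g x = w}, 0 ≤ S.indicator F x.1 :=
    fun x => indicator_nonneg (fun x _ => hF x) x.1
  have e2 : fsum g S (fun x => ENNReal.ofReal (F x)) w =
      ∑' x : {x : X // g x = w}, ENNReal.ofReal (S.indicator F x.1) := by
    unfold fsum
    rw [e]
  rw [e2] at hfin ⊢
  have hs : Summable (fun x : {x : X // g x = w} => S.indicator F x.1) := by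
    have h1 := ENNReal.summable_toReal hfin
    refine h1.congr fun x => ?_
    rw [ENNReal.toReal_ofReal (h0 x)]
  refine ⟨hs, ?_⟩
  rw [← ENNReal.ofReal_tsum_of_nonneg h0 hs, ENNReal.toReal_ofReal (tsum_nonneg h0)]
  rfl

/-- the area formula for nonnegative real functions -/
theorem area_nonneg {g : E → E} {U : Set E} (hU : IsOpen U) (hg : ContDiffOn ℝ 1 g U) {S : Set E}
    (hS : MeasurableSet S) (hSU : S ⊆ U) {F : E → ℝ} (hF : Measurable F) (hF0 : ∀ x, 0 ≤ F x)
    (hint : IntegrableOn (fun x => |(fderiv ℝ g x).det| * F x) S μ) :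
    (∀ᵐ w ∂μ, Summable (fun x : {x : E // g x = w} => S.indicator F x.1)) ∧
      Integrable (rsum g S F) μ ∧
      ∫ x in S, |(fderiv ℝ g x).det| * F x ∂μ = ∫ w, rsum g S F w ∂μ := by
  obtain ⟨h1, h2⟩ := area_full μ hU hg hS hSU (F := fun x => ENNReal.ofReal (F x))
    hF.ennreal_ofReal
  have e : ∀ x, ENNReal.ofReal |(fderiv ℝ g x).det| * ENNReal.ofReal (F x) =
      ENNReal.ofReal (|(fderiv ℝ g x).det| * F x) := fun x =>
    (ENNReal.ofReal_mul (abs_nonneg _)).symm
  simp only [e] at h2
  have h0 : ∀ x, 0 ≤ |(fderiv ℝ g x).det| * F x := fun x => mul_nonneg (abs_nonneg _) (hF0 x)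
  have hfin : ∫⁻ w, fsum g S (fun x => ENNReal.ofReal (F x)) w ∂μ ≠ ∞ := by
    rw [← h2, ← ofReal_integral_eq_lintegral_ofReal hint (Eventually.of_forall h0)]
    exact ENNReal.ofReal_ne_top
  have hlt := ae_lt_top' h1 hfin
  have hae : rsum g S F =ᵐ[μ] fun w => (fsum g S (fun x => ENNReal.ofReal (F x)) w).toReal := by
    filter_upwards [hlt] with w hw
    exact (fsum_toReal hF0 hw.ne).2
  refine ⟨?_, ?_, ?_⟩
  · filter_upwards [hlt] with w hw
    exact (fsum_toReal hF0 hw.ne).1
  · exact (integrable_congr hae).2 (integrable_toReal_of_lintegral_ne_top h1 hfin)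
  · rw [integral_congr_ae hae, integral_toReal h1 hlt, ← h2,
      ← ofReal_integral_eq_lintegral_ofReal hint (Eventually.of_forall h0),
      ENNReal.toReal_ofReal (integral_nonneg h0)]

/-- **the area formula for real functions** -/
theorem area_real {g : E → E} {U : Set E} (hU : IsOpen U) (hg : ContDiffOn ℝ 1 g U) {S : Set E}
    (hS : MeasurableSet S) (hSU : S ⊆ U) {F : E → ℝ} (hF : Measurable F)
    (hint : IntegrableOn (fun x => |(fderiv ℝ g x).det| * F x) S μ) :
    (∀ᵐ w ∂μ, Summable (fun x : {x : E // g x = w} => S.indicator F x.1)) ∧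
      Integrable (rsum g S F) μ ∧
      ∫ x in S, |(fderiv ℝ g x).det| * F x ∂μ = ∫ w, rsum g S F w ∂μ := by
  have hFp : Measurable fun x => max (F x) 0 := hF.max measurable_const
  have hFm : Measurable fun x => max (-F x) 0 := hF.neg.max measurable_const
  have hip : IntegrableOn (fun x => |(fderiv ℝ g x).det| * max (F x) 0) S μ := by
    refine hint.pos_part.congr (Eventually.of_forall fun x => ?_)
    simp only
    rw [mul_max_of_nonneg _ _ (abs_nonneg _), mul_zero]
  have him : IntegrableOn (fun x => |(fderiv ℝ g x).det| * max (-F x) 0) S μ := by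
    refine hint.neg_part.congr (Eventually.of_forall fun x => ?_)
    simp only
    rw [mul_max_of_nonneg _ _ (abs_nonneg _), mul_zero, mul_neg]
  obtain ⟨a1, a2, a3⟩ := area_nonneg μ hU hg hS hSU hFp (fun x => le_max_right _ _) hip
  obtain ⟨b1, b2, b3⟩ := area_nonneg μ hU hg hS hSU hFm (fun x => le_max_right _ _) him
  have e : ∀ x, F x = max (F x) 0 - max (-F x) 0 := by
    intro x
    rcases le_total 0 (F x) with h | h
    · rw [max_eq_left h, max_eq_right (by linarith)]; ring
    · rw [max_eq_right h, max_eq_left (by linarith)]; ring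
  have ei : ∀ x, S.indicator F x = S.indicator (fun x => max (F x) 0) x -
      S.indicator (fun x => max (-F x) 0) x := by
    intro x
    by_cases hx : x ∈ S
    · simp only [indicator_of_mem hx]; exact e x
    · simp [hx]
  have hae : rsum g S F =ᵐ[μ] fun w => rsum g S (fun x => max (F x) 0) w -
      rsum g S (fun x => max (-F x) 0) w := by
    filter_upwards [a1, b1] with w ha hb
    unfold rsum
    rw [← ha.tsum_sub hb]
    exact tsum_congr fun x => ei x.1
  refine ⟨?_, (integrable_congr hae).2 (a2.sub b2), ?_⟩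
  · filter_upwards [a1, b1] with w ha hb
    exact (ha.sub hb).congr fun x => (ei x.1).symm
  · rw [integral_congr_ae hae, integral_sub a2 b2, ← a3, ← b3, ← integral_sub hip him]
    refine integral_congr_ae (Eventually.of_forall fun x => ?_)
    simp only
    rw [← mul_sub, ← e x]

end Crest.Agent.R281.Wc_627
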