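import Crest.Agent.R281.Wc1_627

/-!
# R281 (S0424), S6-WCONT (helper627), part 4: convergence of integrals over slices

* `exists_tendsto_of_seq` : a limit exists along a countably generated filter as soon as it exists
  along all sequences;
* `conv_slice` : finite sets `Fib x c` in a compact set, all holomorphic moments converge for every
  `c`: then the integrals `∫ ∑_{y ∈ Fib x c} a y dc` converge for every continuous `a`;
* `exists_extension` : extension of a function on a dense set.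
-/

set_option autoImplicit false
set_option linter.unusedSectionVars false

open Set Filter Topology MeasureTheory

noncomputable section

namespace Crest.Agent.R281.Wc_627

theorem div2_tendsto : Tendsto (fun k : ℕ => k / 2) atTop atTop :=
  Nat.tendsto_div_const_atTop (by norm_num)

theorem inter_tendsto {T : Type*} {l : Filter T} {u0 u : ℕ → T} (hu0 : Tendsto u0 atTop l)
    (hu : Tendsto u atTop l) :
    Tendsto (fun k => if k % 2 = 0 then u0 (k / 2) else u (k / 2)) atTop l := by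
  have h1 := hu0.comp div2_tendsto
  have h2 := hu.comp div2_tendsto
  rw [tendsto_def] at h1 h2 ⊢
  intro s hs
  filter_upwards [h1 s hs, h2 s hs] with k a1 a2
  by_cases hk : k % 2 = 0
  · simpa [hk] using a1
  · simpa [hk] using a2

theorem even_tendsto : Tendsto (fun k : ℕ => 2 * k) atTop atTop :=
  tendsto_atTop_mono (fun k => by simp only [id]; omega) tendsto_id

theorem odd_tendsto : Tendsto (fun k : ℕ => 2 * k + 1) atTop atTop :=
  tendsto_atTop_mono (fun k => by simp only [id]; omega) tendsto_id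

/-- limits along a countably generated filter from limits along sequences -/
theorem exists_tendsto_of_seq {T F : Type*} [TopologicalSpace F] [T2Space F] [Nonempty F]
    {l : Filter T} [l.IsCountablyGenerated] (f : T → F)
    (h : ∀ u : ℕ → T, Tendsto u atTop l → ∃ L : F, Tendsto (fun k => f (u k)) atTop (𝓝 L)) :
    ∃ L : F, Tendsto f l (𝓝 L) := by
  rcases l.eq_or_neBot with hl | hl
  · subst hl
    exact ⟨Classical.arbitrary F, tendsto_bot⟩
  obtain ⟨u0, hu0⟩ := exists_seq_tendsto l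
  obtain ⟨L, hL⟩ := h u0 hu0
  refine ⟨L, tendsto_of_seq_tendsto fun u hu => ?_⟩
  obtain ⟨L', hL'⟩ := h _ (inter_tendsto hu0 hu)
  have e1 := hL'.comp even_tendsto
  have e2 := hL'.comp odd_tendsto
  have e3 : ((fun k : ℕ => f (if k % 2 = 0 then u0 (k / 2) else u (k / 2))) ∘ fun k => 2 * k) =
      fun k => f (u0 k) := by
    funext k
    have h1 : (2 * k) % 2 = 0 := by omega
    have h2 : (2 * k) / 2 = k := by omega
    simp only [Function.comp, h1, h2, if_true]
  have e4 : ((fun k : ℕ => f (if k % 2 = 0 then u0 (k / 2) else u (k / 2))) ∘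
      fun k => 2 * k + 1) = fun k => f (u k) := by
    funext k
    have h1 : (2 * k + 1) % 2 = 1 := by omega
    have h2 : (2 * k + 1) / 2 = k := by omega
    simp only [Function.comp, h1, h2, one_ne_zero, if_false]
  rw [e3] at e1
  rw [e4] at e2
  have e5 : L' = L := tendsto_nhds_unique e1 hL
  rw [e5] at e2
  exact e2

variable {T C E : Type*}

/-- pointwise convergence of the sums over the slices -/
theorem conv_point [TopologicalSpace E] {K : Set E} (hK : IsCompact K) (A : Subalgebra ℂ (E → ℂ))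
    (hA : ∀ x y : E, x ≠ y → ∃ f ∈ A, f x ≠ f y) (hc : ∀ f ∈ A, Continuous f)
    (Fib : ℕ → Finset E) (hFK : ∀ᶠ k in atTop, ∀ y ∈ Fib k, y ∈ K)
    (hS : ∀ f ∈ A, ∃ L : ℂ, Tendsto (fun k => ∑ y ∈ Fib k, f y) atTop (𝓝 L))
    (a : E → ℝ) (ha : ContinuousOn a K) :
    ∃ L : ℝ, Tendsto (fun k => ∑ y ∈ Fib k, a y) atTop (𝓝 L) := by
  classical
  -- the cardinality is eventually constant
  obtain ⟨L, hL⟩ := hS 1 A.one_mem
  have hcard : ∃ d : ℕ, ∀ᶠ k in atTop, (Fib k).card = d := by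
    have h1 : Tendsto (fun k => ((Fib k).card : ℝ)) atTop (𝓝 L.re) := by
      have := (Complex.continuous_re.tendsto L).comp hL
      refine this.congr fun k => ?_
      simp
    have h2 : ∀ᶠ k in atTop, |((Fib k).card : ℝ) - L.re| < 1 / 2 := by
      have := Metric.tendsto_nhds.1 h1 (1 / 2) (by norm_num)
      simpa [Real.dist_eq] using this
    obtain ⟨k0, hk0⟩ := eventually_atTop.1 h2
    refine ⟨(Fib k0).card, eventually_atTop.2 ⟨k0, fun k hk => ?_⟩⟩
    have a1 := hk0 k hk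
    have a2 := hk0 k0 le_rfl
    have a3 : |((Fib k).card : ℝ) - ((Fib k0).card : ℝ)| < 1 := by
      calc |((Fib k).card : ℝ) - ((Fib k0).card : ℝ)|
          = |(((Fib k).card : ℝ) - L.re) - (((Fib k0).card : ℝ) - L.re)| := by ring_nf
        _ ≤ |((Fib k).card : ℝ) - L.re| + |((Fib k0).card : ℝ) - L.re| := abs_sub _ _
        _ < 1 := by linarith
    have a4 : |((Fib k).card : ℤ) - ((Fib k0).card : ℤ)| < 1 := by exact_mod_cast a3
    rw [Int.abs_lt_one_iff, sub_eq_zero] at a4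
    exact_mod_cast a4
  obtain ⟨d, hd⟩ := hcard
  by_cases hd0 : d = 0
  · refine ⟨0, tendsto_const_nhds.congr' ?_⟩
    filter_upwards [hd] with k hk
    rw [hd0, Finset.card_eq_zero] at hk
    rw [hk, Finset.sum_empty]
  have hne : ∀ᶠ k in atTop, (Fib k).Nonempty := by
    filter_upwards [hd] with k hk
    exact Finset.card_pos.1 (by omega)
  obtain ⟨k1, hk1⟩ := eventually_atTop.1 hne
  obtain ⟨y0, _⟩ := hk1 k1 le_rfl
  set y : ℕ → Fin d → E := fun k i =>
    if h : (Fib k).card = d then ((Fib k).equivFinOfCardEq h).symm i else y0 with hy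
  have hsum : ∀ k, (Fib k).card = d → ∀ {F : Type} [AddCommMonoid F] (g : E → F),
      ∑ i, g (y k i) = ∑ z ∈ Fib k, g z := by
    intro k hk F _ g
    simp only [hy, hk, dif_pos]
    rw [← Finset.sum_coe_sort (Fib k) g]
    exact ((Fib k).equivFinOfCardEq hk).symm.sum_comp fun z : Fib k => g z.1
  have hmem : ∀ᶠ k in atTop, ∀ i, y k i ∈ K := by
    filter_upwards [hd, hFK] with k hk hkK i
    simp only [hy, hk, dif_pos]
    exact hkK _ (((Fib k).equivFinOfCardEq hk).symm i).2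
  obtain ⟨L', hL'⟩ := tendsto_atoms (l := atTop) hK A hA hc y hmem (fun f hf => by
    obtain ⟨Lf, hLf⟩ := hS f hf
    refine ⟨Lf, hLf.congr' ?_⟩
    filter_upwards [hd] with k hk
    exact (hsum k hk f).symm) a ha
  refine ⟨L', hL'.congr' ?_⟩
  filter_upwards [hd] with k hk
  exact hsum k hk a

/-- **convergence of the integrals over the slices** -/
theorem conv_slice {l : Filter T} [l.IsCountablyGenerated] [MeasurableSpace C] {μ : Measure C}
    [IsFiniteMeasure μ] [TopologicalSpace E] {K : Set E} (hK : IsCompact K)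
    (A : Subalgebra ℂ (E → ℂ)) (hA : ∀ x y : E, x ≠ y → ∃ f ∈ A, f x ≠ f y)
    (hc : ∀ f ∈ A, Continuous f) (Fib : T → C → Finset E) (S : (E → ℂ) → T → C → ℂ)
    (hS : ∀ f ∈ A, ∀ c, ∃ L : ℂ, Tendsto (fun x => S f x c) l (𝓝 L))
    (hE : ∀ᶠ x in l, ∀ᵐ c ∂μ, ∀ f ∈ A, S f x c = ∑ y ∈ Fib x c, f y)
    (hFK : ∀ᶠ x in l, ∀ᵐ c ∂μ, ∀ y ∈ Fib x c, y ∈ K) (d : ℕ)
    (hcard : ∀ᶠ x in l, ∀ᵐ c ∂μ, (Fib x c).card ≤ d) (a : E → ℝ) (ha : ContinuousOn a K)
    (hm : ∀ᶠ x in l, AEStronglyMeasurable (fun c => ∑ y ∈ Fib x c, a y) μ) :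
    ∃ L : ℝ, Tendsto (fun x => ∫ c, ∑ y ∈ Fib x c, a y ∂μ) l (𝓝 L) := by
  classical
  refine exists_tendsto_of_seq _ fun u hu => ?_
  obtain ⟨B, hB⟩ := (hK.image_of_continuousOn ha).isBounded.exists_norm_le
  have hB' : ∀ y ∈ K, |a y| ≤ max B 0 := fun y hy =>
    le_trans (by simpa using hB (a y) ⟨y, hy, rfl⟩) (le_max_left _ _)
  obtain ⟨k0, hk0⟩ := eventually_atTop.1
    ((hu.eventually hE).and ((hu.eventually hFK).and ((hu.eventually hcard).and
      (hu.eventually hm))))
  have hall : ∀ᵐ c ∂μ, ∀ k, k0 ≤ k → (∀ f ∈ A, S f (u k) c = ∑ y ∈ Fib (u k) c, f y) ∧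
      (∀ y ∈ Fib (u k) c, y ∈ K) ∧ (Fib (u k) c).card ≤ d := by
    rw [ae_all_iff]
    intro k
    by_cases hk : k0 ≤ k
    · filter_upwards [(hk0 k hk).1, (hk0 k hk).2.1, (hk0 k hk).2.2.1] with c h1 h2 h3 _
      exact ⟨h1, h2, h3⟩
    · exact Eventually.of_forall fun c h => absurd h hk
  have hlim : ∀ᵐ c ∂μ, ∃ L : ℝ, Tendsto (fun k => ∑ y ∈ Fib (u k) c, a y) atTop (𝓝 L) := by
    filter_upwards [hall] with c hc1
    refine conv_point hK A hA hc (fun k => Fib (u k) c) ?_ (fun f hf => ?_) a ha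
    · exact eventually_atTop.2 ⟨k0, fun k hk => (hc1 k hk).2.1⟩
    · obtain ⟨L, hL⟩ := hS f hf c
      refine ⟨L, (hL.comp hu).congr' ?_⟩
      exact eventually_atTop.2 ⟨k0, fun k hk => (hc1 k hk).1 f hf⟩
  set g : C → ℝ := fun c => if h : ∃ L : ℝ, Tendsto (fun k => ∑ y ∈ Fib (u k) c, a y) atTop (𝓝 L)
    then h.choose else 0 with hg
  have hgl : ∀ᵐ c ∂μ, Tendsto (fun k => ∑ y ∈ Fib (u (k + k0)) c, a y) atTop (𝓝 (g c)) := by
    filter_upwards [hlim] with c hc1
    have h2 : Tendsto (fun k => ∑ y ∈ Fib (u k) c, a y) atTop (𝓝 (g c)) := by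
      simp only [hg, dif_pos hc1]
      exact hc1.choose_spec
    exact (tendsto_add_atTop_iff_nat k0).2 h2
  refine ⟨∫ c, g c ∂μ, (tendsto_add_atTop_iff_nat k0).1 ?_⟩
  refine tendsto_integral_of_dominated_convergence (fun _ => (d : ℝ) * max B 0)
    (fun k => (hk0 _ (Nat.le_add_left _ _)).2.2.2) (integrable_const _) (fun k => ?_) hgl
  filter_upwards [hall] with c hc1
  obtain ⟨_, h2, h3⟩ := hc1 (k + k0) (Nat.le_add_left _ _)
  calc ‖∑ y ∈ Fib (u (k + k0)) c, a y‖ ≤ ∑ y ∈ Fib (u (k + k0)) c, ‖a y‖ := norm_sum_le _ _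
    _ ≤ ∑ y ∈ Fib (u (k + k0)) c, max B 0 := Finset.sum_le_sum fun y hy => by
        rw [Real.norm_eq_abs]; exact hB' y (h2 y hy)
    _ = ((Fib (u (k + k0)) c).card : ℝ) * max B 0 := by rw [Finset.sum_const, nsmul_eq_mul]
    _ ≤ (d : ℝ) * max B 0 := by
        refine mul_le_mul_of_nonneg_right ?_ (le_max_right _ _)
        exact_mod_cast h3

/-- extension of a function from a dense set -/
theorem exists_extension {X F : Type*} [TopologicalSpace X] [TopologicalSpace F] [T3Space F]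
    {O : Set X} (hO : Dense O) (f : X → F) (hf : ContinuousOn f O)
    (h : ∀ x, ∃ L : F, Tendsto f (𝓝[O] x) (𝓝 L)) :
    ∃ g : X → F, Continuous g ∧ EqOn g f O := by
  refine ⟨extendFrom O f, ?_, fun x hx => ?_⟩
  · exact continuous_extendFrom hO h
  · exact extendFrom_eq (subset_closure hx) (hf x hx)

end Crest.Agent.R281.Wc_627
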