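import Crest.Agent.R281.Ti1_846
import Mathlib.LinearAlgebra.Matrix.Charpoly.Coeff
import Mathlib.LinearAlgebra.Trace

/-!
# Row 281, XI-L2, part 1 (helper831): the norm of a real 2-form at a point

`g` a nondegenerate bilinear form, `w` a bilinear form on the finite dimensional real space `V`.

* `WW g w`     : the endomorphism `W` with `g (W u) v = w u v`
* `nin g w w'` : `- tr (W W')`; `nsq g w = nin g w w`
* `TP_one`, `TP_two` : `N TP(w, ω^(N-1)) = ½ tr(E) TP(ω^N)` and
  `N (N-1) TP(w, w, ω^(N-2)) = (¼ (tr E)² - ½ tr (E²)) TP(ω^N)`, `E = WW ω w`, for every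
  nondegenerate alternating `ω` and every alternating `w` (only naturality of `TP` is used).
-/

set_option autoImplicit false
set_option linter.unusedSectionVars false
set_option maxSynthPendingDepth 3

open Set Filter Topology
open scoped ContDiff

namespace Crest.Agent.R281.Xi_831

open Crest.Agent.R281.HkR_835 Crest.Agent.R281.Ti_846

noncomputable section

variable {V : Type*} [NormedAddCommGroup V] [NormedSpace ℝ V] [FiniteDimensional ℝ V]

/-- nondegenerate -/
def ND (g : Bil V) : Prop := ∀ u, (∀ v, g u v = 0) → u = 0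

theorem ND.inv {g : Bil V} (hg : ND g) : ContinuousLinearMap.IsInvertible g := by
  have hinj : Function.Injective (g : V →ₗ[ℝ] (V →L[ℝ] ℝ)) := by
    rw [← LinearMap.ker_eq_bot, LinearMap.ker_eq_bot']
    intro u hu
    refine hg u fun v => ?_
    have : g u = 0 := hu
    rw [this]
    rfl
  have hfr : Module.finrank ℝ V = Module.finrank ℝ (V →L[ℝ] ℝ) := by
    rw [← (LinearMap.toContinuousLinearMap (𝕜 := ℝ) (E := V) (F' := ℝ)).finrank_eq]
    exact (Subspace.dual_finrank_eq (K := ℝ) (V := V)).symm
  refine ⟨(LinearMap.linearEquivOfInjective (g : V →ₗ[ℝ] (V →L[ℝ] ℝ)) hinj hfr).toContinuousLinearEquiv, ?_⟩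
  ext u v
  rfl

/-- the endomorphism of a bilinear form -/
def WW (g w : Bil V) : V →L[ℝ] V := (ContinuousLinearMap.inverse g).comp w

theorem WW_spec {g : Bil V} (hg : ND g) (w : Bil V) (u v : V) : g (WW g w u) v = w u v := by
  obtain ⟨e, he⟩ := hg.inv
  have h1 : ContinuousLinearMap.inverse g = (e.symm : (V →L[ℝ] ℝ) →L[ℝ] V) := by
    rw [← he, ContinuousLinearMap.inverse_equiv]
  have h2 : g (WW g w u) = w u := by
    show g (ContinuousLinearMap.inverse g (w u)) = w u
    rw [h1, ← he]
    exact e.apply_symm_apply (w u)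
  rw [h2]

theorem ND.ext {g : Bil V} (hg : ND g) {u u' : V} (h : ∀ v, g u v = g u' v) : u = u' := by
  rw [← sub_eq_zero]
  refine hg _ fun v => ?_
  rw [map_sub, sub_apply, h v, sub_self]

theorem WW_unique {g : Bil V} (hg : ND g) {w : Bil V} {A : V →L[ℝ] V}
    (h : ∀ u v, g (A u) v = w u v) : A = WW g w := by
  ext u
  exact hg.ext fun v => by rw [h, WW_spec hg]

/-- the trace -/
def tc (A : V →L[ℝ] V) : ℝ := LinearMap.trace ℝ V (A : V →ₗ[ℝ] V)

theorem tc_comp_comm (A B : V →L[ℝ] V) : tc (A.comp B) = tc (B.comp A) :=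
  LinearMap.trace_mul_comm ℝ (A : V →ₗ[ℝ] V) (B : V →ₗ[ℝ] V)

theorem tc_add (A B : V →L[ℝ] V) : tc (A + B) = tc A + tc B := by
  unfold tc
  exact map_add _ _ _

theorem tc_smul (c : ℝ) (A : V →L[ℝ] V) : tc (c • A) = c * tc A := by
  unfold tc
  exact map_smul (LinearMap.trace ℝ V) c (A : V →ₗ[ℝ] V)

theorem tc_neg (A : V →L[ℝ] V) : tc (-A) = - tc A := by
  unfold tc
  exact map_neg (LinearMap.trace ℝ V) (A : V →ₗ[ℝ] V)

theorem tc_sub (A B : V →L[ℝ] V) : tc (A - B) = tc A - tc B := by
  unfold tc
  exact map_sub (LinearMap.trace ℝ V) (A : V →ₗ[ℝ] V) (B : V →ₗ[ℝ] V)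

/-- the trace as a continuous linear map -/
def tcL : (V →L[ℝ] V) →L[ℝ] ℝ := LinearMap.toContinuousLinearMap
  { toFun := tc
    map_add' := tc_add
    map_smul' := fun c A => by rw [tc_smul]; rfl }

theorem tcL_apply (A : V →L[ℝ] V) : tcL A = tc A := rfl

theorem tc_id : tc (ContinuousLinearMap.id ℝ V) = Module.finrank ℝ V := by
  unfold tc
  exact LinearMap.trace_id ℝ V

/-- the inner product of 2-forms -/
def nin (g w w' : Bil V) : ℝ := - tc ((WW g w).comp (WW g w'))

/-- the norm of a 2-form -/
def nsq (g w : Bil V) : ℝ := nin g w w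

theorem nin_comm (g w w' : Bil V) : nin g w w' = nin g w' w := by
  unfold nin
  rw [tc_comp_comm]

theorem WW_add (g w w' : Bil V) : WW g (w + w') = WW g w + WW g w' := by
  ext u; simp [WW]

theorem WW_smul (g : Bil V) (c : ℝ) (w : Bil V) : WW g (c • w) = c • WW g w := by
  ext u; simp [WW]

theorem nin_add (g w w' w'' : Bil V) : nin g w (w' + w'') = nin g w w' + nin g w w'' := by
  unfold nin
  rw [WW_add, ContinuousLinearMap.comp_add, tc_add]
  ring

theorem nin_smul (g w : Bil V) (c : ℝ) (w' : Bil V) : nin g w (c • w') = c * nin g w w' := by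
  unfold nin
  rw [WW_smul, ContinuousLinearMap.comp_smul, tc_smul]
  ring

theorem nsq_add (g w w' : Bil V) : nsq g (w + w') = nsq g w + 2 * nin g w w' + nsq g w' := by
  unfold nsq
  rw [nin_add, nin_comm g (w + w') w, nin_comm g (w + w') w', nin_add, nin_add, nin_comm g w' w]
  ring

theorem nsq_smul (g w : Bil V) (c : ℝ) : nsq g (c • w) = c ^ 2 * nsq g w := by
  unfold nsq
  rw [nin_smul, nin_comm, nin_smul]
  ring

/-- **invariance** -/
theorem WW_conj {V' : Type*} [NormedAddCommGroup V'] [NormedSpace ℝ V'] [FiniteDimensional ℝ V']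
    {g w : Bil V} {g' w' : Bil V'} (hg' : ND g') (T : V ≃L[ℝ] V')
    (h1 : ∀ u v, g u v = g' (T u) (T v)) (h2 : ∀ u v, w u v = w' (T u) (T v)) (u : V) :
    WW g w u = T.symm (WW g' w' (T u)) := by
  have hg : ND g := fun u hu => by
    have h3 : T u = 0 := hg' (T u) fun v => by
      have := hu (T.symm v)
      rw [h1, T.apply_symm_apply] at this
      exact this
    simpa using h3
  refine hg.ext fun v => ?_
  rw [WW_spec hg, h1, T.apply_symm_apply, WW_spec hg', h2]

theorem nin_conj {V' : Type*} [NormedAddCommGroup V'] [NormedSpace ℝ V'] [FiniteDimensional ℝ V']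
    {g w₁ w₂ : Bil V} {g' w₁' w₂' : Bil V'} (hg' : ND g') (T : V ≃L[ℝ] V')
    (h1 : ∀ u v, g u v = g' (T u) (T v)) (h2 : ∀ u v, w₁ u v = w₁' (T u) (T v))
    (h3 : ∀ u v, w₂ u v = w₂' (T u) (T v)) : nin g w₁ w₂ = nin g' w₁' w₂' := by
  unfold nin tc
  congr 1
  have h4 : (((WW g w₁).comp (WW g w₂) : V →L[ℝ] V) : V →ₗ[ℝ] V) =
      (T.symm.toLinearEquiv).conj (((WW g' w₁').comp (WW g' w₂') : V' →L[ℝ] V') : V' →ₗ[ℝ] V') := by
    ext u
    rw [LinearEquiv.conj_apply]
    simp [WW_conj hg' T h1 h2, WW_conj hg' T h1 h3]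
  rw [h4, LinearMap.trace_conj']

/-! ### the derivative of `TP` -/

section deriv

variable {K : Type*} [Fintype K] [DecidableEq K]

theorem TP_deriv (b : K × Fin 2 → V) {γ : K → ℝ → Bil V} {γ' : K → Bil V} {t : ℝ}
    (h : ∀ k, HasDerivAt (γ k) (γ' k) t) :
    HasDerivAt (fun s => TP b fun k => γ k s)
      (∑ k, TP b (Function.update (fun l => γ l t) k (γ' k))) t := by
  unfold TP
  rw [Finset.sum_comm]
  refine HasDerivAt.fun_sum fun σ _ => ?_
  rw [← Finset.mul_sum]
  refine HasDerivAt.const_mul _ ?_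
  have h1 : ∀ k : K, HasDerivAt (fun s => γ k s (b (σ (k, 0))) (b (σ (k, 1))))
      (γ' k (b (σ (k, 0))) (b (σ (k, 1)))) t := fun k => by
    have h2 := (h k).clm_apply (hasDerivAt_const t (b (σ (k, 0))))
    have h3 := h2.clm_apply (hasDerivAt_const t (b (σ (k, 1))))
    simpa using h3
  have h2 := HasDerivAt.fun_finsetProd (u := (Finset.univ : Finset K)) fun k _ => h1 k
  refine h2.congr_deriv ?_
  refine Finset.sum_congr rfl fun k _ => ?_
  rw [← Finset.mul_prod_erase Finset.univ (fun l => (Function.update (fun l => γ l t) k (γ' k)) l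
    (b (σ (l, 0))) (b (σ (l, 1)))) (Finset.mem_univ k), Function.update_self, smul_eq_mul, mul_comm]
  congr 1
  refine Finset.prod_congr rfl fun l hl => ?_
  rw [Function.update_of_ne (Finset.ne_of_mem_erase hl)]

theorem TP_upd_eq (b : K × Fin 2 → V) (om w : Bil V) (k k0 : K) :
    TP b (Function.update (fun _ => om) k w) = TP b (Function.update (fun _ => om) k0 w) := by
  rw [← TP_perm b (Function.update (fun _ => om) k0 w) (Equiv.swap k k0)]
  congr 1
  funext l
  simp only [Function.update_apply]
  by_cases h : l = k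
  · subst h; simp
  · rw [if_neg h, if_neg]
    intro h2
    exact h ((Equiv.swap k k0).injective (h2.trans (Equiv.swap_apply_left k k0).symm))

theorem sum_TP_upd (b : K × Fin 2 → V) (om w : Bil V) (k0 : K) :
    ∑ k, TP b (Function.update (fun _ => om) k w) =
      (Fintype.card K : ℝ) * TP b (Function.update (fun _ => om) k0 w) := by
  rw [Finset.sum_congr rfl fun k _ => TP_upd_eq b om w k k0, Finset.sum_const, Finset.card_univ,
    nsmul_eq_mul]

/-- derivative of the determinant at the identity -/
theorem hasDerivAt_det {ι : Type*} [Fintype ι] [DecidableEq ι] (b : Module.Basis ι ℝ V)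
    (B : V →L[ℝ] V) :
    HasDerivAt (fun t : ℝ => LinearMap.det
      ((ContinuousLinearMap.id ℝ V + t • B : V →L[ℝ] V) : V →ₗ[ℝ] V)) (tc B) 0 := by
  set M := LinearMap.toMatrix b b (B : V →ₗ[ℝ] V) with hM
  have h1 : ∀ t : ℝ, LinearMap.det
      ((ContinuousLinearMap.id ℝ V + t • B : V →L[ℝ] V) : V →ₗ[ℝ] V) =
      1 + M.trace * t + (Matrix.det (1 + (Polynomial.X : Polynomial ℝ) •
        M.map Polynomial.C)).divX.divX.eval t * t ^ 2 := by
    intro t
    rw [← LinearMap.det_toMatrix b, ← Matrix.det_one_add_smul]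
    congr 1
    have : ((ContinuousLinearMap.id ℝ V + t • B : V →L[ℝ] V) : V →ₗ[ℝ] V) =
      LinearMap.id + t • (B : V →ₗ[ℝ] V) := rfl
    rw [this, map_add, LinearMap.toMatrix_id, map_smul]
  have h2 : tc B = M.trace := LinearMap.trace_eq_matrix_trace ℝ b _
  rw [h2]
  have h3 : HasDerivAt (fun t : ℝ => 1 + M.trace * t + (Matrix.det (1 +
      (Polynomial.X : Polynomial ℝ) • M.map Polynomial.C)).divX.divX.eval t * t ^ 2) M.trace 0 := by
    set q := (Matrix.det (1 + (Polynomial.X : Polynomial ℝ) • M.map Polynomial.C)).divX.divX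
    have h4 := ((hasDerivAt_const (0 : ℝ) (1 : ℝ)).add
      ((hasDerivAt_id (0 : ℝ)).const_mul M.trace)).add
      ((q.hasDerivAt 0).mul ((hasDerivAt_pow 2 (0 : ℝ))))
    refine (h4.congr_deriv ?_).congr_of_eventuallyEq ?_
    · simp
    · exact Eventually.of_forall fun t => by simp
  exact h3.congr_of_eventuallyEq (Eventually.of_forall h1)

theorem pb_half {om w : Bil V} (ho : ND om) (ha : ∀ u v, om u v = - om v u)
    (hw : ∀ u v, w u v = - w v u) (t : ℝ) :
    pb (ContinuousLinearMap.id ℝ V + t • ((1 / 2 : ℝ) • WW om w)) om =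
      om + t • w + t ^ 2 • pb ((1 / 2 : ℝ) • WW om w) om := by
  ext u v
  have h1 := WW_spec ho w u v
  have h2 : om u (WW om w v) = w u v := by
    rw [ha, WW_spec ho, hw v u, neg_neg]
  simp only [pb_apply, add_apply, smul_apply, ContinuousLinearMap.id_apply, map_add, map_smul,
    smul_eq_mul, h1, h2]
  ring

/-- **first order** -/
theorem TP_one (b : Module.Basis (K × Fin 2) ℝ V) {om w : Bil V} (ho : ND om)
    (ha : ∀ u v, om u v = - om v u) (hw : ∀ u v, w u v = - w v u) (k0 : K) :
    (Fintype.card K : ℝ) * TP b (Function.update (fun _ => om) k0 w) =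
      1 / 2 * tc (WW om w) * TP b (fun _ => om) := by
  set B : V →L[ℝ] V := (1 / 2 : ℝ) • WW om w with hB
  have h1 : ∀ t : ℝ, TP b (fun _ => om + t • w + t ^ 2 • pb B om) =
      LinearMap.det ((ContinuousLinearMap.id ℝ V + t • B : V →L[ℝ] V) : V →ₗ[ℝ] V) *
        TP b (fun _ => om) := by
    intro t
    rw [← TP_comp b _ (fun _ => om)]
    congr 1
    funext _
    exact (pb_half ho ha hw t).symm
  have h2 : HasDerivAt (fun t : ℝ => TP b (fun _ : K => om + t • w + t ^ 2 • pb B om))
      (∑ k, TP b (Function.update (fun _ => om) k w)) 0 := by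
    have h3 : ∀ k : K, HasDerivAt (fun t : ℝ => om + t • w + t ^ 2 • pb B om) w 0 := by
      intro _
      have h4 := ((hasDerivAt_const (0 : ℝ) om).add ((hasDerivAt_id (0 : ℝ)).smul_const w)).add
        (((hasDerivAt_pow 2 (0 : ℝ))).smul_const (pb B om))
      refine h4.congr_deriv ?_
      simp
    have h5 := TP_deriv b h3
    refine h5.congr_deriv ?_
    refine Finset.sum_congr rfl fun k _ => ?_
    congr 2
    funext _
    simp
  have h3 := (hasDerivAt_det b B).mul_const (TP b (fun _ : K => om))
  have h4 := h2.unique ((h3.congr_of_eventuallyEq (Eventually.of_forall h1)))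
  rw [sum_TP_upd b om w k0] at h4
  rw [h4, hB, tc_smul]

theorem continuousAt_WW {om w : Bil V} (ho : ND om) :
    ContinuousAt (fun t : ℝ => WW (om + t • w) w) 0 := by
  have h1 : ContinuousAt (fun f : Bil V => ContinuousLinearMap.inverse f) om :=
    (ho.inv.contDiffAt_map_inverse (n := 0)).continuousAt
  have h2 : ContinuousAt (fun t : ℝ => om + t • w) 0 := by fun_prop
  have h3 : ContinuousAt (fun t : ℝ => ContinuousLinearMap.inverse (om + t • w)) 0 := by
    refine ContinuousAt.comp (g := fun f : Bil V => ContinuousLinearMap.inverse f) ?_ h2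
    simpa using h1
  exact h3.clm_comp continuousAt_const

theorem isOpen_ND : IsOpen {om : Bil V | ND om} := by
  have h1 : {om : Bil V | ND om} = {om : Bil V | ContinuousLinearMap.IsInvertible om} := by
    ext om
    refine ⟨fun h => h.inv, fun h => ?_⟩
    obtain ⟨e, he⟩ := h
    intro u hu
    have h2 : om u = 0 := by ext v; exact hu v
    rw [← he] at h2
    exact (e.map_eq_zero_iff).1 h2
  rw [h1]
  have h2 : {om : Bil V | ContinuousLinearMap.IsInvertible om} =
      Set.range ((↑) : (V ≃L[ℝ] (V →L[ℝ] ℝ)) → (V →L[ℝ] (V →L[ℝ] ℝ))) := by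
    ext om; rfl
  rw [h2]
  exact ContinuousLinearEquiv.isOpen

/-- **second order** -/
theorem TP_two (b : Module.Basis (K × Fin 2) ℝ V) {om w : Bil V} (ho : ND om)
    (ha : ∀ u v, om u v = - om v u) (hw : ∀ u v, w u v = - w v u) {k0 k1 : K} (hk : k0 ≠ k1) :
    (Fintype.card K : ℝ) * ((Fintype.card K : ℝ) - 1) *
        TP b (Function.update (Function.update (fun _ => om) k0 w) k1 w) =
      (1 / 4 * tc (WW om w) ^ 2 - 1 / 2 * tc ((WW om w).comp (WW om w))) * TP b (fun _ => om) := by
  set E := WW om w with hE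
  -- the polynomial `p`
  have hγ : ∀ (k : K) (t : ℝ), HasDerivAt (fun t : ℝ => om + t • w) w t := by
    intro _ t
    have h4 := ((hasDerivAt_const t om).add ((hasDerivAt_id t).smul_const w))
    refine h4.congr_deriv ?_
    simp
  have hp : ∀ t : ℝ, HasDerivAt (fun t : ℝ => TP b (fun _ : K => om + t • w))
      ((Fintype.card K : ℝ) * TP b (Function.update (fun _ => om + t • w) k0 w)) t := by
    intro t
    have h5 := TP_deriv b (γ := fun _ t => om + t • w) (fun k => hγ k t)
    rwa [sum_TP_upd b (om + t • w) w k0] at h5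
  -- its derivative
  have hND : ∀ᶠ t : ℝ in 𝓝 0, ND (om + t • w) := by
    have h2 : ContinuousAt (fun t : ℝ => om + t • w) 0 := by fun_prop
    have h3 : {om : Bil V | ND om} ∈ 𝓝 ((fun t : ℝ => om + t • w) 0) :=
      isOpen_ND.mem_nhds (by simpa using ho)
    exact h2 h3
  have hq : ∀ᶠ t : ℝ in 𝓝 0,
      (Fintype.card K : ℝ) * TP b (Function.update (fun _ => om + t • w) k0 w) =
        1 / 2 * (tc E - t * tc (E.comp (WW (om + t • w) w))) * TP b (fun _ => om + t • w) := by
    filter_upwards [hND] with t ht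
    rw [TP_one b ht (fun u v => by
      simp only [add_apply, smul_apply, smul_eq_mul]; rw [ha u v, hw u v]; ring) hw k0]
    have h6 : WW (om + t • w) w = E - t • E.comp (WW (om + t • w) w) := by
      ext u
      refine ho.ext fun v => ?_
      have h7 := WW_spec ht w u v
      simp only [add_apply, smul_apply, smul_eq_mul] at h7
      simp only [map_sub, sub_apply, smul_apply, ContinuousLinearMap.comp_apply, map_smul,
        smul_eq_mul, hE, WW_spec ho]
      linarith
    have h8 : tc (WW (om + t • w) w) = tc E - t * tc (E.comp (WW (om + t • w) w)) := by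
      conv_lhs => rw [h6]
      rw [tc_sub, tc_smul]
    rw [h8]
  -- differentiate once more
  have hL : HasDerivAt (fun t : ℝ =>
      (Fintype.card K : ℝ) * TP b (Function.update (fun _ => om + t • w) k0 w))
      ((Fintype.card K : ℝ) * (((Fintype.card K : ℝ) - 1) *
        TP b (Function.update (Function.update (fun _ => om) k0 w) k1 w))) 0 := by
    refine HasDerivAt.const_mul _ ?_
    have h1 : ∀ k : K, HasDerivAt (fun t : ℝ => Function.update (fun _ : K => om + t • w) k0 w k)
        (if k = k0 then 0 else w) 0 := by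
      intro k
      by_cases h : k = k0
      · subst h
        simp only [Function.update_self, if_true]
        exact hasDerivAt_const _ _
      · simp only [Function.update_of_ne h, if_neg h]
        exact hγ k 0
    have h2 := TP_deriv b (γ := fun k t => Function.update (fun _ : K => om + t • w) k0 w k) h1
    refine h2.congr_deriv ?_
    have h3 : ∀ k, TP b (Function.update (fun l => Function.update
        (fun _ : K => om + (0 : ℝ) • w) k0 w l) k (if k = k0 then 0 else w)) =
        if k = k0 then 0 else TP b (Function.update (Function.update (fun _ => om) k0 w) k1 w) := by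
      intro k
      by_cases h : k = k0
      · rw [if_pos h, if_pos h]
        unfold TP
        refine Finset.sum_eq_zero fun σ _ => ?_
        rw [Finset.prod_eq_zero (Finset.mem_univ k), mul_zero]
        rw [Function.update_self]; simp
      · rw [if_neg h, if_neg h]
        rw [← TP_perm b (Function.update (Function.update (fun _ => om) k0 w) k1 w)
          (Equiv.swap k k1)]
        congr 1
        funext l
        simp only [zero_smul, add_zero, Function.update_apply]
        by_cases h1 : l = k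
        · subst h1; simp
        · rw [if_neg h1]
          by_cases h2 : l = k1
          · subst h2
            rw [Equiv.swap_apply_right, if_neg (Ne.symm hk), if_neg, if_neg h]
            intro h3
            exact h1 h3.symm
          · rw [Equiv.swap_apply_of_ne_of_ne h1 h2, if_neg h2]
    rw [Finset.sum_congr rfl fun k _ => h3 k, Finset.sum_ite, Finset.sum_const_zero, zero_add,
      Finset.sum_const, nsmul_eq_mul]
    congr 1
    rw [Finset.filter_ne' Finset.univ k0, Finset.card_erase_of_mem (Finset.mem_univ k0),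
      Finset.card_univ, Nat.cast_sub (Fintype.card_pos_iff.2 ⟨k0⟩)]
    simp
  have hc : ContinuousAt (fun t : ℝ => tc (E.comp (WW (om + t • w) w))) 0 := by
    have h1 := continuousAt_WW (w := w) ho
    have h2 : ContinuousAt (fun t : ℝ => tcL (E.comp (WW (om + t • w) w))) 0 :=
      tcL.continuous.continuousAt.comp (continuousAt_const.clm_comp h1)
    exact h2
  have hm : HasDerivAt (fun t : ℝ => t * tc (E.comp (WW (om + t • w) w)))
      (tc (E.comp E)) 0 := by
    rw [hasDerivAt_iff_tendsto_slope]
    have h1 : Tendsto (fun t : ℝ => tc (E.comp (WW (om + t • w) w))) (𝓝[≠] 0)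
        (𝓝 (tc (E.comp E))) := by
      have h2 : Tendsto (fun t : ℝ => tc (E.comp (WW (om + t • w) w))) (𝓝 0)
          (𝓝 (tc (E.comp (WW (om + (0 : ℝ) • w) w)))) := hc
      rw [zero_smul, add_zero] at h2
      exact h2.mono_left nhdsWithin_le_nhds
    refine h1.congr' ?_
    filter_upwards [self_mem_nhdsWithin] with t ht
    have ht' : t ≠ 0 := ht
    simp only [slope, vsub_eq_sub, sub_zero, zero_mul, smul_eq_mul]
    field_simp
  have hR := (((hasDerivAt_const (0 : ℝ) (tc E)).sub hm).const_mul (1 / 2 : ℝ)).mul (hp 0)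
  have hL' := hL.congr_of_eventuallyEq (hq.mono fun t ht => ht.symm)
  have h9 := hL'.unique hR
  simp only [zero_smul, add_zero, zero_sub, Pi.sub_apply, zero_mul, sub_zero] at h9
  have h10 := TP_one b ho ha hw k0
  rw [h10, ← hE] at h9
  rw [mul_assoc, h9]
  ring

end deriv

end

end Crest.Agent.R281.Xi_831
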