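import Crest.Agent.R281.Xi1_831
import Mathlib.LinearAlgebra.QuadraticForm.Basic
import Mathlib.LinearAlgebra.BilinearForm.Orthogonal

/-!
# Row 281, XI-L2, part 2 (helper831): pointwise hyperkaehler facts

`g` symmetric positive definite, `J` an orthogonal complex structure, `om u v = g (J u) v`.

* `nin_om`     : `tr (WW om w) = ⟨om, w⟩_g`
* `tr_sq`      : `w` `J`-invariant: `tr ((WW om w)²) = |w|²_g`
* `TP_prim`    : `w` `J`-invariant with `⟨om, w⟩ = 0` : `2 N (N-1) TP(w, w, om^(N-2)) = - |w|² TP(om^N)`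
* `nsq_om`     : `|om|² = dim V`
* `nin_om_om`  : `⟨om_j, om_k⟩ = 0` for anticommuting complex structures
* `nin_anti`   : `w` invariant under `J`, `J'` anticommuting with `J`: `⟨om', w⟩ = 0`
* `abs_le`     : `w(u,v)² ≤ |w|²_g g(u,u) g(v,v)`
-/

set_option autoImplicit false
set_option linter.unusedSectionVars false
set_option maxSynthPendingDepth 3

open Set Filter Topology
open scoped ContDiff

namespace Crest.Agent.R281.Xi_831

open Crest.Agent.R281.HkR_835 Crest.Agent.R281.Ti_846

noncomputable section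

variable {V : Type*} [NormedAddCommGroup V] [NormedSpace ℝ V] [FiniteDimensional ℝ V]

/-- a Euclidean metric -/
structure PD (g : Bil V) : Prop where
  symm : ∀ u v, g u v = g v u
  pos : ∀ u, u ≠ 0 → 0 < g u u

namespace PD

variable {g : Bil V} (hg : PD g)

include hg

theorem nd : ND g := fun u hu => by
  by_contra h
  exact (hg.pos u h).ne' (hu u)

theorem nonneg (u : V) : 0 ≤ g u u := by
  by_cases h : u = 0
  · subst h; simp
  · exact (hg.pos u h).le

/-- the trace of a nonnegative operator -/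
theorem tc_nonneg {S : V →L[ℝ] V} (hS : ∀ v, 0 ≤ g (S v) v) : 0 ≤ tc S := by
  classical
  let B : LinearMap.BilinForm ℝ V :=
    LinearMap.mk₂ ℝ (fun u v => g u v) (fun a b c => by simp) (fun a b c => by simp)
      (fun a b c => by simp) (fun a b c => by simp)
  have hB : ∀ u v, B u v = g u v := fun _ _ => rfl
  have hs : LinearMap.IsSymm B := ⟨fun u v => by
    rw [hB, hB]; exact hg.symm u v⟩
  obtain ⟨e, he⟩ := LinearMap.BilinForm.exists_orthogonal_basis (B := B) hs
  have ho : ∀ i j, i ≠ j → g (e i) (e j) = 0 := fun i j hij => he hij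
  have hp : ∀ i, 0 < g (e i) (e i) := fun i => hg.pos _ (e.ne_zero i)
  have hc : ∀ (v : V) i, e.repr v i = g v (e i) / g (e i) (e i) := by
    intro v i
    rw [eq_div_iff (hp i).ne']
    conv_rhs => rw [← e.sum_repr v]
    rw [map_sum, sum_apply, Finset.sum_eq_single i]
    · simp
    · intro j _ hj
      simp [ho j i hj]
    · intro h
      exact absurd (Finset.mem_univ i) h
  unfold tc
  rw [LinearMap.trace_eq_matrix_trace ℝ e]
  unfold Matrix.trace
  refine Finset.sum_nonneg fun i _ => ?_
  rw [Matrix.diag_apply, LinearMap.toMatrix_apply, hc]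
  exact div_nonneg (hS (e i)) (hp i).le

/-- Cauchy-Schwarz -/
theorem cs (u v : V) : g u v ^ 2 ≤ g u u * g v v := by
  by_cases hv : v = 0
  · subst hv; simp
  · have h1 := hg.pos v hv
    have h2 := hg.nonneg (g v v • u - g u v • v)
    have h3 : g (g v v • u - g u v • v) (g v v • u - g u v • v) =
        g v v * (g u u * g v v - g u v ^ 2) := by
      simp only [map_sub, map_smul, sub_apply, smul_apply, smul_eq_mul]
      rw [hg.symm v u]
      ring
    rw [h3] at h2
    have h4 := nonneg_of_mul_nonneg_right h2 h1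
    linarith

/-- the adjoint relation for an alternating form -/
theorem WW_skew {w : Bil V} (hw : ∀ u v, w u v = - w v u) (u v : V) :
    g (WW g w u) v = - g u (WW g w v) := by
  rw [WW_spec hg.nd, hw, ← WW_spec hg.nd w v u, hg.symm]

theorem nsq_nonneg {w : Bil V} (hw : ∀ u v, w u v = - w v u) : 0 ≤ nsq g w := by
  have h1 : nsq g w = tc (-((WW g w).comp (WW g w))) := by
    rw [tc_neg]; rfl
  rw [h1]
  refine hg.tc_nonneg fun v => ?_
  have h2 := hg.WW_skew hw (WW g w v) v
  simp only [neg_apply, ContinuousLinearMap.comp_apply, map_neg]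
  rw [h2, neg_neg]
  exact hg.nonneg _

/-- `|W u|² ≤ |w|² |u|²` -/
theorem WW_le {w : Bil V} (hw : ∀ u v, w u v = - w v u) (u : V) :
    g (WW g w u) (WW g w u) ≤ nsq g w * g u u := by
  by_cases hu : u = 0
  · subst hu; simp
  · have hp := hg.pos u hu
    set W := WW g w with hW
    -- the projection to the orthogonal complement of `u`
    set P : V →L[ℝ] V := ContinuousLinearMap.id ℝ V -
      (1 / g u u) • ((g.flip u).smulRight u) with hP
    have hPa : ∀ v, P v = v - (g v u / g u u) • u := by
      intro v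
      simp only [hP, sub_apply, ContinuousLinearMap.id_apply, smul_apply,
        ContinuousLinearMap.smulRight_apply, ContinuousLinearMap.flip_apply, smul_smul]
      congr 2
      ring
    have hPs : ∀ a v, g (P a) v = g a (P v) := by
      intro a v
      rw [hPa, hPa]
      simp only [map_sub, map_smul, sub_apply, smul_apply, smul_eq_mul]
      rw [hg.symm u v]
      ring
    have hPP : ∀ v, P (P v) = P v := by
      intro v
      rw [hPa (P v), hPa v]
      have : g (v - (g v u / g u u) • u) u = 0 := by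
        simp only [map_sub, map_smul, sub_apply, smul_apply, smul_eq_mul]
        field_simp
        ring
      rw [this, zero_div, zero_smul, sub_zero]
    -- `S = - P W W P ≥ 0`
    have h1 : 0 ≤ tc (-(P.comp ((W.comp W).comp P))) := by
      refine hg.tc_nonneg fun v => ?_
      simp only [neg_apply, ContinuousLinearMap.comp_apply, map_neg]
      rw [hPs, hg.WW_skew hw (W (P v)) (P v), neg_neg]
      exact hg.nonneg _
    have h2 : tc (P.comp ((W.comp W).comp P)) = tc (W.comp W) - g (W (W u)) u / g u u := by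
      rw [tc_comp_comm]
      have h3 : ((W.comp W).comp P).comp P = (W.comp W).comp P := by
        ext v
        simp only [ContinuousLinearMap.comp_apply, hPP]
      rw [h3]
      have h4 : (W.comp W).comp P = W.comp W - (1 / g u u) • ((g.flip u).smulRight (W (W u))) := by
        ext v
        simp only [ContinuousLinearMap.comp_apply, hPa, map_sub, map_smul, sub_apply, smul_apply,
          ContinuousLinearMap.smulRight_apply, ContinuousLinearMap.flip_apply, smul_smul]
        congr 2
        ring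
      rw [h4, tc_sub, tc_smul]
      have h5 : tc ((g.flip u).smulRight (W (W u))) = g (W (W u)) u := by
        exact LinearMap.trace_smulRight ((g.flip u : V →L[ℝ] ℝ) : V →ₗ[ℝ] ℝ) (W (W u))
      rw [h5]
      ring
    rw [tc_neg, h2] at h1
    have h3 : nsq g w = - tc (W.comp W) := rfl
    have h4 : g (W (W u)) u = - g (W u) (W u) := hg.WW_skew hw (W u) u
    rw [h4] at h1
    have h5 : g (W u) (W u) / g u u ≤ nsq g w := by
      rw [h3]
      have : -g (W u) (W u) / g u u = - (g (W u) (W u) / g u u) := by ring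
      rw [this] at h1
      linarith
    rwa [div_le_iff₀ hp] at h5

/-- **the pointwise bound** -/
theorem abs_le {w : Bil V} (hw : ∀ u v, w u v = - w v u) (u v : V) :
    w u v ^ 2 ≤ nsq g w * g u u * g v v := by
  rw [← WW_spec hg.nd w u v]
  refine (hg.cs _ _).trans ?_
  exact mul_le_mul_of_nonneg_right (hg.WW_le hw u) (hg.nonneg v)

/-! ### one complex structure -/

theorem WW_om {J : V →L[ℝ] V} {om : Bil V} (hom : ∀ u v, om u v = g (J u) v) : WW g om = J :=
  (WW_unique hg.nd fun u v => (hom u v).symm).symm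

theorem nd_om {J : V →L[ℝ] V} (hJ : ∀ u, J (J u) = -u) {om : Bil V}
    (hom : ∀ u v, om u v = g (J u) v) : ND om := fun u hu => by
  have h1 : J u = 0 := hg.nd _ fun v => by rw [← hom]; exact hu v
  have h2 := hJ u
  rw [h1, map_zero] at h2
  simpa using h2.symm

theorem WW_om_w {J : V →L[ℝ] V} (hJ : ∀ u, J (J u) = -u) {om : Bil V}
    (hom : ∀ u v, om u v = g (J u) v) (w : Bil V) :
    WW om w = -(J.comp (WW g w)) := by
  symm
  refine WW_unique (hg.nd_om hJ hom) fun u v => ?_
  rw [hom]
  simp only [neg_apply, ContinuousLinearMap.comp_apply, map_neg, hJ, neg_neg]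
  exact WW_spec hg.nd w u v

theorem nin_om {J : V →L[ℝ] V} (hJ : ∀ u, J (J u) = -u) {om : Bil V}
    (hom : ∀ u v, om u v = g (J u) v) (w : Bil V) : tc (WW om w) = nin g om w := by
  rw [hg.WW_om_w hJ hom, tc_neg]
  unfold nin
  rw [hg.WW_om hom]

theorem WW_comm {J : V →L[ℝ] V} (hJ : ∀ u, J (J u) = -u) (hJs : ∀ u v, g (J u) v = - g u (J v))
    {w : Bil V} (hw : ∀ u v, w (J u) (J v) = w u v) (u : V) : WW g w (J u) = J (WW g w u) := by
  refine hg.nd.ext fun v => ?_
  rw [WW_spec hg.nd, hJs, WW_spec hg.nd]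
  have h1 := hw u (J v)
  rw [hJ, map_neg] at h1
  linarith

theorem tr_sq {J : V →L[ℝ] V} (hJ : ∀ u, J (J u) = -u) (hJs : ∀ u v, g (J u) v = - g u (J v))
    {om : Bil V} (hom : ∀ u v, om u v = g (J u) v)
    {w : Bil V} (hw : ∀ u v, w (J u) (J v) = w u v) :
    tc ((WW om w).comp (WW om w)) = nsq g w := by
  have h1 : (WW om w).comp (WW om w) = -((WW g w).comp (WW g w)) := by
    ext u
    rw [hg.WW_om_w hJ hom]
    simp only [neg_apply, ContinuousLinearMap.comp_apply, map_neg, neg_neg,
      hg.WW_comm hJ hJs hw, hJ]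
  rw [h1, tc_neg]
  rfl

theorem nsq_om {J : V →L[ℝ] V} (hJ : ∀ u, J (J u) = -u) {om : Bil V}
    (hom : ∀ u v, om u v = g (J u) v) : nsq g om = Module.finrank ℝ V := by
  unfold nsq nin
  rw [hg.WW_om hom]
  have h1 : J.comp J = - ContinuousLinearMap.id ℝ V := by
    ext u
    simp [hJ]
  rw [h1, tc_neg, tc_id, neg_neg]

omit hg in
/-- conjugating by a complex structure which anticommutes -/
theorem tc_anti {J J' A : V →L[ℝ] V} (hJ : ∀ u, J (J u) = -u)
    (hJJ : ∀ u, J (J' u) = - J' (J u)) (hA : ∀ u, A (J u) = J (A u)) : tc (J'.comp A) = 0 := by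
  have h1 : tc (J'.comp A) = - tc (J.comp ((J'.comp A).comp J)) := by
    rw [tc_comp_comm J]
    have : ((J'.comp A).comp J).comp J = -(J'.comp A) := by
      ext u
      simp [hJ]
    rw [this, tc_neg, neg_neg]
  have h2 : J.comp ((J'.comp A).comp J) = J'.comp A := by
    ext u
    simp only [ContinuousLinearMap.comp_apply, hA, hJJ, hJ, map_neg, neg_neg]
  rw [h2] at h1
  linarith

theorem nin_anti {J J' : V →L[ℝ] V} (hJ : ∀ u, J (J u) = -u)
    (hJs : ∀ u v, g (J u) v = - g u (J v))
    (hJJ : ∀ u, J (J' u) = - J' (J u)) {om' : Bil V} (hom' : ∀ u v, om' u v = g (J' u) v)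
    {w : Bil V} (hw : ∀ u v, w (J u) (J v) = w u v) : nin g om' w = 0 := by
  unfold nin
  rw [hg.WW_om hom', tc_anti hJ hJJ (hg.WW_comm hJ hJs hw), neg_zero]

theorem nin_om_om {J J' : V →L[ℝ] V} (hJ : ∀ u, J (J u) = -u)
    (hJJ : ∀ u, J (J' u) = - J' (J u)) {om om' : Bil V} (hom : ∀ u v, om u v = g (J u) v)
    (hom' : ∀ u v, om' u v = g (J' u) v) : nin g om' om = 0 := by
  unfold nin
  rw [hg.WW_om hom, hg.WW_om hom', tc_anti hJ hJJ (fun u => rfl), neg_zero]

/-! ### primitive forms -/

section prim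

variable {K : Type*} [Fintype K] [DecidableEq K]

theorem TP_nin (b : Module.Basis (K × Fin 2) ℝ V) {J : V →L[ℝ] V} (hJ : ∀ u, J (J u) = -u)
    {om : Bil V} (hom : ∀ u v, om u v = g (J u) v) (ha : ∀ u v, om u v = - om v u)
    {w : Bil V} (hw : ∀ u v, w u v = - w v u) (k0 : K) :
    2 * (Fintype.card K : ℝ) * TP b (Function.update (fun _ => om) k0 w) =
      nin g om w * TP b (fun _ => om) := by
  have h := TP_one b (hg.nd_om hJ hom) ha hw k0
  rw [hg.nin_om hJ hom] at h
  linarith

theorem TP_prim (b : Module.Basis (K × Fin 2) ℝ V) {J : V →L[ℝ] V} (hJ : ∀ u, J (J u) = -u)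
    (hJs : ∀ u v, g (J u) v = - g u (J v))
    {om : Bil V} (hom : ∀ u v, om u v = g (J u) v) (ha : ∀ u v, om u v = - om v u)
    {w : Bil V} (hw : ∀ u v, w u v = - w v u) (hi : ∀ u v, w (J u) (J v) = w u v)
    (hn : nin g om w = 0) {k0 k1 : K} (hk : k0 ≠ k1) :
    2 * (Fintype.card K : ℝ) * ((Fintype.card K : ℝ) - 1) *
        TP b (Function.update (Function.update (fun _ => om) k0 w) k1 w) =
      - (nsq g w * TP b (fun _ => om)) := by
  have h := TP_two b (hg.nd_om hJ hom) ha hw hk
  rw [hg.tr_sq hJ hJs hom hi, hg.nin_om hJ hom, hn] at h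
  linarith

end prim

end PD

end

end Crest.Agent.R281.Xi_831
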