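import Crest.Agent.R281.Xi2_831
import Crest.Agent.R281.Ti5_846

/-!
# Row 281, XI-L2, part 3 (helper831): the norm of a closed 2-form as a function on `X`

`H : HkT C` hyperkaehler triple, `w w' : F2 C`.

* `fT F hF D`    : the top form `F D`, `F : X → ℝ` continuous
* `ninX H w w'`, `nsX H w` : the pointwise inner product and norm, functions on `X`;
  `ninX_eq` (value in a chart), `ninX_sm`, `ninX_cont`
* `nsX_bound`    : `w(u,v)² ≤ nsX H w · g(u,u) · g(v,v)`
* `int_prim`     : `ψ` of type (1,1) for `J 0`, pointwise primitive :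
  `2 N (N-1) ∫ ψ² om₀^(N-2) = - ∫ nsX H ψ om₀^N`
-/

set_option autoImplicit false
set_option linter.unusedSectionVars false
set_option maxSynthPendingDepth 3

open Set Filter Topology MeasureTheory
open scoped ContDiff

namespace Crest.Agent.R281.Xi_831

open Crest.Agent.R281.HkR_835 Crest.Agent.R281.Ti_846

noncomputable section

variable {V X : Type} [NormedAddCommGroup V] [NormedSpace ℝ V] [FiniteDimensional ℝ V]
  [TopologicalSpace X] {C : RCh V X}

/-- multiplication of a top form by a continuous function -/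
def fT (F : X → ℝ) (hF : Continuous F) (D : TopF C) : TopF C where
  D i z := F ((C.e i).symm z) * D.D i z
  cont i := (hF.comp_continuousOn (C.e i).continuousOn_symm).mul (D.cont i)
  tr i j z hz := by
    have h1 : (C.e j).symm (C.t i j z) = (C.e i).symm z := (C.e j).left_inv hz.2
    rw [h1, D.tr i j z hz]
    ring

theorem fT_D (F : X → ℝ) (hF : Continuous F) (D : TopF C) (i : C.ι) (z : V) :
    (fT F hF D).D i z = F ((C.e i).symm z) * D.D i z := rfl

/-- the differential of a change of charts -/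
def dte (i j : C.ι) {z : V} (hz : z ∈ C.ov i j) : V ≃L[ℝ] V :=
  ContinuousLinearEquiv.equivOfInverse (fderiv ℝ (C.t i j) z) (fderiv ℝ (C.t j i) (C.t i j z))
    (fun v => RCh.dt_dt hz v) (fun v => RCh.dt_dt' hz v)

theorem dte_apply (i j : C.ι) {z : V} (hz : z ∈ C.ov i j) (v : V) :
    dte i j hz v = fderiv ℝ (C.t i j) z v := rfl

/-- smoothness of the pointwise product -/
theorem contDiffOn_nin {U : Set V} {g w w' : V → Bil V} (hU : IsOpen U)
    (hg : ContDiffOn ℝ ∞ g U) (hw : ContDiffOn ℝ ∞ w U) (hw' : ContDiffOn ℝ ∞ w' U)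
    (hnd : ∀ z ∈ U, ND (g z)) : ContDiffOn ℝ ∞ (fun z => nin (g z) (w z) (w' z)) U := by
  have h1 : ContDiffOn ℝ ∞ (fun z => ContinuousLinearMap.inverse (g z)) U := by
    intro z hz
    exact ((hnd z hz).inv.contDiffAt_map_inverse).comp_contDiffWithinAt z (hg z hz)
  have h2 : ContDiffOn ℝ ∞ (fun z => WW (g z) (w z)) U := h1.clm_comp hw
  have h3 : ContDiffOn ℝ ∞ (fun z => WW (g z) (w' z)) U := h1.clm_comp hw'
  have h4 : ContDiffOn ℝ ∞ (fun z => tcL ((WW (g z) (w z)).comp (WW (g z) (w' z)))) U :=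
    (tcL (V := V)).contDiff.comp_contDiffOn (h2.clm_comp h3)
  exact h4.neg

section hk

variable (H : HkT C)

theorem pdH {i : C.ι} {z : V} (hz : z ∈ (C.e i).target) : PD (H.g i z) :=
  ⟨H.g_symm i z hz, H.g_pos i z hz⟩

/-- the pointwise inner product of 2-forms -/
def ninX (w w' : F2 C) (x : X) : ℝ :=
  nin (H.g (C.cover x).choose (C.e (C.cover x).choose x))
    (w.w (C.cover x).choose (C.e (C.cover x).choose x))
    (w'.w (C.cover x).choose (C.e (C.cover x).choose x))

theorem ninX_eq' (w w' : F2 C) {i : C.ι} {x : X} (hx : x ∈ (C.e i).source) :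
    ninX H w w' x = nin (H.g i (C.e i x)) (w.w i (C.e i x)) (w'.w i (C.e i x)) := by
  set j := (C.cover x).choose with hj
  have hxj : x ∈ (C.e j).source := (C.cover x).choose_spec
  have hs : (C.e j).symm (C.e j x) = x := (C.e j).left_inv hxj
  have hz : C.e j x ∈ C.ov j i := ⟨(C.e j).map_source hxj, by rw [hs]; exact hx⟩
  have ht : C.t j i (C.e j x) = C.e i x := by
    show C.e i ((C.e j).symm (C.e j x)) = C.e i x
    rw [hs]
  have hz' := (RCh.t_mem hz).1
  rw [ht] at hz'
  show nin (H.g j (C.e j x)) (w.w j (C.e j x)) (w'.w j (C.e j x)) = _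
  refine nin_conj (pdH H hz').nd (dte j i hz) (fun u v => ?_) (fun u v => ?_) (fun u v => ?_)
  · rw [H.g_tr hz, ht]; rfl
  · rw [w.tr j i _ hz, ht]; rfl
  · rw [w'.tr j i _ hz, ht]; rfl

theorem ninX_eq (w w' : F2 C) {i : C.ι} {z : V} (hz : z ∈ (C.e i).target) :
    ninX H w w' ((C.e i).symm z) = nin (H.g i z) (w.w i z) (w'.w i z) := by
  rw [ninX_eq' H w w' ((C.e i).map_target hz), (C.e i).right_inv hz]

theorem ninX_sm (w w' : F2 C) (i : C.ι) :
    ContDiffOn ℝ ∞ (fun z => ninX H w w' ((C.e i).symm z)) (C.e i).target := by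
  refine (contDiffOn_nin (C.e i).open_target (H.g_sm i) (w.sm i) (w'.sm i)
    fun z hz => (pdH H hz).nd).congr fun z hz => ?_
  exact ninX_eq H w w' hz

theorem ninX_cont (w w' : F2 C) : Continuous (ninX H w w') := by
  rw [continuous_iff_continuousAt]
  intro x
  obtain ⟨i, hi⟩ := C.cover x
  have h1 : ContinuousAt (fun z => ninX H w w' ((C.e i).symm z)) (C.e i x) :=
    ((ninX_sm H w w' i).continuousOn).continuousAt
      ((C.e i).open_target.mem_nhds ((C.e i).map_source hi))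
  have h2 : ContinuousAt (fun y => ninX H w w' ((C.e i).symm (C.e i y))) x :=
    ContinuousAt.comp (f := C.e i) h1 ((C.e i).continuousAt hi)
  refine h2.congr ?_
  filter_upwards [(C.e i).open_source.mem_nhds hi] with y hy
  rw [(C.e i).left_inv hy]

/-- the pointwise norm -/
def nsX (w : F2 C) : X → ℝ := ninX H w w

theorem nsX_eq (w : F2 C) {i : C.ι} {z : V} (hz : z ∈ (C.e i).target) :
    nsX H w ((C.e i).symm z) = nsq (H.g i z) (w.w i z) := ninX_eq H w w hz

theorem nsX_nonneg (w : F2 C) (x : X) : 0 ≤ nsX H w x := by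
  obtain ⟨i, hi⟩ := C.cover x
  have hz := (C.e i).map_source hi
  have h1 := nsX_eq H w hz
  rw [(C.e i).left_inv hi] at h1
  rw [h1]
  exact (pdH H hz).nsq_nonneg (w.alt i _ hz)

theorem nsX_cont (w : F2 C) : Continuous (nsX H w) := ninX_cont H w w

/-- **pointwise bound** -/
theorem nsX_bound (w : F2 C) {i : C.ι} {z : V} (hz : z ∈ (C.e i).target) (u v : V) :
    w.w i z u v ^ 2 ≤ nsX H w ((C.e i).symm z) * H.g i z u u * H.g i z v v := by
  rw [nsX_eq H w hz]
  exact (pdH H hz).abs_le (w.alt i z hz) u v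

theorem ninX_comm (w w' : F2 C) (x : X) : ninX H w w' x = ninX H w' w x := nin_comm _ _ _

theorem ninX_add (w w' w'' : F2 C) (x : X) :
    ninX H w (w' + w'') x = ninX H w w' x + ninX H w w'' x := nin_add _ _ _ _

theorem ninX_smul (w : F2 C) (c : ℝ) (w' : F2 C) (x : X) :
    ninX H w (c • w') x = c * ninX H w w' x := nin_smul _ _ _ _

theorem nsX_add (w w' : F2 C) (x : X) :
    nsX H (w + w') x = nsX H w x + 2 * ninX H w w' x + nsX H w' x := nsq_add _ _ _

theorem nsX_smul (c : ℝ) (w : F2 C) (x : X) : nsX H (c • w) x = c ^ 2 * nsX H w x :=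
  nsq_smul _ _ _

theorem J_anti {k l : Fin 3} (hkl : k ≠ l) {i : C.ι} {z : V} (hz : z ∈ (C.e i).target) (u : V) :
    H.J k i z (H.J l i z u) = - H.J l i z (H.J k i z u) := by
  fin_cases k <;> fin_cases l <;> simp only [ne_eq, not_true_eq_false] at hkl
  · show H.J 0 i z (H.J 1 i z u) = - H.J 1 i z (H.J 0 i z u)
    rw [H.J_10 hz, H.J_01 i z hz, neg_neg]
  · show H.J 0 i z (H.J 2 i z u) = - H.J 2 i z (H.J 0 i z u)
    rw [H.J_02 hz, H.J_20 hz]
  · show H.J 1 i z (H.J 0 i z u) = - H.J 0 i z (H.J 1 i z u)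
    rw [H.J_10 hz, H.J_01 i z hz]
  · show H.J 1 i z (H.J 2 i z u) = - H.J 2 i z (H.J 1 i z u)
    rw [H.J_12 hz, H.J_21 hz, neg_neg]
  · show H.J 2 i z (H.J 0 i z u) = - H.J 0 i z (H.J 2 i z u)
    rw [H.J_02 hz, H.J_20 hz, neg_neg]
  · show H.J 2 i z (H.J 1 i z u) = - H.J 1 i z (H.J 2 i z u)
    rw [H.J_12 hz, H.J_21 hz]

theorem nsX_om (k : Fin 3) (x : X) : nsX H (H.om k) x = Module.finrank ℝ V := by
  obtain ⟨i, hi⟩ := C.cover x
  have hz := (C.e i).map_source hi
  have h1 := nsX_eq H (H.om k) hz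
  rw [(C.e i).left_inv hi] at h1
  rw [h1]
  exact (pdH H hz).nsq_om (H.J_sq k i _ hz) (H.om_eq k i _ hz)

theorem ninX_om_om {k l : Fin 3} (hkl : k ≠ l) (x : X) : ninX H (H.om k) (H.om l) x = 0 := by
  obtain ⟨i, hi⟩ := C.cover x
  have hz := (C.e i).map_source hi
  rw [ninX_eq' H _ _ hi]
  exact (pdH H hz).nin_om_om (J := H.J l i _) (J' := H.J k i _) (H.J_sq l i _ hz)
    (fun u => J_anti H (Ne.symm hkl) hz u) (H.om_eq l i _ hz) (H.om_eq k i _ hz)

/-- type (1,1) for `J 0` -/
def Inv0 (w : F2 C) : Prop := ∀ i, ∀ z ∈ (C.e i).target, ∀ u v,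
  w.w i z (H.J 0 i z u) (H.J 0 i z v) = w.w i z u v

theorem ninX_om_inv {k : Fin 3} (hk : k ≠ 0) {w : F2 C} (hw : Inv0 H w) (x : X) :
    ninX H (H.om k) w x = 0 := by
  obtain ⟨i, hi⟩ := C.cover x
  have hz := (C.e i).map_source hi
  rw [ninX_eq' H _ _ hi]
  exact (pdH H hz).nin_anti (J := H.J 0 i _) (J' := H.J k i _) (H.J_sq 0 i _ hz)
    (H.g_J' 0 hz) (fun u => J_anti H (Ne.symm hk) hz u) (H.om_eq k i _ hz) (hw i _ hz)

/-- the norm of the canonical representative -/
theorem nsX_rep {w : F2 C} (hw : Inv0 H w) (h0 : ∀ x, ninX H (H.om 0) w x = 0) (a b c : ℝ)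
    (x : X) : nsX H (a • H.om 0 + b • H.om 1 + c • H.om 2 + w) x =
      (a ^ 2 + b ^ 2 + c ^ 2) * Module.finrank ℝ V + nsX H w x := by
  have e1 : ninX H (a • H.om 0 + b • H.om 1 + c • H.om 2) w x = 0 := by
    rw [ninX_comm, ninX_add, ninX_add, ninX_smul, ninX_smul, ninX_smul, ninX_comm H w, h0,
      ninX_comm H w, ninX_om_inv H (by decide) hw, ninX_comm H w, ninX_om_inv H (by decide) hw]
    ring
  rw [nsX_add, e1, nsX_add, nsX_add, nsX_smul, nsX_smul, nsX_smul, nsX_om, nsX_om, nsX_om]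
  have e2 : ninX H (a • H.om 0 + b • H.om 1) (c • H.om 2) x = 0 := by
    rw [ninX_smul, ninX_comm, ninX_add, ninX_smul, ninX_smul, ninX_om_om H (by decide),
      ninX_om_om H (by decide)]
    ring
  have e3 : ninX H (a • H.om 0) (b • H.om 1) x = 0 := by
    rw [ninX_smul, ninX_comm, ninX_smul, ninX_om_om H (by decide)]
    ring
  rw [e2, e3]
  ring

section int

variable [MeasurableSpace V] [BorelSpace V] (μ : Measure V) [μ.IsAddHaarMeasure] [CompactSpace X]
  {K : Type} [Fintype K] [DecidableEq K] (b : Module.Basis (K × Fin 2) ℝ V) (P : RPart C)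

/-- **(1,1), primitive** -/
theorem int_prim {w : F2 C} (hw : Inv0 H w) (h0 : ∀ x, ninX H (H.om 0) w x = 0) {k0 k1 : K}
    (hk : k0 ≠ k1) :
    2 * (Fintype.card K : ℝ) * ((Fintype.card K : ℝ) - 1) *
      II μ b P (Function.update (Function.update (fun _ => H.om 0) k0 w) k1 w) =
    - intT μ P (fT (nsX H w) (nsX_cont H w) (TopF.of b fun _ => H.om 0)) := by
  have h1 := intT_sum μ P (Finset.univ : Finset (Fin 1))
    (fun _ => - (2 * (Fintype.card K : ℝ) * ((Fintype.card K : ℝ) - 1)))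
    (fun _ => TopF.of b (Function.update (Function.update (fun _ => H.om 0) k0 w) k1 w))
    (fT (nsX H w) (nsX_cont H w) (TopF.of b fun _ => H.om 0)) (fun i z hz => by
      rw [Fin.sum_univ_one, fT_D, TopF.of_D, TopF.of_D, nsX_eq H w hz]
      have h2 := (pdH H hz).TP_prim b (J := H.J 0 i z) (om := (H.om 0).w i z) (w := w.w i z)
        (H.J_sq 0 i z hz) (H.g_J' 0 hz) (H.om_eq 0 i z hz) ((H.om 0).alt i z hz)
        (w.alt i z hz) (hw i z hz) (by rw [← ninX_eq H _ _ hz]; exact h0 _) hk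
      have h3 : (fun k => (Function.update (Function.update (fun _ => H.om 0) k0 w) k1 w k).w i z) =
          Function.update (Function.update (fun _ => (H.om 0).w i z) k0 (w.w i z)) k1
            (w.w i z) := by
        rw [upd_w]
        congr 1
        exact upd_w (fun _ => H.om 0) k0 w i z
      rw [h3]
      linarith)
  rw [Fin.sum_univ_one] at h1
  rw [h1]
  show _ = - (- (2 * (Fintype.card K : ℝ) * ((Fintype.card K : ℝ) - 1)) *
    II μ b P (Function.update (Function.update (fun _ => H.om 0) k0 w) k1 w))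
  ring

end int

end hk

end

end Crest.Agent.R281.Xi_831
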