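import Crest.Agent.R281.Xi3_831
import Crest.Agent.R281.Ti8_846
import Crest.Agent.R281.Fuj3_207
import Crest.Agent.R281.FujP_513
import Crest.Agent.R273.CLinE_933

/-!
# Row 281, XI-L2, part 4 (helper831): primitive representatives on `(M, A : Atl n M)`

`K : Kah A`, `H : HkT (ofAtl A)` with `om 0` the form of `K` and `J 0` multiplication by `i`.

* `ninX_dc`     : `⟨om₀, dd^c v⟩ = 2 tr_K (i ∂∂̄ v)`
* `exists_prim` : every closed real (1,1)-form is `a om₀ + ψ + exact`, `ψ` pointwise primitive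
* `intT_fT`     : `∫ F om₀^n = 2^n n! ∫ F dvol`
* `prim_int`    : `2 n (n-1) ∫ ψ ψ om₀^(n-2) = - 2^n n! ∫ |ψ|²`
* `hodge`       : Hodge index (850 (h3), input of 207 `Fuj6_207.sig`)
-/

set_option autoImplicit false
set_option linter.unusedSectionVars false
set_option maxSynthPendingDepth 3

open Set Filter Topology MeasureTheory Complex
open scoped ContDiff Matrix ComplexConjugate ComplexOrder

namespace Crest.Agent.R281.Xi_831

open Crest.Agent.R281.HkR_835 Crest.Agent.R281.Ti_846 Crest.Agent.R281.Fuj3_207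
open Crest.Agent.R275.Geo Crest.Agent.R275.Core144
open Crest.Agent.R273.Defs_333 Crest.Agent.R273.Kah_333 Crest.Agent.R273.HM_333
open Crest.Agent.R273.Vol_333 Crest.Agent.R273.Vm_333
open Crest.Agent.R273.GreenM_5 (lapK lapK_ofReal trK_eq hsf_tn hsf_herm)
open Crest.Agent.R281.FujP_513 (mixv)

noncomputable section

variable {n : ℕ} {M : Type} [TopologicalSpace M] {A : Atl n M}

theorem finrank_Cn : (Module.finrank ℝ (Cn n) : ℝ) = 2 * n := by
  rw [Module.finrank_eq_card_basis (bc n)]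
  simp [mul_comm]

/-- compatibility of the triple with the complex manifold -/
structure Ad (K : Kah A) (H : HkT (ofAtl A)) : Prop where
  om0 : ∀ i, ∀ z ∈ (A.e i).target, (H.om 0).w i z = (ofKah K).f2.w i z
  J0 : ∀ i, ∀ z ∈ (A.e i).target, ∀ v, H.J 0 i z v = I • v

variable {K : Kah A} {H : HkT (ofAtl A)} (hA : Ad K H)

include hA

theorem Ad.inv0 {w : F2 (ofAtl A)}
    (hw : ∀ i, ∀ z ∈ (A.e i).target, ∀ u v, w.w i z (I • u) (I • v) = w.w i z u v) :
    Inv0 H w := fun i z hz u v => by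
  rw [hA.J0 i z hz, hA.J0 i z hz]
  exact hw i z hz u v

/-- pointwise inner product with `dd^c v` -/
theorem ninX_dc (hn : 2 ≤ n) {v : M → ℝ} (hv : A.Sm v) (x : M) :
    ninX H (H.om 0) (dcF1 v hv).d x = 2 * lapK K v x := by
  obtain ⟨i, hi⟩ := A.cover x
  have hz : A.e i x ∈ (A.e i).target := (A.e i).map_source hi
  have hx : (A.e i).symm (A.e i x) = x := (A.e i).left_inv hi
  set k0 : Fin n := ⟨0, by omega⟩ with hk0
  set l0 : Fin n := ⟨1, by omega⟩ with hl0
  have hkl : k0 ≠ l0 := by simp [hk0, hl0, Fin.ext_iff]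
  have h1 := (pdH H hz).TP_nin (bc n) (J := H.J 0 i (A.e i x)) (om := (H.om 0).w i (A.e i x))
    (w := ((dcF1 v hv).d).w i (A.e i x)) (H.J_sq 0 i _ hz) (H.om_eq 0 i _ hz)
    ((H.om 0).alt i _ hz) (((dcF1 v hv).d).alt i _ hz) k0
  have h0' : ninX H (H.om 0) (dcF1 v hv).d x = nin (H.g i (A.e i x)) ((H.om 0).w i (A.e i x))
    (((dcF1 v hv).d).w i (A.e i x)) := ninX_eq' H _ _ hi
  rw [← h0'] at h1
  -- the left side
  have h0 : (K.g i x).det ≠ 0 := (K.pos i x hi).det_pos.ne'
  have h2 : ((TP (bc n) (Function.update (fun _ => (H.om 0).w i (A.e i x)) k0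
      (((dcF1 v hv).d).w i (A.e i x))) : ℝ) : ℂ) =
      2 ^ n * Ti_846.MD (Function.update (fun _ => K.g i x) k0 (hsf A v i x)) := by
    refine TP_herm (fun k => ?_) (fun k u w => ?_)
    · by_cases hk : k = k0
      · subst hk
        rw [Function.update_self]
        exact hsf_herm hv hi
      · rw [Function.update_of_ne hk]
        exact (K.pos i x hi).isHermitian
    · by_cases hk : k = k0
      · subst hk
        rw [Function.update_self, Function.update_self]
        have := dcF1_d v hv hz u w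
        rw [hx] at this
        exact this
      · rw [Function.update_of_ne hk, Function.update_of_ne hk, hA.om0 i _ hz,
          (ofKah K).f2_w hz, hx]
        rfl
  rw [MD_two hkl (isUnit_iff_ne_zero.2 h0) (fun j h3 _ => Function.update_of_ne h3 _ _),
    Function.update_self, Function.update_of_ne (Ne.symm hkl), Matrix.nonsing_inv_mul _
    (isUnit_iff_ne_zero.2 h0), Matrix.mul_one, Matrix.trace_one, Fintype.card_fin] at h2
  have h3 : (((K.g i x)⁻¹ * hsf A v i x).trace : ℂ) = ((lapK K v x : ℝ) : ℂ) := by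
    rw [lapK_ofReal K hv, trK_eq K (hsf_tn hv) hi]
  rw [h3, ← volK_w K i hi] at h2
  have h4 : TP (bc n) (Function.update (fun _ => (H.om 0).w i (A.e i x)) k0
      (((dcF1 v hv).d).w i (A.e i x))) =
      2 ^ n * ((n - 2).factorial * (volK K).w i x * (lapK K v x * n - lapK K v x)) := by
    exact_mod_cast h2
  have h5 : TP (bc n) (fun _ => (H.om 0).w i (A.e i x)) =
      2 ^ n * n.factorial * (volK K).w i x := by
    rw [hA.om0 i _ hz]
    exact TP_kah K hi
  rw [h4, h5, Fintype.card_fin] at h1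
  have h6 : (n.factorial : ℝ) = n * (n - 1) * (n - 2).factorial := by
    obtain ⟨m, rfl⟩ : ∃ m, n = m + 2 := ⟨n - 2, by omega⟩
    rw [Nat.factorial_succ, Nat.factorial_succ]
    push_cast
    ring
  have h7 : (0 : ℝ) < (volK K).w i x := (volK K).pos i x hi
  have h8 : (0 : ℝ) < (n - 2).factorial := by exact_mod_cast Nat.factorial_pos _
  have h9 : (2 : ℝ) ≤ n := by exact_mod_cast hn
  rw [h6] at h1
  have h10 : (0 : ℝ) < 2 ^ n * (n * (n - 1) * (n - 2).factorial) * (volK K).w i x := by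
    have : (0 : ℝ) < n - 1 := by linarith
    positivity
  have h11 : (2 ^ n * (n * (n - 1) * (n - 2).factorial) * (volK K).w i x) *
      (2 * lapK K v x) = (2 ^ n * (n * (n - 1) * (n - 2).factorial) * (volK K).w i x) *
      ninX H (H.om 0) (dcF1 v hv).d x := by
    linear_combination h1
  exact (mul_left_cancel₀ h10.ne' h11).symm

theorem ninX_sub (w w' w'' : F2 (ofAtl A)) (x : M) :
    ninX H w (w' - w'') x = ninX H w w' x - ninX H w w'' x := by
  have h := ninX_add H w (w' - w'') w'' x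
  rw [sub_add_cancel] at h
  linarith

/-- **primitive representatives** -/
theorem exists_prim [T2Space M] [CompactSpace M] [ConnectedSpace M] [Finite A.ι] (P : Part A)
    (hn : 2 ≤ n) (y : F2 (ofAtl A))
    (hy : ∀ i, ∀ z ∈ (A.e i).target, ∀ u v, y.w i z (I • u) (I • v) = y.w i z u v) :
    ∃ (a : ℝ) (ψ : F2 (ofAtl A)), (∀ i, ∀ z ∈ (A.e i).target, ∀ u v,
      ψ.w i z (I • u) (I • v) = ψ.w i z u v) ∧ (∀ x, ninX H (H.om 0) ψ x = 0) ∧
      y - (a • H.om 0 + ψ) ∈ exS (ofAtl A) := by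
  have hf : A.Sm (fun x => (1 / 2 : ℝ) * ninX H (H.om 0) y x) := fun i =>
    contDiffOn_const.mul (ninX_sm H (H.om 0) y i)
  obtain ⟨v, m, hv, he⟩ := Crest.Agent.R273.CLin_933.lin_kah K P hf
  have hn0 : (0 : ℝ) < n := by
    have : (2 : ℝ) ≤ n := by exact_mod_cast hn
    linarith
  refine ⟨m / n, y - (dcF1 v hv).d - (m / n) • H.om 0, ?_, ?_, ?_⟩
  · intro i z hz u w
    have h1 := hy i z hz u w
    have h2 : ∀ a b, ((dcF1 v hv).d).w i z a b = (I * hb (hsf A v i ((A.e i).symm z)) a b).re :=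
      fun a b => dcF1_d v hv hz a b
    have h3 := (ofKah K).f2_inv hz u w
    rw [← hA.om0 i z hz] at h3
    have h4 : ∀ a b, (y - (dcF1 v hv).d - (m / n) • H.om 0).w i z a b =
        y.w i z a b - ((dcF1 v hv).d).w i z a b - (m / n) * (H.om 0).w i z a b :=
      fun a b => rfl
    rw [h4, h4, h1, h2, h2, h3, hb_I_left, hb_I_right]
    congr 3
    linear_combination (-hb (hsf A v i ((A.e i).symm z)) u w) * I * I_mul_I
  · intro x
    rw [ninX_sub hA, ninX_sub hA, ninX_dc hA hn hv, he, ninX_smul]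
    have h4 : ninX H (H.om 0) (H.om 0) x = 2 * n := by
      rw [← finrank_Cn (n := n)]
      exact nsX_om H 0 x
    rw [h4]
    field_simp
    ring
  · have h5 : y - ((m / n) • H.om 0 + (y - (dcF1 v hv).d - (m / n) • H.om 0)) =
        (dcF1 v hv).d := by abel
    rw [h5]
    exact ⟨dcF1 v hv, F1.isD _⟩

section int

variable [CompactSpace M] [MeasurableSpace M] [BorelSpace M] [Countable A.ι] (P : RPart (ofAtl A))

theorem intT_fT (F : M → ℝ) (hF : Continuous F) :
    intT (lc n) P (fT F hF (TopF.of (bc n) fun _ => H.om 0)) =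
      2 ^ n * n.factorial * ∫ x, F x ∂(vm (volK K)) := by
  rw [intT_eq (volK K), ← integral_const_mul]
  congr 1
  funext x
  obtain ⟨i, hi⟩ := A.cover x
  have h1 := (fT F hF (TopF.of (bc n) fun _ => H.om 0)).fn_eq (volK K) hi
  have h2 : (fT F hF (TopF.of (bc n) fun _ => H.om 0)).D i (A.e i x) =
      F x * (2 ^ n * n.factorial * (volK K).w i x) := by
    have h3 : ((ofAtl A).e i).symm (A.e i x) = x := (A.e i).left_inv hi
    show F (((ofAtl A).e i).symm (A.e i x)) * TP (bc n) (fun _ => (H.om 0).w i (A.e i x)) = _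
    rw [h3, hA.om0 i _ ((A.e i).map_source hi), TP_kah K hi]
  rw [h2] at h1
  have h7 : (0 : ℝ) < (volK K).w i x := (volK K).pos i x hi
  have h3 : (volK K).w i x * (2 ^ n * n.factorial * F x) = (volK K).w i x *
      (fT F hF (TopF.of (bc n) fun _ => H.om 0)).fn (volK K) x := by
    linear_combination h1
  exact (mul_left_cancel₀ h7.ne' h3).symm

theorem prim_int {ψ : F2 (ofAtl A)} (h11 : ∀ i, ∀ z ∈ (A.e i).target, ∀ u v,
      ψ.w i z (I • u) (I • v) = ψ.w i z u v) (h0 : ∀ x, ninX H (H.om 0) ψ x = 0) {k0 k1 : Fin n}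
    (hk : k0 ≠ k1) :
    2 * (n : ℝ) * ((n : ℝ) - 1) * II (lc n) (bc n) P (Function.update (Function.update
      (fun _ => H.om 0) k0 ψ) k1 ψ) =
    - (2 ^ n * n.factorial * ∫ x, nsX H ψ x ∂(vm (volK K))) := by
  have h1 := int_prim H (lc n) (bc n) P (hA.inv0 h11) h0 hk
  rw [Fintype.card_fin, intT_fT hA P _ (nsX_cont H ψ)] at h1
  exact h1

end int

end

end Crest.Agent.R281.Xi_831
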