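import Crest.Agent.R281.Xi4_831
import Crest.Agent.R281.Fuj7_207

/-!
# Row 281, XI-L2, part 5 (helper831): intersection numbers of primitive forms

`A : Atl d M`, `d = n + n`, `K`, `H`, `Ad K H`, `T := IM (lc d) (bn hd) P`.

* `T_prim1` : `T (mixv 1 om₀ ψ) = 0`
* `T_om`    : `T (om₀, .., om₀) = 2^d d! vol(K)`
* `T_prim2` : `2 d (d-1) T (mixv 2 om₀ ψ) = - 2^d d! ∫ |ψ|²`
-/

set_option autoImplicit false
set_option linter.unusedSectionVars false
set_option maxSynthPendingDepth 3

open Set Filter Topology MeasureTheory Complex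
open scoped ContDiff Matrix ComplexConjugate ComplexOrder

namespace Crest.Agent.R281.Xi_831

open Crest.Agent.R281.HkR_835 Crest.Agent.R281.Ti_846
open Crest.Agent.R275.Geo Crest.Agent.R275.Core144
open Crest.Agent.R273.Defs_333 Crest.Agent.R273.Kah_333 Crest.Agent.R273.HM_333
open Crest.Agent.R273.Vol_333 Crest.Agent.R273.Vm_333
open Crest.Agent.R281.FujP_513 (mixv)
open Crest.Agent.R281.Fuj7_207 (bn bn_rfl)

noncomputable section

section zero

variable {V X : Type} [NormedAddCommGroup V] [NormedSpace ℝ V] [FiniteDimensional ℝ V]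
  [TopologicalSpace X] {C : RCh V X} (H : HkT C) [MeasurableSpace V] [BorelSpace V]
  (μ : Measure V) [μ.IsAddHaarMeasure] [CompactSpace X]
  {κ : Type} [Fintype κ] [DecidableEq κ] (b : Module.Basis (κ × Fin 2) ℝ V) (P : RPart C)

theorem int_prim1 {w : F2 C} (h0 : ∀ x, ninX H (H.om 0) w x = 0) (k0 : κ) :
    II μ b P (Function.update (fun _ => H.om 0) k0 w) = 0 := by
  have hc : (0 : ℝ) < Fintype.card κ := by exact_mod_cast Fintype.card_pos_iff.2 ⟨k0⟩
  unfold II intT
  refine Finset.sum_eq_zero fun k _ => ?_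
  refine setIntegral_eq_zero_of_forall_eq_zero fun z hz => ?_
  have h2 := (pdH H hz).TP_nin b (J := H.J 0 (P.c k) z) (om := (H.om 0).w (P.c k) z)
    (w := w.w (P.c k) z) (H.J_sq 0 _ z hz) (H.om_eq 0 _ z hz) ((H.om 0).alt _ z hz)
    (w.alt _ z hz) k0
  rw [← ninX_eq H _ _ hz, h0, zero_mul] at h2
  have h3 : TP b (Function.update (fun _ => (H.om 0).w (P.c k) z) k0 (w.w (P.c k) z)) = 0 := by
    rcases mul_eq_zero.1 h2 with h | h
    · linarith
    · exact h
  have h4 : (TopF.of b (Function.update (fun _ => H.om 0) k0 w)).D (P.c k) z =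
      TP b (Function.update (fun _ => (H.om 0).w (P.c k) z) k0 (w.w (P.c k) z)) := by
    rw [TopF.of_D, upd_w]
  rw [h4, h3, mul_zero]

end zero

theorem mixv_one_upd {E : Type*} {n : ℕ} (hn : 1 ≤ n) (x y : E) :
    mixv (n + n) 1 x y = Function.update (fun _ => x) (⟨0, by omega⟩ : Fin (n + n)) y := by
  funext i
  unfold mixv
  by_cases h : i = ⟨0, by omega⟩
  · subst h
    simp
  · rw [Function.update_of_ne h, if_neg]
    intro h1
    apply h
    ext
    simp only
    omega

theorem mixv_two_upd {E : Type*} {n : ℕ} (hn : 1 ≤ n) (x y : E) :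
    mixv (n + n) 2 x y = Function.update (Function.update (fun _ => x)
      (⟨0, by omega⟩ : Fin (n + n)) y) (⟨1, by omega⟩ : Fin (n + n)) y := by
  funext i
  unfold mixv
  by_cases h : i = ⟨1, by omega⟩
  · subst h
    simp
  · rw [Function.update_of_ne h]
    by_cases h2 : i = ⟨0, by omega⟩
    · subst h2
      simp
    · rw [Function.update_of_ne h2, if_neg]
      intro h1
      have h3 : (i : ℕ) = 0 ∨ (i : ℕ) = 1 := by omega
      rcases h3 with h3 | h3
      · exact h2 (Fin.ext h3)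
      · exact h (Fin.ext h3)

variable {d n : ℕ} {M : Type} [TopologicalSpace M] {A : Atl d M} {K : Kah A}
  {H : HkT (ofAtl A)} (hA : Ad K H) (hd : d = n + n) (hn : 1 ≤ n) (P : RPart (ofAtl A))
  [CompactSpace M]

include hn in
theorem T_prim1 {ψ : F2 (ofAtl A)} (h0 : ∀ x, ninX H (H.om 0) ψ x = 0) :
    IM (lc d) (bn hd) P (mixv (n + n) 1 (H.om 0) ψ) = 0 := by
  rw [mixv_one_upd hn]
  exact int_prim1 H (lc d) (bn hd) P h0 _

variable [MeasurableSpace M] [BorelSpace M] [Countable A.ι]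

include hA in
theorem T_om : IM (lc d) (bn hd) P (fun _ => H.om 0) =
    2 ^ d * d.factorial * (vm (volK K)).real univ := by
  subst hd
  rw [bn_rfl]
  have h1 := intT_fT hA P (fun _ => 1) continuous_const
  rw [integral_const, smul_eq_mul, mul_one] at h1
  rw [← h1]
  show intT _ _ _ = intT _ _ _
  unfold intT
  refine Finset.sum_congr rfl fun k _ => setIntegral_congr_fun
    ((ofAtl A).e (P.c k)).open_target.measurableSet fun z hz => ?_
  show _ = P.ψ k (((ofAtl A).e (P.c k)).symm z) *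
    (1 * (TopF.of (bc (n + n)) fun _ => H.om 0).D (P.c k) z)
  rw [one_mul]

include hA hn in
theorem T_prim2 {ψ : F2 (ofAtl A)} (h11 : ∀ i, ∀ z ∈ (A.e i).target, ∀ u v,
      ψ.w i z (I • u) (I • v) = ψ.w i z u v) (h0 : ∀ x, ninX H (H.om 0) ψ x = 0) :
    2 * (d : ℝ) * ((d : ℝ) - 1) * IM (lc d) (bn hd) P (mixv (n + n) 2 (H.om 0) ψ) =
      - (2 ^ d * d.factorial * ∫ x, nsX H ψ x ∂(vm (volK K))) := by
  subst hd
  rw [bn_rfl, mixv_two_upd hn]
  exact prim_int hA P h11 h0 (by simp [Fin.ext_iff])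

end

end Crest.Agent.R281.Xi_831
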