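import Crest.Agent.R281.Xi5_831
import Crest.Agent.R281.RkE_902
import Crest.Agent.R281.Mem1_69
import Crest.Agent.R281.FujSig_358

/-!
# Row 281, XI-L2 (helper831), the theorem

`Ctx n C Q`, `H : HkT C`, `MemK H A K σ h` : for every closed form `w` on `C` there is a closed form
`w'` on `ofAtl A` cohomologous to `h.F w` and a continuous function `F = |w'|² ≥ 0` with
`w'(u,v)² ≤ F |u|² |v|²` and

  `∫ F dvol = 4 n (2 ∑ a_k² - Q(w,w)/Q(om₀,om₀)) vol(K)`, `a_k = Q(w,om_k)/Q(om₀,om₀)`.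
-/

set_option autoImplicit false
set_option linter.unusedSectionVars false
set_option maxSynthPendingDepth 3

open Set Filter Topology MeasureTheory Complex
open scoped ContDiff Matrix ComplexConjugate ComplexOrder

namespace Crest.Agent.R281.Xi_831

open Crest.Agent.R281.HkR_835 Crest.Agent.R281.Ti_846
open Crest.Agent.R275.Geo Crest.Agent.R275.Core144
open Crest.Agent.R273.Defs_333 Crest.Agent.R273.Kah_333 Crest.Agent.R273.HM_333
open Crest.Agent.R273.Vol_333 Crest.Agent.R273.Vm_333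
open Crest.Agent.R281.FujP_513 (mixv Symm)
open Crest.Agent.R281.Fuj7_207 (bn bn_rfl)
open Crest.Agent.R281.FujSig_358 (first_polar' second_polar)
open Crest.Agent.R281.RkD_902 (Ctx)
open Crest.Agent.R281.Alg_998 (Cl)
open Crest.Agent.R281.Mem_69 (MemK)
open Crest.Agent.R281.Defs_273 (HSymp)
open Crest.Agent.R281.Nef_252 (T11)
open Crest.Agent.R281.Al_830 (TopI IsI)
open Crest.Agent.R281.Dif_268 (Eqv)

noncomputable section

section gen

variable {X : Type} [TopologicalSpace X]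

theorem eqv_exS {V : Type} [NormedAddCommGroup V] [NormedSpace ℝ V] [FiniteDimensional ℝ V]
    [MeasurableSpace V] [BorelSpace V] {C : RCh V X} {w w' : F2 C} (h : Eqv w w') : w - w' ∈ exS C :=
  Alg_998.Cl.of_eq_on fun i z hz =>
    ContinuousLinearMap.ext fun u => ContinuousLinearMap.ext fun v => h i z hz u v

theorem II_bn [CompactSpace X] {d n : ℕ} (hd : d = n + n) {C : RCh (Cn d) X} (P : RPart C)
    (w : F2 C) : II (lc d) (bn hd) P (fun _ => w) = II (lc d) (bc d) P (fun _ => w) := by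
  subst hd
  rw [bn_rfl]

variable {d : ℕ} {A : Atl d X} {K : Kah A} {C : RCh (Cn d) X} {H : HkT C} {σ : HSymp A}
  {h : Cmp C (ofAtl A)}

theorem MemK_isI (m : MemK H A K σ h) : IsI (NefO_476.ofHk H 0) A := fun i j _ hz v =>
  ((m.cp j).lin' (i := i) hz v).symm

theorem MemK_ad (m : MemK H A K σ h) : Ad K (h.hk H) :=
  ⟨fun i z hz => ContinuousLinearMap.ext fun u => ContinuousLinearMap.ext fun v =>
    m.om0 i z hz u v, fun i _ hz v => hk_J_I m.cp i hz v⟩

/-- the metric of the triple is the Kaehler metric -/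
theorem Ad.g_eq {H' : HkT (ofAtl A)} (hA : Ad K H') {i : A.ι} {x : X} (hx : x ∈ (A.e i).source)
    (u : Cn d) : H'.g i (A.e i x) u u = (hb (K.g i x) u u).re := by
  have hz : A.e i x ∈ (A.e i).target := (A.e i).map_source hx
  have h1 := H'.om_eq 0 i (A.e i x) hz (I • u) u
  rw [hA.J0 i _ hz, smul_smul, I_mul_I, hA.om0 i _ hz, (ofKah K).f2_w hz, (A.e i).left_inv hx,
    hb_I_left] at h1
  have h2 : H'.g i (A.e i x) ((-1 : ℂ) • u) u = - H'.g i (A.e i x) u u := by
    have : (-1 : ℂ) • u = -u := by simp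
    rw [this, map_neg, neg_apply]
  rw [h2, ← mul_assoc, I_mul_I] at h1
  have h3 : (ofKah K).g i x = K.g i x := rfl
  rw [h3, neg_one_mul, neg_re] at h1
  linarith

end gen

section main

variable {n : ℕ} {X : Type} [TopologicalSpace X] [CompactSpace X] [T2Space X] [ConnectedSpace X]
  [MeasurableSpace X] [BorelSpace X]
  {C : RCh (Cn (2 * n)) X} {Q : F2 C →ₗ[ℝ] F2 C →ₗ[ℝ] ℝ} (hX : Ctx n C Q) {H : HkT C}
  (hp : 0 < Q (H.om 0) (H.om 0)) {A : Atl (2 * n) X} [Finite A.ι] (PA : Part A) {K : Kah A}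
  {σ : HSymp A} {h : Cmp C (ofAtl A)} (m : MemK H A K σ h)

include hX hp PA m in
/-- **XI-L2** -/
theorem xi (w : F2 C) : ∃ w' : F2 (ofAtl A), w' - h.F w ∈ exS (ofAtl A) ∧
    (∀ x, 0 ≤ nsX (h.hk H) w' x) ∧ Continuous (nsX (h.hk H) w') ∧
    (∀ i, ∀ x ∈ (A.e i).source, ∀ u v, w'.w i (A.e i x) u v ^ 2 ≤
      nsX (h.hk H) w' x * (hb (K.g i x) u u).re * (hb (K.g i x) v v).re) ∧
    ∫ x, nsX (h.hk H) w' x ∂(vm (volK K)) =
      4 * n * (2 * ∑ k : Fin 3, (Q w (H.om k) / Q (H.om 0) (H.om 0)) ^ 2 -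
        Q w w / Q (H.om 0) (H.om 0)) * (vm (volK K)).real univ := by
  obtain ⟨P, q, κ, hκ, hT, hQ⟩ := hX.top
  obtain ⟨P'⟩ := nonempty_RPart (ofAtl A)
  have hn : 1 ≤ n := hX.n1
  have hd2 : 2 ≤ 2 * n := by omega
  have hA := MemK_ad m
  set H' := h.hk H with hH'
  set q0 := Q (H.om 0) (H.om 0) with hq0
  have hq00 : q0 ≠ 0 := hp.ne'
  -- the form `q`
  have hqq : ∀ x, Q x x = 2 * κ * q x := fun x => by
    rw [hQ, QuadraticMap.polar_self, nsmul_eq_mul]
    push_cast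
    ring
  have hqp : 0 < q (H.om 0) := by
    have h1 : 0 < 2 * κ * q (H.om 0) := by rw [← hqq]; exact hp
    exact pos_of_mul_pos_right h1 (by positivity)
  -- orientation
  have hII : 0 < II (lc (2 * n)) (bc (2 * n)) P (fun _ => H.om 0) := by
    rw [← II_bn (two_mul n)]
    have := hT.fuj (H.om 0)
    rw [IM_apply] at this
    rw [this]
    exact pow_pos hqp n
  have ho := m.oriM hT.ori P hII
  have hTC : ∀ (v : Fin (n + n) → F2 C), IM (lc (2 * n)) (bn (two_mul n)) P' (fun k => h.F (v k)) =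
      IM (lc (2 * n)) (bn (two_mul n)) P v := fun v =>
    II_cmp (lc (2 * n)) (bn (two_mul n)) h ho P P' v
  have hS : Symm (IM (lc (2 * n)) (bn (two_mul n)) P) := fun s v => IM_perm _ _ _ s v
  -- coefficients
  set a : Fin 3 → ℝ := fun k => Q w (H.om k) / q0 with ha
  set w1 : F2 C := w - (a 0 • H.om 0 + a 1 • H.om 1 + a 2 • H.om 2) with hw1
  have hQe : ∀ k, Q (H.om k) (H.om k) = q0 := fun k => hX.eq H k
  have hQo : ∀ k l, k ≠ l → Q (H.om k) (H.om l) = 0 := fun k l hkl => hX.ort H k l hkl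
  have hak : ∀ k, Q w (H.om k) = a k * q0 := fun k => by rw [ha]; field_simp
  have hw1k : ∀ k, Q w1 (H.om k) = 0 := by
    intro k
    rw [hw1]
    simp only [map_sub, map_add, map_smul, LinearMap.sub_apply, LinearMap.add_apply,
      LinearMap.smul_apply, smul_eq_mul]
    rw [hak]
    fin_cases k
    · show a 0 * q0 - (a 0 * Q (H.om 0) (H.om 0) + a 1 * Q (H.om 1) (H.om 0) +
        a 2 * Q (H.om 2) (H.om 0)) = 0
      rw [hQe, hQo 1 0 (by decide), hQo 2 0 (by decide)]; ring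
    · show a 1 * q0 - (a 0 * Q (H.om 0) (H.om 1) + a 1 * Q (H.om 1) (H.om 1) +
        a 2 * Q (H.om 2) (H.om 1)) = 0
      rw [hQe, hQo 0 1 (by decide), hQo 2 1 (by decide)]; ring
    · show a 2 * q0 - (a 0 * Q (H.om 0) (H.om 2) + a 1 * Q (H.om 1) (H.om 2) +
        a 2 * Q (H.om 2) (H.om 2)) = 0
      rw [hQe, hQo 0 2 (by decide), hQo 1 2 (by decide)]; ring
  obtain ⟨y, hy, hy11⟩ := hX.t11 H hp w1 (hw1k 1) (hw1k 2)
  obtain ⟨a', ψ, hψ11, hψ0, hψe⟩ := exists_prim hA PA hd2 (h.F y)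
    ((MemK_isI m).t11 h hy11)
  -- back on `C`
  set ψ0 : F2 C := h.symm.F ψ with hψ0'
  have hψψ : Eqv (h.F ψ0) ψ := F_F h.symm ψ
  have hyC : Cl y (a' • H.om 0 + ψ0) := by
    have h1 : Ex (h.symm.F (h.F y - (a' • H'.om 0 + ψ))) := ex_F h.symm hψe
    have e1 : Eqv (h.symm.F (h.F y - (a' • H'.om 0 + ψ)))
        (h.symm.F (h.F y) - h.symm.F (a' • H'.om 0 + ψ)) := F_sub h.symm _ _
    have e2 : Eqv (h.symm.F (a' • H'.om 0 + ψ)) (a' • H.om 0 + ψ0) := by
      intro i z hz u v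
      obtain ⟨j, hj⟩ := Cmp.exists_mov (C' := C) (ofAtl A) (j := i) hz
      have e3 := F_F h (H.om 0) i z hz u v
      rw [h.symm.F_w _ hj] at e3 ⊢
      have e4 : (a' • H.om 0 + ψ0).w i z u v = a' * (H.om 0).w i z u v + ψ0.w i z u v := rfl
      rw [e4, hψ0', h.symm.F_w ψ hj, ← e3]
      rfl
    have e3 : Cl (h.symm.F (h.F y)) y := eqv_exS (F_F h y)
    have e4 : Cl (h.symm.F (a' • H'.om 0 + ψ)) (a' • H.om 0 + ψ0) := eqv_exS e2
    have e5 : Cl (h.symm.F (h.F y)) (h.symm.F (a' • H'.om 0 + ψ)) := by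
      have e6 : Cl (h.symm.F (h.F y - (a' • H'.om 0 + ψ)))
        (h.symm.F (h.F y) - h.symm.F (a' • H'.om 0 + ψ)) := eqv_exS e1
      have e7 := (exS C).sub_mem h1 e6
      have e8 : h.symm.F (h.F y - (a' • H'.om 0 + ψ)) - (h.symm.F (h.F y - (a' • H'.om 0 + ψ)) -
        (h.symm.F (h.F y) - h.symm.F (a' • H'.om 0 + ψ))) =
        h.symm.F (h.F y) - h.symm.F (a' • H'.om 0 + ψ) := by abel
      rw [e8] at e7
      exact e7
    exact (e3.symm.trans e5).trans e4
  -- intersection numbers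
  have hmix : ∀ c : ℕ, IM (lc (2 * n)) (bn (two_mul n)) P (mixv (n + n) c (H.om 0) ψ0) =
      IM (lc (2 * n)) (bn (two_mul n)) P' (mixv (n + n) c (H'.om 0) ψ) := by
    intro c
    rw [← hTC]
    refine IM_coh _ _ _ (ori_ofAtl A) fun k => ?_
    unfold mixv
    split_ifs
    · exact eqv_exS hψψ
    · exact eqv_exS (Eqv.refl (h.F (H.om 0)))
  have hpol : QuadraticMap.polar q (H.om 0) ψ0 = 0 := by
    have h1 := first_polar' (by omega) hS hT.fuj (H.om 0) ψ0
    rw [hmix, T_prim1 (two_mul n) hn P' hψ0, mul_zero] at h1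
    exact (mul_eq_zero.1 h1.symm).resolve_left (pow_pos hqp _).ne'
  have hQ0 : Q (H.om 0) ψ0 = 0 := by rw [hQ, hpol, mul_zero]
  have hQy : ∀ k, Q y (H.om k) = 0 := fun k => by rw [hX.cl_left hy]; exact hw1k k
  have ha' : a' = 0 := by
    have h1 := hQy 0
    rw [hX.cl_left hyC] at h1
    simp only [map_add, map_smul, LinearMap.add_apply, LinearMap.smul_apply, smul_eq_mul] at h1
    rw [hX.symm ψ0 (H.om 0), hQ0, add_zero] at h1
    exact (mul_eq_zero.1 h1).resolve_right hq00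
  subst ha'
  have hyC' : Cl y ψ0 := by rw [zero_smul, zero_add] at hyC; exact hyC
  have hψe' : h.F y - ψ ∈ exS (ofAtl A) := by rw [zero_smul, zero_add] at hψe; exact hψe
  have hψk : ∀ k, Q ψ0 (H.om k) = 0 := fun k => by rw [← hX.cl_left hyC']; exact hQy k
  have hwC : Cl w (a 0 • H.om 0 + a 1 • H.om 1 + a 2 • H.om 2 + ψ0) := by
    have h1 : Cl w1 ψ0 := hy.symm.trans hyC'
    have h2 := (Alg_998.Cl.refl (a 0 • H.om 0 + a 1 • H.om 1 + a 2 • H.om 2)).add h1
    have h3 : a 0 • H.om 0 + a 1 • H.om 1 + a 2 • H.om 2 + w1 = w := by rw [hw1]; abel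
    rw [h3] at h2
    exact h2
  have hww : Q w w = (∑ k : Fin 3, a k ^ 2) * q0 + Q ψ0 ψ0 := by
    rw [hX.cl_cl hwC hwC, Fin.sum_univ_three]
    simp only [map_add, map_smul, LinearMap.add_apply, LinearMap.smul_apply, smul_eq_mul]
    rw [hψk, hψk, hψk, hX.symm (H.om 0) ψ0, hX.symm (H.om 1) ψ0, hX.symm (H.om 2) ψ0, hψk, hψk,
      hψk, hQe 0, hQe 1, hQe 2, hQo 0 1 (by decide), hQo 0 2 (by decide), hQo 1 0 (by decide),
      hQo 1 2 (by decide), hQo 2 0 (by decide), hQo 2 1 (by decide)]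
    ring
  -- the representative
  set w' : F2 (ofAtl A) := a 0 • H'.om 0 + a 1 • H'.om 1 + a 2 • H'.om 2 + ψ with hw'
  have hns : ∀ x, nsX H' w' x = (a 0 ^ 2 + a 1 ^ 2 + a 2 ^ 2) * (2 * ((2 * n : ℕ) : ℝ)) +
      nsX H' ψ x := fun x => by
    rw [hw', nsX_rep H' (hA.inv0 hψ11) hψ0, finrank_Cn]
  refine ⟨w', ?_, nsX_nonneg H' w', nsX_cont H' w', ?_, ?_⟩
  · -- cohomology
    have e1 : Eqv (h.F w) (a 0 • H'.om 0 + a 1 • H'.om 1 + a 2 • H'.om 2 + h.F w1) := by
      intro j z hz u v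
      obtain ⟨i, hi⟩ := Cmp.exists_mov (C' := ofAtl A) C (j := j) hz
      have e2 : (a 0 • H'.om 0 + a 1 • H'.om 1 + a 2 • H'.om 2 + h.F w1).w j z u v =
        a 0 * (h.F (H.om 0)).w j z u v + a 1 * (h.F (H.om 1)).w j z u v +
          a 2 * (h.F (H.om 2)).w j z u v + (h.F w1).w j z u v := rfl
      rw [e2, h.F_w _ hi, h.F_w _ hi, h.F_w _ hi, h.F_w _ hi, h.F_w _ hi]
      have e3 : ∀ u v, w1.w i (mt C (ofAtl A) i j z) u v = w.w i (mt C (ofAtl A) i j z) u v -
        (a 0 * (H.om 0).w i (mt C (ofAtl A) i j z) u v +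
        a 1 * (H.om 1).w i (mt C (ofAtl A) i j z) u v +
        a 2 * (H.om 2).w i (mt C (ofAtl A) i j z) u v) := fun _ _ => rfl
      rw [e3]
      ring
    have e4 : h.F w1 - h.F y ∈ exS (ofAtl A) := by
      have h1 : Ex (w1 - y) := hy.symm
      have h2 := ex_F h h1
      have h3 := (exS (ofAtl A)).sub_mem h2 (eqv_exS (F_sub h w1 y))
      rw [sub_sub_cancel] at h3
      exact h3
    have e5 := (exS (ofAtl A)).add_mem (eqv_exS e1) ((exS (ofAtl A)).add_mem e4 hψe')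
    have e6 : w' - h.F w = -(h.F w - (a 0 • H'.om 0 + a 1 • H'.om 1 + a 2 • H'.om 2 + h.F w1) +
        (h.F w1 - h.F y + (h.F y - ψ))) := by
      rw [hw']; abel
    rw [e6]
    exact (exS (ofAtl A)).neg_mem e5
  · intro i x hx u v
    have hz : A.e i x ∈ (A.e i).target := (A.e i).map_source hx
    have h1 := nsX_bound H' w' (i := i) (z := A.e i x) hz u v
    have h2 : ((ofAtl A).e i).symm (A.e i x) = x := (A.e i).left_inv hx
    rw [h2, hA.g_eq hx, hA.g_eq hx] at h1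
    exact h1
  · have hc : Countable A.ι := inferInstance
    have hfin := isFinite_vm (volK K)
    have hint : Integrable (nsX H' ψ) (vm (volK K)) :=
      (nsX_cont H' ψ).integrable_of_hasCompactSupport (HasCompactSupport.of_compactSpace _)
    have h1 : ∫ x, nsX H' w' x ∂(vm (volK K)) = (a 0 ^ 2 + a 1 ^ 2 + a 2 ^ 2) *
        (2 * ((2 * n : ℕ) : ℝ)) * (vm (volK K)).real univ + ∫ x, nsX H' ψ x ∂(vm (volK K)) := by
      simp only [hns]
      rw [integral_add (integrable_const _) hint, integral_const, smul_eq_mul]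
      ring
    have h2 := T_prim2 hA (two_mul n) hn P' hψ11 hψ0
    rw [← hmix] at h2
    have h3 := second_polar (by omega) hS hT.fuj (H.om 0) ψ0
    rw [hpol] at h3
    have h4 := T_om hA (two_mul n) P'
    have h5 : IM (lc (2 * n)) (bn (two_mul n)) P' (fun _ => H'.om 0) = q (H.om 0) ^ n := by
      rw [← hT.fuj, ← hTC]
      rfl
    rw [h5] at h4
    set Vv := (vm (volK K)).real univ with hV
    set S := ∫ x, nsX H' ψ x ∂(vm (volK K)) with hSS
    set T2 := IM (lc (2 * n)) (bn (two_mul n)) P (mixv (n + n) 2 (H.om 0) ψ0) with hT2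
    have hnr : (1 : ℝ) ≤ n := by exact_mod_cast hn
    have h6 : 2 * (2 * (n : ℝ) - 1) * T2 = 2 * q (H.om 0) ^ (n - 1) * q ψ0 := by
      rw [h3]; ring
    have h7 : q (H.om 0) ^ n = q (H.om 0) ^ (n - 1) * q (H.om 0) := by
      rw [← pow_succ]
      congr 1
      omega
    have hf : (0 : ℝ) < 2 ^ (2 * n) * (2 * n).factorial := by
      have : (0 : ℝ) < (2 * n).factorial := by exact_mod_cast Nat.factorial_pos _
      positivity
    have h8 : (2 ^ (2 * n) * ((2 * n).factorial : ℝ)) * (q (H.om 0) * S) =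
        (2 ^ (2 * n) * ((2 * n).factorial : ℝ)) * (- (4 * n * Vv * q ψ0)) := by
      push_cast at h2
      have h9 : (2 ^ (2 * n) * ((2 * n).factorial : ℝ)) * S =
        - (2 * (n : ℝ) * (2 * q (H.om 0) ^ (n - 1) * q ψ0)) := by
        rw [← h6]
        linear_combination h2
      calc (2 ^ (2 * n) * ((2 * n).factorial : ℝ)) * (q (H.om 0) * S)
          = q (H.om 0) * ((2 ^ (2 * n) * ((2 * n).factorial : ℝ)) * S) := by ring
        _ = - (4 * n * (q (H.om 0) ^ (n - 1) * q (H.om 0)) * q ψ0) := by rw [h9]; ring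
        _ = _ := by rw [← h7, h4]; ring
    have h10 := mul_left_cancel₀ hf.ne' h8
    have h11 : S = - (4 * n * Vv * (Q ψ0 ψ0 / q0)) := by
      have e1 : Q ψ0 ψ0 / q0 = q ψ0 / q (H.om 0) := by
        rw [hq0, hqq, hqq, mul_div_mul_left _ _ (by positivity)]
      rw [e1]
      field_simp
      linarith
    rw [h1, h11, Fin.sum_univ_three]
    have h12 : Q w w / q0 = (a 0 ^ 2 + a 1 ^ 2 + a 2 ^ 2) + Q ψ0 ψ0 / q0 := by
      rw [hww, Fin.sum_univ_three]
      field_simp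
    have h13 : ∀ k, Q w (H.om k) / q0 = a k := fun k => rfl
    rw [h12, h13, h13, h13]
    push_cast
    ring

end main

end

end Crest.Agent.R281.Xi_831
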