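import Crest.Agent.R281.Xi6_831

/-!
# Row 281, XI-L2 (helper831), part 7: uniform bounds along the end

* `xi_ray` : for finitely many classes `b k` orthogonal to `e` and members over `τ`, `|Re τ| ≤ B`,
  `1 ≤ Im τ`, the representatives satisfy `∑ |b' k|² ≤ C0 vol` with `C0` independent of `τ`
-/

set_option autoImplicit false
set_option linter.unusedSectionVars false
set_option maxSynthPendingDepth 3

open Set Filter Topology MeasureTheory Complex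
open scoped ContDiff Matrix ComplexConjugate ComplexOrder

namespace Crest.Agent.R281.Xi_831

open Crest.Agent.R281.HkR_835 Crest.Agent.R281.Ti_846
open Crest.Agent.R275.Geo Crest.Agent.R275.Core144
open Crest.Agent.R273.Defs_333 Crest.Agent.R273.Kah_333 Crest.Agent.R273.HM_333
open Crest.Agent.R273.Vol_333 Crest.Agent.R273.Vm_333
open Crest.Agent.R281.RkD_902 (Ctx)
open Crest.Agent.R281.Alg_998 (Cl Frm AtTau)
open Crest.Agent.R281.Mem_69 (MemK)
open Crest.Agent.R281.Defs_273 (HSymp)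

noncomputable section

variable {n : ℕ} {X : Type} [TopologicalSpace X] [CompactSpace X]
  {C : RCh (Cn (2 * n)) X} {Q : F2 C →ₗ[ℝ] F2 C →ₗ[ℝ] ℝ} (hX : Ctx n C Q) (F : Frm C Q)

section alg

include hX

theorem Q_S (w : F2 C) (τ : ℂ) : Q w (F.sre τ) = Q w F.es + τ.re * Q w F.v -
    (F.N / 2 * (τ.re ^ 2 - τ.im ^ 2)) * Q w F.e := by
  unfold Alg_998.Frm.sre
  simp only [map_sub, map_add, map_smul, smul_eq_mul]

theorem Q_T (w : F2 C) (τ : ℂ) : Q w (F.sim τ) = τ.im * Q w F.v -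
    (F.N * (τ.re * τ.im)) * Q w F.e := by
  unfold Alg_998.Frm.sim
  simp only [map_sub, map_smul, smul_eq_mul]

theorem Q_SS (τ : ℂ) : Q (F.sre τ) (F.sre τ) = F.N * τ.im ^ 2 := by
  rw [Q_S hX, hX.symm (F.sre τ) F.es, hX.symm (F.sre τ) F.v, hX.symm (F.sre τ) F.e, Q_S hX, Q_S hX,
    Q_S hX, F.es_es, F.es_v, F.es_e, F.v_v, F.e_e, F.e_v, hX.symm F.v F.es, F.es_v,
    hX.symm F.v F.e, F.e_v, hX.symm F.e F.es, F.es_e]
  ring

theorem Q_TT (τ : ℂ) : Q (F.sim τ) (F.sim τ) = F.N * τ.im ^ 2 := by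
  rw [Q_T hX, hX.symm (F.sim τ) F.v, hX.symm (F.sim τ) F.e, Q_T hX, Q_T hX, F.v_v, F.e_e, F.e_v,
    hX.symm F.v F.e, F.e_v]
  ring

theorem Q_ST (τ : ℂ) : Q (F.sre τ) (F.sim τ) = 0 := by
  rw [Q_T hX, hX.symm (F.sre τ) F.v, hX.symm (F.sre τ) F.e, Q_S hX, Q_S hX, F.v_v, F.e_e, F.e_v,
    hX.symm F.v F.e, F.e_v, hX.symm F.v F.es, F.es_v, hX.symm F.e F.es, F.es_e]
  ring

/-- the normalisation `|z|² N y² = Q(A,A)` -/
theorem at_norm {A : F2 C} {H : HkT C} {τ : ℂ} (h : AtTau F A H τ) :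
    Q (H.om 0) (H.om 0) = Q A A ∧ ∃ z : ℂ, normSq z * (F.N * τ.im ^ 2) = Q A A ∧
      (∀ w, Q w F.e = 0 → Q w (H.om 1) = z.re * (Q w F.es + τ.re * Q w F.v) -
        z.im * (τ.im * Q w F.v)) ∧
      (∀ w, Q w F.e = 0 → Q w (H.om 2) = z.im * (Q w F.es + τ.re * Q w F.v) +
        z.re * (τ.im * Q w F.v)) := by
  obtain ⟨z, hz, h1, h2⟩ := h.om12
  have h0 : Q (H.om 0) (H.om 0) = Q A A := hX.cl_cl h.om0 h.om0
  have hST := Q_ST hX F τ
  have hTS : Q (F.sim τ) (F.sre τ) = 0 := by rw [hX.symm]; exact hST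
  refine ⟨h0, z, ?_, fun w hw => ?_, fun w hw => ?_⟩
  · have h3 := hX.eq H 1
    rw [h0, hX.cl_cl h1 h1] at h3
    simp only [map_sub, map_smul, LinearMap.sub_apply, LinearMap.smul_apply, smul_eq_mul] at h3
    rw [hST, hTS, Q_SS hX, Q_TT hX] at h3
    rw [normSq_apply]
    linarith
  · rw [hX.cl_right h1]
    simp only [map_sub, map_smul, smul_eq_mul]
    rw [Q_S hX, Q_T hX, hw]
    ring
  · rw [hX.cl_right h2]
    simp only [map_add, map_smul, smul_eq_mul]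
    rw [Q_S hX, Q_T hX, hw]
    ring

/-- the constant for one class -/
def Cw (F : Frm C Q) (A w : F2 C) (B : ℝ) : ℝ :=
  4 * n * (2 * ((Q w A / Q A A) ^ 2 + (2 * Q w F.es ^ 2 + (2 * B ^ 2 + 1) * Q w F.v ^ 2) /
    (F.N * Q A A)) + |Q w w| / Q A A)

theorem coef_le {A : F2 C} (hAA : 0 < Q A A) {B : ℝ} {w : F2 C} (hw : Q w F.e = 0) {H : HkT C}
    {τ : ℂ} (h : AtTau F A H τ) (hre : |τ.re| ≤ B) (him : 1 ≤ τ.im) :
    4 * n * (2 * ∑ k : Fin 3, (Q w (H.om k) / Q (H.om 0) (H.om 0)) ^ 2 -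
        Q w w / Q (H.om 0) (H.om 0)) ≤ Cw F A w B := by
  obtain ⟨h0, z, hz, h1, h2⟩ := at_norm hX F h
  rw [h0, Fin.sum_univ_three, h1 w hw, h2 w hw, hX.cl_right h.om0]
  unfold Cw
  have hN := F.hN
  set a := Q w F.es
  set b := Q w F.v
  set q := Q A A
  have hy : 0 < τ.im := by linarith
  have hx2 : τ.re ^ 2 ≤ B ^ 2 := sq_le_sq' (by linarith [abs_le.1 hre]) (abs_le.1 hre).2
  have hy2 : (1 : ℝ) ≤ τ.im ^ 2 := by nlinarith
  have e1 : ((z.re * (a + τ.re * b) - z.im * (τ.im * b)) / q) ^ 2 +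
      ((z.im * (a + τ.re * b) + z.re * (τ.im * b)) / q) ^ 2 =
      normSq z * ((a + τ.re * b) ^ 2 + (τ.im * b) ^ 2) / q ^ 2 := by
    rw [normSq_apply]
    field_simp
    ring
  have hz' : normSq z = q / (F.N * τ.im ^ 2) := by
    rw [eq_div_iff (by positivity)]
    exact hz
  have e2 : (a + τ.re * b) ^ 2 + (τ.im * b) ^ 2 ≤
      τ.im ^ 2 * (2 * a ^ 2 + (2 * B ^ 2 + 1) * b ^ 2) := by
    have h3 : (a + τ.re * b) ^ 2 ≤ 2 * a ^ 2 + 2 * (τ.re ^ 2 * b ^ 2) := by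
      nlinarith [sq_nonneg (a - τ.re * b)]
    have h4 : τ.re ^ 2 * b ^ 2 ≤ B ^ 2 * b ^ 2 := mul_le_mul_of_nonneg_right hx2 (sq_nonneg b)
    have h5 : 2 * a ^ 2 + 2 * (B ^ 2 * b ^ 2) ≤ τ.im ^ 2 * (2 * a ^ 2 + 2 * (B ^ 2 * b ^ 2)) := by
      have h6 : 0 ≤ 2 * a ^ 2 + 2 * (B ^ 2 * b ^ 2) := by positivity
      nlinarith
    nlinarith
  have e3 : normSq z * ((a + τ.re * b) ^ 2 + (τ.im * b) ^ 2) / q ^ 2 ≤
      (2 * a ^ 2 + (2 * B ^ 2 + 1) * b ^ 2) / (F.N * q) := by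
    rw [hz', div_mul_eq_mul_div, div_div, div_le_div_iff₀ (by positivity) (by positivity)]
    have h7 : 0 < q * (F.N * q) := by positivity
    nlinarith [mul_le_mul_of_nonneg_left e2 h7.le]
  have e4 : -(Q w w / q) ≤ |Q w w| / q := by
    rw [← neg_div]
    exact div_le_div_of_nonneg_right (neg_le_abs _) hAA.le
  have hn0 : (0 : ℝ) ≤ 4 * n := by positivity
  refine mul_le_mul_of_nonneg_left ?_ hn0
  linarith

theorem Cw_nonneg {A : F2 C} (hAA : 0 < Q A A) (w : F2 C) (B : ℝ) : 0 ≤ Cw F A w B := by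
  unfold Cw
  have hN := F.hN
  positivity

end alg

variable [T2Space X] [ConnectedSpace X] [MeasurableSpace X] [BorelSpace X]

include hX in
/-- **uniform bounds along the end** -/
theorem xi_ray {A : F2 C} (hAA : 0 < Q A A) {κ : Type} [Fintype κ] (b : κ → F2 C)
    (hbe : ∀ k, Q (b k) F.e = 0) (B : ℝ) : ∃ C0 : ℝ, 0 < C0 ∧ ∀ (τ : ℂ), |τ.re| ≤ B → 1 ≤ τ.im →
    ∀ H : HkT C, AtTau F A H τ → ∀ (A' : Atl (2 * n) X) [Finite A'.ι], Part A' →
    ∀ (K : Kah A') (σ : HSymp A') (h : Cmp C (ofAtl A')), MemK H A' K σ h →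
    ∃ b' : κ → F2 (ofAtl A'), (∀ k, b' k - h.F (b k) ∈ exS (ofAtl A')) ∧
      ∃ Fn : X → ℝ, Continuous Fn ∧ (∀ x, 0 ≤ Fn x) ∧
        (∀ k i, ∀ x ∈ (A'.e i).source, ∀ u v, (b' k).w i (A'.e i x) u v ^ 2 ≤
          Fn x * ((hb (K.g i x) u u).re * (hb (K.g i x) v v).re)) ∧
        ∫ x, Fn x ∂(vm (volK K)) ≤ C0 * (vm (volK K)).real univ := by
  classical
  refine ⟨1 + ∑ k, Cw F A (b k) B, ?_, ?_⟩
  · have : 0 ≤ ∑ k, Cw F A (b k) B := Finset.sum_nonneg fun k _ => Cw_nonneg hX F hAA _ _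
    linarith
  intro τ hre him H hH A' hfin PA K σ h m
  have hp : 0 < Q (H.om 0) (H.om 0) := by rw [(at_norm hX F hH).1]; exact hAA
  choose b' h1 h2 h3 h4 h5 using fun k => xi hX hp PA m (b k)
  refine ⟨b', h1, fun x => ∑ k, nsX (h.hk H) (b' k) x, continuous_finsetSum _ fun k _ => h3 k,
    fun x => Finset.sum_nonneg fun k _ => h2 k x, fun k i x hx u v => ?_, ?_⟩
  · have hA := MemK_ad m
    have hz : A'.e i x ∈ (A'.e i).target := (A'.e i).map_source hx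
    have hg : ∀ u, 0 ≤ (hb (K.g i x) u u).re := fun u => by
      rw [← hA.g_eq hx]
      exact (pdH (h.hk H) (i := i) (z := A'.e i x) hz).nonneg u
    refine (h4 k i x hx u v).trans ?_
    rw [mul_assoc]
    refine mul_le_mul_of_nonneg_right ?_ (mul_nonneg (hg u) (hg v))
    exact Finset.single_le_sum (f := fun k => nsX (h.hk H) (b' k) x) (fun k _ => h2 k x)
      (Finset.mem_univ k)
  · have hc : Countable A'.ι := inferInstance
    have hfm := isFinite_vm (volK K)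
    have hint : ∀ k, Integrable (nsX (h.hk H) (b' k)) (vm (volK K)) := fun k =>
      (h3 k).integrable_of_hasCompactSupport (HasCompactSupport.of_compactSpace _)
    rw [integral_finsetSum _ fun k _ => hint k]
    have hV : 0 ≤ (vm (volK K)).real univ := measureReal_nonneg
    have e1 : ∑ k, ∫ x, nsX (h.hk H) (b' k) x ∂(vm (volK K)) ≤
        ∑ k, Cw F A (b k) B * (vm (volK K)).real univ := by
      refine Finset.sum_le_sum fun k _ => ?_
      rw [h5 k]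
      exact mul_le_mul_of_nonneg_right (coef_le hX F hAA (hbe k) hH hre him) hV
    rw [← Finset.sum_mul] at e1
    nlinarith

end

end Crest.Agent.R281.Xi_831
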