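import Crest.Agent.R281.HkR3_835

/-!
# Row 281 (S0424), YAU-VAR (task 1834, helper833), part 0: definitions and frozen statements

Ricci-flat metrics of a jointly smooth family of complex structures on ONE compact real manifold.

* `al J φ z`, `ddc J φ z`  : the 1-form `dφ ∘ J` and the 2-form `- d (dφ ∘ J)`
  (`J = i` : `ddc φ (u, v) = D²φ (iu, v) - D²φ (u, iv)`, `ddc φ (v, iv) = D²φ (v, v) + D²φ (iv, iv)`)
* `bdet B`                 : determinant of a bilinear form in a fixed basis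
* `VDat C U`               : smooth family (parameters `p ∈ U`) of integrable complex structures
  `J_p`, Kaehler forms `w_p` and nondegenerate comparison forms `h_p` (e.g. `Re σ_p`)
* `VDat.Sol p φ c`         : `w_p + ddc φ` is positive and `bdet (w_p + ddc φ) = c * bdet h_p`
-/

set_option autoImplicit false

open Set Filter Topology Complex
open scoped ContDiff

namespace Crest.Agent.R281.YV_833

open Crest.Agent.R260.ACM_580 Crest.Agent.R281.HkR_835

noncomputable section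

section loc

variable {V : Type*} [NormedAddCommGroup V] [NormedSpace ℝ V]

/-- the 1-form `dφ ∘ J` -/
def al (J : V → V →L[ℝ] V) (φ : V → ℝ) (z : V) : V →L[ℝ] ℝ := (fderiv ℝ φ z).comp (J z)

/-- the 2-form `- d (dφ ∘ J)` -/
def ddc (J : V → V →L[ℝ] V) (φ : V → ℝ) (z : V) : Bil V :=
  (fderiv ℝ (al J φ) z).flip - fderiv ℝ (al J φ) z

theorem ddc_apply (J : V → V →L[ℝ] V) (φ : V → ℝ) (z u v : V) :
    ddc J φ z u v = fderiv ℝ (al J φ) z v u - fderiv ℝ (al J φ) z u v := rfl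

/-- the determinant of a bilinear form in the fixed basis `Module.finBasis ℝ V` -/
def bdet [FiniteDimensional ℝ V] (B : Bil V) : ℝ :=
  Matrix.det (Matrix.of fun x y => B (Module.finBasis ℝ V x) (Module.finBasis ℝ V y))

end loc

variable {V X : Type} [NormedAddCommGroup V] [NormedSpace ℝ V] [TopologicalSpace X]

/-- smooth functions on a space with real charts -/
def Sm (C : RCh V X) (φ : X → ℝ) : Prop :=
  ∀ i, ContDiffOn ℝ ∞ (fun z => φ ((C.e i).symm z)) (C.e i).target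

/-- `φ` read in the chart `i` -/
def rd (C : RCh V X) (i : C.ι) (φ : X → ℝ) : V → ℝ := fun z => φ ((C.e i).symm z)

variable {P : Type} [NormedAddCommGroup P] [NormedSpace ℝ P]

/-- a smooth family, with parameters `p ∈ U`, of integrable complex structures `J_p`, Kaehler forms
`w_p` and nondegenerate bilinear forms `h_p` on the space `X` with real charts `C` -/
structure VDat (C : RCh V X) (U : Set P) where
  J : C.ι → P × V → V →L[ℝ] V
  w : C.ι → P × V → Bil V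
  h : C.ι → P × V → Bil V
  J_sm : ∀ i, ContDiffOn ℝ ∞ (J i) (U ×ˢ (C.e i).target)
  w_sm : ∀ i, ContDiffOn ℝ ∞ (w i) (U ×ˢ (C.e i).target)
  h_sm : ∀ i, ContDiffOn ℝ ∞ (h i) (U ×ˢ (C.e i).target)
  J_sq : ∀ i, ∀ p ∈ U, ∀ z ∈ (C.e i).target, ∀ v, J i (p, z) (J i (p, z) v) = -v
  J_int : ∀ i, ∀ p ∈ U, ∀ z ∈ (C.e i).target, ∀ u v, Nij (fun y => J i (p, y)) z u v = 0
  J_tr : ∀ i j, ∀ p ∈ U, ∀ z ∈ C.ov i j, ∀ v,
    fderiv ℝ (C.t i j) z (J i (p, z) v) = J j (p, C.t i j z) (fderiv ℝ (C.t i j) z v)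
  w_alt : ∀ i, ∀ p ∈ U, ∀ z ∈ (C.e i).target, ∀ u v, w i (p, z) u v = -w i (p, z) v u
  w_J : ∀ i, ∀ p ∈ U, ∀ z ∈ (C.e i).target, ∀ u v,
    w i (p, z) (J i (p, z) u) (J i (p, z) v) = w i (p, z) u v
  w_pos : ∀ i, ∀ p ∈ U, ∀ z ∈ (C.e i).target, ∀ v, v ≠ 0 → 0 < w i (p, z) v (J i (p, z) v)
  w_tr : ∀ i j, ∀ p ∈ U, ∀ z ∈ C.ov i j, ∀ u v, w i (p, z) u v =
    w j (p, C.t i j z) (fderiv ℝ (C.t i j) z u) (fderiv ℝ (C.t i j) z v)
  w_closed : ∀ i, ∀ p ∈ U, ∀ z ∈ (C.e i).target, ∀ a b c,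
    fderiv ℝ (fun y => w i (p, y)) z a b c + fderiv ℝ (fun y => w i (p, y)) z b c a +
      fderiv ℝ (fun y => w i (p, y)) z c a b = 0
  h_nd : ∀ i, ∀ p ∈ U, ∀ z ∈ (C.e i).target, ∀ u, (∀ v, h i (p, z) u v = 0) → u = 0
  h_tr : ∀ i j, ∀ p ∈ U, ∀ z ∈ C.ov i j, ∀ u v, h i (p, z) u v =
    h j (p, C.t i j z) (fderiv ℝ (C.t i j) z u) (fderiv ℝ (C.t i j) z v)

namespace VDat

variable {C : RCh V X} {U : Set P}

/-- `w_p + ddc φ` in the chart `i` -/
def F (D : VDat C U) (p : P) (φ : X → ℝ) (i : C.ι) (z : V) : Bil V :=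
  D.w i (p, z) + ddc (fun y => D.J i (p, y)) (rd C i φ) z

/-- `φ` is a potential of the Ricci-flat (Monge-Ampere) form of the member `p` -/
structure Sol [FiniteDimensional ℝ V] (D : VDat C U) (p : P) (φ : X → ℝ) (c : ℝ) : Prop where
  sm : Sm C φ
  pos : ∀ i, ∀ z ∈ (C.e i).target, ∀ v, v ≠ 0 → 0 < D.F p φ i z v (D.J i (p, z) v)
  eq : ∀ i, ∀ z ∈ (C.e i).target, bdet (D.F p φ i z) = c * bdet (D.h i (p, z))

end VDat

end

end Crest.Agent.R281.YV_833
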