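import Crest.Agent.R281.YV0_833
import Crest.Agent.R281.HkR6_835

/-!
# Row 281 (S0424), YAU-VAR (task 1834, helper833), part 1: frozen statements of the leaves
-/

set_option autoImplicit false

open Set Filter Topology Complex Metric
open scoped ContDiff

namespace Crest.Agent.R281.YV_833

open Crest.Agent.R260.ACM_580 Crest.Agent.R281.HkR_835
open Crest.Agent.R275.Geo Crest.Agent.R275.Core144

noncomputable section

/-- (SMAX) strong maximum principle for `C²` subsolutions -/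
def SMaxStmt : Prop :=
  ∀ (V : Type) [NormedAddCommGroup V] [NormedSpace ℝ V] [FiniteDimensional ℝ V] (O : Set V)
    (w : V → ℝ) (a : V → Matrix (Fin (Module.finrank ℝ V)) (Fin (Module.finrank ℝ V)) ℝ)
    (b : V → Fin (Module.finrank ℝ V) → ℝ), IsOpen O →
    ContDiffOn ℝ 2 w O → ContinuousOn a O → ContinuousOn b O → (∀ z ∈ O, (a z).PosDef) →
    (∀ z ∈ O, 0 ≤ ∑ k, ∑ l, a z k l * fderiv ℝ (fderiv ℝ w) z (Module.finBasis ℝ V k)
        (Module.finBasis ℝ V l) + ∑ k, b z k * fderiv ℝ w z (Module.finBasis ℝ V k)) →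
    ∀ z₀ ∈ O, (∀ z ∈ O, w z ≤ w z₀) → ∀ᶠ z in 𝓝 z₀, w z = w z₀

/-- (IFT) implicit function theorem between closures of spaces of smooth functions -/
def IftStmt : Prop :=
  ∀ (P E F S : Type) [NormedAddCommGroup P] [NormedSpace ℝ P] [CompleteSpace P]
    [NormedAddCommGroup E] [NormedSpace ℝ E] [CompleteSpace E]
    [NormedAddCommGroup F] [NormedSpace ℝ F] [CompleteSpace F] [AddCommGroup S] [Module ℝ S]
    (j : S →ₗ[ℝ] E) (i : S →ₗ[ℝ] F) (L : S →ₗ[ℝ] S) (G : P × E → F) (p₀ : P) (K : ℝ),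
    ContDiffAt ℝ ∞ G (p₀, 0) → G (p₀, 0) = 0 →
    (∀ᶠ p in 𝓝 p₀, ∀ s : S, ∃ f : S, G (p, j s) = i f) →
    (∀ s : S, fderiv ℝ G (p₀, 0) (0, j s) = i (L s)) →
    (∀ f : S, ∃ s : S, L s = f) → (∀ s : S, ‖j s‖ ≤ K * ‖i (L s)‖) →
    ∃ x : P → E, ContDiffAt ℝ ∞ x p₀ ∧ x p₀ = 0 ∧
      ∀ᶠ p in 𝓝 p₀, x p ∈ closure (Set.range j) ∧ G (p, x p) = 0

section ddc

/-- (DDC) formula -/
def DdcFormula : Prop :=
  ∀ (V : Type) [NormedAddCommGroup V] [NormedSpace ℝ V] (J : V → V →L[ℝ] V) (φ : V → ℝ) (z : V),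
    DifferentiableAt ℝ J z → ContDiffAt ℝ 2 φ z → ∀ u v : V, ddc J φ z u v =
      fderiv ℝ (fderiv ℝ φ) z v (J z u) - fderiv ℝ (fderiv ℝ φ) z u (J z v) +
        fderiv ℝ φ z (fderiv ℝ J z v u) - fderiv ℝ φ z (fderiv ℝ J z u v)

/-- (DDC) naturality -/
def DdcPull : Prop :=
  ∀ (V V' : Type) [NormedAddCommGroup V] [NormedSpace ℝ V] [NormedAddCommGroup V']
    [NormedSpace ℝ V'] (f : V' → V) (J : V → V →L[ℝ] V) (J' : V' → V' →L[ℝ] V') (φ : V → ℝ)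
    (z : V'), ContDiffAt ℝ ∞ f z → DifferentiableAt ℝ J (f z) → ContDiffAt ℝ 2 φ (f z) →
    (∀ᶠ y in 𝓝 z, ∀ v, fderiv ℝ f y (J' y v) = J (f y) (fderiv ℝ f y v)) →
    ∀ u v, ddc J' (fun y => φ (f y)) z u v = ddc J φ (f z) (fderiv ℝ f z u) (fderiv ℝ f z v)

/-- (DDC) symmetry of `ddc φ (u, J v)` for integrable `J` -/
def DdcSymm : Prop :=
  ∀ (V : Type) [NormedAddCommGroup V] [NormedSpace ℝ V] (J : V → V →L[ℝ] V) (φ : V → ℝ) (z : V),
    ContDiffAt ℝ ∞ J z → ContDiffAt ℝ 2 φ z → (∀ᶠ y in 𝓝 z, ∀ v, J y (J y v) = -v) →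
    (∀ u v, Nij J z u v = 0) →
    (∀ u v, ddc J φ z u (J z v) = ddc J φ z v (J z u)) ∧
      (∀ u v, ddc J φ z (J z u) (J z v) = ddc J φ z u v) ∧
      ∀ v, ddc J φ z v (J z v) = fderiv ℝ (fderiv ℝ φ) z v v +
        fderiv ℝ (fderiv ℝ φ) z (J z v) (J z v) + fderiv ℝ φ z (fderiv ℝ J z (J z v) v) -
        fderiv ℝ φ z (fderiv ℝ J z v (J z v))

/-- (DDC) `ddc φ` is closed -/
def DdcClosed : Prop :=
  ∀ (V : Type) [NormedAddCommGroup V] [NormedSpace ℝ V] (J : V → V →L[ℝ] V) (φ : V → ℝ) (z : V),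
    ContDiffAt ℝ ∞ J z → ContDiffAt ℝ ∞ φ z → ∀ a b c, fderiv ℝ (ddc J φ) z a b c +
      fderiv ℝ (ddc J φ) z b c a + fderiv ℝ (ddc J φ) z c a b = 0

/-- (DDC) naturality of the Nijenhuis tensor -/
def NijPull : Prop :=
  ∀ (V V' : Type) [NormedAddCommGroup V] [NormedSpace ℝ V] [NormedAddCommGroup V']
    [NormedSpace ℝ V'] (f : V' → V) (J : V → V →L[ℝ] V) (J' : V' → V' →L[ℝ] V')
    (z : V'), ContDiffAt ℝ ∞ f z → DifferentiableAt ℝ J (f z) → DifferentiableAt ℝ J' z →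
    (∀ᶠ y in 𝓝 z, ∀ v, fderiv ℝ f y (J' y v) = J (f y) (fderiv ℝ f y v)) →
    ∀ u v, fderiv ℝ f z (Nij J' z u v) = Nij J (f z) (fderiv ℝ f z u) (fderiv ℝ f z v)

end ddc

variable {V V' X X' : Type} [NormedAddCommGroup V] [NormedSpace ℝ V] [TopologicalSpace X]
  [NormedAddCommGroup V'] [NormedSpace ℝ V'] [TopologicalSpace X']
  {P P' : Type} [NormedAddCommGroup P] [NormedSpace ℝ P] [NormedAddCommGroup P']
  [NormedSpace ℝ P']

/-- smooth family of local diffeomorphisms `Φ p : X' → X`, parameters `p ∈ U'` -/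
structure Dif (C' : RCh V' X') (C : RCh V X) (U' : Set P') (Φ : P' → X' → X) : Prop where
  cont : ContinuousOn (fun q : P' × X' => Φ q.1 q.2) (U' ×ˢ univ)
  sm : ∀ i j, ContDiffOn ℝ ∞ (fun q : P' × V' => C.e j (Φ q.1 ((C'.e i).symm q.2)))
    {q | q.1 ∈ U' ∧ q.2 ∈ (C'.e i).target ∧ Φ q.1 ((C'.e i).symm q.2) ∈ (C.e j).source}
  bij : ∀ i j, ∀ p ∈ U', ∀ z ∈ (C'.e i).target, Φ p ((C'.e i).symm z) ∈ (C.e j).source →
    Function.Bijective (fderiv ℝ (fun y => C.e j (Φ p ((C'.e i).symm y))) z)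

/-- (PULL) pull back of a family of data -/
def PullStmt : Prop :=
  ∀ (V V' X X' P P' : Type) [NormedAddCommGroup V] [NormedSpace ℝ V] [FiniteDimensional ℝ V]
    [TopologicalSpace X] [NormedAddCommGroup V'] [NormedSpace ℝ V'] [FiniteDimensional ℝ V']
    [TopologicalSpace X'] [NormedAddCommGroup P] [NormedSpace ℝ P] [NormedAddCommGroup P']
    [NormedSpace ℝ P'] (C : RCh V X) (C' : RCh V' X') (U : Set P) (U' : Set P') (π : P' → P)
    (Φ : P' → X' → X) (D : VDat C U), IsOpen U → IsOpen U' → ContDiffOn ℝ ∞ π U' →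
    MapsTo π U' U → Dif C' C U' Φ →
    ∃ D' : VDat C' U', (∀ i j, ∀ p ∈ U', ∀ z ∈ (C'.e i).target,
        Φ p ((C'.e i).symm z) ∈ (C.e j).source → ∀ v,
        fderiv ℝ (fun y => C.e j (Φ p ((C'.e i).symm y))) z (D'.J i (p, z) v) =
          D.J j (π p, C.e j (Φ p ((C'.e i).symm z)))
            (fderiv ℝ (fun y => C.e j (Φ p ((C'.e i).symm y))) z v)) ∧
      (∀ i j, ∀ p ∈ U', ∀ z ∈ (C'.e i).target,
        Φ p ((C'.e i).symm z) ∈ (C.e j).source → ∀ u v,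
        D'.w i (p, z) u v = D.w j (π p, C.e j (Φ p ((C'.e i).symm z)))
            (fderiv ℝ (fun y => C.e j (Φ p ((C'.e i).symm y))) z u)
            (fderiv ℝ (fun y => C.e j (Φ p ((C'.e i).symm y))) z v)) ∧
      (∀ p ∈ U', ∀ φ c, D.Sol (π p) φ c → D'.Sol p (fun x => φ (Φ p x)) c) ∧
      (∀ p ∈ U', (∀ y, ∃ x, Φ p x = y) → ∀ φ c, D'.Sol p (fun x => φ (Φ p x)) c → D.Sol (π p) φ c)

/-- (DIFF) translations in a chart, cut off -/
def DiffStmt : Prop :=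
  ∀ (V X : Type) [NormedAddCommGroup V] [NormedSpace ℝ V] [FiniteDimensional ℝ V]
    [TopologicalSpace X] [T2Space X] (C : RCh V X) (i₀ : C.ι) (x₀ x₁ : X),
    x₀ ∈ (C.e i₀).source → x₁ ≠ x₀ → ∃ (ε : ℝ) (Φ : V → X → X), 0 < ε ∧
      Dif C C (ball (0 : V) ε) Φ ∧ Φ 0 = id ∧ (∀ s ∈ ball (0 : V) ε, Φ s x₁ = x₁) ∧
      ∀ s ∈ ball (0 : V) ε, C.e i₀ x₀ + s ∈ (C.e i₀).target ∧
        Φ s x₀ = (C.e i₀).symm (C.e i₀ x₀ + s)

/-- (UNIQ) uniqueness of `C²` solutions -/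
def UniqStmt : Prop :=
  ∀ (V X P : Type) [NormedAddCommGroup V] [NormedSpace ℝ V] [FiniteDimensional ℝ V]
    [TopologicalSpace X] [CompactSpace X] [ConnectedSpace X] [NormedAddCommGroup P]
    [NormedSpace ℝ P] (C : RCh V X) (U : Set P) (D : VDat C U) (p : P) (φ ψ : X → ℝ) (c c' : ℝ),
    IsOpen U → p ∈ U →
    (∀ i, ContDiffOn ℝ 2 (rd C i φ) (C.e i).target) →
    (∀ i, ContDiffOn ℝ 2 (rd C i ψ) (C.e i).target) →
    (∀ i, ∀ z ∈ (C.e i).target, ∀ v, v ≠ 0 → 0 < D.F p φ i z v (D.J i (p, z) v)) →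
    (∀ i, ∀ z ∈ (C.e i).target, ∀ v, v ≠ 0 → 0 < D.F p ψ i z v (D.J i (p, z) v)) →
    (∀ i, ∀ z ∈ (C.e i).target, bdet (D.F p φ i z) = c * bdet (D.h i (p, z))) →
    (∀ i, ∀ z ∈ (C.e i).target, bdet (D.F p ψ i z) = c' * bdet (D.h i (p, z))) →
    c = c' ∧ ∀ x y, φ x - ψ x = φ y - ψ y

/-- the complex atlas `A` induces the complex structure `J_p` -/
def JAtl {n : ℕ} {X : Type} [TopologicalSpace X] {C : RCh V X} {U : Set P} (D : VDat C U) (p : P)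
    (A : Atl n X) : Prop :=
  Cmp C (ofAtl A) ∧ ∀ (i : C.ι) (j : A.ι), ∀ z ∈ mov C (ofAtl A) i j, ∀ v : Cn n,
    fderiv ℝ (mt C (ofAtl A) i j) z (I • v) =
      D.J i (p, mt C (ofAtl A) i j z) (fderiv ℝ (mt C (ofAtl A) i j) z v)

/-- (PTEX) existence of the solution for one member, by Yau's theorem `KpK_487.yau_kah'` -/
def PtExStmt : Prop :=
  ∀ (V X P : Type) [NormedAddCommGroup V] [NormedSpace ℝ V] [FiniteDimensional ℝ V]
    [TopologicalSpace X] [T2Space X] [CompactSpace X] [ConnectedSpace X] [NormedAddCommGroup P]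
    [NormedSpace ℝ P] (C : RCh V X) (U : Set P) (D : VDat C U) (p : P) (n : ℕ) (A : Atl n X),
    IsOpen U → p ∈ U → JAtl D p A → ∃ φ c, D.Sol p φ c

/-- (BDET) real determinant of a hermitian form: `bM ((mL Gᵀ) ∘ iL) (u, v) = Re (i G(u, v̄))` -/
def BDetStmt : Prop :=
  ∀ n : ℕ, ∃ κ : ℝ, 0 < κ ∧ ∀ G : Matrix (Fin n) (Fin n) ℂ, G.IsHermitian →
    bdet (bM ((mL G.transpose).comp iL)) = κ * (G.det.re) ^ 2

end

end Crest.Agent.R281.YV_833
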