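import Crest.Agent.R281.YV1_833

/-!
# Row 281 (S0424), YAU-VAR leaf YV-DIFF (task 2027, helper818)

Cut-off translations in a chart as a smooth family of local diffeomorphisms:
`Φ s x = e⁻¹ (e x + χ (e x) s)` in the chart `e = C.e i₀`, `= x` outside.
`diffStmt : DiffStmt` is the literal frozen statement of `YV1_833`.
-/

set_option autoImplicit false

open Set Filter Topology Metric
open scoped ContDiff

namespace Crest.Agent.R281.YVDiff_818

open Crest.Agent.R281.YV_833 Crest.Agent.R281.HkR_835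

noncomputable section

variable {V X : Type} [NormedAddCommGroup V] [NormedSpace ℝ V] [TopologicalSpace X]

/-- the translation by `s`, cut off by `χ` -/
def g (χ : V → ℝ) (s z : V) : V := z + χ z • s

theorem g_of_zero {χ : V → ℝ} {s z : V} (h : χ z = 0) : g χ s z = z := by simp [g, h]

theorem g_zero (χ : V → ℝ) (z : V) : g χ 0 z = z := by simp [g]

theorem contDiff_g {χ : V → ℝ} (h : ContDiff ℝ ∞ χ) :
    ContDiff ℝ ∞ (fun q : V × V => g χ q.1 q.2) :=
  contDiff_snd.add ((h.comp contDiff_snd).smul contDiff_fst)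

theorem hasFDerivAt_g {χ : V → ℝ} (h : ContDiff ℝ ∞ χ) (s z : V) :
    HasFDerivAt (g χ s) (ContinuousLinearMap.id ℝ V + (fderiv ℝ χ z).smulRight s) z := by
  have h1 : HasFDerivAt χ (fderiv ℝ χ z) z := (h.differentiable (by simp) z).hasFDerivAt
  exact (hasFDerivAt_id z).add (h1.smul_const s)

theorem bij_g [FiniteDimensional ℝ V] {χ : V → ℝ} (h : ContDiff ℝ ∞ χ) {L : ℝ}
    (hL : ∀ z, ‖fderiv ℝ χ z‖ ≤ L) {s : V} (hs : L * ‖s‖ ≤ 1 / 2) (z : V) :
    Function.Bijective (fderiv ℝ (g χ s) z) := by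
  rw [(hasFDerivAt_g h s z).fderiv]
  set T := ContinuousLinearMap.id ℝ V + (fderiv ℝ χ z).smulRight s with hT
  have inj : Function.Injective T := by
    rw [injective_iff_map_eq_zero]
    intro v hv
    have h1 : v = -(fderiv ℝ χ z v • s) := by
      have : v + fderiv ℝ χ z v • s = 0 := by simpa [hT] using hv
      exact eq_neg_of_add_eq_zero_left this
    have h2 : ‖v‖ ≤ 1 / 2 * ‖v‖ := by
      calc ‖v‖ = ‖fderiv ℝ χ z v‖ * ‖s‖ := by
            conv_lhs => rw [h1]
            rw [norm_neg, norm_smul]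
        _ ≤ L * ‖v‖ * ‖s‖ := by
            gcongr
            exact ((fderiv ℝ χ z).le_opNorm v).trans (by gcongr; exact hL z)
        _ = L * ‖s‖ * ‖v‖ := by ring
        _ ≤ 1 / 2 * ‖v‖ := by gcongr
    have h3 : ‖v‖ ≤ 0 := by linarith
    exact norm_le_zero_iff.1 h3
  exact ⟨inj, (LinearMap.injective_iff_surjective (f := (T : V →ₗ[ℝ] V))).1 inj⟩

/-- the differential of a transition map is bijective -/
theorem bij_t {C : RCh V X} {i j : C.ι} {z : V} (hz : z ∈ C.ov i j) :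
    Function.Bijective (fderiv ℝ (C.t i j) z) :=
  ⟨Function.LeftInverse.injective (RCh.dt_dt hz), Function.RightInverse.surjective (RCh.dt_dt' hz)⟩

theorem contDiffAt_t {C : RCh V X} {i j : C.ι} {z : V} (hz : z ∈ C.ov i j) :
    ContDiffAt ℝ ∞ (C.t i j) z :=
  (RCh.t_smooth i j).contDiffAt ((RCh.isOpen_ov i j).mem_nhds hz)

open Classical in
/-- the family -/
def Ph (C : RCh V X) (i₀ : C.ι) (χ : V → ℝ) (s : V) (x : X) : X :=
  if x ∈ (C.e i₀).source then (C.e i₀).symm (g χ s (C.e i₀ x)) else x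

theorem Ph_src {C : RCh V X} {i₀ : C.ι} {χ : V → ℝ} {s : V} {x : X}
    (hx : x ∈ (C.e i₀).source) : Ph C i₀ χ s x = (C.e i₀).symm (g χ s (C.e i₀ x)) := if_pos hx

theorem Ph_id {C : RCh V X} {i₀ : C.ι} {χ : V → ℝ} {s : V} {x : X}
    (hx : x ∈ (C.e i₀).source → χ (C.e i₀ x) = 0) : Ph C i₀ χ s x = x := by
  classical
  by_cases h : x ∈ (C.e i₀).source
  · rw [Ph_src h, g_of_zero (hx h), (C.e i₀).left_inv h]
  · exact if_neg h

/-- the hypotheses on the cut-off function -/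
structure Cut (C : RCh V X) (i₀ : C.ι) (χ : V → ℝ) (U : Set V) (K : Set X) : Prop where
  sm : ContDiff ℝ ∞ χ
  op : IsOpen U
  mem : ∀ s ∈ U, ∀ z ∈ (C.e i₀).target, g χ s z ∈ (C.e i₀).target
  bij : ∀ s ∈ U, ∀ z, Function.Bijective (fderiv ℝ (g χ s) z)
  cl : IsClosed K
  sub : K ⊆ (C.e i₀).source
  zero : ∀ x ∈ (C.e i₀).source, x ∉ K → χ (C.e i₀ x) = 0

namespace Cut

variable {C : RCh V X} {i₀ : C.ι} {χ : V → ℝ} {U : Set V} {K : Set X}

theorem id' (h : Cut C i₀ χ U K) {s : V} {x : X} (hx : x ∉ K) : Ph C i₀ χ s x = x :=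
  Ph_id fun h1 => h.zero x h1 hx

theorem cont (h : Cut C i₀ χ U K) :
    ContinuousOn (fun q : V × X => Ph C i₀ χ q.1 q.2) (U ×ˢ univ) := by
  have c1 : ContinuousOn (fun q : V × X => Ph C i₀ χ q.1 q.2) (U ×ˢ (C.e i₀).source) := by
    have : ContinuousOn (fun q : V × X => (C.e i₀).symm (g χ q.1 (C.e i₀ q.2)))
        (U ×ˢ (C.e i₀).source) := by
      refine (C.e i₀).continuousOn_symm.comp ?_ fun q hq =>
        h.mem q.1 hq.1 _ ((C.e i₀).map_source hq.2)
      have h1 : ContinuousOn (fun q : V × X => (q.1, C.e i₀ q.2)) (U ×ˢ (C.e i₀).source) :=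
        continuousOn_fst.prodMk ((C.e i₀).continuousOn.comp continuousOn_snd fun q hq => hq.2)
      exact (contDiff_g h.sm).continuous.comp_continuousOn h1
    exact this.congr fun q hq => Ph_src hq.2
  have c2 : ContinuousOn (fun q : V × X => Ph C i₀ χ q.1 q.2) (U ×ˢ Kᶜ) :=
    continuousOn_snd.congr fun q hq => h.id' hq.2
  intro q hq
  have hq1 : q.1 ∈ U := hq.1
  refine ContinuousAt.continuousWithinAt ?_
  by_cases hx : q.2 ∈ (C.e i₀).source
  · exact c1.continuousAt ((h.op.prod (C.e i₀).open_source).mem_nhds ⟨hq1, hx⟩)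
  · exact c2.continuousAt ((h.op.prod h.cl.isOpen_compl).mem_nhds ⟨hq1, fun hk => hx (h.sub hk)⟩)

/-- local form of the family in charts -/
theorem loc (h : Cut C i₀ χ U K) (i j : C.ι) {s z : V} (hs : s ∈ U)
    (hz : z ∈ (C.e i).target) (hj : Ph C i₀ χ s ((C.e i).symm z) ∈ (C.e j).source) :
    (z ∈ C.ov i i₀ ∧ g χ s (C.t i i₀ z) ∈ C.ov i₀ j ∧
      ∀ᶠ q : V × V in 𝓝 (s, z), C.e j (Ph C i₀ χ q.1 ((C.e i).symm q.2)) =
        C.t i₀ j (g χ q.1 (C.t i i₀ q.2))) ∨
    (z ∈ C.ov i j ∧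
      ∀ᶠ q : V × V in 𝓝 (s, z), C.e j (Ph C i₀ χ q.1 ((C.e i).symm q.2)) = C.t i j q.2) := by
  by_cases hx : (C.e i).symm z ∈ (C.e i₀).source
  · left
    have h1 : z ∈ C.ov i i₀ := ⟨hz, hx⟩
    refine ⟨h1, ⟨h.mem s hs _ ((C.e i₀).map_source hx), ?_⟩, ?_⟩
    · rw [Ph_src hx] at hj
      exact hj
    · have h2 : ∀ᶠ q : V × V in 𝓝 (s, z), q.2 ∈ C.ov i i₀ :=
        continuous_snd.continuousAt.eventually ((RCh.isOpen_ov i i₀).mem_nhds h1)
      filter_upwards [h2] with q hq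
      rw [Ph_src hq.2]
      rfl
  · right
    have h0 : (C.e i).symm z ∉ K := fun hk => hx (h.sub hk)
    have h1 : Ph C i₀ χ s ((C.e i).symm z) = (C.e i).symm z := h.id' h0
    rw [h1] at hj
    refine ⟨⟨hz, hj⟩, ?_⟩
    have h3 : {y | y ∈ (C.e i).target ∧ (C.e i).symm y ∈ Kᶜ} ∈ 𝓝 z :=
      ((C.e i).symm.isOpen_inter_preimage h.cl.isOpen_compl).mem_nhds ⟨hz, h0⟩
    have h2 : ∀ᶠ q : V × V in 𝓝 (s, z), q.2 ∈ {y | y ∈ (C.e i).target ∧ (C.e i).symm y ∈ Kᶜ} :=
      continuous_snd.continuousAt.eventually h3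
    filter_upwards [h2] with q hq
    rw [h.id' hq.2]
    rfl

theorem dif (h : Cut C i₀ χ U K) : Dif C C U (Ph C i₀ χ) where
  cont := h.cont
  sm i j := by
    rintro ⟨s, z⟩ ⟨hs, hz, hj⟩
    refine ContDiffAt.contDiffWithinAt ?_
    rcases h.loc i j hs hz hj with ⟨h1, h2, h3⟩ | ⟨h1, h3⟩
    · refine ContDiffAt.congr_of_eventuallyEq ?_ h3
      have a1 : ContDiffAt ℝ ∞ (fun q : V × V => (q.1, C.t i i₀ q.2)) (s, z) :=
        contDiffAt_fst.prodMk ((contDiffAt_t h1).comp (s, z) contDiffAt_snd)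
      have a2 : ContDiffAt ℝ ∞ (fun q : V × V => g χ q.1 (C.t i i₀ q.2)) (s, z) :=
        ContDiffAt.comp (g := fun q : V × V => g χ q.1 q.2)
          (f := fun q : V × V => (q.1, C.t i i₀ q.2)) (s, z) (contDiff_g h.sm).contDiffAt a1
      exact ContDiffAt.comp (g := C.t i₀ j)
        (f := fun q : V × V => g χ q.1 (C.t i i₀ q.2)) (s, z) (contDiffAt_t h2) a2
    · refine ContDiffAt.congr_of_eventuallyEq ?_ h3
      exact (contDiffAt_t h1).comp (s, z) contDiffAt_snd
  bij i j s hs z hz hj := by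
    have hc : ContinuousAt (fun y : V => (s, y)) z := by fun_prop
    rcases h.loc i j hs hz hj with ⟨h1, h2, h3⟩ | ⟨h1, h3⟩
    · have h4 : (fun y => C.e j (Ph C i₀ χ s ((C.e i).symm y))) =ᶠ[𝓝 z]
          (C.t i₀ j ∘ g χ s ∘ C.t i i₀) := hc.eventually h3
      rw [h4.fderiv_eq]
      have d1 : DifferentiableAt ℝ (C.t i i₀) z := RCh.t_diff h1
      have d2 : DifferentiableAt ℝ (g χ s) (C.t i i₀ z) :=
        (hasFDerivAt_g h.sm s _).differentiableAt
      have d3 : DifferentiableAt ℝ (C.t i₀ j) (g χ s (C.t i i₀ z)) := RCh.t_diff h2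
      rw [fderiv_comp z d3 (d2.comp z d1), fderiv_comp z d2 d1]
      exact (bij_t h2).comp ((h.bij s hs _).comp (bij_t h1))
    · have h4 : (fun y => C.e j (Ph C i₀ χ s ((C.e i).symm y))) =ᶠ[𝓝 z] C.t i j :=
        hc.eventually h3
      rw [h4.fderiv_eq]
      exact bij_t h1

end Cut

/-- **YV-DIFF**: the literal statement `DiffStmt` of `YV1_833`. -/
theorem diffStmt : DiffStmt := by
  intro V X _ _ _ _ _ C i₀ x₀ x₁ hx₀ hne
  set e := C.e i₀ with he
  set a : V := e x₀ with ha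
  have hat : a ∈ e.target := e.map_source hx₀
  -- the radius
  obtain ⟨r, hr, hr3, hr1⟩ : ∃ r : ℝ, 0 < r ∧ closedBall a (3 * r) ⊆ e.target ∧
      (x₁ ∈ e.source → 2 * r < dist (e x₁) a) := by
    obtain ⟨R, hR, hRt⟩ := nhds_basis_closedBall.mem_iff.1 (e.open_target.mem_nhds hat)
    by_cases h1 : x₁ ∈ e.source
    · have hd : 0 < dist (e x₁) a := dist_pos.2 fun h => hne (e.injOn h1 hx₀ h)
      refine ⟨min (R / 3) (dist (e x₁) a / 3), by positivity, ?_, fun _ => ?_⟩
      · refine (closedBall_subset_closedBall ?_).trans hRt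
        have := min_le_left (R / 3) (dist (e x₁) a / 3)
        linarith
      · have := min_le_right (R / 3) (dist (e x₁) a / 3)
        linarith
    · refine ⟨R / 3, by positivity, ?_, fun h => absurd h h1⟩
      refine (closedBall_subset_closedBall ?_).trans hRt
      linarith
  -- the cut-off function
  let f : ContDiffBump a := ⟨r, 2 * r, hr, by linarith⟩
  set χ : V → ℝ := fun z => f z with hχ
  have hχs : ContDiff ℝ ∞ χ := f.contDiff
  have hχ0 : ∀ z, 2 * r ≤ dist z a → χ z = 0 := fun z hz => f.zero_of_le_dist hz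
  have hχa : χ a = 1 := f.one_of_mem_closedBall (mem_closedBall_self hr.le)
  have hχn : ∀ z, 0 ≤ χ z := fun z => f.nonneg
  have hχ1 : ∀ z, χ z ≤ 1 := fun z => f.le_one
  obtain ⟨L, hL⟩ : ∃ L, ∀ z, ‖fderiv ℝ χ z‖ ≤ L := by
    have hcs : HasCompactSupport χ := f.hasCompactSupport
    exact (hcs.fderiv ℝ).exists_bound_of_continuous (hχs.continuous_fderiv (by simp))
  have hL0 : 0 ≤ L := (norm_nonneg _).trans (hL a)
  set ε : ℝ := min r (1 / (2 * (L + 1))) with hε
  have hε0 : 0 < ε := by positivity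
  set K : Set X := e.symm '' closedBall a (2 * r) with hK
  have hsub : closedBall a (2 * r) ⊆ e.target :=
    (closedBall_subset_closedBall (by linarith)).trans hr3
  have hcut : Cut C i₀ χ (ball (0 : V) ε) K := by
    refine ⟨hχs, isOpen_ball, ?_, ?_, ?_, ?_, ?_⟩
    · intro s hs z hz
      rcases le_or_gt (2 * r) (dist z a) with h | h
      · rw [g_of_zero (hχ0 z h)]
        exact hz
      · refine hr3 ?_
        rw [mem_closedBall, dist_eq_norm]
        have h1 : ‖s‖ < ε := by simpa using hs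
        have h2 : ‖s‖ < r := h1.trans_le (min_le_left _ _)
        have h3 : ‖χ z • s‖ ≤ ‖s‖ := by
          rw [norm_smul, Real.norm_of_nonneg (hχn z)]
          exact mul_le_of_le_one_left (norm_nonneg _) (hχ1 z)
        have h4 : g χ s z - a = (z - a) + χ z • s := by
          simp only [g]; abel
        rw [h4]
        refine (norm_add_le _ _).trans ?_
        rw [dist_eq_norm] at h
        linarith
    · intro s hs z
      refine bij_g hχs hL ?_ z
      have h1 : ‖s‖ < ε := by simpa using hs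
      have h2 : ‖s‖ ≤ 1 / (2 * (L + 1)) := h1.le.trans (min_le_right _ _)
      calc L * ‖s‖ ≤ (L + 1) * (1 / (2 * (L + 1))) := by gcongr; linarith
        _ = 1 / 2 := by field_simp
    · exact ((isCompact_closedBall a (2 * r)).image_of_continuousOn
        (e.continuousOn_symm.mono hsub)).isClosed
    · rintro _ ⟨z, hz, rfl⟩
      exact e.map_target (hsub hz)
    · intro x hx hk
      refine hχ0 _ (le_of_not_gt fun h => hk ⟨e x, ?_, e.left_inv hx⟩)
      exact mem_closedBall.2 h.le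
  refine ⟨ε, Ph C i₀ χ, hε0, hcut.dif, ?_, ?_, ?_⟩
  · funext x
    by_cases hx : x ∈ (C.e i₀).source
    · rw [Ph_src hx, g_zero, (C.e i₀).left_inv hx]
      rfl
    · exact if_neg hx
  · intro s _
    exact Ph_id fun h => hχ0 _ (hr1 h).le
  · intro s hs
    have h1 : ‖s‖ < ε := by simpa using hs
    have h2 : ‖s‖ < r := h1.trans_le (min_le_left _ _)
    refine ⟨hr3 ?_, ?_⟩
    · rw [mem_closedBall, dist_eq_norm, add_sub_cancel_left]
      linarith
    · rw [Ph_src hx₀]
      show e.symm (a + χ a • s) = _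
      rw [hχa, one_smul]

end

end Crest.Agent.R281.YVDiff_818
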