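import Crest.Agent.R281.Nef2_252
import Crest.Agent.R281.Tt3_476

/-!
# Row 281 (S0424), YAU-VAR, leaf PTEX in the language of `Dat` / `SolMA` (helper449), part 1

* `detB_ne`   : nondegenerate forms have non-zero determinant
* `detB_hb`   : (P2) `det (Re h_G (b_k, b_l)) = (det G)² det (Re h_1 (b_k, b_l))`, `G` Hermitian
* `Rt b D`    : the function `r / det (ω(·, J ·))` on `X`: smooth, nowhere 0, of constant sign
-/

set_option autoImplicit false
set_option maxSynthPendingDepth 3
set_option linter.unusedSectionVars false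

open Set Filter Topology Complex
open scoped ContDiff Matrix ComplexConjugate ComplexOrder InnerProductSpace

namespace Crest.Agent.R281.YVMa_449

open Crest.Agent.R260.ACM_580 Crest.Agent.R281.HkR_835
open Crest.Agent.R275.Geo Crest.Agent.R275.Core144 Crest.Agent.R275.EDR890
open Crest.Agent.R281.NefO_476 Crest.Agent.R281.Nef_252 Crest.Agent.R281.Tt_476
open Crest.Agent.R281.Dif_268

noncomputable section

section alg

variable {V : Type} [NormedAddCommGroup V] [NormedSpace ℝ V] {κ : Type} [Fintype κ]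
  [DecidableEq κ]

/-- nondegenerate forms have non-zero determinant -/
theorem detB_ne (b : Module.Basis κ ℝ V) {B : Bil V}
    (h : ∀ u, (∀ v, B u v = 0) → u = 0) : detB b (fun x y => B x y) ≠ 0 := by
  intro h0
  obtain ⟨w, hw, hw0⟩ := Matrix.exists_vecMul_eq_zero_iff.2 h0
  apply hw
  have h1 : ∑ x, w x • b x = 0 := by
    refine h _ fun v => ?_
    have h2 : ∀ y, B (∑ x, w x • b x) (b y) = 0 := by
      intro y
      have h3 := congrFun hw0 y
      simpa [Matrix.vecMul, dotProduct, map_sum, sum_apply, smul_apply] using h3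
    rw [← b.sum_repr v, map_sum]
    refine Finset.sum_eq_zero fun y _ => ?_
    rw [map_smul, h2, smul_zero]
  have h4 := Fintype.linearIndependent_iff.1 b.linearIndependent w h1
  exact funext h4

theorem detB_smooth (b : Module.Basis κ ℝ V) {E : Type} [NormedAddCommGroup E] [NormedSpace ℝ E]
    {U : Set E} {f : E → V → V → ℝ} (hf : ∀ x y, ContDiffOn ℝ ∞ (fun z => f z x y) U) :
    ContDiffOn ℝ ∞ (fun z => detB b (f z)) U := by
  unfold detB
  simp_rw [Matrix.det_apply]
  refine ContDiffOn.sum fun σ _ => ContDiffOn.const_smul _ ?_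
  exact contDiffOn_prod fun k _ => hf _ _

end alg

section hermitian

variable {n : ℕ} {κ : Type} [Fintype κ] [DecidableEq κ]

/-- the real determinant of a complex matrix -/
theorem det_mL (G : Matrix (Fin n) (Fin n) ℂ) :
    LinearMap.det (mL G : Cn n →ₗ[ℝ] Cn n) = Complex.normSq G.det := by
  have h1 : (mL G : Cn n →ₗ[ℝ] Cn n) = (Matrix.toEuclideanLin G).restrictScalars ℝ := rfl
  rw [h1, LinearMap.det_restrictScalars, Algebra.norm_complex_apply]
  congr 1
  have h2 : Matrix.toEuclideanLin G =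
      Matrix.toLin (EuclideanSpace.basisFun (Fin n) ℂ).toBasis
        (EuclideanSpace.basisFun (Fin n) ℂ).toBasis G := by
    rw [Matrix.toEuclideanLin_eq_toLin_orthonormal]
  rw [h2, LinearMap.det_toLin]

theorem detB_bM (b : Module.Basis κ ℝ (Cn n)) (T : Cn n →L[ℝ] Cn n) :
    detB b (fun x y => bM T x y) = LinearMap.det (T : Cn n →ₗ[ℝ] Cn n) *
      detB b (fun x y => (⟪x, y⟫_ℝ : ℝ)) := by
  have h1 : (Matrix.of fun k l => bM T (b k) (b l)) =
      (LinearMap.toMatrix b b (T : Cn n →ₗ[ℝ] Cn n))ᵀ *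
        (Matrix.of fun k l => (⟪b k, b l⟫_ℝ : ℝ)) := by
    ext k l
    rw [Matrix.mul_apply]
    show (⟪T (b k), b l⟫_ℝ : ℝ) = _
    conv_lhs => rw [← b.sum_repr (T (b k)), sum_inner]
    refine Finset.sum_congr rfl fun m _ => ?_
    rw [real_inner_smul_left, Matrix.transpose_apply, LinearMap.toMatrix_apply]
    rfl
  unfold detB
  rw [h1, Matrix.det_mul, Matrix.det_transpose, LinearMap.det_toMatrix]

/-- (P2) the real determinant of a Hermitian form -/
theorem detB_hb (b : Module.Basis κ ℝ (Cn n)) {G : Matrix (Fin n) (Fin n) ℂ}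
    (hG : G.IsHermitian) : detB b (fun x y => (hb G x y).re) =
      G.det.re ^ 2 * detB b (fun x y => (⟪x, y⟫_ℝ : ℝ)) := by
  have h1 : (fun x y => (hb G x y).re) = fun x y => bM (mL Gᵀ) x y := by
    funext x y
    rw [bM_mL G hG]
  have h2 : G.det.im = 0 := by
    have h3 : conj G.det = G.det := by
      have h4 := congrArg Matrix.det hG.eq
      rwa [Matrix.det_conjTranspose] at h4
    exact Complex.conj_eq_iff_im.1 h3
  rw [h1, detB_bM, det_mL, Matrix.det_transpose, Complex.normSq_apply, h2]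
  ring

end hermitian

/-! ### the ratio -/

section ratio

variable {V X : Type} [NormedAddCommGroup V] [NormedSpace ℝ V] [TopologicalSpace X]
  {C : RCh V X} {κ : Type} [Fintype κ] [DecidableEq κ] (b : Module.Basis κ ℝ V) (D : Dat C)

/-- the form `w (x, J y)` -/
def wJ (J : AJ C) (w : F2 C) (i : C.ι) (z : V) : Bil V :=
  ((w.w i z).flip.comp (J.J i z)).flip

@[simp] theorem wJ_apply (J : AJ C) (w : F2 C) (i : C.ι) (z x y : V) :
    wJ J w i z x y = w.w i z x (J.J i z y) := rfl

/-- `det (w(·, J ·))` in the chart `i` -/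
def dJ (J : AJ C) (w : F2 C) (i : C.ι) (z : V) : ℝ := detB b (fun x y => w.w i z x (J.J i z y))

theorem dJ_ne {J : AJ C} {w : F2 C} (hw : Pos J w) {i : C.ι} {z : V} (hz : z ∈ (C.e i).target) :
    dJ b J w i z ≠ 0 := by
  refine detB_ne b (B := wJ J w i z) fun u hu => ?_
  by_contra h0
  have h1 := hw i z hz u h0
  have h2 := hu u
  rw [wJ_apply] at h2
  linarith

theorem dJ_smooth (J : AJ C) (w : F2 C) (i : C.ι) :
    ContDiffOn ℝ ∞ (dJ b J w i) (C.e i).target := by
  refine detB_smooth b (f := fun z x y => w.w i z x (J.J i z y)) fun x y => ?_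
  exact ((w.sm i).clm_apply contDiffOn_const).clm_apply ((J.sm i).clm_apply contDiffOn_const)

theorem dJ_tr [FiniteDimensional ℝ V] [MeasurableSpace V] [BorelSpace V] (J : AJ C) (w : F2 C)
    {i j : C.ι} {z : V} (hz : z ∈ C.ov i j) :
    dJ b J w i z = dJ b J w j (C.t i j z) * (fderiv ℝ (C.t i j) z).det ^ 2 := by
  have h1 := detB_pull b (wJ J w j (C.t i j z)) (fderiv ℝ (C.t i j) z)
  have h2 : dJ b J w i z = detB b (fun x y => wJ J w j (C.t i j z)
      (fderiv ℝ (C.t i j) z x) (fderiv ℝ (C.t i j) z y)) := by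
    unfold dJ
    congr 1
    funext x y
    rw [wJ_apply, w.tr i j z hz, J.tr i j z hz]
  rw [h2, h1]
  rfl

/-- a chart at the point `x` -/
def ix (C : RCh V X) (x : X) : C.ι := Classical.choose (C.cover x)

theorem ix_mem (C : RCh V X) (x : X) : x ∈ (C.e (ix C x)).source :=
  Classical.choose_spec (C.cover x)

/-- `r / det (ω(·, J ·))` -/
def Rt (x : X) : ℝ :=
  D.r.r (ix C x) (C.e (ix C x) x) / dJ b D.J D.om (ix C x) (C.e (ix C x) x)

variable [FiniteDimensional ℝ V] [MeasurableSpace V] [BorelSpace V]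

theorem det_t_ne {i j : C.ι} {z : V} (hz : z ∈ C.ov i j) : (fderiv ℝ (C.t i j) z).det ≠ 0 := by
  intro h0
  have h1 : (fderiv ℝ (C.t j i) (C.t i j z)) ∘L (fderiv ℝ (C.t i j) z) =
      ContinuousLinearMap.id ℝ V := by
    ext v
    exact RCh.dt_dt hz v
  have h2 := congrArg ContinuousLinearMap.det h1
  rw [det_comp', h0, mul_zero] at h2
  have h3 : (ContinuousLinearMap.id ℝ V).det = 1 := LinearMap.det_id
  rw [h3] at h2
  exact zero_ne_one h2

theorem Rt_eq {i : C.ι} {x : X} (hx : x ∈ (C.e i).source) :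
    Rt b D x = D.r.r i (C.e i x) / dJ b D.J D.om i (C.e i x) := by
  have h0 := ix_mem C x
  have hz : C.e (ix C x) x ∈ C.ov (ix C x) i := by
    refine ⟨(C.e _).map_source h0, ?_⟩
    rw [(C.e _).left_inv h0]
    exact hx
  have ht : C.t (ix C x) i (C.e (ix C x) x) = C.e i x := by
    show C.e i ((C.e _).symm (C.e _ x)) = _
    rw [(C.e _).left_inv h0]
  rw [Rt, D.r.tr _ i _ hz, dJ_tr b D.J D.om hz, ht,
    mul_div_mul_right _ _ (pow_ne_zero 2 (det_t_ne hz))]

variable (hp : Pos D.J D.om) (hr : ∀ i, ∀ z ∈ (C.e i).target, D.r.r i z ≠ 0)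
include hp hr

theorem Rt_ne (x : X) : Rt b D x ≠ 0 := by
  have h0 := (C.e _).map_source (ix_mem C x)
  exact div_ne_zero (hr _ _ h0) (dJ_ne b hp h0)

theorem Rt_sm : Sm C (Rt b D) := by
  intro i z hz
  have h1 : ContDiffOn ℝ ∞ (fun y => D.r.r i y / dJ b D.J D.om i y) (C.e i).target :=
    (D.r.sm i).div (dJ_smooth b D.J D.om i) fun y hy => dJ_ne b hp hy
  refine (h1.congr fun y hy => ?_) z hz
  show Rt b D ((C.e i).symm y) = _
  rw [Rt_eq b D ((C.e i).map_target hy), (C.e i).right_inv hy]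

theorem Rt_cont : Continuous (Rt b D) := by
  rw [continuous_iff_continuousAt]
  intro x
  obtain ⟨j, hj⟩ := C.cover x
  have h1 := (Rt_sm b D hp hr j).continuousOn.continuousAt
    ((C.e j).open_target.mem_nhds ((C.e j).map_source hj))
  have h2 : ContinuousAt (fun y => Rt b D ((C.e j).symm (C.e j y))) x :=
    ContinuousAt.comp (g := fun y => Rt b D ((C.e j).symm y)) (f := C.e j) h1
      ((C.e j).continuousAt hj)
  refine h2.congr ?_
  filter_upwards [(C.e j).open_source.mem_nhds hj] with y hy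
  rw [(C.e j).left_inv hy]

/-- the sign of the ratio is constant -/
theorem Rt_sign [PreconnectedSpace X] : ∃ s : ℝ, ∀ x, |Rt b D x| = s * Rt b D x := by
  by_cases h : ∃ a, Rt b D a ≤ 0
  · refine ⟨-1, fun x => ?_⟩
    have h1 : Rt b D x < 0 := by
      by_contra h2
      push Not at h2
      obtain ⟨y, hy⟩ := mem_range_of_exists_le_of_exists_ge (Rt_cont b D hp hr) h ⟨x, h2⟩
      exact Rt_ne b D hp hr y hy
    rw [abs_of_neg h1]
    ring
  · push Not at h
    exact ⟨1, fun x => by rw [abs_of_pos (h x), one_mul]⟩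

end ratio

end

end Crest.Agent.R281.YVMa_449
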