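import Crest.Agent.R281.YV1_833

/-!
# Row 281 (S0424), YAU-VAR, leaf YV-PULL (helper93): pull back of a family of data

`pull (h1 : DdcPull) (h2 : NijPull) : PullStmt`
-/

set_option autoImplicit false
set_option linter.unusedSectionVars false

open Set Filter Topology Complex Metric
open scoped ContDiff

namespace Crest.Agent.R281.YVPull_93

open Crest.Agent.R260.ACM_580 Crest.Agent.R281.HkR_835 Crest.Agent.R281.YV_833

noncomputable section

section lin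

variable {V V' : Type} [NormedAddCommGroup V] [NormedSpace ℝ V] [FiniteDimensional ℝ V]
  [NormedAddCommGroup V'] [NormedSpace ℝ V'] [FiniteDimensional ℝ V']

/-- the determinant of a bilinear form under a bijective linear substitution -/
theorem bdet_comp (T : V' →L[ℝ] V) (hT : Function.Bijective T) :
    ∃ κ : ℝ, κ ≠ 0 ∧ ∀ B : Bil V, bdet (B.bilinearComp T T) = κ * bdet B := by
  let e : V' ≃ₗ[ℝ] V := LinearEquiv.ofBijective (T : V' →ₗ[ℝ] V) hT
  have hn : Module.finrank ℝ V' = Module.finrank ℝ V := e.finrank_eq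
  let b := Module.finBasis ℝ V
  let b' := Module.finBasis ℝ V'
  let c : Module.Basis (Fin (Module.finrank ℝ V)) ℝ V := (b'.map e).reindex (finCongr hn)
  refine ⟨(b.toMatrix c).det ^ 2, pow_ne_zero _ ?_, fun B => ?_⟩
  · have h1 := b.isUnit_det c
    rw [Module.Basis.det_apply] at h1
    exact h1.ne_zero
  · let B' : LinearMap.BilinForm ℝ V :=
      LinearMap.mk₂ ℝ (fun u v => B u v) (by simp) (by simp) (by simp) (by simp)
    have h1 := LinearMap.BilinForm.toMatrix_mul_basis_toMatrix (b := b) c B'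
    have h2 := congrArg Matrix.det h1
    rw [Matrix.det_mul, Matrix.det_mul, Matrix.det_transpose] at h2
    have h3 : (LinearMap.BilinForm.toMatrix b B').det = bdet B := by
      rw [bdet]
      congr 1
      ext x y
      simp [LinearMap.BilinForm.toMatrix_apply, B', b]
    have h4 : (LinearMap.BilinForm.toMatrix c B').det = bdet (B.bilinearComp T T) := by
      rw [bdet, ← Matrix.det_submatrix_equiv_self (finCongr hn)]
      congr 1
      ext x y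
      simp only [Matrix.submatrix_apply, LinearMap.BilinForm.toMatrix_apply, Matrix.of_apply]
      simp [B', c, b', e]
    rw [← h4, ← h2, h3]
    ring

/-- the continuous linear equivalence of a bijective map -/
def eqv (T : V' →L[ℝ] V) (hT : Function.Bijective T) : V' ≃L[ℝ] V :=
  (LinearEquiv.ofBijective (T : V' →ₗ[ℝ] V) hT).toContinuousLinearEquiv

theorem coe_eqv (T : V' →L[ℝ] V) (hT : Function.Bijective T) :
    ((eqv T hT : V' ≃L[ℝ] V) : V' →L[ℝ] V) = T := by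
  ext v
  rfl

theorem inv_app {T : V' →L[ℝ] V} (hT : Function.Bijective T) (v : V) : T (T.inverse v) = v := by
  have h : T.inverse = ((eqv T hT).symm : V →L[ℝ] V') := by
    conv_lhs => rw [← coe_eqv T hT]
    exact ContinuousLinearMap.inverse_equiv _
  rw [h]
  exact (eqv T hT).apply_symm_apply v

theorem contDiffAt_inv {T : V' →L[ℝ] V} (hT : Function.Bijective T) :
    ContDiffAt ℝ ∞ (ContinuousLinearMap.inverse : (V' →L[ℝ] V) → V →L[ℝ] V') T := by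
  have : CompleteSpace V' := FiniteDimensional.complete ℝ V'
  have h := contDiffAt_map_inverse (𝕜 := ℝ) (n := ∞) (eqv T hT)
  rwa [coe_eqv] at h

end lin

/-! ### the chart expressions of a family of local diffeomorphisms -/

variable {V V' X X' : Type} [NormedAddCommGroup V] [NormedSpace ℝ V] [TopologicalSpace X]
  [NormedAddCommGroup V'] [NormedSpace ℝ V'] [TopologicalSpace X']
  {P P' : Type} [NormedAddCommGroup P] [NormedSpace ℝ P] [NormedAddCommGroup P']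
  [NormedSpace ℝ P']

/-- the map `Φ p` in the charts `C'.e i`, `C.e j` -/
def fm (C : RCh V X) (C' : RCh V' X') (Φ : P' → X' → X) (i : C'.ι) (j : C.ι) (p : P') (z : V') :
    V := C.e j (Φ p ((C'.e i).symm z))

/-- its domain -/
def dm (C : RCh V X) (C' : RCh V' X') (U' : Set P') (Φ : P' → X' → X) (i : C'.ι) (j : C.ι) :
    Set (P' × V') :=
  {q | q.1 ∈ U' ∧ q.2 ∈ (C'.e i).target ∧ Φ q.1 ((C'.e i).symm q.2) ∈ (C.e j).source}

/-- its derivative in the direction of `V'` -/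
def df (C : RCh V X) (C' : RCh V' X') (Φ : P' → X' → X) (i : C'.ι) (j : C.ι) (q : P' × V') :
    V' →L[ℝ] V := fderiv ℝ (fun y => fm C C' Φ i j q.1 y) q.2

/-- slices of smooth functions -/
theorem slice {W : Type} [NormedAddCommGroup W] [NormedSpace ℝ W] {g : P' × V' → W}
    {D : Set (P' × V')} (hD : IsOpen D) (hg : ContDiffOn ℝ ∞ g D) {p : P'} {z : V'}
    (h : (p, z) ∈ D) : ContDiffAt ℝ ∞ (fun y => g (p, y)) z :=
  (hg.contDiffAt (hD.mem_nhds h)).comp z (contDiffAt_const.prodMk contDiffAt_id)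

theorem slice_nhds {D : Set (P' × V')} (hD : IsOpen D) {p : P'} {z : V'} (h : (p, z) ∈ D) :
    ∀ᶠ y in 𝓝 z, (p, y) ∈ D :=
  (Continuous.prodMk_right p).continuousAt.preimage_mem_nhds (hD.mem_nhds h)

section

variable {C : RCh V X} {C' : RCh V' X'} {U : Set P} {U' : Set P'} {Φ : P' → X' → X}

theorem isOpen_dm (hU' : IsOpen U') (hΦ : Dif C' C U' Φ) (i : C'.ι) (j : C.ι) :
    IsOpen (dm C C' U' Φ i j) := by
  have h1 : ContinuousOn (fun q : P' × V' => Φ q.1 ((C'.e i).symm q.2))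
      (U' ×ˢ (C'.e i).target) := by
    have h2 : ContinuousOn (fun q : P' × V' => (q.1, (C'.e i).symm q.2))
        (U' ×ˢ (C'.e i).target) :=
      continuousOn_fst.prodMk ((C'.e i).continuousOn_symm.comp continuousOn_snd fun q hq => hq.2)
    exact hΦ.cont.comp h2 fun q hq => ⟨hq.1, mem_univ _⟩
  have h3 := h1.isOpen_inter_preimage (hU'.prod (C'.e i).open_target) (C.e j).open_source
  convert h3 using 1
  ext q
  simp only [dm, mem_ofPred_eq, mem_inter_iff, mem_prod, mem_preimage]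
  tauto

theorem fm_sm (hΦ : Dif C' C U' Φ) (i : C'.ι) (j : C.ι) :
    ContDiffOn ℝ ∞ (fun q : P' × V' => fm C C' Φ i j q.1 q.2) (dm C C' U' Φ i j) := hΦ.sm i j

theorem df_bij (hΦ : Dif C' C U' Φ) {i : C'.ι} {j : C.ι} {q : P' × V'}
    (hq : q ∈ dm C C' U' Φ i j) : Function.Bijective (df C C' Φ i j q) :=
  hΦ.bij i j q.1 hq.1 q.2 hq.2.1 hq.2.2

theorem df_eq (hU' : IsOpen U') (hΦ : Dif C' C U' Φ) {i : C'.ι} {j : C.ι} {q : P' × V'}
    (hq : q ∈ dm C C' U' Φ i j) : df C C' Φ i j q =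
      (fderiv ℝ (fun q : P' × V' => fm C C' Φ i j q.1 q.2) q).comp
        (ContinuousLinearMap.inr ℝ P' V') := by
  have h1 : HasFDerivAt (fun q : P' × V' => fm C C' Φ i j q.1 q.2)
      (fderiv ℝ (fun q : P' × V' => fm C C' Φ i j q.1 q.2) q) (q.1, q.2) :=
    (((fm_sm hΦ i j).contDiffAt ((isOpen_dm hU' hΦ i j).mem_nhds hq)).differentiableAt
      (by simp)).hasFDerivAt
  exact (h1.comp q.2 (hasFDerivAt_prodMk_right q.1 q.2)).fderiv

theorem df_sm (hU' : IsOpen U') (hΦ : Dif C' C U' Φ) (i : C'.ι) (j : C.ι) :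
    ContDiffOn ℝ ∞ (df C C' Φ i j) (dm C C' U' Φ i j) := by
  have h1 : ContDiffOn ℝ ∞ (fderiv ℝ (fun q : P' × V' => fm C C' Φ i j q.1 q.2))
      (dm C C' U' Φ i j) := (fm_sm hΦ i j).fderiv_of_isOpen (isOpen_dm hU' hΦ i j) (by simp)
  exact (h1.clm_comp contDiffOn_const).congr fun q hq => df_eq hU' hΦ hq

theorem fm_target {i : C'.ι} {j : C.ι} {q : P' × V'} (hq : q ∈ dm C C' U' Φ i j) :
    fm C C' Φ i j q.1 q.2 ∈ (C.e j).target := (C.e j).map_source hq.2.2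

theorem fm_slice (hU' : IsOpen U') (hΦ : Dif C' C U' Φ) {i : C'.ι} {j : C.ι} {p : P'} {z : V'}
    (hq : (p, z) ∈ dm C C' U' Φ i j) : ContDiffAt ℝ ∞ (fun y => fm C C' Φ i j p y) z :=
  slice (isOpen_dm hU' hΦ i j) (fm_sm hΦ i j) hq

/-- change of the chart of `X` -/
theorem fm_t {i : C'.ι} {j j' : C.ι} {q : P' × V'} (hq : q ∈ dm C C' U' Φ i j) :
    C.t j j' (fm C C' Φ i j q.1 q.2) = fm C C' Φ i j' q.1 q.2 := by
  show C.e j' ((C.e j).symm (C.e j _)) = C.e j' _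
  rw [(C.e j).left_inv hq.2.2]

theorem fm_ov {i : C'.ι} {j j' : C.ι} {q : P' × V'} (hq : q ∈ dm C C' U' Φ i j)
    (hq' : q ∈ dm C C' U' Φ i j') : fm C C' Φ i j q.1 q.2 ∈ C.ov j j' := by
  refine ⟨fm_target hq, ?_⟩
  show (C.e j).symm (C.e j _) ∈ _
  rw [(C.e j).left_inv hq.2.2]
  exact hq'.2.2

theorem df_t (hU' : IsOpen U') (hΦ : Dif C' C U' Φ) {i : C'.ι} {j j' : C.ι} {q : P' × V'}
    (hq : q ∈ dm C C' U' Φ i j) (hq' : q ∈ dm C C' U' Φ i j') (v : V') :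
    fderiv ℝ (C.t j j') (fm C C' Φ i j q.1 q.2) (df C C' Φ i j q v) = df C C' Φ i j' q v := by
  obtain ⟨p, z⟩ := q
  have h1 : (fun y => C.t j j' (fm C C' Φ i j p y)) =ᶠ[𝓝 z] fun y => fm C C' Φ i j' p y := by
    filter_upwards [slice_nhds (isOpen_dm hU' hΦ i j) hq] with y hy using fm_t hy
  have h2 : HasFDerivAt (fun y => fm C C' Φ i j p y) (df C C' Φ i j (p, z)) z :=
    ((fm_slice hU' hΦ hq).differentiableAt (by simp)).hasFDerivAt
  have h3 : HasFDerivAt (C.t j j') (fderiv ℝ (C.t j j') (fm C C' Φ i j p z))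
      (fm C C' Φ i j p z) := (RCh.t_diff (fm_ov hq hq')).hasFDerivAt
  have h4 := (h3.comp z h2).fderiv
  have h5 : (C.t j j' ∘ fun y => fm C C' Φ i j p y) = fun y => C.t j j' (fm C C' Φ i j p y) := rfl
  rw [h5, h1.fderiv_eq] at h4
  exact (congrArg (fun T : V' →L[ℝ] V => T v) h4).symm

/-- change of the chart of `X'` -/
theorem fm_t' {i i' : C'.ι} {j : C.ι} {p : P'} {z : V'} (hz : z ∈ C'.ov i i') :
    fm C C' Φ i' j p (C'.t i i' z) = fm C C' Φ i j p z := by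
  show C.e j (Φ p ((C'.e i').symm (C'.e i' ((C'.e i).symm z)))) = _
  rw [(C'.e i').left_inv hz.2]
  rfl

theorem dm_t' {i i' : C'.ι} {j : C.ι} {p : P'} {z : V'} (hz : z ∈ C'.ov i i')
    (hq : (p, z) ∈ dm C C' U' Φ i j) : (p, C'.t i i' z) ∈ dm C C' U' Φ i' j := by
  refine ⟨hq.1, (RCh.t_mem hz).1, ?_⟩
  show Φ p ((C'.e i').symm (C'.e i' ((C'.e i).symm z))) ∈ _
  rw [(C'.e i').left_inv hz.2]
  exact hq.2.2

theorem df_t' (hU' : IsOpen U') (hΦ : Dif C' C U' Φ) {i i' : C'.ι} {j : C.ι} {p : P'} {z : V'}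
    (hz : z ∈ C'.ov i i') (hq : (p, z) ∈ dm C C' U' Φ i j) (v : V') :
    df C C' Φ i' j (p, C'.t i i' z) (fderiv ℝ (C'.t i i') z v) = df C C' Φ i j (p, z) v := by
  have h1 : (fun y => fm C C' Φ i' j p (C'.t i i' y)) =ᶠ[𝓝 z] fun y => fm C C' Φ i j p y := by
    filter_upwards [(RCh.isOpen_ov i i').mem_nhds hz] with y hy using fm_t' hy
  have h2 : HasFDerivAt (fun y => fm C C' Φ i' j p y) (df C C' Φ i' j (p, C'.t i i' z))
      (C'.t i i' z) :=
    ((fm_slice hU' hΦ (dm_t' hz hq)).differentiableAt (by simp)).hasFDerivAt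
  have h4 := (h2.comp z (RCh.t_diff hz).hasFDerivAt).fderiv
  have h5 : ((fun y => fm C C' Φ i' j p y) ∘ C'.t i i') =
    fun y => fm C C' Φ i' j p (C'.t i i' y) := rfl
  rw [h5, h1.fderiv_eq] at h4
  exact (congrArg (fun T : V' →L[ℝ] V => T v) h4).symm

/-- a chart of `X` around `Φ p x'` -/
def idx (C : RCh V X) (C' : RCh V' X') (Φ : P' → X' → X) (i : C'.ι) (q : P' × V') : C.ι :=
  Classical.choose (C.cover (Φ q.1 ((C'.e i).symm q.2)))

theorem idx_mem {i : C'.ι} {q : P' × V'} (h1 : q.1 ∈ U') (h2 : q.2 ∈ (C'.e i).target) :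
    q ∈ dm C C' U' Φ i (idx C C' Φ i q) :=
  ⟨h1, h2, Classical.choose_spec (C.cover (Φ q.1 ((C'.e i).symm q.2)))⟩

/-! ### pull back of bilinear forms -/

/-- pull back of a family of bilinear forms -/
def wp (C : RCh V X) (C' : RCh V' X') (Φ : P' → X' → X) (π : P' → P) (w : C.ι → P × V → Bil V)
    (i : C'.ι) (j : C.ι) (q : P' × V') : Bil V' :=
  (w j (π q.1, fm C C' Φ i j q.1 q.2)).bilinearComp (df C C' Φ i j q) (df C C' Φ i j q)

variable {π : P' → P} {w : C.ι → P × V → Bil V}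

@[simp] theorem wp_apply (i : C'.ι) (j : C.ι) (q : P' × V') (u v : V') :
    wp C C' Φ π w i j q u v =
      w j (π q.1, fm C C' Φ i j q.1 q.2) (df C C' Φ i j q u) (df C C' Φ i j q v) := rfl

/-- the transition law of a family of bilinear forms -/
def Tr (C : RCh V X) (U : Set P) (w : C.ι → P × V → Bil V) : Prop :=
  ∀ i j, ∀ p ∈ U, ∀ z ∈ C.ov i j, ∀ u v, w i (p, z) u v =
    w j (p, C.t i j z) (fderiv ℝ (C.t i j) z u) (fderiv ℝ (C.t i j) z v)

theorem wp_indep (hU' : IsOpen U') (hΦ : Dif C' C U' Φ) (hπ : MapsTo π U' U) (hw : Tr C U w)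
    {i : C'.ι} {j j' : C.ι} {q : P' × V'} (hq : q ∈ dm C C' U' Φ i j)
    (hq' : q ∈ dm C C' U' Φ i j') : wp C C' Φ π w i j q = wp C C' Φ π w i j' q := by
  ext u v
  rw [wp_apply, wp_apply, hw j j' (π q.1) (hπ hq.1) _ (fm_ov hq hq'), fm_t hq,
    df_t hU' hΦ hq hq', df_t hU' hΦ hq hq']

theorem wp_sm (hU' : IsOpen U') (hΦ : Dif C' C U' Φ) (hπs : ContDiffOn ℝ ∞ π U')
    (hπ : MapsTo π U' U) (hw : ∀ j, ContDiffOn ℝ ∞ (w j) (U ×ˢ (C.e j).target)) (i : C'.ι)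
    (j : C.ι) : ContDiffOn ℝ ∞ (wp C C' Φ π w i j) (dm C C' U' Φ i j) := by
  have h0 : ContDiffOn ℝ ∞ (fun q : P' × V' => (π q.1, fm C C' Φ i j q.1 q.2))
      (dm C C' U' Φ i j) :=
    (hπs.comp contDiffOn_fst fun q hq => hq.1).prodMk (fm_sm hΦ i j)
  have h1 : ContDiffOn ℝ ∞ (fun q : P' × V' => w j (π q.1, fm C C' Φ i j q.1 q.2))
      (dm C C' U' Φ i j) := (hw j).comp h0 fun q hq => ⟨hπ hq.1, fm_target hq⟩
  have h2 := df_sm hU' hΦ i j
  have h3 : ContDiffOn ℝ ∞ (fun q : P' × V' => (w j (π q.1, fm C C' Φ i j q.1 q.2)).comp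
      (df C C' Φ i j q)) (dm C C' U' Φ i j) := h1.clm_comp h2
  have hb : ContDiff ℝ ∞ (fun T : V' →L[ℝ] V => (ContinuousLinearMap.compL ℝ V' V ℝ).flip T) := by
    fun_prop
  have h4 : ContDiffOn ℝ ∞
      (fun q => (ContinuousLinearMap.compL ℝ V' V ℝ).flip (df C C' Φ i j q))
      (dm C C' U' Φ i j) := hb.comp_contDiffOn h2
  exact h4.clm_comp h3

/-- the pulled back family -/
def wq (C : RCh V X) (C' : RCh V' X') (Φ : P' → X' → X) (π : P' → P) (w : C.ι → P × V → Bil V)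
    (i : C'.ι) (q : P' × V') : Bil V' := wp C C' Φ π w i (idx C C' Φ i q) q

theorem wq_eq (hU' : IsOpen U') (hΦ : Dif C' C U' Φ) (hπ : MapsTo π U' U) (hw : Tr C U w)
    {i : C'.ι} {j : C.ι} {q : P' × V'} (hq : q ∈ dm C C' U' Φ i j) :
    wq C C' Φ π w i q = wp C C' Φ π w i j q :=
  wp_indep hU' hΦ hπ hw (idx_mem hq.1 hq.2.1) hq

theorem wq_sm (hU' : IsOpen U') (hΦ : Dif C' C U' Φ) (hπs : ContDiffOn ℝ ∞ π U')
    (hπ : MapsTo π U' U) (hw : ∀ j, ContDiffOn ℝ ∞ (w j) (U ×ˢ (C.e j).target)) (ht : Tr C U w)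
    (i : C'.ι) : ContDiffOn ℝ ∞ (wq C C' Φ π w i) (U' ×ˢ (C'.e i).target) := by
  intro q hq
  have hi := idx_mem (C := C) (Φ := Φ) hq.1 hq.2
  have h0 := isOpen_dm hU' hΦ i (idx C C' Φ i q)
  have h2 : ContDiffAt ℝ ∞ (wq C C' Φ π w i) q :=
    ((wp_sm hU' hΦ hπs hπ hw i _).contDiffAt (h0.mem_nhds hi)).congr_of_eventuallyEq (by
      filter_upwards [h0.mem_nhds hi] with y hy using wq_eq hU' hΦ hπ ht hy)
  exact h2.contDiffWithinAt

theorem wq_tr (hU' : IsOpen U') (hΦ : Dif C' C U' Φ) (hπ : MapsTo π U' U) (hw : Tr C U w) :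
    Tr C' U' (wq C C' Φ π w) := by
  intro i i' p hp z hz u v
  have hi := idx_mem (C := C) (Φ := Φ) (q := (p, z)) hp hz.1
  rw [wq_eq hU' hΦ hπ hw hi, wq_eq hU' hΦ hπ hw (dm_t' hz hi), wp_apply, wp_apply,
    df_t' hU' hΦ hz hi, df_t' hU' hΦ hz hi, fm_t' hz]

/-! ### pull back of endomorphisms -/

section J

variable [FiniteDimensional ℝ V] [FiniteDimensional ℝ V']

/-- pull back of a family of endomorphisms -/
def Jp (C : RCh V X) (C' : RCh V' X') (Φ : P' → X' → X) (π : P' → P)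
    (J : C.ι → P × V → V →L[ℝ] V) (i : C'.ι) (j : C.ι) (q : P' × V') : V' →L[ℝ] V' :=
  (df C C' Φ i j q).inverse.comp
    ((J j (π q.1, fm C C' Φ i j q.1 q.2)).comp (df C C' Φ i j q))

variable {J : C.ι → P × V → V →L[ℝ] V}

theorem df_Jp (hΦ : Dif C' C U' Φ) {i : C'.ι} {j : C.ι} {q : P' × V'}
    (hq : q ∈ dm C C' U' Φ i j) (v : V') : df C C' Φ i j q (Jp C C' Φ π J i j q v) =
      J j (π q.1, fm C C' Φ i j q.1 q.2) (df C C' Φ i j q v) := by
  simp only [Jp, ContinuousLinearMap.coe_comp, Function.comp_apply]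
  exact inv_app (df_bij hΦ hq) _

/-- the transition law of a family of endomorphisms -/
def TrJ (C : RCh V X) (U : Set P) (J : C.ι → P × V → V →L[ℝ] V) : Prop :=
  ∀ i j, ∀ p ∈ U, ∀ z ∈ C.ov i j, ∀ v,
    fderiv ℝ (C.t i j) z (J i (p, z) v) = J j (p, C.t i j z) (fderiv ℝ (C.t i j) z v)

theorem Jp_indep (hU' : IsOpen U') (hΦ : Dif C' C U' Φ) (hπ : MapsTo π U' U) (hJ : TrJ C U J)
    {i : C'.ι} {j j' : C.ι} {q : P' × V'} (hq : q ∈ dm C C' U' Φ i j)
    (hq' : q ∈ dm C C' U' Φ i j') : Jp C C' Φ π J i j q = Jp C C' Φ π J i j' q := by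
  ext v
  refine (df_bij hΦ hq').1 ?_
  rw [df_Jp hΦ hq', ← df_t hU' hΦ hq hq', df_Jp hΦ hq, hJ j j' (π q.1) (hπ hq.1) _
    (fm_ov hq hq'), fm_t hq, df_t hU' hΦ hq hq']

theorem Jp_sm (hU' : IsOpen U') (hΦ : Dif C' C U' Φ) (hπs : ContDiffOn ℝ ∞ π U')
    (hπ : MapsTo π U' U) (hJ : ∀ j, ContDiffOn ℝ ∞ (J j) (U ×ˢ (C.e j).target)) (i : C'.ι)
    (j : C.ι) : ContDiffOn ℝ ∞ (Jp C C' Φ π J i j) (dm C C' U' Φ i j) := by
  have h0 : ContDiffOn ℝ ∞ (fun q : P' × V' => (π q.1, fm C C' Φ i j q.1 q.2))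
      (dm C C' U' Φ i j) :=
    (hπs.comp contDiffOn_fst fun q hq => hq.1).prodMk (fm_sm hΦ i j)
  have h1 : ContDiffOn ℝ ∞ (fun q : P' × V' => J j (π q.1, fm C C' Φ i j q.1 q.2))
      (dm C C' U' Φ i j) := (hJ j).comp h0 fun q hq => ⟨hπ hq.1, fm_target hq⟩
  have h2 := df_sm hU' hΦ i j
  have h3 : ContDiffOn ℝ ∞ (fun q => (df C C' Φ i j q).inverse) (dm C C' U' Φ i j) := by
    intro q hq
    have h4 : ContDiffAt ℝ ∞ (df C C' Φ i j) q :=
      h2.contDiffAt ((isOpen_dm hU' hΦ i j).mem_nhds hq)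
    exact ((contDiffAt_inv (df_bij hΦ hq)).comp q h4).contDiffWithinAt
  exact h3.clm_comp (h1.clm_comp h2)

/-- the pulled back family -/
def Jq (C : RCh V X) (C' : RCh V' X') (Φ : P' → X' → X) (π : P' → P)
    (J : C.ι → P × V → V →L[ℝ] V) (i : C'.ι) (q : P' × V') : V' →L[ℝ] V' :=
  Jp C C' Φ π J i (idx C C' Φ i q) q

theorem Jq_eq (hU' : IsOpen U') (hΦ : Dif C' C U' Φ) (hπ : MapsTo π U' U) (hJ : TrJ C U J)
    {i : C'.ι} {j : C.ι} {q : P' × V'} (hq : q ∈ dm C C' U' Φ i j) :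
    Jq C C' Φ π J i q = Jp C C' Φ π J i j q :=
  Jp_indep hU' hΦ hπ hJ (idx_mem hq.1 hq.2.1) hq

theorem df_Jq (hU' : IsOpen U') (hΦ : Dif C' C U' Φ) (hπ : MapsTo π U' U) (hJ : TrJ C U J)
    {i : C'.ι} {j : C.ι} {q : P' × V'} (hq : q ∈ dm C C' U' Φ i j) (v : V') :
    df C C' Φ i j q (Jq C C' Φ π J i q v) =
      J j (π q.1, fm C C' Φ i j q.1 q.2) (df C C' Φ i j q v) := by
  rw [Jq_eq hU' hΦ hπ hJ hq, df_Jp hΦ hq]

theorem Jq_sm (hU' : IsOpen U') (hΦ : Dif C' C U' Φ) (hπs : ContDiffOn ℝ ∞ π U')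
    (hπ : MapsTo π U' U) (hJ : ∀ j, ContDiffOn ℝ ∞ (J j) (U ×ˢ (C.e j).target))
    (ht : TrJ C U J) (i : C'.ι) :
    ContDiffOn ℝ ∞ (Jq C C' Φ π J i) (U' ×ˢ (C'.e i).target) := by
  intro q hq
  have hi := idx_mem (C := C) (Φ := Φ) hq.1 hq.2
  have h0 := isOpen_dm hU' hΦ i (idx C C' Φ i q)
  have h2 : ContDiffAt ℝ ∞ (Jq C C' Φ π J i) q :=
    ((Jp_sm hU' hΦ hπs hπ hJ i _).contDiffAt (h0.mem_nhds hi)).congr_of_eventuallyEq (by
      filter_upwards [h0.mem_nhds hi] with y hy using Jq_eq hU' hΦ hπ ht hy)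
  exact h2.contDiffWithinAt

theorem Jq_tr (hU' : IsOpen U') (hΦ : Dif C' C U' Φ) (hπ : MapsTo π U' U) (hJ : TrJ C U J) :
    TrJ C' U' (Jq C C' Φ π J) := by
  intro i i' p hp z hz v
  have hi := idx_mem (C := C) (Φ := Φ) (q := (p, z)) hp hz.1
  have hi' := dm_t' hz hi
  refine (df_bij hΦ hi').1 ?_
  rw [df_t' hU' hΦ hz hi, df_Jq hU' hΦ hπ hJ hi', df_Jq hU' hΦ hπ hJ hi, df_t' hU' hΦ hz hi,
    fm_t' hz]

/-! ### the pulled back data -/

/-- the pulled back data -/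
def pd (h2 : NijPull) (hU : IsOpen U) (hU' : IsOpen U') (hπs : ContDiffOn ℝ ∞ π U')
    (hπ : MapsTo π U' U) (hΦ : Dif C' C U' Φ) (D : VDat C U) : VDat C' U' where
  J := Jq C C' Φ π D.J
  w := wq C C' Φ π D.w
  h := wq C C' Φ π D.h
  J_sm i := Jq_sm hU' hΦ hπs hπ D.J_sm D.J_tr i
  w_sm i := wq_sm hU' hΦ hπs hπ D.w_sm D.w_tr i
  h_sm i := wq_sm hU' hΦ hπs hπ D.h_sm D.h_tr i
  J_sq i p hp z hz v := by
    have hi := idx_mem (C := C) (Φ := Φ) (q := (p, z)) hp hz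
    refine (df_bij hΦ hi).1 ?_
    rw [df_Jq hU' hΦ hπ D.J_tr hi, df_Jq hU' hΦ hπ D.J_tr hi,
      D.J_sq _ _ (hπ hp) _ (fm_target hi), map_neg]
  J_int i p hp z hz u v := by
    have hi := idx_mem (C := C) (Φ := Φ) (q := (p, z)) hp hz
    have hd1 : DifferentiableAt ℝ (fun y => D.J (idx C C' Φ i (p, z)) (π p, y))
        (fm C C' Φ i (idx C C' Φ i (p, z)) p z) :=
      (slice (hU.prod (C.e _).open_target) (D.J_sm _)
        (p := π p) ⟨hπ hp, fm_target hi⟩).differentiableAt (by simp)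
    have hd2 : DifferentiableAt ℝ (fun y => Jq C C' Φ π D.J i (p, y)) z :=
      (slice (hU'.prod (C'.e i).open_target) (Jq_sm hU' hΦ hπs hπ D.J_sm D.J_tr i)
        (p := p) ⟨hp, hz⟩).differentiableAt (by simp)
    have hev : ∀ᶠ y in 𝓝 z, ∀ v, fderiv ℝ (fun y => fm C C' Φ i (idx C C' Φ i (p, z)) p y) y
        (Jq C C' Φ π D.J i (p, y) v) =
        D.J (idx C C' Φ i (p, z)) (π p, fm C C' Φ i (idx C C' Φ i (p, z)) p y)
          (fderiv ℝ (fun y => fm C C' Φ i (idx C C' Φ i (p, z)) p y) y v) := by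
      filter_upwards [slice_nhds (isOpen_dm hU' hΦ i _) hi] with y hy v
      exact df_Jq hU' hΦ hπ D.J_tr hy v
    have e := h2 V V' (fun y => fm C C' Φ i (idx C C' Φ i (p, z)) p y)
      (fun y => D.J (idx C C' Φ i (p, z)) (π p, y)) (fun y => Jq C C' Φ π D.J i (p, y)) z
      (fm_slice hU' hΦ hi) hd1 hd2 hev u v
    rw [D.J_int _ (π p) (hπ hp) _ (fm_target hi)] at e
    exact (df_bij hΦ hi).1 (e.trans (map_zero _).symm)
  J_tr := Jq_tr hU' hΦ hπ D.J_tr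
  w_alt i p hp z hz u v := by
    have hi := idx_mem (C := C) (Φ := Φ) (q := (p, z)) hp hz
    rw [wq_eq hU' hΦ hπ D.w_tr hi, wp_apply, wp_apply, D.w_alt _ _ (hπ hp) _ (fm_target hi)]
  w_J i p hp z hz u v := by
    have hi := idx_mem (C := C) (Φ := Φ) (q := (p, z)) hp hz
    rw [wq_eq hU' hΦ hπ D.w_tr hi, wp_apply, wp_apply, df_Jq hU' hΦ hπ D.J_tr hi,
      df_Jq hU' hΦ hπ D.J_tr hi, D.w_J _ _ (hπ hp) _ (fm_target hi)]
  w_pos i p hp z hz v hv := by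
    have hi := idx_mem (C := C) (Φ := Φ) (q := (p, z)) hp hz
    rw [wq_eq hU' hΦ hπ D.w_tr hi, wp_apply, df_Jq hU' hΦ hπ D.J_tr hi]
    refine D.w_pos _ _ (hπ hp) _ (fm_target hi) _ fun h0 => hv ?_
    exact (df_bij hΦ hi).1 (h0.trans (map_zero _).symm)
  w_tr := wq_tr hU' hΦ hπ D.w_tr
  w_closed i p hp z hz a b c := by
    have hi := idx_mem (C := C) (Φ := Φ) (q := (p, z)) hp hz
    have ho : IsOpen {y : V' | (p, y) ∈ dm C C' U' Φ i (idx C C' Φ i (p, z))} :=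
      (isOpen_dm hU' hΦ i _).preimage (Continuous.prodMk_right p)
    have h1 : (fun y => wq C C' Φ π D.w i (p, y)) =ᶠ[𝓝 z]
        pb (fun y => D.w (idx C C' Φ i (p, z)) (π p, y))
          (fun y => fm C C' Φ i (idx C C' Φ i (p, z)) p y) := by
      filter_upwards [slice_nhds (isOpen_dm hU' hΦ i _) hi] with y hy
      exact wq_eq hU' hΦ hπ D.w_tr hy
    rw [h1.fderiv_eq]
    refine pb_closed (U := (C.e (idx C C' Φ i (p, z))).target) ho (C.e _).open_target ?_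
      (fun y hy => (fm_slice hU' hΦ hy).contDiffWithinAt) (fun y hy => fm_target hy)
      (D.w_alt _ _ (hπ hp)) (D.w_closed _ _ (hπ hp)) hi a b c
    exact (D.w_sm _).comp (contDiffOn_const.prodMk contDiffOn_id) fun y hy => ⟨hπ hp, hy⟩
  h_nd i p hp z hz u hu := by
    have hi := idx_mem (C := C) (Φ := Φ) (q := (p, z)) hp hz
    have h0 : df C C' Φ i (idx C C' Φ i (p, z)) (p, z) u = 0 := by
      refine D.h_nd _ _ (hπ hp) _ (fm_target hi) _ fun v => ?_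
      obtain ⟨v', rfl⟩ := (df_bij hΦ hi).2 v
      have := hu v'
      rwa [wq_eq hU' hΦ hπ D.h_tr hi, wp_apply] at this
    exact (df_bij hΦ hi).1 (h0.trans (map_zero _).symm)
  h_tr := wq_tr hU' hΦ hπ D.h_tr

theorem ddc_congr {W : Type} [NormedAddCommGroup W] [NormedSpace ℝ W] (K : W → W →L[ℝ] W)
    {φ ψ : W → ℝ} {z : W} (h : φ =ᶠ[𝓝 z] ψ) : ddc K φ z = ddc K ψ z := by
  have h1 : al K φ =ᶠ[𝓝 z] al K ψ := by
    filter_upwards [h.fderiv (𝕜 := ℝ)] with y hy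
    rw [al, al, hy]
  rw [ddc, ddc, h1.fderiv_eq]

section

variable (h1 : DdcPull) (h2 : NijPull) (hU : IsOpen U) (hU' : IsOpen U')
  (hπs : ContDiffOn ℝ ∞ π U') (hπ : MapsTo π U' U) (hΦ : Dif C' C U' Φ) (D : VDat C U)

theorem rd_eq {p : P'} {z : V'} {i : C'.ι} {j : C.ι} (hq : (p, z) ∈ dm C C' U' Φ i j)
    (φ : X → ℝ) : rd C' i (fun x => φ (Φ p x)) z = rd C j φ (fm C C' Φ i j p z) := by
  show φ (Φ p ((C'.e i).symm z)) = φ ((C.e j).symm (C.e j (Φ p ((C'.e i).symm z))))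
  rw [(C.e j).left_inv hq.2.2]

include hU' hΦ in
theorem rd_ev {p : P'} {z : V'} {i : C'.ι} {j : C.ι} (hq : (p, z) ∈ dm C C' U' Φ i j)
    (φ : X → ℝ) : rd C' i (fun x => φ (Φ p x)) =ᶠ[𝓝 z]
      fun y => rd C j φ (fm C C' Φ i j p y) := by
  filter_upwards [slice_nhds (isOpen_dm hU' hΦ i _) hq] with y hy using rd_eq hy φ

include h1 in
theorem F_pull {p : P'} {z : V'} {i : C'.ι} {j : C.ι} (hq : (p, z) ∈ dm C C' U' Φ i j)
    {φ : X → ℝ} (hφ : Sm C φ) :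
    (pd h2 hU hU' hπs hπ hΦ D).F p (fun x => φ (Φ p x)) i z =
      (D.F (π p) φ j (fm C C' Φ i j p z)).bilinearComp (df C C' Φ i j (p, z))
        (df C C' Φ i j (p, z)) := by
  have hd1 : DifferentiableAt ℝ (fun y => D.J j (π p, y)) (fm C C' Φ i j p z) :=
    (slice (hU.prod (C.e _).open_target) (D.J_sm _)
      (p := π p) ⟨hπ hq.1, fm_target hq⟩).differentiableAt (by simp)
  have hc : ContDiffAt ℝ 2 (rd C j φ) (fm C C' Φ i j p z) :=
    ((hφ j).contDiffAt ((C.e j).open_target.mem_nhds (fm_target hq))).of_le (by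
      exact WithTop.coe_le_coe.2 le_top)
  have hev : ∀ᶠ y in 𝓝 z, ∀ v, fderiv ℝ (fun y => fm C C' Φ i j p y) y
      (Jq C C' Φ π D.J i (p, y) v) = D.J j (π p, fm C C' Φ i j p y)
        (fderiv ℝ (fun y => fm C C' Φ i j p y) y v) := by
    filter_upwards [slice_nhds (isOpen_dm hU' hΦ i _) hq] with y hy v
    exact df_Jq hU' hΦ hπ D.J_tr hy v
  ext u v
  show wq C C' Φ π D.w i (p, z) u v +
    ddc (fun y => Jq C C' Φ π D.J i (p, y)) (rd C' i (fun x => φ (Φ p x))) z u v =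
      D.w j (π p, fm C C' Φ i j p z) (df C C' Φ i j (p, z) u) (df C C' Φ i j (p, z) v) +
        ddc (fun y => D.J j (π p, y)) (rd C j φ) (fm C C' Φ i j p z)
          (df C C' Φ i j (p, z) u) (df C C' Φ i j (p, z) v)
  rw [ddc_congr _ (rd_ev hU' hΦ hq φ), wq_eq hU' hΦ hπ D.w_tr hq, wp_apply]
  congr 1
  exact h1 V V' (fun y => fm C C' Φ i j p y) (fun y => D.J j (π p, y))
    (fun y => Jq C C' Φ π D.J i (p, y)) (rd C j φ) z (fm_slice hU' hΦ hq) hd1 hc hev u v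

include h1 in
theorem sol {p : P'} (hp : p ∈ U') {φ : X → ℝ} {c : ℝ} (hs : D.Sol (π p) φ c) :
    (pd h2 hU hU' hπs hπ hΦ D).Sol p (fun x => φ (Φ p x)) c where
  sm i := by
    intro z hz
    have hi := idx_mem (C := C) (Φ := Φ) (q := (p, z)) hp hz
    have hc : ContDiffAt ℝ ∞ (rd C (idx C C' Φ i (p, z)) φ)
        (fm C C' Φ i (idx C C' Φ i (p, z)) p z) :=
      (hs.sm _).contDiffAt ((C.e _).open_target.mem_nhds (fm_target hi))
    have h3 : ContDiffAt ℝ ∞ (rd C' i (fun x => φ (Φ p x))) z :=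
      (hc.comp z (fm_slice hU' hΦ hi)).congr_of_eventuallyEq (rd_ev hU' hΦ hi φ)
    exact h3.contDiffWithinAt
  pos i z hz v hv := by
    have hi := idx_mem (C := C) (Φ := Φ) (q := (p, z)) hp hz
    rw [F_pull h1 h2 hU hU' hπs hπ hΦ D hi hs.sm]
    show 0 < D.F (π p) φ (idx C C' Φ i (p, z)) (fm C C' Φ i (idx C C' Φ i (p, z)) p z)
      (df C C' Φ i (idx C C' Φ i (p, z)) (p, z) v)
      (df C C' Φ i (idx C C' Φ i (p, z)) (p, z) (Jq C C' Φ π D.J i (p, z) v))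
    rw [df_Jq hU' hΦ hπ D.J_tr hi]
    refine hs.pos _ _ (fm_target hi) _ fun h0 => hv ?_
    exact (df_bij hΦ hi).1 (h0.trans (map_zero _).symm)
  eq i z hz := by
    have hi := idx_mem (C := C) (Φ := Φ) (q := (p, z)) hp hz
    obtain ⟨κ, -, hκ⟩ := bdet_comp _ (df_bij hΦ hi)
    have h3 : (pd h2 hU hU' hπs hπ hΦ D).h i (p, z) =
        (D.h _ (π p, fm C C' Φ i (idx C C' Φ i (p, z)) p z)).bilinearComp
          (df C C' Φ i (idx C C' Φ i (p, z)) (p, z)) (df C C' Φ i (idx C C' Φ i (p, z)) (p, z)) :=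
      wq_eq hU' hΦ hπ D.h_tr hi
    rw [F_pull h1 h2 hU hU' hπs hπ hΦ D hi hs.sm, h3, hκ, hκ, hs.eq _ _ (fm_target hi)]
    ring

theorem exists_dm {p : P'} (hp : p ∈ U') (hsj : ∀ y, ∃ x, Φ p x = y) {j : C.ι} {y : V}
    (hy : y ∈ (C.e j).target) :
    ∃ (i : C'.ι) (z : V'), (p, z) ∈ dm C C' U' Φ i j ∧ fm C C' Φ i j p z = y := by
  obtain ⟨x, hx⟩ := hsj ((C.e j).symm y)
  obtain ⟨i, hi⟩ := C'.cover x
  have h3 : Φ p ((C'.e i).symm (C'.e i x)) = (C.e j).symm y := by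
    rw [(C'.e i).left_inv hi, hx]
  refine ⟨i, C'.e i x, ⟨hp, (C'.e i).map_source hi, ?_⟩, ?_⟩
  · show Φ p ((C'.e i).symm (C'.e i x)) ∈ _
    rw [h3]
    exact (C.e j).map_target hy
  · show C.e j (Φ p ((C'.e i).symm (C'.e i x))) = y
    rw [h3, (C.e j).right_inv hy]

include h1 in
theorem sol_conv {p : P'} (hp : p ∈ U') (hsj : ∀ y, ∃ x, Φ p x = y) {φ : X → ℝ} {c : ℝ}
    (hs : (pd h2 hU hU' hπs hπ hΦ D).Sol p (fun x => φ (Φ p x)) c) : D.Sol (π p) φ c := by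
  have : CompleteSpace V' := FiniteDimensional.complete ℝ V'
  have hsm : Sm C φ := by
    intro j y hy
    obtain ⟨i, z, hq, rfl⟩ := exists_dm (C' := C') hp hsj hy
    have hf := fm_slice hU' hΦ hq
    have hf' : HasFDerivAt (fun y => fm C C' Φ i j p y)
        ((eqv _ (df_bij hΦ hq) : V' ≃L[ℝ] V) : V' →L[ℝ] V) z := by
      rw [coe_eqv]
      exact (hf.differentiableAt (by simp)).hasFDerivAt
    have hst := hf.hasStrictFDerivAt' hf' (by simp)
    have hg : ContDiffAt ℝ ∞ (hf.localInverse hf' (by simp)) (fm C C' Φ i j p z) :=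
      hf.to_localInverse hf' (by simp)
    have hgz : hf.localInverse hf' (by simp) (fm C C' Φ i j p z) = z :=
      hf.localInverse_apply_image hf' (by simp)
    have hri : ∀ᶠ y in 𝓝 (fm C C' Φ i j p z),
        fm C C' Φ i j p (hf.localInverse hf' (by simp) y) = y := hst.eventually_right_inverse
    have hc : ContDiffAt ℝ ∞ (rd C' i (fun x => φ (Φ p x)))
        (hf.localInverse hf' (by simp) (fm C C' Φ i j p z)) := by
      rw [hgz]
      exact (hs.sm i).contDiffAt ((C'.e i).open_target.mem_nhds hq.2.1)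
    have hcont : ∀ᶠ y in 𝓝 (fm C C' Φ i j p z),
        (p, hf.localInverse hf' (by simp) y) ∈ dm C C' U' Φ i j := by
      have h6 : ∀ᶠ y in 𝓝 (hf.localInverse hf' (by simp) (fm C C' Φ i j p z)),
          (p, y) ∈ dm C C' U' Φ i j := by
        rw [hgz]
        exact slice_nhds (isOpen_dm hU' hΦ i j) hq
      exact hg.continuousAt.eventually h6
    have h5 : ContDiffAt ℝ ∞ (rd C j φ) (fm C C' Φ i j p z) := by
      refine (hc.comp _ hg).congr_of_eventuallyEq ?_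
      filter_upwards [hri, hcont] with y h6 h7
      show rd C j φ y = rd C' i (fun x => φ (Φ p x)) (hf.localInverse hf' (by simp) y)
      rw [rd_eq h7, h6]
    exact h5.contDiffWithinAt
  refine ⟨hsm, fun j y hy v hv => ?_, fun j y hy => ?_⟩
  · obtain ⟨i, z, hq, rfl⟩ := exists_dm (C' := C') hp hsj hy
    obtain ⟨v', rfl⟩ := (df_bij hΦ hq).2 v
    have h3 := hs.pos i z hq.2.1 v' fun h0 => hv (by rw [h0, map_zero])
    rw [F_pull h1 h2 hU hU' hπs hπ hΦ D hq hsm] at h3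
    have h4 : 0 < D.F (π p) φ j (fm C C' Φ i j p z) (df C C' Φ i j (p, z) v')
      (df C C' Φ i j (p, z) (Jq C C' Φ π D.J i (p, z) v')) := h3
    rwa [df_Jq hU' hΦ hπ D.J_tr hq] at h4
  · obtain ⟨i, z, hq, rfl⟩ := exists_dm (C' := C') hp hsj hy
    obtain ⟨κ, hκ0, hκ⟩ := bdet_comp _ (df_bij hΦ hq)
    have h3 : (pd h2 hU hU' hπs hπ hΦ D).h i (p, z) =
        (D.h j (π p, fm C C' Φ i j p z)).bilinearComp
          (df C C' Φ i j (p, z)) (df C C' Φ i j (p, z)) :=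
      wq_eq hU' hΦ hπ D.h_tr hq
    have h4 := hs.eq i z hq.2.1
    rw [F_pull h1 h2 hU hU' hπs hπ hΦ D hq hsm, h3, hκ, hκ] at h4
    refine mul_left_cancel₀ hκ0 (h4.trans ?_)
    ring

end

/-- **(PULL)** -/
theorem pull (h1 : DdcPull) (h2 : NijPull) : PullStmt := by
  intro V V' X X' P P' _ _ _ _ _ _ _ _ _ _ _ _ C C' U U' π Φ D hU hU' hπs hπ hΦ
  refine ⟨pd h2 hU hU' hπs hπ hΦ D, ?_, ?_, ?_, ?_⟩
  · intro i j p hp z hz hs v
    exact df_Jq (q := (p, z)) hU' hΦ hπ D.J_tr ⟨hp, hz, hs⟩ v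
  · intro i j p hp z hz hs u v
    have hq : (p, z) ∈ dm C C' U' Φ i j := ⟨hp, hz, hs⟩
    exact congrArg (fun B : Bil V' => B u v) (wq_eq hU' hΦ hπ D.w_tr hq)
  · intro p hp φ c hs
    exact sol h1 h2 hU hU' hπs hπ hΦ D hp hs
  · intro p hp hsj φ c hs
    exact sol_conv h1 h2 hU hU' hπs hπ hΦ D hp hsj hs

end J

end

end

end Crest.Agent.R281.YVPull_93
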