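import Mathlib

/-!
# Row 281 (S0424), task 2023 (helper355): strong maximum principle, geometric and analytic parts
-/

set_option autoImplicit false

open Set Filter Topology Metric
open scoped ContDiff MatrixOrder

namespace Crest.Agent.R281.YVSMax_355

section geometry

variable {E : Type*} [NormedAddCommGroup E] [InnerProductSpace ℝ E] [ProperSpace E]

/-- a ball touching the set `Z` at exactly one point -/
theorem touch {U Z : Set E} (hU : IsOpen U) (hZ : ∀ x ∈ U, x ∈ closure Z → x ∈ Z) {z₀ : E}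
    (hz : z₀ ∈ Z) (hzU : z₀ ∈ U) (hne : ¬ ∀ᶠ z in 𝓝 z₀, z ∈ Z) :
    ∃ (y xs : E) (R : ℝ), 0 < R ∧ xs ∈ Z ∧ dist xs y = R ∧ closedBall y R ⊆ U ∧
      ∀ x ∈ closedBall y R, x ∈ Z → x = xs := by
  obtain ⟨r, hr, hrU⟩ := Metric.isOpen_iff.1 hU z₀ hzU
  set ρ := r / 3 with hρ
  have hρ0 : 0 < ρ := by positivity
  have : ∃ y ∈ ball z₀ ρ, y ∉ Z := by
    by_contra hcon
    push Not at hcon
    exact hne (Filter.mem_of_superset (ball_mem_nhds z₀ hρ0) hcon)
  obtain ⟨y, hy, hyZ⟩ := this
  have hKc : IsClosed (Z ∩ closedBall z₀ (2 * ρ)) := by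
    rw [← closure_subset_iff_isClosed]
    intro x hx
    have h2 : x ∈ closedBall z₀ (2 * ρ) := by
      have := closure_mono (inter_subset_right : Z ∩ closedBall z₀ (2 * ρ) ⊆ _) hx
      rwa [isClosed_closedBall.closure_eq] at this
    refine ⟨hZ x (hrU ?_) (closure_mono inter_subset_left hx), h2⟩
    rw [mem_ball]
    rw [mem_closedBall] at h2
    have : 2 * ρ < r := by rw [hρ]; linarith
    linarith
  have hK : IsCompact (Z ∩ closedBall z₀ (2 * ρ)) :=
    (isCompact_closedBall z₀ (2 * ρ)).of_isClosed_subset hKc inter_subset_right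
  have hz2 : z₀ ∈ Z ∩ closedBall z₀ (2 * ρ) := ⟨hz, mem_closedBall_self (by positivity)⟩
  obtain ⟨xs, hxs, hmin⟩ := hK.exists_isMinOn ⟨z₀, hz2⟩
    (continuous_id.dist continuous_const : Continuous fun x : E => dist x y).continuousOn
  have hmin' : ∀ x ∈ Z ∩ closedBall z₀ (2 * ρ), dist xs y ≤ dist x y := fun x hx => hmin hx
  set R0 := dist xs y with hR0
  have hR0pos : 0 < R0 := dist_pos.2 (fun h => hyZ (h ▸ hxs.1))
  have hyz : dist y z₀ < ρ := mem_ball.1 hy
  have hR0ρ : R0 < ρ := lt_of_le_of_lt (hmin' z₀ hz2) (by rw [dist_comm]; exact hyz)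
  have hfree : ∀ x, x ∈ Z → dist x y ≤ R0 → dist x y = R0 := by
    intro x hx hxy
    refine le_antisymm hxy (hmin' x ⟨hx, ?_⟩)
    rw [mem_closedBall]
    have := dist_triangle x y z₀
    linarith
  have hc : ‖(1 / 2 : ℝ) • (xs - y)‖ = R0 / 2 := by
    rw [norm_smul, Real.norm_of_nonneg (by norm_num), ← dist_eq_norm]
    ring
  refine ⟨y + (1 / 2 : ℝ) • (xs - y), xs, R0 / 2, by positivity, hxs.1, ?_, ?_, ?_⟩
  · rw [dist_eq_norm]
    have : xs - (y + (1 / 2 : ℝ) • (xs - y)) = (1 / 2 : ℝ) • (xs - y) := by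
      module
    rw [this, hc]
  · intro x hx
    apply hrU
    rw [mem_closedBall] at hx
    rw [mem_ball]
    have h1 : dist (y + (1 / 2 : ℝ) • (xs - y)) y = R0 / 2 := by
      rw [dist_eq_norm, add_sub_cancel_left, hc]
    have h2 := dist_triangle x (y + (1 / 2 : ℝ) • (xs - y)) y
    have h3 := dist_triangle x y z₀
    have : 2 * ρ < r := by rw [hρ]; linarith
    linarith
  · intro x hx hxZ
    rw [mem_closedBall, dist_eq_norm] at hx
    set c := (1 / 2 : ℝ) • (xs - y) with hcdef
    set d := x - (y + c) with hd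
    have h1 : dist (y + c) y = R0 / 2 := by
      rw [dist_eq_norm, add_sub_cancel_left, hc]
    have hxy : dist x y ≤ R0 := by
      have h2 := dist_triangle x (y + c) y
      rw [dist_eq_norm x (y + c)] at h2
      linarith
    have heq := hfree x hxZ hxy
    have hcd : ‖c + d‖ = R0 := by
      rw [← heq, dist_eq_norm]
      congr 1
      rw [hd]; abel
    have hpar := parallelogram_law_with_norm ℝ c d
    rw [hcd, hc] at hpar
    have hd0 : 0 ≤ ‖d‖ := norm_nonneg d
    have hz0 : ‖c - d‖ * ‖c - d‖ ≤ 0 := by nlinarith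
    have hcd0 : ‖c - d‖ = 0 := by nlinarith [norm_nonneg (c - d)]
    have hcd1 : c = d := sub_eq_zero.1 (norm_eq_zero.1 hcd0)
    have : x = y + c + c := by
      nth_rewrite 2 [hcd1]
      rw [hd]; abel
    rw [this, hcdef]
    module

end geometry

section analysis

/-- second derivative at a local maximum, one variable -/
theorem deriv_deriv_nonpos {g : ℝ → ℝ} (hc : ContinuousAt g 0) (h : IsLocalMax g 0) :
    deriv (deriv g) 0 ≤ 0 := by
  by_contra hcon
  push Not at hcon
  have hmin := isLocalMin_of_deriv_deriv_pos hcon h.deriv_eq_zero hc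
  have heq : g =ᶠ[𝓝 0] fun _ => g 0 := by
    filter_upwards [h, hmin] with t h1 h2
    exact le_antisymm h1 h2
  have h2 : deriv g =ᶠ[𝓝 0] fun _ => (0 : ℝ) := by
    have := heq.deriv
    simpa using this
  rw [h2.deriv_eq] at hcon
  simp at hcon

variable {V : Type*} [NormedAddCommGroup V] [NormedSpace ℝ V]

/-- second derivative at a local maximum -/
theorem hess_nonpos {u : V → ℝ} {x : V} (hu : ContDiffAt ℝ 2 u x) (h : IsLocalMax u x) (v : V) :
    fderiv ℝ (fderiv ℝ u) x v v ≤ 0 := by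
  have hev : ∀ᶠ z in 𝓝 x, DifferentiableAt ℝ u z := by
    have := hu.eventually (by simp)
    filter_upwards [this] with z hz
    exact hz.differentiableAt (by norm_num)
  have hline : Tendsto (fun t : ℝ => x + t • v) (𝓝 0) (𝓝 x) := by
    have : Continuous fun t : ℝ => x + t • v := by fun_prop
    have h0 := this.tendsto 0
    simpa using h0
  set g : ℝ → ℝ := fun t => u (x + t • v) with hg
  have hlin : ∀ t : ℝ, HasDerivAt (fun t : ℝ => x + t • v) v t := by
    intro t
    have := ((hasDerivAt_id t).smul_const v).const_add x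
    simpa using this
  have hd1 : deriv g =ᶠ[𝓝 0] fun t => fderiv ℝ u (x + t • v) v := by
    filter_upwards [hline.eventually hev] with t ht
    exact (ht.hasFDerivAt.comp_hasDerivAt t (hlin t)).deriv
  have hd2 : deriv (deriv g) 0 = fderiv ℝ (fderiv ℝ u) x v v := by
    rw [hd1.deriv_eq]
    have hD : DifferentiableAt ℝ (fderiv ℝ u) x :=
      (hu.fderiv_right (m := 1) (by norm_num)).differentiableAt (by norm_num)
    have hD' : HasFDerivAt (fderiv ℝ u) (fderiv ℝ (fderiv ℝ u) x) (x + (0 : ℝ) • v) := by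
      simpa using hD.hasFDerivAt
    have h1 := hD'.comp_hasDerivAt (0 : ℝ) (hlin 0)
    have h2 := h1.clm_apply (hasDerivAt_const (0 : ℝ) v)
    have h3 := h2.deriv
    simpa using h3
  rw [← hd2]
  refine deriv_deriv_nonpos ?_ ?_
  · have : ContinuousAt u (x + (0 : ℝ) • v) := by simpa using hu.continuousAt
    exact ContinuousAt.comp (f := fun t : ℝ => x + t • v) this (by fun_prop)
  · have := hline.eventually h
    filter_upwards [this] with t ht
    simpa [hg] using ht

/-- the trace of a positive matrix against a form that is nonpositive on the diagonal -/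
theorem trace_nonpos {n : ℕ} {a : Matrix (Fin n) (Fin n) ℝ} (ha : a.PosSemidef)
    (e : Fin n → V) (B : V →L[ℝ] V →L[ℝ] ℝ) (hB : ∀ v, B v v ≤ 0) :
    ∑ k, ∑ l, a k l * B (e k) (e l) ≤ 0 := by
  classical
  obtain ⟨C, hC⟩ := CStarAlgebra.nonneg_iff_eq_star_mul_self.mp ha.nonneg
  have : ∑ k, ∑ l, a k l * B (e k) (e l)
      = ∑ i, B (∑ k, C i k • e k) (∑ l, C i l • e l) := by
    have h1 : ∀ i, B (∑ k, C i k • e k) (∑ l, C i l • e l)
        = ∑ k, ∑ l, C i k * C i l * B (e k) (e l) := by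
      intro i
      simp only [map_sum, map_smul, sum_apply, smul_apply,
        smul_eq_mul, Finset.mul_sum, mul_assoc]
      rw [Finset.sum_comm]
      refine Finset.sum_congr rfl fun k _ => Finset.sum_congr rfl fun l _ => ?_
      ring
    have h2 : ∀ k l, a k l * B (e k) (e l) = ∑ i, C i k * C i l * B (e k) (e l) := by
      intro k l
      rw [hC, Matrix.mul_apply, Finset.sum_mul]
      refine Finset.sum_congr rfl fun i _ => ?_
      simp [Matrix.star_apply]
    simp only [h1, h2]
    rw [Finset.sum_comm (s := Finset.univ (α := Fin n)) (t := Finset.univ (α := Fin n))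
      (f := fun i k => ∑ l, C i k * C i l * B (e k) (e l))]
    exact Finset.sum_congr rfl fun k _ => Finset.sum_comm
  rw [this]
  exact Finset.sum_nonpos fun i _ => hB _

/-- first and second derivatives of `exp (-lam q)` -/
theorem exp_derivs {q : V → ℝ} (hq : ContDiff ℝ 2 q) (lam : ℝ) (x u v : V) :
    fderiv ℝ (fun y => Real.exp (-lam * q y)) x v
        = Real.exp (-lam * q x) * (-lam * fderiv ℝ q x v) ∧
      fderiv ℝ (fderiv ℝ fun y => Real.exp (-lam * q y)) x u v
        = Real.exp (-lam * q x) * (lam ^ 2 * (fderiv ℝ q x u * fderiv ℝ q x v)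
            - lam * fderiv ℝ (fderiv ℝ q) x u v) := by
  have hd : ∀ y, HasFDerivAt q (fderiv ℝ q y) y := fun y =>
    (hq.differentiable (by norm_num) y).hasFDerivAt
  have he : ∀ y, HasFDerivAt (fun y => Real.exp (-lam * q y))
      (Real.exp (-lam * q y) • ((-lam) • fderiv ℝ q y)) y := fun y =>
    ((hd y).const_mul (-lam)).exp
  have hfd : (fderiv ℝ fun y => Real.exp (-lam * q y))
      = fun y => Real.exp (-lam * q y) • ((-lam) • fderiv ℝ q y) := by
    ext1 y
    exact (he y).fderiv
  refine ⟨by rw [hfd]; simp, ?_⟩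
  rw [hfd]
  have hD : HasFDerivAt (fderiv ℝ q) (fderiv ℝ (fderiv ℝ q) x) x :=
    ((hq.fderiv_right (m := 1) (by norm_num)).differentiable (by norm_num) x).hasFDerivAt
  have h2 : HasFDerivAt (fun y => Real.exp (-lam * q y) • ((-lam) • fderiv ℝ q y)) _ x :=
    (he x).smul (hD.const_smul (-lam))
  rw [h2.fderiv]
  simp only [add_apply, smul_apply,
    ContinuousLinearMap.smulRight_apply, smul_eq_mul]
  ring

/-- the operator -/
noncomputable def Lop {n : ℕ} (e : Fin n → V) (a : Matrix (Fin n) (Fin n) ℝ) (b : Fin n → ℝ)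
    (u : V → ℝ) (z : V) : ℝ :=
  ∑ k, ∑ l, a k l * fderiv ℝ (fderiv ℝ u) z (e k) (e l) + ∑ k, b k * fderiv ℝ u z (e k)

/-- no interior touching point with the sublevel set of `q` -/
theorem no_touch [FiniteDimensional ℝ V] {n : ℕ} (e : Fin n → V)
    (hspan : ∀ ℓ : V →L[ℝ] ℝ, (∀ k, ℓ (e k) = 0) → ℓ = 0) {O : Set V} (hO : IsOpen O)
    {w : V → ℝ} {a : V → Matrix (Fin n) (Fin n) ℝ} {b : V → Fin n → ℝ}
    (hw : ContDiffOn ℝ 2 w O) (ha : ContinuousOn a O) (hb : ContinuousOn b O)
    (hpos : ∀ z ∈ O, (a z).PosDef) (hL : ∀ z ∈ O, 0 ≤ Lop e (a z) (b z) w z)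
    {q : V → ℝ} (hq : ContDiff ℝ 2 q) {xs : V} (hxs : xs ∈ O) (hdq : fderiv ℝ q xs ≠ 0)
    (hmax : ∀ z ∈ O, w z ≤ w xs)
    (htouch : ∀ᶠ z in 𝓝 xs, q z ≤ q xs → w z = w xs → z = xs) : False := by
  classical
  -- coefficients of the polynomial in `lam`
  set A : V → ℝ := fun z => ∑ k, ∑ l, a z k l * (fderiv ℝ q z (e k) * fderiv ℝ q z (e l)) with hA
  set B : V → ℝ := fun z => ∑ k, ∑ l, a z k l * fderiv ℝ (fderiv ℝ q) z (e k) (e l)
    + ∑ k, b z k * fderiv ℝ q z (e k) with hB
  have hLexp : ∀ lam : ℝ, ∀ z, Lop e (a z) (b z) (fun y => Real.exp (-lam * q y)) z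
      = Real.exp (-lam * q z) * (lam ^ 2 * A z - lam * B z) := by
    intro lam z
    unfold Lop
    simp only [(exp_derivs hq lam z _ _).2, (exp_derivs hq lam z 0 _).1, hA, hB]
    simp only [mul_add, mul_sub, Finset.mul_sum, Finset.sum_sub_distrib, mul_neg, neg_mul,
      Finset.sum_neg_distrib]
    have e1 : ∀ k l, a z k l * (Real.exp (-(lam * q z)) * (lam ^ 2 *
        (fderiv ℝ q z (e k) * fderiv ℝ q z (e l)))) = Real.exp (-(lam * q z)) *
        (lam ^ 2 * (a z k l * (fderiv ℝ q z (e k) * fderiv ℝ q z (e l)))) := fun k l => by ring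
    have e2 : ∀ k l, a z k l * (Real.exp (-(lam * q z)) * (lam *
        fderiv ℝ (fderiv ℝ q) z (e k) (e l))) = Real.exp (-(lam * q z)) *
        (lam * (a z k l * fderiv ℝ (fderiv ℝ q) z (e k) (e l))) := fun k l => by ring
    have e3 : ∀ k, b z k * (Real.exp (-(lam * q z)) * (lam * fderiv ℝ q z (e k)))
        = Real.exp (-(lam * q z)) * (lam * (b z k * fderiv ℝ q z (e k))) := fun k => by ring
    simp only [e1, e2, e3]
    ring
  -- positivity of `A` at the touching point
  have hApos : 0 < A xs := by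
    have hp : (fun k => fderiv ℝ q xs (e k)) ≠ 0 := by
      intro h0
      exact hdq (hspan _ fun k => congrFun h0 k)
    have := (hpos xs hxs).dotProduct_mulVec_pos hp
    have e1 : star (fun k => fderiv ℝ q xs (e k)) ⬝ᵥ
        ((a xs).mulVec fun k => fderiv ℝ q xs (e k)) = A xs := by
      simp only [hA, dotProduct, Matrix.mulVec, Pi.star_apply, star_trivial, Finset.mul_sum]
      refine Finset.sum_congr rfl fun k _ => Finset.sum_congr rfl fun l _ => ?_
      ring
    rwa [e1] at this
  -- choice of `lam`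
  obtain ⟨lam, hlam0, hlam⟩ : ∃ lam : ℝ, 0 < lam ∧ 0 < lam ^ 2 * A xs - lam * B xs := by
    refine ⟨(|B xs| + 1) / A xs, by positivity, ?_⟩
    have h1 : ((|B xs| + 1) / A xs) * A xs = |B xs| + 1 := by field_simp
    have h2 : ((|B xs| + 1) / A xs) ^ 2 * A xs - ((|B xs| + 1) / A xs) * B xs
        = ((|B xs| + 1) / A xs) * ((|B xs| + 1) - B xs) := by
      rw [sq, mul_assoc, h1]; ring
    rw [h2]
    have : B xs ≤ |B xs| := le_abs_self _
    have h3 : 0 < (|B xs| + 1) / A xs := by positivity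
    exact mul_pos h3 (by linarith)
  -- continuity
  have hfq : Continuous (fderiv ℝ q) := hq.continuous_fderiv (by norm_num)
  have hffq : Continuous (fderiv ℝ (fderiv ℝ q)) :=
    (hq.fderiv_right (m := 1) (by norm_num)).continuous_fderiv (by norm_num)
  have hack : ∀ k l, ContinuousOn (fun z => a z k l) O := fun k l =>
    (continuous_apply_apply k l).comp_continuousOn ha
  have hbck : ∀ k, ContinuousOn (fun z => b z k) O := fun k =>
    (continuous_apply k).comp_continuousOn hb
  have hAc : ContinuousOn A O := by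
    refine continuousOn_finsetSum _ fun k _ => continuousOn_finsetSum _ fun l _ => ?_
    exact (hack k l).mul (((hfq.clm_apply continuous_const).mul
      (hfq.clm_apply continuous_const)).continuousOn)
  have hBc : ContinuousOn B O := by
    refine ContinuousOn.add (continuousOn_finsetSum _ fun k _ =>
      continuousOn_finsetSum _ fun l _ => ?_) (continuousOn_finsetSum _ fun k _ => ?_)
    · exact (hack k l).mul (((hffq.clm_apply continuous_const).clm_apply
        continuous_const).continuousOn)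
    · exact (hbck k).mul (hfq.clm_apply continuous_const).continuousOn
  have hOn : O ∈ 𝓝 xs := hO.mem_nhds hxs
  have hev : ∀ᶠ z in 𝓝 xs, 0 < lam ^ 2 * A z - lam * B z := by
    have hc : ContinuousAt (fun z => lam ^ 2 * A z - lam * B z) xs :=
      (continuousAt_const.mul (hAc.continuousAt hOn)).sub
        (continuousAt_const.mul (hBc.continuousAt hOn))
    exact hc.eventually (lt_mem_nhds hlam)
  obtain ⟨δ, hδ, hball⟩ := Metric.nhds_basis_closedBall.eventually_iff.1
    (Filter.Eventually.and (show ∀ᶠ z in 𝓝 xs, z ∈ O from hOn) (hev.and htouch) :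
      ∀ᶠ z in 𝓝 xs, z ∈ O ∧ 0 < lam ^ 2 * A z - lam * B z ∧
      (q z ≤ q xs → w z = w xs → z = xs))
  -- the comparison function
  set m := w xs with hm
  set h : V → ℝ := fun y => Real.exp (-lam * q y) with hh
  have hhC : ContDiff ℝ 2 h := (contDiff_const.mul hq).exp
  have hwc : ContinuousOn w O := hw.continuousOn
  -- choice of `ε`
  obtain ⟨ε, hε, hεs⟩ : ∃ ε : ℝ, 0 < ε ∧ ∀ z ∈ sphere xs δ,
      w z + ε * (h z - h xs) < m := by
    set K := sphere xs δ ∩ {z | q z ≤ q xs} with hK
    have hKc : IsCompact K := (isCompact_sphere xs δ).inter_right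
      (isClosed_le hq.continuous continuous_const)
    have hKO : K ⊆ O := fun z hz => (hball (sphere_subset_closedBall hz.1)).1
    have hKlt : ∀ z ∈ K, w z < m := by
      intro z hz
      refine lt_of_le_of_ne (hmax z (hKO hz)) fun heq => ?_
      have := (hball (sphere_subset_closedBall hz.1)).2.2 hz.2 heq
      rw [this] at hz
      have h1 := hz.1
      rw [mem_sphere, dist_self] at h1
      exact hδ.ne h1
    have houter : ∀ ε : ℝ, 0 < ε → ∀ z ∈ sphere xs δ, z ∉ K → w z + ε * (h z - h xs) < m := by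
      intro ε hε z hz hzK
      have hzq : q xs < q z := by
        by_contra hcon
        exact hzK ⟨hz, not_lt.1 hcon⟩
      have h1 : h z < h xs := by
        simp only [hh]
        apply Real.exp_lt_exp.2
        nlinarith
      have h2 := hmax z (hball (sphere_subset_closedBall hz)).1
      nlinarith
    rcases K.eq_empty_or_nonempty with hKe | hKn
    · exact ⟨1, one_pos, fun z hz => houter 1 one_pos z hz (by rw [hKe]; simp)⟩
    · obtain ⟨z1, hz1, hz1m⟩ := hKc.exists_isMaxOn hKn (hwc.mono hKO)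
      obtain ⟨z2, hz2, hz2m⟩ := hKc.exists_isMaxOn hKn hhC.continuous.continuousOn
      have h1 : w z1 < m := hKlt z1 hz1
      have h2pos : 0 < h z2 := Real.exp_pos _
      refine ⟨(m - w z1) / (2 * h z2), by
        have : 0 < m - w z1 := by linarith
        positivity, fun z hz => ?_⟩
      have hε0 : 0 < (m - w z1) / (2 * h z2) := by
        have : 0 < m - w z1 := by linarith
        positivity
      by_cases hzK : z ∈ K
      · have h3 : w z ≤ w z1 := hz1m hzK
        have h4 : h z ≤ h z2 := hz2m hzK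
        have h5 : 0 < h xs := Real.exp_pos _
        have h6 : (m - w z1) / (2 * h z2) * h z ≤ (m - w z1) / (2 * h z2) * h z2 :=
          mul_le_mul_of_nonneg_left h4 hε0.le
        have h7 : (m - w z1) / (2 * h z2) * h z2 = (m - w z1) / 2 := by
          field_simp
        have h8 : 0 < (m - w z1) / (2 * h z2) * h xs := mul_pos hε0 h5
        rw [mul_sub]
        linarith
      · exact houter _ hε0 z hz hzK
  -- the maximum
  have hcb : closedBall xs δ ⊆ O := fun z hz => (hball hz).1
  have huc : ContinuousOn (fun z => w z + ε * (h z - h xs)) (closedBall xs δ) :=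
    (hwc.mono hcb).add (continuousOn_const.mul (hhC.continuous.continuousOn.sub continuousOn_const))
  obtain ⟨ξ, hξ, hξm⟩ := (isCompact_closedBall xs δ).exists_isMaxOn
    ⟨xs, mem_closedBall_self hδ.le⟩ huc
  have hξm' : ∀ z ∈ closedBall xs δ, w z + ε * (h z - h xs) ≤ w ξ + ε * (h ξ - h xs) :=
    fun z hz => hξm hz
  have hξs : ξ ∈ ball xs δ := by
    rcases (mem_closedBall.1 hξ).lt_or_eq with hlt | heq
    · exact mem_ball.2 hlt
    · exfalso
      have h1 := hεs ξ (mem_sphere.2 heq)
      have h2 := hξm' xs (mem_closedBall_self hδ.le)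
      simp only [sub_self, mul_zero, add_zero] at h2
      linarith
  have hξO : ξ ∈ O := hcb hξ
  have hwξ : ContDiffAt ℝ 2 w ξ := hw.contDiffAt (hO.mem_nhds hξO)
  set c0 := h xs with hc0
  have huC : ContDiffAt ℝ 2 (fun z => w z + ε * (h z - c0)) ξ :=
    hwξ.add (contDiffAt_const.mul (hhC.contDiffAt.sub contDiffAt_const))
  have hloc : IsLocalMax (fun z => w z + ε * (h z - c0)) ξ := by
    filter_upwards [isOpen_ball.mem_nhds hξs] with z hz
    exact hξm' z (ball_subset_closedBall hz)
  -- derivatives of the comparison function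
  have hdw : ∀ᶠ z in 𝓝 ξ, DifferentiableAt ℝ w z := by
    filter_upwards [hwξ.eventually (by simp)] with z hz
    exact hz.differentiableAt (by norm_num)
  have hfd : fderiv ℝ (fun z => w z + ε * (h z - c0)) =ᶠ[𝓝 ξ]
      fun z => fderiv ℝ w z + ε • fderiv ℝ h z := by
    filter_upwards [hdw] with z hz
    have h1 : HasFDerivAt h (fderiv ℝ h z) z := (hhC.differentiable (by norm_num) z).hasFDerivAt
    exact (hz.hasFDerivAt.add ((h1.sub_const c0).const_mul ε)).fderiv
  have hfd1 : fderiv ℝ w ξ + ε • fderiv ℝ h ξ = 0 := by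
    have h0 : fderiv ℝ (fun z => w z + ε * (h z - c0)) ξ = fderiv ℝ w ξ + ε • fderiv ℝ h ξ :=
      hfd.self_of_nhds
    rw [← h0]
    exact hloc.fderiv_eq_zero
  have hfd2 : fderiv ℝ (fderiv ℝ fun z => w z + ε * (h z - c0)) ξ
      = fderiv ℝ (fderiv ℝ w) ξ + ε • fderiv ℝ (fderiv ℝ h) ξ := by
    rw [hfd.fderiv_eq]
    have h1 : HasFDerivAt (fderiv ℝ w) (fderiv ℝ (fderiv ℝ w) ξ) ξ :=
      ((hwξ.fderiv_right (m := 1) (by norm_num)).differentiableAt (by norm_num)).hasFDerivAt
    have h2 : HasFDerivAt (fderiv ℝ h) (fderiv ℝ (fderiv ℝ h) ξ) ξ :=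
      ((hhC.fderiv_right (m := 1) (by norm_num)).differentiable (by norm_num) ξ).hasFDerivAt
    exact (h1.add (h2.const_smul ε)).fderiv
  have hneg : ∑ k, ∑ l, a ξ k l *
      (fderiv ℝ (fderiv ℝ fun z => w z + ε * (h z - c0)) ξ) (e k) (e l) ≤ 0 :=
    trace_nonpos (hpos ξ hξO).posSemidef e _ (hess_nonpos huC hloc)
  rw [hfd2] at hneg
  have hz1 : ∀ v, fderiv ℝ w ξ v + ε * fderiv ℝ h ξ v = 0 := fun v => by
    have := congrArg (fun ℓ : V →L[ℝ] ℝ => ℓ v) hfd1
    simpa using this
  have hsum : Lop e (a ξ) (b ξ) w ξ + ε * Lop e (a ξ) (b ξ) h ξ ≤ 0 := by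
    have h1 : Lop e (a ξ) (b ξ) w ξ + ε * Lop e (a ξ) (b ξ) h ξ
        = ∑ k, ∑ l, a ξ k l * (fderiv ℝ (fderiv ℝ w) ξ + ε • fderiv ℝ (fderiv ℝ h) ξ) (e k) (e l)
          + ∑ k, b ξ k * (fderiv ℝ w ξ (e k) + ε * fderiv ℝ h ξ (e k)) := by
      unfold Lop
      simp only [add_apply, smul_apply, smul_eq_mul,
        mul_add, Finset.sum_add_distrib, Finset.mul_sum]
      have e1 : ∀ k l, ε * (a ξ k l * fderiv ℝ (fderiv ℝ h) ξ (e k) (e l))
          = a ξ k l * (ε * fderiv ℝ (fderiv ℝ h) ξ (e k) (e l)) := fun k l => by ring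
      have e2 : ∀ k, ε * (b ξ k * fderiv ℝ h ξ (e k)) = b ξ k * (ε * fderiv ℝ h ξ (e k)) :=
        fun k => by ring
      simp only [e1, e2]
      ring
    rw [h1]
    simp only [hz1, mul_zero, Finset.sum_const_zero, add_zero]
    exact hneg
  have hLh := hLexp lam ξ
  have hposξ := (hball hξ).2.1
  have : 0 < Lop e (a ξ) (b ξ) h ξ := by
    rw [hh, hLh]
    exact mul_pos (Real.exp_pos _) hposξ
  have := hL ξ hξO
  nlinarith

end analysis

end Crest.Agent.R281.YVSMax_355
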