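import Crest.Agent.R281.YV1_833
import Crest.Agent.R281.YVSMax0_355

/-!
# Row 281 (S0424), task 2023 (helper355): strong maximum principle `sMax : YV_833.SMaxStmt`
-/

set_option autoImplicit false

open Set Filter Topology Metric
open scoped ContDiff

namespace Crest.Agent.R281.YVSMax_355

/-- strong maximum principle for `C²` subsolutions -/
theorem sMax : YV_833.SMaxStmt := by
  intro V _ _ _ O w a b hO hw ha hb hpos hL z₀ hz₀ hmax
  by_contra hne
  set n := Module.finrank ℝ V with hn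
  set e := Module.finBasis ℝ V with he
  set Φ : V ≃L[ℝ] EuclideanSpace ℝ (Fin n) :=
    e.equivFun.toContinuousLinearEquiv.trans (EuclideanSpace.equiv (Fin n) ℝ).symm with hΦ
  set m := w z₀ with hm
  set Z : Set (EuclideanSpace ℝ (Fin n)) := Φ.symm ⁻¹' (O ∩ {x | w x = m}) with hZ
  set U : Set (EuclideanSpace ℝ (Fin n)) := Φ.symm ⁻¹' O with hU
  have hUo : IsOpen U := hO.preimage Φ.symm.continuous
  have hZc : ∀ x ∈ U, x ∈ closure Z → x ∈ Z := by
    intro x hx hxc
    refine ⟨hx, ?_⟩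
    have hc : ContinuousAt (fun y => w (Φ.symm y)) x :=
      ContinuousAt.comp (hw.continuousOn.continuousAt (hO.mem_nhds hx)) Φ.symm.continuous.continuousAt
    by_contra hcon
    have hcon' : w (Φ.symm x) ≠ m := hcon
    have : ∀ᶠ y in 𝓝 x, w (Φ.symm y) ≠ m := hc.eventually_ne hcon'
    obtain ⟨y, hy1, hy2⟩ := (mem_closure_iff_frequently.1 hxc).and_eventually this |>.exists
    exact hy2 hy1.2
  have hz0Z : Φ z₀ ∈ Z := by
    show Φ.symm (Φ z₀) ∈ O ∩ {x | w x = m}
    rw [Φ.symm_apply_apply]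
    exact ⟨hz₀, rfl⟩
  have hz0U : Φ z₀ ∈ U := hz0Z.1
  have hneZ : ¬ ∀ᶠ z in 𝓝 (Φ z₀), z ∈ Z := by
    intro h
    apply hne
    have := Φ.continuous.continuousAt.eventually h
    filter_upwards [this] with z hz
    have h1 : Φ.symm (Φ z) ∈ O ∩ {x | w x = m} := hz
    rw [Φ.symm_apply_apply] at h1
    exact h1.2
  obtain ⟨y, xs, R, hR, hxsZ, hdist, hball, huniq⟩ := touch hUo hZc hz0Z hz0U hneZ
  set q : V → ℝ := fun x => ‖Φ x - y‖ ^ 2 with hq
  have hqC : ContDiff ℝ 2 q := (Φ.contDiff.sub contDiff_const).norm_sq ℝ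
  set x₁ := Φ.symm xs with hx₁
  have hΦx₁ : Φ x₁ = xs := Φ.apply_symm_apply xs
  have hx₁O : x₁ ∈ O := hxsZ.1
  have hx₁m : w x₁ = m := hxsZ.2
  have hqx₁ : q x₁ = R ^ 2 := by
    simp only [hq, hΦx₁]
    rw [← dist_eq_norm, hdist]
  refine no_touch (e := fun k => e k) (fun ℓ hℓ => ?_) hO hw ha hb hpos hL hqC hx₁O ?_ ?_ ?_
  · have : (ℓ : V →ₗ[ℝ] ℝ) = 0 := e.ext fun k => by simpa using hℓ k
    ext v
    exact congrArg (fun f : V →ₗ[ℝ] ℝ => f v) this
  · intro h0
    have h1 : HasFDerivAt q (2 • (innerSL ℝ (Φ x₁ - y)).comp (Φ : V →L[ℝ] _)) x₁ := by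
      have := ((Φ.hasFDerivAt (x := x₁)).sub_const y).norm_sq
      simpa [hq] using this
    have h2 : fderiv ℝ q x₁ (Φ.symm (xs - y)) = 2 * R ^ 2 := by
      rw [h1.fderiv, hΦx₁]
      simp only [smul_apply, ContinuousLinearMap.comp_apply,
        ContinuousLinearEquiv.coe_coe, ContinuousLinearEquiv.apply_symm_apply, innerSL_apply_apply,
        real_inner_self_eq_norm_sq]
      rw [← dist_eq_norm, hdist]
      simp
    rw [h0] at h2
    simp only [zero_apply] at h2
    have : 0 < 2 * R ^ 2 := by positivity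
    linarith
  · intro z hz
    rw [hx₁m]
    exact hmax z hz
  · refine Filter.Eventually.of_forall fun z hzq hzw => ?_
    have hzb : Φ z ∈ closedBall y R := by
      rw [mem_closedBall, dist_eq_norm]
      rw [hqx₁] at hzq
      exact abs_le_of_sq_le_sq' hzq hR.le |>.2
    have hzU : Φ z ∈ U := hball hzb
    have hzO : z ∈ O := by
      have : Φ.symm (Φ z) ∈ O := hzU
      rwa [Φ.symm_apply_apply] at this
    have hzZ : Φ z ∈ Z := by
      show Φ.symm (Φ z) ∈ O ∩ {x | w x = m}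
      rw [Φ.symm_apply_apply]
      exact ⟨hzO, by rw [← hx₁m]; exact hzw⟩
    have := huniq _ hzb hzZ
    rw [hx₁, ← this, Φ.symm_apply_apply]

end Crest.Agent.R281.YVSMax_355
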