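import Mathlib

/-!
# Row 281, YAU-VAR, leaf YV-IFT (task 2024, helper307)

Implicit function theorem between closures of ranges.
-/

set_option autoImplicit false

open Set Filter Topology Metric
open scoped ContDiff

namespace Crest.Agent.R281.YVift_307

noncomputable section

/-- composition with an isometry on the left -/
def postI {A B : Type} (H : Type) [NormedAddCommGroup A] [NormedSpace ℝ A] [NormedAddCommGroup B]
    [NormedSpace ℝ B] [NormedAddCommGroup H] [NormedSpace ℝ H] (ι : A →ₗᵢ[ℝ] B) :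
    (H →L[ℝ] A) →ₗᵢ[ℝ] (H →L[ℝ] B) where
  toFun T := ι.toContinuousLinearMap ∘L T
  map_add' S T := by ext x; simp
  map_smul' r T := by ext x; simp
  norm_map' T := ι.norm_toContinuousLinearMap_comp

/-- derivative of a map with values in the range of an isometry -/
theorem fderiv_mem {A B H : Type} [NormedAddCommGroup A] [NormedSpace ℝ A] [CompleteSpace A]
    [NormedAddCommGroup B] [NormedSpace ℝ B] [NormedAddCommGroup H] [NormedSpace ℝ H]
    (ι : A →ₗᵢ[ℝ] B) (f : H → A) {x : H} {D : H →L[ℝ] B}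
    (h : HasFDerivAt (fun y => ι (f y)) D x) :
    ∃ D' : H →L[ℝ] A, (∀ v, ι (D' v) = D v) ∧ HasFDerivAt f D' x := by
  have hcl : IsClosed (LinearMap.range ι.toLinearMap : Set B) := by
    have := ι.isometry.isClosedEmbedding.isClosed_range
    exact this
  have hmem : ∀ v, D v ∈ LinearMap.range ι.toLinearMap := by
    intro v
    have h1 : HasDerivAt (fun t : ℝ => x + t • v) v 0 := by
      have h2 := ((hasDerivAt_id (0:ℝ)).smul_const v).const_add x
      simpa using h2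
    have h2 : HasFDerivAt (fun y => ι (f y)) D ((fun t : ℝ => x + t • v) 0) := by simpa using h
    have h3 := h2.comp_hasDerivAt (0:ℝ) h1
    rw [hasDerivAt_iff_tendsto_slope] at h3
    refine hcl.mem_of_tendsto h3 (Eventually.of_forall fun t => ?_)
    rw [slope_def_module]
    refine ⟨(t - 0)⁻¹ • (f (x + t • v) - f (x + (0:ℝ) • v)), ?_⟩
    show ι _ = _
    rw [map_smul, map_sub]
    rfl
  let R := LinearMap.range ι.toLinearMap
  let D' : H →L[ℝ] A := (ι.equivRange.symm.toContinuousLinearEquiv : R →L[ℝ] A) ∘L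
    (D.codRestrict R hmem)
  have hD' : ∀ v, ι (D' v) = D v := by
    intro v
    have h1 : ι.equivRange (D' v) = ⟨D v, hmem v⟩ := by
      show ι.equivRange (ι.equivRange.symm _) = _
      rw [LinearIsometryEquiv.apply_symm_apply]
      rfl
    exact congrArg Subtype.val h1
  refine ⟨D', hD', ?_⟩
  rw [hasFDerivAt_iff_isLittleO] at h ⊢
  have h1 : (fun y => ι (f y) - ι (f x) - D (y - x)) = fun y => ι (f y - f x - D' (y - x)) := by
    funext y
    rw [ι.map_sub, ι.map_sub, hD']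
  rw [h1] at h
  rw [← Asymptotics.isLittleO_norm_left] at h ⊢
  simpa only [ι.norm_map] using h

theorem contDiffAt_nat {H : Type} [NormedAddCommGroup H] [NormedSpace ℝ H] (n : ℕ) :
    ∀ (A B : Type) [NormedAddCommGroup A] [NormedSpace ℝ A] [CompleteSpace A]
      [NormedAddCommGroup B] [NormedSpace ℝ B] (ι : A →ₗᵢ[ℝ] B) (f : H → A) (x : H),
      ContDiffAt ℝ n (fun y => ι (f y)) x → ContDiffAt ℝ n f x := by
  induction n with
  | zero =>
    intro A B _ _ _ _ _ ι f x h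
    have h0 : ((0 : ℕ) : ℕ∞ω) = 0 := rfl
    rw [h0, contDiffAt_zero] at h ⊢
    obtain ⟨u, hu, hc⟩ := h
    refine ⟨u, hu, ?_⟩
    exact (ι.isometry.isEmbedding.continuousOn_iff).2 hc
  | succ n ih =>
    intro A B _ _ _ _ _ ι f x h
    have h0 : ((n + 1 : ℕ) : ℕ∞ω) = (n : ℕ∞ω) + 1 := by push_cast; rfl
    rw [h0, contDiffAt_succ_iff_hasFDerivAt] at h ⊢
    obtain ⟨D, ⟨u, hu, hD⟩, hDn⟩ := h
    have h1 : ∀ y, ∃ D' : H →L[ℝ] A, y ∈ u → (∀ v, ι (D' v) = D y v) ∧ HasFDerivAt f D' y := by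
      intro y
      by_cases hy : y ∈ u
      · obtain ⟨D', h2, h3⟩ := fderiv_mem ι f (hD y hy)
        exact ⟨D', fun _ => ⟨h2, h3⟩⟩
      · exact ⟨0, fun h => absurd h hy⟩
    choose D' hD' using h1
    refine ⟨D', ⟨u, hu, fun y hy => (hD' y hy).2⟩, ?_⟩
    refine ih (H →L[ℝ] A) (H →L[ℝ] B) (postI H ι) D' x ?_
    refine hDn.congr_of_eventuallyEq ?_
    filter_upwards [hu] with y hy
    ext v
    exact (hD' y hy).1 v

/-- a map into `A` is smooth if its composition with an isometry `A → B` is -/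
theorem contDiffAt_of_comp {A B H : Type} [NormedAddCommGroup A] [NormedSpace ℝ A]
    [CompleteSpace A] [NormedAddCommGroup B] [NormedSpace ℝ B] [NormedAddCommGroup H]
    [NormedSpace ℝ H] (ι : A →ₗᵢ[ℝ] B) (f : H → A) (x : H)
    (h : ContDiffAt ℝ ∞ (fun y => ι (f y)) x) : ContDiffAt ℝ ∞ f x := by
  rw [contDiffAt_infty] at h ⊢
  exact fun n => contDiffAt_nat n A B ι f x (h n)

theorem ift (P E F S : Type) [NormedAddCommGroup P] [NormedSpace ℝ P] [CompleteSpace P]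
    [NormedAddCommGroup E] [NormedSpace ℝ E] [CompleteSpace E]
    [NormedAddCommGroup F] [NormedSpace ℝ F] [CompleteSpace F] [AddCommGroup S] [Module ℝ S]
    (j : S →ₗ[ℝ] E) (i : S →ₗ[ℝ] F) (L : S →ₗ[ℝ] S) (G : P × E → F) (p₀ : P) (K : ℝ)
    (hG : ContDiffAt ℝ ∞ G (p₀, 0)) (hG0 : G (p₀, 0) = 0)
    (hGi : ∀ᶠ p in 𝓝 p₀, ∀ s : S, ∃ f : S, G (p, j s) = i f)
    (hL : ∀ s : S, fderiv ℝ G (p₀, 0) (0, j s) = i (L s))
    (hsurj : ∀ f : S, ∃ s : S, L s = f) (hK : ∀ s : S, ‖j s‖ ≤ K * ‖i (L s)‖) :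
    ∃ x : P → E, ContDiffAt ℝ ∞ x p₀ ∧ x p₀ = 0 ∧
      ∀ᶠ p in 𝓝 p₀, x p ∈ closure (Set.range j) ∧ G (p, x p) = 0 := by
  classical
  let X : Submodule ℝ E := (LinearMap.range j).topologicalClosure
  let Y : Submodule ℝ F := (LinearMap.range i).topologicalClosure
  have hX : ∀ x, x ∈ X ↔ x ∈ closure (Set.range j) := fun x => by
    show x ∈ (X : Set E) ↔ _
    rw [Submodule.topologicalClosure_coe]; rfl
  have hY : ∀ y, y ∈ Y ↔ y ∈ closure (Set.range i) := fun y => by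
    show y ∈ (Y : Set F) ↔ _
    rw [Submodule.topologicalClosure_coe]; rfl
  have : CompleteSpace X := (Submodule.isClosed_topologicalClosure _).completeSpace_coe
  have : CompleteSpace Y := (Submodule.isClosed_topologicalClosure _).completeSpace_coe
  let ιX : X →ₗᵢ[ℝ] E := X.subtypeₗᵢ
  let ιY : Y →ₗᵢ[ℝ] F := Y.subtypeₗᵢ
  let jX : S → X := fun s => ⟨j s, (hX _).2 (subset_closure ⟨s, rfl⟩)⟩
  let iY : S → Y := fun s => ⟨i s, (hY _).2 (subset_closure ⟨s, rfl⟩)⟩
  have hjX : DenseRange jX := by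
    intro x
    rw [closure_subtype]
    have h1 : (Subtype.val '' Set.range jX : Set E) = Set.range j := by
      ext y; constructor
      · rintro ⟨_, ⟨s, rfl⟩, rfl⟩; exact ⟨s, rfl⟩
      · rintro ⟨s, rfl⟩; exact ⟨_, ⟨s, rfl⟩, rfl⟩
    rw [h1]
    exact (hX _).1 x.2
  have hiY : DenseRange iY := by
    intro y
    rw [closure_subtype]
    have h1 : (Subtype.val '' Set.range iY : Set F) = Set.range i := by
      ext y; constructor
      · rintro ⟨_, ⟨s, rfl⟩, rfl⟩; exact ⟨s, rfl⟩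
      · rintro ⟨s, rfl⟩; exact ⟨_, ⟨s, rfl⟩, rfl⟩
    rw [h1]
    exact (hY _).1 y.2
  let ι1 : P × X →L[ℝ] P × E := (ContinuousLinearMap.id ℝ P).prodMap ιX.toContinuousLinearMap
  have hι1 : ∀ q : P × X, ι1 q = (q.1, (q.2 : E)) := fun q => rfl
  let G' : P × X → Y := fun q => if h : G (ι1 q) ∈ Y then ⟨G (ι1 q), h⟩ else 0
  have hι10 : ι1 (p₀, 0) = (p₀, 0) := rfl
  -- values in Y near the base point
  have hev : ∀ᶠ q in 𝓝 ((p₀, 0) : P × X), G (ι1 q) ∈ Y := by
    have hc : ∀ᶠ z in 𝓝 ((p₀, 0) : P × E), ContinuousAt G z := by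
      have h1 : ContDiffAt ℝ 1 G (p₀, 0) := hG.of_le (by exact_mod_cast le_top)
      filter_upwards [h1.eventually (by simp)] with z hz
      exact hz.continuousAt
    obtain ⟨W, hWsub, hWo, hW0⟩ := _root_.eventually_nhds_iff.1 hc
    obtain ⟨U, V, hUo, hU0, hVo, hV0, hUV⟩ := mem_nhds_prod_iff'.1 (hWo.mem_nhds hW0)
    have h2 : ∀ᶠ q in 𝓝 ((p₀, 0) : P × X), q.1 ∈ U ∧ (∀ s : S, ∃ f : S, G (q.1, j s) = i f) ∧
        (q.2 : E) ∈ V := by
      have a1 : Tendsto (fun q : P × X => q.1) (𝓝 (p₀, 0)) (𝓝 p₀) := continuous_fst.tendsto _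
      have a2 : Tendsto (fun q : P × X => (q.2 : E)) (𝓝 (p₀, 0)) (𝓝 0) :=
        (continuous_subtype_val.comp continuous_snd).tendsto _
      exact (a1.eventually (hUo.mem_nhds hU0)).and
        ((a1.eventually hGi).and (a2.eventually (hVo.mem_nhds hV0)))
    filter_upwards [h2] with q hq
    obtain ⟨hq1, hq2, hq3⟩ := hq
    rw [hY, hι1]
    have hcq : ContinuousAt (fun y => G (q.1, y)) (q.2 : E) :=
      ContinuousAt.comp (f := fun y => (q.1, y)) (hWsub _ (hUV ⟨hq1, hq3⟩))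
        (by fun_prop)
    refine hcq.continuousWithinAt.mem_closure (s := Set.range j) ((hX _).1 q.2.2) ?_
    rintro _ ⟨s, rfl⟩
    obtain ⟨f, hf⟩ := hq2 s
    exact ⟨f, hf.symm⟩
  have hGG : ∀ᶠ q in 𝓝 ((p₀, 0) : P × X), ιY (G' q) = G (ι1 q) := by
    filter_upwards [hev] with q hq
    show ((G' q : Y) : F) = _
    simp only [G', dif_pos hq]
  have hGι : ContDiffAt ℝ ∞ (fun q => G (ι1 q)) ((p₀, 0) : P × X) :=
    ContDiffAt.comp _ (by rw [hι10]; exact hG) ι1.contDiff.contDiffAt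
  have hG's : ContDiffAt ℝ ∞ G' (p₀, 0) :=
    contDiffAt_of_comp ιY G' _ (hGι.congr_of_eventuallyEq hGG)
  have hne : (∞ : ℕ∞ω) ≠ 0 := by simp
  -- derivative
  have hder : ∀ x : X, ιY (fderiv ℝ G' (p₀, 0) (0, x)) = fderiv ℝ G (p₀, 0) (0, (x : E)) := by
    intro x
    have h1 : HasFDerivAt (fun q => ιY (G' q)) (ιY.toContinuousLinearMap ∘L fderiv ℝ G' (p₀, 0)) (p₀, 0) :=
      ιY.toContinuousLinearMap.hasFDerivAt.comp _ (hG's.differentiableAt hne).hasFDerivAt
    have h2 : HasFDerivAt (fun q => G (ι1 q)) (fderiv ℝ G (p₀, 0) ∘L ι1) ((p₀, 0) : P × X) :=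
      HasFDerivAt.comp _ (by rw [hι10]; exact (hG.differentiableAt hne).hasFDerivAt) ι1.hasFDerivAt
    have h3 := h1.unique (h2.congr_of_eventuallyEq hGG)
    have h4 := congrArg (fun T : P × X →L[ℝ] F => T (0, x)) h3
    exact h4
  let T : X →L[ℝ] Y := fderiv ℝ G' (p₀, 0) ∘L .inr ℝ P X
  have hT : ∀ x : X, ((T x : Y) : F) = fderiv ℝ G (p₀, 0) (0, (x : E)) := fun x => hder x
  have hTj : ∀ s, T (jX s) = iY (L s) := fun s => Subtype.ext ((hT (jX s)).trans (hL s))
  have hTb : ∀ x : X, ‖x‖ ≤ |K| * ‖T x‖ := by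
    intro x
    refine hjX.induction_on (p := fun x => ‖x‖ ≤ |K| * ‖T x‖) x ?_ ?_
    · exact isClosed_le continuous_norm (continuous_const.mul T.continuous.norm)
    · intro s
      rw [hTj]
      exact (hK s).trans (mul_le_mul_of_nonneg_right (le_abs_self K) (norm_nonneg _))
  have hanti : AntilipschitzWith ⟨|K|, abs_nonneg K⟩ T :=
    AddMonoidHomClass.antilipschitz_of_bound T hTb
  have hTinj : Function.Injective T := hanti.injective
  have hTsurj : Function.Surjective T := by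
    have hcl : IsClosed (Set.range T) := hanti.isClosed_range T.uniformContinuous
    have hd : DenseRange T := by
      refine Dense.mono ?_ hiY
      rintro _ ⟨f, rfl⟩
      obtain ⟨s, rfl⟩ := hsurj f
      exact ⟨jX s, hTj s⟩
    intro y
    have := hd y
    rw [hcl.closure_eq] at this
    exact this
  have hinv : (fderiv ℝ G' (p₀, 0) ∘L .inr ℝ P X).IsInvertible := by
    refine ⟨ContinuousLinearEquiv.ofBijective T (LinearMap.ker_eq_bot.2 hTinj)
      (LinearMap.range_eq_top.2 hTsurj), ?_⟩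
    ext x
    rfl
  have hG'0 : G' (p₀, 0) = 0 := by
    apply Subtype.ext
    have h1 : G (ι1 (p₀, 0)) = 0 := hG0
    have h2 : G (ι1 ((p₀, 0) : P × X)) ∈ Y := by rw [h1]; exact Y.zero_mem
    simp only [G', dif_pos h2]
    exact h1
  let ξ : P → X := hG's.implicitFunction hne hinv
  have hξ : ContDiffAt ℝ ∞ ξ p₀ := hG's.contDiffAt_implicitFunction hne hinv
  have hξ0 : ξ p₀ = 0 := hG's.implicitFunction_apply_self hne hinv
  have hξG : ∀ᶠ p in 𝓝 p₀, G' (p, ξ p) = G' (p₀, 0) := hG's.eventually_apply_implicitFunction hne hinv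
  refine ⟨fun p => (ξ p : E), ιX.toContinuousLinearMap.contDiff.contDiffAt.comp p₀ hξ, ?_, ?_⟩
  · show ((ξ p₀ : X) : E) = 0
    rw [hξ0]; rfl
  · have h1 : Tendsto (fun p => (p, ξ p)) (𝓝 p₀) (𝓝 ((p₀, 0) : P × X)) := by
      have h2 : ContinuousAt (fun p => (p, ξ p)) p₀ := continuousAt_id.prodMk hξ.continuousAt
      have h3 : (p₀, ξ p₀) = ((p₀, 0) : P × X) := by rw [hξ0]
      rw [← h3]
      exact h2
    filter_upwards [hξG, h1.eventually hGG] with p hp1 hp2
    refine ⟨(hX _).1 (ξ p).2, ?_⟩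
    rw [hp1, hG'0, map_zero] at hp2
    exact hp2.symm

end

end Crest.Agent.R281.YVift_307
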