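import Crest.Agent.R281.YV1_833
import Crest.Agent.R281.YVift_307

/-!
# Row 281, YAU-VAR: leaf YV-IFT in the literal form `IftStmt`
-/

set_option autoImplicit false

namespace Crest.Agent.R281.YVift_307

theorem iftStmt : YV_833.IftStmt := fun P E F S => by
  intro _ _ _ _ _ _ _ _ _ _ _ j i L G p₀ K h1 h2 h3 h4 h5 h6
  exact ift P E F S j i L G p₀ K h1 h2 h3 h4 h5 h6

end Crest.Agent.R281.YVift_307
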