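import Crest.Agent.R281.Yv6_900

/-!
# Row 281, YAU-VAR (helper900), part 9: the T-formula

`tSt : TH b D u0 k0 T p0 → TSt b B D u0 k0 p0`
-/

set_option autoImplicit false
set_option maxSynthPendingDepth 3
set_option linter.unusedSectionVars false

open Set Filter Topology Metric Complex
open scoped ContDiff ComplexOrder

namespace Crest.Agent.R281.Yv_900

open Crest.Agent.R275.Geo Crest.Agent.R275.Core144 Crest.Agent.R275.EDR890
open Crest.Agent.R273.Defs_333 Crest.Agent.R273.Kah_333 Crest.Agent.R273.Hess_333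
open Crest.Agent.R273.YauDefs_635 Crest.Agent.R273.SchF_152 Crest.Agent.R273.SchG_152
open Crest.Agent.R273.SchH_152
open Crest.Agent.R260.ACM_580 Crest.Agent.R281.HkR_835 Crest.Agent.R281.NefO_476
open Crest.Agent.R281.Nef_252 Crest.Agent.R281.Hjs_680 Crest.Agent.R281.Tt_476

noncomputable section

variable {n : ℕ} {X : Type} [TopologicalSpace X] {A : Atl n X}

theorem re_hb_I (G : Matrix (Fin n) (Fin n) ℂ) (u v : Cn n) :
    (I * hb G u (I • v)).re = (hb G u v).re := by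
  rw [hb_I_right]
  have : I * (-I * hb G u v) = hb G u v := by linear_combination (-hb G u v) * I_mul_I
  rw [this]

variable {ι : Type} [Fintype ι] [DecidableEq ι] (b : Module.Basis ι ℝ (Cn n)) (B : Cb A)
  {P : Type} [NormedAddCommGroup P] [NormedSpace ℝ P] {D : P → Dat (ofAtl A)} {u0 : X → ℝ}
  {k0 : ℝ} {T : Set P} {p0 : P}

/-- the linear part of the operator at `p0` is the complex Hessian -/
theorem lin_hess (hJ : ∀ i, ∀ z ∈ (A.e i).target, ∀ v, (D p0).J.J i z v = I • v) (w : SmE A)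
    {i : A.ι} {z : Cn n} (hz : z ∈ (A.e i).target) (a c : Cn n) :
    c2 ((D p0).J.J i) a c z (fderiv ℝ (fderiv ℝ (inC A i w)) z) +
      c1 ((D p0).J.J i) a c z (fderiv ℝ (inC A i w) z) =
      (hb ((4 : ℂ) • hess (inC A i w) z) a c).re := by
  have hw : Sm (ofAtl A) w.1 := w.2
  have h1 : (D p0).J.J i =ᶠ[𝓝 z] (jA A).J i := by
    filter_upwards [(A.e i).open_target.mem_nhds hz] with y hy
    ext1 v
    exact hJ i y hy v
  have e1 := ddc_hess (A := A) hw (i := i) hz a (I • c)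
  rw [ddc_w (jA A) w.1 hw (i := i) hz, re_hb_I] at e1
  rw [← ddcF_eq]
  refine Eq.trans ?_ e1
  rw [hJ i z hz c]
  unfold ddcF
  rw [h1.fderiv_eq, h1.self_of_nhds]
  rfl

/-- the Kähler metric of `om + dd^c u0` -/
theorem exists_kah (hJ : ∀ i, ∀ z ∈ (A.e i).target, ∀ v, (D p0).J.J i z v = I • v)
    (hs : SolMA b (D p0) u0) : ∃ K : Kah A, ∀ i, ∀ z ∈ (A.e i).target, ∀ a c,
      bt D u0 i p0 z a c = (hb (K.g i ((A.e i).symm z)) a c).re := by
  set w' : F2 (ofAtl A) := (D p0).om + ddc (D p0).J u0 hs.sm with hw'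
  have ht0 : Crest.Agent.R281.Nef_252.T11 (D p0).J w' := hs.t11.add (ddc_T11 hs.cx u0 hs.sm)
  have ht : ∀ i, ∀ z ∈ (A.e i).target, ∀ u v, w'.w i z (I • u) (I • v) = w'.w i z u v := by
    intro i z hz u v
    rw [← hJ i z hz, ← hJ i z hz]
    exact ht0 i z hz u v
  have hval : ∀ i, ∀ z ∈ (A.e i).target, (w'.k11 ht).f2.w i z = w'.w i z := fun i z hz =>
    F2.k11_f2 w' ht hz
  have hp : Pos (jA A) (w'.k11 ht).f2 := fun i z hz v hv => by
    rw [hval i z hz, jA_J, ← hJ i z hz]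
    exact hs.pos i z hz v hv
  refine ⟨(w'.k11 ht).kah ((pos_f2 _).1 hp), fun i z hz a c => ?_⟩
  rw [← bt_eq hs.sm hz, ← re_hb_I]
  show w'.w i z a ((D p0).J.J i z c) = (I * hb ((w'.k11 ht).g i ((A.e i).symm z)) a (I • c)).re
  rw [← K11.f2_w _ hz, hval i z hz, hJ i z hz]

/-- **T-FORMULA** -/
theorem tSt (h : TH b D u0 k0 T p0) : TSt b B D u0 k0 p0 := by
  obtain ⟨K, hK⟩ := exists_kah b h.hJ h.sol
  refine ⟨K, fun w f hf => ?_⟩
  have hsm : A.Sm u0 := h.sol.sm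
  have hGs : ContDiffOn ℝ ∞ (fun q : P × JJ B => GG b B D u0 k0 q.1 q.2) (T ×ˢ univ) :=
    contDiffOn_GG b B u0 k0 h.hT h.hD hsm h.hr
  have hG1 : HasFDerivAt (GG b B D u0 k0 p0) (fderiv ℝ (GG b B D u0 k0 p0) 0) 0 := by
    have h1 : ContDiffAt ℝ ∞ (fun q : P × JJ B => GG b B D u0 k0 q.1 q.2) (p0, 0) :=
      hGs.contDiffAt ((h.hT.prod isOpen_univ).mem_nhds ⟨h.hp, mem_univ _⟩)
    have h2 : ContDiffAt ℝ ∞ (fun x : JJ B => GG b B D u0 k0 p0 x) 0 :=
      ContDiffAt.comp (g := fun q : P × JJ B => GG b B D u0 k0 q.1 q.2)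
        (f := fun x : JJ B => (p0, x)) (0 : JJ B) h1 (contDiffAt_const.prodMk contDiffAt_id)
    exact (h2.differentiableAt (by simp)).hasFDerivAt
  funext k
  refine Hol.ext fun z hz => ?_
  have hzt := KK_sub B k hz
  set i := B.i k with hi
  set x := (A.e i).symm z with hx
  have hxs : x ∈ (A.e i).source := (A.e i).map_target hzt
  -- the derivative along the line
  have e1 : HasDerivAt (fun s : ℝ => GG b B D u0 k0 p0 (s • jj B w))
      (fderiv ℝ (GG b B D u0 k0 p0) 0 (jj B w)) 0 := by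
    have h2 : HasDerivAt (fun s : ℝ => s • jj B w) (jj B w) 0 := by
      simpa using (hasDerivAt_id (0 : ℝ)).smul_const (jj B w)
    exact HasFDerivAt.comp_hasDerivAt_of_eq (0 : ℝ) hG1 h2 (by simp)
  have e2 : HasDerivAt (fun s : ℝ => Hol.fn (GG b B D u0 k0 p0 (s • jj B w) k) z)
      (Hol.fn (fderiv ℝ (GG b B D u0 k0 p0) 0 (jj B w) k) z) 0 :=
    ((Hol.valL z).comp (ContinuousLinearMap.proj (R := ℝ)
      (φ := fun k : B.κ => Hol (KK B k)) k)).hasFDerivAt.comp_hasDerivAt (0 : ℝ) e1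
  -- the values
  have hmat : ∀ s : ℝ, MM b D u0 i p0 z (HF.fn ((s • jj B w) k).2.1 z)
      (HF.fn ((s • jj B w) k).2.2 z) =
      RM b (K.g i x) + s • RM b ((4 : ℂ) • hess (inC A i w) z) := by
    intro s
    have a1 : HF.fn ((s • jj B w) k).2.1 z = s • fderiv ℝ (inC A i w) z := by
      rw [← fn_jj1 B w k hz]
      exact HF.fn_smul s _ z
    have a2 : HF.fn ((s • jj B w) k).2.2 z = s • fderiv ℝ (fderiv ℝ (inC A i w)) z := by
      rw [← fn_jj2 B w k hz]
      exact HF.fn_smul s _ z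
    rw [a1, a2]
    ext a c
    show bt D u0 i p0 z (b a) (b c) + (c2 ((D p0).J.J i) (b a) (b c) z _ +
      c1 ((D p0).J.J i) (b a) (b c) z _) = (hb (K.g i x) (b a) (b c)).re +
        s * (hb ((4 : ℂ) • hess (inC A i w) z) (b a) (b c)).re
    rw [hK i z hzt, map_smul, map_smul, ← smul_add, lin_hess h.hJ w hzt, smul_eq_mul]
  have hdet : (RM b (K.g i x)).det = k0 * (D p0).r.r i z := by
    rw [← h.eq i z hzt]
    have := hmat 0
    rw [zero_smul, zero_smul, add_zero] at this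
    rw [← this]
    have a1 : HF.fn ((0 : JJ B) k).2.1 z = 0 := HF.fn_zero z
    have a2 : HF.fn ((0 : JJ B) k).2.2 z = 0 := HF.fn_zero z
    rw [a1, a2]
  have hpd : (K.g i x).PosDef := K.pos i x hxs
  have e3 : HasDerivAt (fun s : ℝ => Hol.fn (GG b B D u0 k0 p0 (s • jj B w) k) z)
      (2 * (((K.g i x)⁻¹ * ((4 : ℂ) • hess (inC A i w) z)).trace).re) 0 := by
    refine (hasDerivAt_RM b hpd.det_pos.ne' ((4 : ℂ) • hess (inC A i w) z)).congr_of_eventuallyEq
      (Eventually.of_forall fun s => ?_)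
    show Hol.fn (GG b B D u0 k0 p0 (s • jj B w) k) z = _
    rw [fn_GG b B u0 k0 h.hT h.hD hsm h.hr k h.hp _ hz, ← hi, hmat s, hdet]
    exact (div_eq_mul_inv _ _).symm
  rw [e2.unique e3, fn_hh B _ k hz]
  have e4 := hf i z hzt
  rw [gi, ← hx, Crest.Agent.R273.YauMax_635.cH_eq_hess (Crest.Agent.R273.YauMax_635.inC_contDiffAt w.2 i hzt)] at e4
  show _ = 8 * inC A i f.1 z
  rw [← e4, Matrix.mul_smul, Matrix.trace_smul, smul_eq_mul]
  simp only [Complex.mul_re, Complex.re_ofNat, Complex.im_ofNat]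
  ring

end

end Crest.Agent.R281.Yv_900
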