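import Crest.Agent.R281.Yv8_900
import Crest.Agent.R281.Yv9_900

/-!
# Row 281, YAU-VAR (helper900), part 10: smoothness in the parameters over a holomorphic atlas
-/

set_option autoImplicit false
set_option maxSynthPendingDepth 3
set_option linter.unusedSectionVars false

open Set Filter Topology Metric
open scoped ContDiff

namespace Crest.Agent.R281.Yv_900

open Crest.Agent.R275.Geo Crest.Agent.R275.Core144 Crest.Agent.R275.EDR890
open Crest.Agent.R260.ACM_580 Crest.Agent.R281.HkR_835 Crest.Agent.R281.NefO_476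
open Crest.Agent.R281.Nef_252 Crest.Agent.R281.Hjs_680 Crest.Agent.R281.Tt_476

noncomputable section

variable {n : ℕ} {X : Type} [TopologicalSpace X] {A : Atl n X}

/-- **smoothness in the parameters at `p0`**, holomorphic charts at `p0` -/
theorem v0_atl [CompactSpace X] [T2Space X] [ConnectedSpace X] [Finite A.ι] (P₀ : Part A)
    {ι : Type} [Fintype ι] [DecidableEq ι] (b : Module.Basis ι ℝ (Cn n))
    {P : Type} [NormedAddCommGroup P] [NormedSpace ℝ P] [FiniteDimensional ℝ P]
    {T : Set P} (hT : IsOpen T) {D : P → Dat (ofAtl A)} (hD : JSDat T D) {u : P → X → ℝ}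
    (hu : ∀ p ∈ T, SolMA b (D p) (u p)) {x1 : X} (h1 : ∀ p ∈ T, u p x1 = 0) {p0 : P}
    (hp : p0 ∈ T) (hJ : ∀ i, ∀ z ∈ (A.e i).target, ∀ v, (D p0).J.J i z v = Complex.I • v)
    (y0 : X) : ContDiffAt ℝ ∞ (fun p => u p y0) p0 :=
  v0_atl_T P₀ b hT hD hu h1 hp hJ (fun B _ h => tSt b B h) y0

end

end Crest.Agent.R281.Yv_900
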