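import Mathlib

/-!
# Row 281, YAU-VAR (helper900), part 1: abstract implicit function theorem in closed subspaces

* `contDiffOn_of_isometry` : a map into a complete subspace is smooth iff it is smooth in the
  big space.
* `exists_curve` (**V0-ABS**): `J`, `H` Banach, `j : E → J`, `h : E → H` linear, `X`, `Y` the
  closures of the ranges, `G : P × J → H` smooth, `G (p, j f) ∈ Y`, linearisation at `(p₀, 0)`
  onto `Y` modulo a line with estimate on the dense subspaces: a smooth solution
  `p ↦ (u p, m p)` of `G (p, u) = (1 + m) e`, `ev u = 0`.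
-/

set_option autoImplicit false

open Set Filter Topology
open scoped ContDiff

namespace Crest.Agent.R281.Yv_900

noncomputable section

universe u

section iso

/-- post-composition with a linear isometry -/
def postIso (E : Type u) {S W : Type u} [NormedAddCommGroup E] [NormedSpace ℝ E]
    [NormedAddCommGroup S] [NormedSpace ℝ S] [NormedAddCommGroup W] [NormedSpace ℝ W]
    (i : S →ₗᵢ[ℝ] W) : (E →L[ℝ] S) →ₗᵢ[ℝ] (E →L[ℝ] W) where
  toFun B := i.toContinuousLinearMap.comp B
  map_add' A B := by ext; simp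
  map_smul' c A := by ext; simp
  norm_map' B := by
    show ‖i.toContinuousLinearMap.comp B‖ = ‖B‖
    exact i.norm_toContinuousLinearMap_comp

theorem exists_lift {E S W : Type u} [NormedAddCommGroup E] [NormedSpace ℝ E]
    [NormedAddCommGroup S] [NormedSpace ℝ S] [CompleteSpace S]
    [NormedAddCommGroup W] [NormedSpace ℝ W]
    (i : S →ₗᵢ[ℝ] W) {g : E → S} {A : E →L[ℝ] W} {x : E}
    (h : HasFDerivAt (fun y => i (g y)) A x) :
    ∃ B : E →L[ℝ] S, i.toContinuousLinearMap.comp B = A ∧ HasFDerivAt g B x := by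
  have hcl : IsClosed (Set.range i) := i.isometry.isClosedEmbedding.isClosed_range
  have hmem : ∀ v, A v ∈ Set.range i := by
    intro v
    have h1 : HasDerivAt (fun t : ℝ => i (g (x + t • v))) (A v) 0 := by
      have h2 : HasFDerivAt (fun y => i (g y)) A (x + (0 : ℝ) • v) := by simpa using h
      have h3 : HasDerivAt (fun t : ℝ => x + t • v) v 0 := by
        simpa using ((hasDerivAt_id (0 : ℝ)).smul_const v).const_add x
      exact h2.comp_hasDerivAt (0 : ℝ) h3
    have h4 := h1.tendsto_slope_zero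
    refine hcl.mem_of_tendsto h4 (Eventually.of_forall fun t => ?_)
    refine ⟨t⁻¹ • (g (x + (0 + t) • v) - g (x + (0 : ℝ) • v)), ?_⟩
    simp
  have hker : LinearMap.ker i.toLinearMap = ⊥ := LinearMap.ker_eq_bot.2 i.injective
  set B : E →ₗ[ℝ] S := (LinearEquiv.ofInjective i.toLinearMap i.injective).symm.toLinearMap ∘ₗ
    LinearMap.codRestrict (LinearMap.range i.toLinearMap) A.toLinearMap (fun v => by
      obtain ⟨s, hs⟩ := hmem v
      exact ⟨s, hs⟩) with hB
  have hiB : ∀ v, i (B v) = A v := by
    intro v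
    have := LinearEquiv.apply_symm_apply (LinearEquiv.ofInjective i.toLinearMap i.injective)
      (LinearMap.codRestrict (LinearMap.range i.toLinearMap) A.toLinearMap (fun v => by
        obtain ⟨s, hs⟩ := hmem v
        exact ⟨s, hs⟩) v)
    exact congrArg Subtype.val this
  set B' : E →L[ℝ] S := B.mkContinuous ‖A‖ (fun v => by
    rw [← i.norm_map, hiB]
    exact A.le_opNorm v) with hB'
  have hiB' : ∀ v, i (B' v) = A v := hiB
  refine ⟨B', by ext v; exact hiB' v, ?_⟩
  rw [hasFDerivAt_iff_isLittleO] at h ⊢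
  refine Asymptotics.IsLittleO.congr_left ?_ (fun y => rfl)
  have h5 : ∀ y, ‖g y - g x - B' (y - x)‖ = ‖i (g y) - i (g x) - A (y - x)‖ := by
    intro y
    rw [← i.norm_map, map_sub, map_sub, hiB']
  rw [← Asymptotics.isLittleO_norm_left] at h ⊢
  simpa only [h5] using h

theorem contDiffOn_nat_of_isometry (k : ℕ) :
    ∀ {E S W : Type u} [NormedAddCommGroup E] [NormedSpace ℝ E]
    [NormedAddCommGroup S] [NormedSpace ℝ S] [CompleteSpace S]
    [NormedAddCommGroup W] [NormedSpace ℝ W]
    (i : S →ₗᵢ[ℝ] W) {g : E → S} {U : Set E}, IsOpen U →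
    ContDiffOn ℝ k (fun y => i (g y)) U → ContDiffOn ℝ k g U := by
  induction k with
  | zero =>
    intro E S W _ _ _ _ _ _ _ i g U hU h
    simp only [CharP.cast_eq_zero, contDiffOn_zero] at h ⊢
    exact (i.isometry.isEmbedding.isInducing.continuousOn_iff).2 h
  | succ k ih =>
    intro E S W _ _ _ _ _ _ _ i g U hU h
    have hk : ((k + 1 : ℕ) : WithTop ℕ∞) = (k : WithTop ℕ∞) + 1 := by push_cast; rfl
    rw [hk, contDiffOn_succ_iff_fderiv_of_isOpen hU] at h ⊢
    obtain ⟨h1, -, h3⟩ := h
    have hl : ∀ x ∈ U, ∃ B : E →L[ℝ] S, i.toContinuousLinearMap.comp B =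
        fderiv ℝ (fun y => i (g y)) x ∧ HasFDerivAt g B x := fun x hx =>
      exists_lift i ((h1 x hx).differentiableAt (hU.mem_nhds hx)).hasFDerivAt
    refine ⟨fun x hx => ?_, fun hh => ?_, ?_⟩
    · obtain ⟨B, -, hB⟩ := hl x hx
      exact hB.differentiableAt.differentiableWithinAt
    · exact absurd hh (by simp)
    · refine ih (postIso E i) hU (h3.congr fun x hx => ?_)
      obtain ⟨B, hB1, hB2⟩ := hl x hx
      rw [hB2.fderiv, ← hB1]
      rfl

/-- **a map into a complete subspace is smooth iff it is smooth in the big space** -/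
theorem contDiffOn_of_isometry {E S W : Type u} [NormedAddCommGroup E] [NormedSpace ℝ E]
    [NormedAddCommGroup S] [NormedSpace ℝ S] [CompleteSpace S]
    [NormedAddCommGroup W] [NormedSpace ℝ W]
    (i : S →ₗᵢ[ℝ] W) {g : E → S} {U : Set E} (hU : IsOpen U)
    (h : ContDiffOn ℝ ∞ (fun y => i (g y)) U) : ContDiffOn ℝ ∞ g U :=
  contDiffOn_infty.2 fun k => contDiffOn_nat_of_isometry k i hU (contDiffOn_infty.1 h k)

end iso

end

end Crest.Agent.R281.Yv_900
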