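import Crest.Agent.R281.Yv1_900

/-!
# Row 281, YAU-VAR (helper900), part 2: abstract implicit function theorem in closed subspaces

`ift_aux`, `exists_sol_op`, `exists_curve` (**V0-ABS**).
-/

set_option autoImplicit false
set_option linter.unusedSectionVars false

open Set Filter Topology
open scoped ContDiff

namespace Crest.Agent.R281.Yv_900

noncomputable section

universe u

section ift

variable {P J H : Type u} [NormedAddCommGroup P] [NormedSpace ℝ P] [CompleteSpace P]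
  [NormedAddCommGroup J] [NormedSpace ℝ J]
  [NormedAddCommGroup H] [NormedSpace ℝ H]

theorem hasFDerivAt_of_isometry {E S W : Type u} [NormedAddCommGroup E] [NormedSpace ℝ E]
    [NormedAddCommGroup S] [NormedSpace ℝ S] [CompleteSpace S]
    [NormedAddCommGroup W] [NormedSpace ℝ W]
    (i : S →ₗᵢ[ℝ] W) {g : E → S} {B : E →L[ℝ] S} {x : E}
    (h : HasFDerivAt (fun y => i (g y)) (i.toContinuousLinearMap.comp B) x) :
    HasFDerivAt g B x := by
  obtain ⟨B', h1, h2⟩ := exists_lift i h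
  have : B' = B := by
    ext v
    have := congrArg (fun T : E →L[ℝ] W => T v) h1
    exact i.injective (by simpa using this)
  rwa [← this]

/-- implicit function theorem in closed subspaces, with a given right inverse -/
theorem ift_aux (X : Submodule ℝ J) (Y : Submodule ℝ H) [CompleteSpace X] [CompleteSpace Y]
    {W : Set P} (hW : IsOpen W) {p₀ : P} (hp : p₀ ∈ W) {O : Set J} (hO : IsOpen O)
    (h0 : (0 : J) ∈ O) {G : P → J → H}
    (hG : ContDiffOn ℝ ∞ (fun q : P × J => G q.1 q.2) (W ×ˢ O))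
    (hY : ∀ p ∈ W, ∀ x ∈ X, x ∈ O → G p x ∈ Y)
    (e : Y) (he : G p₀ 0 = e) (S : Y →L[ℝ] X) (μ : Y →L[ℝ] ℝ)
    (hS : ∀ y : Y, fderiv ℝ (G p₀) 0 (S y) - μ y • (e : H) = y) :
    ∃ y : P → Y, ContDiffAt ℝ ∞ y p₀ ∧ y p₀ = 0 ∧
      ∀ᶠ p in 𝓝 p₀, p ∈ W ∧ (S (y p) : J) ∈ O ∧ G p (S (y p)) = (1 + μ (y p)) • (e : H) := by
  classical
  set i : Y →ₗᵢ[ℝ] H := Y.subtypeₗᵢ with hi
  set s : P × Y →L[ℝ] P × J := (ContinuousLinearMap.id ℝ P).prodMap (X.subtypeL.comp S) with hs
  have hs' : ∀ q : P × Y, s q = (q.1, (S q.2 : J)) := fun q => rfl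
  set D : Set (P × Y) := s ⁻¹' (W ×ˢ O) with hD
  have hDo : IsOpen D := (hW.prod hO).preimage s.continuous
  have hmem : ∀ q ∈ D, G q.1 (S q.2) - (1 + μ q.2) • (e : H) ∈ Y := fun q hq =>
    Y.sub_mem (hY q.1 hq.1 _ (S q.2).2 hq.2) (Y.smul_mem _ e.2)
  set F : P × Y → Y := fun q => if h : q ∈ D then
    ⟨G q.1 (S q.2) - (1 + μ q.2) • (e : H), hmem q h⟩ else 0 with hF
  have hiF : ∀ q ∈ D, i (F q) = G q.1 (S q.2) - (1 + μ q.2) • (e : H) := by
    intro q hq
    simp only [hF, dif_pos hq]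
    rfl
  have hsm : ContDiffOn ℝ ∞ (fun q : P × Y => G q.1 (S q.2) - (1 + μ q.2) • (e : H)) D := by
    have h1 : ContDiffOn ℝ ∞ (fun q : P × Y => G (s q).1 (s q).2) D :=
      hG.comp s.contDiff.contDiffOn fun q hq => hq
    refine ContDiffOn.sub h1 ?_
    exact ((contDiff_const.add (μ.contDiff.comp contDiff_snd)).smul contDiff_const).contDiffOn
  have hFs : ContDiffOn ℝ ∞ F D := contDiffOn_of_isometry i hDo (hsm.congr hiF)
  have hD0 : ((p₀, 0) : P × Y) ∈ D := by
    refine ⟨hp, ?_⟩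
    show ((S (0 : Y) : X) : J) ∈ O
    simpa using h0
  have hFat : ContDiffAt ℝ ∞ F (p₀, 0) := hFs.contDiffAt (hDo.mem_nhds hD0)
  have hF0 : F (p₀, 0) = 0 := by
    apply i.injective
    rw [hiF _ hD0]
    simp [he]
  -- partial derivative
  have hG1 : HasFDerivAt (G p₀) (fderiv ℝ (G p₀) 0) 0 := by
    have h1 : ContDiffAt ℝ ∞ (fun q : P × J => G q.1 q.2) (p₀, 0) :=
      hG.contDiffAt ((hW.prod hO).mem_nhds ⟨hp, h0⟩)
    have h2 : ContDiffAt ℝ ∞ (fun x : J => G p₀ x) 0 :=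
      ContDiffAt.comp (g := fun q : P × J => G q.1 q.2) (f := fun x : J => (p₀, x)) (0 : J) h1
        (contDiffAt_const.prodMk contDiffAt_id)
    exact (h2.differentiableAt (by simp)).hasFDerivAt
  have hpar : HasFDerivAt (fun y : Y => F (p₀, y)) (ContinuousLinearMap.id ℝ Y) 0 := by
    refine hasFDerivAt_of_isometry i ?_
    have h1 : HasFDerivAt (fun y : Y => G p₀ ((X.subtypeL.comp S) y) - (1 + μ y) • (e : H))
        ((fderiv ℝ (G p₀) 0).comp (X.subtypeL.comp S) - μ.smulRight (e : H)) 0 := by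
      refine HasFDerivAt.sub ?_ ?_
      · have h2 : HasFDerivAt (G p₀) (fderiv ℝ (G p₀) 0) ((X.subtypeL.comp S) 0) := by
          simpa using hG1
        exact h2.comp (0 : Y) (X.subtypeL.comp S).hasFDerivAt
      · have h3 : HasFDerivAt (fun y : Y => 1 + μ y) μ 0 := μ.hasFDerivAt.const_add 1
        exact h3.smul_const (e : H)
    have h2 : (fderiv ℝ (G p₀) 0).comp (X.subtypeL.comp S) - μ.smulRight (e : H) =
        i.toContinuousLinearMap.comp (ContinuousLinearMap.id ℝ Y) := by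
      ext y
      exact hS y
    rw [h2] at h1
    refine h1.congr_of_eventuallyEq ?_
    have h3 : (fun y : Y => ((p₀, y) : P × Y)) ⁻¹' D ∈ 𝓝 (0 : Y) :=
      (hDo.preimage (by fun_prop)).mem_nhds hD0
    filter_upwards [h3] with y hy
    exact hiF _ hy
  have hcomp : (fderiv ℝ F (p₀, 0) ∘L ContinuousLinearMap.inr ℝ P Y) =
      ContinuousLinearMap.id ℝ Y := by
    have h1 : HasFDerivAt F (fderiv ℝ F (p₀, 0)) (p₀, 0) :=
      (hFat.differentiableAt (by simp)).hasFDerivAt
    have h2 : HasFDerivAt (fun y : Y => ((p₀, y) : P × Y)) (ContinuousLinearMap.inr ℝ P Y) 0 :=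
      hasFDerivAt_prodMk_right p₀ 0
    have h3 := h1.comp (0 : Y) h2
    exact h3.unique hpar
  have hinv : (fderiv ℝ F (p₀, 0) ∘L ContinuousLinearMap.inr ℝ P Y).IsInvertible := by
    rw [hcomp]
    exact ⟨ContinuousLinearEquiv.refl ℝ Y, rfl⟩
  have hne : (∞ : WithTop ℕ∞) ≠ 0 := by simp
  refine ⟨hFat.implicitFunction hne hinv, hFat.contDiffAt_implicitFunction hne hinv,
    hFat.implicitFunction_apply_self hne hinv, ?_⟩
  have h1 := hFat.eventually_apply_implicitFunction hne hinv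
  have h2 : ContinuousAt (hFat.implicitFunction hne hinv) p₀ :=
    (hFat.contDiffAt_implicitFunction hne hinv).continuousAt
  have h3 : Tendsto (fun p => ((p, hFat.implicitFunction hne hinv p) : P × Y)) (𝓝 p₀)
      (𝓝 (p₀, 0)) := by
    have := hFat.implicitFunction_apply_self hne hinv
    have h4 : ContinuousAt (fun p => ((p, hFat.implicitFunction hne hinv p) : P × Y)) p₀ :=
      continuousAt_id.prodMk h2
    rw [ContinuousAt] at h4
    simpa [this] using h4
  filter_upwards [h1, h3.eventually (hDo.mem_nhds hD0)] with p hp1 hp2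
  refine ⟨hp2.1, hp2.2, ?_⟩
  rw [hF0] at hp1
  have := hiF _ hp2
  rw [hp1, map_zero] at this
  exact (sub_eq_zero.1 this.symm)

end ift

section sol

variable {E J H : Type u} [AddCommGroup E] [Module ℝ E]
  [NormedAddCommGroup J] [NormedSpace ℝ J] [CompleteSpace J]
  [NormedAddCommGroup H] [NormedSpace ℝ H] [CompleteSpace H]

/-- the solution operator on the closures -/
theorem exists_sol_op (j : E →ₗ[ℝ] J) (h : E →ₗ[ℝ] H) (T : J →L[ℝ] H) (one : E)
    (ev : J →L[ℝ] ℝ) {C : ℝ}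
    (hsol : ∀ f : E, ∃ (w : E) (m : ℝ), T (j w) = h f + m • h one ∧ ‖j w‖ ≤ C * ‖h f‖ ∧
      |m| ≤ C * ‖h f‖)
    (huniq : ∀ (w : E) (m : ℝ), T (j w) = m • h one → ev (j w) = 0 → j w = 0 ∧ m = 0)
    (hT1 : T (j one) = 0) (hev : ev (j one) = 1) :
    ∃ (S : (LinearMap.range h).topologicalClosure →L[ℝ] (LinearMap.range j).topologicalClosure)
      (μ : (LinearMap.range h).topologicalClosure →L[ℝ] ℝ),
      (∀ y, T (S y) - μ y • h one = y) ∧ ∀ y, ev (S y) = 0 := by
  classical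
  set X := (LinearMap.range j).topologicalClosure with hX
  set Y := (LinearMap.range h).topologicalClosure with hY
  choose w m hw hwb hmb using hsol
  -- normalised solution
  set w' : E → E := fun f => w f - ev (j (w f)) • one with hw'
  have h1 : ∀ f, T (j (w' f)) = h f + m f • h one := by
    intro f
    simp only [hw', map_sub, map_smul, hT1, smul_zero, sub_zero, hw]
  have h2 : ∀ f, ev (j (w' f)) = 0 := by
    intro f
    simp [hw', hev]
  have huniq2 : ∀ a b : E, ∀ m₁ m₂ : ℝ, T (j a) - m₁ • h one = T (j b) - m₂ • h one →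
      ev (j a) = 0 → ev (j b) = 0 → j a = j b ∧ m₁ = m₂ := by
    intro a b m₁ m₂ hab ha hb
    have h3 : T (j (a - b)) = (m₁ - m₂) • h one := by
      rw [map_sub, map_sub, sub_smul]
      have := hab
      rw [sub_eq_sub_iff_add_eq_add] at this
      rw [sub_eq_sub_iff_add_eq_add, this]
      abel
    have h4 := huniq (a - b) (m₁ - m₂) h3 (by rw [map_sub, map_sub, ha, hb, sub_zero])
    rw [map_sub] at h4
    exact ⟨sub_eq_zero.1 h4.1, sub_eq_zero.1 h4.2⟩
  have hjX : ∀ f, j f ∈ X := fun f => (LinearMap.range j).le_topologicalClosure ⟨f, rfl⟩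
  have hhY : ∀ f, h f ∈ Y := fun f => (LinearMap.range h).le_topologicalClosure ⟨f, rfl⟩
  -- linear maps on `E`
  set S0 : E →ₗ[ℝ] X :=
    { toFun := fun f => ⟨j (w' f), hjX _⟩
      map_add' := fun f g => by
        apply Subtype.ext
        show j (w' (f + g)) = j (w' f) + j (w' g)
        rw [← map_add]
        refine (huniq2 _ _ (m (f + g)) (m f + m g) ?_ (h2 _) ?_).1
        · rw [h1, map_add j, map_add T, h1, h1, map_add h, add_smul]
          abel
        · rw [map_add, map_add, h2, h2, add_zero]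
      map_smul' := fun c f => by
        apply Subtype.ext
        show j (w' (c • f)) = c • j (w' f)
        rw [← map_smul]
        refine (huniq2 _ _ (m (c • f)) (c * m f) ?_ (h2 _) ?_).1
        · rw [h1, map_smul j, map_smul T, h1, map_smul h, mul_smul, smul_add]
          abel
        · rw [map_smul, map_smul, h2, smul_zero] } with hS0
  set μ0 : E →ₗ[ℝ] ℝ :=
    { toFun := m
      map_add' := fun f g => by
        refine (huniq2 (w' (f + g)) (w' f + w' g) (m (f + g)) (m f + m g) ?_ (h2 _) ?_).2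
        · rw [h1, map_add j, map_add T, h1, h1, map_add h, add_smul]
          abel
        · rw [map_add, map_add, h2, h2, add_zero]
      map_smul' := fun c f => by
        refine (huniq2 (w' (c • f)) (c • w' f) (m (c • f)) (c * m f) ?_ (h2 _) ?_).2
        · rw [h1, map_smul j, map_smul T, h1, map_smul h, mul_smul, smul_add]
          abel
        · rw [map_smul, map_smul, h2, smul_zero] } with hμ0
  set hh : E →ₗ[ℝ] Y := h.codRestrict Y hhY with hhh
  have hdense : DenseRange hh := by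
    rw [denseRange_iff_closure_range]
    ext y
    simp only [mem_univ, iff_true]
    rw [closure_subtype]
    have h4 : ((↑) : Y → H) '' (Set.range hh) = (LinearMap.range h : Set H) := by
      ext z
      constructor
      · rintro ⟨-, ⟨f, rfl⟩, rfl⟩
        exact ⟨f, rfl⟩
      · rintro ⟨f, rfl⟩
        exact ⟨hh f, ⟨f, rfl⟩, rfl⟩
    rw [h4]
    exact y.2
  have hC : ∀ f, 0 ≤ C * ‖h f‖ := fun f => (abs_nonneg _).trans (hmb f)
  have hSb : ∃ K, ∀ f, ‖S0 f‖ ≤ K * ‖hh f‖ := by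
    refine ⟨C + ‖ev‖ * C * ‖j one‖, fun f => ?_⟩
    show ‖j (w' f)‖ ≤ (C + ‖ev‖ * C * ‖j one‖) * ‖h f‖
    have h3 : ‖ev (j (w f))‖ ≤ ‖ev‖ * (C * ‖h f‖) :=
      (ev.le_opNorm _).trans (mul_le_mul_of_nonneg_left (hwb f) (norm_nonneg _))
    calc ‖j (w' f)‖ = ‖j (w f) - ev (j (w f)) • j one‖ := by simp [hw']
      _ ≤ ‖j (w f)‖ + ‖ev (j (w f))‖ * ‖j one‖ := by
        refine (norm_sub_le _ _).trans (add_le_add_right ?_ _)
        rw [norm_smul]
      _ ≤ C * ‖h f‖ + (‖ev‖ * (C * ‖h f‖)) * ‖j one‖ :=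
        add_le_add (hwb f) (mul_le_mul_of_nonneg_right h3 (norm_nonneg _))
      _ = _ := by ring
  have hμb : ∃ K, ∀ f, ‖μ0 f‖ ≤ K * ‖hh f‖ := ⟨C, fun f => hmb f⟩
  refine ⟨S0.extendOfNorm hh, μ0.extendOfNorm hh, ?_, ?_⟩
  · intro y
    refine hdense.induction_on (p := fun y : Y => T ((S0.extendOfNorm hh y : X) : J) -
      μ0.extendOfNorm hh y • h one = (y : H)) y ?_ ?_
    · exact isClosed_eq (by fun_prop) (by fun_prop)
    · intro f
      rw [LinearMap.extendOfNorm_eq hdense hSb, LinearMap.extendOfNorm_eq hdense hμb]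
      show T (j (w' f)) - m f • h one = h f
      rw [h1, add_sub_cancel_right]
  · intro y
    refine hdense.induction_on (p := fun y : Y => ev ((S0.extendOfNorm hh y : X) : J) = 0) y
      ?_ ?_
    · exact isClosed_eq (by fun_prop) (by fun_prop)
    · intro f
      rw [LinearMap.extendOfNorm_eq hdense hSb]
      exact h2 f

end sol

section main

variable {P E J H : Type u} [NormedAddCommGroup P] [NormedSpace ℝ P] [CompleteSpace P]
  [AddCommGroup E] [Module ℝ E]
  [NormedAddCommGroup J] [NormedSpace ℝ J] [CompleteSpace J]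
  [NormedAddCommGroup H] [NormedSpace ℝ H] [CompleteSpace H]

/-- **V0-ABS** -/
theorem exists_curve (j : E →ₗ[ℝ] J) (h : E →ₗ[ℝ] H) (one : E) (ev : J →L[ℝ] ℝ)
    {W : Set P} (hW : IsOpen W) {p₀ : P} (hp : p₀ ∈ W) {O : Set J} (hO : IsOpen O)
    (h0 : (0 : J) ∈ O) {G : P → J → H}
    (hG : ContDiffOn ℝ ∞ (fun q : P × J => G q.1 q.2) (W ×ˢ O))
    (hY : ∀ p ∈ W, ∀ f : E, j f ∈ O → G p (j f) ∈ (LinearMap.range h).topologicalClosure)
    (he : G p₀ 0 = h one) {C : ℝ}
    (hsol : ∀ f : E, ∃ (w : E) (m : ℝ), fderiv ℝ (G p₀) 0 (j w) = h f + m • h one ∧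
      ‖j w‖ ≤ C * ‖h f‖ ∧ |m| ≤ C * ‖h f‖)
    (huniq : ∀ (w : E) (m : ℝ), fderiv ℝ (G p₀) 0 (j w) = m • h one → ev (j w) = 0 →
      j w = 0 ∧ m = 0)
    (hT1 : fderiv ℝ (G p₀) 0 (j one) = 0) (hev : ev (j one) = 1) :
    ∃ (x : P → J) (m : P → ℝ), ContDiffAt ℝ ∞ x p₀ ∧ ContDiffAt ℝ ∞ m p₀ ∧ x p₀ = 0 ∧
      m p₀ = 0 ∧ (∀ p, x p ∈ (LinearMap.range j).topologicalClosure) ∧ (∀ p, ev (x p) = 0) ∧
      ∀ᶠ p in 𝓝 p₀, p ∈ W ∧ x p ∈ O ∧ G p (x p) = (1 + m p) • h one := by
  obtain ⟨S, μ, hS, hev0⟩ := exists_sol_op j h (fderiv ℝ (G p₀) 0) one ev hsol huniq hT1 hev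
  have hmem : ∀ p ∈ W, ∀ x ∈ (LinearMap.range j).topologicalClosure, x ∈ O →
      G p x ∈ (LinearMap.range h).topologicalClosure := by
    intro p hp x hx hxO
    have hc : ContinuousOn (G p) O := by
      have h1 : ContinuousOn (fun q : P × J => G q.1 q.2) (W ×ˢ O) := hG.continuousOn
      exact h1.comp (f := fun x : J => (p, x)) (by fun_prop) fun y hy => ⟨hp, hy⟩
    have h2 : x ∈ closure ((LinearMap.range j : Set J) ∩ O) := by
      have h3 : x ∈ closure (LinearMap.range j : Set J) := hx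
      rw [mem_closure_iff_nhds] at h3 ⊢
      intro t ht
      obtain ⟨y, hy1, hy2⟩ := h3 (t ∩ O) (inter_mem ht (hO.mem_nhds hxO))
      exact ⟨y, hy1.1, hy2, hy1.2⟩
    have h3 : G p x ∈ closure (G p '' ((LinearMap.range j : Set J) ∩ O)) :=
      ((hc.continuousAt (hO.mem_nhds hxO)).continuousWithinAt).mem_closure_image h2
    have h4 : G p '' ((LinearMap.range j : Set J) ∩ O) ⊆
        ((LinearMap.range h).topologicalClosure : Set H) := by
      rintro - ⟨-, ⟨⟨f, rfl⟩, hf⟩, rfl⟩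
      exact hY p hp f hf
    exact (Submodule.isClosed_topologicalClosure _).closure_subset_iff.2 h4 h3
  have he1 : h one ∈ (LinearMap.range h).topologicalClosure :=
    (LinearMap.range h).le_topologicalClosure ⟨one, rfl⟩
  obtain ⟨y, hy1, hy2, hy3⟩ := ift_aux (LinearMap.range j).topologicalClosure
    (LinearMap.range h).topologicalClosure hW hp hO h0 hG hmem ⟨h one, he1⟩ he S μ hS
  refine ⟨fun p => S (y p), fun p => μ (y p), ?_, ?_, ?_, ?_, fun p => (S (y p)).2,
    fun p => hev0 (y p), hy3⟩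
  · exact ((Submodule.subtypeL _).comp S).contDiff.contDiffAt.comp p₀ hy1
  · exact μ.contDiff.contDiffAt.comp p₀ hy1
  · simp [hy2]
  · simp [hy2]

end main

end

end Crest.Agent.R281.Yv_900
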