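import Crest.Agent.R281.HkR5_835
import Crest.Agent.R273.YauPf_635

/-!
# Row 281, YAU-VAR (helper900), part 3: real and complex determinants

* `RM b G`   : the real matrix `Re hb G (b a) (b c)` of a complex matrix in a real basis `b`
* `det_RM`   : `det (RM b G) = |det G|² det (RM b 1)`, `det (RM b 1) ≠ 0`
* `hasDerivAt_det_add` : `d/ds det (G + s V) / det G = tr (G⁻¹ V)` at `s = 0`
* `hasDerivAt_RM` : the real version
-/

set_option autoImplicit false
set_option linter.unusedSectionVars false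

open Set Filter Topology Complex
open scoped ContDiff Matrix ComplexConjugate InnerProductSpace

namespace Crest.Agent.R281.Yv_900

open Crest.Agent.R275.Geo Crest.Agent.R275.Core144 Crest.Agent.R275.EDR890
open Crest.Agent.R281.HkR_835

noncomputable section

variable {n : ℕ} {ι : Type} [Fintype ι] [DecidableEq ι]

/-- the real matrix of a complex matrix in a real basis -/
def RM (b : Module.Basis ι ℝ (Cn n)) (G : Matrix (Fin n) (Fin n) ℂ) : Matrix ι ι ℝ :=
  Matrix.of fun a c => (hb G (b a) (b c)).re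

theorem RM_add (b : Module.Basis ι ℝ (Cn n)) (G H : Matrix (Fin n) (Fin n) ℂ) :
    RM b (G + H) = RM b G + RM b H := by
  ext a c
  simp only [RM, Matrix.of_apply, Matrix.add_apply]
  rw [← Complex.add_re]
  congr 1
  simp only [hb, Matrix.add_apply, add_mul, Finset.sum_add_distrib]

theorem RM_smul (b : Module.Basis ι ℝ (Cn n)) (s : ℝ) (G : Matrix (Fin n) (Fin n) ℂ) :
    RM b ((s : ℂ) • G) = s • RM b G := by
  ext a c
  simp only [RM, Matrix.of_apply, Matrix.smul_apply, smul_eq_mul]
  rw [← Complex.re_ofReal_mul]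
  congr 1
  simp only [hb, Matrix.smul_apply, smul_eq_mul, Finset.mul_sum]
  exact Finset.sum_congr rfl fun a _ => Finset.sum_congr rfl fun b _ => by ring

theorem hb_one_mL (G : Matrix (Fin n) (Fin n) ℂ) (u v : Cn n) : hb 1 (mL Gᵀ u) v = hb G u v := by
  have h1 : ∀ x : Cn n, hb 1 x v = ∑ b, x b * conj (v b) := by
    intro x
    simp only [hb, Matrix.one_apply]
    refine Finset.sum_congr rfl fun a _ => ?_
    rw [Finset.sum_eq_single a]
    · simp
    · intro b _ hb
      simp [Ne.symm hb]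
    · simp
  rw [h1]
  simp only [mL_apply, Matrix.mulVec, dotProduct, Matrix.transpose_apply, hb, Finset.sum_mul]
  rw [Finset.sum_comm]

/-- the real determinant of `mL G` -/
theorem det_mL (G : Matrix (Fin n) (Fin n) ℂ) :
    LinearMap.det (mL G : Cn n →ₗ[ℝ] Cn n) = Complex.normSq G.det := by
  have h1 : (mL G : Cn n →ₗ[ℝ] Cn n) = (Matrix.toEuclideanLin G).restrictScalars ℝ := by
    ext v
    rfl
  rw [h1, LinearMap.det_restrictScalars, Algebra.norm_complex_apply]
  congr 1
  rw [Matrix.toEuclideanLin_eq_toLin]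
  exact LinearMap.det_toLin _ _

theorem RM_eq (b : Module.Basis ι ℝ (Cn n)) (G : Matrix (Fin n) (Fin n) ℂ) :
    RM b G = (LinearMap.toMatrix b b (mL Gᵀ : Cn n →ₗ[ℝ] Cn n))ᵀ * RM b 1 := by
  ext a c
  rw [Matrix.mul_apply]
  simp only [RM, Matrix.of_apply, Matrix.transpose_apply, LinearMap.toMatrix_apply]
  rw [← hb_one_mL]
  have h2 : mL Gᵀ (b a) = ∑ e, b.repr (mL Gᵀ (b a)) e • b e := (b.sum_repr _).symm
  have h3 : ∀ x : Cn n, (hb 1 x (b c)).re = (innerSL ℝ (b c)) x := by
    intro x
    show _ = ⟪b c, x⟫_ℝ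
    rw [PiLp.inner_apply]
    simp only [hb, Matrix.one_apply]
    rw [Complex.re_sum]
    refine Finset.sum_congr rfl fun a _ => ?_
    rw [Finset.sum_eq_single a]
    · rw [Complex.inner]
      simp [mul_comm]
    · intro b _ hb
      simp [Ne.symm hb]
    · simp
  rw [h3]
  conv_lhs => rw [h2]
  rw [map_sum]
  refine Finset.sum_congr rfl fun e _ => ?_
  rw [map_smul, ← h3]
  rfl

theorem det_RM (b : Module.Basis ι ℝ (Cn n)) (G : Matrix (Fin n) (Fin n) ℂ) :
    (RM b G).det = Complex.normSq G.det * (RM b 1).det := by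
  rw [RM_eq, Matrix.det_mul, Matrix.det_transpose, LinearMap.det_toMatrix, det_mL,
    Matrix.det_transpose]

theorem det_RM_one_ne (b : Module.Basis ι ℝ (Cn n)) : (RM b (1 : Matrix (Fin n) (Fin n) ℂ)).det ≠ 0 := by
  intro h
  obtain ⟨v, hv, h2⟩ := Matrix.exists_mulVec_eq_zero_iff.2 h
  set x : Cn n := ∑ e, v e • b e with hx
  have h3 : ∀ a, (hb 1 (b a) x).re = 0 := by
    intro a
    have := congrFun h2 a
    simp only [Matrix.mulVec, dotProduct, RM, Matrix.of_apply, Pi.zero_apply] at this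
    rw [← this, hx]
    have h4 : ∀ y : Cn n, (hb 1 (b a) y).re = (innerSL ℝ (b a)) y := by
      intro y
      show _ = ⟪b a, y⟫_ℝ
      rw [PiLp.inner_apply]
      simp only [hb, Matrix.one_apply]
      rw [Complex.re_sum]
      refine Finset.sum_congr rfl fun a _ => ?_
      rw [Finset.sum_eq_single a]
      · rw [Complex.inner]
        simp
        try ring
      · intro b _ hb
        simp [Ne.symm hb]
      · simp
    rw [h4, map_sum]
    refine Finset.sum_congr rfl fun e _ => ?_
    rw [map_smul, ← h4, smul_eq_mul, mul_comm]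
  have h5 : ∀ y : Cn n, ⟪y, x⟫_ℝ = 0 := by
    intro y
    rw [← b.sum_repr y, sum_inner]
    refine Finset.sum_eq_zero fun e _ => ?_
    rw [real_inner_smul_left]
    have h6 : ⟪b e, x⟫_ℝ = (hb 1 (b e) x).re := by
      rw [PiLp.inner_apply]
      simp only [hb, Matrix.one_apply]
      rw [Complex.re_sum]
      refine Finset.sum_congr rfl fun a _ => ?_
      rw [Finset.sum_eq_single a]
      · rw [Complex.inner]
        simp
        try ring
      · intro b _ hb
        simp [Ne.symm hb]
      · simp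
    rw [h6, h3, mul_zero]
  have h7 : x = 0 := inner_self_eq_zero.1 (h5 x)
  apply hv
  have h8 : ∀ e, v e = 0 := by
    have := Fintype.linearIndependent_iff.1 b.linearIndependent v (by rw [← hx]; exact h7)
    exact this
  funext e
  exact h8 e

/-- derivative of `det (1 + s N)` -/
theorem hasDerivAt_det_one_add {m : Type} [Fintype m] [DecidableEq m] (N : Matrix m m ℂ) :
    HasDerivAt (fun s : ℝ => (1 + (s : ℂ) • N).det) N.trace 0 := by
  have h1 : ∀ s : ℝ, (1 + (s : ℂ) • N).det =
      1 + N.trace * s + (Polynomial.eval (s : ℂ)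
        (Matrix.det (1 + (Polynomial.X : Polynomial ℂ) • N.map Polynomial.C)).divX.divX) * (s : ℂ) ^ 2 :=
    fun s => Matrix.det_one_add_smul _ _
  set q := (Matrix.det (1 + (Polynomial.X : Polynomial ℂ) • N.map Polynomial.C)).divX.divX with hq
  have h2 : HasDerivAt (fun s : ℝ => (1 : ℂ) + N.trace * s + (Polynomial.eval (s : ℂ) q) *
      (s : ℂ) ^ 2) (N.trace) 0 := by
    have e1 : HasDerivAt (fun s : ℝ => (s : ℂ)) 1 0 := Complex.ofRealCLM.hasDerivAt
    have e2 : HasDerivAt (fun s : ℝ => (1 : ℂ) + N.trace * s) (N.trace * 1) 0 :=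
      (e1.const_mul _).const_add 1
    have e3 : HasDerivAt (fun s : ℝ => Polynomial.eval (s : ℂ) q)
        (Polynomial.eval ((0 : ℝ) : ℂ) q.derivative * 1) 0 :=
      (q.hasDerivAt ((0 : ℝ) : ℂ)).comp_of_eq (0 : ℝ) e1 rfl
    have e4 := e2.add (e3.mul (e1.pow 2))
    refine e4.congr_deriv ?_
    simp
  exact h2.congr_of_eventuallyEq (Eventually.of_forall h1)

theorem hasDerivAt_det_add {m : Type} [Fintype m] [DecidableEq m] {G : Matrix m m ℂ}
    (hG : G.det ≠ 0) (V : Matrix m m ℂ) :
    HasDerivAt (fun s : ℝ => (G + (s : ℂ) • V).det / G.det) (G⁻¹ * V).trace 0 := by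
  have h1 : ∀ s : ℝ, (G + (s : ℂ) • V).det / G.det = (1 + (s : ℂ) • (G⁻¹ * V)).det := by
    intro s
    rw [Crest.Agent.R273.YauPf_635.det_add_ratio hG, Matrix.mul_smul]
  exact (hasDerivAt_det_one_add (G⁻¹ * V)).congr_of_eventuallyEq (Eventually.of_forall h1)

/-- derivative of the ratio of the real determinants -/
theorem hasDerivAt_RM (b : Module.Basis ι ℝ (Cn n)) {G : Matrix (Fin n) (Fin n) ℂ}
    (hG : G.det ≠ 0) (V : Matrix (Fin n) (Fin n) ℂ) :
    HasDerivAt (fun s : ℝ => (RM b G + s • RM b V).det / (RM b G).det)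
      (2 * ((G⁻¹ * V).trace).re) 0 := by
  have h1 : ∀ s : ℝ, (RM b G + s • RM b V).det / (RM b G).det =
      Complex.normSq ((G + (s : ℂ) • V).det / G.det) := by
    intro s
    rw [← RM_smul, ← RM_add, det_RM, det_RM b G, map_div₀, mul_div_mul_right _ _ (det_RM_one_ne b)]
  have h2 := hasDerivAt_det_add hG V
  have h3 : HasDerivAt (fun s : ℝ => Complex.normSq ((G + (s : ℂ) • V).det / G.det))
      (2 * ((G⁻¹ * V).trace).re) 0 := by
    have er : HasDerivAt (fun s : ℝ => ((G + (s : ℂ) • V).det / G.det).re) (G⁻¹ * V).trace.re 0 :=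
      Complex.reCLM.hasFDerivAt.comp_hasDerivAt (0 : ℝ) h2
    have ei : HasDerivAt (fun s : ℝ => ((G + (s : ℂ) • V).det / G.det).im) (G⁻¹ * V).trace.im 0 :=
      Complex.imCLM.hasFDerivAt.comp_hasDerivAt (0 : ℝ) h2
    have e5 := (er.mul er).add (ei.mul ei)
    have e6 : (G + ((0 : ℝ) : ℂ) • V).det / G.det = 1 := by
      simp [div_self hG]
    rw [e6] at e5
    refine e5.congr_deriv ?_
    simp
    ring
  exact h3.congr_of_eventuallyEq (Eventually.of_forall h1)

end

end Crest.Agent.R281.Yv_900
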