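import Crest.Agent.R281.Yv3_900
import Crest.Agent.R281.Hjs4_680
import Crest.Agent.R281.Tt4_476
import Crest.Agent.R273.SchJ_152

/-!
# Row 281, YAU-VAR (helper900), part 4: the operator of the Monge-Ampère equation in jets

* `SmE A`    : smooth functions on `X` (submodule)
* `KK B k`   : the closed half balls of a cover `B : Cb A`
* `JJ B`, `HH B` : families of jets, families of Hölder functions, `jj`, `hh`
* `GG b B D u0 k0 p x` : the operator, `fn_GG` (values), `contDiffOn_GG`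
-/

set_option autoImplicit false
set_option maxSynthPendingDepth 3
set_option linter.unusedSectionVars false

open Set Filter Topology Metric
open scoped ContDiff

namespace Crest.Agent.R281.Yv_900

open Crest.Agent.R275.Geo Crest.Agent.R275.Core144 Crest.Agent.R275.EDR890
open Crest.Agent.R273.YauDefs_635 Crest.Agent.R273.SchF_152
open Crest.Agent.R260.ACM_580 Crest.Agent.R281.HkR_835 Crest.Agent.R281.NefO_476
open Crest.Agent.R281.Hjs_680 Crest.Agent.R281.Tt_476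

noncomputable section

/-! ### the linear part of `ddcF` -/

section lin

variable {V : Type} [NormedAddCommGroup V] [NormedSpace ℝ V]

/-- evaluation of bilinear forms -/
def evB (a c : V) : (V →L[ℝ] V →L[ℝ] ℝ) →L[ℝ] ℝ :=
  (ContinuousLinearMap.apply ℝ ℝ c).comp (ContinuousLinearMap.apply ℝ (V →L[ℝ] ℝ) a)

@[simp] theorem evB_apply (a c : V) (H : V →L[ℝ] V →L[ℝ] ℝ) : evB a c H = H a c := rfl

/-- coefficient of the second derivatives in `ddcF U T (a, T c)` -/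
def c2 (T : V → V →L[ℝ] V) (a c z : V) : (V →L[ℝ] V →L[ℝ] ℝ) →L[ℝ] ℝ :=
  -(evB a (T z (T z c))) + evB (T z c) (T z a)

/-- coefficient of the first derivatives in `ddcF U T (a, T c)` -/
def c1 (T : V → V →L[ℝ] V) (a c z : V) : (V →L[ℝ] ℝ) →L[ℝ] ℝ :=
  ContinuousLinearMap.apply ℝ ℝ (-(fderiv ℝ T z a (T z c)) + fderiv ℝ T z (T z c) a)

theorem ddcF_eq (U : V → ℝ) (T : V → V →L[ℝ] V) (z a c : V) :
    ddcF U T z a (T z c) = c2 T a c z (fderiv ℝ (fderiv ℝ U) z) + c1 T a c z (fderiv ℝ U z) := by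
  simp only [ddcF, c2, c1, add_apply, neg_apply, evB_apply, ContinuousLinearMap.apply_apply,
    map_add, map_neg]
  ring

end lin

variable {n : ℕ} {X : Type} [TopologicalSpace X] {A : Atl n X}

/-- smooth functions -/
def SmE (A : Atl n X) : Submodule ℝ (X → ℝ) where
  carrier := {f | A.Sm f}
  add_mem' := fun {_ _} hf hg i => (hf i).add (hg i)
  zero_mem' := fun _ => contDiffOn_const
  smul_mem' := fun c _ hf i => (hf i).const_smul c

/-- the closed half balls -/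
def KK (B : Cb A) (k : B.κ) : Set (Cn n) := closedBall (B.z k) (B.r k / 2)

instance instFintypeCb (B : Cb A) : Fintype B.κ :=
  @Fintype.ofFinite B.κ B.fin

/-- the space of jets, as a type of its own (fast instances) -/
def JetS {n : ℕ} (K : Set (Cn n)) : Type := Jet K

instance instJetNACG (K : Set (Cn n)) : NormedAddCommGroup (JetS K) :=
  inferInstanceAs (NormedAddCommGroup (Jet K))

instance instJetNS (K : Set (Cn n)) : NormedSpace ℝ (JetS K) :=
  inferInstanceAs (NormedSpace ℝ (Jet K))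

instance instJetCS (K : Set (Cn n)) : CompleteSpace (JetS K) :=
  inferInstanceAs (CompleteSpace (Jet K))

/-- the components of a jet -/
def p0L (K : Set (Cn n)) : JetS K →L[ℝ] HF (1 / 2) K ℝ :=
  ContinuousLinearMap.fst ℝ (HF (1 / 2) K ℝ)
    (HF (1 / 2) K (Cn n →L[ℝ] ℝ) × HF (1 / 2) K (Cn n →L[ℝ] Cn n →L[ℝ] ℝ))

def p1L (K : Set (Cn n)) : JetS K →L[ℝ] HF (1 / 2) K (Cn n →L[ℝ] ℝ) :=
  (ContinuousLinearMap.fst ℝ (HF (1 / 2) K (Cn n →L[ℝ] ℝ))
    (HF (1 / 2) K (Cn n →L[ℝ] Cn n →L[ℝ] ℝ))).comp (ContinuousLinearMap.snd ℝ (HF (1 / 2) K ℝ)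
    (HF (1 / 2) K (Cn n →L[ℝ] ℝ) × HF (1 / 2) K (Cn n →L[ℝ] Cn n →L[ℝ] ℝ)))

def p2L (K : Set (Cn n)) : JetS K →L[ℝ] HF (1 / 2) K (Cn n →L[ℝ] Cn n →L[ℝ] ℝ) :=
  (ContinuousLinearMap.snd ℝ (HF (1 / 2) K (Cn n →L[ℝ] ℝ))
    (HF (1 / 2) K (Cn n →L[ℝ] Cn n →L[ℝ] ℝ))).comp (ContinuousLinearMap.snd ℝ (HF (1 / 2) K ℝ)
    (HF (1 / 2) K (Cn n →L[ℝ] ℝ) × HF (1 / 2) K (Cn n →L[ℝ] Cn n →L[ℝ] ℝ)))

@[simp] theorem p0L_apply (K : Set (Cn n)) (x : JetS K) : p0L K x = x.1 := rfl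
@[simp] theorem p1L_apply (K : Set (Cn n)) (x : JetS K) : p1L K x = x.2.1 := rfl
@[simp] theorem p2L_apply (K : Set (Cn n)) (x : JetS K) : p2L K x = x.2.2 := rfl

/-- families of jets -/
abbrev JJ (B : Cb A) : Type := ∀ k : B.κ, JetS (KK B k)

/-- families of Hölder functions -/
abbrev HH (B : Cb A) : Type := ∀ k : B.κ, Hol (KK B k)

theorem KK_compact (B : Cb A) (k : B.κ) : IsCompact (KK B k) := isCompact_closedBall _ _

theorem KK_convex (B : Cb A) (k : B.κ) : Convex ℝ (KK B k) := convex_closedBall _ _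

theorem KK_sub (B : Cb A) (k : B.κ) : KK B k ⊆ (A.e (B.i k)).target := B.sub' k

theorem SmE.cd (f : SmE A) (i : A.ι) : ContDiffOn ℝ ∞ (inC A i f) (A.e i).target := f.2 i

theorem SmE.cd3 (f : SmE A) (i : A.ι) : ContDiffOn ℝ 3 (inC A i f) (A.e i).target :=
  (SmE.cd f i).of_le ENat.LEInfty.out

/-- the jets of a smooth function -/
def jj (B : Cb A) : SmE A →ₗ[ℝ] JJ B where
  toFun f := fun k => jet (KK B k) (inC A (B.i k) f)
  map_add' f g := by
    funext k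
    exact jet_add (KK_compact B k) (KK_convex B k) (A.e (B.i k)).open_target (KK_sub B k)
      (SmE.cd3 f (B.i k)) (SmE.cd3 g (B.i k))
  map_smul' c f := by
    funext k
    exact jet_smul (KK_compact B k) (KK_convex B k) (A.e (B.i k)).open_target (KK_sub B k)
      (SmE.cd3 f (B.i k)) c

theorem exists_bd_sm (B : Cb A) (k : B.κ) {f : Cn n → ℝ}
    (hf : ContDiffOn ℝ ∞ f (A.e (B.i k)).target) : ∃ C, Bd (1 / 2) (KK B k) f C :=
  exists_bd half_pos' (by norm_num) (KK_compact B k) (KK_convex B k) (A.e (B.i k)).open_target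
    (KK_sub B k) (hf.of_le (by simp))

theorem fn_of_sm (B : Cb A) (k : B.κ) {f : Cn n → ℝ}
    (hf : ContDiffOn ℝ ∞ f (A.e (B.i k)).target) {z : Cn n} (hz : z ∈ KK B k) :
    Hol.fn (Hol.of (KK B k) f) z = f z := by
  obtain ⟨C, hC⟩ := exists_bd_sm B k hf
  exact Hol.fn_of hC hz

/-- the Hölder functions of a smooth function -/
def hh (B : Cb A) : SmE A →ₗ[ℝ] HH B where
  toFun f := fun k => Hol.of (KK B k) (inC A (B.i k) f)
  map_add' f g := by
    funext k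
    refine Hol.ext fun z hz => ?_
    rw [Pi.add_apply, Hol.fn_add, fn_of_sm B k (SmE.cd (f + g) _) hz, fn_of_sm B k (SmE.cd f (B.i k)) hz,
      fn_of_sm B k (SmE.cd g _) hz]
    rfl
  map_smul' c f := by
    funext k
    refine Hol.ext fun z hz => ?_
    rw [RingHom.id_apply, Pi.smul_apply, Hol.fn_smul, fn_of_sm B k (SmE.cd (c • f) _) hz,
      fn_of_sm B k (SmE.cd f (B.i k)) hz]
    rfl

theorem fn_hh (B : Cb A) (f : SmE A) (k : B.κ) {z : Cn n} (hz : z ∈ KK B k) :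
    Hol.fn (hh B f k) z = inC A (B.i k) f z := fn_of_sm B k (SmE.cd f (B.i k)) hz

theorem fn_jj0 (B : Cb A) (f : SmE A) (k : B.κ) {z : Cn n} (hz : z ∈ KK B k) :
    HF.fn (jj B f k).1 z = inC A (B.i k) f z :=
  fn_jet0 (KK_compact B k) (KK_convex B k) (A.e (B.i k)).open_target (KK_sub B k)
      (SmE.cd3 f (B.i k)) hz

theorem fn_jj1 (B : Cb A) (f : SmE A) (k : B.κ) {z : Cn n} (hz : z ∈ KK B k) :
    HF.fn (jj B f k).2.1 z = fderiv ℝ (inC A (B.i k) f) z :=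
  fn_jet1 (KK_compact B k) (KK_convex B k) (A.e (B.i k)).open_target (KK_sub B k)
      (SmE.cd3 f (B.i k)) hz

theorem fn_jj2 (B : Cb A) (f : SmE A) (k : B.κ) {z : Cn n} (hz : z ∈ KK B k) :
    HF.fn (jj B f k).2.2 z = fderiv ℝ (fderiv ℝ (inC A (B.i k) f)) z :=
  fn_jet2 (KK_compact B k) (KK_convex B k) (A.e (B.i k)).open_target (KK_sub B k)
      (SmE.cd3 f (B.i k)) hz

/-- the constant function `1` -/
def oneE (A : Atl n X) : SmE A := ⟨fun _ => 1, fun _ => contDiffOn_const⟩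

/-! ### the operator -/

section op

variable {ι : Type} [Fintype ι] [DecidableEq ι] (b : Module.Basis ι ℝ (Cn n)) (B : Cb A)
  {P : Type} [NormedAddCommGroup P] [NormedSpace ℝ P] (D : P → Dat (ofAtl A)) (u0 : X → ℝ)
  (k0 : ℝ)

/-- the form `(om + dd^c u0) (a, J c)` in the chart `i` -/
def bt (i : A.ι) (p : P) (z a c : Cn n) : ℝ :=
  (D p).om.w i z a ((D p).J.J i z c) +
    ddcF (inC A i u0) ((D p).J.J i) z a ((D p).J.J i z c)

/-- the pointwise matrix of `om + dd^c u0 + (part linear in the jet (ξ, H))` -/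
def MM (i : A.ι) (p : P) (z : Cn n) (ξ : Cn n →L[ℝ] ℝ) (H : Cn n →L[ℝ] Cn n →L[ℝ] ℝ) :
    Matrix ι ι ℝ :=
  Matrix.of fun a c => bt D u0 i p z (b a) (b c) + (c2 ((D p).J.J i) (b a) (b c) z H +
    c1 ((D p).J.J i) (b a) (b c) z ξ)

/-- entries of the matrix of Hölder functions -/
def ent (k : B.κ) (p : P) (x : JJ B) (a c : Cn n) : Hol (KK B k) :=
  Hol.of (KK B k) (fun z => bt D u0 (B.i k) p z a c) +
    Hol.toHF.symm (HF.bil half_pos' (ContinuousLinearMap.id ℝ _)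
        (HF.of (1 / 2) (KK B k) (c2 ((D p).J.J (B.i k)) a c)) (x k).2.2 +
      HF.bil half_pos' (ContinuousLinearMap.id ℝ _)
        (HF.of (1 / 2) (KK B k) (c1 ((D p).J.J (B.i k)) a c)) (x k).2.1)

/-- **the operator** -/
def GG (p : P) (x : JJ B) : HH B := fun k =>
  (Matrix.of fun a c => ent B D u0 k p x (b a) (b c)).det *
    Hol.of (KK B k) (fun z => (k0 * (D p).r.r (B.i k) z)⁻¹)

variable {D} {T : Set P}

/-- the derivative in the chart of a jointly smooth family -/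
theorem js_fderiv {F : Type*} [NormedAddCommGroup F] [NormedSpace ℝ F] {V : Type}
    [NormedAddCommGroup V] [NormedSpace ℝ V] (hT : IsOpen T) {U : Set V} (hU : IsOpen U)
    {a : P → V → F} (ha : ContDiffOn ℝ ∞ (fun q : P × V => a q.1 q.2) (T ×ˢ U)) :
    ContDiffOn ℝ ∞ (fun q : P × V => fderiv ℝ (a q.1) q.2) (T ×ˢ U) := by
  intro q hq
  refine ContDiffAt.contDiffWithinAt ?_
  have h1 : ContDiffAt ℝ ∞ (fun q : P × V => a q.1 q.2) q :=
    ha.contDiffAt ((hT.prod hU).mem_nhds hq)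
  refine ContDiffAt.fderiv (f := fun (q : P × V) (y : V) => a q.1 y)
    (g := fun q => q.2) (n := ∞) (m := ∞) ?_ contDiffAt_snd (by simp)
  have h2 : ContDiffAt ℝ ∞ (fun q : (P × V) × V => (q.1.1, q.2)) (q, q.2) :=
    (contDiffAt_fst.fst).prodMk contDiffAt_snd
  exact ContDiffAt.comp (g := fun q : P × V => a q.1 q.2)
    (f := fun q : (P × V) × V => (q.1.1, q.2)) (q, q.2) h1 h2

theorem js_c2 (i : A.ι) {hD : JSJ T fun p => (D p).J} (a c : Cn n) :
    ContDiffOn ℝ ∞ (fun q : P × Cn n => c2 ((D q.1).J.J i) a c q.2)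
      (T ×ˢ (A.e i).target) := by
  have hJ : ContDiffOn ℝ ∞ (fun q : P × Cn n => (D q.1).J.J i q.2) (T ×ˢ (A.e i).target) := hD i
  have hJv : ∀ v : Cn n, ContDiffOn ℝ ∞ (fun q : P × Cn n => (D q.1).J.J i q.2 v)
      (T ×ˢ (A.e i).target) := fun v => hJ.clm_apply contDiffOn_const
  refine contDiffOn_clm_apply.2 fun H => ?_
  have h1 : ContDiffOn ℝ ∞ (fun q : P × Cn n => -(H a ((D q.1).J.J i q.2 ((D q.1).J.J i q.2 c))) +
      H ((D q.1).J.J i q.2 c) ((D q.1).J.J i q.2 a)) (T ×ˢ (A.e i).target) :=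
    ((H a).contDiff.comp_contDiffOn (hJ.clm_apply (hJv c))).neg.add
      ((H.contDiff.comp_contDiffOn (hJv c)).clm_apply (hJv a))
  exact h1

theorem js_c1 (hT : IsOpen T) (i : A.ι) {hD : JSJ T fun p => (D p).J} (a c : Cn n) :
    ContDiffOn ℝ ∞ (fun q : P × Cn n => c1 ((D q.1).J.J i) a c q.2)
      (T ×ˢ (A.e i).target) := by
  have hJ : ContDiffOn ℝ ∞ (fun q : P × Cn n => (D q.1).J.J i q.2) (T ×ˢ (A.e i).target) := hD i
  have hJv : ∀ v : Cn n, ContDiffOn ℝ ∞ (fun q : P × Cn n => (D q.1).J.J i q.2 v)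
      (T ×ˢ (A.e i).target) := fun v => hJ.clm_apply contDiffOn_const
  have hDJ : ContDiffOn ℝ ∞ (fun q : P × Cn n => fderiv ℝ ((D q.1).J.J i) q.2)
      (T ×ˢ (A.e i).target) := js_fderiv (a := fun p z => (D p).J.J i z) hT
        (A.e i).open_target hJ
  refine contDiffOn_clm_apply.2 fun ξ => ?_
  have h1 : ContDiffOn ℝ ∞ (fun q : P × Cn n =>
      ξ (-(fderiv ℝ ((D q.1).J.J i) q.2 a ((D q.1).J.J i q.2 c)) +
        fderiv ℝ ((D q.1).J.J i) q.2 ((D q.1).J.J i q.2 c) a)) (T ×ˢ (A.e i).target) :=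
    ξ.contDiff.comp_contDiffOn
      (((hDJ.clm_apply contDiffOn_const).clm_apply (hJv c)).neg.add
        ((hDJ.clm_apply (hJv c)).clm_apply contDiffOn_const))
  exact h1

theorem js_bt (hT : IsOpen T) (hD : JSDat T D) (hu : A.Sm u0) (i : A.ι) (a c : Cn n) :
    ContDiffOn ℝ ∞ (fun q : P × Cn n => bt D u0 i q.1 q.2 a c) (T ×ˢ (A.e i).target) := by
  have hJ : ContDiffOn ℝ ∞ (fun q : P × Cn n => (D q.1).J.J i q.2) (T ×ˢ (A.e i).target) :=
    hD.J i
  have hJv : ∀ v : Cn n, ContDiffOn ℝ ∞ (fun q : P × Cn n => (D q.1).J.J i q.2 v)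
      (T ×ˢ (A.e i).target) := fun v => hJ.clm_apply contDiffOn_const
  have hom : ContDiffOn ℝ ∞ (fun q : P × Cn n => (D q.1).om.w i q.2) (T ×ˢ (A.e i).target) :=
    hD.om i
  have hui : ContDiffOn ℝ ∞ (inC A i u0) (A.e i).target := hu i
  have h1 : ContDiffOn ℝ ∞ (fun q : P × Cn n => fderiv ℝ (inC A i u0) q.2)
      (T ×ˢ (A.e i).target) :=
    (hui.fderiv_of_isOpen (A.e i).open_target (m := ∞) (by simp)).comp contDiffOn_snd
      fun q hq => hq.2
  have h2 : ContDiffOn ℝ ∞ (fun q : P × Cn n => fderiv ℝ (fderiv ℝ (inC A i u0)) q.2)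
      (T ×ˢ (A.e i).target) :=
    ((hui.fderiv_of_isOpen (A.e i).open_target (m := ∞) (by simp)).fderiv_of_isOpen
      (A.e i).open_target (m := ∞) (by simp)).comp contDiffOn_snd fun q hq => hq.2
  have h3 : ContDiffOn ℝ ∞ (fun q : P × Cn n => (D q.1).om.w i q.2 a ((D q.1).J.J i q.2 c) +
      (c2 ((D q.1).J.J i) a c q.2 (fderiv ℝ (fderiv ℝ (inC A i u0)) q.2) +
        c1 ((D q.1).J.J i) a c q.2 (fderiv ℝ (inC A i u0) q.2))) (T ×ˢ (A.e i).target) :=
    ((hom.clm_apply contDiffOn_const).clm_apply (hJv c)).add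
      (((js_c2 i (hD := hD.J) a c).clm_apply h2).add
        ((js_c1 hT i (hD := hD.J) a c).clm_apply h1))
  refine h3.congr fun q _ => ?_
  rw [bt, ddcF_eq]

variable (hT : IsOpen T) (hD : JSDat T D) (hu : A.Sm u0)
  (hr : ∀ p ∈ T, ∀ i, ∀ z ∈ (A.e i).target, k0 * (D p).r.r i z ≠ 0)
include hT hD hu

theorem slice_sm {F : Type} [NormedAddCommGroup F] [NormedSpace ℝ F] {V : Type}
    [NormedAddCommGroup V] [NormedSpace ℝ V] {U : Set V}
    {a : P → V → F} (ha : ContDiffOn ℝ ∞ (fun q : P × V => a q.1 q.2) (T ×ˢ U)) {p : P}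
    (hp : p ∈ T) : ContDiffOn ℝ ∞ (a p) U :=
  slice_contDiffOn (c := fun q : P × V => a q.1 q.2) ha hp

theorem fn_ent (k : B.κ) {p : P} (hp : p ∈ T) (x : JJ B) (a c : Cn n) {z : Cn n}
    (hz : z ∈ KK B k) : Hol.fn (ent B D u0 k p x a c) z = bt D u0 (B.i k) p z a c +
      (c2 ((D p).J.J (B.i k)) a c z (HF.fn (x k).2.2 z) +
        c1 ((D p).J.J (B.i k)) a c z (HF.fn (x k).2.1 z)) := by
  have hK := KK_compact B k
  have hKc := KK_convex B k
  have hKs := KK_sub B k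
  have ho := (A.e (B.i k)).open_target
  have e0 := slice_sm (a := fun p z => bt D u0 (B.i k) p z a c) u0 hT hD hu
    (js_bt u0 hT hD hu (B.i k) a c) hp
  have e2 := slice_sm (a := fun p z => c2 ((D p).J.J (B.i k)) a c z) u0 hT hD hu
    (js_c2 (B.i k) (hD := hD.J) a c) hp
  have e1 := slice_sm (a := fun p z => c1 ((D p).J.J (B.i k)) a c z) u0 hT hD hu
    (js_c1 hT (B.i k) (hD := hD.J) a c) hp
  obtain ⟨C0, h0⟩ := exists_bd half_pos' (by norm_num) hK hKc ho hKs (e0.of_le (by simp))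
  obtain ⟨C2, h2⟩ := exists_bd half_pos' (by norm_num) hK hKc ho hKs (e2.of_le (by simp))
  obtain ⟨C1, h1⟩ := exists_bd half_pos' (by norm_num) hK hKc ho hKs (e1.of_le (by simp))
  have e3 : ∀ y : HF (1 / 2) (KK B k) ℝ, Hol.fn (Hol.toHF.symm y) z = HF.fn y z := by
    intro y
    rw [Hol.fn, ContinuousLinearEquiv.apply_symm_apply]
  rw [ent, Hol.fn_add, Hol.fn_of h0 hz, e3, HF.fn_add, HF.fn_bil _ _ _ _ hz, HF.fn_bil _ _ _ _ hz,
    HF.fn_of h2 hz, HF.fn_of h1 hz]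
  rfl

include hr

theorem js_r (i : A.ι) : ContDiffOn ℝ ∞ (fun q : P × Cn n => (k0 * (D q.1).r.r i q.2)⁻¹)
    (T ×ˢ (A.e i).target) :=
  (contDiffOn_const.mul (hD.r i)).inv fun q hq => hr q.1 hq.1 i q.2 hq.2

/-- values of the operator -/
theorem fn_GG (k : B.κ) {p : P} (hp : p ∈ T) (x : JJ B) {z : Cn n} (hz : z ∈ KK B k) :
    Hol.fn (GG b B D u0 k0 p x k) z =
      (MM b D u0 (B.i k) p z (HF.fn (x k).2.1 z) (HF.fn (x k).2.2 z)).det *
        (k0 * (D p).r.r (B.i k) z)⁻¹ := by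
  have e0 := slice_sm (a := fun p z => (k0 * (D p).r.r (B.i k) z)⁻¹) u0 hT hD hu
    (js_r u0 k0 hT hD hu hr (B.i k)) hp
  obtain ⟨C0, h0⟩ := exists_bd_sm B k e0
  rw [GG, Hol.fn_mul _ _ hz, Hol.fn_det _ hz, Hol.fn_of h0 hz]
  congr 2
  ext a c
  rw [Matrix.map_apply, Matrix.of_apply, fn_ent B u0 hT hD hu k hp x (b a) (b c) hz]
  rfl

/-- **the operator is smooth** -/
theorem contDiffOn_GG : ContDiffOn ℝ ∞ (fun q : P × JJ B => GG b B D u0 k0 q.1 q.2)
    (T ×ˢ univ) := by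
  refine contDiffOn_pi.2 fun k => ?_
  have hK := KK_compact B k
  have hKc := KK_convex B k
  have hKs := KK_sub B k
  have ho := (A.e (B.i k)).open_target
  have m1 : MapsTo (fun q : P × JJ B => q.1) (T ×ˢ univ) T := fun q hq => hq.1
  have hx : ContDiff ℝ ∞ (fun q : P × JJ B => q.2 k) :=
    (ContinuousLinearMap.proj (R := ℝ) (φ := fun k : B.κ => JetS (KK B k)) k).contDiff.comp
      contDiff_snd
  have hx1 : ContDiffOn ℝ ∞ (fun q : P × JJ B => (q.2 k).2.1) (T ×ˢ univ) :=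
    ((p1L (KK B k)).contDiff.comp hx).contDiffOn
  have hx2 : ContDiffOn ℝ ∞ (fun q : P × JJ B => (q.2 k).2.2) (T ×ˢ univ) :=
    ((p2L (KK B k)).contDiff.comp hx).contDiffOn
  refine ContDiffOn.mul (contDiff_det fun a c => ?_)
    ((Hol.contDiffOn_of hK hKc hT ho hKs (js_r u0 k0 hT hD hu hr (B.i k))).comp
      contDiffOn_fst m1)
  show ContDiffOn ℝ ∞ (fun q : P × JJ B => ent B D u0 k q.1 q.2 (b a) (b c)) (T ×ˢ univ)
  refine ContDiffOn.add ((Hol.contDiffOn_of hK hKc hT ho hKs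
    (js_bt u0 hT hD hu (B.i k) (b a) (b c))).comp contDiffOn_fst m1) ?_
  refine (ContinuousLinearEquiv.contDiff _).comp_contDiffOn (ContDiffOn.add ?_ ?_)
  · refine ContDiffOn.clm_apply (ContDiffOn.clm_apply contDiffOn_const ?_) hx2
    exact (Hjs_680.contDiffOn_of half_pos' (by norm_num) hK hKc hT ho hKs
      (js_c2 (B.i k) (hD := hD.J) (b a) (b c))).comp contDiffOn_fst m1
  · refine ContDiffOn.clm_apply (ContDiffOn.clm_apply contDiffOn_const ?_) hx1
    exact (Hjs_680.contDiffOn_of half_pos' (by norm_num) hK hKc hT ho hKs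
      (js_c1 hT (B.i k) (hD := hD.J) (b a) (b c))).comp contDiffOn_fst m1

end op

end

end Crest.Agent.R281.Yv_900
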