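import Crest.Agent.R281.Yv2_900
import Crest.Agent.R281.Yv5_900

/-!
# Row 281, YAU-VAR (helper900), part 6: assembly over a holomorphic atlas

`v0_atl_of` : smoothness in the parameters at `p0`, from the leaves of part 5.
-/

set_option autoImplicit false
set_option maxSynthPendingDepth 3
set_option linter.unusedSectionVars false

open Set Filter Topology Metric
open scoped ContDiff

namespace Crest.Agent.R281.Yv_900

open Crest.Agent.R275.Geo Crest.Agent.R275.Core144 Crest.Agent.R275.EDR890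
open Crest.Agent.R273.Defs_333 Crest.Agent.R273.Kah_333
open Crest.Agent.R273.YauDefs_635 Crest.Agent.R273.SchF_152 Crest.Agent.R273.SchG_152
open Crest.Agent.R273.SchH_152
open Crest.Agent.R260.ACM_580 Crest.Agent.R281.HkR_835 Crest.Agent.R281.NefO_476
open Crest.Agent.R281.Nef_252 Crest.Agent.R281.Hjs_680 Crest.Agent.R281.Tt_476

noncomputable section

variable {n : ℕ} {X : Type} [TopologicalSpace X] {A : Atl n X}

/-- Gram determinants of positive forms do not vanish -/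
theorem det_ne_zero_of_pos {V : Type} [AddCommGroup V] [Module ℝ V] {ι : Type} [Fintype ι]
    [DecidableEq ι] (b : Module.Basis ι ℝ V) (β : V →ₗ[ℝ] V →ₗ[ℝ] ℝ)
    (h : ∀ v, v ≠ 0 → 0 < β v v) : (Matrix.of fun a c => β (b a) (b c)).det ≠ 0 := by
  intro h0
  obtain ⟨v, hv, h2⟩ := Matrix.exists_mulVec_eq_zero_iff.2 h0
  set x : V := ∑ e, v e • b e with hx
  have h3 : ∀ a, β (b a) x = 0 := by
    intro a
    have := congrFun h2 a
    simp only [Matrix.mulVec, dotProduct, Matrix.of_apply, Pi.zero_apply] at this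
    rw [← this, hx, map_sum]
    exact Finset.sum_congr rfl fun e _ => by rw [map_smul, smul_eq_mul, mul_comm]
  have h4 : β x x = 0 := by
    have h5 : β x = ∑ e, v e • β (b e) := by
      rw [hx, map_sum]
      exact Finset.sum_congr rfl fun e _ => map_smul _ _ _
    rw [h5, LinearMap.sum_apply]
    refine Finset.sum_eq_zero fun e _ => ?_
    rw [LinearMap.smul_apply, h3, smul_zero]
  have h5 : x = 0 := by
    by_contra hne
    exact (h x hne).ne' h4
  apply hv
  have h8 : ∀ e, v e = 0 :=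
    Fintype.linearIndependent_iff.1 b.linearIndependent v (by rw [← hx]; exact h5)
  funext e
  exact h8 e

section fam

variable {ι : Type} [Fintype ι] [DecidableEq ι] (b : Module.Basis ι ℝ (Cn n))
  {P : Type} [NormedAddCommGroup P] [NormedSpace ℝ P] {D : P → Dat (ofAtl A)} {u : X → ℝ}

theorem bt_eq {p : P} (hu : A.Sm u) {i : A.ι} {z : Cn n} (hz : z ∈ (A.e i).target) (a c : Cn n) :
    ((D p).om + ddc (D p).J u hu).w i z a ((D p).J.J i z c) = bt D u i p z a c := by
  show (D p).om.w i z a ((D p).J.J i z c) + (ddc (D p).J u hu).w i z a ((D p).J.J i z c) = _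
  rw [ddc_w (D p).J u hu (i := i) hz]
  rfl

/-- `bt` as a bilinear form -/
theorem exists_bt {p : P} (hu : A.Sm u) {i : A.ι} {z : Cn n} (hz : z ∈ (A.e i).target) :
    ∃ β : Cn n →ₗ[ℝ] Cn n →ₗ[ℝ] ℝ, ∀ a c, β a c = bt D u i p z a c := by
  let L : Cn n →L[ℝ] Cn n →L[ℝ] ℝ := ((D p).om + ddc (D p).J u hu).w i z
  refine ⟨LinearMap.mk₂ ℝ (fun a c => L a ((D p).J.J i z c))
    (fun a a' c => by rw [map_add, add_apply]) (fun r a c => by rw [map_smul, smul_apply])
    (fun a c c' => by rw [map_add, map_add]) (fun r a c => by rw [map_smul, map_smul]),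
    fun a c => ?_⟩
  rw [LinearMap.mk₂_apply]
  exact bt_eq hu hz a c

theorem MM_zero (i : A.ι) (p : P) (z : Cn n) :
    MM b D u i p z 0 0 = Matrix.of fun a c => bt D u i p z (b a) (b c) := by
  ext a c
  simp [MM]

theorem bt_pos {p : P} (h : SolMA b (D p) u) {i : A.ι} {z : Cn n} (hz : z ∈ (A.e i).target)
    {v : Cn n} (hv : v ≠ 0) : 0 < bt D u i p z v v := by
  rw [← bt_eq h.sm hz]
  exact h.pos i z hz v hv

theorem bt_det {p : P} (h : SolMA b (D p) u) : ∃ k : ℝ, ∀ i, ∀ z ∈ (A.e i).target,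
    (Matrix.of fun a c => bt D u i p z (b a) (b c)).det = k * (D p).r.r i z := by
  obtain ⟨k, hk⟩ := h.eq
  refine ⟨k, fun i z hz => ?_⟩
  rw [← hk i z hz]
  unfold detB
  congr 1
  ext a c
  exact (bt_eq h.sm hz (b a) (b c)).symm

theorem bt_det_ne {p : P} (h : SolMA b (D p) u) {i : A.ι} {z : Cn n}
    (hz : z ∈ (A.e i).target) : (Matrix.of fun a c => bt D u i p z (b a) (b c)).det ≠ 0 := by
  obtain ⟨β, hβ⟩ := exists_bt (D := D) (p := p) h.sm hz
  have h1 := det_ne_zero_of_pos b β fun v hv => by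
    rw [hβ]
    exact bt_pos b h hz hv
  simpa only [hβ] using h1

theorem r_ne {p : P} (h : SolMA b (D p) u) {i : A.ι} {z : Cn n}
    (hz : z ∈ (A.e i).target) : (D p).r.r i z ≠ 0 := by
  obtain ⟨k, hk⟩ := bt_det b h
  intro h0
  have := hk i z hz
  rw [h0, mul_zero] at this
  exact bt_det_ne b h hz this

end fam

section ddc

variable {V : Type} [NormedAddCommGroup V] [NormedSpace ℝ V]

theorem ddcF_add6 {U W : V → ℝ} {T : V → V →L[ℝ] V} {z : V} (hU : ContDiffAt ℝ 2 U z)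
    (hW : ContDiffAt ℝ 2 W z) (a c : V) :
    ddcF (fun y => U y + W y) T z a c = ddcF U T z a c + ddcF W T z a c := by
  have dU : ∀ᶠ y in 𝓝 z, DifferentiableAt ℝ U y := by
    filter_upwards [hU.eventually (by simp)] with y hy using hy.differentiableAt (by simp)
  have dW : ∀ᶠ y in 𝓝 z, DifferentiableAt ℝ W y := by
    filter_upwards [hW.eventually (by simp)] with y hy using hy.differentiableAt (by simp)
  have e1 : fderiv ℝ (fun y => U y + W y) =ᶠ[𝓝 z] fun y => fderiv ℝ U y + fderiv ℝ W y := by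
    filter_upwards [dU, dW] with y h1 h2 using fderiv_fun_add h1 h2
  have dU2 : DifferentiableAt ℝ (fderiv ℝ U) z :=
    (hU.fderiv_right (m := 1) (by norm_num)).differentiableAt (by simp)
  have dW2 : DifferentiableAt ℝ (fderiv ℝ W) z :=
    (hW.fderiv_right (m := 1) (by norm_num)).differentiableAt (by simp)
  unfold ddcF
  rw [e1.fderiv_eq, fderiv_fun_add dU2 dW2, e1.self_of_nhds]
  simp only [add_apply]
  ring

end ddc

/-- **smoothness in the parameters at `p0`**, from the leaves -/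
theorem v0_atl_of [CompactSpace X] [T2Space X] [ConnectedSpace X]
    {ι : Type} [Fintype ι] [DecidableEq ι] (b : Module.Basis ι ℝ (Cn n))
    {P : Type} [NormedAddCommGroup P] [NormedSpace ℝ P] [FiniteDimensional ℝ P]
    {T : Set P} (hT : IsOpen T) {D : P → Dat (ofAtl A)} (hD : JSDat T D) {u : P → X → ℝ}
    (hu : ∀ p ∈ T, SolMA b (D p) (u p)) {x1 : X} (h1 : ∀ p ∈ T, u p x1 = 0) {p0 : P}
    (hp : p0 ∈ T) (hJ : ∀ i, ∀ z ∈ (A.e i).target, ∀ v, (D p0).J.J i z v = Complex.I • v)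
    (hClos : ∀ B : Cb A, ClosSt B) (hLin : ∀ (B : Cb A) (K : Kah A), LinSt B K x1)
    (hTF : ∀ (B : Cb A) (k0 : ℝ), TH b D (u p0) k0 T p0 → TSt b B D (u p0) k0 p0)
    (hPos : ∀ B : Cb A, PosnSt B D (u p0) p0)
    (hGlob : ∀ (B : Cb A) (k0 : ℝ), (∀ p ∈ T, ∀ i, ∀ z ∈ (A.e i).target,
      k0 * (D p).r.r i z ≠ 0) → GlobSt b B D (u p0) k0 T)
    (hTr : ∀ (B : Cb A) (D0 : Dat (ofAtl A)) (U : X → ℝ), TrSt b B D0 U) (y0 : X) :
    ContDiffAt ℝ ∞ (fun p => u p y0) p0 := by
  classical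
  have : CompleteSpace P := FiniteDimensional.complete ℝ P
  obtain ⟨B⟩ := Cb.nonempty A
  set u0 := u p0 with hu0
  have hsm : A.Sm u0 := (hu p0 hp).sm
  obtain ⟨k0, hk0⟩ := bt_det b (hu p0 hp)
  have hdet0 : ∀ i, ∀ z ∈ (A.e i).target, (Matrix.of fun a c => bt D u0 i p0 z (b a) (b c)).det ≠ 0 :=
    fun i z hz => bt_det_ne b (hu p0 hp) hz
  have hk0ne : k0 ≠ 0 := by
    rintro rfl
    obtain ⟨i, hi⟩ := A.cover x1
    have := hk0 i _ ((A.e i).map_source hi)
    rw [zero_mul] at this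
    exact hdet0 i _ ((A.e i).map_source hi) this
  have hr : ∀ p ∈ T, ∀ i, ∀ z ∈ (A.e i).target, k0 * (D p).r.r i z ≠ 0 := fun p hp i z hz =>
    mul_ne_zero hk0ne (r_ne b (hu p hp) hz)
  have hth : TH b D u0 k0 T p0 := ⟨hT, hp, hD, hr, hu p0 hp, fun i z hz => by
    rw [MM_zero]; exact hk0 i z hz, hJ⟩
  obtain ⟨K, hK⟩ := hTF B k0 hth
  obtain ⟨⟨CL, hsol⟩, huniq⟩ := hLin B K
  -- evaluation at a point
  have hcov : ∀ x : X, ∃ k, x ∈ (A.e (B.i k)).source ∧ A.e (B.i k) x ∈ KK B k := fun x => by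
    obtain ⟨k, hk, hk2⟩ := B.cover x
    exact ⟨k, hk, ball_subset_closedBall hk2⟩
  choose kx hkx hkK using hcov
  let ev : X → JJ B →L[ℝ] ℝ := fun x => (HF.ev half_pos' (A.e (B.i (kx x)) x)).comp
    ((p0L (KK B (kx x))).comp (ContinuousLinearMap.proj (R := ℝ)
      (φ := fun k : B.κ => JetS (KK B k)) (kx x)))
  have hev : ∀ (x : X) (y : JJ B), ev x y = HF.fn (y (kx x)).1 (A.e (B.i (kx x)) x) :=
    fun _ _ => rfl
  have hevj : ∀ (x : X) (f : SmE A), ev x (jj B f) = f.1 x := by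
    intro x f
    rw [hev, fn_jj0 B f _ (hkK x)]
    show f.1 ((A.e (B.i (kx x))).symm (A.e (B.i (kx x)) x)) = _
    rw [(A.e (B.i (kx x))).left_inv (hkx x)]
  set G : P → JJ B → HH B := GG b B D u0 k0 with hG
  have hGs : ContDiffOn ℝ ∞ (fun q : P × JJ B => G q.1 q.2) (T ×ˢ univ) :=
    contDiffOn_GG b B u0 k0 hT hD hsm hr
  have hone : ∀ m : ℝ, ∀ k, ∀ z ∈ KK B k, Hol.fn ((m • hh B (oneE A)) k) z = m := by
    intro m k z hz
    rw [Pi.smul_apply, Hol.fn_smul, fn_hh B _ k hz]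
    show m * 1 = m
    rw [mul_one]
  have he : G p0 0 = hh B (oneE A) := by
    funext k
    refine Hol.ext fun z hz => ?_
    have hzt := KK_sub B k hz
    have e1 := hone 1 k z hz
    rw [one_smul] at e1
    rw [e1, hG, fn_GG b B u0 k0 hT hD hsm hr k hp 0 hz]
    have e2 : HF.fn ((0 : JJ B) k).2.1 z = 0 := by
      have : ((0 : JJ B) k).2.1 = 0 := rfl
      rw [this, HF.fn_zero]
    have e3 : HF.fn ((0 : JJ B) k).2.2 z = 0 := by
      have : ((0 : JJ B) k).2.2 = 0 := rfl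
      rw [this, HF.fn_zero]
    rw [e2, e3, hth.eq _ z hzt]
    exact mul_inv_cancel₀ (hr p0 hp _ z hzt)
  have hTl : ∀ w f : SmE A, IsLap (gi K) w f.1 → fderiv ℝ (G p0) 0 (jj B w) =
      hh B ((8 : ℝ) • f) := hK
  obtain ⟨x, m, hxs, hms, hx0, hm0, hxc, hxev, hxe⟩ := exists_curve (jj B) (hh B) (oneE A) (ev x1)
    hT hp isOpen_univ (mem_univ _) (G := G) hGs (fun p hp f _ => Submodule.le_topologicalClosure _
      (hGlob B k0 hr p hp f)) he (C := CL) (fun f => by
      obtain ⟨w, m, hw1, hw2, hw3⟩ := hsol f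
      refine ⟨w, m, ?_, hw2, hw3⟩
      rw [hTl w ((8 : ℝ)⁻¹ • (f + m • oneE A)) (by
        refine (cast (congrArg _ ?_) hw1)
        funext y
        show _ = (8 : ℝ)⁻¹ * (f.1 y + m * 1)
        rw [mul_one]), smul_smul, mul_inv_cancel₀ (by norm_num), one_smul, map_add, map_smul])
    (fun w m hw hwe => by
      have hf : A.Sm (Lap K w.1) := sm_Lap K w.2
      have hl : IsLap (gi K) w.1 (Lap K w.1) := isLap K w.2
      have e1 := hTl w ⟨_, hf⟩ hl
      rw [hw] at e1
      have e2 : ∀ y : X, Lap K w.1 y = 8⁻¹ * m := by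
        intro y
        have e3 : Hol.fn ((m • hh B (oneE A)) (kx y)) (A.e (B.i (kx y)) y) =
            Hol.fn (hh B ((8 : ℝ) • ⟨_, hf⟩) (kx y)) (A.e (B.i (kx y)) y) := by rw [e1]
        rw [hone m _ _ (hkK y), fn_hh B _ _ (hkK y)] at e3
        have e4 : m = 8 * Lap K w.1 ((A.e (B.i (kx y))).symm (A.e (B.i (kx y)) y)) := e3
        rw [(A.e (B.i (kx y))).left_inv (hkx y)] at e4
        rw [e4]
        ring
      refine huniq w m (by rwa [show (Lap K w.1) = fun _ => 8⁻¹ * m from funext e2] at hl) ?_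
      rwa [hevj] at hwe)
    (by
      have hl : IsLap (gi K) (oneE A) (0 : SmE A).1 := by
        intro i z hz
        have e1 : inC A i (oneE A : X → ℝ) = fun _ => (1 : ℝ) := rfl
        have e2 : cH (fun _ : Cn n => (1 : ℝ)) z = 0 := by
          have : fderiv ℝ (fun _ : Cn n => (1 : ℝ)) = fun _ => 0 := by
            funext y
            exact fderiv_const_apply 1
          ext a b
          simp [cH, D2, this]
        rw [e1, e2, Matrix.mul_zero, Matrix.trace_zero]
        rfl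
      rw [hTl _ 0 hl, smul_zero, map_zero])
    (by rw [hevj]; rfl)
  -- the functions of the curve
  choose U hUc hUv using fun p => hClos B (x p) (hxc p)
  have hUx : ∀ p y, U p y = ev y (x p) := by
    intro p y
    rw [hev, (hUv p (kx y)).1 _ (hkK y)]
    show _ = U p ((A.e (B.i (kx y))).symm (A.e (B.i (kx y)) y))
    rw [(A.e (B.i (kx y))).left_inv (hkx y)]
  obtain ⟨N, hN, δ, hδ, hpos⟩ := hPos B
  have hsmall : ∀ᶠ p in 𝓝 p0, ‖x p‖ < δ := by
    have h1 : Tendsto (fun p => ‖x p‖) (𝓝 p0) (𝓝 ‖x p0‖) := hxs.continuousAt.norm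
    rw [hx0, norm_zero] at h1
    exact h1.eventually (gt_mem_nhds hδ)
  have key : ∀ᶠ p in 𝓝 p0, ∀ y, u p y = u0 y + ev y (x p) := by
    filter_upwards [hxe, hN, hsmall] with p hp1 hpN hpδ
    obtain ⟨hpT, -, hpG⟩ := hp1
    -- norms of the entries
    have hnk : ∀ k, ‖x p k‖ ≤ δ := fun k => (norm_le_pi_norm (x p) k).trans hpδ.le
    have hn1 : ∀ k z, ‖HF.fn (x p k).2.1 z‖ ≤ δ := fun k z => by
      have h3 : ‖(x p k).2.1‖ ≤ ‖x p k‖ := (norm_fst_le (x p k).2).trans (norm_snd_le (x p k))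
      exact (HF.norm_fn _ _).trans (h3.trans (hnk k))
    have hn2 : ∀ k z, ‖HF.fn (x p k).2.2 z‖ ≤ δ := fun k z => by
      have h3 : ‖(x p k).2.2‖ ≤ ‖x p k‖ := (norm_snd_le (x p k).2).trans (norm_snd_le (x p k))
      exact (HF.norm_fn _ _).trans (h3.trans (hnk k))
    set W : X → ℝ := fun y => u0 y + U p y with hW
    have hWc : ∀ i, ContDiffOn ℝ 2 (inC A i W) (A.e i).target := fun i =>
      ((hsm i).of_le (m := 2) ENat.LEInfty.out).add (hUc p i)
    have hbt : ∀ k, ∀ z ∈ ball (B.z k) (B.r k / 2), ∀ a c : Cn n,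
        bt (fun _ : Unit => D p) W (B.i k) () z a c =
          bt D u0 (B.i k) p z a c + (c2 ((D p).J.J (B.i k)) a c z (HF.fn (x p k).2.2 z) +
            c1 ((D p).J.J (B.i k)) a c z (HF.fn (x p k).2.1 z)) := by
      intro k z hz a c
      have hzK : z ∈ KK B k := ball_subset_closedBall hz
      have hzt := KK_sub B k hzK
      have hn := (A.e (B.i k)).open_target.mem_nhds hzt
      have e0 : ddcF (inC A (B.i k) W) ((D p).J.J (B.i k)) z a ((D p).J.J (B.i k) z c) =
          ddcF (inC A (B.i k) u0) ((D p).J.J (B.i k)) z a ((D p).J.J (B.i k) z c) +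
          ddcF (inC A (B.i k) (U p)) ((D p).J.J (B.i k)) z a ((D p).J.J (B.i k) z c) :=
        ddcF_add6 (U := inC A (B.i k) u0) (W := inC A (B.i k) (U p))
          ((((hsm (B.i k)).of_le (m := 2) ENat.LEInfty.out)).contDiffAt hn)
          ((hUc p (B.i k)).contDiffAt hn) _ _
      show (D p).om.w (B.i k) z a ((D p).J.J (B.i k) z c) +
        ddcF (inC A (B.i k) W) ((D p).J.J (B.i k)) z a ((D p).J.J (B.i k) z c) =
        ((D p).om.w (B.i k) z a ((D p).J.J (B.i k) z c) +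
        ddcF (inC A (B.i k) u0) ((D p).J.J (B.i k)) z a ((D p).J.J (B.i k) z c)) + _
      rw [e0, ddcF_eq (inC A (B.i k) (U p)), ((hUv p k).2 z hz).1, ((hUv p k).2 z hz).2, add_assoc]
    obtain ⟨htr1, htr2⟩ := hTr B (D p) W hWc
    have hWpos := htr1 fun k z hz v hv => by
      rw [hbt k z hz]
      exact hpos p hpN k z (ball_subset_closedBall hz) _ _ (hn1 k z) (hn2 k z) v hv
    have hWdet := htr2 ((1 + m p) * k0) fun k z hz => by
      have hzK : z ∈ KK B k := ball_subset_closedBall hz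
      have hzt := KK_sub B k hzK
      have e1 : Hol.fn (G p (x p) k) z = Hol.fn (((1 + m p) • hh B (oneE A)) k) z := by rw [hpG]
      rw [hone _ k z hzK, hG, fn_GG b B u0 k0 hT hD hsm hr k hpT (x p) hzK] at e1
      have e2 : (Matrix.of fun a c => bt (fun _ : Unit => D p) W (B.i k) () z (b a) (b c)) =
          MM b D u0 (B.i k) p z (HF.fn (x p k).2.1 z) (HF.fn (x p k).2.2 z) := by
        ext a c
        exact hbt k z hz (b a) (b c)
      rw [e2]
      have e3 := hr p hpT _ z hzt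
      rw [mul_inv_eq_iff_eq_mul₀ e3] at e1
      rw [e1]
      ring
    have hsol := hu p hpT
    obtain ⟨k2, hk2⟩ := bt_det b hsol
    have hfin : Module.finrank ℝ (Cn n) = 2 * n := by
      rw [← Module.finrank_mul_finrank ℝ ℂ (Cn n)]
      simp
    obtain ⟨-, c, hc⟩ := Uq_250.uniqR (C := ofAtl A) hfin (D p).J hsol.cx (D p).om hsol.t11 b
      (D p).r.r (fun i z hz => r_ne b hsol hz) (U := W) (u := u p) hWc
      (fun i => ((hsol.sm i).of_le (m := 2) ENat.LEInfty.out)) hWpos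
      (fun i z hz v hv => bt_pos b hsol hz hv) hWdet hk2
    have hc0 : c = 0 := by
      have e1 : u0 x1 + U p x1 - u p x1 = c := hc x1
      rw [h1 p hpT, hUx, hxev p, hu0, h1 p0 hp] at e1
      linarith
    intro y
    have e1 := hc y
    rw [hc0] at e1
    rw [← hUx]
    show u p y = W y
    linarith
  have hfinal : ContDiffAt ℝ ∞ (fun p => u0 y0 + ev y0 (x p)) p0 :=
    contDiffAt_const.add ((ev y0).contDiff.contDiffAt.comp p0 hxs)
  exact hfinal.congr_of_eventuallyEq (key.mono fun p hp => hp y0)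

end

end Crest.Agent.R281.Yv_900
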