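import Crest.Agent.R281.Yv5_900
import Crest.Agent.R281.Tt5_476

/-!
# Row 281, YAU-VAR (helper476): GLOB and TR

* `globSt` : `GlobSt b B D u0 k0 T` : the operator of helper900 maps jets of smooth functions to
  Hölder functions of smooth functions
* `trSt`   : `TrSt b B D0 U` : forms of class `C⁰` in the open half balls determine everything
-/

set_option autoImplicit false
set_option maxSynthPendingDepth 3
set_option linter.unusedSectionVars false

open Set Filter Topology Metric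
open scoped ContDiff

namespace Crest.Agent.R281.Yv_900

open Crest.Agent.R275.Geo Crest.Agent.R275.Core144 Crest.Agent.R275.EDR890
open Crest.Agent.R273.YauDefs_635 Crest.Agent.R273.SchF_152
open Crest.Agent.R260.ACM_580 Crest.Agent.R281.HkR_835 Crest.Agent.R281.NefO_476
open Crest.Agent.R281.Nef_252 Crest.Agent.R281.Hjs_680 Crest.Agent.R281.Tt_476

noncomputable section

section lin

variable {V : Type} [NormedAddCommGroup V] [NormedSpace ℝ V]

/-- `ddcF` of two functions with the same germ -/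
theorem ddcF_congr {U U' : V → ℝ} {z : V} (h : U =ᶠ[𝓝 z] U') (T : V → V →L[ℝ] V) (a b : V) :
    ddcF U T z a b = ddcF U' T z a b := by
  have h1 : fderiv ℝ U =ᶠ[𝓝 z] fderiv ℝ U' := h.fderiv
  unfold ddcF
  rw [h1.eq_of_nhds, h1.fderiv_eq]

/-- `ddcF` of a sum -/
theorem ddcF_add {U U' : V → ℝ} {z : V} (h : ContDiffAt ℝ 2 U z) (h' : ContDiffAt ℝ 2 U' z)
    (T : V → V →L[ℝ] V) (a b : V) :
    ddcF (fun y => U y + U' y) T z a b = ddcF U T z a b + ddcF U' T z a b := by
  have d : ∀ {W : V → ℝ}, ContDiffAt ℝ 2 W z → ∀ᶠ y in 𝓝 z, DifferentiableAt ℝ W y := by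
    intro W hW
    filter_upwards [hW.eventually (by simp)] with y hy using hy.differentiableAt (by simp)
  have d2 : ∀ {W : V → ℝ}, ContDiffAt ℝ 2 W z → DifferentiableAt ℝ (fderiv ℝ W) z := by
    intro W hW
    exact (hW.fderiv_right (m := 1) (by norm_num)).differentiableAt (by simp)
  have h1 : fderiv ℝ (fun y => U y + U' y) =ᶠ[𝓝 z] fun y => fderiv ℝ U y + fderiv ℝ U' y := by
    filter_upwards [d h, d h'] with y hy hy' using fderiv_fun_add hy hy'
  unfold ddcF
  rw [h1.eq_of_nhds, h1.fderiv_eq, fderiv_fun_add (d2 h) (d2 h')]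
  simp only [add_apply]
  ring

/-- `dd^c` in a chart as a bilinear form -/
def ddcL (U : V → ℝ) (T : V → V →L[ℝ] V) (z : V) : Bil V :=
  -((fderiv ℝ (fderiv ℝ U) z).bilinearComp (ContinuousLinearMap.id ℝ V) (T z) +
      ((ContinuousLinearMap.compL ℝ V V ℝ) (fderiv ℝ U z)).comp (fderiv ℝ T z)) +
    (((fderiv ℝ (fderiv ℝ U) z).bilinearComp (ContinuousLinearMap.id ℝ V) (T z)).flip +
      (((ContinuousLinearMap.compL ℝ V V ℝ) (fderiv ℝ U z)).comp (fderiv ℝ T z)).flip)

theorem ddcL_apply (U : V → ℝ) (T : V → V →L[ℝ] V) (z a b : V) :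
    ddcL U T z a b = ddcF U T z a b := by
  simp [ddcL, ddcF]

end lin

variable {n : ℕ} {X : Type} [TopologicalSpace X] {A : Atl n X}

section tr

variable (D0 : Dat (ofAtl A)) {U : X → ℝ}

/-- the form `(om + dd^c U)(·, J ·)` as a bilinear form -/
def btL (D0 : Dat (ofAtl A)) (U : X → ℝ) (i : A.ι) (z : Cn n) : Bil (Cn n) :=
  (D0.om.w i z + ddcL (inC A i U) (D0.J.J i) z).bilinearComp
    (ContinuousLinearMap.id ℝ (Cn n)) (D0.J.J i z)

theorem btL_apply (i : A.ι) (z v w : Cn n) :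
    btL D0 U i z v w = bt (fun _ : Unit => D0) U i () z v w := by
  simp only [btL, bt, ContinuousLinearMap.bilinearComp_apply, ContinuousLinearMap.id_apply,
    add_apply, ddcL_apply]

/-- transition law of `om + dd^c U` -/
theorem bt_tr (hU : ∀ i, ContDiffOn ℝ 2 (inC A i U) (A.e i).target) {i j : A.ι} {z : Cn n}
    (hz : z ∈ (ofAtl A).ov i j) (v w : Cn n) :
    bt (fun _ : Unit => D0) U i () z v w =
      bt (fun _ : Unit => D0) U j () ((ofAtl A).t i j z) (fderiv ℝ ((ofAtl A).t i j) z v)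
        (fderiv ℝ ((ofAtl A).t i j) z w) := by
  have ho := (RCh.isOpen_ov (C := ofAtl A) i j).mem_nhds hz
  have hz' := RCh.t_mem hz
  have hJw := D0.J.tr i j z hz w
  have h1 : inC A i U =ᶠ[𝓝 z] fun y => inC A j U ((ofAtl A).t i j y) := by
    filter_upwards [ho] with y hy
    have e1 : (A.e j).symm ((A.e j) ((A.e i).symm y)) = (A.e i).symm y := (A.e j).left_inv hy.2
    exact congrArg U e1.symm
  have h2 : ContDiffAt ℝ 2 (inC A j U) ((ofAtl A).t i j z) :=
    (hU j).contDiffAt ((A.e j).open_target.mem_nhds hz'.1)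
  have h3 : ContDiffAt ℝ ∞ ((ofAtl A).t i j) z := 
    (RCh.t_smooth (C := ofAtl A) i j).contDiffAt ho
  have h4 : DifferentiableAt ℝ (D0.J.J j) ((ofAtl A).t i j z) :=
    ((D0.J.sm j).contDiffAt ((A.e j).open_target.mem_nhds hz'.1)).differentiableAt (by simp)
  have h5 : DifferentiableAt ℝ (D0.J.J i) z :=
    ((D0.J.sm i).contDiffAt ((A.e i).open_target.mem_nhds hz.1)).differentiableAt (by simp)
  have h6 := ddcF_comp (U := inC A j U) (φ := (ofAtl A).t i j) (J := D0.J.J j) (J' := D0.J.J i)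
    h2 h3 h4 h5 (by filter_upwards [ho] with y hy v using D0.J.tr i j y hy v) v (D0.J.J i z w)
  have h7 := D0.om.tr i j z hz v (D0.J.J i z w)
  show D0.om.w i z v (D0.J.J i z w) + ddcF (inC A i U) (D0.J.J i) z v (D0.J.J i z w) = _
  rw [ddcF_congr h1, h6, h7, hJw]
  rfl

/-- points of charts lie in half balls -/
theorem exists_ball (B : Cb A) {i : A.ι} {z : Cn n} (hz : z ∈ (A.e i).target) :
    ∃ k, z ∈ (ofAtl A).ov i (B.i k) ∧ (ofAtl A).t i (B.i k) z ∈ ball (B.z k) (B.r k / 2) := by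
  obtain ⟨k, hk, hb⟩ := B.cover ((A.e i).symm z)
  exact ⟨k, ⟨hz, hk⟩, hb⟩

/-- **(L2') TR** -/
theorem trSt {ι : Type} [Fintype ι] [DecidableEq ι] (b : Module.Basis ι ℝ (Cn n)) (B : Cb A)
    (D0 : Dat (ofAtl A)) (U : X → ℝ) : TrSt b B D0 U := by
  intro hU
  refine ⟨fun h i z hz v hv => ?_, fun c h i z hz => ?_⟩
  · obtain ⟨k, hk, hb⟩ := exists_ball B hz
    rw [bt_tr D0 hU hk]
    refine h k _ hb _ fun h0 => hv ?_
    rw [← RCh.dt_dt hk v, h0, map_zero]
  · obtain ⟨k, hk, hb⟩ := exists_ball B hz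
    have e1 : (Matrix.of fun a c => bt (fun _ : Unit => D0) U i () z (b a) (b c)).det =
        detB b (fun x y => btL D0 U i z x y) := by
      unfold detB
      simp only [btL_apply]
    have e2 : (Matrix.of fun a c => bt (fun _ : Unit => D0) U (B.i k) ()
        ((ofAtl A).t i (B.i k) z) (b a) (b c)).det =
        detB b (fun x y => btL D0 U (B.i k) ((ofAtl A).t i (B.i k) z) x y) := by
      unfold detB
      simp only [btL_apply]
    have e3 : detB b (fun x y => btL D0 U i z x y) =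
        detB b (fun x y => btL D0 U (B.i k) ((ofAtl A).t i (B.i k) z)
          (fderiv ℝ ((ofAtl A).t i (B.i k)) z x) (fderiv ℝ ((ofAtl A).t i (B.i k)) z y)) :=
      detB_congr b fun x y => by rw [btL_apply, btL_apply, bt_tr D0 hU hk]
    have e4 : D0.r.r i z = D0.r.r (B.i k) ((ofAtl A).t i (B.i k) z) *
        (fderiv ℝ ((ofAtl A).t i (B.i k)) z).det ^ 2 := D0.r.tr i (B.i k) z hk
    rw [e1, e3, detB_pullB b b, mdet_self b, ← e2, h k _ hb, e4]
    ring

end tr

section glb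

variable {ι : Type} [Fintype ι] [DecidableEq ι] (b : Module.Basis ι ℝ (Cn n)) (B : Cb A)
  {P : Type} [NormedAddCommGroup P] [NormedSpace ℝ P] {D : P → Dat (ofAtl A)} (u0 : X → ℝ)
  (k0 : ℝ) {T : Set P}

/-- **(L2) GLOB** -/
theorem globSt (hT : IsOpen T) (hD : JSDat T D) (hu : A.Sm u0)
    (hr : ∀ p ∈ T, ∀ i, ∀ z ∈ (A.e i).target, k0 * (D p).r.r i z ≠ 0) :
    GlobSt b B D u0 k0 T := by
  intro p hp f
  have hs : Sm (ofAtl A) (fun x => u0 x + f.1 x) := fun i => (hu i).add (f.2 i)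
  obtain ⟨g, hg, hgv⟩ := glob b (D p) hs fun i z hz => right_ne_zero_of_mul (hr p hp i z hz)
  have hg' : A.Sm (fun x => k0⁻¹ * g x) := fun i => contDiffOn_const.mul (hg i)
  refine ⟨⟨fun x => k0⁻¹ * g x, hg'⟩, ?_⟩
  funext k
  refine Hol.ext fun z hz => ?_
  have hzt : z ∈ (A.e (B.i k)).target := KK_sub B k hz
  have hn := (A.e (B.i k)).open_target.mem_nhds hzt
  rw [fn_hh B _ k hz, fn_GG b B u0 k0 hT hD hu hr k hp _ hz, fn_jj1 B f k hz, fn_jj2 B f k hz]
  have e1 : inC A (B.i k) (fun x => k0⁻¹ * g x) z = k0⁻¹ * uc (ofAtl A) g (B.i k) z := rfl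
  have e2 : (MM b D u0 (B.i k) p z (fderiv ℝ (inC A (B.i k) f) z)
      (fderiv ℝ (fderiv ℝ (inC A (B.i k) f)) z)).det =
      detB b (fun x y => ((D p).om + ddc (D p).J _ hs).w (B.i k) z x ((D p).J.J (B.i k) z y)) := by
    unfold MM detB
    congr 1
    ext a c
    rw [Matrix.of_apply, Matrix.of_apply]
    have h1 : ((D p).om + ddc (D p).J _ hs).w (B.i k) z (b a) ((D p).J.J (B.i k) z (b c)) =
        (D p).om.w (B.i k) z (b a) ((D p).J.J (B.i k) z (b c)) +
          (ddc (D p).J _ hs).w (B.i k) z (b a) ((D p).J.J (B.i k) z (b c)) := rfl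
    have h2 : ContDiffAt ℝ 2 (inC A (B.i k) u0) z :=
      ((hu (B.i k)).contDiffAt hn).of_le ENat.LEInfty.out
    have h3 : ContDiffAt ℝ 2 (inC A (B.i k) f) z :=
      ((f.2 (B.i k)).contDiffAt hn).of_le ENat.LEInfty.out
    have h4 : uc (ofAtl A) (fun x => u0 x + f.1 x) (B.i k) =
        fun y => inC A (B.i k) u0 y + inC A (B.i k) f y := rfl
    refine Eq.trans ?_ h1.symm
    rw [ddc_w (C := ofAtl A) (D p).J _ hs hzt, h4, ddcF_add h2 h3, ← ddcF_eq, bt]
    ring
  have hk0 : k0 ≠ 0 := left_ne_zero_of_mul (hr p hp _ z hzt)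
  have hr0 : (D p).r.r (B.i k) z ≠ 0 := right_ne_zero_of_mul (hr p hp _ z hzt)
  rw [e1, hgv (B.i k) z hzt, e2]
  field_simp

end glb

end

end Crest.Agent.R281.Yv_900
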