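import Crest.Agent.R281.Yv6_900
import Crest.Agent.R281.Yv7_476
import Crest.Agent.R281.Pn2_355
import Crest.Agent.R281.Cl1_449
import Crest.Agent.R281.Lz1_449

/-!
# Row 281, YAU-VAR (helper900), part 8: `v0_atl` modulo the T-formula
-/

set_option autoImplicit false
set_option maxSynthPendingDepth 3
set_option linter.unusedSectionVars false

open Set Filter Topology Metric
open scoped ContDiff

namespace Crest.Agent.R281.Yv_900

open Crest.Agent.R275.Geo Crest.Agent.R275.Core144 Crest.Agent.R275.EDR890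
open Crest.Agent.R273.Defs_333 Crest.Agent.R273.Kah_333
open Crest.Agent.R273.YauDefs_635 Crest.Agent.R273.SchF_152 Crest.Agent.R273.SchG_152
open Crest.Agent.R273.SchH_152
open Crest.Agent.R260.ACM_580 Crest.Agent.R281.HkR_835 Crest.Agent.R281.NefO_476
open Crest.Agent.R281.Nef_252 Crest.Agent.R281.Hjs_680 Crest.Agent.R281.Tt_476

noncomputable section

variable {n : ℕ} {X : Type} [TopologicalSpace X] {A : Atl n X}

/-- smoothness in the parameters at `p0`, from the T-formula -/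
theorem v0_atl_T [CompactSpace X] [T2Space X] [ConnectedSpace X] [Finite A.ι] (P₀ : Part A)
    {ι : Type} [Fintype ι] [DecidableEq ι] (b : Module.Basis ι ℝ (Cn n))
    {P : Type} [NormedAddCommGroup P] [NormedSpace ℝ P] [FiniteDimensional ℝ P]
    {T : Set P} (hT : IsOpen T) {D : P → Dat (ofAtl A)} (hD : JSDat T D) {u : P → X → ℝ}
    (hu : ∀ p ∈ T, SolMA b (D p) (u p)) {x1 : X} (h1 : ∀ p ∈ T, u p x1 = 0) {p0 : P}
    (hp : p0 ∈ T) (hJ : ∀ i, ∀ z ∈ (A.e i).target, ∀ v, (D p0).J.J i z v = Complex.I • v)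
    (hTF : ∀ (B : Cb A) (k0 : ℝ), TH b D (u p0) k0 T p0 → TSt b B D (u p0) k0 p0) (y0 : X) :
    ContDiffAt ℝ ∞ (fun p => u p y0) p0 :=
  v0_atl_of b hT hD hu h1 hp hJ (fun B => Cl_449.closSt B) (fun B K => Lz_449.linSt P₀ K B x1) hTF
    (fun B => Pn_355.posnSt_sol B hT hp hD (hu p0 hp))
    (fun B k0 hr => globSt b B (D := D) (u0 := u p0) (k0 := k0) hT hD (hu p0 hp).sm hr)
    (fun B D0 U => trSt b B D0 U) y0

end

end Crest.Agent.R281.Yv_900
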