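import Crest.Agent.R281.Tt4_476
import Crest.Agent.R281.Nef4_252

/-!
# Row 281 (S0424), YAU-VAR, leaf (L7) TR (task 2135, helper307)

Transport: the variation statement for `SolMA` over all charts `C : RCh V X` follows from the
statement over finite good holomorphic atlases at a parameter `p0` with `J_{p0} = i`.

* `V0At A κ` : the statement over the atlas `A` (to be proved by helper900, (L10))
* `v0_of`    : `V0 C (SolMA b)` from `V0At`
* `yau_var_of` : joint smoothness in all charts
-/

set_option autoImplicit false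
set_option linter.unusedSectionVars false

open Set Filter Topology Complex
open scoped ContDiff

namespace Crest.Agent.R281.YvTR_307

open Crest.Agent.R260.ACM_580 Crest.Agent.R260.NNB_580 Crest.Agent.R281.HkR_835
open Crest.Agent.R275.Geo Crest.Agent.R275.Core144
open Crest.Agent.R281.NefO_476 Crest.Agent.R281.Nef_252 Crest.Agent.R281.Tt_476
open Crest.Agent.R281.Dif_268 Crest.Agent.R275.GC293

noncomputable section

/-- **the variation statement over a holomorphic atlas**: `J_{p0}` is the multiplication by `i` -/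
def V0At {n : ℕ} {X : Type} [TopologicalSpace X] [MeasurableSpace (Cn n)] [BorelSpace (Cn n)]
    (A : Atl n X) (κ : Type) [Fintype κ] [DecidableEq κ] : Prop :=
  ∀ (b : Module.Basis κ ℝ (Cn n)) (E : Type) [NormedAddCommGroup E] [NormedSpace ℝ E]
    [FiniteDimensional ℝ E] (T : Set E) (p0 : E) (x1 : X) (D : E → Dat (ofAtl A))
    (u : E → X → ℝ), IsOpen T → p0 ∈ T → JSDat T D →
    (∀ i, ∀ z ∈ (A.e i).target, ∀ v, (D p0).J.J i z v = I • v) →
    (∀ p ∈ T, SolMA b (D p) (u p)) → (∀ p ∈ T, u p x1 = 0) →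
    ∀ x, ContDiffAt ℝ ∞ (fun p => u p x) p0

variable {V X : Type} [NormedAddCommGroup V] [NormedSpace ℝ V] [TopologicalSpace X]
  {C : RCh V X} {κ : Type} [Fintype κ] [DecidableEq κ] [FiniteDimensional ℝ V]
  [MeasurableSpace V] [BorelSpace V]

omit [Fintype κ] [DecidableEq κ] [MeasurableSpace V] [BorelSpace V] in
/-- the dimension of a space with an almost complex structure is even -/
theorem finrank_even [Nonempty X] {J : AJ C} (hJ : Cx J) :
    ∃ n, Module.finrank ℝ V = 2 * n := by
  obtain ⟨x⟩ := (inferInstance : Nonempty X)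
  obtain ⟨i, hi⟩ := C.cover x
  have hz := (C.e i).map_source hi
  set T : V →ₗ[ℝ] V := (J.J i (C.e i x) : V →ₗ[ℝ] V) with hT
  have h1 : T ∘ₗ T = (-1 : ℝ) • LinearMap.id := by
    ext v
    show J.J i _ (J.J i _ v) = _
    rw [hJ.sq i _ hz]
    simp
  have h2 := congrArg LinearMap.det h1
  rw [LinearMap.det_comp, LinearMap.det_smul, LinearMap.det_id, mul_one] at h2
  have h3 : Even (Module.finrank ℝ V) := by
    by_contra h
    rw [Nat.not_even_iff_odd] at h
    rw [h.neg_one_pow] at h2
    nlinarith [mul_self_nonneg (LinearMap.det T)]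
  obtain ⟨n, hn⟩ := h3
  exact ⟨n, by rw [hn]; ring⟩

/-- the complex structure in the charts of its holomorphic atlas -/
theorem pJ_atl {n : ℕ} {J : AJ C} {hJ : Cx J} {A : Atl n X} (hA : Cp (acmJ J hJ) A) {j : A.ι}
    {z : Cn n} (hz : z ∈ (A.e j).target) (v : Cn n) :
    ((LD.ofCmp (cmp_acmJ hA)).pJ J).J j z v = I • v := by
  set g : LD (ofAtl A) C := LD.ofCmp (cmp_acmJ hA) with hg
  obtain ⟨i, hi⟩ := g.exists_dom hz
  refine g.injD hi ?_
  rw [g.pJ_spec J hi]
  exact ((holM_acmJ hA).h i j z hi v).symm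

variable [CompactSpace X] [T2Space X] [ConnectedSpace X]

/-- **transport to a holomorphic atlas** -/
theorem v0_of' (hNN : ∀ n, Module.finrank ℝ V = 2 * n → NNat V n) (b : Module.Basis κ ℝ V)
    (h : ∀ (n : ℕ) [MeasurableSpace (Cn n)] [BorelSpace (Cn n)] (A : Atl n X) [Finite A.ι],
      GoodA A → Part A → V0At A κ) : V0 C (SolMA (C := C) b) := by
  intro E _ _ _ T x1 D u hT hD hu h1 x p0 hp0
  have hJ := (hu p0 hp0).cx
  obtain ⟨n, hn⟩ := finrank_even (C := C) hJ
  obtain ⟨A, hf, hg, ⟨P⟩, hA⟩ := exists_atlJ (hNN n hn) (D p0).J hJ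
  let _ : MeasurableSpace (Cn n) := borel _
  have : BorelSpace (Cn n) := ⟨rfl⟩
  have hfin : Module.finrank ℝ (Cn n) = Module.finrank ℝ V := by
    rw [hn, ← Module.finrank_mul_finrank ℝ ℂ (Cn n), Complex.finrank_real_complex,
      finrank_euclideanSpace, Fintype.card_fin]
  have e : Cn n ≃ₗ[ℝ] V := LinearEquiv.ofFinrankEq _ _ hfin
  set b' : Module.Basis κ ℝ (Cn n) := b.map e.symm with hb'
  set g : LD (ofAtl A) C := LD.ofCmp (cmp_acmJ hA) with hg0
  refine ContDiffAt.contDiffWithinAt (h n A hg P b' E T p0 x1 (fun p => (D p).pullB b' b g)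
    (fun p => u p ∘ g.f) hT hp0 (JSDat.pullC b' b hT g hD) ?_ ?_ ?_ x)
  · intro i z hz v
    exact pJ_atl hA hz v
  · intro p hp
    exact SolMA.pullB (D p) (u p) g (hu p hp)
  · intro p hp
    exact h1 p hp

end

end Crest.Agent.R281.YvTR_307
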